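import Crest.Statements.S0112
import Crest.Agent.S0112_Sample

set_option autoImplicit false
open Crest Crest.AnalysisR Crest.AnalysisR.OperatorAlgebra

namespace Crest.Agent.S0112

section Assembly

open Crest.OpAlg Filter MeasureTheory
open scoped Topology

variable {H : Type*} [NormedAddCommGroup H] [InnerProductSpace ℂ H] [CompleteSpace H]

/-- the window averages of a bounded nonnegative function are frequently large when the
ultrafilter mean is -/
theorem frequently_of_ultraMean (ω : Ultrafilter ℕ) (hω : (ω : Filter ℕ) ≤ Filter.atTop)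
    (F : ℝ → ℝ) (hF : Continuous F) (B : ℝ) (hF0 : ∀ t, 0 ≤ F t) (hFB : ∀ t, F t ≤ B) (c : ℝ)
    (hc : 0 < c) (hm : c ≤ ultraMean ω F) : ∃ᶠ K : ℕ in atTop, c / 2 ≤ windowMean F K := by
  have hB0 : 0 ≤ B := (hF0 0).trans (hFB 0)
  have hmem : ∀ K : ℕ, windowMean F K ∈ Set.Icc 0 B := by
    intro K
    rcases Nat.eq_zero_or_pos K with hK | hK
    · subst hK
      simp [windowMean, hB0]
    · rw [windowMean_eq F K hK]
      have hK' : (0 : ℝ) < K := by exact_mod_cast hK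
      have h1 : 0 ≤ ∫ t in (-(K : ℝ))..K, F t :=
        intervalIntegral.integral_nonneg (by linarith) (fun t _ => hF0 t)
      have h2 : ∫ t in (-(K : ℝ))..K, F t ≤ ∫ _t in (-(K : ℝ))..K, B :=
        intervalIntegral.integral_mono_on (by linarith) (hF.intervalIntegrable _ _)
          (continuous_const.intervalIntegrable _ _) (fun t _ => hFB t)
      rw [intervalIntegral.integral_const, smul_eq_mul] at h2
      constructor
      · positivity
      · rw [inv_mul_le_iff₀ (by positivity)]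
        linarith
  have hcomp : IsCompact (Set.Icc 0 B) := isCompact_Icc
  obtain ⟨L, _, hL⟩ := hcomp.ultrafilter_le_nhds (ω.map (windowMean F)) (by
    rw [Filter.le_principal_iff, Ultrafilter.coe_map, Filter.mem_map]
    exact Filter.univ_mem' hmem)
  have hL' : Tendsto (windowMean F) (ω : Filter ℕ) (𝓝 L) := hL
  have hlim : ultraMean ω F = L := hL'.limUnder_eq
  rw [hlim] at hm
  have h1 : ∀ᶠ K in (ω : Filter ℕ), c / 2 < windowMean F K :=
    hL'.eventually (lt_mem_nhds (by linarith))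
  exact (h1.frequently.filter_mono hω).mono (fun K hK => hK.le)

theorem windowMean_compare (T : H →L[ℂ] H) (D : LineCalculus H) (h y : H) (ε : ℝ)
    (hε : ‖y - h‖ ≤ ε) (K : ℕ) (hK : 0 < K) :
    windowMean (fun t => ‖T (D.wave t h)‖ ^ 2) K
      ≤ 2 * windowMean (fun t => ‖T (D.wave t y)‖ ^ 2) K + 2 * (‖T‖ * ε) ^ 2 := by
  have hK' : (0 : ℝ) < K := by exact_mod_cast hK
  have hcont : ∀ z : H, Continuous fun t : ℝ => ‖T (D.wave t z)‖ ^ 2 := fun z =>
    ((T.continuous.comp (continuous_wave_apply D z)).norm).pow 2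
  rw [windowMean_eq _ K hK, windowMean_eq _ K hK]
  have h1 : ∀ t : ℝ, ‖T (D.wave t h)‖ ^ 2 ≤ 2 * ‖T (D.wave t y)‖ ^ 2 + 2 * (‖T‖ * ε) ^ 2 := by
    intro t
    have h2 : ‖T (D.wave t h)‖ ≤ ‖T (D.wave t y)‖ + ‖T‖ * ε := by
      have h3 : T (D.wave t h) = T (D.wave t y) - T (D.wave t (y - h)) := by
        rw [map_sub, map_sub]; abel
      rw [h3]
      refine (norm_sub_le _ _).trans (add_le_add le_rfl ?_)
      refine (T.le_opNorm _).trans ?_
      rw [norm_wave_apply]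
      exact mul_le_mul_of_nonneg_left hε (norm_nonneg _)
    nlinarith [norm_nonneg (T (D.wave t h)), norm_nonneg (T (D.wave t y)),
      sq_nonneg (‖T (D.wave t y)‖ - ‖T‖ * ε)]
  have h2 : ∫ t in (-(K : ℝ))..K, ‖T (D.wave t h)‖ ^ 2
      ≤ ∫ t in (-(K : ℝ))..K, (2 * ‖T (D.wave t y)‖ ^ 2 + 2 * (‖T‖ * ε) ^ 2) :=
    intervalIntegral.integral_mono_on (by linarith) ((hcont h).intervalIntegrable _ _)
      ((((hcont y).const_mul 2).add_const _).intervalIntegrable _ _) (fun t _ => h1 t)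
  rw [intervalIntegral.integral_add (((hcont y).const_mul 2).intervalIntegrable _ _)
    (continuous_const.intervalIntegrable _ _), intervalIntegral.integral_const_mul,
    intervalIntegral.integral_const, smul_eq_mul] at h2
  calc (2 * (K : ℝ))⁻¹ * ∫ t in (-(K : ℝ))..K, ‖T (D.wave t h)‖ ^ 2
      ≤ (2 * (K : ℝ))⁻¹ * (2 * (∫ t in (-(K : ℝ))..K, ‖T (D.wave t y)‖ ^ 2)
        + (K - -K) * (2 * (‖T‖ * ε) ^ 2)) := mul_le_mul_of_nonneg_left h2 (by positivity)
    _ = _ := by field_simp; ring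

/-- the recovery statement with uniform constants -/
theorem exists_recovery (S : ModularDatum H) (herg : S.Ergodic) (ω : Ultrafilter ℕ)
    (hω : (ω : Filter ℕ) ≤ Filter.atTop) (T : H →L[ℂ] H) (s Δ c : ℝ) (hc : 0 < c) :
    ∃ C η : ℝ, 0 < η ∧ ∀ (δ : ℝ) (h : H), 0 < δ → δ ≤ Δ → ‖h‖ = 1 →
      S.D.SupportedIn (Set.Icc (s - δ) (s + δ)) h →
      c ≤ ultraMean ω (fun t : ℝ => ‖T (S.D.wave t h)‖ ^ 2) →
      ∃ v : H →L[ℂ] H, v ∈ S.M ∧ ‖v‖ ≤ C ∧ η ≤ ‖T (v S.vac)‖ ∧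
        S.D.SupportedIn (Set.Icc (s - 4 * δ) (s + 4 * δ)) (v S.vac) := by
  obtain ⟨Cβ, hCβ, hker⟩ := exists_kernel
  set c₁ : ℝ := c / 8 with hc₁
  have hc₁0 : 0 < c₁ := by positivity
  set B : ℝ := Real.exp ((s + 2 * Δ) / 2) * 2 with hB
  have hB0 : 0 ≤ B := by positivity
  set lam : ℝ := c₁ / (4 * (2 * ((2:ℝ) ^ 2 + 1) ^ 2 + 2 * (2 * (2 + B ^ 2 * (2 + 1))) + 1))
    with hlam
  have hlam0 : 0 < lam := by positivity
  set Q : ℝ := ‖T‖ ^ 2 / lam with hQ
  have hQ0 : 0 ≤ Q := by positivity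
  set η : ℝ := Real.sqrt c₁ / 4 with hη
  have hη0 : 0 < η := by positivity
  set τ : ℝ := 2 * η / (‖T‖ * Q + 1) with hτ
  have hτ0 : 0 < τ := by positivity
  refine ⟨Cβ * (1 / (2 * τ)), η, hη0, ?_⟩
  intro δ h hδ hδΔ hh hband hmean
  have hFc : Continuous fun t : ℝ => ‖T (S.D.wave t h)‖ ^ 2 :=
    ((T.continuous.comp (continuous_wave_apply S.D h)).norm).pow 2
  have hfreq := frequently_of_ultraMean ω hω _ hFc (‖T‖ ^ 2) (fun t => by positivity)
    (fun t => by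
      have h1 := T.le_opNorm (S.D.wave t h)
      rw [norm_wave_apply, hh, mul_one] at h1
      exact pow_le_pow_left₀ (norm_nonneg _) h1 2) c hc hmean
  -- approximate h
  set ε : ℝ := min 1 (Real.sqrt (c / 8) / (‖T‖ + 1)) with hε
  have hε0 : 0 < ε := lt_min one_pos (by positivity)
  obtain ⟨a, ha, hah, haband⟩ := exists_approx S s δ hδ h hband ε hε0
  have hTε : (‖T‖ * ε) ^ 2 ≤ c / 8 := by
    have h1 : ‖T‖ * ε ≤ Real.sqrt (c / 8) := by
      have h2 : ‖T‖ * ε ≤ (‖T‖ + 1) * (Real.sqrt (c / 8) / (‖T‖ + 1)) :=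
        mul_le_mul (by linarith) (min_le_right _ _) hε0.le (by positivity)
      refine h2.trans (le_of_eq ?_)
      field_simp
    calc (‖T‖ * ε) ^ 2 ≤ (Real.sqrt (c / 8)) ^ 2 := pow_le_pow_left₀ (by positivity) h1 2
      _ = c / 8 := Real.sq_sqrt (by positivity)
  have hwin : ∃ᶠ K : ℕ in atTop,
      c₁ ≤ windowMean (fun t => ‖T (S.D.wave t (a S.vac))‖ ^ 2) K := by
    refine (hfreq.and_eventually (eventually_gt_atTop 0)).mono ?_
    rintro K ⟨hK1, hK0⟩
    have h1 := windowMean_compare T S.D h (a S.vac) ε hah.le K hK0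
    rw [hc₁]
    linarith
  have hA : ‖a S.vac‖ ≤ 2 := by
    have h1 : a S.vac = (a S.vac - h) + h := by abel
    rw [h1]
    refine (norm_add_le _ _).trans ?_
    have h2 : ε ≤ 1 := min_le_left _ _
    linarith
  have hBn : ‖star a S.vac‖ ≤ B := by
    refine (norm_star_vac_le S a ha _ _ haband).trans ?_
    rw [hB]
    refine mul_le_mul (Real.exp_le_exp.mpr (by linarith)) hA (norm_nonneg _) (Real.exp_pos _).le
  obtain ⟨v, hvM, hvband, hv⟩ := exists_sample S herg T a ha 2 B c₁ (by norm_num) hB0 hA hBn hc₁0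
    hwin _ haband
  rw [← hlam] at hv
  -- bound for the fourth moment
  set q : ℝ := ‖star v (v S.vac)‖ with hq
  have hq0 : 0 ≤ q := norm_nonneg _
  have hvq : ‖v S.vac‖ ^ 2 ≤ q := by
    have h1 := inner_star_mul_self v S.vac
    have h2 := norm_inner_le_norm (𝕜 := ℂ) S.vac (star v (v S.vac))
    rw [h1, S.norm_vac, one_mul, Complex.norm_real, Real.norm_eq_abs,
      abs_of_nonneg (by positivity)] at h2
    exact h2
  have hTv : ‖T (v S.vac)‖ ^ 2 ≤ ‖T‖ ^ 2 * q := by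
    have h1 := pow_le_pow_left₀ (norm_nonneg _) (T.le_opNorm (v S.vac)) 2
    rw [mul_pow] at h1
    exact h1.trans (mul_le_mul_of_nonneg_left hvq (by positivity))
  have hqQ : q ≤ Q := by
    rw [hQ, le_div_iff₀ hlam0]
    rcases hq0.eq_or_lt with h0 | h0
    · rw [← h0]; simp
    · have h1 : lam * q ^ 2 ≤ ‖T‖ ^ 2 * q := by linarith
      have h2 : (q * lam) * q ≤ ‖T‖ ^ 2 * q := by linarith [h1, sq q]
      exact le_of_mul_le_mul_right h2 h0
  have hTlow : 2 * η ≤ ‖T (v S.vac)‖ := by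
    have h1 : (2 * η) ^ 2 ≤ ‖T (v S.vac)‖ ^ 2 := by
      have h2 : (2 * η) ^ 2 = c₁ / 4 := by
        rw [hη]
        have := Real.sq_sqrt hc₁0.le
        nlinarith
      rw [h2]
      have h3 : 0 ≤ lam * q ^ 2 := by positivity
      linarith
    exact (pow_le_pow_iff_left₀ (by positivity) (norm_nonneg _) two_ne_zero).mp h1
  -- truncation
  obtain ⟨v', hv'M, hv'n, hv'd⟩ := exists_trunc S.M v hvM τ hτ0 S.vac
  -- smoothing
  obtain ⟨k, hk, θ, ψ, hψ, hψn, hψ1, hψ0, hkn⟩ := hker s (2 * δ) (by positivity)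
  have hsm : sm S.D k hk θ v' S.vac = S.D.apply ψ (v' S.vac) := by
    rw [sm_apply_fixed _ _ _ _ _ _ (wave_vac S)]
    exact integral_wave_eq_apply S.D k hk θ ψ hψ _
  refine ⟨sm S.D k hk θ v', sm_mem S.D S.M S.flow_mem k hk θ v' hv'M, ?_, ?_, ?_⟩
  · refine (norm_sm_le _ _ _ _ _).trans ?_
    exact mul_le_mul hkn hv'n (norm_nonneg _) hCβ.le
  · rw [hsm]
    have h1 : S.D.apply ψ (v S.vac) = v S.vac := band_apply_eq S.D _ _ hvband ψ hψ1
    have h2 : T (S.D.apply ψ (v' S.vac)) = T (v S.vac) - T (S.D.apply ψ (v S.vac - v' S.vac)) := by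
      rw [map_sub, map_sub, h1]; abel
    have h3 : ‖T (S.D.apply ψ (v S.vac - v' S.vac))‖ ≤ η := by
      refine (T.le_opNorm _).trans ?_
      have h4 : ‖S.D.apply ψ (v S.vac - v' S.vac)‖ ≤ τ / 2 * Q := by
        refine ((S.D.apply ψ).le_opNorm _).trans ?_
        have h5 : ‖S.D.apply ψ‖ ≤ 1 := (norm_apply_le _ _).trans hψn
        have h6 : ‖v S.vac - v' S.vac‖ ≤ τ / 2 * Q :=
          hv'd.trans (mul_le_mul_of_nonneg_left hqQ (by positivity))
        calc ‖S.D.apply ψ‖ * ‖v S.vac - v' S.vac‖ ≤ 1 * (τ / 2 * Q) :=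
              mul_le_mul h5 h6 (norm_nonneg _) zero_le_one
          _ = _ := one_mul _
      refine (mul_le_mul_of_nonneg_left h4 (norm_nonneg _)).trans ?_
      have h7 : ‖T‖ * (τ / 2 * Q) = η * ((‖T‖ * Q) / (‖T‖ * Q + 1)) := by
        rw [hτ]; field_simp
      rw [h7]
      have h8 : (‖T‖ * Q) / (‖T‖ * Q + 1) ≤ 1 := by
        rw [div_le_one (by positivity)]; linarith
      nlinarith
    rw [h2]
    have h4 := norm_sub_norm_le (T (v S.vac)) (T (S.D.apply ψ (v S.vac - v' S.vac)))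
    linarith
  · rw [hsm]
    have h1 := band_of_kernel S.D _ (v' S.vac) ψ hψ0
    have h2 : s - 2 * (2 * δ) = s - 4 * δ := by ring
    have h3 : s + 2 * (2 * δ) = s + 4 * δ := by ring
    rw [h2, h3] at h1
    exact h1

end Assembly

/-- Bounded recovery. Let S be modular data on H (algebra M, cyclic separating unit vector ξ, D = log of the modular operator) with ergodic state, ω a free ultrafilter on ℕ, T a bounded operator, δₙ → 0 positive, hₙ unit vectors with D-spectral support in [s − δₙ, s + δₙ]. If some c > 0 bounds the ω-mean over t of ‖T exp(itD) hₙ‖² from below infinitely often, along a subsequence n_j there are v_j ∈ M, C and η > 0 with ‖v_j‖ ≤ C, ‖T (v_j ξ)‖ ≥ η, v_j ξ supported in [s − 4δ_{n_j}, s + 4δ_{n_j}]. -/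
theorem result
    {H : Type*} [NormedAddCommGroup H] [InnerProductSpace ℂ H] [CompleteSpace H]
    (S : Crest.OpAlg.ModularDatum H) (herg : S.Ergodic)
    (ω : Ultrafilter ℕ) (hω : (ω : Filter ℕ) ≤ Filter.atTop)
    (T : H →L[ℂ] H) (s : ℝ) (δ : ℕ → ℝ) (hδ : ∀ n, 0 < δ n)
    (hδ0 : Filter.Tendsto δ Filter.atTop (nhds 0))
    (h : ℕ → H) (hh : ∀ n, ‖h n‖ = 1)
    (hband : ∀ n, S.D.SupportedIn (Set.Icc (s - δ n) (s + δ n)) (h n))
    (hpos : ∃ c : ℝ, 0 < c ∧ ∃ᶠ n in Filter.atTop,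
      c ≤ Crest.OpAlg.ultraMean ω (fun t : ℝ => ‖T (S.D.wave t (h n))‖ ^ 2)) :
    ∃ (n' : ℕ → ℕ) (v : ℕ → (H →L[ℂ] H)) (C η : ℝ), StrictMono n' ∧ 0 < η ∧
      ∀ j : ℕ, v j ∈ S.M ∧ ‖v j‖ ≤ C ∧ η ≤ ‖T (v j S.vac)‖ ∧
        S.D.SupportedIn (Set.Icc (s - 4 * δ (n' j)) (s + 4 * δ (n' j))) (v j S.vac) := by
  obtain ⟨c, hc, hfreq⟩ := hpos
  obtain ⟨Δ, hΔ⟩ := hδ0.bddAbove_range
  obtain ⟨C, η, hη, hrec⟩ := exists_recovery S herg ω hω T s Δ c hc
  obtain ⟨n', hn', hn'2⟩ := Filter.extraction_of_frequently_atTop hfreq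
  have hall : ∀ j : ℕ, ∃ v : H →L[ℂ] H, v ∈ S.M ∧ ‖v‖ ≤ C ∧ η ≤ ‖T (v S.vac)‖ ∧
      S.D.SupportedIn (Set.Icc (s - 4 * δ (n' j)) (s + 4 * δ (n' j))) (v S.vac) := by
    intro j
    exact hrec (δ (n' j)) (h (n' j)) (hδ _) (hΔ ⟨_, rfl⟩) (hh _) (hband _) (hn'2 j)
  choose v hv using hall
  exact ⟨n', v, C, η, hn', hη, hv⟩

end Crest.Agent.S0112
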