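import Mathlib
import Crest.Prelude.Def_ModularData

/-! Basic facts on the bounded functional calculus (helper file for S0112). -/

set_option autoImplicit false

namespace Crest.Agent.S0112
open Crest.OpAlg Filter MeasureTheory
open scoped Topology BoundedContinuousFunction

variable {H : Type*} [NormedAddCommGroup H] [InnerProductSpace ℂ H] [CompleteSpace H]

theorem norm_apply_le (D : LineCalculus H) (f : BoundedContinuousFunction ℝ ℂ) :
    ‖D.apply f‖ ≤ ‖f‖ := by
  exact NonUnitalStarAlgHom.norm_apply_le D.apply f

theorem character_apply (t u : ℝ) :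
    LineCalculus.character t u = Complex.exp (Complex.I * ((t * u : ℝ) : ℂ)) := rfl

theorem norm_character_apply (t u : ℝ) : ‖LineCalculus.character t u‖ = 1 := by
  rw [character_apply, Complex.norm_exp]; simp

theorem character_add (s t : ℝ) :
    LineCalculus.character (s + t) = LineCalculus.character s * LineCalculus.character t := by
  ext u
  simp only [LineCalculus.character, BoundedContinuousFunction.coe_ofNormedAddCommGroup,
    BoundedContinuousFunction.coe_mul, Pi.mul_apply]
  rw [← Complex.exp_add]
  congr 1
  push_cast
  ring

theorem character_zero : LineCalculus.character 0 = 1 := by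
  ext u
  simp [LineCalculus.character]

theorem star_character (t : ℝ) :
    star (LineCalculus.character t) = LineCalculus.character (-t) := by
  ext u
  simp only [LineCalculus.character, BoundedContinuousFunction.coe_ofNormedAddCommGroup,
    BoundedContinuousFunction.star_apply]
  rw [Complex.star_def, ← Complex.exp_conj]
  congr 1
  simp

theorem wave_add (D : LineCalculus H) (s t : ℝ) : D.wave (s + t) = D.wave s * D.wave t := by
  simp [LineCalculus.wave, character_add]

theorem wave_add_apply (D : LineCalculus H) (s t : ℝ) (x : H) :
    D.wave (s + t) x = D.wave s (D.wave t x) := by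
  rw [wave_add]; rfl

theorem wave_zero (D : LineCalculus H) : D.wave 0 = 1 := by
  simp [LineCalculus.wave, character_zero]

theorem wave_neg_mul (D : LineCalculus H) (t : ℝ) : D.wave (-t) * D.wave t = 1 := by
  rw [← wave_add]; simp [wave_zero]

theorem wave_mul_neg (D : LineCalculus H) (t : ℝ) : D.wave t * D.wave (-t) = 1 := by
  rw [← wave_add]; simp [wave_zero]

theorem wave_neg_wave (D : LineCalculus H) (t : ℝ) (x : H) : D.wave (-t) (D.wave t x) = x := by
  have := congrArg (fun A : H →L[ℂ] H => A x) (wave_neg_mul D t)
  simpa using this

theorem wave_wave_neg (D : LineCalculus H) (t : ℝ) (x : H) : D.wave t (D.wave (-t) x) = x := by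
  have := congrArg (fun A : H →L[ℂ] H => A x) (wave_mul_neg D t)
  simpa using this

theorem star_wave (D : LineCalculus H) (t : ℝ) : star (D.wave t) = D.wave (-t) := by
  simp [LineCalculus.wave, ← map_star, star_character]

theorem inner_wave_left (D : LineCalculus H) (t : ℝ) (x y : H) :
    inner ℂ (D.wave t x) y = inner ℂ x (D.wave (-t) y) := by
  rw [← star_wave, ContinuousLinearMap.star_eq_adjoint, ContinuousLinearMap.adjoint_inner_right]

theorem norm_wave_apply (D : LineCalculus H) (t : ℝ) (x : H) : ‖D.wave t x‖ = ‖x‖ := by
  have h : inner ℂ (D.wave t x) (D.wave t x) = inner ℂ x x := by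
    rw [inner_wave_left, wave_neg_wave]
  have h2 : ‖D.wave t x‖ ^ 2 = ‖x‖ ^ 2 := by
    rw [inner_self_eq_norm_sq_to_K, inner_self_eq_norm_sq_to_K] at h
    exact_mod_cast h
  nlinarith [norm_nonneg (D.wave t x), norm_nonneg x, sq_nonneg (‖D.wave t x‖ - ‖x‖)]

theorem norm_wave_le (D : LineCalculus H) (t : ℝ) : ‖D.wave t‖ ≤ 1 :=
  ContinuousLinearMap.opNorm_le_bound _ zero_le_one (fun x => by rw [norm_wave_apply, one_mul])

/-- bound for a compactly supported function times a difference of characters -/
theorem norm_character_sub_mul_le (g : BoundedContinuousFunction ℝ ℂ) (R : ℝ) (hR0 : 0 ≤ R)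
    (hR : ∀ u, R < |u| → g u = 0) (s t : ℝ) :
    ‖LineCalculus.character s * g - LineCalculus.character t * g‖ ≤ |s - t| * R * ‖g‖ := by
  rw [BoundedContinuousFunction.norm_le (by positivity)]
  intro u
  by_cases hu : R < |u|
  · simp [hR u hu]; positivity
  · push Not at hu
    have h1 : (LineCalculus.character s * g - LineCalculus.character t * g) u
        = (LineCalculus.character s u - LineCalculus.character t u) * g u := by
      simp [sub_mul]
    rw [h1, norm_mul]
    have h2 : ‖LineCalculus.character s u - LineCalculus.character t u‖ ≤ |s - t| * R := by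
      have h3 : LineCalculus.character s u - LineCalculus.character t u
          = LineCalculus.character t u * (LineCalculus.character (s - t) u - 1) := by
        have : LineCalculus.character s u
            = LineCalculus.character t u * LineCalculus.character (s - t) u := by
          rw [← BoundedContinuousFunction.mul_apply, ← character_add]
          congr 2; ring
        rw [this]; ring
      rw [h3, norm_mul, norm_character_apply, one_mul, character_apply]
      have h4 := Real.norm_exp_I_mul_ofReal_sub_one_le (x := (s - t) * u)
      refine h4.trans ?_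
      rw [Real.norm_eq_abs, abs_mul]
      exact mul_le_mul_of_nonneg_left hu (abs_nonneg _)
    exact mul_le_mul h2 (g.norm_coe_le_norm u) (norm_nonneg _) (by positivity)

theorem exists_radius (g : BoundedContinuousFunction ℝ ℂ) (hg : HasCompactSupport (g : ℝ → ℂ)) :
    ∃ R : ℝ, 0 ≤ R ∧ ∀ u, R < |u| → g u = 0 := by
  obtain ⟨R, hR⟩ := hg.isCompact.isBounded.subset_closedBall (0 : ℝ)
  refine ⟨max R 0, le_max_right _ _, fun u hu => ?_⟩
  by_contra hne
  have hmem : u ∈ tsupport (g : ℝ → ℂ) := subset_tsupport _ (by simpa using hne)
  have := hR hmem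
  simp only [Metric.mem_closedBall, dist_zero_right, Real.norm_eq_abs] at this
  exact absurd hu (not_lt.mpr (this.trans (le_max_left _ _)))

theorem continuous_character_mul (g : BoundedContinuousFunction ℝ ℂ)
    (hg : HasCompactSupport (g : ℝ → ℂ)) :
    Continuous fun t : ℝ => LineCalculus.character t * g := by
  obtain ⟨R, hR0, hR⟩ := exists_radius g hg
  have : LipschitzWith (Real.toNNReal (R * ‖g‖)) (fun t : ℝ => LineCalculus.character t * g) := by
    apply LipschitzWith.of_dist_le_mul
    intro s t
    rw [dist_eq_norm, Real.dist_eq, Real.coe_toNNReal _ (by positivity)]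
    refine (norm_character_sub_mul_le g R hR0 hR s t).trans (le_of_eq (by ring))
  exact this.continuous

theorem continuous_wave_apply (D : LineCalculus H) (x : H) : Continuous fun t : ℝ => D.wave t x := by
  apply continuous_of_uniform_approx_of_continuous
  intro u hu
  obtain ⟨ε, hε, hεu⟩ := Metric.mem_uniformity_dist.mp hu
  obtain ⟨g, hg, hgx⟩ := D.window x ε hε
  refine ⟨fun t => D.wave t (D.apply g x), ?_, fun t => ?_⟩
  · have h1 : ∀ t, D.wave t (D.apply g x) = D.apply (LineCalculus.character t * g) x := by
      intro t
      rw [map_mul]; rfl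
    simp_rw [h1]
    have h2 : Continuous fun t : ℝ => D.apply (LineCalculus.character t * g) := by
      have h3 : LipschitzWith 1 (D.apply : BoundedContinuousFunction ℝ ℂ → (H →L[ℂ] H)) := by
        apply LipschitzWith.of_dist_le_mul
        intro a b
        rw [dist_eq_norm, dist_eq_norm, ← map_sub]
        simpa using norm_apply_le D (a - b)
      exact h3.continuous.comp (continuous_character_mul g hg)
    exact (ContinuousLinearMap.apply ℂ H x).continuous.comp h2
  · apply hεu
    rw [dist_eq_norm, ← map_sub, norm_wave_apply, norm_sub_rev]
    exact hgx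

end Crest.Agent.S0112
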