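import Crest.Agent.S0112_Kernel

/-! Core construction (helper file for S0112). -/

set_option autoImplicit false

namespace Crest.Agent.S0112
open Crest.OpAlg Filter MeasureTheory
open scoped Topology BoundedContinuousFunction ContDiff ComplexOrder

variable {H : Type*} [NormedAddCommGroup H] [InnerProductSpace ℂ H] [CompleteSpace H]

section Band

theorem band_apply_eq (D : LineCalculus H) (K : Set ℝ) (x : H) (hx : D.SupportedIn K x)
    (ψ : BoundedContinuousFunction ℝ ℂ) (hψ : ∀ u ∈ K, ψ u = 1) : D.apply ψ x = x := by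
  have h1 := hx (1 - ψ) (fun u hu => by simp [hψ u hu])
  rw [map_sub, map_one, sub_apply] at h1
  exact (sub_eq_zero.mp h1).symm

theorem band_of_kernel (D : LineCalculus H) (K : Set ℝ) (y : H)
    (ψ : BoundedContinuousFunction ℝ ℂ) (hψ : ∀ u, u ∉ K → ψ u = 0) :
    D.SupportedIn K (D.apply ψ y) := by
  intro f hf
  have h1 : f * ψ = 0 := by
    ext u
    rw [BoundedContinuousFunction.mul_apply]
    by_cases hu : u ∈ K
    · rw [hf u hu]; simp
    · rw [hψ u hu]; simp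
  have h2 : D.apply f (D.apply ψ y) = D.apply (f * ψ) y := by rw [map_mul]; rfl
  rw [h2, h1]
  simp

theorem band_wave (D : LineCalculus H) (K : Set ℝ) (x : H) (hx : D.SupportedIn K x) (t : ℝ) :
    D.SupportedIn K (D.wave t x) := by
  intro f hf
  have h1 : D.apply f (D.wave t x) = D.apply (f * LineCalculus.character t) x := by
    rw [map_mul]; rfl
  have h2 : D.wave t (D.apply f x) = D.apply (LineCalculus.character t * f) x := by
    rw [map_mul]; rfl
  rw [h1, mul_comm, ← h2, hx f hf, map_zero]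

theorem band_smul (D : LineCalculus H) (K : Set ℝ) (x : H) (hx : D.SupportedIn K x) (c : ℂ) :
    D.SupportedIn K (c • x) := by
  intro f hf
  rw [map_smul, hx f hf, smul_zero]

theorem band_sum {ι : Type*} (D : LineCalculus H) (K : Set ℝ) (s : Finset ι) (x : ι → H)
    (hx : ∀ i ∈ s, D.SupportedIn K (x i)) : D.SupportedIn K (∑ i ∈ s, x i) := by
  intro f hf
  rw [map_sum]
  exact Finset.sum_eq_zero fun i hi => hx i hi f hf

end Band

section Flow

variable (S : ModularDatum H)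

theorem flow_star (t : ℝ) (a : H →L[ℂ] H) : star (S.flow t a) = S.flow t (star a) := by
  rw [ModularDatum.flow, ModularDatum.flow, star_mul, star_mul, star_wave, star_wave, neg_neg,
    mul_assoc]

theorem flow_mul (t : ℝ) (a b : H →L[ℂ] H) : S.flow t (a * b) = S.flow t a * S.flow t b := by
  simp only [ModularDatum.flow]
  calc S.D.wave t * (a * b) * S.D.wave (-t)
      = S.D.wave t * a * 1 * b * S.D.wave (-t) := by rw [mul_one]; simp only [mul_assoc]
    _ = S.D.wave t * a * (S.D.wave (-t) * S.D.wave t) * b * S.D.wave (-t) := by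
        rw [wave_neg_mul]
    _ = _ := by simp only [mul_assoc]

theorem flow_vac (t : ℝ) (a : H →L[ℂ] H) : S.flow t a S.vac = S.D.wave t (a S.vac) := by
  simp [ModularDatum.flow, wave_vac]

theorem norm_flow_le (t : ℝ) (a : H →L[ℂ] H) : ‖S.flow t a‖ ≤ ‖a‖ := by
  refine ContinuousLinearMap.opNorm_le_bound _ (norm_nonneg _) (fun x => ?_)
  exact norm_flow_apply_le S.D a t x

end Flow

theorem exists_step (D : LineCalculus H) (x : H) (e : ℝ) (he : 0 < e) :
    ∀ᶠ m : ℕ in atTop, ∀ s : ℝ, 0 ≤ s → s ≤ 1 / (m : ℝ) → ‖D.wave s x - x‖ ≤ e := by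
  have h1 := (continuous_wave_apply D x).tendsto 0
  rw [Metric.tendsto_nhds_nhds] at h1
  obtain ⟨η, hη, h2⟩ := h1 e he
  have h3 : Tendsto (fun m : ℕ => 1 / (m : ℝ)) atTop (𝓝 0) := tendsto_one_div_atTop_nhds_zero_nat
  have h4 := h3.eventually (gt_mem_nhds hη)
  filter_upwards [h4] with m hm s hs0 hs
  have h5 := @h2 s (by rw [dist_zero_right, Real.norm_eq_abs, abs_of_nonneg hs0]; linarith)
  rw [wave_zero, dist_eq_norm] at h5
  exact h5.le

theorem norm_wave_shift (D : LineCalculus H) (x : H) (t s : ℝ) :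
    ‖D.wave (t + s) x - D.wave t x‖ = ‖D.wave s x - x‖ := by
  rw [wave_add_apply, ← map_sub, norm_wave_apply]

/-- approximation of a vector in a band by a vector from the algebra in a twice wider band -/
theorem exists_approx (S : ModularDatum H) (s δ : ℝ) (hδ : 0 < δ) (h : H)
    (hh : S.D.SupportedIn (Set.Icc (s - δ) (s + δ)) h) (ε : ℝ) (hε : 0 < ε) :
    ∃ a ∈ S.M, ‖a S.vac - h‖ < ε ∧
      S.D.SupportedIn (Set.Icc (s - 2 * δ) (s + 2 * δ)) (a S.vac) := by
  obtain ⟨Cβ, _, hker⟩ := exists_kernel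
  obtain ⟨k, hk, θ, ψ, hψ, hψn, hψ1, hψ0, _⟩ := hker s δ hδ
  obtain ⟨_, hb, ⟨⟨a₀, ha₀⟩, rfl⟩⟩ := Metric.dense_iff.mp S.cyclic h ε hε
  have hb' : ‖a₀ S.vac - h‖ < ε := by
    rw [Metric.mem_ball, dist_eq_norm] at hb
    exact hb
  have h1 : sm S.D k hk θ a₀ S.vac = S.D.apply ψ (a₀ S.vac) := by
    rw [sm_apply_fixed _ _ _ _ _ _ (wave_vac S)]
    exact integral_wave_eq_apply S.D k hk θ ψ hψ _
  refine ⟨sm S.D k hk θ a₀, sm_mem S.D S.M S.flow_mem k hk θ a₀ ha₀, ?_, ?_⟩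
  · rw [h1]
    have h2 : h = S.D.apply ψ h := (band_apply_eq S.D _ h hh ψ hψ1).symm
    rw [h2, ← map_sub]
    refine lt_of_le_of_lt ((S.D.apply ψ).le_opNorm _) ?_
    calc ‖S.D.apply ψ‖ * ‖a₀ S.vac - h‖ ≤ 1 * ‖a₀ S.vac - h‖ :=
          mul_le_mul_of_nonneg_right ((norm_apply_le _ _).trans hψn) (norm_nonneg _)
      _ < ε := by rw [one_mul]; exact hb'
  · rw [h1]
    exact band_of_kernel S.D _ _ ψ hψ0

/-- truncation -/
theorem exists_trunc (M : VonNeumannAlgebra H) (v : H →L[ℂ] H) (hv : v ∈ M) (τ : ℝ) (hτ : 0 < τ)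
    (ξ : H) : ∃ v' ∈ M, ‖v'‖ ≤ 1 / (2 * τ) ∧ ‖v ξ - v' ξ‖ ≤ τ / 2 * ‖star v (v ξ)‖ := by
  set w : H →L[ℂ] H := star v * v with hw
  have hw0 : 0 ≤ w := star_mul_self_nonneg v
  have hunit : IsUnit (1 + ((τ ^ 2 : ℝ) : ℂ) • w) := by
    have h1 : (-((τ ^ 2 : ℝ) : ℂ)⁻¹) ∉ spectrum ℂ w := by
      intro hmem
      have h2 : (0 : ℂ) ≤ -((τ ^ 2 : ℝ) : ℂ)⁻¹ := spectrum_nonneg_of_nonneg hw0 hmem
      rw [← Complex.ofReal_inv, ← Complex.ofReal_neg, Complex.zero_le_real] at h2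
      have : 0 < (τ ^ 2)⁻¹ := by positivity
      linarith
    rw [spectrum.notMem_iff] at h1
    have hne : ((τ ^ 2 : ℝ) : ℂ) ≠ 0 := by
      have : (0:ℝ) < τ ^ 2 := by positivity
      exact_mod_cast this.ne'
    have h3 : 1 + ((τ ^ 2 : ℝ) : ℂ) • w
        = (-((τ ^ 2 : ℝ) : ℂ)) • (algebraMap ℂ (H →L[ℂ] H) (-((τ ^ 2 : ℝ) : ℂ)⁻¹) - w) := by
      rw [smul_sub, Algebra.algebraMap_eq_smul_one, smul_smul, neg_mul_neg, mul_inv_cancel₀ hne,
        one_smul, neg_smul, sub_neg_eq_add]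
    rw [h3]
    exact h1.smul (Units.mk0 _ (neg_ne_zero.mpr hne))
  obtain ⟨U, hU⟩ := hunit
  set r : H →L[ℂ] H := ↑U⁻¹ with hr
  have hUr : (1 + ((τ ^ 2 : ℝ) : ℂ) • w) * r = 1 := by rw [← hU, hr]; exact U.mul_inv
  have hrU : r * (1 + ((τ ^ 2 : ℝ) : ℂ) • w) = 1 := by rw [← hU, hr]; exact U.inv_mul
  have hwM : w ∈ M := mul_mem (star_mem hv) hv
  have hrM : r ∈ M := by
    rw [mem_iff_commutant]
    intro b hb
    have h1 : Commute b (1 + ((τ ^ 2 : ℝ) : ℂ) • w) := by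
      apply Commute.add_right (Commute.one_right b)
      apply Commute.smul_right
      exact (mem_iff_commutant M w).mp hwM b hb
    rw [← hU] at h1
    exact h1.units_inv_right
  -- the norm bound
  have hbound : ∀ x : H, ‖v (r x)‖ ≤ 1 / (2 * τ) * ‖x‖ := by
    intro x
    set y := r x with hy
    have hx : x = y + ((τ ^ 2 : ℝ) : ℂ) • w y := by
      have := congrArg (fun A : H →L[ℂ] H => A x) hUr
      simp only [mul_apply_eq_comp, add_apply, one_apply_eq_self, smul_apply] at this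
      exact this.symm
    have hre : (inner ℂ y (w y) : ℂ).re = ‖v y‖ ^ 2 := by
      have h2 : inner ℂ y (w y) = (inner ℂ (v y) (v y) : ℂ) := by
        change inner ℂ y (star v (v y)) = _
        rw [ContinuousLinearMap.star_eq_adjoint, ContinuousLinearMap.adjoint_inner_right]
      rw [h2, inner_self_eq_norm_sq_to_K]
      norm_cast
    have hle : ‖v y‖ ^ 2 ≤ ‖y‖ * ‖w y‖ := by
      rw [← hre]
      exact (Complex.re_le_norm _).trans (norm_inner_le_norm _ _)
    have hxn : ‖x‖ ^ 2 = ‖y‖ ^ 2 + 2 * (τ ^ 2 * ‖v y‖ ^ 2) + (τ ^ 2 * ‖w y‖) ^ 2 := by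
      conv_lhs => rw [hx]
      rw [norm_add_sq (𝕜 := ℂ), inner_smul_right, norm_smul, Complex.norm_real, Real.norm_eq_abs,
        abs_of_pos (by positivity)]
      congr 3
      rw [← hre]
      simp [-Complex.ofReal_pow]
    have h4 : (2 * τ * ‖v y‖) ^ 2 ≤ ‖x‖ ^ 2 := by
      have h5 : 0 < τ ^ 2 := by positivity
      nlinarith [sq_nonneg (‖y‖ - τ ^ 2 * ‖w y‖), mul_le_mul_of_nonneg_left hle h5.le]
    have h6 : 2 * τ * ‖v y‖ ≤ ‖x‖ :=
      (pow_le_pow_iff_left₀ (by positivity) (norm_nonneg _) two_ne_zero).mp h4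
    rw [div_mul_eq_mul_div, one_mul, le_div_iff₀ (by positivity)]
    linarith
  refine ⟨v * r, mul_mem hv hrM, ContinuousLinearMap.opNorm_le_bound _ (by positivity) hbound, ?_⟩
  have h1 : v ξ - (v * r) ξ = ((τ ^ 2 : ℝ) : ℂ) • v (r (w ξ)) := by
    have h2 := congrArg (fun A : H →L[ℂ] H => A ξ) hrU
    simp only [mul_apply_eq_comp, add_apply, one_apply_eq_self, smul_apply, map_add,
      map_smul] at h2
    have h3 : v ξ = v (r ξ) + ((τ ^ 2 : ℝ) : ℂ) • v (r (w ξ)) := by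
      conv_lhs => rw [← h2]
      rw [map_add, map_smul]
    rw [h3]
    simp [mul_apply_eq_comp]
  rw [h1, norm_smul, Complex.norm_real, Real.norm_eq_abs, abs_of_pos (by positivity)]
  have h2 := hbound (w ξ)
  calc τ ^ 2 * ‖v (r (w ξ))‖ ≤ τ ^ 2 * (1 / (2 * τ) * ‖w ξ‖) :=
        mul_le_mul_of_nonneg_left h2 (by positivity)
    _ = τ / 2 * ‖star v (v ξ)‖ := by
        rw [hw]
        simp only [mul_apply_eq_comp]
        field_simp

end Crest.Agent.S0112
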