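import Crest.Agent.S0112_Mod

/-! Ergodic averages (helper file for S0112). -/

set_option autoImplicit false

namespace Crest.Agent.S0112
open Crest.OpAlg Filter MeasureTheory
open scoped Topology BoundedContinuousFunction ContDiff

variable {H : Type*} [NormedAddCommGroup H] [InnerProductSpace ℂ H] [CompleteSpace H]

/-- mean over [-K, K] -/
noncomputable def mean (F : ℝ → H) (K : ℝ) : H := ((2 * K)⁻¹ : ℝ) • ∫ t in (-K)..K, F t

omit [CompleteSpace H] in
theorem norm_mean_le {F : ℝ → H} {C : ℝ} (hC : ∀ t, ‖F t‖ ≤ C) {K : ℝ} (hK : 0 < K) :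
    ‖mean F K‖ ≤ C := by
  rw [mean, norm_smul, Real.norm_eq_abs, abs_of_pos (by positivity)]
  have h1 := intervalIntegral.norm_integral_le_of_norm_le_const (a := -K) (b := K) (f := F)
    (C := C) (fun x _ => hC x)
  have h2 : |K - -K| = 2 * K := by
    rw [sub_neg_eq_add, abs_of_pos (by linarith)]; ring
  rw [h2] at h1
  calc (2 * K)⁻¹ * ‖∫ t in (-K)..K, F t‖ ≤ (2 * K)⁻¹ * (C * (2 * K)) :=
        mul_le_mul_of_nonneg_left h1 (by positivity)
    _ = C := by field_simp

omit [CompleteSpace H] in
theorem mean_sub {F G : ℝ → H} (hF : Continuous F) (hG : Continuous G) (K : ℝ) :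
    mean (fun t => F t - G t) K = mean F K - mean G K := by
  rw [mean, mean, mean, intervalIntegral.integral_sub (hF.intervalIntegrable _ _)
    (hG.intervalIntegrable _ _), smul_sub]

omit [CompleteSpace H] in
theorem mean_add {F G : ℝ → H} (hF : Continuous F) (hG : Continuous G) (K : ℝ) :
    mean (fun t => F t + G t) K = mean F K + mean G K := by
  rw [mean, mean, mean, intervalIntegral.integral_add (hF.intervalIntegrable _ _)
    (hG.intervalIntegrable _ _), smul_add]

omit [CompleteSpace H] in
theorem mean_smul {F : ℝ → H} (c : ℂ) (K : ℝ) :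
    mean (fun t => c • F t) K = c • mean F K := by
  rw [mean, mean, intervalIntegral.integral_smul, smul_comm]

theorem mean_clm (A : H →L[ℂ] H) {F : ℝ → H} (hF : Continuous F) (K : ℝ) :
    mean (fun t => A (F t)) K = A (mean F K) := by
  rw [mean, mean]
  have h1 : A (((2 * K)⁻¹ : ℝ) • ∫ t in (-K)..K, F t)
      = ((2 * K)⁻¹ : ℝ) • A (∫ t in (-K)..K, F t) := by
    rw [← Complex.coe_smul, map_smul, Complex.coe_smul]
  rw [h1]
  congr 1
  exact ContinuousLinearMap.intervalIntegral_comp_comm A (hF.intervalIntegrable _ _)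

theorem mean_const (x : H) {K : ℝ} (hK : 0 < K) : mean (fun _ => x) K = x := by
  rw [mean, intervalIntegral.integral_const, smul_smul]
  have : (2 * K)⁻¹ * (K - -K) = 1 := by field_simp; ring
  rw [this, one_smul]

/-- means of coboundaries are small -/
theorem norm_mean_shift_le {F : ℝ → H} (hF : Continuous F) {C : ℝ} (hC : ∀ t, ‖F t‖ ≤ C)
    (s : ℝ) {K : ℝ} (hK : 0 < K) :
    ‖mean (fun t => F (t + s) - F t) K‖ ≤ |s| * C / K := by
  have h1 : ∫ t in (-K)..K, (F (t + s) - F t)
      = (∫ t in K..(K + s), F t) - ∫ t in (-K)..(-K + s), F t := by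
    have hFs : Continuous fun t : ℝ => F (t + s) := hF.comp (by fun_prop)
    rw [intervalIntegral.integral_sub (hFs.intervalIntegrable _ _)
      (hF.intervalIntegrable _ _)]
    rw [intervalIntegral.integral_comp_add_right (fun t => F t) s]
    rw [intervalIntegral.integral_interval_sub_interval_comm (hF.intervalIntegrable _ _)
      (hF.intervalIntegrable _ _) (hF.intervalIntegrable _ _)]
    rw [← sub_eq_zero]
    have e1 : ∫ t in (-K + s)..(-K), F t = - ∫ t in (-K)..(-K + s), F t :=
      intervalIntegral.integral_symm _ _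
    have e2 : ∫ t in (K + s)..K, F t = - ∫ t in K..(K + s), F t :=
      intervalIntegral.integral_symm _ _
    rw [e1, e2]
    abel
  rw [mean, h1, norm_smul, Real.norm_eq_abs, abs_of_pos (by positivity)]
  have h2 := intervalIntegral.norm_integral_le_of_norm_le_const (a := K) (b := K + s) (f := F)
    (C := C) (fun x _ => hC x)
  have h3 := intervalIntegral.norm_integral_le_of_norm_le_const (a := -K) (b := -K + s) (f := F)
    (C := C) (fun x _ => hC x)
  rw [add_sub_cancel_left] at h2 h3
  calc (2 * K)⁻¹ * ‖(∫ t in K..(K + s), F t) - ∫ t in (-K)..(-K + s), F t‖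
      ≤ (2 * K)⁻¹ * (C * |s| + C * |s|) :=
        mul_le_mul_of_nonneg_left ((norm_sub_le _ _).trans (add_le_add h2 h3)) (by positivity)
    _ = |s| * C / K := by field_simp; ring

theorem tendsto_mean_shift {F : ℝ → H} (hF : Continuous F) {C : ℝ} (hC : ∀ t, ‖F t‖ ≤ C)
    (s : ℝ) : Tendsto (fun K : ℕ => mean (fun t => F (t + s) - F t) K) atTop (𝓝 0) := by
  have h1 : Tendsto (fun K : ℕ => |s| * C / (K : ℝ)) atTop (𝓝 0) :=
    tendsto_const_div_atTop_nhds_zero_nat _
  refine squeeze_zero_norm' ?_ h1
  filter_upwards [eventually_gt_atTop 0] with K hK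
  exact norm_mean_shift_le hF hC s (by exact_mod_cast hK)

theorem exists_mean_limit (D : LineCalculus H) (x : H) :
    ∃ z : H, (∀ t, D.wave t z = z) ∧
      Tendsto (fun K : ℕ => mean (fun t => D.wave t x) K) atTop (𝓝 z) := by
  let N : Submodule ℂ H :=
    { carrier := {x | Tendsto (fun K : ℕ => mean (fun t => D.wave t x) K) atTop (𝓝 0)}
      add_mem' := by
        intro a b ha hb
        simp only [Set.mem_ofPred_eq] at ha hb ⊢
        have := ha.add hb
        rw [add_zero] at this
        refine this.congr (fun K => ?_)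
        rw [← mean_add (continuous_wave_apply D a) (continuous_wave_apply D b)]
        simp only [map_add]
      zero_mem' := by
        simp only [Set.mem_ofPred_eq, map_zero]
        simp [mean]
      smul_mem' := by
        intro c a ha
        simp only [Set.mem_ofPred_eq] at ha ⊢
        have := ha.const_smul c
        rw [smul_zero] at this
        refine this.congr (fun K => ?_)
        rw [← mean_smul]
        simp only [map_smul] }
  have hNmem : ∀ x, x ∈ N ↔ Tendsto (fun K : ℕ => mean (fun t => D.wave t x) K) atTop (𝓝 0) :=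
    fun x => Iff.rfl
  have hclosed : IsClosed (N : Set H) := by
    rw [← closure_subset_iff_isClosed]
    intro y hy
    rw [SetLike.mem_coe, hNmem, Metric.tendsto_atTop]
    intro ε hε
    obtain ⟨y', hy', hyy⟩ := Metric.mem_closure_iff.mp hy (ε / 2) (by positivity)
    rw [SetLike.mem_coe, hNmem, Metric.tendsto_atTop] at hy'
    obtain ⟨K₀, hK₀⟩ := hy' (ε / 2) (by positivity)
    refine ⟨max K₀ 1, fun K hK => ?_⟩
    have h1 := hK₀ K ((le_max_left _ _).trans hK)
    have hK1 : (0 : ℝ) < K := by
      have : 1 ≤ K := (le_max_right _ _).trans hK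
      exact_mod_cast this
    rw [dist_zero_right] at h1 ⊢
    have h2 : mean (fun t => D.wave t y) K
        = mean (fun t => D.wave t (y - y')) K + mean (fun t => D.wave t y') K := by
      rw [← mean_add (continuous_wave_apply D _) (continuous_wave_apply D _)]
      simp only [← map_add, sub_add_cancel]
    rw [h2]
    have h3 : ‖mean (fun t => D.wave t (y - y')) K‖ ≤ ‖y - y'‖ :=
      norm_mean_le (fun t => by rw [norm_wave_apply]) hK1
    rw [dist_eq_norm] at hyy
    calc _ ≤ _ := norm_add_le _ _
      _ < ε / 2 + ε / 2 := add_lt_add (h3.trans_lt hyy) h1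
      _ = ε := by ring
  have hcob : ∀ (s : ℝ) (y : H), D.wave s y - y ∈ N := by
    intro s y
    rw [hNmem]
    have h1 := tendsto_mean_shift (continuous_wave_apply D y) (C := ‖y‖)
      (fun t => by rw [norm_wave_apply]) s
    refine h1.congr (fun K => ?_)
    congr 1
    ext t
    rw [wave_add_apply, map_sub]
  have : CompleteSpace N := hclosed.completeSpace_coe
  refine ⟨x - N.starProjection x, ?_, ?_⟩
  · intro t
    set z := x - N.starProjection x with hz
    have hz0 : ∀ w ∈ N, inner ℂ z w = 0 := fun w hw => N.starProjection_inner_eq_zero x w hw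
    apply ext_inner_right ℂ
    intro y
    rw [inner_wave_left]
    have h1 := hz0 _ (hcob (-t) y)
    rw [inner_sub_right] at h1
    exact sub_eq_zero.mp h1
  · set z := x - N.starProjection x with hz
    have hz0 : ∀ w ∈ N, inner ℂ z w = 0 := fun w hw => N.starProjection_inner_eq_zero x w hw
    have hfix : ∀ t, D.wave t z = z := by
      intro t
      apply ext_inner_right ℂ
      intro y
      rw [inner_wave_left]
      have h1 := hz0 _ (hcob (-t) y)
      rw [inner_sub_right] at h1
      exact sub_eq_zero.mp h1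
    have h1 : N.starProjection x ∈ N := N.starProjection_apply_mem x
    rw [hNmem] at h1
    have h2 := h1.add_const z
    rw [zero_add] at h2
    refine h2.congr' ?_
    filter_upwards [eventually_gt_atTop 0] with K hK
    have h3 : mean (fun t => D.wave t z) K = z := by
      simp only [hfix]
      exact mean_const z (by exact_mod_cast hK)
    conv_lhs => rw [← h3]
    rw [← mean_add (continuous_wave_apply D _) (continuous_wave_apply D _)]
    congr 1
    ext t
    rw [← map_add, hz]
    congr 1
    abel

/-- flow of b applied to y -/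
noncomputable def flv (D : LineCalculus H) (b : H →L[ℂ] H) (y : H) (t : ℝ) : H :=
  D.wave t (b (D.wave (-t) y))

theorem continuous_flv (D : LineCalculus H) (b : H →L[ℂ] H) (y : H) : Continuous (flv D b y) := by
  have := continuous_flow_apply D b 1 y
  simp only [one_mul] at this
  exact this

theorem norm_flv_le (D : LineCalculus H) (b : H →L[ℂ] H) (y : H) (t : ℝ) :
    ‖flv D b y t‖ ≤ ‖b‖ * ‖y‖ := norm_flow_apply_le D b t y

/-- the ergodic average of an operator as an operator -/
noncomputable def bavg (D : LineCalculus H) (b : H →L[ℂ] H) (K : ℝ) : H →L[ℂ] H :=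
  if hK : 0 < K then
  LinearMap.mkContinuous
    { toFun := fun y => mean (flv D b y) K
      map_add' := fun x y => by
        rw [← mean_add (continuous_flv D b x) (continuous_flv D b y)]
        congr 1
        ext w
        simp only [flv, map_add]
      map_smul' := fun c x => by
        simp only [RingHom.id_apply]
        rw [← mean_smul]
        congr 1
        ext w
        simp only [flv, map_smul] }
    ‖b‖ (fun y => norm_mean_le (norm_flv_le D b y) hK)
  else 0

theorem bavg_apply (D : LineCalculus H) (b : H →L[ℂ] H) {K : ℝ} (hK : 0 < K) (y : H) :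
    bavg D b K y = mean (flv D b y) K := by
  rw [bavg, dif_pos hK]; rfl

theorem norm_bavg_apply_le (D : LineCalculus H) (b : H →L[ℂ] H) (K : ℝ) (y : H) :
    ‖bavg D b K y‖ ≤ ‖b‖ * ‖y‖ := by
  by_cases hK : 0 < K
  · rw [bavg_apply D b hK]
    exact norm_mean_le (norm_flv_le D b y) hK
  · rw [bavg, dif_neg hK]
    simp
    positivity

theorem bavg_commute (S : ModularDatum H) (b : H →L[ℂ] H) (hb : b ∈ S.M) (K : ℝ)
    (c : H →L[ℂ] H) (hc : c ∈ S.M.commutant) (y : H) :
    bavg S.D b K (c y) = c (bavg S.D b K y) := by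
  by_cases hK : 0 < K
  · rw [bavg_apply _ _ hK, bavg_apply _ _ hK, ← mean_clm c (continuous_flv S.D b y)]
    congr 1
    ext t
    have h1 := (mem_iff_commutant S.M _).mp (S.flow_mem t b hb) c hc
    have h2 := congrArg (fun A : H →L[ℂ] H => A y) h1
    exact h2.symm
  · rw [bavg, dif_neg hK]
    simp

/-- The key ergodic statement. -/
theorem tendsto_mean_vac (S : ModularDatum H) (herg : S.Ergodic) (b : H →L[ℂ] H) (hb : b ∈ S.M) :
    Tendsto (fun K : ℕ => mean (fun t => S.D.wave t (b S.vac)) K) atTop
      (𝓝 ((inner ℂ S.vac (b S.vac) : ℂ) • S.vac)) := by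
  obtain ⟨z, hz, hzlim⟩ := exists_mean_limit S.D (b S.vac)
  have hbavg : ∀ K : ℕ, 0 < K →
      bavg S.D b K S.vac = mean (fun t => S.D.wave t (b S.vac)) K := by
    intro K hK
    rw [bavg_apply _ _ (by exact_mod_cast hK)]
    congr 1
    ext t
    rw [flv, wave_vac]
  -- pointwise convergence
  have hconv : ∀ y : H, ∃ l : H, Tendsto (fun K : ℕ => bavg S.D b K y) atTop (𝓝 l) := by
    intro y
    apply cauchySeq_tendsto_of_complete
    rw [Metric.cauchySeq_iff]
    intro ε hε
    obtain ⟨c, hc, hcy⟩ := commutant_dense S y (ε / (3 * (‖b‖ + 1))) (by positivity)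
    have h1 : Tendsto (fun K : ℕ => bavg S.D b K (c S.vac)) atTop (𝓝 (c z)) := by
      have h2 := (c.continuous.tendsto z).comp hzlim
      refine h2.congr' ?_
      filter_upwards [eventually_gt_atTop 0] with K hK
      rw [bavg_commute S b hb K c hc, hbavg K hK]
      rfl
    have h3 := h1.cauchySeq
    rw [Metric.cauchySeq_iff] at h3
    obtain ⟨N, hN⟩ := h3 (ε / 3) (by positivity)
    refine ⟨N, fun m hm n hn => ?_⟩
    have h4 := hN m hm n hn
    have h5 : ∀ K : ℕ, dist (bavg S.D b K y) (bavg S.D b K (c S.vac)) ≤ ε / 3 := by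
      intro K
      rw [dist_eq_norm, ← map_sub]
      refine (norm_bavg_apply_le _ _ _ _).trans ?_
      rw [norm_sub_rev] at hcy
      have h6 : ‖b‖ * ‖y - c S.vac‖ ≤ (‖b‖ + 1) * (ε / (3 * (‖b‖ + 1))) :=
        mul_le_mul (by linarith) hcy.le (norm_nonneg _) (by positivity)
      refine h6.trans (le_of_eq ?_)
      field_simp
    have h7 := h5 m
    have h8 := h5 n
    calc dist (bavg S.D b m y) (bavg S.D b n y)
        ≤ dist (bavg S.D b m y) (bavg S.D b m (c S.vac))
          + dist (bavg S.D b m (c S.vac)) (bavg S.D b n (c S.vac))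
          + dist (bavg S.D b n (c S.vac)) (bavg S.D b n y) := dist_triangle4 _ _ _ _
      _ < ε / 3 + ε / 3 + ε / 3 := by
          rw [dist_comm (bavg S.D b n (c S.vac))]
          linarith
      _ = ε := by ring
  choose f hf using hconv
  have hf' : Tendsto (fun (n : ℕ) (x : H) => bavg S.D b n x) atTop (𝓝 f) := by
    rw [tendsto_pi_nhds]; exact hf
  let B : H →L[ℂ] H := continuousLinearMapOfTendsto (fun n : ℕ => bavg S.D b n) hf'
  have hB : ∀ y, Tendsto (fun K : ℕ => bavg S.D b K y) atTop (𝓝 (B y)) := hf
  have hBM : B ∈ S.M := by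
    rw [mem_iff_commutant]
    intro c hc
    ext y
    have h1 : Tendsto (fun K : ℕ => bavg S.D b K (c y)) atTop (𝓝 (B (c y))) := hB (c y)
    have h2 : Tendsto (fun K : ℕ => bavg S.D b K (c y)) atTop (𝓝 (c (B y))) := by
      refine ((c.continuous.tendsto _).comp (hB y)).congr (fun K => ?_)
      exact (bavg_commute S b hb K c hc y).symm
    exact tendsto_nhds_unique h2 h1
  have hBflow : ∀ s : ℝ, S.flow s B = B := by
    intro s
    ext y
    have h1 : Tendsto (fun K : ℕ => S.D.wave s (bavg S.D b K (S.D.wave (-s) y))) atTop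
        (𝓝 (S.D.wave s (B (S.D.wave (-s) y)))) :=
      ((S.D.wave s).continuous.tendsto _).comp (hB _)
    have h2 : Tendsto (fun K : ℕ => S.D.wave s (bavg S.D b K (S.D.wave (-s) y))) atTop
        (𝓝 (B y)) := by
      have h3 := (hB y).add (tendsto_mean_shift (continuous_flv S.D b y) (norm_flv_le S.D b y) s)
      rw [add_zero] at h3
      refine h3.congr' ?_
      filter_upwards [eventually_gt_atTop 0] with K hK
      have hK' : (0 : ℝ) < K := by exact_mod_cast hK
      have hFs : Continuous fun t : ℝ => flv S.D b y (t + s) :=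
        (continuous_flv S.D b y).comp (by fun_prop)
      rw [bavg_apply _ _ hK', bavg_apply _ _ hK',
        mean_sub hFs (continuous_flv S.D b y),
        ← mean_clm _ (continuous_flv S.D b _)]
      rw [add_sub_cancel]
      congr 1
      ext t
      simp only [flv]
      rw [← wave_add_apply, ← wave_add_apply, add_comm t s]
      congr 3
      ring
    exact tendsto_nhds_unique h1 h2
  obtain ⟨c, hc⟩ := herg B hBM hBflow
  have hzc : z = c • S.vac := by
    have h1 : Tendsto (fun K : ℕ => bavg S.D b K S.vac) atTop (𝓝 z) := by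
      refine hzlim.congr' ?_
      filter_upwards [eventually_gt_atTop 0] with K hK
      exact (hbavg K hK).symm
    have h2 := tendsto_nhds_unique h1 (hB S.vac)
    rw [h2, hc]
    simp
  have hcval : c = inner ℂ S.vac (b S.vac) := by
    have h1 : Tendsto (fun K : ℕ => inner ℂ S.vac (mean (fun t => S.D.wave t (b S.vac)) K)) atTop
        (𝓝 (inner ℂ S.vac z)) := Tendsto.inner tendsto_const_nhds hzlim
    have h2 : Tendsto (fun K : ℕ => inner ℂ S.vac (mean (fun t => S.D.wave t (b S.vac)) K)) atTop
        (𝓝 (inner ℂ S.vac (b S.vac))) := by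
      refine tendsto_const_nhds.congr' ?_
      filter_upwards [eventually_gt_atTop 0] with K hK
      have hK' : (0 : ℝ) < K := by exact_mod_cast hK
      have h3 : ∀ t : ℝ, inner ℂ S.vac (S.D.wave t (b S.vac)) = inner ℂ S.vac (b S.vac) := by
        intro t
        have := inner_wave_left S.D (-t) S.vac (b S.vac)
        rw [wave_vac, neg_neg] at this
        exact this.symm
      rw [mean, ← Complex.coe_smul, inner_smul_right]
      have h4 : inner ℂ S.vac (∫ t in (-(K:ℝ))..K, S.D.wave t (b S.vac))
          = ∫ t in (-(K:ℝ))..K, inner ℂ S.vac (S.D.wave t (b S.vac)) := by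
        exact ((innerSL ℂ S.vac).intervalIntegral_comp_comm
          ((continuous_wave_apply S.D (b S.vac)).intervalIntegrable _ _)).symm
      rw [h4]
      simp only [h3]
      rw [intervalIntegral.integral_const, ← Complex.coe_smul, smul_eq_mul, ← mul_assoc,
        ← Complex.ofReal_mul]
      have h5 : (2 * (K:ℝ))⁻¹ * (K - -K) = 1 := by field_simp; ring
      rw [h5]
      simp
    have h3 := tendsto_nhds_unique h1 h2
    rw [hzc, inner_smul_right, inner_self_eq_norm_sq_to_K, S.norm_vac] at h3
    simpa using h3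
  rw [← hcval, ← hzc]
  exact hzlim

end Crest.Agent.S0112
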