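import Crest.Agent.S0112_Rand

/-! A smoothing kernel (helper file for S0112). -/

set_option autoImplicit false

namespace Crest.Agent.S0112
open Crest.OpAlg Filter MeasureTheory
open scoped Topology BoundedContinuousFunction ContDiff SchwartzMap FourierTransform

theorem exists_kernel : ∃ Cβ : ℝ, 0 < Cβ ∧ ∀ (s r : ℝ), 0 < r →
    ∃ (k : ℝ → ℂ) (_ : Integrable k) (θ : ℝ) (ψ : BoundedContinuousFunction ℝ ℂ),
      (∀ u : ℝ, ψ u = ∫ w, k w * Complex.exp (Complex.I * ((θ * w * u : ℝ) : ℂ))) ∧ ‖ψ‖ ≤ 1 ∧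
      (∀ u ∈ Set.Icc (s - r) (s + r), ψ u = 1) ∧
      (∀ u, u ∉ Set.Icc (s - 2 * r) (s + 2 * r) → ψ u = 0) ∧ ∫ w, ‖k w‖ ≤ Cβ := by
  let β : ContDiffBump (0 : ℝ) := ⟨1, 2, one_pos, one_lt_two⟩
  let f : ℝ → ℂ := fun u => ((β u : ℝ) : ℂ)
  have hfc : HasCompactSupport f := by
    have h1 : HasCompactSupport (β : ℝ → ℝ) := β.hasCompactSupport
    exact h1.comp_left (g := fun x : ℝ => (x : ℂ)) Complex.ofReal_zero
  have hfs : ContDiff ℝ ∞ f := Complex.ofRealCLM.contDiff.comp β.contDiff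
  let fS : 𝓢(ℝ, ℂ) := hfc.toSchwartzMap hfs
  let g : 𝓢(ℝ, ℂ) := 𝓕 fS
  have hinv : ∀ u : ℝ, f u = ∫ w : ℝ, Complex.exp (((2 * Real.pi * (w * u) : ℝ) : ℂ) * Complex.I) * g w := by
    intro u
    have h1 : 𝓕⁻ g = fS := FourierTransform.fourierInv_fourier_eq fS
    have h2 : f u = (𝓕⁻ g) u := by rw [h1]; rfl
    rw [h2, SchwartzMap.fourierInv_coe, Real.fourierInv_eq']
    congr 1
    ext w
    rw [smul_eq_mul]
    congr 3
    simp
    ring
  refine ⟨(∫ w, ‖g w‖) + 1, ?_, ?_⟩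
  · have : 0 ≤ ∫ w, ‖g w‖ := integral_nonneg fun w => norm_nonneg _
    linarith
  intro s r hr
  let ph : ℝ → ℂ := fun w => Complex.exp (((-(2 * Real.pi * (w * (s / r))) : ℝ) : ℂ) * Complex.I)
  have hph : ∀ w, ‖ph w‖ = 1 := fun w => Complex.norm_exp_ofReal_mul_I _
  have hphc : Continuous ph := by fun_prop
  let k : ℝ → ℂ := fun w => ph w * g w
  have hkn : ∀ w, ‖k w‖ = ‖g w‖ := fun w => by rw [norm_mul, hph, one_mul]
  have hk : Integrable k := by
    refine Integrable.mono' g.integrable.norm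
      (hphc.aestronglyMeasurable.mul g.continuous.aestronglyMeasurable)
      (Eventually.of_forall fun w => (hkn w).le)
  have hle1 : ∀ u, ‖f ((u - s) / r)‖ ≤ 1 := by
    intro u
    rw [Complex.norm_real, Real.norm_eq_abs, abs_of_nonneg β.nonneg]
    exact β.le_one
  let ψ : BoundedContinuousFunction ℝ ℂ := BoundedContinuousFunction.ofNormedAddCommGroup
    (fun u : ℝ => f ((u - s) / r)) (hfs.continuous.comp (by fun_prop)) 1 hle1
  have hψ : ∀ u, ψ u = f ((u - s) / r) := fun u => rfl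
  refine ⟨k, hk, 2 * Real.pi / r, ψ, ?_, ?_, ?_, ?_, ?_⟩
  · intro u
    rw [hψ, hinv]
    congr 1
    ext w
    change _ = ph w * g w * _
    rw [mul_right_comm (ph w) (g w)]
    congr 1
    change _ = Complex.exp _ * Complex.exp _
    rw [← Complex.exp_add]
    congr 1
    push_cast
    have hr' : (r : ℂ) ≠ 0 := by exact_mod_cast hr.ne'
    field_simp
    ring
  · rw [BoundedContinuousFunction.norm_le zero_le_one]
    exact hle1
  · intro u hu
    rw [hψ]
    have h1 : (u - s) / r ∈ Metric.closedBall (0 : ℝ) β.rIn := by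
      rw [Metric.mem_closedBall, dist_zero_right, Real.norm_eq_abs, abs_div, abs_of_pos hr]
      change |u - s| / r ≤ 1
      rw [div_le_one hr, abs_le]
      constructor <;> linarith [hu.1, hu.2]
    have h2 : β ((u - s) / r) = 1 := β.one_of_mem_closedBall h1
    change ((β ((u - s) / r) : ℝ) : ℂ) = 1
    rw [h2, Complex.ofReal_one]
  · intro u hu
    rw [hψ]
    have h1 : β.rOut ≤ dist ((u - s) / r) 0 := by
      rw [dist_zero_right, Real.norm_eq_abs, abs_div, abs_of_pos hr]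
      change 2 ≤ |u - s| / r
      rw [le_div_iff₀ hr]
      by_contra hcon
      push Not at hcon
      apply hu
      rw [abs_lt] at hcon
      constructor <;> linarith [hcon.1, hcon.2]
    have h2 : β ((u - s) / r) = 0 := β.zero_of_le_dist h1
    change ((β ((u - s) / r) : ℝ) : ℂ) = 0
    rw [h2, Complex.ofReal_zero]
  · simp_rw [hkn]
    linarith

end Crest.Agent.S0112
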