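import Crest.Agent.S0112_Smooth

/-! Modular facts (helper file for S0112). -/

set_option autoImplicit false

namespace Crest.Agent.S0112
open Crest.OpAlg Filter MeasureTheory
open scoped Topology BoundedContinuousFunction ContDiff

variable {H : Type*} [NormedAddCommGroup H] [InnerProductSpace ℂ H] [CompleteSpace H]

/-- product of a compactly supported function with a continuous function, as a bounded function -/
noncomputable def cmul (g : BoundedContinuousFunction ℝ ℂ) (hg : HasCompactSupport (g : ℝ → ℂ))
    (m : ℝ → ℂ) (hm : Continuous m) : BoundedContinuousFunction ℝ ℂ :=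
  BoundedContinuousFunction.ofNormedAddCommGroup (fun u => g u * m u) (g.continuous.mul hm)
    (Classical.choose ((hg.mul_right (f' := m)).exists_bound_of_continuous (g.continuous.mul hm)))
    (Classical.choose_spec ((hg.mul_right (f' := m)).exists_bound_of_continuous
      (g.continuous.mul hm)))

theorem cmul_apply (g : BoundedContinuousFunction ℝ ℂ) (hg : HasCompactSupport (g : ℝ → ℂ))
    (m : ℝ → ℂ) (hm : Continuous m) (u : ℝ) : cmul g hg m hm u = g u * m u := rfl

theorem cmul_compact (g : BoundedContinuousFunction ℝ ℂ) (hg : HasCompactSupport (g : ℝ → ℂ))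
    (m : ℝ → ℂ) (hm : Continuous m) : HasCompactSupport (cmul g hg m hm : ℝ → ℂ) :=
  hg.mul_right (f' := m)

/-- cut-off vanishing near zero -/
noncomputable def chi (r : ℝ) : BoundedContinuousFunction ℝ ℂ :=
  BoundedContinuousFunction.ofNormedAddCommGroup
    (fun u : ℝ => ((min 1 (max 0 (|u| / r - 1)) : ℝ) : ℂ)) (by fun_prop) 1
    (fun u => by
      rw [Complex.norm_real, Real.norm_eq_abs, abs_of_nonneg (le_min zero_le_one (le_max_left _ _))]
      exact min_le_left _ _)

theorem chi_apply (r u : ℝ) : chi r u = ((min 1 (max 0 (|u| / r - 1)) : ℝ) : ℂ) := rfl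

theorem eq_zero_of_window (D : LineCalculus H) (y : H)
    (h : ∀ g : BoundedContinuousFunction ℝ ℂ, HasCompactSupport (g : ℝ → ℂ) → D.apply g y = 0) :
    y = 0 := by
  rw [← norm_le_zero_iff]
  apply le_of_forall_pos_le_add
  intro ε hε
  obtain ⟨g, hg, hgy⟩ := D.window y ε hε
  rw [h g hg, zero_sub, norm_neg] at hgy
  linarith

theorem wave_fixed_of_vanishing (D : LineCalculus H) (z : H)
    (hz : ∀ h : BoundedContinuousFunction ℝ ℂ, HasCompactSupport (h : ℝ → ℂ) →
      (∃ r : ℝ, 0 < r ∧ ∀ u, |u| ≤ r → h u = 0) → D.apply h z = 0) (t : ℝ) :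
    D.wave t z = z := by
  rw [← sub_eq_zero]
  apply eq_zero_of_window D
  intro g hg
  have h1 : D.wave t z - z = D.apply (LineCalculus.character t - 1) z := by
    simp [LineCalculus.wave]
  have h2 : D.apply g (D.wave t z - z) = D.apply (g * (LineCalculus.character t - 1)) z := by
    rw [h1, map_mul]; rfl
  rw [h2]
  -- bound by r
  have hb : ∀ r : ℝ, 0 < r → ‖D.apply (g * (LineCalculus.character t - 1)) z‖
      ≤ (2 * ‖g‖ * |t| * ‖z‖) * r := by
    intro r hr
    have h3 : D.apply (g * (LineCalculus.character t - 1) * chi r) z = 0 := by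
      apply hz
      · have : (⇑(g * (LineCalculus.character t - 1) * chi r) : ℝ → ℂ)
            = fun u => g u * ((LineCalculus.character t u - 1) * chi r u) := by
          ext u
          simp [mul_assoc]
        rw [this]
        exact hg.mul_right
      · refine ⟨r, hr, fun u hu => ?_⟩
        have : chi r u = 0 := by
          rw [chi_apply]
          have h4 : |u| / r - 1 ≤ 0 := by
            rw [sub_nonpos, div_le_one hr]; exact hu
          rw [max_eq_left h4]
          simp
        simp [this]
    have h4 : D.apply (g * (LineCalculus.character t - 1)) z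
        = D.apply (g * (LineCalculus.character t - 1) * (1 - chi r)) z := by
      rw [show g * (LineCalculus.character t - 1) * (1 - chi r)
        = g * (LineCalculus.character t - 1) - g * (LineCalculus.character t - 1) * chi r by ring,
        map_sub, sub_apply, h3, sub_zero]
    rw [h4]
    refine ((D.apply _).le_opNorm z).trans ?_
    have h5 : ‖g * (LineCalculus.character t - 1) * (1 - chi r)‖ ≤ ‖g‖ * (|t| * (2 * r)) := by
      rw [BoundedContinuousFunction.norm_le (by positivity)]
      intro u
      rw [BoundedContinuousFunction.mul_apply, BoundedContinuousFunction.mul_apply, mul_assoc,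
        norm_mul]
      refine mul_le_mul (g.norm_coe_le_norm u) ?_ (norm_nonneg _) (norm_nonneg _)
      rw [norm_mul]
      have hval : (1 - chi r : BoundedContinuousFunction ℝ ℂ) u
          = ((1 - min 1 (max 0 (|u| / r - 1)) : ℝ) : ℂ) := by
        simp [chi_apply]
      have hval2 : (LineCalculus.character t - 1 : BoundedContinuousFunction ℝ ℂ) u
          = Complex.exp (Complex.I * ((t * u : ℝ) : ℂ)) - 1 := by
        simp [character_apply]
      rw [hval, hval2, Complex.norm_real, Real.norm_eq_abs]
      by_cases hu : |u| ≤ 2 * r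
      · have h6 := Real.norm_exp_I_mul_ofReal_sub_one_le (x := t * u)
        have h7 : |1 - min 1 (max 0 (|u| / r - 1))| ≤ 1 := by
          rw [abs_le]
          constructor
          · linarith [min_le_left 1 (max 0 (|u| / r - 1))]
          · linarith [le_min zero_le_one (le_max_left 0 (|u| / r - 1))]
        have h8 : ‖t * u‖ ≤ |t| * (2 * r) := by
          rw [Real.norm_eq_abs, abs_mul]
          exact mul_le_mul_of_nonneg_left hu (abs_nonneg _)
        calc _ ≤ (|t| * (2 * r)) * 1 := mul_le_mul (h6.trans h8) h7 (abs_nonneg _) (by positivity)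
          _ = _ := mul_one _
      · push Not at hu
        have h6 : 1 ≤ |u| / r - 1 := by
          rw [le_sub_iff_add_le, le_div_iff₀ hr]; linarith
        have h7 : min 1 (max 0 (|u| / r - 1)) = 1 := by
          rw [min_eq_left]
          exact h6.trans (le_max_right _ _)
        rw [h7]
        simp
        positivity
    refine (mul_le_mul_of_nonneg_right ((norm_apply_le D _).trans h5) (norm_nonneg z)).trans ?_
    apply le_of_eq
    ring
  rw [← norm_le_zero_iff]
  apply le_of_forall_pos_le_add
  intro ε hε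
  set C := 2 * ‖g‖ * |t| * ‖z‖ with hC
  have hC0 : 0 ≤ C := by positivity
  refine (hb (ε / (C + 1)) (by positivity)).trans ?_
  rw [zero_add, ← mul_div_assoc, div_le_iff₀ (by positivity)]
  nlinarith

/-- a conjugate-linear isometry reverses inner products -/
theorem inner_conj_isometry (J : H ≃ₗᵢ⋆[ℂ] H) (x y : H) :
    inner ℂ (J x) (J y) = inner ℂ y x := by
  have hre : ∀ a b : H, (inner ℂ (J a) (J b) : ℂ).re = (inner ℂ b a : ℂ).re := by
    intro a b
    have h1 : ‖J a + J b‖ = ‖a + b‖ := by rw [← map_add, J.norm_map]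
    have h2 := norm_add_sq (𝕜 := ℂ) (J a) (J b)
    have h3 := norm_add_sq (𝕜 := ℂ) a b
    rw [h1, h3, J.norm_map, J.norm_map] at h2
    simp only [RCLike.re_to_complex] at h2
    have h4 : (inner ℂ a b : ℂ).re = (inner ℂ b a : ℂ).re := by
      have := inner_re_symm (𝕜 := ℂ) a b
      simpa using this
    have h5 : RCLike.re (inner ℂ a b) = (inner ℂ a b : ℂ).re := rfl
    linarith
  apply Complex.ext
  · exact hre x y
  · have h5 := hre (Complex.I • x) y
    rw [LinearIsometryEquiv.map_smulₛₗ, inner_smul_left, inner_smul_right] at h5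
    simp at h5
    linarith

section ModularFacts

variable (S : ModularDatum H)

theorem halfExp_of_mem (a : H →L[ℂ] H) (ha : a ∈ S.M) :
    S.D.HalfExp (a S.vac) (S.J (star a S.vac)) := by
  have h1 : (a S.vac, star a S.vac) ∈
      closure (Set.range fun a : S.M => ((a : H →L[ℂ] H) S.vac, star (a : H →L[ℂ] H) S.vac)) :=
    subset_closure ⟨⟨a, ha⟩, rfl⟩
  rw [S.tomita] at h1
  exact h1

theorem inner_of_halfExp (p : H × H) (hp : S.D.HalfExp p.1 (S.J p.2)) :
    inner ℂ S.vac p.2 = inner ℂ p.1 S.vac := by
  have h1 : p ∈ closure (Set.range fun a : S.M =>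
      ((a : H →L[ℂ] H) S.vac, star (a : H →L[ℂ] H) S.vac)) := by
    rw [S.tomita]; exact hp
  have h2 : closure (Set.range fun a : S.M =>
      ((a : H →L[ℂ] H) S.vac, star (a : H →L[ℂ] H) S.vac)) ⊆
      {p : H × H | inner ℂ S.vac p.2 = inner ℂ p.1 S.vac} := by
    apply closure_minimal
    · rintro _ ⟨a, rfl⟩
      simp only [Set.mem_ofPred_eq]
      rw [ContinuousLinearMap.star_eq_adjoint, ContinuousLinearMap.adjoint_inner_right]
    · exact isClosed_eq (by fun_prop) (by fun_prop)
  exact h2 h1

theorem continuous_expHalf : Continuous fun u : ℝ => ((Real.exp (u / 2) : ℝ) : ℂ) := by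
  fun_prop

/-- g times exp(u/2) -/
noncomputable def eg (g : BoundedContinuousFunction ℝ ℂ) (hg : HasCompactSupport (g : ℝ → ℂ)) :
    BoundedContinuousFunction ℝ ℂ :=
  cmul g hg (fun u : ℝ => ((Real.exp (u / 2) : ℝ) : ℂ)) continuous_expHalf

theorem eg_apply (g : BoundedContinuousFunction ℝ ℂ) (hg : HasCompactSupport (g : ℝ → ℂ)) (u : ℝ) :
    eg g hg u = g u * ((Real.exp (u / 2) : ℝ) : ℂ) := rfl

theorem eg_compact (g : BoundedContinuousFunction ℝ ℂ) (hg : HasCompactSupport (g : ℝ → ℂ)) :
    HasCompactSupport (eg g hg : ℝ → ℂ) := cmul_compact _ _ _ _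

theorem halfExp_cut (D : LineCalculus H) (g : BoundedContinuousFunction ℝ ℂ)
    (hg : HasCompactSupport (g : ℝ → ℂ)) (x : H) :
    D.HalfExp (D.apply g x) (D.apply (eg g hg) x) := by
  intro f f' hf
  have h1 : f * eg g hg = f' * g := by
    ext u
    rw [BoundedContinuousFunction.mul_apply, BoundedContinuousFunction.mul_apply, eg_apply, hf u]
    ring
  have h2 : D.apply f (D.apply (eg g hg) x) = D.apply (f * eg g hg) x := by rw [map_mul]; rfl
  have h3 : D.apply f' (D.apply g x) = D.apply (f' * g) x := by rw [map_mul]; rfl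
  rw [h2, h3, h1]

theorem star_vac_step1 (f : BoundedContinuousFunction ℝ ℂ) (hf : HasCompactSupport (f : ℝ → ℂ)) :
    S.D.apply f (S.J S.vac) = S.D.apply (eg f hf) S.vac := by
  have h1 := halfExp_of_mem S 1 (one_mem _)
  have h2 := h1 f (eg f hf) (fun u => rfl)
  simpa using h2

theorem star_compact (g : BoundedContinuousFunction ℝ ℂ) (hg : HasCompactSupport (g : ℝ → ℂ)) :
    HasCompactSupport ((star g : BoundedContinuousFunction ℝ ℂ) : ℝ → ℂ) := by
  have : ((star g : BoundedContinuousFunction ℝ ℂ) : ℝ → ℂ) = fun u => star (g u) := by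
    ext u; simp
  rw [this]
  exact hg.comp_left (star_zero ℂ)

theorem star_vac_step2 (g : BoundedContinuousFunction ℝ ℂ) (hg : HasCompactSupport (g : ℝ → ℂ)) :
    S.D.apply (eg g hg) (S.J S.vac) = S.D.apply g S.vac := by
  apply ext_inner_left ℂ
  intro x
  have hg' := star_compact g hg
  have h1 : star (eg g hg) = eg (star g) hg' := by
    ext u
    simp only [BoundedContinuousFunction.star_apply, eg_apply, star_mul', Complex.star_def,
      Complex.conj_ofReal]
  have h2 := inner_of_halfExp S (S.D.apply (star g) x, S.J (S.D.apply (eg (star g) hg') x))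
    (by
      simp only [S.J_J]
      exact halfExp_cut S.D (star g) hg' x)
  simp only at h2
  have h3 : inner ℂ S.vac (S.J (S.D.apply (eg (star g) hg') x))
      = inner ℂ (S.D.apply (eg (star g) hg') x) (S.J S.vac) := by
    conv_lhs => rw [← S.J_J S.vac]
    rw [inner_conj_isometry]
  rw [h3] at h2
  have h4 : ∀ (f : BoundedContinuousFunction ℝ ℂ) (a b : H),
      inner ℂ (S.D.apply (star f) a) b = inner ℂ a (S.D.apply f b) := by
    intro f a b
    rw [map_star, ContinuousLinearMap.star_eq_adjoint, ContinuousLinearMap.adjoint_inner_left]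
  rw [← h4 (eg g hg) x, ← h4 g x, h1, h2]
  
theorem wave_vac (t : ℝ) : S.D.wave t S.vac = S.vac := by
  apply wave_fixed_of_vanishing
  intro h hh ⟨r, hr, hrz⟩
  set c : ℝ := 1 - Real.exp (-r) with hc
  have hc0 : 0 < c := by
    rw [hc, sub_pos, Real.exp_lt_one_iff]; linarith
  set m : ℝ → ℂ := fun u => (((Real.exp u - 1) / max ((Real.exp u - 1) ^ 2) (c ^ 2) : ℝ) : ℂ)
    with hm
  have hmc : Continuous m := by
    apply Complex.continuous_ofReal.comp
    apply Continuous.div (by fun_prop) (by fun_prop)
    intro u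
    exact (lt_of_lt_of_le (by positivity) (le_max_right _ _)).ne'
  set g := cmul h hh m hmc with hg
  have hgc : HasCompactSupport (g : ℝ → ℂ) := cmul_compact _ _ _ _
  have h1 : S.D.apply (eg (eg g hgc) (eg_compact g hgc)) S.vac = S.D.apply g S.vac := by
    rw [← star_vac_step1, star_vac_step2]
  have h2 : eg (eg g hgc) (eg_compact g hgc) - g = h := by
    ext u
    rw [BoundedContinuousFunction.sub_apply, eg_apply, eg_apply, hg, cmul_apply]
    by_cases hu : |u| ≤ r
    · rw [hrz u hu]; simp
    · push Not at hu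
      have h3 : c ^ 2 ≤ (Real.exp u - 1) ^ 2 := by
        rw [← sq_abs (Real.exp u - 1)]
        apply pow_le_pow_left₀ hc0.le
        rcases lt_abs.mp hu with h4 | h4
        · have h5 : Real.exp r ≤ Real.exp u := Real.exp_le_exp.mpr h4.le
          have h6 : 1 < Real.exp r := Real.one_lt_exp_iff.mpr hr
          rw [abs_of_nonneg (by linarith), hc, Real.exp_neg]
          have h7 : (Real.exp r)⁻¹ * Real.exp r = 1 := inv_mul_cancel₀ (by positivity)
          have h8 : 0 < (Real.exp r)⁻¹ := by positivity
          nlinarith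
        · have h5 : Real.exp u ≤ Real.exp (-r) := Real.exp_le_exp.mpr (by linarith)
          rw [abs_of_nonpos (by
            have : Real.exp (-r) < 1 := Real.exp_lt_one_iff.mpr (by linarith)
            linarith), hc]
          linarith
      have h4 : Real.exp (u / 2) * Real.exp (u / 2) = Real.exp u := by
        rw [← Real.exp_add]; congr 1; ring
      have h5 : (Real.exp u - 1) ^ 2 ≠ 0 := by
        have : 0 < c ^ 2 := by positivity
        linarith
      have h6 : m u * ((Real.exp u - 1 : ℝ) : ℂ) = 1 := by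
        simp only [hm]
        rw [max_eq_left h3, ← Complex.ofReal_mul, div_mul_eq_mul_div, ← sq, div_self h5,
          Complex.ofReal_one]
      calc h u * m u * ((Real.exp (u / 2) : ℝ) : ℂ) * ((Real.exp (u / 2) : ℝ) : ℂ) - h u * m u
          = h u * (m u * (((Real.exp (u / 2) * Real.exp (u / 2) - 1 : ℝ)) : ℂ)) := by
            push_cast; ring
        _ = h u * (m u * ((Real.exp u - 1 : ℝ) : ℂ)) := by rw [h4]
        _ = h u := by rw [h6, mul_one]
  rw [← h2, map_sub, sub_apply, h1, sub_self]

theorem norm_star_vac_le (a : H →L[ℂ] H) (ha : a ∈ S.M) (lo b : ℝ)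
    (hb : S.D.SupportedIn (Set.Icc lo b) (a S.vac)) :
    ‖star a S.vac‖ ≤ Real.exp (b / 2) * ‖a S.vac‖ := by
  set x := a S.vac with hx
  set y := S.J (star a S.vac) with hy
  have hxy : S.D.HalfExp x y := halfExp_of_mem S a ha
  have hny : ‖y‖ = ‖star a S.vac‖ := S.J.norm_map _
  set e : BoundedContinuousFunction ℝ ℂ := BoundedContinuousFunction.ofNormedAddCommGroup
    (fun u : ℝ => ((Real.exp (min u b / 2) : ℝ) : ℂ)) (by fun_prop) (Real.exp (b / 2))
    (fun u => by
      rw [Complex.norm_real, Real.norm_eq_abs, abs_of_pos (Real.exp_pos _)]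
      apply Real.exp_le_exp.mpr
      linarith [min_le_right u b]) with he
  have hev : ∀ u, e u = ((Real.exp (min u b / 2) : ℝ) : ℂ) := fun u => rfl
  have hen : ‖e‖ ≤ Real.exp (b / 2) := by
    rw [BoundedContinuousFunction.norm_le (Real.exp_pos _).le]
    intro u
    rw [hev, Complex.norm_real, Real.norm_eq_abs, abs_of_pos (Real.exp_pos _)]
    apply Real.exp_le_exp.mpr
    linarith [min_le_right u b]
  have h1 : y = S.D.apply e x := by
    rw [← sub_eq_zero]
    apply eq_zero_of_window S.D
    intro g hg
    have h2 : S.D.apply g y = S.D.apply (eg g hg) x := hxy g (eg g hg) (fun u => rfl)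
    have h3 : S.D.apply (eg g hg - g * e) x = 0 := by
      apply hb
      intro u hu
      rw [BoundedContinuousFunction.sub_apply, BoundedContinuousFunction.mul_apply, eg_apply, hev,
        min_eq_left hu.2, sub_self]
    rw [map_sub, h2]
    have h4 : S.D.apply g (S.D.apply e x) = S.D.apply (g * e) x := by rw [map_mul]; rfl
    rw [h4]
    rw [map_sub, sub_apply] at h3
    exact h3
  rw [← hny, h1]
  exact ((S.D.apply e).le_opNorm x).trans (mul_le_mul_of_nonneg_right
    ((norm_apply_le S.D e).trans hen) (norm_nonneg _))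

theorem flow_commutant (t : ℝ) (b : H →L[ℂ] H) (hb : b ∈ S.M.commutant) :
    S.D.wave t * b * S.D.wave (-t) ∈ S.M.commutant := by
  rw [VonNeumannAlgebra.mem_commutant_iff] at hb ⊢
  intro g hg
  have h1 := S.flow_mem (-t) g hg
  rw [neg_neg] at h1
  have h2 := hb _ h1
  have h3 := wave_mul_neg S.D t
  have h4 := wave_neg_mul S.D t
  calc g * (S.D.wave t * b * S.D.wave (-t))
      = (S.D.wave t * S.D.wave (-t)) * g * (S.D.wave t * b * S.D.wave (-t)) := by
        rw [h3, one_mul]
    _ = S.D.wave t * ((S.D.wave (-t) * g * S.D.wave t) * b) * S.D.wave (-t) := by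
        simp only [mul_assoc]
    _ = S.D.wave t * (b * (S.D.wave (-t) * g * S.D.wave t)) * S.D.wave (-t) := by rw [h2]
    _ = (S.D.wave t * b * S.D.wave (-t)) * g * (S.D.wave t * S.D.wave (-t)) := by
        simp only [mul_assoc]
    _ = (S.D.wave t * b * S.D.wave (-t)) * g := by rw [h3, mul_one]

theorem commutant_dense (x : H) (ε : ℝ) (hε : 0 < ε) :
    ∃ b ∈ S.M.commutant, ‖b S.vac - x‖ < ε := by
  let V₀ : Submodule ℂ H :=
    { carrier := {x | ∃ b ∈ S.M.commutant, b S.vac = x}
      add_mem' := by
        rintro _ _ ⟨a, ha, rfl⟩ ⟨b, hb, rfl⟩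
        exact ⟨a + b, add_mem ha hb, by simp⟩
      zero_mem' := ⟨0, zero_mem _, by simp⟩
      smul_mem' := by
        rintro c _ ⟨a, ha, rfl⟩
        refine ⟨c • a, ?_, by simp⟩
        exact S.M.commutant.toStarSubalgebra.smul_mem ha c }
  set V := V₀.topologicalClosure with hV
  have : CompleteSpace V := V₀.isClosed_topologicalClosure.completeSpace_coe
  have hP : V.starProjection ∈ S.M := by
    rw [VonNeumannAlgebra.IsStarProjection.mem_iff (isStarProjection_starProjection)]
    intro y hy
    rw [Submodule.range_starProjection, Module.End.mem_invtSubmodule]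
    intro v hv
    rw [Submodule.mem_comap]
    have h1 : Set.MapsTo y (V₀ : Set H) (V₀ : Set H) := by
      rintro _ ⟨b, hb, rfl⟩
      exact ⟨y * b, mul_mem hy hb, by simp⟩
    have h2 := h1.closure y.continuous
    exact h2 hv
  have h1 : (1 - V.starProjection) S.vac = 0 := by
    have h2 : S.vac ∈ V := by
      apply V₀.le_topologicalClosure
      exact ⟨1, one_mem _, by simp⟩
    have h3 := V.starProjection_eq_self_iff.mpr h2
    simp [h3]
  have h2 := S.separating _ (sub_mem (one_mem _) hP) h1
  have h3 : x ∈ V := by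
    rw [← V.starProjection_eq_self_iff]
    have h4 := congrArg (fun A : H →L[ℂ] H => A x) h2
    simp only [sub_apply, zero_apply] at h4
    exact (sub_eq_zero.mp h4).symm
  obtain ⟨y, ⟨b, hb, rfl⟩, hyx⟩ := Metric.mem_closure_iff.mp
    (show x ∈ closure (V₀ : Set H) from h3) ε hε
  refine ⟨b, hb, ?_⟩
  rw [dist_eq_norm, norm_sub_rev] at hyx
  exact hyx

end ModularFacts

end Crest.Agent.S0112
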