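import Crest.Agent.S0112_Erg

/-! Random sums and Riemann sums (helper file for S0112). -/

set_option autoImplicit false

namespace Crest.Agent.S0112
open Crest.OpAlg Filter MeasureTheory
open scoped Topology BoundedContinuousFunction ContDiff

section Rand

variable {H : Type*} [NormedAddCommGroup H] [InnerProductSpace ℂ H]

/-- the fourth root of unity attached to a class mod 4 -/
noncomputable def ch (a : ZMod 4) : ℂ := ZMod.stdAddChar a

theorem ch_add (a b : ZMod 4) : ch (a + b) = ch a * ch b := AddChar.map_add_eq_mul _ _ _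

theorem ch_zero : ch 0 = 1 := AddChar.map_zero_eq_one _

theorem norm_ch (a : ZMod 4) : ‖ch a‖ = 1 := by
  rw [ch, ZMod.stdAddChar_apply]; simp

theorem conj_ch (a : ZMod 4) : (starRingEnd ℂ) (ch a) = ch (-a) := by
  have h1 : ch a * ch (-a) = 1 := by rw [← ch_add]; simp [ch_zero]
  have h2 : ch a * (starRingEnd ℂ) (ch a) = 1 := by
    rw [Complex.mul_conj, Complex.normSq_eq_norm_sq, norm_ch]; simp
  have h3 : ch a ≠ 0 := by
    intro h; rw [h, zero_mul] at h1; exact zero_ne_one h1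
  exact mul_left_cancel₀ h3 (h2.trans h1.symm)

theorem ch_ne_one {a : ZMod 4} (ha : a ≠ 0) : ch a ≠ 1 := by
  intro h
  apply ha
  apply ZMod.injective_stdAddChar
  change ch a = ch 0
  rw [h, ch_zero]

theorem sum_ch_eq_zero {ι : Type*} [Fintype ι] [DecidableEq ι] (φ : (ι → ZMod 4) → ZMod 4)
    (hφ : ∀ z w, φ (z + w) = φ z + φ w) (w : ι → ZMod 4) (hw : φ w ≠ 0) :
    ∑ z : ι → ZMod 4, ch (φ z) = 0 := by
  have h1 : ∑ z : ι → ZMod 4, ch (φ z) = (∑ z : ι → ZMod 4, ch (φ z)) * ch (φ w) := by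
    rw [Finset.sum_mul]
    rw [← Equiv.sum_comp (Equiv.addRight w)]
    apply Finset.sum_congr rfl
    intro z _
    rw [Equiv.coe_addRight, hφ, ch_add]
  have h2 : (∑ z : ι → ZMod 4, ch (φ z)) * (1 - ch (φ w)) = 0 := by
    rw [mul_sub, mul_one, ← h1, sub_self]
  rcases mul_eq_zero.mp h2 with h3 | h3
  · exact h3
  · exact absurd (sub_eq_zero.mp h3).symm (ch_ne_one hw)

theorem ortho_sum {Z I : Type*} [Fintype Z] [DecidableEq I] (s : Finset I) (e : I → Z → ℂ)
    (x : I → H)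
    (horth : ∀ i ∈ s, ∀ j ∈ s, ∑ z, (starRingEnd ℂ) (e i z) * e j z
      = if i = j then (Fintype.card Z : ℂ) else 0) :
    ∑ z, ‖∑ i ∈ s, e i z • x i‖ ^ 2 = Fintype.card Z * ∑ i ∈ s, ‖x i‖ ^ 2 := by
  have h1 : (((∑ z, ‖∑ i ∈ s, e i z • x i‖ ^ 2 : ℝ)) : ℂ)
      = ((Fintype.card Z * ∑ i ∈ s, ‖x i‖ ^ 2 : ℝ) : ℂ) := by
    have h2 : ∀ v : H, ((‖v‖ ^ 2 : ℝ) : ℂ) = inner ℂ v v := by
      intro v
      rw [inner_self_eq_norm_sq_to_K]; norm_cast
    rw [Complex.ofReal_sum]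
    simp_rw [h2, sum_inner, inner_sum, inner_smul_left, inner_smul_right]
    rw [Finset.sum_comm]
    rw [Complex.ofReal_mul, Complex.ofReal_sum, Finset.mul_sum]
    apply Finset.sum_congr rfl
    intro i hi
    rw [Finset.sum_comm]
    have h3 : ∀ j ∈ s, ∑ z, (starRingEnd ℂ) (e i z) * (e j z * inner ℂ (x i) (x j))
        = if i = j then (Fintype.card Z : ℂ) * inner ℂ (x i) (x i) else 0 := by
      intro j hj
      have h4 : ∑ z, (starRingEnd ℂ) (e i z) * (e j z * inner ℂ (x i) (x j))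
          = (∑ z, (starRingEnd ℂ) (e i z) * e j z) * inner ℂ (x i) (x j) := by
        rw [Finset.sum_mul]
        apply Finset.sum_congr rfl
        intro z _
        ring
      rw [h4, horth i hi j hj]
      by_cases hij : i = j
      · subst hij; simp
      · simp [hij]
    rw [Finset.sum_congr rfl h3, Finset.sum_ite_eq]
    simp only [hi, if_true]
    rw [h2]
    norm_cast
  exact_mod_cast h1

theorem card_Z_pos {ι : Type*} [Fintype ι] [DecidableEq ι] :
    (0 : ℝ) < Fintype.card (ι → ZMod 4) := by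
  have : 0 < Fintype.card (ι → ZMod 4) := Fintype.card_pos
  exact_mod_cast this

/-- second moment -/
theorem second_moment {ι : Type*} [Fintype ι] [DecidableEq ι] (x : ι → H) :
    ∑ z : ι → ZMod 4, ‖∑ k, ch (z k) • x k‖ ^ 2
      = Fintype.card (ι → ZMod 4) * ∑ k, ‖x k‖ ^ 2 := by
  apply ortho_sum Finset.univ (fun (k : ι) (z : ι → ZMod 4) => ch (z k)) x
  intro k _ l _
  simp_rw [conj_ch, ← ch_add]
  by_cases hkl : k = l
  · subst hkl
    simp [ch_zero]
  · rw [if_neg hkl]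
    refine sum_ch_eq_zero (fun z => -z k + z l) ?_ (Pi.single l 1) ?_
    · intro z w
      simp only [Pi.add_apply]
      ring
    · simp only [Pi.single_eq_of_ne hkl, Pi.single_eq_same]
      decide

/-- fourth moment, off-diagonal part -/
theorem fourth_moment_off {ι : Type*} [Fintype ι] [DecidableEq ι] (x : ι × ι → H) :
    ∑ z : ι → ZMod 4, ‖∑ p ∈ (Finset.univ : Finset (ι × ι)).filter (fun p => p.1 ≠ p.2),
        ch (z p.2 - z p.1) • x p‖ ^ 2
      = Fintype.card (ι → ZMod 4) *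
        ∑ p ∈ (Finset.univ : Finset (ι × ι)).filter (fun p => p.1 ≠ p.2), ‖x p‖ ^ 2 := by
  apply ortho_sum _ (fun (p : ι × ι) (z : ι → ZMod 4) => ch (z p.2 - z p.1)) x
  rintro ⟨k, l⟩ hkl ⟨m, n⟩ hmn
  simp only [Finset.mem_filter, Finset.mem_univ, true_and, ne_eq] at hkl hmn
  simp_rw [conj_ch, ← ch_add]
  by_cases heq : ((k, l) : ι × ι) = (m, n)
  · rw [if_pos heq]
    simp only [Prod.mk.injEq] at heq
    obtain ⟨rfl, rfl⟩ := heq
    simp [ch_zero]
  · rw [if_neg heq]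
    have hadd : ∀ z w : ι → ZMod 4, -((z + w) l - (z + w) k) + ((z + w) n - (z + w) m)
        = (-(z l - z k) + (z n - z m)) + (-(w l - w k) + (w n - w m)) := by
      intro z w
      simp only [Pi.add_apply]
      ring
    by_cases hln : l = n
    · subst hln
      have hkm : k ≠ m := fun h => heq (by rw [h])
      apply sum_ch_eq_zero (fun z => -(z l - z k) + (z l - z m)) hadd (Pi.single k 1)
      simp only [Pi.single_eq_of_ne (Ne.symm hkm), Pi.single_eq_of_ne (Ne.symm hkl),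
        Pi.single_eq_same]
      decide
    · apply sum_ch_eq_zero (fun z => -(z l - z k) + (z n - z m)) hadd (Pi.single n 1)
      have h1 : (Pi.single n 1 : ι → ZMod 4) l = 0 := Pi.single_eq_of_ne hln _
      have h2 : (Pi.single n 1 : ι → ZMod 4) m = 0 := Pi.single_eq_of_ne hmn _
      have h3 : (Pi.single n 1 : ι → ZMod 4) n = 1 := Pi.single_eq_same _ _
      rw [h1, h2, h3]
      by_cases hkn : k = n
      · subst hkn
        rw [h3]; decide
      · have h4 : (Pi.single n 1 : ι → ZMod 4) k = 0 := Pi.single_eq_of_ne hkn _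
        rw [h4]; decide

theorem fourth_moment {ι : Type*} [Fintype ι] [DecidableEq ι] (x : ι → ι → H) :
    ∑ z : ι → ZMod 4, ‖∑ k, ∑ l, ch (z l - z k) • x k l‖ ^ 2
      ≤ Fintype.card (ι → ZMod 4) * (2 * ‖∑ k, x k k‖ ^ 2 + 2 * ∑ k, ∑ l, ‖x k l‖ ^ 2) := by
  have h0 : ∀ z : ι → ZMod 4, ∑ k, ∑ l, ch (z l - z k) • x k l
      = (∑ k, x k k) + ∑ p ∈ (Finset.univ : Finset (ι × ι)).filter (fun p => p.1 ≠ p.2),
        ch (z p.2 - z p.1) • x p.1 p.2 := by
    intro z
    rw [← Finset.sum_product' (f := fun k l => ch (z l - z k) • x k l), Finset.univ_product_univ]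
    rw [← Finset.sum_filter_add_sum_filter_not Finset.univ (fun p : ι × ι => p.1 = p.2)]
    congr 1
    rw [Finset.sum_filter]
    rw [← Finset.univ_product_univ, Finset.sum_product]
    apply Finset.sum_congr rfl
    intro k _
    simp [ch_zero]
  have h1 : ∀ z : ι → ZMod 4, ‖∑ k, ∑ l, ch (z l - z k) • x k l‖ ^ 2
      ≤ 2 * ‖∑ k, x k k‖ ^ 2 +
        2 * ‖∑ p ∈ (Finset.univ : Finset (ι × ι)).filter (fun p => p.1 ≠ p.2),
        ch (z p.2 - z p.1) • x p.1 p.2‖ ^ 2 := by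
    intro z
    rw [h0 z]
    set a := ∑ k, x k k
    set b := ∑ p ∈ (Finset.univ : Finset (ι × ι)).filter (fun p => p.1 ≠ p.2),
        ch (z p.2 - z p.1) • x p.1 p.2
    have h2 := norm_add_le a b
    nlinarith [norm_nonneg (a + b), norm_nonneg a, norm_nonneg b, sq_nonneg (‖a‖ - ‖b‖)]
  refine (Finset.sum_le_sum fun z _ => h1 z).trans ?_
  rw [Finset.sum_add_distrib, ← Finset.mul_sum, ← Finset.mul_sum,
    fourth_moment_off (fun p : ι × ι => x p.1 p.2)]
  rw [Finset.sum_const, Finset.card_univ, nsmul_eq_mul]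
  have h3 : ∑ p ∈ (Finset.univ : Finset (ι × ι)).filter (fun p => p.1 ≠ p.2), ‖x p.1 p.2‖ ^ 2
      ≤ ∑ k, ∑ l, ‖x k l‖ ^ 2 := by
    rw [← Finset.sum_product' (f := fun k l => ‖x k l‖ ^ 2), Finset.univ_product_univ]
    exact Finset.sum_le_sum_of_subset_of_nonneg (Finset.filter_subset _ _)
      (fun _ _ _ => by positivity)
  have h4 := card_Z_pos (ι := ι)
  nlinarith [mul_le_mul_of_nonneg_left h3 h4.le]

end Rand

section Riemann

variable {E : Type*} [NormedAddCommGroup E] [NormedSpace ℝ E] [CompleteSpace E]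

theorem riemann_sum_le {F : ℝ → E} (hF : Continuous F) {ε : ℝ}
    (K m : ℕ) (hK : 0 < K) (hm : 0 < m)
    (hε : ∀ t s : ℝ, 0 ≤ s → s ≤ 1 / (m : ℝ) → ‖F (t + s) - F t‖ ≤ ε) :
    ‖((2 * (K : ℝ))⁻¹ : ℝ) • (∫ t in (-(K : ℝ))..K, F t)
      - ((2 * K * m : ℕ) : ℝ)⁻¹ • ∑ j ∈ Finset.range (2 * K * m), F (-(K : ℝ) + j / m)‖ ≤ ε := by
  have hK' : (0 : ℝ) < K := by exact_mod_cast hK
  have hm' : (0 : ℝ) < m := by exact_mod_cast hm
  have h1 : ∑ j ∈ Finset.range (2 * K * m),
      ∫ t in (-(K : ℝ) + (j : ℕ) / m)..(-(K : ℝ) + ((j + 1 : ℕ) : ℝ) / m), F t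
      = ∫ t in (-(K : ℝ))..K, F t := by
    rw [intervalIntegral.sum_integral_adjacent_intervals
      (a := fun j : ℕ => -(K : ℝ) + (j : ℝ) / m) (fun k _ => hF.intervalIntegrable _ _)]
    congr 1
    · simp
    · push_cast
      field_simp
      ring
  have h2 : ((2 * K * m : ℕ) : ℝ)⁻¹ • ∑ j ∈ Finset.range (2 * K * m), F (-(K : ℝ) + j / m)
      = ((2 * (K : ℝ))⁻¹ : ℝ) • ∑ j ∈ Finset.range (2 * K * m),
        ∫ _t in (-(K : ℝ) + (j : ℕ) / m)..(-(K : ℝ) + ((j + 1 : ℕ) : ℝ) / m),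
          F (-(K : ℝ) + j / m) := by
    rw [Finset.smul_sum, Finset.smul_sum]
    apply Finset.sum_congr rfl
    intro j _
    rw [intervalIntegral.integral_const, smul_smul]
    congr 1
    push_cast
    field_simp
    ring
  rw [h2, ← h1, ← smul_sub, ← Finset.sum_sub_distrib, norm_smul, Real.norm_eq_abs,
    abs_of_pos (by positivity)]
  have h3 : ∀ j ∈ Finset.range (2 * K * m),
      ‖(∫ t in (-(K : ℝ) + (j : ℕ) / m)..(-(K : ℝ) + ((j + 1 : ℕ) : ℝ) / m), F t)
        - ∫ _t in (-(K : ℝ) + (j : ℕ) / m)..(-(K : ℝ) + ((j + 1 : ℕ) : ℝ) / m),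
          F (-(K : ℝ) + j / m)‖ ≤ ε * (1 / m) := by
    intro j _
    rw [← intervalIntegral.integral_sub (hF.intervalIntegrable _ _)
      (continuous_const.intervalIntegrable _ _)]
    have hle : -(K : ℝ) + (j : ℕ) / m ≤ -(K : ℝ) + ((j + 1 : ℕ) : ℝ) / m := by
      push_cast
      gcongr
      linarith
    refine (intervalIntegral.norm_integral_le_of_norm_le_const (C := ε) ?_).trans ?_
    · intro t ht
      rw [Set.uIoc_of_le hle] at ht
      have h4 := hε (-(K : ℝ) + j / m) (t - (-(K : ℝ) + j / m)) (by linarith [ht.1]) (by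
        have := ht.2
        push_cast at this
        rw [add_div] at this
        linarith)
      rwa [add_sub_cancel] at h4
    · apply le_of_eq
      congr 1
      push_cast
      rw [add_div, add_sub_add_left_eq_sub, add_sub_cancel_left, abs_of_pos (by positivity)]
  calc (2 * (K : ℝ))⁻¹ * ‖∑ j ∈ Finset.range (2 * K * m),
        ((∫ t in (-(K : ℝ) + (j : ℕ) / m)..(-(K : ℝ) + ((j + 1 : ℕ) : ℝ) / m), F t)
        - ∫ _t in (-(K : ℝ) + (j : ℕ) / m)..(-(K : ℝ) + ((j + 1 : ℕ) : ℝ) / m),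
          F (-(K : ℝ) + j / m))‖
      ≤ (2 * (K : ℝ))⁻¹ * ∑ _j ∈ Finset.range (2 * K * m), ε * (1 / m) :=
        mul_le_mul_of_nonneg_left ((norm_sum_le _ _).trans (Finset.sum_le_sum h3)) (by positivity)
    _ = ε := by
        rw [Finset.sum_const, Finset.card_range, nsmul_eq_mul]
        push_cast
        field_simp

end Riemann

end Crest.Agent.S0112
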