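import Crest.Agent.S0112_Calc

/-! Smoothing operators along the flow (helper file for S0112). -/

set_option autoImplicit false

namespace Crest.Agent.S0112
open Crest.OpAlg Filter MeasureTheory
open scoped Topology BoundedContinuousFunction ContDiff

variable {H : Type*} [NormedAddCommGroup H] [InnerProductSpace ℂ H] [CompleteSpace H]

theorem continuous_wave_comp {α : Type*} [TopologicalSpace α] (D : LineCalculus H) (t : α → ℝ)
    (y : α → H) (ht : Continuous t) (hy : Continuous y) : Continuous fun w => D.wave (t w) (y w) := by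
  rw [continuous_iff_continuousAt]
  intro w₀
  have h1 : Tendsto (fun w => D.wave (t w) (y w₀)) (𝓝 w₀) (𝓝 (D.wave (t w₀) (y w₀))) :=
    ((continuous_wave_apply D (y w₀)).comp ht).tendsto w₀
  have h2 : Tendsto (fun w => D.wave (t w) (y w - y w₀)) (𝓝 w₀) (𝓝 0) := by
    rw [tendsto_zero_iff_norm_tendsto_zero]
    simp_rw [norm_wave_apply]
    have := (hy.tendsto w₀).sub_const (y w₀)
    rw [sub_self] at this
    exact tendsto_zero_iff_norm_tendsto_zero.mp this
  have h3 := h1.add h2
  rw [add_zero] at h3
  refine h3.congr (fun w => ?_)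
  rw [← map_add]
  congr 1
  abel

theorem continuous_flow_apply (D : LineCalculus H) (a : H →L[ℂ] H) (θ : ℝ) (x : H) :
    Continuous fun w : ℝ => D.wave (θ * w) (a (D.wave (-(θ * w)) x)) := by
  apply continuous_wave_comp D _ _ (by fun_prop)
  exact a.continuous.comp (continuous_wave_comp D _ _ (by fun_prop) continuous_const)

theorem integrable_smul_of_bdd {k : ℝ → ℂ} (hk : Integrable k) {F : ℝ → H} (hF : Continuous F)
    {C : ℝ} (hC : ∀ w, ‖F w‖ ≤ C) : Integrable (fun w => k w • F w) := by
  refine Integrable.mono' (hk.norm.mul_const C) (hk.aestronglyMeasurable.smul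
    hF.aestronglyMeasurable) (Eventually.of_forall fun w => ?_)
  rw [norm_smul]
  exact mul_le_mul_of_nonneg_left (hC w) (norm_nonneg _)

theorem norm_flow_apply_le (D : LineCalculus H) (a : H →L[ℂ] H) (t : ℝ) (x : H) :
    ‖D.wave t (a (D.wave (-t) x))‖ ≤ ‖a‖ * ‖x‖ := by
  rw [norm_wave_apply]
  refine (a.le_opNorm _).trans ?_
  rw [norm_wave_apply]

theorem integrable_flow (D : LineCalculus H) {k : ℝ → ℂ} (hk : Integrable k) (θ : ℝ)
    (a : H →L[ℂ] H) (x : H) :
    Integrable (fun w => k w • D.wave (θ * w) (a (D.wave (-(θ * w)) x))) :=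
  integrable_smul_of_bdd hk (continuous_flow_apply D a θ x)
    (fun w => norm_flow_apply_le D a (θ * w) x)

/-- averaging of an operator along the flow with an integrable kernel -/
noncomputable def sm (D : LineCalculus H) (k : ℝ → ℂ) (hk : Integrable k) (θ : ℝ)
    (a : H →L[ℂ] H) : H →L[ℂ] H :=
  LinearMap.mkContinuous
    { toFun := fun x => ∫ w, k w • D.wave (θ * w) (a (D.wave (-(θ * w)) x))
      map_add' := fun x y => by
        rw [← integral_add (integrable_flow D hk θ a x) (integrable_flow D hk θ a y)]
        congr 1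
        ext w
        simp only [map_add, smul_add]
      map_smul' := fun c x => by
        simp only [RingHom.id_apply]
        rw [← integral_smul]
        congr 1
        ext w
        simp only [map_smul, smul_comm c (k w)] }
    ((∫ w, ‖k w‖) * ‖a‖)
    (fun x => by
      change ‖∫ w, k w • D.wave (θ * w) (a (D.wave (-(θ * w)) x))‖ ≤ _
      refine (norm_integral_le_integral_norm _).trans ?_
      rw [mul_assoc, ← integral_mul_const]
      refine integral_mono (integrable_flow D hk θ a x).norm (hk.norm.mul_const _) (fun w => ?_)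
      simp only [norm_smul]
      exact mul_le_mul_of_nonneg_left (norm_flow_apply_le D a _ x) (norm_nonneg _))

theorem sm_apply (D : LineCalculus H) (k : ℝ → ℂ) (hk : Integrable k) (θ : ℝ)
    (a : H →L[ℂ] H) (x : H) :
    sm D k hk θ a x = ∫ w, k w • D.wave (θ * w) (a (D.wave (-(θ * w)) x)) := rfl

theorem norm_sm_le (D : LineCalculus H) (k : ℝ → ℂ) (hk : Integrable k) (θ : ℝ)
    (a : H →L[ℂ] H) : ‖sm D k hk θ a‖ ≤ (∫ w, ‖k w‖) * ‖a‖ :=
  LinearMap.mkContinuous_norm_le _ (mul_nonneg (integral_nonneg fun w => norm_nonneg _)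
    (norm_nonneg _)) _

theorem mem_iff_commutant (M : VonNeumannAlgebra H) (a : H →L[ℂ] H) :
    a ∈ M ↔ ∀ b ∈ M.commutant, b * a = a * b := by
  conv_lhs => rw [← M.commutant_commutant, VonNeumannAlgebra.mem_commutant_iff]

theorem sm_mem (D : LineCalculus H) (M : VonNeumannAlgebra H)
    (hM : ∀ t : ℝ, ∀ a : H →L[ℂ] H, a ∈ M → D.wave t * a * D.wave (-t) ∈ M)
    (k : ℝ → ℂ) (hk : Integrable k) (θ : ℝ)
    (a : H →L[ℂ] H) (ha : a ∈ M) : sm D k hk θ a ∈ M := by
  rw [mem_iff_commutant]
  intro b hb
  ext x
  simp only [ContinuousLinearMap.mul_apply, sm_apply]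
  rw [← ContinuousLinearMap.integral_comp_comm b (integrable_flow D hk θ a x)]
  congr 1
  ext w
  rw [map_smul]
  congr 1
  have h1 := (mem_iff_commutant M _).mp (hM (θ * w) a ha) b hb
  have h2 := congrArg (fun A : H →L[ℂ] H => A x) h1
  simpa using h2

theorem sm_apply_fixed (D : LineCalculus H) (k : ℝ → ℂ) (hk : Integrable k) (θ : ℝ)
    (a : H →L[ℂ] H) (x : H) (hx : ∀ t, D.wave t x = x) :
    sm D k hk θ a x = ∫ w, k w • D.wave (θ * w) (a x) := by
  rw [sm_apply]
  simp only [hx]

/-- evaluation of the calculus at a vector, as a continuous linear map -/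
noncomputable def evalAt (D : LineCalculus H) (y : H) : BoundedContinuousFunction ℝ ℂ →L[ℂ] H :=
  LinearMap.mkContinuous
    { toFun := fun f => D.apply f y
      map_add' := fun f g => by simp
      map_smul' := fun c f => by simp }
    ‖y‖ (fun f => by
      change ‖D.apply f y‖ ≤ _
      refine ((D.apply f).le_opNorm y).trans ?_
      rw [mul_comm]
      exact mul_le_mul_of_nonneg_left (norm_apply_le D f) (norm_nonneg _))

theorem evalAt_apply (D : LineCalculus H) (y : H) (f : BoundedContinuousFunction ℝ ℂ) :
    evalAt D y f = D.apply f y := rfl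

theorem norm_character_le (t : ℝ) : ‖LineCalculus.character t‖ ≤ 1 := by
  rw [BoundedContinuousFunction.norm_le zero_le_one]
  intro u
  rw [norm_character_apply]

theorem integral_wave_eq_apply (D : LineCalculus H) (k : ℝ → ℂ) (hk : Integrable k) (θ : ℝ)
    (ψ : BoundedContinuousFunction ℝ ℂ)
    (hψ : ∀ u : ℝ, ψ u = ∫ w, k w * Complex.exp (Complex.I * ((θ * w * u : ℝ) : ℂ))) (x : H) :
    ∫ w, k w • D.wave (θ * w) x = D.apply ψ x := by
  have hint : ∀ y : H, Integrable (fun w => k w • D.wave (θ * w) y) := fun y =>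
    integrable_smul_of_bdd hk ((continuous_wave_apply D y).comp (by fun_prop))
      (C := ‖y‖) (fun w => by rw [norm_wave_apply])
  -- the case of cut-off vectors
  have key : ∀ (g : BoundedContinuousFunction ℝ ℂ), HasCompactSupport (g : ℝ → ℂ) → ∀ y : H,
      ∫ w, k w • D.wave (θ * w) (D.apply g y) = D.apply ψ (D.apply g y) := by
    intro g hg y
    have hint2 : Integrable (fun w => k w • (LineCalculus.character (θ * w) * g)) := by
      have hcont : Continuous fun w : ℝ => LineCalculus.character (θ * w) * g :=
        (continuous_character_mul g hg).comp (by fun_prop : Continuous fun w : ℝ => θ * w)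
      refine Integrable.mono' (hk.norm.mul_const ‖g‖) (hk.aestronglyMeasurable.smul
        hcont.aestronglyMeasurable) (Eventually.of_forall fun w => ?_)
      rw [norm_smul]
      refine mul_le_mul_of_nonneg_left ?_ (norm_nonneg _)
      refine (norm_mul_le _ _).trans ?_
      have := mul_le_mul_of_nonneg_right (norm_character_le (θ * w)) (norm_nonneg g)
      simpa using this
    have h1 : ψ * g = ∫ w, k w • (LineCalculus.character (θ * w) * g) := by
      ext u
      have h2 := (ContinuousLinearMap.integral_comp_comm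
        (BoundedContinuousFunction.evalCLM ℂ u) hint2)
      simp only [BoundedContinuousFunction.evalCLM_apply] at h2
      rw [← h2]
      rw [BoundedContinuousFunction.mul_apply, hψ u, ← integral_mul_const]
      congr 1
      ext w
      rw [BoundedContinuousFunction.smul_apply, BoundedContinuousFunction.mul_apply,
        character_apply, smul_eq_mul, mul_assoc]
    have h3 : D.apply ψ (D.apply g y) = D.apply (ψ * g) y := by rw [map_mul]; rfl
    rw [h3, h1, ← evalAt_apply D y (∫ w, k w • (LineCalculus.character (θ * w) * g)),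
      ← ContinuousLinearMap.integral_comp_comm _ hint2]
    congr 1
    ext w
    rw [map_smul, evalAt_apply, map_mul]
    rfl
  -- general case
  set L : H → H := fun y => (∫ w, k w • D.wave (θ * w) y) - D.apply ψ y with hL
  have hLsub : ∀ y z, L (y - z) = L y - L z := by
    intro y z
    simp only [hL, map_sub, smul_sub]
    rw [integral_sub (hint y) (hint z)]
    abel
  have hLb : ∀ y, ‖L y‖ ≤ ((∫ w, ‖k w‖) + ‖ψ‖) * ‖y‖ := by
    intro y
    rw [add_mul]
    refine (norm_sub_le _ _).trans (add_le_add ?_ ?_)
    · refine (norm_integral_le_integral_norm _).trans ?_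
      rw [← integral_mul_const]
      refine integral_mono (hint y).norm (hk.norm.mul_const _) (fun w => ?_)
      simp only [norm_smul, norm_wave_apply, le_refl]
    · exact ((D.apply ψ).le_opNorm y).trans (mul_le_mul_of_nonneg_right (norm_apply_le D ψ)
        (norm_nonneg _))
  have hC : 0 ≤ (∫ w, ‖k w‖) + ‖ψ‖ :=
    add_nonneg (integral_nonneg fun w => norm_nonneg _) (norm_nonneg _)
  have hzero : ‖L x‖ ≤ 0 := by
    apply le_of_forall_pos_le_add
    intro ε hε
    set C := (∫ w, ‖k w‖) + ‖ψ‖
    obtain ⟨g, hg, hgx⟩ := D.window x (ε / (C + 1)) (by positivity)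
    have h1 : L (D.apply g x) = 0 := by
      simp only [hL]
      rw [key g hg x, sub_self]
    have h2 : L x = - L (D.apply g x - x) := by rw [hLsub, h1]; abel
    rw [h2, norm_neg, zero_add]
    refine (hLb _).trans ?_
    have h3 : C * ‖D.apply g x - x‖ ≤ C * (ε / (C + 1)) := mul_le_mul_of_nonneg_left hgx.le hC
    refine h3.trans ?_
    rw [← mul_div_assoc, div_le_iff₀ (by positivity)]
    nlinarith
  have := norm_le_zero_iff.mp hzero
  exact sub_eq_zero.mp this

end Crest.Agent.S0112
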