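import Crest.Statements.S0118
import Crest.Agent.FE_Main

set_option autoImplicit false
open Crest Crest.AnalysisR Crest.AnalysisR.OperatorAlgebra

namespace Crest.Agent.S0118

/-- There are a unital complex C⋆-algebra with a faithful tracial state τ, an integer n ≥ 2, a self-adjoint n-tuple X and a standard semicircular n-tuple S (Catalan moments) such that X, S₁, …, S_n are free, the free Fisher information of X + √s S is finite for every s > 0 with s ↦ n/(1+s) − Φ*(X + √s S) integrable on (0, ∞), and the microstates free entropy χ(X) (operator-norm cutoff, limsup over matrix sizes) satisfies −∞ < χ(X) ≤ χ*(X) − 1/2, where χ* is the non-microstates free entropy. -/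
theorem result :
    ∃ (A : Type) (_ : CStarAlgebra A) (τ : A →ₗ[ℂ] ℂ) (n : ℕ) (X S : Fin n → A),
      Crest.OpAlg.IsFaithfulTracialState τ ∧ 2 ≤ n ∧ (∀ i, IsSelfAdjoint (X i)) ∧
      Crest.OpAlg.IsStandardSemicircular τ S ∧ Crest.OpAlg.IsFreeFamily τ (Crest.OpAlg.withNoise X S) ∧
      (∀ s : ℝ, 0 < s → Crest.OpAlg.freeFisher τ (Crest.OpAlg.heatTuple X S s) < ⊤) ∧
      MeasureTheory.IntegrableOn
        (fun s : ℝ => (n : ℝ) / (1 + s) - (Crest.OpAlg.freeFisher τ (Crest.OpAlg.heatTuple X S s)).toReal)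
        (Set.Ioi 0) ∧
      ⊥ < Crest.OpAlg.chi τ X ∧ Crest.OpAlg.chi τ X ≤ ((Crest.OpAlg.chiStar τ X S - 1 / 2 : ℝ) : EReal) := by
  exact Crest.Agent.FE.main

end Crest.Agent.S0118
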