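import Mathlib

set_option autoImplicit false

/-! One-dimensional rounding grid: critical values `C` with wide cells, a fine mesh elsewhere. -/

namespace Crest.Agent.S0122

open Classical in
/-- half-width of the lower cell of `s`. -/
noncomputable def wd (C : Set ℝ) (τ μ : ℝ) (s : ℝ) : ℝ := if s ∈ C then τ else μ

theorem wd_of_mem {C : Set ℝ} {τ μ s : ℝ} (h : s ∈ C) : wd C τ μ s = τ := by
  simp [wd, h]

theorem wd_of_not_mem {C : Set ℝ} {τ μ s : ℝ} (h : s ∉ C) : wd C τ μ s = μ := by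
  simp [wd, h]

theorem exists_int_mul_mem_Ico (μ a : ℝ) (hμ : 0 < μ) : ∃ i : ℤ, a ≤ (i : ℝ) * μ ∧ (i : ℝ) * μ < a + μ := by
  refine ⟨⌈a / μ⌉, ?_, ?_⟩
  · have := Int.le_ceil (a / μ)
    calc a = (a / μ) * μ := by field_simp
      _ ≤ _ := by gcongr
  · have := Int.ceil_lt_add_one (a / μ)
    calc (⌈a / μ⌉ : ℝ) * μ < (a / μ + 1) * μ := by gcongr
      _ = a + μ := by field_simp

theorem exists_int_mul_mem_Ioc (μ a : ℝ) (hμ : 0 < μ) : ∃ i : ℤ, a - μ < (i : ℝ) * μ ∧ (i : ℝ) * μ ≤ a := by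
  refine ⟨⌊a / μ⌋, ?_, ?_⟩
  · have := Int.sub_one_lt_floor (a / μ)
    calc a - μ = (a / μ - 1) * μ := by field_simp
      _ < _ := by gcongr
  · have := Int.floor_le (a / μ)
    calc (⌊a / μ⌋ : ℝ) * μ ≤ (a / μ) * μ := by gcongr
      _ = a := by field_simp

theorem mesh (C : Set ℝ) (hC : C.Finite) (t τ μ M : ℝ) (ht : t ∈ C) (hμ : 0 < μ) (hμτ : μ ≤ τ)
    (hτ : τ + μ ≤ 1) (hsep : ∀ c ∈ C, ∀ c' ∈ C, c < c' → c + 4 * τ ≤ c') (hM : -M ≤ t) :
    ∃ S : Set ℝ, S.Finite ∧ t ∈ S ∧ (∀ s ∈ S, -M ≤ s ∧ s ≤ t) ∧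
      (∀ s ∈ S, s ∈ C ∨ ∀ c ∈ C, τ ≤ |s - c|) ∧
      (∀ s ∈ S, s ≠ t → ∃ s' ∈ S, s < s' ∧ s' - wd C τ μ s' ≤ s + wd C τ μ s) ∧
      (∀ s ∈ S, -M + 1 ≤ s → ∃ s' ∈ S, s' < s ∧ s - 1 ≤ s' ∧
        s' - wd C τ μ s' < s - wd C τ μ s) := by
  have hτ0 : 0 < τ := lt_of_lt_of_le hμ hμτ
  refine ⟨{s | -M ≤ s ∧ s ≤ t ∧ (s ∈ C ∨ ((∃ i : ℤ, s = i * μ) ∧ ∀ c ∈ C, τ ≤ |s - c|))},
    ?_, ?_, ?_, ?_, ?_, ?_⟩
  · -- finite
    apply Set.Finite.subset (hC.union ((Set.finite_Icc (⌈-M / μ⌉) (⌊t / μ⌋)).image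
      (fun i : ℤ => (i : ℝ) * μ)))
    rintro s ⟨h1, h2, h3 | ⟨⟨i, hi⟩, h3⟩⟩
    · exact Or.inl h3
    · right
      refine ⟨i, ⟨?_, ?_⟩, hi.symm⟩
      · rw [Int.ceil_le, div_le_iff₀ hμ]; rw [← hi]; exact h1
      · rw [Int.le_floor, le_div_iff₀ hμ]; rw [← hi]; exact h2
  · exact ⟨hM, le_rfl, Or.inl ht⟩
  · rintro s ⟨h1, h2, _⟩; exact ⟨h1, h2⟩
  · rintro s ⟨_, _, h3 | ⟨_, h3⟩⟩
    · exact Or.inl h3
    · exact Or.inr h3
  · -- upper neighbour
    rintro s ⟨h1, h2, h3⟩ hst
    have hst' : s < t := lt_of_le_of_ne h2 hst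
    by_cases hsC : s ∈ C
    · have h4 := hsep s hsC t ht hst'
      obtain ⟨i, hi1, hi2⟩ := exists_int_mul_mem_Ico μ (s + τ) hμ
      have hfar : ∀ c ∈ C, τ ≤ |(i : ℝ) * μ - c| := by
        intro c hc
        rcases lt_trichotomy c s with h | h | h
        · have := hsep c hc s hsC h
          rw [abs_of_nonneg (by linarith)]; linarith
        · subst h
          rw [abs_of_nonneg (by linarith)]; linarith
        · have := hsep s hsC c hc h
          rw [abs_of_nonpos (by linarith)]; linarith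
      have hnC : ((i : ℝ) * μ) ∉ C := by
        intro h
        have := hfar _ h
        simp at this; linarith
      refine ⟨(i : ℝ) * μ, ⟨by linarith, by linarith, Or.inr ⟨⟨i, rfl⟩, hfar⟩⟩, by linarith, ?_⟩
      rw [wd_of_mem hsC, wd_of_not_mem hnC]; linarith
    · obtain h3 | ⟨⟨i, hi⟩, h3⟩ := h3
      · exact absurd h3 hsC
      have hts : τ ≤ t - s := by
        have := h3 t ht
        rw [abs_of_nonpos (by linarith)] at this; linarith
      rw [wd_of_not_mem hsC]
      by_cases hfar : ∀ c ∈ C, τ ≤ |(s + μ) - c|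
      · have hnC : (s + μ) ∉ C := by
          intro h
          have := hfar _ h
          simp at this; linarith
        refine ⟨s + μ, ⟨by linarith, by linarith, Or.inr ⟨⟨i + 1, ?_⟩, hfar⟩⟩, by linarith, ?_⟩
        · rw [hi]; push_cast; ring
        · rw [wd_of_not_mem hnC]; linarith
      · push Not at hfar
        obtain ⟨c, hc, hlt⟩ := hfar
        rw [abs_lt] at hlt
        have hcs : s < c := by
          by_contra hle
          push Not at hle
          have := h3 c hc
          rw [abs_of_nonneg (by linarith)] at this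
          linarith
        have hct : c ≤ t := by
          by_contra hle
          push Not at hle
          have := hsep t ht c hc hle
          linarith
        refine ⟨c, ⟨by linarith, hct, Or.inl hc⟩, hcs, ?_⟩
        rw [wd_of_mem hc]; linarith
  · rintro s ⟨h1, h2, h3⟩ hsM
    by_cases hsC : s ∈ C
    · obtain ⟨i, hi1, hi2⟩ := exists_int_mul_mem_Ioc μ (s - τ) hμ
      have hfar : ∀ c ∈ C, τ ≤ |(i : ℝ) * μ - c| := by
        intro c hc
        rcases lt_trichotomy c s with h | h | h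
        · have := hsep c hc s hsC h
          rw [abs_of_nonneg (by linarith)]; linarith
        · subst h
          rw [abs_of_nonpos (by linarith)]; linarith
        · have := hsep s hsC c hc h
          rw [abs_of_nonpos (by linarith)]; linarith
      have hnC : ((i : ℝ) * μ) ∉ C := by
        intro h
        have := hfar _ h
        simp at this; linarith
      refine ⟨(i : ℝ) * μ, ⟨by linarith, by linarith, Or.inr ⟨⟨i, rfl⟩, hfar⟩⟩, by linarith,
        by linarith, ?_⟩
      rw [wd_of_mem hsC, wd_of_not_mem hnC]; linarith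
    · obtain h3 | ⟨⟨i, hi⟩, h3⟩ := h3
      · exact absurd h3 hsC
      rw [wd_of_not_mem hsC]
      by_cases hfar : ∀ c ∈ C, τ ≤ |(s - μ) - c|
      · have hnC : (s - μ) ∉ C := by
          intro h
          have := hfar _ h
          simp at this; linarith
        refine ⟨s - μ, ⟨by linarith, by linarith, Or.inr ⟨⟨i - 1, ?_⟩, hfar⟩⟩, by linarith,
          by linarith, ?_⟩
        · rw [hi]; push_cast; ring
        · rw [wd_of_not_mem hnC]; linarith
      · push Not at hfar
        obtain ⟨c, hc, hlt⟩ := hfar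
        rw [abs_lt] at hlt
        have hcs : c < s := by
          by_contra hle
          push Not at hle
          have := h3 c hc
          rw [abs_of_nonpos (by linarith)] at this
          linarith
        have hcs' : τ ≤ s - c := by
          have := h3 c hc
          rw [abs_of_nonneg (by linarith)] at this; linarith
        refine ⟨c, ⟨by linarith, by linarith, Or.inl hc⟩, hcs, by linarith, ?_⟩
        rw [wd_of_mem hc]; linarith

end Crest.Agent.S0122
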