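import Mathlib
import Crest.Agent.S0122_Mesh

set_option autoImplicit false

/-! The lexicographic rounding tree. -/

namespace Crest.Agent.S0122

open Filter Finset

/-- integer combinations of `p` with coefficients bounded by `B` vanish or are at least `Θ`. -/
def Sep (B : ℕ) {k : ℕ} (p : Fin k → ℝ) (Θ : ℝ) : Prop :=
  ∀ u : Fin k → ℤ, (∀ i, |u i| ≤ (B : ℤ)) →
    (∑ i, (u i : ℝ) * p i = 0 ∨ Θ ≤ |∑ i, (u i : ℝ) * p i|)

/-- critical values for the next coordinate. -/
def Crit (B : ℕ) {k : ℕ} (p : Fin k → ℝ) : Set ℝ :=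
  {c | ∃ u : Fin k → ℤ, (∀ i, |u i| ≤ (B : ℤ)) ∧ ∃ w : ℤ, |w| ≤ (B : ℤ) ∧ w ≠ 0 ∧
    (w : ℝ) * c + ∑ i, (u i : ℝ) * p i = 0}

theorem Crit_finite (B : ℕ) {k : ℕ} (p : Fin k → ℝ) : (Crit B p).Finite := by
  have h1 : (Set.pi Set.univ (fun _ : Fin k => Set.Icc (-(B : ℤ)) B)).Finite :=
    Set.Finite.pi' (fun _ => Set.finite_Icc _ _) |>.subset (by
      intro u hu i; exact hu i (Set.mem_univ i))
  have h2 : (Set.Icc (-(B : ℤ)) B).Finite := Set.finite_Icc _ _
  apply Set.Finite.subset ((h1.prod h2).image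
    (fun q : (Fin k → ℤ) × ℤ => -(∑ i, (q.1 i : ℝ) * p i) / (q.2 : ℝ)))
  rintro c ⟨u, hu, w, hw, hw0, h⟩
  refine ⟨(u, w), ⟨?_, ?_⟩, ?_⟩
  · intro i _
    exact abs_le.mp (hu i)
  · exact abs_le.mp hw
  · have : (w : ℝ) ≠ 0 := by exact_mod_cast hw0
    simp only
    rw [div_eq_iff this]; linarith

theorem abs_comb_le {B : ℕ} {a b c d : ℤ} (ha : |a| ≤ (B : ℤ)) (hb : |b| ≤ (B : ℤ))
    (hc : |c| ≤ (B : ℤ)) (hd : |d| ≤ (B : ℤ)) : |a * b - c * d| ≤ ((2 * B ^ 2 : ℕ) : ℤ) := by
  calc |a * b - c * d| ≤ |a * b| + |c * d| := abs_sub _ _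
    _ = |a| * |b| + |c| * |d| := by rw [abs_mul, abs_mul]
    _ ≤ B * B + B * B := by
        gcongr
    _ = _ := by push_cast; ring

theorem crit_sep {B : ℕ} {k : ℕ} {p : Fin k → ℝ} {Θ : ℝ} (hB : 1 ≤ B) (hS : Sep (2 * B ^ 2) p Θ)
    {c c' : ℝ} (hc : c ∈ Crit B p) (hc' : c' ∈ Crit B p) (h : c < c') :
    c + Θ / (B : ℝ) ^ 2 ≤ c' := by
  obtain ⟨u, hu, w, hw, hw0, h1⟩ := hc
  obtain ⟨u', hu', w', hw', hw0', h1'⟩ := hc'
  have key := hS (fun i => w' * u i - w * u' i) (fun i => abs_comb_le hw' (hu i) hw (hu' i))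
  have e : ∑ i, (((w' * u i - w * u' i : ℤ)) : ℝ) * p i = (w : ℝ) * w' * (c' - c) := by
    have : ∑ i, (((w' * u i - w * u' i : ℤ)) : ℝ) * p i
        = w' * ∑ i, (u i : ℝ) * p i - w * ∑ i, (u' i : ℝ) * p i := by
      rw [Finset.mul_sum, Finset.mul_sum, ← Finset.sum_sub_distrib]
      apply Finset.sum_congr rfl
      intro i _
      push_cast; ring
    rw [this]
    have e1 : ∑ i, (u i : ℝ) * p i = - (w * c) := by linarith
    have e2 : ∑ i, (u' i : ℝ) * p i = - (w' * c') := by linarith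
    rw [e1, e2]; ring
  rw [e] at key
  have hw0r : (w : ℝ) ≠ 0 := by exact_mod_cast hw0
  have hw0r' : (w' : ℝ) ≠ 0 := by exact_mod_cast hw0'
  have hBr : (0 : ℝ) < B := by exact_mod_cast hB
  rcases key with key | key
  · exfalso
    rcases mul_eq_zero.mp key with h2 | h2
    · rcases mul_eq_zero.mp h2 with h3 | h3
      · exact hw0r h3
      · exact hw0r' h3
    · linarith
  · rw [abs_mul, abs_mul, abs_of_pos (by linarith : 0 < c' - c)] at key
    have hwr : |(w : ℝ)| ≤ B := by exact_mod_cast hw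
    have hwr' : |(w' : ℝ)| ≤ B := by exact_mod_cast hw'
    have : |(w : ℝ)| * |(w' : ℝ)| * (c' - c) ≤ B * B * (c' - c) := by
      have : 0 ≤ c' - c := by linarith
      gcongr
    have h5 : Θ ≤ (B : ℝ) ^ 2 * (c' - c) := by nlinarith
    have : Θ / (B : ℝ) ^ 2 ≤ c' - c := by
      rw [div_le_iff₀ (by positivity)]; linarith
    linarith

theorem sep_child_crit {B : ℕ} {k : ℕ} {p : Fin k → ℝ} {Θ : ℝ} (hB : 1 ≤ B)
    (hS : Sep (2 * B ^ 2) p Θ) {s : ℝ} (hs : s ∈ Crit B p) :
    Sep B (Fin.cons s p : Fin (k + 1) → ℝ) (Θ / B) := by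
  obtain ⟨u, hu, w, hw, hw0, h1⟩ := hs
  intro v hv
  have key := hS (fun i => w * v i.succ - v 0 * u i)
    (fun i => abs_comb_le hw (hv i.succ) (hv 0) (hu i))
  have e : ∑ i : Fin (k + 1), (v i : ℝ) * (Fin.cons s p : Fin (k + 1) → ℝ) i
      = v 0 * s + ∑ i : Fin k, (v i.succ : ℝ) * p i := by
    rw [Fin.sum_univ_succ]; simp
  have e2 : ∑ i, (((w * v i.succ - v 0 * u i : ℤ)) : ℝ) * p i
      = w * ∑ i : Fin (k + 1), (v i : ℝ) * (Fin.cons s p : Fin (k + 1) → ℝ) i := by
    rw [e, mul_add, Finset.mul_sum]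
    have : ∑ i, (((w * v i.succ - v 0 * u i : ℤ)) : ℝ) * p i
        = ∑ i : Fin k, (w : ℝ) * ((v i.succ : ℝ) * p i) - v 0 * ∑ i, (u i : ℝ) * p i := by
      rw [Finset.mul_sum, ← Finset.sum_sub_distrib]
      apply Finset.sum_congr rfl
      intro i _
      push_cast; ring
    rw [this]
    have e1 : ∑ i, (u i : ℝ) * p i = - (w * s) := by linarith
    rw [e1]; ring
  rw [e2] at key
  have hw0r : (w : ℝ) ≠ 0 := by exact_mod_cast hw0
  have hBr : (0 : ℝ) < B := by exact_mod_cast hB
  rcases key with key | key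
  · left
    rcases mul_eq_zero.mp key with h2 | h2
    · exact absurd h2 hw0r
    · exact h2
  · right
    rw [abs_mul] at key
    have hwr : |(w : ℝ)| ≤ B := by exact_mod_cast hw
    rw [div_le_iff₀ hBr]
    calc Θ ≤ _ := key
      _ ≤ B * |∑ i : Fin (k + 1), (v i : ℝ) * (Fin.cons s p : Fin (k + 1) → ℝ) i| := by gcongr
      _ = _ := by ring

theorem sep_child_mesh {B : ℕ} {k : ℕ} {p : Fin k → ℝ} {Θ τ : ℝ} (hB : 1 ≤ B)
    (hS : Sep (2 * B ^ 2) p Θ) (hτ0 : 0 < τ) (hτ : τ ≤ Θ) {s : ℝ}
    (hs : ∀ c ∈ Crit B p, τ ≤ |s - c|) :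
    Sep B (Fin.cons s p : Fin (k + 1) → ℝ) τ := by
  intro v hv
  have e : ∑ i : Fin (k + 1), (v i : ℝ) * (Fin.cons s p : Fin (k + 1) → ℝ) i
      = v 0 * s + ∑ i : Fin k, (v i.succ : ℝ) * p i := by
    rw [Fin.sum_univ_succ]; simp
  rw [e]
  have hBB : (B : ℤ) ≤ ((2 * B ^ 2 : ℕ) : ℤ) := by
    have : B ≤ 2 * B ^ 2 := by nlinarith
    exact_mod_cast this
  by_cases h0 : v 0 = 0
  · have := hS (fun i => v i.succ) (fun i => (hv i.succ).trans hBB)
    rw [h0]
    simp only [Int.cast_zero, zero_mul, zero_add]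
    rcases this with h | h
    · exact Or.inl h
    · exact Or.inr (hτ.trans h)
  · right
    have h0r : (v 0 : ℝ) ≠ 0 := by exact_mod_cast h0
    have hc : (-(∑ i : Fin k, (v i.succ : ℝ) * p i) / (v 0 : ℝ)) ∈ Crit B p := by
      refine ⟨fun i => v i.succ, fun i => hv i.succ, v 0, hv 0, h0, ?_⟩
      field_simp; ring
    have h1 := hs _ hc
    have h2 : (v 0 : ℝ) * s + ∑ i : Fin k, (v i.succ : ℝ) * p i
        = v 0 * (s - (-(∑ i : Fin k, (v i.succ : ℝ) * p i) / (v 0 : ℝ))) := by
      field_simp; ring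
    rw [h2, abs_mul]
    have h3 : (1 : ℝ) ≤ |(v 0 : ℝ)| := by
      have : (1 : ℤ) ≤ |v 0| := Int.one_le_abs h0
      exact_mod_cast this
    nlinarith [abs_nonneg (s - (-(∑ i : Fin k, (v i.succ : ℝ) * p i) / (v 0 : ℝ)))]

theorem top_mem_Crit {B : ℕ} {k : ℕ} (p : Fin (k + 1) → ℝ) (hB : 1 ≤ B) : p 0 ∈ Crit B p := by
  have hB' : (1 : ℤ) ≤ B := by exact_mod_cast hB
  refine ⟨fun i => if i = 0 then -1 else 0, ?_, 1, by simpa using hB', one_ne_zero, ?_⟩
  · intro i
    by_cases h : i = 0
    · simp [h, hB']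
    · simp [h]
  · simp

/-- objective value of a node. -/
noncomputable def val {j : ℕ} (b : ℝ) (z : (Fin j → ℝ) × (Fin j → ℝ)) (x : Fin j → ℝ) : ℝ :=
  ∑ i, z.1 i * x i - ∑ i, Real.exp (b * z.2 i)

theorem val_cons {j : ℕ} (b s β : ℝ) (z : (Fin j → ℝ) × (Fin j → ℝ)) (x : Fin (j + 1) → ℝ) :
    val b ((Fin.cons s z.1 : Fin (j + 1) → ℝ), (Fin.cons β z.2 : Fin (j + 1) → ℝ)) x
      = s * x 0 - Real.exp (b * β) + val b z (fun i => x i.succ) := by
  simp only [val, Fin.sum_univ_succ, Fin.cons_zero, Fin.cons_succ]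
  ring

theorem eventually_mul_exp_le (C c u v : ℝ) (hc : 0 < c) (h : u < v) :
    ∀ᶠ b in atTop, C * Real.exp (b * u) ≤ c * Real.exp (b * v) := by
  have h1 : Tendsto (fun b : ℝ => Real.exp (b * (v - u))) atTop atTop :=
    Real.tendsto_exp_atTop.comp (tendsto_id.atTop_mul_const (by linarith))
  filter_upwards [h1.eventually_ge_atTop (C / c)] with b hb
  have : Real.exp (b * v) = Real.exp (b * (v - u)) * Real.exp (b * u) := by
    rw [← Real.exp_add]; congr 1; ring
  rw [this]
  rw [div_le_iff₀ hc] at hb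
  nlinarith [Real.exp_pos (b * u)]

/-- The rounding tree theorem. -/
theorem tree (N : ℕ) (hN : 1 ≤ N) (ε : ℝ) (hε : 0 < ε) (hε1 : ε ≤ 1) : ∀ j : ℕ,
    ∃ B : ℕ, ∃ F G : ℝ → ℝ, 1 ≤ B ∧ (∀ Θ, 0 < Θ → 0 < F Θ ∧ F Θ ≤ Θ ∧ 0 < G Θ) ∧
    ∀ (k : ℕ) (p : Fin (k + 1) → ℝ) (Θ θ M A : ℝ), 0 < Θ → Θ ≤ 1 → 0 < θ → θ ≤ F Θ → Sep B p Θ →
      A + 2 ≤ M → -M ≤ p 0 →
    ∃ T : Set ((Fin j → ℝ) × (Fin j → ℝ)), T.Finite ∧
      (∀ z ∈ T, Antitone z.1 ∧ (∀ i, z.1 i ≤ p 0) ∧ (∀ i, z.2 i ≤ p 0 - θ / 2)) ∧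
      (∃ z ∈ T, ∀ i, z.1 i = p 0) ∧
      ∀ᶠ b in atTop, ∀ x : Fin j → ℝ, Antitone x → (∀ i, Real.exp (-(b * A)) ≤ x i) →
        (∀ i, x i ≤ Real.exp (b * (p 0 + θ))) →
        ∀ z ∈ T, (∀ z' ∈ T, val b z' x ≤ val b z x) →
          ∃ Θ' θ', G Θ ≤ Θ' ∧ θ ≤ θ' ∧ θ' ≤ ε * Θ' ∧
            (∀ i, |Real.log (x i) - b * z.1 i| ≤ b * θ') ∧
            ∀ u : Fin (k + 1) → ℤ, ∀ v : Fin j → ℤ, (∀ i, |u i| ≤ (N : ℤ)) →
              (∀ i, |v i| ≤ (N : ℤ)) →
              (∑ i, (u i : ℝ) * p i + ∑ i, (v i : ℝ) * z.1 i = 0 ∨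
                Θ' ≤ |∑ i, (u i : ℝ) * p i + ∑ i, (v i : ℝ) * z.1 i|) := by
  intro j
  induction j with
  | zero =>
    refine ⟨N, fun Θ => ε * Θ, fun Θ => Θ, hN, ?_, ?_⟩
    · intro Θ hΘ
      exact ⟨by positivity, by nlinarith, hΘ⟩
    intro k p Θ θ M A hΘ hΘ1 hθ hθF hSep hMA hMp
    refine ⟨{(fun i => i.elim0, fun i => i.elim0)}, Set.finite_singleton _, ?_, ?_, ?_⟩
    · rintro z hz
      refine ⟨fun i => i.elim0, fun i => i.elim0, fun i => i.elim0⟩
    · exact ⟨_, rfl, fun i => i.elim0⟩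
    · refine Filter.Eventually.of_forall ?_
      intro b x hx hlo hup z hz hopt
      refine ⟨Θ, θ, le_rfl, le_rfl, hθF, fun i => i.elim0, ?_⟩
      intro u v hu hv
      simpa using hSep u hu
  | succ j ih =>
    obtain ⟨B, F, G, hB, hFG, ih⟩ := ih
    have hBr : (1 : ℝ) ≤ B := by exact_mod_cast hB
    let τf : ℝ → ℝ := fun Θ => min (F (Θ / B) / 2) (Θ / (4 * (B : ℝ) ^ 2))
    have hτf : ∀ Θ, 0 < Θ → 0 < τf Θ := by
      intro Θ hΘ
      have := (hFG (Θ / B) (by positivity)).1
      exact lt_min (by linarith) (by positivity)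
    have hτf' : ∀ Θ, 0 < Θ → τf Θ ≤ Θ / 4 := by
      intro Θ hΘ
      refine (min_le_right _ _).trans ?_
      apply div_le_div_of_nonneg_left hΘ.le (by norm_num)
      nlinarith
    refine ⟨2 * B ^ 2, fun Θ => F (τf Θ), fun Θ => min (G (Θ / B)) (G (τf Θ)), by nlinarith, ?_, ?_⟩
    · intro Θ hΘ
      have h1 := hτf Θ hΘ
      have h2 := hFG _ h1
      refine ⟨h2.1, ?_, lt_min (hFG _ (by positivity)).2.2 h2.2.2⟩
      have := hτf' Θ hΘ
      linarith [h2.2.1]
    intro k p Θ θ M A hΘ hΘ1 hθ hθF hSep hMA hMp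
    set τ := τf Θ with hτdef
    have hτ0 : 0 < τ := hτf Θ hΘ
    have hτΘ : τ ≤ Θ / 4 := hτf' Θ hΘ
    have hτF : 2 * τ ≤ F (Θ / B) := by
      have : τ ≤ F (Θ / B) / 2 := min_le_left _ _
      linarith
    have hτs : 4 * τ ≤ Θ / (B : ℝ) ^ 2 := by
      have : τ ≤ Θ / (4 * (B : ℝ) ^ 2) := min_le_right _ _
      calc 4 * τ ≤ 4 * (Θ / (4 * (B : ℝ) ^ 2)) := by linarith
        _ = _ := by field_simp
    have hθτ : θ ≤ τ := hθF.trans (hFG τ hτ0).2.1
    -- the grid
    obtain ⟨S, hSfin, htS, hSrange, hStype, hSup, hSdn⟩ :=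
      mesh (Crit B p) (Crit_finite B p) (p 0) τ (θ / 2) M (top_mem_Crit p hB) (by linarith)
        (by linarith) (by linarith)
        (fun c hc c' hc' hlt => (by linarith [crit_sep hB hSep hc hc' hlt])) hMp
    set w : ℝ → ℝ := wd (Crit B p) τ (θ / 2) with hw
    -- data for each grid point
    have hdata : ∀ s ∈ S, ∃ Θs, 0 < Θs ∧ Θs ≤ 1 ∧ 0 < w s ∧ 2 * w s ≤ F Θs ∧
        Sep B (Fin.cons s p : Fin (k + 1 + 1) → ℝ) Θs ∧ min (G (Θ / B)) (G τ) ≤ G Θs ∧
        θ ≤ 2 * w s ∧ 2 * w s ≤ 2 * τ := by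
      intro s hs
      by_cases hsC : s ∈ Crit B p
      · refine ⟨Θ / B, by positivity, ?_, ?_, ?_, sep_child_crit hB hSep hsC, min_le_left _ _, ?_, ?_⟩
        · rw [div_le_one (by linarith)]; linarith
        · rw [hw, wd_of_mem hsC]; exact hτ0
        · rw [hw, wd_of_mem hsC]; exact hτF
        · rw [hw, wd_of_mem hsC]; linarith
        · rw [hw, wd_of_mem hsC]
      · refine ⟨τ, hτ0, by linarith, ?_, ?_, sep_child_mesh hB hSep hτ0 (by linarith) ?_,
          min_le_right _ _, ?_, ?_⟩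
        · rw [hw, wd_of_not_mem hsC]; linarith
        · rw [hw, wd_of_not_mem hsC]; linarith
        · rcases hStype s hs with h | h
          · exact absurd h hsC
          · exact h
        · rw [hw, wd_of_not_mem hsC]; linarith
        · rw [hw, wd_of_not_mem hsC]; linarith
    choose! Θs hΘs0 hΘs1 hw0 hwF hSeps hGs hθw hwτ using hdata
    have hchild := fun (s : ℝ) (hs : s ∈ S) =>
      ih (k + 1) (Fin.cons s p) (Θs s) (2 * w s) M A (hΘs0 s hs) (hΘs1 s hs)
        (by linarith [hw0 s hs]) (hwF s hs) (hSeps s hs) hMA (by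
          rw [Fin.cons_zero]; exact (hSrange s hs).1)
    choose! Ts hTfin hTprop hTtie hTev using hchild
    choose! up hupS hupgt hupβ using hSup
    choose! dn hdnS hdnlt hdnge hdnβ using hSdn
    choose! tie htieT htie using hTtie
    simp only [Fin.cons_zero] at hTprop htie hTev
    -- all β's of a child are at most s - w s
    have hTβ : ∀ s ∈ S, ∀ z ∈ Ts s, ∀ i, z.2 i ≤ s - w s := by
      intro s hs z hz i
      have := (hTprop s hs z hz).2.2 i
      linarith
    let cons2 : ℝ → ((Fin j → ℝ) × (Fin j → ℝ)) → ((Fin (j + 1) → ℝ) × (Fin (j + 1) → ℝ)) :=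
      fun s z => ((Fin.cons s z.1 : Fin (j + 1) → ℝ), (Fin.cons (s - w s) z.2 : Fin (j + 1) → ℝ))
    refine ⟨⋃ s ∈ S, cons2 s '' Ts s, ?_, ?_, ?_, ?_⟩
    · exact hSfin.biUnion (fun s hs => (hTfin s hs).image _)
    · rintro z hz
      simp only [Set.mem_iUnion, Set.mem_image] at hz
      obtain ⟨s, hs, z0, hz0, rfl⟩ := hz
      have hp := hTprop s hs z0 hz0
      have hws : s - w s ≤ p 0 - θ / 2 := by
        linarith [hθw s hs, (hSrange s hs).2]
      refine ⟨?_, ?_, ?_⟩
      · intro a b hab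
        refine Fin.cases ?_ (fun a' => ?_) a hab
        · intro _
          refine Fin.cases ?_ (fun b' => ?_) b
          · simp [cons2]
          · simpa [cons2] using hp.2.1 b'
        · intro hab
          refine Fin.cases (fun hab => ?_) (fun b' hab => ?_) b hab
          · exact absurd hab (by simp)
          · simpa [cons2] using hp.1 (Fin.succ_le_succ_iff.mp hab)
      · intro i
        refine Fin.cases ?_ (fun i' => ?_) i
        · simpa [cons2] using (hSrange s hs).2
        · simpa [cons2] using (hp.2.1 i').trans (hSrange s hs).2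
      · intro i
        refine Fin.cases ?_ (fun i' => ?_) i
        · simpa [cons2] using hws
        · have := hTβ s hs z0 hz0 i'
          simpa [cons2] using this.trans hws
    · refine ⟨cons2 (p 0) (tie (p 0)), ?_, ?_⟩
      · simp only [Set.mem_iUnion, Set.mem_image]
        exact ⟨p 0, htS, tie (p 0), htieT (p 0) htS, rfl⟩
      · intro i
        refine Fin.cases ?_ (fun i' => ?_) i
        · simp [cons2]
        · simpa [cons2] using htie (p 0) htS i'
    · -- the main estimate
      have ev1 : ∀ᶠ b in atTop, ∀ s ∈ S, s ≠ p 0 →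
          ((j : ℝ) + 1) * Real.exp (b * (up s - w (up s))) ≤
            (up s - s) * Real.exp (b * (s + 2 * w s)) := by
        rw [Filter.eventually_all_finite hSfin]
        intro s hs
        by_cases hst : s = p 0
        · exact Filter.Eventually.of_forall (fun b h => absurd hst h)
        · filter_upwards [eventually_mul_exp_le ((j : ℝ) + 1) (up s - s) (up s - w (up s))
            (s + 2 * w s) (by linarith [hupgt s hs hst])
            (by linarith [hupβ s hs hst, hw0 s hs])] with b hb _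
          exact hb
      have ev2 : ∀ᶠ b in atTop, ∀ s ∈ S, -M + 1 ≤ s →
          ((j : ℝ) + 1) * Real.exp (b * (s - 2 * w s)) ≤
            (1 / 2) * Real.exp (b * (s - w s)) := by
        rw [Filter.eventually_all_finite hSfin]
        intro s hs
        filter_upwards [eventually_mul_exp_le ((j : ℝ) + 1) (1 / 2) (s - 2 * w s)
            (s - w s) (by norm_num) (by linarith [hw0 s hs])] with b hb _
        exact hb
      have ev3 : ∀ᶠ b in atTop, ∀ s ∈ S, -M + 1 ≤ s →
          ((j : ℝ) + 1) * Real.exp (b * (dn s - w (dn s))) ≤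
            (1 / 2) * Real.exp (b * (s - w s)) := by
        rw [Filter.eventually_all_finite hSfin]
        intro s hs
        by_cases hst : -M + 1 ≤ s
        · filter_upwards [eventually_mul_exp_le ((j : ℝ) + 1) (1 / 2) (dn s - w (dn s))
            (s - w s) (by norm_num) (hdnβ s hs hst)] with b hb _
          exact hb
        · exact Filter.Eventually.of_forall (fun b h => absurd h hst)
      have ev4 := (Filter.eventually_all_finite hSfin).mpr hTev
      filter_upwards [ev1, ev2, ev3, ev4, Filter.eventually_gt_atTop 0] with b h1 h2 h3 h4 hb0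
      intro x hx hlo hup z hz hopt
      simp only [Set.mem_iUnion, Set.mem_image] at hz
      obtain ⟨s, hs, z0, hz0, rfl⟩ := hz
      have hopt' : ∀ s' ∈ S, ∀ z' ∈ Ts s', val b (cons2 s' z') x ≤ val b (cons2 s z0) x := by
        intro s' hs' z' hz'
        apply hopt
        simp only [Set.mem_iUnion, Set.mem_image]
        exact ⟨s', hs', z', hz', rfl⟩
      have hxpos : ∀ i, 0 < x i := fun i => (Real.exp_pos _).trans_le (hlo i)
      have hzprop := hTprop s hs z0 hz0
      -- bound on tie values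
      have htieval : ∀ s' ∈ S, val b (tie s') (fun i => x i.succ) ≥
          s' * ∑ i : Fin j, x i.succ - (j : ℝ) * Real.exp (b * (s' - w s')) := by
        intro s' hs'
        have e1 : ∑ i : Fin j, (tie s').1 i * x i.succ = s' * ∑ i : Fin j, x i.succ := by
          rw [Finset.mul_sum]
          exact Finset.sum_congr rfl (fun i _ => by rw [htie s' hs' i])
        have e2 : ∑ i : Fin j, Real.exp (b * (tie s').2 i) ≤
            (j : ℝ) * Real.exp (b * (s' - w s')) := by
          have : ∀ i ∈ (Finset.univ : Finset (Fin j)), Real.exp (b * (tie s').2 i) ≤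
              Real.exp (b * (s' - w s')) := by
            intro i _
            apply Real.exp_le_exp.mpr
            exact mul_le_mul_of_nonneg_left (hTβ s' hs' _ (htieT s' hs') i) hb0.le
          calc _ ≤ ∑ i : Fin j, Real.exp (b * (s' - w s')) := Finset.sum_le_sum this
            _ = _ := by simp
        simp only [val]
        rw [e1]; linarith
      -- upper bound
      have hU : x 0 ≤ Real.exp (b * (s + 2 * w s)) := by
        by_cases hst : s = p 0
        · refine (hup 0).trans ?_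
          apply Real.exp_le_exp.mpr
          have := hθw s hs
          rw [hst] at this ⊢
          exact mul_le_mul_of_nonneg_left (by linarith) hb0.le
        · have hgt := hupgt s hs hst
          have key := hopt' (up s) (hupS s hs hst) (tie (up s)) (htieT _ (hupS s hs hst))
          rw [val_cons, val_cons] at key
          have key2 := htieval (up s) (hupS s hs hst)
          have key3 : val b z0 (fun i => x i.succ) ≤ up s * ∑ i : Fin j, x i.succ := by
            simp only [val]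
            have : ∑ i : Fin j, z0.1 i * x i.succ ≤ up s * ∑ i : Fin j, x i.succ := by
              rw [Finset.mul_sum]
              apply Finset.sum_le_sum
              intro i _
              apply mul_le_mul_of_nonneg_right _ (hxpos _).le
              exact (hzprop.2.1 i).trans hgt.le
            have : 0 ≤ ∑ i : Fin j, Real.exp (b * z0.2 i) :=
              Finset.sum_nonneg (fun i _ => (Real.exp_pos _).le)
            linarith
          have h5 := h1 s hs hst
          have h6 : (up s - s) * x 0 ≤ (up s - s) * Real.exp (b * (s + 2 * w s)) := by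
            have := Real.exp_pos (b * (s - w s))
            nlinarith
          exact le_of_mul_le_mul_left h6 (by linarith)
      -- lower bound
      have hsM : -M + 1 ≤ s := by
        by_contra hcon
        push Not at hcon
        have h5 := (hlo 0).trans hU
        rw [Real.exp_le_exp] at h5
        have h6 : -A ≤ s + 2 * w s := by
          have : b * (-A) ≤ b * (s + 2 * w s) := by linarith
          exact le_of_mul_le_mul_left this hb0
        have := hwτ s hs
        linarith
      have hL : Real.exp (b * (s - 2 * w s)) ≤ x 0 := by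
        have hlt := hdnlt s hs hsM
        have hge := hdnge s hs hsM
        have key := hopt' (dn s) (hdnS s hs hsM) (tie (dn s)) (htieT _ (hdnS s hs hsM))
        rw [val_cons, val_cons] at key
        have key2 := htieval (dn s) (hdnS s hs hsM)
        have key3 : val b z0 (fun i => x i.succ) ≤ dn s * ∑ i : Fin j, x i.succ + j * x 0 := by
          simp only [val]
          have e1 : ∑ i : Fin j, z0.1 i * x i.succ ≤ ∑ i : Fin j, (dn s * x i.succ + x 0) := by
            apply Finset.sum_le_sum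
            intro i _
            have a1 : z0.1 i - dn s ≤ 1 := by
              have := hzprop.2.1 i
              linarith
            have a2 : x i.succ ≤ x 0 := hx (Fin.zero_le _)
            have a3 := hxpos i.succ
            nlinarith
          have e2 : ∑ i : Fin j, (dn s * x i.succ + x 0) = dn s * ∑ i : Fin j, x i.succ + j * x 0 := by
            rw [Finset.sum_add_distrib, ← Finset.mul_sum]; simp
          have : 0 ≤ ∑ i : Fin j, Real.exp (b * z0.2 i) :=
            Finset.sum_nonneg (fun i _ => (Real.exp_pos _).le)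
          linarith
        have h5 := h2 s hs hsM
        have h6 := h3 s hs hsM
        have h7 : (s - dn s) * x 0 ≤ x 0 := by
          have := hxpos 0
          nlinarith
        have h8 : ((j : ℝ) + 1) * Real.exp (b * (s - 2 * w s)) ≤ ((j : ℝ) + 1) * x 0 := by
          have := Real.exp_pos (b * (s - w s))
          nlinarith
        exact le_of_mul_le_mul_left h8 (by positivity)
      -- child
      have hx' : Antitone (fun i : Fin j => x i.succ) := by
        intro a c hac
        exact hx (Fin.succ_le_succ_iff.mpr hac)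
      obtain ⟨Θ', θ', hG', hθ', hεΘ', hlog, hint⟩ := h4 s hs (fun i => x i.succ) hx'
        (fun i => hlo i.succ) (fun i => (hx (Fin.zero_le _)).trans hU) z0 hz0 (by
          intro z' hz'
          have := hopt' s hs z' hz'
          rw [val_cons, val_cons] at this
          linarith)
      refine ⟨Θ', θ', (hGs s hs).trans hG', (hθw s hs).trans hθ', hεΘ', ?_, ?_⟩
      · intro i
        refine Fin.cases ?_ (fun i' => ?_) i
        · simp only [cons2, Fin.cons_zero]
          have l1 : Real.log (x 0) ≤ b * (s + 2 * w s) := by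
            rw [Real.log_le_iff_le_exp (hxpos 0)]; exact hU
          have l2 : b * (s - 2 * w s) ≤ Real.log (x 0) := by
            rw [Real.le_log_iff_exp_le (hxpos 0)]; exact hL
          have l3 : b * (2 * w s) ≤ b * θ' := mul_le_mul_of_nonneg_left hθ' hb0.le
          rw [abs_le]
          constructor <;> nlinarith
        · simpa [cons2] using hlog i'
      · intro u v hu hv
        have := hint (Fin.cons (v 0) u) (fun i => v i.succ) (by
          intro i
          refine Fin.cases ?_ (fun i' => ?_) i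
          · simpa using hv 0
          · simpa using hu i') (fun i => hv i.succ)
        have e1 : ∑ i, ((Fin.cons (v 0) u : Fin (k + 1 + 1) → ℤ) i : ℝ) *
              (Fin.cons s p : Fin (k + 1 + 1) → ℝ) i = v 0 * s + ∑ i, (u i : ℝ) * p i := by
          rw [Fin.sum_univ_succ]
          simp
        have e2 : ∑ i, (v i : ℝ) * (cons2 s z0).1 i
            = v 0 * s + ∑ i : Fin j, (v i.succ : ℝ) * z0.1 i := by
          rw [Fin.sum_univ_succ]
          simp [cons2]
        have e : ∑ i, ((Fin.cons (v 0) u : Fin (k + 1 + 1) → ℤ) i : ℝ) *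
              (Fin.cons s p : Fin (k + 1 + 1) → ℝ) i + ∑ i : Fin j, (v i.succ : ℝ) * z0.1 i
            = ∑ i, (u i : ℝ) * p i + ∑ i, (v i : ℝ) * (cons2 s z0).1 i := by
          rw [e1, e2]; ring
        rw [e] at this
        exact this

end Crest.Agent.S0122
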