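import Mathlib
import Crest.Agent.S0122_Tree

set_option autoImplicit false

/-! From the tree to permutation-closed blocks of constraints. -/

namespace Crest.Agent.S0122

open Filter Finset

theorem exists_sort {m : ℕ} (n y : Fin m → ℝ) (hn : Antitone n)
    (h : ∀ i j, n i < n j → y i ≤ y j) :
    ∃ π : Equiv.Perm (Fin m), (∀ i, n (π i) = n i) ∧ Antitone (y ∘ π) := by
  let f : Fin m → ℝ ×ₗ ℝ := fun i => toLex (-n i, -y i)
  have hf : Monotone (f ∘ (Tuple.sort f)) := Tuple.monotone_sort f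
  refine ⟨Tuple.sort f, ?_, ?_⟩
  · have h1 : Monotone ((fun i => -n i) ∘ (Tuple.sort f)) := by
      intro i j hij
      have := hf hij
      simp only [Function.comp, f, Prod.Lex.toLex_le_toLex] at this
      rcases this with h | h
      · exact h.le
      · exact h.1.le
    have h2 : Monotone ((fun i => -n i) ∘ ((1 : Equiv.Perm (Fin m)))) := by
      intro i j hij
      simpa using hn hij
    have h3 := Tuple.unique_monotone h1 h2
    intro i
    have := congrFun h3 i
    simp only [Function.comp, Equiv.Perm.coe_one, id, neg_inj] at this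
    exact this
  · intro i j hij
    have := hf hij
    simp only [Function.comp, f, Prod.Lex.toLex_le_toLex] at this
    rcases this with h' | h'
    · exact h _ _ (by linarith)
    · simp only [Function.comp]; linarith [h'.2]

theorem exists_antitone_perm {m : ℕ} (y : Fin m → ℝ) :
    ∃ π : Equiv.Perm (Fin m), Antitone (y ∘ π) := by
  refine ⟨Tuple.sort (fun i => -y i), ?_⟩
  have := Tuple.monotone_sort (fun i => -y i)
  intro i j hij
  have := this hij
  simp only [Function.comp] at this ⊢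
  linarith

/-- the linear functional of a node with root `r`. -/
noncomputable def lin (r : ℝ) {j : ℕ} (z : (Fin j → ℝ) × (Fin j → ℝ)) (y : Fin (j + 1) → ℝ) : ℝ :=
  ∑ l, (Fin.cons r z.1 : Fin (j + 1) → ℝ) l * y l

theorem lin_eq (r : ℝ) {j : ℕ} (z : (Fin j → ℝ) × (Fin j → ℝ)) (y : Fin (j + 1) → ℝ) :
    lin r z y = r * y 0 + ∑ i : Fin j, z.1 i * y i.succ := by
  simp [lin, Fin.sum_univ_succ]

/-- the support number. -/
noncomputable def rhs (r b : ℝ) {j : ℕ} (z : (Fin j → ℝ) × (Fin j → ℝ)) : ℝ :=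
  r * Real.exp (b * r) + ∑ i, Real.exp (b * z.2 i)

theorem sorted_of_active {m : ℕ} (n y : Fin m → ℝ) (hn : Antitone n) (c : ℝ)
    (hall : ∀ π : Equiv.Perm (Fin m), ∑ l, n l * y (π l) ≤ c) (hact : ∑ l, n l * y l = c) :
    ∃ π : Equiv.Perm (Fin m), (∀ i, n (π i) = n i) ∧ Antitone (y ∘ π) := by
  apply exists_sort n y hn
  obtain ⟨π, hπ⟩ := exists_antitone_perm y
  have hmv : Monovary n (y ∘ π) := by
    intro i j hij
    by_contra hcon
    push Not at hcon
    rcases le_total i j with h | h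
    · exact absurd (hπ h) (not_le.mpr hij)
    · exact absurd (hn h) (not_le.mpr hcon)
  have e : ∑ i, n i * (y ∘ π) (π⁻¹ i) = ∑ i, n i * y i := by
    apply Finset.sum_congr rfl
    intro i _
    simp
  have h1 := hmv.sum_mul_comp_perm_le_sum_mul (σ := π⁻¹)
  have h2 := hall π
  have h3 : ∑ i, n i * (y ∘ π) (π⁻¹ i) = ∑ i, n i * (y ∘ π) i := by
    apply le_antisymm h1
    rw [e, hact]
    simpa using h2
  have h4 := (hmv.sum_mul_comp_perm_eq_sum_mul_iff (σ := π⁻¹)).mp h3
  have h5 : (y ∘ π) ∘ (π⁻¹ : Equiv.Perm (Fin m)) = y := by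
    ext i; simp
  rw [h5] at h4
  intro i j hij
  by_contra hcon
  push Not at hcon
  exact absurd (h4 hcon) (not_le.mpr hij)

theorem block (N : ℕ) (hN : 1 ≤ N) (j : ℕ) : ∃ g : ℝ, 0 < g ∧
    ∀ (r : ℝ), (r = 1 ∨ r = -1) → ∀ A : ℝ, 0 ≤ A →
    ∃ T : Set ((Fin j → ℝ) × (Fin j → ℝ)), T.Finite ∧
      (∀ z ∈ T, Antitone (Fin.cons r z.1 : Fin (j + 1) → ℝ)) ∧
      (∀ᶠ b in atTop, ∀ y : Fin (j + 1) → ℝ, (∀ z ∈ T, lin r z y ≤ rhs r b z) →
        (r * ∑ l, y l ≤ r * Real.exp (b * r) + (1 / 2) * Real.exp (b * r))) ∧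
      (∀ᶠ b in atTop, ∀ y : Fin (j + 1) → ℝ, (∀ l, Real.exp (-(b * A)) ≤ y l) →
        (∀ π : Equiv.Perm (Fin (j + 1)), ∀ z ∈ T, lin r z (y ∘ π) ≤ rhs r b z) →
        ∀ z ∈ T, lin r z y = rhs r b z →
          ((r = -1 → ∀ l, y l ≤ Real.exp (-b)) ∧
          ∀ v : Fin (j + 1) → ℤ, (∀ l, |v l| ≤ (N : ℤ)) →
            0 < ∑ l, (v l : ℝ) * (Fin.cons r z.1 : Fin (j + 1) → ℝ) l →
            b * g ≤ ∑ l, (v l : ℝ) * Real.log (y l))) := by
  have hNr : (1 : ℝ) ≤ N := by exact_mod_cast hN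
  set ε : ℝ := 1 / (2 * N * (j + 1)) with hε
  have hε0 : 0 < ε := by positivity
  have hε1 : ε ≤ 1 := by
    rw [hε, div_le_one (by positivity)]
    have : (0 : ℝ) ≤ j := by positivity
    nlinarith
  obtain ⟨B, F, G, hB, hFG, H⟩ := tree N hN ε hε0 hε1 j
  refine ⟨G 1 / 2, by linarith [(hFG 1 one_pos).2.2], ?_⟩
  intro r hr A hA
  set θ := F 1 with hθ
  have hθ0 : 0 < θ := (hFG 1 one_pos).1
  have hθ1 : θ ≤ 1 := (hFG 1 one_pos).2.1
  have habsr : |r| = 1 := by rcases hr with h | h <;> simp [h]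
  have hrge : -1 ≤ r := by rcases hr with h | h <;> simp [h]
  have hrle : r ≤ 1 := by rcases hr with h | h <;> simp [h]
  have hSep : Sep B (fun _ : Fin (0 + 1) => r) 1 := by
    intro u hu
    have : ∑ i : Fin (0 + 1), (u i : ℝ) * r = u 0 * r := by simp
    rw [this]
    by_cases h0 : u 0 = 0
    · left; simp [h0]
    · right
      rw [abs_mul, habsr, mul_one]
      have : (1 : ℤ) ≤ |u 0| := Int.one_le_abs h0
      exact_mod_cast this
  obtain ⟨T, hTfin, hTprop, ⟨zt, hztT, hzt⟩, hTev⟩ :=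
    H 0 (fun _ => r) 1 θ (A + 2) A one_pos le_rfl hθ0 le_rfl hSep le_rfl (by linarith)
  have hnanti : ∀ z ∈ T, Antitone (Fin.cons r z.1 : Fin (j + 1) → ℝ) := by
    intro z hz
    have hp := hTprop z hz
    intro a b hab
    refine Fin.cases ?_ (fun a' => ?_) a hab
    · intro _
      refine Fin.cases ?_ (fun b' => ?_) b
      · simp
      · simpa using hp.2.1 b'
    · intro hab
      refine Fin.cases (fun hab => ?_) (fun b' hab => ?_) b hab
      · exact absurd hab (by simp)
      · simpa using hp.1 (Fin.succ_le_succ_iff.mp hab)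
  have hnle : ∀ z ∈ T, ∀ l, (Fin.cons r z.1 : Fin (j + 1) → ℝ) l ≤ r := by
    intro z hz l
    have := hnanti z hz (Fin.zero_le l)
    simpa using this
  -- tie bound
  have hrhs_tie : ∀ b : ℝ, 0 ≤ b → rhs r b zt ≤ r * Real.exp (b * r) +
      j * Real.exp (b * (r - θ / 2)) := by
    intro b hb
    simp only [rhs]
    have : ∑ i : Fin j, Real.exp (b * zt.2 i) ≤ ∑ i : Fin j, Real.exp (b * (r - θ / 2)) := by
      apply Finset.sum_le_sum
      intro i _
      apply Real.exp_le_exp.mpr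
      exact mul_le_mul_of_nonneg_left ((hTprop zt hztT).2.2 i) hb
    simp at this
    linarith
  have hlin_tie : ∀ y : Fin (j + 1) → ℝ, lin r zt y = r * ∑ l, y l := by
    intro y
    rw [lin_eq, Fin.sum_univ_succ, mul_add, Finset.mul_sum]
    congr 1
    apply Finset.sum_congr rfl
    intro i _
    rw [hzt i]
  have evtie : ∀ᶠ b in atTop, (j : ℝ) * Real.exp (b * (r - θ / 2)) ≤ (1 / 2) * Real.exp (b * r) :=
    eventually_mul_exp_le _ _ _ _ (by norm_num) (by linarith)
  have htie : ∀ᶠ b in atTop, ∀ y : Fin (j + 1) → ℝ, (∀ z ∈ T, lin r z y ≤ rhs r b z) →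
        (r * ∑ l, y l ≤ r * Real.exp (b * r) + (1 / 2) * Real.exp (b * r)) := by
    filter_upwards [evtie, eventually_ge_atTop 0] with b hb hb0 y hy
    have h1 := hy zt hztT
    rw [hlin_tie] at h1
    linarith [hrhs_tie b hb0]
  refine ⟨T, hTfin, hnanti, htie, ?_⟩
  have ev1 : ∀ᶠ b in atTop, (2 * ((j : ℝ) + 1)) * Real.exp (b * (r - θ)) ≤ 1 * Real.exp (b * r) :=
    eventually_mul_exp_le _ _ _ _ (by norm_num) (by linarith)
  have ev2 : ∀ᶠ b in atTop, (2 : ℝ) * Real.exp (b * r) ≤ 1 * Real.exp (b * (r + θ)) :=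
    eventually_mul_exp_le _ _ _ _ (by norm_num) (by linarith)
  filter_upwards [htie, hTev, ev1, ev2, eventually_gt_atTop 0] with b htieb hb h1 h2 hb0
  intro y0 hlo0 hall0 z hz hact0
  -- sort
  obtain ⟨π, hπn, hπy⟩ := sorted_of_active (Fin.cons r z.1 : Fin (j + 1) → ℝ) y0 (hnanti z hz)
    (rhs r b z) (fun π => hall0 π z hz) hact0
  set y : Fin (j + 1) → ℝ := y0 ∘ π with hy
  have hlo : ∀ l, Real.exp (-(b * A)) ≤ y l := fun l => hlo0 _
  have hypos : ∀ l, 0 < y l := fun l => (Real.exp_pos _).trans_le (hlo l)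
  have hall : ∀ z ∈ T, lin r z y ≤ rhs r b z := fun z hz => hall0 π z hz
  have hreindex : ∀ f : Fin (j + 1) → ℝ, ∑ l, (Fin.cons r z.1 : Fin (j + 1) → ℝ) l * f (π l)
      = ∑ l, (Fin.cons r z.1 : Fin (j + 1) → ℝ) l * f l := by
    intro f
    rw [← Equiv.sum_comp π (fun l => (Fin.cons r z.1 : Fin (j + 1) → ℝ) l * f l)]
    apply Finset.sum_congr rfl
    intro l _
    rw [hπn]
  have hact : lin r z y = rhs r b z := by
    rw [← hact0]
    exact hreindex y0
  -- sum bound
  have hsum_le : r = 1 → ∑ l, y l ≤ 2 * Real.exp b := by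
    intro h
    have := htieb y hall
    rw [h] at this
    simp only [mul_one, one_mul] at this
    linarith [Real.exp_pos b]
  have hneg : r = -1 → ∀ l, y l ≤ Real.exp (-b) := by
    intro h l
    have h3 : ∑ l, (-(Fin.cons r z.1 : Fin (j + 1) → ℝ) l) * y l = - rhs r b z := by
      rw [← hact, lin, ← Finset.sum_neg_distrib]
      apply Finset.sum_congr rfl
      intro l _; ring
    have h4 : (-(Fin.cons r z.1 : Fin (j + 1) → ℝ) l) * y l ≤
        ∑ l, (-(Fin.cons r z.1 : Fin (j + 1) → ℝ) l) * y l := by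
      apply Finset.single_le_sum (f := fun l => (-(Fin.cons r z.1 : Fin (j + 1) → ℝ) l) * y l)
        (fun l _ => ?_) (Finset.mem_univ l)
      have := hnle z hz l
      rw [h] at this
      have h6 := hypos l
      have : 0 ≤ -(Fin.cons r z.1 : Fin (j + 1) → ℝ) l := by rw [h]; linarith
      positivity
    have h5 : - rhs r b z ≤ Real.exp (-b) := by
      simp only [rhs, h]
      have : 0 ≤ ∑ i, Real.exp (b * z.2 i) := Finset.sum_nonneg (fun i _ => (Real.exp_pos _).le)
      have e : b * -1 = -b := by ring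
      rw [e]; linarith
    have h6 : y l ≤ (-(Fin.cons r z.1 : Fin (j + 1) → ℝ) l) * y l := by
      have := hnle z hz l
      have h7 := hypos l
      have : 1 ≤ -(Fin.cons r z.1 : Fin (j + 1) → ℝ) l := by linarith
      nlinarith
    linarith
  have hsum_ge : Real.exp (b * r) ≤ 2 * ∑ l, y l := by
    rcases hr with h | h
    · have h3 : lin r z y ≤ ∑ l, y l := by
        rw [lin]
        apply Finset.sum_le_sum
        intro l _
        have := hnle z hz l
        have h7 := hypos l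
        rw [h] at this
        have h8 : (Fin.cons r z.1 : Fin (j + 1) → ℝ) l ≤ 1 := by rw [h]; exact this
        nlinarith
      have h4 : Real.exp (b * r) ≤ rhs r b z := by
        simp only [rhs, h]
        have : 0 ≤ ∑ i, Real.exp (b * z.2 i) :=
          Finset.sum_nonneg (fun i _ => (Real.exp_pos _).le)
        linarith
      have := Real.exp_pos (b * r)
      linarith
    · have := htieb y hall
      rw [h] at this ⊢
      linarith
  have hupper : ∀ l, y l ≤ Real.exp (b * (r + θ)) := by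
    intro l
    rcases hr with h | h
    · have h3 : y l ≤ ∑ l, y l :=
        Finset.single_le_sum (fun l _ => (hypos l).le) (Finset.mem_univ l)
      have := hsum_le h
      rw [h] at h2 ⊢
      simp only [mul_one, one_mul] at h2
      linarith
    · have := hneg h l
      refine this.trans ?_
      apply Real.exp_le_exp.mpr
      rw [h]; nlinarith
  have hlower : Real.exp (b * (r - θ)) ≤ y 0 := by
    have h3 : ∑ l, y l ≤ ((j : ℝ) + 1) * y 0 := by
      have : ∑ l, y l ≤ ∑ l : Fin (j + 1), y 0 :=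
        Finset.sum_le_sum (fun l _ => hπy (Fin.zero_le l))
      simpa using this
    have h4 : (2 * ((j : ℝ) + 1)) * Real.exp (b * (r - θ)) ≤ (2 * ((j : ℝ) + 1)) * y 0 := by
      linarith
    exact le_of_mul_le_mul_left h4 (by positivity)
  -- apply the tree
  obtain ⟨Θ', θ', hG', hθ', hεΘ', hlog, hint⟩ := hb (fun i => y i.succ)
    (fun a c hac => hπy (Fin.succ_le_succ_iff.mpr hac)) (fun i => hlo i.succ)
    (fun i => hupper i.succ) z hz (by
      intro z' hz'
      have h3 := hall z' hz'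
      have h4 := hact
      rw [lin_eq] at h3 h4
      simp only [rhs] at h3 h4
      simp only [val]
      linarith)
  have hlogall : ∀ l, |Real.log (y l) - b * (Fin.cons r z.1 : Fin (j + 1) → ℝ) l| ≤ b * θ' := by
    intro l
    refine Fin.cases ?_ (fun l' => ?_) l
    · simp only [Fin.cons_zero]
      have l1 : Real.log (y 0) ≤ b * (r + θ) := by
        rw [Real.log_le_iff_le_exp (hypos 0)]; exact hupper 0
      have l2 : b * (r - θ) ≤ Real.log (y 0) := by
        rw [Real.le_log_iff_exp_le (hypos 0)]; exact hlower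
      have l3 : b * θ ≤ b * θ' := mul_le_mul_of_nonneg_left hθ' hb0.le
      rw [abs_le]
      constructor <;> nlinarith
    · simpa using hlog l'
  refine ⟨?_, ?_⟩
  · intro h l
    have := hneg h (π⁻¹ l)
    simpa [hy] using this
  · intro v0 hv0 hpos0
    -- transfer to sorted
    have e1 : ∑ l, (v0 l : ℝ) * (Fin.cons r z.1 : Fin (j + 1) → ℝ) l
        = ∑ l, (v0 (π l) : ℝ) * (Fin.cons r z.1 : Fin (j + 1) → ℝ) l := by
      have := hreindex (fun l => (v0 l : ℝ))
      simp only [mul_comm] at this ⊢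
      exact this.symm
    have e2 : ∑ l, (v0 l : ℝ) * Real.log (y0 l) = ∑ l, (v0 (π l) : ℝ) * Real.log (y l) := by
      rw [← Equiv.sum_comp π (fun l => (v0 l : ℝ) * Real.log (y0 l))]
      rfl
    rw [e1] at hpos0
    rw [e2]
    set v : Fin (j + 1) → ℤ := fun l => v0 (π l) with hv
    have hvN : ∀ l, |v l| ≤ (N : ℤ) := fun l => hv0 _
    have hL := hint (fun _ => v 0) (fun i => v i.succ) (fun _ => hvN 0) (fun i => hvN i.succ)
    have e3 : ∑ i : Fin (0 + 1), ((fun _ => v 0 : Fin (0 + 1) → ℤ) i : ℝ) * (fun _ => r : Fin (0 + 1) → ℝ) i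
        + ∑ i : Fin j, (v i.succ : ℝ) * z.1 i
        = ∑ l, (v l : ℝ) * (Fin.cons r z.1 : Fin (j + 1) → ℝ) l := by
      rw [Fin.sum_univ_succ (fun l => (v l : ℝ) * (Fin.cons r z.1 : Fin (j + 1) → ℝ) l)]
      simp
    rw [e3] at hL
    set L := ∑ l, (v l : ℝ) * (Fin.cons r z.1 : Fin (j + 1) → ℝ) l with hLdef
    have hΘL : Θ' ≤ L := by
      rcases hL with h | h
      · rw [h] at hpos0; exact absurd hpos0 (lt_irrefl _)
      · rwa [abs_of_pos hpos0] at h
    have e4 : b * L - ∑ l, (v l : ℝ) * Real.log (y l)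
        = ∑ l, (v l : ℝ) * (b * (Fin.cons r z.1 : Fin (j + 1) → ℝ) l - Real.log (y l)) := by
      rw [hLdef, Finset.mul_sum, ← Finset.sum_sub_distrib]
      apply Finset.sum_congr rfl
      intro l _; ring
    have hθ'0 : 0 ≤ θ' := hθ0.le.trans hθ'
    have e5 : ∑ l, (v l : ℝ) * (b * (Fin.cons r z.1 : Fin (j + 1) → ℝ) l - Real.log (y l))
        ≤ ∑ l : Fin (j + 1), (N : ℝ) * (b * θ') := by
      apply Finset.sum_le_sum
      intro l _
      calc (v l : ℝ) * (b * (Fin.cons r z.1 : Fin (j + 1) → ℝ) l - Real.log (y l))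
          ≤ |(v l : ℝ) * (b * (Fin.cons r z.1 : Fin (j + 1) → ℝ) l - Real.log (y l))| :=
            le_abs_self _
        _ = |(v l : ℝ)| * |Real.log (y l) - b * (Fin.cons r z.1 : Fin (j + 1) → ℝ) l| := by
            rw [abs_mul, abs_sub_comm]
        _ ≤ (N : ℝ) * (b * θ') := by
            have : |(v l : ℝ)| ≤ N := by exact_mod_cast hvN l
            have h9 := hlogall l
            gcongr
    have e6 : ∑ l : Fin (j + 1), (N : ℝ) * (b * θ') = ((j : ℝ) + 1) * N * (b * θ') := by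
      simp; ring
    have e7 : ((j : ℝ) + 1) * N * (b * θ') ≤ b * (Θ' / 2) := by
      have : ((j : ℝ) + 1) * N * θ' ≤ Θ' / 2 := by
        calc ((j : ℝ) + 1) * N * θ' ≤ ((j : ℝ) + 1) * N * (ε * Θ') := by gcongr
          _ = Θ' / 2 := by rw [hε]; field_simp
      calc ((j : ℝ) + 1) * N * (b * θ') = b * (((j : ℝ) + 1) * N * θ') := by ring
        _ ≤ _ := mul_le_mul_of_nonneg_left this hb0.le
    have e8 : b * (G 1) ≤ b * L := mul_le_mul_of_nonneg_left (hG'.trans hΘL) hb0.le
    have e9 : b * Θ' ≤ b * L := mul_le_mul_of_nonneg_left hΘL hb0.le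
    have e10 : b * (G 1) ≤ b * Θ' := mul_le_mul_of_nonneg_left hG' hb0.le
    linarith

end Crest.Agent.S0122
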