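import Mathlib
import Crest.Agent.S0122_Block

set_option autoImplicit false

/-! The family of polytopes `K_a`. -/

namespace Crest.Agent.S0122

open Filter Finset

/-- extension of a vector indexed by `Fin m` along `σ`. -/
noncomputable def extv {m d : ℕ} (σ : Fin m → Fin d) (n : Fin m → ℝ) : Fin d → ℝ :=
  fun i => ∑ l, if σ l = i then n l else 0

theorem extv_sum {m d : ℕ} (σ : Fin m → Fin d) (n : Fin m → ℝ) (f : Fin d → ℝ) :
    ∑ i, extv σ n i * f i = ∑ l, n l * f (σ l) := by
  simp only [extv, Finset.sum_mul]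
  rw [Finset.sum_comm]
  apply Finset.sum_congr rfl
  intro l _
  simp

theorem contDiff_rhs (r q : ℝ) {j : ℕ} (z : (Fin j → ℝ) × (Fin j → ℝ)) :
    ContDiff ℝ 1 (fun a : ℝ => rhs r (a * q) z) := by
  unfold rhs
  fun_prop

theorem sum_split {m d : ℕ} (σ : Fin m → Fin d) (hσ : Function.Injective σ) (f : Fin d → ℝ) :
    ∑ i, f i = ∑ l, f (σ l) + ∑ i ∈ Finset.univ.filter (fun i => i ∉ Set.range σ), f i := by
  classical
  have h1 : ∑ l, f (σ l) = ∑ i ∈ Finset.univ.image σ, f i := by
    rw [Finset.sum_image]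
    intro a _ b _ h; exact hσ h
  rw [h1]
  have h2 : Finset.univ.image σ = Finset.univ.filter (fun i => i ∈ Set.range σ) := by
    ext i; simp
  rw [h2, Finset.sum_filter_add_sum_filter_not]

theorem geometry (D N : ℕ) (hN : 1 ≤ N) (δ : ℝ) :
    ∃ (S : Set ((Fin (D + 1) → ℝ) × (ℝ → ℝ))) (A a₀ : ℝ), S.Finite ∧ 0 ≤ A ∧ 0 < a₀ ∧
      (∀ z ∈ S, ContDiff ℝ 1 z.2) ∧
      (∀ a, a₀ ≤ a → ∀ x : Fin (D + 1) → ℝ, (∀ z ∈ S, ∑ i, z.1 i * x i ≤ z.2 a) →
        (∀ i, Real.exp (-(a * A)) ≤ x i ∧ x i ≤ Real.exp (a * A)) ∧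
        ∀ z ∈ S, ∑ i, z.1 i * x i = z.2 a → ∀ v : Fin (D + 1) → ℤ, (∀ i, |v i| ≤ (N : ℤ)) →
          0 < ∑ i, z.1 i * (v i : ℝ) → δ ≤ ∑ i, (v i : ℝ) * Real.log (x i)) ∧
      (∀ x : Fin (D + 1) → ℝ, (∀ i, 0 < x i) →
        ∀ᶠ a in atTop, ∀ z ∈ S, ∑ i, z.1 i * x i < z.2 a) := by
  have hNr : (1 : ℝ) ≤ N := by exact_mod_cast hN
  have hDr : (0 : ℝ) ≤ D := by positivity
  choose g hg hblock using (block N hN)
  obtain ⟨j0, hj0, hmin⟩ := Finset.exists_min_image (Finset.range (D + 1)) g ⟨0, by simp⟩
  set gm := g j0 with hgm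
  have hgm0 : 0 < gm := hg j0
  have hgmle : ∀ j, j ≤ D → gm ≤ g j := fun j hj => hmin j (by simp; omega)
  set Q : ℝ := max 2 ((2 * N * (D + 1) + 1) / gm) with hQ
  have hQ2 : 2 ≤ Q := le_max_left _ _
  have hQg : 2 * N * (D + 1) + 1 ≤ Q * gm := by
    have : (2 * N * (D + 1) + 1) / gm ≤ Q := le_max_right _ _
    rwa [div_le_iff₀ hgm0] at this
  set q : ℕ → ℝ := fun j => Q ^ (D - j) with hq
  have hq1 : ∀ j, 1 ≤ q j := fun j => one_le_pow₀ (by linarith)
  have hqstep : ∀ j, j + 1 ≤ D → q j = Q * q (j + 1) := by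
    intro j hj
    simp only [hq]
    rw [← pow_succ']
    congr 1; omega
  set A' : ℝ := q 0 + 1 with hA'
  have hA'0 : 0 ≤ A' := by linarith [hq1 0]
  -- trees
  choose T hTfin hTanti hTtie hTmain using
    (fun j => hblock j (-1) (Or.inr rfl) A' hA'0)
  obtain ⟨Tp, hTpfin, hTpanti, hTptie, hTpmain⟩ := hblock D 1 (Or.inl rfl) A' hA'0
  let nodeN : (j : ℕ) → (Fin (j + 1) → Fin (D + 1)) × ((Fin j → ℝ) × (Fin j → ℝ)) →
      (Fin (D + 1) → ℝ) × (ℝ → ℝ) := fun j w =>
    (extv w.1 (Fin.cons (-1) w.2.1 : Fin (j + 1) → ℝ), fun a => rhs (-1) (a * q j) w.2)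
  let nodeP : (Fin (D + 1) → Fin (D + 1)) × ((Fin D → ℝ) × (Fin D → ℝ)) →
      (Fin (D + 1) → ℝ) × (ℝ → ℝ) := fun w =>
    (extv w.1 (Fin.cons 1 w.2.1 : Fin (D + 1) → ℝ), fun a => rhs 1 (a * 1) w.2)
  let SN : Set ((Fin (D + 1) → ℝ) × (ℝ → ℝ)) :=
    ⋃ j ∈ Set.Iic D, nodeN j '' ({σ | Function.Injective σ} ×ˢ T j)
  let SP : Set ((Fin (D + 1) → ℝ) × (ℝ → ℝ)) :=
    nodeP '' ({σ | Function.Injective σ} ×ˢ Tp)
  -- membership
  have memN : ∀ z ∈ SN, ∃ j, j ≤ D ∧ ∃ σ : Fin (j + 1) → Fin (D + 1), Function.Injective σ ∧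
      ∃ w ∈ T j, z = nodeN j (σ, w) := by
    intro z hz
    simp only [SN, Set.mem_iUnion, Set.mem_image, Set.mem_prod] at hz
    obtain ⟨j, hj, ⟨σ, w⟩, ⟨hσ, hw⟩, rfl⟩ := hz
    exact ⟨j, hj, σ, hσ, w, hw, rfl⟩
  have memP : ∀ z ∈ SP, ∃ σ : Fin (D + 1) → Fin (D + 1), Function.Injective σ ∧
      ∃ w ∈ Tp, z = nodeP (σ, w) := by
    intro z hz
    obtain ⟨⟨σ, w⟩, ⟨hσ, hw⟩, rfl⟩ := hz
    exact ⟨σ, hσ, w, hw, rfl⟩
  have sumN : ∀ (j : ℕ) (σ : Fin (j + 1) → Fin (D + 1)) (w : (Fin j → ℝ) × (Fin j → ℝ))
      (x : Fin (D + 1) → ℝ), ∑ i, (nodeN j (σ, w)).1 i * x i = lin (-1) w (x ∘ σ) := by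
    intro j σ w x
    exact extv_sum _ _ _
  have sumP : ∀ (σ : Fin (D + 1) → Fin (D + 1)) (w : (Fin D → ℝ) × (Fin D → ℝ))
      (x : Fin (D + 1) → ℝ), ∑ i, (nodeP (σ, w)).1 i * x i = lin 1 w (x ∘ σ) := by
    intro σ w x
    exact extv_sum _ _ _
  have consN : ∀ (a : ℝ) (x : Fin (D + 1) → ℝ), (∀ z ∈ SN ∪ SP, ∑ i, z.1 i * x i ≤ z.2 a) →
      ∀ j, j ≤ D → ∀ σ : Fin (j + 1) → Fin (D + 1), Function.Injective σ → ∀ w ∈ T j,
        lin (-1) w (x ∘ σ) ≤ rhs (-1) (a * q j) w := by
    intro a x hx j hj σ hσ w hw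
    rw [← sumN]
    apply hx
    left
    simp only [SN, Set.mem_iUnion, Set.mem_image, Set.mem_prod]
    exact ⟨j, hj, (σ, w), ⟨hσ, hw⟩, rfl⟩
  have consP : ∀ (a : ℝ) (x : Fin (D + 1) → ℝ), (∀ z ∈ SN ∪ SP, ∑ i, z.1 i * x i ≤ z.2 a) →
      ∀ σ : Fin (D + 1) → Fin (D + 1), Function.Injective σ → ∀ w ∈ Tp,
        lin 1 w (x ∘ σ) ≤ rhs 1 a w := by
    intro a x hx σ hσ w hw
    rw [← sumP]
    have h := hx (nodeP (σ, w)) (Or.inr ⟨(σ, w), ⟨hσ, hw⟩, rfl⟩)
    simpa only [nodeP, mul_one] using h
  -- eventual statements in `a`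
  have tq : ∀ j, Tendsto (fun a : ℝ => a * q j) atTop atTop := fun j =>
    tendsto_id.atTop_mul_const (by linarith [hq1 j])
  have evA : ∀ᶠ a in atTop, ∀ j ∈ Set.Iic D, ∀ y : Fin (j + 1) → ℝ,
      (∀ z ∈ T j, lin (-1) z y ≤ rhs (-1) (a * q j) z) →
        (-1 * ∑ l, y l ≤ -1 * Real.exp (a * q j * (-1)) + (1 / 2) * Real.exp (a * q j * (-1))) := by
    rw [Filter.eventually_all_finite (Set.finite_Iic D)]
    intro j _
    exact (tq j).eventually (hTtie j)
  have evB : ∀ᶠ a in atTop, ∀ j ∈ Set.Iic D, ∀ y : Fin (j + 1) → ℝ,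
      (∀ l, Real.exp (-(a * q j * A')) ≤ y l) →
        (∀ π : Equiv.Perm (Fin (j + 1)), ∀ z ∈ T j, lin (-1) z (y ∘ π) ≤ rhs (-1) (a * q j) z) →
        ∀ z ∈ T j, lin (-1) z y = rhs (-1) (a * q j) z →
          (((-1 : ℝ) = -1 → ∀ l, y l ≤ Real.exp (-(a * q j))) ∧
          ∀ v : Fin (j + 1) → ℤ, (∀ l, |v l| ≤ (N : ℤ)) →
            0 < ∑ l, (v l : ℝ) * (Fin.cons (-1) z.1 : Fin (j + 1) → ℝ) l →
            a * q j * g j ≤ ∑ l, (v l : ℝ) * Real.log (y l)) := by
    rw [Filter.eventually_all_finite (Set.finite_Iic D)]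
    intro j _
    exact (tq j).eventually (hTmain j)
  have evC : ∀ᶠ a in atTop, ∀ j ∈ Set.Iic D,
      ((j : ℝ) + 1) * Real.exp (a * (-(Q * q (j + 1)))) ≤ (1 / 4) * Real.exp (a * (-q (j + 1))) := by
    rw [Filter.eventually_all_finite (Set.finite_Iic D)]
    intro j _
    apply eventually_mul_exp_le _ _ _ _ (by norm_num)
    nlinarith [hq1 (j + 1)]
  obtain ⟨a₁, ha₁⟩ := Filter.eventually_atTop.mp
    (evA.and (evB.and (evC.and (hTptie.and hTpmain))))
  refine ⟨SN ∪ SP, A' + 2, max a₁ (max 2 (max δ (δ / gm))), ?_, by linarith, ?_, ?_, ?_, ?_⟩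
  · -- finite
    apply Set.Finite.union
    · apply Set.Finite.biUnion (Set.finite_Iic D)
      intro j _
      exact ((Set.toFinite _).prod (hTfin j)).image _
    · exact ((Set.toFinite _).prod hTpfin).image _
  · exact lt_max_of_lt_right (lt_max_of_lt_left (by norm_num))
  · -- smooth
    intro z hz
    rcases hz with hz | hz
    · obtain ⟨j, hj, σ, hσ, w, hw, rfl⟩ := memN z hz
      exact contDiff_rhs _ _ _
    · obtain ⟨σ, hσ, w, hw, rfl⟩ := memP z hz
      exact contDiff_rhs _ _ _
  · -- main
    intro a ha x hx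
    obtain ⟨eA, eB, eC, eTie, eMain⟩ := ha₁ a ((le_max_left _ _).trans ha)
    have ha2 : 2 ≤ a := ((le_max_left _ _).trans (le_max_right _ _)).trans ha
    have haδ : δ ≤ a :=
      (((le_max_left _ _).trans (le_max_right _ _)).trans (le_max_right _ _)).trans ha
    have haδg : δ / gm ≤ a :=
      (((le_max_right _ _).trans (le_max_right _ _)).trans (le_max_right _ _)).trans ha
    have cN := consN a x hx
    have cP := consP a x hx
    have he2 : Real.exp (-2) ≤ 1 / 4 := by
      have h1 : (2 : ℝ) ≤ Real.exp 1 := by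
        have := Real.add_one_le_exp (1 : ℝ); linarith
      have h2 : Real.exp (-2) = (Real.exp 1 * Real.exp 1)⁻¹ := by
        rw [← Real.exp_add, ← Real.exp_neg]; norm_num
      rw [h2]
      have : (4 : ℝ) ≤ Real.exp 1 * Real.exp 1 := by nlinarith
      calc (Real.exp 1 * Real.exp 1)⁻¹ ≤ (4 : ℝ)⁻¹ := by gcongr
        _ = _ := by norm_num
    -- tie lower bounds
    have hlowsum : ∀ j, j ≤ D → ∀ σ : Fin (j + 1) → Fin (D + 1), Function.Injective σ →
        (1 / 2) * Real.exp (-(a * q j)) ≤ ∑ l, x (σ l) := by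
      intro j hj σ hσ
      have := eA j hj (x ∘ σ) (fun z hz => cN j hj σ hσ z hz)
      have e : a * q j * (-1) = -(a * q j) := by ring
      rw [e] at this
      simp only [Function.comp] at this
      linarith
    have hxlow : ∀ i, Real.exp (-(a * A')) ≤ x i := by
      intro i
      have h1 := hlowsum 0 (Nat.zero_le _) (fun _ => i) (by intro a b _; apply Fin.ext; omega)
      have h2 : ∑ l : Fin (0 + 1), x i = x i := by simp
      rw [h2] at h1
      have h3 : Real.exp (-(a * A')) = Real.exp (-a) * Real.exp (-(a * q 0)) := by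
        rw [← Real.exp_add]; congr 1; rw [hA']; ring
      have h4 : Real.exp (-a) ≤ 1 / 2 := by
        have : Real.exp (-a) ≤ Real.exp (-2) := Real.exp_le_exp.mpr (by linarith)
        linarith
      rw [h3]
      have := Real.exp_pos (-(a * q 0))
      nlinarith
    have hxpos : ∀ i, 0 < x i := fun i => (Real.exp_pos _).trans_le (hxlow i)
    have hxup : ∀ i, x i ≤ Real.exp (2 * a) := by
      intro i
      have h1 := eTie x (fun z hz => by
        have := cP id Function.injective_id z hz
        simpa using this)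
      have h2 : x i ≤ ∑ l, x l := Finset.single_le_sum (fun l _ => (hxpos l).le) (Finset.mem_univ i)
      have h3 : Real.exp (2 * a) = Real.exp a * Real.exp a := by
        rw [← Real.exp_add]; congr 1; ring
      have h4 : (2 : ℝ) ≤ Real.exp a := by
        have := Real.add_one_le_exp a; linarith
      simp only [one_mul, mul_one] at h1
      have := Real.exp_pos a
      rw [h3]
      nlinarith
    refine ⟨fun i => ⟨?_, ?_⟩, ?_⟩
    · refine le_trans ?_ (hxlow i)
      apply Real.exp_le_exp.mpr
      nlinarith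
    · refine (hxup i).trans ?_
      apply Real.exp_le_exp.mpr
      nlinarith
    intro z hz hact v hv hvpos
    rcases hz with hz | hz
    · -- near-zero block
      obtain ⟨j, hj, σ, hσ, w, hw, rfl⟩ := memN z hz
      have hact' : lin (-1) w (x ∘ σ) = rhs (-1) (a * q j) w := by
        rw [← sumN]; exact hact
      have hvpos' : 0 < ∑ l, (v (σ l) : ℝ) * (Fin.cons (-1) w.1 : Fin (j + 1) → ℝ) l := by
        have h1 : ∑ i, (nodeN j (σ, w)).1 i * (v i : ℝ) =
            ∑ l, (v (σ l) : ℝ) * (Fin.cons (-1) w.1 : Fin (j + 1) → ℝ) l := by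
          have := extv_sum σ (Fin.cons (-1) w.1 : Fin (j + 1) → ℝ) (fun i => (v i : ℝ))
          rw [show (nodeN j (σ, w)).1 = extv σ (Fin.cons (-1) w.1 : Fin (j + 1) → ℝ) from rfl, this]
          apply Finset.sum_congr rfl
          intro l _; ring
        rw [← h1]; exact hvpos
      obtain ⟨hup', hmain⟩ := eB j hj (x ∘ σ) (by
          intro l
          refine le_trans ?_ (hxlow (σ l))
          apply Real.exp_le_exp.mpr
          have := hq1 j
          have h5 : a * A' ≤ a * q j * A' := by
            have : a * 1 ≤ a * q j := mul_le_mul_of_nonneg_left (hq1 j) (by linarith)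
            nlinarith
          linarith) (by
          intro π z hz
          have := cN j hj (σ ∘ π) (hσ.comp π.injective) z hz
          simpa [Function.comp_assoc] using this) w hw hact'
      have hmain' := hmain (fun l => v (σ l)) (fun l => hv _) hvpos'
      rw [sum_split σ hσ (fun i => (v i : ℝ) * Real.log (x i))]
      simp only [Function.comp] at hmain'
      rcases Nat.eq_or_lt_of_le hj with hjD | hjD
      · -- full block
        have hsurj : ∀ i, i ∈ Set.range σ := by
          subst hjD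
          have : Function.Surjective σ := Finite.injective_iff_surjective.mp hσ
          exact this
        have he : Finset.univ.filter (fun i => i ∉ Set.range σ) = ∅ := by
          apply Finset.filter_eq_empty_iff.mpr
          intro i _ h; exact h (hsurj i)
        rw [he, Finset.sum_empty, add_zero]
        have h1 : a * q j * g j ≥ δ := by
          have h2 : a * gm ≥ δ := by
            rw [ge_iff_le, ← div_le_iff₀ hgm0]; exact haδg
          have h3 := hgmle j hj
          have h4 := hq1 j
          have h5 : a * 1 ≤ a * q j := mul_le_mul_of_nonneg_left h4 (by linarith)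
          have h6 : a * gm ≤ a * q j * g j := by
            calc a * gm ≤ (a * q j) * gm := by nlinarith
              _ ≤ _ := mul_le_mul_of_nonneg_left h3 (by nlinarith)
          linarith
        linarith
      · -- partial block
        set q' := q (j + 1) with hq'
        have hq'1 : 1 ≤ q' := hq1 (j + 1)
        have hqq : q j = Q * q' := hqstep j hjD
        have hlogb : ∀ i, i ∉ Set.range σ → |Real.log (x i)| ≤ 2 * (a * q') := by
          intro i hi
          have hinj : Function.Injective (Fin.cons i σ : Fin (j + 1 + 1) → Fin (D + 1)) := by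
            rw [Fin.cons_injective_iff]
            exact ⟨hi, hσ⟩
          have h1 := hlowsum (j + 1) hjD _ hinj
          rw [Fin.sum_univ_succ] at h1
          simp only [Fin.cons_zero, Fin.cons_succ] at h1
          have h2 : ∑ l, x (σ l) ≤ ((j : ℝ) + 1) * Real.exp (-(a * q j)) := by
            have : ∑ l, x (σ l) ≤ ∑ l : Fin (j + 1), Real.exp (-(a * q j)) :=
              Finset.sum_le_sum (fun l _ => hup' rfl l)
            simpa using this
          have h3 := eC j hj
          have e1 : a * (-(Q * q (j + 1))) = -(a * q j) := by rw [hqq, hq']; ring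
          have e2 : a * (-q (j + 1)) = -(a * q') := by rw [hq']; ring
          rw [e1, e2] at h3
          have h4 : (1 / 4) * Real.exp (-(a * q')) ≤ x i := by
            have : (1 / 2) * Real.exp (-(a * q')) ≤ x i + ∑ l, x (σ l) := h1
            linarith
          have h5 : Real.exp (-(2 * (a * q'))) ≤ x i := by
            refine le_trans ?_ h4
            have e3 : Real.exp (-(2 * (a * q'))) = Real.exp (-(a * q')) * Real.exp (-(a * q')) := by
              rw [← Real.exp_add]; congr 1; ring
            have h6 : Real.exp (-(a * q')) ≤ 1 / 4 := by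
              refine le_trans ?_ he2
              apply Real.exp_le_exp.mpr
              nlinarith
            rw [e3]
            have := Real.exp_pos (-(a * q'))
            nlinarith
          have h6 : x i ≤ Real.exp (2 * (a * q')) := by
            refine (hxup i).trans ?_
            apply Real.exp_le_exp.mpr
            nlinarith
          rw [abs_le]
          constructor
          · rw [Real.le_log_iff_exp_le (hxpos i)]; exact h5
          · rw [Real.log_le_iff_le_exp (hxpos i)]; exact h6
        have hrest : -((N : ℝ) * (D + 1) * (2 * (a * q'))) ≤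
            ∑ i ∈ Finset.univ.filter (fun i => i ∉ Set.range σ), (v i : ℝ) * Real.log (x i) := by
          have haq : 0 ≤ a * q' := by nlinarith
          have h1 : ∀ i ∈ Finset.univ.filter (fun i => i ∉ Set.range σ),
              -((N : ℝ) * (2 * (a * q'))) ≤ (v i : ℝ) * Real.log (x i) := by
            intro i hi
            have h2 := hlogb i (by simpa using hi)
            have h3 : |(v i : ℝ)| ≤ N := by exact_mod_cast hv i
            have h4 : |(v i : ℝ) * Real.log (x i)| ≤ (N : ℝ) * (2 * (a * q')) := by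
              rw [abs_mul]; gcongr
            exact (abs_le.mp h4).1
          have h5 := Finset.sum_le_sum h1
          refine le_trans ?_ h5
          rw [Finset.sum_const, nsmul_eq_mul]
          have h6 : ((Finset.univ.filter (fun i : Fin (D + 1) => i ∉ Set.range σ)).card : ℝ) ≤
              D + 1 := by
            have := Finset.card_le_univ (Finset.univ.filter (fun i : Fin (D + 1) => i ∉ Set.range σ))
            rw [Fintype.card_fin] at this
            exact_mod_cast this
          have h7 : 0 ≤ (N : ℝ) * (2 * (a * q')) := by positivity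
          nlinarith
        have h8 : a * (Q * q') * gm ≤ a * q j * g j := by
          rw [hqq]
          apply mul_le_mul_of_nonneg_left (hgmle j hj)
          have : 0 ≤ a * q' := by nlinarith
          nlinarith
        have h9 : (a * q') * (2 * N * (D + 1) + 1) ≤ (a * q') * (Q * gm) :=
          mul_le_mul_of_nonneg_left hQg (by nlinarith)
        have h10 : a ≤ a * q' := by nlinarith
        nlinarith
    · -- far block
      obtain ⟨σ, hσ, w, hw, rfl⟩ := memP z hz
      have hact' : lin 1 w (x ∘ σ) = rhs 1 a w := by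
        rw [← sumP, hact]
        simp only [nodeP, mul_one]
      have hvpos' : 0 < ∑ l, (v (σ l) : ℝ) * (Fin.cons 1 w.1 : Fin (D + 1) → ℝ) l := by
        have h1 : ∑ i, (nodeP (σ, w)).1 i * (v i : ℝ) =
            ∑ l, (v (σ l) : ℝ) * (Fin.cons 1 w.1 : Fin (D + 1) → ℝ) l := by
          have := extv_sum σ (Fin.cons 1 w.1 : Fin (D + 1) → ℝ) (fun i => (v i : ℝ))
          rw [show (nodeP (σ, w)).1 = extv σ (Fin.cons 1 w.1 : Fin (D + 1) → ℝ) from rfl, this]
          apply Finset.sum_congr rfl
          intro l _; ring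
        rw [← h1]; exact hvpos
      obtain ⟨_, hmain⟩ := eMain (x ∘ σ) (fun l => hxlow (σ l)) (by
          intro π z hz
          have := cP (σ ∘ π) (hσ.comp π.injective) z hz
          simpa [Function.comp_assoc] using this) w hw hact'
      have hmain' := hmain (fun l => v (σ l)) (fun l => hv _) hvpos'
      rw [sum_split σ hσ (fun i => (v i : ℝ) * Real.log (x i))]
      simp only [Function.comp] at hmain'
      have hsurj : Function.Surjective σ := Finite.injective_iff_surjective.mp hσ
      have he : Finset.univ.filter (fun i => i ∉ Set.range σ) = ∅ := by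
        apply Finset.filter_eq_empty_iff.mpr
        intro i _ h; exact h (hsurj i)
      rw [he, Finset.sum_empty, add_zero]
      have h1 : a * g D ≥ δ := by
        have h2 : a * gm ≥ δ := by
          rw [ge_iff_le, ← div_le_iff₀ hgm0]; exact haδg
        have h3 := hgmle D le_rfl
        have : a * gm ≤ a * g D := mul_le_mul_of_nonneg_left h3 (by linarith)
        linarith
      linarith
  · -- exhaustion
    intro x hx
    have hfin : (SN ∪ SP).Finite := by
      apply Set.Finite.union
      · apply Set.Finite.biUnion (Set.finite_Iic D)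
        intro j _
        exact ((Set.toFinite _).prod (hTfin j)).image _
      · exact ((Set.toFinite _).prod hTpfin).image _
    rw [Filter.eventually_all_finite hfin]
    intro z hz
    rcases hz with hz | hz
    · obtain ⟨j, hj, σ, hσ, w, hw, rfl⟩ := memN z hz
      have h1 : Tendsto (fun a : ℝ => Real.exp (-(a * q j))) atTop (nhds 0) :=
        Real.tendsto_exp_neg_atTop_nhds_zero.comp (tq j)
      filter_upwards [h1.eventually_lt_const (hx (σ 0))] with a ha
      rw [sumN]
      have h2 : lin (-1) w (x ∘ σ) ≤ - x (σ 0) := by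
        rw [lin_eq]
        have : ∑ i : Fin j, w.1 i * (x ∘ σ) i.succ ≤ 0 := by
          apply Finset.sum_nonpos
          intro i _
          have h3 := hTanti j w hw (Fin.zero_le i.succ)
          simp only [Fin.cons_zero, Fin.cons_succ] at h3
          have h4 := hx (σ i.succ)
          simp only [Function.comp]
          nlinarith
        simp only [Function.comp] at this ⊢
        linarith
      have h3 : -Real.exp (-(a * q j)) ≤ rhs (-1) (a * q j) w := by
        simp only [rhs]
        have : 0 ≤ ∑ i, Real.exp (a * q j * w.2 i) :=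
          Finset.sum_nonneg (fun i _ => (Real.exp_pos _).le)
        have e : a * q j * -1 = -(a * q j) := by ring
        rw [e]; linarith
      change lin (-1) w (x ∘ σ) < rhs (-1) (a * q j) w
      linarith
    · obtain ⟨σ, hσ, w, hw, rfl⟩ := memP z hz
      filter_upwards [Real.tendsto_exp_atTop.eventually_gt_atTop (∑ l, x (σ l))] with a ha
      rw [sumP]
      have h2 : lin 1 w (x ∘ σ) ≤ ∑ l, x (σ l) := by
        rw [lin]
        apply Finset.sum_le_sum
        intro l _
        have h3 := hTpanti w hw (Fin.zero_le l)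
        simp only [Fin.cons_zero] at h3
        have h4 := hx (σ l)
        simp only [Function.comp]
        nlinarith
      have h3 : Real.exp a ≤ rhs 1 (a * 1) w := by
        simp only [rhs, mul_one, one_mul]
        have : 0 ≤ ∑ i, Real.exp (a * w.2 i) :=
          Finset.sum_nonneg (fun i _ => (Real.exp_pos _).le)
        linarith
      change lin 1 w (x ∘ σ) < rhs 1 (a * 1) w
      linarith

end Crest.Agent.S0122
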