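import Mathlib
import Crest.Prelude.Def_MassAction

set_option autoImplicit false

/-! The mass-action inequality for weakly reversible networks. -/

namespace Crest.Agent.S0122

open Finset Crest.AnalysisR.MassAction

/-- linear height of a complex. -/
noncomputable def ht {d : ℕ} (n : Fin d → ℝ) (y : Fin d → ℕ) : ℝ := ∑ i, n i * (y i : ℝ)

/-- monomial of a complex. -/
noncomputable def mon {d : ℕ} (x : Fin d → ℝ) (y : Fin d → ℕ) : ℝ := ∏ i, x i ^ (y i)

theorem path_bound {d : ℕ} (R : Network d) (y z : Fin d → ℕ)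
    (h : Relation.ReflTransGen (fun a b => (a, b) ∈ R) z y) :
    ∃ L : ℝ, 0 ≤ L ∧ ∀ H : (Fin d → ℕ) → ℝ, max (H z) (H y) - H y ≤
      L * ∑ e ∈ R, (if H y < H e.1 then max 0 (H e.1 - H e.2) else 0) := by
  induction h using Relation.ReflTransGen.head_induction_on with
  | refl => exact ⟨0, le_rfl, fun H => by simp⟩
  | @head a c hstep hrest ih =>
    obtain ⟨L, hL, hH⟩ := ih
    refine ⟨1 + L, by linarith, fun H => ?_⟩
    have h1 := hH H
    have h2 : max (H a) (H y) - max (H c) (H y) ≤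
        ∑ e ∈ R, (if H y < H e.1 then max 0 (H e.1 - H e.2) else 0) := by
      have h3 : max (H a) (H y) - max (H c) (H y) ≤
          (if H y < H (a, c).1 then max 0 (H (a, c).1 - H (a, c).2) else 0) := by
        simp only
        split_ifs with h
        · rw [max_eq_left h.le]
          have := le_max_left (H c) (H y)
          exact (by linarith : H a - max (H c) (H y) ≤ H a - H c).trans (le_max_right _ _)
        · push Not at h
          rw [max_eq_right h]
          linarith [le_max_right (H c) (H y)]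
      refine h3.trans ?_
      apply Finset.single_le_sum (f := fun e : (Fin d → ℕ) × (Fin d → ℕ) =>
        (if H y < H e.1 then max 0 (H e.1 - H e.2) else 0)) _ hstep
      intro e _
      split_ifs
      · exact le_max_left _ _
      · exact le_rfl
    linarith

theorem sum_field {d : ℕ} (R : Network d) (k : (Fin d → ℕ) × (Fin d → ℕ) → ℝ)
    (n x : Fin d → ℝ) :
    ∑ i, n i * field R k x i = ∑ r ∈ R, (k r * mon x r.1) * (ht n r.2 - ht n r.1) := by
  simp only [field, Finset.sum_apply, Pi.smul_apply, smul_eq_mul, Finset.mul_sum]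
  rw [Finset.sum_comm]
  apply Finset.sum_congr rfl
  intro r _
  simp only [ht, mon, reactionVector]
  rw [← Finset.sum_sub_distrib, Finset.mul_sum]
  apply Finset.sum_congr rfl
  intro i _
  ring

theorem log_mon {d : ℕ} (x : Fin d → ℝ) (hx : ∀ i, 0 < x i) (y : Fin d → ℕ) :
    Real.log (mon x y) = ∑ i, (y i : ℝ) * Real.log (x i) := by
  unfold mon
  rw [Real.log_prod (fun i _ => (pow_pos (hx i) _).ne')]
  apply Finset.sum_congr rfl
  intro i _
  rw [Real.log_pow]

theorem mon_pos {d : ℕ} (x : Fin d → ℝ) (hx : ∀ i, 0 < x i) (y : Fin d → ℕ) : 0 < mon x y :=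
  Finset.prod_pos (fun i _ => pow_pos (hx i) _)

theorem massaction {d : ℕ} (R : Network d) (hR : IsWeaklyReversible R)
    (k : (Fin d → ℕ) × (Fin d → ℕ) → ℝ) (hk : ∀ r ∈ R, 0 < k r) :
    ∃ (N : ℕ) (δ : ℝ), 1 ≤ N ∧ ∀ n x : Fin d → ℝ, (∀ i, 0 < x i) →
      (∀ v : Fin d → ℤ, (∀ i, |v i| ≤ (N : ℤ)) → 0 < ∑ i, n i * (v i : ℝ) →
        δ ≤ ∑ i, (v i : ℝ) * Real.log (x i)) →
      ∑ i, n i * field R k x i ≤
        -(1 / 2) * ∑ r ∈ R, (k r * mon x r.1) * max 0 (ht n r.1 - ht n r.2) := by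
  classical
  have hpath : ∀ r : (Fin d → ℕ) × (Fin d → ℕ), ∃ L : ℝ, 0 ≤ L ∧ (r ∈ R →
      ∀ H : (Fin d → ℕ) → ℝ, max (H r.2) (H r.1) - H r.1 ≤
      L * ∑ e ∈ R, (if H r.1 < H e.1 then max 0 (H e.1 - H e.2) else 0)) := by
    intro r
    by_cases hr : r ∈ R
    · obtain ⟨L, h1, h2⟩ := path_bound R r.1 r.2 (hR r hr)
      exact ⟨L, h1, fun _ => h2⟩
    · exact ⟨0, le_rfl, fun h => absurd h hr⟩
  choose L hL0 hL using hpath
  set κ : ℝ := ∑ e ∈ R, (k e)⁻¹ with hκ
  set Λ : ℝ := ∑ r ∈ R, k r * L r with hΛ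
  have hκ0 : 0 ≤ κ := Finset.sum_nonneg (fun e he => (inv_pos.mpr (hk e he)).le)
  have hΛ0 : 0 ≤ Λ := Finset.sum_nonneg (fun e he => mul_nonneg (hk e he).le (hL0 e))
  set N : ℕ := ∑ r ∈ R, ∑ i, r.1 i + 1 with hN
  have hNb : ∀ r ∈ R, ∀ i, r.1 i ≤ N := by
    intro r hr i
    have h1 : r.1 i ≤ ∑ i, r.1 i := Finset.single_le_sum (fun _ _ => Nat.zero_le _) (Finset.mem_univ i)
    have h2 : ∑ i, r.1 i ≤ ∑ r ∈ R, ∑ i, r.1 i :=
      Finset.single_le_sum (f := fun r : (Fin d → ℕ) × (Fin d → ℕ) => ∑ i, r.1 i)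
        (fun _ _ => Nat.zero_le _) hr
    omega
  refine ⟨N, 2 * (κ * Λ), by omega, ?_⟩
  intro n x hx hcomp
  rw [sum_field]
  set H := ht n with hH
  set Dn : ℝ := ∑ r ∈ R, (k r * mon x r.1) * max 0 (H r.1 - H r.2) with hDn
  -- comparison of monomials
  have hmon : ∀ r ∈ R, ∀ e ∈ R, H r.1 < H e.1 →
      mon x r.1 ≤ Real.exp (-(2 * (κ * Λ))) * mon x e.1 := by
    intro r hr e he hlt
    have h1 := hcomp (fun i => (e.1 i : ℤ) - (r.1 i : ℤ)) (by
      intro i
      have h2 := hNb r hr i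
      have h3 := hNb e he i
      rw [abs_le]; constructor <;> omega) (by
      have : ∑ i, n i * (((e.1 i : ℤ) - (r.1 i : ℤ) : ℤ) : ℝ) = H e.1 - H r.1 := by
        simp only [hH, ht]
        rw [← Finset.sum_sub_distrib]
        apply Finset.sum_congr rfl
        intro i _; push_cast; ring
      rw [this]; linarith)
    have h2 : ∑ i, ((((e.1 i : ℤ) - (r.1 i : ℤ) : ℤ)) : ℝ) * Real.log (x i)
        = Real.log (mon x e.1) - Real.log (mon x r.1) := by
      rw [log_mon x hx, log_mon x hx, ← Finset.sum_sub_distrib]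
      apply Finset.sum_congr rfl
      intro i _; push_cast; ring
    rw [h2] at h1
    have h3 : Real.log (mon x r.1) ≤ -(2 * (κ * Λ)) + Real.log (mon x e.1) := by linarith
    calc mon x r.1 = Real.exp (Real.log (mon x r.1)) := (Real.exp_log (mon_pos x hx _)).symm
      _ ≤ Real.exp (-(2 * (κ * Λ)) + Real.log (mon x e.1)) := Real.exp_le_exp.mpr h3
      _ = _ := by rw [Real.exp_add, Real.exp_log (mon_pos x hx _)]
  -- bound of a single rise
  have hrise : ∀ r ∈ R, (k r * mon x r.1) * (H r.2 - H r.1) ≤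
      -((k r * mon x r.1) * max 0 (H r.1 - H r.2)) +
        (k r * L r) * (Real.exp (-(2 * (κ * Λ))) * κ * Dn) := by
    intro r hr
    have h1 := hL r hr H
    have hkr := hk r hr
    have hmr := mon_pos x hx r.1
    have h2 : H r.2 - H r.1 = (max (H r.2) (H r.1) - H r.1) - max 0 (H r.1 - H r.2) := by
      rcases le_total (H r.2) (H r.1) with h | h
      · rw [max_eq_right h, max_eq_right (by linarith)]; ring
      · rw [max_eq_left h, max_eq_left (by linarith)]; ring
    have h3 : mon x r.1 * ∑ e ∈ R, (if H r.1 < H e.1 then max 0 (H e.1 - H e.2) else 0) ≤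
        Real.exp (-(2 * (κ * Λ))) * κ * Dn := by
      rw [hDn, Finset.mul_sum, Finset.mul_sum]
      apply Finset.sum_le_sum
      intro e he
      have hke := hk e he
      have hme := mon_pos x hx e.1
      have hDe : 0 ≤ max 0 (H e.1 - H e.2) := le_max_left _ _
      have hκe : (k e)⁻¹ ≤ κ :=
        Finset.single_le_sum (f := fun e => (k e)⁻¹) (fun e he => (inv_pos.mpr (hk e he)).le) he
      have h5 : mon x e.1 ≤ κ * (k e * mon x e.1) := by
        have : (k e)⁻¹ * (k e * mon x e.1) ≤ κ * (k e * mon x e.1) :=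
          mul_le_mul_of_nonneg_right hκe (by positivity)
        rwa [← mul_assoc, inv_mul_cancel₀ hke.ne', one_mul] at this
      split_ifs with h
      · have h4 := hmon r hr e he h
        calc mon x r.1 * max 0 (H e.1 - H e.2)
            ≤ (Real.exp (-(2 * (κ * Λ))) * mon x e.1) * max 0 (H e.1 - H e.2) := by gcongr
          _ ≤ (Real.exp (-(2 * (κ * Λ))) * (κ * (k e * mon x e.1))) * max 0 (H e.1 - H e.2) := by
              gcongr
          _ = _ := by ring
      · rw [mul_zero]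
        have := Real.exp_pos (-(2 * (κ * Λ)))
        positivity
    have h4 : (k r * mon x r.1) * (max (H r.2) (H r.1) - H r.1) ≤
        (k r * L r) * (Real.exp (-(2 * (κ * Λ))) * κ * Dn) := by
      calc (k r * mon x r.1) * (max (H r.2) (H r.1) - H r.1)
          ≤ (k r * mon x r.1) * (L r * ∑ e ∈ R, (if H r.1 < H e.1 then max 0 (H e.1 - H e.2) else 0)) :=
            mul_le_mul_of_nonneg_left h1 (by positivity)
        _ = (k r * L r) * (mon x r.1 * ∑ e ∈ R, (if H r.1 < H e.1 then max 0 (H e.1 - H e.2) else 0)) := by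
            ring
        _ ≤ _ := mul_le_mul_of_nonneg_left h3 (mul_nonneg hkr.le (hL0 r))
    rw [h2, mul_sub]
    linarith
  have hsum := Finset.sum_le_sum hrise
  rw [Finset.sum_add_distrib, Finset.sum_neg_distrib, ← Finset.sum_mul] at hsum
  have hDn0 : 0 ≤ Dn := Finset.sum_nonneg (fun r hr =>
    mul_nonneg (mul_nonneg (hk r hr).le (mon_pos x hx _).le) (le_max_left _ _))
  have hexp : Real.exp (-(2 * (κ * Λ))) * (κ * Λ) ≤ 1 / 2 := by
    have h1 := Real.add_one_le_exp (2 * (κ * Λ))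
    rw [Real.exp_neg, inv_mul_le_iff₀ (Real.exp_pos _)]
    linarith
  have hfin : Λ * (Real.exp (-(2 * (κ * Λ))) * κ * Dn) ≤ (1 / 2) * Dn := by
    calc Λ * (Real.exp (-(2 * (κ * Λ))) * κ * Dn) = (Real.exp (-(2 * (κ * Λ))) * (κ * Λ)) * Dn := by
          ring
      _ ≤ _ := mul_le_mul_of_nonneg_right hexp hDn0
  linarith

/-- if `n` is not orthogonal to every reaction vector there is a reaction that goes down. -/
theorem exists_down {d : ℕ} (R : Network d) (hR : IsWeaklyReversible R) (n : Fin d → ℝ)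
    (h : ∃ r ∈ R, ht n r.1 ≠ ht n r.2) : ∃ e ∈ R, 0 < ht n e.1 - ht n e.2 := by
  by_contra hcon
  push Not at hcon
  obtain ⟨r, hr, hne⟩ := h
  have h1 := hcon r hr
  have h2 : ht n r.1 < ht n r.2 := lt_of_le_of_ne (by linarith) hne
  obtain ⟨L, hL0, hL⟩ := path_bound R r.1 r.2 (hR r hr)
  have h3 := hL (ht n)
  have h4 : ∑ e ∈ R, (if ht n r.1 < ht n e.1 then max 0 (ht n e.1 - ht n e.2) else 0) = 0 := by
    apply Finset.sum_eq_zero
    intro e he
    split_ifs
    · exact max_eq_left (hcon e he)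
    · rfl
  rw [h4, mul_zero, max_eq_left h2.le] at h3
  linarith

end Crest.Agent.S0122
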