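import Mathlib

set_option autoImplicit false

/-! ODE lemmas: invariance of moving polytopes, global existence for bounded Lipschitz fields. -/

namespace Crest.Agent.S0122

open Set Filter Topology
open scoped NNReal

theorem dot_hasDerivWithinAt {d : ℕ} (n : Fin d → ℝ) (x : ℝ → Fin d → ℝ) (x' : Fin d → ℝ)
    (s : Set ℝ) (t : ℝ) (hx : HasDerivWithinAt x x' s t) :
    HasDerivWithinAt (fun τ => ∑ i, n i * x τ i) (∑ i, n i * x' i) s t := by
  have h := hasDerivWithinAt_pi.mp hx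
  have := HasDerivWithinAt.fun_sum (u := (Finset.univ : Finset (Fin d)))
    (A := fun i τ => n i * x τ i) (A' := fun i => n i * x' i) (s := s) (x := t)
    (fun i _ => (h i).const_mul (n i))
  exact this

theorem subspace_invariance {d : ℕ} (V : Submodule ℝ (Fin d → ℝ)) (c : Fin d → ℝ)
    (g : (Fin d → ℝ) → (Fin d → ℝ)) (hgV : ∀ x, g x ∈ V) (a T : ℝ)
    (x : ℝ → Fin d → ℝ) (hx : ContinuousOn x (Icc a T))
    (hx' : ∀ t ∈ Ico a T, HasDerivWithinAt x (g (x t)) (Ici t) t) (h0 : x a - c ∈ V) :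
    ∀ t ∈ Icc a T, x t - c ∈ V := by
  intro t ht
  rw [← Subspace.forall_mem_dualAnnihilator_apply_eq_zero_iff]
  intro φ hφ
  have hφV : ∀ v ∈ V, φ v = 0 := fun v hv => (Submodule.mem_dualAnnihilator φ).mp hφ v hv
  let φL : (Fin d → ℝ) →L[ℝ] ℝ := LinearMap.toContinuousLinearMap φ
  have hcont : ContinuousOn (fun t => φL (x t)) (Icc a T) := φL.continuous.comp_continuousOn hx
  have hder : ∀ t ∈ Ico a T, HasDerivWithinAt (fun t => φL (x t)) 0 (Ici t) t := by
    intro t ht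
    have h1 := (φL.hasFDerivAt (x := x t)).comp_hasDerivWithinAt t (hx' t ht)
    have h2 : φL (g (x t)) = 0 := hφV _ (hgV _)
    rw [h2] at h1
    exact h1
  have h3 := constant_of_has_deriv_right_zero hcont hder t ht
  have h4 : φ (x t) = φ (x a) := h3
  have h5 := hφV _ h0
  rw [map_sub] at h5 ⊢
  rw [h4]; exact h5

theorem neg_of_deriv_neg (u : ℝ → ℝ) (u' t : ℝ) (h : HasDerivWithinAt u u' (Ici t) t)
    (hneg : u' < 0) : ∀ᶠ τ in 𝓝[>] t, u τ < u t := by
  have h1 : HasDerivWithinAt u u' (Ioi t) t := h.mono Ioi_subset_Ici_self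
  rw [hasDerivWithinAt_iff_tendsto_slope' (by simp)] at h1
  filter_upwards [h1.eventually_lt_const hneg, self_mem_nhdsWithin] with τ hτ hτt
  rw [slope_def_field, div_neg_iff] at hτ
  have : 0 < τ - t := sub_pos.mpr hτt
  rcases hτ with h | h
  · linarith [h.2]
  · linarith [h.1]

theorem invariance {d : ℕ} (S : Set ((Fin d → ℝ) × (ℝ → ℝ))) (hfin : S.Finite)
    (hC : ∀ z ∈ S, ContDiff ℝ 1 z.2) (V : Submodule ℝ (Fin d → ℝ)) (c : Fin d → ℝ)
    (g : (Fin d → ℝ) → (Fin d → ℝ)) (hgV : ∀ x, g x ∈ V) (a T : ℝ) (α : ℝ → ℝ) (κ : ℝ)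
    (hα : ∀ t, HasDerivAt α (-κ) t)
    (hin : ∀ t ∈ Ico a T, ∀ x : Fin d → ℝ, x - c ∈ V → (∀ z ∈ S, ∑ i, z.1 i * x i ≤ z.2 (α t)) →
      ∀ z ∈ S, ∑ i, z.1 i * x i = z.2 (α t) → ∑ i, z.1 i * g x i + κ * deriv z.2 (α t) < 0)
    (x : ℝ → Fin d → ℝ) (hx : ContinuousOn x (Icc a T))
    (hx' : ∀ t ∈ Ico a T, HasDerivWithinAt x (g (x t)) (Ici t) t) (h0V : x a - c ∈ V)
    (h0 : ∀ z ∈ S, ∑ i, z.1 i * x a i ≤ z.2 (α a)) :
    ∀ t ∈ Icc a T, x t - c ∈ V ∧ ∀ z ∈ S, ∑ i, z.1 i * x t i ≤ z.2 (α t) := by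
  have hV := subspace_invariance V c g hgV a T x hx hx' h0V
  have hαc : Continuous α := continuous_iff_continuousAt.mpr (fun t => (hα t).continuousAt)
  have hcontz : ∀ z : (Fin d → ℝ) × (ℝ → ℝ), ContinuousOn (fun t => ∑ i, z.1 i * x t i) (Icc a T) := by
    intro z
    apply continuousOn_finsetSum
    intro i _
    exact continuousOn_const.mul ((continuous_apply i).comp_continuousOn hx)
  have key : Icc a T ⊆ {t | ∀ z ∈ S, ∑ i, z.1 i * x t i ≤ z.2 (α t)} := by
    by_cases haT : a ≤ T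
    swap
    · rw [Icc_eq_empty haT]; exact empty_subset _
    apply IsClosed.Icc_subset_of_forall_mem_nhdsWithin
    · -- closed
      have : {t | ∀ z ∈ S, ∑ i, z.1 i * x t i ≤ z.2 (α t)} ∩ Icc a T =
          (⋂ z ∈ S, {t ∈ Icc a T | ∑ i, z.1 i * x t i ≤ z.2 (α t)}) ∩ Icc a T := by
        ext t
        simp only [mem_inter_iff, mem_ofPred_eq, mem_iInter]
        constructor
        · rintro ⟨h1, h2⟩
          exact ⟨fun z hz => ⟨h2, h1 z hz⟩, h2⟩
        · rintro ⟨h1, h2⟩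
          exact ⟨fun z hz => (h1 z hz).2, h2⟩
      rw [this]
      refine IsClosed.inter ?_ isClosed_Icc
      apply isClosed_biInter
      intro z hz
      exact isClosed_Icc.isClosed_le (hcontz z)
        (((hC z hz).continuous.comp hαc).continuousOn)
    · exact h0
    · rintro t ⟨ht, htI⟩
      have htI' : t ∈ Icc a T := Ico_subset_Icc_self htI
      have hxt : ContinuousWithinAt x (Ici t) t := (hx' t htI).continuousWithinAt
      have : ∀ z ∈ S, ∀ᶠ τ in 𝓝[>] t, ∑ i, z.1 i * x τ i ≤ z.2 (α τ) := by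
        intro z hz
        have hder : HasDerivWithinAt (fun τ => ∑ i, z.1 i * x τ i - z.2 (α τ))
            (∑ i, z.1 i * g (x t) i + κ * deriv z.2 (α t)) (Ici t) t := by
          have h1 := dot_hasDerivWithinAt z.1 x (g (x t)) (Ici t) t (hx' t htI)
          have h2 : HasDerivAt z.2 (deriv z.2 (α t)) (α t) :=
            ((hC z hz).differentiable (by norm_num) (α t)).hasDerivAt
          have h3 : HasDerivAt (fun τ => z.2 (α τ)) (deriv z.2 (α t) * (-κ)) t :=
            h2.comp t (hα t)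
          have h4 := h1.sub h3.hasDerivWithinAt
          have e : ∑ i, z.1 i * g (x t) i - deriv z.2 (α t) * (-κ) =
              ∑ i, z.1 i * g (x t) i + κ * deriv z.2 (α t) := by ring
          rw [e] at h4
          exact h4
        rcases lt_or_eq_of_le (ht z hz) with hlt | heq
        · have h5 : ContinuousWithinAt (fun τ => ∑ i, z.1 i * x τ i - z.2 (α τ)) (Ioi t) t :=
            hder.continuousWithinAt.mono Ioi_subset_Ici_self
          have h6 : (∑ i, z.1 i * x t i - z.2 (α t)) < 0 := by linarith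
          have h7 := h5.eventually_lt_const h6
          filter_upwards [h7] with τ hτ
          linarith
        · have h5 := hin t htI (x t) (hV t htI') ht z hz heq
          have h6 := neg_of_deriv_neg _ _ _ hder h5
          filter_upwards [h6] with τ hτ
          have : ∑ i, z.1 i * x t i - z.2 (α t) = 0 := by linarith
          linarith
      have h8 := (Filter.eventually_all_finite hfin).mpr this
      exact h8
  intro t ht
  exact ⟨hV t ht, key ht⟩

theorem global_exists {E : Type*} [NormedAddCommGroup E] [NormedSpace ℝ E] [CompleteSpace E]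
    (g : E → E) (K L : ℝ≥0) (hg : LipschitzWith K g) (hL : ∀ x, ‖g x‖ ≤ L) (x₀ : E) :
    ∃ x : ℝ → E, x 0 = x₀ ∧ ∀ t : ℝ, 0 ≤ t → HasDerivWithinAt x (g (x t)) (Ici 0) t := by
  have hsol : ∀ n : ℕ, ∃ α : ℝ → E, α 0 = x₀ ∧ ∀ t ∈ Icc (0 : ℝ) (n + 1),
      HasDerivWithinAt α (g (α t)) (Icc 0 ((n : ℝ) + 1)) t := by
    intro n
    have h0 : (0 : ℝ) ∈ Icc (0 : ℝ) ((n : ℝ) + 1) := ⟨le_rfl, by positivity⟩
    have hPL : IsPicardLindelof (fun _ => g) (⟨0, h0⟩ : Icc (0 : ℝ) ((n : ℝ) + 1)) x₀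
        (L * (n + 1)) 0 L K :=
      { lipschitzOnWith := fun t _ => hg.lipschitzOnWith
        continuousOn := fun x _ => continuousOn_const
        norm_le := fun t _ x _ => hL x
        mul_max_le := by
          simp
          rw [max_eq_left (by positivity)] }
    obtain ⟨α, hα0, hα⟩ := hPL.exists_eq_forall_mem_Icc_hasDerivWithinAt
      (x := x₀) (by simp)
    exact ⟨α, hα0, hα⟩
  choose α hα0 hα using hsol
  have hαc : ∀ n, ContinuousOn (α n) (Icc 0 ((n : ℝ) + 1)) :=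
    fun n t ht => (hα n t ht).continuousWithinAt
  have hαr : ∀ n : ℕ, ∀ t ∈ Ico (0 : ℝ) ((n : ℝ) + 1), HasDerivWithinAt (α n) (g (α n t)) (Ici t) t := by
    intro n t ht
    exact (hα n t (Ico_subset_Icc_self ht)).mono_of_mem_nhdsWithin (Icc_mem_nhdsGE_of_mem ht)
  have huniq : ∀ n m : ℕ, n ≤ m → EqOn (α n) (α m) (Icc 0 ((n : ℝ) + 1)) := by
    intro n m hnm
    have hnm' : (n : ℝ) ≤ m := by exact_mod_cast hnm
    apply ODE_solution_unique (v := fun _ => g) (fun _ => hg) (hαc n) (hαr n)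
    · exact (hαc m).mono (Icc_subset_Icc_right (by linarith))
    · intro t ht
      exact hαr m t ⟨ht.1, by linarith [ht.2]⟩
    · rw [hα0, hα0]
  let x : ℝ → E := fun t => α ⌊t⌋₊ t
  have hxeq : ∀ m : ℕ, ∀ t : ℝ, 0 ≤ t → ⌊t⌋₊ ≤ m → x t = α m t := by
    intro m t ht hm
    exact huniq _ _ hm ⟨ht, (Nat.lt_floor_add_one t).le⟩
  refine ⟨x, ?_, ?_⟩
  · have := hxeq 0 0 le_rfl (by simp)
    rw [this, hα0]
  · intro t ht
    set m := ⌊t⌋₊ + 1 with hm
    have htm : t < (m : ℝ) := by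
      have := Nat.lt_floor_add_one t
      rw [hm]; push_cast; exact this
    have h1 : HasDerivWithinAt (α m) (g (α m t)) (Ici 0) t := by
      apply (hα m t ⟨ht, by linarith⟩).mono_of_mem_nhdsWithin
      have : Iio ((m : ℝ) + 1) ∈ 𝓝 t := Iio_mem_nhds (by linarith)
      filter_upwards [mem_nhdsWithin_of_mem_nhds this, self_mem_nhdsWithin] with s hs hs0
      exact ⟨hs0, le_of_lt hs⟩
    have h2 : x t = α m t := hxeq m t ht (by omega)
    have h3 : x =ᶠ[𝓝[Ici 0] t] α m := by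
      have : Iio (m : ℝ) ∈ 𝓝 t := Iio_mem_nhds htm
      filter_upwards [mem_nhdsWithin_of_mem_nhds this, self_mem_nhdsWithin] with s hs hs0
      apply hxeq m s hs0
      have : ⌊s⌋₊ < m := by
        rw [Nat.floor_lt hs0]; exact hs
      omega
    rw [h2]
    exact h1.congr_of_eventuallyEq h3 h2

end Crest.Agent.S0122
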