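import Crest.Statements.S0122
import Crest.Agent.S0122_Geom
import Crest.Agent.S0122_Mass
import Crest.Agent.S0122_ODE

set_option autoImplicit false
open Crest.AnalysisR.MassAction
open Crest Crest.AnalysisR Crest.AnalysisR.MassAction

namespace Crest.Agent.S0122

section helpers

open Set Filter Topology
open scoped NNReal

/-- coordinatewise clamp. -/
noncomputable def clampv {d : ℕ} (lo hi : ℝ) (x : Fin d → ℝ) : Fin d → ℝ :=
  fun i => max lo (min (x i) hi)

theorem clampv_lip {d : ℕ} (lo hi : ℝ) : LipschitzWith 1 (clampv (d := d) lo hi) := by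
  apply LipschitzWith.of_dist_le_mul
  intro x y
  simp only [NNReal.coe_one, one_mul]
  rw [dist_pi_le_iff dist_nonneg]
  intro i
  refine le_trans ?_ (dist_le_pi_dist x y i)
  rw [Real.dist_eq, Real.dist_eq]
  simp only [clampv]
  calc |max lo (min (x i) hi) - max lo (min (y i) hi)|
      ≤ max |lo - lo| |min (x i) hi - min (y i) hi| := abs_max_sub_max_le_max _ _ _ _
    _ = |min (x i) hi - min (y i) hi| := by simp
    _ ≤ max |x i - y i| |hi - hi| := abs_min_sub_min_le_max _ _ _ _
    _ = |x i - y i| := by simp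

theorem clampv_mem {d : ℕ} (lo hi : ℝ) (h : lo ≤ hi) (x : Fin d → ℝ) :
    clampv lo hi x ∈ Icc (fun _ : Fin d => lo) (fun _ => hi) := by
  constructor
  · intro i; exact le_max_left _ _
  · intro i; exact max_le h (min_le_right _ _)

theorem clampv_eq {d : ℕ} (lo hi : ℝ) (x : Fin d → ℝ) (h : ∀ i, lo ≤ x i ∧ x i ≤ hi) :
    clampv lo hi x = x := by
  ext i
  simp only [clampv]
  rw [min_eq_left (h i).2, max_eq_right (h i).1]

theorem field_contDiff {d : ℕ} (R : Network d) (k : (Fin d → ℕ) × (Fin d → ℕ) → ℝ) :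
    ContDiff ℝ 1 (field R k) := by
  unfold field
  apply ContDiff.sum
  intro r _
  have h : ContDiff ℝ 1 (fun x : Fin d → ℝ => k r * ∏ i, x i ^ r.1 i) := by
    apply contDiff_const.mul
    apply contDiff_prod
    intro i _
    exact (contDiff_apply ℝ ℝ i).pow _
  exact h.smul contDiff_const

theorem field_mem {d : ℕ} (R : Network d) (k : (Fin d → ℕ) × (Fin d → ℕ) → ℝ) (x : Fin d → ℝ) :
    field R k x ∈ stoichSubspace R := by
  unfold field
  apply Submodule.sum_mem
  intro r hr
  apply Submodule.smul_mem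
  exact Submodule.subset_span ⟨r, hr, rfl⟩

theorem field_lipschitzOn {d : ℕ} (R : Network d) (k : (Fin d → ℕ) × (Fin d → ℕ) → ℝ)
    (lo hi : ℝ) : ∃ K : ℝ≥0, LipschitzOnWith K (field R k)
      (Icc (fun _ : Fin d => lo) (fun _ => hi)) := by
  have hc : IsCompact (Icc (fun _ : Fin d => lo) (fun _ => hi)) := isCompact_Icc
  have hcont : Continuous (fderiv ℝ (field R k)) := (field_contDiff R k).continuous_fderiv (by norm_num)
  obtain ⟨C, hC⟩ := hc.exists_bound_of_continuousOn hcont.continuousOn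
  refine ⟨C.toNNReal, ?_⟩
  apply Convex.lipschitzOnWith_of_nnnorm_fderiv_le (𝕜 := ℝ)
  · intro x _
    exact (field_contDiff R k).differentiable (by norm_num) x
  · intro x hx
    have := hC x hx
    rw [← NNReal.coe_le_coe, coe_nnnorm]
    exact this.trans (Real.le_coe_toNNReal C)
  · exact convex_Icc _ _

/-- a vector orthogonal to all reaction vectors is orthogonal to the stoichiometric subspace. -/
theorem orth_of_ht {d : ℕ} (R : Network d) (n : Fin d → ℝ) (h : ∀ r ∈ R, ht n r.1 = ht n r.2)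
    (v : Fin d → ℝ) (hv : v ∈ stoichSubspace R) : ∑ i, n i * v i = 0 := by
  unfold stoichSubspace at hv
  induction hv using Submodule.span_induction with
  | mem x hx =>
    obtain ⟨r, hr, rfl⟩ := hx
    have := h r hr
    have e : ∑ i, n i * reactionVector r i = ht n r.2 - ht n r.1 := by
      simp only [ht, reactionVector]
      rw [← Finset.sum_sub_distrib]
      apply Finset.sum_congr rfl
      intro i _; ring
    rw [e]; linarith
  | zero => simp
  | add x y _ _ hx hy =>
    have e : ∑ i, n i * (x + y) i = ∑ i, n i * x i + ∑ i, n i * y i := by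
      rw [← Finset.sum_add_distrib]
      apply Finset.sum_congr rfl
      intro i _; simp [mul_add]
    rw [e, hx, hy, add_zero]
  | smul a x _ hx =>
    have e : ∑ i, n i * (a • x) i = a * ∑ i, n i * x i := by
      rw [Finset.mul_sum]
      apply Finset.sum_congr rfl
      intro i _; simp; ring
    rw [e, hx, mul_zero]

end helpers

/-- For a finite reaction network on `d ≥ 1` species that is weakly reversible, with positive rate constants and mass-action kinetics, every positive stoichiometric class `P` contains a nonempty compact convex set `K` that is forward invariant and absorbing: from every point of `P` there is a solution defined for all forward time, it is unique, it stays coordinatewise positive, and it lies in `K` from some finite time on. -/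
theorem result
    (d : ℕ) (hd : 1 ≤ d) (R : Network d) (hR : IsWeaklyReversible R)
    (k : (Fin d → ℕ) × (Fin d → ℕ) → ℝ) (hk : ∀ r ∈ R, 0 < k r)
    (c : Fin d → ℝ) (hc : ∀ i, 0 < c i) :
    ∃ K : Set (Fin d → ℝ), K ⊆ positiveClass R c ∧ K.Nonempty ∧ IsCompact K ∧ Convex ℝ K ∧
      (∀ x : ℝ → (Fin d → ℝ), IsForwardSolution (field R k) x → x 0 ∈ K →
        ∀ t : ℝ, 0 ≤ t → x t ∈ K) ∧
      (∀ x₀ ∈ positiveClass R c,
        (∃ x : ℝ → (Fin d → ℝ), IsForwardSolution (field R k) x ∧ x 0 = x₀) ∧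
        (∀ x x' : ℝ → (Fin d → ℝ), IsForwardSolution (field R k) x →
          IsForwardSolution (field R k) x' → x 0 = x₀ → x' 0 = x₀ →
          ∀ t : ℝ, 0 ≤ t → x t = x' t) ∧
        (∀ x : ℝ → (Fin d → ℝ), IsForwardSolution (field R k) x → x 0 = x₀ →
          (∀ t : ℝ, 0 ≤ t → ∀ i, 0 < x t i) ∧
          ∃ T : ℝ, 0 ≤ T ∧ ∀ t : ℝ, T ≤ t → x t ∈ K)) := by
  classical
  obtain ⟨D, rfl⟩ : ∃ D, d = D + 1 := ⟨d - 1, by omega⟩
  obtain ⟨N, δ, hN, hmass⟩ := massaction R hR k hk
  obtain ⟨S, A, a₀, hfin, hA, ha₀, hsm, hmain, hexh⟩ := geometry D N hN δ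
  set V := stoichSubspace R with hV
  set f := field R k with hf
  have hfV : ∀ x, f x ∈ V := fun x => field_mem R k x
  obtain ⟨a₂, ha₂⟩ := Filter.eventually_atTop.mp (hexh c hc)
  set as : ℝ := max a₀ a₂ with has
  have has0 : a₀ ≤ as := le_max_left _ _
  have hcint : ∀ a, as ≤ a → ∀ z ∈ S, ∑ i, z.1 i * c i < z.2 a :=
    fun a ha => ha₂ a ((le_max_right _ _).trans ha)
  let Ka : ℝ → Set (Fin (D + 1) → ℝ) := fun a =>
    {x | x - c ∈ V ∧ ∀ z ∈ S, ∑ i, z.1 i * x i ≤ z.2 a}
  have hKab : ∀ a, as ≤ a → ∀ x ∈ Ka a, ∀ i, Real.exp (-(a * A)) ≤ x i ∧ x i ≤ Real.exp (a * A) :=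
    fun a ha x hx => (hmain a (has0.trans ha) x hx.2).1
  have hKapos : ∀ a, as ≤ a → ∀ x ∈ Ka a, ∀ i, 0 < x i :=
    fun a ha x hx i => (Real.exp_pos _).trans_le (hKab a ha x hx i).1
  -- decay
  have hdecay : ∀ a₁, ∃ η : ℝ, 0 < η ∧ ∀ a, as ≤ a → a ≤ a₁ → ∀ x ∈ Ka a, ∀ z ∈ S,
      ∑ i, z.1 i * x i = z.2 a → ∑ i, z.1 i * f x i ≤ -η := by
    intro a₁
    have hz : ∀ z ∈ S, ∀ᶠ η in nhdsWithin (0 : ℝ) (Set.Ioi 0), ∀ a, as ≤ a → a ≤ a₁ → ∀ x ∈ Ka a,
        ∑ i, z.1 i * x i = z.2 a → ∑ i, z.1 i * f x i ≤ -η := by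
      intro z hz
      by_cases horth : ∀ r ∈ R, ht z.1 r.1 = ht z.1 r.2
      · refine Filter.Eventually.of_forall ?_
        intro η a ha ha1 x hx hact
        exfalso
        have h1 := orth_of_ht R z.1 horth (x - c) hx.1
        have h2 : ∑ i, z.1 i * (x - c) i = ∑ i, z.1 i * x i - ∑ i, z.1 i * c i := by
          rw [← Finset.sum_sub_distrib]
          apply Finset.sum_congr rfl
          intro i _; simp [mul_sub]
        have h3 := hcint a ha z hz
        linarith
      · push Not at horth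
        obtain ⟨e, he, hdrop⟩ := exists_down R hR z.1 horth
        set ρ : ℝ := Real.exp (-(a₁ * A)) with hρ
        have hρ0 : 0 < ρ := Real.exp_pos _
        have hρe : 0 < ∏ i, ρ ^ (e.1 i) := Finset.prod_pos (fun i _ => pow_pos hρ0 _)
        set η₀ : ℝ := (1 / 2) * ((k e * ∏ i, ρ ^ (e.1 i)) * (ht z.1 e.1 - ht z.1 e.2)) with hη₀
        have hη₀0 : 0 < η₀ := by
          have := hk e he
          positivity
        have hmem : Set.Iio η₀ ∈ nhdsWithin (0 : ℝ) (Set.Ioi 0) :=
          mem_nhdsWithin_of_mem_nhds (Iio_mem_nhds hη₀0)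
        filter_upwards [hmem] with η hη a ha ha1 x hx hact
        have hη' : η < η₀ := hη
        have hxb := hKab a ha x hx
        have hxpos := hKapos a ha x hx
        have hcomp := (hmain a (has0.trans ha) x hx.2).2 z hz hact
        have h1 := hmass z.1 x hxpos hcomp
        have h2 : (k e * mon x e.1) * max 0 (ht z.1 e.1 - ht z.1 e.2) ≤
            ∑ r ∈ R, (k r * mon x r.1) * max 0 (ht z.1 r.1 - ht z.1 r.2) := by
          apply Finset.single_le_sum (f := fun r => (k r * mon x r.1) *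
            max 0 (ht z.1 r.1 - ht z.1 r.2)) _ he
          intro r hr
          exact mul_nonneg (mul_nonneg (hk r hr).le (mon_pos x hxpos _).le) (le_max_left _ _)
        have h3 : ∏ i, ρ ^ (e.1 i) ≤ mon x e.1 := by
          apply Finset.prod_le_prod
          · intro i _; positivity
          · intro i _
            apply pow_le_pow_left₀ hρ0.le
            refine le_trans ?_ (hxb i).1
            apply Real.exp_le_exp.mpr
            have : a * A ≤ a₁ * A := mul_le_mul_of_nonneg_right ha1 hA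
            linarith
        have h4 : (k e * ∏ i, ρ ^ (e.1 i)) * (ht z.1 e.1 - ht z.1 e.2) ≤
            (k e * mon x e.1) * max 0 (ht z.1 e.1 - ht z.1 e.2) := by
          rw [max_eq_right hdrop.le]
          have := hk e he
          gcongr
        have h5 : ∑ i, z.1 i * f x i ≤ -(1 / 2) * ∑ r ∈ R, (k r * mon x r.1) *
          max 0 (ht z.1 r.1 - ht z.1 r.2) := h1
        linarith
    have hall := (Filter.eventually_all_finite hfin).mpr hz
    obtain ⟨η, hη, hη0⟩ := (hall.and self_mem_nhdsWithin).exists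
    exact ⟨η, hη0, fun a ha ha1 x hx z hz hact => hη z hz a ha ha1 x hx hact⟩
  -- bound on derivatives of supports
  have hderiv : ∀ a₁, ∃ B : ℝ, 0 < B ∧ ∀ a, as ≤ a → a ≤ a₁ → ∀ z ∈ S, |deriv z.2 a| ≤ B := by
    intro a₁
    have hz : ∀ z ∈ S, ∀ᶠ B in Filter.atTop, ∀ a, as ≤ a → a ≤ a₁ → |deriv z.2 a| ≤ B := by
      intro z hz
      have h1 : Continuous (deriv z.2) := (hsm z hz).continuous_deriv (by norm_num)
      obtain ⟨C, hC⟩ := (isCompact_Icc (a := as) (b := a₁)).exists_bound_of_continuousOn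
        h1.continuousOn
      filter_upwards [Filter.eventually_ge_atTop C] with B hB a ha ha1
      exact (hC a ⟨ha, ha1⟩).trans hB
    have hall := (Filter.eventually_all_finite hfin).mpr hz
    obtain ⟨B, hB, hB0⟩ := (hall.and (Filter.eventually_gt_atTop 0)).exists
    exact ⟨B, hB0, fun a ha ha1 z hz => hB z hz a ha ha1⟩
  -- static invariance on [s, T]
  have hstat : ∀ a, as ≤ a → ∀ g : (Fin (D + 1) → ℝ) → (Fin (D + 1) → ℝ), (∀ x, g x ∈ V) →
      (∀ x ∈ Ka a, g x = f x) → ∀ (s T : ℝ) (x : ℝ → Fin (D + 1) → ℝ),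
      ContinuousOn x (Set.Icc s T) →
      (∀ t ∈ Set.Ico s T, HasDerivWithinAt x (g (x t)) (Set.Ici t) t) → x s ∈ Ka a →
      ∀ t ∈ Set.Icc s T, x t ∈ Ka a := by
    intro a ha g hgV hgf s T x hx hx' h0 t ht
    obtain ⟨η, hη, hdec⟩ := hdecay a
    refine invariance S hfin hsm V c g hgV s T (fun _ => a) 0 (fun t => by
      simpa using hasDerivAt_const t a) ?_ x hx hx' h0.1 h0.2 t ht
    intro t' _ y hyV hy z hz hact
    have h1 := hdec a ha le_rfl y ⟨hyV, hy⟩ z hz hact
    rw [hgf y ⟨hyV, hy⟩]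
    linarith
  -- forward solutions restricted
  have hres : ∀ x : ℝ → Fin (D + 1) → ℝ, IsForwardSolution f x → ∀ s T : ℝ, 0 ≤ s →
      ContinuousOn x (Set.Icc s T) ∧
      (∀ t ∈ Set.Ico s T, HasDerivWithinAt x (f (x t)) (Set.Ici t) t) := by
    intro x hx s T hs
    constructor
    · intro t ht
      exact (hx t (hs.trans ht.1)).continuousWithinAt.mono (fun τ hτ => hs.trans hτ.1)
    · intro t ht
      exact (hx t (hs.trans ht.1)).mono (fun τ hτ => (hs.trans ht.1).trans hτ)
  have hinv : ∀ a, as ≤ a → ∀ x : ℝ → Fin (D + 1) → ℝ, IsForwardSolution f x → ∀ s : ℝ, 0 ≤ s →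
      x s ∈ Ka a → ∀ t, s ≤ t → x t ∈ Ka a := by
    intro a ha x hx s hs h0 t ht
    obtain ⟨h1, h2⟩ := hres x hx s t hs
    exact hstat a ha f hfV (fun _ _ => rfl) s t x h1 h2 h0 t ⟨ht, le_rfl⟩
  -- every point of the class is in some Ka
  have hexh' : ∀ x₀ ∈ positiveClass R c, ∃ a₁, as ≤ a₁ ∧ x₀ ∈ Ka a₁ := by
    intro x₀ hx₀
    obtain ⟨a₁, ha₁⟩ := Filter.eventually_atTop.mp (hexh x₀ hx₀.1)
    refine ⟨max as a₁, le_max_left _ _, hx₀.2, ?_⟩
    intro z hz
    exact (ha₁ _ (le_max_right _ _) z hz).le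
  have hcV : c - c ∈ V := by rw [sub_self]; exact V.zero_mem
  refine ⟨Ka as, ?_, ⟨c, hcV, fun z hz => (hcint as le_rfl z hz).le⟩, ?_, ?_, ?_, ?_⟩
  · -- subset
    intro x hx
    exact ⟨hKapos as le_rfl x hx, hx.1⟩
  · -- compact
    have hclosed : IsClosed (Ka as) := by
      have h1 : Ka as = {x | x - c ∈ (V : Set (Fin (D + 1) → ℝ))} ∩
          ⋂ z ∈ S, {x | ∑ i, z.1 i * x i ≤ z.2 as} := by
        ext x
        simp only [Ka, Set.mem_inter_iff, Set.mem_iInter, Set.mem_ofPred_eq, SetLike.mem_coe]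
      rw [h1]
      apply IsClosed.inter
      · exact (Submodule.closed_of_finiteDimensional V).preimage (continuous_id.sub continuous_const)
      · apply isClosed_biInter
        intro z _
        apply isClosed_le _ continuous_const
        fun_prop
    have hbdd : Ka as ⊆ Set.Icc (fun _ => Real.exp (-(as * A))) (fun _ => Real.exp (as * A)) := by
      intro x hx
      exact ⟨fun i => (hKab as le_rfl x hx i).1, fun i => (hKab as le_rfl x hx i).2⟩
    exact isCompact_Icc.of_isClosed_subset hclosed hbdd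
  · -- convex
    intro x hx y hy s t hs ht hst
    refine ⟨?_, ?_⟩
    · have e : s • x + t • y - c = s • (x - c) + t • (y - c) := by
        have : c = s • c + t • c := by rw [← add_smul, hst, one_smul]
        nth_rewrite 1 [this]
        rw [smul_sub, smul_sub]; abel
      rw [e]
      exact V.add_mem (V.smul_mem _ hx.1) (V.smul_mem _ hy.1)
    · intro z hz
      have e : ∑ i, z.1 i * (s • x + t • y) i = s * ∑ i, z.1 i * x i + t * ∑ i, z.1 i * y i := by
        rw [Finset.mul_sum, Finset.mul_sum, ← Finset.sum_add_distrib]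
        apply Finset.sum_congr rfl
        intro i _; simp; ring
      rw [e]
      have h1 := mul_le_mul_of_nonneg_left (hx.2 z hz) hs
      have h2 := mul_le_mul_of_nonneg_left (hy.2 z hz) ht
      calc s * ∑ i, z.1 i * x i + t * ∑ i, z.1 i * y i ≤ s * z.2 as + t * z.2 as := by linarith
        _ = z.2 as := by rw [← add_mul, hst, one_mul]
  · -- forward invariance
    intro x hx h0 t ht
    exact hinv as le_rfl x hx 0 le_rfl h0 t ht
  · intro x₀ hx₀
    obtain ⟨a₁, ha₁, hx₀K⟩ := hexh' x₀ hx₀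
    refine ⟨?_, ?_, ?_⟩
    · -- existence
      set lo : ℝ := Real.exp (-(a₁ * A)) with hlo
      set hi : ℝ := Real.exp (a₁ * A) with hhi
      have hlohi : lo ≤ hi := by
        have h1 := hKab a₁ ha₁ x₀ hx₀K 0
        exact h1.1.trans h1.2
      obtain ⟨K, hK⟩ := field_lipschitzOn R k lo hi
      let g : (Fin (D + 1) → ℝ) → (Fin (D + 1) → ℝ) := fun x => f (clampv lo hi x)
      have hgL : LipschitzWith K g := by
        intro x y
        have h1 := hK (clampv_mem lo hi hlohi x) (clampv_mem lo hi hlohi y)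
        have h2 := clampv_lip (d := D + 1) lo hi x y
        calc edist (g x) (g y) ≤ K * edist (clampv lo hi x) (clampv lo hi y) := h1
          _ ≤ K * ((1 : NNReal) * edist x y) := by gcongr
          _ = K * edist x y := by simp
      obtain ⟨C, hC⟩ := (isCompact_Icc (a := (fun _ : Fin (D + 1) => lo))
        (b := (fun _ => hi))).exists_bound_of_continuousOn
          ((field_contDiff R k).continuous.continuousOn)
      have hgB : ∀ x, ‖g x‖ ≤ C.toNNReal := by
        intro x
        exact (hC _ (clampv_mem lo hi hlohi x)).trans (Real.le_coe_toNNReal C)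
      obtain ⟨x, hx0, hx⟩ := global_exists g K C.toNNReal hgL hgB x₀
      have hgV : ∀ x, g x ∈ V := fun x => hfV _
      have hgf : ∀ x ∈ Ka a₁, g x = f x := by
        intro x hx
        simp only [g]
        rw [clampv_eq lo hi x (hKab a₁ ha₁ x hx)]
      have hxK : ∀ t, 0 ≤ t → x t ∈ Ka a₁ := by
        intro t ht
        refine hstat a₁ ha₁ g hgV hgf 0 t x ?_ ?_ (by rw [hx0]; exact hx₀K) t ⟨ht, le_rfl⟩
        · intro τ hτ
          exact (hx τ hτ.1).continuousWithinAt.mono (fun s hs => hs.1)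
        · intro τ hτ
          exact (hx τ hτ.1).mono (fun s hs => hτ.1.trans hs)
      refine ⟨x, ?_, hx0⟩
      intro t ht
      have := hx t ht
      rwa [hgf _ (hxK t ht)] at this
    · -- uniqueness
      intro x x' hx hx' h0 h0' t ht
      obtain ⟨K, hK⟩ := field_lipschitzOn R k (Real.exp (-(a₁ * A))) (Real.exp (a₁ * A))
      obtain ⟨h1, h2⟩ := hres x hx 0 t le_rfl
      obtain ⟨h1', h2'⟩ := hres x' hx' 0 t le_rfl
      have hbox : ∀ x : ℝ → Fin (D + 1) → ℝ, IsForwardSolution f x → x 0 = x₀ → ∀ τ, 0 ≤ τ →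
          x τ ∈ Set.Icc (fun _ : Fin (D + 1) => Real.exp (-(a₁ * A)))
            (fun _ => Real.exp (a₁ * A)) := by
        intro x hx h0 τ hτ
        have h3 := hinv a₁ ha₁ x hx 0 le_rfl (by rw [h0]; exact hx₀K) τ hτ
        exact ⟨fun i => (hKab a₁ ha₁ _ h3 i).1, fun i => (hKab a₁ ha₁ _ h3 i).2⟩
      exact ODE_solution_unique_of_mem_Icc_right (v := fun _ => f)
        (s := fun _ => Set.Icc (fun _ : Fin (D + 1) => Real.exp (-(a₁ * A)))
            (fun _ => Real.exp (a₁ * A))) (fun _ _ => hK) h1 h2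
        (fun τ hτ => hbox x hx h0 τ hτ.1) h1' h2' (fun τ hτ => hbox x' hx' h0' τ hτ.1)
        (by rw [h0, h0']) ⟨ht, le_rfl⟩
    · -- positivity and absorption
      intro x hx h0
      have hxK : ∀ t, 0 ≤ t → x t ∈ Ka a₁ := fun t ht =>
        hinv a₁ ha₁ x hx 0 le_rfl (by rw [h0]; exact hx₀K) t ht
      refine ⟨fun t ht i => hKapos a₁ ha₁ _ (hxK t ht) i, ?_⟩
      obtain ⟨η, hη, hdec⟩ := hdecay a₁
      obtain ⟨B, hB, hder⟩ := hderiv a₁
      set κ : ℝ := η / (2 * B) with hκ
      have hκ0 : 0 < κ := by positivity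
      have hκB : κ * B = η / 2 := by rw [hκ]; field_simp
      set T : ℝ := (a₁ - as) / κ with hT
      have hT0 : 0 ≤ T := div_nonneg (by linarith) hκ0.le
      have hκT : κ * T = a₁ - as := by rw [hT]; field_simp
      obtain ⟨h1, h2⟩ := hres x hx 0 T le_rfl
      have hαd : ∀ t : ℝ, HasDerivAt (fun t => a₁ - κ * t) (-κ) t := by
        intro t
        have := ((hasDerivAt_id t).const_mul κ).const_sub a₁
        simpa using this
      have hKT := invariance S hfin hsm V c f hfV 0 T (fun t => a₁ - κ * t) κ hαd (by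
        intro t ht y hyV hy z hz hact
        have hκt : κ * t ≤ κ * T := mul_le_mul_of_nonneg_left ht.2.le hκ0.le
        have hκt0 : 0 ≤ κ * t := mul_nonneg hκ0.le ht.1
        have ha1 : as ≤ a₁ - κ * t := by linarith
        have ha2 : a₁ - κ * t ≤ a₁ := by linarith
        have h3 := hdec _ ha1 ha2 y ⟨hyV, hy⟩ z hz hact
        have h4 := hder _ ha1 ha2 z hz
        have h5 : κ * deriv z.2 (a₁ - κ * t) ≤ κ * B :=
          mul_le_mul_of_nonneg_left ((le_abs_self _).trans h4) hκ0.le
        linarith) x h1 h2 (by rw [h0]; exact hx₀K.1) (by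
          rw [h0]
          simpa using hx₀K.2) T ⟨hT0, le_rfl⟩
      have hxT : x T ∈ Ka as := by
        refine ⟨hKT.1, ?_⟩
        have h6 := hKT.2
        have e : a₁ - κ * T = as := by rw [hκT]; ring
        simpa only [e] using h6
      exact ⟨T, hT0, fun t ht => hinv as le_rfl x hx T hT0 hxT t ht⟩

end Crest.Agent.S0122
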