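import Mathlib
import Crest.Prelude.Def_BernoulliConv

set_option autoImplicit false

namespace Crest.Agent.S0137

open Polynomial Crest.AnalysisR

lemma salem_roots (β : ℝ) (h : IsQuarticSalem β) :
    ∃ ω : ℂ, ‖ω‖ = 1 ∧ (minpoly ℤ β).map (Int.castRingHom ℂ)
      = (X - C (β : ℂ)) * (X - C ((β⁻¹ : ℝ) : ℂ)) * (X - C ω) * (X - C ((starRingEnd ℂ) ω)) := by
  obtain ⟨h1, hint, hdeg, hinv, hroots⟩ := h
  have hβ0 : (0 : ℝ) < β := by linarith
  set p := minpoly ℚ β with hp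
  have hintQ : IsIntegral ℚ β := hint.tower_top
  have hpmonic : p.Monic := minpoly.monic hintQ
  have hpirr : Irreducible p := minpoly.irreducible hintQ
  have hPp : (minpoly ℤ β).map (Int.castRingHom ℚ) = p := by
    have := minpoly.isIntegrallyClosed_eq_field_fractions' ℚ hint
    rw [hp, this]; rfl
  have hPC : (minpoly ℤ β).map (Int.castRingHom ℂ) = p.map (algebraMap ℚ ℂ) := by
    rw [← hPp, Polynomial.map_map]
    congr 1
  have hsep : p.Separable := hpirr.separable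
  set q := p.map (algebraMap ℚ ℂ) with hq
  have hqmonic : q.Monic := hpmonic.map _
  have hqne : q ≠ 0 := hqmonic.ne_zero
  have hqdeg : q.natDegree = 4 := by rw [hq, Polynomial.natDegree_map, hdeg]
  have hsplit : q.Splits := IsAlgClosed.splits q
  have hcard : q.roots.card = 4 := by
    rw [← hqdeg]; exact (splits_iff_card_roots.1 hsplit)
  have hnodup : q.roots.Nodup := nodup_roots (hsep.map)
  have hprod : q = (q.roots.map (fun a => X - C a)).prod := hsplit.eq_prod_roots_of_monic hqmonic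
  have hmem : ∀ z : ℂ, z ∈ q.roots ↔ aeval z p = 0 := by
    intro z
    rw [mem_roots hqne, IsRoot.def, hq, eval_map_algebraMap]
  have hβroot : (β : ℂ) ∈ q.roots := by
    rw [hmem]
    have h2 : aeval ((algebraMap ℝ ℂ) β) p = algebraMap ℝ ℂ (aeval β p) := aeval_algebraMap_apply ℂ β p
    have h3 : aeval β p = 0 := minpoly.aeval ℚ β
    rw [h3, map_zero] at h2
    exact h2
  have hβinvroot : ((β⁻¹ : ℝ) : ℂ) ∈ q.roots := by
    rw [hmem]
    have h2 : aeval ((algebraMap ℝ ℂ) β⁻¹) p = algebraMap ℝ ℂ (aeval β⁻¹ p) :=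
      aeval_algebraMap_apply ℂ β⁻¹ p
    rw [hinv, map_zero] at h2
    exact h2
  have hne : ((β⁻¹ : ℝ) : ℂ) ≠ (β : ℂ) := by
    intro h
    have h2 : β⁻¹ = β := by exact_mod_cast h
    have h3 : β⁻¹ < 1 := inv_lt_one_of_one_lt₀ h1
    linarith
  obtain ⟨s1, hs1⟩ := Multiset.exists_cons_of_mem hβroot
  have hmem2 : ((β⁻¹ : ℝ) : ℂ) ∈ s1 := by
    rw [hs1, Multiset.mem_cons] at hβinvroot
    exact hβinvroot.resolve_left hne
  obtain ⟨s2, hs2⟩ := Multiset.exists_cons_of_mem hmem2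
  have hs2card : s2.card = 2 := by
    rw [hs1, hs2] at hcard
    simpa using hcard
  obtain ⟨ω, ω', hs3⟩ := Multiset.card_eq_two.1 hs2card
  have hR : q.roots = (β : ℂ) ::ₘ ((β⁻¹ : ℝ) : ℂ) ::ₘ ω ::ₘ {ω'} := by
    rw [hs1, hs2, hs3]; rfl
  rw [hR] at hnodup
  simp only [Multiset.nodup_cons, Multiset.mem_cons, Multiset.mem_singleton, not_or] at hnodup
  obtain ⟨⟨-, hβω, hβω'⟩, ⟨hiω, hiω'⟩, hωω', -⟩ := hnodup
  have hωroot : ω ∈ q.roots := by rw [hR]; simp
  have hω1 : ‖ω‖ = 1 := by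
    rcases hroots ω ((hmem ω).1 hωroot) with h | h | h
    · exact absurd h.symm hβω
    · exact absurd h.symm hiω
    · exact h
  have hconjroot : (starRingEnd ℂ) ω ∈ q.roots := by
    rw [hmem]
    have h2 := (hmem ω).1 hωroot
    have h3 : (starRingEnd ℂ) (aeval ω p) = aeval ((starRingEnd ℂ) ω) p := by
      rw [aeval_def, aeval_def, Polynomial.hom_eval₂]
      congr 1
      exact Subsingleton.elim _ _
    rw [← h3, h2, map_zero]
  have hconjne : (starRingEnd ℂ) ω ≠ ω := by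
    intro hcon
    have h2 : (ω.re : ℂ) = ω := Complex.conj_eq_iff_re.1 hcon
    have h3 : |ω.re| = 1 := by
      rw [← h2, Complex.norm_real, Real.norm_eq_abs] at hω1
      exact hω1
    have h4 : ∃ r : ℚ, (r : ℂ) = ω := by
      rcases (abs_eq zero_le_one).1 h3 with h | h
      · exact ⟨1, by rw [← h2, h]; simp⟩
      · exact ⟨-1, by rw [← h2, h]; simp⟩
    obtain ⟨r, hr⟩ := h4
    have h5 : p.IsRoot r := by
      have h6 := (hmem ω).1 hωroot
      rw [← hr] at h6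
      have h7 : aeval ((algebraMap ℚ ℂ) r) p = algebraMap ℚ ℂ (aeval r p) :=
        aeval_algebraMap_apply ℂ r p
      rw [show (algebraMap ℚ ℂ) r = (r : ℂ) from rfl, h6] at h7
      have h8 : aeval r p = 0 := by
        have := (map_eq_zero (algebraMap ℚ ℂ)).1 h7.symm
        exact this
      rw [IsRoot.def, ← h8]
      rfl
    have h6 := degree_eq_one_of_irreducible_of_root hpirr h5
    rw [degree_eq_natDegree hpmonic.ne_zero, hdeg] at h6
    norm_num at h6
  have hω' : ω' = (starRingEnd ℂ) ω := by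
    rw [hR] at hconjroot
    simp only [Multiset.mem_cons, Multiset.mem_singleton] at hconjroot
    have hcn : ‖(starRingEnd ℂ) ω‖ = 1 := by rw [RCLike.norm_conj]; exact hω1
    rcases hconjroot with h | h | h | h
    · rw [h, Complex.norm_real, Real.norm_eq_abs, abs_of_pos hβ0] at hcn
      linarith
    · rw [h, Complex.norm_real, Real.norm_eq_abs, abs_of_pos (inv_pos.2 hβ0)] at hcn
      have : β⁻¹ < 1 := inv_lt_one_of_one_lt₀ h1
      linarith
    · exact absurd h hconjne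
    · exact h.symm
  refine ⟨ω, hω1, ?_⟩
  rw [hPC, hprod, hR, hω']
  simp only [Multiset.map_cons, Multiset.prod_cons, Multiset.map_singleton, Multiset.prod_singleton]
  ring

lemma power_sums (P : ℤ[X]) (a b c d : ℂ)
    (h : P.map (Int.castRingHom ℂ) = (X - C a) * (X - C b) * (X - C c) * (X - C d)) (n : ℕ) :
    ∃ z : ℤ, a ^ n + b ^ n + c ^ n + d ^ n = z := by
  set e1 := a + b + c + d with he1
  set e2 := a * b + a * c + a * d + b * c + b * d + c * d with he2
  set e3 := a * b * c + a * b * d + a * c * d + b * c * d with he3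
  set e4 := a * b * c * d with he4
  have hexp : P.map (Int.castRingHom ℂ) = X ^ 4 + C (-e1) * X ^ 3 + C e2 * X ^ 2 + C (-e3) * X + C e4 := by
    rw [h, he1, he2, he3, he4]
    simp only [map_add, map_mul, map_neg]
    ring
  have hc : ∀ k, ((P.coeff k : ℤ) : ℂ)
      = (X ^ 4 + C (-e1) * X ^ 3 + C e2 * X ^ 2 + C (-e3) * X + C e4 : ℂ[X]).coeff k := by
    intro k
    rw [← hexp, coeff_map]; rfl
  have hc3 := hc 3
  have hc2 := hc 2
  have hc1 := hc 1
  have hc0 := hc 0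
  simp only [coeff_add, coeff_C_mul, coeff_X_pow, coeff_C, coeff_X] at hc3 hc2 hc1 hc0
  norm_num at hc3 hc2 hc1 hc0
  have E1 : e1 = ((-P.coeff 3 : ℤ) : ℂ) := by push_cast; rw [hc3]; ring
  have E2 : e2 = ((P.coeff 2 : ℤ) : ℂ) := hc2.symm
  have E3 : e3 = ((-P.coeff 1 : ℤ) : ℂ) := by push_cast; rw [hc1]; ring
  have E4 : e4 = ((P.coeff 0 : ℤ) : ℂ) := hc0.symm
  have hroot : ∀ r : ℂ, (r = a ∨ r = b ∨ r = c ∨ r = d) →
      r ^ 4 = e1 * r ^ 3 - e2 * r ^ 2 + e3 * r - e4 := by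
    intro r hr
    rcases hr with rfl | rfl | rfl | rfl <;> rw [he1, he2, he3, he4] <;> ring
  -- strong induction
  induction n using Nat.strong_induction_on with
  | _ n ih =>
    match n with
    | 0 => exact ⟨4, by norm_num⟩
    | 1 => exact ⟨-P.coeff 3, by rw [← E1, he1]; ring⟩
    | 2 => exact ⟨(-P.coeff 3) ^ 2 - 2 * P.coeff 2, by
        rw [Int.cast_sub, Int.cast_pow, Int.cast_mul, ← E1, ← E2, he1, he2]; push_cast; ring⟩
    | 3 => exact ⟨(-P.coeff 3) ^ 3 - 3 * (-P.coeff 3) * P.coeff 2 + 3 * (-P.coeff 1), by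
        rw [Int.cast_add, Int.cast_sub, Int.cast_pow, Int.cast_mul, Int.cast_mul, Int.cast_mul,
          ← E1, ← E2, ← E3, he1, he2, he3]; push_cast; ring⟩
    | m + 4 =>
      obtain ⟨z0, hz0⟩ := ih m (by omega)
      obtain ⟨z1, hz1⟩ := ih (m + 1) (by omega)
      obtain ⟨z2, hz2⟩ := ih (m + 2) (by omega)
      obtain ⟨z3, hz3⟩ := ih (m + 3) (by omega)
      refine ⟨(-P.coeff 3) * z3 - P.coeff 2 * z2 + (-P.coeff 1) * z1 - P.coeff 0 * z0, ?_⟩
      have key : a ^ (m + 4) + b ^ (m + 4) + c ^ (m + 4) + d ^ (m + 4)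
          = e1 * (a ^ (m + 3) + b ^ (m + 3) + c ^ (m + 3) + d ^ (m + 3))
          - e2 * (a ^ (m + 2) + b ^ (m + 2) + c ^ (m + 2) + d ^ (m + 2))
          + e3 * (a ^ (m + 1) + b ^ (m + 1) + c ^ (m + 1) + d ^ (m + 1))
          - e4 * (a ^ m + b ^ m + c ^ m + d ^ m) := by
        have ha := hroot a (Or.inl rfl)
        have hb := hroot b (Or.inr (Or.inl rfl))
        have hc := hroot c (Or.inr (Or.inr (Or.inl rfl)))
        have hd := hroot d (Or.inr (Or.inr (Or.inr rfl)))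
        rw [pow_add a m 4, pow_add b m 4, pow_add c m 4, pow_add d m 4, ha, hb, hc, hd]
        ring
      rw [key, hz0, hz1, hz2, hz3, E1, E2, E3, E4]
      push_cast
      ring

lemma salem_data (β : ℝ) (h : IsQuarticSalem β) :
    ∃ ω : ℂ, ‖ω‖ = 1 ∧ ∀ i : ℤ, ∃ z : ℤ, β ^ i + β ^ (-i) + 2 * (ω ^ i).re = z := by
  obtain ⟨ω, hω, hP⟩ := salem_roots β h
  refine ⟨ω, hω, ?_⟩
  have hβ1 : 1 < β := h.1
  have key : ∀ n : ℕ, ∃ z : ℤ, β ^ (n : ℤ) + β ^ (-(n : ℤ)) + 2 * (ω ^ (n : ℤ)).re = z := by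
    intro n
    obtain ⟨z, hz⟩ := power_sums _ _ _ _ _ hP n
    refine ⟨z, ?_⟩
    have h2 := congrArg Complex.re hz
    rw [Complex.add_re, Complex.add_re, Complex.add_re] at h2
    rw [← map_pow (starRingEnd ℂ), Complex.conj_re, ← Complex.ofReal_pow, ← Complex.ofReal_pow,
      Complex.ofReal_re, Complex.ofReal_re] at h2
    simp only [Complex.intCast_re] at h2
    rw [zpow_neg, zpow_natCast, zpow_natCast, ← inv_pow, ← h2]
    ring
  intro i
  have hconj : ∀ j : ℤ, (ω ^ (-j)).re = (ω ^ j).re := by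
    intro j
    have h2 : ω ^ (-j) = (starRingEnd ℂ) (ω ^ j) := by
      rw [zpow_neg, Complex.inv_def, Complex.normSq_eq_norm_sq, norm_zpow, hω]
      simp
    rw [h2, Complex.conj_re]
  rcases Int.eq_nat_or_neg i with ⟨n, rfl | rfl⟩
  · exact key n
  · obtain ⟨z, hz⟩ := key n
    refine ⟨z, ?_⟩
    rw [neg_neg, hconj, ← hz]; ring

lemma salem_integral (β : ℝ) (h : IsQuarticSalem β) (i : ℤ) : IsIntegral ℤ (β ^ i) := by
  have h1 : IsIntegral ℤ β := h.2.1
  have h2 : IsIntegral ℤ β⁻¹ := by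
    refine ⟨minpoly ℤ β, minpoly.monic h1, ?_⟩
    have h3 := minpoly.isIntegrallyClosed_eq_field_fractions' ℚ h1
    have h4 := h.2.2.2.1
    rw [h3, aeval_map_algebraMap] at h4
    exact h4
  rcases Int.eq_nat_or_neg i with ⟨n, rfl | rfl⟩
  · rw [zpow_natCast]; exact h1.pow n
  · rw [zpow_neg, zpow_natCast, ← inv_pow]; exact h2.pow n

lemma cos_ne_zero_of_integral (x : ℝ) (hx : IsIntegral ℤ x) : Real.cos (Real.pi * x) ≠ 0 := by
  intro h
  rw [Real.cos_eq_zero_iff] at h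
  obtain ⟨k, hk⟩ := h
  have h1 : x = (2 * k + 1) / 2 := by
    have := Real.pi_ne_zero
    field_simp at hk ⊢
    linarith
  have h2 : x = algebraMap ℚ ℝ ((2 * k + 1) / 2) := by
    rw [h1]; push_cast; simp
  rw [h2, isIntegral_algebraMap_iff (algebraMap ℚ ℝ).injective] at hx
  obtain ⟨y, hy⟩ := IsIntegrallyClosed.isIntegral_iff.1 hx
  have h3 : (y : ℚ) = (2 * k + 1) / 2 := hy
  have h4 : (2 * y : ℚ) = 2 * k + 1 := by rw [h3]; ring
  have h5 : 2 * y = 2 * k + 1 := by exact_mod_cast h4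
  omega

end Crest.Agent.S0137
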