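import Crest.Agent.S0137_Fin
import Crest.Agent.S0137_Alg

set_option autoImplicit false

namespace Crest.Agent.S0137

open Real Filter Crest.AnalysisR

/-- the min-only step -/
lemma cmin_core (β : ℝ) (hβ : 1 < β) (ω : ℂ) (hω : ‖ω‖ = 1) (a a2 : ℝ) (a1 : ℂ)
    (hint : IntT β ω a a2 a1) (W N : ℕ) (δ c : ℝ)
    (ha : |a| ≤ β ^ W) (ha2 : |a2| ≤ β ^ W) (hN : 4 * W ≤ N)
    (ha1 : ‖a1 * (ω ^ N - 1)‖ ≤ δ)
    (h1 : ∀ i : ℤ, c ≤ |cos (π * (a * β ^ i))|) (h2 : ∀ i : ℤ, c ≤ |cos (π * (a2 * β ^ i))|) :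
    ∀ i : ℤ, c - π * ((β ^ W)⁻¹ + 2 * δ) ≤ |cos (π * (a * (β ^ N - 1) * β ^ i))| := by
  have hβ0 : 0 < β := by linarith
  have hβ0' : β ≠ 0 := hβ0.ne'
  have hω0 : ω ≠ 0 := by
    intro h; rw [h] at hω; simp at hω
  have hWpos : 0 < (β ^ W)⁻¹ := by positivity
  have hδ : 0 ≤ δ := le_trans (norm_nonneg _) ha1
  have d1 : ∀ i : ℤ, a * (β ^ N - 1) * β ^ i = a * β ^ (i + N) + (-(a * β ^ i)) := by
    intro i
    rw [zpow_add₀ hβ0', zpow_natCast]; ring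
  have e1 : ∀ i : ℤ, |-(a * β ^ i)| ≤ β ^ W * β ^ i := by
    intro i
    rw [abs_neg, abs_mul, abs_of_pos (zpow_pos hβ0 i)]
    exact mul_le_mul_of_nonneg_right ha (zpow_pos hβ0 i).le
  have e1' : ∀ i : ℤ, β ^ W * β ^ i = (β ^ W)⁻¹ * β ^ (i + 2 * W) := by
    intro i
    rw [zpow_add₀ hβ0', show (2 : ℤ) * (W : ℤ) = ((2 * W : ℕ) : ℤ) by push_cast; ring,
      zpow_natCast, two_mul, pow_add]
    field_simp
  let E : ℤ → ℝ := fun i => -(a2 * β ^ (-(i + N))) - 2 * (a1 * (ω ^ N - 1) * ω ^ i).re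
  have d2 : ∀ i : ℤ, |cos (π * (a * (β ^ N - 1) * β ^ i))|
      = |cos (π * (a2 * β ^ (-i) + E i))| := by
    intro i
    obtain ⟨z1, hz1⟩ := hint (i + N)
    obtain ⟨z2, hz2⟩ := hint i
    have h3 : (a1 * ω ^ (i + N)).re - (a1 * ω ^ i).re = (a1 * (ω ^ N - 1) * ω ^ i).re := by
      rw [← Complex.sub_re]
      congr 1
      rw [zpow_add₀ hω0, zpow_natCast]; ring
    have h4 : a * (β ^ N - 1) * β ^ i = ((z1 - z2 : ℤ) : ℝ) + (a2 * β ^ (-i) + E i) := by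
      rw [d1 i]
      simp only [E]
      push_cast
      rw [← h3, ← hz1, ← hz2]
      ring
    rw [h4, abs_cos_int_add]
  have e2 : ∀ i : ℤ, |E i| ≤ (β ^ W)⁻¹ * β ^ (-(i + 2 * W)) + 2 * δ := by
    intro i
    have h3 : |a2 * β ^ (-(i + (N : ℤ)))| ≤ (β ^ W)⁻¹ * β ^ (-(i + 2 * W)) := by
      rw [abs_mul, abs_of_pos (zpow_pos hβ0 _)]
      calc |a2| * β ^ (-(i + (N : ℤ))) ≤ β ^ W * β ^ (-(i + (N : ℤ))) :=
            mul_le_mul_of_nonneg_right ha2 (zpow_pos hβ0 _).le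
        _ = β ^ ((W : ℤ) + (-(i + (N : ℤ)))) := by rw [zpow_add₀ hβ0', zpow_natCast]
        _ ≤ β ^ (-(W : ℤ) + (-(i + 2 * W))) := zpow_le_zpow_right₀ hβ.le (by omega)
        _ = (β ^ W)⁻¹ * β ^ (-(i + 2 * W)) := by
            rw [zpow_add₀ hβ0', zpow_neg, zpow_natCast]
    have h4 : |(a1 * (ω ^ N - 1) * ω ^ i).re| ≤ δ := by
      refine (Complex.abs_re_le_norm _).trans ?_
      rw [norm_mul, norm_zpow, hω, one_zpow, mul_one]
      exact ha1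
    have h5 : |E i| ≤ |a2 * β ^ (-(i + (N : ℤ)))| + 2 * |(a1 * (ω ^ N - 1) * ω ^ i).re| := by
      simp only [E]
      calc _ ≤ |-(a2 * β ^ (-(i + (N : ℤ))))| + |2 * (a1 * (ω ^ N - 1) * ω ^ i).re| :=
            abs_sub _ _
        _ = _ := by rw [abs_neg, abs_mul 2, abs_two]
    linarith
  intro i
  by_cases hi : i < -(2 * (W : ℤ))
  · have h3 := abs_cos_pert' (a * β ^ (i + N)) (-(a * β ^ i)) c (h1 _)
    rw [← d1 i] at h3
    have h4 : |-(a * β ^ i)| ≤ (β ^ W)⁻¹ := by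
      refine (e1 i).trans ?_
      rw [e1' i]
      have : β ^ (i + 2 * (W : ℤ)) ≤ 1 := zpow_le_one_of_nonpos₀ hβ.le (by omega)
      nlinarith
    have h6 : π * |-(a * β ^ i)| ≤ π * ((β ^ W)⁻¹ + 2 * δ) :=
      mul_le_mul_of_nonneg_left (by linarith) pi_pos.le
    linarith
  · have h3 := abs_cos_pert' (a2 * β ^ (-i)) (E i) c (h2 _)
    rw [← d2 i] at h3
    have h4 : |E i| ≤ (β ^ W)⁻¹ + 2 * δ := by
      refine (e2 i).trans ?_
      have : β ^ (-(i + 2 * (W : ℤ))) ≤ 1 := zpow_le_one_of_nonpos₀ hβ.le (by omega)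
      nlinarith
    have h6 : π * |E i| ≤ π * ((β ^ W)⁻¹ + 2 * δ) :=
      mul_le_mul_of_nonneg_left h4 pi_pos.le
    linarith

lemma cmin_both (β : ℝ) (hβ : 1 < β) (ω : ℂ) (hω : ‖ω‖ = 1) (a a2 : ℝ) (a1 : ℂ)
    (hint : IntT β ω a a2 a1) (W N : ℕ) (δ c : ℝ)
    (ha : |a| ≤ β ^ W) (ha2 : |a2| ≤ β ^ W) (hN : 4 * W ≤ N)
    (ha1 : ‖a1 * (ω ^ N - 1)‖ ≤ δ)
    (h1 : ∀ i : ℤ, c ≤ |cos (π * (a * β ^ i))|) (h2 : ∀ i : ℤ, c ≤ |cos (π * (a2 * β ^ i))|) :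
    (∀ i : ℤ, c - π * ((β ^ W)⁻¹ + 2 * δ) ≤ |cos (π * (a * (β ^ N - 1) * β ^ i))|) ∧
    (∀ i : ℤ, c - π * ((β ^ W)⁻¹ + 2 * δ) ≤ |cos (π * (a2 * ((β ^ N)⁻¹ - 1) * β ^ i))|) := by
  have hβ0 : β ≠ 0 := by positivity
  refine ⟨cmin_core β hβ ω hω a a2 a1 hint W N δ c ha ha2 hN ha1 h1 h2, fun i => ?_⟩
  have h3 := cmin_core β hβ ω hω a2 a ((starRingEnd ℂ) a1) (hint.swap hω) W N δ c ha2 ha hN
    (by rw [norm_mul, RCLike.norm_conj, ← norm_mul]; exact ha1) h2 h1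
  have key : |cos (π * (a2 * ((β ^ N)⁻¹ - 1) * β ^ i))|
      = |cos (π * (a2 * (β ^ N - 1) * β ^ (i - (N : ℤ))))| := by
    rw [← Real.cos_neg]
    congr 2
    rw [zpow_sub₀ hβ0, zpow_natCast]
    have : β ^ N ≠ 0 := by positivity
    field_simp
    ring
  rw [key]
  exact h3 _

/-- From a uniform lower bound on cosines we get a product bound. -/
lemma Pr_of_cmin (β : ℝ) (hβ : 1 < β) (x M c : ℝ) (hc : 0 < c) (W : ℕ) (hx : |x| ≤ β ^ W)
    (h : ∀ i : ℤ, c ≤ |cos (π * (x * β ^ i))|) : ∃ B : ℝ, 1 ≤ B ∧ Pr β x M c B := by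
  have hβ0 : 0 < β := by linarith
  have hβ0' : β ≠ 0 := hβ0.ne'
  have hβ1 : 0 < β - 1 := by linarith
  have hc1 : c ≤ 1 := (h 0).trans (abs_cos_le_one _)
  -- choose V with π^2 β^(W-V)/(β-1)/2 ≤ 1/2
  obtain ⟨V, hV⟩ : ∃ V : ℕ, π ^ 2 * β ^ W / (β - 1) ≤ β ^ V := by
    obtain ⟨V, hV⟩ := pow_unbounded_of_one_lt (π ^ 2 * β ^ W / (β - 1)) hβ
    exact ⟨V, hV.le⟩
  set m : ℕ := (⌊M⌋ + 1 + (W + V : ℕ)).toNat with hm
  refine ⟨2 / c ^ m, ?_, h, fun S hS => ?_⟩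
  · rw [le_div_iff₀ (by positivity)]
    have := pow_le_one₀ hc.le hc1 (n := m)
    linarith
  rw [← Finset.prod_filter_mul_prod_filter_not S (fun i => i < -((W + V : ℕ) : ℤ))]
  set S1 := S.filter (fun i => i < -((W + V : ℕ) : ℤ)) with hS1
  set S2 := S.filter (fun i => ¬ (i < -((W + V : ℕ) : ℤ))) with hS2
  have b1 : (1 : ℝ) / 2 ≤ ∏ i ∈ S1, |cos (π * (x * β ^ i))| := by
    have hsum : ∑ i ∈ S1, π ^ 2 * (β ^ W * β ^ i) / 2 ≤ 1 / 2 := by
      calc _ = π ^ 2 * β ^ W / 2 * ∑ i ∈ S1, β ^ i := by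
            rw [Finset.mul_sum]
            exact Finset.sum_congr rfl fun i _ => by ring
        _ ≤ π ^ 2 * β ^ W / 2 * (β ^ (-((W + V : ℕ) : ℤ)) / (β - 1)) := by
            gcongr
            exact sum_zpow_lt β hβ _ _ fun i hi => (Finset.mem_filter.1 hi).2
        _ = (π ^ 2 * β ^ W / (β - 1)) / (2 * β ^ (W + V)) := by
            rw [zpow_neg, zpow_natCast]; field_simp
        _ ≤ β ^ V / (2 * β ^ (W + V)) := by gcongr
        _ ≤ β ^ (W + V) / (2 * β ^ (W + V)) := by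
            gcongr
            · exact hβ.le
            · omega
        _ = 1 / 2 := by
            have : β ^ (W + V) ≠ 0 := by positivity
            field_simp
    have := prod_ge_of_pert S1 (fun i => |cos (π * (x * β ^ i))|) (fun _ => 1)
      (fun i => π ^ 2 * (β ^ W * β ^ i) / 2) (fun i _ => zero_le_one) (fun i _ => by positivity)
      (fun i hi => by
        have hi2 : i < -((W + V : ℕ) : ℤ) := (Finset.mem_filter.1 hi).2
        have h1 := one_sub_sq_div_two_le_cos (x := π * (x * β ^ i))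
        have h2 := le_abs_self (cos (π * (x * β ^ i)))
        have h3 : |x * β ^ i| ≤ β ^ W * β ^ i := by
          rw [abs_mul, abs_of_pos (zpow_pos hβ0 i)]
          exact mul_le_mul_of_nonneg_right hx (zpow_pos hβ0 i).le
        have h4 : β ^ W * β ^ i ≤ 1 := by
          rw [← zpow_natCast, ← zpow_add₀ hβ0']
          exact zpow_le_one_of_nonpos₀ hβ.le (by omega)
        have h5 : (x * β ^ i) ^ 2 ≤ β ^ W * β ^ i := by
          rw [← sq_abs]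
          nlinarith [abs_nonneg (x * β ^ i)]
        have h6 : (π * (x * β ^ i)) ^ 2 / 2 ≤ π ^ 2 * (β ^ W * β ^ i) / 2 := by
          rw [mul_pow]
          gcongr
        linarith) (by linarith)
    rw [Finset.prod_const_one, one_mul] at this
    linarith
  have b2 : c ^ m ≤ ∏ i ∈ S2, |cos (π * (x * β ^ i))| := by
    have hcard : S2.card ≤ m := by
      have hsub : S2 ⊆ Finset.Icc (-((W + V : ℕ) : ℤ)) ⌊M⌋ := by
        intro i hi
        rw [Finset.mem_Icc]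
        refine ⟨?_, Int.le_floor.2 (hS i (Finset.mem_filter.1 hi).1)⟩
        have := (Finset.mem_filter.1 hi).2
        omega
      have := Finset.card_le_card hsub
      rw [Int.card_Icc] at this
      refine this.trans (le_of_eq ?_)
      rw [hm]; congr 1; ring
    calc c ^ m ≤ c ^ S2.card := pow_le_pow_of_le_one hc.le hc1 hcard
      _ = ∏ i ∈ S2, c := by rw [Finset.prod_const]
      _ ≤ _ := Finset.prod_le_prod (fun i _ => hc.le) fun i _ => h i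
  rw [one_div_div, div_eq_mul_one_div, mul_comm (c ^ m)]
  exact mul_le_mul b1 b2 (by positivity) (le_trans (by norm_num) b1)

lemma Pr.mono {β x M c c' B B' : ℝ} (h : Pr β x M c B) (hc : c' ≤ c) (hB : 0 < B) (hBB : B ≤ B') :
    Pr β x M c' B' :=
  ⟨fun i => hc.trans (h.1 i), fun S hS => le_trans (one_div_le_one_div_of_le hB hBB) (h.2 S hS)⟩

/-- min of cosines for a triple with small third coordinate. -/
lemma cmin_exists (β : ℝ) (hβ : 1 < β) (ω : ℂ) (hω : ‖ω‖ = 1) (a a2 : ℝ) (a1 : ℂ)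
    (hint : IntT β ω a a2 a1) (ha1 : ‖a1‖ ≤ 1 / 10)
    (hne : ∀ i : ℤ, cos (π * (a * β ^ i)) ≠ 0) :
    ∃ c : ℝ, 0 < c ∧ ∀ i : ℤ, c ≤ |cos (π * (a * β ^ i))| := by
  have hβ0 : 0 < β := by linarith
  have hβ0' : β ≠ 0 := hβ0.ne'
  obtain ⟨V, hV⟩ := pow_unbounded_of_one_lt (20 * (|a| + |a2| + 1)) hβ
  have hVpos : 0 < β ^ V := by positivity
  have hcosge : ∀ y : ℝ, |y| ≤ 1 / 4 → (1 / 2 : ℝ) ≤ |cos (π * y)| := by
    intro y hy
    have h1 := one_sub_sq_div_two_le_cos (x := π * y)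
    have h2 := le_abs_self (cos (π * y))
    have h3 : y ^ 2 ≤ 1 / 16 := by
      rw [← sq_abs]; nlinarith [abs_nonneg y]
    have h4 : π ^ 2 < 10 := by nlinarith [pi_lt_d2, pi_pos]
    nlinarith [sq_nonneg y, sq_nonneg π]
  have hlow : ∀ i : ℤ, i ≤ -(V : ℤ) → (1 / 2 : ℝ) ≤ |cos (π * (a * β ^ i))| := by
    intro i hi
    apply hcosge
    rw [abs_mul, abs_of_pos (zpow_pos hβ0 i)]
    have h1 : β ^ i ≤ (β ^ V)⁻¹ := by
      rw [← zpow_natCast, ← zpow_neg]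
      exact zpow_le_zpow_right₀ hβ.le hi
    calc |a| * β ^ i ≤ |a| * (β ^ V)⁻¹ := by gcongr
      _ ≤ 1 / 4 := by
          rw [← div_eq_mul_inv, div_le_iff₀ hVpos]
          nlinarith [abs_nonneg a, abs_nonneg a2]
  have hhigh : ∀ i : ℤ, (V : ℤ) ≤ i → (1 / 2 : ℝ) ≤ |cos (π * (a * β ^ i))| := by
    intro i hi
    obtain ⟨z, hz⟩ := hint i
    have h1 : a * β ^ i = z + (-(a2 * β ^ (-i)) - 2 * (a1 * ω ^ i).re) := by rw [← hz]; ring
    rw [h1, abs_cos_int_add]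
    apply hcosge
    have h2 : |(a1 * ω ^ i).re| ≤ 1 / 10 := by
      refine (Complex.abs_re_le_norm _).trans ?_
      rw [norm_mul, norm_zpow, hω, one_zpow, mul_one]
      exact ha1
    have h3 : |a2 * β ^ (-i)| ≤ 1 / 20 := by
      rw [abs_mul, abs_of_pos (zpow_pos hβ0 _)]
      have h4 : β ^ (-i) ≤ (β ^ V)⁻¹ := by
        rw [← zpow_natCast, ← zpow_neg]
        exact zpow_le_zpow_right₀ hβ.le (by omega)
      calc |a2| * β ^ (-i) ≤ |a2| * (β ^ V)⁻¹ := by gcongr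
        _ ≤ 1 / 20 := by
            rw [← div_eq_mul_inv, div_le_iff₀ hVpos]
            nlinarith [abs_nonneg a, abs_nonneg a2]
    calc _ ≤ |-(a2 * β ^ (-i))| + |2 * (a1 * ω ^ i).re| := abs_sub _ _
      _ ≤ 1 / 4 := by rw [abs_neg, abs_mul 2, abs_two]; linarith
  obtain ⟨j, _, hj⟩ := Finset.exists_min_image (Finset.Icc (-(V : ℤ)) V)
    (fun i => |cos (π * (a * β ^ i))|) ⟨0, by simp⟩
  refine ⟨min (1 / 2) |cos (π * (a * β ^ j))|, lt_min (by norm_num) (abs_pos.2 (hne j)), fun i => ?_⟩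
  by_cases h1 : i ≤ -(V : ℤ)
  · exact (min_le_left _ _).trans (hlow i h1)
  by_cases h2 : (V : ℤ) ≤ i
  · exact (min_le_left _ _).trans (hhigh i h2)
  · exact (min_le_right _ _).trans (hj i (Finset.mem_Icc.2 ⟨by omega, by omega⟩))

end Crest.Agent.S0137
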