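import Crest.Statements.S0137
import Crest.Agent.S0137_Base

set_option autoImplicit false
open MeasureTheory Crest.AnalysisR
open Crest Crest.AnalysisR

namespace Crest.Agent.S0137

lemma eventually_W0 (β : ℝ) (hβ : 1 < β) (c0 : ℝ) :
    ∀ᶠ W : ℕ in Filter.atTop, 1 ≤ W ∧ 2 ≤ β ^ W ∧
      (Real.pi / c0 + Real.pi ^ 2) * ((β ^ W)⁻¹ * β / (β - 1)) ≤ 1 / 16 ∧
      Real.pi * (β ^ W)⁻¹ ≤ 2 / (5 * W) := by
  have h1 : Filter.Tendsto (fun W : ℕ => β ^ W) Filter.atTop Filter.atTop :=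
    tendsto_pow_atTop_atTop_of_one_lt hβ
  have h2 : Filter.Tendsto (fun W : ℕ => (β ^ W)⁻¹) Filter.atTop (nhds 0) :=
    tendsto_inv_atTop_zero.comp h1
  have h3 : Filter.Tendsto (fun W : ℕ => (Real.pi / c0 + Real.pi ^ 2) * ((β ^ W)⁻¹ * β / (β - 1)))
      Filter.atTop (nhds 0) := by
    have := ((h2.mul_const β).div_const (β - 1)).const_mul (Real.pi / c0 + Real.pi ^ 2)
    simpa using this
  have h4 : Filter.Tendsto (fun W : ℕ => (W : ℝ) ^ 1 / β ^ W) Filter.atTop (nhds 0) :=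
    tendsto_pow_const_div_const_pow_of_one_lt 1 hβ
  filter_upwards [Filter.eventually_ge_atTop 1, h1.eventually_ge_atTop 2,
    h3.eventually_le_const (by norm_num : (0 : ℝ) < 1 / 16),
    h4.eventually_le_const (by norm_num : (0 : ℝ) < 1 / 10)] with W hW1 hW2 hW3 hW4
  refine ⟨hW1, hW2, hW3, ?_⟩
  have hWr : (1 : ℝ) ≤ W := by exact_mod_cast hW1
  have hβW : 0 < β ^ W := by positivity
  rw [pow_one, div_le_iff₀ hβW] at hW4
  rw [← div_eq_mul_inv, div_le_div_iff₀ hβW (by positivity)]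
  have := Real.pi_lt_four
  nlinarith [Real.pi_pos]

lemma base_good (β : ℝ) (hβ : 1 < β) (ω : ℂ) (hω : ‖ω‖ = 1)
    (hint0 : ∀ i : ℤ, ∃ z : ℤ, β ^ i + β ^ (-i) + 2 * (ω ^ i).re = z)
    (hI : ∀ i : ℤ, IsIntegral ℤ (β ^ i)) :
    ∃ c0 : ℝ, 0 < c0 ∧ ∃ W0 : ℕ, (∀ W : ℕ, W0 ≤ W → 1 ≤ W ∧ 2 ≤ β ^ W ∧
      (Real.pi / c0 + Real.pi ^ 2) * ((β ^ W)⁻¹ * β / (β - 1)) ≤ 1 / 16 ∧
      Real.pi * (β ^ W)⁻¹ ≤ 2 / (5 * W)) ∧
      ∀ T : ℝ, ∃ D B : ℝ, T ≤ D ∧ 1 ≤ B ∧ Good β ω c0 W0 D B := by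
  have hβ0 : 0 < β := by linarith
  have hβ0' : β ≠ 0 := hβ0.ne'
  have hpi := Real.pi_pos
  have hpi4 := Real.pi_lt_four
  have hpi35 : Real.pi < 3.5 := by linarith [Real.pi_lt_d2]
  obtain ⟨q0, hq01, -, hq0⟩ := dirichlet ω hω 70 (by norm_num)
  have hT1 : IntT β ω 1 1 1 := by
    intro i
    obtain ⟨z, hz⟩ := hint0 i
    exact ⟨z, by rw [← hz]; ring⟩
  have hT0 := hT1.step hβ hω q0
  set a := 1 * (β ^ q0 - 1) with ha
  set a2 := 1 * ((β ^ q0)⁻¹ - 1) with ha2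
  set a1 := 1 * (ω ^ q0 - 1) with ha1
  have ha1n : ‖a1‖ ≤ 1 / 10 := by
    rw [ha1, one_mul]
    refine hq0.trans ?_
    rw [div_le_div_iff₀ (by positivity) (by norm_num)]
    push_cast
    linarith
  have hapos : 0 < a := by
    rw [ha, one_mul]
    have := one_lt_pow₀ hβ (by omega : q0 ≠ 0)
    linarith
  have hne1 : ∀ i : ℤ, Real.cos (Real.pi * (a * β ^ i)) ≠ 0 := by
    intro i
    apply cos_ne_zero_of_integral
    have : a * β ^ i = β ^ ((q0 : ℤ) + i) - β ^ i := by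
      rw [ha, zpow_add₀ hβ0', zpow_natCast]; ring
    rw [this]
    exact (hI _).sub (hI _)
  have hne2 : ∀ i : ℤ, Real.cos (Real.pi * (a2 * β ^ i)) ≠ 0 := by
    intro i
    apply cos_ne_zero_of_integral
    have : a2 * β ^ i = β ^ (-(q0 : ℤ) + i) - β ^ i := by
      rw [ha2, zpow_add₀ hβ0', zpow_neg, zpow_natCast]; ring
    rw [this]
    exact (hI _).sub (hI _)
  obtain ⟨ca, hca0, hca⟩ := cmin_exists β hβ ω hω a a2 a1 hT0 ha1n hne1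
  obtain ⟨cb, hcb0, hcb⟩ := cmin_exists β hβ ω hω a2 a ((starRingEnd ℂ) a1) (hT0.swap hω)
    (by rw [RCLike.norm_conj]; exact ha1n) hne2
  set cc := min ca cb with hcc
  have hcc0 : 0 < cc := lt_min hca0 hcb0
  have hcca : ∀ i : ℤ, cc ≤ |Real.cos (Real.pi * (a * β ^ i))| :=
    fun i => (min_le_left _ _).trans (hca i)
  have hccb : ∀ i : ℤ, cc ≤ |Real.cos (Real.pi * (a2 * β ^ i))| :=
    fun i => (min_le_right _ _).trans (hcb i)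
  have hcc1 : cc ≤ 1 := (hcca 0).trans (Real.abs_cos_le_one _)
  obtain ⟨W0, hW0⟩ := Filter.eventually_atTop.1 (eventually_W0 β hβ (cc / 4))
  refine ⟨cc / 4, by positivity, W0, hW0, fun T => ?_⟩
  -- choose Wb
  have htop : Filter.Tendsto (fun W : ℕ => β ^ W) Filter.atTop Filter.atTop :=
    tendsto_pow_atTop_atTop_of_one_lt hβ
  obtain ⟨Wb, hWb0, hWba, hWba2, hWbc, hWb1⟩ : ∃ Wb : ℕ, W0 ≤ Wb ∧ |a| ≤ β ^ Wb ∧ |a2| ≤ β ^ Wb ∧
      Real.pi * 16 / cc ≤ β ^ Wb ∧ 1 / a + 1 ≤ β ^ Wb := by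
    have := (Filter.eventually_ge_atTop W0).and ((htop.eventually_ge_atTop |a|).and
      ((htop.eventually_ge_atTop |a2|).and ((htop.eventually_ge_atTop (Real.pi * 16 / cc)).and
      (htop.eventually_ge_atTop (1 / a + 1)))))
    exact this.exists
  obtain ⟨hWb1', hWb2, -, -⟩ := hW0 Wb hWb0
  have hWbr : (1 : ℝ) ≤ Wb := by exact_mod_cast hWb1'
  have hβWb : 0 < β ^ Wb := by positivity
  have hWbc' : Real.pi * (β ^ Wb)⁻¹ ≤ cc / 16 := by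
    rw [← div_eq_mul_inv, div_le_div_iff₀ hβWb (by norm_num)]
    rw [div_le_iff₀ hcc0] at hWbc
    linarith
  -- choose Q
  obtain ⟨Q, hQ⟩ := exists_nat_ge (1 + 16 * 31360 * (Wb : ℝ) ^ 2 / cc + 3920 * (Wb : ℝ) ^ 2 * |T|
    + 25 ^ 4 * 3920 ^ 3 * (Wb : ℝ) ^ 10)
  have hQ1 : (1 : ℝ) ≤ Q := by
    refine le_trans ?_ hQ
    have h1 : 0 ≤ 16 * 31360 * (Wb : ℝ) ^ 2 / cc := by positivity
    have h2 : 0 ≤ 3920 * (Wb : ℝ) ^ 2 * |T| := by positivity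
    have h3 : 0 ≤ 25 ^ 4 * 3920 ^ 3 * (Wb : ℝ) ^ 10 := by positivity
    linarith
  have hQa : 16 * 31360 * (Wb : ℝ) ^ 2 / cc ≤ Q := by
    refine le_trans ?_ hQ
    have h2 : 0 ≤ 3920 * (Wb : ℝ) ^ 2 * |T| := by positivity
    have h3 : 0 ≤ 25 ^ 4 * 3920 ^ 3 * (Wb : ℝ) ^ 10 := by positivity
    linarith
  have hQb : 3920 * (Wb : ℝ) ^ 2 * |T| ≤ Q := by
    refine le_trans ?_ hQ
    have h1 : 0 ≤ 16 * 31360 * (Wb : ℝ) ^ 2 / cc := by positivity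
    have h3 : 0 ≤ 25 ^ 4 * 3920 ^ 3 * (Wb : ℝ) ^ 10 := by positivity
    linarith
  have hQc : 25 ^ 4 * 3920 ^ 3 * (Wb : ℝ) ^ 10 ≤ Q := by
    refine le_trans ?_ hQ
    have h1 : 0 ≤ 16 * 31360 * (Wb : ℝ) ^ 2 / cc := by positivity
    have h2 : 0 ≤ 3920 * (Wb : ℝ) ^ 2 * |T| := by positivity
    linarith
  have hQpos : 0 < Q := by
    have : (0 : ℝ) < Q := by linarith
    exact_mod_cast this
  have hQr : (0 : ℝ) < Q := by linarith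
  have hQsq : (Q : ℝ) ≤ (Q : ℝ) ^ 2 := le_self_pow₀ hQ1 (by norm_num)
  obtain ⟨q, hq1, hqQ, hq⟩ := dirichlet ω hω Q hQpos
  have hq7 : ‖ω ^ q - 1‖ ≤ 7 / Q := by
    refine hq.trans ?_
    rw [div_le_div_iff₀ (by positivity) hQr]
    nlinarith
  -- step 1
  set N1 := 4 * Wb * q with hN1
  set N2 := 20 * Wb * q with hN2
  have hn1 : ‖ω ^ N1 - 1‖ ≤ 28 * Wb / Q := by
    refine (norm_pow_mul_sub_one_le ω hω (4 * Wb) q).trans ?_
    push_cast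
    calc 4 * (Wb : ℝ) * ‖ω ^ q - 1‖ ≤ 4 * Wb * (7 / Q) := by gcongr
      _ = _ := by ring
  have hn2 : ‖ω ^ N2 - 1‖ ≤ 140 * Wb / Q := by
    refine (norm_pow_mul_sub_one_le ω hω (20 * Wb) q).trans ?_
    push_cast
    calc 20 * (Wb : ℝ) * ‖ω ^ q - 1‖ ≤ 20 * Wb * (7 / Q) := by gcongr
      _ = _ := by ring
  have hd1 : ‖a1 * (ω ^ N1 - 1)‖ ≤ 28 * Wb / Q := by
    rw [norm_mul]
    calc ‖a1‖ * ‖ω ^ N1 - 1‖ ≤ 1 * (28 * Wb / Q) :=
          mul_le_mul (by linarith) hn1 (norm_nonneg _) zero_le_one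
      _ = _ := one_mul _
  have hd2 : ‖a1 * (ω ^ N1 - 1) * (ω ^ N2 - 1)‖ ≤ 3920 * Wb ^ 2 / Q ^ 2 := by
    rw [norm_mul]
    calc ‖a1 * (ω ^ N1 - 1)‖ * ‖ω ^ N2 - 1‖ ≤ (28 * Wb / Q) * (140 * Wb / Q) :=
          mul_le_mul hd1 hn2 (norm_nonneg _) (by positivity)
      _ = _ := by field_simp; norm_num
  have hN1ge : 4 * Wb ≤ N1 := Nat.le_mul_of_pos_right _ (by omega)
  obtain ⟨hs1, hs2⟩ := cmin_both β hβ ω hω a a2 a1 hT0 Wb N1 (28 * Wb / Q) cc hWba hWba2 hN1ge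
    hd1 hcca hccb
  have hT1' := hT0.step hβ hω N1
  have hpow1 : ∀ n : ℕ, (1 : ℝ) ≤ β ^ n := fun n => one_le_pow₀ hβ.le
  have habs1 : ∀ n : ℕ, |β ^ n - 1| ≤ β ^ n := fun n => by
    rw [abs_of_nonneg (by linarith [hpow1 n])]; linarith
  have habs2 : ∀ n : ℕ, |(β ^ n)⁻¹ - 1| ≤ 1 := fun n => by
    have h2 : (β ^ n)⁻¹ ≤ 1 := inv_le_one_of_one_le₀ (hpow1 n)
    have h3 : 0 < (β ^ n)⁻¹ := by positivity
    rw [abs_le]; constructor <;> linarith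
  have hWbq : Wb ≤ Wb * q := Nat.le_mul_of_pos_right _ (by omega)
  have hN1' : N1 = 4 * (Wb * q) := by rw [hN1]; ring
  have hN2' : N2 = 20 * (Wb * q) := by rw [hN2]; ring
  have hW1a : |a * (β ^ N1 - 1)| ≤ β ^ (5 * (Wb * q)) := by
    rw [abs_mul]
    calc |a| * |β ^ N1 - 1| ≤ β ^ Wb * β ^ N1 :=
          mul_le_mul hWba (habs1 _) (abs_nonneg _) (by positivity)
      _ = β ^ (Wb + N1) := by rw [pow_add]
      _ ≤ β ^ (5 * (Wb * q)) := pow_le_pow_right₀ hβ.le (by omega)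
  have hW1a2 : |a2 * ((β ^ N1)⁻¹ - 1)| ≤ β ^ (5 * (Wb * q)) := by
    rw [abs_mul]
    calc |a2| * |(β ^ N1)⁻¹ - 1| ≤ β ^ Wb * 1 :=
          mul_le_mul hWba2 (habs2 _) (abs_nonneg _) (by positivity)
      _ = β ^ Wb := mul_one _
      _ ≤ β ^ (5 * (Wb * q)) := pow_le_pow_right₀ hβ.le (by omega)
  obtain ⟨hs3, hs4⟩ := cmin_both β hβ ω hω _ _ _ hT1' (5 * (Wb * q)) N2 (3920 * Wb ^ 2 / Q ^ 2) _
    hW1a hW1a2 (by omega) hd2 hs1 hs2
  have hT2 := hT1'.step hβ hω N2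
  set A := a * (β ^ N1 - 1) * (β ^ N2 - 1) with hA
  set A2 := a2 * ((β ^ N1)⁻¹ - 1) * ((β ^ N2)⁻¹ - 1) with hA2
  set A1 := a1 * (ω ^ N1 - 1) * (ω ^ N2 - 1) with hA1
  set Wf := 25 * (Wb * Q) with hWf
  have hqQ' : Wb * q ≤ Wb * Q := Nat.mul_le_mul_left _ hqQ
  have hAW : |A| ≤ β ^ Wf := by
    rw [hA, abs_mul]
    calc |a * (β ^ N1 - 1)| * |β ^ N2 - 1| ≤ β ^ (5 * (Wb * q)) * β ^ N2 :=
          mul_le_mul hW1a (habs1 _) (abs_nonneg _) (by positivity)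
      _ = β ^ (5 * (Wb * q) + N2) := by rw [pow_add]
      _ ≤ β ^ Wf := pow_le_pow_right₀ hβ.le (by omega)
  have hA2W : |A2| ≤ β ^ Wf := by
    rw [hA2, abs_mul]
    calc |a2 * ((β ^ N1)⁻¹ - 1)| * |(β ^ N2)⁻¹ - 1| ≤ β ^ (5 * (Wb * q)) * 1 :=
          mul_le_mul hW1a2 (habs2 _) (abs_nonneg _) (by positivity)
      _ = β ^ (5 * (Wb * q)) := mul_one _
      _ ≤ β ^ Wf := pow_le_pow_right₀ hβ.le (by omega)
  set D : ℝ := Q ^ 2 / (3920 * Wb ^ 2) with hD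
  have hDpos : 0 < D := by positivity
  have hA1D : ‖A1‖ ≤ 1 / D := by
    rw [hD, one_div_div]; exact hd2
  -- the constant
  set cf := cc / 4 + 1 / (Wf : ℝ) with hcf
  have hWfr : (Wf : ℝ) = 25 * (Wb * Q) := by rw [hWf]; push_cast; ring
  have hfin : cf ≤ cc - Real.pi * ((β ^ Wb)⁻¹ + 2 * (28 * Wb / Q))
      - Real.pi * ((β ^ (5 * (Wb * q)))⁻¹ + 2 * (3920 * Wb ^ 2 / Q ^ 2)) := by
    have e0 : 16 * 31360 * (Wb : ℝ) ^ 2 ≤ Q * cc := by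
      rwa [div_le_iff₀ hcc0] at hQa
    have hWsq : (Wb : ℝ) ≤ (Wb : ℝ) ^ 2 := le_self_pow₀ hWbr (by norm_num)
    have e1 : (β ^ (5 * (Wb * q)))⁻¹ ≤ (β ^ Wb)⁻¹ := by
      apply inv_anti₀ hβWb
      exact pow_le_pow_right₀ hβ.le (by omega)
    have e2 : Real.pi * (β ^ (5 * (Wb * q)))⁻¹ ≤ cc / 16 :=
      (mul_le_mul_of_nonneg_left e1 hpi.le).trans hWbc'
    have e3 : Real.pi * (2 * (28 * Wb / Q)) ≤ cc / 16 := by
      have h1 : Real.pi * (2 * (28 * Wb / Q)) ≤ 4 * (2 * (28 * Wb / Q)) := by gcongr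
      refine h1.trans ?_
      rw [show (4 : ℝ) * (2 * (28 * Wb / Q)) = (224 * Wb) / Q by ring,
        div_le_div_iff₀ hQr (by norm_num)]
      linarith
    have e4 : Real.pi * (2 * (3920 * Wb ^ 2 / Q ^ 2)) ≤ cc / 16 := by
      have h1 : Real.pi * (2 * (3920 * Wb ^ 2 / Q ^ 2)) ≤ 4 * (2 * (3920 * Wb ^ 2 / Q ^ 2)) := by
        gcongr
      refine h1.trans ?_
      rw [show (4 : ℝ) * (2 * (3920 * Wb ^ 2 / Q ^ 2)) = (31360 * Wb ^ 2) / Q ^ 2 by ring,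
        div_le_div_iff₀ (by positivity) (by norm_num)]
      have h2 : Q * cc ≤ cc * Q ^ 2 := by
        rw [mul_comm]; gcongr
      linarith
    have e5 : 1 / (Wf : ℝ) ≤ cc / 16 := by
      rw [hWfr, div_le_div_iff₀ (by positivity) (by norm_num)]
      have h1 : (1 : ℝ) ≤ (Wb : ℝ) ^ 2 := one_le_pow₀ hWbr
      have h2 : (1 : ℝ) * (Q * cc) ≤ Wb * (Q * cc) := by gcongr
      nlinarith
    rw [hcf]
    rw [mul_add Real.pi, mul_add Real.pi]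
    linarith
  have hcfpos : 0 < cf := by positivity
  have hPA : ∀ i : ℤ, cf ≤ |Real.cos (Real.pi * (A * β ^ i))| := fun i => hfin.trans (hs3 i)
  have hPA2 : ∀ i : ℤ, cf ≤ |Real.cos (Real.pi * (A2 * β ^ i))| := fun i => hfin.trans (hs4 i)
  obtain ⟨B1, hB1, hPr1⟩ := Pr_of_cmin β hβ A (D ^ 2 / 160) cf hcfpos Wf hAW hPA
  obtain ⟨B2, hB2, hPr2⟩ := Pr_of_cmin β hβ A2 (D ^ 2 / 160) cf hcfpos Wf hA2W hPA2
  refine ⟨D, max B1 B2, ?_, le_max_of_le_left hB1, A, A2, A1, Wf, hT2, ?_, hAW, hA2W, hA1D, ?_, ?_,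
    hPr1.mono le_rfl (by linarith) (le_max_left _ _),
    hPr2.mono le_rfl (by linarith) (le_max_right _ _)⟩
  · -- T ≤ D
    refine (le_abs_self T).trans ?_
    rw [hD, le_div_iff₀ (by positivity)]
    calc |T| * (3920 * (Wb : ℝ) ^ 2) = 3920 * (Wb : ℝ) ^ 2 * |T| := by ring
      _ ≤ (Q : ℝ) := hQb
      _ ≤ (Q : ℝ) ^ 2 := hQsq
  · -- 1 ≤ A
    have h1 : 1 ≤ a * (β ^ N1 - 1) := by
      have h2 : β ^ Wb ≤ β ^ N1 := pow_le_pow_right₀ hβ.le (by omega)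
      have h3 : 1 / a ≤ β ^ N1 - 1 := by linarith
      calc (1 : ℝ) = a * (1 / a) := by field_simp
        _ ≤ a * (β ^ N1 - 1) := by gcongr
    have h2 : 1 ≤ β ^ N2 - 1 := by
      have h2 : β ^ Wb ≤ β ^ N2 := pow_le_pow_right₀ hβ.le (by omega)
      linarith
    calc (1 : ℝ) = 1 * 1 := by norm_num
      _ ≤ a * (β ^ N1 - 1) * (β ^ N2 - 1) := by gcongr
  · -- W^4 ≤ D^3
    rw [hWfr, hD, div_pow, le_div_iff₀ (by positivity)]
    calc (25 * ((Wb : ℝ) * Q)) ^ 4 * (3920 * (Wb : ℝ) ^ 2) ^ 3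
        = (25 ^ 4 * 3920 ^ 3 * (Wb : ℝ) ^ 10) * (Q : ℝ) ^ 4 := by ring
      _ ≤ Q * (Q : ℝ) ^ 4 := by gcongr
      _ ≤ Q ^ 2 * (Q : ℝ) ^ 4 := by gcongr
      _ = ((Q : ℝ) ^ 2) ^ 3 := by ring
  · have : Wb ≤ Wb * Q := Nat.le_mul_of_pos_right _ hQpos
    omega

/-- Let β be a Salem number of degree four with 1 < β < 2: an algebraic integer whose minimal polynomial over ℚ has degree 4, has β⁻¹ as a root, and has its remaining complex roots on the unit circle. Then the unbiased Bernoulli convolution with parameter β⁻¹ — the distribution of ∑ₙ ±β⁻ⁿ with independent fair signs, built as the push-forward of the infinite product of fair coins — is singular with respect to Lebesgue measure on the line. -/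
theorem result
    (β : ℝ) (hβ : IsQuarticSalem β) (hβ₂ : β < 2) :
    (bernoulliConvolution β⁻¹).MutuallySingular (volume : Measure ℝ) := by
  have hβ1 : 1 < β := hβ.1
  obtain ⟨ω, hω, hint⟩ := salem_data β hβ
  obtain ⟨c0, hc0, W0, hW0, hbase⟩ := base_good β hβ1 ω hω hint (salem_integral β hβ)
  apply singular_of_good hβ1 ω hω c0 W0
  intro T
  obtain ⟨D, B, hD, hB, hG⟩ := hbase (max (10 ^ 120)
    (32 * Real.pi * (4 + Real.pi / (β - 1)) / c0))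
  exact good_final β hβ1 ω hω c0 hc0 W0 hW0 D B ((le_max_left _ _).trans hD)
    ((le_max_right _ _).trans hD) hB hG T

end Crest.Agent.S0137
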