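import Mathlib
import Crest.Prelude.Def_BernoulliConv

set_option autoImplicit false

namespace Crest.Agent.S0137

open MeasureTheory ProbabilityTheory Filter Topology Crest.AnalysisR

instance : IsProbabilityMeasure fairCoin := by
  constructor
  simp only [fairCoin, Measure.coe_add, Measure.coe_smul, Pi.add_apply, Pi.smul_apply,
    measure_univ, smul_eq_mul, mul_one]
  exact ENNReal.inv_two_add_inv_two

noncomputable abbrev coinP : Measure (ℕ → Bool) := Measure.infinitePi (fun _ : ℕ => fairCoin)

lemma bernoulli_eq (c : ℝ) : bernoulliConvolution c = coinP.map (signedPowerSum c) := rfl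

noncomputable def sgnTerm (c : ℝ) (n : ℕ) (b : Bool) : ℝ := if b then c ^ n else -(c ^ n)

lemma summable_sgn {c : ℝ} (hc0 : 0 < c) (hc1 : c < 1) (ε : ℕ → Bool) :
    Summable (fun n => sgnTerm c n (ε n)) := by
  apply Summable.of_norm_bounded (summable_geometric_of_lt_one hc0.le hc1)
  intro n
  unfold sgnTerm
  split_ifs
  · simp [abs_of_pos hc0]
  · simp [abs_of_pos hc0]

lemma measurable_sgnTerm (c : ℝ) (n : ℕ) : Measurable (sgnTerm c n) := measurable_of_finite _

lemma measurable_signedPowerSum {c : ℝ} (hc0 : 0 < c) (hc1 : c < 1) :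
    Measurable (signedPowerSum c) := by
  apply measurable_of_tendsto_metrizable (f := fun (n : ℕ) (ε : ℕ → Bool) =>
    ∑ i ∈ Finset.range n, sgnTerm c i (ε i))
  · intro n
    exact Finset.measurable_fun_sum _ fun i _ => (measurable_sgnTerm c i).comp (measurable_pi_apply i)
  · rw [tendsto_pi_nhds]
    intro ε
    exact (summable_sgn hc0 hc1 ε).hasSum.tendsto_sum_nat

lemma charFun_term (c t : ℝ) (n : ℕ) :
    charFun (coinP.map (fun ε : ℕ → Bool => sgnTerm c n (ε n))) t = (Real.cos (t * c ^ n) : ℂ) := by
  have h1 : coinP.map (fun ε : ℕ → Bool => sgnTerm c n (ε n)) = fairCoin.map (sgnTerm c n) := by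
    rw [← Measure.infinitePi_map_eval (fun _ : ℕ => fairCoin) n,
      Measure.map_map (measurable_sgnTerm c n) (measurable_pi_apply n)]
    rfl
  rw [h1, charFun_apply_real, integral_map (measurable_sgnTerm c n).aemeasurable
    (by fun_prop)]
  rw [fairCoin, integral_add_measure, integral_smul_measure, integral_smul_measure,
    integral_dirac, integral_dirac]
  · simp only [sgnTerm]
    simp only [ENNReal.toReal_inv, ENNReal.toReal_ofNat, if_true, Bool.false_eq_true, if_false]
    push_cast
    rw [Complex.cos]
    rw [show (t : ℂ) * -(c : ℂ) ^ n * Complex.I = -((t : ℂ) * (c : ℂ) ^ n) * Complex.I by ring]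
    simp only [Complex.real_smul]
    push_cast
    ring
  · exact Integrable.smul_measure Integrable.of_finite (by simp)
  · exact Integrable.smul_measure Integrable.of_finite (by simp)

lemma charFun_partial (c t : ℝ) (n : ℕ) :
    charFun (coinP.map (fun ε : ℕ → Bool => ∑ i ∈ Finset.range n, sgnTerm c i (ε i))) t
      = ((∏ i ∈ Finset.range n, Real.cos (t * c ^ i) : ℝ) : ℂ) := by
  have hind : iIndepFun (fun (i : ℕ) (ε : ℕ → Bool) => sgnTerm c i (ε i)) coinP :=
    iIndepFun_infinitePi (fun i => measurable_sgnTerm c i)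
  have h := iIndepFun.charFun_map_fun_finsetSum_eq_prod (s := Finset.range n)
    (X := fun (i : ℕ) (ε : ℕ → Bool) => sgnTerm c i (ε i)) (P := coinP)
    (fun i _ => ((measurable_sgnTerm c i).comp (measurable_pi_apply i)).aemeasurable)
    (hind.restrict _)
  rw [h, Finset.prod_apply]
  push_cast
  refine Finset.prod_congr rfl fun i _ => ?_
  rw [charFun_term]
  push_cast
  rfl

lemma tendsto_prod_cos {c : ℝ} (hc0 : 0 < c) (hc1 : c < 1) (t : ℝ) :
    Tendsto (fun n : ℕ => ∏ i ∈ Finset.range n, Real.cos (t * c ^ i)) atTop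
      (𝓝 (∫ x, Real.cos (t * x) ∂(bernoulliConvolution c))) := by
  have h1 : Tendsto (fun n : ℕ => ∫ ε : ℕ → Bool,
      Real.cos (t * ∑ i ∈ Finset.range n, sgnTerm c i (ε i)) ∂coinP) atTop
      (𝓝 (∫ ε : ℕ → Bool, Real.cos (t * signedPowerSum c ε) ∂coinP)) := by
    apply tendsto_integral_of_dominated_convergence (fun _ => (1 : ℝ))
    · intro n
      apply Measurable.aestronglyMeasurable
      apply Real.measurable_cos.comp
      apply Measurable.const_mul
      exact Finset.measurable_fun_sum _ fun i _ =>
        (measurable_sgnTerm c i).comp (measurable_pi_apply i)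
    · exact integrable_const _
    · intro n
      exact Eventually.of_forall fun ε => by
        rw [Real.norm_eq_abs]; exact Real.abs_cos_le_one _
    · refine Eventually.of_forall fun ε => ?_
      apply (Real.continuous_cos.tendsto _).comp
      apply Tendsto.const_mul
      exact (summable_sgn hc0 hc1 ε).hasSum.tendsto_sum_nat
  have h2 : ∫ x, Real.cos (t * x) ∂(bernoulliConvolution c)
      = ∫ ε : ℕ → Bool, Real.cos (t * signedPowerSum c ε) ∂coinP := by
    rw [bernoulli_eq, integral_map (measurable_signedPowerSum hc0 hc1).aemeasurable]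
    exact (Real.continuous_cos.comp (continuous_const.mul continuous_id)).aestronglyMeasurable
  rw [h2]
  refine h1.congr fun n => ?_
  have h3 := charFun_partial c t n
  have hmeas : Measurable (fun ε : ℕ → Bool => ∑ i ∈ Finset.range n, sgnTerm c i (ε i)) :=
    Finset.measurable_fun_sum _ fun i _ => (measurable_sgnTerm c i).comp (measurable_pi_apply i)
  rw [charFun_apply_real, integral_map hmeas.aemeasurable (by fun_prop)] at h3
  have h4 := congrArg Complex.re h3
  rw [Complex.ofReal_re] at h4
  rw [← h4]
  have h5 : ∫ ε : ℕ → Bool, Complex.exp (t * (∑ i ∈ Finset.range n, sgnTerm c i (ε i) : ℝ) * Complex.I) ∂coinP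
      = ∫ ε : ℕ → Bool, Complex.exp (((t * (∑ i ∈ Finset.range n, sgnTerm c i (ε i)) : ℝ) : ℂ) * Complex.I) ∂coinP := by
    congr 1; ext ε; push_cast; rfl
  rw [h5]
  rw [← RCLike.re_eq_complex_re, ← integral_re]
  · refine integral_congr_ae (Eventually.of_forall fun ε => ?_)
    simp only [RCLike.re_eq_complex_re]
    rw [Complex.exp_ofReal_mul_I_re]
  · apply Integrable.mono' (g := fun _ => (1 : ℝ)) (integrable_const _)
    · apply Measurable.aestronglyMeasurable
      fun_prop
    · exact Eventually.of_forall fun ε => by rw [Complex.norm_exp_ofReal_mul_I]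

end Crest.Agent.S0137
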