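import Mathlib

set_option autoImplicit false

namespace Crest.Agent.S0137

open Real

/-- perturbing the argument of a cosine. -/
lemma abs_cos_pert (y e c : ℝ) (hc : 0 < c) (hy : c ≤ |cos (π * y)|) :
    |cos (π * y)| * (1 - (π * |e| * |sin (π * y)| / c + π ^ 2 * e ^ 2 / 2))
      ≤ |cos (π * (y + e))| := by
  have h0 : cos (π * (y + e)) = cos (π * y) * cos (π * e) - sin (π * y) * sin (π * e) := by
    rw [mul_add, cos_add]
  have h1 : |cos (π * y) * cos (π * e)| - |sin (π * y) * sin (π * e)| ≤ |cos (π * (y + e))| := by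
    rw [h0]; exact abs_sub_abs_le_abs_sub _ _
  rw [abs_mul, abs_mul] at h1
  have h2 : 1 - π ^ 2 * e ^ 2 / 2 ≤ |cos (π * e)| := by
    have := one_sub_sq_div_two_le_cos (x := π * e)
    have h3 := le_abs_self (cos (π * e))
    nlinarith
  have h3 : |sin (π * e)| ≤ π * |e| := by
    have := abs_sin_le_abs (x := π * e)
    rwa [abs_mul, abs_of_pos pi_pos] at this
  have h4 : |sin (π * y)| * |sin (π * e)| ≤ |sin (π * y)| * (π * |e|) :=
    mul_le_mul_of_nonneg_left h3 (abs_nonneg _)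
  have h5 : |sin (π * y)| * (π * |e|) ≤ |cos (π * y)| * (π * |e| * |sin (π * y)| / c) := by
    have h6 : 0 ≤ π * |e| * |sin (π * y)| / c := by positivity
    have h7 := mul_le_mul_of_nonneg_right hy h6
    have h8 : c * (π * |e| * |sin (π * y)| / c) = |sin (π * y)| * (π * |e|) := by
      field_simp
    linarith
  have h6 : |cos (π * y)| * (1 - π ^ 2 * e ^ 2 / 2) ≤ |cos (π * y)| * |cos (π * e)| :=
    mul_le_mul_of_nonneg_left h2 (abs_nonneg _)
  nlinarith

lemma abs_cos_pert' (y e c : ℝ) (hy : c ≤ |cos (π * y)|) :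
    c - π * |e| ≤ |cos (π * (y + e))| := by
  have h1 : |cos (π * y) - cos (π * (y + e))| ≤ |π * y - π * (y + e)| := by
    have := Real.abs_cos_sub_cos_le (π * y) (π * (y + e))
    exact this
  have h2 : |π * y - π * (y + e)| = π * |e| := by
    rw [show π * y - π * (y + e) = -(π * e) by ring, abs_neg, abs_mul, abs_of_pos pi_pos]
  have h3 := abs_sub_abs_le_abs_sub (cos (π * y)) (cos (π * (y + e)))
  linarith

lemma prod_ge_of_pert {ι : Type*} (S : Finset ι) (a b u : ι → ℝ)
    (hb : ∀ i ∈ S, 0 ≤ b i) (hu : ∀ i ∈ S, 0 ≤ u i)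
    (h : ∀ i ∈ S, b i * (1 - u i) ≤ a i) (hs : ∑ i ∈ S, u i ≤ 1) :
    (∏ i ∈ S, b i) * (1 - ∑ i ∈ S, u i) ≤ ∏ i ∈ S, a i := by
  classical
  induction S using Finset.induction_on with
  | empty => simp
  | insert j S hj ih =>
    rw [Finset.prod_insert hj, Finset.sum_insert hj, Finset.prod_insert hj]
    rw [Finset.sum_insert hj] at hs
    have hbj := hb j (Finset.mem_insert_self _ _)
    have huj := hu j (Finset.mem_insert_self _ _)
    have haj := h j (Finset.mem_insert_self _ _)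
    have hSn : 0 ≤ ∑ i ∈ S, u i :=
      Finset.sum_nonneg fun i hi => hu i (Finset.mem_insert_of_mem hi)
    have hbS : 0 ≤ ∏ i ∈ S, b i :=
      Finset.prod_nonneg fun i hi => hb i (Finset.mem_insert_of_mem hi)
    have ih' := ih (fun i hi => hb i (Finset.mem_insert_of_mem hi))
      (fun i hi => hu i (Finset.mem_insert_of_mem hi))
      (fun i hi => h i (Finset.mem_insert_of_mem hi)) (by linarith)
    have h1 : 0 ≤ b j * (1 - u j) := mul_nonneg hbj (by linarith)
    have h2 : 0 ≤ (∏ i ∈ S, b i) * (1 - ∑ i ∈ S, u i) := mul_nonneg hbS (by linarith)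
    calc b j * (∏ i ∈ S, b i) * (1 - (u j + ∑ i ∈ S, u i))
        ≤ (b j * (1 - u j)) * ((∏ i ∈ S, b i) * (1 - ∑ i ∈ S, u i)) := by
          have : 0 ≤ b j * (∏ i ∈ S, b i) * (u j * ∑ i ∈ S, u i) := by positivity
          nlinarith
      _ ≤ a j * ∏ i ∈ S, a i := mul_le_mul haj ih' h2 (le_trans h1 haj)

lemma sum_zpow_Ico (β : ℝ) (hβ : 1 < β) (m : ℤ) (n : ℕ) :
    ∑ i ∈ Finset.Ico (m - n) m, β ^ i ≤ (β ^ m - β ^ (m - n)) / (β - 1) := by
  have hβ0 : β ≠ 0 := by positivity
  have hβ1 : 0 < β - 1 := by linarith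
  induction n with
  | zero => simp
  | succ n ih =>
    have h1 : Finset.Ico (m - (n + 1 : ℕ)) m
        = insert (m - (n + 1 : ℕ)) (Finset.Ico (m - (n : ℤ)) m) := by
      ext x
      simp only [Finset.mem_Ico, Finset.mem_insert]
      push_cast
      omega
    rw [h1, Finset.sum_insert (by rw [Finset.mem_Ico]; push_cast; omega)]
    have h2 : β ^ (m - (n : ℤ)) = β * β ^ (m - ((n + 1 : ℕ) : ℤ)) := by
      rw [← zpow_one_add₀ hβ0]; congr 1; push_cast; ring
    rw [h2] at ih
    rw [le_div_iff₀ hβ1] at ih ⊢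
    nlinarith

lemma sum_zpow_lt (β : ℝ) (hβ : 1 < β) (S : Finset ℤ) (m : ℤ) (h : ∀ i ∈ S, i < m) :
    ∑ i ∈ S, β ^ i ≤ β ^ m / (β - 1) := by
  have hβ0 : 0 < β := by positivity
  have hβ1 : 0 < β - 1 := by linarith
  obtain ⟨n, hn⟩ : ∃ n : ℕ, S ⊆ Finset.Ico (m - n) m := by
    rcases S.eq_empty_or_nonempty with rfl | hS
    · exact ⟨0, by simp⟩
    · refine ⟨(m - S.min' hS).toNat, fun i hi => ?_⟩
      have h1 := S.min'_le i hi
      have h2 := h i hi
      rw [Finset.mem_Ico]
      omega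
  calc ∑ i ∈ S, β ^ i ≤ ∑ i ∈ Finset.Ico (m - (n : ℤ)) m, β ^ i :=
        Finset.sum_le_sum_of_subset_of_nonneg hn fun i _ _ => by positivity
    _ ≤ (β ^ m - β ^ (m - n)) / (β - 1) := sum_zpow_Ico β hβ m n
    _ ≤ β ^ m / (β - 1) := by
        gcongr
        have : 0 ≤ β ^ (m - (n : ℤ)) := by positivity
        linarith

lemma sum_zpow_neg_ge (β : ℝ) (hβ : 1 < β) (S : Finset ℤ) (m : ℤ) (h : ∀ i ∈ S, m ≤ i) :
    ∑ i ∈ S, β ^ (-i) ≤ β ^ (-m) * β / (β - 1) := by
  have hβ0 : β ≠ 0 := by positivity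
  have h1 := sum_zpow_lt β hβ (S.map (Equiv.neg ℤ).toEmbedding) (-m + 1) (by
    intro i hi
    simp only [Finset.mem_map, Equiv.coe_toEmbedding, Equiv.neg_apply] at hi
    obtain ⟨j, hj, rfl⟩ := hi
    have := h j hj
    omega)
  rw [Finset.sum_map] at h1
  simp only [Equiv.coe_toEmbedding, Equiv.neg_apply] at h1
  rwa [zpow_add_one₀ hβ0] at h1


/-- `x` is good up to `M` : all cosines at least `c`, finite products up to `M` at least `1/B`. -/
def Pr (β x M c B : ℝ) : Prop :=
  (∀ i : ℤ, c ≤ |cos (π * (x * β ^ i))|) ∧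
  ∀ S : Finset ℤ, (∀ i ∈ S, (i : ℝ) ≤ M) → 1 / B ≤ ∏ i ∈ S, |cos (π * (x * β ^ i))|

/-- integrality of the triple -/
def IntT (β : ℝ) (ω : ℂ) (a a2 : ℝ) (a1 : ℂ) : Prop :=
  ∀ i : ℤ, ∃ z : ℤ, a * β ^ i + a2 * β ^ (-i) + 2 * (a1 * ω ^ i).re = z

lemma abs_cos_int_add (z : ℤ) (t : ℝ) : |cos (π * (z + t))| = |cos (π * t)| := by
  rw [show π * ((z : ℝ) + t) = π * t + z * π by ring, Real.cos_add_int_mul_pi, abs_mul]
  simp

lemma step_core (β : ℝ) (hβ : 1 < β) (ω : ℂ) (hω : ‖ω‖ = 1) (a a2 : ℝ) (a1 : ℂ)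
    (hint : IntT β ω a a2 a1) (W N : ℕ) (D D' c B : ℝ)
    (ha : |a| ≤ β ^ W) (ha2 : |a2| ≤ β ^ W) (hN : 4 * W ≤ N) (hND : (N : ℝ) ≤ D ^ 2 / 160)
    (hD' : 0 < D') (ha1 : ‖a1 * (ω ^ N - 1)‖ ≤ 1 / D') (hc : 0 < c) (hB : 0 < B)
    (h1 : Pr β a (D ^ 2 / 160) c B) (h2 : Pr β a2 (D ^ 2 / 160) c B)
    (hsmall : (π / c + π ^ 2) * ((β ^ W)⁻¹ * β / (β - 1))
      + (2 * π / (c * D')) * (3 * W + 1 + π / (β - 1))
      + 4 * π ^ 2 * ((D' ^ 2 / 160 + 2 * W + 1) / D' ^ 2) ≤ 1 / 2) :
    Pr β (a * (β ^ N - 1)) (D' ^ 2 / 160) (c - π * ((β ^ W)⁻¹ + 2 / D')) (4 * B ^ 2) := by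
  have hβ0 : 0 < β := by linarith
  have hβ0' : β ≠ 0 := hβ0.ne'
  have hβ1 : 0 < β - 1 := by linarith
  have hω0 : ω ≠ 0 := by
    intro h; rw [h] at hω; simp at hω
  have hWpos : 0 < (β ^ W)⁻¹ := by positivity
  have hW1 : (β ^ W)⁻¹ ≤ 1 := inv_le_one_of_one_le₀ (one_le_pow₀ hβ.le)
  -- first description
  have d1 : ∀ i : ℤ, a * (β ^ N - 1) * β ^ i = a * β ^ (i + N) + (-(a * β ^ i)) := by
    intro i
    rw [zpow_add₀ hβ0', zpow_natCast]; ring
  have e1 : ∀ i : ℤ, |-(a * β ^ i)| ≤ β ^ W * β ^ i := by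
    intro i
    rw [abs_neg, abs_mul, abs_of_pos (zpow_pos hβ0 i)]
    exact mul_le_mul_of_nonneg_right ha (zpow_pos hβ0 i).le
  have e1' : ∀ i : ℤ, β ^ W * β ^ i = (β ^ W)⁻¹ * β ^ (i + 2 * W) := by
    intro i
    rw [zpow_add₀ hβ0', show (2 : ℤ) * (W : ℤ) = ((2 * W : ℕ) : ℤ) by push_cast; ring,
      zpow_natCast, two_mul, pow_add]
    field_simp
  -- second description
  let E : ℤ → ℝ := fun i => -(a2 * β ^ (-(i + N))) - 2 * (a1 * (ω ^ N - 1) * ω ^ i).re
  have d2 : ∀ i : ℤ, |cos (π * (a * (β ^ N - 1) * β ^ i))|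
      = |cos (π * (a2 * β ^ (-i) + E i))| := by
    intro i
    obtain ⟨z1, hz1⟩ := hint (i + N)
    obtain ⟨z2, hz2⟩ := hint i
    have h3 : (a1 * ω ^ (i + N)).re - (a1 * ω ^ i).re = (a1 * (ω ^ N - 1) * ω ^ i).re := by
      rw [← Complex.sub_re]
      congr 1
      rw [zpow_add₀ hω0, zpow_natCast]; ring
    have h4 : a * (β ^ N - 1) * β ^ i = ((z1 - z2 : ℤ) : ℝ) + (a2 * β ^ (-i) + E i) := by
      rw [d1 i]
      simp only [E]
      push_cast
      rw [← h3, ← hz1, ← hz2]
      ring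
    rw [h4, abs_cos_int_add]
  have e2 : ∀ i : ℤ, |E i| ≤ (β ^ W)⁻¹ * β ^ (-(i + 2 * W)) + 2 / D' := by
    intro i
    have h3 : |a2 * β ^ (-(i + (N : ℤ)))| ≤ (β ^ W)⁻¹ * β ^ (-(i + 2 * W)) := by
      rw [abs_mul, abs_of_pos (zpow_pos hβ0 _)]
      calc |a2| * β ^ (-(i + (N : ℤ))) ≤ β ^ W * β ^ (-(i + (N : ℤ))) :=
            mul_le_mul_of_nonneg_right ha2 (zpow_pos hβ0 _).le
        _ = β ^ ((W : ℤ) + (-(i + (N : ℤ)))) := by rw [zpow_add₀ hβ0', zpow_natCast]
        _ ≤ β ^ (-(W : ℤ) + (-(i + 2 * W))) := zpow_le_zpow_right₀ hβ.le (by omega)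
        _ = (β ^ W)⁻¹ * β ^ (-(i + 2 * W)) := by
            rw [zpow_add₀ hβ0', zpow_neg, zpow_natCast]
    have h4 : |(a1 * (ω ^ N - 1) * ω ^ i).re| ≤ 1 / D' := by
      refine (Complex.abs_re_le_norm _).trans ?_
      rw [norm_mul, norm_zpow, hω, one_zpow, mul_one]
      exact ha1
    have h5 : |E i| ≤ |a2 * β ^ (-(i + (N : ℤ)))| + 2 * |(a1 * (ω ^ N - 1) * ω ^ i).re| := by
      simp only [E]
      calc _ ≤ |-(a2 * β ^ (-(i + (N : ℤ))))| + |2 * (a1 * (ω ^ N - 1) * ω ^ i).re| :=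
            abs_sub _ _
        _ = _ := by rw [abs_neg, abs_mul 2, abs_two]
    have h6 : 2 / D' = 2 * (1 / D') := by ring
    rw [h6]
    linarith
  refine ⟨fun i => ?_, fun S hS => ?_⟩
  · -- min part
    by_cases hi : i < -(2 * (W : ℤ))
    · have h3 := abs_cos_pert' (a * β ^ (i + N)) (-(a * β ^ i)) c (h1.1 _)
      rw [← d1 i] at h3
      have h4 : |-(a * β ^ i)| ≤ (β ^ W)⁻¹ := by
        refine (e1 i).trans ?_
        rw [e1' i]
        have : β ^ (i + 2 * (W : ℤ)) ≤ 1 := zpow_le_one_of_nonpos₀ hβ.le (by omega)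
        nlinarith
      have h5 : 0 ≤ 2 / D' := by positivity
      have h6 : π * |-(a * β ^ i)| ≤ π * ((β ^ W)⁻¹ + 2 / D') :=
        mul_le_mul_of_nonneg_left (by linarith) pi_pos.le
      linarith
    · have h3 := abs_cos_pert' (a2 * β ^ (-i)) (E i) c (h2.1 _)
      rw [← d2 i] at h3
      have h4 : |E i| ≤ (β ^ W)⁻¹ + 2 / D' := by
        refine (e2 i).trans ?_
        have : β ^ (-(i + 2 * (W : ℤ))) ≤ 1 := zpow_le_one_of_nonpos₀ hβ.le (by omega)
        nlinarith
      have h6 : π * |E i| ≤ π * ((β ^ W)⁻¹ + 2 / D') :=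
        mul_le_mul_of_nonneg_left h4 pi_pos.le
      linarith
  · -- product part
    rw [← Finset.prod_filter_mul_prod_filter_not S (fun i => i < -(2 * (W : ℤ)))]
    set S1 := S.filter (fun i => i < -(2 * (W : ℤ))) with hS1
    set S2 := S.filter (fun i => ¬ (i < -(2 * (W : ℤ)))) with hS2
    have hNW : (2 * (W : ℝ)) ≤ N := by
      have : ((4 * W : ℕ) : ℝ) ≤ N := by exact_mod_cast hN
      push_cast at this
      have hW0 : (0 : ℝ) ≤ W := Nat.cast_nonneg _
      linarith
    have hpart1 : 1 / B * (1 / 2) ≤ ∏ i ∈ S1, |cos (π * (a * (β ^ N - 1) * β ^ i))| := by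
      have hb1 : 1 / B ≤ ∏ i ∈ S1, |cos (π * (a * β ^ (i + (N : ℤ))))| := by
        have := h1.2 (S1.map (addRightEmbedding (N : ℤ))) (by
          intro j hj
          simp only [Finset.mem_map, addRightEmbedding_apply] at hj
          obtain ⟨i, hi, rfl⟩ := hj
          have hi2 : i < -(2 * (W : ℤ)) := (Finset.mem_filter.1 hi).2
          have hi3 : (i : ℝ) ≤ 0 := by exact_mod_cast (by omega : i ≤ 0)
          push_cast
          linarith)
        rw [Finset.prod_map] at this
        simpa only [addRightEmbedding_apply] using this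
      have hsum : ∑ i ∈ S1, (π * |-(a * β ^ i)| * |sin (π * (a * β ^ (i + (N : ℤ))))| / c
          + π ^ 2 * (-(a * β ^ i)) ^ 2 / 2) ≤ 1 / 2 := by
        calc _ ≤ ∑ i ∈ S1, (π / c + π ^ 2) * ((β ^ W)⁻¹ * β ^ (i + 2 * (W : ℤ))) := by
              refine Finset.sum_le_sum fun i hi => ?_
              have hi2 : i < -(2 * (W : ℤ)) := (Finset.mem_filter.1 hi).2
              have h3 := e1 i
              rw [e1' i] at h3
              set p := (β ^ W)⁻¹ * β ^ (i + 2 * (W : ℤ)) with hp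
              have hp0 : 0 ≤ p := by positivity
              have hp1 : p ≤ 1 := by
                have : β ^ (i + 2 * (W : ℤ)) ≤ 1 := zpow_le_one_of_nonpos₀ hβ.le (by omega)
                have : 0 < β ^ (i + 2 * (W : ℤ)) := by positivity
                rw [hp]; nlinarith
              have h4 : π * |-(a * β ^ i)| * |sin (π * (a * β ^ (i + (N : ℤ))))| / c ≤ π / c * p := by
                have h41 : π * |-(a * β ^ i)| * |sin (π * (a * β ^ (i + (N : ℤ))))| ≤ π * p := by
                  calc π * |-(a * β ^ i)| * |sin (π * (a * β ^ (i + (N : ℤ))))|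
                      ≤ π * |-(a * β ^ i)| * 1 :=
                        mul_le_mul_of_nonneg_left (abs_sin_le_one _) (by positivity)
                    _ ≤ π * p := by
                      rw [mul_one]; exact mul_le_mul_of_nonneg_left h3 pi_pos.le
                calc π * |-(a * β ^ i)| * |sin (π * (a * β ^ (i + (N : ℤ))))| / c
                    ≤ π * p / c := div_le_div_of_nonneg_right h41 hc.le
                  _ = π / c * p := by ring
              have h5 : (-(a * β ^ i)) ^ 2 ≤ p := by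
                rw [← sq_abs]
                nlinarith [abs_nonneg (-(a * β ^ i))]
              nlinarith [pi_pos, sq_nonneg π]
          _ = (π / c + π ^ 2) * (β ^ W)⁻¹ * (β ^ (2 * (W : ℤ)) * ∑ i ∈ S1, β ^ i) := by
              rw [Finset.mul_sum, Finset.mul_sum]
              refine Finset.sum_congr rfl fun i _ => ?_
              rw [zpow_add₀ hβ0']; ring
          _ ≤ (π / c + π ^ 2) * (β ^ W)⁻¹ * (β ^ (2 * (W : ℤ)) * (β ^ (-(2 * (W : ℤ))) / (β - 1))) := by
              gcongr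
              exact sum_zpow_lt β hβ S1 _ fun i hi => (Finset.mem_filter.1 hi).2
          _ = (π / c + π ^ 2) * ((β ^ W)⁻¹ * 1 / (β - 1)) := by
              rw [zpow_neg]
              have : β ^ (2 * (W : ℤ)) ≠ 0 := by positivity
              field_simp
          _ ≤ (π / c + π ^ 2) * ((β ^ W)⁻¹ * β / (β - 1)) := by
              gcongr
          _ ≤ 1 / 2 := by
              have h3 : 0 ≤ (2 * π / (c * D')) * (3 * W + 1 + π / (β - 1)) := by positivity
              have h4 : 0 ≤ 4 * π ^ 2 * ((D' ^ 2 / 160 + 2 * W + 1) / D' ^ 2) := by positivity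
              linarith
      have := prod_ge_of_pert S1 (fun i => |cos (π * (a * (β ^ N - 1) * β ^ i))|)
        (fun i => |cos (π * (a * β ^ (i + (N : ℤ))))|)
        (fun i => π * |-(a * β ^ i)| * |sin (π * (a * β ^ (i + (N : ℤ))))| / c
          + π ^ 2 * (-(a * β ^ i)) ^ 2 / 2) (fun i _ => abs_nonneg _)
        (fun i _ => by positivity)
        (fun i _ => by
          have := abs_cos_pert (a * β ^ (i + (N : ℤ))) (-(a * β ^ i)) c hc (h1.1 _)
          rwa [← d1 i] at this) (by linarith)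
      refine le_trans ?_ this
      refine mul_le_mul hb1 (by linarith) (by norm_num) ?_
      exact Finset.prod_nonneg fun i _ => abs_nonneg _
    have hpart2 : 1 / B * (1 / 2) ≤ ∏ i ∈ S2, |cos (π * (a * (β ^ N - 1) * β ^ i))| := by
      have hS2ge : ∀ i ∈ S2, -(2 * (W : ℤ)) ≤ i := fun i hi => by
        have := (Finset.mem_filter.1 hi).2; omega
      have hb1 : 1 / B ≤ ∏ i ∈ S2, |cos (π * (a2 * β ^ (-i)))| := by
        have := h2.2 (S2.map (Equiv.neg ℤ).toEmbedding) (by
          intro j hj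
          simp only [Finset.mem_map, Equiv.coe_toEmbedding, Equiv.neg_apply] at hj
          obtain ⟨i, hi, rfl⟩ := hj
          have hi2 := hS2ge i hi
          have hi3 : ((-i : ℤ) : ℝ) ≤ ((2 * W : ℤ) : ℝ) := by exact_mod_cast (by omega : -i ≤ 2 * (W : ℤ))
          push_cast at hi3 ⊢
          linarith)
        rw [Finset.prod_map] at this
        simpa only [Equiv.coe_toEmbedding, Equiv.neg_apply] using this
      -- the pieces
      set q := 2 / D' with hq
      have hq0 : 0 < q := by positivity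
      have hcard : (S2.card : ℝ) ≤ D' ^ 2 / 160 + 2 * W + 1 := by
        have hsub : S2 ⊆ Finset.Icc (-(2 * (W : ℤ))) ⌊D' ^ 2 / 160⌋ := by
          intro i hi
          rw [Finset.mem_Icc]
          refine ⟨hS2ge i hi, Int.le_floor.2 (hS i (Finset.mem_filter.1 hi).1)⟩
        have h3 := Finset.card_le_card hsub
        rw [Int.card_Icc] at h3
        have h4 : (0 : ℝ) ≤ D' ^ 2 / 160 := by positivity
        have h5 : 0 ≤ ⌊D' ^ 2 / 160⌋ := Int.floor_nonneg.2 h4
        have h6 : (S2.card : ℤ) ≤ ⌊D' ^ 2 / 160⌋ + 1 + 2 * W := by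
          have : ((⌊D' ^ 2 / 160⌋ + 1 - -(2 * (W : ℤ))).toNat : ℤ) = ⌊D' ^ 2 / 160⌋ + 1 + 2 * W := by
            rw [Int.toNat_of_nonneg (by omega)]; ring
          rw [← this]; exact_mod_cast h3
        have h7 : (S2.card : ℝ) ≤ (⌊D' ^ 2 / 160⌋ : ℝ) + 1 + 2 * W := by exact_mod_cast h6
        have h8 := Int.floor_le (D' ^ 2 / 160)
        linarith
      have hsin : ∑ i ∈ S2, |sin (π * (a2 * β ^ (-i)))| ≤ 3 * W + 1 + π / (β - 1) := by
        rw [← Finset.sum_filter_add_sum_filter_not S2 (fun i => i ≤ (W : ℤ))]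
        have h3 : ∑ i ∈ S2.filter (fun i => i ≤ (W : ℤ)), |sin (π * (a2 * β ^ (-i)))| ≤ 3 * W + 1 := by
          calc _ ≤ ∑ i ∈ S2.filter (fun i => i ≤ (W : ℤ)), (1 : ℝ) :=
                Finset.sum_le_sum fun i _ => abs_sin_le_one _
            _ = ((S2.filter (fun i => i ≤ (W : ℤ))).card : ℝ) := by simp
            _ ≤ ((Finset.Icc (-(2 * (W : ℤ))) W).card : ℝ) := by
                have : S2.filter (fun i => i ≤ (W : ℤ)) ⊆ Finset.Icc (-(2 * (W : ℤ))) W := by
                  intro i hi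
                  rw [Finset.mem_filter] at hi
                  rw [Finset.mem_Icc]
                  exact ⟨hS2ge i hi.1, hi.2⟩
                exact_mod_cast Finset.card_le_card this
            _ = 3 * W + 1 := by
                rw [Int.card_Icc]
                have : ((W : ℤ) + 1 - -(2 * (W : ℤ))).toNat = 3 * W + 1 := by omega
                rw [this]; push_cast; ring
        have h4 : ∑ i ∈ S2.filter (fun i => ¬ (i ≤ (W : ℤ))), |sin (π * (a2 * β ^ (-i)))|
            ≤ π / (β - 1) := by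
          calc _ ≤ ∑ i ∈ S2.filter (fun i => ¬ (i ≤ (W : ℤ))), π * β ^ W * β ^ (-i) := by
                refine Finset.sum_le_sum fun i _ => ?_
                refine (abs_sin_le_abs (x := π * (a2 * β ^ (-i)))).trans ?_
                rw [abs_mul, abs_mul, abs_of_pos pi_pos, abs_of_pos (zpow_pos hβ0 _), mul_assoc]
                gcongr
            _ = π * β ^ W * ∑ i ∈ S2.filter (fun i => ¬ (i ≤ (W : ℤ))), β ^ (-i) := by
                rw [Finset.mul_sum]
            _ ≤ π * β ^ W * (β ^ (-((W : ℤ) + 1)) * β / (β - 1)) := by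
                gcongr
                refine sum_zpow_neg_ge β hβ _ _ fun i hi => ?_
                have := (Finset.mem_filter.1 hi).2
                omega
            _ = π / (β - 1) := by
                rw [zpow_neg, zpow_add_one₀ hβ0', zpow_natCast]
                field_simp
        linarith
      have hpsum : ∑ i ∈ S2, (β ^ W)⁻¹ * β ^ (-(i + 2 * (W : ℤ))) ≤ (β ^ W)⁻¹ * β / (β - 1) := by
        calc _ = (β ^ W)⁻¹ * (β ^ (-(2 * (W : ℤ))) * ∑ i ∈ S2, β ^ (-i)) := by
              rw [Finset.mul_sum, Finset.mul_sum]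
              refine Finset.sum_congr rfl fun i _ => ?_
              rw [neg_add, zpow_add₀ hβ0']; ring
          _ ≤ (β ^ W)⁻¹ * (β ^ (-(2 * (W : ℤ))) * (β ^ (-(-(2 * (W : ℤ)))) * β / (β - 1))) := by
              gcongr
              exact sum_zpow_neg_ge β hβ _ _ hS2ge
          _ = (β ^ W)⁻¹ * β / (β - 1) := by
              rw [neg_neg, zpow_neg]
              have : β ^ (2 * (W : ℤ)) ≠ 0 := by positivity
              field_simp
      have hsum : ∑ i ∈ S2, (π * |E i| * |sin (π * (a2 * β ^ (-i)))| / c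
          + π ^ 2 * (E i) ^ 2 / 2) ≤ 1 / 2 := by
        calc _ ≤ ∑ i ∈ S2, ((π / c + π ^ 2) * ((β ^ W)⁻¹ * β ^ (-(i + 2 * (W : ℤ))))
              + (π * q / c) * |sin (π * (a2 * β ^ (-i)))| + π ^ 2 * q ^ 2) := by
              refine Finset.sum_le_sum fun i hi => ?_
              have hi2 := hS2ge i hi
              have h3 := e2 i
              set p := (β ^ W)⁻¹ * β ^ (-(i + 2 * (W : ℤ))) with hp
              have hp0 : 0 ≤ p := by positivity
              have hp1 : p ≤ 1 := by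
                have : β ^ (-(i + 2 * (W : ℤ))) ≤ 1 := zpow_le_one_of_nonpos₀ hβ.le (by omega)
                have : 0 < β ^ (-(i + 2 * (W : ℤ))) := by positivity
                rw [hp]; nlinarith
              set s := |sin (π * (a2 * β ^ (-i)))| with hs
              have hs0 : 0 ≤ s := abs_nonneg _
              have hs1 : s ≤ 1 := abs_sin_le_one _
              have h4 : π * |E i| * s / c ≤ π / c * p + π * q / c * s := by
                calc π * |E i| * s / c ≤ π * (p + q) * s / c := by gcongr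
                  _ = π / c * (p * s) + π * q / c * s := by ring
                  _ ≤ π / c * p + π * q / c * s := by
                      gcongr
                      nlinarith
              have h5 : (E i) ^ 2 / 2 ≤ p + q ^ 2 := by
                have h6 : (E i) ^ 2 ≤ (p + q) ^ 2 := by
                  rw [← sq_abs]
                  exact pow_le_pow_left₀ (abs_nonneg _) h3 2
                nlinarith [sq_nonneg (p - q)]
              have h6 : π ^ 2 * (E i) ^ 2 / 2 ≤ π ^ 2 * (p + q ^ 2) := by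
                rw [mul_div_assoc]
                exact mul_le_mul_of_nonneg_left h5 (sq_nonneg _)
              linarith
          _ = (π / c + π ^ 2) * (∑ i ∈ S2, (β ^ W)⁻¹ * β ^ (-(i + 2 * (W : ℤ))))
              + (π * q / c) * (∑ i ∈ S2, |sin (π * (a2 * β ^ (-i)))|)
              + S2.card * (π ^ 2 * q ^ 2) := by
              rw [Finset.sum_add_distrib, Finset.sum_add_distrib, Finset.mul_sum, Finset.mul_sum,
                Finset.sum_const, nsmul_eq_mul]
          _ ≤ (π / c + π ^ 2) * ((β ^ W)⁻¹ * β / (β - 1))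
              + (π * q / c) * (3 * W + 1 + π / (β - 1))
              + (D' ^ 2 / 160 + 2 * W + 1) * (π ^ 2 * q ^ 2) := by
              gcongr
          _ = (π / c + π ^ 2) * ((β ^ W)⁻¹ * β / (β - 1))
              + (2 * π / (c * D')) * (3 * W + 1 + π / (β - 1))
              + 4 * π ^ 2 * ((D' ^ 2 / 160 + 2 * W + 1) / D' ^ 2) := by
              rw [hq]; field_simp; ring
          _ ≤ 1 / 2 := hsmall
      have := prod_ge_of_pert S2 (fun i => |cos (π * (a * (β ^ N - 1) * β ^ i))|)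
        (fun i => |cos (π * (a2 * β ^ (-i)))|)
        (fun i => π * |E i| * |sin (π * (a2 * β ^ (-i)))| / c
          + π ^ 2 * (E i) ^ 2 / 2) (fun i _ => abs_nonneg _)
        (fun i _ => by positivity)
        (fun i _ => by
          have := abs_cos_pert (a2 * β ^ (-i)) (E i) c hc (h2.1 _)
          rwa [← d2 i] at this) (by linarith)
      refine le_trans ?_ this
      refine mul_le_mul hb1 (by linarith) (by norm_num) ?_
      exact Finset.prod_nonneg fun i _ => abs_nonneg _
    have hB' : 1 / (4 * B ^ 2) = (1 / B * (1 / 2)) * (1 / B * (1 / 2)) := by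
      field_simp; norm_num
    rw [hB']
    exact mul_le_mul hpart1 hpart2 (by positivity) (le_trans (by positivity) hpart1)

end Crest.Agent.S0137
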