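import Crest.Agent.S0137_Sing

set_option autoImplicit false

namespace Crest.Agent.S0137

open MeasureTheory ProbabilityTheory Filter Topology Crest.AnalysisR

variable {β : ℝ}

lemma sets_of_good (hβ : 1 < β) (ω : ℂ) (hω : ‖ω‖ = 1) (c0 : ℝ) (W0 : ℕ) (R s B : ℝ)
    (hR : 0 ≤ R) (hs : 10 ^ 6 ≤ s) (hB : 1 ≤ B) (hBD : B ^ 16 ≤ s ^ 8)
    (h : Good β ω c0 W0 (s ^ 8) B) :
    ∃ A : Set ℝ, MeasurableSet A ∧
      (bernoulliConvolution β⁻¹).real Aᶜ ≤ 4 * (4 + (2 * Real.pi * β / (β - 1) ^ 2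
        + 2 * Real.pi * (2 * Real.pi / (β - 1) + 5 + 16 * Real.pi))) / s ∧
      (volume : Measure ℝ).real (A ∩ Set.Icc (-R) R) ≤ 4 * (2 * R + 1 / (Real.log β) ^ 2) / s := by
  obtain ⟨a, a2, a1, W, hint, ha1', ha, ha2, ha1, hWD, hW0W, hP1, hP2⟩ := h
  have hβ0 : 0 < β := by linarith
  have hβ1 : 0 < β - 1 := by linarith
  have hpi := Real.pi_pos
  have hlog : 0 < Real.log β := Real.log_pos hβ
  have hs1 : (1 : ℝ) ≤ s := le_trans (by norm_num) hs
  have hs0 : 0 < s := by linarith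
  have hBs : B ^ 2 ≤ s := by
    by_contra hcon
    push Not at hcon
    have : s ^ 8 < (B ^ 2) ^ 8 := pow_lt_pow_left₀ hcon hs0.le (by norm_num)
    rw [← pow_mul] at this
    norm_num at this
    linarith
  have hWs : (W : ℝ) ≤ s ^ 6 := by
    by_contra hcon
    push Not at hcon
    have : (s ^ 6) ^ 4 < (W : ℝ) ^ 4 := pow_lt_pow_left₀ hcon (by positivity) (by norm_num)
    have h2 : (s ^ 6) ^ 4 = (s ^ 8) ^ 3 := by ring
    rw [h2] at this
    linarith
  set W' := ⌈s ^ 6⌉₊ with hW'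
  set K := ⌊s ^ 8⌋₊ with hK
  have hW'ge : s ^ 6 ≤ W' := Nat.le_ceil _
  have hW'lt : (W' : ℝ) < s ^ 6 + 1 := Nat.ceil_lt_add_one (by positivity)
  have hKle : (K : ℝ) ≤ s ^ 8 := Nat.floor_le (by positivity)
  have hKgt : s ^ 8 < (K : ℝ) + 1 := Nat.lt_floor_add_one _
  have hs6 : (1 : ℝ) ≤ s ^ 6 := one_le_pow₀ hs1
  have hs6s : s ≤ s ^ 6 := le_self_pow₀ hs1 (by norm_num)
  have hWW' : W ≤ W' := by
    have : (W : ℝ) ≤ W' := hWs.trans hW'ge
    exact_mod_cast this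
  have hW'1 : 1 ≤ W' := by
    have : (1 : ℝ) ≤ W' := hs6.trans hW'ge
    exact_mod_cast this
  have hW'2 : (W' : ℝ) ≤ 2 * s ^ 6 := by linarith
  have hKs2 : s ^ 2 ≤ K := by
    have h1 : s ^ 8 = s ^ 2 * s ^ 6 := by ring
    have h2 : s ^ 2 * 2 ≤ s ^ 2 * s ^ 6 := by
      gcongr
      linarith
    have h3 : 1 ≤ s ^ 2 := one_le_pow₀ hs1
    linarith
  have hs2s : s ≤ s ^ 2 := le_self_pow₀ hs1 (by norm_num)
  have hK1 : 1 ≤ K := by
    have : (1 : ℝ) ≤ K := by linarith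
    exact_mod_cast this
  have hKpos : (0 : ℝ) < K := by linarith
  have hpowW : β ^ W ≤ β ^ W' := pow_le_pow_right₀ hβ.le hWW'
  have hprod : ((4 * W' * K : ℕ) : ℝ) ≤ 8 * s ^ 14 := by
    push_cast
    calc 4 * (W' : ℝ) * K ≤ 4 * (2 * s ^ 6) * s ^ 8 := by gcongr
      _ = 8 * s ^ 14 := by ring
  obtain ⟨A, hA1, hA2, hA3⟩ := sing_quant hβ ω hω a a2 a1 hint ha1' W' K (s ^ 8) B
    (c0 + 1 / W) ((2 * Real.pi * β / (β - 1) ^ 2
        + 2 * Real.pi * (2 * Real.pi / (β - 1) + 5 + 16 * Real.pi)) / s ^ 2)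
    (1 / ((Real.log β) ^ 2 * s ^ 2)) R (by positivity)
    (by linarith) hR (ha.trans hpowW) (ha2.trans hpowW) ha1 hW'1 hK1 hP1
    (by
      refine hprod.trans ?_
      rw [le_div_iff₀ (by norm_num)]
      calc 8 * s ^ 14 * 160 = s ^ 14 * 1280 := by ring
        _ ≤ s ^ 14 * s ^ 2 := by gcongr; nlinarith
        _ = (s ^ 8) ^ 2 := by ring)
    (by
      rw [add_div]
      apply add_le_add
      · -- first
        have h1 : (β - 1) * s ^ 2 ≤ β ^ W' := by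
          have h2 := one_add_mul_le_pow (by linarith : (-2 : ℝ) ≤ β - 1) W'
          have h3 : (1 + (β - 1)) ^ W' = β ^ W' := by ring_nf
          rw [h3] at h2
          have h4 : (β - 1) * s ^ 2 ≤ W' * (β - 1) := by
            rw [mul_comm]
            gcongr
            refine le_trans ?_ hW'ge
            exact pow_le_pow_right₀ hs1 (by norm_num)
          linarith
        calc 2 * Real.pi * β * (β ^ W')⁻¹ / (β - 1)
            ≤ 2 * Real.pi * β * ((β - 1) * s ^ 2)⁻¹ / (β - 1) := by gcongr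
          _ = 2 * Real.pi * β / (β - 1) ^ 2 / s ^ 2 := by field_simp
      · calc (2 * Real.pi / s ^ 8) * (2 * Real.pi / (β - 1) + 2 * W' + 1
              + 2 * Real.pi * (4 * W' * K : ℕ) / s ^ 8)
            ≤ (2 * Real.pi / s ^ 8) * (2 * Real.pi / (β - 1) * s ^ 6 + 2 * (2 * s ^ 6) + s ^ 6
              + 2 * Real.pi * (8 * s ^ 14) / s ^ 8) := by
              gcongr
              exact le_mul_of_one_le_right (by positivity) hs6
          _ = 2 * Real.pi * (2 * Real.pi / (β - 1) + 5 + 16 * Real.pi) / s ^ 2 := by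
              field_simp
              ring)
    (by
      have h1 := beta_pow_ge hβ (4 * W')
      have h2 : (4 * s * Real.log β) ^ 2 / 2 ≤ β ^ (4 * W') - 1 := by
        refine le_trans ?_ h1
        push_cast
        gcongr
        exact hs6s.trans hW'ge
      have h3 : 0 < (4 * s * Real.log β) ^ 2 / 2 := by positivity
      calc 2 / (Real.pi * (β ^ (4 * W') - 1)) ≤ 2 / (1 * ((4 * s * Real.log β) ^ 2 / 2)) := by
            apply div_le_div_of_nonneg_left (by norm_num) (by positivity)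
            apply mul_le_mul _ h2 h3.le hpi.le
            linarith [Real.pi_gt_three]
        _ = (1 / 4) * (1 / ((Real.log β) ^ 2 * s ^ 2)) := by field_simp; norm_num
        _ ≤ 1 / ((Real.log β) ^ 2 * s ^ 2) := by
            have : 0 ≤ 1 / ((Real.log β) ^ 2 * s ^ 2) := by positivity
            linarith)
  refine ⟨A, hA1, hA2.trans ?_, hA3.trans ?_⟩
  · calc _ ≤ 4 * s * (4 / s ^ 2 + (2 * Real.pi * β / (β - 1) ^ 2
        + 2 * Real.pi * (2 * Real.pi / (β - 1) + 5 + 16 * Real.pi)) / s ^ 2) := by gcongr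
      _ = _ := by field_simp
  · calc _ ≤ 4 * s * (2 * R / s ^ 2 + 1 / ((Real.log β) ^ 2 * s ^ 2)) := by gcongr
      _ = _ := by field_simp

/-- The final analytic theorem. -/
theorem singular_of_good (hβ : 1 < β) (ω : ℂ) (hω : ‖ω‖ = 1) (c0 : ℝ) (W0 : ℕ)
    (h : ∀ T : ℝ, ∃ D B : ℝ, T ≤ D ∧ 1 ≤ B ∧ B ^ 16 ≤ D ∧ Good β ω c0 W0 D B) :
    (bernoulliConvolution β⁻¹).MutuallySingular volume := by
  have hprob := isProb hβ
  apply mutuallySingular_of_sets
  intro n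
  set C1 := 4 * (4 + (2 * Real.pi * β / (β - 1) ^ 2
        + 2 * Real.pi * (2 * Real.pi / (β - 1) + 5 + 16 * Real.pi))) with hC1
  set C2 := 4 * (2 * (n : ℝ) + 1 / (Real.log β) ^ 2) with hC2
  set S : ℝ := max (10 ^ 6) (max (C1 * 2 ^ n) (C2 * 2 ^ n)) with hS
  have hS6 : 10 ^ 6 ≤ S := le_max_left _ _
  have hS1 : C1 * 2 ^ n ≤ S := (le_max_left _ _).trans (le_max_right _ _)
  have hS2 : C2 * 2 ^ n ≤ S := (le_max_right _ _).trans (le_max_right _ _)
  obtain ⟨D, B, hTD, hB1, hBD, hG⟩ := h (S ^ 8)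
  have hS0 : (0 : ℝ) < S := by linarith
  have hD0 : 0 < D := lt_of_lt_of_le (by positivity) hTD
  obtain ⟨s, hs0, hsD⟩ : ∃ s : ℝ, 0 < s ∧ s ^ 8 = D := by
    refine ⟨D ^ (1 / 8 : ℝ), by positivity, ?_⟩
    rw [← Real.rpow_natCast, ← Real.rpow_mul hD0.le]
    norm_num
  have hSs : S ≤ s := by
    by_contra hcon
    push Not at hcon
    have : s ^ 8 < S ^ 8 := pow_lt_pow_left₀ hcon hs0.le (by norm_num)
    linarith
  subst hsD
  obtain ⟨A, hA1, hA2, hA3⟩ := sets_of_good hβ ω hω c0 W0 n s B (Nat.cast_nonneg _)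
    (hS6.trans hSs) hB1 hBD hG
  have key : ∀ C : ℝ, C * 2 ^ n ≤ S → C / s ≤ (2⁻¹ : ℝ) ^ n := by
    intro C hC
    rw [div_le_iff₀ hs0, inv_pow, ← div_eq_inv_mul, le_div_iff₀ (by positivity)]
    exact hC.trans hSs
  have conv : ∀ (μ : Measure ℝ) (E : Set ℝ), μ E ≠ ⊤ → μ.real E ≤ (2⁻¹ : ℝ) ^ n →
      μ E ≤ 2⁻¹ ^ n := by
    intro μ E hE hle
    rw [← ENNReal.ofReal_toReal hE]
    calc ENNReal.ofReal (μ E).toReal ≤ ENNReal.ofReal ((2⁻¹ : ℝ) ^ n) := ENNReal.ofReal_le_ofReal hle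
      _ = 2⁻¹ ^ n := by
          rw [ENNReal.ofReal_pow (by norm_num), ENNReal.ofReal_inv_of_pos (by norm_num)]
          simp
  refine ⟨A, hA1, conv _ _ (measure_ne_top _ _) (hA2.trans (key _ hS1)),
    conv _ _ ?_ (hA3.trans (key _ hS2))⟩
  refine ne_top_of_le_ne_top ?_ (measure_mono Set.inter_subset_right)
  rw [Real.volume_Icc]; exact ENNReal.ofReal_ne_top

end Crest.Agent.S0137
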