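import Crest.Agent.S0137_Step2

set_option autoImplicit false

namespace Crest.Agent.S0137

open Real

lemma good_iter (β : ℝ) (hβ : 1 < β) (ω : ℂ) (hω : ‖ω‖ = 1) (c0 : ℝ) (hc0 : 0 < c0)
    (W0 : ℕ) (hW0 : ∀ W : ℕ, W0 ≤ W →
      1 ≤ W ∧ 2 ≤ β ^ W ∧ (π / c0 + π ^ 2) * ((β ^ W)⁻¹ * β / (β - 1)) ≤ 1 / 16 ∧
      π * (β ^ W)⁻¹ ≤ 2 / (5 * W))
    (D B : ℝ) (hD1 : (10 : ℝ) ^ 120 ≤ D) (hD2 : 32 * π * (4 + π / (β - 1)) / c0 ≤ D)
    (hB : 0 < B) (h : Good β ω c0 W0 D B) (m : ℕ) :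
    ∃ D' B' : ℝ, D ≤ D' ∧ D ^ ((11 / 5 : ℝ) ^ m) ≤ D' ∧ 0 < B' ∧ 4 * B' = (4 * B) ^ (2 ^ m) ∧
      Good β ω c0 W0 D' B' := by
  have hDpos : 0 < D := lt_of_lt_of_le (by positivity) hD1
  induction m with
  | zero => exact ⟨D, B, le_rfl, by simp, hB, by simp, h⟩
  | succ m ih =>
    obtain ⟨D1, B1, h1, h2, h3, h4, h5⟩ := ih
    obtain ⟨D2, h6, h7, h8⟩ := good_step β hβ ω hω c0 hc0 W0 hW0 D1 B1 (hD1.trans h1)
      (hD2.trans h1) h3 h5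
    have hD1pos : 0 < D1 := by linarith
    refine ⟨D2, 4 * B1 ^ 2, by linarith, ?_, by positivity, ?_, h8⟩
    · have hD2pos : 0 < D2 := by linarith
      have h9 : D1 ^ (11 / 5 : ℝ) ≤ D2 := by
        have h10 : (D1 ^ 11) ^ (1 / 5 : ℝ) ≤ (D2 ^ 5) ^ (1 / 5 : ℝ) :=
          Real.rpow_le_rpow (by positivity) h6 (by norm_num)
        have h11 : (D1 ^ 11) ^ (1 / 5 : ℝ) = D1 ^ (11 / 5 : ℝ) := by
          rw [← Real.rpow_natCast, ← Real.rpow_mul hD1pos.le]; norm_num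
        have h12 : (D2 ^ 5) ^ (1 / 5 : ℝ) = D2 := by
          rw [← Real.rpow_natCast, ← Real.rpow_mul hD2pos.le]; norm_num
        rwa [h11, h12] at h10
      refine le_trans ?_ h9
      rw [pow_succ, Real.rpow_mul hDpos.le]
      exact Real.rpow_le_rpow (by positivity) h2 (by norm_num)
    · rw [pow_succ 2 m, pow_mul, ← h4]; ring

/-- The main output of the recursion. -/
lemma good_final (β : ℝ) (hβ : 1 < β) (ω : ℂ) (hω : ‖ω‖ = 1) (c0 : ℝ) (hc0 : 0 < c0)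
    (W0 : ℕ) (hW0 : ∀ W : ℕ, W0 ≤ W →
      1 ≤ W ∧ 2 ≤ β ^ W ∧ (π / c0 + π ^ 2) * ((β ^ W)⁻¹ * β / (β - 1)) ≤ 1 / 16 ∧
      π * (β ^ W)⁻¹ ≤ 2 / (5 * W))
    (D B : ℝ) (hD1 : (10 : ℝ) ^ 120 ≤ D) (hD2 : 32 * π * (4 + π / (β - 1)) / c0 ≤ D)
    (hB : 1 ≤ B) (h : Good β ω c0 W0 D B) (T : ℝ) :
    ∃ D' B' : ℝ, T ≤ D' ∧ 1 ≤ B' ∧ B' ^ 16 ≤ D' ∧ Good β ω c0 W0 D' B' := by
  have hDpos : 0 < D := lt_of_lt_of_le (by positivity) hD1
  have hDone : 1 < D := lt_of_lt_of_le (by norm_num) hD1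
  have hlogD : 0 < Real.log D := Real.log_pos hDone
  have hlogB : 0 < Real.log (4 * B) := Real.log_pos (by linarith)
  -- choose m with 16 * 2^m log(4B) ≤ (11/5)^m log D and log T ≤ (11/5)^m log D
  obtain ⟨m1, hm1⟩ := pow_unbounded_of_one_lt (16 * Real.log (4 * B) / Real.log D)
    (by norm_num : (1 : ℝ) < 11 / 10)
  obtain ⟨m2, hm2⟩ := pow_unbounded_of_one_lt (Real.log (max T 1) / Real.log D)
    (by norm_num : (1 : ℝ) < 11 / 5)
  set m := max m1 m2 with hm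
  have h1 : 16 * Real.log (4 * B) ≤ (11 / 10 : ℝ) ^ m * Real.log D := by
    have h2 : (11 / 10 : ℝ) ^ m1 ≤ (11 / 10) ^ m :=
      pow_le_pow_right₀ (by norm_num) (le_max_left _ _)
    have h3 := (div_lt_iff₀ hlogD).1 (lt_of_lt_of_le hm1 h2)
    exact h3.le
  have h2 : Real.log (max T 1) ≤ (11 / 5 : ℝ) ^ m * Real.log D := by
    have h2 : (11 / 5 : ℝ) ^ m2 ≤ (11 / 5) ^ m :=
      pow_le_pow_right₀ (by norm_num) (le_max_right _ _)
    have h3 := (div_lt_iff₀ hlogD).1 (lt_of_lt_of_le hm2 h2)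
    exact h3.le
  obtain ⟨D', B', h3, h4, h5, h6, h7⟩ := good_iter β hβ ω hω c0 hc0 W0 hW0 D B hD1 hD2
    (by linarith) h m
  have hpow : D ^ ((11 / 5 : ℝ) ^ m) = Real.exp ((11 / 5 : ℝ) ^ m * Real.log D) := by
    rw [Real.rpow_def_of_pos hDpos, mul_comm]
  refine ⟨D', B', ?_, ?_, ?_, h7⟩
  · calc T ≤ max T 1 := le_max_left _ _
      _ = Real.exp (Real.log (max T 1)) := (Real.exp_log (by positivity)).symm
      _ ≤ Real.exp ((11 / 5 : ℝ) ^ m * Real.log D) := Real.exp_le_exp.2 h2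
      _ ≤ D' := by rw [← hpow]; exact h4
  · have h8 : (4 : ℝ) ≤ (4 * B) ^ (2 ^ m) := by
      calc (4 : ℝ) ≤ 4 * B := by linarith
        _ ≤ (4 * B) ^ (2 ^ m) := le_self_pow₀ (by linarith) (by positivity)
    linarith
  · have h8 : B' ≤ (4 * B) ^ (2 ^ m) := by linarith
    calc B' ^ 16 ≤ ((4 * B) ^ (2 ^ m)) ^ 16 := pow_le_pow_left₀ h5.le h8 16
      _ = Real.exp (Real.log (4 * B) * ((2 ^ m * 16 : ℕ) : ℝ)) := by
          rw [← pow_mul, ← Real.rpow_natCast, Real.rpow_def_of_pos (by positivity)]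
      _ ≤ Real.exp ((11 / 5 : ℝ) ^ m * Real.log D) := by
          apply Real.exp_le_exp.2
          push_cast
          have h9 : (11 / 5 : ℝ) ^ m = 2 ^ m * (11 / 10) ^ m := by
            rw [← mul_pow]; norm_num
          rw [h9]
          have h10 : (0 : ℝ) < 2 ^ m := by positivity
          calc Real.log (4 * B) * (2 ^ m * 16) = 2 ^ m * (16 * Real.log (4 * B)) := by ring
            _ ≤ 2 ^ m * ((11 / 10 : ℝ) ^ m * Real.log D) := by gcongr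
            _ = _ := by ring
      _ ≤ D' := by rw [← hpow]; exact h4

end Crest.Agent.S0137
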