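import Mathlib

set_option autoImplicit false

namespace Crest.Agent.S0137

open MeasureTheory Filter Topology
open scoped ENNReal

/-- criterion for mutual singularity -/
lemma mutuallySingular_of_sets (ν : Measure ℝ) (h : ∀ n : ℕ, ∃ A : Set ℝ, MeasurableSet A ∧
    ν Aᶜ ≤ 2⁻¹ ^ n ∧ (volume : Measure ℝ) (A ∩ Set.Icc (-(n : ℝ)) n) ≤ 2⁻¹ ^ n) :
    ν.MutuallySingular volume := by
  choose A hAm hAν hAv using h
  have hsum : ∑' n : ℕ, (2⁻¹ : ℝ≥0∞) ^ n ≠ ⊤ := by
    rw [ENNReal.tsum_geometric]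
    simp
  have h1 : ν (limsup (fun n => (A n)ᶜ) atTop) = 0 := by
    apply measure_limsup_atTop_eq_zero
    exact ne_top_of_le_ne_top hsum (ENNReal.tsum_le_tsum hAν)
  have h2 : (volume : Measure ℝ) (limsup A atTop) = 0 := by
    have h3 : ∀ R : ℕ, (volume : Measure ℝ) (limsup A atTop ∩ Set.Icc (-(R : ℝ)) R) = 0 := by
      intro R
      have h4 : (volume : Measure ℝ) (limsup (fun n => A (n + R) ∩ Set.Icc (-(R : ℝ)) R) atTop) = 0 := by
        apply measure_limsup_atTop_eq_zero
        refine ne_top_of_le_ne_top hsum (ENNReal.tsum_le_tsum fun n => ?_)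
        calc (volume : Measure ℝ) (A (n + R) ∩ Set.Icc (-(R : ℝ)) R)
            ≤ (volume : Measure ℝ) (A (n + R) ∩ Set.Icc (-((n + R : ℕ) : ℝ)) ((n + R : ℕ) : ℝ)) := by
              apply measure_mono
              apply Set.inter_subset_inter_right
              apply Set.Icc_subset_Icc <;> push_cast <;> linarith [Nat.cast_nonneg (α := ℝ) n]
          _ ≤ 2⁻¹ ^ (n + R) := hAv _
          _ ≤ 2⁻¹ ^ n := by
              exact pow_le_pow_right_of_le_one' (by simp) (by omega)
      refine measure_mono_null ?_ h4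
      intro x hx
      have hx1 := hx.1
      rw [mem_limsup_iff_frequently_mem] at hx1 ⊢
      have h5 : ∃ᶠ n in atTop, x ∈ A (n + R) := by
        rw [frequently_atTop] at hx1 ⊢
        intro a
        obtain ⟨b, hb, hxb⟩ := hx1 (a + R)
        refine ⟨b - R, by omega, ?_⟩
        rwa [Nat.sub_add_cancel (by omega)]
      exact h5.mono fun n hn => ⟨hn, hx.2⟩
    have h6 : limsup A atTop ⊆ ⋃ R : ℕ, (limsup A atTop ∩ Set.Icc (-(R : ℝ)) R) := by
      intro x hx
      obtain ⟨R, hR⟩ := exists_nat_ge |x|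
      rw [Set.mem_iUnion]
      exact ⟨R, hx, by rw [Set.mem_Icc]; exact abs_le.1 hR⟩
    exact measure_mono_null h6 (measure_iUnion_null h3)
  refine ⟨(limsup A atTop)ᶜ, ?_, ?_, ?_⟩
  · exact (MeasurableSet.measurableSet_limsup hAm).compl
  · refine measure_mono_null ?_ h1
    intro x hx
    rw [Set.mem_compl_iff, mem_limsup_iff_frequently_mem, not_frequently] at hx
    rw [mem_limsup_iff_frequently_mem]
    exact hx.frequently
  · rw [compl_compl]; exact h2

/-- Chebyshev bound for sums of bounded functions. -/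
lemma cheb_sum (μ : Measure ℝ) [IsFiniteMeasure μ] (K : ℕ) (f : ℕ → ℝ → ℝ)
    (hf : ∀ r, Continuous (f r)) (C : ℝ) (hfb : ∀ r x, |f r x| ≤ C)
    (κ : ℕ → ℕ → ℝ) (hκ : ∀ r s, r < K → s < K → |∫ x, f r x * f s x ∂μ| ≤ κ r s)
    (σ : ℕ → ℝ) (hσ : ∀ r, |σ r| ≤ 1) (lam : ℝ) (hlam : 0 < lam) :
    μ.real {x | lam ≤ |∑ r ∈ Finset.range K, σ r * f r x|} ≤
      (∑ r ∈ Finset.range K, ∑ s ∈ Finset.range K, κ r s) / lam ^ 2 := by
  have hint : ∀ r s, Integrable (fun x => f r x * f s x) μ := by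
    intro r s
    apply Integrable.mono' (g := fun _ => C * C) (integrable_const _)
    · exact ((hf r).mul (hf s)).aestronglyMeasurable
    · refine Eventually.of_forall fun x => ?_
      rw [Real.norm_eq_abs, abs_mul]
      exact mul_le_mul (hfb r x) (hfb s x) (abs_nonneg _) (le_trans (abs_nonneg _) (hfb r x))
  have hexp : ∀ x, (∑ r ∈ Finset.range K, σ r * f r x) ^ 2
      = ∑ r ∈ Finset.range K, ∑ s ∈ Finset.range K, (σ r * σ s) * (f r x * f s x) := by
    intro x
    rw [sq, Finset.sum_mul_sum]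
    refine Finset.sum_congr rfl fun r _ => Finset.sum_congr rfl fun s _ => by ring
  have hI : ∫ x, (∑ r ∈ Finset.range K, σ r * f r x) ^ 2 ∂μ
      = ∑ r ∈ Finset.range K, ∑ s ∈ Finset.range K, (σ r * σ s) * ∫ x, f r x * f s x ∂μ := by
    simp_rw [hexp]
    rw [integral_finsetSum _ fun r _ => integrable_finsetSum _ fun s _ => (hint r s).const_mul _]
    refine Finset.sum_congr rfl fun r _ => ?_
    rw [integral_finsetSum _ fun s _ => (hint r s).const_mul _]
    refine Finset.sum_congr rfl fun s _ => ?_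
    rw [integral_const_mul]
  have hIle : ∫ x, (∑ r ∈ Finset.range K, σ r * f r x) ^ 2 ∂μ
      ≤ ∑ r ∈ Finset.range K, ∑ s ∈ Finset.range K, κ r s := by
    rw [hI]
    refine Finset.sum_le_sum fun r hr => Finset.sum_le_sum fun s hs => ?_
    refine (le_abs_self _).trans ?_
    rw [abs_mul, abs_mul]
    have h1 := hκ r s (Finset.mem_range.1 hr) (Finset.mem_range.1 hs)
    have h2 : |σ r| * |σ s| ≤ 1 := by
      have := mul_le_mul (hσ r) (hσ s) (abs_nonneg _) zero_le_one
      simpa using this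
    calc |σ r| * |σ s| * |∫ x, f r x * f s x ∂μ| ≤ 1 * κ r s :=
          mul_le_mul h2 h1 (abs_nonneg _) zero_le_one
      _ = κ r s := one_mul _
  have hInt : Integrable (fun x => (∑ r ∈ Finset.range K, σ r * f r x) ^ 2) μ := by
    simp_rw [hexp]
    exact integrable_finsetSum _ fun r _ => integrable_finsetSum _ fun s _ =>
      (hint r s).const_mul _
  have h1 := mul_meas_ge_le_integral_of_nonneg (μ := μ)
    (f := fun x => (∑ r ∈ Finset.range K, σ r * f r x) ^ 2)
    (Eventually.of_forall fun x => sq_nonneg _) hInt (lam ^ 2)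
  have h2 : {x | lam ^ 2 ≤ (∑ r ∈ Finset.range K, σ r * f r x) ^ 2}
      = {x | lam ≤ |∑ r ∈ Finset.range K, σ r * f r x|} := by
    ext x
    simp only [Set.mem_ofPred_eq]
    rw [← sq_abs (∑ r ∈ Finset.range K, σ r * f r x)]
    exact pow_le_pow_iff_left₀ hlam.le (abs_nonneg _) (by norm_num)
  rw [h2] at h1
  rw [le_div_iff₀ (by positivity), mul_comm]
  exact h1.trans hIle

lemma abs_prod_sub_prod_le (n : ℕ) (x y : ℕ → ℝ) (hx : ∀ i, |x i| ≤ 1) (hy : ∀ i, |y i| ≤ 1) :
    |∏ i ∈ Finset.range n, x i - ∏ i ∈ Finset.range n, y i| ≤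
      ∑ i ∈ Finset.range n, |x i - y i| := by
  induction n with
  | zero => simp
  | succ n ih =>
    rw [Finset.prod_range_succ, Finset.prod_range_succ, Finset.sum_range_succ]
    have h1 : (∏ i ∈ Finset.range n, x i) * x n - (∏ i ∈ Finset.range n, y i) * y n
        = (∏ i ∈ Finset.range n, x i - ∏ i ∈ Finset.range n, y i) * x n
          + (∏ i ∈ Finset.range n, y i) * (x n - y n) := by ring
    rw [h1]
    refine (abs_add_le _ _).trans ?_
    rw [abs_mul, abs_mul]
    have h2 : |∏ i ∈ Finset.range n, y i| ≤ 1 := by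
      rw [Finset.abs_prod]
      exact Finset.prod_le_one (fun i _ => abs_nonneg _) fun i _ => hy i
    have h3 := mul_le_mul ih (hx n) (abs_nonneg _) (Finset.sum_nonneg fun i _ => abs_nonneg _)
    have h4 := mul_le_mul_of_nonneg_right h2 (abs_nonneg (x n - y n))
    linarith

lemma leb_cos_bound (R u : ℝ) (hR : 0 ≤ R) (hu : 0 < u) :
    |∫ x in Set.Icc (-R) R, Real.cos (u * x)| ≤ 2 / u := by
  rw [integral_Icc_eq_integral_Ioc, ← intervalIntegral.integral_of_le (by linarith)]
  rw [intervalIntegral.integral_comp_mul_left (fun x => Real.cos x) hu.ne', integral_cos]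
  rw [smul_eq_mul, abs_mul, abs_inv, abs_of_pos hu]
  have h1 := Real.abs_sin_le_one (u * R)
  have h2 := Real.abs_sin_le_one (u * -R)
  have h3 := abs_sub (Real.sin (u * R)) (Real.sin (u * -R))
  rw [div_eq_inv_mul]
  apply mul_le_mul_of_nonneg_left _ (by positivity)
  linarith

lemma leb_cos_cos (R s t : ℝ) (hR : 0 ≤ R) (ht : 0 < t) (hst : t < s) :
    |∫ x in Set.Icc (-R) R, Real.cos (s * x) * Real.cos (t * x)| ≤ 2 / (s - t) := by
  have h1 : ∀ x, Real.cos (s * x) * Real.cos (t * x)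
      = (1 / 2) * Real.cos ((s - t) * x) + (1 / 2) * Real.cos ((s + t) * x) := by
    intro x
    rw [sub_mul, add_mul, Real.cos_sub, Real.cos_add]; ring
  simp_rw [h1]
  have hi : ∀ u : ℝ, IntegrableOn (fun x => (1 / 2) * Real.cos (u * x)) (Set.Icc (-R) R) := by
    intro u
    exact (by fun_prop : Continuous (fun x => (1 / 2) * Real.cos (u * x))).continuousOn.integrableOn_Icc
  rw [integral_add (hi _) (hi _), integral_const_mul, integral_const_mul]
  have h2 := leb_cos_bound R (s - t) hR (by linarith)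
  have h3 := leb_cos_bound R (s + t) hR (by linarith)
  have h4 : 2 / (s + t) ≤ 2 / (s - t) := by
    apply div_le_div_of_nonneg_left (by norm_num) (by linarith) (by linarith)
  rw [abs_le] at h2 h3 ⊢
  constructor <;> linarith

end Crest.Agent.S0137
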