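import Crest.Agent.S0137_Cos
import Crest.Agent.S0137_Char
import Crest.Agent.S0137_Var

set_option autoImplicit false

namespace Crest.Agent.S0137

open MeasureTheory ProbabilityTheory Filter Topology Crest.AnalysisR

noncomputable def Phi (β t : ℝ) : ℝ := ∫ x, Real.cos (t * x) ∂(bernoulliConvolution β⁻¹)

variable {β : ℝ}

lemma inv_lt_one' (hβ : 1 < β) : β⁻¹ < 1 := inv_lt_one_of_one_lt₀ hβ

lemma Phi_tendsto (hβ : 1 < β) (t : ℝ) :
    Tendsto (fun n : ℕ => ∏ i ∈ Finset.range n, Real.cos (t * (β⁻¹) ^ i)) atTop (𝓝 (Phi β t)) :=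
  tendsto_prod_cos (inv_pos.2 (by linarith)) (inv_lt_one' hβ) t

lemma isProb (hβ : 1 < β) : IsProbabilityMeasure (bernoulliConvolution β⁻¹) := by
  rw [bernoulli_eq]
  exact Measure.isProbabilityMeasure_map
    (measurable_signedPowerSum (inv_pos.2 (by linarith)) (inv_lt_one' hβ)).aemeasurable

lemma abs_Phi_ge (hβ : 1 < β) (t m : ℝ)
    (h : ∀ n : ℕ, m ≤ ∏ i ∈ Finset.range n, |Real.cos (t * (β⁻¹) ^ i)|) : m ≤ |Phi β t| := by
  have h1 := (Phi_tendsto hβ t).abs
  refine ge_of_tendsto h1 (Eventually.of_forall fun n => ?_)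
  rw [Finset.abs_prod]
  exact h n

lemma abs_Phi_le_one (hβ : 1 < β) (t : ℝ) : |Phi β t| ≤ 1 := by
  have h1 := (Phi_tendsto hβ t).abs
  refine le_of_tendsto h1 (Eventually.of_forall fun n => ?_)
  rw [Finset.abs_prod]
  exact Finset.prod_le_one (fun i _ => abs_nonneg _) fun i _ => Real.abs_cos_le_one _

lemma Phi_cov_sub (hβ : 1 < β) (s t M : ℝ)
    (h : ∀ n : ℕ, ∑ i ∈ Finset.range n, |Real.sin (s * (β⁻¹) ^ i)| * |Real.sin (t * (β⁻¹) ^ i)| ≤ M) :
    |Phi β (s - t) - Phi β s * Phi β t| ≤ M := by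
  have h1 := ((Phi_tendsto hβ (s - t)).sub ((Phi_tendsto hβ s).mul (Phi_tendsto hβ t))).abs
  refine le_of_tendsto h1 (Eventually.of_forall fun n => ?_)
  rw [← Finset.prod_mul_distrib]
  refine (abs_prod_sub_prod_le n _ _ (fun i => Real.abs_cos_le_one _) (fun i => ?_)).trans ?_
  · rw [abs_mul]
    exact mul_le_one₀ (Real.abs_cos_le_one _) (abs_nonneg _) (Real.abs_cos_le_one _)
  · refine le_trans (Finset.sum_le_sum fun i _ => ?_) (h n)
    rw [sub_mul, Real.cos_sub, ← abs_mul]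
    apply le_of_eq; congr 1; ring

lemma Phi_cov_add (hβ : 1 < β) (s t M : ℝ)
    (h : ∀ n : ℕ, ∑ i ∈ Finset.range n, |Real.sin (s * (β⁻¹) ^ i)| * |Real.sin (t * (β⁻¹) ^ i)| ≤ M) :
    |Phi β (s + t) - Phi β s * Phi β t| ≤ M := by
  have h1 := ((Phi_tendsto hβ (s + t)).sub ((Phi_tendsto hβ s).mul (Phi_tendsto hβ t))).abs
  refine le_of_tendsto h1 (Eventually.of_forall fun n => ?_)
  rw [← Finset.prod_mul_distrib]
  refine (abs_prod_sub_prod_le n _ _ (fun i => Real.abs_cos_le_one _) (fun i => ?_)).trans ?_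
  · rw [abs_mul]
    exact mul_le_one₀ (Real.abs_cos_le_one _) (abs_nonneg _) (Real.abs_cos_le_one _)
  · refine le_trans (Finset.sum_le_sum fun i _ => ?_) (h n)
    rw [add_mul, Real.cos_add, ← abs_mul, ← abs_neg]
    apply le_of_eq; congr 1; ring

lemma integrable_cos_nu (hβ : 1 < β) (s : ℝ) :
    Integrable (fun x => Real.cos (s * x)) (bernoulliConvolution β⁻¹) := by
  have := isProb hβ
  apply Integrable.mono' (g := fun _ => (1 : ℝ)) (integrable_const _)
  · exact (by fun_prop : Continuous fun x => Real.cos (s * x)).aestronglyMeasurable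
  · exact Eventually.of_forall fun x => by rw [Real.norm_eq_abs]; exact Real.abs_cos_le_one _

lemma cov_int (hβ : 1 < β) (s t M : ℝ)
    (h : ∀ n : ℕ, ∑ i ∈ Finset.range n, |Real.sin (s * (β⁻¹) ^ i)| * |Real.sin (t * (β⁻¹) ^ i)| ≤ M) :
    |∫ x, (Real.cos (s * x) - Phi β s) * (Real.cos (t * x) - Phi β t)
      ∂(bernoulliConvolution β⁻¹)| ≤ M := by
  have := isProb hβ
  have h1 : ∀ x, (Real.cos (s * x) - Phi β s) * (Real.cos (t * x) - Phi β t)
      = ((1 / 2) * Real.cos ((s - t) * x) + (1 / 2) * Real.cos ((s + t) * x))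
        - (Phi β t * Real.cos (s * x) + Phi β s * Real.cos (t * x)) + Phi β s * Phi β t := by
    intro x
    rw [sub_mul s t x, add_mul s t x, Real.cos_sub, Real.cos_add]; ring
  simp_rw [h1]
  have i1 := integrable_cos_nu hβ
  have j1 : Integrable (fun x => (1 / 2) * Real.cos ((s - t) * x) + (1 / 2) * Real.cos ((s + t) * x))
      (bernoulliConvolution β⁻¹) := ((i1 (s - t)).const_mul _).add ((i1 (s + t)).const_mul _)
  have j2 : Integrable (fun x => Phi β t * Real.cos (s * x) + Phi β s * Real.cos (t * x))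
      (bernoulliConvolution β⁻¹) := ((i1 s).const_mul _).add ((i1 t).const_mul _)
  have j3 : Integrable (fun x => ((1 / 2) * Real.cos ((s - t) * x) + (1 / 2) * Real.cos ((s + t) * x))
      - (Phi β t * Real.cos (s * x) + Phi β s * Real.cos (t * x)))
      (bernoulliConvolution β⁻¹) := j1.sub j2
  rw [integral_add j3 (integrable_const _), integral_sub j1 j2,
    integral_add ((i1 (s - t)).const_mul _) ((i1 (s + t)).const_mul _),
    integral_add ((i1 s).const_mul _) ((i1 t).const_mul _), integral_const_mul, integral_const_mul,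
    integral_const_mul, integral_const_mul, integral_const]
  simp only [probReal_univ, smul_eq_mul, one_mul]
  have h2 := Phi_cov_sub hβ s t M h
  have h3 := Phi_cov_add hβ s t M h
  have h4 : (1 / 2) * ∫ x, Real.cos ((s - t) * x) ∂(bernoulliConvolution β⁻¹)
      = (1 / 2) * Phi β (s - t) := rfl
  have h5 : (1 / 2) * ∫ x, Real.cos ((s + t) * x) ∂(bernoulliConvolution β⁻¹)
      = (1 / 2) * Phi β (s + t) := rfl
  have h6 : Phi β t * ∫ x, Real.cos (s * x) ∂(bernoulliConvolution β⁻¹)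
      = Phi β t * Phi β s := rfl
  have h7 : Phi β s * ∫ x, Real.cos (t * x) ∂(bernoulliConvolution β⁻¹)
      = Phi β s * Phi β t := rfl
  rw [h4, h5, h6, h7]
  rw [abs_le] at h2 h3 ⊢
  constructor <;> nlinarith

/-! pointwise bounds on sines -/

lemma abs_sin_int_sub (z : ℤ) (t : ℝ) : |Real.sin (Real.pi * (z - t))| = |Real.sin (Real.pi * t)| := by
  rw [show Real.pi * ((z : ℝ) - t) = -(Real.pi * t - z * Real.pi) by ring, Real.sin_neg,
    Real.sin_sub_int_mul_pi, abs_neg, abs_mul]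
  simp

lemma sin_p1 (hβ : 1 < β) (a : ℝ) (W : ℕ) (ha : |a| ≤ β ^ W) (j : ℤ) :
    |Real.sin (Real.pi * (a * β ^ j))| ≤ Real.pi * β ^ W * β ^ j := by
  have hβ0 : 0 < β := by linarith
  refine Real.abs_sin_le_abs.trans ?_
  rw [abs_mul, abs_mul, abs_of_pos Real.pi_pos, abs_of_pos (zpow_pos hβ0 _), mul_assoc]
  have := zpow_pos hβ0 j
  have := Real.pi_pos
  gcongr

lemma sin_p2 (hβ : 1 < β) (ω : ℂ) (hω : ‖ω‖ = 1) (a a2 : ℝ) (a1 : ℂ) (hint : IntT β ω a a2 a1)
    (W : ℕ) (D : ℝ) (ha2 : |a2| ≤ β ^ W) (ha1 : ‖a1‖ ≤ 1 / D) (j : ℤ) :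
    |Real.sin (Real.pi * (a * β ^ j))| ≤ Real.pi * β ^ W * β ^ (-j) + 2 * Real.pi / D := by
  have hβ0 : 0 < β := by linarith
  have hpi := Real.pi_pos
  obtain ⟨z, hz⟩ := hint j
  have h1 : a * β ^ j = z - (a2 * β ^ (-j) + 2 * (a1 * ω ^ j).re) := by rw [← hz]; ring
  rw [h1, abs_sin_int_sub]
  refine Real.abs_sin_le_abs.trans ?_
  rw [abs_mul, abs_of_pos hpi]
  have h2 : |(a1 * ω ^ j).re| ≤ 1 / D := by
    refine (Complex.abs_re_le_norm _).trans ?_
    rw [norm_mul, norm_zpow, hω, one_zpow, mul_one]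
    exact ha1
  have h3 : |a2 * β ^ (-j)| ≤ β ^ W * β ^ (-j) := by
    rw [abs_mul, abs_of_pos (zpow_pos hβ0 _)]
    exact mul_le_mul_of_nonneg_right ha2 (zpow_pos hβ0 _).le
  have h4 : |a2 * β ^ (-j) + 2 * (a1 * ω ^ j).re| ≤ β ^ W * β ^ (-j) + 2 * (1 / D) := by
    refine (abs_add_le _ _).trans ?_
    rw [abs_mul 2, abs_two]
    linarith
  calc Real.pi * |a2 * β ^ (-j) + 2 * (a1 * ω ^ j).re|
      ≤ Real.pi * (β ^ W * β ^ (-j) + 2 * (1 / D)) := by gcongr
    _ = _ := by ring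

lemma sin_sum (hβ : 1 < β) (ω : ℂ) (hω : ‖ω‖ = 1) (a a2 : ℝ) (a1 : ℂ) (hint : IntT β ω a a2 a1)
    (W : ℕ) (D : ℝ) (hD : 0 < D) (ha : |a| ≤ β ^ W) (ha2 : |a2| ≤ β ^ W) (ha1 : ‖a1‖ ≤ 1 / D)
    (n : ℕ) (S : Finset ℤ) (hS : ∀ j ∈ S, j ≤ n) :
    ∑ j ∈ S, |Real.sin (Real.pi * (a * β ^ j))|
      ≤ 2 * Real.pi / (β - 1) + 2 * W + 1 + 2 * Real.pi * n / D := by
  have hβ0 : 0 < β := by linarith
  have hβ0' : β ≠ 0 := hβ0.ne'
  have hβ1 : 0 < β - 1 := by linarith
  have hpi := Real.pi_pos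
  rw [← Finset.sum_filter_add_sum_filter_not S (fun j => j < -(W : ℤ))]
  rw [← Finset.sum_filter_add_sum_filter_not (S.filter (fun j => ¬ (j < -(W : ℤ)))) (fun j => j ≤ (W : ℤ))]
  set S1 := S.filter (fun j => j < -(W : ℤ)) with hS1
  set S2 := (S.filter (fun j => ¬ (j < -(W : ℤ)))).filter (fun j => j ≤ (W : ℤ)) with hS2
  set S3 := (S.filter (fun j => ¬ (j < -(W : ℤ)))).filter (fun j => ¬ (j ≤ (W : ℤ))) with hS3
  have b1 : ∑ j ∈ S1, |Real.sin (Real.pi * (a * β ^ j))| ≤ Real.pi / (β - 1) := by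
    calc _ ≤ ∑ j ∈ S1, Real.pi * β ^ W * β ^ j := Finset.sum_le_sum fun j _ => sin_p1 hβ a W ha j
      _ = Real.pi * β ^ W * ∑ j ∈ S1, β ^ j := by rw [Finset.mul_sum]
      _ ≤ Real.pi * β ^ W * (β ^ (-(W : ℤ)) / (β - 1)) := by
          gcongr
          exact sum_zpow_lt β hβ _ _ fun j hj => (Finset.mem_filter.1 hj).2
      _ = Real.pi / (β - 1) := by
          rw [zpow_neg, zpow_natCast]
          have : β ^ W ≠ 0 := by positivity
          field_simp
  have b2 : ∑ j ∈ S2, |Real.sin (Real.pi * (a * β ^ j))| ≤ 2 * W + 1 := by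
    calc _ ≤ ∑ j ∈ S2, (1 : ℝ) := Finset.sum_le_sum fun i _ => Real.abs_sin_le_one _
      _ = (S2.card : ℝ) := by simp
      _ ≤ ((Finset.Icc (-(W : ℤ)) W).card : ℝ) := by
          have : S2 ⊆ Finset.Icc (-(W : ℤ)) W := by
            intro i hi
            rw [hS2, Finset.mem_filter, Finset.mem_filter] at hi
            rw [Finset.mem_Icc]
            exact ⟨by omega, hi.2⟩
          exact_mod_cast Finset.card_le_card this
      _ = 2 * W + 1 := by
          rw [Int.card_Icc]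
          have : ((W : ℤ) + 1 - -(W : ℤ)).toNat = 2 * W + 1 := by omega
          rw [this]; push_cast; ring
  have b3 : ∑ j ∈ S3, |Real.sin (Real.pi * (a * β ^ j))| ≤ Real.pi / (β - 1) + 2 * Real.pi * n / D := by
    have hge : ∀ j ∈ S3, (W : ℤ) + 1 ≤ j := by
      intro j hj
      have := (Finset.mem_filter.1 hj).2
      omega
    have hcard : (S3.card : ℝ) ≤ n := by
      have hsub : S3 ⊆ Finset.Icc 1 (n : ℤ) := by
        intro j hj
        rw [Finset.mem_Icc]
        refine ⟨by have := hge j hj; omega, hS j ?_⟩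
        rw [hS3, Finset.mem_filter, Finset.mem_filter] at hj
        exact hj.1.1
      have := Finset.card_le_card hsub
      rw [Int.card_Icc] at this
      have h2 : ((n : ℤ) + 1 - 1).toNat = n := by omega
      rw [h2] at this
      exact_mod_cast this
    calc _ ≤ ∑ j ∈ S3, (Real.pi * β ^ W * β ^ (-j) + 2 * Real.pi / D) :=
          Finset.sum_le_sum fun j _ => sin_p2 hβ ω hω a a2 a1 hint W D ha2 ha1 j
      _ = Real.pi * β ^ W * ∑ j ∈ S3, β ^ (-j) + S3.card * (2 * Real.pi / D) := by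
          rw [Finset.sum_add_distrib, Finset.mul_sum, Finset.sum_const, nsmul_eq_mul]
      _ ≤ Real.pi * β ^ W * (β ^ (-((W : ℤ) + 1)) * β / (β - 1)) + n * (2 * Real.pi / D) := by
          gcongr
          exact sum_zpow_neg_ge β hβ _ _ hge
      _ = Real.pi / (β - 1) + 2 * Real.pi * n / D := by
          rw [zpow_neg, zpow_add_one₀ hβ0', zpow_natCast]
          field_simp
  have : 2 * Real.pi / (β - 1) = Real.pi / (β - 1) + Real.pi / (β - 1) := by ring
  linarith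

lemma sin_sin_sum (hβ : 1 < β) (ω : ℂ) (hω : ‖ω‖ = 1) (a a2 : ℝ) (a1 : ℂ)
    (hint : IntT β ω a a2 a1)
    (W : ℕ) (D : ℝ) (hD : 0 < D) (ha : |a| ≤ β ^ W) (ha2 : |a2| ≤ β ^ W) (ha1 : ‖a1‖ ≤ 1 / D)
    (n d : ℕ) (hd : 4 * W ≤ d) (S : Finset ℤ) (hS : ∀ j ∈ S, j ≤ n) :
    ∑ j ∈ S, |Real.sin (Real.pi * (a * β ^ j))| * |Real.sin (Real.pi * (a * β ^ (j - d)))|
      ≤ 2 * Real.pi * β * (β ^ W)⁻¹ / (β - 1)
        + (2 * Real.pi / D) * (2 * Real.pi / (β - 1) + 2 * W + 1 + 2 * Real.pi * n / D) := by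
  have hβ0 : 0 < β := by linarith
  have hβ0' : β ≠ 0 := hβ0.ne'
  have hβ1 : 0 < β - 1 := by linarith
  have hpi := Real.pi_pos
  have hs0 : ∀ x : ℝ, 0 ≤ |Real.sin x| := fun x => abs_nonneg _
  rw [← Finset.sum_filter_add_sum_filter_not S (fun j => j < 2 * (W : ℤ) + 1)]
  set S1 := S.filter (fun j => j < 2 * (W : ℤ) + 1) with hS1
  set S2 := S.filter (fun j => ¬ (j < 2 * (W : ℤ) + 1)) with hS2
  have b1 : ∑ j ∈ S1, |Real.sin (Real.pi * (a * β ^ j))| * |Real.sin (Real.pi * (a * β ^ (j - d)))|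
      ≤ Real.pi * β * (β ^ W)⁻¹ / (β - 1) := by
    calc _ ≤ ∑ j ∈ S1, 1 * (Real.pi * β ^ W * β ^ (j - d)) := by
          refine Finset.sum_le_sum fun j _ => ?_
          exact mul_le_mul (Real.abs_sin_le_one _) (sin_p1 hβ a W ha _) (hs0 _) zero_le_one
      _ = Real.pi * β ^ W * (β ^ (-(d : ℤ)) * ∑ j ∈ S1, β ^ j) := by
          rw [Finset.mul_sum, Finset.mul_sum]
          refine Finset.sum_congr rfl fun j _ => ?_
          rw [sub_eq_add_neg, zpow_add₀ hβ0']; ring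
      _ ≤ Real.pi * β ^ W * (β ^ (-(d : ℤ)) * (β ^ (2 * (W : ℤ) + 1) / (β - 1))) := by
          gcongr
          exact sum_zpow_lt β hβ _ _ fun j hj => (Finset.mem_filter.1 hj).2
      _ = Real.pi * (β ^ ((W : ℤ) + (-(d : ℤ) + (2 * (W : ℤ) + 1)))) / (β - 1) := by
          rw [zpow_add₀ hβ0' (W : ℤ), zpow_add₀ hβ0' (-(d : ℤ)), zpow_natCast]; ring
      _ ≤ Real.pi * (β ^ (1 + -(W : ℤ))) / (β - 1) := by
          have hz : β ^ ((W : ℤ) + (-(d : ℤ) + (2 * (W : ℤ) + 1))) ≤ β ^ (1 + -(W : ℤ)) :=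
            zpow_le_zpow_right₀ hβ.le (by omega)
          exact div_le_div_of_nonneg_right (mul_le_mul_of_nonneg_left hz hpi.le) hβ1.le
      _ = Real.pi * β * (β ^ W)⁻¹ / (β - 1) := by
          rw [zpow_add₀ hβ0', zpow_neg, zpow_natCast, zpow_one]; ring
  have b2 : ∑ j ∈ S2, |Real.sin (Real.pi * (a * β ^ j))| * |Real.sin (Real.pi * (a * β ^ (j - d)))|
      ≤ Real.pi * β * (β ^ W)⁻¹ / (β - 1)
        + (2 * Real.pi / D) * (2 * Real.pi / (β - 1) + 2 * W + 1 + 2 * Real.pi * n / D) := by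
    have hge : ∀ j ∈ S2, 2 * (W : ℤ) + 1 ≤ j := by
      intro j hj
      have := (Finset.mem_filter.1 hj).2
      omega
    have hss : ∑ j ∈ S2, |Real.sin (Real.pi * (a * β ^ (j - d)))|
        ≤ 2 * Real.pi / (β - 1) + 2 * W + 1 + 2 * Real.pi * n / D := by
      have := sin_sum hβ ω hω a a2 a1 hint W D hD ha ha2 ha1 n
        (S2.map (addRightEmbedding (-(d : ℤ)))) (by
          intro j hj
          simp only [Finset.mem_map, addRightEmbedding_apply] at hj
          obtain ⟨i, hi, rfl⟩ := hj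
          have := hS i (Finset.mem_filter.1 hi).1
          omega)
      rw [Finset.sum_map] at this
      simpa only [addRightEmbedding_apply, ← sub_eq_add_neg] using this
    calc _ ≤ ∑ j ∈ S2, (Real.pi * β ^ W * β ^ (-j)
            + (2 * Real.pi / D) * |Real.sin (Real.pi * (a * β ^ (j - d)))|) := by
          refine Finset.sum_le_sum fun j _ => ?_
          have h1 := sin_p2 hβ ω hω a a2 a1 hint W D ha2 ha1 j
          have h2 := Real.abs_sin_le_one (Real.pi * (a * β ^ (j - d)))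
          have h3 := hs0 (Real.pi * (a * β ^ (j - d)))
          have h4 : 0 ≤ Real.pi * β ^ W * β ^ (-j) := by positivity
          calc |Real.sin (Real.pi * (a * β ^ j))| * |Real.sin (Real.pi * (a * β ^ (j - d)))|
              ≤ (Real.pi * β ^ W * β ^ (-j) + 2 * Real.pi / D)
                * |Real.sin (Real.pi * (a * β ^ (j - d)))| := by gcongr
            _ = (Real.pi * β ^ W * β ^ (-j)) * |Real.sin (Real.pi * (a * β ^ (j - d)))|
                + 2 * Real.pi / D * |Real.sin (Real.pi * (a * β ^ (j - d)))| := by ring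
            _ ≤ (Real.pi * β ^ W * β ^ (-j)) * 1
                + 2 * Real.pi / D * |Real.sin (Real.pi * (a * β ^ (j - d)))| := by gcongr
            _ = _ := by ring
      _ = Real.pi * β ^ W * ∑ j ∈ S2, β ^ (-j)
            + (2 * Real.pi / D) * ∑ j ∈ S2, |Real.sin (Real.pi * (a * β ^ (j - d)))| := by
          rw [Finset.sum_add_distrib, Finset.mul_sum, Finset.mul_sum]
      _ ≤ Real.pi * β ^ W * (β ^ (-(2 * (W : ℤ) + 1)) * β / (β - 1))
            + (2 * Real.pi / D) * (2 * Real.pi / (β - 1) + 2 * W + 1 + 2 * Real.pi * n / D) := by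
          gcongr
          exact sum_zpow_neg_ge β hβ _ _ hge
      _ ≤ _ := by
          gcongr
          calc Real.pi * β ^ W * (β ^ (-(2 * (W : ℤ) + 1)) * β / (β - 1))
              = Real.pi * β ^ ((W : ℤ) + (-(2 * (W : ℤ) + 1)) + 1) / (β - 1) := by
                rw [zpow_add_one₀ hβ0', zpow_add₀ hβ0', zpow_natCast]; ring
            _ ≤ Real.pi * β ^ (1 + -(W : ℤ)) / (β - 1) := by
                have hz : β ^ ((W : ℤ) + (-(2 * (W : ℤ) + 1)) + 1) ≤ β ^ (1 + -(W : ℤ)) :=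
                  zpow_le_zpow_right₀ hβ.le (by omega)
                exact div_le_div_of_nonneg_right (mul_le_mul_of_nonneg_left hz hpi.le) hβ1.le
            _ = Real.pi * β * (β ^ W)⁻¹ / (β - 1) := by
                rw [zpow_add₀ hβ0', zpow_neg, zpow_natCast, zpow_one]; ring
  have : 2 * Real.pi * β * (β ^ W)⁻¹ / (β - 1)
      = Real.pi * β * (β ^ W)⁻¹ / (β - 1) + Real.pi * β * (β ^ W)⁻¹ / (β - 1) := by ring
  linarith

end Crest.Agent.S0137
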