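import Crest.Agent.S0137_Phi
import Crest.Agent.S0137_Iter

set_option autoImplicit false

namespace Crest.Agent.S0137

open MeasureTheory ProbabilityTheory Filter Topology Crest.AnalysisR

variable {β : ℝ}

/-- Fourier-side facts at the frequencies `π a β^k`. -/
lemma freq_eq (hβ : 1 < β) (a : ℝ) (k i : ℕ) :
    Real.pi * a * β ^ k * (β⁻¹) ^ i = Real.pi * (a * β ^ ((k : ℤ) - i)) := by
  have hβ0' : β ≠ 0 := by positivity
  rw [zpow_sub₀ hβ0', zpow_natCast, zpow_natCast, inv_pow]
  ring

lemma Phi_freq_ge (hβ : 1 < β) (a M c B : ℝ) (hP : Pr β a M c B) (k : ℕ) (hk : (k : ℝ) ≤ M) :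
    1 / B ≤ |Phi β (Real.pi * a * β ^ k)| := by
  apply abs_Phi_ge hβ
  intro n
  have hinj : Function.Injective (fun i : ℕ => (k : ℤ) - i) := by
    intro i j hij
    simp only at hij
    omega
  have := hP.2 ((Finset.range n).map ⟨fun i : ℕ => (k : ℤ) - i, hinj⟩) (by
    intro j hj
    simp only [Finset.mem_map, Function.Embedding.coeFn_mk] at hj
    obtain ⟨i, _, rfl⟩ := hj
    have : (0 : ℝ) ≤ i := Nat.cast_nonneg _
    push_cast
    linarith)
  rw [Finset.prod_map] at this
  simp only [Function.Embedding.coeFn_mk] at this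
  refine this.trans (le_of_eq ?_)
  refine Finset.prod_congr rfl fun i _ => ?_
  rw [freq_eq hβ]

lemma sin_freq (hβ : 1 < β) (ω : ℂ) (hω : ‖ω‖ = 1) (a a2 : ℝ) (a1 : ℂ)
    (hint : IntT β ω a a2 a1)
    (W : ℕ) (D : ℝ) (hD : 0 < D) (ha : |a| ≤ β ^ W) (ha2 : |a2| ≤ β ^ W) (ha1 : ‖a1‖ ≤ 1 / D)
    (n k l : ℕ) (hkn : k ≤ n) (hkl : l + 4 * W ≤ k) (m : ℕ) :
    ∑ i ∈ Finset.range m, |Real.sin (Real.pi * a * β ^ k * (β⁻¹) ^ i)|
      * |Real.sin (Real.pi * a * β ^ l * (β⁻¹) ^ i)|
      ≤ 2 * Real.pi * β * (β ^ W)⁻¹ / (β - 1)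
        + (2 * Real.pi / D) * (2 * Real.pi / (β - 1) + 2 * W + 1 + 2 * Real.pi * n / D) := by
  have hinj : Function.Injective (fun i : ℕ => (k : ℤ) - i) := by
    intro i j hij
    simp only at hij
    omega
  have := sin_sin_sum hβ ω hω a a2 a1 hint W D hD ha ha2 ha1 n (k - l) (by omega)
    ((Finset.range m).map ⟨fun i : ℕ => (k : ℤ) - i, hinj⟩) (by
      intro j hj
      simp only [Finset.mem_map, Function.Embedding.coeFn_mk] at hj
      obtain ⟨i, _, rfl⟩ := hj
      omega)
  rw [Finset.sum_map] at this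
  simp only [Function.Embedding.coeFn_mk] at this
  refine le_trans (le_of_eq ?_) this
  refine Finset.sum_congr rfl fun i _ => ?_
  rw [freq_eq hβ, freq_eq hβ]
  congr 5
  push_cast [Nat.cast_sub (by omega : l ≤ k)]
  ring_nf

lemma beta_pow_ge (hβ : 1 < β) (g : ℕ) : (g * Real.log β) ^ 2 / 2 ≤ β ^ g - 1 := by
  have hβ0 : 0 < β := by linarith
  have h1 : 0 ≤ g * Real.log β := mul_nonneg (Nat.cast_nonneg _) (Real.log_nonneg hβ.le)
  have h2 := Real.quadratic_le_exp_of_nonneg h1
  have h3 : Real.exp (g * Real.log β) = β ^ g := by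
    rw [← Real.log_pow, Real.exp_log (by positivity)]
  rw [h3] at h2
  linarith

/-- Main quantitative statement. -/
lemma sing_quant (hβ : 1 < β) (ω : ℂ) (hω : ‖ω‖ = 1) (a a2 : ℝ) (a1 : ℂ)
    (hint : IntT β ω a a2 a1) (ha1' : 1 ≤ a)
    (W K : ℕ) (D B c κ δ R : ℝ) (hD : 0 < D) (hB : 0 < B) (hR : 0 ≤ R)
    (ha : |a| ≤ β ^ W) (ha2 : |a2| ≤ β ^ W) (ha1 : ‖a1‖ ≤ 1 / D) (hW : 1 ≤ W) (hK : 1 ≤ K)
    (hP : Pr β a (D ^ 2 / 160) c B) (hn : ((4 * W * K : ℕ) : ℝ) ≤ D ^ 2 / 160)
    (hκ : 2 * Real.pi * β * (β ^ W)⁻¹ / (β - 1)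
        + (2 * Real.pi / D) * (2 * Real.pi / (β - 1) + 2 * W + 1
          + 2 * Real.pi * (4 * W * K : ℕ) / D) ≤ κ)
    (hδ : 2 / (Real.pi * (β ^ (4 * W) - 1)) ≤ δ) :
    ∃ A : Set ℝ, MeasurableSet A ∧
      (bernoulliConvolution β⁻¹).real Aᶜ ≤ 4 * B ^ 2 * (4 / K + κ) ∧
      (volume : Measure ℝ).real (A ∩ Set.Icc (-R) R) ≤ 4 * B ^ 2 * (2 * R / K + δ) := by
  have hβ0 : 0 < β := by linarith
  have hpi := Real.pi_pos
  have hprob := isProb hβ
  have hKr : (0 : ℝ) < K := by exact_mod_cast hK
  let k : ℕ → ℕ := fun r => 4 * W * (r + 1)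
  let t : ℕ → ℝ := fun r => Real.pi * a * β ^ (k r)
  have hkle : ∀ r, r < K → k r ≤ 4 * W * K := fun r hr => Nat.mul_le_mul_left _ hr
  have hkr : ∀ r, r < K → (k r : ℝ) ≤ D ^ 2 / 160 := fun r hr =>
    le_trans (by exact_mod_cast hkle r hr) hn
  let σ : ℕ → ℝ := fun r => if 0 ≤ Phi β (t r) then 1 else -1
  have hσ : ∀ r, |σ r| ≤ 1 := by
    intro r; simp only [σ]; split_ifs <;> simp
  have hσPhi : ∀ r, σ r * Phi β (t r) = |Phi β (t r)| := by
    intro r
    simp only [σ]
    split_ifs with h
    · rw [one_mul, abs_of_nonneg h]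
    · rw [neg_one_mul, abs_of_neg (not_le.1 h)]
  set lam : ℝ := K / (2 * B) with hlam
  have hlam0 : 0 < lam := by positivity
  let L : ℝ → ℝ := fun x => ∑ r ∈ Finset.range K, σ r * Real.cos (t r * x)
  have hLc : Continuous L := by
    apply continuous_finsetSum
    intro r _
    fun_prop
  refine ⟨{x | lam ≤ |L x|}, (isClosed_le continuous_const hLc.abs).measurableSet, ?_, ?_⟩
  · -- nu side
    have h1 := cheb_sum (bernoulliConvolution β⁻¹) K
      (fun r x => Real.cos (t r * x) - Phi β (t r)) (fun r => by fun_prop) 2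
      (fun r x => by
        have h2 := Real.abs_cos_le_one (t r * x)
        have h3 := abs_Phi_le_one hβ (t r)
        have h4 := abs_sub (Real.cos (t r * x)) (Phi β (t r))
        linarith)
      (fun r s => (if r = s then 4 else 0) + κ) (by
        have hκ0 : 0 ≤ κ := by
          refine le_trans ?_ hκ
          have : 0 < β - 1 := by linarith
          positivity
        intro r s hr hs
        rcases lt_trichotomy r s with hrs | hrs | hrs
        · have h2 := cov_int hβ (t s) (t r) κ (fun m => (sin_freq hβ ω hω a a2 a1 hint W D hD ha ha2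
            ha1 (4 * W * K) (k s) (k r) (hkle s hs) (by
              simp only [k]
              have : r + 1 ≤ s := hrs
              calc 4 * W * (r + 1) + 4 * W = 4 * W * ((r + 1) + 1) := by ring
                _ ≤ 4 * W * (s + 1) := Nat.mul_le_mul_left _ (by omega)) m).trans hκ)
          rw [if_neg hrs.ne, zero_add]
          refine le_trans (le_of_eq ?_) h2
          congr 1
          apply integral_congr_ae
          exact Eventually.of_forall fun x => mul_comm _ _
        · subst hrs
          rw [if_pos rfl]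
          have h2 : |∫ x, (Real.cos (t r * x) - Phi β (t r)) * (Real.cos (t r * x) - Phi β (t r))
              ∂(bernoulliConvolution β⁻¹)| ≤ 4 := by
            rw [← Real.norm_eq_abs]
            refine (norm_integral_le_of_norm_le_const (C := 4) (Eventually.of_forall fun x => ?_)).trans ?_
            · have h2 := Real.abs_cos_le_one (t r * x)
              have h3 := abs_Phi_le_one hβ (t r)
              have h4 := abs_sub (Real.cos (t r * x)) (Phi β (t r))
              have h5 : |Real.cos (t r * x) - Phi β (t r)| ≤ 2 := by linarith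
              rw [Real.norm_eq_abs, abs_mul]
              nlinarith [abs_nonneg (Real.cos (t r * x) - Phi β (t r))]
            · simp
          linarith
        · have h2 := cov_int hβ (t r) (t s) κ (fun m => (sin_freq hβ ω hω a a2 a1 hint W D hD ha ha2
            ha1 (4 * W * K) (k r) (k s) (hkle r hr) (by
              simp only [k]
              have : s + 1 ≤ r := hrs
              calc 4 * W * (s + 1) + 4 * W = 4 * W * ((s + 1) + 1) := by ring
                _ ≤ 4 * W * (r + 1) := Nat.mul_le_mul_left _ (by omega)) m).trans hκ)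
          rw [if_neg hrs.ne', zero_add]
          exact h2)
      σ hσ lam hlam0
    have h2 : (bernoulliConvolution β⁻¹).real {x | lam ≤ |L x|}ᶜ
        ≤ (bernoulliConvolution β⁻¹).real {x | lam ≤ |∑ r ∈ Finset.range K,
          σ r * (Real.cos (t r * x) - Phi β (t r))|} := by
      apply measureReal_mono _ (measure_ne_top _ _)
      intro x hx
      simp only [Set.mem_compl_iff, Set.mem_ofPred_eq, not_le] at hx ⊢
      have h3 : ∑ r ∈ Finset.range K, σ r * (Real.cos (t r * x) - Phi β (t r))
          = L x - ∑ r ∈ Finset.range K, |Phi β (t r)| := by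
        simp only [L]
        rw [← Finset.sum_sub_distrib]
        refine Finset.sum_congr rfl fun r _ => ?_
        rw [← hσPhi]; ring
      have h4 : (K : ℝ) * (1 / B) ≤ ∑ r ∈ Finset.range K, |Phi β (t r)| := by
        calc (K : ℝ) * (1 / B) = ∑ r ∈ Finset.range K, (1 / B) := by simp
          _ ≤ _ := Finset.sum_le_sum fun r hr =>
            Phi_freq_ge hβ a _ c B hP (k r) (hkr r (Finset.mem_range.1 hr))
      have h5 : (K : ℝ) * (1 / B) = 2 * lam := by rw [hlam]; field_simp
      rw [h3, abs_sub_comm]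
      refine le_trans ?_ (le_abs_self _)
      have h6 := (abs_lt.1 hx).2
      linarith
    refine h2.trans (h1.trans (le_of_eq ?_))
    have h7 : ∑ r ∈ Finset.range K, ∑ s ∈ Finset.range K, ((if r = s then (4 : ℝ) else 0) + κ)
        = K * 4 + K * K * κ := by
      rw [show ∑ r ∈ Finset.range K, ∑ s ∈ Finset.range K, ((if r = s then (4 : ℝ) else 0) + κ)
        = ∑ r ∈ Finset.range K, ((4 : ℝ) + K * κ) from ?_]
      · rw [Finset.sum_const, Finset.card_range, nsmul_eq_mul]; ring
      · refine Finset.sum_congr rfl fun r hr => ?_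
        rw [Finset.sum_add_distrib, Finset.sum_ite_eq, if_pos hr, Finset.sum_const,
          Finset.card_range, nsmul_eq_mul]
    rw [h7, hlam]
    field_simp
    ring
  · -- Lebesgue side
    have hδ0 : 0 ≤ δ := by
      refine le_trans ?_ hδ
      have : 0 ≤ β ^ (4 * W) - 1 := by
        have := one_le_pow₀ hβ.le (n := 4 * W)
        linarith
      positivity
    have hβg : 0 < β ^ (4 * W) - 1 := by
      have := one_lt_pow₀ hβ (by omega : 4 * W ≠ 0)
      linarith
    have htpos : ∀ r, 0 < t r := fun r => by simp only [t]; positivity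
    have hdiff : ∀ r s, r < s → Real.pi * (β ^ (4 * W) - 1) ≤ t s - t r := by
      intro r s hrs
      simp only [t, k]
      have h1 : β ^ (4 * W * (s + 1)) = β ^ (4 * W * (r + 1)) * β ^ (4 * W * (s - r)) := by
        rw [← pow_add]; congr 1
        rw [← mul_add]; congr 1; omega
      have h2 : β ^ (4 * W) ≤ β ^ (4 * W * (s - r)) :=
        pow_le_pow_right₀ hβ.le (Nat.le_mul_of_pos_right _ (by omega))
      have h3 : 1 ≤ β ^ (4 * W * (r + 1)) := one_le_pow₀ hβ.le
      have h4 : β ^ (4 * W) - 1 ≤ β ^ (4 * W * (s + 1)) - β ^ (4 * W * (r + 1)) := by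
        rw [h1]; nlinarith
      calc Real.pi * (β ^ (4 * W) - 1)
          ≤ Real.pi * (1 * (β ^ (4 * W * (s + 1)) - β ^ (4 * W * (r + 1)))) := by
            rw [one_mul]; gcongr
        _ ≤ Real.pi * (a * (β ^ (4 * W * (s + 1)) - β ^ (4 * W * (r + 1)))) := by
            gcongr
            linarith
        _ = _ := by ring
    have hfr : ∀ r s, r < s → |∫ x in Set.Icc (-R) R, Real.cos (t s * x) * Real.cos (t r * x)| ≤ δ := by
      intro r s hrs
      have h1 := hdiff r s hrs
      have h2 : 0 < Real.pi * (β ^ (4 * W) - 1) := by positivity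
      refine (leb_cos_cos R (t s) (t r) hR (htpos r) (by linarith)).trans (le_trans ?_ hδ)
      exact div_le_div_of_nonneg_left (by norm_num) h2 h1
    have h1 := cheb_sum ((volume : Measure ℝ).restrict (Set.Icc (-R) R)) K
      (fun r x => Real.cos (t r * x)) (fun r => by fun_prop) 1
      (fun r x => Real.abs_cos_le_one _)
      (fun r s => (if r = s then 2 * R else 0) + δ) (by
        intro r s _ _
        rcases lt_trichotomy r s with hrs | hrs | hrs
        · rw [if_neg hrs.ne, zero_add]
          refine le_trans (le_of_eq ?_) (hfr r s hrs)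
          congr 1
          apply integral_congr_ae
          exact Eventually.of_forall fun x => mul_comm _ _
        · subst hrs
          rw [if_pos rfl]
          have h2 : |∫ x in Set.Icc (-R) R, Real.cos (t r * x) * Real.cos (t r * x)| ≤ 2 * R := by
            rw [← Real.norm_eq_abs]
            refine (norm_setIntegral_le_of_norm_le_const (C := 1) ?_ ?_).trans ?_
            · rw [Real.volume_Icc]; exact ENNReal.ofReal_lt_top
            · intro x _
              rw [Real.norm_eq_abs, abs_mul]
              exact mul_le_one₀ (Real.abs_cos_le_one _) (abs_nonneg _) (Real.abs_cos_le_one _)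
            · rw [Real.volume_real_Icc_of_le (by linarith)]; linarith
          linarith
        · rw [if_neg hrs.ne', zero_add]
          exact hfr s r hrs)
      σ hσ lam hlam0
    have h2 : (volume : Measure ℝ).real ({x | lam ≤ |L x|} ∩ Set.Icc (-R) R)
        = ((volume : Measure ℝ).restrict (Set.Icc (-R) R)).real
          {x | lam ≤ |∑ r ∈ Finset.range K, σ r * Real.cos (t r * x)|} := by
      rw [measureReal_restrict_apply (isClosed_le continuous_const hLc.abs).measurableSet]
    rw [h2]
    refine h1.trans (le_of_eq ?_)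
    have h7 : ∑ r ∈ Finset.range K, ∑ s ∈ Finset.range K, ((if r = s then 2 * R else 0) + δ)
        = K * (2 * R) + K * K * δ := by
      rw [show ∑ r ∈ Finset.range K, ∑ s ∈ Finset.range K, ((if r = s then 2 * R else 0) + δ)
        = ∑ r ∈ Finset.range K, (2 * R + K * δ) from ?_]
      · rw [Finset.sum_const, Finset.card_range, nsmul_eq_mul]; ring
      · refine Finset.sum_congr rfl fun r hr => ?_
        rw [Finset.sum_add_distrib, Finset.sum_ite_eq, if_pos hr, Finset.sum_const,
          Finset.card_range, nsmul_eq_mul]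
    rw [h7, hlam]
    field_simp
    ring

end Crest.Agent.S0137
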