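import Crest.Agent.S0137_Cos

set_option autoImplicit false

namespace Crest.Agent.S0137

open Real

lemma norm_pow_mul_sub_one_le (ω : ℂ) (hω : ‖ω‖ = 1) (s q : ℕ) :
    ‖ω ^ (s * q) - 1‖ ≤ s * ‖ω ^ q - 1‖ := by
  induction s with
  | zero => simp
  | succ s ih =>
    have h : ω ^ ((s + 1) * q) - 1 = ω ^ (s * q) * (ω ^ q - 1) + (ω ^ (s * q) - 1) := by
      rw [add_mul, one_mul, pow_add]; ring
    rw [h]
    refine (norm_add_le _ _).trans ?_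
    rw [norm_mul, norm_pow, hω, one_pow, one_mul]
    push_cast
    linarith

lemma dirichlet (ω : ℂ) (hω : ‖ω‖ = 1) (Q : ℕ) (hQ : 0 < Q) :
    ∃ q : ℕ, 1 ≤ q ∧ q ≤ Q ∧ ‖ω ^ q - 1‖ ≤ 2 * π / (Q + 1) := by
  obtain ⟨j, k, hk0, hkQ, hjk⟩ := Real.exists_int_int_abs_mul_sub_le (Complex.arg ω / (2 * π)) hQ
  obtain ⟨q, rfl⟩ : ∃ q : ℕ, k = q := ⟨k.toNat, by omega⟩
  refine ⟨q, by exact_mod_cast hk0, by exact_mod_cast hkQ, ?_⟩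
  have hpi := pi_pos
  have h1 : ω = Complex.exp (Complex.arg ω * Complex.I) := by
    have := Complex.norm_mul_exp_arg_mul_I ω
    rw [hω] at this
    simpa using this.symm
  set θ := Complex.arg ω with hθ
  have h2 : ω ^ q = Complex.exp (Complex.I * ((2 * π * (q * (θ / (2 * π)) - j) : ℝ) : ℂ)) := by
    rw [h1, ← Complex.exp_nat_mul]
    rw [Complex.exp_eq_exp_iff_exists_int]
    refine ⟨j, ?_⟩
    push_cast
    have : (π : ℂ) ≠ 0 := by exact_mod_cast hpi.ne'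
    field_simp
    ring
  rw [h2]
  refine norm_exp_I_mul_ofReal_sub_one_le.trans ?_
  rw [Real.norm_eq_abs, abs_mul, abs_of_pos (by positivity : 0 < 2 * π)]
  have h3 : |(q : ℝ) * (θ / (2 * π)) - j| ≤ 1 / (Q + 1) := by exact_mod_cast hjk
  calc 2 * π * |(q : ℝ) * (θ / (2 * π)) - j| ≤ 2 * π * (1 / (Q + 1)) := by gcongr
    _ = 2 * π / (Q + 1) := by ring

lemma IntT.swap {β : ℝ} {ω : ℂ} {a a2 : ℝ} {a1 : ℂ} (hω : ‖ω‖ = 1)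
    (h : IntT β ω a a2 a1) : IntT β ω a2 a ((starRingEnd ℂ) a1) := by
  intro i
  obtain ⟨z, hz⟩ := h (-i)
  refine ⟨z, ?_⟩
  rw [← hz, neg_neg]
  have h1 : ((starRingEnd ℂ) a1 * ω ^ i).re = (a1 * ω ^ (-i)).re := by
    have h2 : ω ^ (-i) = (starRingEnd ℂ) (ω ^ i) := by
      rw [zpow_neg, map_zpow₀, Complex.inv_def, ← map_zpow₀, Complex.normSq_eq_norm_sq, norm_zpow, hω]
      simp
    rw [h2]
    rw [← Complex.conj_re (a1 * (starRingEnd ℂ) (ω ^ i)), map_mul, Complex.conj_conj]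
  rw [h1]
  ring

lemma IntT.step {β : ℝ} (hβ : 1 < β) {ω : ℂ} {a a2 : ℝ} {a1 : ℂ} (hω : ‖ω‖ = 1)
    (h : IntT β ω a a2 a1) (N : ℕ) :
    IntT β ω (a * (β ^ N - 1)) (a2 * ((β ^ N)⁻¹ - 1)) (a1 * (ω ^ N - 1)) := by
  have hβ0 : β ≠ 0 := by positivity
  have hω0 : ω ≠ 0 := by
    intro h; rw [h] at hω; simp at hω
  intro i
  obtain ⟨z1, hz1⟩ := h (i + N)
  obtain ⟨z2, hz2⟩ := h i
  refine ⟨z1 - z2, ?_⟩
  have h3 : (a1 * ω ^ (i + N)).re - (a1 * ω ^ i).re = (a1 * (ω ^ N - 1) * ω ^ i).re := by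
    rw [← Complex.sub_re]
    congr 1
    rw [zpow_add₀ hω0, zpow_natCast]; ring
  push_cast
  rw [← hz1, ← hz2, ← h3]
  rw [neg_add, zpow_add₀ hβ0, zpow_add₀ hβ0, zpow_natCast, zpow_neg, zpow_neg, zpow_natCast]
  ring

/-- full two-sided step -/
lemma step_both (β : ℝ) (hβ : 1 < β) (ω : ℂ) (hω : ‖ω‖ = 1) (a a2 : ℝ) (a1 : ℂ)
    (hint : IntT β ω a a2 a1) (W N : ℕ) (D D' c B : ℝ)
    (ha : |a| ≤ β ^ W) (ha2 : |a2| ≤ β ^ W) (hN : 4 * W ≤ N) (hND : (N : ℝ) ≤ D ^ 2 / 160)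
    (hD' : 0 < D') (ha1 : ‖a1 * (ω ^ N - 1)‖ ≤ 1 / D') (hc : 0 < c) (hB : 0 < B)
    (h1 : Pr β a (D ^ 2 / 160) c B) (h2 : Pr β a2 (D ^ 2 / 160) c B)
    (hsmall : (π / c + π ^ 2) * ((β ^ W)⁻¹ * β / (β - 1))
      + (2 * π / (c * D')) * (3 * W + 1 + π / (β - 1))
      + 4 * π ^ 2 * ((D' ^ 2 / 160 + 2 * W + 1) / D' ^ 2) ≤ 1 / 2) :
    Pr β (a * (β ^ N - 1)) (D' ^ 2 / 160) (c - π * ((β ^ W)⁻¹ + 2 / D')) (4 * B ^ 2) ∧
    Pr β (a2 * ((β ^ N)⁻¹ - 1)) (D' ^ 2 / 160) (c - π * ((β ^ W)⁻¹ + 2 / D')) (4 * B ^ 2) := by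
  have hβ0 : β ≠ 0 := by positivity
  refine ⟨step_core β hβ ω hω a a2 a1 hint W N D D' c B ha ha2 hN hND hD' ha1 hc hB h1 h2 hsmall, ?_⟩
  have h3 := step_core β hβ ω hω a2 a ((starRingEnd ℂ) a1) (hint.swap hω) W N D D' c B ha2 ha hN hND
    hD' (by rw [norm_mul, RCLike.norm_conj, ← norm_mul]; exact ha1) hc hB h2 h1 hsmall
  have key : ∀ i : ℤ, |cos (π * (a2 * ((β ^ N)⁻¹ - 1) * β ^ i))|
      = |cos (π * (a2 * (β ^ N - 1) * β ^ (i - (N : ℤ))))| := by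
    intro i
    rw [← Real.cos_neg]
    congr 2
    rw [zpow_sub₀ hβ0, zpow_natCast]
    have : β ^ N ≠ 0 := by positivity
    field_simp
    ring
  refine ⟨fun i => ?_, fun S hS => ?_⟩
  · rw [key]; exact h3.1 _
  · have := h3.2 (S.map (addRightEmbedding (-(N : ℤ)))) (by
      intro j hj
      simp only [Finset.mem_map, addRightEmbedding_apply] at hj
      obtain ⟨i, hi, rfl⟩ := hj
      have := hS i hi
      have hN0 : (0 : ℝ) ≤ N := Nat.cast_nonneg _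
      push_cast
      linarith)
    rw [Finset.prod_map] at this
    simp only [addRightEmbedding_apply, ← sub_eq_add_neg] at this
    calc _ ≤ _ := this
      _ = _ := Finset.prod_congr rfl fun i _ => (key i).symm

/-- The inductive property. -/
def Good (β : ℝ) (ω : ℂ) (c0 : ℝ) (W0 : ℕ) (D B : ℝ) : Prop :=
  ∃ (a a2 : ℝ) (a1 : ℂ) (W : ℕ), IntT β ω a a2 a1 ∧ 1 ≤ a ∧ |a| ≤ β ^ W ∧ |a2| ≤ β ^ W ∧
    ‖a1‖ ≤ 1 / D ∧ (W : ℝ) ^ 4 ≤ D ^ 3 ∧ W0 ≤ W ∧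
    Pr β a (D ^ 2 / 160) (c0 + 1 / W) B ∧ Pr β a2 (D ^ 2 / 160) (c0 + 1 / W) B

end Crest.Agent.S0137
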