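import Crest.Agent.S0137_Step

set_option autoImplicit false

namespace Crest.Agent.S0137

open Real

lemma numeric_step (t : ℝ) (W q s : ℕ) (ht : (10 : ℝ) ^ 30 ≤ t) (hW : 1 ≤ W) (hq : 1 ≤ q)
    (hWt : (W : ℝ) ≤ t ^ 3) (hqt : (q : ℝ) ≤ t ^ 8 / 320) (hs1 : 4 * W ≤ s * q)
    (hs2 : s * q ≤ 4 * W + q) :
    ((W : ℝ) + s * q) ^ 4 ≤ (t ^ 12 / (640 * π * s)) ^ 3 ∧
      t ^ 44 ≤ (t ^ 12 / (640 * π * s)) ^ 5 := by
  have hpi := pi_pos
  have hpi4 : π < 4 := by linarith [pi_lt_d2]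
  have ht0 : 0 < t := by linarith [show (0 : ℝ) < 10 ^ 30 by norm_num]
  have hW' : (1 : ℝ) ≤ W := by exact_mod_cast hW
  have hq' : (1 : ℝ) ≤ q := by exact_mod_cast hq
  have hs : 1 ≤ s := by
    rcases Nat.eq_zero_or_pos s with h | h
    · subst h; omega
    · exact h
  have hs' : (1 : ℝ) ≤ s := by exact_mod_cast hs
  have h1 : 4 * (W : ℝ) ≤ s * q := by exact_mod_cast hs1
  have h2 : (s : ℝ) * q ≤ 4 * W + q := by exact_mod_cast hs2
  set y : ℝ := s * q with hy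
  have hy0 : 0 < y := by positivity
  have hden : 0 < 640 * π * s := by positivity
  -- bound with 4 instead of pi
  have hlow : t ^ 12 / (2560 * s) ≤ t ^ 12 / (640 * π * s) := by
    apply div_le_div_of_nonneg_left (by positivity) hden
    nlinarith
  have hlow0 : 0 < t ^ 12 / (2560 * s) := by positivity
  have ht1 : 1 ≤ t := le_trans (by norm_num) ht
  have hp : ∀ k : ℕ, k ≠ 0 → (10 : ℝ) ^ 30 ≤ t ^ k := fun k hk =>
    ht.trans (le_self_pow₀ ht1 hk)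
  have hWle : (W : ℝ) + y ≤ 5 / 4 * y := by linarith
  constructor
  · have h3 : ((W : ℝ) + y) ^ 4 ≤ (5 / 4 * y) ^ 4 := pow_le_pow_left₀ (by positivity) hWle 4
    refine h3.trans (le_trans ?_ (pow_le_pow_left₀ hlow0.le hlow 3))
    have h4 : t ^ 12 / (2560 * s) = t ^ 12 * q / (2560 * y) := by
      rw [hy]; field_simp
    rw [h4, div_pow, le_div_iff₀ (by positivity)]
    by_cases hc : (q : ℝ) ≤ 4 * W
    · have h5 : y ≤ 8 * t ^ 3 := by linarith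
      have h6 : y ^ 7 ≤ (8 * t ^ 3) ^ 7 := pow_le_pow_left₀ hy0.le h5 7
      have h7 : (1 : ℝ) ≤ (q : ℝ) ^ 3 := one_le_pow₀ hq'
      calc (5 / 4 * y) ^ 4 * (2560 * y) ^ 3 = (5 / 4) ^ 4 * 2560 ^ 3 * y ^ 7 := by ring
        _ ≤ (5 / 4) ^ 4 * 2560 ^ 3 * (8 * t ^ 3) ^ 7 := by gcongr
        _ = ((5 / 4) ^ 4 * 2560 ^ 3 * 8 ^ 7) * t ^ 21 := by ring
        _ ≤ t ^ 15 * t ^ 21 := by
            gcongr
            refine le_trans ?_ (hp 15 (by norm_num))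
            norm_num
        _ = t ^ 36 * 1 := by ring
        _ ≤ t ^ 36 * (q : ℝ) ^ 3 := by gcongr
        _ = (t ^ 12 * q) ^ 3 := by ring
    · have h5 : y ≤ 2 * q := by linarith
      have h6 : y ^ 7 ≤ (2 * (q : ℝ)) ^ 7 := pow_le_pow_left₀ hy0.le h5 7
      have h8 : (q : ℝ) ^ 4 ≤ (t ^ 8 / 320) ^ 4 := pow_le_pow_left₀ (by positivity) hqt 4
      calc (5 / 4 * y) ^ 4 * (2560 * y) ^ 3 = (5 / 4) ^ 4 * 2560 ^ 3 * y ^ 7 := by ring
        _ ≤ (5 / 4) ^ 4 * 2560 ^ 3 * (2 * (q : ℝ)) ^ 7 := by gcongr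
        _ = ((5 / 4) ^ 4 * 2560 ^ 3 * 2 ^ 7) * (q : ℝ) ^ 4 * (q : ℝ) ^ 3 := by ring
        _ ≤ ((5 / 4) ^ 4 * 2560 ^ 3 * 2 ^ 7) * (t ^ 8 / 320) ^ 4 * (q : ℝ) ^ 3 := by gcongr
        _ = ((5 / 4) ^ 4 * 2560 ^ 3 * 2 ^ 7 / 320 ^ 4) * (t ^ 32 * (q : ℝ) ^ 3) := by ring
        _ ≤ t ^ 4 * (t ^ 32 * (q : ℝ) ^ 3) := by
            gcongr
            refine le_trans ?_ (hp 4 (by norm_num))
            norm_num
        _ = (t ^ 12 * q) ^ 3 := by ring
  · have h5 : t ^ 9 / 20480 ≤ t ^ 12 / (2560 * s) := by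
      rw [div_le_div_iff₀ (by positivity) (by positivity)]
      have h6 : (s : ℝ) ≤ 8 * t ^ 3 := by
        by_cases hc : (q : ℝ) ≤ 4 * W
        · have : (s : ℝ) * 1 ≤ s * q := by gcongr
          linarith
        · have h7 : (s : ℝ) * q ≤ 2 * q := by linarith
          have h8 : (s : ℝ) ≤ 2 := le_of_mul_le_mul_right h7 (by linarith)
          have := hp 3 (by norm_num)
          have h9 : (1 : ℝ) ≤ 10 ^ 30 := by norm_num
          linarith
      calc t ^ 9 * (2560 * s) ≤ t ^ 9 * (2560 * (8 * t ^ 3)) := by gcongr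
        _ = t ^ 12 * 20480 := by ring
    have h6 : 0 ≤ t ^ 9 / 20480 := by positivity
    refine le_trans ?_ (pow_le_pow_left₀ h6 (h5.trans hlow) 5)
    rw [div_pow, le_div_iff₀ (by positivity)]
    calc t ^ 44 * 20480 ^ 5 ≤ t ^ 44 * t := by
          gcongr
          refine le_trans ?_ ht
          norm_num
      _ = (t ^ 9) ^ 5 := by ring

lemma good_step (β : ℝ) (hβ : 1 < β) (ω : ℂ) (hω : ‖ω‖ = 1) (c0 : ℝ) (hc0 : 0 < c0)
    (W0 : ℕ) (hW0 : ∀ W : ℕ, W0 ≤ W →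
      1 ≤ W ∧ 2 ≤ β ^ W ∧ (π / c0 + π ^ 2) * ((β ^ W)⁻¹ * β / (β - 1)) ≤ 1 / 16 ∧
      π * (β ^ W)⁻¹ ≤ 2 / (5 * W))
    (D B : ℝ) (hD1 : (10 : ℝ) ^ 120 ≤ D) (hD2 : 32 * π * (4 + π / (β - 1)) / c0 ≤ D)
    (hB : 0 < B) (h : Good β ω c0 W0 D B) :
    ∃ D' : ℝ, D ^ 11 ≤ D' ^ 5 ∧ D ≤ D' ∧ Good β ω c0 W0 D' (4 * B ^ 2) := by
  obtain ⟨a, a2, a1, W, hint, ha1', ha, ha2, ha1, hWD, hW0W, hP1, hP2⟩ := h
  obtain ⟨hW1, hW2, hW3, hW4⟩ := hW0 W hW0W
  have hpi := pi_pos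
  have hpi4 : π < 4 := by linarith [pi_lt_d2]
  have hβ1 : 0 < β - 1 := by linarith
  have hD0 : 0 < D := lt_of_lt_of_le (by positivity) hD1
  have hWr : (1 : ℝ) ≤ W := by exact_mod_cast hW1
  -- t
  obtain ⟨t, ht0, htD⟩ : ∃ t : ℝ, 0 < t ∧ t ^ 4 = D := by
    refine ⟨D ^ (1 / 4 : ℝ), by positivity, ?_⟩
    rw [← Real.rpow_natCast, ← Real.rpow_mul hD0.le]
    norm_num
  have ht : (10 : ℝ) ^ 30 ≤ t := by
    by_contra hcon
    push Not at hcon
    have : t ^ 4 < ((10 : ℝ) ^ 30) ^ 4 := pow_lt_pow_left₀ hcon ht0.le (by norm_num)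
    rw [htD, ← pow_mul] at this
    exact absurd hD1 (not_le.2 this)
  have ht1 : (1 : ℝ) ≤ t := le_trans (by norm_num) ht
  have hWt : (W : ℝ) ≤ t ^ 3 := by
    by_contra hcon
    push Not at hcon
    have : (t ^ 3) ^ 4 < (W : ℝ) ^ 4 := pow_lt_pow_left₀ hcon (by positivity) (by norm_num)
    have h2 : (t ^ 3) ^ 4 = D ^ 3 := by rw [← htD]; ring
    rw [h2] at this
    linarith
  have hDt8 : D ^ 2 = t ^ 8 := by rw [← htD]; ring
  -- Dirichlet
  set Q := ⌊D ^ 2 / 320⌋₊ with hQ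
  have hD2big : (10 : ℝ) ^ 120 ≤ D ^ 2 :=
    hD1.trans (le_self_pow₀ (le_trans (by norm_num) hD1) (by norm_num))
  have hQpos : 0 < Q := by
    rw [hQ, Nat.floor_pos, le_div_iff₀ (by norm_num)]
    refine le_trans ?_ hD2big
    norm_num
  have hQle : (Q : ℝ) ≤ D ^ 2 / 320 := Nat.floor_le (by positivity)
  have hQlt : D ^ 2 / 320 < (Q : ℝ) + 1 := Nat.lt_floor_add_one _
  obtain ⟨q, hq1, hqQ, hq⟩ := dirichlet ω hω Q hQpos
  have hqr : (q : ℝ) ≤ D ^ 2 / 320 := le_trans (by exact_mod_cast hqQ) hQle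
  -- s
  obtain ⟨s, hs1, hs2⟩ : ∃ s : ℕ, 4 * W ≤ s * q ∧ s * q ≤ 4 * W + q := by
    refine ⟨(4 * W) / q + 1, ?_, ?_⟩
    · have := Nat.div_add_mod (4 * W) q
      have h2 := Nat.mod_lt (4 * W) (by omega : q > 0)
      have : (4 * W / q + 1) * q = q * (4 * W / q) + q := by ring
      omega
    · have := Nat.div_mul_le_self (4 * W) q
      have h2 : (4 * W / q + 1) * q = 4 * W / q * q + q := by ring
      omega
  have hs : 1 ≤ s := by
    rcases Nat.eq_zero_or_pos s with h | h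
    · subst h; omega
    · exact h
  have hsr : (1 : ℝ) ≤ s := by exact_mod_cast hs
  obtain ⟨hn1, hn2⟩ := numeric_step t W q s ht hW1 hq1 hWt (by rw [← hDt8]; exact hqr) hs1 hs2
  set D' := t ^ 12 / (640 * π * s) with hD'
  have hD'0 : 0 < D' := by positivity
  have hD'eq : 1 / D' = 640 * π * s / D ^ 3 := by
    rw [hD', ← htD]; field_simp
  have hN2 : (s * q : ℕ) ≤ D ^ 2 / 160 := by
    have h1 : ((s * q : ℕ) : ℝ) ≤ 4 * W + q := by exact_mod_cast hs2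
    have h2 : 4 * (W : ℝ) ≤ D ^ 2 / 320 := by
      rw [hDt8]
      have h3 : t ^ 3 * 1280 ≤ t ^ 3 * t ^ 5 := by
        gcongr
        exact (le_trans (by norm_num) ht).trans (le_self_pow₀ ht1 (by norm_num))
      have h4 : t ^ 3 * t ^ 5 = t ^ 8 := by ring
      linarith
    linarith
  have hnorm : ‖a1 * (ω ^ (s * q) - 1)‖ ≤ 1 / D' := by
    rw [norm_mul, hD'eq]
    have h1 := norm_pow_mul_sub_one_le ω hω s q
    have h2 : 2 * π / ((Q : ℝ) + 1) ≤ 640 * π / D ^ 2 := by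
      rw [div_le_div_iff₀ (by positivity) (by positivity)]
      nlinarith
    calc ‖a1‖ * ‖ω ^ (s * q) - 1‖ ≤ (1 / D) * (s * (640 * π / D ^ 2)) := by
          apply mul_le_mul ha1 _ (norm_nonneg _) (by positivity)
          refine h1.trans ?_
          gcongr
          exact hq.trans h2
      _ = 640 * π * s / D ^ 3 := by field_simp
  -- D^2 ≤ D'
  have hDD' : D ^ 2 ≤ D' := by
    have h1 : (D ^ 2) ^ 5 ≤ D' ^ 5 := by
      refine le_trans ?_ hn2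
      rw [hDt8, ← pow_mul]
      exact pow_le_pow_right₀ ht1 (by norm_num)
    by_contra hcon
    push Not at hcon
    have := pow_lt_pow_left₀ hcon hD'0.le (by norm_num : (5 : ℕ) ≠ 0)
    linarith
  have hWD1 : (W : ℝ) ≤ D := by
    refine hWt.trans ?_
    rw [← htD]
    exact pow_le_pow_right₀ ht1 (by norm_num)
  have hD1' : (1 : ℝ) ≤ D := le_trans (by norm_num) hD1
  have hDD1 : D ≤ D ^ 2 := by nlinarith
  set c := c0 + 1 / (W : ℝ) with hcdef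
  have hcc0 : c0 ≤ c := by
    have : (0 : ℝ) ≤ 1 / W := by positivity
    linarith
  have hc : 0 < c := by linarith
  -- smallness
  have hsmall : (π / c + π ^ 2) * ((β ^ W)⁻¹ * β / (β - 1))
      + (2 * π / (c * D')) * (3 * W + 1 + π / (β - 1))
      + 4 * π ^ 2 * ((D' ^ 2 / 160 + 2 * W + 1) / D' ^ 2) ≤ 1 / 2 := by
    have s1 : (π / c + π ^ 2) * ((β ^ W)⁻¹ * β / (β - 1)) ≤ 1 / 16 := by
      refine le_trans ?_ hW3
      gcongr
    have s2 : (2 * π / (c * D')) * (3 * W + 1 + π / (β - 1)) ≤ 1 / 16 := by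
      have h1 : 3 * (W : ℝ) + 1 + π / (β - 1) ≤ (4 + π / (β - 1)) * D := by
        have : 0 < π / (β - 1) := by positivity
        nlinarith
      calc (2 * π / (c * D')) * (3 * W + 1 + π / (β - 1))
          ≤ (2 * π / (c0 * D ^ 2)) * ((4 + π / (β - 1)) * D) := by gcongr
        _ = (32 * π * (4 + π / (β - 1)) / c0) / (16 * D) := by field_simp; norm_num
        _ ≤ D / (16 * D) := by gcongr
        _ = 1 / 16 := by field_simp
    have s3 : 4 * π ^ 2 * ((D' ^ 2 / 160 + 2 * W + 1) / D' ^ 2) ≤ 1 / 4 + 1 / 16 := by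
      have hpi2 : π ^ 2 < 9.88 := by
        have := pi_lt_d4
        nlinarith [pi_pos]
      have h1 : (D' ^ 2 / 160 + 2 * W + 1) / D' ^ 2 = 1 / 160 + (2 * W + 1) / D' ^ 2 := by
        field_simp
        ring
      have h2 : (2 * (W : ℝ) + 1) / D' ^ 2 ≤ 3 / D := by
        rw [div_le_div_iff₀ (by positivity) hD0]
        have h3 : (2 * (W : ℝ) + 1) ≤ 3 * D := by linarith
        have h4 : D ^ 2 ≤ D' ^ 2 := by
          apply pow_le_pow_left₀ hD0.le; linarith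
        nlinarith
      have h3 : 3 / D ≤ 1 / 10 ^ 6 := by
        rw [div_le_div_iff₀ hD0 (by positivity)]
        have : (3 : ℝ) * 10 ^ 6 ≤ 10 ^ 120 := by norm_num
        linarith
      rw [h1]
      nlinarith
    linarith
  obtain ⟨hR1, hR2⟩ := step_both β hβ ω hω a a2 a1 hint W (s * q) D D' c B ha ha2 hs1 hN2 hD'0
    hnorm hc hB hP1 hP2 hsmall
  -- new W
  set W' := W + s * q with hW'
  have hW'5 : 5 * W ≤ W' := by omega
  have hcc : c0 + 1 / (W' : ℝ) ≤ c - π * ((β ^ W)⁻¹ + 2 / D') := by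
    have h1 : (1 : ℝ) / W' ≤ 1 / (5 * W) := by
      apply one_div_le_one_div_of_le (by positivity)
      exact_mod_cast hW'5
    have h2 : π * (2 / D') ≤ 2 / (5 * W) := by
      rw [← mul_div_assoc, div_le_div_iff₀ hD'0 (by positivity)]
      have h3 : π * 2 * (5 * (W : ℝ)) ≤ 40 * D := by nlinarith
      have h4 : 40 * D ≤ 2 * D ^ 2 := by
        have : (20 : ℝ) ≤ D := le_trans (by norm_num) hD1
        nlinarith
      linarith
    have h5 : (1 : ℝ) / (5 * W) + 2 / (5 * W) + 2 / (5 * W) = 1 / W := by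
      field_simp; norm_num
    rw [mul_add]
    rw [hcdef]
    linarith
  have hPmono : ∀ x : ℝ, Pr β x (D' ^ 2 / 160) (c - π * ((β ^ W)⁻¹ + 2 / D')) (4 * B ^ 2) →
      Pr β x (D' ^ 2 / 160) (c0 + 1 / (W' : ℝ)) (4 * B ^ 2) :=
    fun x hx => ⟨fun i => hcc.trans (hx.1 i), hx.2⟩
  have hβN : (1 : ℝ) ≤ β ^ (s * q) := one_le_pow₀ hβ.le
  have hβN2 : (2 : ℝ) ≤ β ^ (s * q) := hW2.trans (pow_le_pow_right₀ hβ.le (by omega))
  refine ⟨D', ?_, by linarith, a * (β ^ (s * q) - 1), a2 * ((β ^ (s * q))⁻¹ - 1), a1 * (ω ^ (s * q) - 1), W',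
    hint.step hβ hω _, ?_, ?_, ?_, hnorm, ?_, by omega, hPmono _ hR1, hPmono _ hR2⟩
  · calc D ^ 11 = t ^ 44 := by rw [← htD]; ring
      _ ≤ D' ^ 5 := hn2
  · nlinarith
  · rw [abs_mul, hW', pow_add]
    apply mul_le_mul ha _ (abs_nonneg _) (by positivity)
    rw [abs_of_nonneg (by linarith)]
    linarith
  · rw [abs_mul]
    have h1 : |(β ^ (s * q))⁻¹ - 1| ≤ 1 := by
      have h2 : (β ^ (s * q))⁻¹ ≤ 1 := inv_le_one_of_one_le₀ hβN
      have h3 : 0 < (β ^ (s * q))⁻¹ := by positivity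
      rw [abs_le]; constructor <;> linarith
    calc |a2| * |(β ^ (s * q))⁻¹ - 1| ≤ β ^ W * 1 := by
          apply mul_le_mul ha2 h1 (abs_nonneg _) (by positivity)
      _ ≤ β ^ W' := by
          rw [mul_one]; exact pow_le_pow_right₀ hβ.le (by omega)
  · rw [hW']
    push_cast
    exact hn1

end Crest.Agent.S0137
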