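import Crest.Agent.SEC_GSmooth

/-!
SEC-Charted. `MM` is modelled on `H = ModelProd E¹ (ModelProd E² E²)`. Take a continuous linear equivalence `e : E¹ × (E² × E²) ≃L[ℝ] EuclideanSpace ℝ (Fin 5)`
(dimension count), charts `c.trans e` (e.g. `ChartedSpace.comp` with the singleton charted space of the homeomorphism `e`, or build the `ChartedSpace` by hand: atlas = image
of the atlas under `(·.trans e.toHomeomorph.toOpenPartialHomeomorph)`). Transition maps are conjugated by `e`, so smooth (`isManifold_of_contDiffOn`). For a `ContMDiff` map the local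
expressions are conjugated by `e`. (Mathlib may have `ModelWithCorners.transDiffeomorph`/`transContinuousLinearEquiv` helpers.)
-/

set_option autoImplicit false
open scoped ContDiff Manifold Topology
open Filter

namespace SEC

noncomputable section

section General

variable {E H M : Type*} [NormedAddCommGroup E] [NormedSpace ℝ E] [TopologicalSpace H]
  (I : ModelWithCorners ℝ E H) [I.Boundaryless] [TopologicalSpace M] [ChartedSpace H M]

/-- charts composed with a boundaryless model. -/
@[reducible] def selfCharted : ChartedSpace E M where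
  atlas := (fun c : OpenPartialHomeomorph M H =>
    c.trans I.toHomeomorph.toOpenPartialHomeomorph) '' atlas H M
  chartAt x := (chartAt H x).trans I.toHomeomorph.toOpenPartialHomeomorph
  mem_chart_source x := by simp
  chart_mem_atlas x := ⟨_, chart_mem_atlas H x, rfl⟩

theorem selfCharted_isManifold (n : ℕ∞ω) [IsManifold I n M] :
    @IsManifold ℝ _ E _ _ E _ (modelWithCornersSelf ℝ E) n M _ (selfCharted (M := M) I) := by
  let _ : ChartedSpace E M := selfCharted (M := M) I
  refine isManifold_of_contDiffOn (modelWithCornersSelf ℝ E) n M ?_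
  rintro _ _ ⟨c, hc, rfl⟩ ⟨c', hc', rfl⟩
  have h := ((contDiffGroupoid n I).compatible hc hc').1
  refine ContDiffOn.mono (ContDiffOn.congr h ?_) ?_
  · intro y _
    rfl
  · intro y hy
    obtain ⟨hy, -⟩ := hy
    refine ⟨?_, by rw [I.range_eq_univ]; trivial⟩
    simp only [Set.mem_preimage, OpenPartialHomeomorph.trans_source,
      OpenPartialHomeomorph.symm_source, OpenPartialHomeomorph.trans_target,
      Set.mem_inter_iff] at hy ⊢
    exact ⟨hy.1.2, hy.2.1⟩

theorem selfCharted_contMDiff (n : ℕ∞ω) [IsManifold I n M] (f : M → M)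
    (hf : ContMDiff I I n f) :
    @ContMDiff ℝ _ E _ _ E _ (modelWithCornersSelf ℝ E) M _ (selfCharted (M := M) I)
      E _ _ E _ (modelWithCornersSelf ℝ E) M _ (selfCharted (M := M) I) n f := by
  have hf' := contMDiff_iff.mp hf
  let _ : ChartedSpace E M := selfCharted (M := M) I
  have _ : IsManifold (modelWithCornersSelf ℝ E) n M := selfCharted_isManifold I n
  rw [contMDiff_iff]
  refine ⟨hf'.1, fun x y => ?_⟩
  refine ContDiffOn.mono (ContDiffOn.congr (hf'.2 x y) ?_) ?_
  · intro z _
    rfl
  · intro z hz
    obtain ⟨h1, h2⟩ := hz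
    rw [extChartAt_target] at h1
    rw [Set.mem_preimage, Set.mem_preimage, extChartAt_source] at h2
    refine ⟨?_, ?_⟩
    · rw [extChartAt_target]
      exact ⟨h1.1.2, by rw [I.range_eq_univ]; trivial⟩
    · rw [Set.mem_preimage, Set.mem_preimage, extChartAt_source]
      exact h2.1

end General

/-- transport of the manifold structure to a Euclidean model. -/
theorem exists_charted : ∃ (_ : ChartedSpace (EuclideanSpace ℝ (Fin 5)) MM)
    (_ : IsManifold (modelWithCornersSelf ℝ (EuclideanSpace ℝ (Fin 5))) ∞ MM),
    ∀ f : MM → MM, ContMDiff IM IM 1 f →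
      ContMDiff (modelWithCornersSelf ℝ (EuclideanSpace ℝ (Fin 5)))
        (modelWithCornersSelf ℝ (EuclideanSpace ℝ (Fin 5))) 1 f := by
  have hfin : Module.finrank ℝ (EuclideanSpace ℝ (Fin 1) × (EuclideanSpace ℝ (Fin 2) ×
      EuclideanSpace ℝ (Fin 2))) = Module.finrank ℝ (EuclideanSpace ℝ (Fin 5)) := by
    simp
  let e := ContinuousLinearEquiv.ofFinrankEq hfin
  let J := IM.transContinuousLinearEquiv e
  have : J.Boundaryless := by
    constructor
    rw [ModelWithCorners.transContinuousLinearEquiv_range, ModelWithCorners.range_eq_univ,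
      Set.image_univ, e.surjective.range_eq]
  have h1 : IsManifold J ∞ MM := inferInstance
  have h2 : IsManifold J 1 MM := inferInstance
  refine ⟨selfCharted J, selfCharted_isManifold J ∞, fun f hf => ?_⟩
  apply selfCharted_contMDiff J 1 f
  simpa [J] using hf

end

end SEC
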