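import Crest.Agent.SEC_GSmooth

/-!
SEC-GHomot. `g0`: `z ↦ z²/‖z‖` is continuous, the vector `(z²/‖z‖, ht)` has norm one.
`sphere_homotopic`: normalize `(1-t) f + t g`.
`fM_homotopic`: three components. Circle: path `exp (i s)`. At `(1,p,south)`: `vc1 south = 0`, `v = (vc0 p, 0)`, `nrm v = ‖vc0 p‖`.
Second component `w = (1-θ) stv(F.1) + θ north` normalized vs `g0 p`: never antipodal: if `nrm v ≥ 1/3200`: `F.1 = 50 nrm v (hz/‖hz‖)²` so both horizontal parts are nonnegative
multiples of the same unit vector; antipodal would force both horizontal parts to vanish, `p` is a pole; `south` has `nrm v = 0`; `north`: `v = 0` too. If `nrm v < 1/3200`: either `ht p ≥ 3/5`,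
`θ = 1`, image north, `g0 p` has height `≥ 3/5`; or `ht p < 3/5`, `vc0 p` = stereographic coordinate is small so `ht p < 0`, `θ = 0`, `‖F.1‖ ≤ 1/8` so the image has negative height, and `g0 p` too.
Third component: `‖(1-θ) F.2‖ ≤ 1/8` always, so it has negative height, never antipodal to `south`.
-/

set_option autoImplicit false
open scoped ContDiff Manifold Topology
open Filter

namespace SEC

noncomputable section

private theorem gh_normsq (w : E3) : ‖w‖^2 = w 0 ^ 2 + w 1 ^ 2 + w 2 ^ 2 := by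
  rw [EuclideanSpace.norm_sq_eq, Fin.sum_univ_three]
  simp [Real.norm_eq_abs, sq_abs]

private theorem gh_sph (p : S2) : p.1 0 ^ 2 + p.1 1 ^ 2 + p.1 2 ^ 2 = 1 := by
  rw [← gh_normsq, norm_eq_of_mem_sphere p]; norm_num

private theorem gh_hz (p : S2) : ‖hz p‖^2 = 1 - ht p ^ 2 := by
  have h := gh_sph p
  rw [Complex.sq_norm, Complex.normSq_apply]
  simp only [hz, ht]
  linarith

private theorem gh_nz_val {w : E3} (hw : w ≠ 0) : (nz w : E3) = ‖w‖⁻¹ • w := by
  unfold nz; rw [dif_neg hw]

private theorem gh_nz_cont {X : Type*} [TopologicalSpace X] (w : X → E3) (hw : Continuous w)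
    (h0 : ∀ x, w x ≠ 0) : Continuous fun x => nz (w x) := by
  apply continuous_induced_rng.2
  have : (Subtype.val ∘ fun x => nz (w x)) = fun x => ‖w x‖⁻¹ • w x := by
    funext x; exact gh_nz_val (h0 x)
  rw [this]
  exact (hw.norm.inv₀ fun x => norm_ne_zero_iff.mpr (h0 x)).smul hw

private theorem gh_nz_unit (p : S2) : nz (p : E3) = p := by
  have h1 : ‖(p : E3)‖ = 1 := norm_eq_of_mem_sphere p
  have h0 : (p : E3) ≠ 0 := by
    intro h; rw [h, norm_zero] at h1; norm_num at h1
  apply Subtype.ext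
  rw [gh_nz_val h0, h1, inv_one, one_smul]

/-- the vector of `g0`. -/
private def gv (p : S2) : E3 :=
  !₂[((hz p)^2 / ((‖hz p‖ : ℝ) : ℂ)).re, ((hz p)^2 / ((‖hz p‖ : ℝ) : ℂ)).im, ht p]

private theorem gh_norm_sqdiv (z : ℂ) : ‖z^2 / ((‖z‖ : ℝ) : ℂ)‖ = ‖z‖ := by
  rw [norm_div, norm_pow, Complex.norm_real, norm_norm]
  by_cases hz : ‖z‖ = 0
  · rw [hz]; simp
  · field_simp

private theorem gh_gv_norm (p : S2) : ‖gv p‖ = 1 := by
  have h1 : ‖gv p‖^2 = 1 := by
    rw [gh_normsq]
    have h2 : ‖(hz p)^2 / ((‖hz p‖ : ℝ) : ℂ)‖^2 = ‖hz p‖^2 := by rw [gh_norm_sqdiv]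
    rw [Complex.sq_norm, Complex.normSq_apply, gh_hz] at h2
    simp only [gv, PiLp.toLp_apply, Matrix.cons_val]
    linarith
  nlinarith [norm_nonneg (gv p)]

private theorem gh_gv_ne (p : S2) : gv p ≠ 0 := by
  intro h
  have := gh_gv_norm p
  rw [h, norm_zero] at this; norm_num at this

private theorem gh_g0_val (p : S2) : (g0 p : E3) = gv p := by
  have h : g0 p = nz (gv p) := rfl
  rw [h, gh_nz_val (gh_gv_ne p), gh_gv_norm, inv_one, one_smul]

private theorem gh_cont_sqdiv : Continuous fun z : ℂ => z^2 / ((‖z‖ : ℝ) : ℂ) := by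
  rw [continuous_iff_continuousAt]
  intro z
  by_cases hz : z = 0
  · subst hz
    unfold ContinuousAt
    have h0 : ((0:ℂ)^2 / ((‖(0:ℂ)‖ : ℝ) : ℂ)) = 0 := by simp
    change Tendsto (fun z : ℂ => z ^ 2 / ((‖z‖ : ℝ) : ℂ)) (𝓝 0) (𝓝 ((0:ℂ)^2 / ((‖(0:ℂ)‖ : ℝ) : ℂ)))
    rw [h0, tendsto_zero_iff_norm_tendsto_zero]
    simp only [gh_norm_sqdiv]
    have : Tendsto (fun z : ℂ => ‖z‖) (𝓝 0) (𝓝 ‖(0:ℂ)‖) := continuous_norm.tendsto 0
    simpa using this
  · refine ContinuousAt.div (by fun_prop) ?_ ?_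
    · exact (Complex.continuous_ofReal.comp continuous_norm).continuousAt
    · simpa using hz

private theorem gh_cont_hz : Continuous hz := by
  have : hz = fun p : S2 => ((p.1 0 : ℝ) : ℂ) + ((p.1 1 : ℝ) : ℂ) * Complex.I := by
    funext p
    apply Complex.ext <;> simp [hz]
  rw [this]
  fun_prop

private theorem gh_cont_ht : Continuous ht := by
  unfold ht
  fun_prop

theorem continuous_g0 : Continuous g0 := by
  have h : g0 = fun p => nz (gv p) := rfl
  rw [h]
  refine gh_nz_cont gv ?_ gh_gv_ne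
  have h1 : Continuous fun p : S2 => (hz p)^2 / ((‖hz p‖ : ℝ) : ℂ) :=
    gh_cont_sqdiv.comp gh_cont_hz
  unfold gv
  apply (PiLp.continuous_toLp 2 _).comp
  apply continuous_pi
  intro i
  fin_cases i
  · exact Complex.continuous_re.comp h1
  · exact Complex.continuous_im.comp h1
  · exact gh_cont_ht

theorem continuous_iotaM : Continuous iotaM := by
  unfold iotaM
  fun_prop

/-- straight line homotopy on the sphere. -/
theorem sphere_homotopic {X : Type} [TopologicalSpace X] (f g : C(X, S2))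
    (h : ∀ x, (f x : E3) ≠ -(g x : E3)) : ContinuousMap.Homotopic f g := by
  have hne : ∀ q : unitInterval × X,
      (1 - (q.1 : ℝ)) • (f q.2 : E3) + (q.1 : ℝ) • (g q.2 : E3) ≠ 0 := by
    rintro ⟨t, x⟩ h0
    have ht0 : (0:ℝ) ≤ t := t.2.1
    have ht1 : (t:ℝ) ≤ 1 := t.2.2
    have h1 : (1 - (t:ℝ)) • (f x : E3) = -((t : ℝ) • (g x : E3)) := eq_neg_of_add_eq_zero_left h0
    have h2 := congrArg norm h1
    rw [norm_neg, norm_smul, norm_smul, norm_eq_of_mem_sphere (f x), norm_eq_of_mem_sphere (g x),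
      Real.norm_eq_abs, Real.norm_eq_abs, abs_of_nonneg (by linarith), abs_of_nonneg ht0] at h2
    have h3 : (t:ℝ) = 1/2 := by linarith
    apply h x
    rw [h3] at h1
    have h4 : (1 - (1/2:ℝ)) = 1/2 := by norm_num
    rw [h4, ← smul_neg] at h1
    exact smul_right_injective E3 (by norm_num : (1/2:ℝ) ≠ 0) h1
  refine ⟨⟨⟨fun q => nz ((1 - (q.1 : ℝ)) • (f q.2 : E3) + (q.1 : ℝ) • (g q.2 : E3)), ?_⟩, ?_, ?_⟩⟩
  · refine gh_nz_cont _ ?_ hne
    have h1 : Continuous fun q : unitInterval × X => (q.1 : ℝ) :=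
      continuous_subtype_val.comp continuous_fst
    have h2 : Continuous fun q : unitInterval × X => (f q.2 : E3) :=
      continuous_subtype_val.comp (f.continuous.comp continuous_snd)
    have h3 : Continuous fun q : unitInterval × X => (g q.2 : E3) :=
      continuous_subtype_val.comp (g.continuous.comp continuous_snd)
    exact ((continuous_const.sub h1).smul h2).add (h1.smul h3)
  · intro x
    simp only [Set.Icc.coe_zero, sub_zero, one_smul, zero_smul, add_zero]
    exact gh_nz_unit (f x)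
  · intro x
    simp only [Set.Icc.coe_one, sub_self, one_smul, zero_smul, zero_add]
    exact gh_nz_unit (g x)

private theorem gh_vc1_south : vc1 south = 0 := by
  have : hz south = 0 := by
    apply Complex.ext <;> simp [hz, south, southv]
  unfold vc1; rw [this, mul_zero]

private theorem gh_stv_normsq (Z : ℂ) : ‖stv Z‖^2 = 1 := by
  rw [gh_normsq]
  simp only [stv, PiLp.toLp_apply, Matrix.cons_val]
  have h : ‖Z‖^2 = Z.re^2 + Z.im^2 := by
    rw [Complex.sq_norm, Complex.normSq_apply]; ring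
  have hpos : (‖Z‖^2 + 1) ≠ 0 := by positivity
  field_simp
  rw [h]; ring

private theorem gh_stv_norm (Z : ℂ) : ‖stv Z‖ = 1 := by
  have := gh_stv_normsq Z
  nlinarith [norm_nonneg (stv Z)]

private theorem gh_stv_ne (Z : ℂ) : stv Z ≠ 0 := by
  intro h
  have := gh_stv_norm Z
  rw [h, norm_zero] at this; norm_num at this

private theorem gh_stv_neg {Z : ℂ} (hZ : ‖Z‖ ≤ 1/8) : stv Z 2 < 0 := by
  simp only [stv, PiLp.toLp_apply, Matrix.cons_val]
  apply div_neg_of_neg_of_pos
  · nlinarith [norm_nonneg Z]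
  · positivity

theorem fM_homotopic (F : ℂ → V → V) (hF : LocalMap F) (hc : Continuous (fM F)) :
    ContinuousMap.Homotopic ((⟨fM F, hc⟩ : C(MM, MM)).comp ⟨iotaM, continuous_iotaM⟩)
      ((⟨iotaM, continuous_iotaM⟩ : C(S2, MM)).comp ⟨g0, continuous_g0⟩) := by
  -- continuity of the components
  have hcomp : Continuous fun p : S2 => fM F (iotaM p) := hc.comp continuous_iotaM
  let a : C(S2, Circle) := ⟨fun p => (fM F (iotaM p)).1, continuous_fst.comp hcomp⟩
  let b : C(S2, S2) := ⟨fun p => (fM F (iotaM p)).2.1,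
    continuous_fst.comp (continuous_snd.comp hcomp)⟩
  let c : C(S2, S2) := ⟨fun p => (fM F (iotaM p)).2.2,
    continuous_snd.comp (continuous_snd.comp hcomp)⟩
  have e1 : ((⟨fM F, hc⟩ : C(MM, MM)).comp ⟨iotaM, continuous_iotaM⟩) = a.prodMk (b.prodMk c) := by
    ext1 p; rfl
  let c' : C(S2, S2) := ContinuousMap.const _ south
  let a' : C(S2, Circle) := ContinuousMap.const _ 1
  have e2 : ((⟨iotaM, continuous_iotaM⟩ : C(S2, MM)).comp ⟨g0, continuous_g0⟩) =
      a'.prodMk ((⟨g0, continuous_g0⟩ : C(S2, S2)).prodMk c') := by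
    ext1 p; rfl
  rw [e1, e2]
  have hnorm1 : ‖((iotaM south).1 : ℂ)‖ = 1 := Circle.norm_coe _
  have hn1 : ‖((1 : Circle) : ℂ)‖ = 1 := Circle.norm_coe _
  -- norm of F when small
  have hFsmall : ∀ v : V, nrm v < 1/3200 → nrm (F ((1:Circle):ℂ) v) ≤ 1/8 := by
    intro v hv
    have := hF.bound ((1:Circle):ℂ) v
    linarith
  have hF2 : ∀ v : V, ‖(F ((1:Circle):ℂ) v).2‖ ≤ 1/8 := by
    intro v
    rcases lt_or_ge (nrm v) (1/3200) with hv | hv
    · exact (norm_snd_le_nrm _).trans (hFsmall v hv)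
    · rw [hF.outer_snd _ v hn1 hv, norm_zero]; norm_num
  have hth0 : ∀ p : S2, 0 ≤ th p := fun p => stp_nonneg _ _ _
  have hth1 : ∀ p : S2, th p ≤ 1 := fun p => stp_le_one _ _ _
  refine ContinuousMap.Homotopic.prodMk ?_ (ContinuousMap.Homotopic.prodMk ?_ ?_)
  · -- circle component
    refine ⟨⟨⟨fun q => Circle.exp (1 - (q.1:ℝ)), ?_⟩, ?_, ?_⟩⟩
    · exact (map_continuous Circle.exp).comp
        (continuous_const.sub (continuous_subtype_val.comp continuous_fst))
    · intro p
      simp [a, fM, iotaM, rotC]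
    · intro p
      simp [a']
  · -- second component
    apply sphere_homotopic
    intro p heq
    have hb : b p = nz ((1 - th p) • stv (F ((1:Circle):ℂ) (vc0 p, vc1 south)).1 +
        th p • northv) := rfl
    have hg : (((⟨g0, continuous_g0⟩ : C(S2, S2)) p : S2) : E3) = gv p := gh_g0_val p
    have hne := fM_vec_ne_zero F hF (iotaM p)
    have hne' : (1 - th p) • stv (F ((1:Circle):ℂ) (vc0 p, vc1 south)).1 +
        th p • northv ≠ 0 := hne
    rw [hg, hb, gh_nz_val hne'] at heq
    rw [gh_vc1_south] at heq hne'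
    set v : V := (vc0 p, 0) with hv
    have hnv : nrm v = ‖vc0 p‖ := by
      rw [hv]; unfold nrm; simp
    set W : E3 := (1 - th p) • stv (F ((1:Circle):ℂ) v).1 + th p • northv with hW
    have hWpos : 0 < ‖W‖⁻¹ := inv_pos.mpr (norm_pos_iff.mpr hne')
    have c0 := congrArg (fun w : E3 => w 0) heq
    have c1 := congrArg (fun w : E3 => w 1) heq
    have c2 := congrArg (fun w : E3 => w 2) heq
    simp only [PiLp.smul_apply, PiLp.neg_apply, smul_eq_mul, gv, Matrix.cons_val] at c0 c1 c2
    rcases lt_or_ge (nrm v) (1/3200) with hsm | hlg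
    · have hF1 : ‖(F ((1:Circle):ℂ) v).1‖ ≤ 1/8 := (norm_fst_le_nrm _).trans (hFsmall v hsm)
      rcases le_or_gt (3/5) (ht p) with hht | hht
      · have hth : th p = 1 := stp_eq_one (by norm_num) hht
        have : W 2 = 1 := by
          rw [hW, hth]
          simp [northv]
        rw [this] at c2
        nlinarith
      · have hvc : vc0 p = ((1 / (1 - ht p) : ℝ) : ℂ) * hz p := by
          unfold vc0
          rw [stp_eq_zero (by norm_num) hht.le, sub_zero]
        have hnvc : ‖vc0 p‖ ^ 2 * (1 - ht p)^2 = 1 - ht p ^ 2 := by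
          rw [hvc, norm_mul, mul_pow, Complex.norm_real, Real.norm_eq_abs, sq_abs, gh_hz]
          have : (1 - ht p) ≠ 0 := by linarith
          field_simp
        have hltht : ht p < 0 := by
          by_contra hcon
          push Not at hcon
          rw [hnv] at hsm
          have h7 : ‖vc0 p‖^2 ≤ (1/3200)^2 :=
            pow_le_pow_left₀ (norm_nonneg _) hsm.le 2
          have h8 : 0 ≤ (1 - ht p)^2 := sq_nonneg _
          have h9 : ‖vc0 p‖ ^ 2 * (1 - ht p)^2 ≤ (1/3200)^2 * (1 - ht p)^2 :=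
            mul_le_mul_of_nonneg_right h7 h8
          nlinarith
        have hth : th p = 0 := stp_eq_zero (by norm_num) hltht.le
        have hW2 : W 2 < 0 := by
          rw [hW, hth]
          have := gh_stv_neg hF1
          simpa using this
        nlinarith
    · -- large vector
      have hvne : vc0 p ≠ 0 := by
        intro h; rw [hnv, h, norm_zero] at hlg; norm_num at hlg
      obtain ⟨s, hs, hvc⟩ : ∃ s : ℝ, 0 < s ∧ vc0 p = (s : ℂ) * hz p := by
        refine ⟨(1 - stp (3/5) (4/5) (ht p)) / (1 - ht p), ?_, rfl⟩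
        have hnn : 0 ≤ (1 - stp (3/5) (4/5) (ht p)) / (1 - ht p) := by
          apply div_nonneg
          · linarith [stp_le_one (3/5) (4/5) (ht p)]
          · nlinarith [gh_hz p, sq_nonneg ‖hz p‖]
        rcases eq_or_lt_of_le hnn with h | h
        · exfalso; apply hvne; unfold vc0; rw [← h]; simp
        · exact h
      have hzne : hz p ≠ 0 := by
        intro h; apply hvne; rw [hvc, h, mul_zero]
      have hF1 := hF.outer_fst ((1:Circle):ℂ) v hn1 hlg (by
        rw [hnv, hv]; simp only; nlinarith [norm_nonneg (vc0 p)])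
      have hdir : v.1 / ((‖v.1‖ : ℝ) : ℂ) = hz p / ((‖hz p‖ : ℝ) : ℂ) := by
        rw [hv]; simp only
        rw [hvc, norm_mul, Complex.norm_real, Real.norm_eq_abs, abs_of_pos hs]
        have h1 : (s : ℂ) ≠ 0 := by exact_mod_cast hs.ne'
        have h2 : ((‖hz p‖ : ℝ) : ℂ) ≠ 0 := by simpa using hzne
        push_cast
        field_simp
      rw [hdir] at hF1
      set e : ℂ := (hz p / ((‖hz p‖ : ℝ) : ℂ))^2 with he
      have hzz : (hz p)^2 / ((‖hz p‖ : ℝ) : ℂ) = ((‖hz p‖ : ℝ) : ℂ) * e := by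
        rw [he]
        have h2 : ((‖hz p‖ : ℝ) : ℂ) ≠ 0 := by simpa using hzne
        field_simp
      rw [hzz] at c0 c1
      set t : ℝ := 50 * nrm v with ht
      have htpos : 0 ≤ t := by rw [ht]; have := nrm_nonneg v; positivity
      have hhz : 0 < ‖hz p‖ := norm_pos_iff.mpr hzne
      have hdpos : 0 < ‖(F ((1:Circle):ℂ) v).1‖^2 + 1 := by positivity
      set d : ℝ := ‖(F ((1:Circle):ℂ) v).1‖^2 + 1 with hd
      have hW0 : W 0 = ((1 - th p) * (2 * t / d)) * e.re := by
        rw [hW]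
        simp only [stv, northv, PiLp.add_apply, PiLp.smul_apply, smul_eq_mul, PiLp.toLp_apply,
          Matrix.cons_val, ← hd]
        rw [hF1, Complex.re_ofReal_mul]
        ring
      have hW1 : W 1 = ((1 - th p) * (2 * t / d)) * e.im := by
        rw [hW]
        simp only [stv, northv, PiLp.add_apply, PiLp.smul_apply, smul_eq_mul, PiLp.toLp_apply,
          Matrix.cons_val, ← hd]
        rw [hF1, Complex.im_ofReal_mul]
        ring
      rw [hW0, Complex.re_ofReal_mul] at c0
      rw [hW1, Complex.im_ofReal_mul] at c1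
      set lam : ℝ := ‖W‖⁻¹ * ((1 - th p) * (2 * t / d)) with hlam
      have hlam0 : 0 ≤ lam := by
        rw [hlam]
        have := hth1 p
        have h5 : 0 ≤ 2 * t / d := by positivity
        have h6 : 0 ≤ (1 - th p) := by linarith
        positivity
      have c0' : (lam + ‖hz p‖) * e.re = 0 := by rw [hlam]; linarith
      have c1' : (lam + ‖hz p‖) * e.im = 0 := by rw [hlam]; linarith
      have hpos : lam + ‖hz p‖ ≠ 0 := by positivity
      have he0 : e = 0 := by
        apply Complex.ext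
        · simpa [hpos] using c0'
        · simpa [hpos] using c1'
      rw [he] at he0
      have h3 : hz p / ((‖hz p‖ : ℝ) : ℂ) = 0 := by
        simpa using he0
      rw [div_eq_zero_iff] at h3
      rcases h3 with h3 | h3
      · exact hzne h3
      · exact hzne (by simpa using h3)
  · -- third component
    apply sphere_homotopic
    intro p heq
    have hcp : c p = nz (stv (((1 - th p : ℝ) : ℂ) *
        (F ((1:Circle):ℂ) (vc0 p, vc1 south)).2)) := rfl
    have hc' : ((c' p : S2) : E3) = southv := rfl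
    rw [hcp, hc', gh_nz_val (gh_stv_ne _), gh_stv_norm, inv_one, one_smul] at heq
    have hsm : ‖((1 - th p : ℝ) : ℂ) * (F ((1:Circle):ℂ) (vc0 p, vc1 south)).2‖ ≤ 1/8 := by
      rw [norm_mul, Complex.norm_real, Real.norm_eq_abs, abs_of_nonneg (by linarith [hth1 p])]
      have h1 := hF2 (vc0 p, vc1 south)
      have h2 := hth0 p
      nlinarith [norm_nonneg (F ((1:Circle):ℂ) (vc0 p, vc1 south)).2]
    have h2 := gh_stv_neg hsm
    rw [heq] at h2
    simp [southv] at h2
    linarith

end

end SEC
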