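import Crest.Agent.SEC_HH2
import Crest.Agent.SEC_GHomot

/-!
SEC-Cycle. `zz = push qt (sqch 0 1) - const south + const north`, `sqch a b = [P00,P10,P11] - [P00,P01,P11]`, `P00=(a,0), P10=(b,0), P01=(a,1), P11=(b,1)`.
`bd (sqch a b) = [P10,P11] + [P00,P10] - [P01,P11] - [P00,P01]` (the diagonals cancel). Under `qt` the horizontal edges are constant (south at height 0, north at height 1), and the
vertical edges at `0` and `1` agree (periodicity), `bd (const 2-simplex) = const 1-simplex`; so `bd zz = 0`.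
`g0 ∘ qt (θ,φ) = qt (2θ,φ)` for `φ ∈ [0,1]`, so `push g0 zz = push qt (sqch 0 2) - const south + const north`. The plane chain
`c = sqch 0 2 - sqch 0 1 - sqch 1 2 + T 0 - T 1`, `T y = single (aff3 (0,y) (1,y) (2,y)) 1`, is a cycle, so a boundary (`plane_acyclic`), and
`push qt c = push g0 zz - 2 zz` since `qt (θ+1,φ) = qt (θ,φ)` and `qt` is constant on the lines of height 0, 1. (`bd_bd` is not needed for this if inconvenient:
then still prove it, it is the usual simplicial identity `fc`.)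
-/

set_option autoImplicit false
open scoped ContDiff Manifold Topology
open Filter

namespace SEC

noncomputable section

theorem bd_single (n : ℕ) {X : Type} [TopologicalSpace X] (σ : Spx (n+1) X) (r : ℝ) :
    bd n X (Finsupp.single σ r) =
      r • ∑ i : Fin (n+2), ((-1:ℝ)^(i:ℕ)) • Finsupp.single (σ.comp (fc i)) (1:ℝ) := by
  simp only [bd, Finsupp.linearCombination_single]

theorem push_single (n : ℕ) {X Y : Type} [TopologicalSpace X] [TopologicalSpace Y] (f : C(X, Y))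
    (σ : Spx n X) (r : ℝ) : push n f (Finsupp.single σ r) = Finsupp.single (f.comp σ) r := by
  simp [push, Finsupp.lmapDomain_apply, Finsupp.mapDomain_single]

theorem bd_push (n : ℕ) {X Y : Type} [TopologicalSpace X] [TopologicalSpace Y] (f : C(X, Y))
    (c : Ch (n+1) X) : bd n Y (push (n+1) f c) = push n f (bd n X c) := by
  induction c using Finsupp.induction_linear with
  | zero => simp only [map_zero]
  | add x y hx hy => simp only [map_add, hx, hy]
  | single σ r =>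
    rw [push_single, bd_single, bd_single, map_smul, map_sum]
    simp only [map_smul, push_single, ContinuousMap.comp_assoc]

theorem sum_pairs_zero {M : Type*} [AddCommGroup M] (n : ℕ) (f : Fin (n+3) → Fin (n+2) → M)
    (hf : ∀ i j : Fin (n+2), i ≤ j → f j.succ i + f i.castSucc j = 0) :
    ∑ a, ∑ b, f a b = 0 := by
  classical
  rw [Finset.sum_comm]
  have h1 : ∀ b, ∑ a, f a b =
      (∑ j : Fin (n+2), if b ≤ j then f j.succ b else 0) +
      ∑ i : Fin (n+2), if i ≤ b then f i.castSucc b else 0 := by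
    intro b
    have h2 : ∑ a, f a b = (∑ a, if b.castSucc < a then f a b else 0) +
        ∑ a, if b.castSucc < a then 0 else f a b := by
      rw [← Finset.sum_add_distrib]
      refine Finset.sum_congr rfl (fun a _ => ?_)
      split_ifs <;> simp
    rw [h2]
    congr 1
    · rw [Fin.sum_univ_succ, if_neg (by simp), zero_add]
      refine Finset.sum_congr rfl (fun j _ => ?_)
      simp only [Fin.castSucc_lt_succ_iff]
    · rw [Fin.sum_univ_castSucc, if_pos (Fin.castSucc_lt_last b), add_zero]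
      refine Finset.sum_congr rfl (fun i _ => ?_)
      simp only [Fin.castSucc_lt_castSucc_iff]
      by_cases h : b < i
      · rw [if_pos h, if_neg (not_le.mpr h)]
      · rw [if_neg h, if_pos (not_lt.mp h)]
  simp only [h1]
  rw [Finset.sum_add_distrib]
  rw [Finset.sum_comm (f := fun (b i : Fin (n+2)) => if i ≤ b then f i.castSucc b else 0)]
  rw [← Finset.sum_add_distrib]
  apply Finset.sum_eq_zero
  intro i _
  rw [← Finset.sum_add_distrib]
  apply Finset.sum_eq_zero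
  intro j _
  by_cases h : i ≤ j
  · rw [if_pos h, if_pos h]; exact hf i j h
  · rw [if_neg h, if_neg h, add_zero]

theorem fc_comp_fc {n : ℕ} (i : Fin (n+2)) (j : Fin (n+2)) (h : i ≤ j) :
    (fc (n := n+1) j.succ).comp (fc i) = (fc (n := n+1) i.castSucc).comp (fc j) := by
  have key : j.succ.succAbove ∘ i.succAbove = i.castSucc.succAbove ∘ j.succAbove := by
    have := SimplexCategory.δ_comp_δ (n := n) h
    funext x
    have h2 := congrArg (fun φ => φ.toOrderHom x) this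
    exact h2
  ext x : 1
  show stdSimplex.map _ (stdSimplex.map _ x) = stdSimplex.map _ (stdSimplex.map _ x)
  rw [stdSimplex.map_comp_apply, stdSimplex.map_comp_apply, key]

theorem bd_bd (n : ℕ) {X : Type} [TopologicalSpace X] (c : Ch (n+2) X) :
    bd n X (bd (n+1) X c) = 0 := by
  induction c using Finsupp.induction_linear with
  | zero => simp only [map_zero]
  | add x y hx hy => simp only [map_add, hx, hy, add_zero]
  | single σ r =>
    rw [bd_single, map_smul, map_sum]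
    simp only [map_smul, bd_single, one_smul]
    have : ∑ a : Fin (n+3), ((-1:ℝ)^(a:ℕ)) • ∑ b : Fin (n+2), ((-1:ℝ)^(b:ℕ)) •
        Finsupp.single ((σ.comp (fc a)).comp (fc b)) (1:ℝ) =
        ∑ a : Fin (n+3), ∑ b : Fin (n+2), ((-1:ℝ)^(a:ℕ) * (-1:ℝ)^(b:ℕ)) •
          Finsupp.single ((σ.comp (fc a)).comp (fc b)) (1:ℝ) := by
      refine Finset.sum_congr rfl (fun a _ => ?_)
      rw [Finset.smul_sum]
      refine Finset.sum_congr rfl (fun b _ => ?_)
      rw [smul_smul]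
    rw [this, sum_pairs_zero, smul_zero]
    intro i j hij
    rw [ContinuousMap.comp_assoc, ContinuousMap.comp_assoc, fc_comp_fc i j hij, ← add_smul]
    have h0 : (-1:ℝ)^((j.succ : Fin (n+3)):ℕ) * (-1:ℝ)^(i:ℕ) +
        (-1:ℝ)^((i.castSucc : Fin (n+3)):ℕ) * (-1:ℝ)^(j:ℕ) = 0 := by
      rw [Fin.val_succ, Fin.val_castSucc, pow_succ]; ring
    rw [h0, zero_smul]

/-- affine segment in the plane. -/
def aff2 (P0 P1 : ℝ × ℝ) : Spx 1 (ℝ × ℝ) :=
  ⟨fun t => t 0 • P0 + t 1 • P1, by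
    have h : ∀ i : Fin 2, Continuous fun t : stdSimplex ℝ (Fin 2) => t i := fun i =>
      (continuous_apply i).comp continuous_subtype_val
    exact ((h 0).smul continuous_const).add ((h 1).smul continuous_const)⟩

theorem fc_apply {n : ℕ} (i : Fin (n+2)) (s : stdSimplex ℝ (Fin (n+1))) (y : Fin (n+2)) :
    (fc i s) y = ∑ x with i.succAbove x = y, s x := by
  show FunOnFinite.linearMap ℝ ℝ i.succAbove s y = _
  rw [FunOnFinite.linearMap_apply_apply]

theorem aff3_face0 (P0 P1 P2 : ℝ × ℝ) : (aff3 P0 P1 P2).comp (fc 0) = aff2 P1 P2 := by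
  ext1 t
  show (fc 0 t) 0 • P0 + (fc 0 t) 1 • P1 + (fc 0 t) 2 • P2 = t 0 • P1 + t 1 • P2
  have h0 : (fc 0 t) 0 = 0 := by
    rw [fc_apply, Finset.sum_filter, Fin.sum_univ_two, if_neg (by decide), if_neg (by decide),
      add_zero]
  have h1 : (fc 0 t) 1 = t 0 := by
    rw [fc_apply, Finset.sum_filter, Fin.sum_univ_two, if_pos (by decide), if_neg (by decide),
      add_zero]
  have h2 : (fc 0 t) 2 = t 1 := by
    rw [fc_apply, Finset.sum_filter, Fin.sum_univ_two, if_neg (by decide), if_pos (by decide),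
      zero_add]
  rw [h0, h1, h2, zero_smul, zero_add]

theorem aff3_face1 (P0 P1 P2 : ℝ × ℝ) : (aff3 P0 P1 P2).comp (fc 1) = aff2 P0 P2 := by
  ext1 t
  show (fc 1 t) 0 • P0 + (fc 1 t) 1 • P1 + (fc 1 t) 2 • P2 = t 0 • P0 + t 1 • P2
  have h0 : (fc 1 t) 0 = t 0 := by
    rw [fc_apply, Finset.sum_filter, Fin.sum_univ_two, if_pos (by decide), if_neg (by decide),
      add_zero]
  have h1 : (fc 1 t) 1 = 0 := by
    rw [fc_apply, Finset.sum_filter, Fin.sum_univ_two, if_neg (by decide), if_neg (by decide),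
      add_zero]
  have h2 : (fc 1 t) 2 = t 1 := by
    rw [fc_apply, Finset.sum_filter, Fin.sum_univ_two, if_neg (by decide), if_pos (by decide),
      zero_add]
  rw [h0, h1, h2, zero_smul, add_zero]

theorem aff3_face2 (P0 P1 P2 : ℝ × ℝ) : (aff3 P0 P1 P2).comp (fc 2) = aff2 P0 P1 := by
  ext1 t
  show (fc 2 t) 0 • P0 + (fc 2 t) 1 • P1 + (fc 2 t) 2 • P2 = t 0 • P0 + t 1 • P1
  have h0 : (fc 2 t) 0 = t 0 := by
    rw [fc_apply, Finset.sum_filter, Fin.sum_univ_two, if_pos (by decide), if_neg (by decide),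
      add_zero]
  have h1 : (fc 2 t) 1 = t 1 := by
    rw [fc_apply, Finset.sum_filter, Fin.sum_univ_two, if_neg (by decide), if_pos (by decide),
      zero_add]
  have h2 : (fc 2 t) 2 = 0 := by
    rw [fc_apply, Finset.sum_filter, Fin.sum_univ_two, if_neg (by decide), if_neg (by decide),
      add_zero]
  rw [h0, h1, h2, zero_smul, add_zero]

theorem bd_aff3 (P0 P1 P2 : ℝ × ℝ) :
    bd 1 (ℝ × ℝ) (Finsupp.single (aff3 P0 P1 P2) 1) =
      Finsupp.single (aff2 P1 P2) 1 - Finsupp.single (aff2 P0 P2) 1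
        + Finsupp.single (aff2 P0 P1) 1 := by
  rw [bd_single, one_smul, Fin.sum_univ_three, aff3_face0, aff3_face1, aff3_face2]
  simp only [Fin.val_zero, Fin.val_one, Fin.val_two, pow_zero, pow_one, one_smul, neg_smul,
    neg_one_sq]
  abel

theorem bd_const {X : Type} [TopologicalSpace X] (x : X) :
    bd 1 X (Finsupp.single (ContinuousMap.const _ x) 1) =
      Finsupp.single (ContinuousMap.const _ x) 1 := by
  rw [bd_single, one_smul, Fin.sum_univ_three]
  have h : ∀ i : Fin 3, (ContinuousMap.const (stdSimplex ℝ (Fin 3)) x).comp (fc i) =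
      ContinuousMap.const (stdSimplex ℝ (Fin 2)) x := fun i => rfl
  rw [h, h, h]
  simp only [Fin.val_zero, Fin.val_one, Fin.val_two, pow_zero, pow_one, one_smul, neg_smul,
    neg_one_sq]
  abel

theorem bd_sqch (a b : ℝ) : bd 1 (ℝ × ℝ) (sqch a b) =
    Finsupp.single (aff2 (b,0) (b,1)) 1 + Finsupp.single (aff2 (a,0) (b,0)) 1
      - Finsupp.single (aff2 (a,1) (b,1)) 1 - Finsupp.single (aff2 (a,0) (a,1)) 1 := by
  rw [sqch, map_sub, bd_aff3, bd_aff3]
  abel

theorem simplex_sum2 (t : stdSimplex ℝ (Fin 2)) : t 0 + t 1 = 1 := by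
  have := t.2.2
  rw [Fin.sum_univ_two] at this
  exact this

theorem simplex_sum3 (t : stdSimplex ℝ (Fin 3)) : t 0 + t 1 + t 2 = 1 := by
  have := t.2.2
  rw [Fin.sum_univ_three] at this
  exact this

theorem qt_south (x : ℝ) : qt (x, 0) = south := by
  apply Subtype.ext
  show qtv (x, 0) = southv
  simp [qtv, southv]

theorem qt_north (x : ℝ) : qt (x, 1) = north := by
  apply Subtype.ext
  show qtv (x, 1) = northv
  simp [qtv, northv]

theorem qt_period (x y : ℝ) : qt (x + 1, y) = qt (x, y) := by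
  apply Subtype.ext
  show qtv (x + 1, y) = qtv (x, y)
  have h1 : 2 * Real.pi * (x + 1) = 2 * Real.pi * x + 2 * Real.pi := by ring
  simp only [qtv, h1, Real.cos_add_two_pi, Real.sin_add_two_pi]

theorem qt_aff2_south (a b : ℝ) : qt.comp (aff2 (a,0) (b,0)) = ContinuousMap.const _ south := by
  ext1 t
  show qt (t 0 • ((a,0) : ℝ × ℝ) + t 1 • ((b,0) : ℝ × ℝ)) = south
  have : t 0 • ((a,0) : ℝ × ℝ) + t 1 • ((b,0) : ℝ × ℝ) = (t 0 * a + t 1 * b, 0) := by
    ext <;> simp
  rw [this, qt_south]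

theorem qt_aff2_north (a b : ℝ) : qt.comp (aff2 (a,1) (b,1)) = ContinuousMap.const _ north := by
  ext1 t
  show qt (t 0 • ((a,1) : ℝ × ℝ) + t 1 • ((b,1) : ℝ × ℝ)) = north
  have : t 0 • ((a,1) : ℝ × ℝ) + t 1 • ((b,1) : ℝ × ℝ) = (t 0 * a + t 1 * b, 1) := by
    ext
    · simp
    · simpa using simplex_sum2 t
  rw [this, qt_north]

theorem qt_aff2_period (a : ℝ) : qt.comp (aff2 (a+1,0) (a+1,1)) = qt.comp (aff2 (a,0) (a,1)) := by
  ext1 t
  show qt (t 0 • ((a+1,0) : ℝ × ℝ) + t 1 • ((a+1,1) : ℝ × ℝ)) =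
    qt (t 0 • ((a,0) : ℝ × ℝ) + t 1 • ((a,1) : ℝ × ℝ))
  have h1 : t 0 • ((a+1,0) : ℝ × ℝ) + t 1 • ((a+1,1) : ℝ × ℝ) = (a + 1, t 1) := by
    have := simplex_sum2 t
    ext
    · simp only [Prod.fst_add, Prod.smul_fst, smul_eq_mul]
      rw [← add_mul, this, one_mul]
    · simp
  have h2 : t 0 • ((a,0) : ℝ × ℝ) + t 1 • ((a,1) : ℝ × ℝ) = (a, t 1) := by
    have := simplex_sum2 t
    ext
    · simp only [Prod.fst_add, Prod.smul_fst, smul_eq_mul]
      rw [← add_mul, this, one_mul]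
    · simp
  rw [h1, h2, qt_period]

theorem qt_aff3_period (a b c u v w : ℝ) :
    qt.comp (aff3 (a+1,u) (b+1,v) (c+1,w)) = qt.comp (aff3 (a,u) (b,v) (c,w)) := by
  ext1 t
  show qt (t 0 • ((a+1,u) : ℝ × ℝ) + t 1 • ((b+1,v) : ℝ × ℝ) + t 2 • ((c+1,w) : ℝ × ℝ)) =
    qt (t 0 • ((a,u) : ℝ × ℝ) + t 1 • ((b,v) : ℝ × ℝ) + t 2 • ((c,w) : ℝ × ℝ))
  have hs := simplex_sum3 t
  have h1 : t 0 • ((a+1,u) : ℝ × ℝ) + t 1 • ((b+1,v) : ℝ × ℝ) + t 2 • ((c+1,w) : ℝ × ℝ) =
      ((t 0 * a + t 1 * b + t 2 * c) + 1, t 0 * u + t 1 * v + t 2 * w) := by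
    ext
    · simp only [Prod.fst_add, Prod.smul_fst, smul_eq_mul]
      linear_combination hs
    · simp
  have h2 : t 0 • ((a,u) : ℝ × ℝ) + t 1 • ((b,v) : ℝ × ℝ) + t 2 • ((c,w) : ℝ × ℝ) =
      (t 0 * a + t 1 * b + t 2 * c, t 0 * u + t 1 * v + t 2 * w) := by
    ext
    · simp
    · simp
  rw [h1, h2, qt_period]

theorem bd_zz : bd 1 S2 zz = 0 := by
  have h1 : bd 1 S2 (push 2 qt (sqch 0 1)) =
      Finsupp.single (ContinuousMap.const _ south) 1 -
        Finsupp.single (ContinuousMap.const _ north) 1 := by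
    have h2 := qt_aff2_period 0
    rw [zero_add] at h2
    rw [bd_push, bd_sqch, map_sub, map_sub, map_add, push_single, push_single, push_single,
      push_single, qt_aff2_south, qt_aff2_north, h2]
    abel
  rw [zz, map_add, map_sub, h1, bd_const, bd_const]
  abel

theorem nz_of_norm_one (w : E3) (h : ‖w‖ = 1) : (nz w : E3) = w := by
  have hw : w ≠ 0 := by
    intro h0; rw [h0, norm_zero] at h; norm_num at h
  rw [nz, dif_neg hw]
  show ‖w‖⁻¹ • w = w
  rw [h, inv_one, one_smul]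

theorem exp_mk (θ : ℝ) : Complex.exp (((θ : ℝ) : ℂ) * Complex.I) =
    ⟨Real.cos θ, Real.sin θ⟩ := by
  apply Complex.ext
  · exact Complex.exp_ofReal_mul_I_re θ
  · exact Complex.exp_ofReal_mul_I_im θ

theorem g0_qt (x y : ℝ) (h0 : 0 ≤ y) (h1 : y ≤ 1) : g0 (qt (x, y)) = qt (2 * x, y) := by
  apply Subtype.ext
  have hsin : 0 ≤ Real.sin (Real.pi * y) := by
    apply Real.sin_nonneg_of_nonneg_of_le_pi
    · positivity
    · nlinarith [Real.pi_pos]
  have hhz : hz (qt (x, y)) = ((Real.sin (Real.pi * y) : ℝ) : ℂ) *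
      Complex.exp (((2 * Real.pi * x : ℝ) : ℂ) * Complex.I) := by
    rw [exp_mk]
    apply Complex.ext
    · simp only [hz, qt, ContinuousMap.coe_mk, qtv, Complex.mul_re, Complex.ofReal_re,
        Complex.ofReal_im, zero_mul, sub_zero]
      rfl
    · simp only [hz, qt, ContinuousMap.coe_mk, qtv, Complex.mul_im, Complex.ofReal_re,
        Complex.ofReal_im, zero_mul, add_zero]
      rfl
  have hnorm : ‖hz (qt (x, y))‖ = Real.sin (Real.pi * y) := by
    rw [hhz, norm_mul, Complex.norm_exp_ofReal_mul_I, mul_one, Complex.norm_real,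
      Real.norm_eq_abs, abs_of_nonneg hsin]
  have hsq : (hz (qt (x, y)))^2 / ((‖hz (qt (x, y))‖ : ℝ) : ℂ) =
      ((Real.sin (Real.pi * y) : ℝ) : ℂ) *
      Complex.exp (((2 * Real.pi * (2 * x) : ℝ) : ℂ) * Complex.I) := by
    rw [hnorm, hhz, mul_pow, ← Complex.exp_nat_mul]
    have he : ((2 : ℕ) : ℂ) * (((2 * Real.pi * x : ℝ) : ℂ) * Complex.I) =
        ((2 * Real.pi * (2 * x) : ℝ) : ℂ) * Complex.I := by
      push_cast; ring
    rw [he]
    by_cases hs0 : Real.sin (Real.pi * y) = 0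
    · rw [hs0]; simp
    · have : ((Real.sin (Real.pi * y) : ℝ) : ℂ) ≠ 0 := by exact_mod_cast hs0
      field_simp
  have hvec : (!₂[((hz (qt (x, y)))^2 / ((‖hz (qt (x, y))‖ : ℝ) : ℂ)).re,
      ((hz (qt (x, y)))^2 / ((‖hz (qt (x, y))‖ : ℝ) : ℂ)).im, ht (qt (x, y))] : E3) =
      qtv (2 * x, y) := by
    have hre : (((Real.sin (Real.pi * y) : ℝ) : ℂ) *
        (⟨Real.cos (2 * Real.pi * (2 * x)), Real.sin (2 * Real.pi * (2 * x))⟩ : ℂ)).re =
        Real.sin (Real.pi * y) * Real.cos (2 * Real.pi * (2 * x)) := by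
      rw [Complex.re_ofReal_mul]
    have him : (((Real.sin (Real.pi * y) : ℝ) : ℂ) *
        (⟨Real.cos (2 * Real.pi * (2 * x)), Real.sin (2 * Real.pi * (2 * x))⟩ : ℂ)).im =
        Real.sin (Real.pi * y) * Real.sin (2 * Real.pi * (2 * x)) := by
      rw [Complex.im_ofReal_mul]
    rw [hsq, exp_mk, hre, him]
    rfl
  show (nz _ : E3) = qtv (2 * x, y)
  rw [hvec, nz_of_norm_one]
  exact mem_sphere_zero_iff_norm.mp (qtv_mem (2 * x, y))

theorem g0_south : g0 south = south := by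
  rw [← qt_south 0, g0_qt 0 0 le_rfl zero_le_one, mul_zero]

theorem g0_north : g0 north = north := by
  rw [← qt_north 0, g0_qt 0 1 zero_le_one le_rfl, mul_zero]

theorem g0_qt_aff3 (a b c u v w : ℝ) (hu : 0 ≤ u) (hu' : u ≤ 1) (hv : 0 ≤ v) (hv' : v ≤ 1)
    (hw : 0 ≤ w) (hw' : w ≤ 1) :
    (⟨g0, continuous_g0⟩ : C(S2, S2)).comp (qt.comp (aff3 (a,u) (b,v) (c,w))) =
      qt.comp (aff3 (2 * a,u) (2 * b,v) (2 * c,w)) := by
  ext1 t
  show g0 (qt (t 0 • ((a,u) : ℝ × ℝ) + t 1 • ((b,v) : ℝ × ℝ) + t 2 • ((c,w) : ℝ × ℝ))) =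
    qt (t 0 • ((2*a,u) : ℝ × ℝ) + t 1 • ((2*b,v) : ℝ × ℝ) + t 2 • ((2*c,w) : ℝ × ℝ))
  have hs := simplex_sum3 t
  have n0 : 0 ≤ t 0 := t.2.1 0
  have n1 : 0 ≤ t 1 := t.2.1 1
  have n2 : 0 ≤ t 2 := t.2.1 2
  have h1 : t 0 • ((a,u) : ℝ × ℝ) + t 1 • ((b,v) : ℝ × ℝ) + t 2 • ((c,w) : ℝ × ℝ) =
      (t 0 * a + t 1 * b + t 2 * c, t 0 * u + t 1 * v + t 2 * w) := by
    ext
    · simp
    · simp
  have h2 : t 0 • ((2*a,u) : ℝ × ℝ) + t 1 • ((2*b,v) : ℝ × ℝ) + t 2 • ((2*c,w) : ℝ × ℝ) =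
      (2 * (t 0 * a + t 1 * b + t 2 * c), t 0 * u + t 1 * v + t 2 * w) := by
    ext
    · simp only [Prod.fst_add, Prod.smul_fst, smul_eq_mul]; ring
    · simp
  rw [h1, h2, g0_qt]
  · positivity
  · nlinarith

theorem push_g0_sq : push 2 ⟨g0, continuous_g0⟩ (push 2 qt (sqch 0 1)) = push 2 qt (sqch 0 2) := by
  rw [sqch, sqch, map_sub, map_sub, map_sub, push_single, push_single, push_single, push_single,
    push_single, push_single, g0_qt_aff3 _ _ _ _ _ _ (by norm_num) (by norm_num) (by norm_num)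
      (by norm_num) (by norm_num) (by norm_num),
    g0_qt_aff3 _ _ _ _ _ _ (by norm_num) (by norm_num) (by norm_num)
      (by norm_num) (by norm_num) (by norm_num), mul_zero, mul_one]

theorem zz_eigen : ∃ c, bd 2 S2 c = push 2 ⟨g0, continuous_g0⟩ zz - (2:ℝ) • zz := by
  let T : ℝ → Ch 2 (ℝ × ℝ) := fun y => Finsupp.single (aff3 (0,y) (1,y) (2,y)) 1
  let c : Ch 2 (ℝ × ℝ) := sqch 0 2 - sqch 0 1 - sqch 1 2 + T 0 - T 1
  have hc : bd 1 (ℝ × ℝ) c = 0 := by
    show bd 1 (ℝ × ℝ) (sqch 0 2 - sqch 0 1 - sqch 1 2 + T 0 - T 1) = 0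
    rw [map_sub, map_add, map_sub, map_sub, bd_sqch, bd_sqch, bd_sqch]
    show _ + bd 1 (ℝ × ℝ) (Finsupp.single (aff3 (0,0) (1,0) (2,0)) 1) -
      bd 1 (ℝ × ℝ) (Finsupp.single (aff3 (0,1) (1,1) (2,1)) 1) = 0
    rw [bd_aff3, bd_aff3]
    abel
  obtain ⟨w, hw⟩ := plane_acyclic c hc
  refine ⟨push 3 qt w, ?_⟩
  rw [bd_push, hw]
  have hT0 : push 2 qt (T 0) = Finsupp.single (ContinuousMap.const _ south) 1 := by
    show push 2 qt (Finsupp.single (aff3 (0,0) (1,0) (2,0)) 1) = _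
    rw [push_single]
    congr 1
    ext1 t
    show qt (t 0 • ((0,0) : ℝ × ℝ) + t 1 • ((1,0) : ℝ × ℝ) + t 2 • ((2,0) : ℝ × ℝ)) = south
    have : t 0 • ((0,0) : ℝ × ℝ) + t 1 • ((1,0) : ℝ × ℝ) + t 2 • ((2,0) : ℝ × ℝ) =
        (t 1 + t 2 * 2, 0) := by
      ext <;> simp
    rw [this, qt_south]
  have hT1 : push 2 qt (T 1) = Finsupp.single (ContinuousMap.const _ north) 1 := by
    show push 2 qt (Finsupp.single (aff3 (0,1) (1,1) (2,1)) 1) = _
    rw [push_single]
    congr 1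
    ext1 t
    show qt (t 0 • ((0,1) : ℝ × ℝ) + t 1 • ((1,1) : ℝ × ℝ) + t 2 • ((2,1) : ℝ × ℝ)) = north
    have : t 0 • ((0,1) : ℝ × ℝ) + t 1 • ((1,1) : ℝ × ℝ) + t 2 • ((2,1) : ℝ × ℝ) =
        (t 1 + t 2 * 2, 1) := by
      ext
      · simp
      · simpa using simplex_sum3 t
    rw [this, qt_north]
  have hP : push 2 qt (sqch 1 2) = push 2 qt (sqch 0 1) := by
    have e1 := qt_aff3_period 0 1 1 0 0 1
    have e2 := qt_aff3_period 0 0 1 0 1 1
    have h11 : (1:ℝ) + 1 = 2 := by norm_num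
    rw [zero_add, h11] at e1
    rw [zero_add, h11] at e2
    rw [sqch, sqch, map_sub, map_sub, push_single, push_single, push_single, push_single, e1, e2]
  show push 2 qt (sqch 0 2 - sqch 0 1 - sqch 1 2 + T 0 - T 1) = _
  rw [map_sub, map_add, map_sub, map_sub, hT0, hT1, hP, zz, map_add, map_sub, push_g0_sq,
    push_single, push_single]
  have hgs : (⟨g0, continuous_g0⟩ : C(S2, S2)).comp
      (ContinuousMap.const (stdSimplex ℝ (Fin 3)) south) = ContinuousMap.const _ south := by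
    ext1 t; exact g0_south
  have hgn : (⟨g0, continuous_g0⟩ : C(S2, S2)).comp
      (ContinuousMap.const (stdSimplex ℝ (Fin 3)) north) = ContinuousMap.const _ north := by
    ext1 t; exact g0_north
  rw [hgs, hgn]
  module

end

end SEC
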