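import Mathlib

/-!
SEC-Entropy. See Mathlib.Dynamics.TopologicalEntropy.CoverEntropy (e.g. `IsDynCoverOf.coverEntropyEntourage_le_log_card_div`, `coverMincard`...). It is enough: for each `ε > 0` there is `C` such that for
all `n` the space is covered by at most `C (n+1)` sets `Z` such that any two points of `Z` stay `ε`-close for times `0..n-1` (then choose centers).
Let `n0` from `hmid (ε/4)`; `δ2` such that `dist m m' < δ2 → dist (f^[k] m) (f^[k] m') < ε` for `k ≤ 2 n0 + 1`; `δ1` such that `dist b b' < δ1 → dist (σi b) (σi b') < ε/4`. Finite covers of `M` by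
sets of diameter `< δ2` (number `C2`) and of `B` by sets of diameter `< δ1` (`C1`). Exit time `T(m)` = first `k` with `f^[k] m ∉ N`. Code of `m`: (`min T (n+n0)`, cell of `m`, cell of
`f^[T-n0] m` (if `n0 ≤ T ≤ n+n0`), cell of `π m`). Two points with the same code stay `ε`-close for times `j < n`: for `j ≤ 2 n0` by the cell of `m`; for `n0 ≤ j`, `j + n0 < T` both are `ε/4`-close to
`σ1 (R^j π m)`, `σ1 (R^j π m')` (segment of length `2 n0` in `N` around `j`), and `R` is an isometry; for `T - n0 ≤ j ≤ T` by the cell of `f^[T-n0] m`; for `j > T` the points are `σ2 (R^j (π m))`,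
`σ2 (R^j (π m'))`. Number of codes `≤ (n+n0+1) C2² C1`. Entropy is `≥ 0` as `M` is nonempty.
-/

set_option autoImplicit false
open scoped ContDiff Manifold Topology
open Filter

namespace SEC

noncomputable section

namespace Ent

theorem fin_cells {X : Type} [MetricSpace X] [CompactSpace X] (δ : ℝ) (hδ : 0 < δ) :
    ∃ (c : ℕ) (φ : X → Fin c), ∀ x y, φ x = φ y → dist x y < δ := by
  obtain ⟨t, -, htf, ht⟩ := finite_cover_balls_of_compact (isCompact_univ (X := X)) (half_pos hδ)
  have h1 : ∀ x : X, ∃ y : t, dist x y < δ / 2 := by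
    intro x
    have := ht (Set.mem_univ x)
    simp only [Set.mem_iUnion, Metric.mem_ball] at this
    obtain ⟨y, hy, hxy⟩ := this
    exact ⟨⟨y, hy⟩, hxy⟩
  choose g hg using h1
  haveI := htf.fintype
  refine ⟨Fintype.card t, fun x => Fintype.equivFin t (g x), ?_⟩
  intro x y hxy
  have h2 : g x = g y := (Fintype.equivFin t).injective hxy
  have h3 := hg x
  have h4 := hg y
  rw [← h2, dist_comm] at h4
  calc dist x y ≤ dist x (g x) + dist (g x : X) y := dist_triangle _ _ _
    _ < δ := by linarith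

theorem reps {X γ : Type} [Nonempty X] [Fintype γ] (code : X → γ) :
    ∃ s : Finset X, s.card ≤ Fintype.card γ ∧ ∀ x, ∃ y ∈ s, code y = code x := by
  classical
  have x0 : X := Classical.arbitrary X
  have h1 : ∀ c : γ, ∃ x : X, (∃ x', code x' = c) → code x = c := by
    intro c
    by_cases h : ∃ x', code x' = c
    · obtain ⟨x, hx⟩ := h
      exact ⟨x, fun _ => hx⟩
    · exact ⟨x0, fun h' => absurd h' h⟩
  choose g hg using h1
  refine ⟨Finset.univ.image g, Finset.card_image_le, ?_⟩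
  intro x
  exact ⟨g (code x), Finset.mem_image_of_mem _ (Finset.mem_univ _), hg _ ⟨x, rfl⟩⟩

theorem unif_iter {M : Type} [MetricSpace M] [CompactSpace M] (f : M → M) (hf : Continuous f)
    (ε : ℝ) (hε : 0 < ε) (K : ℕ) :
    ∃ δ > 0, ∀ x y, dist x y < δ → ∀ k ≤ K, dist (f^[k] x) (f^[k] y) < ε := by
  have h1 : ∀ k : ℕ, ∃ δ > 0, ∀ x y, dist x y < δ → dist (f^[k] x) (f^[k] y) < ε := by
    intro k
    have h2 : UniformContinuous (f^[k]) :=
      CompactSpace.uniformContinuous_of_continuous (hf.iterate k)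
    obtain ⟨δ, hδ, h3⟩ := Metric.uniformContinuous_iff.1 h2 ε hε
    exact ⟨δ, hδ, fun x y h => h3 h⟩
  induction K with
  | zero =>
    obtain ⟨δ, hδ, h⟩ := h1 0
    refine ⟨δ, hδ, fun x y hxy k hk => ?_⟩
    obtain rfl : k = 0 := by omega
    exact h x y hxy
  | succ K ih =>
    obtain ⟨δ, hδ, h⟩ := ih
    obtain ⟨δ', hδ', h'⟩ := h1 (K + 1)
    refine ⟨min δ δ', lt_min hδ hδ', fun x y hxy k hk => ?_⟩
    rcases Nat.lt_or_ge k (K + 1) with hk1 | hk1
    · exact h x y (lt_of_lt_of_le hxy (min_le_left _ _)) k (by omega)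
    · obtain rfl : k = K + 1 := by omega
      exact h' x y (lt_of_lt_of_le hxy (min_le_right _ _))

theorem exit_time {M : Type} (f : M → M) (N : Set M) (L : ℕ) (m : M) :
    ∃ T : ℕ, T ≤ L ∧ (∀ k < T, f^[k] m ∈ N) ∧ (T < L → f^[T] m ∉ N) := by
  classical
  have hex : ∃ k, L ≤ k ∨ f^[k] m ∉ N := ⟨L, Or.inl le_rfl⟩
  refine ⟨Nat.find hex, Nat.find_min' hex (Or.inl le_rfl), ?_, ?_⟩
  · intro k hk
    have := Nat.find_min hex hk
    push Not at this
    exact this.2
  · intro h
    rcases Nat.find_spec hex with h1 | h1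
    · omega
    · exact h1

section
variable {M B : Type} [MetricSpace M] [MetricSpace B]
    (f : M → M) (π : M → B) (R : B → B) (hR : Isometry R) (σ1 σ2 : B → M)
    (hfac : ∀ m, π (f m) = R (π m)) (hs2 : ∀ b, π (σ2 b) = b)
    (N : Set M) (h2 : ∀ b, σ2 b ∉ N)
    (hout : ∀ m, m ∉ N → f m = σ2 (R (π m)))
    (ε : ℝ) (n0 : ℕ)
    (hmid : ∀ m : M, (∀ k ≤ 2 * n0, f^[k] m ∈ N) →
      dist (f^[n0] m) (σ1 (π (f^[n0] m))) < ε / 4)

include hfac in
theorem pi_iter (m : M) (j : ℕ) : π (f^[j] m) = R^[j] (π m) := by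
  induction j with
  | zero => rfl
  | succ j ih => rw [Function.iterate_succ_apply', hfac, ih, Function.iterate_succ_apply']

include hR in
theorem dist_iter (b b' : B) (j : ℕ) : dist (R^[j] b) (R^[j] b') = dist b b' := by
  induction j with
  | zero => rfl
  | succ j ih => rw [Function.iterate_succ_apply', Function.iterate_succ_apply', hR.dist_eq, ih]

include hfac hs2 h2 hout in
theorem after_exit (m : M) (T : ℕ) (hT : f^[T] m ∉ N) (j : ℕ) (hj : T < j) :
    f^[j] m = σ2 (R^[j] (π m)) := by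
  obtain ⟨i, rfl⟩ : ∃ i, j = T + 1 + i := ⟨j - (T + 1), by omega⟩
  clear hj
  induction i with
  | zero =>
    rw [Nat.add_zero, Function.iterate_succ_apply', hout _ hT, pi_iter f π R hfac,
      Function.iterate_succ_apply']
  | succ i ih =>
    have h3 : f^[T + 1 + (i + 1)] m = f (f^[T + 1 + i] m) := by
      rw [← add_assoc, Function.iterate_succ_apply']
    rw [h3, ih, hout _ (h2 _), hs2, ← add_assoc, Function.iterate_succ_apply']

include hfac hs2 h2 hout hmid hR in
theorem close (hε : 0 < ε) (n : ℕ) (δ1 δ2 : ℝ)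
    (hδ2 : ∀ x y, dist x y < δ2 → ∀ k ≤ 2 * n0 + 1, dist (f^[k] x) (f^[k] y) < ε)
    (hδ11 : ∀ b b', dist b b' < δ1 → dist (σ1 b) (σ1 b') < ε / 4)
    (hδ12 : ∀ b b', dist b b' < δ1 → dist (σ2 b) (σ2 b') < ε / 4)
    (T : ℕ) (m m' : M)
    (hTm : ∀ k < T, f^[k] m ∈ N) (hTm' : ∀ k < T, f^[k] m' ∈ N)
    (hTo : T < n + n0 → f^[T] m ∉ N) (hTo' : T < n + n0 → f^[T] m' ∉ N)
    (hm : dist m m' < δ2) (hmT : dist (f^[T - n0] m) (f^[T - n0] m') < δ2)
    (hB : dist (π m) (π m') < δ1) (j : ℕ) (hj : j < n) :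
    dist (f^[j] m) (f^[j] m') < ε := by
  rcases le_or_gt j (2 * n0 + 1) with hj1 | hj1
  · exact hδ2 m m' hm j hj1
  rcases lt_or_ge (j + n0) T with hj2 | hj2
  · have key : ∀ x : M, (∀ k < T, f^[k] x ∈ N) → dist (f^[j] x) (σ1 (R^[j] (π x))) < ε / 4 := by
      intro x hx
      have h3 := hmid (f^[j - n0] x) (by
        intro k hk
        rw [← Function.iterate_add_apply]
        exact hx _ (by omega))
      rw [← Function.iterate_add_apply, show n0 + (j - n0) = j by omega, pi_iter f π R hfac] at h3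
      exact h3
    have h4 := key m hTm
    have h5 := key m' hTm'
    have h6 := hδ11 (R^[j] (π m)) (R^[j] (π m')) (by rw [dist_iter R hR]; exact hB)
    rw [dist_comm] at h5
    calc dist (f^[j] m) (f^[j] m')
        ≤ dist (f^[j] m) (σ1 (R^[j] (π m))) + dist (σ1 (R^[j] (π m))) (σ1 (R^[j] (π m')))
          + dist (σ1 (R^[j] (π m'))) (f^[j] m') := dist_triangle4 _ _ _ _
      _ < ε := by linarith
  rcases le_or_gt j T with hj3 | hj3
  · have h7 := hδ2 _ _ hmT (j - (T - n0)) (by omega)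
    rw [← Function.iterate_add_apply, ← Function.iterate_add_apply,
      show j - (T - n0) + (T - n0) = j by omega] at h7
    exact h7
  · rw [after_exit f π R σ2 hfac hs2 N h2 hout m T (hTo (by omega)) j hj3,
      after_exit f π R σ2 hfac hs2 N h2 hout m' T (hTo' (by omega)) j hj3]
    have := hδ12 (R^[j] (π m)) (R^[j] (π m')) (by rw [dist_iter R hR]; exact hB)
    linarith

end

theorem log_lim (K a : ℝ) (hK : 0 < K) (ha : 0 < a) :
    Tendsto (fun n : ℕ => Real.log (K * (n + a)) / n) atTop (𝓝 0) := by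
  have h1 : Tendsto (fun x : ℝ => Real.log x / x) atTop (𝓝 0) := by
    have := Real.isLittleO_log_id_atTop.tendsto_div_nhds_zero
    exact this
  have h2 : Tendsto (fun n : ℕ => K * ((n : ℝ) + a)) atTop atTop := by
    apply Tendsto.const_mul_atTop hK
    exact tendsto_atTop_add_const_right _ _ tendsto_natCast_atTop_atTop
  have h3 := h1.comp h2
  have h4 : Tendsto (fun n : ℕ => K + K * a * ((n : ℝ))⁻¹) atTop (𝓝 (K + K * a * 0)) := by
    apply Tendsto.const_add
    apply Tendsto.const_mul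
    exact tendsto_inv_atTop_nhds_zero_nat
  have h5 := h3.mul h4
  rw [zero_mul] at h5
  refine h5.congr' ?_
  filter_upwards [eventually_ge_atTop 1] with n hn
  have hn' : (0 : ℝ) < n := by exact_mod_cast hn
  simp only [Function.comp_apply]
  have : K * ((n : ℝ) + a) ≠ 0 := by positivity
  have h6 : K + K * a * ((n : ℝ))⁻¹ = K * ((n : ℝ) + a) / n := by
    field_simp
  rw [h6]
  field_simp

end Ent

open Ent in
theorem entropy_zero {M B : Type} [MetricSpace M] [CompactSpace M] [Nonempty M]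
    [MetricSpace B] [CompactSpace B]
    (f : M → M) (hf : Continuous f) (π : M → B) (hπ : Continuous π)
    (R : B → B) (hR : Isometry R) (σ1 σ2 : B → M) (hσ1 : Continuous σ1) (hσ2 : Continuous σ2)
    (hfac : ∀ m, π (f m) = R (π m)) (hs1 : ∀ b, π (σ1 b) = b) (hs2 : ∀ b, π (σ2 b) = b)
    (N : Set M) (hN : IsClosed N) (h2 : ∀ b, σ2 b ∉ N)
    (hout : ∀ m, m ∉ N → f m = σ2 (R (π m)))
    (hmid : ∀ δ > 0, ∃ n0 : ℕ, ∀ m : M, (∀ k ≤ 2 * n0, f^[k] m ∈ N) →
      dist (f^[n0] m) (σ1 (π (f^[n0] m))) < δ) :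
    Dynamics.coverEntropy f Set.univ = 0 := by
  classical
  apply le_antisymm _ (Dynamics.coverEntropy_nonneg f Set.univ_nonempty)
  unfold Dynamics.coverEntropy
  refine iSup₂_le fun U hU => ?_
  obtain ⟨V, hV, hVs, hVU⟩ := comp_symm_mem_uniformity_sets hU
  obtain ⟨ε, hε, hεV⟩ := Metric.mem_uniformity_dist.1 hV
  obtain ⟨n0, hn0⟩ := hmid (ε / 4) (by linarith)
  obtain ⟨δ2, hδ2p, hδ2⟩ := unif_iter f hf ε hε (2 * n0 + 1)
  obtain ⟨d1, hd1p, hd1⟩ := Metric.uniformContinuous_iff.1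
    (CompactSpace.uniformContinuous_of_continuous hσ1) (ε / 4) (by linarith)
  obtain ⟨d2, hd2p, hd2⟩ := Metric.uniformContinuous_iff.1
    (CompactSpace.uniformContinuous_of_continuous hσ2) (ε / 4) (by linarith)
  obtain ⟨c2, φ2, hφ2⟩ := fin_cells (X := M) δ2 hδ2p
  obtain ⟨c1, φ1, hφ1⟩ := fin_cells (X := B) (min d1 d2) (lt_min hd1p hd2p)
  have hcov : ∀ n : ℕ, ∃ s : Finset M, s.card ≤ (n + n0 + 1) * (c2 * (c2 * c1)) ∧
      Dynamics.IsDynCoverOf f Set.univ V n s := by
    intro n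
    choose T hTL hTin hTout using fun m => exit_time f N (n + n0) m
    obtain ⟨s, hs, hs'⟩ := reps (γ := Fin (n + n0 + 1) × Fin c2 × Fin c2 × Fin c1)
      (fun m : M => (⟨T m, Nat.lt_succ_of_le (hTL m)⟩, φ2 m, φ2 (f^[T m - n0] m), φ1 (π m)))
    refine ⟨s, by simpa using hs, ?_⟩
    intro x _
    obtain ⟨y, hys, hxy⟩ := hs' x
    refine ⟨y, hys, ?_⟩
    rw [Dynamics.mem_dynEntourage]
    simp only [Prod.mk.injEq, Fin.mk.injEq] at hxy
    obtain ⟨hT, h21, h22, h1⟩ := hxy
    intro k hk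
    apply hεV
    apply close f π R hR σ1 σ2 hfac hs2 N h2 hout ε n0 hn0 hε n (min d1 d2) δ2 hδ2
      (fun b b' h => hd1 (lt_of_lt_of_le h (min_le_left _ _)))
      (fun b b' h => hd2 (lt_of_lt_of_le h (min_le_right _ _))) (T x) x y
      (hTin x) (by rw [← hT]; exact hTin y) (hTout x) (by rw [← hT]; exact hTout y)
      (hφ2 _ _ h21.symm) ?_ (hφ1 _ _ h1.symm) k hk
    rw [hT] at h22
    exact hφ2 _ _ h22.symm
  have hmaps : Set.MapsTo f (Set.univ : Set M) Set.univ := fun _ _ => Set.mem_univ _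
  set K : ℝ := (c2 * (c2 * c1) : ℕ) + 1 with hK
  have hKp : 0 < K := by positivity
  set a : ℝ := (n0 : ℝ) + 1 with ha
  have hap : 0 < a := by positivity
  have hbd : ∀ n : ℕ, 1 ≤ n → Dynamics.coverEntropyEntourage f Set.univ U ≤
      ((Real.log (K * (n + a)) / n : ℝ) : EReal) := by
    intro n hn
    obtain ⟨s, hs, hs'⟩ := hcov n
    haveI : SetRel.IsSymm V := hVs
    have h3 := hs'.coverEntropyEntourage_le_log_card_div hmaps (by omega)
    have h4 := Dynamics.coverEntropyEntourage_antitone f Set.univ hVU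
    refine le_trans h4 (le_trans h3 ?_)
    rw [EReal.coe_div]
    have h5 : (((n : ℝ)) : EReal) = (n : EReal) := by norm_cast
    rw [h5]
    apply EReal.monotone_div_right_of_nonneg (Nat.cast_nonneg' n)
    have h6 : ENNReal.log (ENNReal.ofReal (K * (n + a))) = (Real.log (K * (n + a)) : EReal) :=
      ENNReal.log_ofReal_of_pos (by positivity)
    rw [← h6]
    apply ENNReal.log_monotone
    have h7 : ((s.card : ℕ) : ℝ) ≤ K * (n + a) := by
      have h8 : ((s.card : ℕ) : ℝ) ≤ (((n + n0 + 1) * (c2 * (c2 * c1)) : ℕ) : ℝ) := by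
        exact_mod_cast hs
      refine le_trans h8 ?_
      rw [hK, ha]
      push_cast
      have : (0 : ℝ) ≤ n := by positivity
      have : (0 : ℝ) ≤ n0 := by positivity
      nlinarith
    calc ((s.card : ℕ) : ENNReal) = ENNReal.ofReal ((s.card : ℕ) : ℝ) := by
          rw [ENNReal.ofReal_natCast]
      _ ≤ _ := ENNReal.ofReal_le_ofReal h7
  have hlim : Tendsto (fun n : ℕ => ((Real.log (K * (n + a)) / n : ℝ) : EReal)) atTop
      (𝓝 ((0 : ℝ) : EReal)) := by
    exact (continuous_coe_real_ereal.tendsto _).comp (log_lim K a hKp hap)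
  have := ge_of_tendsto hlim (by
    filter_upwards [eventually_ge_atTop 1] with n hn
    exact hbd n hn)
  simpa using this

end

end SEC
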