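import Crest.Agent.SEC_GSmooth

/-!
SEC-GComplete.
1. `th = 1` for `ht ≥ 3/5`; `nz northv = north`, `nz (stv 0) = south`.
2. (a) `‖vc0 p_j‖ < 1` for all j: otherwise `nrm v ≥ 1`, `nrm v ≤ 3 ‖v.1‖` (as `‖v.2‖ ≤ 1/4`), `outer_fst` gives `‖F.1‖ ≥ 50`, so the third coordinate of `stv F.1` is `≥ 0.99` and the
normalized convex combination with north has height `> 3/5`, contradiction with hN (j+1).
(b) so `ht p_j < 0` (as `‖vc0‖² = (1+ht)/(1-ht)` for `ht ≤ 3/5`), `th = 0`, `p_{j+1} = nz (stv F.1)`, `vc0 p_{j+1} = F.1` (stereographic coordinate of `stv Z` is `Z`).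
(c) `q_{j+1} = nz (stv F.2)` and `‖F.2‖ ≤ 1/8` (it is `0` if `nrm v ≥ 1/3200`, otherwise `≤ 400 nrm v < 1/8`), so `vc1 q_{j+1} = F.2` (`ht ≤ -63/65` there).
(d) so `v_j = (vc0 p_j, vc1 q_j)` is a bounded complete orbit over `x_j = (m j).1` (`rotC = Circle.exp 1`, coe = `rot`), `LocalMap.complete` gives `v = 0`, hence
`p_{j+1} = nz (stv 0) = south`, `q_{j+1} = south`.
-/

set_option autoImplicit false
open scoped ContDiff Manifold Topology
open Filter

namespace SEC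

noncomputable section

private theorem GC_sq (p : S2) : (p.1 0)^2 + (p.1 1)^2 + (p.1 2)^2 = 1 := by
  have h : ‖p.1‖ = 1 := by simpa using p.2
  rw [EuclideanSpace.norm_eq, Real.sqrt_eq_one, Fin.sum_univ_three] at h
  simpa using h

private theorem GC_hz_sq (p : S2) : ‖hz p‖^2 = 1 - (ht p)^2 := by
  have h := GC_sq p
  rw [← Complex.normSq_eq_norm_sq, Complex.normSq_apply]
  unfold hz ht
  simp only
  nlinarith

private theorem GC_stv_norm (Z : ℂ) : ‖stv Z‖ = 1 := by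
  rw [EuclideanSpace.norm_eq, Real.sqrt_eq_one, Fin.sum_univ_three]
  have h0 : ‖Z‖^2 = Z.re^2 + Z.im^2 := by
    rw [← Complex.normSq_eq_norm_sq, Complex.normSq_apply]; ring
  have h1 : (0:ℝ) < Z.re^2 + Z.im^2 + 1 := by positivity
  simp only [Real.norm_eq_abs, sq_abs, stv, h0]
  simp only [PiLp.toLp_apply, Matrix.cons_val]
  field_simp
  ring

private theorem GC_stv_ne (Z : ℂ) : stv Z ≠ 0 := by
  intro h
  have := GC_stv_norm Z
  rw [h, norm_zero] at this
  norm_num at this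

private theorem GC_nz_coe (w : E3) (h : w ≠ 0) : (nz w).1 = ‖w‖⁻¹ • w := by
  unfold nz
  rw [dif_neg h]

private theorem GC_nz_unit (w : E3) (h : ‖w‖ = 1) : (nz w).1 = w := by
  rw [GC_nz_coe w (by intro h0; rw [h0, norm_zero] at h; norm_num at h), h]
  simp

private theorem GC_nz_north : nz northv = north := by
  apply Subtype.ext
  rw [GC_nz_unit northv (by simpa using northv_mem)]
  rfl

private theorem GC_stv_zero : stv 0 = southv := by
  unfold stv southv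
  simp

private theorem GC_nz_south : nz (stv 0) = south := by
  apply Subtype.ext
  rw [GC_nz_unit _ (GC_stv_norm 0), GC_stv_zero]
  rfl

theorem fM_outside (F : ℂ → V → V) (m : MM) (h : 3/5 < ht m.2.1) :
    fM F m = (rotC * m.1, (north, south)) := by
  have hth : th m.2.1 = 1 := stp_eq_one (by norm_num) h.le
  unfold fM
  rw [hth]
  simp only [sub_self, zero_smul, one_smul, zero_add, Complex.ofReal_zero, zero_mul]
  rw [GC_nz_north, GC_nz_south]

private theorem GC_ht_stv (Z : ℂ) : ht (nz (stv Z)) = (‖Z‖^2 - 1)/(‖Z‖^2+1) := by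
  unfold ht
  rw [GC_nz_unit _ (GC_stv_norm Z)]
  simp [stv]

private theorem GC_hz_stv (Z : ℂ) : hz (nz (stv Z)) = ((2 / (‖Z‖^2+1) : ℝ) : ℂ) * Z := by
  unfold hz
  rw [GC_nz_unit _ (GC_stv_norm Z)]
  apply Complex.ext
  · rw [Complex.re_ofReal_mul]; simp [stv]; ring
  · rw [Complex.im_ofReal_mul]; simp [stv]; ring

private theorem GC_coord (Z : ℂ) : ((1 / (1 - ht (nz (stv Z))) : ℝ) : ℂ) * hz (nz (stv Z)) = Z := by
  rw [GC_ht_stv, GC_hz_stv, ← mul_assoc, ← Complex.ofReal_mul]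
  have h : (1 / (1 - (‖Z‖^2 - 1)/(‖Z‖^2+1))) * (2 / (‖Z‖^2+1)) = 1 := by
    have : (0:ℝ) < ‖Z‖^2+1 := by positivity
    have h2 : 1 - (‖Z‖^2 - 1)/(‖Z‖^2+1) = 2 / (‖Z‖^2+1) := by field_simp; ring
    rw [h2]; field_simp
  rw [h]; simp

private theorem GC_vc0_stv (Z : ℂ) (h : ht (nz (stv Z)) ≤ 3/5) : vc0 (nz (stv Z)) = Z := by
  unfold vc0
  rw [stp_eq_zero (by norm_num) h, sub_zero, GC_coord]

private theorem GC_vc1_stv (Z : ℂ) (h : ‖Z‖ ≤ 1/8) : vc1 (nz (stv Z)) = Z := by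
  unfold vc1
  rw [stp_eq_zero (by norm_num), sub_zero, GC_coord]
  rw [GC_ht_stv, div_le_iff₀ (by positivity)]
  nlinarith [norm_nonneg Z]

private theorem GC_vc0_sq (p : S2) (h : ht p ≤ 3/5) : ‖vc0 p‖^2 = (1 + ht p)/(1 - ht p) := by
  unfold vc0
  rw [stp_eq_zero (by norm_num) h, sub_zero, norm_mul, mul_pow, GC_hz_sq, Complex.norm_real,
    Real.norm_eq_abs, sq_abs]
  have : (0:ℝ) < 1 - ht p := by linarith
  field_simp
  ring

theorem fM_complete (F : ℂ → V → V) (hF : LocalMap F) (m : ℤ → MM)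
    (hm : ∀ j, m (j+1) = fM F (m j)) (hN : ∀ j, ht (m j).2.1 ≤ 3/5) :
    ∀ j, (m j).2 = (south, south) := by
  have hx : ∀ j, ‖((m j).1 : ℂ)‖ = 1 := fun j => Circle.norm_coe _
  -- (a)
  have ha : ∀ j, ‖vc0 (m j).2.1‖ < 1 := by
    intro j
    by_contra hcon
    push_neg at hcon
    set v : V := (vc0 (m j).2.1, vc1 (m j).2.2) with hv
    have hv1 : 1 ≤ ‖v.1‖ := hcon
    have hv2 : ‖v.2‖ ≤ 1/4 := norm_vc1_le _
    have hn1 : 1 ≤ nrm v := hv1.trans (norm_fst_le_nrm v)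
    have hn2 : nrm v ≤ 3 * ‖v.1‖ := (nrm_le_add v).trans (by linarith)
    have hF1 := hF.outer_fst (m j).1 v (hx j) (by linarith) hn2
    have hZ : 50 ≤ ‖(F (m j).1 v).1‖ := by
      rw [hF1, norm_mul, norm_pow, norm_div, Complex.norm_real, Complex.norm_real, norm_norm,
        div_self (by positivity), one_pow, mul_one, Real.norm_eq_abs, abs_of_nonneg (by positivity)]
      linarith
    set Z := (F (m j).1 v).1 with hZd
    set θ := th (m j).2.1 with hθ
    have hθ0 : 0 ≤ θ := stp_nonneg _ _ _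
    have hθ1 : θ ≤ 1 := stp_le_one _ _ _
    have hw0 := fM_vec_ne_zero F hF (m j)
    rw [← hv, ← hZd, ← hθ] at hw0
    have hp : (m (j+1)).2.1 = nz ((1 - θ) • stv Z + θ • northv) := by
      rw [hm j]; rfl
    have h3 := hN (j+1)
    rw [hp] at h3
    unfold ht at h3
    rw [GC_nz_coe _ hw0] at h3
    have hwn : ‖(1 - θ) • stv Z + θ • northv‖ ≤ 1 := by
      calc _ ≤ ‖(1 - θ) • stv Z‖ + ‖θ • northv‖ := norm_add_le _ _
        _ = (1 - θ) * 1 + θ * 1 := by
          rw [norm_smul, norm_smul, GC_stv_norm, show ‖northv‖ = 1 by simpa using northv_mem,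
            Real.norm_eq_abs, Real.norm_eq_abs, abs_of_nonneg hθ0, abs_of_nonneg (by linarith)]
        _ = 1 := by ring
    have hwpos : 0 < ‖(1 - θ) • stv Z + θ • northv‖ := norm_pos_iff.mpr hw0
    have hc : (99/100 : ℝ) ≤ ((1 - θ) • stv Z + θ • northv) 2 := by
      have h1 : ((1 - θ) • stv Z + θ • northv) 2 = (1 - θ) * ((‖Z‖^2 - 1)/(‖Z‖^2+1)) + θ := by
        simp [stv, northv]
      rw [h1]
      have h2 : (99/100 : ℝ) ≤ (‖Z‖^2 - 1)/(‖Z‖^2+1) := by
        rw [le_div_iff₀ (by positivity)]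
        nlinarith
      nlinarith [mul_le_mul_of_nonneg_left h2 (by linarith : (0:ℝ) ≤ 1 - θ)]
    have h4 : (‖(1 - θ) • stv Z + θ • northv‖⁻¹ • ((1 - θ) • stv Z + θ • northv)) 2
        = ‖(1 - θ) • stv Z + θ • northv‖⁻¹ * ((1 - θ) • stv Z + θ • northv) 2 := rfl
    rw [h4] at h3
    have h5 : 1 ≤ ‖(1 - θ) • stv Z + θ • northv‖⁻¹ := (one_le_inv₀ hwpos).mpr hwn
    nlinarith
  have hb : ∀ j, ht (m j).2.1 < 0 := by
    intro j
    have h1 := GC_vc0_sq (m j).2.1 (hN j)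
    have h2 : ‖vc0 (m j).2.1‖^2 < 1 := by nlinarith [ha j, norm_nonneg (vc0 (m j).2.1)]
    rw [h1, div_lt_one (by linarith [hN j])] at h2
    linarith
  have hth : ∀ j, th (m j).2.1 = 0 := fun j => stp_eq_zero (by norm_num) (hb j).le
  have hp : ∀ j, (m (j+1)).2.1 = nz (stv (F (m j).1 (vc0 (m j).2.1, vc1 (m j).2.2)).1) := by
    intro j
    rw [hm j]
    unfold fM
    simp only
    rw [hth j]
    simp
  have hq : ∀ j, (m (j+1)).2.2 = nz (stv (F (m j).1 (vc0 (m j).2.1, vc1 (m j).2.2)).2) := by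
    intro j
    rw [hm j]
    unfold fM
    simp only
    rw [hth j]
    simp
  have hx' : ∀ j, ((m (j+1)).1 : ℂ) = rot * (m j).1 := by
    intro j
    rw [hm j]
    unfold fM rotC rot
    simp
  have hv : ∀ j, ((vc0 (m (j+1)).2.1, vc1 (m (j+1)).2.2) : V) =
      F (m j).1 (vc0 (m j).2.1, vc1 (m j).2.2) := by
    intro j
    apply Prod.ext
    · show vc0 (m (j+1)).2.1 = _
      have h1 := hN (j+1)
      rw [hp j] at h1 ⊢
      exact GC_vc0_stv _ h1
    · show vc1 (m (j+1)).2.2 = _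
      rw [hq j]
      apply GC_vc1_stv
      by_cases hc : 1/3200 ≤ nrm (vc0 (m j).2.1, vc1 (m j).2.2)
      · rw [hF.outer_snd _ _ (hx j) hc]; simp
      · push_neg at hc
        have h1 := norm_snd_le_nrm (F (m j).1 (vc0 (m j).2.1, vc1 (m j).2.2))
        have h2 := hF.bound (m j).1 (vc0 (m j).2.1, vc1 (m j).2.2)
        linarith
  have hzero := hF.complete (fun j => ((m j).1 : ℂ)) (fun j => (vc0 (m j).2.1, vc1 (m j).2.2)) hx hx'
    hv ⟨2, fun j => by
      refine (nrm_le_add _).trans ?_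
      have h1 := (ha j).le
      have h2 := norm_vc1_le (m j).2.2
      show ‖vc0 (m j).2.1‖ + ‖vc1 (m j).2.2‖ ≤ 2
      linarith⟩
  have hfin : ∀ j, (m (j+1)).2 = (south, south) := by
    intro j
    have h0 : ((vc0 (m j).2.1, vc1 (m j).2.2) : V) = 0 := hzero j
    apply Prod.ext
    · rw [hp j, h0, hF.zero]; exact GC_nz_south
    · rw [hq j, h0, hF.zero]; exact GC_nz_south
  intro j
  have := hfin (j-1)
  rwa [sub_add_cancel] at this

end

end SEC
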