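import Mathlib

/-!
SEC-Mid. By contradiction: for each `n` an `m_n` with `f^[k] m_n ∈ N` for `k ≤ 2n` and `dist (f^[n] m_n) (σ (π (f^[n] m_n))) ≥ δ`. The two-sided sequences
`y_n j = f^[n+j] m_n` (`|j| ≤ n`, arbitrary otherwise, e.g. `f^[(n+j).toNat] m_n`) have a cluster point `y` in the compact space `ℤ → M`; it is a complete orbit in `N`, so
`y 0 = σ b`, `σ (π (y 0)) = y 0`, contradiction with `dist (y 0) (σ (π (y 0))) ≥ δ`. (Alternative: the closed sets `K_n = {y | y is an orbit on [-n,n] in N, dist ≥ δ}` are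
nested, nonempty, compact.)
-/

set_option autoImplicit false
open scoped ContDiff Manifold Topology
open Filter

namespace SEC

noncomputable section

theorem mid_close {M B : Type} [MetricSpace M] [CompactSpace M] [MetricSpace B] [CompactSpace B]
    (f : M → M) (hf : Continuous f) (π : M → B) (hπ : Continuous π)
    (σ : B → M) (hσ : Continuous σ) (hs : ∀ b, π (σ b) = b) (N : Set M) (hN : IsClosed N)
    (hcomp : ∀ m : ℤ → M, (∀ j, m (j+1) = f (m j)) → (∀ j, m j ∈ N) → ∀ j, m j ∈ Set.range σ)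
    (δ : ℝ) (hδ : 0 < δ) :
    ∃ n0 : ℕ, ∀ m : M, (∀ k ≤ 2 * n0, f^[k] m ∈ N) →
      dist (f^[n0] m) (σ (π (f^[n0] m))) < δ := by
  by_contra h
  push Not at h
  choose m hmN hmd using h
  let K : ℕ → Set (ℤ → M) := fun n =>
    {y | (∀ j : ℤ, -(n : ℤ) ≤ j → j < n → y (j + 1) = f (y j)) ∧
      (∀ j : ℤ, -(n : ℤ) ≤ j → j ≤ n → y j ∈ N) ∧ δ ≤ dist (y 0) (σ (π (y 0)))}
  have hKcl : ∀ n, IsClosed (K n) := by
    intro n
    have hK : K n = (⋂ j : ℤ, ⋂ _ : -(n : ℤ) ≤ j, ⋂ _ : j < n,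
        {y : ℤ → M | y (j + 1) = f (y j)}) ∩ ((⋂ j : ℤ, ⋂ _ : -(n : ℤ) ≤ j, ⋂ _ : j ≤ n,
        {y : ℤ → M | y j ∈ N}) ∩ {y : ℤ → M | δ ≤ dist (y 0) (σ (π (y 0)))}) := by
      ext y
      simp [K]
    rw [hK]
    refine IsClosed.inter ?_ (IsClosed.inter ?_ ?_)
    · refine isClosed_iInter fun j => isClosed_iInter fun _ => isClosed_iInter fun _ => ?_
      exact isClosed_eq (continuous_apply _) (hf.comp (continuous_apply _))
    · refine isClosed_iInter fun j => isClosed_iInter fun _ => isClosed_iInter fun _ => ?_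
      exact hN.preimage (continuous_apply j)
    · exact isClosed_le continuous_const
        ((continuous_apply 0).dist (hσ.comp (hπ.comp (continuous_apply 0))))
  have hKne : ∀ n, (K n).Nonempty := by
    intro n
    refine ⟨fun j => f^[((n : ℤ) + j).toNat] (m n), ?_, ?_, ?_⟩
    · intro j h1 h2
      have : ((n : ℤ) + (j + 1)).toNat = ((n : ℤ) + j).toNat + 1 := by omega
      simp only [this, Function.iterate_succ_apply']
    · intro j h1 h2
      exact hmN n _ (by omega)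
    · have : ((n : ℤ) + 0).toNat = n := by omega
      simp only [this]
      exact hmd n
  have hKanti : ∀ n, K (n + 1) ⊆ K n := by
    rintro n y ⟨h1, h2, h3⟩
    refine ⟨fun j hj1 hj2 => h1 j ?_ ?_, fun j hj1 hj2 => h2 j ?_ ?_, h3⟩ <;> push_cast <;> omega
  obtain ⟨y, hy⟩ := IsCompact.nonempty_iInter_of_sequence_nonempty_isCompact_isClosed K
    hKanti hKne (hKcl 0).isCompact hKcl
  rw [Set.mem_iInter] at hy
  have horb : ∀ j, y (j + 1) = f (y j) := fun j =>
    (hy (j.natAbs + 1)).1 j (by omega) (by omega)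
  have hyN : ∀ j, y j ∈ N := fun j =>
    (hy (j.natAbs + 1)).2.1 j (by omega) (by omega)
  obtain ⟨b, hb⟩ := hcomp y horb hyN 0
  have h3 := (hy 0).2.2
  rw [← hb, hs, dist_self] at h3
  exact absurd h3 (not_le.mpr hδ)

end

end SEC
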