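import Crest.Agent.SEC_GDefs

/-!
SEC-OmZZ. `Bq p p p p = 1`. For `Om_zz`: the lift `L (θ,φ) = (exp(2πiθ) sin(πφ/2), cos(πφ/2))` satisfies `prj (qt p) = L L^*`, so
`Bq (qt p0) .. (qt p3) = ∏ <L p_i, L p_{i+1}>`, `<a,b> = conj a.1 * b.1 + conj a.2 * b.2`. Let `e p q = arg <L p, L q>` (`e q p = - e p q` when `<,> ∉ (-∞,0]`). For `N` large all the
`e` of grid edges are `< π/4` in absolute value, so `arg (Bq ..) = e01 + e12 + e23 + e30`, and the double sum telescopes to the boundary of the parameter square: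
bottom `t=0`: edge `v0→v1`; right `s=1`: `v1→v2`; top `t=1`: `v0→v2` reversed; left `s=0`: constant. So `Om (v0,v1,v2) = E(v0→v1)+E(v1→v2)-E(v0→v2)` with
`E(a→b) = ∑_{i<N} e (point i/N) (point (i+1)/N)`; the diagonals cancel in the difference, the edges `φ=0` and `θ=0,1` give `0` (real positive products), the edge `(0,1)→(1,1)` gives
`± ∑ arg exp(2πi/N) = ± 2π`.
-/

set_option autoImplicit false
open scoped ContDiff Manifold Topology
open Filter

namespace SEC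

noncomputable section

private lemma omzz_sq_sum (p : S2) : (p.1 0)^2 + (p.1 1)^2 + (p.1 2)^2 = 1 := by
  have h := p.2
  rw [mem_sphere_zero_iff_norm] at h
  have h2 : ‖(p.1 : E3)‖^2 = 1 := by rw [h]; norm_num
  rw [EuclideanSpace.norm_sq_eq, Fin.sum_univ_three] at h2
  simpa using h2

private lemma omzz_prj_sq (p : S2) : prj p * prj p = prj p := by
  have h := omzz_sq_sum p
  have hz1 : hz p = ((p.1 0 : ℝ) : ℂ) + ((p.1 1 : ℝ) : ℂ) * Complex.I := by
    apply Complex.ext <;> simp [hz]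
  have hz2 : (starRingEnd ℂ) (hz p) = ((p.1 0 : ℝ) : ℂ) - ((p.1 1 : ℝ) : ℂ) * Complex.I := by
    apply Complex.ext <;> simp [hz]
  have hI : Complex.I^2 = -1 := Complex.I_sq
  unfold prj ht
  rw [hz2, hz1]
  generalize p.1 0 = x at *
  generalize p.1 1 = y at *
  generalize p.1 2 = z at *
  have hC : (x : ℂ)^2 + (y : ℂ)^2 + (z : ℂ)^2 = 1 := by
    have h' := congrArg (fun t : ℝ => (t : ℂ)) h
    push_cast at h'
    exact h'
  ext i j
  fin_cases i <;> fin_cases j <;>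
    simp only [Matrix.mul_apply, Fin.sum_univ_two, Matrix.of_apply, Matrix.cons_val, Fin.zero_eta,
      Fin.mk_one] <;> push_cast
  · linear_combination (1/4 : ℂ) * hC - (1/4 : ℂ) * (y : ℂ)^2 * hI
  · ring
  · ring
  · linear_combination (1/4 : ℂ) * hC - (1/4 : ℂ) * (y : ℂ)^2 * hI

private lemma omzz_prj_trace (p : S2) : (prj p).trace = 1 := by
  unfold prj
  rw [Matrix.trace_fin_two_of]
  push_cast; ring

private lemma omzz_Bq_self (p : S2) : Bq p p p p = 1 := by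
  unfold Bq
  rw [omzz_prj_sq, omzz_prj_sq, omzz_prj_sq, omzz_prj_trace]

theorem Om_const (N : ℕ) (p : S2) : Om N (ContinuousMap.const _ p) = 0 := by
  unfold Om
  simp only [ContinuousMap.const_apply, omzz_Bq_self, Complex.arg_one, Finset.sum_const_zero]

/-- the inner product of the spinor lifts. -/
private def ip (p q : ℝ × ℝ) : ℂ :=
  Complex.exp (((2 * Real.pi * (q.1 - p.1) : ℝ) : ℂ) * Complex.I) *
    ((Real.sin (Real.pi * p.2 / 2) * Real.sin (Real.pi * q.2 / 2) : ℝ) : ℂ) +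
    ((Real.cos (Real.pi * p.2 / 2) * Real.cos (Real.pi * q.2 / 2) : ℝ) : ℂ)

private def Ea (p : ℝ × ℝ) : ℂ := Complex.exp (((-(2 * Real.pi * p.1) : ℝ) : ℂ) * Complex.I)
private def Eb (p : ℝ × ℝ) : ℂ := Complex.exp (((2 * Real.pi * p.1 : ℝ) : ℂ) * Complex.I)
private def Sa (p : ℝ × ℝ) : ℝ := Real.sin (Real.pi * p.2 / 2)
private def Ca (p : ℝ × ℝ) : ℝ := Real.cos (Real.pi * p.2 / 2)

private lemma Ea_mul_Eb (p : ℝ × ℝ) : Ea p * Eb p = 1 := by
  unfold Ea Eb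
  rw [← Complex.exp_add, ← Complex.exp_zero]
  congr 1
  push_cast; ring

private lemma ip_eq (p q : ℝ × ℝ) : ip p q = (Ea p * Sa p) * (Eb q * Sa q) + Ca p * Ca q := by
  have hE : Complex.exp (((2 * Real.pi * (q.1 - p.1) : ℝ) : ℂ) * Complex.I) = Ea p * Eb q := by
    unfold Ea Eb
    rw [← Complex.exp_add]
    congr 1
    push_cast; ring
  unfold ip Sa Ca
  rw [hE]
  push_cast; ring

private lemma omzz_prj_qt (p : ℝ × ℝ) : prj (qt p) =
    !![(Eb p * Sa p) * (Ea p * Sa p), (Eb p * Sa p) * Ca p;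
       Ca p * (Ea p * Sa p), (Ca p : ℂ) * Ca p] := by
  have hs : Real.sin (Real.pi * p.2) = 2 * Sa p * Ca p := by
    unfold Sa Ca
    rw [← Real.sin_two_mul]; congr 1; ring
  have hc : Real.cos (Real.pi * p.2) = 2 * Ca p^2 - 1 := by
    unfold Ca
    rw [← Real.cos_two_mul]; congr 1; ring
  have hsc : Sa p ^2 + Ca p^2 = 1 := Real.sin_sq_add_cos_sq (Real.pi * p.2 / 2)
  have h0 : (qt p).1 0 = Real.sin (Real.pi * p.2) * Real.cos (2 * Real.pi * p.1) := by
    simp [qt, qtv]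
  have h1 : (qt p).1 1 = Real.sin (Real.pi * p.2) * Real.sin (2 * Real.pi * p.1) := by
    simp [qt, qtv]
  have h2 : (qt p).1 2 = - Real.cos (Real.pi * p.2) := by
    simp [qt, qtv]
  have hEb : Eb p = (Real.cos (2 * Real.pi * p.1) : ℂ) + (Real.sin (2 * Real.pi * p.1) : ℂ) * Complex.I := by
    unfold Eb
    rw [Complex.exp_mul_I, ← Complex.ofReal_cos, ← Complex.ofReal_sin]
  have hEa : Ea p = (Real.cos (2 * Real.pi * p.1) : ℂ) - (Real.sin (2 * Real.pi * p.1) : ℂ) * Complex.I := by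
    unfold Ea
    rw [Complex.exp_mul_I, ← Complex.ofReal_cos, ← Complex.ofReal_sin, Real.cos_neg, Real.sin_neg]
    push_cast; ring
  have hab := Ea_mul_Eb p
  have hz1 : hz (qt p) = (2 * Sa p * Ca p : ℝ) * Eb p := by
    rw [hEb]
    generalize Real.cos (2 * Real.pi * p.1) = cc at *
    generalize Real.sin (2 * Real.pi * p.1) = ss at *
    apply Complex.ext
    · simp only [hz, h0, hs]
      simp
    · simp only [hz, h1, hs]
      simp
  have hz2 : (starRingEnd ℂ) (hz (qt p)) = (2 * Sa p * Ca p : ℝ) * Ea p := by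
    rw [hEa]
    generalize Real.cos (2 * Real.pi * p.1) = cc at *
    generalize Real.sin (2 * Real.pi * p.1) = ss at *
    apply Complex.ext
    · simp only [hz, h0, hs]
      simp
    · simp only [hz, h1, hs]
      simp
  have hsc' : (Sa p : ℂ)^2 + (Ca p : ℂ)^2 = 1 := by exact_mod_cast hsc
  unfold prj ht
  rw [hz2, hz1, h2, hc]
  ext i j
  fin_cases i <;> fin_cases j <;>
    simp only [Fin.zero_eta, Fin.mk_one, Matrix.of_apply, Matrix.cons_val] <;> push_cast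
  · linear_combination - hsc' - (Sa p : ℂ)^2 * hab
  · ring
  · ring
  · ring

private lemma omzz_Bq_qt (p0 p1 p2 p3 : ℝ × ℝ) :
    Bq (qt p0) (qt p1) (qt p2) (qt p3) = ip p0 p1 * ip p1 p2 * ip p2 p3 * ip p3 p0 := by
  unfold Bq
  rw [omzz_prj_qt, omzz_prj_qt, omzz_prj_qt, omzz_prj_qt, ip_eq, ip_eq, ip_eq, ip_eq]
  simp only [Matrix.mul_fin_two, Matrix.trace_fin_two_of]
  ring

private lemma omzz_small : ∃ δ > 0, ∀ z : ℂ, ‖z - 1‖ < δ → |Complex.arg z| < Real.pi / 4 ∧ z ≠ 0 := by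
  have h1 : ContinuousAt Complex.arg 1 := Complex.continuousAt_arg (by simp [Complex.slitPlane])
  have h2 := Metric.continuousAt_iff.mp h1 (Real.pi / 4) (by positivity)
  obtain ⟨δ, hδ, h⟩ := h2
  refine ⟨min δ 1, lt_min hδ one_pos, fun z hz => ⟨?_, ?_⟩⟩
  · have := h (x := z) (by rw [dist_eq_norm]; exact lt_of_lt_of_le hz (min_le_left _ _))
    rw [Complex.arg_one, Real.dist_eq, sub_zero] at this
    exact this
  · rintro rfl
    have := lt_of_lt_of_le hz (min_le_right _ _)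
    simp at this

private lemma omzz_arg4 {z1 z2 z3 z4 : ℂ} (h1 : |Complex.arg z1| < Real.pi / 4 ∧ z1 ≠ 0)
    (h2 : |Complex.arg z2| < Real.pi / 4 ∧ z2 ≠ 0) (h3 : |Complex.arg z3| < Real.pi / 4 ∧ z3 ≠ 0)
    (h4 : |Complex.arg z4| < Real.pi / 4 ∧ z4 ≠ 0) :
    Complex.arg (z1 * z2 * z3 * z4) = Complex.arg z1 + Complex.arg z2 + Complex.arg z3 + Complex.arg z4 := by
  have hpi := Real.pi_pos
  obtain ⟨h1, n1⟩ := h1
  obtain ⟨h2, n2⟩ := h2
  obtain ⟨h3, n3⟩ := h3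
  obtain ⟨h4, n4⟩ := h4
  rw [abs_lt] at h1 h2 h3 h4
  have e12 : Complex.arg (z1 * z2) = Complex.arg z1 + Complex.arg z2 :=
    Complex.arg_mul n1 n2 ⟨by linarith [h1.1, h2.1], by linarith [h1.2, h2.2]⟩
  have e123 : Complex.arg (z1 * z2 * z3) = Complex.arg z1 + Complex.arg z2 + Complex.arg z3 := by
    rw [Complex.arg_mul (mul_ne_zero n1 n2) n3, e12]
    rw [e12]
    exact ⟨by linarith [h1.1, h2.1, h3.1], by linarith [h1.2, h2.2, h3.2]⟩
  rw [Complex.arg_mul (mul_ne_zero (mul_ne_zero n1 n2) n3) n4, e123]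
  rw [e123]
  exact ⟨by linarith [h1.1, h2.1, h3.1, h4.1], by linarith [h1.2, h2.2, h3.2, h4.2]⟩

private lemma ip_conj (p q : ℝ × ℝ) : ip q p = (starRingEnd ℂ) (ip p q) := by
  have hEb : ∀ p : ℝ × ℝ, (starRingEnd ℂ) (Eb p) = Ea p := by
    intro p
    unfold Ea Eb
    rw [← Complex.exp_conj]
    congr 1
    rw [map_mul, Complex.conj_ofReal, Complex.conj_I]
    push_cast; ring
  have hEa : ∀ p : ℝ × ℝ, (starRingEnd ℂ) (Ea p) = Eb p := by
    intro p
    rw [← hEb, Complex.conj_conj]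
  rw [ip_eq, ip_eq]
  simp only [map_add, map_mul, hEa, hEb, Complex.conj_ofReal]
  ring

private lemma ip_rev {p q : ℝ × ℝ} (h : |Complex.arg (ip p q)| < Real.pi / 4 ∧ ip p q ≠ 0) :
    Complex.arg (ip q p) = - Complex.arg (ip p q) ∧
      (|Complex.arg (ip q p)| < Real.pi / 4 ∧ ip q p ≠ 0) := by
  have hpi := Real.pi_pos
  have h1 : Complex.arg (ip q p) = - Complex.arg (ip p q) := by
    rw [ip_conj, Complex.arg_conj, if_neg]
    intro h'
    have := (abs_lt.mp h.1).2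
    rw [h'] at this
    linarith
  refine ⟨h1, ?_, ?_⟩
  · rw [h1, abs_neg]; exact h.1
  · rw [ip_conj]
    simpa using h.2

private lemma ip_close (p q : ℝ × ℝ) (N : ℕ) (hN : 0 < N) (h1 : |q.1 - p.1| ≤ 1 / N)
    (h2 : |q.2 - p.2| ≤ 1 / N) : ‖ip p q - 1‖ ≤ 9 / N := by
  have hpi := Real.pi_pos
  have hpi2 := Real.pi_lt_d2
  have hNr : (0:ℝ) < N := by exact_mod_cast hN
  have hN1 : (1:ℝ) ≤ N := by exact_mod_cast hN
  set S := Real.sin (Real.pi * p.2 / 2) * Real.sin (Real.pi * q.2 / 2) with hS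
  have hSC : Real.sin (Real.pi * p.2 / 2) * Real.sin (Real.pi * q.2 / 2) +
      Real.cos (Real.pi * p.2 / 2) * Real.cos (Real.pi * q.2 / 2) =
      Real.cos (Real.pi / 2 * (q.2 - p.2)) := by
    rw [show Real.pi / 2 * (q.2 - p.2) = Real.pi * q.2 / 2 - Real.pi * p.2 / 2 by ring,
      Real.cos_sub]; ring
  have e : ip p q - 1 = (Complex.exp (((2 * Real.pi * (q.1 - p.1) : ℝ) : ℂ) * Complex.I) - 1) *
      ((S : ℝ) : ℂ) + ((Real.cos (Real.pi / 2 * (q.2 - p.2)) - 1 : ℝ) : ℂ) := by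
    unfold ip
    rw [← hSC, ← hS]
    push_cast
    ring
  have b1 : ‖Complex.exp (((2 * Real.pi * (q.1 - p.1) : ℝ) : ℂ) * Complex.I) - 1‖ ≤
      2 * Real.pi * (1 / N) := by
    have := Real.norm_exp_I_mul_ofReal_sub_one_le (x := 2 * Real.pi * (q.1 - p.1))
    rw [mul_comm] at this
    refine this.trans ?_
    rw [Real.norm_eq_abs, abs_mul, abs_of_pos (by positivity : (0:ℝ) < 2 * Real.pi)]
    gcongr
  have b2 : ‖((S : ℝ) : ℂ)‖ ≤ 1 := by
    rw [Complex.norm_real, Real.norm_eq_abs, hS, abs_mul]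
    exact mul_le_one₀ (Real.abs_sin_le_one _) (abs_nonneg _) (Real.abs_sin_le_one _)
  have b3 : ‖((Real.cos (Real.pi / 2 * (q.2 - p.2)) - 1 : ℝ) : ℂ)‖ ≤ 2 / N := by
    rw [Complex.norm_real, Real.norm_eq_abs]
    have c1 := Real.one_sub_sq_div_two_le_cos (x := Real.pi / 2 * (q.2 - p.2))
    have c2 := Real.cos_le_one (Real.pi / 2 * (q.2 - p.2))
    rw [abs_of_nonpos (by linarith)]
    have c3 : (Real.pi / 2 * (q.2 - p.2))^2 ≤ (2 * (1 / N))^2 := by
      rw [← sq_abs]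
      apply pow_le_pow_left₀ (abs_nonneg _)
      rw [abs_mul, abs_of_pos (by positivity : (0:ℝ) < Real.pi / 2)]
      exact mul_le_mul (by linarith) h2 (abs_nonneg _) (by norm_num)
    have c4 : (1 / N : ℝ)^2 ≤ 1 / N := by
      rw [sq]
      have : (1 / N : ℝ) ≤ 1 := by rw [div_le_one hNr]; exact hN1
      nlinarith [show (0:ℝ) < 1 / N by positivity]
    have c5 : (2:ℝ) / N = 2 * (1 / N) := by ring
    rw [c5]
    nlinarith
  rw [e]
  calc _ ≤ ‖(Complex.exp (((2 * Real.pi * (q.1 - p.1) : ℝ) : ℂ) * Complex.I) - 1) *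
      ((S : ℝ) : ℂ)‖ + ‖((Real.cos (Real.pi / 2 * (q.2 - p.2)) - 1 : ℝ) : ℂ)‖ := norm_add_le _ _
    _ ≤ 2 * Real.pi * (1 / N) * 1 + 2 / N := by
      refine add_le_add ?_ b3
      rw [norm_mul]
      exact mul_le_mul b1 b2 (norm_nonneg _) (by positivity)
    _ ≤ 9 / N := by
      rw [mul_one, mul_one_div, ← add_div]
      apply div_le_div_of_nonneg_right _ hNr.le
      linarith

private lemma omzz_tel (N : ℕ) (σ : Spx 2 S2) (X : ℕ → ℕ → ℝ × ℝ)
    (hX : ∀ i ≤ N, ∀ j ≤ N, σ (pt2 (gr N i) (gr N j)) = qt (X i j))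
    (hA : ∀ i < N, ∀ j ≤ N, |Complex.arg (ip (X i j) (X (i+1) j))| < Real.pi / 4 ∧
      ip (X i j) (X (i+1) j) ≠ 0)
    (hB : ∀ i ≤ N, ∀ j < N, |Complex.arg (ip (X i j) (X i (j+1)))| < Real.pi / 4 ∧
      ip (X i j) (X i (j+1)) ≠ 0) :
    Om N σ = ∑ i ∈ Finset.range N, Complex.arg (ip (X i 0) (X (i+1) 0))
      - ∑ i ∈ Finset.range N, Complex.arg (ip (X i N) (X (i+1) N))
      + ∑ j ∈ Finset.range N, Complex.arg (ip (X N j) (X N (j+1)))
      - ∑ j ∈ Finset.range N, Complex.arg (ip (X 0 j) (X 0 (j+1))) := by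
  set A : ℕ → ℕ → ℝ := fun i j => Complex.arg (ip (X i j) (X (i+1) j)) with hAd
  set B : ℕ → ℕ → ℝ := fun i j => Complex.arg (ip (X i j) (X i (j+1))) with hBd
  have key : ∀ i < N, ∀ j < N, Complex.arg (Bq (σ (pt2 (gr N i) (gr N j)))
      (σ (pt2 (gr N (i+1)) (gr N j))) (σ (pt2 (gr N (i+1)) (gr N (j+1))))
      (σ (pt2 (gr N i) (gr N (j+1))))) = (A i j - A i (j+1)) + (B (i+1) j - B i j) := by
    intro i hi j hj
    rw [hX i hi.le j hj.le, hX (i+1) hi j hj.le, hX (i+1) hi (j+1) hj, hX i hi.le (j+1) hj,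
      omzz_Bq_qt]
    have a1 := hA i hi j hj.le
    have a2 := hB (i+1) hi j hj
    have a3 := ip_rev (hA i hi (j+1) hj)
    have a4 := ip_rev (hB i hi.le j hj)
    rw [omzz_arg4 a1 a2 a3.2 a4.2, a3.1, a4.1]
    simp only [hAd, hBd]
    ring
  have e1 : Om N σ = ∑ i ∈ Finset.range N, ∑ j ∈ Finset.range N,
      ((A i j - A i (j+1)) + (B (i+1) j - B i j)) := by
    unfold Om
    refine Finset.sum_congr rfl fun i hi => Finset.sum_congr rfl fun j hj => ?_
    exact key i (Finset.mem_range.mp hi) j (Finset.mem_range.mp hj)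
  rw [e1]
  simp only [Finset.sum_add_distrib]
  have e2 : ∑ i ∈ Finset.range N, ∑ j ∈ Finset.range N, (A i j - A i (j+1)) =
      ∑ i ∈ Finset.range N, (A i 0 - A i N) := by
    refine Finset.sum_congr rfl fun i _ => ?_
    exact Finset.sum_range_sub' (fun j => A i j) N
  have e3 : ∑ i ∈ Finset.range N, ∑ j ∈ Finset.range N, (B (i+1) j - B i j) =
      ∑ j ∈ Finset.range N, (B N j - B 0 j) := by
    rw [Finset.sum_comm]
    refine Finset.sum_congr rfl fun j _ => ?_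
    exact Finset.sum_range_sub (fun i => B i j) N
  rw [e2, e3, Finset.sum_sub_distrib, Finset.sum_sub_distrib]
  ring

private lemma gr_val (N i : ℕ) (hN : 0 < N) (hi : i ≤ N) : ((gr N i : unitInterval) : ℝ) = i / N := by
  have hNr : (0:ℝ) < N := by exact_mod_cast hN
  have : ((i:ℝ) / N) ∈ Set.Icc (0:ℝ) 1 :=
    ⟨by positivity, by rw [div_le_one hNr]; exact_mod_cast hi⟩
  unfold gr
  rw [Set.projIcc_of_mem _ this]

private lemma omzz_aff (P0 P1 P2 : ℝ × ℝ) (s t : unitInterval) :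
    (qt.comp (aff3 P0 P1 P2)) (pt2 s t) =
      qt ((1 - (s:ℝ)) • P0 + ((s:ℝ) * (1 - t)) • P1 + ((s:ℝ) * t) • P2) := by
  rfl

theorem Om_zz : ∃ N0 : ℕ, ∀ N ≥ N0,
    Om N (qt.comp (aff3 (0,0) (1,0) (1,1))) - Om N (qt.comp (aff3 (0,0) (0,1) (1,1))) ≠ 0 := by
  obtain ⟨δ, hδ, hsm⟩ := omzz_small
  obtain ⟨N0, hN0⟩ := exists_nat_gt (9 / δ)
  refine ⟨max N0 4, fun N hN => ?_⟩
  have hN4 : 4 ≤ N := le_trans (le_max_right _ _) hN
  have hNp : 0 < N := by omega
  have hNr : (0:ℝ) < N := by exact_mod_cast hNp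
  have hN4r : (4:ℝ) ≤ N := by exact_mod_cast hN4
  have hpi := Real.pi_pos
  have h9 : 9 / (N:ℝ) < δ := by
    rw [div_lt_iff₀ hNr]
    have : 9 / δ < N := lt_of_lt_of_le hN0 (by exact_mod_cast le_trans (le_max_left _ _) hN)
    rw [div_lt_iff₀ hδ] at this
    linarith
  have hcl : ∀ p q : ℝ × ℝ, |q.1 - p.1| ≤ 1 / N → |q.2 - p.2| ≤ 1 / N →
      |Complex.arg (ip p q)| < Real.pi / 4 ∧ ip p q ≠ 0 := fun p q h1 h2 =>
    hsm _ (lt_of_le_of_lt (ip_close p q N hNp h1 h2) h9)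
  -- differences
  have d0 : ∀ x : ℝ, |x - x| ≤ 1 / N := by intro x; rw [sub_self, abs_zero]; positivity
  have d1 : ∀ i : ℕ, |((i+1:ℕ):ℝ) / N - (i:ℝ) / N| ≤ 1 / N := by
    intro i
    rw [← sub_div]
    push_cast
    rw [add_sub_cancel_left, abs_of_pos (by positivity)]
  have hf : ∀ i : ℕ, i ≤ N → 0 ≤ (i:ℝ) / N ∧ (i:ℝ) / N ≤ 1 := fun i hi =>
    ⟨by positivity, by rw [div_le_one hNr]; exact_mod_cast hi⟩
  have d2 : ∀ i j : ℕ, j ≤ N → |((i+1:ℕ):ℝ) / N * ((j:ℝ) / N) - (i:ℝ) / N * ((j:ℝ) / N)| ≤ 1 / N := by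
    intro i j hj
    rw [← sub_mul, abs_mul, abs_of_nonneg (hf j hj).1]
    calc _ ≤ (1 / N : ℝ) * 1 := mul_le_mul (d1 i) (hf j hj).2 (hf j hj).1 (by positivity)
      _ = 1 / N := mul_one _
  have d3 : ∀ i j : ℕ, i ≤ N → |(i:ℝ) / N * (((j+1:ℕ):ℝ) / N) - (i:ℝ) / N * ((j:ℝ) / N)| ≤ 1 / N := by
    intro i j hi
    rw [mul_comm, mul_comm ((i:ℝ) / N)]
    exact d2 j i hi
  have T1 := omzz_tel N (qt.comp (aff3 (0,0) (1,0) (1,1)))
    (fun i j => ((i:ℝ) / N, (i:ℝ) / N * ((j:ℝ) / N)))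
    (fun i hi j hj => by
      rw [omzz_aff, gr_val N i hNp hi, gr_val N j hNp hj]
      congr 1
      ext
      · simp; ring
      · simp)
    (fun i hi j hj => hcl _ _ (d1 i) (d2 i j hj))
    (fun i hi j hj => hcl _ _ (d0 _) (d3 i j hi))
  have T2 := omzz_tel N (qt.comp (aff3 (0,0) (0,1) (1,1)))
    (fun i j => ((i:ℝ) / N * ((j:ℝ) / N), (i:ℝ) / N))
    (fun i hi j hj => by
      rw [omzz_aff, gr_val N i hNp hi, gr_val N j hNp hj]
      congr 1
      ext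
      · simp
      · simp; ring)
    (fun i hi j hj => hcl _ _ (d2 i j hj) (d1 i))
    (fun i hi j hj => hcl _ _ (d3 i j hi) (d0 _))
  rw [T1, T2]
  have hNN : (N:ℝ) / N = 1 := div_self hNr.ne'
  -- evaluate
  have v1 : ∀ x y : ℝ, Complex.arg (ip (x, 0) (y, 0)) = 0 := by
    intro x y
    unfold ip
    simp
  have v2 : ∀ x a b : ℝ, |b - a| ≤ 1 → Complex.arg (ip (x, a) (x, b)) = 0 := by
    intro x a b hab
    have : ip (x, a) (x, b) = ((Real.cos (Real.pi / 2 * (b - a)) : ℝ) : ℂ) := by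
      rw [show Real.pi / 2 * (b - a) = Real.pi * b / 2 - Real.pi * a / 2 by ring, Real.cos_sub]
      unfold ip
      simp only [sub_self, mul_zero, Complex.ofReal_zero, zero_mul, Complex.exp_zero]
      push_cast; ring
    rw [this, Complex.arg_ofReal_of_nonneg]
    rw [abs_le] at hab
    apply Real.cos_nonneg_of_mem_Icc
    constructor <;> nlinarith
  have v3 : ∀ j : ℕ, Complex.arg (ip ((j:ℝ) / N, 1) (((j+1:ℕ):ℝ) / N, 1)) = 2 * Real.pi / N := by
    intro j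
    have : ip ((j:ℝ) / N, 1) (((j+1:ℕ):ℝ) / N, 1) =
        Complex.exp (((2 * Real.pi / N : ℝ) : ℂ) * Complex.I) := by
      unfold ip
      simp only [mul_one, Real.sin_pi_div_two, Real.cos_pi_div_two, mul_zero,
        Complex.ofReal_zero, add_zero, Complex.ofReal_one]
      congr 2
      congr 1
      push_cast
      field_simp
      ring
    rw [this, Complex.arg_exp_mul_I, toIocMod_eq_self]
    constructor
    · have : 0 < 2 * Real.pi / N := by positivity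
      linarith
    · have : 2 * Real.pi / N ≤ 2 * Real.pi / 4 := by gcongr
      linarith
  have hd1 : ∀ i : ℕ, |((i+1:ℕ):ℝ) / N - (i:ℝ) / N| ≤ 1 := fun i =>
    (d1 i).trans (by rw [div_le_one hNr]; linarith)
  have v2' : ∀ (x : ℝ) (i : ℕ), Complex.arg (ip (x, (i:ℝ) / N) (x, ((i+1:ℕ):ℝ) / N)) = 0 :=
    fun x i => v2 _ _ _ (hd1 i)
  have v1' : ∀ x : ℝ, Complex.arg (ip (x, 0) (x, 0)) = 0 := fun x => v1 x x
  simp only [hNN, Nat.cast_zero, zero_div, mul_zero, zero_mul, mul_one, one_mul, v1, v2', v3,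
    Finset.sum_const_zero, Finset.sum_const, Finset.card_range, nsmul_eq_mul]
  rw [mul_div_cancel₀ _ hNr.ne']
  intro h
  linarith

end

end SEC
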