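import Crest.Agent.SEC_OmBd
import Crest.Agent.SEC_OmZZ

/-!
SEC-NotBd: the fundamental cycle is not a boundary.
-/

set_option autoImplicit false
open scoped ContDiff Manifold Topology
open Filter

namespace SEC

noncomputable section

/-- linear extension of the Berry flux. -/
def OmL (N : ℕ) : Ch 2 S2 →ₗ[ℝ] ℝ := Finsupp.linearCombination ℝ (fun σ => Om N σ)

theorem OmL_single (N : ℕ) (σ : Spx 2 S2) (a : ℝ) : OmL N (Finsupp.single σ a) = a * Om N σ := by
  unfold OmL; rw [Finsupp.linearCombination_single, smul_eq_mul]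

theorem OmL_bd_single (N : ℕ) (τ : Spx 3 S2) (a : ℝ) :
    OmL N (bd 2 S2 (Finsupp.single τ a)) = a * (Om N (τ.comp (fc 0)) - Om N (τ.comp (fc 1)) +
      Om N (τ.comp (fc 2)) - Om N (τ.comp (fc 3))) := by
  unfold bd
  rw [Finsupp.linearCombination_single, map_smul, map_sum, Fin.sum_univ_four]
  simp only [map_smul, OmL_single, smul_eq_mul, one_mul]
  norm_num
  left; ring

theorem zz_not_boundary : ¬ ∃ c, bd 2 S2 c = zz := by
  rintro ⟨c, hc⟩
  choose N0 hN0 using Om_boundary
  obtain ⟨N1, hN1⟩ := Om_zz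
  set N := max N1 (c.support.sup N0) with hN
  have h0 : OmL N (bd 2 S2 c) = 0 := by
    rw [← Finsupp.sum_single c, Finsupp.sum, map_sum, map_sum]
    refine Finset.sum_eq_zero fun τ hτ => ?_
    rw [OmL_bd_single, hN0 τ N ((Finset.le_sup hτ).trans (le_max_right _ _)), mul_zero]
  rw [hc] at h0
  apply hN1 N (le_max_left _ _)
  have h1 : OmL N zz = Om N (qt.comp (aff3 (0,0) (1,0) (1,1))) -
      Om N (qt.comp (aff3 (0,0) (0,1) (1,1))) := by
    unfold zz sqch push
    rw [map_add, map_sub, map_sub, map_sub, OmL_single, OmL_single, Finsupp.lmapDomain_apply,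
      Finsupp.mapDomain_single, Finsupp.lmapDomain_apply, Finsupp.mapDomain_single,
      OmL_single, OmL_single, Om_const, Om_const]
    ring
  rw [← h1]; exact h0

end

end SEC
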