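import Crest.Agent.SEC_Local
import Crest.Agent.SEC_GComplete
import Crest.Agent.SEC_GHomot
import Crest.Agent.SEC_Charted
import Crest.Agent.SEC_Mid
import Crest.Agent.SEC_Entropy
import Crest.Agent.SEC_Cycle
import Crest.Agent.SEC_NotBd

/-!
SEC-Final: assembly (helper62).
-/

set_option autoImplicit false
open scoped ContDiff Manifold Topology
open Filter

namespace SEC

noncomputable section

theorem continuous_ht : Continuous ht :=
  (EuclideanSpace.proj (𝕜 := ℝ) (2 : Fin 3)).continuous.comp continuous_subtype_val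

theorem ht_north : ht north = 1 := by simp [ht, north, northv]

theorem isometry_rotC : Isometry (fun z : Circle => rotC * z) := by
  refine Isometry.of_dist_eq fun a b => ?_
  have h : ∀ u w : Circle, dist u w = ‖(u : ℂ) - w‖ := fun u w => by
    rw [← dist_eq_norm]; rfl
  rw [h, h, Circle.coe_mul, Circle.coe_mul, ← mul_sub, norm_mul, Circle.norm_coe, one_mul]

theorem fM_entropy (F : ℂ → V → V) (hF : LocalMap F) (hc : Continuous (fM F)) :
    Dynamics.coverEntropy (fM F) Set.univ = 0 := by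
  have : Nonempty MM := ⟨iotaM north⟩
  have hN : IsClosed {m : MM | ht m.2.1 ≤ 3/5} :=
    isClosed_le (continuous_ht.comp (continuous_fst.comp continuous_snd)) continuous_const
  have hσ : ∀ q : S2 × S2, Continuous (fun b : Circle => ((b, q) : MM)) := fun q =>
    Continuous.prodMk continuous_id continuous_const
  refine entropy_zero (fM F) hc Prod.fst continuous_fst (fun z => rotC * z) isometry_rotC
    (fun b => (b, (south, south))) (fun b => (b, (north, south))) (hσ _) (hσ _)
    (fun m => rfl) (fun b => rfl) (fun b => rfl) {m : MM | ht m.2.1 ≤ 3/5} hN ?_ ?_ ?_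
  · intro b hb
    simp only [Set.mem_ofPred_eq, ht_north] at hb
    norm_num at hb
  · intro m hm
    exact fM_outside F m (not_le.mp hm)
  · intro δ hδ
    refine mid_close (fM F) hc Prod.fst continuous_fst (fun b => (b, (south, south))) (hσ _)
      (fun b => rfl) {m : MM | ht m.2.1 ≤ 3/5} hN ?_ δ hδ
    intro m hm hmN j
    have := fM_complete F hF m hm (fun j => hmN j) j
    exact ⟨(m j).1, Prod.ext rfl this.symm⟩

theorem HH2map_comp {X Y Z : Type} [TopologicalSpace X] [TopologicalSpace Y] [TopologicalSpace Z]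
    (f : C(X, Y)) (g : C(Y, Z)) :
    HH2map (TopCat.ofHom (g.comp f)) = CategoryTheory.CategoryStruct.comp
      (HH2map (TopCat.ofHom f)) (HH2map (TopCat.ofHom g)) := by
  rw [TopCat.ofHom_comp]
  exact CategoryTheory.Functor.map_comp _ _ _

theorem fM_eigen (F : ℂ → V → V) (hF : LocalMap F) (hc : Continuous (fM F)) :
    Module.End.HasEigenvalue (HH2map (TopCat.ofHom (⟨fM F, hc⟩ : C(MM, MM)))).hom (2 : ℝ) := by
  obtain ⟨cls, hcls0, hclsmap⟩ := exists_cls
  -- the cycle
  let z : LinearMap.ker (bd 1 (TopCat.of S2)) := ⟨zz, bd_zz⟩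
  let G0 : C(S2, S2) := ⟨g0, continuous_g0⟩
  let ι : C(S2, MM) := ⟨iotaM, continuous_iotaM⟩
  let f : C(MM, MM) := ⟨fM F, hc⟩
  have hz : cls (TopCat.of S2) z ≠ 0 := fun h => zz_not_boundary ((hcls0 _ z).mp h)
  -- the pushed cycle
  obtain ⟨c, hcc⟩ := zz_eigen
  have hw0 : bd 1 S2 (push 2 G0 zz) = 0 := by
    rw [bd_push, bd_zz, map_zero]
  let w : LinearMap.ker (bd 1 (TopCat.of S2)) := ⟨push 2 G0 zz, hw0⟩
  have h1 : (HH2map (TopCat.ofHom G0)).hom (cls (TopCat.of S2) z) = cls (TopCat.of S2) w :=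
    hclsmap (TopCat.of S2) (TopCat.of S2) (TopCat.ofHom G0) z w rfl
  have h2 : cls (TopCat.of S2) w = (2:ℝ) • cls (TopCat.of S2) z := by
    have h3 : cls (TopCat.of S2) (w - (2:ℝ) • z) = 0 := (hcls0 _ _).mpr ⟨c, hcc⟩
    have h4 := (cls (TopCat.of S2)).map_sub w ((2:ℝ) • z)
    have h5 := (cls (TopCat.of S2)).map_smul (2:ℝ) z
    rw [h3, h5] at h4
    exact (sub_eq_zero.mp h4.symm)
  -- the eigenvector
  let e := (HH2map (TopCat.ofHom ι)).hom (cls (TopCat.of S2) z)
  have he : e ≠ 0 := by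
    intro h0
    let pr : C(MM, S2) := ⟨fun m => m.2.1, continuous_fst.comp continuous_snd⟩
    have hid : pr.comp ι = ContinuousMap.id S2 := by ext1 p; rfl
    have h3 := HH2map_comp ι pr
    rw [hid] at h3
    have h4 : (HH2map (TopCat.ofHom (ContinuousMap.id S2))) = CategoryTheory.CategoryStruct.id _ :=
      CategoryTheory.Functor.map_id _ _
    rw [h4] at h3
    have h5 := congrArg (fun φ => (ModuleCat.Hom.hom φ) (cls (TopCat.of S2) z)) h3
    simp only [ModuleCat.hom_id, ModuleCat.hom_comp, LinearMap.id_apply,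
      LinearMap.comp_apply] at h5
    apply hz
    rw [h5]
    change (HH2map (TopCat.ofHom pr)).hom e = 0
    rw [h0, map_zero]
  have hfe : (HH2map (TopCat.ofHom f)).hom e = (2:ℝ) • e := by
    have h3 := HH2map_homotopic (f.comp ι) (ι.comp G0) (fM_homotopic F hF hc)
    rw [HH2map_comp, HH2map_comp] at h3
    have h5 := congrArg (fun φ => (ModuleCat.Hom.hom φ) (cls (TopCat.of S2) z)) h3
    simp only [ModuleCat.hom_comp, LinearMap.comp_apply] at h5
    change (HH2map (TopCat.ofHom f)).hom e = _ at h5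
    rw [h5, h1, h2, map_smul]
  exact Module.End.hasEigenvalue_of_hasEigenvector
    (Module.End.hasEigenvector_iff.mpr ⟨Module.End.mem_eigenspace_iff.mpr hfe, he⟩)

theorem final :
    ∃ (n : ℕ) (M : Type) (_ : MetricSpace M) (_ : CompactSpace M) (_ : Nonempty M)
      (_ : ChartedSpace (EuclideanSpace ℝ (Fin n)) M)
      (_ : IsManifold (modelWithCornersSelf ℝ (EuclideanSpace ℝ (Fin n))) ∞ M)
      (f : C(M, M)),
      ContMDiff (modelWithCornersSelf ℝ (EuclideanSpace ℝ (Fin n)))
          (modelWithCornersSelf ℝ (EuclideanSpace ℝ (Fin n))) 1 ⇑f ∧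
        Dynamics.coverEntropy ⇑f Set.univ = 0 ∧
        Module.End.HasEigenvalue
          (((AlgebraicTopology.singularHomologyFunctor (ModuleCat.{0} ℝ) 2).obj
              (ModuleCat.of ℝ ℝ)).map (TopCat.ofHom f)).hom (2 : ℝ) := by
  obtain ⟨F, hF⟩ := exists_localMap
  obtain ⟨i1, i2, h⟩ := exists_charted
  have hc : Continuous (fM F) := (fM_contMDiff F hF).continuous
  exact ⟨5, MM, inferInstance, inferInstance, ⟨iotaM north⟩, i1, i2, ⟨fM F, hc⟩,
    h _ (fM_contMDiff F hF), fM_entropy F hF hc, fM_eigen F hF hc⟩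

end

end SEC
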