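import Crest.Statements.S0168
import Crest.Agent.LibTree

set_option autoImplicit false
open Crest Crest.AnalysisR

namespace Crest.Agent.S0168

open Crest.AnalysisR.TreePotential Crest.Agent.LibTree Crest.Agent.LibAUC

/-- active vertices of a model -/
def act (m : PotentialModel) : Set (List ℕ) := {s | m = .rootlessSibling → s ≠ []}

theorem pathPotential_zero : ∀ s : List ℕ, pathPotential (fun _ => 0) s = 0
  | [] => rfl
  | a :: v => by rw [pathPotential, pathPotential_zero v, add_zero]

theorem pathPotential_ind (s : List ℕ) : ∀ u : List ℕ,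
    (u.length < s.length → pathPotential (fun u => if u = s then (1:ℝ) else 0) u = 0) ∧
    (pathPotential (fun u => if u = s then (1:ℝ) else 0) u = 0 ∨
      pathPotential (fun u => if u = s then (1:ℝ) else 0) u = 1)
  | [] => by
    simp only [pathPotential]
    constructor
    · intro h
      rw [if_neg]
      rintro rfl
      simp at h
    · split_ifs <;> simp
  | a :: v => by
    obtain ⟨h1, h2⟩ := pathPotential_ind s v
    rw [pathPotential]
    by_cases h : a :: v = s
    · have : v.length < s.length := by rw [← h]; simp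
      rw [h1 this, if_pos h]
      refine ⟨?_, by simp⟩
      intro h3
      rw [h] at h3
      exact absurd h3 (lt_irrefl _)
    · rw [if_neg h, add_zero]
      refine ⟨fun h3 => h1 ?_, h2⟩
      simp only [List.length_cons] at h3
      omega

theorem sum_ind_le {A : Finset (List ℕ)} (s : List ℕ) :
    ∑ u ∈ A, (if u = s then (1:ℝ) else 0) ^ 2 ≤ 1 := by
  have : ∀ u ∈ A, (if u = s then (1:ℝ) else 0) ^ 2 = if u = s then 1 else 0 := by
    intro u _
    split_ifs <;> simp
  rw [Finset.sum_congr rfl this, Finset.sum_ite_eq']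
  split_ifs <;> simp

theorem sum_image_cons (A : Finset ℕ) (r : List ℕ) (h : List ℕ → ℝ) :
    ∑ u ∈ A.image (fun n => n :: r), h u = ∑ n ∈ A, h (n :: r) := by
  rw [Finset.sum_image]
  intro a _ b _ hab
  simpa using hab

theorem filter_image_cons (A : Finset ℕ) (r : List ℕ) (p : List ℕ → Prop) [DecidablePred p] :
    (A.image (fun n => n :: r)).filter p = (A.filter (fun n => p (n :: r))).image (fun n => n :: r) := by
  rw [Finset.filter_image]

theorem antichain_image (A : Finset ℕ) (r : List ℕ) :
    IsTreeAntichain (A.image (fun n => n :: r)) := by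
  intro u hu v hv huv hs
  rw [Finset.mem_image] at hu hv
  obtain ⟨a, _, rfl⟩ := hu
  obtain ⟨b, _, rfl⟩ := hv
  exact huv (hs.eq_of_length (by simp))

theorem IsTest.children {m : PotentialModel} {f : List ℕ → ℝ} (h : IsTest m f) (r : List ℕ)
    (A : Finset ℕ) : ∑ n ∈ A, f (n :: r) ^ 2 ≤ 1 := by
  cases m with
  | rootlessSibling => exact h.2.2 r A
  | rootedSibling => exact h.2 r A
  | antichain =>
    rw [← sum_image_cons A r (fun u => f u ^ 2)]
    exact h.2.2 _ (antichain_image A r)
  | «global» =>
    rw [← sum_image_cons A r (fun u => f u ^ 2)]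
    exact h.2 _

theorem isTest_zero (m : PotentialModel) : IsTest m (fun _ => 0) := by
  refine ⟨fun s => ?_, ?_⟩
  · rw [pathPotential_zero]; simp
  · cases m <;> simp [ExtraCondition]

theorem isTest_ind (m : PotentialModel) (s : List ℕ) (hs : s ∈ act m) :
    IsTest m (fun u => if u = s then 1 else 0) := by
  refine ⟨fun u => ?_, ?_⟩
  · rcases (pathPotential_ind s u).2 with h | h <;> rw [h] <;> simp
  · cases m with
    | rootlessSibling =>
      refine ⟨if_neg (fun h => hs rfl h.symm), fun r A => ?_⟩
      rw [← sum_image_cons A r (fun u => (if u = s then (1:ℝ) else 0) ^ 2)]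
      exact sum_ind_le s
    | rootedSibling =>
      intro r A
      rw [← sum_image_cons A r (fun u => (if u = s then (1:ℝ) else 0) ^ 2)]
      exact sum_ind_le s
    | antichain =>
      refine ⟨?_, fun A _ => sum_ind_le s⟩
      apply (Set.finite_singleton s).subset
      intro u hu
      by_contra h
      exact hu (if_neg h)
    | «global» => exact fun A => sum_ind_le s

/-- both `h±` are tests. -/
theorem isTest_of_props {m : PotentialModel} {f g h : List ℕ → ℝ} (hf : IsTest m f) (hg : IsTest m g)
    {α γ : ℝ} (hαγ : α ^ 2 + γ ^ 2 ≤ 1) (F : Finset (List ℕ)) (hF0 : [] ∈ F)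
    (h1 : ∀ s ∈ F, h s = α * f s) (h2 : ∀ s, s ∉ F → |h s| ≤ |γ * g s|)
    (h3 : ∀ s, |pathPotential h s| ≤ 1) : IsTest m h := by
  have key : ∀ A : Finset (List ℕ), ∑ u ∈ A.filter (· ∈ F), f u ^ 2 ≤ 1 →
      ∑ u ∈ A.filter (· ∉ F), g u ^ 2 ≤ 1 → ∑ u ∈ A, h u ^ 2 ≤ 1 := by
    intro A hA1 hA2
    have := sum_sq_le F α γ f g A h1 h2 hA1 hA2
    linarith
  have sib : (∀ (r : List ℕ) (A : Finset ℕ), ∑ n ∈ A, h (n :: r) ^ 2 ≤ 1) := by
    intro r A
    rw [← sum_image_cons A r (fun u => h u ^ 2)]
    apply key
    · rw [filter_image_cons, sum_image_cons _ r (fun u => f u ^ 2)]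
      exact IsTest.children hf r _
    · rw [filter_image_cons, sum_image_cons _ r (fun u => g u ^ 2)]
      exact IsTest.children hg r _
  refine ⟨h3, ?_⟩
  cases m with
  | rootlessSibling =>
    refine ⟨?_, sib⟩
    rw [h1 _ hF0, hf.2.1, mul_zero]
  | rootedSibling => exact sib
  | antichain =>
    refine ⟨?_, ?_⟩
    · apply ((F.finite_toSet).union hg.2.1).subset
      intro u hu
      by_cases hu2 : u ∈ F
      · exact Or.inl hu2
      · right
        intro h0
        have := h2 u hu2
        rw [h0, mul_zero, abs_zero] at this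
        exact hu (abs_nonpos_iff.mp this)
    · intro A hA
      have her : ∀ B : Finset (List ℕ), B ⊆ A → IsTreeAntichain B :=
        fun B hB u hu v hv => hA u (hB hu) v (hB hv)
      exact key A (hf.2.2 _ (her _ (Finset.filter_subset _ _)))
        (hg.2.2 _ (her _ (Finset.filter_subset _ _)))
  | «global» => exact fun A => key A (hf.2 _) (hg.2 _)

theorem testSystem (m : PotentialModel) :
    TestSystem (PotentialTest m) (fun f => f.1) (act m) where
  ne := ⟨⟨_, isTest_zero m⟩⟩
  pot := fun t s => t.2.1 s
  sib := fun t r A => IsTest.children t.2 r A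
  ind := fun s hs => ⟨⟨_, isTest_ind m s hs⟩, fun _ => rfl⟩
  van := by
    intro s hs t
    simp only [act, Set.mem_ofPred_eq, not_forall, not_not] at hs
    obtain ⟨rfl, rfl⟩ := hs
    exact t.2.2.1
  comb := by
    intro F hF0 hF t₁ t₂ α γ hαγ
    have hα : |α| ≤ 1 := by
      rw [← sq_le_one_iff_abs_le_one]; nlinarith [sq_nonneg γ]
    have hγ : |γ| ≤ 1 := by
      rw [← sq_le_one_iff_abs_le_one]; nlinarith [sq_nonneg α]
    have hle : ∀ {a b : ℝ}, |a| ≤ 1 → |b| ≤ 1 → |a * b| ≤ 1 := by
      intro a b ha hb
      rw [abs_mul]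
      exact mul_le_one₀ ha (abs_nonneg _) hb
    obtain ⟨h1, h2, h3⟩ := construction F α γ t₁.1 t₂.1 (fun _ => 1) hF0 hF (fun _ => zero_le_one)
      (fun s => hle hα (t₁.2.1 s)) (fun s => hle hγ (t₂.2.1 s)) (fun _ _ => Or.inl rfl)
    refine ⟨⟨hplus F α γ t₁.1 t₂.1 (fun _ => 1), isTest_of_props t₁.2 t₂.2 hαγ F hF0
      (fun s hs => (h1 s hs).1) (fun s hs => (h2 s hs).2.1) (fun s => (h3 s).1)⟩,
      ⟨hminus F α γ t₁.1 t₂.1 (fun _ => 1), isTest_of_props t₁.2 t₂.2 hαγ F hF0
      (fun s hs => (h1 s hs).2) (fun s hs => (h2 s hs).2.2) (fun s => (h3 s).2)⟩, ?_, ?_⟩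
    · exact h1
    · exact fun s hs => (h2 s hs).1

theorem deep (m : PotentialModel) : ∀ k : ℕ, ∃ r : List ℕ, ∀ v : List ℕ, v.length ≤ k →
    v ++ r ∈ act m := by
  intro k
  refine ⟨[0], fun v _ _ => ?_⟩
  simp

theorem coord_apply (m : PotentialModel) (s : List ℕ) (t : PotentialTest m) :
    coordVector m s t = t.1 s := rfl

theorem modelSpace_eq (m : PotentialModel) : modelSpace m = space (coordVector m) := rfl

/-- For each of the four bounded-potential coordinate models on the countably branching tree (rootless sibling, rooted sibling, antichain, global), the generated space, namely the closure of the span of the coordinate vectors in the supremum norm over the model's tests, is separable and infinite-dimensional, its norm has at every unit centre and every 0 < t < 1 averaged midpoint asymptotic quantity at least √(1 + t²/4) - 1, and no equivalent norm on it is asymptotically uniformly convex. -/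
theorem result
    (m : Crest.AnalysisR.TreePotential.PotentialModel) :
    (Crest.AnalysisR.TreePotential.modelBanach m).IsSeparableInfiniteDim ∧
      (∀ t : ℝ, 0 < t → t < 1 →
        (Crest.AnalysisR.TreePotential.modelBanach m).MidpointModulusGE
          (Crest.AnalysisR.TreePotential.modelBanach m).norm t (Real.sqrt (1 + t ^ 2 / 4) - 1)) ∧
      ∀ N : (Crest.AnalysisR.TreePotential.modelBanach m).X → ℝ,
        (Crest.AnalysisR.TreePotential.modelBanach m).IsEquivNorm N →
          ¬ (Crest.AnalysisR.TreePotential.modelBanach m).IsAUC N := by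
  have hT := testSystem m
  have he := coord_apply m
  refine ⟨⟨separable_space (coordVector m), not_finiteDimensional_space hT he (deep m)⟩, ?_, ?_⟩
  · intro t _ _
    exact midpointModulusGE_of_Q2 (modelBanach m) (q2_space hT he) t _ le_rfl
  · intro N hN
    exact not_isAUC_of _ N (not_auc_space hT he (deep m) hN)

end Crest.Agent.S0168
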