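import Mathlib
import Crest.Agent.S0168
import Crest.Agent.LibLp2

set_option autoImplicit false
open Filter Topology

namespace Crest.Agent.S0166

open Crest.Agent.LibAUC Crest.Agent.LibTree Crest.Agent.LibLp2 Crest.AnalysisR.TreePotential

/-- tests of depth at most `n` -/
def IsT (n : ℕ) (h : List ℕ → ℝ) : Prop :=
  (∀ s, |pathPotential h s| ≤ 1) ∧ (∀ A : Finset (List ℕ), ∑ u ∈ A, h u ^ 2 ≤ 1) ∧
    ∀ s, n < s.length → h s = 0

def T (n : ℕ) : Type := {h : List ℕ → ℝ // IsT n h}

theorem IsT.abs_le_one {n : ℕ} {h : List ℕ → ℝ} (hh : IsT n h) (s : List ℕ) : |h s| ≤ 1 := by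
  have := hh.2.1 {s}
  rw [Finset.sum_singleton] at this
  exact (sq_le_one_iff_abs_le_one _).mp this

noncomputable def e (n : ℕ) (s : List ℕ) : LInf (T n) :=
  ⟨fun t => t.1 s, memℓp_infty ⟨1, by
    rintro _ ⟨t, rfl⟩
    exact IsT.abs_le_one t.2 s⟩⟩

theorem e_apply (n : ℕ) (s : List ℕ) (t : T n) : e n s t = t.1 s := rfl

def I (n : ℕ) : Set (List ℕ) := {s | s.length ≤ n}

theorem isT_zero (n : ℕ) : IsT n (fun _ => 0) := by
  refine ⟨fun s => ?_, fun A => by simp, fun _ _ => rfl⟩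
  rw [S0168.pathPotential_zero]; simp

theorem isT_ind (n : ℕ) (s : List ℕ) (hs : s ∈ I n) : IsT n (fun u => if u = s then 1 else 0) := by
  refine ⟨fun u => ?_, fun A => S0168.sum_ind_le s, fun u hu => ?_⟩
  · rcases (S0168.pathPotential_ind s u).2 with h | h <;> rw [h] <;> simp
  · apply if_neg
    rintro rfl
    exact absurd hs (not_le.mpr hu)

theorem isT_of_props {n : ℕ} {f g h : List ℕ → ℝ} (hf : IsT n f) (hg : IsT n g)
    {α γ : ℝ} (hαγ : α ^ 2 + γ ^ 2 ≤ 1) (F : Finset (List ℕ))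
    (h1 : ∀ s ∈ F, h s = α * f s) (h2 : ∀ s, s ∉ F → |h s| ≤ |γ * g s|)
    (h3 : ∀ s, |pathPotential h s| ≤ 1) : IsT n h := by
  refine ⟨h3, fun A => ?_, fun s hs => ?_⟩
  · have := sum_sq_le F α γ f g A h1 h2 (hf.2.1 _) (hg.2.1 _)
    linarith
  · by_cases hF : s ∈ F
    · rw [h1 s hF, hf.2.2 s hs, mul_zero]
    · have := h2 s hF
      rw [hg.2.2 s hs, mul_zero, abs_zero] at this
      exact abs_nonpos_iff.mp this

theorem testSystem (n : ℕ) : TestSystem (T n) (fun t => t.1) (I n) where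
  ne := ⟨⟨_, isT_zero n⟩⟩
  pot := fun t s => t.2.1 s
  sib := by
    intro t r A
    rw [← S0168.sum_image_cons A r (fun u => t.1 u ^ 2)]
    exact t.2.2.1 _
  ind := fun s hs => ⟨⟨_, isT_ind n s hs⟩, fun _ => rfl⟩
  van := fun s hs t => t.2.2.2 s (not_le.mp hs)
  comb := by
    intro F hF0 hF t₁ t₂ α γ hαγ
    have hα : |α| ≤ 1 := by
      rw [← sq_le_one_iff_abs_le_one]; nlinarith [sq_nonneg γ]
    have hγ : |γ| ≤ 1 := by
      rw [← sq_le_one_iff_abs_le_one]; nlinarith [sq_nonneg α]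
    have hle : ∀ {a b : ℝ}, |a| ≤ 1 → |b| ≤ 1 → |a * b| ≤ 1 := by
      intro a b ha hb
      rw [abs_mul]
      exact mul_le_one₀ ha (abs_nonneg _) hb
    obtain ⟨h1, h2, h3⟩ := construction F α γ t₁.1 t₂.1 (fun _ => 1) hF0 hF (fun _ => zero_le_one)
      (fun s => hle hα (t₁.2.1 s)) (fun s => hle hγ (t₂.2.1 s)) (fun _ _ => Or.inl rfl)
    refine ⟨⟨hplus F α γ t₁.1 t₂.1 (fun _ => 1), isT_of_props t₁.2 t₂.2 hαγ F
      (fun s hs => (h1 s hs).1) (fun s hs => (h2 s hs).2.1) (fun s => (h3 s).1)⟩,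
      ⟨hminus F α γ t₁.1 t₂.1 (fun _ => 1), isT_of_props t₁.2 t₂.2 hαγ F
      (fun s hs => (h1 s hs).2) (fun s hs => (h2 s hs).2.2) (fun s => (h3 s).2)⟩, ?_, ?_⟩
    · exact h1
    · exact fun s hs => (h2 s hs).1

/-! ### The potential is controlled by the `ℓ²` norm on trees of finite depth -/

/-- all suffixes -/
def sfxAll : List ℕ → Finset (List ℕ)
  | [] => {[]}
  | a :: v => insert (a :: v) (sfxAll v)

theorem length_le_of_mem_sfxAll : ∀ (v u : List ℕ), u ∈ sfxAll v → u.length ≤ v.length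
  | [], u, h => by simp [sfxAll] at h; simp [h]
  | a :: v, u, h => by
    rw [sfxAll, Finset.mem_insert] at h
    rcases h with rfl | h
    · exact le_rfl
    · exact (length_le_of_mem_sfxAll v u h).trans (by simp)

theorem pathPotential_eq_sum (h : List ℕ → ℝ) : ∀ v : List ℕ,
    pathPotential h v = ∑ u ∈ sfxAll v, h u
  | [] => by simp [sfxAll, pathPotential]
  | a :: v => by
    have hn : a :: v ∉ sfxAll v := fun h => by
      have := length_le_of_mem_sfxAll v _ h
      simp at this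
    rw [sfxAll, Finset.sum_insert hn, pathPotential, pathPotential_eq_sum h v, add_comm]

theorem sfxAll_inj : ∀ (v u u' : List ℕ), u ∈ sfxAll v → u' ∈ sfxAll v → u.length = u'.length → u = u'
  | [], u, u', h, h', _ => by
    simp [sfxAll] at h h'; rw [h, h']
  | a :: v, u, u', h, h', hl => by
    rw [sfxAll, Finset.mem_insert] at h h'
    rcases h with rfl | h <;> rcases h' with rfl | h'
    · rfl
    · have := length_le_of_mem_sfxAll v _ h'
      simp at hl; omega
    · have := length_le_of_mem_sfxAll v _ h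
      simp at hl; omega
    · exact sfxAll_inj v u u' h h' hl

theorem pot_sq_le (n : ℕ) (h : List ℕ → ℝ) (hv : ∀ s, n < s.length → h s = 0) (q : ℝ)
    (hq : ∀ A : Finset (List ℕ), ∑ u ∈ A, h u ^ 2 ≤ q) (s : List ℕ) :
    pathPotential h s ^ 2 ≤ (n + 1) * q := by
  have hq0 : 0 ≤ q := by simpa using hq ∅
  have h1 : pathPotential h s = ∑ u ∈ (sfxAll s).filter (fun u => u.length ≤ n), h u := by
    rw [pathPotential_eq_sum, Finset.sum_filter]
    apply Finset.sum_congr rfl
    intro u _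
    split_ifs with hu
    · rfl
    · exact hv u (not_le.mp hu)
  have hcard : ((sfxAll s).filter (fun u => u.length ≤ n)).card ≤ n + 1 := by
    have : ((sfxAll s).filter (fun u => u.length ≤ n)).card ≤ (Finset.range (n + 1)).card := by
      apply Finset.card_le_card_of_injOn (fun u => u.length)
      · intro u hu
        have := (Finset.mem_filter.mp hu).2
        simp only [Finset.coe_range, Set.mem_Iio]; omega
      · intro u hu u' hu' hl
        exact sfxAll_inj s u u' (Finset.mem_filter.mp hu).1 (Finset.mem_filter.mp hu').1 hl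
    simpa using this
  rw [h1]
  calc (∑ u ∈ (sfxAll s).filter (fun u => u.length ≤ n), h u) ^ 2
      ≤ ((sfxAll s).filter (fun u => u.length ≤ n)).card *
        ∑ u ∈ (sfxAll s).filter (fun u => u.length ≤ n), h u ^ 2 := sq_sum_le_card_mul_sum_sq
    _ ≤ (n + 1) * q := by
      apply mul_le_mul _ (hq _) (Finset.sum_nonneg fun _ _ => sq_nonneg _) (by positivity)
      exact_mod_cast hcard

/-! ### The Hilbert space -/

/-- the index set -/
abbrev Idx (n : ℕ) : Type := {s : List ℕ // s.length ≤ n}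

abbrev H (n : ℕ) : Type := lp (fun _ : Idx n => ℝ) 2

theorem two_toReal : (2 : ENNReal).toReal = 2 := by simp

theorem sum_sq_le_norm_sq {α : Type} (f : lp (fun _ : α => ℝ) 2) (s : Finset α) :
    ∑ i ∈ s, (f i) ^ 2 ≤ ‖f‖ ^ 2 := by
  have h := lp.sum_rpow_le_norm_rpow (p := 2) (by simp) f s
  rw [two_toReal] at h
  simpa only [Real.rpow_two, Real.norm_eq_abs, sq_abs] using h

theorem norm_le_of_sum_sq {α : Type} (f : lp (fun _ : α => ℝ) 2) {C : ℝ} (hC : 0 ≤ C)
    (h : ∀ s : Finset α, ∑ i ∈ s, (f i) ^ 2 ≤ C ^ 2) : ‖f‖ ≤ C := by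
  apply lp.norm_le_of_forall_sum_le (p := 2) (by simp) hC
  intro s
  rw [two_toReal]
  simpa only [Real.rpow_two, Real.norm_eq_abs, sq_abs] using h s

theorem memLp2_of {α : Type} (f : α → ℝ) {C : ℝ} (h : ∀ s : Finset α, ∑ i ∈ s, (f i) ^ 2 ≤ C) :
    Memℓp (E := fun _ : α => ℝ) f 2 := by
  apply memℓp_gen' (C := C)
  intro s
  rw [two_toReal]
  simpa only [Real.rpow_two, Real.norm_eq_abs, sq_abs] using h s

theorem sum_idx {n : ℕ} (A : Finset (Idx n)) (h : List ℕ → ℝ) :
    ∑ i ∈ A, h i.1 = ∑ u ∈ A.map ⟨Subtype.val, Subtype.val_injective⟩, h u := by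
  rw [Finset.sum_map]; rfl

/-- a test as a vector of the Hilbert space -/
noncomputable def tau (n : ℕ) (t : T n) : H n :=
  ⟨fun s => t.1 s.1, memLp2_of _ (C := 1) (fun A => by
    rw [sum_idx A (fun u => t.1 u ^ 2)]
    exact t.2.2.1 _)⟩

theorem tau_apply (n : ℕ) (t : T n) (s : Idx n) : tau n t s = t.1 s.1 := rfl

theorem norm_tau_le (n : ℕ) (t : T n) : ‖tau n t‖ ≤ 1 := by
  apply norm_le_of_sum_sq _ zero_le_one
  intro A
  simp only [tau_apply, one_pow]
  rw [sum_idx A (fun u => t.1 u ^ 2)]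
  exact t.2.2.1 _

/-- the map from the Hilbert space to bounded functions on the test set -/
noncomputable def U0 (n : ℕ) : H n →L[ℝ] LInf (T n) :=
  LinearMap.mkContinuous
    { toFun := fun w => ⟨fun t => inner ℝ (tau n t) w, memℓp_infty ⟨‖w‖, by
        rintro _ ⟨t, rfl⟩
        change ‖inner ℝ (tau n t) w‖ ≤ ‖w‖
        refine (norm_inner_le_norm _ _).trans ?_
        calc ‖tau n t‖ * ‖w‖ ≤ 1 * ‖w‖ := mul_le_mul_of_nonneg_right (norm_tau_le n t) (norm_nonneg _)
          _ = ‖w‖ := one_mul _⟩⟩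
      map_add' := by
        intro w w'
        ext t
        exact inner_add_right _ _ _
      map_smul' := by
        intro c w
        ext t
        exact inner_smul_right _ _ _ } 1 (by
      intro w
      rw [one_mul]
      apply lp.norm_le_of_forall_le (norm_nonneg _)
      intro t
      change ‖inner ℝ (tau n t) w‖ ≤ ‖w‖
      refine (norm_inner_le_norm _ _).trans ?_
      calc ‖tau n t‖ * ‖w‖ ≤ 1 * ‖w‖ := mul_le_mul_of_nonneg_right (norm_tau_le n t) (norm_nonneg _)
        _ = ‖w‖ := one_mul _)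

theorem U0_apply (n : ℕ) (w : H n) (t : T n) : U0 n w t = inner ℝ (tau n t) w := rfl

open Classical in
theorem U0_single (n : ℕ) (s : Idx n) (a : ℝ) : U0 n (lp.single 2 s a) = a • e n s.1 := by
  ext t
  rw [U0_apply, lp.inner_single_right]
  rw [lp.coeFn_smul, Pi.smul_apply, e_apply, tau_apply]
  simp

theorem U0_bound (n : ℕ) (w : H n) : ‖w‖ ≤ √(n + 1) * ‖U0 n w‖ := by
  rcases eq_or_ne w 0 with rfl | hw
  · simp
  have hw0 : 0 < ‖w‖ := norm_pos_iff.mpr hw
  have hn0 : (0:ℝ) < √(n + 1) := Real.sqrt_pos.mpr (by positivity)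
  set c : ℝ := (√(n + 1) * ‖w‖)⁻¹ with hc
  have hc0 : 0 < c := by positivity
  -- the test
  set h : List ℕ → ℝ := fun s => if hs : s.length ≤ n then c * w ⟨s, hs⟩ else 0 with hh
  have hidx : ∀ i : Idx n, h i.1 = c * w i := by
    intro i
    simp only [hh]
    rw [dif_pos i.2]
  have hvan : ∀ s, n < s.length → h s = 0 := by
    intro s hs
    simp only [hh]
    rw [dif_neg (not_le.mpr hs)]
  have hsum : ∀ A : Finset (List ℕ), ∑ u ∈ A, h u ^ 2 ≤ 1 / (n + 1) := by
    intro A
    classical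
    let B : Finset (Idx n) := A.subtype (fun s => s.length ≤ n)
    have h1 : ∑ u ∈ A, h u ^ 2 = ∑ i ∈ B, (h i.1) ^ 2 := by
      rw [sum_idx B (fun u => h u ^ 2)]
      symm
      apply Finset.sum_subset
      · intro u hu
        rw [Finset.mem_map] at hu
        obtain ⟨i, hi, rfl⟩ := hu
        exact Finset.mem_subtype.mp hi
      · intro u hu hu2
        have : ¬ u.length ≤ n := by
          intro hl
          apply hu2
          rw [Finset.mem_map]
          exact ⟨⟨u, hl⟩, Finset.mem_subtype.mpr hu, rfl⟩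
        rw [hvan u (not_le.mp this)]
        simp
    rw [h1]
    have h2 : ∑ i ∈ B, (h i.1) ^ 2 = c ^ 2 * ∑ i ∈ B, (w i) ^ 2 := by
      rw [Finset.mul_sum]
      apply Finset.sum_congr rfl
      intro i _
      rw [hidx, mul_pow]
    rw [h2]
    calc c ^ 2 * ∑ i ∈ B, (w i) ^ 2 ≤ c ^ 2 * ‖w‖ ^ 2 :=
          mul_le_mul_of_nonneg_left (sum_sq_le_norm_sq w B) (sq_nonneg _)
      _ = 1 / (n + 1) := by
          rw [hc, inv_pow, mul_pow, Real.sq_sqrt (by positivity)]
          field_simp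
  have hT : IsT n h := by
    refine ⟨fun s => ?_, fun A => ?_, hvan⟩
    · have := pot_sq_le n h hvan _ hsum s
      rw [← sq_le_one_iff_abs_le_one]
      calc pathPotential h s ^ 2 ≤ (n + 1) * (1 / (n + 1)) := this
        _ = 1 := by field_simp
    · refine (hsum A).trans ?_
      rw [div_le_one (by positivity)]
      have : (0:ℝ) ≤ n := Nat.cast_nonneg n
      linarith
  have h3 : U0 n w ⟨h, hT⟩ = ‖w‖ / √(n + 1) := by
    rw [U0_apply]
    have h4 : tau n ⟨h, hT⟩ = c • w := by
      ext i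
      rw [tau_apply, lp.coeFn_smul, Pi.smul_apply, smul_eq_mul]
      exact hidx i
    rw [h4, inner_smul_left, real_inner_self_eq_norm_sq, hc]
    simp only [conj_trivial]
    field_simp
  have h5 := apply_le_norm (U0 n w) ⟨h, hT⟩
  rw [h3, abs_of_nonneg (by positivity)] at h5
  rw [div_le_iff₀ hn0] at h5
  linarith

theorem U0_mem (n : ℕ) (w : H n) : U0 n w ∈ space (e n) := by
  classical
  have h1 := (lp.hasSum_single (p := 2) (by simp) w).mapL (U0 n)
  have hcl : IsClosed (space (e n) : Set (LInf (T n))) := Submodule.isClosed_topologicalClosure _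
  apply hcl.mem_of_tendsto h1
  filter_upwards with A
  apply Submodule.sum_mem
  intro i _
  rw [U0_single]
  exact (space (e n)).smul_mem _ (e_mem (e n) _)

noncomputable def U1 (n : ℕ) : H n →L[ℝ] space (e n) := (U0 n).codRestrict _ (U0_mem n)

theorem e_eq_zero (n : ℕ) (s : List ℕ) (hs : n < s.length) : e n s = 0 := by
  ext t
  rw [e_apply, t.2.2.2 s hs]
  rfl

theorem space_le_range (n : ℕ) : ∀ x ∈ space (e n), ∃ w, U0 n w = x := by
  have hn0 : (0:ℝ) ≤ √(n + 1) := Real.sqrt_nonneg _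
  have hanti : AntilipschitzWith ⟨√(n + 1), hn0⟩ (U0 n) :=
    (U0 n).antilipschitz_of_bound (fun w => U0_bound n w)
  have hcl : IsClosed (LinearMap.range (U0 n : H n →ₗ[ℝ] LInf (T n)) : Set (LInf (T n))) := by
    have := hanti.isClosed_range (U0 n).uniformContinuous
    have h2 : (LinearMap.range (U0 n : H n →ₗ[ℝ] LInf (T n)) : Set (LInf (T n))) = Set.range (U0 n) := by
      ext x; simp
    rw [h2]; exact this
  have hle : space (e n) ≤ LinearMap.range (U0 n : H n →ₗ[ℝ] LInf (T n)) := by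
    apply Submodule.topologicalClosure_minimal _ _ hcl
    rw [Submodule.span_le]
    rintro _ ⟨s, rfl⟩
    by_cases hs : s.length ≤ n
    · classical
      refine ⟨lp.single 2 ⟨s, hs⟩ 1, ?_⟩
      change U0 n _ = _
      rw [U0_single, one_smul]
    · rw [e_eq_zero n s (not_le.mp hs)]
      exact Submodule.zero_mem _
  intro x hx
  exact hle hx

theorem refl_space (n : ℕ) : Refl (space (e n)) := by
  have hinj : ∀ w, U1 n w = 0 → w = 0 := by
    intro w hw
    have h1 : U0 n w = 0 := congrArg Subtype.val hw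
    have h2 := U0_bound n w
    rw [h1, norm_zero, mul_zero] at h2
    exact norm_le_zero_iff.mp h2
  have hsurj : Function.Surjective (U1 n) := by
    intro x
    obtain ⟨w, hw⟩ := space_le_range n x.1 x.2
    exact ⟨w, Subtype.ext hw⟩
  have hcomp : CompleteSpace (space (e n)) :=
    (Submodule.isClosed_topologicalClosure _).completeSpace_coe
  let eqv := ContinuousLinearEquiv.ofBijective (U1 n)
    (by rw [LinearMap.ker_eq_bot']; exact hinj) (LinearMap.range_eq_top.mpr hsurj)
  refine refl_retract (refl_hilbert (H n)) (U1 n) (eqv.symm : space (e n) →L[ℝ] H n) ?_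
  intro x
  exact eqv.apply_symm_apply x

end Crest.Agent.S0166
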