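import Mathlib
import Crest.Prelude.Def_Diamond
import Crest.Agent.LibTree

set_option autoImplicit false
open Filter Topology

namespace Crest.Agent.S0166

open Crest.Agent.LibAUC Crest.Agent.LibTree Crest.AnalysisR

/-! ### Combinatorics of the diamond graphs -/

theorem src_ne_tgt : ∀ (k : ℕ) (e : DiamondEdge k), diamondSrc k e ≠ diamondTgt k e
  | 0, _ => by simp [diamondSrc, diamondTgt]
  | k + 1, (e, i, b) => by cases b <;> simp [diamondSrc, diamondTgt]

theorem adj_edge (k : ℕ) (e : DiamondEdge k) :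
    (diamondGraph k).Adj (diamondSrc k e) (diamondTgt k e) :=
  ⟨src_ne_tgt k e, Or.inl ⟨e, rfl, rfl⟩⟩

/-- endpoints of an edge in either order -/
def IsEnd (k : ℕ) (u : DiamondVertex k) (e : DiamondEdge k) : Prop :=
  u = diamondSrc k e ∨ u = diamondTgt k e

theorem adj_inl_inr (k : ℕ) (u : DiamondVertex k) (e : DiamondEdge k) (i : ℕ)
    (h : IsEnd k u e) :
    (diamondGraph (k + 1)).Adj (Sum.inl u : DiamondVertex k ⊕ (DiamondEdge k × ℕ)) (Sum.inr (e, i)) := by
  refine ⟨by simp, ?_⟩
  rcases h with rfl | rfl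
  · left; exact ⟨(e, i, false), rfl, rfl⟩
  · right; exact ⟨(e, i, true), rfl, rfl⟩

/-- neighbours of an `inl` vertex -/
theorem adj_inl {k : ℕ} {u : DiamondVertex k} {w : DiamondVertex k ⊕ (DiamondEdge k × ℕ)}
    (h : (diamondGraph (k + 1)).Adj (Sum.inl u : DiamondVertex k ⊕ (DiamondEdge k × ℕ)) w) :
    ∃ e i, w = Sum.inr (e, i) ∧ IsEnd k u e := by
  rcases h with ⟨_, h | h⟩ <;> obtain ⟨⟨e, i, b⟩, h1, h2⟩ := h <;> cases b
  · simp only [diamondSrc, diamondTgt, cond_false] at h1 h2
    exact ⟨e, i, h2.symm, Or.inl (Sum.inl.inj h1).symm⟩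
  · simp only [diamondSrc, diamondTgt, cond_true] at h1 h2
    exact absurd h1 (by simp)
  · simp only [diamondSrc, diamondTgt, cond_false] at h1 h2
    exact absurd h2 (by simp)
  · simp only [diamondSrc, diamondTgt, cond_true] at h1 h2
    exact ⟨e, i, h1.symm, Or.inr (Sum.inl.inj h2).symm⟩

theorem preconnected : ∀ k, (diamondGraph k).Preconnected
  | 0 => by
    have h : (diamondGraph 0).Adj (false : Bool) true := adj_edge 0 ()
    intro u v
    change Bool at u v
    cases u <;> cases v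
    · exact SimpleGraph.Reachable.refl _
    · exact h.reachable
    · exact h.symm.reachable
    · exact SimpleGraph.Reachable.refl _
  | k + 1 => by
    have ih := preconnected k
    have h1 : ∀ u v : DiamondVertex k, (diamondGraph k).Adj u v →
        (diamondGraph (k + 1)).Reachable (Sum.inl u : DiamondVertex k ⊕ (DiamondEdge k × ℕ)) (Sum.inl v) := by
      rintro u v ⟨_, h | h⟩ <;> obtain ⟨e, h1, h2⟩ := h
      · exact (adj_inl_inr k u e 0 (Or.inl h1.symm)).reachable.trans
          (adj_inl_inr k v e 0 (Or.inr h2.symm)).symm.reachable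
      · exact (adj_inl_inr k u e 0 (Or.inr h2.symm)).reachable.trans
          (adj_inl_inr k v e 0 (Or.inl h1.symm)).symm.reachable
    have h2 : ∀ u v : DiamondVertex k, (diamondGraph k).Reachable u v →
        (diamondGraph (k + 1)).Reachable (Sum.inl u : DiamondVertex k ⊕ (DiamondEdge k × ℕ)) (Sum.inl v) := by
      rintro u v ⟨p⟩
      induction p with
      | nil => exact SimpleGraph.Reachable.refl _
      | cons h _ ih => exact (h1 _ _ h).trans ih
    have h3 : ∀ w : DiamondVertex k ⊕ (DiamondEdge k × ℕ), ∃ u : DiamondVertex k,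
        (diamondGraph (k + 1)).Reachable w (Sum.inl u) := by
      rintro (u | ⟨e, i⟩)
      · exact ⟨u, SimpleGraph.Reachable.refl _⟩
      · exact ⟨diamondSrc k e, (adj_inl_inr k _ e i (Or.inl rfl)).symm.reachable⟩
    intro w w'
    obtain ⟨u, hu⟩ := h3 w
    obtain ⟨v, hv⟩ := h3 w'
    exact (hu.trans (h2 u v (ih u v))).trans hv.symm

theorem adj_or_eq {k : ℕ} {u v : DiamondVertex k} {e : DiamondEdge k} (hu : IsEnd k u e)
    (hv : IsEnd k v e) : u = v ∨ (diamondGraph k).Adj u v := by
  rcases hu with rfl | rfl <;> rcases hv with rfl | rfl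
  · left; rfl
  · right; exact adj_edge k e
  · right; exact (adj_edge k e).symm
  · left; rfl

/-- walks between old vertices have at least twice the old distance. -/
theorem two_mul_dist_le_walk {k : ℕ} : ∀ (n : ℕ) (u v : DiamondVertex k)
    (p : (diamondGraph (k + 1)).Walk (Sum.inl u : DiamondVertex k ⊕ (DiamondEdge k × ℕ)) (Sum.inl v)),
    p.length = n → 2 * diamondDist k u v ≤ n := by
  intro n
  induction n using Nat.strong_induction_on with
  | _ n ih =>
    intro u v p hp
    by_cases huv : u = v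
    · subst huv
      simp [diamondDist]
    rcases p with _ | ⟨h, p'⟩
    · exact absurd rfl huv
    · rename_i w
      obtain ⟨e, i, rfl, he⟩ := adj_inl h
      rcases p' with _ | ⟨h', p''⟩
      rename_i w'
      rcases w' with u' | ⟨e', i'⟩
      · obtain ⟨e₂, i₂, h2, he2⟩ := adj_inl h'.symm
        have h3 := Sum.inr.inj h2
        have h4 : e = e₂ := congrArg Prod.fst h3
        subst h4
        simp only [SimpleGraph.Walk.length_cons] at hp
        have h5 := ih p''.length (by omega) u' v p'' rfl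
        have h6 : diamondDist k u u' ≤ 1 := by
          rcases adj_or_eq he he2 with rfl | h
          · simp [diamondDist]
          · exact le_of_eq (SimpleGraph.dist_eq_one_iff_adj.mpr h)
        have h7 : diamondDist k u v ≤ diamondDist k u u' + diamondDist k u' v :=
          SimpleGraph.Connected.dist_triangle ((SimpleGraph.connected_iff _).mpr ⟨preconnected k, ⟨u⟩⟩)
        omega
      · exfalso
        rcases h' with ⟨_, h | h⟩ <;> obtain ⟨⟨e₃, i₃, b⟩, h1, h2⟩ := h <;> cases b <;>
          simp [diamondSrc, diamondTgt] at h1 h2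

theorem two_mul_dist_le (k : ℕ) (u v : DiamondVertex k) :
    2 * diamondDist k u v ≤
      diamondDist (k + 1) (Sum.inl u : DiamondVertex k ⊕ (DiamondEdge k × ℕ)) (Sum.inl v) := by
  obtain ⟨p, hp⟩ := (preconnected (k + 1) (Sum.inl u : DiamondVertex k ⊕ (DiamondEdge k × ℕ))
    (Sum.inl v)).exists_walk_length_eq_dist
  exact two_mul_dist_le_walk _ u v p hp

theorem two_le_dist_mid (k : ℕ) (e : DiamondEdge k) {i j : ℕ} (hij : i ≠ j) :
    2 ≤ diamondDist (k + 1) (Sum.inr (e, i) : DiamondVertex k ⊕ (DiamondEdge k × ℕ)) (Sum.inr (e, j)) := by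
  have h0 : diamondDist (k + 1) (Sum.inr (e, i) : DiamondVertex k ⊕ (DiamondEdge k × ℕ))
      (Sum.inr (e, j)) ≠ 0 := by
    intro h
    have := (SimpleGraph.Reachable.dist_eq_zero_iff (preconnected (k + 1) _ _)).mp h
    exact hij (congrArg Prod.snd (Sum.inr.inj this))
  have h1 : diamondDist (k + 1) (Sum.inr (e, i) : DiamondVertex k ⊕ (DiamondEdge k × ℕ))
      (Sum.inr (e, j)) ≠ 1 := by
    intro h
    have := SimpleGraph.dist_eq_one_iff_adj.mp h
    rcases this with ⟨_, h | h⟩ <;> obtain ⟨⟨e₃, i₃, b⟩, h1, h2⟩ := h <;> cases b <;>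
      simp [diamondSrc, diamondTgt] at h1 h2
  omega

/-! ### The midpoint argument -/

section midpoint

variable {X : Type} [NormedAddCommGroup X] [NormedSpace ℝ X]

theorem midpoint_growth (hQ : Q2 X) (p q : X) (z : ℕ → X) (r s : ℝ) (hs : 0 < s)
    (h1 : ∀ i, ‖z i - p‖ ≤ r) (h2 : ∀ i, ‖q - z i‖ ≤ r)
    (h3 : ∀ i j, i ≠ j → 2 * s ≤ ‖z i - z j‖) :
    ‖(1 / 2 : ℝ) • (q - p)‖ ^ 2 + s ^ 2 / 4 ≤ r ^ 2 := by
  have hr : 0 ≤ r := (norm_nonneg _).trans (h1 0)
  set x := (1 / 2 : ℝ) • (q - p) with hx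
  -- approximate inequality
  have key : ∀ ε : ℝ, 0 < ε → ε < s → ‖x‖ ^ 2 + (s - ε) ^ 2 / 4 ≤ (r + 2 * ε) ^ 2 := by
    intro ε hε hεs
    obtain ⟨S, hS1, hS2, hS3⟩ := hQ x ε hε
    have : IsClosed (S : Set X) := hS1
    -- two close points in the quotient
    obtain ⟨i, j, hij, hd⟩ : ∃ i j, i ≠ j ∧ ‖S.mkQL (z i) - S.mkQL (z j)‖ < ε := by
      have hprop : ProperSpace (X ⧸ S) := FiniteDimensional.proper ℝ _
      have hb : Bornology.IsBounded (Set.range fun i => S.mkQL (z i)) := by
        rw [isBounded_iff_forall_norm_le]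
        refine ⟨‖S.mkQL‖ * (‖p‖ + r), ?_⟩
        rintro _ ⟨i, rfl⟩
        refine (S.mkQL.le_opNorm _).trans (mul_le_mul_of_nonneg_left ?_ (norm_nonneg _))
        have : z i = p + (z i - p) := by abel
        rw [this]
        exact (norm_add_le _ _).trans (add_le_add le_rfl (h1 i))
      obtain ⟨a, _, φ, hφ, ha⟩ := tendsto_subseq_of_bounded hb (fun i => Set.mem_range_self i)
      have hc := ha.cauchySeq
      rw [Metric.cauchySeq_iff] at hc
      obtain ⟨N, hN⟩ := hc ε hε
      refine ⟨φ N, φ (N + 1), (hφ (Nat.lt_succ_self N)).ne, ?_⟩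
      have := hN N le_rfl (N + 1) (Nat.le_succ N)
      rwa [dist_eq_norm] at this
    set w := (1 / 2 : ℝ) • (z i - z j) with hw
    have hmk : ‖S.mkQL (z i - z j)‖ < ε := by rw [map_sub]; exact hd
    obtain ⟨m, hm1, hm2⟩ := Submodule.Quotient.norm_mk_lt (S := S) (S.mkQL (z i - z j))
      (show 0 < ε from hε)
    have hm3 : ‖m‖ < 2 * ε := by linarith
    set y := (1 / 2 : ℝ) • (z i - z j - m) with hy
    have hyS : y ∈ S := by
      apply S.smul_mem
      rw [← Submodule.Quotient.mk_eq_zero, Submodule.Quotient.mk_sub, hm1]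
      exact sub_self _
    have hwy : ‖w - y‖ ≤ ε := by
      have : w - y = (1 / 2 : ℝ) • m := by
        rw [hw, hy, ← smul_sub]; congr 1; abel
      rw [this, norm_smul, Real.norm_eq_abs, abs_of_pos (by norm_num)]
      linarith
    have h4 := hS3 y hyS
    have h5 : ‖x + w‖ ≤ r := by
      have : x + w = (1 / 2 : ℝ) • (z i - p) + (1 / 2 : ℝ) • (q - z j) := by
        rw [hx, hw, ← smul_add, ← smul_add]; congr 1; abel
      rw [this]
      refine (norm_add_le _ _).trans ?_
      rw [norm_smul, norm_smul, Real.norm_eq_abs, abs_of_pos (by norm_num)]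
      linarith [h1 i, h2 j]
    have h6 : ‖x - w‖ ≤ r := by
      have : x - w = (1 / 2 : ℝ) • (z j - p) + (1 / 2 : ℝ) • (q - z i) := by
        rw [hx, hw, ← smul_sub, ← smul_add]; congr 1; abel
      rw [this]
      refine (norm_add_le _ _).trans ?_
      rw [norm_smul, norm_smul, Real.norm_eq_abs, abs_of_pos (by norm_num)]
      linarith [h1 j, h2 i]
    have h7 : ‖x + y‖ ≤ r + ε := by
      have : x + y = (x + w) - (w - y) := by abel
      rw [this]; exact (norm_sub_le _ _).trans (add_le_add h5 hwy)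
    have h8 : ‖x - y‖ ≤ r + ε := by
      have : x - y = (x - w) + (w - y) := by abel
      rw [this]; exact (norm_add_le _ _).trans (add_le_add h6 hwy)
    have h9 : √(‖x‖ ^ 2 + ‖y‖ ^ 2 / 4) ≤ r + 2 * ε := by linarith
    have h10 : s - ε ≤ ‖y‖ := by
      have h11 : s ≤ ‖w‖ := by
        rw [hw, norm_smul, Real.norm_eq_abs, abs_of_pos (by norm_num)]
        linarith [h3 i j hij]
      have h12 : ‖w‖ - ‖y‖ ≤ ‖w - y‖ := norm_sub_norm_le _ _
      linarith
    have h13 : ‖x‖ ^ 2 + ‖y‖ ^ 2 / 4 ≤ (r + 2 * ε) ^ 2 := by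
      rwa [Real.sqrt_le_left (by positivity)] at h9
    have h14 : (s - ε) ^ 2 ≤ ‖y‖ ^ 2 := pow_le_pow_left₀ (by linarith) h10 2
    linarith
  -- limit
  apply le_of_forall_pos_le_add
  intro δ hδ
  set ε := min (s / 2) (min 1 (δ / (4 * r + 4 + s / 2))) with hε
  have hε0 : 0 < ε := by positivity
  have he1 : ε ≤ s / 2 := min_le_left _ _
  have he2 : ε ≤ 1 := (min_le_right _ _).trans (min_le_left _ _)
  have he3 : ε ≤ δ / (4 * r + 4 + s / 2) := (min_le_right _ _).trans (min_le_right _ _)
  have h5 := key ε hε0 (by linarith)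
  have h6 : ε * (4 * r + 4 + s / 2) ≤ δ := by
    rwa [le_div_iff₀ (by positivity)] at he3
  nlinarith

/-- Main induction over diamond levels. -/
theorem diamond_induction (hQ : Q2 X) : ∀ (k : ℕ) (f : DiamondVertex k → X) (s R : ℝ), 0 < s → 0 ≤ R →
    (∀ u v, s * (diamondDist k u v : ℝ) ≤ ‖f u - f v‖) →
    (∀ e : DiamondEdge k, ‖f (diamondTgt k e) - f (diamondSrc k e)‖ ≤ R * s) →
    1 + (k : ℝ) / 4 ≤ R ^ 2
  | 0, f, s, R, hs, hR, h1, h2 => by
    have h3 := h1 (diamondTgt 0 ()) (diamondSrc 0 ())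
    have h4 : diamondDist 0 (diamondTgt 0 ()) (diamondSrc 0 ()) = 1 :=
      SimpleGraph.dist_eq_one_iff_adj.mpr (adj_edge 0 ()).symm
    rw [h4] at h3
    have h5 := h2 ()
    have h6 : s ≤ R * s := by
      have : s * ((1 : ℕ) : ℝ) = s := by simp
      linarith
    have h7 : 1 ≤ R := by
      by_contra hcon
      push Not at hcon
      nlinarith
    simp only [Nat.cast_zero, zero_div, add_zero]
    nlinarith
  | k + 1, f, s, R, hs, hR, h1, h2 => by
    -- edge estimate
    have hedge : ∀ e : DiamondEdge k,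
        ‖(1 / 2 : ℝ) • (f (Sum.inl (diamondTgt k e)) - f (Sum.inl (diamondSrc k e)))‖ ^ 2 + s ^ 2 / 4 ≤
          (R * s) ^ 2 := by
      intro e
      apply midpoint_growth hQ _ _ (fun i => f (Sum.inr (e, i))) (R * s) s hs
      · intro i
        exact h2 (e, i, false)
      · intro i
        exact h2 (e, i, true)
      · intro i j hij
        refine le_trans ?_ (h1 (Sum.inr (e, i)) (Sum.inr (e, j)))
        have := two_le_dist_mid k e hij
        have h3 : (2 : ℝ) ≤ (diamondDist (k + 1) (Sum.inr (e, i) : DiamondVertex k ⊕ (DiamondEdge k × ℕ))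
          (Sum.inr (e, j)) : ℝ) := by exact_mod_cast this
        nlinarith
    have e0 : DiamondEdge k := by
      clear hedge h1 h2 f
      induction k with
      | zero => exact ()
      | succ k ih => exact (ih, 0, false)
    have hR2 : 1 / 4 ≤ R ^ 2 := by
      have := hedge e0
      have h3 : s ^ 2 * (1 / 4) ≤ s ^ 2 * R ^ 2 := by nlinarith [sq_nonneg ‖(1 / 2 : ℝ) • (f (Sum.inl (diamondTgt k e0)) - f (Sum.inl (diamondSrc k e0)))‖]
      exact le_of_mul_le_mul_left h3 (by positivity)
    have ih := diamond_induction hQ k (fun u => f (Sum.inl u)) (2 * s) (√(R ^ 2 - 1 / 4))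
      (by positivity) (Real.sqrt_nonneg _) ?_ ?_
    · rw [Real.sq_sqrt (by linarith)] at ih
      push_cast
      linarith
    · intro u v
      refine le_trans ?_ (h1 (Sum.inl u) (Sum.inl v))
      have := two_mul_dist_le k u v
      have h3 : (2 : ℝ) * (diamondDist k u v : ℝ) ≤ (diamondDist (k + 1)
        (Sum.inl u : DiamondVertex k ⊕ (DiamondEdge k × ℕ)) (Sum.inl v) : ℝ) := by exact_mod_cast this
      nlinarith
    · intro e
      have h3 := hedge e
      set d := ‖f (Sum.inl (diamondTgt k e)) - f (Sum.inl (diamondSrc k e))‖ with hd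
      rw [norm_smul, Real.norm_eq_abs, abs_of_pos (by norm_num)] at h3
      have h4 : d ^ 2 ≤ (√(R ^ 2 - 1 / 4) * (2 * s)) ^ 2 := by
        rw [mul_pow, Real.sq_sqrt (by linarith)]
        nlinarith
      exact le_of_sq_le_sq h4 (by positivity)

end midpoint

end Crest.Agent.S0166
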