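import Crest.Statements.S0166
import Crest.Agent.S0166_Depth
import Crest.Agent.S0166_Diamond

set_option autoImplicit false
open Crest Crest.AnalysisR

namespace Crest.Agent.S0166

open Crest.Agent.LibAUC Crest.Agent.LibTree Crest.Agent.LibLp2

/-- the `n`-th summand -/
abbrev VN (n : ℕ) : Type := space (e n)

/-- the `ℓ²`-sum -/
abbrev EE : Type := lp VN 2

theorem complete_EE : CompleteSpace EE := by
  have : ∀ n, CompleteSpace (VN n) := fun n =>
    (Submodule.isClosed_topologicalClosure _).completeSpace_coe
  infer_instance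

theorem q2_EE : Q2 EE := q2_lp2 (V := VN) fun n => q2_space (testSystem n) (e_apply n)

theorem refl_EE : Refl EE := refl_lp2 (V := VN) refl_space

theorem not_auc_EE {N : EE → ℝ} (hN : EqNorm N) : ¬ AUC N := by
  apply not_auc_of_trees hN 1 1 one_pos
    (fun m v => lp.single 2 m (⟨psum (e m) v, psum_mem (e m) v⟩ : VN m))
  · intro m v _
    rw [lp.norm_single (by norm_num)]
    exact norm_psum_le (testSystem m) (e_apply m) v
  · intro m v _
    apply AsympNull.of_upper_two (K := 1)
    intro A a
    rw [one_mul]
    have h1 : ∑ n ∈ A, a n • ((lp.single 2 m (⟨psum (e m) (n :: v), psum_mem (e m) _⟩ : VN m) : EE) -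
        lp.single 2 m (⟨psum (e m) v, psum_mem (e m) v⟩ : VN m)) =
        lp.single 2 m (∑ n ∈ A, a n • (⟨e m (n :: v), e_mem (e m) _⟩ : VN m)) := by
      have h2 : ∀ n, a n • ((lp.single 2 m (⟨psum (e m) (n :: v), psum_mem (e m) _⟩ : VN m) : EE) -
          lp.single 2 m (⟨psum (e m) v, psum_mem (e m) v⟩ : VN m)) =
          lp.singleContinuousLinearMap ℝ VN 2 m (a n • (⟨e m (n :: v), e_mem (e m) _⟩ : VN m)) := by
        intro n
        rw [← lp.single_sub, ← lp.single_smul]
        congr 2
        apply Subtype.ext
        exact psum_cons_sub (e m) n v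
      rw [Finset.sum_congr rfl (fun n _ => h2 n), ← map_sum]
      rfl
    rw [h1, lp.norm_single (by norm_num)]
    have h3 : ‖(∑ n ∈ A, a n • (⟨e m (n :: v), e_mem (e m) _⟩ : VN m) : VN m)‖ =
        ‖∑ n ∈ A, a n • e m (n :: v)‖ := by
      rw [Submodule.coe_norm, Submodule.coe_sum]
      rfl
    rw [h3]
    exact children_upper (testSystem m) (e_apply m) v A a
  · intro m v n hv
    rw [← lp.single_sub, lp.norm_single (by norm_num)]
    change 1 ≤ ‖psum (e m) (n :: v) - psum (e m) v‖
    rw [psum_cons_sub]
    apply one_le_norm_e (testSystem m) (e_apply m)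
    change (n :: v).length ≤ m
    simpa using hv

theorem separable_EE : TopologicalSpace.SeparableSpace EE := by
  classical
  have hsep : ∀ n, TopologicalSpace.SeparableSpace (VN n) := fun n => separable_space (e n)
  have h1 : ∀ n, TopologicalSpace.IsSeparable (Set.range (fun x : VN n => (lp.single 2 n x : EE))) := by
    intro n
    exact TopologicalSpace.isSeparable_range (lp.isometry_single (E := VN) (p := 2) n).continuous
  have h2 : TopologicalSpace.IsSeparable (⋃ n, Set.range (fun x : VN n => (lp.single 2 n x : EE))) :=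
    TopologicalSpace.IsSeparable.iUnion h1
  have h3 := (h2.span (R := ℝ)).closure
  have h4 : closure (Submodule.span ℝ (⋃ n, Set.range (fun x : VN n => (lp.single 2 n x : EE))) :
      Set EE) = Set.univ := by
    rw [Set.eq_univ_iff_forall]
    intro x
    have h5 := lp.hasSum_single (p := 2) (by simp) x
    apply mem_closure_of_tendsto h5
    filter_upwards with A
    apply Submodule.sum_mem
    intro n _
    apply Submodule.subset_span
    exact Set.mem_iUnion.mpr ⟨n, ⟨x n, rfl⟩⟩
  rw [h4] at h3
  exact TopologicalSpace.isSeparable_univ_iff.mp h3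

theorem not_fd_EE : ¬ FiniteDimensional ℝ EE := fun _ =>
  not_auc_EE eqNorm_norm (auc_of_finiteDimensional eqNorm_norm)

/-- There is a real Banach space (RealBanach record) that is separable, infinite-dimensional and reflexive, whose given norm has at every t > 0 averaged midpoint asymptotic modulus at least √(1 + t²/12) - 1 and at least (√(1 + t²/4) - 1)/2 and maximum-based midpoint modulus at least √(1 + t²/4) - 1, on which no equivalent norm is asymptotically uniformly convex, and in which for every k every map of the depth-k countably branching diamond graph of distortion at most D has 1 + k/4 ≤ D². -/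
theorem result :
    ∃ E : Crest.AnalysisR.RealBanach, E.IsSeparableInfiniteDim ∧ E.IsReflexive ∧
      (∀ t : ℝ, 0 < t → E.MidpointModulusGE E.norm t (Real.sqrt (1 + t ^ 2 / 12) - 1) ∧
        E.MidpointModulusGE E.norm t ((Real.sqrt (1 + t ^ 2 / 4) - 1) / 2) ∧
        E.MaxMidpointModulusGE E.norm t (Real.sqrt (1 + t ^ 2 / 4) - 1)) ∧
      (∀ N : E.X → ℝ, E.IsEquivNorm N → ¬ E.IsAUC N) ∧
      ∀ (k : ℕ) (f : Crest.AnalysisR.DiamondVertex k → E.X) (D : ℝ),
        E.HasDistortionLE k f D → 1 + (k : ℝ) / 4 ≤ D ^ 2 := by
  let E : RealBanach := ⟨EE, inferInstance, inferInstance, complete_EE⟩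
  refine ⟨E, ⟨separable_EE, not_fd_EE⟩, refl_EE, ?_, ?_, ?_⟩
  · intro t ht
    refine ⟨midpointModulusGE_of_Q2 E q2_EE t _ ?_, midpointModulusGE_of_Q2 E q2_EE t _ ?_,
      maxMidpointModulusGE_of_Q2 E q2_EE t _ le_rfl⟩
    · have : √(1 + t ^ 2 / 12) ≤ √(1 + t ^ 2 / 4) := by
        apply Real.sqrt_le_sqrt
        nlinarith [sq_nonneg t]
      linarith
    · have : 1 ≤ √(1 + t ^ 2 / 4) := by
        rw [Real.one_le_sqrt]
        nlinarith [sq_nonneg t]
      linarith
  · intro N hN
    exact not_isAUC_of E N (not_auc_EE hN)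
  · rintro k f D ⟨s, hs, H⟩
    have H' : ∀ u v : DiamondVertex k, s * (diamondDist k u v : ℝ) ≤ ‖(f u - f v : EE)‖ ∧
      ‖(f u - f v : EE)‖ ≤ D * s * (diamondDist k u v : ℝ) := H
    have hedge : ∀ e : DiamondEdge k,
        ‖(f (diamondTgt k e) - f (diamondSrc k e) : EE)‖ ≤ D * s := by
      intro e
      have h1 := (H' (diamondTgt k e) (diamondSrc k e)).2
      have h2 : diamondDist k (diamondTgt k e) (diamondSrc k e) = 1 :=
        SimpleGraph.dist_eq_one_iff_adj.mpr (adj_edge k e).symm
      rw [h2] at h1
      simpa using h1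
    have hD : 0 ≤ D := by
      have e0 : DiamondEdge k := by
        clear hedge H' H f
        induction k with
        | zero => exact ()
        | succ k ih => exact (ih, 0, false)
      have h1 := (norm_nonneg _).trans (hedge e0)
      by_contra hcon
      push Not at hcon
      nlinarith
    exact diamond_induction q2_EE k f s D hs hD (fun u v => (H' u v).1) hedge

end Crest.Agent.S0166
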