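import Crest.Statements.S0167
import Crest.Agent.LibAUC
import Crest.Agent.LibDaugavet
import Crest.Agent.LibTree

set_option autoImplicit false
open Crest Crest.AnalysisR

namespace Crest.Agent.S0167

open MeasureTheory Crest.Agent.LibAUC Crest.Agent.LibDaugavet Crest.AnalysisR.L1Subspace

section functions

variable {Ω : Type} [MeasurableSpace Ω] {P : Measure Ω} [IsProbabilityMeasure P]

/-- sign with values `±1` -/
noncomputable def sg (x : ℝ) : ℝ := if 0 ≤ x then 1 else -1

theorem measurable_sg : Measurable sg :=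
  Measurable.ite measurableSet_Ici measurable_const measurable_const

theorem abs_sg (x : ℝ) : |sg x| = 1 := by
  unfold sg; split_ifs <;> simp

theorem abs_sub_sg_le (y g : ℝ) : |y| - sg g * y ≤ 2 * |y - g| := by
  unfold sg
  split_ifs with h
  · rcases le_total 0 y with hy | hy
    · rw [abs_of_nonneg hy]
      have := abs_nonneg (y - g)
      linarith
    · rw [abs_of_nonpos hy, abs_of_nonpos (by linarith)]
      linarith
  · push Not at h
    rcases le_total 0 y with hy | hy
    · rw [abs_of_nonneg hy, abs_of_nonneg (by linarith)]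
      linarith
    · rw [abs_of_nonpos hy]
      have := abs_nonneg (y - g)
      linarith

theorem integrable_sg_mul {Y G : Ω → ℝ} (hY : Integrable Y P) (hG : Measurable G) :
    Integrable (fun z => sg (G z) * Y z) P := by
  refine hY.bdd_mul (c := 1) (measurable_sg.comp hG).aestronglyMeasurable ?_
  filter_upwards with z
  rw [Real.norm_eq_abs]
  exact (abs_sg _).le

theorem lower {X Y G : Ω → ℝ} (hX : Integrable X P) (hY : Integrable Y P) (hYm : Measurable Y)
    (hG : Measurable G) (a t ε : ℝ) (ha : 0 < a) (ht : 0 < t)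
    (hX1 : ∫ z, |X z| ∂P = 1) (hY1 : ∫ z, |Y z| ∂P = 1)
    (hσ : ∫ z, sg (G z) * Y z ∂P = 0)
    (hXC : ∫ z in {z | a < |Y z - G z|}, |X z| ∂P ≤ ε) :
    (1 - 2 * ε - 2 * a * t ≤ ∫ z, |X z + t * Y z| ∂P) ∧
    (2 * (1 + t / 2 - ε - t * a) ≤ ∫ z, |X z + t * Y z| ∂P + ∫ z, |X z - t * Y z| ∂P) := by
  set C : Set Ω := {z | a < |Y z - G z|} with hC
  have hCm : MeasurableSet C := measurableSet_lt measurable_const (hYm.sub hG).abs
  have iX := hX.abs
  have iY := hY.abs
  have iσ := integrable_sg_mul hY hG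
  have iP : Integrable (fun z => |X z + t * Y z|) P := (hX.add (hY.const_mul t)).abs
  have iM : Integrable (fun z => |X z - t * Y z|) P := (hX.sub (hY.const_mul t)).abs
  have eX := integral_add_compl hCm iX
  have eY := integral_add_compl hCm iY
  have eσ := integral_add_compl hCm iσ
  have eP := integral_add_compl hCm iP
  have eM := integral_add_compl hCm iM
  set XC := ∫ z in C, |X z| ∂P
  set XB := ∫ z in Cᶜ, |X z| ∂P
  set YC := ∫ z in C, |Y z| ∂P
  set YB := ∫ z in Cᶜ, |Y z| ∂P
  -- bound YB ≤ YC + 2a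
  have h1 : YB - ∫ z in Cᶜ, sg (G z) * Y z ∂P ≤ 2 * a := by
    rw [← integral_sub iY.integrableOn iσ.integrableOn]
    calc ∫ z in Cᶜ, (|Y z| - sg (G z) * Y z) ∂P ≤ ∫ z in Cᶜ, (2 * a) ∂P := by
          apply setIntegral_mono_on (iY.integrableOn.sub iσ.integrableOn)
            (integrable_const _).integrableOn hCm.compl
          intro z hz
          have hz' : |Y z - G z| ≤ a := not_lt.mp hz
          have := abs_sub_sg_le (Y z) (G z)
          change |Y z| - sg (G z) * Y z ≤ 2 * a
          linarith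
      _ = (P Cᶜ).toReal * (2 * a) := by
          rw [setIntegral_const, smul_eq_mul]; rfl
      _ ≤ 1 * (2 * a) := by
          apply mul_le_mul_of_nonneg_right _ (by positivity)
          have : P Cᶜ ≤ 1 := prob_le_one
          exact ENNReal.toReal_mono ENNReal.one_ne_top this
      _ = 2 * a := one_mul _
  have h2 : -∫ z in C, sg (G z) * Y z ∂P ≤ YC := by
    rw [← integral_neg]
    apply integral_mono iσ.integrableOn.neg iY.integrableOn
    intro z
    have h3 : -(sg (G z) * Y z) ≤ |sg (G z) * Y z| := neg_le_abs _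
    rw [abs_mul, abs_sg, one_mul] at h3
    exact h3
  have hYB : YB ≤ YC + 2 * a := by linarith
  -- plus
  have hP1 : XB - t * YB ≤ ∫ z in Cᶜ, |X z + t * Y z| ∂P := by
    rw [← integral_const_mul, ← integral_sub iX.integrableOn (iY.integrableOn.const_mul t)]
    apply integral_mono (iX.integrableOn.sub (iY.integrableOn.const_mul t)) iP.integrableOn
    intro z
    have h3 := abs_sub_abs_le_abs_sub (X z) (-(t * Y z))
    rw [abs_neg, abs_mul, abs_of_pos ht, sub_neg_eq_add] at h3
    exact h3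
  have hP2 : t * YC - XC ≤ ∫ z in C, |X z + t * Y z| ∂P := by
    rw [← integral_const_mul, ← integral_sub (iY.integrableOn.const_mul t) iX.integrableOn]
    apply integral_mono ((iY.integrableOn.const_mul t).sub iX.integrableOn) iP.integrableOn
    intro z
    have h3 := abs_sub_abs_le_abs_sub (t * Y z) (-(X z))
    rw [abs_neg, abs_mul, abs_of_pos ht, sub_neg_eq_add, add_comm (t * Y z)] at h3
    exact h3
  -- sums
  have hS1 : 2 * XB ≤ ∫ z in Cᶜ, |X z + t * Y z| ∂P + ∫ z in Cᶜ, |X z - t * Y z| ∂P := by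
    rw [← integral_const_mul, ← integral_add iP.integrableOn iM.integrableOn]
    apply integral_mono (iX.integrableOn.const_mul 2) (iP.integrableOn.add iM.integrableOn)
    intro z
    have h3 := abs_add_le (X z + t * Y z) (X z - t * Y z)
    have h4 : X z + t * Y z + (X z - t * Y z) = 2 * X z := by ring
    rw [h4, abs_mul, abs_two] at h3
    exact h3
  have hS2 : 2 * (t * YC) ≤ ∫ z in C, |X z + t * Y z| ∂P + ∫ z in C, |X z - t * Y z| ∂P := by
    rw [← integral_const_mul, ← integral_const_mul, ← integral_add iP.integrableOn iM.integrableOn]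
    apply integral_mono ((iY.integrableOn.const_mul t).const_mul 2)
      (iP.integrableOn.add iM.integrableOn)
    intro z
    have h3 := abs_sub (X z + t * Y z) (X z - t * Y z)
    have h4 : X z + t * Y z - (X z - t * Y z) = 2 * (t * Y z) := by ring
    rw [h4, abs_mul, abs_two, abs_mul, abs_of_pos ht] at h3
    exact h3
  have hYC : 1 / 2 - a ≤ YC := by linarith
  have htY : t * (YB - YC) ≤ t * (2 * a) := mul_le_mul_of_nonneg_left (by linarith) ht.le
  have htC : t * (1 / 2 - a) ≤ t * YC := mul_le_mul_of_nonneg_left hYC ht.le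
  constructor
  · nlinarith
  · nlinarith

/-- the functional of integration against the sign of `g`. -/
noncomputable def sgFun (g : Lp ℝ 1 P) : Lp ℝ 1 P →L[ℝ] ℝ :=
  LinearMap.mkContinuous
    { toFun := fun y => ∫ z, sg ((g : Ω → ℝ) z) * (y : Ω → ℝ) z ∂P
      map_add' := by
        intro y y'
        rw [← integral_add (integrable_sg_mul (L1.integrable_coeFn y) (Lp.stronglyMeasurable g).measurable)
          (integrable_sg_mul (L1.integrable_coeFn y') (Lp.stronglyMeasurable g).measurable)]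
        apply integral_congr_ae
        filter_upwards [Lp.coeFn_add y y'] with z hz
        rw [hz, Pi.add_apply, mul_add]
      map_smul' := by
        intro c y
        rw [RingHom.id_apply, smul_eq_mul, ← integral_const_mul]
        apply integral_congr_ae
        filter_upwards [Lp.coeFn_smul c y] with z hz
        rw [hz, Pi.smul_apply, smul_eq_mul]
        ring } 1 (by
      intro y
      rw [one_mul, L1.norm_eq_integral_norm]
      refine (norm_integral_le_integral_norm _).trans (le_of_eq ?_)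
      apply integral_congr_ae
      filter_upwards with z
      change ‖sg ((g : Ω → ℝ) z) * (y : Ω → ℝ) z‖ = _
      rw [norm_mul, Real.norm_eq_abs, abs_sg, one_mul])

theorem sgFun_apply (g y : Lp ℝ 1 P) :
    sgFun g y = ∫ z, sg ((g : Ω → ℝ) z) * (y : Ω → ℝ) z ∂P := rfl

/-- absolute continuity -/
theorem abs_cont {X : Ω → ℝ} (hX : Integrable X P) (ε : ℝ) (hε : 0 < ε) :
    ∃ κ : ℝ, 0 < κ ∧ ∀ s : Set Ω, P s < ENNReal.ofReal κ → ∫ z in s, |X z| ∂P ≤ ε := by
  obtain ⟨δ, hδ, H⟩ := exists_pos_setLIntegral_lt_of_measure_lt (μ := P) (f := fun z => ‖X z‖ₑ)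
    hX.2.ne (ε := ENNReal.ofReal ε) (by simpa using hε)
  refine ⟨(min δ 1).toReal, ?_, ?_⟩
  · apply ENNReal.toReal_pos
    · exact (lt_min hδ one_pos).ne'
    · exact ((min_le_right δ 1).trans_lt ENNReal.one_lt_top).ne
  · intro s hs
    rw [ENNReal.ofReal_toReal ((min_le_right δ 1).trans_lt ENNReal.one_lt_top).ne] at hs
    have h1 := H s (hs.trans_le (min_le_left _ _))
    have h2 : ∫ z in s, |X z| ∂P = (∫⁻ z in s, ‖X z‖ₑ ∂P).toReal := by
      have := integral_norm_eq_lintegral_enorm (μ := P.restrict s) hX.1.restrict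
      simpa [Real.norm_eq_abs] using this
    rw [h2]
    exact ENNReal.toReal_le_of_le_ofReal hε.le h1.le

end functions

/-- Let E be an infinite-dimensional closed subspace of the real L¹ of a probability space whose closed unit ball is totally bounded for convergence in measure and whose norm has the Daugavet property. Then at every unit x ∈ E and every t > 0 the averaged midpoint quantity sup_F inf_y ((‖x+ty‖+‖x-ty‖)/2 - 1) equals max(t/2, t-1) and the one-sided one sup_F inf_y (‖x+ty‖ - 1) equals max(0, t-2), as matching lower and upper bounds, and E admits no equivalent asymptotically uniformly convex norm. -/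
theorem result (Ω : Type) [MeasurableSpace Ω] (P : MeasureTheory.Measure Ω) [MeasureTheory.IsProbabilityMeasure P]
    (E : Submodule ℝ (MeasureTheory.Lp ℝ 1 P)) (hcl : IsClosed (E : Set (MeasureTheory.Lp ℝ 1 P)))
    (hinf : ¬ FiniteDimensional ℝ E)
    (htb : Crest.AnalysisR.L1Subspace.UnitBallTotallyBoundedInMeasure P E)
    (hD : Crest.AnalysisR.L1Subspace.HasDaugavetProperty E) :
    (∀ t : ℝ, 0 < t →
      (Crest.AnalysisR.L1Subspace.toRealBanach P E hcl).MidpointModulusGE
          (Crest.AnalysisR.L1Subspace.toRealBanach P E hcl).norm t (max (t / 2) (t - 1)) ∧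
        (Crest.AnalysisR.L1Subspace.toRealBanach P E hcl).MidpointModulusLE
          (Crest.AnalysisR.L1Subspace.toRealBanach P E hcl).norm t (max (t / 2) (t - 1)) ∧
        (Crest.AnalysisR.L1Subspace.toRealBanach P E hcl).OneSidedModulusGE
          (Crest.AnalysisR.L1Subspace.toRealBanach P E hcl).norm t (max 0 (t - 2)) ∧
        (Crest.AnalysisR.L1Subspace.toRealBanach P E hcl).OneSidedModulusLE
          (Crest.AnalysisR.L1Subspace.toRealBanach P E hcl).norm t (max 0 (t - 2))) ∧
      ∀ N : E → ℝ, (Crest.AnalysisR.L1Subspace.toRealBanach P E hcl).IsEquivNorm N →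
        ¬ (Crest.AnalysisR.L1Subspace.toRealBanach P E hcl).IsAUC N := by
  have hnt : Nontrivial E := by
    rw [← not_subsingleton_iff_nontrivial]
    intro h
    exact hinf inferInstance
  -- lower bounds
  have hlow : ∀ x : E, ‖x‖ = 1 → ∀ t : ℝ, 0 < t → ∀ η : ℝ, 0 < η → ∃ S : Submodule ℝ E,
      IsClosed (S : Set E) ∧ FiniteDimensional ℝ (E ⧸ S) ∧ ∀ y ∈ S, ‖y‖ = 1 →
      (1 - η ≤ ‖x + t • y‖) ∧ (2 * (1 + t / 2 - η) ≤ ‖x + t • y‖ + ‖x - t • y‖) := by
    intro x hx t ht η hη
    have iX : Integrable ((x : Lp ℝ 1 P) : Ω → ℝ) P := L1.integrable_coeFn _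
    obtain ⟨κ₀, hκ₀, Hκ⟩ := abs_cont iX (η / 4) (by positivity)
    set κ := min κ₀ (η / (4 * t)) with hκ
    have hκ0 : 0 < κ := by positivity
    obtain ⟨s, hs1, hs2⟩ := htb κ hκ0
    let L : E →L[ℝ] (s → ℝ) := ContinuousLinearMap.pi fun g => (sgFun g.1).comp E.subtypeL
    refine ⟨LinearMap.ker (L : E →ₗ[ℝ] (s → ℝ)), (LibTree.ker_props L).1, (LibTree.ker_props L).2, ?_⟩
    intro y hy hy1
    obtain ⟨g, hg, hgd⟩ := hs2 (y : Lp ℝ 1 P) y.2 hy1.le
    have hσ : sgFun g (y : Lp ℝ 1 P) = 0 := by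
      have : L y = 0 := hy
      exact congrFun this ⟨g, hg⟩
    rw [sgFun_apply] at hσ
    have hne : {a : ℝ | 0 < a ∧ P {z | a < abs (((y : Lp ℝ 1 P) : Ω → ℝ) z - (g : Ω → ℝ) z)} <
        ENNReal.ofReal a}.Nonempty := by
      refine ⟨2, by norm_num, lt_of_le_of_lt prob_le_one ?_⟩
      rw [← ENNReal.ofReal_one]
      exact (ENNReal.ofReal_lt_ofReal_iff (by norm_num)).mpr (by norm_num)
    obtain ⟨a, ⟨ha0, haP⟩, haκ⟩ := exists_lt_of_csInf_lt hne hgd
    have hXC := Hκ _ (haP.trans_le (ENNReal.ofReal_le_ofReal (haκ.le.trans (min_le_left _ _))))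
    have hX1 : ∫ z, |((x : Lp ℝ 1 P) : Ω → ℝ) z| ∂P = 1 := by
      rw [← hx]; exact (L1.norm_eq_integral_norm (x : Lp ℝ 1 P)).symm
    have hY1 : ∫ z, |((y : Lp ℝ 1 P) : Ω → ℝ) z| ∂P = 1 := by
      rw [← hy1]; exact (L1.norm_eq_integral_norm (y : Lp ℝ 1 P)).symm
    have h := lower iX (L1.integrable_coeFn (y : Lp ℝ 1 P)) (Lp.stronglyMeasurable _).measurable
      (Lp.stronglyMeasurable g).measurable a t (η / 4) ha0 ht hX1 hY1 hσ hXC
    have hn1 : ‖x + t • y‖ = ∫ z, |((x : Lp ℝ 1 P) : Ω → ℝ) z + t * ((y : Lp ℝ 1 P) : Ω → ℝ) z| ∂P := by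
      have : ‖x + t • y‖ = ‖(x : Lp ℝ 1 P) + t • (y : Lp ℝ 1 P)‖ := rfl
      rw [this, L1.norm_eq_integral_norm]
      apply integral_congr_ae
      filter_upwards [Lp.coeFn_add (x : Lp ℝ 1 P) (t • (y : Lp ℝ 1 P)),
        Lp.coeFn_smul t (y : Lp ℝ 1 P)] with z h1 h2
      rw [h1, Pi.add_apply, h2, Pi.smul_apply, smul_eq_mul, Real.norm_eq_abs]
    have hn2 : ‖x - t • y‖ = ∫ z, |((x : Lp ℝ 1 P) : Ω → ℝ) z - t * ((y : Lp ℝ 1 P) : Ω → ℝ) z| ∂P := by
      have : ‖x - t • y‖ = ‖(x : Lp ℝ 1 P) - t • (y : Lp ℝ 1 P)‖ := rfl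
      rw [this, L1.norm_eq_integral_norm]
      apply integral_congr_ae
      filter_upwards [Lp.coeFn_sub (x : Lp ℝ 1 P) (t • (y : Lp ℝ 1 P)),
        Lp.coeFn_smul t (y : Lp ℝ 1 P)] with z h1 h2
      rw [h1, Pi.sub_apply, h2, Pi.smul_apply, smul_eq_mul, Real.norm_eq_abs]
    have hat : a * t ≤ η / 4 := by
      have h1 : a ≤ η / (4 * t) := haκ.le.trans (min_le_right _ _)
      calc a * t ≤ η / (4 * t) * t := mul_le_mul_of_nonneg_right h1 ht.le
        _ = η / 4 := by field_simp
    rw [hn1, hn2]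
    constructor
    · linarith [h.1]
    · linarith [h.2]
  refine ⟨fun t ht => ⟨midGE_of _ _ _ ?_, midLE_of _ _ _ ?_, oneGE_of _ _ _ ?_, oneLE_of _ _ _ ?_⟩,
    fun N hN => not_isAUC_of (toRealBanach P E hcl) N (not_auc_daugavet (V := E) hD hN)⟩
  · change MidGE E t (max (t / 2) (t - 1))
    intro x hx η hη
    obtain ⟨S, hS1, hS2, hS3⟩ := hlow x hx t ht η hη
    refine ⟨S, hS1, hS2, fun y hy hy1 => ?_⟩
    have h1 := (hS3 y hy hy1).2
    have h2 : 2 * t ≤ ‖x + t • y‖ + ‖x - t • y‖ := by
      have h3 := norm_sub_le (x + t • y) (x - t • y)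
      have h4 : (x + t • y) - (x - t • y) = (2 * t) • y := by
        rw [mul_smul, two_smul]; abel
      rw [h4, norm_smul, hy1, Real.norm_eq_abs, abs_of_pos (by positivity)] at h3
      linarith
    rcases le_total (t / 2) (t - 1) with h | h
    · rw [max_eq_right h]; linarith
    · rw [max_eq_left h]; linarith
  · change MidLE E t (max (t / 2) (t - 1))
    intro x hx S hS1 hS2 η hη
    obtain ⟨y, hy, hy1, hy2, hy3⟩ := upper_direction hD x hx t ht S hS1 hS2 η hη
    refine ⟨y, hy, hy1, ?_⟩
    rcases le_total (t - 1) 1 with h | h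
    · rw [max_eq_left h] at hy2
      have := le_max_left (t / 2) (t - 1)
      linarith
    · rw [max_eq_right h] at hy2
      have := le_max_right (t / 2) (t - 1)
      linarith
  · change OneGE E t (max 0 (t - 2))
    intro x hx η hη
    obtain ⟨S, hS1, hS2, hS3⟩ := hlow x hx t ht η hη
    refine ⟨S, hS1, hS2, fun y hy hy1 => ?_⟩
    have h1 := (hS3 y hy hy1).1
    have h2 : t - 1 ≤ ‖x + t • y‖ := by
      have h3 := norm_sub_le (x + t • y) x
      have h4 : (x + t • y) - x = t • y := by abel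
      rw [h4, norm_smul, hy1, hx, Real.norm_eq_abs, abs_of_pos ht] at h3
      linarith
    rcases le_total 0 (t - 2) with h | h
    · rw [max_eq_right h]; linarith
    · rw [max_eq_left h]; linarith
  · change OneLE E t (max 0 (t - 2))
    intro x hx S hS1 hS2 η hη
    obtain ⟨y, hy, hy1, hy2, hy3⟩ := upper_direction hD x hx t ht S hS1 hS2 η hη
    refine ⟨y, hy, hy1, ?_⟩
    rcases le_total (t - 1) 1 with h | h
    · rw [max_eq_left h] at hy2
      have := le_max_left 0 (t - 2)
      linarith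
    · rw [max_eq_right h] at hy2
      have := le_max_right 0 (t - 2)
      linarith

end Crest.Agent.S0167
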