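import Crest.Statements.S0169
import Crest.Agent.LibAUC

set_option autoImplicit false
open MeasureTheory ProbabilityTheory
open Crest Crest.AnalysisR

namespace Crest.Agent.S0169

open Crest.AnalysisR.TreeProduct Crest.Agent.LibAUC

/-- non-root suffixes of a vertex -/
def sfx : List ℕ → Finset (List ℕ)
  | [] => ∅
  | a :: v => insert (a :: v) (sfx v)

theorem length_le_of_mem_sfx : ∀ (v u : List ℕ), u ∈ sfx v → u.length ≤ v.length
  | [], u, h => by simp [sfx] at h
  | a :: v, u, h => by
    rw [sfx, Finset.mem_insert] at h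
    rcases h with rfl | h
    · exact le_rfl
    · exact (length_le_of_mem_sfx v u h).trans (by simp)

theorem pathProduct_eq {Ω : Type} (W : List ℕ → Ω → ℝ) (z : Ω) :
    ∀ v : List ℕ, pathProduct W v z = ∏ u ∈ sfx v, W u z
  | [] => by simp [sfx, pathProduct]
  | a :: v => by
    have h : a :: v ∉ sfx v := fun h => by
      have := length_le_of_mem_sfx v _ h
      simp at this
    rw [sfx, Finset.prod_insert h, mul_comm, ← pathProduct_eq W z v]
    rfl

section

variable {ν : Measure ℝ} [IsProbabilityMeasure ν] {Ω : Type} [MeasurableSpace Ω] {μ : Measure Ω}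
  [IsProbabilityMeasure μ] {W : List ℕ → Ω → ℝ}

theorem measurable_pathProduct (hW : IsRealization ν μ W) (v : List ℕ) :
    Measurable (pathProduct W v) := by
  have : pathProduct W v = fun z => ∏ u ∈ sfx v, W u z := by
    funext z; exact pathProduct_eq W z v
  rw [this]
  exact Finset.measurable_prod _ fun u _ => hW.1 u

/-- independence of the path product at `v` from any function of finitely many children. -/
theorem indep (hW : IsRealization ν μ W) (v : List ℕ) (A : Finset ℕ) (a : ℕ → ℝ) :
    IndepFun (pathProduct W v) (fun z => ∑ n ∈ A, a n * (W (n :: v) z - 1)) μ := by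
  have hdisj : Disjoint (sfx v) (A.image fun n => n :: v) := by
    rw [Finset.disjoint_left]
    intro u hu hu2
    rw [Finset.mem_image] at hu2
    obtain ⟨n, _, rfl⟩ := hu2
    have := length_le_of_mem_sfx v _ hu
    simp at this
  have h := iIndepFun.indepFun_finset (sfx v) (A.image fun n => n :: v) hdisj hW.2.1 hW.1
  let φ : (sfx v → ℝ) → ℝ := fun g => ∏ u, g u
  have hφ : Measurable φ := Finset.measurable_prod _ fun u _ => measurable_pi_apply u
  let ψ : ((A.image fun n => n :: v : Finset (List ℕ)) → ℝ) → ℝ :=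
    fun g => ∑ n : A, a n.1 * (g ⟨n.1 :: v, Finset.mem_image_of_mem _ n.2⟩ - 1)
  have hψ : Measurable ψ := by
    apply Finset.measurable_sum
    intro n _
    exact ((measurable_pi_apply _).sub_const 1).const_mul _
  have h2 := h.comp hφ hψ
  have e1 : φ ∘ (fun z (i : sfx v) => W i z) = pathProduct W v := by
    funext z
    simp only [Function.comp, φ]
    rw [pathProduct_eq, Finset.prod_coe_sort (sfx v) (fun u => W u z)]
  have e2 : ψ ∘ (fun z (i : (A.image fun n => n :: v : Finset (List ℕ))) => W i z) =
      fun z => ∑ n ∈ A, a n * (W (n :: v) z - 1) := by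
    funext z
    simp only [Function.comp, ψ]
    rw [Finset.sum_coe_sort A (fun n => a n * (W (n :: v) z - 1))]
  rw [e1, e2] at h2
  exact h2

theorem integrable_id_nu (hmean : ∫ x, x ∂ν = 1) : Integrable (fun x : ℝ => x) ν := by
  by_contra h
  rw [integral_undef h] at hmean
  norm_num at hmean

theorem integrable_W (hmean : ∫ x, x ∂ν = 1) (hW : IsRealization ν μ W) {v : List ℕ} (hv : v ≠ []) :
    Integrable (W v) μ := by
  have h := integrable_id_nu hmean
  rw [← hW.2.2 v hv, integrable_map_measure] at h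
  · exact h
  · exact measurable_id.aestronglyMeasurable
  · exact (hW.1 v).aemeasurable

theorem integral_W (hmean : ∫ x, x ∂ν = 1) (hW : IsRealization ν μ W) {v : List ℕ} (hv : v ≠ []) :
    ∫ z, W v z ∂μ = 1 := by
  rw [← hmean, ← hW.2.2 v hv, integral_map (hW.1 v).aemeasurable (by fun_prop)]

theorem pos_W (hpos : ν (Set.Ioi 0) = 1) (hW : IsRealization ν μ W) {v : List ℕ} (hv : v ≠ []) :
    ∀ᵐ z ∂μ, 0 < W v z := by
  have h : ∀ᵐ x ∂ν, x ∈ Set.Ioi (0:ℝ) := by
    rw [← prob_compl_eq_zero_iff measurableSet_Ioi] at hpos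
    exact hpos
  rw [← hW.2.2 v hv] at h
  exact ae_of_ae_map (hW.1 v).aemeasurable h

theorem indep_one (hW : IsRealization ν μ W) (v : List ℕ) (n : ℕ) :
    IndepFun (pathProduct W v) (W (n :: v)) μ := by
  have h := indep hW v {n} (fun _ => 1)
  have h2 := h.comp (φ := id) (ψ := fun x : ℝ => x + 1) measurable_id (by fun_prop)
  have e : (fun x : ℝ => x + 1) ∘ (fun z => ∑ k ∈ ({n} : Finset ℕ), (1:ℝ) * (W (k :: v) z - 1)) =
      W (n :: v) := by
    funext z
    simp
  rw [e] at h2
  exact h2

theorem pathProduct_props (hpos : ν (Set.Ioi 0) = 1) (hmean : ∫ x, x ∂ν = 1)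
    (hW : IsRealization ν μ W) : ∀ v : List ℕ,
    Integrable (pathProduct W v) μ ∧ ∫ z, pathProduct W v z ∂μ = 1 ∧ ∀ᵐ z ∂μ, 0 < pathProduct W v z
  | [] => by
    refine ⟨?_, ?_, ?_⟩
    · exact integrable_const (1:ℝ)
    · simp [pathProduct]
    · simp [pathProduct]
  | a :: v => by
    obtain ⟨h1, h2, h3⟩ := pathProduct_props hpos hmean hW v
    have hv : a :: v ≠ [] := by simp
    have hi := integrable_W hmean hW hv
    have hind := indep_one hW v a
    refine ⟨?_, ?_, ?_⟩
    · exact hind.integrable_mul h1 hi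
    · have := hind.integral_fun_mul_eq_mul_integral h1.aestronglyMeasurable hi.aestronglyMeasurable
      rw [h2, integral_W hmean hW hv] at this
      simpa [pathProduct] using this
    · filter_upwards [h3, pos_W hpos hW hv] with z hz1 hz2
      exact mul_pos hz1 hz2

/-- L¹ norm of combinations of increments. -/
theorem integral_abs_combo (hpos : ν (Set.Ioi 0) = 1) (hmean : ∫ x, x ∂ν = 1)
    (hW : IsRealization ν μ W) (v : List ℕ) (A : Finset ℕ) (a : ℕ → ℝ) :
    ∫ z, |∑ n ∈ A, a n * (pathProduct W (n :: v) z - pathProduct W v z)| ∂μ =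
      ∫ z, |∑ n ∈ A, a n * (W (n :: v) z - 1)| ∂μ := by
  obtain ⟨h1, h2, h3⟩ := pathProduct_props hpos hmean hW v
  have hind := indep hW v A a
  have hind2 := hind.comp (φ := fun x : ℝ => x) (ψ := fun x : ℝ => |x|) measurable_id (by fun_prop)
  have hmeas : Measurable fun z => ∑ n ∈ A, a n * (W (n :: v) z - 1) := by
    apply Finset.measurable_sum
    intro n _
    exact ((hW.1 _).sub_const 1).const_mul _
  have h4 := hind2.integral_fun_mul_eq_mul_integral h1.aestronglyMeasurable
    (by exact (hmeas.abs).aestronglyMeasurable)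
  have e : ∫ z, |∑ n ∈ A, a n * (pathProduct W (n :: v) z - pathProduct W v z)| ∂μ =
      ∫ z, ((fun x : ℝ => x) ∘ pathProduct W v) z *
        ((fun x : ℝ => |x|) ∘ fun z => ∑ n ∈ A, a n * (W (n :: v) z - 1)) z ∂μ := by
    apply integral_congr_ae
    filter_upwards [h3] with z hz
    simp only [Function.comp, pathProduct]
    have : ∑ n ∈ A, a n * (pathProduct W v z * W (n :: v) z - pathProduct W v z) =
        pathProduct W v z * ∑ n ∈ A, a n * (W (n :: v) z - 1) := by
      rw [Finset.mul_sum]
      apply Finset.sum_congr rfl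
      intro n _
      ring
    rw [this, abs_mul, abs_of_pos hz]
  rw [e, h4]
  simp only [Function.comp_def]
  rw [h2, one_mul]

theorem memLp_W (hm2 : Integrable (fun x : ℝ => x ^ 2) ν) (hW : IsRealization ν μ W)
    {v : List ℕ} (hv : v ≠ []) : MemLp (W v) 2 μ := by
  rw [memLp_two_iff_integrable_sq (hW.1 v).aestronglyMeasurable]
  rw [← hW.2.2 v hv, integrable_map_measure] at hm2
  · exact hm2
  · exact (measurable_id.pow_const 2).aestronglyMeasurable
  · exact (hW.1 v).aemeasurable

theorem variance_W (hW : IsRealization ν μ W)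
    {v : List ℕ} (hv : v ≠ []) : Var[W v; μ] = Var[fun x => x; ν] := by
  have h := hW.2.2 v hv
  rw [← h, variance_map]
  · rfl
  · exact measurable_id.aemeasurable
  · exact (hW.1 v).aemeasurable

theorem integral_abs_le (hmean : ∫ x, x ∂ν = 1)
    (hm2 : Integrable (fun x : ℝ => x ^ 2) ν) (hW : IsRealization ν μ W)
    (v : List ℕ) (A : Finset ℕ) (a : ℕ → ℝ) :
    ∫ z, |∑ n ∈ A, a n * (W (n :: v) z - 1)| ∂μ ≤
      √(Var[fun x => x; ν]) * √(∑ n ∈ A, a n ^ 2) := by
  set X : ℕ → Ω → ℝ := fun n z => a n * (W (n :: v) z - 1) with hX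
  have hmem : ∀ n, MemLp (X n) 2 μ := fun n =>
    ((memLp_W hm2 hW (by simp)).sub (memLp_const 1)).const_mul _
  have hvar : Var[∑ n ∈ A, X n; μ] = Var[fun x => x; ν] * ∑ n ∈ A, a n ^ 2 := by
    rw [IndepFun.variance_sum (fun n _ => hmem n)]
    · rw [Finset.mul_sum]
      apply Finset.sum_congr rfl
      intro n _
      have : X n = fun z => a n * (W (n :: v) z - 1) := rfl
      rw [this, variance_const_mul, variance_sub_const (hW.1 _).aestronglyMeasurable,
        variance_W hW (by simp), mul_comm]
    · intro n _ m _ hnm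
      have h := hW.2.1.indepFun (i := n :: v) (j := m :: v) (by simpa using hnm)
      exact h.comp (φ := fun x : ℝ => a n * (x - 1)) (ψ := fun x : ℝ => a m * (x - 1))
        (by fun_prop) (by fun_prop)
  set Y : Ω → ℝ := ∑ n ∈ A, X n with hY
  have hYmem : MemLp Y 2 μ := memLp_finsetSum' A fun n _ => hmem n
  have hYmean : ∫ z, Y z ∂μ = 0 := by
    rw [hY]
    simp only [Finset.sum_apply]
    rw [integral_finsetSum]
    · apply Finset.sum_eq_zero
      intro n _
      simp only [hX]
      rw [integral_const_mul, integral_sub (integrable_W hmean hW (by simp)) (integrable_const _),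
        integral_W hmean hW (by simp)]
      simp
    · intro n _
      exact (hmem n).integrable (by norm_num)
  have h2 : ∫ z, Y z ^ 2 ∂μ = Var[fun x => x; ν] * ∑ n ∈ A, a n ^ 2 := by
    rw [← hvar, variance_eq_sub hYmem, hYmean]
    simp
  have h3 : (∫ z, |Y z| ∂μ) ^ 2 ≤ ∫ z, Y z ^ 2 ∂μ := by
    have hv := variance_nonneg |Y| μ
    rw [variance_eq_sub hYmem.abs] at hv
    simp only [Pi.pow_apply, Pi.abs_apply, sq_abs] at hv
    linarith
  have h4 : ∫ z, |∑ n ∈ A, a n * (W (n :: v) z - 1)| ∂μ = ∫ z, |Y z| ∂μ := by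
    simp [hY, hX, Finset.sum_apply]
  rw [h4, ← Real.sqrt_mul (variance_nonneg _ _), ← h2]
  exact Real.le_sqrt_of_sq_le h3

end

/-- Let ν be a Borel probability law on ℝ carried by (0,∞), not a point mass, with mean 1 and finite second moment, and W an independent family of real random variables on a probability space indexed by the vertices of the countably branching tree (finite lists of naturals; root [], parent of a :: v is v), each non-root one with law ν. Then the closed linear span in L¹ of the path products ∏_{root ≺ u ≼ v} W_u is infinite-dimensional and has no equivalent asymptotically uniformly convex norm. -/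
theorem result (ν : Measure ℝ) [IsProbabilityMeasure ν] (hpos : ν (Set.Ioi 0) = 1)
    (hnc : ∀ c : ℝ, ν ≠ Measure.dirac c) (hmean : ∫ x, x ∂ν = 1)
    (hm2 : Integrable (fun x : ℝ => x ^ 2) ν)
    (Ω : Type) [MeasurableSpace Ω] (μ : Measure Ω) [IsProbabilityMeasure μ]
    (W : List ℕ → Ω → ℝ) (hW : Crest.AnalysisR.TreeProduct.IsRealization ν μ W) :
    ¬ FiniteDimensional ℝ (Crest.AnalysisR.TreeProduct.productSpan μ W) ∧
      ∀ N : (Crest.AnalysisR.TreeProduct.spanBanach μ W).X → ℝ,
        (Crest.AnalysisR.TreeProduct.spanBanach μ W).IsEquivNorm N →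
          ¬ (Crest.AnalysisR.TreeProduct.spanBanach μ W).IsAUC N := by
  have hint : ∀ v, Integrable (pathProduct W v) μ := fun v =>
    (pathProduct_props hpos hmean hW v).1
  let P : List ℕ → productSpan μ W := fun v =>
    ⟨(hint v).toL1 _, Submodule.le_topologicalClosure _ (Submodule.subset_span ⟨v, (hint v).coeFn_toL1⟩)⟩
  have hcoe : ∀ v, ((P v : Lp ℝ 1 μ)) = (hint v).toL1 _ := fun v => rfl
  -- norms of combinations
  have hnorm : ∀ (v : List ℕ) (A : Finset ℕ) (a : ℕ → ℝ),
      ‖∑ n ∈ A, a n • (P (n :: v) - P v)‖ = ∫ z, |∑ n ∈ A, a n * (W (n :: v) z - 1)| ∂μ := by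
    intro v A a
    rw [← integral_abs_combo hpos hmean hW v A a, Submodule.coe_norm, L1.norm_eq_integral_norm]
    apply integral_congr_ae
    have h1 : ((↑(∑ n ∈ A, a n • (P (n :: v) - P v)) : Lp ℝ 1 μ)) =
        ∑ n ∈ A, a n • ((hint (n :: v)).toL1 _ - (hint v).toL1 _) := by
      simp only [Submodule.coe_sum, Submodule.coe_smul, Submodule.coe_sub, hcoe]
    rw [h1]
    have h2 := Lp.coeFn_finsetSum A
      (fun n => a n • ((hint (n :: v)).toL1 (pathProduct W (n :: v)) - (hint v).toL1 (pathProduct W v)))
    have h3 : ∀ᵐ z ∂μ, ∀ n ∈ A, (a n • ((hint (n :: v)).toL1 (pathProduct W (n :: v)) -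
        (hint v).toL1 (pathProduct W v)) : Lp ℝ 1 μ) z =
        a n * (pathProduct W (n :: v) z - pathProduct W v z) := by
      rw [Finset.eventually_all]
      intro n _
      filter_upwards [Lp.coeFn_smul (a n) ((hint (n :: v)).toL1 (pathProduct W (n :: v)) -
        (hint v).toL1 (pathProduct W v)), Lp.coeFn_sub ((hint (n :: v)).toL1 (pathProduct W (n :: v)))
        ((hint v).toL1 (pathProduct W v)), (hint (n :: v)).coeFn_toL1, (hint v).coeFn_toL1]
        with z h1 h2 h3 h4
      rw [h1, Pi.smul_apply, h2, Pi.sub_apply, h3, h4, smul_eq_mul]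
    filter_upwards [h2, h3] with z hz2 hz3
    rw [hz2, Real.norm_eq_abs, Finset.sum_apply, Finset.sum_congr rfl hz3]
  have hmain : ∀ N : productSpan μ W → ℝ, EqNorm N → ¬ AUC N := by
    intro N hN
    set δ := ∫ x, |x - 1| ∂ν with hδ
    have hδ0 : 0 < δ := by
      have h0 : 0 ≤ δ := integral_nonneg fun x => abs_nonneg _
      rcases h0.lt_or_eq with h | h
      · exact h
      exfalso
      have hi : Integrable (fun x : ℝ => |x - 1|) ν :=
        ((integrable_id_nu hmean).sub (integrable_const 1)).abs
      have h1 : (fun x : ℝ => |x - 1|) =ᵐ[ν] 0 :=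
        (integral_eq_zero_iff_of_nonneg (fun x => abs_nonneg _) hi).mp h.symm
      have h2 : (fun x : ℝ => x) =ᵐ[ν] fun _ => 1 := by
        filter_upwards [h1] with x hx
        simp only [Pi.zero_apply, abs_eq_zero] at hx
        linarith
      have h3 : Measure.map (fun x : ℝ => x) ν = Measure.map (fun _ => (1:ℝ)) ν := Measure.map_congr h2
      rw [Measure.map_const] at h3
      simp only [measure_univ, one_smul] at h3
      apply hnc 1
      rw [← h3]
      exact (Measure.map_id).symm
    apply not_auc_of_trees hN 1 δ hδ0 (fun _ => P)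
    · intro _ v _
      have h1 := (pathProduct_props hpos hmean hW v).2.1
      have h3 := (pathProduct_props hpos hmean hW v).2.2
      rw [Submodule.coe_norm, hcoe, L1.norm_of_fun_eq_integral_norm]
      apply le_of_eq
      rw [← h1]
      apply integral_congr_ae
      filter_upwards [h3] with z hz
      rw [Real.norm_eq_abs, abs_of_pos hz]
    · intro _ v _
      apply AsympNull.of_upper_two (K := √(Var[fun x => x; ν]))
      intro A a
      rw [hnorm]
      exact integral_abs_le hmean hm2 hW v A a
    · intro _ v n _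
      have h1 := hnorm v {n} (fun _ => 1)
      simp only [Finset.sum_singleton, one_smul, one_mul] at h1
      rw [h1, hδ]
      apply le_of_eq
      have hv : n :: v ≠ [] := by simp
      rw [← hW.2.2 (n :: v) hv, integral_map (hW.1 _).aemeasurable
        (by fun_prop)]
  refine ⟨?_, ?_⟩
  · intro hfd
    exact hmain _ eqNorm_norm (auc_of_finiteDimensional eqNorm_norm)
  · intro N hN
    exact not_isAUC_of _ N (hmain N hN)

end Crest.Agent.S0169
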