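import Mathlib

set_option autoImplicit false
open scoped ContDiff Topology
open Filter

namespace Crest.Agent.S0175

section kernel
variable {F : Type*} [NormedAddCommGroup F] [InnerProductSpace ℝ F]

/-- The gradient of `z ↦ ‖z‖ ^ (-s)`. -/
noncomputable def kgrad (s : ℝ) (z : F) : F := (-s * ‖z‖ ^ (-s - 2)) • z

theorem kgrad_neg (s : ℝ) (z : F) : kgrad s (-z) = -kgrad s z := by
  simp [kgrad]

theorem one_add_le_rpow_neg {p x : ℝ} (hp : p ≤ 0) (hx : 0 < x) : 1 + p * (x - 1) ≤ x ^ p := by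
  have h1 : x ^ p = Real.exp (Real.log x * p) := Real.rpow_def_of_pos hx p
  rw [h1]
  have h2 := Real.add_one_le_exp (Real.log x * p)
  have h3 := Real.log_le_sub_one_of_pos hx
  nlinarith [mul_le_mul_of_nonpos_left h3 hp]

/-- The tangent lower bound for `‖z‖ ^ (-s)` with an explicit quadratic error. -/
theorem rpow_norm_lower {s : ℝ} (hs : 0 < s) {z w : F} (hz : z ≠ 0) (hw : w ≠ 0) :
    ‖z‖ ^ (-s) + inner ℝ (kgrad s z) (w - z) - s / 2 * ‖z‖ ^ (-s - 2) * ‖w - z‖ ^ 2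
      ≤ ‖w‖ ^ (-s) := by
  have hz' : 0 < ‖z‖ := norm_pos_iff.mpr hz
  have hw' : 0 < ‖w‖ := norm_pos_iff.mpr hw
  have h1 := one_add_le_rpow_neg (p := -s / 2) (x := (‖w‖ / ‖z‖) ^ 2) (by linarith)
    (by positivity)
  have h2 : ((‖w‖ / ‖z‖) ^ 2) ^ (-s / 2) = ‖w‖ ^ (-s) / ‖z‖ ^ (-s) := by
    rw [← Real.rpow_natCast, ← Real.rpow_mul (by positivity), Real.div_rpow hw'.le hz'.le]
    congr 2 <;> push_cast <;> ring
  rw [h2] at h1
  have hzs : 0 < ‖z‖ ^ (-s) := Real.rpow_pos_of_pos hz' _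
  have h3 : ‖z‖ ^ (-s) * (1 + -s / 2 * ((‖w‖ / ‖z‖) ^ 2 - 1)) ≤ ‖w‖ ^ (-s) := by
    rw [le_div_iff₀ hzs] at h1
    linarith
  refine le_trans (le_of_eq ?_) h3
  have h4 : ‖z‖ ^ (-s) = ‖z‖ ^ (-s - 2) * ‖z‖ ^ 2 := by
    rw [← Real.rpow_natCast, ← Real.rpow_add hz']
    congr 1
    push_cast
    ring
  have h5 : ‖w‖ ^ 2 = ‖z‖ ^ 2 + 2 * inner ℝ z (w - z) + ‖w - z‖ ^ 2 := by
    have := norm_add_sq_real z (w - z)
    rw [add_sub_cancel] at this
    exact this
  have h6 : inner ℝ (kgrad s z) (w - z) = -s * ‖z‖ ^ (-s - 2) * inner ℝ z (w - z) := by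
    rw [kgrad, inner_smul_left]
    simp
  rw [h6, h4, div_pow, h5]
  field_simp
  ring

theorem contDiffAt_kgrad (s : ℝ) {z : F} (hz : z ≠ 0) {n : ℕ∞ω} : ContDiffAt ℝ n (kgrad s) z := by
  unfold kgrad
  have h1 : ContDiffAt ℝ n (fun z : F => ‖z‖ ^ (-s - 2)) z :=
    (contDiffAt_norm ℝ hz).rpow_const_of_ne (norm_ne_zero_iff.mpr hz)
  exact (contDiffAt_const.mul h1).smul contDiffAt_id

/-- a left inverse of `kgrad s`. -/
noncomputable def kinv (s : ℝ) (p : F) : F := (-(1 / s) * (‖p‖ / s) ^ (-(s + 2) / (s + 1))) • p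

theorem kinv_kgrad {s : ℝ} (hs : 0 < s) {z : F} (hz : z ≠ 0) : kinv s (kgrad s z) = z := by
  have hz' : 0 < ‖z‖ := norm_pos_iff.mpr hz
  have h1 : ‖kgrad s z‖ = s * ‖z‖ ^ (-(s + 1)) := by
    rw [kgrad, norm_smul, norm_mul, Real.norm_eq_abs, Real.norm_eq_abs, abs_neg, abs_of_pos hs,
      abs_of_pos (Real.rpow_pos_of_pos hz' _), mul_assoc]
    congr 1
    nth_rewrite 2 [← Real.rpow_one ‖z‖]
    rw [← Real.rpow_add hz']
    congr 1
    ring
  have h2 : (‖kgrad s z‖ / s) ^ (-(s + 2) / (s + 1)) = ‖z‖ ^ (s + 2) := by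
    rw [h1, mul_div_cancel_left₀ _ hs.ne', ← Real.rpow_mul hz'.le]
    congr 1
    field_simp
  rw [kinv, h2, kgrad, smul_smul]
  have h3 : -(1 / s) * ‖z‖ ^ (s + 2) * (-s * ‖z‖ ^ (-s - 2)) = 1 := by
    have : ‖z‖ ^ (s + 2) * ‖z‖ ^ (-s - 2) = 1 := by
      rw [← Real.rpow_add hz']
      have : s + 2 + (-s - 2) = 0 := by ring
      rw [this, Real.rpow_zero]
    field_simp
    linarith
  rw [h3, one_smul]

theorem kgrad_ne_zero {s : ℝ} (hs : 0 < s) {z : F} (hz : z ≠ 0) : kgrad s z ≠ 0 := by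
  have hz' : 0 < ‖z‖ := norm_pos_iff.mpr hz
  unfold kgrad
  refine smul_ne_zero ?_ hz
  have := Real.rpow_pos_of_pos hz' (-s - 2)
  have : 0 < s * ‖z‖ ^ (-s - 2) := by positivity
  intro h
  linarith

theorem fderiv_kgrad_injective {s : ℝ} (hs : 0 < s) {z : F} (hz : z ≠ 0) :
    Function.Injective (fderiv ℝ (kgrad s) z) := by
  have hk : HasFDerivAt (kgrad s) (fderiv ℝ (kgrad s) z) z :=
    ((contDiffAt_kgrad s hz (n := 1)).differentiableAt (by simp)).hasFDerivAt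
  have hj : DifferentiableAt ℝ (kinv s) (kgrad s z) := by
    have h0 := kgrad_ne_zero hs hz
    unfold kinv
    have h1 : ContDiffAt ℝ 1 (fun p : F => (‖p‖ / s) ^ (-(s + 2) / (s + 1))) (kgrad s z) := by
      apply ContDiffAt.rpow_const_of_ne
      · exact (contDiffAt_norm ℝ h0).div_const s
      · exact (div_pos (norm_pos_iff.mpr h0) hs).ne'
    exact ((contDiffAt_const.mul h1).smul contDiffAt_id).differentiableAt (by simp)
  have hc : HasFDerivAt (fun y => kinv s (kgrad s y))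
      ((fderiv ℝ (kinv s) (kgrad s z)).comp (fderiv ℝ (kgrad s) z)) z :=
    hj.hasFDerivAt.comp z hk
  have hid : (fun y : F => kinv s (kgrad s y)) =ᶠ[𝓝 z] id := by
    filter_upwards [isOpen_ne.mem_nhds hz] with y hy
    exact kinv_kgrad hs hy
  have hc' : HasFDerivAt (fun y => kinv s (kgrad s y)) (ContinuousLinearMap.id ℝ F) z :=
    (hasFDerivAt_id z).congr_of_eventuallyEq hid
  have heq := hc.unique hc'
  intro x y hxy
  have := congrArg (fun L : F →L[ℝ] F => L x) heq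
  have h2 := congrArg (fun L : F →L[ℝ] F => L y) heq
  simp only [ContinuousLinearMap.comp_apply, ContinuousLinearMap.id_apply] at this h2
  rw [← this, ← h2, hxy]

end kernel

section implicit
variable {F : Type*} [NormedAddCommGroup F] [InnerProductSpace ℝ F] [FiniteDimensional ℝ F]

/-- The map whose zero set describes critical triples. -/
noncomputable def Pmap (s : ℝ) (e : F) (q : ℝ × F × F × F) : ℝ × F × F × F :=
  (q.1, q.2.2.1 + kgrad s (q.1 • q.2.2.1 - q.2.1) + kgrad s (q.1 • q.2.2.1 + e - q.1 • q.2.2.2),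
    q.2.2.1, q.2.2.2 + kgrad s (-e + q.1 • q.2.2.2 - q.1 • q.2.2.1)
      + kgrad s (-e + q.1 • q.2.2.2 - q.2.1) - (kgrad s (-e) + kgrad s (-e - e)))

theorem neg_e_sub_ne {e : F} (he : e ≠ 0) : -e - e ≠ 0 := by
  intro h
  apply he
  have : (2 : ℝ) • e = 0 := by
    rw [two_smul]
    have h2 : -(e + e) = 0 := by rw [← h]; abel
    exact neg_eq_zero.mp h2
  simpa using this

theorem contDiffAt_Pmap (s : ℝ) {e : F} (he : e ≠ 0) {n : ℕ∞ω} :
    ContDiffAt ℝ n (Pmap s e) (0, e, 0, 0) := by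
  have h1 : ContDiffAt ℝ n (fun q : ℝ × F × F × F => kgrad s (q.1 • q.2.2.1 - q.2.1)) (0, e, 0, 0) := by
    refine ContDiffAt.comp (g := kgrad s) _ (contDiffAt_kgrad s (by simpa using he)) ?_
    fun_prop
  have h2 : ContDiffAt ℝ n (fun q : ℝ × F × F × F => kgrad s (q.1 • q.2.2.1 + e - q.1 • q.2.2.2))
      (0, e, 0, 0) := by
    refine ContDiffAt.comp (g := kgrad s) _ (contDiffAt_kgrad s (by simpa using he)) ?_
    fun_prop
  have h3 : ContDiffAt ℝ n (fun q : ℝ × F × F × F => kgrad s (-e + q.1 • q.2.2.2 - q.1 • q.2.2.1))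
      (0, e, 0, 0) := by
    refine ContDiffAt.comp (g := kgrad s) _ (contDiffAt_kgrad s (by simpa using he)) ?_
    fun_prop
  have h4 : ContDiffAt ℝ n (fun q : ℝ × F × F × F => kgrad s (-e + q.1 • q.2.2.2 - q.2.1))
      (0, e, 0, 0) := by
    refine ContDiffAt.comp (g := kgrad s) _ (contDiffAt_kgrad s ?_) ?_
    · simpa using neg_e_sub_ne he
    · fun_prop
  unfold Pmap
  fun_prop

/-- The derivative of `Pmap` at the base point. -/
noncomputable def Plin (K1 K2 : F →L[ℝ] F) : (ℝ × F × F × F) →L[ℝ] (ℝ × F × F × F) :=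
  (ContinuousLinearMap.fst ℝ ℝ (F × F × F)).prod
    ((((ContinuousLinearMap.fst ℝ F F).comp ((ContinuousLinearMap.snd ℝ F (F × F)).comp
        (ContinuousLinearMap.snd ℝ ℝ (F × F × F)))) -
        K1.comp ((ContinuousLinearMap.fst ℝ F (F × F)).comp
          (ContinuousLinearMap.snd ℝ ℝ (F × F × F)))).prod
      (((ContinuousLinearMap.fst ℝ F F).comp ((ContinuousLinearMap.snd ℝ F (F × F)).comp
        (ContinuousLinearMap.snd ℝ ℝ (F × F × F)))).prod
        (((ContinuousLinearMap.snd ℝ F F).comp ((ContinuousLinearMap.snd ℝ F (F × F)).comp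
          (ContinuousLinearMap.snd ℝ ℝ (F × F × F)))) -
          K2.comp ((ContinuousLinearMap.fst ℝ F (F × F)).comp
            (ContinuousLinearMap.snd ℝ ℝ (F × F × F))))))

theorem Plin_apply (K1 K2 : F →L[ℝ] F) (v : ℝ × F × F × F) :
    Plin K1 K2 v = (v.1, v.2.2.1 - K1 v.2.1, v.2.2.1, v.2.2.2 - K2 v.2.1) := by
  simp [Plin]

theorem hasFDerivAt_kgrad (s : ℝ) {z : F} (hz : z ≠ 0) :
    HasFDerivAt (kgrad s) (fderiv ℝ (kgrad s) z) z :=
  ((contDiffAt_kgrad s hz (n := 1)).differentiableAt (by simp)).hasFDerivAt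

theorem hasFDerivAt_Pmap (s : ℝ) {e : F} (he : e ≠ 0) :
    HasFDerivAt (Pmap s e) (Plin (fderiv ℝ (kgrad s) (-e)) (fderiv ℝ (kgrad s) (-e - e)))
      ((0, e, 0, 0) : ℝ × F × F × F) := by
  set q0 : ℝ × F × F × F := (0, e, 0, 0) with hq0
  have d1 : HasFDerivAt (fun q : ℝ × F × F × F => q.1) (ContinuousLinearMap.fst ℝ ℝ (F × F × F)) q0 :=
    hasFDerivAt_fst
  have d2 : HasFDerivAt (fun q : ℝ × F × F × F => q.2.1)
      ((ContinuousLinearMap.fst ℝ F (F × F)).comp (ContinuousLinearMap.snd ℝ ℝ (F × F × F))) q0 :=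
    ((ContinuousLinearMap.fst ℝ F (F × F)).comp (ContinuousLinearMap.snd ℝ ℝ (F × F × F))).hasFDerivAt
  have d3 : HasFDerivAt (fun q : ℝ × F × F × F => q.2.2.1)
      ((ContinuousLinearMap.fst ℝ F F).comp ((ContinuousLinearMap.snd ℝ F (F × F)).comp
        (ContinuousLinearMap.snd ℝ ℝ (F × F × F)))) q0 :=
    ((ContinuousLinearMap.fst ℝ F F).comp ((ContinuousLinearMap.snd ℝ F (F × F)).comp
        (ContinuousLinearMap.snd ℝ ℝ (F × F × F)))).hasFDerivAt
  have d4 : HasFDerivAt (fun q : ℝ × F × F × F => q.2.2.2)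
      ((ContinuousLinearMap.snd ℝ F F).comp ((ContinuousLinearMap.snd ℝ F (F × F)).comp
        (ContinuousLinearMap.snd ℝ ℝ (F × F × F)))) q0 :=
    ((ContinuousLinearMap.snd ℝ F F).comp ((ContinuousLinearMap.snd ℝ F (F × F)).comp
        (ContinuousLinearMap.snd ℝ ℝ (F × F × F)))).hasFDerivAt
  have c3 := d1.smul d3
  have c4 := d1.smul d4
  have k1 : HasFDerivAt (kgrad s) (fderiv ℝ (kgrad s) (-e)) (q0.1 • q0.2.2.1 - q0.2.1) := by
    have : q0.1 • q0.2.2.1 - q0.2.1 = -e := by simp [hq0]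
    rw [this]; exact hasFDerivAt_kgrad s (by simpa using he)
  have k2 : HasFDerivAt (kgrad s) (fderiv ℝ (kgrad s) e)
      (q0.1 • q0.2.2.1 + e - q0.1 • q0.2.2.2) := by
    have : q0.1 • q0.2.2.1 + e - q0.1 • q0.2.2.2 = e := by simp [hq0]
    rw [this]; exact hasFDerivAt_kgrad s he
  have k3 : HasFDerivAt (kgrad s) (fderiv ℝ (kgrad s) (-e))
      (-e + q0.1 • q0.2.2.2 - q0.1 • q0.2.2.1) := by
    have : -e + q0.1 • q0.2.2.2 - q0.1 • q0.2.2.1 = -e := by simp [hq0]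
    rw [this]; exact hasFDerivAt_kgrad s (by simpa using he)
  have k4 : HasFDerivAt (kgrad s) (fderiv ℝ (kgrad s) (-e - e))
      (-e + q0.1 • q0.2.2.2 - q0.2.1) := by
    have : -e + q0.1 • q0.2.2.2 - q0.2.1 = -e - e := by simp [hq0]
    rw [this]; exact hasFDerivAt_kgrad s (neg_e_sub_ne he)
  have f1 := k1.comp q0 (c3.sub d2)
  have f2 := k2.comp q0 ((c3.add_const e).sub c4)
  have f3 := k3.comp q0 ((c4.const_add (-e)).sub c3)
  have f4 := k4.comp q0 ((c4.const_add (-e)).sub d2)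
  have g1 := (d3.add f1).add f2
  have g2 := ((d4.add f3).add f4).sub_const (kgrad s (-e) + kgrad s (-e - e))
  have hfin := d1.prodMk (g1.prodMk (d3.prodMk g2))
  refine (hfin.congr_fderiv ?_)
  apply ContinuousLinearMap.ext
  intro v
  rw [Plin_apply]
  simp [hq0, sub_eq_add_neg]

theorem Plin_injective {K1 K2 : F →L[ℝ] F} (h1 : Function.Injective K1) :
    Function.Injective (Plin K1 K2) := by
  rw [injective_iff_map_eq_zero]
  rintro ⟨a, b, c, d⟩ h
  rw [Plin_apply] at h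
  simp only [Prod.mk_eq_zero] at h
  obtain ⟨ha, hb, hc, hd⟩ := h
  subst ha
  subst hc
  have : K1 b = 0 := by simpa using hb
  have hb0 : b = 0 := h1 (by simpa using this)
  subst hb0
  simp at hd
  subst hd
  rfl

/-- an injective continuous endomorphism in finite dimension as an equivalence -/
theorem exists_equiv_of_injective {G : Type*} [NormedAddCommGroup G] [NormedSpace ℝ G]
    [FiniteDimensional ℝ G] (L : G →L[ℝ] G) (hL : Function.Injective L) :
    ∃ L' : G ≃L[ℝ] G, (L' : G →L[ℝ] G) = L := by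
  refine ⟨(LinearEquiv.ofInjectiveEndo (L : G →ₗ[ℝ] G) hL).toContinuousLinearEquiv, ?_⟩
  ext x
  rfl

end implicit

end Crest.Agent.S0175
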