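import Mathlib
import Crest.Agent.S0175_Local

set_option autoImplicit false
set_option linter.unusedSectionVars false
open scoped ContDiff Topology
open Filter

namespace Crest.Agent.S0175

section maps
variable {F : Type*} [NormedAddCommGroup F] [InnerProductSpace ℝ F] [FiniteDimensional ℝ F]

theorem exists_oph_of_contDiffAt {f : F → F} {x : F} (hf : ContDiffAt ℝ ω f x)
    (hinj : Function.Injective (fderiv ℝ f x)) {t : Set F} (ht : t ∈ 𝓝 x) :
    ∃ B : OpenPartialHomeomorph F F, x ∈ B.source ∧ B.source ⊆ t ∧ (⇑B = f) ∧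
      (∀ x ∈ B.source, ContDiffAt ℝ ∞ B x) ∧ (∀ y ∈ B.target, ContDiffAt ℝ ∞ B.symm y) := by
  obtain ⟨f', hf'⟩ := exists_equiv_of_injective _ hinj
  have hd : HasFDerivAt f (f' : F →L[ℝ] F) x := by
    rw [hf']
    exact (hf.differentiableAt (by simp)).hasFDerivAt
  have hn : (ω : WithTop ℕ∞) ≠ 0 := by simp
  let B0 := hf.toOpenPartialHomeomorph f hd hn
  have hB0 : ⇑B0 = f := hf.toOpenPartialHomeomorph_coe hd hn
  have hx0 : x ∈ B0.source := hf.mem_toOpenPartialHomeomorph_source hd hn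
  have hs : ContDiffAt ℝ ω B0.symm (f x) := hf.to_localInverse hd hn
  have e1 : ∀ᶠ y in 𝓝 x, ContDiffAt ℝ ω f y := hf.eventually (by simp)
  have e2 : ∀ᶠ y in 𝓝 (f x), ContDiffAt ℝ ω B0.symm y := hs.eventually (by simp)
  have e3 : ∀ᶠ y in 𝓝 x, ContDiffAt ℝ ω B0.symm (f y) := hf.continuousAt.eventually e2
  obtain ⟨V, hVs, hVo, hxV⟩ := mem_nhds_iff.mp (inter_mem (inter_mem e1 e3) ht)
  refine ⟨B0.restrOpen V hVo, ?_, ?_, ?_, ?_, ?_⟩
  · rw [B0.restrOpen_source]; exact ⟨hx0, hxV⟩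
  · rw [B0.restrOpen_source]; exact fun y hy => (hVs hy.2).2
  · exact hB0
  · intro y hy
    rw [B0.restrOpen_source] at hy
    have h0 : ContDiffAt ℝ ω f y := (hVs hy.2).1.1
    simp only [OpenPartialHomeomorph.coe_restrOpen, hB0]
    exact h0.of_le le_top
  · intro y hy
    have h1 : y ∈ B0.target ∩ B0.symm ⁻¹' V := hy
    have h2 : ContDiffAt ℝ ω B0.symm (f (B0.symm y)) := (hVs h1.2).1.2
    have h3 : f (B0.symm y) = y := by
      rw [← hB0]; exact B0.right_inv h1.1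
    rw [h3] at h2
    exact h2.of_le le_top

theorem exists_local_maps {s : ℝ} (hs : 0 < s) {e : F} (he : e ≠ 0) {ε₁ : ℝ} (hε₁ : 0 < ε₁) :
    ∃ ε : ℝ, 0 < ε ∧ ε < ε₁ ∧ ∃ B C : OpenPartialHomeomorph F F,
      (0 : F) ∈ B.source ∧ (0 : F) ∈ C.source ∧ B 0 = e ∧ C 0 = -e ∧
      (∀ x ∈ B.source, ContDiffAt ℝ ∞ B x) ∧ (∀ y ∈ B.target, ContDiffAt ℝ ∞ B.symm y) ∧
      (∀ x ∈ C.source, ContDiffAt ℝ ∞ C x) ∧ (∀ y ∈ C.target, ContDiffAt ℝ ∞ C.symm y) ∧
      (∀ a ∈ B.source ∩ C.source, kgrad s (a - B a) + kgrad s (a - C a) = -(ε⁻¹ • a) ∧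
        kgrad s (C a - a) + kgrad s (C a - B a) =
          kgrad s (-e) + kgrad s (-e - e) - ε⁻¹ • (C a + e)) := by
  have hn : (ω : WithTop ℕ∞) ≠ 0 := by simp
  set q0 : ℝ × F × F × F := (0, e, 0, 0) with hq0
  set K1 := fderiv ℝ (kgrad s) (-e) with hK1
  set K2 := fderiv ℝ (kgrad s) (-e - e) with hK2
  have hK1i : Function.Injective K1 := fderiv_kgrad_injective hs (by simpa using he)
  have hK2i : Function.Injective K2 := fderiv_kgrad_injective hs (neg_e_sub_ne he)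
  have hP : ContDiffAt ℝ ω (Pmap s e) q0 := contDiffAt_Pmap s he
  have hPd := hasFDerivAt_Pmap s he
  obtain ⟨P', hP'⟩ := exists_equiv_of_injective _ (Plin_injective (K2 := K2) hK1i)
  have hPd' : HasFDerivAt (Pmap s e) (P' : (ℝ × F × F × F) →L[ℝ] (ℝ × F × F × F)) q0 := by
    rw [hP']; exact hPd
  have hPq0 : Pmap s e q0 = 0 := by
    simp [Pmap, hq0, kgrad_neg]
  let T := hP.toOpenPartialHomeomorph (Pmap s e) hPd' hn
  have hT : ⇑T = Pmap s e := hP.toOpenPartialHomeomorph_coe hPd' hn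
  have hq0s : q0 ∈ T.source := hP.mem_toOpenPartialHomeomorph_source hPd' hn
  have h0t : (0 : ℝ × F × F × F) ∈ T.target := by
    have := hP.image_mem_toOpenPartialHomeomorph_target hPd' hn
    rw [hPq0] at this; exact this
  have hΨ : ContDiffAt ℝ ω T.symm (0 : ℝ × F × F × F) := by
    have := hP.to_localInverse hPd' hn
    rw [hPq0] at this; exact this
  have hΨ0 : T.symm 0 = q0 := by
    rw [← hPq0, ← hT]; exact T.left_inv hq0s
  have hΨd : HasFDerivAt T.symm (P'.symm : (ℝ × F × F × F) →L[ℝ] (ℝ × F × F × F)) 0 := by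
    apply T.hasFDerivAt_symm h0t
    rw [hΨ0, hT]; exact hPd'
  -- the embedding J
  let J : ℝ × F →L[ℝ] ℝ × F × F × F :=
    (ContinuousLinearMap.fst ℝ ℝ F).prod ((0 : ℝ × F →L[ℝ] F).prod
      ((ContinuousLinearMap.snd ℝ ℝ F).prod (0 : ℝ × F →L[ℝ] F)))
  have hJ : ∀ p : ℝ × F, J p = (p.1, 0, p.2, 0) := fun p => by simp [J]
  let prB : ℝ × F × F × F →L[ℝ] F := (ContinuousLinearMap.fst ℝ F (F × F)).comp
    (ContinuousLinearMap.snd ℝ ℝ (F × F × F))
  let prZ : ℝ × F × F × F →L[ℝ] F := (ContinuousLinearMap.snd ℝ F F).comp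
    ((ContinuousLinearMap.snd ℝ F (F × F)).comp (ContinuousLinearMap.snd ℝ ℝ (F × F × F)))
  have hprB : ∀ v, prB v = v.2.1 := fun v => rfl
  have hprZ : ∀ v, prZ v = v.2.2.2 := fun v => rfl
  let bf : ℝ × F → F := fun p => prB (T.symm (J p))
  let zf : ℝ × F → F := fun p => prZ (T.symm (J p))
  have hΨJ : ContDiffAt ℝ ω (fun p : ℝ × F => T.symm (J p)) 0 := by
    refine ContDiffAt.comp (g := T.symm) (0 : ℝ × F) ?_ J.contDiff.contDiffAt
    rw [map_zero]; exact hΨ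
  have hbf : ContDiffAt ℝ ω bf 0 := prB.contDiff.contDiffAt.comp 0 hΨJ
  have hzf : ContDiffAt ℝ ω zf 0 := prZ.contDiff.contDiffAt.comp 0 hΨJ
  have hΨJd : HasFDerivAt (fun p : ℝ × F => T.symm (J p))
      ((P'.symm : (ℝ × F × F × F) →L[ℝ] (ℝ × F × F × F)).comp J) 0 := by
    have h1 : HasFDerivAt T.symm (P'.symm : (ℝ × F × F × F) →L[ℝ] (ℝ × F × F × F)) (J 0) := by
      rw [map_zero]; exact hΨd
    exact h1.comp (0 : ℝ × F) J.hasFDerivAt
  have hbfd : HasFDerivAt bf (prB.comp ((P'.symm : (ℝ × F × F × F) →L[ℝ] (ℝ × F × F × F)).comp J)) 0 :=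
    prB.hasFDerivAt.comp (0 : ℝ × F) hΨJd
  have hzfd : HasFDerivAt zf (prZ.comp ((P'.symm : (ℝ × F × F × F) →L[ℝ] (ℝ × F × F × F)).comp J)) 0 :=
    prZ.hasFDerivAt.comp (0 : ℝ × F) hΨJd
  have hsolve : ∀ δ : F, K1 (P'.symm (0, 0, δ, 0)).2.1 = δ ∧
      (P'.symm (0, 0, δ, 0)).2.2.2 = K2 (P'.symm (0, 0, δ, 0)).2.1 := by
    intro δ
    set v := P'.symm (0, 0, δ, 0) with hv
    have h1 : P' v = (0, 0, δ, 0) := by rw [hv]; simp
    have h2 : P' v = Plin K1 K2 v := by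
      have := congrArg (fun L : (ℝ × F × F × F) →L[ℝ] (ℝ × F × F × F) => L v) hP'
      exact this
    rw [h2, Plin_apply] at h1
    simp only [Prod.mk.injEq] at h1
    obtain ⟨ha, hb, hc, hd⟩ := h1
    constructor
    · rw [← hc]; exact (sub_eq_zero.mp hb).symm
    · exact sub_eq_zero.mp hd
  let inr' : F →L[ℝ] ℝ × F := ContinuousLinearMap.inr ℝ ℝ F
  have hinj_b : Function.Injective ((fderiv ℝ bf 0).comp inr') := by
    rw [hbfd.fderiv]
    rw [injective_iff_map_eq_zero]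
    intro δ hδ
    have h1 : (P'.symm (0, 0, δ, 0)).2.1 = 0 := by
      simpa [inr', hprB, hJ] using hδ
    have := (hsolve δ).1
    rw [h1, map_zero] at this
    exact this.symm
  have hinj_z : Function.Injective ((fderiv ℝ zf 0).comp inr') := by
    rw [hzfd.fderiv]
    rw [injective_iff_map_eq_zero]
    intro δ hδ
    have h1 : (P'.symm (0, 0, δ, 0)).2.2.2 = 0 := by
      simpa [inr', hprZ, hJ] using hδ
    have h2 := (hsolve δ).2
    rw [h1] at h2
    have h3 : (P'.symm (0, 0, δ, 0)).2.1 = 0 := hK2i (by rw [← h2, map_zero])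
    have := (hsolve δ).1
    rw [h3, map_zero] at this
    exact this.symm
  -- openness of injectivity
  have hopen : ∀ {g : ℝ × F → F}, ContDiffAt ℝ ω g 0 →
      Function.Injective ((fderiv ℝ g 0).comp inr') →
      ∀ᶠ ε : ℝ in 𝓝 0, Function.Injective ((fderiv ℝ g (ε, 0)).comp inr') := by
    intro g hg hgi
    obtain ⟨L, hL⟩ := exists_equiv_of_injective _ hgi
    have hcont : ContinuousAt (fun p : ℝ × F => (fderiv ℝ g p).comp inr') 0 := by
      have h1 : ContinuousAt (fderiv ℝ g) 0 :=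
        (hg.fderiv_right (m := 0) (by simp)).continuousAt
      exact ContinuousAt.clm_comp h1 continuousAt_const
    have hnh : Set.range ((↑) : (F ≃L[ℝ] F) → F →L[ℝ] F) ∈ 𝓝 ((fderiv ℝ g 0).comp inr') := by
      rw [← hL]; exact ContinuousLinearEquiv.nhds L
    have h2 : ∀ᶠ p in 𝓝 (0 : ℝ × F), (fderiv ℝ g p).comp inr' ∈
        Set.range ((↑) : (F ≃L[ℝ] F) → F →L[ℝ] F) := hcont.eventually hnh
    have h3 : Tendsto (fun ε : ℝ => ((ε, 0) : ℝ × F)) (𝓝 0) (𝓝 0) := by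
      have : Continuous (fun ε : ℝ => ((ε, 0) : ℝ × F)) := by fun_prop
      exact this.tendsto' 0 0 rfl
    filter_upwards [h3.eventually h2] with ε hε
    obtain ⟨M, hM⟩ := hε
    rw [← hM]
    exact M.injective
  have hline : Tendsto (fun ε : ℝ => ((ε, 0) : ℝ × F)) (𝓝 0) (𝓝 0) := by
    have : Continuous (fun ε : ℝ => ((ε, 0) : ℝ × F)) := by fun_prop
    exact this.tendsto' 0 0 rfl
  have ev1 := hopen hbf hinj_b
  have ev2 := hopen hzf hinj_z
  have ev3 : ∀ᶠ ε : ℝ in 𝓝 0, ContDiffAt ℝ ω bf (ε, 0) :=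
    hline.eventually (hbf.eventually (by simp))
  have ev4 : ∀ᶠ ε : ℝ in 𝓝 0, ContDiffAt ℝ ω zf (ε, 0) :=
    hline.eventually (hzf.eventually (by simp))
  have ev5 : ∀ᶠ ε : ℝ in 𝓝 0, ((ε, 0, 0, 0) : ℝ × F × F × F) ∈ T.target := by
    have h1 : Tendsto (fun ε : ℝ => ((ε, 0, 0, 0) : ℝ × F × F × F)) (𝓝 0) (𝓝 0) := by
      have : Continuous (fun ε : ℝ => ((ε, 0, 0, 0) : ℝ × F × F × F)) := by fun_prop
      exact this.tendsto' 0 0 rfl
    exact h1.eventually (T.open_target.mem_nhds h0t)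
  have ev6 : ∀ᶠ ε : ℝ in 𝓝 0, ((ε, e, 0, 0) : ℝ × F × F × F) ∈ T.source := by
    have h1 : Tendsto (fun ε : ℝ => ((ε, e, 0, 0) : ℝ × F × F × F)) (𝓝 0) (𝓝 q0) := by
      have : Continuous (fun ε : ℝ => ((ε, e, 0, 0) : ℝ × F × F × F)) := by fun_prop
      exact this.tendsto' 0 q0 rfl
    exact h1.eventually (T.open_source.mem_nhds hq0s)
  have evall := ((ev1.and ev2).and (ev3.and ev4)).and (ev5.and ev6)
  obtain ⟨ρ, hρ, hρball⟩ := Metric.eventually_nhds_iff.mp evall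
  obtain ⟨ε, hε0, hερ⟩ := exists_between (lt_min hρ hε₁)
  have hεmin := lt_min_iff.mp hερ
  have hε := hρball (y := ε) (by rw [Real.dist_eq, sub_zero, abs_of_pos hε0]; exact hεmin.1)
  obtain ⟨⟨⟨hib, hiz⟩, hcb, hcz⟩, htar, hsrc⟩ := hε
  -- value at zero
  have hval : T.symm (ε, 0, 0, 0) = (ε, e, 0, 0) := by
    have h1 : T (ε, e, 0, 0) = (ε, 0, 0, 0) := by
      rw [hT]; simp [Pmap, kgrad_neg]
    rw [← h1]; exact T.left_inv hsrc
  have hb0 : bf (ε, 0) = e := by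
    change prB (T.symm (J (ε, 0))) = e
    rw [hJ]
    rw [show (((ε, (0 : F)) : ℝ × F).1, (0 : F), ((ε, (0 : F)) : ℝ × F).2, (0 : F)) = (ε, 0, 0, 0) from rfl, hval]
    exact hprB _
  have hz0 : zf (ε, 0) = 0 := by
    change prZ (T.symm (J (ε, 0))) = 0
    rw [hJ]
    rw [show (((ε, (0 : F)) : ℝ × F).1, (0 : F), ((ε, (0 : F)) : ℝ × F).2, (0 : F)) = (ε, 0, 0, 0) from rfl, hval]
    exact hprZ _
  -- the maps
  let S : F →L[ℝ] F := ε⁻¹ • ContinuousLinearMap.id ℝ F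
  have hS : ∀ a, S a = ε⁻¹ • a := fun a => rfl
  let Jε : F → ℝ × F := fun a => (ε, ε⁻¹ • a)
  have hJε0 : Jε 0 = (ε, 0) := by simp [Jε]
  have hJεd : HasFDerivAt Jε (inr'.comp S) 0 := by
    have h1 : HasFDerivAt (fun a : F => ((ε, 0) : ℝ × F) + (inr'.comp S) a) (inr'.comp S) 0 :=
      (inr'.comp S).hasFDerivAt.const_add _
    refine h1.congr_of_eventuallyEq (Eventually.of_forall fun a => ?_)
    simp [Jε, inr', S]
  have hJεc : ContDiff ℝ ω Jε := by
    have : ContDiff ℝ ω (fun a : F => ((ε, 0) : ℝ × F) + (inr'.comp S) a) :=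
      contDiff_const.add (inr'.comp S).contDiff
    have h2 : Jε = (fun a : F => ((ε, 0) : ℝ × F) + (inr'.comp S) a) := by
      funext a
      simp [Jε, inr', S]
    rw [h2]; exact this
  let fB : F → F := fun a => bf (Jε a)
  let fC : F → F := fun a => -e + ε • zf (Jε a)
  have hfB : ContDiffAt ℝ ω fB 0 := by
    refine ContDiffAt.comp (g := bf) (0 : F) ?_ hJεc.contDiffAt
    rw [hJε0]; exact hcb
  have hfZ : ContDiffAt ℝ ω (fun a => zf (Jε a)) 0 := by
    refine ContDiffAt.comp (g := zf) (0 : F) ?_ hJεc.contDiffAt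
    rw [hJε0]; exact hcz
  have hfC : ContDiffAt ℝ ω fC 0 := contDiffAt_const.add (contDiffAt_const.smul hfZ)
  have hfBd : HasFDerivAt fB ((fderiv ℝ bf (ε, 0)).comp (inr'.comp S)) 0 := by
    have h1 : HasFDerivAt bf (fderiv ℝ bf (ε, 0)) (Jε 0) := by
      rw [hJε0]; exact (hcb.differentiableAt (by simp)).hasFDerivAt
    exact h1.comp (0 : F) hJεd
  have hfZd : HasFDerivAt (fun a => zf (Jε a)) ((fderiv ℝ zf (ε, 0)).comp (inr'.comp S)) 0 := by
    have h1 : HasFDerivAt zf (fderiv ℝ zf (ε, 0)) (Jε 0) := by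
      rw [hJε0]; exact (hcz.differentiableAt (by simp)).hasFDerivAt
    exact h1.comp (0 : F) hJεd
  have hfCd : HasFDerivAt fC (ε • ((fderiv ℝ zf (ε, 0)).comp (inr'.comp S))) 0 :=
    (hfZd.const_smul ε).const_add (-e)
  have hSinj : Function.Injective S := by
    rw [injective_iff_map_eq_zero]
    intro a ha
    rw [hS] at ha
    exact (smul_eq_zero.mp ha).resolve_left (inv_ne_zero hε0.ne')
  have hBi : Function.Injective (fderiv ℝ fB 0) := by
    rw [hfBd.fderiv]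
    exact hib.comp hSinj
  have hCi : Function.Injective (fderiv ℝ fC 0) := by
    rw [hfCd.fderiv]
    rw [injective_iff_map_eq_zero]
    intro a ha
    have h1 : ε • (((fderiv ℝ zf (ε, 0)).comp (inr'.comp S)) a) = 0 := ha
    have h2 := (smul_eq_zero.mp h1).resolve_left hε0.ne'
    have h3 : Function.Injective ((fderiv ℝ zf (ε, 0)).comp (inr'.comp S)) := hiz.comp hSinj
    exact h3 (by rw [h2, map_zero])
  -- neighbourhood where the equations hold
  have htn : {a : F | ((ε, 0, ε⁻¹ • a, 0) : ℝ × F × F × F) ∈ T.target} ∈ 𝓝 (0 : F) := by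
    have h1 : Tendsto (fun a : F => ((ε, 0, ε⁻¹ • a, 0) : ℝ × F × F × F)) (𝓝 0) (𝓝 (ε, 0, 0, 0)) := by
      have : Continuous (fun a : F => ((ε, 0, ε⁻¹ • a, 0) : ℝ × F × F × F)) := by fun_prop
      exact this.tendsto' 0 _ (by simp)
    exact h1.eventually (T.open_target.mem_nhds htar)
  obtain ⟨B, hB0, hBs, hBf, hBc, hBc'⟩ := exists_oph_of_contDiffAt hfB hBi htn
  obtain ⟨C, hC0, hCs, hCf, hCc, hCc'⟩ := exists_oph_of_contDiffAt hfC hCi htn
  refine ⟨ε, hε0, hεmin.2, B, C, hB0, hC0, ?_, ?_, hBc, hBc', hCc, hCc', ?_⟩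
  · rw [hBf]
    change bf (Jε 0) = e
    rw [hJε0, hb0]
  · rw [hCf]
    change -e + ε • zf (Jε 0) = -e
    rw [hJε0, hz0]; simp
  · rintro a ⟨haB, haC⟩
    have hat : ((ε, 0, ε⁻¹ • a, 0) : ℝ × F × F × F) ∈ T.target := hBs haB
    have hr := T.right_inv hat
    rw [hT] at hr
    set q := T.symm (ε, 0, ε⁻¹ • a, 0) with hq
    have hBa : B a = q.2.1 := by
      rw [hBf]
      change prB (T.symm (J (Jε a))) = _
      rw [hJ]
      exact hprB _
    have hCa : C a = -e + ε • q.2.2.2 := by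
      rw [hCf]
      change -e + ε • prZ (T.symm (J (Jε a))) = _
      rw [hJ, hprZ]
    unfold Pmap at hr
    simp only [Prod.mk.injEq] at hr
    obtain ⟨h1, h2, h3, h4⟩ := hr
    rw [h1, h3, smul_inv_smul₀ hε0.ne'] at h2
    rw [h1, h3, smul_inv_smul₀ hε0.ne'] at h4
    have hac : a - C a = a + e - ε • q.2.2.2 := by rw [hCa]; abel
    have hca : C a - a = -e + ε • q.2.2.2 - a := by rw [hCa]
    have hcb' : C a - B a = -e + ε • q.2.2.2 - q.2.1 := by rw [hCa, hBa]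
    have hce : ε⁻¹ • (C a + e) = q.2.2.2 := by
      rw [hCa]
      have : -e + ε • q.2.2.2 + e = ε • q.2.2.2 := by abel
      rw [this, inv_smul_smul₀ hε0.ne']
    constructor
    · rw [hac, hBa]
      have := h2
      rw [add_assoc] at this
      exact eq_neg_of_add_eq_zero_right this
    · rw [hca, hcb', hce]
      have := sub_eq_zero.mp h4
      rw [← this]
      abel

end maps

end Crest.Agent.S0175
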