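import Mathlib
import Crest.Agent.S0175_Maps

set_option autoImplicit false
set_option linter.unusedSectionVars false
open scoped ContDiff Topology
open Filter

namespace Crest.Agent.S0175

section mainineq
variable {F : Type*} [NormedAddCommGroup F] [InnerProductSpace ℝ F]

theorem rpow_bound_half {s t : ℝ} (hs : 0 < s) (ht : 1 / 2 ≤ t) : t ^ (-s - 2) ≤ 2 ^ (s + 2) := by
  have h1 : t ^ (-s - 2) ≤ (1 / 2 : ℝ) ^ (-s - 2) :=
    Real.rpow_le_rpow_of_nonpos (by norm_num) ht (by linarith)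
  refine h1.trans (le_of_eq ?_)
  rw [one_div, Real.inv_rpow (by norm_num), ← Real.rpow_neg (by norm_num)]
  congr 1
  ring

theorem main_ineq {s ε : ℝ} (hs : 0 < s) (hε : 0 < ε) (hε1 : ε * (3 * s * 2 ^ (s + 2)) < 1)
    {e l a b c a' c' : F}
    (crit1 : kgrad s (a - b) + kgrad s (a - c) = -(ε⁻¹ • a))
    (crit2 : kgrad s (c - a) + kgrad s (c - b) = l - ε⁻¹ • (c + e))
    (hab : 1 / 2 ≤ ‖a - b‖) (hac : 1 / 2 ≤ ‖a - c‖) (hcb : 1 / 2 ≤ ‖c - b‖)
    (h1 : a' ≠ b) (h2 : a' ≠ c') (h3 : c' ≠ b) (hne : ¬ (a' = a ∧ c' = c)) :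
    ‖a - b‖ ^ (-s) + ‖a - c‖ ^ (-s) + ‖c - b‖ ^ (-s) + ε⁻¹ / 2 * ‖a‖ ^ 2
        - (inner ℝ l (c + e) - ε⁻¹ / 2 * ‖c + e‖ ^ 2) <
      ‖a' - b‖ ^ (-s) + ‖a' - c'‖ ^ (-s) + ‖c' - b‖ ^ (-s) + ε⁻¹ / 2 * ‖a'‖ ^ 2
        - (inner ℝ l (c' + e) - ε⁻¹ / 2 * ‖c' + e‖ ^ 2) := by
  have nab : a - b ≠ 0 := by
    intro h; rw [h, norm_zero] at hab; linarith
  have nac : a - c ≠ 0 := by
    intro h; rw [h, norm_zero] at hac; linarith
  have ncb : c - b ≠ 0 := by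
    intro h; rw [h, norm_zero] at hcb; linarith
  have t1 := rpow_norm_lower hs nab (sub_ne_zero.mpr h1)
  have t2 := rpow_norm_lower hs nac (sub_ne_zero.mpr h2)
  have t3 := rpow_norm_lower hs ncb (sub_ne_zero.mpr h3)
  have e1 : a' - b - (a - b) = a' - a := by abel
  have e2 : a' - c' - (a - c) = (a' - a) - (c' - c) := by abel
  have e3 : c' - b - (c - b) = c' - c := by abel
  rw [e1] at t1
  rw [e2] at t2
  rw [e3] at t3
  set x := a' - a with hx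
  set y := c' - c with hy
  have b1 := rpow_bound_half hs hab
  have b2 := rpow_bound_half hs hac
  have b3 := rpow_bound_half hs hcb
  set L : ℝ := 2 ^ (s + 2) with hL
  have hLpos : 0 < L := by positivity
  have q1 : s / 2 * ‖a - b‖ ^ (-s - 2) * ‖x‖ ^ 2 ≤ s / 2 * L * ‖x‖ ^ 2 := by gcongr
  have q3 : s / 2 * ‖c - b‖ ^ (-s - 2) * ‖y‖ ^ 2 ≤ s / 2 * L * ‖y‖ ^ 2 := by gcongr
  have hxy : ‖x - y‖ ^ 2 ≤ 2 * ‖x‖ ^ 2 + 2 * ‖y‖ ^ 2 := by
    have := parallelogram_law_with_norm ℝ x y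
    nlinarith [sq_nonneg ‖x + y‖]
  have q2 : s / 2 * ‖a - c‖ ^ (-s - 2) * ‖x - y‖ ^ 2 ≤
      s / 2 * L * (2 * ‖x‖ ^ 2 + 2 * ‖y‖ ^ 2) := by gcongr
  have i1 : inner ℝ (kgrad s (a - b)) x + inner ℝ (kgrad s (a - c)) (x - y)
      + inner ℝ (kgrad s (c - b)) y = -(ε⁻¹ * inner ℝ a x) + inner ℝ l y
        - ε⁻¹ * inner ℝ (c + e) y := by
    have hk : kgrad s (c - a) = - kgrad s (a - c) := by
      rw [← kgrad_neg, neg_sub]
    rw [inner_sub_right (kgrad s (a - c)) x y]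
    have := congrArg (fun z => inner ℝ z x) crit1
    simp only [inner_add_left, inner_neg_left, inner_smul_left] at this
    have h' := congrArg (fun z => inner ℝ z y) crit2
    simp only [hk, inner_add_left, inner_neg_left, inner_sub_left, inner_smul_left] at h'
    simp only [conj_trivial] at this h'
    rw [inner_add_left]
    linarith
  have n1 : ‖a'‖ ^ 2 = ‖a‖ ^ 2 + 2 * inner ℝ a x + ‖x‖ ^ 2 := by
    have := norm_add_sq_real a x
    rw [hx, add_sub_cancel] at this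
    exact this
  have n2 : ‖c' + e‖ ^ 2 = ‖c + e‖ ^ 2 + 2 * inner ℝ (c + e) y + ‖y‖ ^ 2 := by
    have := norm_add_sq_real (c + e) y
    have h' : c + e + y = c' + e := by rw [hy]; abel
    rw [h'] at this
    exact this
  have n3 : inner ℝ l (c' + e) = inner ℝ l (c + e) + inner ℝ l y := by
    rw [← inner_add_right]
    congr 1
    rw [hy]; abel
  have hpos : 0 < ‖x‖ ^ 2 + ‖y‖ ^ 2 := by
    by_contra hcon
    push Not at hcon
    have hx0 : ‖x‖ ^ 2 = 0 := le_antisymm (by nlinarith [sq_nonneg ‖y‖]) (sq_nonneg _)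
    have hy0 : ‖y‖ ^ 2 = 0 := le_antisymm (by nlinarith [sq_nonneg ‖x‖]) (sq_nonneg _)
    have hx1 : x = 0 := by simpa using hx0
    have hy1 : y = 0 := by simpa using hy0
    exact hne ⟨sub_eq_zero.mp hx1, sub_eq_zero.mp hy1⟩
  have hcoef : 3 * s * L / 2 < ε⁻¹ / 2 := by
    have : 3 * s * L < ε⁻¹ := by
      rw [lt_inv_comm₀ (by positivity) hε, ← one_div, lt_div_iff₀ (by positivity)]
      exact hε1
    linarith
  have hfin := mul_lt_mul_of_pos_right hcoef hpos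
  rw [n1, n2, n3]
  linarith [t1, t2, t3, q1, q2, q3, i1, hfin]

end mainineq

end Crest.Agent.S0175
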