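import Mathlib
import Crest.Agent.S0175_Main

set_option autoImplicit false
set_option linter.unusedSectionVars false
open scoped ContDiff Topology
open Filter

namespace Crest.Agent.S0175

/-- The geometric configuration of the construction. -/
structure Cfg (F : Type*) [NormedAddCommGroup F] [InnerProductSpace ℝ F] (s : ℝ) where
  e : F
  R : F ≃ₗᵢ[ℝ] F
  B : OpenPartialHomeomorph F F
  C : OpenPartialHomeomorph F F
  ε : ℝ
  r : ℝ
  ρ : ℝ
  η : ℝ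
  l : F
  hs : 0 < s
  he : ‖e‖ = 1
  hR : ∀ x, R (R x) = x
  hRe : inner ℝ e (R e) = 0
  hε : 0 < ε
  hε1 : ε * (3 * s * 2 ^ (s + 2)) < 1
  hr : 0 < r
  hrρ : r < ρ
  hρ : ρ ≤ 1 / 8
  hsB : Metric.closedBall 0 r ⊆ B.source
  hsC : Metric.closedBall 0 r ⊆ C.source
  hBρ : ∀ a ∈ Metric.closedBall (0 : F) r, ‖B a - e‖ < ρ
  hCρ : ∀ a ∈ Metric.closedBall (0 : F) r, ‖C a + e‖ < ρ
  crit1 : ∀ a ∈ Metric.closedBall (0 : F) r,
    kgrad s (a - B a) + kgrad s (a - C a) = -(ε⁻¹ • a)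
  crit2 : ∀ a ∈ Metric.closedBall (0 : F) r,
    kgrad s (C a - a) + kgrad s (C a - B a) = l - ε⁻¹ • (C a + e)
  B_smooth : ∀ x ∈ B.source, ContDiffAt ℝ ∞ B x
  B_symm_smooth : ∀ y ∈ B.target, ContDiffAt ℝ ∞ B.symm y
  C_smooth : ∀ x ∈ C.source, ContDiffAt ℝ ∞ C x
  C_symm_smooth : ∀ y ∈ C.target, ContDiffAt ℝ ∞ C.symm y
  hη : 0 < η
  hη1 : η < 1 / 2
  c2 : (2 + 2 ^ (-s)) + 2 * η < 2 * (1 + 2 * ρ) ^ (-s) + (√2 + 2 * ρ) ^ (-s)
  c3 : 6 * (2 + 2 ^ (-s)) < (2 * ρ) ^ (-s)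
  c4 : ∀ b : F, ‖b - e‖ < ρ → ‖b‖ ^ (-s) + 1 + ‖b + e‖ ^ (-s) ≤ 2 + 2 ^ (-s) + η
  c5 : ‖l‖ * ρ ≤ η

theorem exists_cfg {F : Type*} [NormedAddCommGroup F] [InnerProductSpace ℝ F]
    [FiniteDimensional ℝ F] {s : ℝ} (hs : 0 < s) (e : F) (he : ‖e‖ = 1) (R : F ≃ₗᵢ[ℝ] F)
    (hR : ∀ x, R (R x) = x) (hRe : inner ℝ e (R e) = 0) : Nonempty (Cfg F s) := by
  have he0 : e ≠ 0 := by
    intro h; rw [h, norm_zero] at he; norm_num at he
  have hL : 0 < 3 * s * 2 ^ (s + 2) := by positivity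
  obtain ⟨ε, hε, hε1, B, C, hB0, hC0, hBe, hCe, hBs, hBs', hCs, hCs', hcrit⟩ :=
    exists_local_maps hs he0 (ε₁ := (3 * s * 2 ^ (s + 2))⁻¹) (by positivity)
  have hε1' : ε * (3 * s * 2 ^ (s + 2)) < 1 := by
    rw [← one_div, lt_div_iff₀ hL] at hε1
    exact hε1
  set l := kgrad s (-e) + kgrad s (-e - e) with hl
  -- choice of η
  have hsq : (2 : ℝ) ^ (-s) < (√2) ^ (-s) := by
    apply Real.rpow_lt_rpow_of_neg (by positivity)
    · rw [Real.sqrt_lt' (by norm_num)]; norm_num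
    · linarith
  have hsq1 : (√2) ^ (-s) < 1 := by
    apply Real.rpow_lt_one_of_one_lt_of_neg
    · rw [Real.lt_sqrt (by norm_num)]; norm_num
    · linarith
  have h2s : (0 : ℝ) < 2 ^ (-s) := by positivity
  set η := ((√2) ^ (-s) - 2 ^ (-s)) / 4 with hη
  have hηpos : 0 < η := by rw [hη]; linarith
  have hη1 : η < 1 / 2 := by rw [hη]; linarith
  -- choice of ρ
  have t2 : Tendsto (fun ρ : ℝ => 2 * (1 + 2 * ρ) ^ (-s) + (√2 + 2 * ρ) ^ (-s)) (𝓝[>] 0)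
      (𝓝 (2 * (1 + 2 * 0) ^ (-s) + (√2 + 2 * 0) ^ (-s))) := by
    apply Tendsto.mono_left _ nhdsWithin_le_nhds
    apply ContinuousAt.tendsto
    have h1 : ContinuousAt (fun ρ : ℝ => (1 + 2 * ρ) ^ (-s)) 0 := by
      apply ContinuousAt.rpow_const (by fun_prop)
      left; norm_num
    have h2 : ContinuousAt (fun ρ : ℝ => (√2 + 2 * ρ) ^ (-s)) 0 := by
      apply ContinuousAt.rpow_const (by fun_prop)
      left; simp
    exact (continuousAt_const.mul h1).add h2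
  have ev2 : ∀ᶠ ρ : ℝ in 𝓝[>] 0,
      (2 + 2 ^ (-s)) + 2 * η < 2 * (1 + 2 * ρ) ^ (-s) + (√2 + 2 * ρ) ^ (-s) := by
    apply t2.eventually_const_lt
    simp only [mul_zero, add_zero, Real.one_rpow]
    rw [hη]; linarith
  have ev3 : ∀ᶠ ρ : ℝ in 𝓝[>] 0, 6 * (2 + 2 ^ (-s)) < (2 * ρ) ^ (-s) := by
    have h1 : Tendsto (fun ρ : ℝ => 2 * ρ) (𝓝[>] 0) (𝓝[>] 0) := by
      rw [tendsto_nhdsWithin_iff]
      constructor
      · apply Tendsto.mono_left _ nhdsWithin_le_nhds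
        have : Continuous (fun ρ : ℝ => 2 * ρ) := by fun_prop
        exact this.tendsto' 0 0 (by simp)
      · filter_upwards [self_mem_nhdsWithin] with ρ hρ
        have : (0 : ℝ) < ρ := hρ
        simp [this]
    exact ((tendsto_rpow_neg_nhdsGT_zero (by linarith : -s < 0)).comp h1).eventually_gt_atTop _
  have ev4 : ∀ᶠ ρ : ℝ in 𝓝[>] 0, ∀ b : F, ‖b - e‖ < ρ →
      ‖b‖ ^ (-s) + 1 + ‖b + e‖ ^ (-s) ≤ 2 + 2 ^ (-s) + η := by
    have hc : ContinuousAt (fun b : F => ‖b‖ ^ (-s) + 1 + ‖b + e‖ ^ (-s)) e := by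
      have h1 : ContinuousAt (fun b : F => ‖b‖ ^ (-s)) e := by
        apply ContinuousAt.rpow_const (by fun_prop)
        left; simpa using he0
      have h2 : ContinuousAt (fun b : F => ‖b + e‖ ^ (-s)) e := by
        apply ContinuousAt.rpow_const (by fun_prop)
        left
        rw [← two_smul ℝ e, norm_smul, he]; norm_num
      exact (h1.add continuousAt_const).add h2
    have hval : ‖e‖ ^ (-s) + 1 + ‖e + e‖ ^ (-s) < 2 + 2 ^ (-s) + η := by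
      rw [← two_smul ℝ e, norm_smul, he]
      simp only [Real.one_rpow, Real.norm_ofNat, mul_one]
      linarith
    have h3 := hc.eventually_lt_const hval
    rw [Metric.eventually_nhds_iff] at h3
    obtain ⟨δ, hδ, h⟩ := h3
    filter_upwards [Ioo_mem_nhdsGT hδ] with ρ hρ b hb
    apply le_of_lt
    apply h
    rw [dist_eq_norm]
    exact hb.trans hρ.2
  have ev5 : ∀ᶠ ρ : ℝ in 𝓝[>] 0, ‖l‖ * ρ ≤ η := by
    have h1 : Tendsto (fun ρ : ℝ => ‖l‖ * ρ) (𝓝[>] 0) (𝓝 0) := by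
      apply Tendsto.mono_left _ nhdsWithin_le_nhds
      have : Continuous (fun ρ : ℝ => ‖l‖ * ρ) := by fun_prop
      exact this.tendsto' 0 0 (by simp)
    exact (h1.eventually_lt_const hηpos).mono fun _ h => h.le
  have ev6 : ∀ᶠ ρ : ℝ in 𝓝[>] 0, ρ ≤ 1 / 8 := by
    filter_upwards [Ioo_mem_nhdsGT (by norm_num : (0 : ℝ) < 1 / 8)] with ρ h
    exact h.2.le
  obtain ⟨ρ, ⟨⟨⟨⟨⟨hc2, hc3⟩, hc4⟩, hc5⟩, hc6⟩, hρ0⟩⟩ :=
    (((((ev2.and ev3).and ev4).and ev5).and ev6).and self_mem_nhdsWithin).exists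
  have hρ0' : 0 < ρ := hρ0
  -- choice of r
  have f1 : ∀ᶠ a in 𝓝 (0 : F), a ∈ B.source := B.open_source.mem_nhds hB0
  have f2 : ∀ᶠ a in 𝓝 (0 : F), a ∈ C.source := C.open_source.mem_nhds hC0
  have f3 : ∀ᶠ a in 𝓝 (0 : F), ‖B a - e‖ < ρ := by
    have hc : ContinuousAt (fun a => ‖B a - e‖) 0 :=
      ((B.continuousAt hB0).sub continuousAt_const).norm
    apply hc.eventually_lt_const
    change ‖B 0 - e‖ < ρ
    rw [hBe]; simpa using hρ0'
  have f4 : ∀ᶠ a in 𝓝 (0 : F), ‖C a + e‖ < ρ := by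
    have hc : ContinuousAt (fun a => ‖C a + e‖) 0 :=
      ((C.continuousAt hC0).add continuousAt_const).norm
    apply hc.eventually_lt_const
    change ‖C 0 + e‖ < ρ
    rw [hCe]; simpa using hρ0'
  obtain ⟨δ, hδ, hδall⟩ := Metric.eventually_nhds_iff.mp ((f1.and f2).and (f3.and f4))
  obtain ⟨r, hr0, hrlt⟩ := exists_between (lt_min hδ hρ0')
  have hrδ := (lt_min_iff.mp hrlt).1
  have hall : ∀ a ∈ Metric.closedBall (0 : F) r,
      (a ∈ B.source ∧ a ∈ C.source) ∧ (‖B a - e‖ < ρ ∧ ‖C a + e‖ < ρ) := by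
    intro a ha
    apply hδall
    rw [Metric.mem_closedBall] at ha
    linarith
  exact ⟨{ e := e, R := R, B := B, C := C, ε := ε, r := r, ρ := ρ, η := η, l := l, hs := hs,
           he := he, hR := hR, hRe := hRe, hε := hε, hε1 := hε1', hr := hr0,
           hrρ := (lt_min_iff.mp hrlt).2, hρ := hc6,
           hsB := fun a ha => (hall a ha).1.1, hsC := fun a ha => (hall a ha).1.2,
           hBρ := fun a ha => (hall a ha).2.1, hCρ := fun a ha => (hall a ha).2.2,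
           crit1 := fun a ha => (hcrit a ⟨(hall a ha).1.1, (hall a ha).1.2⟩).1,
           crit2 := fun a ha => (hcrit a ⟨(hall a ha).1.1, (hall a ha).1.2⟩).2,
           B_smooth := hBs, B_symm_smooth := hBs', C_smooth := hCs, C_symm_smooth := hCs',
           hη := hηpos, hη1 := hη1, c2 := hc2, c3 := hc3, c4 := hc4, c5 := hc5 }⟩

theorem exists_cfg_euclidean (d : ℕ) (hd : 2 ≤ d) (s : ℝ) (hs : 0 < s) :
    Nonempty (Cfg (EuclideanSpace ℝ (Fin d)) s) := by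
  let i0 : Fin d := ⟨0, by omega⟩
  let i1 : Fin d := ⟨1, by omega⟩
  have hne : i0 ≠ i1 := by
    intro h
    have := congrArg Fin.val h
    simp [i0, i1] at this
  let R : EuclideanSpace ℝ (Fin d) ≃ₗᵢ[ℝ] EuclideanSpace ℝ (Fin d) :=
    LinearIsometryEquiv.piLpCongrLeft 2 ℝ ℝ (Equiv.swap i0 i1)
  refine exists_cfg hs (EuclideanSpace.single i0 (1 : ℝ)) (by simp) R ?_ ?_
  · intro x
    ext j
    simp [R]
  · have : R (EuclideanSpace.single i0 (1 : ℝ)) = EuclideanSpace.single i1 (1 : ℝ) := by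
      have := LinearIsometryEquiv.piLpCongrLeft_single (p := 2) (𝕜 := ℝ) (Equiv.swap i0 i1) i0 (1 : ℝ)
      simpa [R] using this
    rw [this]
    simp [EuclideanSpace.inner_single_left, hne]

end Crest.Agent.S0175
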