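import Mathlib
import Crest.Agent.S0175_Cfg

set_option autoImplicit false
set_option linter.unusedSectionVars false
open scoped ContDiff Topology
open Filter

namespace Crest.Agent.S0175

namespace Cfg

variable {F : Type*} [NormedAddCommGroup F] [InnerProductSpace ℝ F] {s : ℝ} (K : Cfg F s)

def SA : Set F := Metric.ball 0 K.r
def SB : Set F := K.B '' Metric.ball 0 K.r
def SC : Set F := K.C '' Metric.ball 0 K.r
def SB' : Set F := K.R ⁻¹' K.SB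
def SC' : Set F := K.R ⁻¹' K.SC

/-- the outer clusters -/
def Outer (x : F) : Prop := x ∈ K.SB ∨ x ∈ K.SC ∨ x ∈ K.SB' ∨ x ∈ K.SC'

def S : Set F := {x | x ∈ K.SA ∨ K.Outer x}

noncomputable def g0 (_ : Cfg F s) : ℝ := 2 + 2 ^ (-s)

noncomputable def uA (a : F) : ℝ := 2 * K.g0 - K.ε⁻¹ / 2 * ‖a‖ ^ 2
noncomputable def w0 (c : F) : ℝ := inner ℝ K.l (c + K.e) - K.ε⁻¹ / 2 * ‖c + K.e‖ ^ 2
noncomputable def vB (b : F) : ℝ :=
  ‖K.B.symm b - b‖ ^ (-s) + ‖K.B.symm b - K.C (K.B.symm b)‖ ^ (-s)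
    + ‖K.C (K.B.symm b) - b‖ ^ (-s) + K.ε⁻¹ / 2 * ‖K.B.symm b‖ ^ 2
    - K.w0 (K.C (K.B.symm b)) - 3 / 2 * K.g0
noncomputable def wC (c : F) : ℝ := K.w0 c - K.g0 / 2

open Classical in
noncomputable def U (x : F) : ℝ :=
  if x ∈ K.SA then K.uA x else if x ∈ K.SB then K.vB x else if x ∈ K.SC then K.wC x
  else if K.R x ∈ K.SB then K.vB (K.R x) else if K.R x ∈ K.SC then K.wC (K.R x) else 0

/-- real cost of a triple of distinct points -/
noncomputable def cost3 (_ : Cfg F s) (x y z : F) : ℝ :=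
  ‖x - y‖ ^ (-s) + ‖x - z‖ ^ (-s) + ‖y - z‖ ^ (-s)

def Ct (x y z : F) : Prop :=
  ∃ a ∈ K.SA, (x = a ∧ y = K.B a ∧ z = K.C a) ∨
    (x = K.R a ∧ y = K.R (K.B a) ∧ z = K.R (K.C a))

def Ct6 (x y z : F) : Prop :=
  K.Ct x y z ∨ K.Ct x z y ∨ K.Ct y x z ∨ K.Ct y z x ∨ K.Ct z x y ∨ K.Ct z y x

theorem g0_pos : 2 < K.g0 := by
  have : (0 : ℝ) < 2 ^ (-s) := by positivity
  unfold g0; linarith

theorem hρ0 : 0 < K.ρ := K.hr.trans K.hrρ

theorem norm_Re : ‖K.R K.e‖ = 1 := by rw [K.R.norm_map, K.he]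

theorem nearA {x : F} (hx : x ∈ K.SA) : ‖x‖ < K.ρ := by
  have : ‖x‖ < K.r := by simpa [SA] using hx
  exact this.trans K.hrρ

theorem nearB {x : F} (hx : x ∈ K.SB) : ‖x - K.e‖ < K.ρ := by
  obtain ⟨a, ha, rfl⟩ := hx
  exact K.hBρ a (Metric.ball_subset_closedBall ha)

theorem nearC {x : F} (hx : x ∈ K.SC) : ‖x - (-K.e)‖ < K.ρ := by
  obtain ⟨a, ha, rfl⟩ := hx
  rw [sub_neg_eq_add]
  exact K.hCρ a (Metric.ball_subset_closedBall ha)

theorem nearB' {x : F} (hx : x ∈ K.SB') : ‖x - K.R K.e‖ < K.ρ := by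
  have h := K.nearB hx
  have : x - K.R K.e = K.R (K.R x - K.e) := by rw [map_sub, K.hR]
  rw [this, K.R.norm_map]; exact h

theorem nearC' {x : F} (hx : x ∈ K.SC') : ‖x - (-(K.R K.e))‖ < K.ρ := by
  have h := K.nearC hx
  have : x - (-(K.R K.e)) = K.R (K.R x - (-K.e)) := by rw [map_sub, K.hR, map_neg]
  rw [this, K.R.norm_map]; exact h

theorem norm_e_sub_Re : ‖K.e - K.R K.e‖ = √2 := by
  have h := norm_sub_sq_real K.e (K.R K.e)
  rw [K.hRe, K.he, K.norm_Re] at h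
  rw [← Real.sqrt_sq (norm_nonneg (K.e - K.R K.e)), h]; norm_num

theorem norm_e_add_Re : ‖K.e + K.R K.e‖ = √2 := by
  have h := norm_add_sq_real K.e (K.R K.e)
  rw [K.hRe, K.he, K.norm_Re] at h
  rw [← Real.sqrt_sq (norm_nonneg (K.e + K.R K.e)), h]; norm_num

theorem one_lt_sqrt2 : (1 : ℝ) < √2 := by
  rw [Real.lt_sqrt (by norm_num)]; norm_num

/-- two points near centres at distance at least 1 are different -/
theorem ne_of_near {x y c1 c2 : F} (h1 : ‖x - c1‖ < K.ρ) (h2 : ‖y - c2‖ < K.ρ)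
    (h : 1 ≤ ‖c1 - c2‖) : x ≠ y := by
  rintro rfl
  have h3 : ‖c1 - c2‖ ≤ ‖x - c1‖ + ‖x - c2‖ := by
    have : c1 - c2 = (x - c2) - (x - c1) := by abel
    rw [this]
    have := norm_sub_le (x - c2) (x - c1)
    linarith
  have := K.hρ
  linarith

theorem dist_lower {x y c1 c2 : F} (h1 : ‖x - c1‖ < K.ρ) (h2 : ‖y - c2‖ < K.ρ)
    (h : 1 ≤ ‖c1 - c2‖) : 1 / 2 ≤ ‖x - y‖ := by
  have h3 : ‖c1 - c2‖ ≤ ‖x - y‖ + ‖x - c1‖ + ‖y - c2‖ := by
    have h4 : c1 - c2 = ((x - y) - (x - c1)) + (y - c2) := by abel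
    rw [h4]
    have h5 := norm_add_le ((x - y) - (x - c1)) (y - c2)
    have h6 := norm_sub_le (x - y) (x - c1)
    linarith
  have := K.hρ
  linarith

theorem dist_upper {x y c1 c2 : F} {D : ℝ} (h1 : ‖x - c1‖ < K.ρ) (h2 : ‖y - c2‖ < K.ρ)
    (h : ‖c1 - c2‖ ≤ D) : ‖x - y‖ ≤ D + 2 * K.ρ := by
  have h4 : x - y = ((x - c1) + (c1 - c2)) - (y - c2) := by abel
  rw [h4]
  have h5 := norm_sub_le ((x - c1) + (c1 - c2)) (y - c2)
  have h6 := norm_add_le (x - c1) (c1 - c2)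
  linarith

-- distances between centres
theorem d_0_e : ‖(0 : F) - K.e‖ = 1 := by rw [zero_sub, norm_neg, K.he]
theorem d_0_ne : ‖(0 : F) - (-K.e)‖ = 1 := by rw [zero_sub, neg_neg, K.he]
theorem d_0_Re : ‖(0 : F) - K.R K.e‖ = 1 := by rw [zero_sub, norm_neg, K.norm_Re]
theorem d_0_nRe : ‖(0 : F) - (-(K.R K.e))‖ = 1 := by rw [zero_sub, neg_neg, K.norm_Re]
theorem d_e_ne : ‖K.e - (-K.e)‖ = 2 := by
  rw [sub_neg_eq_add, ← two_smul ℝ K.e, norm_smul, K.he]; norm_num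
theorem d_e_Re : ‖K.e - K.R K.e‖ = √2 := K.norm_e_sub_Re
theorem d_e_nRe : ‖K.e - (-(K.R K.e))‖ = √2 := by rw [sub_neg_eq_add]; exact K.norm_e_add_Re
theorem d_ne_Re : ‖-K.e - K.R K.e‖ = √2 := by
  rw [← norm_neg, neg_sub, sub_neg_eq_add, add_comm]; exact K.norm_e_add_Re
theorem d_ne_nRe : ‖-K.e - (-(K.R K.e))‖ = √2 := by
  rw [← norm_neg, neg_sub, sub_neg_eq_add, neg_add_eq_sub]; exact K.norm_e_sub_Re
theorem d_Re_nRe : ‖K.R K.e - (-(K.R K.e))‖ = 2 := by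
  rw [sub_neg_eq_add, ← two_smul ℝ (K.R K.e), norm_smul, K.norm_Re]; norm_num

theorem nearA0 {x : F} (hx : x ∈ K.SA) : ‖x - 0‖ < K.ρ := by rw [sub_zero]; exact K.nearA hx

theorem not_AB {x : F} (h1 : x ∈ K.SA) (h2 : x ∈ K.SB) : False :=
  K.ne_of_near (K.nearA0 h1) (K.nearB h2) K.d_0_e.ge rfl
theorem not_AC {x : F} (h1 : x ∈ K.SA) (h2 : x ∈ K.SC) : False :=
  K.ne_of_near (K.nearA0 h1) (K.nearC h2) K.d_0_ne.ge rfl
theorem not_AB' {x : F} (h1 : x ∈ K.SA) (h2 : x ∈ K.SB') : False :=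
  K.ne_of_near (K.nearA0 h1) (K.nearB' h2) K.d_0_Re.ge rfl
theorem not_AC' {x : F} (h1 : x ∈ K.SA) (h2 : x ∈ K.SC') : False :=
  K.ne_of_near (K.nearA0 h1) (K.nearC' h2) K.d_0_nRe.ge rfl
theorem not_BC {x : F} (h1 : x ∈ K.SB) (h2 : x ∈ K.SC) : False :=
  K.ne_of_near (K.nearB h1) (K.nearC h2) (by rw [K.d_e_ne]; norm_num) rfl
theorem not_BB' {x : F} (h1 : x ∈ K.SB) (h2 : x ∈ K.SB') : False :=
  K.ne_of_near (K.nearB h1) (K.nearB' h2) (by rw [K.d_e_Re]; exact one_lt_sqrt2.le) rfl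
theorem not_BC' {x : F} (h1 : x ∈ K.SB) (h2 : x ∈ K.SC') : False :=
  K.ne_of_near (K.nearB h1) (K.nearC' h2) (by rw [K.d_e_nRe]; exact one_lt_sqrt2.le) rfl
theorem not_CB' {x : F} (h1 : x ∈ K.SC) (h2 : x ∈ K.SB') : False :=
  K.ne_of_near (K.nearC h1) (K.nearB' h2) (by rw [K.d_ne_Re]; exact one_lt_sqrt2.le) rfl
theorem not_CC' {x : F} (h1 : x ∈ K.SC) (h2 : x ∈ K.SC') : False :=
  K.ne_of_near (K.nearC h1) (K.nearC' h2) (by rw [K.d_ne_nRe]; exact one_lt_sqrt2.le) rfl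
theorem not_B'C' {x : F} (h1 : x ∈ K.SB') (h2 : x ∈ K.SC') : False :=
  K.ne_of_near (K.nearB' h1) (K.nearC' h2) (by rw [K.d_Re_nRe]; norm_num) rfl

theorem U_A {x : F} (hx : x ∈ K.SA) : K.U x = K.uA x := by
  unfold U; rw [if_pos hx]
theorem U_B {x : F} (hx : x ∈ K.SB) : K.U x = K.vB x := by
  unfold U; rw [if_neg (fun h => K.not_AB h hx), if_pos hx]
theorem U_C {x : F} (hx : x ∈ K.SC) : K.U x = K.wC x := by
  unfold U
  rw [if_neg (fun h => K.not_AC h hx), if_neg (fun h => K.not_BC h hx), if_pos hx]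
theorem U_B' {x : F} (hx : x ∈ K.SB') : K.U x = K.vB (K.R x) := by
  unfold U
  rw [if_neg (fun h => K.not_AB' h hx), if_neg (fun h => K.not_BB' h hx),
    if_neg (fun h => K.not_CB' h hx), if_pos (show K.R x ∈ K.SB from hx)]
theorem U_C' {x : F} (hx : x ∈ K.SC') : K.U x = K.wC (K.R x) := by
  have hx' : K.R x ∈ K.SC := hx
  unfold U
  rw [if_neg (fun h => K.not_AC' h hx), if_neg (fun h => K.not_BC' h hx),
    if_neg (fun h => K.not_CC' h hx), if_neg (fun h => K.not_BC h hx'), if_pos hx']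

theorem R_mem_SA {x : F} (hx : x ∈ K.SA) : K.R x ∈ K.SA := by
  simpa [SA] using hx

theorem B_symm_B {a : F} (ha : a ∈ K.SA) : K.B.symm (K.B a) = a :=
  K.B.left_inv (K.hsB (Metric.ball_subset_closedBall ha))
theorem C_symm_C {a : F} (ha : a ∈ K.SA) : K.C.symm (K.C a) = a :=
  K.C.left_inv (K.hsC (Metric.ball_subset_closedBall ha))

/-- The main inequality for a triple `(a', b, c')`. -/
theorem main_lt {a b : F} (ha : a ∈ K.SA) (hb : b = K.B a) {a' c' : F} (h1 : a' ≠ b)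
    (h2 : a' ≠ c') (h3 : c' ≠ b) (hne : ¬ (a' = a ∧ c' = K.C a)) :
    K.vB b + 3 / 2 * K.g0 < K.cost3 a' b c' + K.ε⁻¹ / 2 * ‖a'‖ ^ 2 - K.w0 c' := by
  have hbs : K.B.symm b = a := by rw [hb]; exact K.B_symm_B ha
  have hac := Metric.ball_subset_closedBall ha
  have hBm : K.B a ∈ K.SB := ⟨a, ha, rfl⟩
  have hCm : K.C a ∈ K.SC := ⟨a, ha, rfl⟩
  have hmain := main_ineq K.hs K.hε K.hε1 (K.crit1 a hac) (K.crit2 a hac)
    (K.dist_lower (K.nearA0 ha) (K.nearB hBm) K.d_0_e.ge)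
    (K.dist_lower (K.nearA0 ha) (K.nearC hCm) K.d_0_ne.ge)
    (K.dist_lower (K.nearC hCm) (K.nearB hBm) (by
      rw [← norm_neg, neg_sub, K.d_e_ne]; norm_num))
    (a' := a') (c' := c') (by rw [← hb]; exact h1) h2 (by rw [← hb]; exact h3) hne
  unfold vB cost3 w0
  rw [hbs, hb]
  rw [← norm_neg (K.B a - c'), neg_sub]
  linarith

theorem main_eq {a : F} (ha : a ∈ K.SA) :
    K.vB (K.B a) + 3 / 2 * K.g0 = K.cost3 a (K.B a) (K.C a) + K.ε⁻¹ / 2 * ‖a‖ ^ 2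
      - K.w0 (K.C a) := by
  unfold vB cost3
  rw [K.B_symm_B ha, ← norm_neg (K.B a - K.C a), neg_sub]
  ring

theorem sum_eq {a : F} (ha : a ∈ K.SA) :
    K.uA a + K.vB (K.B a) + K.wC (K.C a) = K.cost3 a (K.B a) (K.C a) := by
  have := K.main_eq ha
  unfold uA wC
  linarith

theorem sum_lt {a' b c' : F} (hb : b ∈ K.SB) (h1 : a' ≠ b) (h2 : a' ≠ c') (h3 : c' ≠ b)
    (hne : ¬ ∃ a ∈ K.SA, a' = a ∧ b = K.B a ∧ c' = K.C a) :
    K.uA a' + K.vB b + K.wC c' < K.cost3 a' b c' := by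
  obtain ⟨a, ha, hab⟩ := hb
  have := K.main_lt ha hab.symm h1 h2 h3 (fun h => hne ⟨a, ha, h.1, hab.symm, h.2⟩)
  unfold uA wC
  linarith

theorem cost3_R (x y z : F) : K.cost3 (K.R x) (K.R y) (K.R z) = K.cost3 x y z := by
  unfold cost3
  rw [← map_sub, ← map_sub, ← map_sub, K.R.norm_map, K.R.norm_map, K.R.norm_map]

theorem uA_R (x : F) : K.uA (K.R x) = K.uA x := by
  unfold uA; rw [K.R.norm_map]

theorem vB_le {b : F} (hb : b ∈ K.SB) : K.vB b ≤ -(K.g0 / 2) + K.η := by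
  have hb0 := K.nearB hb
  obtain ⟨a, ha, hab⟩ := hb
  have hBm : b ∈ K.SB := ⟨a, ha, hab⟩
  have hc4 := K.c4 b hb0
  have hz : ‖(0 : F) - 0‖ < K.ρ := by simpa using K.hρ0
  have he : ‖-K.e - (-K.e)‖ < K.ρ := by simpa using K.hρ0
  have n1 : (0 : F) ≠ b := K.ne_of_near hz hb0 K.d_0_e.ge
  have n2 : (0 : F) ≠ -K.e := K.ne_of_near hz he K.d_0_ne.ge
  have n3 : -K.e ≠ b := K.ne_of_near he hb0 (by rw [← norm_neg, neg_sub, K.d_e_ne]; norm_num)
  have hval : K.cost3 0 b (-K.e) + K.ε⁻¹ / 2 * ‖(0 : F)‖ ^ 2 - K.w0 (-K.e)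
      = ‖b‖ ^ (-s) + 1 + ‖b + K.e‖ ^ (-s) := by
    unfold cost3 w0
    simp [K.he]
  by_cases h : (0 : F) = a ∧ -K.e = K.C a
  · have := K.main_eq ha
    rw [← h.2, ← h.1] at this
    rw [← h.1] at hab
    rw [hab, hval] at this
    unfold g0 at *
    linarith
  · have := K.main_lt ha hab.symm n1 n2 n3 h
    rw [hval] at this
    unfold g0 at *
    linarith

theorem wC_le {c : F} (hc : c ∈ K.SC) : K.wC c ≤ -(K.g0 / 2) + K.η := by
  have h1 := K.nearC hc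
  rw [sub_neg_eq_add] at h1
  have h2 : inner ℝ K.l (c + K.e) ≤ ‖K.l‖ * ‖c + K.e‖ := real_inner_le_norm _ _
  have h3 : ‖K.l‖ * ‖c + K.e‖ ≤ ‖K.l‖ * K.ρ := by gcongr
  have h4 := K.c5
  have h5 : 0 ≤ K.ε⁻¹ / 2 * ‖c + K.e‖ ^ 2 := by
    have := K.hε
    positivity
  unfold wC w0
  linarith

theorem U_outer_le {x : F} (hx : K.Outer x) : K.U x ≤ -(K.g0 / 2) + K.η := by
  rcases hx with h | h | h | h
  · rw [K.U_B h]; exact K.vB_le h
  · rw [K.U_C h]; exact K.wC_le h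
  · rw [K.U_B' h]; exact K.vB_le h
  · rw [K.U_C' h]; exact K.wC_le h

theorem U_A_le {x : F} (hx : x ∈ K.SA) : K.U x ≤ 2 * K.g0 := by
  rw [K.U_A hx]
  unfold uA
  have := K.hε
  have : 0 ≤ K.ε⁻¹ / 2 * ‖x‖ ^ 2 := by positivity
  linarith

theorem U_le {x : F} (hx : x ∈ K.S) : K.U x ≤ 2 * K.g0 := by
  rcases hx with h | h
  · exact K.U_A_le h
  · have := K.U_outer_le h
    have := K.g0_pos
    have := K.hη1
    linarith

theorem rpow_nonneg' (x : F) : 0 ≤ ‖x‖ ^ (-s) := Real.rpow_nonneg (norm_nonneg _) _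

theorem cost3_nonneg (x y z : F) : 0 ≤ K.cost3 x y z := by
  have h1 : 0 ≤ ‖x - y‖ ^ (-s) := Real.rpow_nonneg (norm_nonneg _) _
  have h2 : 0 ≤ ‖x - z‖ ^ (-s) := Real.rpow_nonneg (norm_nonneg _) _
  have h3 : 0 ≤ ‖y - z‖ ^ (-s) := Real.rpow_nonneg (norm_nonneg _) _
  unfold cost3
  linarith

include K in
theorem rpow_lower {x y : F} (hne : x ≠ y) {D : ℝ} (h : ‖x - y‖ ≤ D) : D ^ (-s) ≤ ‖x - y‖ ^ (-s) :=
  Real.rpow_le_rpow_of_nonpos (norm_pos_iff.mpr (sub_ne_zero.mpr hne)) h (by linarith [K.hs])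

/-- two points of the central cluster -/
theorem pair_AA {x y : F} (hx : x ∈ K.SA) (hy : y ∈ K.SA) (hne : x ≠ y) :
    6 * K.g0 < ‖x - y‖ ^ (-s) := by
  have h1 : ‖x - y‖ ≤ 2 * K.ρ := by
    have := K.dist_upper (D := 0) (K.nearA0 hx) (K.nearA0 hy) (by simp)
    linarith
  exact K.c3.trans_le (K.rpow_lower hne h1)

theorem cost3_comm12 (x y z : F) : K.cost3 x y z = K.cost3 y x z := by
  unfold cost3
  rw [← norm_neg (x - y), neg_sub]; ring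
theorem cost3_comm23 (x y z : F) : K.cost3 x y z = K.cost3 x z y := by
  unfold cost3
  rw [← norm_neg (y - z), neg_sub]; ring

theorem AA_lt {x y z : F} (hx : x ∈ K.SA) (hy : y ∈ K.SA) (hz : z ∈ K.S) (hne : x ≠ y) :
    K.U x + K.U y + K.U z < K.cost3 x y z := by
  have h1 := K.pair_AA hx hy hne
  have h2 := K.U_A_le hx
  have h3 := K.U_A_le hy
  have h4 := K.U_le hz
  have h5 : 0 ≤ ‖x - z‖ ^ (-s) := Real.rpow_nonneg (norm_nonneg _) _
  have h6 : 0 ≤ ‖y - z‖ ^ (-s) := Real.rpow_nonneg (norm_nonneg _) _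
  unfold cost3
  linarith

theorem OOO_lt {x y z : F} (hx : K.Outer x) (hy : K.Outer y) (hz : K.Outer z) :
    K.U x + K.U y + K.U z < K.cost3 x y z := by
  have h1 := K.U_outer_le hx
  have h2 := K.U_outer_le hy
  have h3 := K.U_outer_le hz
  have h4 := K.cost3_nonneg x y z
  have h5 := K.g0_pos
  have h6 := K.hη1
  linarith

theorem exists_center {y : F} (hy : K.Outer y) : ∃ c : F, ‖y - c‖ < K.ρ ∧ ‖(0 : F) - c‖ = 1 := by
  rcases hy with h | h | h | h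
  · exact ⟨_, K.nearB h, K.d_0_e⟩
  · exact ⟨_, K.nearC h, K.d_0_ne⟩
  · exact ⟨_, K.nearB' h, K.d_0_Re⟩
  · exact ⟨_, K.nearC' h, K.d_0_nRe⟩

theorem ne_AO {x y : F} (hx : x ∈ K.SA) (hy : K.Outer y) : x ≠ y := by
  obtain ⟨c, hc, h0⟩ := K.exists_center hy
  exact K.ne_of_near (K.nearA0 hx) hc h0.ge

theorem rpow_AO {x y : F} (hx : x ∈ K.SA) (hy : K.Outer y) :
    (1 + 2 * K.ρ) ^ (-s) ≤ ‖x - y‖ ^ (-s) := by
  obtain ⟨c, hc, h0⟩ := K.exists_center hy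
  exact K.rpow_lower (K.ne_AO hx hy) (K.dist_upper (K.nearA0 hx) hc h0.le)

/-- adjacent (or equal) outer clusters: strict inequality -/
theorem adj_lt {x y z : F} (hx : x ∈ K.SA) (hy : K.Outer y) (hz : K.Outer z) (hne : y ≠ z)
    {c1 c2 : F} (h1 : ‖y - c1‖ < K.ρ) (h2 : ‖z - c2‖ < K.ρ) (h : ‖c1 - c2‖ ≤ √2) :
    K.U x + K.U y + K.U z < K.cost3 x y z := by
  have a1 := K.rpow_AO hx hy
  have a2 := K.rpow_AO hx hz
  have a3 := K.rpow_lower hne (K.dist_upper h1 h2 h)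
  have a4 := K.U_A_le hx
  have a5 := K.U_outer_le hy
  have a6 := K.U_outer_le hz
  have a7 := K.c2
  unfold cost3
  have : K.g0 = 2 + 2 ^ (-s) := rfl
  linarith

theorem opp1 {x y z : F} (hx : x ∈ K.SA) (hy : y ∈ K.SB) (hz : z ∈ K.SC) :
    K.U x + K.U y + K.U z ≤ K.cost3 x y z ∧
      (K.U x + K.U y + K.U z = K.cost3 x y z → K.Ct x y z) := by
  rw [K.U_A hx, K.U_B hy, K.U_C hz]
  by_cases h : ∃ a ∈ K.SA, x = a ∧ y = K.B a ∧ z = K.C a
  · obtain ⟨a, ha, rfl, rfl, rfl⟩ := h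
    exact ⟨(K.sum_eq ha).le, fun _ => ⟨x, ha, Or.inl ⟨rfl, rfl, rfl⟩⟩⟩
  · have := K.sum_lt hy (K.ne_AO hx (Or.inl hy)) (K.ne_AO hx (Or.inr (Or.inl hz)))
      (fun h' => K.not_BC hy (h' ▸ hz)) h
    exact ⟨this.le, fun h' => absurd h' this.ne⟩

theorem opp2 {x y z : F} (hx : x ∈ K.SA) (hy : y ∈ K.SB') (hz : z ∈ K.SC') :
    K.U x + K.U y + K.U z ≤ K.cost3 x y z ∧
      (K.U x + K.U y + K.U z = K.cost3 x y z → K.Ct x y z) := by
  have hx' := K.R_mem_SA hx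
  rw [K.U_A hx, K.U_B' hy, K.U_C' hz, ← K.uA_R, ← K.cost3_R]
  by_cases h : ∃ a ∈ K.SA, K.R x = a ∧ K.R y = K.B a ∧ K.R z = K.C a
  · obtain ⟨a, ha, h1, h2, h3⟩ := h
    rw [h1, h2, h3]
    refine ⟨(K.sum_eq ha).le, fun _ => ⟨a, ha, Or.inr ⟨?_, ?_, ?_⟩⟩⟩
    · rw [← h1, K.hR]
    · rw [← h2, K.hR]
    · rw [← h3, K.hR]
  · have hy' : K.R y ∈ K.SB := hy
    have hz' : K.R z ∈ K.SC := hz
    have := K.sum_lt hy' (K.ne_AO hx' (Or.inl hy')) (K.ne_AO hx' (Or.inr (Or.inl hz')))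
      (fun h' => K.not_BC hy' (h' ▸ hz')) h
    exact ⟨this.le, fun h' => absurd h' this.ne⟩

theorem AOO {x y z : F} (hx : x ∈ K.SA) (hy : K.Outer y) (hz : K.Outer z) (hne : y ≠ z) :
    K.U x + K.U y + K.U z ≤ K.cost3 x y z ∧
      (K.U x + K.U y + K.U z = K.cost3 x y z → K.Ct x y z ∨ K.Ct x z y) := by
  have strict : ∀ {c1 c2 : F}, ‖y - c1‖ < K.ρ → ‖z - c2‖ < K.ρ → ‖c1 - c2‖ ≤ √2 →
      K.U x + K.U y + K.U z ≤ K.cost3 x y z ∧
      (K.U x + K.U y + K.U z = K.cost3 x y z → K.Ct x y z ∨ K.Ct x z y) := by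
    intro c1 c2 h1 h2 h3
    have := K.adj_lt hx hy hz hne h1 h2 h3
    exact ⟨this.le, fun h' => absurd h' this.ne⟩
  have swap : (K.U x + K.U z + K.U y ≤ K.cost3 x z y ∧
      (K.U x + K.U z + K.U y = K.cost3 x z y → K.Ct x z y)) →
      K.U x + K.U y + K.U z ≤ K.cost3 x y z ∧
      (K.U x + K.U y + K.U z = K.cost3 x y z → K.Ct x y z ∨ K.Ct x z y) := by
    intro h
    have h1 : K.U x + K.U y + K.U z = K.U x + K.U z + K.U y := by ring
    rw [h1, K.cost3_comm23]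
    exact ⟨h.1, fun h' => Or.inr (h.2 h')⟩
  have direct : (K.U x + K.U y + K.U z ≤ K.cost3 x y z ∧
      (K.U x + K.U y + K.U z = K.cost3 x y z → K.Ct x y z)) →
      K.U x + K.U y + K.U z ≤ K.cost3 x y z ∧
      (K.U x + K.U y + K.U z = K.cost3 x y z → K.Ct x y z ∨ K.Ct x z y) :=
    fun h => ⟨h.1, fun h' => Or.inl (h.2 h')⟩
  have s2 : (0 : ℝ) ≤ √2 := Real.sqrt_nonneg 2
  rcases hy with hy | hy | hy | hy <;> rcases hz with hz | hz | hz | hz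
  · exact strict (K.nearB hy) (K.nearB hz) (by simp)
  · exact direct (K.opp1 hx hy hz)
  · exact strict (K.nearB hy) (K.nearB' hz) K.d_e_Re.le
  · exact strict (K.nearB hy) (K.nearC' hz) K.d_e_nRe.le
  · exact swap (K.opp1 hx hz hy)
  · exact strict (K.nearC hy) (K.nearC hz) (by simp)
  · exact strict (K.nearC hy) (K.nearB' hz) K.d_ne_Re.le
  · exact strict (K.nearC hy) (K.nearC' hz) K.d_ne_nRe.le
  · exact strict (K.nearB' hy) (K.nearB hz) (by rw [← norm_neg, neg_sub]; exact K.d_e_Re.le)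
  · exact strict (K.nearB' hy) (K.nearC hz) (by rw [← norm_neg, neg_sub]; exact K.d_ne_Re.le)
  · exact strict (K.nearB' hy) (K.nearB' hz) (by simp)
  · exact direct (K.opp2 hx hy hz)
  · exact strict (K.nearC' hy) (K.nearB hz) (by rw [← norm_neg, neg_sub]; exact K.d_e_nRe.le)
  · exact strict (K.nearC' hy) (K.nearC hz) (by rw [← norm_neg, neg_sub]; exact K.d_ne_nRe.le)
  · exact swap (K.opp2 hx hz hy)
  · exact strict (K.nearC' hy) (K.nearC' hz) (by simp)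

/-- The key duality inequality with its equality case. -/
theorem key {x y z : F} (hx : x ∈ K.S) (hy : y ∈ K.S) (hz : z ∈ K.S) (hxy : x ≠ y)
    (hxz : x ≠ z) (hyz : y ≠ z) :
    K.U x + K.U y + K.U z ≤ K.cost3 x y z ∧
      (K.U x + K.U y + K.U z = K.cost3 x y z → K.Ct6 x y z) := by
  have strict : K.U x + K.U y + K.U z < K.cost3 x y z →
      K.U x + K.U y + K.U z ≤ K.cost3 x y z ∧
      (K.U x + K.U y + K.U z = K.cost3 x y z → K.Ct6 x y z) :=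
    fun h => ⟨h.le, fun h' => absurd h' h.ne⟩
  rcases hx with hx | hx <;> rcases hy with hy | hy <;> rcases hz with hz | hz
  · exact strict (K.AA_lt hx hy (Or.inl hz) hxy)
  · exact strict (K.AA_lt hx hy (Or.inr hz) hxy)
  · apply strict
    have := K.AA_lt hx hz (Or.inr hy) hxz
    rw [K.cost3_comm23]; linarith
  · have := K.AOO hx hy hz hyz
    refine ⟨this.1, fun h => ?_⟩
    rcases this.2 h with h | h
    · exact Or.inl h
    · exact Or.inr (Or.inl h)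
  · apply strict
    have := K.AA_lt hy hz (Or.inr hx) hyz
    rw [K.cost3_comm12, K.cost3_comm23]; linarith
  · have := K.AOO hy hx hz hxz
    have e1 : K.U x + K.U y + K.U z = K.U y + K.U x + K.U z := by ring
    rw [e1, K.cost3_comm12]
    refine ⟨this.1, fun h => ?_⟩
    rcases this.2 h with h | h
    · exact Or.inr (Or.inr (Or.inl h))
    · exact Or.inr (Or.inr (Or.inr (Or.inl h)))
  · have := K.AOO hz hx hy hxy
    have e1 : K.U x + K.U y + K.U z = K.U z + K.U x + K.U y := by ring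
    rw [e1, K.cost3_comm23, K.cost3_comm12]
    refine ⟨this.1, fun h => ?_⟩
    rcases this.2 h with h | h
    · exact Or.inr (Or.inr (Or.inr (Or.inr (Or.inl h))))
    · exact Or.inr (Or.inr (Or.inr (Or.inr (Or.inr h))))
  · exact strict (K.OOO_lt hx hy hz)

end Cfg

end Crest.Agent.S0175
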