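import Mathlib
import Crest.Agent.S0175_Pot
import Crest.Prelude.Def_MultiMarginal

set_option autoImplicit false
set_option linter.unusedSectionVars false
open MeasureTheory Crest.AnalysisR.OT
open scoped ENNReal ContDiff Topology
open Filter

namespace Crest.Agent.S0175

namespace Cfg

variable {F : Type*} [NormedAddCommGroup F] [InnerProductSpace ℝ F] [FiniteDimensional ℝ F]
  [MeasurableSpace F] [BorelSpace F] {s : ℝ} (K : Cfg F s)

theorem ball_sub_B : Metric.ball (0 : F) K.r ⊆ K.B.source :=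
  Metric.ball_subset_closedBall.trans K.hsB
theorem ball_sub_C : Metric.ball (0 : F) K.r ⊆ K.C.source :=
  Metric.ball_subset_closedBall.trans K.hsC

theorem isOpen_SA : IsOpen K.SA := Metric.isOpen_ball
theorem isOpen_SB : IsOpen K.SB := K.B.isOpen_image_of_subset_source Metric.isOpen_ball K.ball_sub_B
theorem isOpen_SC : IsOpen K.SC := K.C.isOpen_image_of_subset_source Metric.isOpen_ball K.ball_sub_C
theorem meas_SA : MeasurableSet K.SA := K.isOpen_SA.measurableSet
theorem meas_SB : MeasurableSet K.SB := K.isOpen_SB.measurableSet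
theorem meas_SC : MeasurableSet K.SC := K.isOpen_SC.measurableSet
theorem meas_R : Measurable K.R := K.R.continuous.measurable
theorem meas_SB' : MeasurableSet K.SB' := K.meas_R K.meas_SB
theorem meas_SC' : MeasurableSet K.SC' := K.meas_R K.meas_SC

open Classical in
/-- measurable total versions of the maps -/
noncomputable def bt (a : F) : F := if a ∈ K.SA then K.B a else 0
open Classical in
noncomputable def ct (a : F) : F := if a ∈ K.SA then K.C a else 0
open Classical in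
noncomputable def bi (y : F) : F := if y ∈ K.SB then K.B.symm y else 0
open Classical in
noncomputable def ci (y : F) : F := if y ∈ K.SC then K.C.symm y else 0

theorem meas_bt : Measurable K.bt := by
  classical
  exact ContinuousOn.measurable_piecewise (s := K.SA) (g := fun _ => (0 : F))
    (K.B.continuousOn.mono K.ball_sub_B) continuousOn_const K.meas_SA
theorem meas_ct : Measurable K.ct := by
  classical
  exact ContinuousOn.measurable_piecewise (s := K.SA) (g := fun _ => (0 : F))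
    (K.C.continuousOn.mono K.ball_sub_C) continuousOn_const K.meas_SA

theorem SB_sub : K.SB ⊆ K.B.target := by
  rintro _ ⟨a, ha, rfl⟩
  exact K.B.map_source (K.ball_sub_B ha)
theorem SC_sub : K.SC ⊆ K.C.target := by
  rintro _ ⟨a, ha, rfl⟩
  exact K.C.map_source (K.ball_sub_C ha)

theorem meas_bi : Measurable K.bi := by
  classical
  exact ContinuousOn.measurable_piecewise (s := K.SB) (g := fun _ => (0 : F))
    (K.B.continuousOn_symm.mono K.SB_sub) continuousOn_const K.meas_SB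
theorem meas_ci : Measurable K.ci := by
  classical
  exact ContinuousOn.measurable_piecewise (s := K.SC) (g := fun _ => (0 : F))
    (K.C.continuousOn_symm.mono K.SC_sub) continuousOn_const K.meas_SC

theorem bt_eq {a : F} (ha : a ∈ K.SA) : K.bt a = K.B a := if_pos ha
theorem ct_eq {a : F} (ha : a ∈ K.SA) : K.ct a = K.C a := if_pos ha
theorem bt_mem {a : F} (ha : a ∈ K.SA) : K.bt a ∈ K.SB := by
  rw [K.bt_eq ha]; exact ⟨a, ha, rfl⟩
theorem ct_mem {a : F} (ha : a ∈ K.SA) : K.ct a ∈ K.SC := by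
  rw [K.ct_eq ha]; exact ⟨a, ha, rfl⟩
theorem bi_bt {a : F} (ha : a ∈ K.SA) : K.bi (K.bt a) = a := by
  unfold bi
  rw [if_pos (K.bt_mem ha), K.bt_eq ha, K.B_symm_B ha]
theorem ci_ct {a : F} (ha : a ∈ K.SA) : K.ci (K.ct a) = a := by
  unfold ci
  rw [if_pos (K.ct_mem ha), K.ct_eq ha, K.C_symm_C ha]

theorem R_bt_mem {a : F} (ha : a ∈ K.SA) : K.R (K.bt a) ∈ K.SB' := by
  change K.R (K.R (K.bt a)) ∈ K.SB
  rw [K.hR]; exact K.bt_mem ha
theorem R_ct_mem {a : F} (ha : a ∈ K.SA) : K.R (K.ct a) ∈ K.SC' := by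
  change K.R (K.R (K.ct a)) ∈ K.SC
  rw [K.hR]; exact K.ct_mem ha

/-- measurable version of vB -/
noncomputable def vBm (b : F) : ℝ :=
  ‖K.bi b - b‖ ^ (-s) + ‖K.bi b - K.ct (K.bi b)‖ ^ (-s)
    + ‖K.ct (K.bi b) - b‖ ^ (-s) + K.ε⁻¹ / 2 * ‖K.bi b‖ ^ 2
    - K.w0 (K.ct (K.bi b)) - 3 / 2 * K.g0

theorem vBm_eq {b : F} (hb : b ∈ K.SB) : K.vBm b = K.vB b := by
  obtain ⟨a, ha, rfl⟩ := hb
  have ha' : a ∈ K.SA := ha
  have h1 : K.B a = K.bt a := (K.bt_eq ha').symm
  unfold vBm vB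
  rw [K.B_symm_B ha', h1, K.bi_bt ha', K.ct_eq ha']

theorem meas_w0 : Measurable K.w0 := by
  unfold w0
  fun_prop

theorem meas_vBm : Measurable K.vBm := by
  have h1 := K.meas_bi
  have h2 := K.meas_ct
  have h3 := K.meas_w0
  have h4 : Measurable (fun b => K.ct (K.bi b)) := h2.comp h1
  have h5 : Measurable (fun b => K.w0 (K.ct (K.bi b))) := h3.comp h4
  unfold vBm
  fun_prop

theorem meas_U : Measurable K.U := by
  classical
  have h : K.U = fun x => if x ∈ K.SA then K.uA x else if x ∈ K.SB then K.vBm x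
      else if x ∈ K.SC then K.wC x
      else if x ∈ K.SB' then K.vBm (K.R x) else if x ∈ K.SC' then K.wC (K.R x) else 0 := by
    funext x
    unfold U
    by_cases h1 : x ∈ K.SA
    · simp [h1]
    by_cases h2 : x ∈ K.SB
    · simp [h1, h2, K.vBm_eq h2]
    by_cases h3 : x ∈ K.SC
    · simp [h1, h2, h3]
    by_cases h4 : K.R x ∈ K.SB
    · have h4' : x ∈ K.SB' := h4
      simp [h1, h2, h3, h4, h4', K.vBm_eq h4]
    have h4' : x ∉ K.SB' := h4
    by_cases h5 : K.R x ∈ K.SC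
    · have h5' : x ∈ K.SC' := h5
      simp [h1, h2, h3, h4, h4', h5, h5']
    have h5' : x ∉ K.SC' := h5
    simp [h1, h2, h3, h4, h4', h5, h5']
  rw [h]
  have hu : Measurable K.uA := by unfold uA; fun_prop
  have hw : Measurable K.wC := by
    have := K.meas_w0
    unfold wC; fun_prop
  have hR := K.meas_R
  refine Measurable.ite K.meas_SA hu (Measurable.ite K.meas_SB K.meas_vBm
    (Measurable.ite K.meas_SC hw (Measurable.ite K.meas_SB' (K.meas_vBm.comp hR)
      (Measurable.ite K.meas_SC' (hw.comp hR) measurable_const))))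

noncomputable def N : ℝ := K.ε⁻¹ + 2 * K.g0 + 1

theorem U_ge {x : F} (hx : x ∈ K.S) : 0 ≤ K.U x + K.N := by
  have hε : 0 < K.ε⁻¹ := inv_pos.mpr K.hε
  have hg := K.g0_pos
  have hη := K.hη1
  have hρ := K.hρ
  have hρ0 := K.hρ0
  have hw : ∀ c ∈ K.SC, K.w0 c ≤ K.η := by
    intro c hc
    have h1 := K.wC_le hc
    unfold wC at h1
    linarith
  have hw' : ∀ c ∈ K.SC, -K.η - K.ε⁻¹ / 2 ≤ K.w0 c := by
    intro c hc
    have h1 := K.nearC hc
    rw [sub_neg_eq_add] at h1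
    have h2 : -(‖K.l‖ * ‖c + K.e‖) ≤ inner ℝ K.l (c + K.e) :=
      (abs_le.mp (abs_real_inner_le_norm K.l (c + K.e))).1
    have h3 : ‖K.l‖ * ‖c + K.e‖ ≤ ‖K.l‖ * K.ρ := by gcongr
    have h4 := K.c5
    have h5 : ‖c + K.e‖ ^ 2 ≤ 1 := by
      have : ‖c + K.e‖ ≤ 1 := by linarith
      exact pow_le_one₀ (norm_nonneg _) this
    have h6 : K.ε⁻¹ / 2 * ‖c + K.e‖ ^ 2 ≤ K.ε⁻¹ / 2 * 1 := by gcongr
    unfold w0
    linarith
  have hv : ∀ b ∈ K.SB, -K.η - 3 / 2 * K.g0 ≤ K.vB b := by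
    rintro b ⟨a, ha, rfl⟩
    have ha' : a ∈ K.SA := ha
    have h1 : K.w0 (K.C a) ≤ K.η := hw _ ⟨a, ha, rfl⟩
    unfold vB
    rw [K.B_symm_B ha']
    have h2 := K.cost3_nonneg a (K.B a) (K.C a)
    unfold cost3 at h2
    rw [← norm_neg (K.B a - K.C a), neg_sub] at h2
    have h3 : 0 ≤ K.ε⁻¹ / 2 * ‖a‖ ^ 2 := by positivity
    linarith
  unfold N
  rcases hx with h | h | h | h | h
  · rw [K.U_A h]
    unfold uA
    have h1 := K.nearA h
    have h5 : ‖x‖ ^ 2 ≤ 1 := by
      have : ‖x‖ ≤ 1 := by linarith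
      exact pow_le_one₀ (norm_nonneg _) this
    have h6 : K.ε⁻¹ / 2 * ‖x‖ ^ 2 ≤ K.ε⁻¹ / 2 * 1 := by gcongr
    linarith
  · rw [K.U_B h]
    have := hv x h
    linarith
  · rw [K.U_C h]
    have := hw' x h
    unfold wC
    linarith
  · rw [K.U_B' h]
    have := hv _ h
    linarith
  · rw [K.U_C' h]
    have := hw' _ h
    unfold wC
    linarith

theorem N_pos : 0 < K.N := by
  have hε : 0 < K.ε⁻¹ := inv_pos.mpr K.hε
  have hg := K.g0_pos
  unfold N; linarith

/-- The ENNReal potential. -/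
noncomputable def V (x : F) : ℝ≥0∞ := ENNReal.ofReal (K.U x + K.N)

theorem meas_V : Measurable K.V := by
  have := K.meas_U
  unfold V
  fun_prop

theorem V_lt_top (x : F) : K.V x < ⊤ := ENNReal.ofReal_lt_top

theorem V_le {x : F} (hx : x ∈ K.S) : K.V x ≤ ENNReal.ofReal (2 * K.g0 + K.N) := by
  unfold V
  apply ENNReal.ofReal_le_ofReal
  have := K.U_le hx
  linarith

include K in
theorem pairCost_ne {x y : F} (h : x ≠ y) : pairCost s x y = ENNReal.ofReal (‖x - y‖ ^ (-s)) := by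
  unfold pairCost
  rw [ENNReal.ofReal_rpow_of_pos (norm_pos_iff.mpr (sub_ne_zero.mpr h))]

include K in
theorem pairCost_self (x : F) : pairCost s x x = ⊤ := by
  unfold pairCost
  rw [sub_self, norm_zero, ENNReal.ofReal_zero]
  exact ENNReal.zero_rpow_of_neg (by linarith [K.hs])

theorem pairCost_comm (x y : F) : pairCost s x y = pairCost s y x := by
  unfold pairCost
  rw [← norm_neg, neg_sub]

theorem tripleCost_comm12 (x y z : F) : tripleCost s (x, y, z) = tripleCost s (y, x, z) := by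
  simp only [tripleCost]
  rw [pairCost_comm x y]; ring
theorem tripleCost_comm23 (x y z : F) : tripleCost s (x, y, z) = tripleCost s (x, z, y) := by
  simp only [tripleCost]
  rw [pairCost_comm y z]; ring

theorem tripleCost_R (x y z : F) :
    tripleCost s (K.R x, K.R y, K.R z) = tripleCost s (x, y, z) := by
  simp only [tripleCost, pairCost]
  rw [← map_sub, ← map_sub, ← map_sub, K.R.norm_map, K.R.norm_map, K.R.norm_map]

theorem tripleCost_distinct {x y z : F} (h1 : x ≠ y) (h2 : x ≠ z) (h3 : y ≠ z) :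
    tripleCost s (x, y, z) = ENNReal.ofReal (K.cost3 x y z) := by
  simp only [tripleCost]
  rw [K.pairCost_ne h1, K.pairCost_ne h2, K.pairCost_ne h3]
  unfold cost3
  rw [ENNReal.ofReal_add, ENNReal.ofReal_add]
  · exact Real.rpow_nonneg (norm_nonneg _) _
  · exact Real.rpow_nonneg (norm_nonneg _) _
  · exact add_nonneg (Real.rpow_nonneg (norm_nonneg _) _) (Real.rpow_nonneg (norm_nonneg _) _)
  · exact Real.rpow_nonneg (norm_nonneg _) _

include K in
theorem tripleCost_top {x y z : F} (h : ¬ (x ≠ y ∧ x ≠ z ∧ y ≠ z)) :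
    tripleCost s (x, y, z) = ⊤ := by
  simp only [tripleCost]
  by_cases h1 : x = y
  · subst h1; rw [K.pairCost_self]; simp
  by_cases h2 : x = z
  · subst h2; rw [K.pairCost_self x]; simp
  by_cases h3 : y = z
  · subst h3; rw [K.pairCost_self]; simp
  exact absurd ⟨h1, h2, h3⟩ h

/-- shift constant -/
noncomputable def cN : ℝ≥0∞ := ENNReal.ofReal (3 * K.N)

theorem cN_ne_top : K.cN ≠ ⊤ := ENNReal.ofReal_ne_top

theorem V_sum {x y z : F} (hx : x ∈ K.S) (hy : y ∈ K.S) (hz : z ∈ K.S) :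
    K.V x + K.V y + K.V z = ENNReal.ofReal (K.U x + K.U y + K.U z + 3 * K.N) := by
  unfold V
  rw [← ENNReal.ofReal_add (K.U_ge hx) (K.U_ge hy), ← ENNReal.ofReal_add
    (add_nonneg (K.U_ge hx) (K.U_ge hy)) (K.U_ge hz)]
  congr 1
  ring

theorem V_key {x y z : F} (hx : x ∈ K.S) (hy : y ∈ K.S) (hz : z ∈ K.S) :
    K.V x + K.V y + K.V z ≤ tripleCost s (x, y, z) + K.cN := by
  by_cases h : x ≠ y ∧ x ≠ z ∧ y ≠ z
  · obtain ⟨h1, h2, h3⟩ := h
    rw [K.V_sum hx hy hz, K.tripleCost_distinct h1 h2 h3, cN,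
      ← ENNReal.ofReal_add (K.cost3_nonneg x y z) (by linarith [K.N_pos])]
    apply ENNReal.ofReal_le_ofReal
    linarith [(K.key hx hy hz h1 h2 h3).1]
  · rw [K.tripleCost_top h]; simp

theorem V_key_eq {x y z : F} (hx : x ∈ K.S) (hy : y ∈ K.S) (hz : z ∈ K.S)
    (heq : K.V x + K.V y + K.V z = tripleCost s (x, y, z) + K.cN) : K.Ct6 x y z := by
  by_cases h : x ≠ y ∧ x ≠ z ∧ y ≠ z
  · obtain ⟨h1, h2, h3⟩ := h
    apply (K.key hx hy hz h1 h2 h3).2
    have hc := K.cost3_nonneg x y z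
    have hN := K.N_pos
    rw [K.V_sum hx hy hz, K.tripleCost_distinct h1 h2 h3, cN,
      ← ENNReal.ofReal_add hc (by linarith)] at heq
    rw [ENNReal.ofReal_eq_ofReal_iff] at heq
    · linarith
    · have := K.U_ge hx
      have := K.U_ge hy
      have := K.U_ge hz
      linarith
    · linarith
  · rw [K.tripleCost_top h, K.V_sum hx hy hz] at heq
    simp at heq

theorem graph_distinct {a : F} (ha : a ∈ K.SA) : a ≠ K.B a ∧ a ≠ K.C a ∧ K.B a ≠ K.C a := by
  have hB : K.B a ∈ K.SB := ⟨a, ha, rfl⟩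
  have hC : K.C a ∈ K.SC := ⟨a, ha, rfl⟩
  exact ⟨K.ne_AO ha (Or.inl hB), K.ne_AO ha (Or.inr (Or.inl hC)),
    fun h => K.not_BC hB (h ▸ hC)⟩

theorem mem_S_A {a : F} (ha : a ∈ K.SA) : a ∈ K.S := Or.inl ha
theorem mem_S_B {a : F} (ha : a ∈ K.SB) : a ∈ K.S := Or.inr (Or.inl ha)
theorem mem_S_C {a : F} (ha : a ∈ K.SC) : a ∈ K.S := Or.inr (Or.inr (Or.inl ha))
theorem mem_S_B' {a : F} (ha : a ∈ K.SB') : a ∈ K.S := Or.inr (Or.inr (Or.inr (Or.inl ha)))
theorem mem_S_C' {a : F} (ha : a ∈ K.SC') : a ∈ K.S := Or.inr (Or.inr (Or.inr (Or.inr ha)))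

theorem meas_S : MeasurableSet K.S :=
  K.meas_SA.union (K.meas_SB.union (K.meas_SC.union (K.meas_SB'.union K.meas_SC')))

/-- equality on the graph -/
theorem V_graph {a : F} (ha : a ∈ K.SA) :
    K.V a + K.V (K.bt a) + K.V (K.ct a) = tripleCost s (a, K.bt a, K.ct a) + K.cN := by
  have hd := K.graph_distinct ha
  have hB := K.bt_mem ha
  have hC := K.ct_mem ha
  rw [K.V_sum (K.mem_S_A ha) (K.mem_S_B hB) (K.mem_S_C hC), K.U_A ha, K.U_B hB, K.U_C hC]
  rw [K.bt_eq ha, K.ct_eq ha]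
  rw [K.tripleCost_distinct hd.1 hd.2.1 hd.2.2, cN,
      ← ENNReal.ofReal_add (K.cost3_nonneg _ _ _) (by linarith [K.N_pos]), K.sum_eq ha]

theorem V_R {x : F} (hx : x ∈ K.SA ∨ x ∈ K.SB ∨ x ∈ K.SC) : K.V (K.R x) = K.V x := by
  unfold V
  congr 2
  rcases hx with h | h | h
  · rw [K.U_A h, K.U_A (K.R_mem_SA h), K.uA_R]
  · have : K.R x ∈ K.SB' := by change K.R (K.R x) ∈ K.SB; rw [K.hR]; exact h
    rw [K.U_B h, K.U_B' this, K.hR]
  · have : K.R x ∈ K.SC' := by change K.R (K.R x) ∈ K.SC; rw [K.hR]; exact h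
    rw [K.U_C h, K.U_C' this, K.hR]

theorem meas_pairCost : Measurable (fun p : F × F => pairCost s p.1 p.2) := by
  unfold pairCost
  fun_prop

theorem meas_tripleCost : Measurable (fun p : F × F × F => tripleCost s p) := by
  unfold tripleCost pairCost
  fun_prop

end Cfg

end Crest.Agent.S0175
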