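import Mathlib
import Crest.Agent.S0175_Meas

set_option autoImplicit false
set_option linter.unusedSectionVars false
open MeasureTheory Crest.AnalysisR.OT
open scoped ENNReal ContDiff Topology
open Filter

namespace Crest.Agent.S0175

theorem ennreal_six_two : (6 : ℝ≥0∞)⁻¹ * 2 = 3⁻¹ := by
  have h : (6 : ℝ≥0∞) = 3 * 2 := by norm_num
  rw [h, ENNReal.mul_inv (by simp) (by simp), mul_assoc, ENNReal.inv_mul_cancel (by simp) (by simp),
    mul_one]

theorem ennreal_three_six : (3 : ℝ≥0∞)⁻¹ + 6⁻¹ * 4 = 1 := by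
  rw [← ennreal_six_two, ← mul_add]
  have : (2 : ℝ≥0∞) + 4 = 6 := by norm_num
  rw [this, ENNReal.inv_mul_cancel (by simp) (by simp)]

namespace Cfg

variable {F : Type*} [NormedAddCommGroup F] [InnerProductSpace ℝ F] [FiniteDimensional ℝ F]
  [MeasurableSpace F] [BorelSpace F] {s : ℝ} (K : Cfg F s)

/-- the marginal measure -/
noncomputable def mu (m : Measure F) : Measure F :=
  (3 : ℝ≥0∞)⁻¹ • m + (6 : ℝ≥0∞)⁻¹ • (m.map K.bt + m.map K.ct + m.map (fun a => K.R (K.bt a))
    + m.map (fun a => K.R (K.ct a)))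

/-- the optimal plan -/
noncomputable def plan (m : Measure F) : Measure (F × F × F) :=
  (6 : ℝ≥0∞)⁻¹ • (m.map (fun a => (a, K.bt a, K.ct a))
    + m.map (fun a => (K.R a, K.R (K.bt a), K.R (K.ct a)))
    + m.map (fun a => (K.bt a, K.ct a, a))
    + m.map (fun a => (K.R (K.bt a), K.R (K.ct a), K.R a))
    + m.map (fun a => (K.ct a, a, K.bt a))
    + m.map (fun a => (K.R (K.ct a), K.R a, K.R (K.bt a))))

theorem meas_Rbt : Measurable (fun a => K.R (K.bt a)) := K.meas_R.comp K.meas_bt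
theorem meas_Rct : Measurable (fun a => K.R (K.ct a)) := K.meas_R.comp K.meas_ct

theorem lintegral_mu (m : Measure F) {φ : F → ℝ≥0∞} (hφ : Measurable φ) :
    ∫⁻ x, φ x ∂(K.mu m) = 3⁻¹ * ∫⁻ a, φ a ∂m + 6⁻¹ * (∫⁻ a, φ (K.bt a) ∂m + ∫⁻ a, φ (K.ct a) ∂m
      + ∫⁻ a, φ (K.R (K.bt a)) ∂m + ∫⁻ a, φ (K.R (K.ct a)) ∂m) := by
  unfold mu
  rw [lintegral_add_measure, lintegral_smul_measure, lintegral_smul_measure,
    lintegral_add_measure, lintegral_add_measure, lintegral_add_measure,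
    lintegral_map hφ K.meas_bt, lintegral_map hφ K.meas_ct, lintegral_map hφ K.meas_Rbt,
    lintegral_map hφ K.meas_Rct]
  rfl

theorem lintegral_plan (m : Measure F) {φ : F × F × F → ℝ≥0∞} (hφ : Measurable φ) :
    ∫⁻ x, φ x ∂(K.plan m) = 6⁻¹ * (∫⁻ a, φ (a, K.bt a, K.ct a) ∂m
      + ∫⁻ a, φ (K.R a, K.R (K.bt a), K.R (K.ct a)) ∂m
      + ∫⁻ a, φ (K.bt a, K.ct a, a) ∂m
      + ∫⁻ a, φ (K.R (K.bt a), K.R (K.ct a), K.R a) ∂m
      + ∫⁻ a, φ (K.ct a, a, K.bt a) ∂m
      + ∫⁻ a, φ (K.R (K.ct a), K.R a, K.R (K.bt a)) ∂m) := by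
  have h1 := K.meas_bt
  have h2 := K.meas_ct
  have h3 := K.meas_R
  have h4 := K.meas_Rbt
  have h5 := K.meas_Rct
  unfold plan
  rw [lintegral_smul_measure,
    lintegral_add_measure, lintegral_add_measure, lintegral_add_measure,
    lintegral_add_measure, lintegral_add_measure,
    lintegral_map hφ (by fun_prop), lintegral_map hφ (by fun_prop), lintegral_map hφ (by fun_prop),
    lintegral_map hφ (by fun_prop), lintegral_map hφ (by fun_prop), lintegral_map hφ (by fun_prop)]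
  rfl

section
variable (m : Measure F) (hmR : m.map K.R = m)

include hmR in
theorem lintegral_R {φ : F → ℝ≥0∞} (hφ : Measurable φ) :
    ∫⁻ a, φ (K.R a) ∂m = ∫⁻ a, φ a ∂m := by
  conv_rhs => rw [← hmR]
  rw [lintegral_map hφ K.meas_R]

include hmR in
theorem plan_fst : (K.plan m).map (fun p => p.1) = K.mu m := by
  apply Measure.ext_of_lintegral
  intro φ hφ
  rw [lintegral_map hφ measurable_fst, K.lintegral_mu m hφ,
    K.lintegral_plan m (φ := fun p => φ p.1) (hφ.comp measurable_fst), K.lintegral_R m hmR hφ,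
    ← ennreal_six_two]
  ring

include hmR in
theorem plan_snd : (K.plan m).map (fun p => p.2.1) = K.mu m := by
  apply Measure.ext_of_lintegral
  intro φ hφ
  rw [lintegral_map hφ (by fun_prop), K.lintegral_mu m hφ,
    K.lintegral_plan m (φ := fun p => φ p.2.1) (by fun_prop), K.lintegral_R m hmR hφ,
    ← ennreal_six_two]
  ring

include hmR in
theorem plan_thd : (K.plan m).map (fun p => p.2.2) = K.mu m := by
  apply Measure.ext_of_lintegral
  intro φ hφ
  rw [lintegral_map hφ (by fun_prop), K.lintegral_mu m hφ,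
    K.lintegral_plan m (φ := fun p => φ p.2.2) (by fun_prop), K.lintegral_R m hmR hφ,
    ← ennreal_six_two]
  ring

include hmR in
theorem plan_coupling : IsCoupling₃ (K.mu m) (K.plan m) :=
  ⟨K.plan_fst m hmR, K.plan_snd m hmR, K.plan_thd m hmR⟩

variable [IsProbabilityMeasure m] (hmA : m K.SAᶜ = 0)

instance : IsProbabilityMeasure (K.mu m) := by
  constructor
  have h := K.lintegral_mu m (φ := fun _ => 1) measurable_const
  simp only [lintegral_const, measure_univ, mul_one, one_mul] at h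
  rw [h]
  have : (1 : ℝ≥0∞) + 1 + 1 + 1 = 4 := by norm_num
  rw [this, ennreal_three_six]

theorem isProb_of_coupling {π : Measure (F × F × F)} (hπ : IsCoupling₃ (K.mu m) π) :
    IsProbabilityMeasure π := by
  constructor
  have h := congrArg (fun ν => ν Set.univ) hπ.1
  simp only [measure_univ] at h
  rwa [Measure.map_apply measurable_fst MeasurableSet.univ, Set.preimage_univ] at h

include hmA in
theorem ae_SA : ∀ᵐ a ∂m, a ∈ K.SA := by
  rw [ae_iff]; exact hmA

include hmA in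
theorem ae_mu_S : ∀ᵐ x ∂(K.mu m), x ∈ K.S := by
  rw [ae_iff]
  have hms : MeasurableSet {x | ¬ x ∈ K.S} := K.meas_S.compl
  rw [← lintegral_indicator_one hms, K.lintegral_mu m (measurable_one.indicator hms)]
  have h0 : ∀ (f : F → F), (∀ a ∈ K.SA, f a ∈ K.S) →
      ∫⁻ a, ({x | ¬ x ∈ K.S}.indicator (1 : F → ℝ≥0∞)) (f a) ∂m = 0 := by
    intro f hf
    rw [← lintegral_zero (μ := m)]
    apply lintegral_congr_ae
    filter_upwards [K.ae_SA m hmA] with a ha
    simp [hf a ha]
  rw [h0 _ fun a ha => K.mem_S_B (K.bt_mem ha), h0 _ fun a ha => K.mem_S_C (K.ct_mem ha),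
    h0 _ fun a ha => K.mem_S_B' (K.R_bt_mem ha), h0 _ fun a ha => K.mem_S_C' (K.R_ct_mem ha),
    h0 (fun a => a) fun a ha => K.mem_S_A ha]
  simp

include hmA in
theorem lintegral_V_ne_top : ∫⁻ x, K.V x ∂(K.mu m) ≠ ⊤ := by
  apply ne_of_lt
  calc ∫⁻ x, K.V x ∂(K.mu m) ≤ ∫⁻ _, ENNReal.ofReal (2 * K.g0 + K.N) ∂(K.mu m) := by
        apply lintegral_mono_ae
        filter_upwards [K.ae_mu_S m hmA] with x hx
        exact K.V_le hx
    _ = ENNReal.ofReal (2 * K.g0 + K.N) := by simp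
    _ < ⊤ := ENNReal.ofReal_lt_top

theorem lintegral_V_coupling {π : Measure (F × F × F)} (hπ : IsCoupling₃ (K.mu m) π) :
    ∫⁻ p, K.V p.1 + K.V p.2.1 + K.V p.2.2 ∂π = 3 * ∫⁻ x, K.V x ∂(K.mu m) := by
  have hV := K.meas_V
  have e1 : ∫⁻ p, K.V p.1 ∂π = ∫⁻ x, K.V x ∂(K.mu m) := by
    rw [← hπ.1, lintegral_map hV (by fun_prop)]
  have e2 : ∫⁻ p, K.V p.2.1 ∂π = ∫⁻ x, K.V x ∂(K.mu m) := by
    rw [← hπ.2.1, lintegral_map hV (by fun_prop)]
  have e3 : ∫⁻ p, K.V p.2.2 ∂π = ∫⁻ x, K.V x ∂(K.mu m) := by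
    rw [← hπ.2.2, lintegral_map hV (by fun_prop)]
  rw [lintegral_add_right _ (by fun_prop), lintegral_add_right _ (by fun_prop), e1, e2, e3]
  ring

include hmA in
theorem ae_coupling {π : Measure (F × F × F)} (hπ : IsCoupling₃ (K.mu m) π) :
    ∀ᵐ p ∂π, p.1 ∈ K.S ∧ p.2.1 ∈ K.S ∧ p.2.2 ∈ K.S := by
  have h := K.ae_mu_S m hmA
  have e1 : ∀ᵐ p ∂π, p.1 ∈ K.S := by
    have h' := h
    rw [← hπ.1] at h'
    exact ae_of_ae_map (by fun_prop) h'
  have e2 : ∀ᵐ p ∂π, p.2.1 ∈ K.S := by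
    have h' := h
    rw [← hπ.2.1] at h'
    exact ae_of_ae_map (by fun_prop) h'
  have e3 : ∀ᵐ p ∂π, p.2.2 ∈ K.S := by
    have h' := h
    rw [← hπ.2.2] at h'
    exact ae_of_ae_map (by fun_prop) h'
  filter_upwards [e1, e2, e3] with p h1 h2 h3
  exact ⟨h1, h2, h3⟩

include hmA in
theorem lower_bound {π : Measure (F × F × F)} (hπ : IsCoupling₃ (K.mu m) π) :
    3 * ∫⁻ x, K.V x ∂(K.mu m) ≤ ∫⁻ p, tripleCost s p ∂π + K.cN := by
  have := K.isProb_of_coupling m hπ
  rw [← K.lintegral_V_coupling m hπ]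
  calc ∫⁻ p, K.V p.1 + K.V p.2.1 + K.V p.2.2 ∂π ≤ ∫⁻ p, tripleCost s p + K.cN ∂π := by
        apply lintegral_mono_ae
        filter_upwards [K.ae_coupling m hmA hπ] with p hp
        exact K.V_key hp.1 hp.2.1 hp.2.2
    _ = ∫⁻ p, tripleCost s p ∂π + K.cN := by
        rw [lintegral_add_right _ measurable_const]; simp

include hmA hmR in
theorem plan_cost : ∫⁻ p, tripleCost s p ∂(K.plan m) + K.cN = 3 * ∫⁻ x, K.V x ∂(K.mu m) := by
  have hπ := K.plan_coupling m hmR
  have := K.isProb_of_coupling m hπ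
  have hV := K.meas_V
  have hT : Measurable (fun p : F × F × F => tripleCost s p) := meas_tripleCost
  rw [← K.lintegral_V_coupling m hπ]
  have : ∫⁻ p, tripleCost s p ∂(K.plan m) + K.cN = ∫⁻ p, tripleCost s p + K.cN ∂(K.plan m) := by
    rw [lintegral_add_right _ measurable_const]; simp
  rw [this, K.lintegral_plan m (by fun_prop), K.lintegral_plan m (by fun_prop)]
  have hae := K.ae_SA m hmA
  congr 1
  congr 1
  · congr 1
    · congr 1
      · congr 1
        · congr 1
          · apply lintegral_congr_ae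
            filter_upwards [hae] with a ha
            exact (K.V_graph ha).symm
          · apply lintegral_congr_ae
            filter_upwards [hae] with a ha
            rw [K.tripleCost_R, ← K.V_graph ha, K.V_R (Or.inl ha), K.V_R (Or.inr (Or.inl (K.bt_mem ha))),
              K.V_R (Or.inr (Or.inr (K.ct_mem ha)))]
        · apply lintegral_congr_ae
          filter_upwards [hae] with a ha
          rw [tripleCost_comm23, tripleCost_comm12, ← K.V_graph ha]
          ring
      · apply lintegral_congr_ae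
        filter_upwards [hae] with a ha
        rw [K.tripleCost_R, tripleCost_comm23, tripleCost_comm12, ← K.V_graph ha,
          K.V_R (Or.inl ha), K.V_R (Or.inr (Or.inl (K.bt_mem ha))),
          K.V_R (Or.inr (Or.inr (K.ct_mem ha)))]
        ring
    · apply lintegral_congr_ae
      filter_upwards [hae] with a ha
      rw [tripleCost_comm12, tripleCost_comm23, ← K.V_graph ha]
      ring
  · apply lintegral_congr_ae
    filter_upwards [hae] with a ha
    rw [K.tripleCost_R, tripleCost_comm12, tripleCost_comm23, ← K.V_graph ha,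
      K.V_R (Or.inl ha), K.V_R (Or.inr (Or.inl (K.bt_mem ha))),
      K.V_R (Or.inr (Or.inr (K.ct_mem ha)))]
    ring

include hmA hmR in
theorem plan_cost_lt_top : ∫⁻ p, tripleCost s p ∂(K.plan m) < ⊤ := by
  have h := K.plan_cost m hmR hmA
  have h2 := K.lintegral_V_ne_top m hmA
  have h3 : 3 * ∫⁻ x, K.V x ∂(K.mu m) ≠ ⊤ := ENNReal.mul_ne_top (by simp) h2
  rw [← h] at h3
  exact lt_of_le_of_lt le_self_add (lt_top_iff_ne_top.mpr h3)

include hmA hmR in
theorem plan_optimal {π : Measure (F × F × F)} (hπ : IsCoupling₃ (K.mu m) π) :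
    ∫⁻ p, tripleCost s p ∂(K.plan m) ≤ ∫⁻ p, tripleCost s p ∂π := by
  have h := K.lower_bound m hmA hπ
  rw [← K.plan_cost m hmR hmA] at h
  exact (ENNReal.add_le_add_iff_right K.cN_ne_top).mp h

end

end Cfg

end Crest.Agent.S0175
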