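import Mathlib
import Crest.Agent.S0175_Plan

set_option autoImplicit false
set_option linter.unusedSectionVars false
open MeasureTheory Crest.AnalysisR.OT
open scoped ENNReal ContDiff Topology
open Filter

namespace Crest.Agent.S0175

namespace Cfg

variable {F : Type*} [NormedAddCommGroup F] [InnerProductSpace ℝ F] [FiniteDimensional ℝ F]
  [MeasurableSpace F] [BorelSpace F] {s : ℝ} (K : Cfg F s)

open Classical in
/-- indicator of the part of the `B` cluster over `D` -/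
noncomputable def phi (D : Set F) (y : F) : ℝ≥0∞ := if y ∈ K.SB ∧ K.bi y ∈ D then 1 else 0

open Classical in
noncomputable def psi1 (A D : Set F) (x : F) : ℝ≥0∞ := if x ∈ A ∧ x ∈ D then 1 else 0
open Classical in
noncomputable def psi2 (D : Set F) (x : F) : ℝ≥0∞ := if x ∈ K.SC ∧ K.ci x ∈ D then 1 else 0

theorem meas_phi {D : Set F} (hD : MeasurableSet D) : Measurable (K.phi D) := by
  classical
  exact Measurable.ite (K.meas_SB.inter (K.meas_bi hD)) measurable_const measurable_const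
theorem meas_psi1 {A D : Set F} (hA : MeasurableSet A) (hD : MeasurableSet D) :
    Measurable (psi1 A D) := by
  classical
  exact Measurable.ite (hA.inter hD) measurable_const measurable_const
theorem meas_psi2 {D : Set F} (hD : MeasurableSet D) : Measurable (K.psi2 D) := by
  classical
  exact Measurable.ite (K.meas_SC.inter (K.meas_ci hD)) measurable_const measurable_const

theorem count_eq {D A1 : Set F} {x y z : F} (hA1 : x ∈ A1 ↔ x ∈ K.SA ∧ (y ∈ K.SB ∨ z ∈ K.SB))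
    (h : K.Ct6 x y z) :
    K.phi D y + K.phi D z = psi1 A1 D x + K.psi2 D x := by
  classical
  have facts : ∀ a ∈ K.SA, (K.B a ∈ K.SB ∧ K.bi (K.B a) = a ∧ K.B a ∉ K.SA ∧ K.B a ∉ K.SC) ∧
      (K.C a ∈ K.SC ∧ K.ci (K.C a) = a ∧ K.C a ∉ K.SA ∧ K.C a ∉ K.SB) ∧
      (a ∉ K.SB ∧ a ∉ K.SC) ∧ (K.R a ∈ K.SA ∧ K.R a ∉ K.SB ∧ K.R a ∉ K.SC) ∧
      (K.R (K.B a) ∉ K.SA ∧ K.R (K.B a) ∉ K.SB ∧ K.R (K.B a) ∉ K.SC) ∧
      (K.R (K.C a) ∉ K.SA ∧ K.R (K.C a) ∉ K.SB ∧ K.R (K.C a) ∉ K.SC) := by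
    intro a ha
    have hb := K.bt_mem ha
    have hc := K.ct_mem ha
    have hb' := K.R_bt_mem ha
    have hc' := K.R_ct_mem ha
    have h1 := K.bi_bt ha
    have h2 := K.ci_ct ha
    rw [K.bt_eq ha] at hb hb' h1
    rw [K.ct_eq ha] at hc hc' h2
    have hR := K.R_mem_SA ha
    exact ⟨⟨hb, h1, fun h => K.not_AB h hb, fun h => K.not_BC hb h⟩,
      ⟨hc, h2, fun h => K.not_AC h hc, fun h => K.not_BC h hc⟩,
      ⟨fun h => K.not_AB ha h, fun h => K.not_AC ha h⟩,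
      ⟨hR, fun h => K.not_AB hR h, fun h => K.not_AC hR h⟩,
      ⟨fun h => K.not_AB' h hb', fun h => K.not_BB' h hb', fun h => K.not_CB' h hb'⟩,
      ⟨fun h => K.not_AC' h hc', fun h => K.not_BC' h hc', fun h => K.not_CC' h hc'⟩⟩
  unfold phi psi1 psi2
  simp only [hA1]
  rcases h with h | h | h | h | h | h <;> obtain ⟨a, ha, h | h⟩ := h <;>
    obtain ⟨h1, h2, h3⟩ := h <;> subst h1 h2 h3 <;>
    obtain ⟨⟨p1, p2, p3, p4⟩, ⟨q1, q2, q3, q4⟩, ⟨r1, r2⟩, ⟨t1, t2, t3⟩, ⟨u1, u2, u3⟩,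
      ⟨v1, v2, v3⟩⟩ := facts _ ha <;>
    simp [*]

section
variable (m : Measure F) (hmR : m.map K.R = m) [IsProbabilityMeasure m] (hmA : m K.SAᶜ = 0)

include hmA in
theorem lintegral_phi {D : Set F} (hD : MeasurableSet D) :
    ∫⁻ x, K.phi D x ∂(K.mu m) = 6⁻¹ * m D := by
  classical
  have hae := K.ae_SA m hmA
  rw [K.lintegral_mu m (K.meas_phi hD)]
  have z0 : ∀ (f : F → F), (∀ a ∈ K.SA, f a ∉ K.SB) → ∫⁻ a, K.phi D (f a) ∂m = 0 := by
    intro f hf
    rw [← lintegral_zero (μ := m)]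
    apply lintegral_congr_ae
    filter_upwards [hae] with a ha
    simp [phi, hf a ha]
  have z1 : ∫⁻ a, K.phi D (K.bt a) ∂m = m D := by
    rw [← lintegral_indicator_one hD]
    apply lintegral_congr_ae
    filter_upwards [hae] with a ha
    by_cases h : a ∈ D <;> simp [phi, K.bt_mem ha, K.bi_bt ha, h]
  rw [z0 (fun a => a) (fun a ha h => K.not_AB ha h), z1,
    z0 K.ct (fun a ha h => K.not_BC h (K.ct_mem ha)),
    z0 (fun a => K.R (K.bt a)) (fun a ha h => K.not_BB' h (K.R_bt_mem ha)),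
    z0 (fun a => K.R (K.ct a)) (fun a ha h => K.not_BC' h (K.R_ct_mem ha))]
  simp

include hmA in
theorem lintegral_psi {A D : Set F} (hA : MeasurableSet A) (hAS : A ⊆ K.SA) (hD : MeasurableSet D) :
    ∫⁻ x, psi1 A D x + K.psi2 D x ∂(K.mu m) = 3⁻¹ * m (A ∩ D) + 6⁻¹ * m D := by
  classical
  have hae := K.ae_SA m hmA
  have hm1 := meas_psi1 hA hD
  have hm2 := K.meas_psi2 hD
  rw [K.lintegral_mu m (φ := fun x => psi1 A D x + K.psi2 D x) (hm1.add hm2)]
  have z0 : ∀ (f : F → F), (∀ a ∈ K.SA, f a ∉ K.SA ∧ f a ∉ K.SC) →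
      ∫⁻ a, psi1 A D (f a) + K.psi2 D (f a) ∂m = 0 := by
    intro f hf
    rw [← lintegral_zero (μ := m)]
    apply lintegral_congr_ae
    filter_upwards [hae] with a ha
    have h1 := hf a ha
    have h2 : f a ∉ A := fun h => h1.1 (hAS h)
    simp [psi1, psi2, h1.2, h2]
  have z1 : ∫⁻ a, psi1 A D a + K.psi2 D a ∂m = m (A ∩ D) := by
    rw [← lintegral_indicator_one (hA.inter hD)]
    apply lintegral_congr_ae
    filter_upwards [hae] with a ha
    have h1 : a ∉ K.SC := fun h => K.not_AC ha h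
    by_cases h : a ∈ A ∩ D
    · have h' : a ∈ A ∧ a ∈ D := h
      simp [psi1, psi2, h1, h', Set.indicator, h]
    · have h' : ¬ (a ∈ A ∧ a ∈ D) := h
      simp [psi1, psi2, h1, h', Set.indicator]
  have z2 : ∫⁻ a, psi1 A D (K.ct a) + K.psi2 D (K.ct a) ∂m = m D := by
    rw [← lintegral_indicator_one hD]
    apply lintegral_congr_ae
    filter_upwards [hae] with a ha
    have h1 : K.ct a ∉ A := fun h => K.not_AC (hAS h) (K.ct_mem ha)
    by_cases h : a ∈ D <;> simp [psi1, psi2, K.ct_mem ha, K.ci_ct ha, h, h1]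
  rw [z1, z2, z0 K.bt (fun a ha => ⟨fun h => K.not_AB h (K.bt_mem ha),
      fun h => K.not_BC (K.bt_mem ha) h⟩),
    z0 (fun a => K.R (K.bt a)) (fun a ha => ⟨fun h => K.not_AB' h (K.R_bt_mem ha),
      fun h => K.not_CB' h (K.R_bt_mem ha)⟩),
    z0 (fun a => K.R (K.ct a)) (fun a ha => ⟨fun h => K.not_AC' h (K.R_ct_mem ha),
      fun h => K.not_CC' h (K.R_ct_mem ha)⟩)]
  simp

include hmR hmA in
/-- No Monge plan attains the optimal cost. -/
theorem monge_strict {T₂ T₃ : F → F} (h₂ : Measurable T₂) (h₃ : Measurable T₃)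
    (hm₂ : (K.mu m).map T₂ = K.mu m) (hm₃ : (K.mu m).map T₃ = K.mu m) :
    ∫⁻ p, tripleCost s p ∂(K.plan m) <
      ∫⁻ x, tripleCost s (x, T₂ x, T₃ x) ∂(K.mu m) := by
  by_contra hcon
  push Not at hcon
  have hV := K.meas_V
  have hT : Measurable (fun p : F × F × F => tripleCost s p) := meas_tripleCost
  have hG : Measurable (fun x => tripleCost s (x, T₂ x, T₃ x)) :=
    hT.comp (by fun_prop : Measurable (fun x => (x, T₂ x, T₃ x)))
  have hS := K.ae_mu_S m hmA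
  have hS2 : ∀ᵐ x ∂(K.mu m), T₂ x ∈ K.S := by
    have h' := hS
    rw [← hm₂] at h'
    exact ae_of_ae_map h₂.aemeasurable h'
  have hS3 : ∀ᵐ x ∂(K.mu m), T₃ x ∈ K.S := by
    have h' := hS
    rw [← hm₃] at h'
    exact ae_of_ae_map h₃.aemeasurable h'
  have e2 : ∫⁻ x, K.V (T₂ x) ∂(K.mu m) = ∫⁻ x, K.V x ∂(K.mu m) := by
    conv_rhs => rw [← hm₂]
    rw [lintegral_map hV h₂]
  have e3 : ∫⁻ x, K.V (T₃ x) ∂(K.mu m) = ∫⁻ x, K.V x ∂(K.mu m) := by
    conv_rhs => rw [← hm₃]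
    rw [lintegral_map hV h₃]
  have hsum : ∫⁻ x, K.V x + K.V (T₂ x) + K.V (T₃ x) ∂(K.mu m) = 3 * ∫⁻ x, K.V x ∂(K.mu m) := by
    rw [lintegral_add_right _ (g := fun x => K.V (T₃ x)) (hV.comp h₃),
      lintegral_add_right _ (g := fun x => K.V (T₂ x)) (hV.comp h₂), e2, e3]
    ring
  have hle : (fun x => K.V x + K.V (T₂ x) + K.V (T₃ x)) ≤ᵐ[K.mu m]
      fun x => tripleCost s (x, T₂ x, T₃ x) + K.cN := by
    filter_upwards [hS, hS2, hS3] with x h1 h2 h3
    exact K.V_key h1 h2 h3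
  have hfin : ∫⁻ x, K.V x + K.V (T₂ x) + K.V (T₃ x) ∂(K.mu m) ≠ ⊤ := by
    rw [hsum]
    exact ENNReal.mul_ne_top (by simp) (K.lintegral_V_ne_top m hmA)
  have hge : ∫⁻ x, tripleCost s (x, T₂ x, T₃ x) + K.cN ∂(K.mu m) ≤
      ∫⁻ x, K.V x + K.V (T₂ x) + K.V (T₃ x) ∂(K.mu m) := by
    rw [lintegral_add_right _ measurable_const, hsum, ← K.plan_cost m hmR hmA]
    simp only [lintegral_const, measure_univ, mul_one]
    gcongr
  have hae := ae_eq_of_ae_le_of_lintegral_le hle hfin (hG.add_const _).aemeasurable hge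
  have hct : ∀ᵐ x ∂(K.mu m), K.Ct6 x (T₂ x) (T₃ x) := by
    filter_upwards [hS, hS2, hS3, hae] with x h1 h2 h3 h4
    exact K.V_key_eq h1 h2 h3 h4
  -- counting
  let A1 : Set F := K.SA ∩ (T₂ ⁻¹' K.SB ∪ T₃ ⁻¹' K.SB)
  have hA1m : MeasurableSet A1 :=
    K.meas_SA.inter ((h₂ K.meas_SB).union (h₃ K.meas_SB))
  have hA1s : A1 ⊆ K.SA := fun x hx => hx.1
  have hcount : ∀ D : Set F, MeasurableSet D →
      3⁻¹ * m D = 3⁻¹ * m (A1 ∩ D) + 6⁻¹ * m D := by
    intro D hD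
    rw [← K.lintegral_psi m hmA hA1m hA1s hD, ← ennreal_six_two, mul_comm (6 : ℝ≥0∞)⁻¹ 2,
      mul_assoc, ← K.lintegral_phi m hmA hD]
    have p2 : ∫⁻ x, K.phi D (T₂ x) ∂(K.mu m) = ∫⁻ x, K.phi D x ∂(K.mu m) := by
      conv_rhs => rw [← hm₂]
      rw [lintegral_map (K.meas_phi hD) h₂]
    have p3 : ∫⁻ x, K.phi D (T₃ x) ∂(K.mu m) = ∫⁻ x, K.phi D x ∂(K.mu m) := by
      conv_rhs => rw [← hm₃]
      rw [lintegral_map (K.meas_phi hD) h₃]
    have p4 : ∫⁻ x, K.phi D (T₂ x) + K.phi D (T₃ x) ∂(K.mu m)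
        = ∫⁻ x, psi1 A1 D x + K.psi2 D x ∂(K.mu m) := by
      apply lintegral_congr_ae
      filter_upwards [hct] with x hx
      exact K.count_eq (D := D) (A1 := A1) Iff.rfl hx
    rw [← p4, lintegral_add_right _ (g := fun x => K.phi D (T₃ x)) ((K.meas_phi hD).comp h₃), p2, p3]
    ring
  have c1 := hcount A1 hA1m
  rw [Set.inter_self] at c1
  have hA1fin : 3⁻¹ * m A1 ≠ ⊤ := ENNReal.mul_ne_top (by simp) (measure_ne_top m _)
  have c2 : 6⁻¹ * m A1 = 0 := by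
    have : 3⁻¹ * m A1 + 0 = 3⁻¹ * m A1 + 6⁻¹ * m A1 := by rw [add_zero]; exact c1
    exact ((ENNReal.add_right_inj hA1fin).mp this).symm
  have c3 : m A1 = 0 := by
    rcases mul_eq_zero.mp c2 with h | h
    · simp at h
    · exact h
  have c4 := hcount Set.univ MeasurableSet.univ
  rw [Set.inter_univ, c3, measure_univ] at c4
  simp only [mul_one, mul_zero, zero_add] at c4
  have c5 := inv_injective c4
  norm_num at c5

end

end Cfg

end Crest.Agent.S0175
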