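import Mathlib
import Crest.Agent.S0175_Monge

set_option autoImplicit false
set_option linter.unusedSectionVars false
open MeasureTheory Crest.AnalysisR.OT
open scoped ENNReal ContDiff Topology
open Filter

namespace Crest.Agent.S0175

namespace Cfg

variable {F : Type*} [NormedAddCommGroup F] [InnerProductSpace ℝ F] [FiniteDimensional ℝ F]
  [MeasurableSpace F] [BorelSpace F] {s : ℝ} (K : Cfg F s)

open Classical in
/-- first approximating Monge map -/
noncomputable def T2 (σ : F → F) (D : Set F) (x : F) : F :=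
  if x ∈ K.SA then (if x ∈ D then K.bt (σ x) else K.R (K.bt (K.R (σ x))))
  else if x ∈ K.SB then K.ct (K.bi x)
  else if x ∈ K.SC then K.ci x
  else if x ∈ K.SB' then K.R (K.ct (K.bi (K.R x)))
  else K.R (K.ci (K.R x))

open Classical in
/-- second approximating Monge map -/
noncomputable def T3 (σ : F → F) (D : Set F) (x : F) : F :=
  if x ∈ K.SA then (if x ∈ D then K.ct (σ x) else K.R (K.ct (K.R (σ x))))
  else if x ∈ K.SB then K.bi x
  else if x ∈ K.SC then K.bt (K.ci x)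
  else if x ∈ K.SB' then K.R (K.bi (K.R x))
  else K.R (K.bt (K.ci (K.R x)))

theorem meas_T2 {σ : F → F} {D : Set F} (hσ : Measurable σ) (hD : MeasurableSet D) :
    Measurable (K.T2 σ D) := by
  classical
  have h1 := K.meas_bt
  have h2 := K.meas_ct
  have h3 := K.meas_bi
  have h4 := K.meas_ci
  have hR := K.meas_R
  refine Measurable.ite K.meas_SA (Measurable.ite hD (h1.comp hσ) (hR.comp (h1.comp (hR.comp hσ))))
    (Measurable.ite K.meas_SB (h2.comp h3) (Measurable.ite K.meas_SC h4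
      (Measurable.ite K.meas_SB' (hR.comp (h2.comp (h3.comp hR))) (hR.comp (h4.comp hR)))))

theorem meas_T3 {σ : F → F} {D : Set F} (hσ : Measurable σ) (hD : MeasurableSet D) :
    Measurable (K.T3 σ D) := by
  classical
  have h1 := K.meas_bt
  have h2 := K.meas_ct
  have h3 := K.meas_bi
  have h4 := K.meas_ci
  have hR := K.meas_R
  refine Measurable.ite K.meas_SA (Measurable.ite hD (h2.comp hσ) (hR.comp (h2.comp (hR.comp hσ))))
    (Measurable.ite K.meas_SB h3 (Measurable.ite K.meas_SC (h1.comp h4)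
      (Measurable.ite K.meas_SB' (hR.comp (h3.comp hR)) (hR.comp (h1.comp (h4.comp hR))))))

section values
variable {σ : F → F} {D : Set F} {a : F} (ha : a ∈ K.SA)
include ha

theorem T2_A (hD : a ∈ D) : K.T2 σ D a = K.bt (σ a) := by
  unfold T2; rw [if_pos ha, if_pos hD]
theorem T2_A' (hD : a ∉ D) : K.T2 σ D a = K.R (K.bt (K.R (σ a))) := by
  unfold T2; rw [if_pos ha, if_neg hD]
theorem T3_A (hD : a ∈ D) : K.T3 σ D a = K.ct (σ a) := by
  unfold T3; rw [if_pos ha, if_pos hD]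
theorem T3_A' (hD : a ∉ D) : K.T3 σ D a = K.R (K.ct (K.R (σ a))) := by
  unfold T3; rw [if_pos ha, if_neg hD]
theorem T2_bt : K.T2 σ D (K.bt a) = K.ct a := by
  have h := K.bt_mem ha
  unfold T2
  rw [if_neg (fun h' => K.not_AB h' h), if_pos h, K.bi_bt ha]
theorem T3_bt : K.T3 σ D (K.bt a) = a := by
  have h := K.bt_mem ha
  unfold T3
  rw [if_neg (fun h' => K.not_AB h' h), if_pos h, K.bi_bt ha]
theorem T2_ct : K.T2 σ D (K.ct a) = a := by
  have h := K.ct_mem ha
  unfold T2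
  rw [if_neg (fun h' => K.not_AC h' h), if_neg (fun h' => K.not_BC h' h), if_pos h, K.ci_ct ha]
theorem T3_ct : K.T3 σ D (K.ct a) = K.bt a := by
  have h := K.ct_mem ha
  unfold T3
  rw [if_neg (fun h' => K.not_AC h' h), if_neg (fun h' => K.not_BC h' h), if_pos h, K.ci_ct ha]
theorem T2_Rbt : K.T2 σ D (K.R (K.bt a)) = K.R (K.ct a) := by
  have h := K.R_bt_mem ha
  unfold T2
  rw [if_neg (fun h' => K.not_AB' h' h), if_neg (fun h' => K.not_BB' h' h),
    if_neg (fun h' => K.not_CB' h' h), if_pos h, K.hR, K.bi_bt ha]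
theorem T3_Rbt : K.T3 σ D (K.R (K.bt a)) = K.R a := by
  have h := K.R_bt_mem ha
  unfold T3
  rw [if_neg (fun h' => K.not_AB' h' h), if_neg (fun h' => K.not_BB' h' h),
    if_neg (fun h' => K.not_CB' h' h), if_pos h, K.hR, K.bi_bt ha]
theorem T2_Rct : K.T2 σ D (K.R (K.ct a)) = K.R a := by
  have h := K.R_ct_mem ha
  unfold T2
  rw [if_neg (fun h' => K.not_AC' h' h), if_neg (fun h' => K.not_BC' h' h),
    if_neg (fun h' => K.not_CC' h' h), if_neg (fun h' => K.not_B'C' h' h), K.hR, K.ci_ct ha]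
theorem T3_Rct : K.T3 σ D (K.R (K.ct a)) = K.R (K.bt a) := by
  have h := K.R_ct_mem ha
  unfold T3
  rw [if_neg (fun h' => K.not_AC' h' h), if_neg (fun h' => K.not_BC' h' h),
    if_neg (fun h' => K.not_CC' h' h), if_neg (fun h' => K.not_B'C' h' h), K.hR, K.ci_ct ha]

end values

section
variable (m : Measure F) (hmR : m.map K.R = m) [IsProbabilityMeasure m] (hmA : m K.SAᶜ = 0)
  {σ : F → F} {D : Set F} (hσ : Measurable σ) (hD : MeasurableSet D)
  (h1 : (m.restrict D).map σ = (1 / 2 : ℝ≥0∞) • m)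
  (h2 : (m.restrict Dᶜ).map σ = (1 / 2 : ℝ≥0∞) • m)

include hσ h1 in
theorem half1 {φ : F → ℝ≥0∞} (hφ : Measurable φ) :
    ∫⁻ a in D, φ (σ a) ∂m = (1 / 2) * ∫⁻ a, φ a ∂m := by
  rw [← lintegral_map hφ hσ, h1, lintegral_smul_measure]
  rfl

include hσ h2 in
theorem half2 {φ : F → ℝ≥0∞} (hφ : Measurable φ) :
    ∫⁻ a in Dᶜ, φ (σ a) ∂m = (1 / 2) * ∫⁻ a, φ a ∂m := by
  rw [← lintegral_map hφ hσ, h2, lintegral_smul_measure]
  rfl

theorem third_half : (3 : ℝ≥0∞)⁻¹ * (1 / 2) = 6⁻¹ := by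
  rw [← ennreal_six_two, mul_assoc]
  rw [one_div, ENNReal.mul_inv_cancel (by simp) (by simp), mul_one]

include hmR hmA hσ hD h1 h2 in
theorem map_T2 : (K.mu m).map (K.T2 σ D) = K.mu m := by
  have hT := K.meas_T2 hσ hD
  have hae := K.ae_SA m hmA
  apply Measure.ext_of_lintegral
  intro φ hφ
  rw [lintegral_map hφ hT, K.lintegral_mu m (φ := fun x => φ (K.T2 σ D x)) (hφ.comp hT),
    K.lintegral_mu m hφ]
  have e1 : ∫⁻ a, φ (K.T2 σ D (K.bt a)) ∂m = ∫⁻ a, φ (K.ct a) ∂m := by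
    apply lintegral_congr_ae
    filter_upwards [hae] with a ha
    rw [K.T2_bt ha]
  have e2 : ∫⁻ a, φ (K.T2 σ D (K.ct a)) ∂m = ∫⁻ a, φ a ∂m := by
    apply lintegral_congr_ae
    filter_upwards [hae] with a ha
    rw [K.T2_ct ha]
  have e3 : ∫⁻ a, φ (K.T2 σ D (K.R (K.bt a))) ∂m = ∫⁻ a, φ (K.R (K.ct a)) ∂m := by
    apply lintegral_congr_ae
    filter_upwards [hae] with a ha
    rw [K.T2_Rbt ha]
  have e4 : ∫⁻ a, φ (K.T2 σ D (K.R (K.ct a))) ∂m = ∫⁻ a, φ a ∂m := by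
    rw [← K.lintegral_R m hmR hφ]
    apply lintegral_congr_ae
    filter_upwards [hae] with a ha
    rw [K.T2_Rct ha]
  have hφb : Measurable (fun a => φ (K.bt a)) := hφ.comp K.meas_bt
  have hφb' : Measurable (fun a => φ (K.R (K.bt a))) := hφ.comp K.meas_Rbt
  have hφb'' : Measurable (fun a => φ (K.R (K.bt (K.R a)))) := hφb'.comp K.meas_R
  have e5 : ∫⁻ a, φ (K.T2 σ D a) ∂m =
      (1 / 2) * ∫⁻ a, φ (K.bt a) ∂m + (1 / 2) * ∫⁻ a, φ (K.R (K.bt a)) ∂m := by
    rw [← lintegral_add_compl _ hD]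
    congr 1
    · rw [← half1 m hσ h1 hφb]
      apply setLIntegral_congr_fun_ae hD
      filter_upwards [hae] with a ha haD
      rw [K.T2_A ha haD]
    · rw [← K.lintegral_R m hmR hφb', ← half2 m hσ h2 hφb'']
      apply setLIntegral_congr_fun_ae hD.compl
      filter_upwards [hae] with a ha haD
      rw [K.T2_A' ha haD]
  rw [e1, e2, e3, e4, e5, mul_add, ← mul_assoc, ← mul_assoc, third_half, ← ennreal_six_two]
  ring

include hmR hmA hσ hD h1 h2 in
theorem map_T3 : (K.mu m).map (K.T3 σ D) = K.mu m := by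
  have hT := K.meas_T3 hσ hD
  have hae := K.ae_SA m hmA
  apply Measure.ext_of_lintegral
  intro φ hφ
  rw [lintegral_map hφ hT, K.lintegral_mu m (φ := fun x => φ (K.T3 σ D x)) (hφ.comp hT),
    K.lintegral_mu m hφ]
  have e1 : ∫⁻ a, φ (K.T3 σ D (K.bt a)) ∂m = ∫⁻ a, φ a ∂m := by
    apply lintegral_congr_ae
    filter_upwards [hae] with a ha
    rw [K.T3_bt ha]
  have e2 : ∫⁻ a, φ (K.T3 σ D (K.ct a)) ∂m = ∫⁻ a, φ (K.bt a) ∂m := by
    apply lintegral_congr_ae
    filter_upwards [hae] with a ha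
    rw [K.T3_ct ha]
  have e3 : ∫⁻ a, φ (K.T3 σ D (K.R (K.bt a))) ∂m = ∫⁻ a, φ a ∂m := by
    rw [← K.lintegral_R m hmR hφ]
    apply lintegral_congr_ae
    filter_upwards [hae] with a ha
    rw [K.T3_Rbt ha]
  have e4 : ∫⁻ a, φ (K.T3 σ D (K.R (K.ct a))) ∂m = ∫⁻ a, φ (K.R (K.bt a)) ∂m := by
    apply lintegral_congr_ae
    filter_upwards [hae] with a ha
    rw [K.T3_Rct ha]
  have hφb : Measurable (fun a => φ (K.ct a)) := hφ.comp K.meas_ct
  have hφb' : Measurable (fun a => φ (K.R (K.ct a))) := hφ.comp K.meas_Rct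
  have hφb'' : Measurable (fun a => φ (K.R (K.ct (K.R a)))) := hφb'.comp K.meas_R
  have e5 : ∫⁻ a, φ (K.T3 σ D a) ∂m =
      (1 / 2) * ∫⁻ a, φ (K.ct a) ∂m + (1 / 2) * ∫⁻ a, φ (K.R (K.ct a)) ∂m := by
    rw [← lintegral_add_compl _ hD]
    congr 1
    · rw [← half1 m hσ h1 hφb]
      apply setLIntegral_congr_fun_ae hD
      filter_upwards [hae] with a ha haD
      rw [K.T3_A ha haD]
    · rw [← K.lintegral_R m hmR hφb', ← half2 m hσ h2 hφb'']
      apply setLIntegral_congr_fun_ae hD.compl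
      filter_upwards [hae] with a ha haD
      rw [K.T3_A' ha haD]
  rw [e1, e2, e3, e4, e5, mul_add, ← mul_assoc, ← mul_assoc, third_half, ← ennreal_six_two]
  ring

end

end Cfg

end Crest.Agent.S0175
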