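import Mathlib

set_option autoImplicit false

namespace Crest.Agent.S0175

open MeasureTheory Set
open scoped ENNReal NNReal

/-- The distribution function of an atomless probability on `ℝ` pushes it to the uniform law. -/
theorem map_cdf_uniform (ν : Measure ℝ) [IsProbabilityMeasure ν] [NullSingletonClass ν] :
    ν.map (fun x => ν.real (Iic x)) = volume.restrict (Icc (0:ℝ) 1) := by
  set F : ℝ → ℝ := fun x => ν.real (Iic x)
  have hmono : Monotone F := fun x y h => measureReal_mono (Iic_subset_Iic.2 h)
  have hmeas : Measurable F := hmono.measurable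
  have hF0 : ∀ x, 0 ≤ F x := fun x => measureReal_nonneg
  have hF1 : ∀ x, F x ≤ 1 := fun x => measureReal_le_one
  have : IsProbabilityMeasure (ν.map F) := Measure.isProbabilityMeasure_map hmeas.aemeasurable
  have : IsFiniteMeasure (volume.restrict (Icc (0:ℝ) 1)) := ⟨by simp⟩
  have htop : Filter.Tendsto F Filter.atTop (nhds 1) := by
    have := ProbabilityTheory.tendsto_cdf_atTop ν
    refine this.congr fun x => ?_
    rw [ProbabilityTheory.cdf_eq_real]
  have hbot : Filter.Tendsto F Filter.atBot (nhds 0) := by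
    have := ProbabilityTheory.tendsto_cdf_atBot ν
    refine this.congr fun x => ?_
    rw [ProbabilityTheory.cdf_eq_real]
  refine Measure.ext_of_Iic _ _ fun a => ?_
  rw [Measure.map_apply hmeas measurableSet_Iic, Measure.restrict_apply measurableSet_Iic]
  rcases lt_or_ge a 0 with ha | ha
  · have h1 : F ⁻¹' Iic a = ∅ := by
      ext x
      simp only [mem_preimage, mem_Iic, mem_empty_iff_false, iff_false, not_le]
      exact ha.trans_le (hF0 x)
    have h2 : Iic a ∩ Icc (0:ℝ) 1 = ∅ := by
      ext x
      simp only [mem_inter_iff, mem_Iic, mem_Icc, mem_empty_iff_false, iff_false]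
      intro h; linarith [h.1, h.2.1]
    rw [h1, h2]; simp
  rcases lt_or_ge a 1 with ha1 | ha1
  swap
  · have h1 : F ⁻¹' Iic a = univ := by
      ext x
      simp only [mem_preimage, mem_Iic, mem_univ, iff_true]
      exact (hF1 x).trans ha1
    have h2 : Iic a ∩ Icc (0:ℝ) 1 = Icc (0:ℝ) 1 := by
      ext x
      simp only [mem_inter_iff, mem_Iic, mem_Icc, and_iff_right_iff_imp]
      intro h; linarith [h.2]
    rw [h1, h2]; simp
  have h2 : Iic a ∩ Icc (0:ℝ) 1 = Icc (0:ℝ) a := by
    ext x
    simp only [mem_inter_iff, mem_Iic, mem_Icc]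
    constructor
    · rintro ⟨h, h', h''⟩; exact ⟨h', h⟩
    · rintro ⟨h, h'⟩; exact ⟨h', h, h'.trans ha1.le⟩
  rw [h2, Real.volume_Icc, sub_zero]
  obtain ⟨x1, hx1⟩ : ∃ x1, a < F x1 := (htop.eventually (lt_mem_nhds ha1)).exists
  rcases eq_empty_or_nonempty (F ⁻¹' Iic a) with hS | hS
  · rw [hS, measure_empty]
    have : a = 0 := by
      refine le_antisymm ?_ ha
      by_contra h
      rw [not_le] at h
      obtain ⟨x, hx⟩ := (hbot.eventually (gt_mem_nhds h)).exists
      have : x ∈ F ⁻¹' Iic a := le_of_lt hx
      rw [hS] at this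
      exact this
    rw [this]; simp
  · have hbdd : BddAbove (F ⁻¹' Iic a) := by
      refine ⟨x1, fun x hx => ?_⟩
      by_contra h
      rw [not_le] at h
      have h1 := hmono h.le
      have h2 : F x ≤ a := hx
      linarith
    set s := sSup (F ⁻¹' Iic a)
    have hlt : ∀ x, x < s → F x ≤ a := by
      intro x hx
      obtain ⟨y, hy, hxy⟩ := exists_lt_of_lt_csSup hS hx
      exact (hmono hxy.le).trans hy
    have hgt : ∀ x, s < x → a < F x := by
      intro x hx
      by_contra h
      rw [not_lt] at h
      exact absurd (le_csSup hbdd (show x ∈ F ⁻¹' Iic a from h)) (not_le.2 hx)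
    have hIio : ν (Iic s) = ν (Iio s) := measure_congr Iio_ae_eq_Iic.symm
    have hle : F s ≤ a := by
      have h3 : ν (Iio s) ≤ ENNReal.ofReal a := by
        have h4 : Iio s = ⋃ n : ℕ, Iic (s - 1 / ((n : ℝ) + 1)) := by
          ext x
          simp only [mem_Iio, mem_iUnion, mem_Iic]
          constructor
          · intro hx
            obtain ⟨n, hn⟩ := exists_nat_one_div_lt (sub_pos.2 hx)
            exact ⟨n, by linarith⟩
          · rintro ⟨n, hn⟩
            have : 0 < 1 / ((n : ℝ) + 1) := by positivity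
            linarith
        rw [h4, Monotone.measure_iUnion]
        · refine iSup_le fun n => ?_
          have h5 := hlt (s - 1 / ((n : ℝ) + 1)) (by
            have : 0 < 1 / ((n : ℝ) + 1) := by positivity
            linarith)
          rw [← ofReal_measureReal (μ := ν)]
          exact ENNReal.ofReal_le_ofReal h5
        · intro m n hmn
          refine Iic_subset_Iic.2 ?_
          have : 1 / ((n : ℝ) + 1) ≤ 1 / ((m : ℝ) + 1) := by
            apply one_div_le_one_div_of_le (by positivity)
            have : (m : ℝ) ≤ n := by exact_mod_cast hmn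
            linarith
          linarith
      have h6 : ENNReal.ofReal (F s) ≤ ENNReal.ofReal a := by
        rw [ofReal_measureReal, hIio]; exact h3
      exact (ENNReal.ofReal_le_ofReal_iff ha).1 h6
    have hge : a ≤ F s := by
      have h7 : ∀ x : Ioi s, a ≤ ProbabilityTheory.cdf ν x := by
        intro x
        rw [ProbabilityTheory.cdf_eq_real]
        exact (hgt x x.2).le
      have h8 := (ProbabilityTheory.cdf ν).iInf_Ioi_eq s
      have h9 : a ≤ ⨅ x : Ioi s, ProbabilityTheory.cdf ν x := le_ciInf h7
      rw [h8, ProbabilityTheory.cdf_eq_real] at h9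
      exact h9
    have hFs : F s = a := le_antisymm hle hge
    refine le_antisymm ?_ ?_
    · calc ν (F ⁻¹' Iic a) ≤ ν (Iic s) := measure_mono fun x hx => le_csSup hbdd hx
        _ = ENNReal.ofReal a := by rw [← hFs]; exact (ofReal_measureReal).symm
    · calc ENNReal.ofReal a = ν (Iic s) := by rw [← hFs]; exact ofReal_measureReal
        _ = ν (Iio s) := hIio
        _ ≤ ν (F ⁻¹' Iic a) := measure_mono fun x hx => hlt x hx

/-- An atomless probability can be pushed to any probability on a standard Borel space. -/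
theorem exists_map_eq {X Y : Type*} [MeasurableSpace X] [StandardBorelSpace X]
    [MeasurableSpace Y] [StandardBorelSpace Y] [Nonempty Y] (ν : Measure X)
    [IsProbabilityMeasure ν] [NullSingletonClass ν] (κ : Measure Y) [IsProbabilityMeasure κ] :
    ∃ T : X → Y, Measurable T ∧ ν.map T = κ := by
  obtain ⟨e, he⟩ := exists_measurableEmbedding_real X
  have hpe : IsProbabilityMeasure (ν.map e) := Measure.isProbabilityMeasure_map he.measurable.aemeasurable
  have hna : NullSingletonClass (ν.map e) := by
    constructor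
    intro x
    rw [Measure.map_apply he.measurable (measurableSet_singleton x)]
    have hsub : (e ⁻¹' {x}).Subsingleton := by
      intro a ha b hb
      exact he.injective (by rw [show e a = x from ha, show e b = x from hb])
    exact hsub.measure_zero ν
  have hunif := map_cdf_uniform (ν.map e)
  obtain ⟨f, hf, hfκ⟩ := Measure.exists_measurable_map_eq κ
  set F : ℝ → ℝ := fun x => (ν.map e).real (Iic x)
  have hmono : Monotone F := fun x y h => measureReal_mono (Iic_subset_Iic.2 h)
  have hFm : Measurable F := hmono.measurable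
  refine ⟨fun x => f (projIcc 0 1 zero_le_one (F (e x))), ?_, ?_⟩
  · exact hf.comp (continuous_projIcc.measurable.comp (hFm.comp he.measurable))
  · have h1 : ν.map (fun x => F (e x)) = volume.restrict (Icc (0:ℝ) 1) := by
      rw [← hunif, Measure.map_map hFm he.measurable]; rfl
    have h2 : ν.map (fun x => f (projIcc 0 1 zero_le_one (F (e x))))
        = ((ν.map (fun x => F (e x))).map (projIcc (0:ℝ) 1 zero_le_one)).map f := by
      rw [Measure.map_map hf continuous_projIcc.measurable]
      exact (Measure.map_map (hf.comp continuous_projIcc.measurable)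
        (hFm.comp he.measurable)).symm
    rw [h2, h1, ← hfκ]
    congr 1
    have h3 : volume.restrict (Icc (0:ℝ) 1) = (volume : Measure unitInterval).map (Subtype.val) := by
      exact (map_comap_subtype_coe measurableSet_Icc _).symm
    rw [h3, Measure.map_map continuous_projIcc.measurable measurable_subtype_coe]
    have h4 : (projIcc (0:ℝ) 1 zero_le_one) ∘ (Subtype.val : unitInterval → ℝ) = id := by
      ext x; simp
    rw [h4, Measure.map_id]

/-- Halving an atomless finite measure on a standard Borel space (no distance control). -/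
theorem exists_halving_cell {X : Type*} [MeasurableSpace X] [StandardBorelSpace X]
    (m : Measure X) [IsFiniteMeasure m] [NullSingletonClass m] :
    ∃ (σ : X → X) (D : Set X), Measurable σ ∧ MeasurableSet D ∧
      (m.restrict D).map σ = (1/2 : ℝ≥0∞) • m ∧ (m.restrict Dᶜ).map σ = (1/2 : ℝ≥0∞) • m := by
  rcases eq_or_ne m 0 with h0 | h0
  · subst h0
    exact ⟨id, ∅, measurable_id, MeasurableSet.empty, by simp, by simp⟩
  have hne : m univ ≠ 0 := by simpa using h0
  have hX : Nonempty X := by
    by_contra h
    rw [not_nonempty_iff] at h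
    exact h0 (Measure.eq_zero_of_isEmpty m)
  set ν : Measure X := (m univ)⁻¹ • m
  have hν : IsProbabilityMeasure ν := by
    constructor
    simp only [ν, Measure.smul_apply, smul_eq_mul]
    exact ENNReal.inv_mul_cancel hne (measure_ne_top _ _)
  have hνa : NullSingletonClass ν := ⟨fun x => by simp [ν]⟩
  have hmν : m = (m univ) • ν := by
    simp only [ν, smul_smul]
    rw [ENNReal.mul_inv_cancel hne (measure_ne_top _ _), one_smul]
  set b : Measure Bool := (1/2 : ℝ≥0∞) • Measure.dirac true + (1/2 : ℝ≥0∞) • Measure.dirac false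
  have hb : IsProbabilityMeasure b := by
    constructor
    simp only [b, Measure.add_apply, Measure.smul_apply, measure_univ, smul_eq_mul, mul_one]
    rw [one_div, ENNReal.inv_two_add_inv_two]
  obtain ⟨T, hT, hTm⟩ := exists_map_eq ν (ν.prod b)
  have hD : MeasurableSet {x | (T x).2 = true} :=
    (measurable_snd.comp hT) (measurableSet_singleton true)
  have key : ∀ c : Bool, ∀ s : Set X, MeasurableSet s →
      m ({x | (T x).1 ∈ s} ∩ {x | (T x).2 = c}) = (1/2 : ℝ≥0∞) * m s := by
    intro c s hs
    have h1 : {x | (T x).1 ∈ s} ∩ {x | (T x).2 = c} = T ⁻¹' (s ×ˢ {c}) := by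
      ext x; simp [mem_prod]
    have h2 : ν ({x | (T x).1 ∈ s} ∩ {x | (T x).2 = c}) = (1/2 : ℝ≥0∞) * ν s := by
      rw [h1, ← Measure.map_apply hT (hs.prod (measurableSet_singleton c)), hTm,
        Measure.prod_prod]
      have h3 : b {c} = 1/2 := by
        simp only [b, Measure.add_apply, Measure.smul_apply, smul_eq_mul,
          Measure.dirac_apply' _ (measurableSet_singleton c)]
        cases c <;> simp
      rw [h3, mul_comm]
    have h5 : ∀ t : Set X, m t = m univ * ν t := by
      intro t
      conv_lhs => rw [hmν]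
      rw [Measure.smul_apply, smul_eq_mul]
    rw [h5 s, h5 ({x | (T x).1 ∈ s} ∩ {x | (T x).2 = c}), h2]
    ring
  have hT1 : Measurable fun x => (T x).1 := measurable_fst.comp hT
  refine ⟨fun x => (T x).1, {x | (T x).2 = true}, hT1, hD, ?_, ?_⟩
  · ext s hs
    rw [Measure.map_apply hT1 hs, Measure.restrict_apply (hT1 hs)]
    exact key true s hs
  · ext s hs
    rw [Measure.map_apply hT1 hs, Measure.restrict_apply (hT1 hs)]
    have h4 : {x | (T x).2 = true}ᶜ = {x | (T x).2 = false} := by
      ext x; simp
    rw [h4]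
    exact key false s hs

/-- Countable measurable partition into small cells. -/
theorem exists_small_partition {E : Type*} [PseudoMetricSpace E] [SecondCountableTopology E]
    [MeasurableSpace E] [OpensMeasurableSpace E] [Nonempty E] (δ : ℝ) (hδ : 0 < δ) :
    ∃ Q : ℕ → Set E, (∀ n, MeasurableSet (Q n)) ∧ Pairwise (Function.onFun Disjoint Q) ∧
      (⋃ n, Q n) = univ ∧ ∀ n, ∀ x ∈ Q n, ∀ y ∈ Q n, dist x y ≤ δ := by
  set u := TopologicalSpace.denseSeq E
  set B : ℕ → Set E := fun n => Metric.ball (u n) (δ / 2)
  refine ⟨disjointed B, fun n => MeasurableSet.disjointed (fun i => Metric.isOpen_ball.measurableSet) n,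
    disjoint_disjointed B, ?_, ?_⟩
  · rw [iUnion_disjointed]
    ext x
    simp only [B, mem_iUnion, Metric.mem_ball, mem_univ, iff_true]
    obtain ⟨n, hy⟩ := (TopologicalSpace.denseRange_denseSeq E).exists_dist_lt x
      (half_pos hδ)
    exact ⟨n, hy⟩
  · intro n x hx y hy
    have h1 : dist x (u n) < δ / 2 := disjointed_subset B n hx
    have h2 : dist y (u n) < δ / 2 := disjointed_subset B n hy
    calc dist x y ≤ dist x (u n) + dist (u n) y := dist_triangle _ _ _
      _ ≤ δ := by rw [dist_comm (u n) y]; linarith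

open MeasureTheory ENNReal in
theorem exists_halving_map {E : Type*} [NormedAddCommGroup E] [NormedSpace ℝ E]
    [FiniteDimensional ℝ E] [MeasurableSpace E] [BorelSpace E]
    (m : Measure E) [IsFiniteMeasure m] [NullSingletonClass m] (r : ℝ)
    (hm : m (Metric.ball 0 r)ᶜ = 0) (δ : ℝ) (hδ : 0 < δ) :
    ∃ (σ : E → E) (D : Set E), Measurable σ ∧ MeasurableSet D ∧ (∀ᵐ x ∂m, dist (σ x) x ≤ δ) ∧
      (m.restrict D).map σ = (1/2 : ℝ≥0∞) • m ∧ (m.restrict Dᶜ).map σ = (1/2 : ℝ≥0∞) • m := by
  have hpr : ProperSpace E := FiniteDimensional.proper_real E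
  have hcs : CompleteSpace E := FiniteDimensional.complete ℝ E
  have hsb : StandardBorelSpace E := inferInstance
  obtain ⟨Q, hQm, hQd, hQu, hQδ⟩ := exists_small_partition (E := E) δ hδ
  have hna : ∀ n, NullSingletonClass (m.restrict (Q n)) := fun n => inferInstance
  choose σ D hσ hD h1 h2 using fun n => exists_halving_cell (m.restrict (Q n))
  -- almost surely the cell map stays in the cell
  have hstay : ∀ n, ∀ᵐ x ∂(m.restrict (Q n)), σ n x ∈ Q n := by
    intro n
    have hz : (m.restrict (Q n)) ((σ n) ⁻¹' (Q n)ᶜ) = 0 := by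
      have ha : (m.restrict (Q n)) ((σ n) ⁻¹' (Q n)ᶜ ∩ D n) = 0 := by
        have := congrArg (fun μ : Measure E => μ (Q n)ᶜ) (h1 n)
        simp only [Measure.smul_apply] at this
        rw [Measure.map_apply (hσ n) (hQm n).compl,
          Measure.restrict_apply ((hσ n) (hQm n).compl)] at this
        rw [this, Measure.restrict_apply (hQm n).compl]
        simp
      have hb : (m.restrict (Q n)) ((σ n) ⁻¹' (Q n)ᶜ ∩ (D n)ᶜ) = 0 := by
        have := congrArg (fun μ : Measure E => μ (Q n)ᶜ) (h2 n)
        simp only [Measure.smul_apply] at this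
        rw [Measure.map_apply (hσ n) (hQm n).compl,
          Measure.restrict_apply ((hσ n) (hQm n).compl)] at this
        rw [this, Measure.restrict_apply (hQm n).compl]
        simp
      have hc := measure_inter_add_sdiff (μ := m.restrict (Q n)) ((σ n) ⁻¹' (Q n)ᶜ) (hD n)
      rw [ha, zero_add, Set.sdiff_eq, hb] at hc
      exact hc.symm
    rw [ae_iff]
    exact hz
  obtain ⟨σ', hσ', hσQ⟩ := exists_measurable_piecewise Q hQm σ hσ (by
    intro i j hij x hx
    exact absurd hx.2 (Set.disjoint_left.1 (hQd hij) hx.1))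
  set D' : Set E := ⋃ n, (Q n ∩ D n)
  have hD' : MeasurableSet D' := MeasurableSet.iUnion fun n => (hQm n).inter (hD n)
  have hDQ : ∀ n, D' ∩ Q n = D n ∩ Q n := by
    intro n
    ext x
    simp only [D', mem_inter_iff, mem_iUnion]
    constructor
    · rintro ⟨⟨k, hk1, hk2⟩, hx⟩
      have : k = n := by
        by_contra hkn
        exact Set.disjoint_left.1 (hQd hkn) hk1 hx
      subst this
      exact ⟨hk2, hx⟩
    · rintro ⟨ha, hb⟩
      exact ⟨⟨n, hb, ha⟩, hb⟩
  -- decomposition of measures along the partition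
  have hsum : ∀ s : Set E, MeasurableSet s → m s = ∑' n, m (s ∩ Q n) := by
    intro s hs
    have : s = ⋃ n, (s ∩ Q n) := by rw [← inter_iUnion, hQu, inter_univ]
    conv_lhs => rw [this]
    rw [measure_iUnion]
    · intro i j hij
      exact (hQd hij).mono inter_subset_right inter_subset_right
    · exact fun n => hs.inter (hQm n)
  refine ⟨σ', D', hσ', hD', ?_, ?_, ?_⟩
  · have hall : ∀ n, ∀ᵐ x ∂(m.restrict (Q n)), dist (σ' x) x ≤ δ := by
      intro n
      filter_upwards [hstay n, ae_restrict_mem (hQm n)] with x hx hxQ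
      rw [hσQ n hxQ]
      exact hQδ n _ hx _ hxQ
    have h3 : ∀ᵐ x ∂(m.restrict (⋃ n, Q n)), dist (σ' x) x ≤ δ := by
      rw [ae_restrict_iUnion_iff]
      exact hall
    rwa [hQu, Measure.restrict_univ] at h3
  · ext s hs
    rw [Measure.map_apply hσ' hs, Measure.restrict_apply (hσ' hs), Measure.smul_apply, smul_eq_mul,
      hsum _ ((hσ' hs).inter hD'), hsum s hs, ← ENNReal.tsum_mul_left]
    refine tsum_congr fun n => ?_
    have h3 := congrArg (fun μ : Measure E => μ s) (h1 n)
    simp only [Measure.smul_apply, smul_eq_mul] at h3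
    rw [Measure.map_apply (hσ n) hs, Measure.restrict_apply ((hσ n) hs),
      Measure.restrict_apply (((hσ n) hs).inter (hD n)), Measure.restrict_apply hs] at h3
    rw [← h3]
    congr 1
    ext x
    have := Set.ext_iff.1 (hDQ n) x
    simp only [mem_inter_iff, mem_preimage] at this ⊢
    constructor
    · rintro ⟨⟨ha, hb⟩, hc⟩
      rw [hσQ n hc] at ha
      exact ⟨⟨ha, (this.1 ⟨hb, hc⟩).1⟩, hc⟩
    · rintro ⟨⟨ha, hb⟩, hc⟩
      rw [← hσQ n hc] at ha
      exact ⟨⟨ha, (this.2 ⟨hb, hc⟩).1⟩, hc⟩
  · ext s hs
    rw [Measure.map_apply hσ' hs, Measure.restrict_apply (hσ' hs), Measure.smul_apply, smul_eq_mul,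
      hsum _ ((hσ' hs).inter hD'.compl), hsum s hs, ← ENNReal.tsum_mul_left]
    refine tsum_congr fun n => ?_
    have h3 := congrArg (fun μ : Measure E => μ s) (h2 n)
    simp only [Measure.smul_apply, smul_eq_mul] at h3
    rw [Measure.map_apply (hσ n) hs, Measure.restrict_apply ((hσ n) hs),
      Measure.restrict_apply (((hσ n) hs).inter (hD n).compl), Measure.restrict_apply hs] at h3
    rw [← h3]
    congr 1
    ext x
    have := Set.ext_iff.1 (hDQ n) x
    simp only [mem_inter_iff, mem_preimage, mem_compl_iff] at this ⊢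
    constructor
    · rintro ⟨⟨ha, hb⟩, hc⟩
      rw [hσQ n hc] at ha
      exact ⟨⟨ha, fun h => hb (this.2 ⟨h, hc⟩).1⟩, hc⟩
    · rintro ⟨⟨ha, hb⟩, hc⟩
      rw [← hσQ n hc] at ha
      exact ⟨⟨ha, fun h => hb (this.1 ⟨h, hc⟩).1⟩, hc⟩

end Crest.Agent.S0175
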