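import Mathlib
import Crest.Agent.S0175_Approx
import Crest.Agent.S0175_Halving

set_option autoImplicit false
set_option linter.unusedSectionVars false
open MeasureTheory Crest.AnalysisR.OT
open scoped ENNReal ContDiff Topology
open Filter

namespace Crest.Agent.S0175

namespace Cfg

variable {F : Type*} [NormedAddCommGroup F] [InnerProductSpace ℝ F] [FiniteDimensional ℝ F]
  [MeasurableSpace F] [BorelSpace F] {s : ℝ} (K : Cfg F s)

/-- Lipschitz constant for the pair cost away from the diagonal -/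
noncomputable def Lip (_ : Cfg F s) : ℝ := s * 2 ^ (s + 2) * 4 + s / 2 * 2 ^ (s + 2)

theorem Lip_pos : 0 < K.Lip := by
  have := K.hs
  unfold Lip; positivity

theorem rpow_lip {z w : F} (hz : 1 / 2 ≤ ‖z‖) (hz4 : ‖z‖ ≤ 4) (hw : 1 / 2 ≤ ‖w‖) {δ : ℝ}
    (hδ1 : δ ≤ 1) (hzw : ‖w - z‖ ≤ δ) :
    ‖z‖ ^ (-s) ≤ ‖w‖ ^ (-s) + K.Lip * δ := by
  have hs := K.hs
  have z0 : z ≠ 0 := by
    intro h; rw [h, norm_zero] at hz; linarith
  have w0 : w ≠ 0 := by
    intro h; rw [h, norm_zero] at hw; linarith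
  have h1 := rpow_norm_lower hs z0 w0
  have h2 := rpow_bound_half hs hz
  have hk : ‖kgrad s z‖ ≤ s * 2 ^ (s + 2) * 4 := by
    unfold kgrad
    rw [norm_smul, norm_mul, norm_neg, Real.norm_eq_abs, Real.norm_eq_abs, abs_of_pos hs,
      abs_of_nonneg (Real.rpow_nonneg (norm_nonneg z) _)]
    gcongr
  have hδ0 : 0 ≤ δ := (norm_nonneg _).trans hzw
  have h3 : -(‖kgrad s z‖ * ‖w - z‖) ≤ inner ℝ (kgrad s z) (w - z) :=
    (abs_le.mp (abs_real_inner_le_norm _ _)).1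
  have h4 : ‖kgrad s z‖ * ‖w - z‖ ≤ s * 2 ^ (s + 2) * 4 * δ := by gcongr
  have h5 : ‖w - z‖ ^ 2 ≤ δ := by
    calc ‖w - z‖ ^ 2 ≤ δ ^ 2 := by gcongr
      _ ≤ δ := by nlinarith
  have h6 : s / 2 * ‖z‖ ^ (-s - 2) * ‖w - z‖ ^ 2 ≤ s / 2 * 2 ^ (s + 2) * δ := by gcongr
  unfold Lip
  linarith

theorem norm_lt_of_outer {x : F} (hx : K.Outer x) : ‖x‖ < 2 := by
  obtain ⟨c, hc, h0⟩ := K.exists_center hx
  have h1 : ‖x‖ ≤ ‖x - c‖ + ‖c‖ := by
    have := norm_add_le (x - c) c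
    rwa [sub_add_cancel] at this
  rw [zero_sub, norm_neg] at h0
  have := K.hρ
  linarith

theorem pairCost_lip {a a' b : F} (ha : a ∈ K.SA) (ha' : a' ∈ K.SA) (hb : K.Outer b) {δ : ℝ}
    (hδ1 : δ ≤ 1) (h : ‖a' - a‖ ≤ δ) :
    pairCost s a b ≤ pairCost s a' b + ENNReal.ofReal (K.Lip * δ) := by
  have hδ0 : 0 ≤ δ := (norm_nonneg _).trans h
  obtain ⟨c, hc, h0⟩ := K.exists_center hb
  have l1 := K.dist_lower (K.nearA0 ha) hc h0.ge
  have l2 := K.dist_lower (K.nearA0 ha') hc h0.ge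
  rw [K.pairCost_ne (K.ne_AO ha hb), K.pairCost_ne (K.ne_AO ha' hb),
    ← ENNReal.ofReal_add (Real.rpow_nonneg (norm_nonneg _) _)
      (mul_nonneg K.Lip_pos.le hδ0)]
  apply ENNReal.ofReal_le_ofReal
  apply K.rpow_lip l1 _ l2 hδ1
  · have : a' - b - (a - b) = a' - a := by abel
    rw [this]; exact h
  · have h1 := norm_sub_le a b
    have h2 := K.norm_lt_of_outer hb
    have h3 := K.nearA ha
    have := K.hρ
    linarith

theorem tripleCost_lip {a a' b c : F} (ha : a ∈ K.SA) (ha' : a' ∈ K.SA) (hb : K.Outer b)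
    (hc : K.Outer c) {δ : ℝ} (hδ1 : δ ≤ 1) (h : ‖a' - a‖ ≤ δ) :
    tripleCost s (a, b, c) ≤ tripleCost s (a', b, c) + 2 * ENNReal.ofReal (K.Lip * δ) := by
  simp only [tripleCost]
  have h1 := K.pairCost_lip ha ha' hb hδ1 h
  have h2 := K.pairCost_lip ha ha' hc hδ1 h
  calc pairCost s a b + pairCost s a c + pairCost s b c
      ≤ (pairCost s a' b + ENNReal.ofReal (K.Lip * δ)) +
        (pairCost s a' c + ENNReal.ofReal (K.Lip * δ)) + pairCost s b c := by gcongr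
    _ = _ := by ring

section
variable (m : Measure F) (hmR : m.map K.R = m) [IsProbabilityMeasure m] (hmA : m K.SAᶜ = 0)

/-- average cost on the graph -/
noncomputable def cbar : ℝ≥0∞ := ∫⁻ a, tripleCost s (a, K.bt a, K.ct a) ∂m

theorem meas_g : Measurable (fun a => tripleCost s (a, K.bt a, K.ct a)) := by
  have h1 := K.meas_bt
  have h2 := K.meas_ct
  exact meas_tripleCost.comp (by fun_prop : Measurable (fun a => (a, K.bt a, K.ct a)))

theorem plan_cost_eq : ∫⁻ p, tripleCost s p ∂(K.plan m) = K.cbar m := by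
  rw [K.lintegral_plan m meas_tripleCost]
  have e1 : ∀ a, tripleCost s (K.R a, K.R (K.bt a), K.R (K.ct a))
      = tripleCost s (a, K.bt a, K.ct a) := fun a => K.tripleCost_R _ _ _
  have e2 : ∀ a, tripleCost s (K.bt a, K.ct a, a) = tripleCost s (a, K.bt a, K.ct a) := by
    intro a
    rw [tripleCost_comm23, tripleCost_comm12]
  have e3 : ∀ a, tripleCost s (K.R (K.bt a), K.R (K.ct a), K.R a)
      = tripleCost s (a, K.bt a, K.ct a) := fun a => by rw [K.tripleCost_R, e2]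
  have e4 : ∀ a, tripleCost s (K.ct a, a, K.bt a) = tripleCost s (a, K.bt a, K.ct a) := by
    intro a
    rw [tripleCost_comm12, tripleCost_comm23]
  have e5 : ∀ a, tripleCost s (K.R (K.ct a), K.R a, K.R (K.bt a))
      = tripleCost s (a, K.bt a, K.ct a) := fun a => by rw [K.tripleCost_R, e4]
  simp only [e1, e2, e3, e4, e5]
  change 6⁻¹ * (K.cbar m + K.cbar m + K.cbar m + K.cbar m + K.cbar m + K.cbar m) = K.cbar m
  have : K.cbar m + K.cbar m + K.cbar m + K.cbar m + K.cbar m + K.cbar m = 6 * K.cbar m := by ring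
  rw [this, ← mul_assoc, ENNReal.inv_mul_cancel (by simp) (by simp), one_mul]

variable {σ : F → F} {D : Set F} (hσ : Measurable σ) (hD : MeasurableSet D)
  (h1 : (m.restrict D).map σ = (1 / 2 : ℝ≥0∞) • m)
  (h2 : (m.restrict Dᶜ).map σ = (1 / 2 : ℝ≥0∞) • m)

include hmA hσ hD h1 h2 in
theorem ae_sigma : ∀ᵐ a ∂m, σ a ∈ K.SA := by
  have hae := K.ae_SA m hmA
  have g1 : ∀ᵐ a ∂(m.restrict D), σ a ∈ K.SA := by
    apply ae_of_ae_map hσ.aemeasurable
    rw [h1]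
    exact Measure.ae_smul_measure hae _
  have g2 : ∀ᵐ a ∂(m.restrict Dᶜ), σ a ∈ K.SA := by
    apply ae_of_ae_map hσ.aemeasurable
    rw [h2]
    exact Measure.ae_smul_measure hae _
  rw [ae_restrict_iff' hD] at g1
  rw [ae_restrict_iff' hD.compl] at g2
  filter_upwards [g1, g2] with a q1 q2
  by_cases h : a ∈ D
  · exact q1 h
  · exact q2 h

include hmR hmA hσ hD h1 h2 in
theorem monge_cost {δ : ℝ} (hδ1 : δ ≤ 1) (hd : ∀ᵐ x ∂m, dist (σ x) x ≤ δ) :
    ∫⁻ x, tripleCost s (x, K.T2 σ D x, K.T3 σ D x) ∂(K.mu m) ≤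
      K.cbar m + 2 * ENNReal.ofReal (K.Lip * δ) := by
  have hae := K.ae_SA m hmA
  have hsig := K.ae_sigma m hmA hσ hD h1 h2
  have hT2 := K.meas_T2 hσ hD
  have hT3 := K.meas_T3 hσ hD
  have hG : Measurable (fun x => tripleCost s (x, K.T2 σ D x, K.T3 σ D x)) :=
    meas_tripleCost.comp (by fun_prop : Measurable (fun x => (x, K.T2 σ D x, K.T3 σ D x)))
  rw [K.lintegral_mu m hG]
  have e1 : ∫⁻ a, tripleCost s (K.bt a, K.T2 σ D (K.bt a), K.T3 σ D (K.bt a)) ∂m = K.cbar m := by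
    apply lintegral_congr_ae
    filter_upwards [hae] with a ha
    rw [K.T2_bt ha, K.T3_bt ha, tripleCost_comm23, tripleCost_comm12]
  have e2 : ∫⁻ a, tripleCost s (K.ct a, K.T2 σ D (K.ct a), K.T3 σ D (K.ct a)) ∂m = K.cbar m := by
    apply lintegral_congr_ae
    filter_upwards [hae] with a ha
    rw [K.T2_ct ha, K.T3_ct ha, tripleCost_comm12, tripleCost_comm23]
  have e3 : ∫⁻ a, tripleCost s (K.R (K.bt a), K.T2 σ D (K.R (K.bt a)), K.T3 σ D (K.R (K.bt a))) ∂m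
      = K.cbar m := by
    apply lintegral_congr_ae
    filter_upwards [hae] with a ha
    rw [K.T2_Rbt ha, K.T3_Rbt ha, K.tripleCost_R, tripleCost_comm23, tripleCost_comm12]
  have e4 : ∫⁻ a, tripleCost s (K.R (K.ct a), K.T2 σ D (K.R (K.ct a)), K.T3 σ D (K.R (K.ct a))) ∂m
      = K.cbar m := by
    apply lintegral_congr_ae
    filter_upwards [hae] with a ha
    rw [K.T2_Rct ha, K.T3_Rct ha, K.tripleCost_R, tripleCost_comm12, tripleCost_comm23]
  have hg := K.meas_g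
  have hgR : Measurable (fun a => tripleCost s (K.R a, K.bt (K.R a), K.ct (K.R a))) :=
    hg.comp K.meas_R
  set κ : ℝ≥0∞ := 2 * ENNReal.ofReal (K.Lip * δ) with hκ
  have e5 : ∫⁻ a, tripleCost s (a, K.T2 σ D a, K.T3 σ D a) ∂m ≤ K.cbar m + κ := by
    rw [← lintegral_add_compl _ hD]
    have q1 : ∫⁻ a in D, tripleCost s (a, K.T2 σ D a, K.T3 σ D a) ∂m ≤
        (1 / 2) * K.cbar m + κ * m D := by
      calc ∫⁻ a in D, tripleCost s (a, K.T2 σ D a, K.T3 σ D a) ∂m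
          ≤ ∫⁻ a in D, (tripleCost s (σ a, K.bt (σ a), K.ct (σ a)) + κ) ∂m := by
            apply setLIntegral_mono_ae' hD
            filter_upwards [hae, hsig, hd] with a ha hs' hd' haD
            rw [K.T2_A ha haD, K.T3_A ha haD]
            apply K.tripleCost_lip ha hs' (Or.inl (K.bt_mem hs')) (Or.inr (Or.inl (K.ct_mem hs'))) hδ1
            rwa [← dist_eq_norm]
        _ = (1 / 2) * K.cbar m + κ * m D := by
            rw [lintegral_add_right _ measurable_const, half1 m hσ h1 hg]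
            simp [cbar]
    have q2 : ∫⁻ a in Dᶜ, tripleCost s (a, K.T2 σ D a, K.T3 σ D a) ∂m ≤
        (1 / 2) * K.cbar m + κ * m Dᶜ := by
      calc ∫⁻ a in Dᶜ, tripleCost s (a, K.T2 σ D a, K.T3 σ D a) ∂m
          ≤ ∫⁻ a in Dᶜ, (tripleCost s (K.R (σ a), K.bt (K.R (σ a)), K.ct (K.R (σ a))) + κ) ∂m := by
            apply setLIntegral_mono_ae' hD.compl
            filter_upwards [hae, hsig, hd] with a ha hs' hd' haD
            rw [K.T2_A' ha haD, K.T3_A' ha haD]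
            have hRs := K.R_mem_SA hs'
            have := K.tripleCost_lip ha hs' (Or.inr (Or.inr (Or.inl (K.R_bt_mem hRs))))
              (Or.inr (Or.inr (Or.inr (K.R_ct_mem hRs)))) hδ1 (by rwa [← dist_eq_norm])
            refine this.trans (le_of_eq ?_)
            rw [← K.tripleCost_R (σ a), K.hR, K.hR]
        _ = (1 / 2) * K.cbar m + κ * m Dᶜ := by
            rw [lintegral_add_right _ measurable_const, half2 m hσ h2 hgR, K.lintegral_R m hmR hg]
            simp [cbar]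
    calc _ ≤ ((1 / 2) * K.cbar m + κ * m D) + ((1 / 2) * K.cbar m + κ * m Dᶜ) := add_le_add q1 q2
      _ = (1 / 2 + 1 / 2) * K.cbar m + κ * (m D + m Dᶜ) := by ring
      _ = K.cbar m + κ := by
          rw [measure_add_measure_compl hD, measure_univ, ENNReal.add_halves, one_mul, mul_one]
  rw [e1, e2, e3, e4]
  have hsum : K.cbar m + K.cbar m + K.cbar m + K.cbar m = 4 * K.cbar m := by ring
  rw [hsum]
  have h3 : (3 : ℝ≥0∞)⁻¹ ≤ 1 := by
    rw [ENNReal.inv_le_one]; norm_num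
  calc 3⁻¹ * ∫⁻ a, tripleCost s (a, K.T2 σ D a, K.T3 σ D a) ∂m + 6⁻¹ * (4 * K.cbar m)
      ≤ 3⁻¹ * (K.cbar m + κ) + 6⁻¹ * (4 * K.cbar m) := by gcongr
    _ = (3⁻¹ + 6⁻¹ * 4) * K.cbar m + 3⁻¹ * κ := by ring
    _ ≤ 1 * K.cbar m + 1 * κ := by
        rw [ennreal_three_six]
        gcongr
    _ = K.cbar m + κ := by ring

include hmR hmA in
theorem exists_monge [NullSingletonClass m] {ε : ℝ≥0∞} (hε : 0 < ε) :
    ∃ T₂ T₃ : F → F, Measurable T₂ ∧ Measurable T₃ ∧ (K.mu m).map T₂ = K.mu m ∧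
      (K.mu m).map T₃ = K.mu m ∧
      ∫⁻ x, tripleCost s (x, T₂ x, T₃ x) ∂(K.mu m) < ∫⁻ p, tripleCost s p ∂(K.plan m) + ε := by
  -- choose δ
  have hlim : Tendsto (fun δ : ℝ => 2 * ENNReal.ofReal (K.Lip * δ)) (𝓝[>] 0) (𝓝 0) := by
    have h1 : Tendsto (fun δ : ℝ => ENNReal.ofReal (K.Lip * δ)) (𝓝[>] 0) (𝓝 0) := by
      rw [← ENNReal.ofReal_zero]
      apply ENNReal.tendsto_ofReal
      apply Tendsto.mono_left _ nhdsWithin_le_nhds
      have : Continuous (fun δ : ℝ => K.Lip * δ) := by fun_prop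
      exact this.tendsto' 0 0 (by simp)
    have h2 := ENNReal.Tendsto.const_mul (a := 2) h1 (Or.inr (by simp))
    simpa using h2
  have hev : ∀ᶠ δ : ℝ in 𝓝[>] 0, 2 * ENNReal.ofReal (K.Lip * δ) < ε := hlim.eventually_lt_const hε
  have hev1 : ∀ᶠ δ : ℝ in 𝓝[>] 0, δ ≤ 1 := by
    filter_upwards [Ioo_mem_nhdsGT (by norm_num : (0 : ℝ) < 1)] with δ h
    exact h.2.le
  obtain ⟨δ, ⟨hδε, hδ1⟩, hδ0⟩ := ((hev.and hev1).and self_mem_nhdsWithin).exists
  obtain ⟨σ, D, hσ, hD, hdist, h1, h2⟩ := exists_halving_map m K.r hmA δ hδ0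
  refine ⟨K.T2 σ D, K.T3 σ D, K.meas_T2 hσ hD, K.meas_T3 hσ hD,
    K.map_T2 m hmR hmA hσ hD h1 h2, K.map_T3 m hmR hmA hσ hD h1 h2, ?_⟩
  have h3 := K.monge_cost m hmR hmA hσ hD h1 h2 hδ1 hdist
  refine h3.trans_lt ?_
  rw [K.plan_cost_eq m]
  have hfin : K.cbar m ≠ ⊤ := by
    rw [← K.plan_cost_eq m]
    exact (K.plan_cost_lt_top m hmR hmA).ne
  exact ENNReal.add_lt_add_left hfin hδε

end

end Cfg

end Crest.Agent.S0175
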