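import Mathlib

set_option autoImplicit false

namespace Crest.Agent.S0175

open MeasureTheory Set
open scoped ENNReal NNReal ContDiff

theorem contDiff_clm_det {d : ℕ} {n : WithTop ℕ∞} :
    ContDiff ℝ n (fun f : EuclideanSpace ℝ (Fin d) →L[ℝ] EuclideanSpace ℝ (Fin d) => f.det) := by
  classical
  set b := (EuclideanSpace.basisFun (Fin d) ℝ).toBasis
  have h1 : (fun f : EuclideanSpace ℝ (Fin d) →L[ℝ] EuclideanSpace ℝ (Fin d) => f.det)
      = fun f => ∑ σ : Equiv.Perm (Fin d), (Equiv.Perm.sign σ : ℤ) •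
        ∏ i, (f (b i)) (σ i) := by
    ext f
    rw [ContinuousLinearMap.det, ← LinearMap.det_toMatrix b, Matrix.det_apply]
    refine Finset.sum_congr rfl fun σ _ => ?_
    rw [Units.smul_def]
    congr 1
    refine Finset.prod_congr rfl fun i _ => ?_
    rw [LinearMap.toMatrix_apply]
    simp [b]
  rw [h1]
  refine ContDiff.sum fun σ _ => ?_
  have h2 : ContDiff ℝ n (fun f : EuclideanSpace ℝ (Fin d) →L[ℝ] EuclideanSpace ℝ (Fin d) =>
      ∏ i, (f (b i)) (σ i)) := by
    refine contDiff_prod fun i _ => ?_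
    have : (fun f : EuclideanSpace ℝ (Fin d) →L[ℝ] EuclideanSpace ℝ (Fin d) => (f (b i)) (σ i))
      = fun f => (EuclideanSpace.proj (σ i) : EuclideanSpace ℝ (Fin d) →L[ℝ] ℝ)
          ((ContinuousLinearMap.apply ℝ (EuclideanSpace ℝ (Fin d)) (b i)) f) := by
      ext f; simp
    rw [this]
    exact (ContinuousLinearMap.contDiff _).comp (ContinuousLinearMap.contDiff _)
  have h3 : (fun f : EuclideanSpace ℝ (Fin d) →L[ℝ] EuclideanSpace ℝ (Fin d) =>
      (Equiv.Perm.sign σ : ℤ) • ∏ i, (f (b i)) (σ i))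
      = fun f => ((Equiv.Perm.sign σ : ℤ) : ℝ) * ∏ i, (f (b i)) (σ i) := by
    ext f; rw [zsmul_eq_mul]
  rw [h3]
  exact contDiff_const.mul h2

open MeasureTheory ContDiff in
theorem exists_pushforward_density {d : ℕ} (B : OpenPartialHomeomorph (EuclideanSpace ℝ (Fin d)) (EuclideanSpace ℝ (Fin d)))
    (hB : ∀ x ∈ B.source, ContDiffAt ℝ ∞ B x) (hB' : ∀ y ∈ B.target, ContDiffAt ℝ ∞ B.symm y)
    (g : EuclideanSpace ℝ (Fin d) → ℝ) (hg : ContDiff ℝ ∞ g) (hg0 : ∀ x, 0 ≤ g x) (r : ℝ) (hr : 0 < r) (hgs : ∀ x, r ≤ ‖x‖ → g x = 0)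
    (hsrc : Metric.closedBall 0 r ⊆ B.source) (Bf : EuclideanSpace ℝ (Fin d) → EuclideanSpace ℝ (Fin d)) (hBf : Measurable Bf) (hBfB : ∀ x ∈ Metric.ball 0 r, Bf x = B x) :
    ∃ q : EuclideanSpace ℝ (Fin d) → ℝ, ContDiff ℝ ∞ q ∧ (∀ y, 0 ≤ q y) ∧ (∀ y, y ∉ B '' Metric.ball 0 r → q y = 0) ∧
      (volume.withDensity (fun x => ENNReal.ofReal (g x ^ 2))).map Bf = volume.withDensity (fun y => ENNReal.ofReal (q y ^ 2)) := by
  classical
  set q : EuclideanSpace ℝ (Fin d) → ℝ := fun y =>
    if y ∈ B.target then g (B.symm y) * Real.sqrt |(fderiv ℝ B.symm y).det| else 0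
  have hdet : ∀ y ∈ B.target, (fderiv ℝ B.symm y).det ≠ 0 := by
    intro y hy
    have hx : B.symm y ∈ B.source := B.map_target hy
    have hd1 : HasFDerivAt B.symm (fderiv ℝ B.symm y) y :=
      ((hB' y hy).differentiableAt (by simp)).hasFDerivAt
    have hd2 : HasFDerivAt B (fderiv ℝ B (B.symm y)) (B.symm y) :=
      ((hB _ hx).differentiableAt (by simp)).hasFDerivAt
    have hcomp := hd2.comp y hd1
    have hid : (B ∘ B.symm) =ᶠ[nhds y] id := by
      filter_upwards [B.open_target.mem_nhds hy] with z hz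
      exact B.right_inv hz
    have h1 : HasFDerivAt id ((fderiv ℝ B (B.symm y)).comp (fderiv ℝ B.symm y)) y :=
      hcomp.congr_of_eventuallyEq hid.symm
    have h2 : (fderiv ℝ B (B.symm y)).comp (fderiv ℝ B.symm y)
        = ContinuousLinearMap.id ℝ (EuclideanSpace ℝ (Fin d)) := h1.unique (hasFDerivAt_id y)
    intro h0
    have h3 := congrArg (fun L : EuclideanSpace ℝ (Fin d) →L[ℝ] EuclideanSpace ℝ (Fin d) => L.det) h2
    simp only [ContinuousLinearMap.det, ContinuousLinearMap.toLinearMap_comp,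
      LinearMap.det_comp] at h3
    rw [ContinuousLinearMap.det] at h0
    rw [h0, mul_zero] at h3
    have h4 : LinearMap.det ((ContinuousLinearMap.id ℝ (EuclideanSpace ℝ (Fin d)) :
        EuclideanSpace ℝ (Fin d) →L[ℝ] EuclideanSpace ℝ (Fin d)) :
        EuclideanSpace ℝ (Fin d) →ₗ[ℝ] EuclideanSpace ℝ (Fin d)) = 1 := LinearMap.det_id
    rw [h4] at h3
    exact zero_ne_one h3
  have hKc : IsCompact (B '' Metric.closedBall 0 r) :=
    (isCompact_closedBall 0 r).image_of_continuousOn (B.continuousOn.mono hsrc)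
  have hq0 : ∀ y, y ∉ B '' Metric.closedBall 0 r → q y = 0 := by
    intro y hy
    by_cases hyt : y ∈ B.target
    · simp only [q, hyt, if_true]
      have : g (B.symm y) = 0 := by
        refine hgs _ ?_
        by_contra h
        rw [not_le] at h
        exact hy ⟨B.symm y, by simpa using h.le, B.right_inv hyt⟩
      rw [this, zero_mul]
    · simp only [q, hyt, if_false]
  refine ⟨q, ?_, ?_, ?_, ?_⟩
  · rw [contDiff_iff_contDiffAt]
    intro y
    by_cases hyt : y ∈ B.target
    · have h1 : ContDiffAt ℝ ∞ (fun y => g (B.symm y) * Real.sqrt |(fderiv ℝ B.symm y).det|) y := by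
        refine (hg.contDiffAt.comp y (hB' y hyt)).mul ?_
        have h2 : ContDiffAt ℝ ∞ (fun y => (fderiv ℝ B.symm y).det) y :=
          contDiff_clm_det.contDiffAt.comp y ((hB' y hyt).fderiv_right (by simp))
        exact (h2.abs (hdet y hyt)).sqrt (abs_ne_zero.2 (hdet y hyt))
      refine h1.congr_of_eventuallyEq ?_
      filter_upwards [B.open_target.mem_nhds hyt] with z hz
      simp only [q, hz, if_true]
    · have hyK : y ∉ B '' Metric.closedBall 0 r := by
        rintro ⟨x, hx, rfl⟩
        exact hyt (B.map_source (hsrc hx))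
      refine (contDiffAt_const (c := (0:ℝ))).congr_of_eventuallyEq ?_
      filter_upwards [hKc.isClosed.isOpen_compl.mem_nhds hyK] with z hz
      exact hq0 z hz
  · intro y
    simp only [q]
    split_ifs
    · exact mul_nonneg (hg0 _) (Real.sqrt_nonneg _)
    · exact le_rfl
  · intro y hy
    by_cases hyt : y ∈ B.target
    · simp only [q, hyt, if_true]
      have : g (B.symm y) = 0 := by
        refine hgs _ ?_
        by_contra h
        rw [not_le] at h
        exact hy ⟨B.symm y, by simpa using h, B.right_inv hyt⟩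
      rw [this, zero_mul]
    · simp only [q, hyt, if_false]
  · -- the change of variables
    have hball : Metric.ball (0 : EuclideanSpace ℝ (Fin d)) r ⊆ B.source :=
      Metric.ball_subset_closedBall.trans hsrc
    have hopen : IsOpen (B '' Metric.ball 0 r) := B.isOpen_image_of_subset_source Metric.isOpen_ball hball
    ext s hs
    rw [Measure.map_apply hBf hs, withDensity_apply _ (hBf hs), withDensity_apply _ hs]
    -- left side
    have hL : ∫⁻ x in Bf ⁻¹' s, ENNReal.ofReal (g x ^ 2)
        = ∫⁻ x in (Bf ⁻¹' s) ∩ Metric.ball 0 r, ENNReal.ofReal (g x ^ 2) := by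
      rw [← lintegral_indicator (hBf hs), ← lintegral_indicator ((hBf hs).inter measurableSet_ball)]
      refine lintegral_congr fun x => ?_
      by_cases hx : x ∈ Metric.ball (0 : EuclideanSpace ℝ (Fin d)) r
      · by_cases hx2 : x ∈ Bf ⁻¹' s
        · rw [indicator_of_mem hx2, indicator_of_mem (show x ∈ Bf ⁻¹' s ∩ Metric.ball 0 r from ⟨hx2, hx⟩)]
        · rw [indicator_of_notMem hx2, indicator_of_notMem (fun h : x ∈ Bf ⁻¹' s ∩ Metric.ball 0 r => hx2 h.1)]
      · rw [indicator_of_notMem (fun h : x ∈ Bf ⁻¹' s ∩ Metric.ball 0 r => hx h.2)]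
        have : g x = 0 := hgs x (by simpa using hx)
        rw [indicator_apply, this]
        simp
    have hR : ∫⁻ y in s, ENNReal.ofReal (q y ^ 2)
        = ∫⁻ y in s ∩ B '' Metric.ball 0 r, ENNReal.ofReal (q y ^ 2) := by
      rw [← lintegral_indicator hs, ← lintegral_indicator (hs.inter hopen.measurableSet)]
      refine lintegral_congr fun y => ?_
      by_cases hy : y ∈ B '' Metric.ball 0 r
      · by_cases hy2 : y ∈ s
        · rw [indicator_of_mem hy2, indicator_of_mem (show y ∈ s ∩ B '' Metric.ball 0 r from ⟨hy2, hy⟩)]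
        · rw [indicator_of_notMem hy2, indicator_of_notMem (fun h : y ∈ s ∩ B '' Metric.ball 0 r => hy2 h.1)]
      · rw [indicator_of_notMem (fun h : y ∈ s ∩ B '' Metric.ball 0 r => hy h.2)]
        have : q y = 0 := by
          by_cases hyt : y ∈ B.target
          · simp only [q, hyt, if_true]
            have : g (B.symm y) = 0 := by
              refine hgs _ ?_
              by_contra h
              rw [not_le] at h
              exact hy ⟨B.symm y, by simpa using h, B.right_inv hyt⟩
            rw [this, zero_mul]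
          · simp only [q, hyt, if_false]
        rw [indicator_apply, this]
        simp
    have himg : (Bf ⁻¹' s) ∩ Metric.ball 0 r = B.symm '' (s ∩ B '' Metric.ball 0 r) := by
      ext x
      constructor
      · rintro ⟨hx1, hx2⟩
        refine ⟨B x, ⟨?_, x, hx2, rfl⟩, B.left_inv (hball hx2)⟩
        rw [← hBfB x hx2]; exact hx1
      · rintro ⟨y, ⟨hy1, x, hx, rfl⟩, rfl⟩
        rw [B.left_inv (hball hx)]
        refine ⟨?_, hx⟩
        show Bf x ∈ s
        rw [hBfB x hx]; exact hy1
    have htgt : ∀ y ∈ s ∩ B '' Metric.ball 0 r, y ∈ B.target := by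
      rintro y ⟨_, x, hx, rfl⟩
      exact B.map_source (hball hx)
    rw [hL, hR, himg, lintegral_image_eq_lintegral_abs_det_fderiv_mul volume
      (hs.inter hopen.measurableSet) (f := B.symm) (f' := fun y => fderiv ℝ B.symm y)]
    · refine setLIntegral_congr_fun (hs.inter hopen.measurableSet) fun y hy => ?_
      have hyt := htgt y hy
      simp only [q, hyt, if_true]
      rw [mul_pow, Real.sq_sqrt (abs_nonneg _), ← ENNReal.ofReal_mul (abs_nonneg _), mul_comm]
    · intro y hy
      exact ((hB' y (htgt y hy)).differentiableAt (by simp)).hasFDerivAt.hasFDerivWithinAt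
    · intro y1 hy1 y2 hy2 h
      exact B.symm.injOn (htgt y1 hy1) (htgt y2 hy2) h

end Crest.Agent.S0175
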