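import Mathlib
import Crest.Agent.S0175_Approx2
import Crest.Agent.S0175_Density

set_option autoImplicit false
open MeasureTheory Crest.AnalysisR.OT
open scoped ENNReal ContDiff Topology
open Filter

namespace Crest.Agent.S0175


/-- a normalised radial bump whose square has integral one -/
theorem exists_bump (d : ℕ) (r : ℝ) (hr : 0 < r) :
    ∃ g : EuclideanSpace ℝ (Fin d) → ℝ, ContDiff ℝ ∞ g ∧ (∀ x, 0 ≤ g x) ∧
      (∀ x, r ≤ ‖x‖ → g x = 0) ∧ (∀ x y, ‖x‖ = ‖y‖ → g x = g y) ∧
      ∫⁻ x, ENNReal.ofReal (g x ^ 2) = 1 := by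
  let G : EuclideanSpace ℝ (Fin d) → ℝ := fun x => expNegInvGlue (r ^ 2 - ‖x‖ ^ 2)
  have hG : ContDiff ℝ ∞ G := by
    apply expNegInvGlue.contDiff.comp
    exact contDiff_const.sub (contDiff_norm_sq ℝ)
  have hG0 : ∀ x, 0 ≤ G x := fun x => expNegInvGlue.nonneg _
  have hGs : ∀ x, r ≤ ‖x‖ → G x = 0 := by
    intro x hx
    apply expNegInvGlue.zero_of_nonpos
    nlinarith [norm_nonneg x]
  have hGc : HasCompactSupport (fun x => G x ^ 2) := by
    apply HasCompactSupport.intro (isCompact_closedBall (0 : EuclideanSpace ℝ (Fin d)) r)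
    intro x hx
    rw [Metric.mem_closedBall, dist_zero_right, not_le] at hx
    rw [hGs x hx.le]; norm_num
  have hGcont : Continuous (fun x => G x ^ 2) := hG.continuous.pow 2
  have hpos : 0 < ∫ x, G x ^ 2 := by
    apply hGcont.integral_pos_of_hasCompactSupport_nonneg_nonzero hGc (fun x => sq_nonneg _)
      (x := 0)
    have : 0 < G 0 := by
      apply expNegInvGlue.pos_of_pos
      simp; positivity
    positivity
  set Z := ∫ x, G x ^ 2 with hZ
  have hint : Integrable (fun x => G x ^ 2) := hGcont.integrable_of_hasCompactSupport hGc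
  refine ⟨fun x => (√Z)⁻¹ * G x, contDiff_const.mul hG, fun x => mul_nonneg (by positivity) (hG0 x),
    fun x hx => by simp only; rw [hGs x hx, mul_zero], fun x y hxy => by simp only [G, hxy], ?_⟩
  have h1 : ∀ x, ((√Z)⁻¹ * G x) ^ 2 = Z⁻¹ * G x ^ 2 := by
    intro x
    rw [mul_pow, inv_pow, Real.sq_sqrt hpos.le]
  simp only [h1]
  rw [← ofReal_integral_eq_lintegral_ofReal (hint.const_mul _)
    (Eventually.of_forall fun x => by positivity), integral_const_mul, ← hZ,
    inv_mul_cancel₀ hpos.ne', ENNReal.ofReal_one]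

theorem map_R_withDensity {d : ℕ} (R : EuclideanSpace ℝ (Fin d) ≃ₗᵢ[ℝ] EuclideanSpace ℝ (Fin d))
    (hR : ∀ x, R (R x) = x) {f : EuclideanSpace ℝ (Fin d) → ℝ≥0∞} (hf : Measurable f) :
    (volume.withDensity f).map R = volume.withDensity (fun x => f (R x)) := by
  have hRm : Measurable R := R.continuous.measurable
  have hmp : MeasurePreserving R volume volume := R.measurePreserving
  apply Measure.ext_of_lintegral
  intro φ hφ
  have hφR : Measurable (fun x => φ (R x)) := hφ.comp hRm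
  have hfR : Measurable (fun x => f (R x)) := hf.comp hRm
  rw [lintegral_map hφ hRm, lintegral_withDensity_eq_lintegral_mul _ hf hφR,
    lintegral_withDensity_eq_lintegral_mul _ hfR hφ]
  conv_rhs => rw [← hmp.lintegral_comp (hfR.mul hφ)]
  apply lintegral_congr
  intro x
  simp [hR]

theorem S0175_main (d : ℕ) (hd : 2 ≤ d) (s : ℝ) (hs : 0 < s) :
    ∃ ρ : EuclideanSpace ℝ (Fin d) → ℝ, (∀ x, 0 ≤ ρ x) ∧ ContDiff ℝ ∞ ρ ∧ HasCompactSupport ρ ∧
      ContDiff ℝ ∞ (fun x => Real.sqrt (ρ x)) ∧ ∫ x, ρ x = 1 ∧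
      ∃ π₀ : Measure (EuclideanSpace ℝ (Fin d) × EuclideanSpace ℝ (Fin d) × EuclideanSpace ℝ (Fin d)),
        IsCoupling₃ (measOfDensity ρ) π₀ ∧ ∫⁻ p, tripleCost s p ∂π₀ < ⊤ ∧
        (∀ π : Measure (EuclideanSpace ℝ (Fin d) × EuclideanSpace ℝ (Fin d) × EuclideanSpace ℝ (Fin d)), IsCoupling₃ (measOfDensity ρ) π →
          ∫⁻ p, tripleCost s p ∂π₀ ≤ ∫⁻ p, tripleCost s p ∂π) ∧
        (∀ T₂ T₃ : EuclideanSpace ℝ (Fin d) → EuclideanSpace ℝ (Fin d), Measurable T₂ → Measurable T₃ →
          (measOfDensity ρ).map T₂ = measOfDensity ρ → (measOfDensity ρ).map T₃ = measOfDensity ρ →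
          ∫⁻ p, tripleCost s p ∂π₀ < ∫⁻ x, tripleCost s (x, T₂ x, T₃ x) ∂(measOfDensity ρ)) ∧
        (∀ ε : ℝ≥0∞, 0 < ε → ∃ T₂ T₃ : EuclideanSpace ℝ (Fin d) → EuclideanSpace ℝ (Fin d), Measurable T₂ ∧ Measurable T₃ ∧
          (measOfDensity ρ).map T₂ = measOfDensity ρ ∧ (measOfDensity ρ).map T₃ = measOfDensity ρ ∧
          ∫⁻ x, tripleCost s (x, T₂ x, T₃ x) ∂(measOfDensity ρ) < ∫⁻ p, tripleCost s p ∂π₀ + ε) := by
  obtain ⟨K⟩ := exists_cfg_euclidean d hd s hs
  obtain ⟨g, hg, hg0, hgs, hgrad, hgint⟩ := exists_bump d K.r K.hr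
  let m : Measure (EuclideanSpace ℝ (Fin d)) := volume.withDensity (fun x => ENNReal.ofReal (g x ^ 2))
  have hgm : Measurable (fun x => ENNReal.ofReal (g x ^ 2)) :=
    (hg.continuous.measurable.pow_const 2).ennreal_ofReal
  have hm : IsProbabilityMeasure m := by
    constructor
    simp only [m]
    rw [withDensity_apply _ MeasurableSet.univ, Measure.restrict_univ, hgint]
  have hne : Nonempty (Fin d) := ⟨⟨0, by omega⟩⟩
  have hnt : Nontrivial (EuclideanSpace ℝ (Fin d)) := inferInstance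
  have hns : NullSingletonClass m :=
    inferInstanceAs (NullSingletonClass (volume.withDensity (fun x => ENNReal.ofReal (g x ^ 2))))
  have hgA : ∀ x, x ∉ K.SA → g x = 0 := by
    intro x hx
    apply hgs
    have : ¬ ‖x‖ < K.r := by simpa [Cfg.SA] using hx
    linarith
  have hmA : m K.SAᶜ = 0 := by
    simp only [m]
    rw [withDensity_apply _ K.meas_SA.compl, ← lintegral_zero (μ := volume.restrict K.SAᶜ)]
    apply setLIntegral_congr_fun K.meas_SA.compl
    intro x hx
    simp only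
    rw [hgA x hx]; simp
  have hmR : m.map K.R = m := by
    simp only [m]
    rw [map_R_withDensity K.R K.hR hgm]
    congr 1
    funext x
    rw [hgrad (K.R x) x (K.R.norm_map x)]
  obtain ⟨qB, hqB, hqB0, hqBs, hqBm⟩ := exists_pushforward_density K.B K.B_smooth K.B_symm_smooth
    g hg hg0 K.r K.hr hgs K.hsB K.bt K.meas_bt (fun x hx => K.bt_eq hx)
  obtain ⟨qC, hqC, hqC0, hqCs, hqCm⟩ := exists_pushforward_density K.C K.C_smooth K.C_symm_smooth
    g hg hg0 K.r K.hr hgs K.hsC K.ct K.meas_ct (fun x hx => K.ct_eq hx)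
  have hRc : ContDiff ℝ ∞ K.R := K.R.contDiff
  let q : EuclideanSpace ℝ (Fin d) → ℝ := fun x =>
    (√3)⁻¹ * g x + (√6)⁻¹ * (qB x + qC x + qB (K.R x) + qC (K.R x))
  have hq : ContDiff ℝ ∞ q := by
    have h1 := hqB.comp hRc
    have h2 := hqC.comp hRc
    exact (contDiff_const.mul hg).add (contDiff_const.mul (((hqB.add hqC).add h1).add h2))
  have hq0 : ∀ x, 0 ≤ q x := by
    intro x
    have := hg0 x
    have := hqB0 x
    have := hqC0 x
    have := hqB0 (K.R x)
    have := hqC0 (K.R x)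
    positivity
  have hqS : ∀ x, x ∉ K.S → q x = 0 := by
    intro x hx
    have h1 : x ∉ K.SA := fun h => hx (K.mem_S_A h)
    have h2 : x ∉ K.SB := fun h => hx (K.mem_S_B h)
    have h3 : x ∉ K.SC := fun h => hx (K.mem_S_C h)
    have h4 : K.R x ∉ K.SB := fun h => hx (K.mem_S_B' h)
    have h5 : K.R x ∉ K.SC := fun h => hx (K.mem_S_C' h)
    simp only [q]
    rw [hgA x h1, hqBs x h2, hqCs x h3, hqBs _ h4, hqCs _ h5]
    simp
  have hqsq : ∀ x, q x ^ 2 = 1 / 3 * g x ^ 2 + 1 / 6 * (qB x ^ 2 + qC x ^ 2 + qB (K.R x) ^ 2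
      + qC (K.R x) ^ 2) := by
    intro x
    have prodzero : ∀ {u v : ℝ} {P Q : Prop}, (¬ P → u = 0) → (¬ Q → v = 0) → (P → Q → False) →
        u * v = 0 := by
      intro u v P Q h1 h2 h3
      by_cases hP : P
      · have hQ : ¬ Q := fun h => h3 hP h
        rw [h2 hQ, mul_zero]
      · rw [h1 hP, zero_mul]
    have p1 : g x * qB x = 0 := prodzero (hgA x) (hqBs x) (fun a b => K.not_AB a b)
    have p2 : g x * qC x = 0 := prodzero (hgA x) (hqCs x) (fun a b => K.not_AC a b)
    have p3 : g x * qB (K.R x) = 0 := prodzero (hgA x) (hqBs _) (fun a b => K.not_AB' a b)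
    have p4 : g x * qC (K.R x) = 0 := prodzero (hgA x) (hqCs _) (fun a b => K.not_AC' a b)
    have p5 : qB x * qC x = 0 := prodzero (hqBs x) (hqCs x) (fun a b => K.not_BC a b)
    have p6 : qB x * qB (K.R x) = 0 := prodzero (hqBs x) (hqBs _) (fun a b => K.not_BB' a b)
    have p7 : qB x * qC (K.R x) = 0 := prodzero (hqBs x) (hqCs _) (fun a b => K.not_BC' a b)
    have p8 : qC x * qB (K.R x) = 0 := prodzero (hqCs x) (hqBs _) (fun a b => K.not_CB' a b)
    have p9 : qC x * qC (K.R x) = 0 := prodzero (hqCs x) (hqCs _) (fun a b => K.not_CC' a b)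
    have p10 : qB (K.R x) * qC (K.R x) = 0 := prodzero (hqBs _) (hqCs _) (fun a b => K.not_BC a b)
    have s3 : ((√3)⁻¹ : ℝ) ^ 2 = 1 / 3 := by
      rw [inv_pow, Real.sq_sqrt (by norm_num)]; norm_num
    have s6 : ((√6)⁻¹ : ℝ) ^ 2 = 1 / 6 := by
      rw [inv_pow, Real.sq_sqrt (by norm_num)]; norm_num
    simp only [q]
    linear_combination (g x ^ 2) * s3 + (qB x + qC x + qB (K.R x) + qC (K.R x)) ^ 2 * s6
      + 2 * (√3)⁻¹ * (√6)⁻¹ * (p1 + p2 + p3 + p4)
      + 1 / 3 * (p5 + p6 + p7 + p8 + p9 + p10)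
  have hmeas : measOfDensity (fun x => q x ^ 2) = K.mu m := by
    unfold measOfDensity Cfg.mu
    have eB : m.map K.bt = volume.withDensity (fun y => ENNReal.ofReal (qB y ^ 2)) := hqBm
    have eC : m.map K.ct = volume.withDensity (fun y => ENNReal.ofReal (qC y ^ 2)) := hqCm
    have mB : Measurable (fun y => ENNReal.ofReal (qB y ^ 2)) :=
      (hqB.continuous.measurable.pow_const 2).ennreal_ofReal
    have mC : Measurable (fun y => ENNReal.ofReal (qC y ^ 2)) :=
      (hqC.continuous.measurable.pow_const 2).ennreal_ofReal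
    have eB' : m.map (fun a => K.R (K.bt a)) =
        volume.withDensity (fun y => ENNReal.ofReal (qB (K.R y) ^ 2)) := by
      rw [← map_R_withDensity K.R K.hR mB, ← eB, Measure.map_map K.meas_R K.meas_bt]
      rfl
    have eC' : m.map (fun a => K.R (K.ct a)) =
        volume.withDensity (fun y => ENNReal.ofReal (qC (K.R y) ^ 2)) := by
      rw [← map_R_withDensity K.R K.hR mC, ← eC, Measure.map_map K.meas_R K.meas_ct]
      rfl
    rw [eB, eC, eB', eC']
    have mB' : Measurable (fun y => ENNReal.ofReal (qB (K.R y) ^ 2)) := mB.comp K.meas_R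
    have mC' : Measurable (fun y => ENNReal.ofReal (qC (K.R y) ^ 2)) := mC.comp K.meas_R
    rw [← withDensity_add_left mB, ← withDensity_add_left (mB.add mC),
      ← withDensity_add_left ((mB.add mC).add mB'),
      ← withDensity_smul _ (((mB.add mC).add mB').add mC')]
    simp only [m]
    rw [← withDensity_smul _ hgm, ← withDensity_add_left (hgm.const_smul _)]
    congr 1
    funext x
    simp only [Pi.add_apply, Pi.smul_apply, smul_eq_mul]
    have t3 : (3 : ℝ≥0∞)⁻¹ = ENNReal.ofReal (1 / 3) := by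
      rw [one_div, ENNReal.ofReal_inv_of_pos (by norm_num)]; norm_num
    have t6 : (6 : ℝ≥0∞)⁻¹ = ENNReal.ofReal (1 / 6) := by
      rw [one_div, ENNReal.ofReal_inv_of_pos (by norm_num)]; norm_num
    rw [hqsq x, t3, t6, ← ENNReal.ofReal_mul (by norm_num),
      ← ENNReal.ofReal_add (by positivity) (by positivity),
      ← ENNReal.ofReal_add (by positivity) (by positivity),
      ← ENNReal.ofReal_add (by positivity) (by positivity),
      ← ENNReal.ofReal_mul (by norm_num), ← ENNReal.ofReal_add (by positivity) (by positivity)]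
  have hprob : IsProbabilityMeasure (K.mu m) := inferInstance
  refine ⟨fun x => q x ^ 2, fun x => sq_nonneg _, hq.pow 2, ?_, ?_, ?_, K.plan m, ?_⟩
  · apply HasCompactSupport.intro (isCompact_closedBall (0 : EuclideanSpace ℝ (Fin d)) 2)
    intro x hx
    rw [Metric.mem_closedBall, dist_zero_right, not_le] at hx
    have : x ∉ K.S := by
      rintro (h | h)
      · have := K.nearA h
        have := K.hρ
        linarith
      · have := K.norm_lt_of_outer h
        linarith
    rw [hqS x this]; norm_num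
  · have : (fun x => √(q x ^ 2)) = q := by
      funext x
      exact Real.sqrt_sq (hq0 x)
    rw [this]; exact hq
  · have h1 : ∫⁻ x, ENNReal.ofReal (q x ^ 2) = 1 := by
      have h2 := hprob.measure_univ
      rw [← hmeas] at h2
      unfold measOfDensity at h2
      rwa [withDensity_apply _ MeasurableSet.univ, Measure.restrict_univ] at h2
    rw [integral_eq_lintegral_of_nonneg_ae (Eventually.of_forall fun x => sq_nonneg _)
      (hq.continuous.pow 2).aestronglyMeasurable, h1]
    simp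
  · rw [hmeas]
    exact ⟨K.plan_coupling m hmR, K.plan_cost_lt_top m hmR hmA,
      fun π hπ => K.plan_optimal m hmR hmA hπ,
      fun T₂ T₃ h2 h3 hm2 hm3 => K.monge_strict m hmR hmA h2 h3 hm2 hm3,
      fun ε hε => K.exists_monge m hmR hmA hε⟩

end Crest.Agent.S0175
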