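import Crest.Statements.S0209
import Crest.Agent.GasFinal

set_option autoImplicit false
open Crest Crest.ProbabilityR

namespace Crest.Agent.S0209

/-- There is a bounded continuous stable radial pair potential in three-space (energy of `N` particles `≥ -B N`) with `φ(r)` at most `C r^(-3-1/32)` in size for `r ≥ 1`, an open density interval centred at `5p/3`, `p > 0` the unit-separation packing density (`packingNumber L / L^3 → p`), and one `β_c ∈ [7/8, 9/8]` such that at each `ρ` in it the free energy per volume `-lim_L log Z_{[0,L]^3, ⌊ρL^3⌋}(β)/(β L^3)` exists for `β > 0`, with one-sided `β`-derivatives at `β_c`, left above right. -/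
theorem result :
    ∃ φ : ℝ → ℝ, Continuous φ ∧ (∃ M : ℝ, ∀ r : ℝ, |φ r| ≤ M) ∧
      (∃ B : ℝ, ∀ (N : ℕ) (x : Fin N → Crest.ProbabilityR.Continuum.Pt), -B * N ≤ Crest.ProbabilityR.Continuum.energy φ x) ∧
      (∃ C : ℝ, ∀ r : ℝ, 1 ≤ r → |φ r| ≤ C * r ^ (-(3 + 1 / 32 : ℝ))) ∧
      ∃ p η βc : ℝ, 0 < p ∧
        Filter.Tendsto (fun L : ℝ => (Crest.ProbabilityR.Continuum.packingNumber L : ℝ) / L ^ 3)
          Filter.atTop (nhds p) ∧
        0 < η ∧ η ≤ 5 * p / 3 ∧ 7 / 8 ≤ βc ∧ βc ≤ 9 / 8 ∧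
        ∃ f : ℝ → ℝ → ℝ,
          (∀ ρ : ℝ, 5 * p / 3 - η < ρ → ρ < 5 * p / 3 + η → ∀ β : ℝ, 0 < β →
            Filter.Tendsto (fun L : ℝ => -(1 / (β * L ^ 3)) *
                Real.log (Crest.ProbabilityR.Continuum.partitionFn φ L ⌊ρ * L ^ 3⌋₊ β))
              Filter.atTop (nhds (f β ρ))) ∧
          (∀ ρ : ℝ, 5 * p / 3 - η < ρ → ρ < 5 * p / 3 + η → ∃ Dl Dr : ℝ,
            HasDerivWithinAt (fun β => f β ρ) Dl (Set.Iio βc) βc ∧
            HasDerivWithinAt (fun β => f β ρ) Dr (Set.Ioi βc) βc ∧ Dr < Dl) := by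
  obtain ⟨m, sa, sc, sd, hm, hsa, hac, hcd, hd, hcap, hc⟩ := Crest.Agent.Gas.exists_capacity
  obtain ⟨p, hp1, hp⟩ := Crest.Agent.Gas.exists_packing_limit
  obtain ⟨A, r, t0, a0, hA, hr, hr2, ht0, hmain⟩ :=
    Crest.Agent.Gas.main_kink hm hsa hac hcd hd hcap hc hp1 hp
  obtain ⟨φ, hφ, hφc, hφA⟩ :=
    Crest.Agent.Gas.exists_cont_core hA hr hr2 ht0 (by linarith) hac hcd hd
  obtain ⟨ε, L, S, hε0, hε, hεa, hLL, hdec, tc, htc1, htc2, hjump⟩ := hmain φ hφ
  obtain ⟨C, hC0, hC⟩ := S.decay_tot hε0 hε hLL hdec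
  have hv := Crest.Agent.Gas.volB_pos (R := 1) one_pos
  refine ⟨Crest.Agent.Gas.fam φ ε L, ?_, ?_, ?_, ⟨C, hC⟩, p, p / 12, tc, by linarith, hp,
    by linarith, by linarith, by linarith, by linarith,
    fun β ρ => 1 / β * Crest.Agent.Gas.Fe (fun x => β * Crest.Agent.Gas.fam φ ε L x) ρ, ?_, ?_⟩
  · exact hφc.sub (Crest.Agent.Gas.continuous_tail (fun j => (hε0 j).le) hε S.hL)
  · refine ⟨A + (∑' j, ε j) * (1 / Crest.Agent.Gas.volB 1), ?_⟩
    intro x
    have h1 := Crest.Agent.Gas.tail_le S.hL hε0 hε x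
    have h2 := Crest.Agent.Gas.tail_nonneg (L := L) (fun j => (hε0 j).le) x
    have h3 := hφ.nonneg x
    have h4 := hφA x
    unfold Crest.Agent.Gas.fam
    rw [abs_le]
    constructor <;> linarith
  · exact S.stable_tot hε0 hε hεa
  · intro ρ h1 h2 β hβ
    exact Crest.Agent.Gas.tendsto_f (S.meas_tot hε0 hε)
      (S.adm (fun j => (hε0 j).le) hε hεa hβ) (by linarith)
  · intro ρ h1 h2
    obtain ⟨eL, eR, he, hl, hr'⟩ := hjump ρ (by linarith) (by linarith)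
    exact S.jump hε0 hε hεa htc1 htc2 (by linarith) he hl hr'

end Crest.Agent.S0209
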