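import Crest.Statements.S0210
import Crest.Agent.GasFinal

set_option autoImplicit false
open Crest Crest.ProbabilityR

namespace Crest.Agent.S0210

/-- There is a measurable radial pair potential in three-space, finite and locally bounded at positive distances, tending to `+∞` at `0`, below `-a < 0` on an interval, with `r² φ(r)` integrable at large `r`, `r³ φ(r) → 0`, and stable on configurations of distinct points, whose canonical free energy per volume `-lim_L log Z_{[0,L]^3, ⌊ρL^3⌋}(β)/(β L^3)` exists for all `β, ρ > 0` and has, on some open density interval, at one `β_c ∈ (1/2, 3/2)` a left `β`-derivative strictly above the right. -/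
theorem result :
    ∃ φ : ℝ → ℝ, Measurable φ ∧
      (∀ a b : ℝ, 0 < a → a ≤ b → ∃ M : ℝ, ∀ r : ℝ, a ≤ r → r ≤ b → |φ r| ≤ M) ∧
      Filter.Tendsto φ (nhdsWithin 0 (Set.Ioi 0)) Filter.atTop ∧
      (∃ r₁ r₂ a : ℝ, 0 < r₁ ∧ r₁ < r₂ ∧ 0 < a ∧ ∀ r : ℝ, r₁ ≤ r → r ≤ r₂ → φ r ≤ -a) ∧
      (∃ R : ℝ, 0 < R ∧ MeasureTheory.IntegrableOn (fun r : ℝ => r ^ 2 * |φ r|) (Set.Ioi R)) ∧
      Filter.Tendsto (fun r : ℝ => r ^ 3 * φ r) Filter.atTop (nhds 0) ∧
      (∃ B : ℝ, ∀ (N : ℕ) (x : Fin N → Crest.ProbabilityR.Continuum.Pt), Function.Injective x →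
        -B * N ≤ Crest.ProbabilityR.Continuum.energy φ x) ∧
      ∃ f : ℝ → ℝ → ℝ,
        (∀ ρ : ℝ, 0 < ρ → ∀ β : ℝ, 0 < β →
          Filter.Tendsto (fun L : ℝ => -(1 / (β * L ^ 3)) *
              Real.log (Crest.ProbabilityR.Continuum.partitionFn φ L ⌊ρ * L ^ 3⌋₊ β))
            Filter.atTop (nhds (f β ρ))) ∧
        ∃ ρ₁ ρ₂ βc : ℝ, 0 ≤ ρ₁ ∧ ρ₁ < ρ₂ ∧ 1 / 2 < βc ∧ βc < 3 / 2 ∧
          ∀ ρ : ℝ, ρ₁ < ρ → ρ < ρ₂ → ∃ Dl Dr : ℝ,
            HasDerivWithinAt (fun β => f β ρ) Dl (Set.Iio βc) βc ∧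
            HasDerivWithinAt (fun β => f β ρ) Dr (Set.Ioi βc) βc ∧ Dr < Dl := by
  obtain ⟨m, sa, sc, sd, hm, hsa, hac, hcd, hd, hcap, hc⟩ := Crest.Agent.Gas.exists_capacity
  obtain ⟨p, hp1, hp⟩ := Crest.Agent.Gas.exists_packing_limit
  obtain ⟨A, r, t0, a0, hA, hr, hr2, ht0, hmain⟩ :=
    Crest.Agent.Gas.main_kink hm hsa hac hcd hd hcap hc hp1 hp
  obtain ⟨φ, hφ, hφd, hφb⟩ :=
    Crest.Agent.Gas.exists_div_core hA hr hr2 ht0 (by linarith) hac hcd hd
  obtain ⟨ε, L, S, hε0, hε, hεa, hLL, hdec, tc, htc1, htc2, hjump⟩ := hmain φ hφ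
  obtain ⟨C, hC0, hC⟩ := S.decay_tot hε0 hε hLL hdec
  have hv := Crest.Agent.Gas.volB_pos (R := 1) one_pos
  have hmeas := S.meas_tot hε0 hε
  have hL0 : 0 < L 0 := by linarith [S.hL 0]
  refine ⟨Crest.Agent.Gas.fam φ ε L, hmeas, ?_, ?_, ?_, ⟨1, one_pos, ?_⟩, ?_, ?_,
    fun β ρ => 1 / β * Crest.Agent.Gas.Fe (fun x => β * Crest.Agent.Gas.fam φ ε L x) ρ, ?_,
    3 / 2 * p, 7 / 4 * p, tc, by linarith, by linarith, by linarith, by linarith, ?_⟩
  · intro a b ha hab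
    obtain ⟨M, hM⟩ := hφb a ha
    refine ⟨M + (∑' j, ε j) * (1 / Crest.Agent.Gas.volB 1), ?_⟩
    intro x hx hx'
    have h1 := Crest.Agent.Gas.tail_le S.hL hε0 hε x
    have h2 := Crest.Agent.Gas.tail_nonneg (L := L) (fun j => (hε0 j).le) x
    have h3 := hφ.nonneg x
    have h4 := hM x hx
    unfold Crest.Agent.Gas.fam
    rw [abs_le]
    constructor <;> linarith
  · have h1 := Filter.tendsto_atTop_add_const_right (nhdsWithin (0:ℝ) (Set.Ioi 0))
      (-((∑' j, ε j) * (1 / Crest.Agent.Gas.volB 1))) hφd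
    refine Filter.tendsto_atTop_mono ?_ h1
    intro x
    have h2 := Crest.Agent.Gas.tail_le S.hL hε0 hε x
    unfold Crest.Agent.Gas.fam
    linarith
  · have hKpos : 0 < Crest.Agent.Gas.KK (L 0) 2 := by
      apply Crest.Agent.Gas.KK_pos hL0
      rw [abs_of_nonneg (by norm_num)]
      linarith [S.hL 0]
    refine ⟨1, 2, ε 0 * Crest.Agent.Gas.KK (L 0) 2, one_pos, one_lt_two,
      mul_pos (hε0 0) hKpos, ?_⟩
    intro x h1 h2
    have h3 : ε 0 * Crest.Agent.Gas.KK (L 0) x ≤ ∑' j, ε j * Crest.Agent.Gas.KK (L j) x :=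
      (Crest.Agent.Gas.summable_fam (fun j => (hε0 j).le) hε S.hL x).le_tsum 0
        (fun j _ => mul_nonneg (hε0 j).le (Crest.Agent.Gas.KK_nonneg _ _))
    have h4 := mul_le_mul_of_nonneg_left
      (Crest.Agent.Gas.KK_antitone hL0 (by linarith : 0 ≤ x) h2) (hε0 0).le
    unfold Crest.Agent.Gas.fam
    rw [hφ.far x h1]
    linarith
  · -- integrability
    have h1 : MeasureTheory.IntegrableOn (fun x : ℝ => C * x ^ (-(1 + 1 / 32 : ℝ))) (Set.Ioi 1) :=
      (integrableOn_Ioi_rpow_of_lt (by norm_num) one_pos).const_mul C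
    refine MeasureTheory.Integrable.mono' h1 ?_ ?_
    · exact ((measurable_id.pow_const 2).mul hmeas.abs).aestronglyMeasurable
    · refine (MeasureTheory.ae_restrict_iff' measurableSet_Ioi).2 (Filter.Eventually.of_forall ?_)
      intro x hx
      have hx1 : 1 ≤ x := le_of_lt hx
      have hx0 : 0 < x := by linarith
      have h2 := hC x hx1
      rw [Real.norm_of_nonneg (by positivity)]
      have h3 := mul_le_mul_of_nonneg_left h2 (by positivity : 0 ≤ x ^ 2)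
      have h4 : x ^ 2 * (C * x ^ (-(3 + 1 / 32 : ℝ))) = C * x ^ (-(1 + 1 / 32 : ℝ)) := by
        have : x ^ (-(1 + 1 / 32 : ℝ)) = x ^ 2 * x ^ (-(3 + 1 / 32 : ℝ)) := by
          rw [← Real.rpow_natCast, ← Real.rpow_add hx0]
          norm_num
        rw [this]
        ring
      rw [h4] at h3
      exact h3
  · -- r^3 φ → 0
    have h1 : Filter.Tendsto (fun x : ℝ => C * x ^ (-(1 / 32 : ℝ))) Filter.atTop (nhds 0) := by
      have := (tendsto_rpow_neg_atTop (show (0:ℝ) < 1 / 32 by norm_num)).const_mul C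
      rwa [mul_zero] at this
    refine squeeze_zero_norm' ?_ h1
    filter_upwards [Filter.eventually_ge_atTop 1] with x hx1
    have hx0 : 0 < x := by linarith
    have h2 := hC x hx1
    rw [norm_mul, Real.norm_of_nonneg (by positivity), Real.norm_eq_abs]
    have h3 := mul_le_mul_of_nonneg_left h2 (by positivity : 0 ≤ x ^ 3)
    have h4 : x ^ 3 * (C * x ^ (-(3 + 1 / 32 : ℝ))) = C * x ^ (-(1 / 32 : ℝ)) := by
      have : x ^ (-(1 / 32 : ℝ)) = x ^ 3 * x ^ (-(3 + 1 / 32 : ℝ)) := by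
        rw [← Real.rpow_natCast, ← Real.rpow_add hx0]
        norm_num
      rw [this]
      ring
    rw [h4] at h3
    exact h3
  · obtain ⟨B, hB⟩ := S.stable_tot hε0 hε hεa
    exact ⟨B, fun N x _ => hB N x⟩
  · intro ρ hρ β hβ
    exact Crest.Agent.Gas.tendsto_f hmeas (S.adm (fun j => (hε0 j).le) hε hεa hβ) hρ.le
  · intro ρ h1 h2
    obtain ⟨eL, eR, he, hl, hr'⟩ := hjump ρ h1.le h2.le
    exact S.jump hε0 hε hεa htc1 htc2 (by linarith) he hl hr'

end Crest.Agent.S0210
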