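import Crest.Statements.S0217
import Crest.Agent.RS_T13
import Crest.Agent.RS_T14
import Crest.Agent.RS_T16

set_option autoImplicit false
open Crest Crest.ProbabilityR

namespace Crest.Agent.S0217

open Crest.Agent.RS in
/-- Fix a clause length `k ≥ 3`. Add independent uniformly random clauses, each with `k` literals of independent fair sign on `k` distinct variables among `n` (repetitions allowed); let `H` be the number of clauses present when the formula first becomes unsatisfiable. Then the variance of `H` is at most a constant multiple of `n`, for all `n ≥ k`, the constant depending only on `k`. Mean and second moment of `H` enter as tail sums of the probabilities that `m` random clauses are satisfiable. -/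
theorem result (k : ℕ) (hk : 3 ≤ k) :
    ∃ C : ℝ, ∀ n : ℕ, k ≤ n →
      Summable (fun m : ℕ => Crest.ProbabilityR.RandomSAT.satProb k n m) ∧
      Summable (fun m : ℕ => (2 * (m : ℝ) + 1) * Crest.ProbabilityR.RandomSAT.satProb k n m) ∧
      (∑' m : ℕ, (2 * (m : ℝ) + 1) * Crest.ProbabilityR.RandomSAT.satProb k n m)
          - (∑' m : ℕ, Crest.ProbabilityR.RandomSAT.satProb k n m) ^ 2 ≤ C * n := by
  obtain ⟨lam0, C, hC, htail⟩ := tail_bound k (by omega)
  obtain ⟨K0, hK0, N0, hfirst⟩ := first_step hk lam0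
  refine ⟨lam0 * K0 + ((lam0 : ℝ) * N0 + 1) ^ 2 + C, fun n hn => ?_⟩
  obtain ⟨hs1, hs2⟩ := summable_satProb k n (by omega) hn
  refine ⟨hs1, hs2, ?_⟩
  have hn1 : (1 : ℝ) ≤ n := by exact_mod_cast (by omega : 1 ≤ n)
  set q : ℕ → ℝ := fun m => Crest.ProbabilityR.RandomSAT.satProb k n m with hq
  have hq0 : ∀ m, 0 ≤ q m := fun m => satProb_nonneg k n m
  set M := lam0 * n with hM
  have hJ := avgL_J k n M hn
  have hJ2 := avgL_J_sq k n M hn
  haveI : Nonempty (Cl k (Fin n)) := ⟨(Fin.castLEEmb hn, fun _ => true)⟩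
  -- splitting of the series
  have e2 : (∑' m : ℕ, (2 * (m : ℝ) + 1) * q m) =
      ∑ m ∈ Finset.range (M + 1), (2 * (m : ℝ) + 1) * q m +
        ∑' m : ℕ, (2 * ((m + (M + 1) : ℕ) : ℝ) + 1) * q (m + (M + 1)) :=
    (hs2.sum_add_tsum_nat_add (M + 1)).symm
  have e1 : ∑ m ∈ Finset.range (M + 1), q m ≤ ∑' m : ℕ, q m :=
    hs1.sum_le_tsum _ (fun m _ => hq0 m)
  have e1' : (∑ m ∈ Finset.range (M + 1), q m) ^ 2 ≤ (∑' m : ℕ, q m) ^ 2 :=
    pow_le_pow_left₀ (Finset.sum_nonneg fun m _ => hq0 m) e1 2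
  have ht := htail n hn
  have key : ∑ m ∈ Finset.range (M + 1), (2 * (m : ℝ) + 1) * q m
      - (∑ m ∈ Finset.range (M + 1), q m) ^ 2 ≤ (lam0 * K0 + ((lam0 : ℝ) * N0 + 1) ^ 2) * n := by
    have g1 : ∑ m ∈ Finset.range (M + 1), (2 * (m : ℝ) + 1) * q m
      - (∑ m ∈ Finset.range (M + 1), q m) ^ 2 =
      avgL M (fun F : List (Cl k (Fin n)) => (run (fun S => ind S.Nonempty) Set.univ F) ^ 2)
      - (avgL M (fun F : List (Cl k (Fin n)) => run (fun S => ind S.Nonempty) Set.univ F)) ^ 2 := by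
      rw [hJ, hJ2]
    rw [g1]
    by_cases hN : N0 ≤ n
    · have g2 := var_bound (k := k) (V := Fin n) M Set.univ
      have g3 := hfirst n hN (Fin n) (Fintype.card_fin n)
      refine g2.trans ?_
      have g4 : (M : ℝ) = lam0 * n := by rw [hM]; push_cast; ring
      calc (M : ℝ) * avg (fun C : Cl k (Fin n) => avgL M (fun F : List (Cl k (Fin n)) =>
            (DD (sset C) Set.univ F) ^ 2)) ≤ (M : ℝ) * K0 :=
            mul_le_mul_of_nonneg_left g3 (Nat.cast_nonneg _)
        _ = (lam0 * K0) * n := by rw [g4]; ring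
        _ ≤ (lam0 * K0 + ((lam0 : ℝ) * N0 + 1) ^ 2) * n := by
            apply mul_le_mul_of_nonneg_right _ (by linarith)
            have : (0:ℝ) ≤ ((lam0 : ℝ) * N0 + 1) ^ 2 := by positivity
            linarith
    · have g2 : avgL M (fun F : List (Cl k (Fin n)) =>
          (run (fun S => ind S.Nonempty) Set.univ F) ^ 2) ≤ ((M : ℝ) + 1) ^ 2 := by
        refine avgL_le_const (by positivity) fun F hF => ?_
        have h1 := run_le_length (φ := fun S : Set (Fin n → Bool) => ind S.Nonempty) (c := 1)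
          (fun _ => ind_le_one _) Set.univ F
        have h0 := run_nonneg (φ := fun S : Set (Fin n → Bool) => ind S.Nonempty)
          (fun _ => ind_nonneg _) Set.univ F
        rw [hF, one_mul] at h1
        exact pow_le_pow_left₀ h0 h1 2
      have g3 : ((M : ℝ) + 1) ≤ (lam0 : ℝ) * N0 + 1 := by
        have : (n : ℝ) ≤ N0 := by exact_mod_cast (not_le.1 hN).le
        rw [hM]; push_cast
        nlinarith [(Nat.cast_nonneg lam0 : (0:ℝ) ≤ lam0)]
      have g4 : ((M : ℝ) + 1) ^ 2 ≤ ((lam0 : ℝ) * N0 + 1) ^ 2 :=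
        pow_le_pow_left₀ (by positivity) g3 2
      have g5 : 0 ≤ (lam0 : ℝ) * K0 := by positivity
      have g6 : 0 ≤ ((lam0 : ℝ) * N0 + 1) ^ 2 := by positivity
      have g7 := sq_nonneg (avgL M (fun F : List (Cl k (Fin n)) =>
        run (fun S => ind S.Nonempty) Set.univ F))
      nlinarith
  have h9 : C ≤ C * n := le_mul_of_one_le_right hC hn1
  rw [e2]
  calc _ ≤ (lam0 * K0 + ((lam0 : ℝ) * N0 + 1) ^ 2) * n + C := by linarith [ht, key, e1']
    _ ≤ _ := by nlinarith

end Crest.Agent.S0217
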