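import Crest.Statements.S0218
import Crest.Agent.KS_Fin

set_option autoImplicit false
open Crest Crest.ProbabilityR

namespace Crest.Agent.S0218

/-- Suppose formulas of independent uniformly random clauses, each with three literals of fair sign on three distinct variables among `n`, have a sharp satisfiability threshold at clause density `α`: at every fixed density below `α` the probability of satisfiability tends to `1` as `n → ∞`, and at every fixed density above `α` it tends to `0`. Then `α` is a computable real number: some computable function `f` on the natural numbers has `f r / 2 ^ r` within `2⁻ʳ` of `α` for every `r`. -/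
theorem result (α : ℝ)
    (hα : Crest.ProbabilityR.RandomSAT.IsSharpThreshold (Crest.ProbabilityR.RandomSAT.satProb 3) α) :
    ∃ f : ℕ → ℕ, Computable f ∧ ∀ r : ℕ, |(f r : ℝ) / 2 ^ r - α| ≤ 1 / 2 ^ r :=
  Crest.Agent.KS.UC.final hα

end Crest.Agent.S0218
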