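import Crest.Agent.S0222_Basic

/-! S0222, task A1: block recursion (helper29). -/

set_option autoImplicit false

namespace Crest.Agent.S0222

open Finset Equiv Crest.ProbabilityR.Shuffle

theorem A1_sum_nxt (m : ℕ) (c : Fin m → Bool) (S : St m) (F : Fin (2 * m) → ℝ → ℝ) :
    ∑ y, F y ((nxt m c S).2 y) = ∑ z, F (stepPerm m c z) (avgv m S.1 S.2 z) := by
  rw [← Equiv.sum_comp (stepPerm m c)]
  apply Finset.sum_congr rfl
  intro z _
  simp [nxt]

theorem A1_avg_pair (m : ℕ) (L : Finset (Fin (2 * m))) (r : Fin (2 * m) → ℝ)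
    (h : ∀ z ∈ L, r z = 0) (z : Fin (2 * m)) :
    avgv m L r z + avgv m L r (prt m z) = r z + r (prt m z) := by
  unfold avgv
  by_cases h1 : z ∈ L <;> by_cases h2 : prt m z ∈ L
  · simp [h1, h2, h _ h1, h _ h2]
  · simp [h1, h2, h _ h1, prt_prt]
  · simp [h1, h2, h _ h2]
  · simp only [h1, h2, if_false, prt_prt]; ring

theorem A1_avg_sq_pair (m : ℕ) (L : Finset (Fin (2 * m))) (r : Fin (2 * m) → ℝ)
    (z : Fin (2 * m)) :
    avgv m L r z ^ 2 + avgv m L r (prt m z) ^ 2 ≤ r z ^ 2 + r (prt m z) ^ 2 := by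
  unfold avgv
  by_cases h1 : z ∈ L <;> by_cases h2 : prt m z ∈ L
  · simp only [h1, h2, if_true]; nlinarith [sq_nonneg (r z), sq_nonneg (r (prt m z))]
  · simp only [h1, h2, if_true, if_false, prt_prt]; nlinarith [sq_nonneg (r z)]
  · simp only [h1, h2, if_true, if_false]; nlinarith [sq_nonneg (r (prt m z))]
  · simp only [h1, h2, if_false, prt_prt]; nlinarith [sq_nonneg (r z - r (prt m z))]

/-- sum over a set invariant under `prt` -/
theorem A1_avg_sum (m : ℕ) (L : Finset (Fin (2 * m))) (r : Fin (2 * m) → ℝ)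
    (h : ∀ z ∈ L, r z = 0) (P : Fin (2 * m) → Prop) [DecidablePred P]
    (hP : ∀ z, P (prt m z) ↔ P z) :
    ∑ z, (if P z then avgv m L r z else 0) = ∑ z, (if P z then r z else 0) := by
  have h1 := sum_prt m (fun z => if P z then avgv m L r z else 0)
  have h2 := sum_prt m (fun z => if P z then r z else 0)
  have h3 : ∑ z, ((if P z then avgv m L r z else 0) + (if P (prt m z) then avgv m L r (prt m z) else 0))
      = ∑ z, ((if P z then r z else 0) + (if P (prt m z) then r (prt m z) else 0)) := by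
    apply Finset.sum_congr rfl
    intro z _
    by_cases hz : P z
    · have hz' : P (prt m z) := (hP z).mpr hz
      simp only [hz, hz', if_true]
      exact A1_avg_pair m L r h z
    · have hz' : ¬ P (prt m z) := fun h => hz ((hP z).mp h)
      simp only [hz, hz', if_false]
  rw [Finset.sum_add_distrib, Finset.sum_add_distrib, h1, h2] at h3
  linarith

theorem A1_adm (m : ℕ) (c : Fin m → Bool) (S : St m) (hS : Adm m S) : Adm m (nxt m c S) := by
  constructor
  · intro z hz
    simp only [nxt, Finset.mem_map_equiv] at hz ⊢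
    simp [avgv, hz]
  · have h := A1_sum_nxt m c S (fun _ x => x)
    rw [h]
    have h2 := A1_avg_sum m S.1 S.2 hS.1 (fun _ => True) (fun _ => Iff.rfl)
    simp only [if_true] at h2
    rw [h2, hS.2]

theorem A1_nrm (m : ℕ) (c : Fin m → Bool) (S : St m) : nrm m (nxt m c S) ≤ nrm m S := by
  unfold nrm
  rw [A1_sum_nxt m c S (fun _ x => x ^ 2)]
  have h1 := sum_prt m (fun z => avgv m S.1 S.2 z ^ 2)
  have h2 := sum_prt m (fun z => S.2 z ^ 2)
  have h3 : ∑ z, (avgv m S.1 S.2 z ^ 2 + avgv m S.1 S.2 (prt m z) ^ 2)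
      ≤ ∑ z, (S.2 z ^ 2 + S.2 (prt m z) ^ 2) :=
    Finset.sum_le_sum (fun z _ => A1_avg_sq_pair m S.1 S.2 z)
  rw [Finset.sum_add_distrib, Finset.sum_add_distrib, h1, h2] at h3
  linarith

/-- sign of a coin -/
def A1_tau (b : Bool) : ℝ := if b then 1 else -1

theorem A1_ex_sign (m : ℕ) (u u' : Fin m) :
    ex (fun c : Fin m → Bool => A1_tau (c u) * A1_tau (c u')) = if u = u' then 1 else 0 := by
  by_cases h : u = u'
  · subst h
    have : ∀ c : Fin m → Bool, A1_tau (c u) * A1_tau (c u) = 1 := by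
      intro c; unfold A1_tau; split_ifs <;> norm_num
    simp only [this, if_true]
    exact ex_const 1
  · simp only [h, if_false]
    let e : (Fin m → Bool) ≃ (Fin m → Bool) :=
      { toFun := fun c => Function.update c u (!(c u))
        invFun := fun c => Function.update c u (!(c u))
        left_inv := by intro c; simp
        right_inv := by intro c; simp }
    have h1 := ex_equiv e (fun c : Fin m → Bool => A1_tau (c u) * A1_tau (c u'))
    have h2 : (fun c : Fin m → Bool => A1_tau (e c u) * A1_tau (e c u'))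
        = fun c => -(A1_tau (c u) * A1_tau (c u')) := by
      funext c
      have e1 : e c u = !(c u) := by simp [e]
      have e2 : e c u' = c u' := by simp [e, Function.update_of_ne (Ne.symm h)]
      rw [e1, e2]
      unfold A1_tau
      cases c u <;> cases c u' <;> simp
    rw [h2, ex_neg] at h1
    linarith

theorem A1_sum_sw (m : ℕ) (z : Fin (2 * m)) (f : Fin (2 * m) → ℝ) :
    ∑ w, (if sw m z = sw m w then f w else 0) = f z + f (prt m z) := by
  have : ∀ w, (if sw m z = sw m w then f w else 0)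
      = (if w = z then f w else 0) + (if w = prt m z then f w else 0) := by
    intro w
    by_cases h1 : w = z
    · subst h1
      simp [Ne.symm (prt_ne m w)]
    · by_cases h2 : w = prt m z
      · subst h2
        simp [prt_ne, sw_prt]
      · have : ¬ sw m z = sw m w := by
          rw [sw_eq_iff]; tauto
        simp [h1, h2, this]
  simp_rw [this]
  rw [Finset.sum_add_distrib]
  simp

/-- sign of a position -/
def A1_sg (m : ℕ) (z : Fin (2 * m)) : ℝ := if m ≤ z.val then -1 else 1

theorem A1_sg_prt (m : ℕ) (z : Fin (2 * m)) : A1_sg m (prt m z) = - A1_sg m z := by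
  have hz := z.isLt
  unfold A1_sg
  rw [prt_val]
  by_cases h : z.val < m
  · simp [h]
  · have h1 : m ≤ z.val := by omega
    have h2 : ¬ (m ≤ z.val - m) := by omega
    simp [h, h1, h2]

theorem A1_sg_sq (m : ℕ) (z : Fin (2 * m)) : A1_sg m z * A1_sg m z = 1 := by
  unfold A1_sg; split_ifs <;> norm_num

/-- second moment of the signed sum -/
theorem A1_second (m : ℕ) (a : Fin (2 * m) → ℝ) :
    ex (fun c : Fin m → Bool => (∑ z, a z * (A1_sg m z * A1_tau (c (sw m z)))) ^ 2)
      = ∑ z, a z * (a z - a (prt m z)) := by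
  have h1 : ∀ c : Fin m → Bool, (∑ z, a z * (A1_sg m z * A1_tau (c (sw m z)))) ^ 2
      = ∑ z, ∑ w, (a z * A1_sg m z * (a w * A1_sg m w)) *
        (A1_tau (c (sw m z)) * A1_tau (c (sw m w))) := by
    intro c
    rw [sq, Finset.sum_mul_sum]
    apply Finset.sum_congr rfl; intro z _
    apply Finset.sum_congr rfl; intro w _
    ring
  simp_rw [h1]
  rw [ex_sum]
  apply Finset.sum_congr rfl
  intro z _
  rw [ex_sum]
  have h2 : ∀ w, ex (fun c : Fin m → Bool => (a z * A1_sg m z * (a w * A1_sg m w)) *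
        (A1_tau (c (sw m z)) * A1_tau (c (sw m w))))
      = if sw m z = sw m w then (a z * A1_sg m z * (a w * A1_sg m w)) else 0 := by
    intro w
    rw [ex_const_mul, A1_ex_sign]
    split_ifs <;> simp
  rw [Finset.sum_congr rfl (fun w _ => h2 w), A1_sum_sw, A1_sg_prt]
  have := A1_sg_sq m z
  calc _ = (A1_sg m z * A1_sg m z) * (a z * (a z - a (prt m z))) := by ring
    _ = _ := by rw [this, one_mul]

theorem A1_step_mod (m g : ℕ) (hdvd : 2 ^ g ∣ m) (c : Fin m → Bool) (z : Fin (2 * m)) :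
    (stepPerm m c z).val % 2 ^ (g + 1) = 2 * (z.val % 2 ^ g) +
      (if xor (decide (m ≤ z.val)) (c (sw m z)) then 1 else 0) := by
  rw [stepPerm_val]
  have h1 : z.val % m % 2 ^ g = z.val % 2 ^ g := Nat.mod_mod_of_dvd _ hdvd
  have hb : (if xor (decide (m ≤ z.val)) (c (sw m z)) then 1 else 0 : ℕ) < 2 := by
    split_ifs <;> norm_num
  generalize (if xor (decide (m ≤ z.val)) (c (sw m z)) then 1 else 0 : ℕ) = b at *
  rw [← h1]
  have hpos : 0 < 2 ^ g := by positivity
  have h2 := Nat.div_add_mod (z.val % m) (2 ^ g)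
  have h3 : z.val % m % 2 ^ g < 2 ^ g := Nat.mod_lt _ hpos
  set x := z.val % m with hx
  have h4 : 2 * x + b = (2 * (x % 2 ^ g) + b) + 2 ^ (g + 1) * (x / 2 ^ g) := by
    conv_lhs => rw [← h2]
    rw [pow_succ]; ring
  rw [h4, Nat.add_mul_mod_self_left]
  apply Nat.mod_eq_of_lt
  rw [pow_succ]; omega

theorem A1_prt_mod (m g : ℕ) (hdvd : 2 ^ g ∣ m) (z : Fin (2 * m)) :
    (prt m z).val % 2 ^ g = z.val % 2 ^ g := by
  obtain ⟨k, hk⟩ := hdvd
  have aux : ∀ x : ℕ, (x + m) % 2 ^ g = x % 2 ^ g := by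
    intro x; rw [hk, Nat.add_mul_mod_self_left]
  rw [prt_val]
  by_cases h : z.val < m
  · rw [if_pos h, aux]
  · rw [if_neg h]
    have : z.val = (z.val - m) + m := by omega
    conv_rhs => rw [this, aux]

theorem A1_sum_even_odd (K : ℕ) (f : ℕ → ℝ) :
    ∑ β ∈ range (2 * K), f β = ∑ β ∈ range K, (f (2 * β) + f (2 * β + 1)) := by
  induction K with
  | zero => simp
  | succ K ih =>
    rw [show 2 * (K + 1) = 2 * K + 1 + 1 by ring, Finset.sum_range_succ, Finset.sum_range_succ, ih,
      Finset.sum_range_succ]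
    ring

theorem A1_psi_gen (m g : ℕ) (hg : 2 ^ g ∣ m) (S : St m) (hS : Adm m S) :
    ex (fun c : Fin m → Bool => psi m (g + 1) (nxt m c S)) =
      (psi m g S + sl m S) / 2 := by
  set v := avgv m S.1 S.2 with hv
  have key : ∀ β : ℕ, ∀ c : Fin m → Bool,
      (∑ y, if y.val % 2 ^ (g + 1) = 2 * β then (nxt m c S).2 y else 0) ^ 2
      + (∑ y, if y.val % 2 ^ (g + 1) = 2 * β + 1 then (nxt m c S).2 y else 0) ^ 2
      = (1 / 2) * (∑ z, if z.val % 2 ^ g = β then v z else 0) ^ 2
        + (1 / 2) * (∑ z, (if z.val % 2 ^ g = β then v z else 0) * (A1_sg m z * A1_tau (c (sw m z)))) ^ 2 := by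
    intro β c
    have e0 := A1_sum_nxt m c S (fun y x => if y.val % 2 ^ (g + 1) = 2 * β then x else 0)
    have e1 := A1_sum_nxt m c S (fun y x => if y.val % 2 ^ (g + 1) = 2 * β + 1 then x else 0)
    have f0 : ∑ z, (if (stepPerm m c z).val % 2 ^ (g + 1) = 2 * β then v z else 0)
        = (1 / 2) * ((∑ z, if z.val % 2 ^ g = β then v z else 0)
          - ∑ z, (if z.val % 2 ^ g = β then v z else 0) * (A1_sg m z * A1_tau (c (sw m z)))) := by
      rw [← Finset.sum_sub_distrib, Finset.mul_sum]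
      apply Finset.sum_congr rfl
      intro z _
      rw [A1_step_mod m g hg c z]
      unfold A1_sg A1_tau
      by_cases h1 : z.val % 2 ^ g = β
      · rw [h1]
        by_cases h2 : m ≤ z.val <;> rcases Bool.eq_false_or_eq_true (c (sw m z)) with h3 | h3 <;>
          simp only [h2, h3, decide_true, decide_false, Bool.xor_false, Bool.xor_true,
            Bool.not_true, Bool.not_false, if_true, if_false, Bool.false_eq_true] <;>
          norm_num <;> ring
      · have h4 : ∀ b : ℕ, b < 2 → ¬ (2 * (z.val % 2 ^ g) + b = 2 * β) := by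
          intro b hb; omega
        have h5 := h4 (if xor (decide (m ≤ z.val)) (c (sw m z)) then 1 else 0)
          (by split_ifs <;> norm_num)
        rw [if_neg h5, if_neg h1]
        simp
    have f1 : ∑ z, (if (stepPerm m c z).val % 2 ^ (g + 1) = 2 * β + 1 then v z else 0)
        = (1 / 2) * ((∑ z, if z.val % 2 ^ g = β then v z else 0)
          + ∑ z, (if z.val % 2 ^ g = β then v z else 0) * (A1_sg m z * A1_tau (c (sw m z)))) := by
      rw [← Finset.sum_add_distrib, Finset.mul_sum]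
      apply Finset.sum_congr rfl
      intro z _
      rw [A1_step_mod m g hg c z]
      unfold A1_sg A1_tau
      by_cases h1 : z.val % 2 ^ g = β
      · rw [h1]
        by_cases h2 : m ≤ z.val <;> rcases Bool.eq_false_or_eq_true (c (sw m z)) with h3 | h3 <;>
          simp only [h2, h3, decide_true, decide_false, Bool.xor_false, Bool.xor_true,
            Bool.not_true, Bool.not_false, if_true, if_false, Bool.false_eq_true] <;>
          norm_num <;> ring
      · have h4 : ∀ b : ℕ, b < 2 → ¬ (2 * (z.val % 2 ^ g) + b = 2 * β + 1) := by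
          intro b hb; omega
        have h5 := h4 (if xor (decide (m ≤ z.val)) (c (sw m z)) then 1 else 0)
          (by split_ifs <;> norm_num)
        rw [if_neg h5, if_neg h1]
        simp
    rw [e0, e1, f0, f1]
    ring
  have hP : ∀ β : ℕ, ∀ z : Fin (2 * m), (prt m z).val % 2 ^ g = β ↔ z.val % 2 ^ g = β := by
    intro β z
    rw [A1_prt_mod m g hg z]
  have key2 : ∀ β : ℕ, ex (fun c : Fin m → Bool =>
      (∑ y, if y.val % 2 ^ (g + 1) = 2 * β then (nxt m c S).2 y else 0) ^ 2
      + (∑ y, if y.val % 2 ^ (g + 1) = 2 * β + 1 then (nxt m c S).2 y else 0) ^ 2)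
      = (1 / 2) * (∑ z, if z.val % 2 ^ g = β then S.2 z else 0) ^ 2
        + (1 / 2) * ∑ z, (if z.val % 2 ^ g = β then (if prt m z ∈ S.1 then S.2 z ^ 2 else 0) else 0) := by
    intro β
    simp_rw [key β]
    rw [ex_add, ex_const_mul, ex_const_mul]
    have h1 := A1_second m (fun z => if z.val % 2 ^ g = β then v z else 0)
    rw [h1]
    rw [ex_const, A1_avg_sum m S.1 S.2 hS.1 (fun z => z.val % 2 ^ g = β) (hP β)]
    congr 2
    apply Finset.sum_congr rfl
    intro z _
    by_cases h2 : z.val % 2 ^ g = β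
    · have h3 : (prt m z).val % 2 ^ g = β := (hP β z).mpr h2
      rw [if_pos h2, if_pos h3, if_pos h2]
      simp only [hv, avgv]
      by_cases h4 : z ∈ S.1 <;> by_cases h5 : prt m z ∈ S.1
      · simp [h4, h5, hS.1 _ h4]
      · simp [h4, h5]
      · simp only [h4, h5, if_true, if_false]; ring
      · simp only [h4, h5, if_false, prt_prt]; ring
    · rw [if_neg h2, if_neg h2, zero_mul]
  have key3 : (fun c : Fin m → Bool => psi m (g + 1) (nxt m c S))
      = fun c => ∑ β ∈ range (2 ^ g), ((∑ y, if y.val % 2 ^ (g + 1) = 2 * β then (nxt m c S).2 y else 0) ^ 2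
      + (∑ y, if y.val % 2 ^ (g + 1) = 2 * β + 1 then (nxt m c S).2 y else 0) ^ 2) := by
    funext c
    unfold psi
    rw [← A1_sum_even_odd (2 ^ g) (fun β => (∑ y, if y.val % 2 ^ (g + 1) = β then (nxt m c S).2 y else 0) ^ 2)]
    rw [show 2 ^ (g + 1) = 2 * 2 ^ g by rw [pow_succ, mul_comm]]
  rw [key3, ex_sum, Finset.sum_congr rfl (fun β _ => key2 β), Finset.sum_add_distrib,
    ← Finset.mul_sum, ← Finset.mul_sum]
  have hfin : ∑ β ∈ range (2 ^ g), ∑ z : Fin (2 * m), (if z.val % 2 ^ g = β then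
      (if prt m z ∈ S.1 then S.2 z ^ 2 else 0) else 0)
      = ∑ z, (if prt m z ∈ S.1 then S.2 z ^ 2 else 0) := by
    rw [Finset.sum_comm]
    apply Finset.sum_congr rfl
    intro z _
    rw [Finset.sum_ite_eq]
    have : z.val % 2 ^ g ∈ range (2 ^ g) := Finset.mem_range.mpr (Nat.mod_lt _ (by positivity))
    simp [this]
  rw [hfin]
  unfold psi sl
  ring

theorem A1_psi (d g : ℕ) (hg : g ≤ d) (S : St (2 ^ d)) (hS : Adm (2 ^ d) S) :
    ex (fun c : Fin (2 ^ d) → Bool => psi (2 ^ d) (g + 1) (nxt (2 ^ d) c S)) =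
      (psi (2 ^ d) g S + sl (2 ^ d) S) / 2 :=
  A1_psi_gen (2 ^ d) g (pow_dvd_pow 2 hg) S hS

end Crest.Agent.S0222
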