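import Crest.Agent.S0222_Basic

/-!
S0222, task A2 : independence of the two halves.
-/

set_option autoImplicit false

namespace Crest.Agent.S0222

open Finset Equiv Crest.ProbabilityR.Shuffle

/-- `bit j` of `x` is `b` -/
def A2_bt (j x b : ℕ) : Prop := x / 2 ^ j % 2 = b

instance (j x b : ℕ) : Decidable (A2_bt j x b) := inferInstanceAs (Decidable (_ = _))

theorem A2_bt_half {j y b : ℕ} (h : A2_bt (j + 1) y b) : A2_bt j (y / 2) b := by
  unfold A2_bt at *
  rw [Nat.div_div_eq_div_mul, ← pow_succ']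
  exact h

theorem A2_bt_add {d j x b : ℕ} (hj : j < d) (h : A2_bt j x b) : A2_bt j (x + 2 ^ d) b := by
  unfold A2_bt at *
  have h1 : 2 ^ d = 2 ^ j * (2 * 2 ^ (d - 1 - j)) := by
    rw [← pow_succ', ← pow_add]; congr 1; omega
  rw [h1, Nat.add_mul_div_left _ _ (by positivity), Nat.add_mul_mod_self_left]
  exact h

theorem A2_bt_sub {d j x b : ℕ} (hj : j < d) (hx : 2 ^ d ≤ x) (h : A2_bt j x b) :
    A2_bt j (x - 2 ^ d) b := by
  by_contra hn
  have h2 := h
  unfold A2_bt at h h2 hn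
  have key : ∀ b', A2_bt j (x - 2 ^ d) b' → A2_bt j x b' := by
    intro b' hb'
    have := A2_bt_add hj hb'
    rwa [Nat.sub_add_cancel hx] at this
  have h3 := key _ rfl
  unfold A2_bt at h3
  exact hn (h3.symm.trans h2)

theorem A2_bt_prt {d j b : ℕ} (hj : j < d) {z : Fin (2 * 2 ^ d)} (h : A2_bt j z.val b) :
    A2_bt j (prt (2 ^ d) z).val b := by
  rw [prt_val]
  split_ifs with hz
  · exact A2_bt_add hj h
  · exact A2_bt_sub hj (by omega) h

/-- the states `S`, `S'` agree on the positions with bit `j` equal to `b`. -/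
def A2_agree (d j b : ℕ) (S S' : St (2 ^ d)) : Prop :=
  ∀ z : Fin (2 * 2 ^ d), A2_bt j z.val b → ((z ∈ S.1 ↔ z ∈ S'.1) ∧ S.2 z = S'.2 z)

theorem A2_nxt_mem (m : ℕ) (c : Fin m → Bool) (S : St m) (y : Fin (2 * m)) :
    y ∈ (nxt m c S).1 ↔ (stepPerm m c).symm y ∈ S.1 := by
  unfold nxt
  simp only [Finset.mem_map_equiv]

theorem A2_agree_nxt {d j b : ℕ} (hj : j < d) {S S' : St (2 ^ d)} (h : A2_agree d j b S S')
    {c c' : Fin (2 ^ d) → Bool} (hc : ∀ u : Fin (2 ^ d), A2_bt j u.val b → c u = c' u) :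
    A2_agree d (j + 1) b (nxt (2 ^ d) c S) (nxt (2 ^ d) c' S') := by
  intro y hy
  have hb := A2_bt_half hy
  have hlt : y.val / 2 < 2 ^ d := by have := y.isLt; omega
  have hcu : c ⟨y.val / 2, hlt⟩ = c' ⟨y.val / 2, hlt⟩ := hc _ hb
  have hz : (stepPerm (2 ^ d) c).symm y = (stepPerm (2 ^ d) c').symm y := by
    apply Fin.ext
    rw [stepPerm_symm_val, stepPerm_symm_val, hcu]
  have hbz : A2_bt j ((stepPerm (2 ^ d) c).symm y).val b := by
    rw [stepPerm_symm_val]
    split_ifs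
    · exact A2_bt_add hj hb
    · rw [add_zero]; exact hb
  have hbp := A2_bt_prt hj hbz
  obtain ⟨m1, e1⟩ := h _ hbz
  obtain ⟨m2, e2⟩ := h _ hbp
  refine ⟨?_, ?_⟩
  · rw [A2_nxt_mem, A2_nxt_mem, ← hz]; exact m1
  · show avgv (2 ^ d) S.1 S.2 ((stepPerm (2 ^ d) c).symm y) =
      avgv (2 ^ d) S'.1 S'.2 ((stepPerm (2 ^ d) c').symm y)
    rw [← hz]
    unfold avgv
    simp only [m1, m2, e1, e2]

theorem A2_fac (d : ℕ) (b b' : ℕ) (hbb : b ≠ b') : ∀ (j : ℕ) (_ : j ≤ d) (F G : St (2 ^ d) → ℝ)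
    (_ : ∀ S S', A2_agree d j b S S' → F S = F S')
    (_ : ∀ S S', A2_agree d j b' S S' → G S = G S') (S : St (2 ^ d)),
    EE (2 ^ d) j (fun S => F S * G S) S = EE (2 ^ d) j F S * EE (2 ^ d) j G S
  | 0, _, _, _, _, _, _ => rfl
  | j + 1, hj, F, G, hF, hG, S => by
      rw [EE_succ_last, EE_succ_last, EE_succ_last,
        ← A2_fac d b b' hbb j (by omega) (fun S => ex (fun c : Fin (2 ^ d) → Bool => F (nxt (2 ^ d) c S)))
          (fun S => ex (fun c : Fin (2 ^ d) → Bool => G (nxt (2 ^ d) c S)))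
          (fun S S' h => ex_congr fun c => hF _ _ (A2_agree_nxt (by omega) h (fun _ _ => rfl)))
          (fun S S' h => ex_congr fun c => hG _ _ (A2_agree_nxt (by omega) h (fun _ _ => rfl))) S]
      apply EE_congr
      intro S'
      apply ex_indep (fun u : Fin (2 ^ d) => A2_bt j u.val b)
      · intro c c' hc
        exact hF _ _ (A2_agree_nxt (by omega) (fun z _ => ⟨Iff.rfl, rfl⟩) hc)
      · intro c c' hc
        refine hG _ _ (A2_agree_nxt (by omega) (fun z _ => ⟨Iff.rfl, rfl⟩) (fun u hu => hc u ?_))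
        intro hu'
        exact hbb (hu'.symm.trans hu)

/-- average of a function of one coin -/
theorem A2_ex_coin {I : Type*} [Fintype I] [DecidableEq I] (u : I) (φ : Bool → ℝ) :
    ex (fun c : I → Bool => φ (c u)) = (φ true + φ false) / 2 := by
  let e : (I → Bool) ≃ (I → Bool) :=
    { toFun := fun c => Function.update c u (!(c u))
      invFun := fun c => Function.update c u (!(c u))
      left_inv := fun c => by simp
      right_inv := fun c => by simp }
  have h1 : ex (fun c : I → Bool => φ (c u)) = ex (fun c : I → Bool => φ (!(c u))) := by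
    rw [← ex_equiv e]
    apply ex_congr
    intro c
    simp [e]
  have h2 : ex (fun c : I → Bool => φ (c u)) + ex (fun c : I → Bool => φ (!(c u))) =
      φ true + φ false := by
    rw [← ex_add, ← ex_const (Ω := I → Bool) (φ true + φ false)]
    apply ex_congr
    intro c
    cases c u <;> simp [add_comm]
  linarith

theorem A2_step (d : ℕ) (S : St (2 ^ d)) (w : Fin (2 * 2 ^ d)) :
    ex (fun c : Fin (2 ^ d) → Bool => if w ∈ (nxt (2 ^ d) c S).1 then (1 : ℝ) else 0) =
      ((if (⟨w.val / 2, by have := w.isLt; omega⟩ : Fin (2 * 2 ^ d)) ∈ S.1 then (1 : ℝ) else 0) +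
        (if (⟨w.val / 2 + 2 ^ d, by have := w.isLt; omega⟩ : Fin (2 * 2 ^ d)) ∈ S.1
          then (1 : ℝ) else 0)) / 2 := by
  set u : Fin (2 ^ d) := ⟨w.val / 2, by have := w.isLt; omega⟩ with hu
  have h := A2_ex_coin u (fun x : Bool =>
    if (⟨w.val / 2 + (if xor (decide (w.val % 2 = 1)) x then 2 ^ d else 0), by
      have := w.isLt; split <;> omega⟩ : Fin (2 * 2 ^ d)) ∈ S.1 then (1 : ℝ) else 0)
  have h1 : ex (fun c : Fin (2 ^ d) → Bool => if w ∈ (nxt (2 ^ d) c S).1 then (1 : ℝ) else 0) =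
      ex (fun c : Fin (2 ^ d) → Bool =>
        if (⟨w.val / 2 + (if xor (decide (w.val % 2 = 1)) (c u) then 2 ^ d else 0), by
      have := w.isLt; split <;> omega⟩ : Fin (2 * 2 ^ d)) ∈ S.1 then (1 : ℝ) else 0) := by
    apply ex_congr
    intro c
    rw [if_congr (A2_nxt_mem (2 ^ d) c S w) rfl rfl]
    have : (stepPerm (2 ^ d) c).symm w =
        (⟨w.val / 2 + (if xor (decide (w.val % 2 = 1)) (c u) then 2 ^ d else 0), by
      have := w.isLt; split <;> omega⟩ : Fin (2 * 2 ^ d)) := Fin.ext (stepPerm_symm_val _ _ _)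
    rw [this]
  rw [h1, h]
  by_cases hw : w.val % 2 = 1
  · simp [hw]
  · simp only [hw, decide_false, Bool.false_xor, if_true, Bool.false_eq_true, if_false, add_zero]
    ring

theorem A2_nat (d j W v : ℕ) (hj : j + 1 ≤ d) (hW : W < 2 * 2 ^ d) :
    v % 2 ^ (d + 1 - (j + 1)) = W / 2 ^ (j + 1) ↔
      v % 2 ^ (d + 1 - j) = W / 2 / 2 ^ j ∨ v % 2 ^ (d + 1 - j) = (W / 2 + 2 ^ d) / 2 ^ j := by
  have ha : W / 2 / 2 ^ j = W / 2 ^ (j + 1) := by
    rw [Nat.div_div_eq_div_mul, ← pow_succ']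
  have hb : (W / 2 + 2 ^ d) / 2 ^ j = W / 2 ^ (j + 1) + 2 ^ (d - j) := by
    have : 2 ^ d = 2 ^ j * 2 ^ (d - j) := by rw [← pow_add]; congr 1; omega
    rw [this, Nat.add_mul_div_left _ _ (by positivity), ha]
  have hlt : W / 2 ^ (j + 1) < 2 ^ (d - j) := by
    rw [Nat.div_lt_iff_lt_mul (by positivity), ← pow_add]
    have : d - j + (j + 1) = d + 1 := by omega
    rw [this, pow_succ]; omega
  rw [ha, hb]
  have e2 : d + 1 - (j + 1) = d - j := by omega
  have e3 : d + 1 - j = (d - j) + 1 := by omega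
  rw [e2, e3, pow_succ 2 (d - j), Nat.mod_mul]
  set K := 2 ^ (d - j)
  set a := W / 2 ^ (j + 1)
  have hq : v / K % 2 < 2 := Nat.mod_lt _ (by norm_num)
  have hr : v % K < K := Nat.mod_lt _ (by positivity)
  have hcase : v / K % 2 = 0 ∨ v / K % 2 = 1 := by omega
  clear_value K a
  generalize v % K = r at *
  rcases hcase with h | h
  · rw [h, mul_zero, add_zero]
    constructor
    · intro h2; exact Or.inl h2
    · rintro (h2 | h2)
      · exact h2
      · omega
  · rw [h, mul_one]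
    constructor
    · intro h2; right; rw [h2]
    · rintro (h2 | h2)
      · omega
      · omega

theorem A2_nat2 (d j W : ℕ) (hj : j + 1 ≤ d) : W / 2 / 2 ^ j ≠ (W / 2 + 2 ^ d) / 2 ^ j := by
  have : 2 ^ d = 2 ^ j * 2 ^ (d - j) := by rw [← pow_add]; congr 1; omega
  rw [this, Nat.add_mul_div_left _ _ (by positivity)]
  have : 0 < 2 ^ (d - j) := by positivity
  omega

theorem A2_cnt (d : ℕ) (S : St (2 ^ d)) : ∀ (j : ℕ) (_ : j ≤ d) (w : Fin (2 * 2 ^ d)),
    EE (2 ^ d) j (fun S => if w ∈ S.1 then (1 : ℝ) else 0) S =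
      ((S.1.filter (fun v => v.val % 2 ^ (d + 1 - j) = w.val / 2 ^ j)).card : ℝ) / 2 ^ j
  | 0, _, w => by
      have h1 : (S.1.filter (fun v => v.val % 2 ^ (d + 1 - 0) = w.val / 2 ^ 0)) =
          S.1.filter (fun v => v = w) := by
        apply Finset.filter_congr
        intro v _
        have hv : v.val < 2 ^ (d + 1) := by have := v.isLt; rw [pow_succ]; omega
        rw [pow_zero, Nat.div_one, Nat.sub_zero, Nat.mod_eq_of_lt hv]
        exact ⟨fun h => Fin.ext h, fun h => congrArg Fin.val h⟩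
      rw [h1, Finset.filter_eq']
      show (if w ∈ S.1 then (1 : ℝ) else 0) = _
      by_cases hw : w ∈ S.1 <;> simp [hw]
  | j + 1, hj, w => by
      have hw := w.isLt
      rw [EE_succ_last, EE_congr _ _ (fun S' => A2_step d S' w)]
      have e1 : EE (2 ^ d) j (fun S' : St (2 ^ d) =>
          ((if (⟨w.val / 2, by have := w.isLt; omega⟩ : Fin (2 * 2 ^ d)) ∈ S'.1
              then (1 : ℝ) else 0) +
            (if (⟨w.val / 2 + 2 ^ d, by have := w.isLt; omega⟩ : Fin (2 * 2 ^ d)) ∈ S'.1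
              then (1 : ℝ) else 0)) / 2) S =
          (EE (2 ^ d) j (fun S' : St (2 ^ d) =>
            (if (⟨w.val / 2, by have := w.isLt; omega⟩ : Fin (2 * 2 ^ d)) ∈ S'.1
              then (1 : ℝ) else 0)) S +
           EE (2 ^ d) j (fun S' : St (2 ^ d) =>
            (if (⟨w.val / 2 + 2 ^ d, by have := w.isLt; omega⟩ : Fin (2 * 2 ^ d)) ∈ S'.1
              then (1 : ℝ) else 0)) S) / 2 := by
        rw [← EE_add_fun, div_eq_inv_mul, ← EE_const_mul]
        apply EE_congr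
        intro S'
        ring
      rw [e1, A2_cnt d S j (by omega), A2_cnt d S j (by omega)]
      have hcard : (S.1.filter (fun v => v.val % 2 ^ (d + 1 - (j + 1)) = w.val / 2 ^ (j + 1))).card =
          (S.1.filter (fun v => v.val % 2 ^ (d + 1 - j) = w.val / 2 / 2 ^ j)).card +
          (S.1.filter (fun v => v.val % 2 ^ (d + 1 - j) = (w.val / 2 + 2 ^ d) / 2 ^ j)).card := by
        rw [← Finset.card_union_of_disjoint]
        · congr 1
          ext v
          simp only [Finset.mem_filter, Finset.mem_union]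
          rw [A2_nat d j w.val v.val hj hw]
          tauto
        · rw [Finset.disjoint_filter]
          intro v _ h1 h2
          exact A2_nat2 d j w.val hj (h1.symm.trans h2)
      rw [hcard]
      push_cast
      rw [pow_succ]
      field_simp

theorem A2_half (d : ℕ) (S : St (2 ^ d)) (hS : Adm (2 ^ d) S) (δ : ℝ)
    (h0 : (lowC (2 ^ d) 0 S : ℝ) ≤ δ * 2 ^ d) (h1 : (lowC (2 ^ d) 1 S : ℝ) ≤ δ * 2 ^ d) :
    EE (2 ^ d) d (sl (2 ^ d)) S ≤ δ * EE (2 ^ d) d (nrm (2 ^ d)) S := by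
  have e1 : EE (2 ^ d) d (sl (2 ^ d)) S =
      ∑ z, EE (2 ^ d) d (fun S' => if prt (2 ^ d) z ∈ S'.1 then S'.2 z ^ 2 else 0) S := by
    rw [← EE_sum]; rfl
  have e2 : EE (2 ^ d) d (nrm (2 ^ d)) S = ∑ z, EE (2 ^ d) d (fun S' => S'.2 z ^ 2) S := by
    rw [← EE_sum]; rfl
  rw [e1, e2, Finset.mul_sum]
  apply Finset.sum_le_sum
  intro z _
  have hz := z.isLt
  have hzp : ∀ z : Fin (2 * 2 ^ d), z.val / 2 ^ d < 2 := by
    intro z
    have := z.isLt
    rw [Nat.div_lt_iff_lt_mul (by positivity)]; exact this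
  set b := z.val / 2 ^ d % 2 with hb
  set b' := (prt (2 ^ d) z).val / 2 ^ d % 2 with hb'
  have hbb : b ≠ b' := by
    rw [hb, hb', prt_val]
    split_ifs with h
    · rw [Nat.div_eq_of_lt h, Nat.add_div_right _ (by positivity), Nat.div_eq_of_lt h]
      norm_num
    · have h2 : z.val / 2 ^ d = 1 := by
        have := hzp z
        have : 0 < z.val / 2 ^ d := Nat.div_pos (by omega) (by positivity)
        omega
      have h3 : (z.val - 2 ^ d) / 2 ^ d = 0 := Nat.div_eq_of_lt (by omega)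
      rw [h2, h3]; norm_num
  have fac := A2_fac d b b' hbb d le_rfl (fun S' => S'.2 z ^ 2)
    (fun S' => if prt (2 ^ d) z ∈ S'.1 then (1 : ℝ) else 0)
    (fun S S' h => by
      have := (h z rfl).2
      simp only [this])
    (fun S S' h => by
      have := (h (prt (2 ^ d) z) rfl).1
      simp only [this]) S
  have e3 : EE (2 ^ d) d (fun S' => if prt (2 ^ d) z ∈ S'.1 then S'.2 z ^ 2 else 0) S =
      EE (2 ^ d) d (fun S' => S'.2 z ^ 2 * (if prt (2 ^ d) z ∈ S'.1 then (1 : ℝ) else 0)) S := by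
    apply EE_congr
    intro S'
    split_ifs <;> simp
  rw [e3, fac, A2_cnt d S d le_rfl]
  have hcard : (S.1.filter (fun v => v.val % 2 ^ (d + 1 - d) =
      (prt (2 ^ d) z).val / 2 ^ d)).card = lowC (2 ^ d) ((prt (2 ^ d) z).val / 2 ^ d) S := by
    unfold lowC
    congr 2
    funext v
    have : d + 1 - d = 1 := by omega
    rw [this, pow_one]
  rw [hcard]
  have hlow : (lowC (2 ^ d) ((prt (2 ^ d) z).val / 2 ^ d) S : ℝ) ≤ δ * 2 ^ d := by
    have := hzp (prt (2 ^ d) z)
    have key : ∀ q : ℕ, q < 2 → q = 0 ∨ q = 1 := by omega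
    rcases key _ this with h | h
    · rw [h]; exact h0
    · rw [h]; exact h1
  have hpos : 0 ≤ EE (2 ^ d) d (fun S' => S'.2 z ^ 2) S := by
    have := EE_mono (2 ^ d) d (F := fun _ => 0) (F' := fun S' => S'.2 z ^ 2)
      (fun _ => sq_nonneg _) S
    rwa [EE_const] at this
  rw [mul_comm]
  apply mul_le_mul_of_nonneg_right _ hpos
  rw [div_le_iff₀ (by positivity)]
  exact hlow

end Crest.Agent.S0222
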