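import Crest.Agent.S0222_Basic

/-!
S0222, task A3: Chernoff bound for the number of labelled positions in a half.
-/

set_option autoImplicit false

namespace Crest.Agent.S0222

open Finset Equiv Crest.ProbabilityR.Shuffle

/-- number of labelled inputs of the switch `u` sent to the half `b` when the coin is `β` -/
def A3_N (m : ℕ) (L : Finset (Fin (2 * m))) (b : ℕ) (u : Fin m) (β : Bool) : ℕ :=
  (L.filter (fun x => sw m x = u ∧ xor (decide (m ≤ x.val)) β = decide (b = 1))).card

theorem A3_low (m : ℕ) (S : St m) (b : ℕ) (hb : b < 2) (c : Fin m → Bool) :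
    lowC m b (nxt m c S) = ∑ u, A3_N m S.1 b u (c u) := by
  unfold lowC nxt
  dsimp only
  rw [Finset.filter_map, Finset.card_map]
  rw [Finset.card_eq_sum_card_fiberwise (f := sw m) (t := univ) (fun x _ => Finset.mem_univ _)]
  refine Finset.sum_congr rfl fun u _ => ?_
  unfold A3_N
  congr 1
  ext x
  simp only [Finset.mem_filter, Function.comp_apply, Equiv.toEmbedding_apply]
  have hmod : (stepPerm m c x).val % 2 =
      if xor (decide (m ≤ x.val)) (c (sw m x)) then 1 else 0 := by
    rw [stepPerm_val]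
    split_ifs <;> omega
  have hiff : (stepPerm m c x).val % 2 = b ↔
      xor (decide (m ≤ x.val)) (c (sw m x)) = decide (b = 1) := by
    rw [hmod]
    rcases (by omega : b = 0 ∨ b = 1) with rfl | rfl
    · cases xor (decide (m ≤ x.val)) (c (sw m x)) <;> simp
    · cases xor (decide (m ≤ x.val)) (c (sw m x)) <;> simp
  constructor
  · rintro ⟨⟨h1, h2⟩, h3⟩
    refine ⟨h1, h3, ?_⟩
    rw [← h3]
    exact hiff.1 h2
  · rintro ⟨h1, h2, h3⟩
    refine ⟨⟨h1, ?_⟩, h2⟩
    rw [← h2] at h3
    exact hiff.2 h3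

theorem A3_N_le (m : ℕ) (L : Finset (Fin (2 * m))) (b : ℕ) (u : Fin m) (β : Bool) :
    A3_N m L b u β ≤ 1 := by
  unfold A3_N
  rw [Finset.card_le_one]
  intro x hx y hy
  rw [Finset.mem_filter] at hx hy
  obtain ⟨_, h1, h2⟩ := hx
  obtain ⟨_, h3, h4⟩ := hy
  have h5 : decide (m ≤ x.val) = decide (m ≤ y.val) := by
    have := h2.trans h4.symm
    revert this
    cases decide (m ≤ x.val) <;> cases decide (m ≤ y.val) <;> cases β <;> simp
  have h6 : m ≤ x.val ↔ m ≤ y.val := by
    constructor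
    · intro h
      have := h5 ▸ (decide_eq_true h)
      exact of_decide_eq_true this
    · intro h
      have := h5.symm ▸ (decide_eq_true h)
      exact of_decide_eq_true this
  have h7 : sw m x = sw m y := h1.trans h3.symm
  rcases (sw_eq_iff m x y).1 h7 with h | h
  · exact h.symm
  · exfalso
    have h8 := prt_val m x
    rw [← h] at h8
    have hx := x.isLt
    have hy := y.isLt
    by_cases h9 : x.val < m
    · rw [if_pos h9] at h8
      omega
    · rw [if_neg h9] at h8
      omega

theorem A3_N_sum (m : ℕ) (L : Finset (Fin (2 * m))) (b : ℕ) :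
    ∑ u, (A3_N m L b u true + A3_N m L b u false) = L.card := by
  rw [Finset.card_eq_sum_card_fiberwise (s := L) (f := sw m) (t := univ)
    (fun x _ => Finset.mem_univ _)]
  refine Finset.sum_congr rfl fun u _ => ?_
  unfold A3_N
  rw [← Finset.card_union_of_disjoint]
  · congr 1
    ext x
    simp only [Finset.mem_union, Finset.mem_filter]
    constructor
    · rintro (⟨h1, h2, _⟩ | ⟨h1, h2, _⟩)
      · exact ⟨h1, h2⟩
      · exact ⟨h1, h2⟩
    · rintro ⟨h1, h2⟩
      by_cases h : xor (decide (m ≤ x.val)) true = decide (b = 1)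
      · left; exact ⟨h1, h2, h⟩
      · right
        refine ⟨h1, h2, ?_⟩
        revert h
        cases decide (m ≤ x.val) <;> cases decide (b = 1) <;> simp
  · rw [Finset.disjoint_left]
    intro x h1 h2
    rw [Finset.mem_filter] at h1 h2
    have := h1.2.2.trans h2.2.2.symm
    revert this
    cases decide (m ≤ x.val) <;> simp

theorem A3_exp (m : ℕ) (S : St m) (b : ℕ) (hb : b < 2) :
    ex (fun c : Fin m → Bool => (2 : ℝ) ^ (lowC m b (nxt m c S))) ≤ (3 / 2 : ℝ) ^ S.1.card := by
  have h1 : ex (fun c : Fin m → Bool => (2 : ℝ) ^ (lowC m b (nxt m c S))) =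
      ∏ u : Fin m, ((2 : ℝ) ^ A3_N m S.1 b u true + (2 : ℝ) ^ A3_N m S.1 b u false) / 2 := by
    unfold ex
    have h2 : ∀ c : Fin m → Bool, (2 : ℝ) ^ (lowC m b (nxt m c S)) =
        ∏ u, (2 : ℝ) ^ A3_N m S.1 b u (c u) := by
      intro c
      rw [A3_low m S b hb c, Finset.prod_pow_eq_pow_sum]
    rw [Finset.sum_congr rfl (fun c _ => h2 c)]
    have h3 := Finset.prod_univ_sum (fun _ : Fin m => (univ : Finset Bool))
      (fun u β => (2 : ℝ) ^ A3_N m S.1 b u β)
    rw [Fintype.piFinset_univ] at h3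
    rw [← h3, Finset.prod_div_distrib]
    simp only [Fintype.sum_bool]
    congr 1
    simp
  rw [h1, ← A3_N_sum m S.1 b, ← Finset.prod_pow_eq_pow_sum]
  apply Finset.prod_le_prod
  · intro u _
    positivity
  · intro u _
    have ht := A3_N_le m S.1 b u true
    have hf := A3_N_le m S.1 b u false
    generalize A3_N m S.1 b u true = p at *
    generalize A3_N m S.1 b u false = q at *
    interval_cases p <;> interval_cases q <;> norm_num

theorem A3_bad (m : ℕ) (S : St m) (hS : S.1.card ≤ m) (b : ℕ) (hb : b < 2) :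
    ex (fun c : Fin m → Bool =>
      if (3 / 4 * m : ℝ) < (lowC m b (nxt m c S) : ℝ) then (1 : ℝ) else 0) ≤ (0.892 : ℝ) ^ m := by
  set r : ℝ := (2 : ℝ) ^ (3 / 4 : ℝ) with hr
  have hrpos : 0 < r := by positivity
  have hr4 : r ^ 4 = 8 := by
    rw [hr, ← Real.rpow_natCast, ← Real.rpow_mul (by norm_num)]
    norm_num
  have hrm : r ^ m = (2 : ℝ) ^ (3 / 4 * m : ℝ) := by
    rw [hr, ← Real.rpow_natCast, ← Real.rpow_mul (by norm_num)]
  have h1 : ex (fun c : Fin m → Bool =>
      if (3 / 4 * m : ℝ) < (lowC m b (nxt m c S) : ℝ) then (1 : ℝ) else 0) ≤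
      ex (fun c : Fin m → Bool => (2 : ℝ) ^ (lowC m b (nxt m c S)) / r ^ m) := by
    apply ex_mono
    intro c
    split_ifs with h
    · rw [one_le_div (by positivity), hrm, ← Real.rpow_natCast]
      exact Real.rpow_le_rpow_of_exponent_le (by norm_num) h.le
    · positivity
  rw [ex_div_const] at h1
  refine h1.trans ?_
  have h2 := A3_exp m S b hb
  have h3 : (3 / 2 : ℝ) ^ S.1.card ≤ (3 / 2 : ℝ) ^ m := pow_le_pow_right₀ (by norm_num) hS
  rw [div_le_iff₀ (by positivity), ← mul_pow]
  refine (h2.trans h3).trans ?_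
  apply pow_le_pow_left₀ (by norm_num)
  -- `3/2 ≤ 0.892 * r`
  by_contra hlt
  push Not at hlt
  have h4 : (0.892 * r) ^ 4 < (3 / 2 : ℝ) ^ 4 :=
    pow_lt_pow_left₀ hlt (by positivity) (by norm_num)
  rw [mul_pow, hr4] at h4
  norm_num at h4

end Crest.Agent.S0222
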