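import Crest.Agent.S0222_Basic
import Crest.Agent.S0222_A1
import Crest.Agent.S0222_A2
import Crest.Agent.S0222_A3

set_option autoImplicit false

namespace Crest.Agent.S0222

open Finset Equiv Crest.ProbabilityR.Shuffle

/-- invariant of the chain used in A4 -/
def A4P (m : ℕ) (S : St m) : Prop := Adm m S ∧ S.1.card ≤ m ∧ nrm m S ≤ 1

theorem A4_psi_zero (m : ℕ) (S : St m) (hS : Adm m S) : psi m 0 S = 0 := by
  unfold psi
  simp [Nat.mod_one, hS.2]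

theorem A4_psi_top (d : ℕ) (S : St (2 ^ d)) : psi (2 ^ d) (d + 1) S = nrm (2 ^ d) S := by
  unfold psi nrm
  have h1 : ∀ z : Fin (2 * 2 ^ d), z.val % 2 ^ (d + 1) = z.val := by
    intro z
    apply Nat.mod_eq_of_lt
    have := z.isLt
    rw [pow_succ]; omega
  have h2 : (range (2 ^ (d + 1))) = range (2 * 2 ^ d) := by rw [pow_succ, mul_comm]
  rw [h2, ← Fin.sum_univ_eq_sum_range
    (fun β => (∑ z : Fin (2 * 2 ^ d), if z.val % 2 ^ (d + 1) = β then S.2 z else 0) ^ 2)]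
  refine sum_congr rfl fun β _ => ?_
  congr 1
  simp_rw [h1]
  have : ∀ z : Fin (2 * 2 ^ d), (if z.val = β.val then S.2 z else 0) =
      if z = β then S.2 z else 0 := by
    intro z
    simp [Fin.ext_iff]
  simp_rw [this]
  simp

theorem A4_sl_le (m : ℕ) (S : St m) : sl m S ≤ nrm m S := by
  unfold sl nrm
  refine sum_le_sum fun z _ => ?_
  split_ifs
  · exact le_rfl
  · exact sq_nonneg _

/-- block recursion, all levels -/
theorem A4_block (d : ℕ) (S : St (2 ^ d)) (hS : Adm (2 ^ d) S)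
    (hadm : ∀ c S, Adm (2 ^ d) S → Adm (2 ^ d) (nxt (2 ^ d) c S))
    (hpsi : ∀ g, g ≤ d → ∀ S : St (2 ^ d), Adm (2 ^ d) S →
      ex (fun c : Fin (2 ^ d) → Bool => psi (2 ^ d) (g + 1) (nxt (2 ^ d) c S)) =
      (psi (2 ^ d) g S + sl (2 ^ d) S) / 2) :
    ∀ g, g ≤ d + 1 → ∀ t, g ≤ t → EE (2 ^ d) t (psi (2 ^ d) g) S =
      ∑ j ∈ range g, (1 / 2 : ℝ) ^ (j + 1) * EE (2 ^ d) (t - (j + 1)) (sl (2 ^ d)) S := by
  intro g
  induction g with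
  | zero =>
    intro _ t _
    simp only [range_zero, sum_empty]
    apply le_antisymm
    · calc EE (2 ^ d) t (psi (2 ^ d) 0) S ≤ EE (2 ^ d) t (fun _ => 0) S :=
            EE_mono_inv _ (Adm (2 ^ d)) hadm t (fun S hS => (A4_psi_zero _ S hS).le) S hS
        _ = 0 := EE_const _ _ _ _
    · calc (0 : ℝ) = EE (2 ^ d) t (fun _ => 0) S := (EE_const _ _ _ _).symm
        _ ≤ _ := EE_mono_inv _ (Adm (2 ^ d)) hadm t (fun S hS => (A4_psi_zero _ S hS).ge) S hS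
  | succ g ih =>
    intro hg t ht
    obtain ⟨t, rfl⟩ : ∃ t', t = t' + 1 := ⟨t - 1, by omega⟩
    have h1 := ih (by omega) t (by omega)
    rw [EE_succ_last]
    have h2 : EE (2 ^ d) t (fun S => ex fun c => psi (2 ^ d) (g + 1) (nxt (2 ^ d) c S)) S =
        EE (2 ^ d) t (fun S => (1 / 2 : ℝ) * (psi (2 ^ d) g S + sl (2 ^ d) S)) S := by
      apply le_antisymm
      · refine EE_mono_inv _ (Adm (2 ^ d)) hadm t (fun S hS => ?_) S hS
        rw [hpsi g (by omega) S hS]; linarith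
      · refine EE_mono_inv _ (Adm (2 ^ d)) hadm t (fun S hS => ?_) S hS
        rw [hpsi g (by omega) S hS]; linarith
    rw [h2, EE_const_mul, EE_add_fun, h1, sum_range_succ']
    simp only [zero_add, pow_one, Nat.add_sub_cancel]
    rw [mul_add, mul_sum]
    congr 1
    refine sum_congr rfl fun j _ => ?_
    have : t + 1 - (j + 1 + 1) = t - (j + 1) := by omega
    rw [this]; ring

/-- slope bound -/
theorem A4_slope (d : ℕ) (S : St (2 ^ d)) (hS : A4P (2 ^ d) S)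
    (hinv : ∀ c S, A4P (2 ^ d) S → A4P (2 ^ d) (nxt (2 ^ d) c S))
    (h2 : ∀ S : St (2 ^ d), Adm (2 ^ d) S → ∀ δ : ℝ,
      (lowC (2 ^ d) 0 S : ℝ) ≤ δ * 2 ^ d → (lowC (2 ^ d) 1 S : ℝ) ≤ δ * 2 ^ d →
      EE (2 ^ d) d (sl (2 ^ d)) S ≤ δ * EE (2 ^ d) d (nrm (2 ^ d)) S)
    (h3 : ∀ S : St (2 ^ d), S.1.card ≤ 2 ^ d → ∀ b, b < 2 →
      ex (fun c : Fin (2 ^ d) → Bool =>
      if (3 / 4 * ((2 ^ d : ℕ) : ℝ)) < (lowC (2 ^ d) b (nxt (2 ^ d) c S) : ℝ) then (1 : ℝ) else 0)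
        ≤ (0.892 : ℝ) ^ (2 ^ d))
    (s : ℕ) (hs : d + 1 ≤ s) :
    EE (2 ^ d) s (sl (2 ^ d)) S ≤ (3 / 4) * EE (2 ^ d) s (nrm (2 ^ d)) S
      + 2 * (0.892 : ℝ) ^ (2 ^ d) := by
  obtain ⟨t, rfl⟩ : ∃ t, s = (t + 1) + d := ⟨s - d - 1, by omega⟩
  rw [EE_add _ (sl (2 ^ d)) d (t + 1), EE_add _ (nrm (2 ^ d)) d (t + 1)]
  let bd : ℕ → St (2 ^ d) → ℝ := fun b S =>
    if (3 / 4 * ((2 ^ d : ℕ) : ℝ)) < (lowC (2 ^ d) b S : ℝ) then (1 : ℝ) else 0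
  have hbd0 : ∀ b S, 0 ≤ bd b S := by intro b S; simp only [bd]; split_ifs <;> norm_num
  have hnle : ∀ T (S : St (2 ^ d)), A4P (2 ^ d) S → EE (2 ^ d) T (nrm (2 ^ d)) S ≤ 1 := by
    intro T S hS
    calc EE (2 ^ d) T (nrm (2 ^ d)) S ≤ EE (2 ^ d) T (fun _ => 1) S :=
          EE_mono_inv _ (A4P (2 ^ d)) hinv T (fun S hS => hS.2.2) S hS
      _ = 1 := EE_const _ _ _ _
  have hn0 : ∀ T (S : St (2 ^ d)), 0 ≤ EE (2 ^ d) T (nrm (2 ^ d)) S := by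
    intro T S
    calc (0 : ℝ) = EE (2 ^ d) T (fun _ => 0) S := (EE_const _ _ _ _).symm
      _ ≤ _ := EE_mono _ T (fun S => sum_nonneg fun z _ => sq_nonneg _) S
  have key : ∀ S : St (2 ^ d), A4P (2 ^ d) S → EE (2 ^ d) d (sl (2 ^ d)) S ≤
      (3 / 4) * EE (2 ^ d) d (nrm (2 ^ d)) S + (bd 0 S + bd 1 S) := by
    intro S hS
    have hsn : EE (2 ^ d) d (sl (2 ^ d)) S ≤ 1 :=
      (EE_mono _ d (fun S => A4_sl_le _ S) S).trans (hnle d S hS)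
    have hnn := hn0 d S
    by_cases hb0 : (3 / 4 * ((2 ^ d : ℕ) : ℝ)) < (lowC (2 ^ d) 0 S : ℝ)
    · have : bd 0 S = 1 := by simp only [bd]; rw [if_pos hb0]
      have := hbd0 1 S
      linarith
    · by_cases hb1 : (3 / 4 * ((2 ^ d : ℕ) : ℝ)) < (lowC (2 ^ d) 1 S : ℝ)
      · have : bd 1 S = 1 := by simp only [bd]; rw [if_pos hb1]
        have := hbd0 0 S
        linarith
      · push_cast at hb0 hb1
        have := h2 S hS.1 (3 / 4) (not_lt.1 hb0) (not_lt.1 hb1)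
        have h0 := hbd0 0 S
        have h1 := hbd0 1 S
        linarith
  have h4 : EE (2 ^ d) (t + 1) (EE (2 ^ d) d (sl (2 ^ d))) S ≤
      EE (2 ^ d) (t + 1) (fun S => (3 / 4) * EE (2 ^ d) d (nrm (2 ^ d)) S + (bd 0 S + bd 1 S)) S :=
    EE_mono_inv _ (A4P (2 ^ d)) hinv (t + 1) key S hS
  rw [EE_add_fun, EE_const_mul, EE_add_fun] at h4
  have h5 : ∀ b, b < 2 → EE (2 ^ d) (t + 1) (bd b) S ≤ (0.892 : ℝ) ^ (2 ^ d) := by
    intro b hb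
    rw [EE_succ_last]
    calc EE (2 ^ d) t (fun S => ex fun c => bd b (nxt (2 ^ d) c S)) S ≤
        EE (2 ^ d) t (fun _ => (0.892 : ℝ) ^ (2 ^ d)) S :=
          EE_mono_inv _ (A4P (2 ^ d)) hinv t (fun S hS => h3 S hS.2.1 b hb) S hS
      _ = _ := EE_const _ _ _ _
  have h6 := h5 0 (by norm_num)
  have h7 := h5 1 (by norm_num)
  linarith

theorem A4_geom (D : ℕ) : (3 / 4 : ℝ) * ∑ j ∈ range D, (1 / 2 : ℝ) ^ (j + 1) * (8 / 7) ^ (j + 1) ≤ 1 := by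
  have h : ∀ D : ℕ, ∑ j ∈ range D, (1 / 2 : ℝ) ^ (j + 1) * (8 / 7) ^ (j + 1) =
      4 / 3 * (1 - (4 / 7) ^ D) := by
    intro D
    induction D with
    | zero => simp
    | succ D ih => rw [sum_range_succ, ih, ← mul_pow]; norm_num; ring
  rw [h]
  have : (0 : ℝ) ≤ (4 / 7) ^ D := by positivity
  linarith

theorem A4_half (D : ℕ) : ∑ j ∈ range D, (1 / 2 : ℝ) ^ (j + 1) ≤ 1 := by
  have h : ∀ D : ℕ, ∑ j ∈ range D, (1 / 2 : ℝ) ^ (j + 1) = 1 - (1 / 2) ^ D := by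
    intro D
    induction D with
    | zero => simp
    | succ D ih => rw [sum_range_succ, ih, pow_succ]; ring
  rw [h]
  have : (0 : ℝ) ≤ (1 / 2) ^ D := by positivity
  linarith

/-- abstract recursion -/
theorem A4_rec (D : ℕ) (hD : 1 ≤ D) (s l : ℕ → ℝ) (e : ℝ) (he : 0 ≤ e) (hs1 : ∀ t, s t ≤ 1)
    (hrec : ∀ t, D ≤ t → s t = ∑ j ∈ range D, (1 / 2 : ℝ) ^ (j + 1) * l (t - (j + 1)))
    (hl : ∀ t, D ≤ t → l t ≤ 3 / 4 * s t + e) (t : ℕ) :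
    s t ≤ (8 / 7 : ℝ) ^ (2 * D) * (7 / 8) ^ t + 4 * e := by
  induction t using Nat.strong_induction_on with
  | _ t ih =>
    by_cases ht : t < 2 * D
    · have h1 : (1 : ℝ) ≤ (8 / 7 : ℝ) ^ (2 * D) * (7 / 8) ^ t := by
        have : (8 / 7 : ℝ) ^ (2 * D) = (8 / 7) ^ (2 * D - t) * (8 / 7) ^ t := by
          rw [← pow_add]; congr 1; omega
        rw [this, mul_assoc, ← mul_pow]
        norm_num
        exact one_le_pow₀ (by norm_num)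
      have := hs1 t
      linarith
    · rw [hrec t (by omega)]
      have hterm : ∀ j ∈ range D, (1 / 2 : ℝ) ^ (j + 1) * l (t - (j + 1)) ≤
          (1 / 2 : ℝ) ^ (j + 1) * (8 / 7) ^ (j + 1) *
            (3 / 4 * ((8 / 7 : ℝ) ^ (2 * D) * (7 / 8) ^ t)) + (1 / 2 : ℝ) ^ (j + 1) * (4 * e) := by
        intro j hj
        rw [mem_range] at hj
        have h1 := hl (t - (j + 1)) (by omega)
        have h2 := ih (t - (j + 1)) (by omega)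
        have h3 : (7 / 8 : ℝ) ^ (t - (j + 1)) = (8 / 7) ^ (j + 1) * (7 / 8) ^ t := by
          have : (7 / 8 : ℝ) ^ t = (7 / 8) ^ (t - (j + 1)) * (7 / 8) ^ (j + 1) := by
            rw [← pow_add]; congr 1; omega
          rw [this, mul_comm, mul_assoc, ← mul_pow]
          norm_num
        rw [h3] at h2
        have hp : (0 : ℝ) ≤ (1 / 2 : ℝ) ^ (j + 1) := by positivity
        have h4 : l (t - (j + 1)) ≤ (8 / 7) ^ (j + 1) *
            (3 / 4 * ((8 / 7 : ℝ) ^ (2 * D) * (7 / 8) ^ t)) + 4 * e := by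
          calc l (t - (j + 1)) ≤ 3 / 4 * ((8 / 7 : ℝ) ^ (2 * D) * ((8 / 7) ^ (j + 1) * (7 / 8) ^ t)
                + 4 * e) + e := by linarith
            _ = _ := by ring
        calc (1 / 2 : ℝ) ^ (j + 1) * l (t - (j + 1)) ≤ (1 / 2 : ℝ) ^ (j + 1) *
              ((8 / 7) ^ (j + 1) * (3 / 4 * ((8 / 7 : ℝ) ^ (2 * D) * (7 / 8) ^ t)) + 4 * e) :=
              mul_le_mul_of_nonneg_left h4 hp
          _ = _ := by ring
      refine (sum_le_sum hterm).trans ?_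
      rw [sum_add_distrib, ← sum_mul, ← sum_mul]
      have hg := A4_geom D
      have hh := A4_half D
      have hp : (0 : ℝ) ≤ (8 / 7 : ℝ) ^ (2 * D) * (7 / 8) ^ t := by positivity
      have e1 : (∑ j ∈ range D, (1 / 2 : ℝ) ^ (j + 1) * (8 / 7) ^ (j + 1)) *
          (3 / 4 * ((8 / 7 : ℝ) ^ (2 * D) * (7 / 8) ^ t)) ≤ (8 / 7 : ℝ) ^ (2 * D) * (7 / 8) ^ t := by
        calc _ = (3 / 4 * ∑ j ∈ range D, (1 / 2 : ℝ) ^ (j + 1) * (8 / 7) ^ (j + 1)) *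
              ((8 / 7 : ℝ) ^ (2 * D) * (7 / 8) ^ t) := by ring
          _ ≤ 1 * ((8 / 7 : ℝ) ^ (2 * D) * (7 / 8) ^ t) := mul_le_mul_of_nonneg_right hg hp
          _ = _ := one_mul _
      have e2 : (∑ j ∈ range D, (1 / 2 : ℝ) ^ (j + 1)) * (4 * e) ≤ 4 * e := by
        calc _ ≤ 1 * (4 * e) := mul_le_mul_of_nonneg_right hh (by linarith)
          _ = _ := one_mul _
      linarith

/-- A4 with the statements of A1, A2, A3 as hypotheses -/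
theorem A4_core (d T : ℕ) (S : St (2 ^ d)) (hS : Adm (2 ^ d) S) (hc : S.1.card ≤ 2 ^ d)
    (hn : nrm (2 ^ d) S ≤ 1)
    (hadm : ∀ c S, Adm (2 ^ d) S → Adm (2 ^ d) (nxt (2 ^ d) c S))
    (hnrm : ∀ c S, nrm (2 ^ d) (nxt (2 ^ d) c S) ≤ nrm (2 ^ d) S)
    (hpsi : ∀ g, g ≤ d → ∀ S : St (2 ^ d), Adm (2 ^ d) S →
      ex (fun c : Fin (2 ^ d) → Bool => psi (2 ^ d) (g + 1) (nxt (2 ^ d) c S)) =
      (psi (2 ^ d) g S + sl (2 ^ d) S) / 2)
    (h2 : ∀ S : St (2 ^ d), Adm (2 ^ d) S → ∀ δ : ℝ,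
      (lowC (2 ^ d) 0 S : ℝ) ≤ δ * 2 ^ d → (lowC (2 ^ d) 1 S : ℝ) ≤ δ * 2 ^ d →
      EE (2 ^ d) d (sl (2 ^ d)) S ≤ δ * EE (2 ^ d) d (nrm (2 ^ d)) S)
    (h3 : ∀ S : St (2 ^ d), S.1.card ≤ 2 ^ d → ∀ b, b < 2 →
      ex (fun c : Fin (2 ^ d) → Bool =>
      if (3 / 4 * ((2 ^ d : ℕ) : ℝ)) < (lowC (2 ^ d) b (nxt (2 ^ d) c S) : ℝ) then (1 : ℝ) else 0)
        ≤ (0.892 : ℝ) ^ (2 ^ d)) :
    EE (2 ^ d) T (nrm (2 ^ d)) S ≤
      (8 / 7 : ℝ) ^ (2 * (d + 1)) * (7 / 8) ^ T + 8 * (0.892 : ℝ) ^ (2 ^ d) := by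
  have hinv : ∀ c S, A4P (2 ^ d) S → A4P (2 ^ d) (nxt (2 ^ d) c S) := by
    intro c S hS
    refine ⟨hadm c S hS.1, ?_, (hnrm c S).trans hS.2.2⟩
    simp only [nxt, card_map]
    exact hS.2.1
  have hP : A4P (2 ^ d) S := ⟨hS, hc, hn⟩
  have h := A4_rec (d + 1) (by omega) (fun t => EE (2 ^ d) t (nrm (2 ^ d)) S)
    (fun t => EE (2 ^ d) t (sl (2 ^ d)) S) (2 * (0.892 : ℝ) ^ (2 ^ d)) (by positivity) ?_ ?_ ?_ T
  · calc _ ≤ _ := h
      _ = _ := by ring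
  · intro t
    calc EE (2 ^ d) t (nrm (2 ^ d)) S ≤ EE (2 ^ d) t (fun _ => 1) S :=
          EE_mono_inv _ (A4P (2 ^ d)) hinv t (fun S hS => hS.2.2) S hP
      _ = 1 := EE_const _ _ _ _
  · intro t ht
    rw [← A4_block d S hS hadm hpsi (d + 1) le_rfl t ht]
    exact EE_congr _ t (fun S => (A4_psi_top d S).symm) S
  · intro t ht
    exact A4_slope d S hP hinv h2 h3 t ht

theorem A4_decay (d T : ℕ) (S : St (2 ^ d)) (hS : Adm (2 ^ d) S) (hc : S.1.card ≤ 2 ^ d)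
    (hn : nrm (2 ^ d) S ≤ 1) :
    EE (2 ^ d) T (nrm (2 ^ d)) S ≤
      (8 / 7 : ℝ) ^ (2 * (d + 1)) * (7 / 8) ^ T + 8 * (0.892 : ℝ) ^ (2 ^ d) :=
  A4_core d T S hS hc hn (fun c S h => A1_adm _ c S h) (fun c S => A1_nrm _ c S)
    (fun g hg S h => A1_psi d g hg S h) (fun S h δ h0 h1 => A2_half d S h δ h0 h1)
    (fun S h b hb => A3_bad (2 ^ d) S h b hb)

end Crest.Agent.S0222
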