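import Crest.Agent.S0222_Basic

/-! S0222, task A5: conditional law process (helper29). -/

set_option autoImplicit false

namespace Crest.Agent.S0222

open Finset Equiv Crest.ProbabilityR.Shuffle

theorem A5_EE (m T : ℕ) (F : St m → ℝ) (S : St m) :
    EE m T F S = ex (fun cs : Fin T → Fin m → Bool => F (stT m T cs S)) := by
  induction T generalizing F with
  | zero => rw [ex_unique]; rfl
  | succ T ih =>
    rw [EE_succ_last, ih, ex_snoc, ex_comm]
    apply ex_congr; intro c; apply ex_congr; intro cs
    simp [stT]

theorem A5_stT_cons (m : ℕ) : ∀ (t : ℕ) (c : Fin m → Bool) (cs : Fin t → Fin m → Bool) (S : St m),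
    stT m (t + 1) (Fin.cons c cs : Fin (t + 1) → Fin m → Bool) S = stT m t cs (nxt m c S)
  | 0, c, cs, S => by simp [stT]
  | t + 1, c, cs, S => by
      rw [stT]
      have h1 : (Fin.cons c cs : Fin (t + 1 + 1) → Fin m → Bool) (Fin.last (t + 1)) = cs (Fin.last t) := by
        rw [← Fin.succ_last, Fin.cons_succ]
      have h2 : (fun i : Fin (t + 1) => (Fin.cons c cs : Fin (t + 1 + 1) → Fin m → Bool) i.castSucc) =
          Fin.cons c (fun i : Fin t => cs i.castSucc) := by
        funext i
        refine Fin.cases ?_ (fun j => ?_) i
        · simp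
        · rw [← Fin.succ_castSucc, Fin.cons_succ, Fin.cons_succ]
      rw [h1, h2, A5_stT_cons m t]
      rfl

/-- flipping the coin of one switch -/
theorem A5_flip_same (m : ℕ) (c : Fin m → Bool) (z : Fin (2 * m)) :
    stepPerm m (Function.update c (sw m z) (!(c (sw m z)))) z = stepPerm m c (prt m z) := by
  apply Fin.ext
  rw [stepPerm_val, stepPerm_val, sw_prt, Function.update_self]
  have h1 : (prt m z).val % m = z.val % m := congrArg Fin.val (sw_prt m z)
  rw [h1]
  have h2 : decide (m ≤ (prt m z).val) = !(decide (m ≤ z.val)) := by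
    have hz := z.isLt
    rw [prt_val]
    by_cases h : z.val < m
    · rw [if_pos h]
      have h3 : ¬ (m ≤ z.val) := by omega
      have h4 : m ≤ z.val + m := by omega
      simp [h3, h4]
    · rw [if_neg h]
      have h3 : m ≤ z.val := by omega
      have h4 : ¬ (m ≤ z.val - m) := by omega
      simp [h3, h4]
  rw [h2]
  cases decide (m ≤ z.val) <;> cases c (sw m z) <;> rfl

theorem A5_flip_other (m : ℕ) (c : Fin m → Bool) (u : Fin m) (b : Bool) (w : Fin (2 * m))
    (hw : sw m w ≠ u) : stepPerm m (Function.update c u b) w = stepPerm m c w := by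
  apply Fin.ext
  rw [stepPerm_val, stepPerm_val, Function.update_of_ne hw]

theorem A5_one_step (m k : ℕ) (x : Fin k → Fin (2 * m)) (a : Fin (2 * m) → ℝ)
    (ha : ∀ i, a (x i) = 0) (Ψ : (Fin k → Fin (2 * m)) → Fin (2 * m) → ℝ) :
    ∑ z, a z * ex (fun c : Fin m → Bool => Ψ (fun i => stepPerm m c (x i)) (stepPerm m c z))
      = ∑ z, avgv m (univ.image x) a z *
        ex (fun c : Fin m → Bool => Ψ (fun i => stepPerm m c (x i)) (stepPerm m c z)) := by
  set G : Fin (2 * m) → ℝ := fun z =>
    ex (fun c : Fin m → Bool => Ψ (fun i => stepPerm m c (x i)) (stepPerm m c z)) with hG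
  set L := univ.image x with hL
  have haL : ∀ z ∈ L, a z = 0 := by
    intro z hz
    rw [hL, Finset.mem_image] at hz
    obtain ⟨i, _, rfl⟩ := hz
    exact ha i
  have hGp : ∀ z, z ∉ L → prt m z ∉ L → G z = G (prt m z) := by
    intro z h1 h2
    let e : (Fin m → Bool) ≃ (Fin m → Bool) :=
      { toFun := fun c => Function.update c (sw m z) (!(c (sw m z)))
        invFun := fun c => Function.update c (sw m z) (!(c (sw m z)))
        left_inv := by intro c; simp
        right_inv := by intro c; simp }
    simp only [hG]
    rw [← ex_equiv e]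
    apply ex_congr
    intro c
    have e1 : ∀ i, stepPerm m (e c) (x i) = stepPerm m c (x i) := by
      intro i
      apply A5_flip_other
      intro h
      rw [eq_comm, sw_eq_iff] at h
      have hx : x i ∈ L := Finset.mem_image_of_mem x (Finset.mem_univ i)
      rcases h with h | h
      · exact h1 (h ▸ hx)
      · exact h2 (h ▸ hx)
    have e2 : stepPerm m (e c) z = stepPerm m c (prt m z) := A5_flip_same m c z
    rw [e2]
    simp only [e1]
  have h1 := sum_prt m (fun z => a z * G z)
  have h2 := sum_prt m (fun z => avgv m L a z * G z)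
  have h3 : ∑ z, (a z * G z + a (prt m z) * G (prt m z))
      = ∑ z, (avgv m L a z * G z + avgv m L a (prt m z) * G (prt m z)) := by
    apply Finset.sum_congr rfl
    intro z _
    unfold avgv
    by_cases h1 : z ∈ L <;> by_cases h2 : prt m z ∈ L
    · simp [h1, h2, haL _ h1, haL _ h2]
    · simp [h1, h2, haL _ h1, prt_prt]
    · simp [h1, h2, haL _ h2]
    · simp only [h1, h2, if_false, prt_prt]; rw [hGp z h1 h2]; ring
  rw [Finset.sum_add_distrib, Finset.sum_add_distrib, h1, h2] at h3
  show ∑ z, a z * G z = ∑ z, avgv m L a z * G z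
  linarith

theorem A5_link (m T k : ℕ) (x : Fin k → Fin (2 * m)) (a : Fin (2 * m) → ℝ)
    (ha : ∀ i, a (x i) = 0) (y : Fin k → Fin (2 * m)) (b : Fin (2 * m)) :
    ∑ z, a z * EP m T (fun g => if (∀ i, g (x i) = y i) ∧ g z = b then 1 else 0) =
      ex (fun cs : Fin T → Fin m → Bool => if (∀ i, iterPerm m T cs (x i) = y i) then
        (stT m T cs (univ.image x, a)).2 b else 0) := by
  induction T generalizing x a with
  | zero =>
    rw [ex_unique]
    simp only [EP_zero, Perm.coe_one, id_eq]
    by_cases h : ∀ i, x i = y i
    · simp only [h, implies_true, true_and, mul_ite, mul_one, mul_zero, Finset.sum_ite_eq',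
        Finset.mem_univ, if_true, iterPerm, Perm.coe_one, id_eq, stT]
    · simp only [h, false_and, if_false, mul_zero, Finset.sum_const_zero, iterPerm, Perm.coe_one,
        id_eq]
  | succ T ih =>
    rw [ex_cons]
    have hR : ∀ c : Fin m → Bool, ex (fun cs : Fin T → Fin m → Bool =>
        if (∀ i, iterPerm m (T + 1) (Fin.cons c cs : Fin (T + 1) → Fin m → Bool) (x i) = y i) then
        (stT m (T + 1) (Fin.cons c cs : Fin (T + 1) → Fin m → Bool) (univ.image x, a)).2 b else 0)
        = ∑ z, avgv m (univ.image x) a z * EP m T
          (fun g => if (∀ i, g (stepPerm m c (x i)) = y i) ∧ g (stepPerm m c z) = b then 1 else 0) := by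
      intro c
      have h1 := ih (fun i => stepPerm m c (x i))
        (fun w => avgv m (univ.image x) a ((stepPerm m c).symm w)) (by
          intro i
          have hx : x i ∈ univ.image x := Finset.mem_image_of_mem x (Finset.mem_univ i)
          simp [avgv, hx])
      have h2 : (univ.image (fun i => stepPerm m c (x i)),
          (fun w => avgv m (univ.image x) a ((stepPerm m c).symm w))) = nxt m c (univ.image x, a) := by
        unfold nxt
        congr 1
        rw [Finset.map_eq_image, Finset.image_image]
        rfl
      rw [h2] at h1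
      calc _ = ex (fun cs : Fin T → Fin m → Bool =>
            if (∀ i, iterPerm m T cs (stepPerm m c (x i)) = y i) then
            (stT m T cs (nxt m c (univ.image x, a))).2 b else 0) := by
            apply ex_congr
            intro cs
            rw [iterPerm_cons, A5_stT_cons]
            rfl
        _ = _ := by
            rw [← h1, ← Equiv.sum_comp (stepPerm m c)]
            apply Finset.sum_congr rfl
            intro z _
            simp
    rw [ex_congr hR, ex_sum]
    have h3 := A5_one_step m k x a ha (fun x' z' => EP m T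
          (fun g => if (∀ i, g (x' i) = y i) ∧ g z' = b then 1 else 0))
    calc _ = ∑ z, a z * ex (fun c : Fin m → Bool => EP m T
          (fun g => if (∀ i, g (stepPerm m c (x i)) = y i) ∧ g (stepPerm m c z) = b then 1 else 0)) := by
          apply Finset.sum_congr rfl
          intro z _
          rw [EP_succ_first]
          rfl
      _ = _ := by
          rw [h3]
          apply Finset.sum_congr rfl
          intro z _
          rw [← ex_const_mul]

end Crest.Agent.S0222
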