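import Crest.Agent.S0222_Basic
import Crest.Agent.S0222_A4
import Crest.Agent.S0222_A5

/-!
Partial mixing (task A6 of S0222).
-/

set_option autoImplicit false

namespace Crest.Agent.S0222

open Finset Equiv Crest.ProbabilityR.Shuffle

theorem A6_sum_succ (N k : ℕ) (F : Fin N → (Fin k → Fin N) → ℝ) :
    ∑ y : Fin (k + 1) ↪ Fin N, F (y 0) (fun i => y i.succ) =
      ∑ y' : Fin k ↪ Fin N, ∑ b, if (∀ i, y' i ≠ b) then F b y' else 0 := by
  classical
  rw [← Equiv.sum_comp (Equiv.embeddingFinSucc k (Fin N)).symm, Fintype.sum_sigma]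
  refine Finset.sum_congr rfl fun y' _ => ?_
  rw [← Finset.sum_filter]
  rw [Finset.sum_subtype (univ.filter fun b => ∀ i, y' i ≠ b)
    (p := fun b => b ∉ Set.range y') (fun b => by simp)]
  refine Finset.sum_congr rfl fun b _ => ?_
  rw [Equiv.coe_embeddingFinSucc_symm]
  simp

theorem A6_card_compl {N k : ℕ} (x : Fin k ↪ Fin N) :
    ((univ.filter fun z => ∀ i, x i ≠ z).card : ℝ) = (N : ℝ) - k := by
  classical
  have h : (univ.filter fun z => ∀ i, x i ≠ z) = (univ.map x)ᶜ := by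
    ext z; simp
  rw [h, Finset.card_compl, Finset.card_map, Fintype.card_fin, Finset.card_univ, Fintype.card_fin]
  have hk : k ≤ N := by
    have := Fintype.card_le_of_embedding x
    simpa using this
  rw [Nat.cast_sub hk]

/-- start mass -/
noncomputable def A6_a {N k : ℕ} (x : Fin k ↪ Fin N) (x0 : Fin N) : Fin N → ℝ :=
  fun z => (if z = x0 then 1 else 0) - (if ∀ i, x i ≠ z then 1 / ((N : ℝ) - k) else 0)

theorem A6_a_zero {N k : ℕ} (x : Fin k ↪ Fin N) (x0 : Fin N) (hx0 : ∀ i, x i ≠ x0) (i : Fin k) :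
    A6_a x x0 (x i) = 0 := by
  unfold A6_a
  rw [if_neg (hx0 i), if_neg (fun h => h i rfl), sub_zero]

theorem A6_a_sum {N k : ℕ} (x : Fin k ↪ Fin N) (x0 : Fin N) (hk : (k : ℝ) < N) :
    ∑ z, A6_a x x0 z = 0 := by
  unfold A6_a
  rw [Finset.sum_sub_distrib, ← Finset.sum_filter (p := fun z => ∀ i, x i ≠ z), Finset.sum_const,
    nsmul_eq_mul, A6_card_compl]
  have : (N : ℝ) - k ≠ 0 := by
    have : 0 < (N : ℝ) - k := by linarith
    exact this.ne'
  simp
  field_simp
  simp

theorem A6_a_nrm {N k : ℕ} (x : Fin k ↪ Fin N) (x0 : Fin N) (hx0 : ∀ i, x i ≠ x0)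
    (hk : (k : ℝ) < N) :
    ∑ z, A6_a x x0 z ^ 2 ≤ 1 := by
  have hpos : 0 < (N : ℝ) - k := by linarith
  have key : ∀ z, A6_a x x0 z ^ 2 = (if z = x0 then 1 - 2 / ((N : ℝ) - k) else 0) +
      (if ∀ i, x i ≠ z then 1 / ((N : ℝ) - k) ^ 2 else 0) := by
    intro z
    unfold A6_a
    by_cases h1 : z = x0
    · subst h1
      rw [if_pos rfl, if_pos hx0, if_pos rfl, if_pos hx0]
      field_simp
      ring
    · rw [if_neg h1, if_neg h1]
      by_cases h2 : ∀ i, x i ≠ z
      · rw [if_pos h2, if_pos h2]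
        field_simp
        ring
      · rw [if_neg h2, if_neg h2]; ring
  simp_rw [key]
  rw [Finset.sum_add_distrib, Finset.sum_ite_eq', if_pos (mem_univ _), ← Finset.sum_filter,
    Finset.sum_const, nsmul_eq_mul, A6_card_compl]
  have : (1 - 2 / ((N : ℝ) - k)) + ((N : ℝ) - k) * (1 / ((N : ℝ) - k) ^ 2) =
      1 - 1 / ((N : ℝ) - k) := by
    field_simp
    ring
  rw [this]
  have : 0 ≤ 1 / ((N : ℝ) - k) := by positivity
  linarith

/-- distance after `T` steps -/
noncomputable def A6_D (m T k : ℕ) (x : Fin k ↪ Fin (2 * m)) : ℝ :=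
  ∑ y : Fin k ↪ Fin (2 * m),
      |EP m T (fun g => if (∀ i, g (x i) = y i) then 1 else 0)
        - 1 / (Fintype.card (Fin k ↪ Fin (2 * m)) : ℝ)|

theorem A6_card_succ {N k : ℕ} (hk : k < N) :
    (Fintype.card (Fin (k + 1) ↪ Fin N) : ℝ) = ((N : ℝ) - k) * Fintype.card (Fin k ↪ Fin N) := by
  rw [Fintype.card_embedding_eq, Fintype.card_embedding_eq]
  simp only [Fintype.card_fin]
  rw [Nat.descFactorial_succ, Nat.cast_mul, Nat.cast_sub hk.le]

theorem A6_link (m T k : ℕ) (hk : k < 2 * m) (x : Fin k ↪ Fin (2 * m)) (x0 : Fin (2 * m))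
    (y : Fin k ↪ Fin (2 * m)) (b : Fin (2 * m)) (hb : ∀ i, y i ≠ b) :
    ∑ z, A6_a x x0 z * EP m T (fun g => if (∀ i, g (x i) = y i) ∧ g z = b then 1 else 0) =
      EP m T (fun g => if (∀ i, g (x i) = y i) ∧ g x0 = b then 1 else 0) -
        EP m T (fun g => if (∀ i, g (x i) = y i) then 1 else 0) / (((2 * m : ℕ) : ℝ) - k) := by
  classical
  have hpos : 0 < ((2 * m : ℕ) : ℝ) - k := by
    have : (k : ℝ) < ((2 * m : ℕ) : ℝ) := by exact_mod_cast hk
    linarith
  unfold A6_a
  simp only [sub_mul, Finset.sum_sub_distrib, ite_mul, one_mul, zero_mul]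
  congr 1
  · rw [Finset.sum_ite_eq', if_pos (mem_univ _)]
  · rw [← Finset.sum_filter, ← Finset.mul_sum, ← EP_sum, one_div, inv_mul_eq_div]
    congr 1
    apply EP_congr
    intro g
    by_cases hg : ∀ i, g (x i) = y i
    · simp only [hg, implies_true, true_and, if_true]
      rw [Finset.sum_ite, Finset.sum_const_zero, add_zero, Finset.sum_const, nsmul_eq_mul, mul_one]
      have : (({z ∈ (univ.filter fun z => ∀ i, x i ≠ z) | g z = b} : Finset (Fin (2 * m)))) =
          {g.symm b} := by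
        ext z
        simp only [mem_filter, mem_univ, true_and, mem_singleton]
        constructor
        · rintro ⟨-, h⟩
          rw [← h, Equiv.symm_apply_apply]
        · rintro rfl
          refine ⟨fun i h => ?_, Equiv.apply_symm_apply _ _⟩
          apply hb i
          rw [← hg i, h, Equiv.apply_symm_apply]
      rw [this]; simp
    · simp only [hg, false_and, if_false, Finset.sum_const_zero]

theorem A6_abs_sum_le (N : ℕ) (r : Fin N → ℝ) :
    ∑ b, |r b| ≤ Real.sqrt (N * ∑ b, r b ^ 2) := by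
  apply Real.le_sqrt_of_sq_le
  have := sq_sum_le_card_mul_sum_sq (s := univ) (f := fun b : Fin N => |r b|)
  simpa [sq_abs] using this

theorem A6_step (m T k : ℕ) (hk : k + 1 ≤ m) (x : Fin (k + 1) ↪ Fin (2 * m)) (B : ℝ)
    (hB : ∀ S : St m, Adm m S → S.1.card ≤ m → nrm m S ≤ 1 →
      EE m T (nrm m) S ≤ B) :
    A6_D m T (k + 1) x ≤ A6_D m T k ((Fin.succEmb k).trans x) +
      Real.sqrt (((2 * m : ℕ) : ℝ) * B) := by
  classical
  set x' : Fin k ↪ Fin (2 * m) := (Fin.succEmb k).trans x with hx'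
  have hx'a : ∀ i, x' i = x i.succ := fun i => rfl
  have hx0 : ∀ i, x' i ≠ x 0 := by
    intro i h
    rw [hx'a] at h
    exact Fin.succ_ne_zero i (x.injective h)
  have hkN : k < 2 * m := by omega
  have hkR : (k : ℝ) < ((2 * m : ℕ) : ℝ) := by exact_mod_cast hkN
  have hpos : 0 < ((2 * m : ℕ) : ℝ) - k := by linarith
  set a := A6_a x' (x 0) with ha
  set S0 : St m := (univ.image x', a) with hS0
  have hAdm : Adm m S0 := by
    constructor
    · intro z hz
      rw [hS0] at hz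
      simp only [mem_image, mem_univ, true_and] at hz
      obtain ⟨i, rfl⟩ := hz
      exact A6_a_zero x' (x 0) hx0 i
    · exact A6_a_sum x' (x 0) hkR
  have hcard : S0.1.card ≤ m := by
    have h1 : S0.1.card ≤ k := by
      have := Finset.card_image_le (s := (univ : Finset (Fin k))) (f := x')
      simpa using this
    omega
  have hnrm : nrm m S0 ≤ 1 := A6_a_nrm x' (x 0) hx0 hkR
  have hEE := hB S0 hAdm hcard hnrm
  -- notation
  set p : (Fin k → Fin (2 * m)) → ℝ := fun y =>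
    EP m T (fun g => if (∀ i, g (x' i) = y i) then 1 else 0) with hp
  set q : Fin (2 * m) → (Fin k → Fin (2 * m)) → ℝ := fun b y =>
    EP m T (fun g => if (∀ i, g (x' i) = y i) ∧ g (x 0) = b then 1 else 0) with hq
  set ck : ℝ := (Fintype.card (Fin k ↪ Fin (2 * m)) : ℝ) with hck
  have hL : A6_D m T (k + 1) x = ∑ y' : Fin k ↪ Fin (2 * m), ∑ b,
      if (∀ i, y' i ≠ b) then |q b y' - 1 / ((((2 * m : ℕ) : ℝ) - k) * ck)| else 0 := by
    rw [← A6_sum_succ (2 * m) k (fun b y' => |q b y' - 1 / ((((2 * m : ℕ) : ℝ) - k) * ck)|)]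
    unfold A6_D
    rw [A6_card_succ hkN]
    refine Finset.sum_congr rfl fun y _ => ?_
    congr 2
    apply EP_congr
    intro g
    by_cases h : ∀ i, g (x i) = y i
    · rw [if_pos h, if_pos ⟨fun i => h i.succ, h 0⟩]
    · rw [if_neg h, if_neg]
      rintro ⟨h1, h2⟩
      apply h
      intro i
      refine Fin.cases h2 h1 i
  have hlink : ∀ (y : Fin k ↪ Fin (2 * m)) (b : Fin (2 * m)), (∀ i, y i ≠ b) →
      q b y - p y / (((2 * m : ℕ) : ℝ) - k) =
        ex (fun cs : Fin T → Fin m → Bool => if (∀ i, iterPerm m T cs (x' i) = y i) then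
        (stT m T cs S0).2 b else 0) := by
    intro y b hb
    rw [hS0, ← A5_link m T k x' a (fun i => A6_a_zero x' (x 0) hx0 i) y b,
      ha, A6_link m T k hkN x' (x 0) y b hb]
  have h1 : A6_D m T (k + 1) x ≤
      (∑ y' : Fin k ↪ Fin (2 * m), ∑ b, if (∀ i, y' i ≠ b) then
        |q b y' - p y' / (((2 * m : ℕ) : ℝ) - k)| else 0) +
      ∑ y' : Fin k ↪ Fin (2 * m), ∑ b, if (∀ i, y' i ≠ b) then
        |p y' / (((2 * m : ℕ) : ℝ) - k) - 1 / ((((2 * m : ℕ) : ℝ) - k) * ck)| else 0 := by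
    rw [hL, ← Finset.sum_add_distrib]
    refine Finset.sum_le_sum fun y' _ => ?_
    rw [← Finset.sum_add_distrib]
    refine Finset.sum_le_sum fun b _ => ?_
    by_cases hb : ∀ i, y' i ≠ b
    · rw [if_pos hb, if_pos hb, if_pos hb]
      exact abs_sub_le _ _ _
    · rw [if_neg hb, if_neg hb, if_neg hb, add_zero]
  have h2 : (∑ y' : Fin k ↪ Fin (2 * m), ∑ b, if (∀ i, y' i ≠ b) then
        |p y' / (((2 * m : ℕ) : ℝ) - k) - 1 / ((((2 * m : ℕ) : ℝ) - k) * ck)| else 0) =
      A6_D m T k x' := by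
    unfold A6_D
    refine Finset.sum_congr rfl fun y' _ => ?_
    rw [← Finset.sum_filter, Finset.sum_const, nsmul_eq_mul, A6_card_compl]
    have : p y' / (((2 * m : ℕ) : ℝ) - k) - 1 / ((((2 * m : ℕ) : ℝ) - k) * ck) =
        (p y' - 1 / ck) / (((2 * m : ℕ) : ℝ) - k) := by
      rw [sub_div, div_div, mul_comm ck]
    rw [this, abs_div, abs_of_pos hpos, mul_div_cancel₀ _ hpos.ne']
  have h3 : (∑ y' : Fin k ↪ Fin (2 * m), ∑ b, if (∀ i, y' i ≠ b) then
        |q b y' - p y' / (((2 * m : ℕ) : ℝ) - k)| else 0) ≤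
      ex (fun cs : Fin T → Fin m → Bool => ∑ b, |(stT m T cs S0).2 b|) := by
    have e1 : ∀ cs : Fin T → Fin m → Bool, ∑ b, |(stT m T cs S0).2 b| =
        ∑ y' : Fin k ↪ Fin (2 * m), ∑ b, if (∀ i, iterPerm m T cs (x' i) = y' i) then
          |(stT m T cs S0).2 b| else 0 := by
      intro cs
      have : ∀ y' : Fin k ↪ Fin (2 * m),
          (∑ b, if (∀ i, iterPerm m T cs (x' i) = y' i) then
            |(stT m T cs S0).2 b| else 0) =
          if y' = x'.trans (iterPerm m T cs).toEmbedding then ∑ b, |(stT m T cs S0).2 b| else 0 := by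
        intro y'
        by_cases hy : y' = x'.trans (iterPerm m T cs).toEmbedding
        · rw [if_pos hy]
          refine Finset.sum_congr rfl fun b _ => ?_
          rw [if_pos]
          intro i
          rw [hy]; rfl
        · rw [if_neg hy]
          apply Finset.sum_eq_zero
          intro b _
          rw [if_neg]
          intro h
          apply hy
          ext i
          rw [← h i]; rfl
      rw [Finset.sum_congr rfl (fun y' _ => this y')]
      rw [Finset.sum_ite_eq', if_pos (mem_univ _)]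
    rw [ex_congr e1, ex_sum]
    refine Finset.sum_le_sum fun y' _ => ?_
    rw [ex_sum]
    refine Finset.sum_le_sum fun b _ => ?_
    by_cases hb : ∀ i, y' i ≠ b
    · rw [if_pos hb, hlink y' b hb]
      refine (abs_ex_le _).trans (ex_mono fun cs => ?_)
      by_cases hc : ∀ i, iterPerm m T cs (x' i) = y' i
      · rw [if_pos hc, if_pos hc]
      · rw [if_neg hc, if_neg hc, abs_zero]
    · rw [if_neg hb]
      apply ex_nonneg
      intro cs
      split_ifs
      · exact abs_nonneg _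
      · exact le_rfl
  have h4 : ex (fun cs : Fin T → Fin m → Bool => ∑ b, |(stT m T cs S0).2 b|) ≤
      Real.sqrt (((2 * m : ℕ) : ℝ) * B) := by
    calc ex (fun cs : Fin T → Fin m → Bool => ∑ b, |(stT m T cs S0).2 b|) ≤
        ex (fun cs : Fin T → Fin m → Bool =>
          Real.sqrt (((2 * m : ℕ) : ℝ) * nrm m (stT m T cs S0))) :=
          ex_mono fun cs => A6_abs_sum_le _ _
      _ ≤ Real.sqrt (ex (fun cs : Fin T → Fin m → Bool =>
          (((2 * m : ℕ) : ℝ) * nrm m (stT m T cs S0)))) := by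
          apply ex_sqrt_le
          intro cs
          apply mul_nonneg (Nat.cast_nonneg _)
          exact Finset.sum_nonneg fun _ _ => sq_nonneg _
      _ = Real.sqrt (((2 * m : ℕ) : ℝ) * EE m T (nrm m) S0) := by
          rw [ex_const_mul, A5_EE]
      _ ≤ Real.sqrt (((2 * m : ℕ) : ℝ) * B) := by
          apply Real.sqrt_le_sqrt
          exact mul_le_mul_of_nonneg_left hEE (Nat.cast_nonneg _)
  linarith

theorem A6_pm_aux (m T : ℕ) (B : ℝ)
    (hB : ∀ S : St m, Adm m S → S.1.card ≤ m → nrm m S ≤ 1 →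
      EE m T (nrm m) S ≤ B) :
    ∀ (k : ℕ), k ≤ m → ∀ (x : Fin k ↪ Fin (2 * m)),
      A6_D m T k x ≤ k * Real.sqrt (((2 * m : ℕ) : ℝ) * B)
  | 0, _, x => by
    unfold A6_D
    have : ∀ y : Fin 0 ↪ Fin (2 * m),
      |EP m T (fun g => if (∀ i, g (x i) = y i) then 1 else 0)
        - 1 / (Fintype.card (Fin 0 ↪ Fin (2 * m)) : ℝ)| = 0 := by
      intro y
      have h1 : EP m T (fun g => if (∀ i, g (x i) = y i) then 1 else 0) = 1 := by
        refine (EP_congr m T (F' := fun _ => 1) fun g => ?_).trans (EP_const m T 1)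
        rw [if_pos (fun i => i.elim0)]
      rw [h1, Fintype.card_embedding_eq]
      simp
    rw [Finset.sum_congr rfl (fun y _ => this y)]
    simp
  | k + 1, hk, x => by
    have h1 := A6_step m T k hk x B hB
    have h2 := A6_pm_aux m T B hB k (by omega) ((Fin.succEmb k).trans x)
    rw [Nat.cast_succ, add_mul, one_mul]
    linarith

theorem A6_pm (d T k : ℕ) (hk : k ≤ 2 ^ d) (x : Fin k ↪ Fin (2 * 2 ^ d)) :
    ∑ y : Fin k ↪ Fin (2 * 2 ^ d),
      |EP (2 ^ d) T (fun g => if (∀ i, g (x i) = y i) then 1 else 0)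
        - 1 / (Fintype.card (Fin k ↪ Fin (2 * 2 ^ d)) : ℝ)| ≤ pmB d T := by
  have h := A6_pm_aux (2 ^ d) T
    ((8 / 7 : ℝ) ^ (2 * (d + 1)) * (7 / 8) ^ T + 8 * (0.892 : ℝ) ^ (2 ^ d))
    (fun S hS hc hn => A4_decay d T S hS hc hn) k hk x
  unfold A6_D at h
  refine h.trans ?_
  unfold pmB
  have e : ((2 * 2 ^ d : ℕ) : ℝ) = 2 ^ (d + 1) := by
    push_cast; ring
  rw [e]
  apply mul_le_mul_of_nonneg_right _ (Real.sqrt_nonneg _)
  exact_mod_cast hk

end Crest.Agent.S0222
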