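import Crest.Agent.S0222_Defs

/-!
Basic lemmas on `ex`, `EP`, `EE`, `conv`, ... for S0222.  Owner: helper43.
-/

set_option autoImplicit false
set_option linter.unusedVariables false

namespace Crest.Agent.S0222

open Finset Equiv Crest.ProbabilityR.Shuffle

section exlemmas
variable {Ω Ω' : Type*} [Fintype Ω] [Fintype Ω']

theorem ex_def (f : Ω → ℝ) : ex f = (∑ ω, f ω) / (Fintype.card Ω : ℝ) := rfl

theorem ex_congr {f g : Ω → ℝ} (h : ∀ ω, f ω = g ω) : ex f = ex g := by
  unfold ex; rw [Finset.sum_congr rfl (fun ω _ => h ω)]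

theorem ex_nonneg {f : Ω → ℝ} (h : ∀ ω, 0 ≤ f ω) : 0 ≤ ex f :=
  div_nonneg (Finset.sum_nonneg (fun ω _ => h ω)) (Nat.cast_nonneg _)

theorem ex_mono {f g : Ω → ℝ} (h : ∀ ω, f ω ≤ g ω) : ex f ≤ ex g :=
  div_le_div_of_nonneg_right (Finset.sum_le_sum (fun ω _ => h ω)) (Nat.cast_nonneg _)

theorem ex_add (f g : Ω → ℝ) : ex (fun ω => f ω + g ω) = ex f + ex g := by
  unfold ex; rw [Finset.sum_add_distrib, add_div]

theorem ex_sub (f g : Ω → ℝ) : ex (fun ω => f ω - g ω) = ex f - ex g := by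
  unfold ex; rw [Finset.sum_sub_distrib, sub_div]

theorem ex_neg (f : Ω → ℝ) : ex (fun ω => - f ω) = - ex f := by
  unfold ex; rw [Finset.sum_neg_distrib, neg_div]

theorem ex_const_mul (a : ℝ) (f : Ω → ℝ) : ex (fun ω => a * f ω) = a * ex f := by
  unfold ex; rw [← Finset.mul_sum, mul_div_assoc]

theorem ex_mul_const (f : Ω → ℝ) (a : ℝ) : ex (fun ω => f ω * a) = ex f * a := by
  unfold ex; rw [← Finset.sum_mul, div_mul_eq_mul_div]

theorem ex_div_const (f : Ω → ℝ) (a : ℝ) : ex (fun ω => f ω / a) = ex f / a := by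
  simp only [div_eq_mul_inv, ex_mul_const]

theorem ex_const [Nonempty Ω] (a : ℝ) : ex (fun _ : Ω => a) = a := by
  unfold ex
  have : (Fintype.card Ω : ℝ) ≠ 0 := by exact_mod_cast Fintype.card_ne_zero
  rw [Finset.sum_const, Finset.card_univ, nsmul_eq_mul, mul_div_cancel_left₀ _ this]

theorem ex_zero : ex (fun _ : Ω => (0 : ℝ)) = 0 := by simp [ex]

theorem ex_le_const [Nonempty Ω] {f : Ω → ℝ} {a : ℝ} (h : ∀ ω, f ω ≤ a) : ex f ≤ a := by
  have := ex_mono h; rwa [ex_const] at this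

theorem const_le_ex [Nonempty Ω] {f : Ω → ℝ} {a : ℝ} (h : ∀ ω, a ≤ f ω) : a ≤ ex f := by
  have := ex_mono h; rwa [ex_const] at this

theorem ex_sum {ι : Type*} (s : Finset ι) (f : ι → Ω → ℝ) :
    ex (fun ω => ∑ i ∈ s, f i ω) = ∑ i ∈ s, ex (f i) := by
  unfold ex; rw [Finset.sum_comm, Finset.sum_div]

theorem abs_ex_le (f : Ω → ℝ) : |ex f| ≤ ex (fun ω => |f ω|) := by
  unfold ex; rw [abs_div, Nat.abs_cast]
  exact div_le_div_of_nonneg_right (Finset.abs_sum_le_sum_abs _ _) (Nat.cast_nonneg _)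

theorem ex_equiv (e : Ω ≃ Ω') (f : Ω' → ℝ) : ex (fun ω => f (e ω)) = ex f := by
  unfold ex; rw [Equiv.sum_comp e f, Fintype.card_congr e]

theorem ex_bij (e : Ω ≃ Ω') (f : Ω → ℝ) (g : Ω' → ℝ) (h : ∀ ω, f ω = g (e ω)) : ex f = ex g := by
  rw [← ex_equiv e g]; exact ex_congr h

theorem ex_prod (f : Ω × Ω' → ℝ) : ex f = ex (fun a => ex (fun b => f (a, b))) := by
  unfold ex
  rw [Fintype.sum_prod_type, Fintype.card_prod, ← Finset.sum_div, div_div, Nat.cast_mul,
    mul_comm (Fintype.card Ω : ℝ)]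

theorem ex_comm (f : Ω → Ω' → ℝ) :
    ex (fun a => ex (fun b => f a b)) = ex (fun b => ex (fun a => f a b)) := by
  unfold ex
  rw [← Finset.sum_div, ← Finset.sum_div, div_div, div_div, Finset.sum_comm,
    mul_comm (Fintype.card Ω : ℝ)]

/-- Cauchy–Schwarz -/
theorem ex_mul_le_sqrt (f g : Ω → ℝ) :
    ex (fun ω => f ω * g ω) ≤ Real.sqrt (ex (fun ω => f ω ^ 2)) * Real.sqrt (ex (fun ω => g ω ^ 2)) := by
  unfold ex
  rw [← Real.sqrt_mul (div_nonneg (Finset.sum_nonneg fun _ _ => sq_nonneg _) (Nat.cast_nonneg _))]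
  apply Real.le_sqrt_of_sq_le
  rw [div_pow, div_mul_div_comm, sq (Fintype.card Ω : ℝ)]
  exact div_le_div_of_nonneg_right (Finset.sum_mul_sq_le_sq_mul_sq _ _ _)
    (mul_nonneg (Nat.cast_nonneg _) (Nat.cast_nonneg _))

/-- Jensen for the square -/
theorem sq_ex_le (f : Ω → ℝ) : (ex f) ^ 2 ≤ ex (fun ω => f ω ^ 2) := by
  rcases isEmpty_or_nonempty Ω with h | h
  · simp [ex]
  · have h1 := ex_mul_le_sqrt f (fun _ => (1 : ℝ))
    have h2 := ex_mul_le_sqrt (fun ω => - f ω) (fun _ => (1 : ℝ))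
    simp only [mul_one, one_pow, ex_const, Real.sqrt_one, neg_sq] at h1 h2
    rw [ex_neg] at h2
    have h3 : |ex f| ≤ Real.sqrt (ex (fun ω => f ω ^ 2)) := abs_le.2 ⟨by linarith, h1⟩
    rw [← sq_abs]
    calc |ex f| ^ 2 ≤ Real.sqrt (ex (fun ω => f ω ^ 2)) ^ 2 :=
          pow_le_pow_left₀ (abs_nonneg _) h3 2
      _ = ex (fun ω => f ω ^ 2) := Real.sq_sqrt (ex_nonneg fun _ => sq_nonneg _)

/-- Jensen for the square root -/
theorem ex_sqrt_le (f : Ω → ℝ) (hf : ∀ ω, 0 ≤ f ω) :
    ex (fun ω => Real.sqrt (f ω)) ≤ Real.sqrt (ex f) := by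
  apply Real.le_sqrt_of_sq_le
  calc (ex fun ω => Real.sqrt (f ω)) ^ 2 ≤ ex (fun ω => Real.sqrt (f ω) ^ 2) := sq_ex_le _
    _ = ex f := ex_congr fun ω => Real.sq_sqrt (hf ω)

/-- Cauchy–Schwarz for square roots of products -/
theorem ex_sqrt_mul_le (f g : Ω → ℝ) (hf : ∀ ω, 0 ≤ f ω) (hg : ∀ ω, 0 ≤ g ω) :
    ex (fun ω => Real.sqrt (f ω * g ω)) ≤ Real.sqrt (ex f * ex g) := by
  calc ex (fun ω => Real.sqrt (f ω * g ω)) = ex (fun ω => Real.sqrt (f ω) * Real.sqrt (g ω)) :=
        ex_congr fun ω => Real.sqrt_mul (hf ω) _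
    _ ≤ _ := ex_mul_le_sqrt _ _
    _ = Real.sqrt (ex f * ex g) := by
        rw [ex_congr (fun ω => Real.sq_sqrt (hf ω)), ex_congr (fun ω => Real.sq_sqrt (hg ω)),
          ← Real.sqrt_mul (ex_nonneg hf)]

/-- peel the first coordinate -/
theorem ex_cons {α : Type*} [Fintype α] (t : ℕ) (f : (Fin (t + 1) → α) → ℝ) :
    ex f = ex (fun a : α => ex (fun g : Fin t → α => f (Fin.cons a g))) := by
  rw [← ex_prod (fun p : α × (Fin t → α) => f (Fin.cons p.1 p.2))]
  exact (ex_equiv (Fin.consEquiv (fun _ => α)) f).symm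

/-- peel the last coordinate -/
theorem ex_snoc {α : Type*} [Fintype α] (t : ℕ) (f : (Fin (t + 1) → α) → ℝ) :
    ex f = ex (fun a : α => ex (fun g : Fin t → α => f (Fin.snoc g a))) := by
  rw [← ex_prod (fun p : α × (Fin t → α) => f (Fin.snoc p.2 p.1))]
  exact (ex_equiv (Fin.snocEquiv (fun _ => α)) f).symm

theorem ex_unique [Unique Ω] (f : Ω → ℝ) : ex f = f default := by simp [ex]

/-- averages of functions of disjoint sets of coordinates -/
theorem ex_indep {I α : Type*} [Fintype I] [DecidableEq I] [Fintype α]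
    (p : I → Prop) [DecidablePred p] (f g : (I → α) → ℝ)
    (hf : ∀ a b : I → α, (∀ i, p i → a i = b i) → f a = f b)
    (hg : ∀ a b : I → α, (∀ i, ¬ p i → a i = b i) → g a = g b) :
    ex (fun a => f a * g a) = ex f * ex g := by
  rcases isEmpty_or_nonempty (I → α) with h | h
  · simp [ex]
  have h1 : ex f * ex g = ex (fun q : (I → α) × (I → α) => f q.1 * g q.2) := by
    rw [ex_prod]; simp only [ex_const_mul, ex_mul_const]
  let e : (I → α) × (I → α) ≃ (I → α) × (I → α) :=
    { toFun := fun q => (fun i => if p i then q.1 i else q.2 i, fun i => if p i then q.2 i else q.1 i)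
      invFun := fun q => (fun i => if p i then q.1 i else q.2 i, fun i => if p i then q.2 i else q.1 i)
      left_inv := fun q => by
        apply Prod.ext <;> funext i <;> by_cases hi : p i <;> simp [hi]
      right_inv := fun q => by
        apply Prod.ext <;> funext i <;> by_cases hi : p i <;> simp [hi] }
  have h2 : ex (fun q : (I → α) × (I → α) => f q.1 * g q.2) =
      ex (fun q : (I → α) × (I → α) => f q.1 * g q.1) := by
    rw [← ex_equiv e (fun q : (I → α) × (I → α) => f q.1 * g q.1)]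
    apply ex_congr; intro q
    congr 1
    · apply hf; intro i hi; simp [e, hi]
    · apply hg; intro i hi; simp [e, hi]
  rw [h1, h2, ex_prod]
  simp only [ex_const]

theorem markov [Nonempty Ω] (f : Ω → ℝ) (hf : ∀ ω, 0 ≤ f ω) (a : ℝ) (ha : 0 < a) :
    ex (fun ω => if a ≤ f ω then (1 : ℝ) else 0) ≤ ex f / a := by
  rw [← ex_div_const]
  apply ex_mono; intro ω
  by_cases h : a ≤ f ω
  · simp only [h, if_true]; rwa [le_div_iff₀ ha, one_mul]
  · simp only [h, if_false]; exact div_nonneg (hf ω) ha.le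

end exlemmas

/-! ### EP -/

theorem EP_zero (m : ℕ) (F : Perm (Fin (2 * m)) → ℝ) : EP m 0 F = F 1 := by
  unfold EP; rw [ex_unique]; rfl

theorem EP_succ (m t : ℕ) (F : Perm (Fin (2 * m)) → ℝ) :
    EP m (t + 1) F = ex (fun c : Fin m → Bool => EP m t (fun g => F (stepPerm m c * g))) := by
  unfold EP
  rw [ex_snoc]
  apply ex_congr; intro c; apply ex_congr; intro cs
  simp [iterPerm]

theorem iterPerm_cons (m : ℕ) : ∀ (t : ℕ) (c : Fin m → Bool) (cs : Fin t → Fin m → Bool),
    iterPerm m (t + 1) (Fin.cons c cs : Fin (t + 1) → Fin m → Bool) =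
      iterPerm m t cs * stepPerm m c
  | 0, c, cs => by simp [iterPerm]
  | t + 1, c, cs => by
      rw [iterPerm]
      have h1 : (Fin.cons c cs : Fin (t + 1 + 1) → Fin m → Bool) (Fin.last (t + 1)) = cs (Fin.last t) := by
        rw [← Fin.succ_last, Fin.cons_succ]
      have h2 : (fun i : Fin (t + 1) => (Fin.cons c cs : Fin (t + 1 + 1) → Fin m → Bool) i.castSucc) =
          Fin.cons c (fun i : Fin t => cs i.castSucc) := by
        funext i
        refine Fin.cases ?_ (fun j => ?_) i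
        · simp
        · rw [← Fin.succ_castSucc, Fin.cons_succ, Fin.cons_succ]
      rw [h1, h2, iterPerm_cons m t]
      simp [iterPerm, mul_assoc]

/-- peel the first step -/
theorem EP_succ_first (m t : ℕ) (F : Perm (Fin (2 * m)) → ℝ) :
    EP m (t + 1) F = ex (fun c : Fin m → Bool => EP m t (fun g => F (g * stepPerm m c))) := by
  unfold EP
  rw [ex_cons]
  apply ex_congr; intro c; apply ex_congr; intro cs
  rw [iterPerm_cons]

theorem EP_add (m a b : ℕ) (F : Perm (Fin (2 * m)) → ℝ) :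
    EP m (a + b) F = EP m a (fun g => EP m b (fun h => F (h * g))) := by
  induction b generalizing F with
  | zero => simp [EP_zero]
  | succ b ih =>
      rw [← add_assoc, EP_succ]
      simp only [ih]
      simp only [EP_succ m b, mul_assoc]
      unfold EP
      rw [ex_comm]

theorem EP_congr (m t : ℕ) {F F' : Perm (Fin (2 * m)) → ℝ} (h : ∀ g, F g = F' g) :
    EP m t F = EP m t F' := ex_congr fun _ => h _

theorem EP_mono (m t : ℕ) {F F' : Perm (Fin (2 * m)) → ℝ} (h : ∀ g, F g ≤ F' g) :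
    EP m t F ≤ EP m t F' := ex_mono fun _ => h _

theorem EP_const (m t : ℕ) (a : ℝ) : EP m t (fun _ => a) = a := ex_const a

theorem EP_nonneg (m t : ℕ) {F : Perm (Fin (2 * m)) → ℝ} (h : ∀ g, 0 ≤ F g) : 0 ≤ EP m t F :=
  ex_nonneg fun _ => h _

theorem EP_add_fun (m t : ℕ) (F F' : Perm (Fin (2 * m)) → ℝ) :
    EP m t (fun g => F g + F' g) = EP m t F + EP m t F' := ex_add _ _

theorem EP_sub_fun (m t : ℕ) (F F' : Perm (Fin (2 * m)) → ℝ) :
    EP m t (fun g => F g - F' g) = EP m t F - EP m t F' := ex_sub _ _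

theorem EP_const_mul (m t : ℕ) (a : ℝ) (F : Perm (Fin (2 * m)) → ℝ) :
    EP m t (fun g => a * F g) = a * EP m t F := ex_const_mul _ _

theorem EP_sum {ι : Type*} (m t : ℕ) (s : Finset ι) (F : ι → Perm (Fin (2 * m)) → ℝ) :
    EP m t (fun g => ∑ i ∈ s, F i g) = ∑ i ∈ s, EP m t (F i) := ex_sum _ _

/-- law of total expectation : `EP F = ∑_g Pr[g] F g` -/
theorem EP_eq_sum (m t : ℕ) (F : Perm (Fin (2 * m)) → ℝ) :
    EP m t F = ∑ h, EP m t (fun g => if g = h then 1 else 0) * F h := by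
  have : ∀ h, EP m t (fun g => if g = h then 1 else 0) * F h =
      EP m t (fun g => if g = h then F h else 0) := by
    intro h
    rw [mul_comm, ← EP_const_mul]
    apply EP_congr; intro g; by_cases hg : g = h <;> simp [hg]
  simp only [this]
  rw [← EP_sum]
  apply EP_congr; intro g; simp

/-! ### EE -/

theorem EE_congr (m : ℕ) : ∀ (T : ℕ) {F F' : St m → ℝ} (_ : ∀ S, F S = F' S) (S : St m),
    EE m T F S = EE m T F' S
  | 0, _, _, h, S => h S
  | T + 1, _, _, h, S => ex_congr fun _ => EE_congr m T h _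

theorem EE_mono (m : ℕ) : ∀ (T : ℕ) {F F' : St m → ℝ} (_ : ∀ S, F S ≤ F' S) (S : St m),
    EE m T F S ≤ EE m T F' S
  | 0, _, _, h, S => h S
  | T + 1, _, _, h, S => ex_mono fun _ => EE_mono m T h _

theorem EE_const (m : ℕ) (a : ℝ) : ∀ (T : ℕ) (S : St m), EE m T (fun _ => a) S = a
  | 0, _ => rfl
  | T + 1, S => by simp only [EE, EE_const m a T]; exact ex_const a

theorem EE_add_fun (m : ℕ) (F F' : St m → ℝ) : ∀ (T : ℕ) (S : St m),
    EE m T (fun S => F S + F' S) S = EE m T F S + EE m T F' S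
  | 0, _ => rfl
  | T + 1, S => by simp only [EE, EE_add_fun m F F' T, ex_add]

theorem EE_const_mul (m : ℕ) (a : ℝ) (F : St m → ℝ) : ∀ (T : ℕ) (S : St m),
    EE m T (fun S => a * F S) S = a * EE m T F S
  | 0, _ => rfl
  | T + 1, S => by simp only [EE, EE_const_mul m a F T, ex_const_mul]

theorem EE_sum {ι : Type*} (m : ℕ) (s : Finset ι) (F : ι → St m → ℝ) : ∀ (T : ℕ) (S : St m),
    EE m T (fun S => ∑ i ∈ s, F i S) S = ∑ i ∈ s, EE m T (F i) S
  | 0, _ => rfl
  | T + 1, S => by simp only [EE, EE_sum m s F T]; rw [← ex_sum]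

theorem EE_add (m : ℕ) (F : St m → ℝ) (b : ℕ) : ∀ (a : ℕ) (S : St m),
    EE m (a + b) F S = EE m a (EE m b F) S
  | 0, S => by simp [EE]
  | a + 1, S => by
      rw [show a + 1 + b = (a + b) + 1 by ring]
      simp only [EE, EE_add m F b a]

/-- peel the last step -/
theorem EE_succ_last (m T : ℕ) (F : St m → ℝ) (S : St m) :
    EE m (T + 1) F S = EE m T (fun S => ex (fun c : Fin m → Bool => F (nxt m c S))) S := by
  rw [EE_add m F 1 T]; rfl

/-- induction principle : bound under an invariant of the chain -/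
theorem EE_mono_inv (m : ℕ) (P : St m → Prop) (hP : ∀ c S, P S → P (nxt m c S)) :
    ∀ (T : ℕ) {F F' : St m → ℝ} (_ : ∀ S, P S → F S ≤ F' S) (S : St m), P S →
    EE m T F S ≤ EE m T F' S
  | 0, _, _, h, S, hS => h S hS
  | T + 1, _, _, h, S, hS => ex_mono fun c => EE_mono_inv m P hP T h _ (hP c S hS)

/-! ### positions -/

theorem stepPerm_val (m : ℕ) (c : Fin m → Bool) (x : Fin (2 * m)) :
    (stepPerm m c x).val = 2 * (x.val % m) +
      (if xor (decide (m ≤ x.val)) (c (sw m x)) then 1 else 0) := rfl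

theorem stepPerm_symm_val (m : ℕ) (c : Fin m → Bool) (y : Fin (2 * m)) :
    ((stepPerm m c).symm y).val = y.val / 2 +
      (if xor (decide (y.val % 2 = 1)) (c ⟨y.val / 2, by have := y.isLt; omega⟩) then m else 0) :=
  rfl

theorem prt_prt (m : ℕ) (z : Fin (2 * m)) : prt m (prt m z) = z := by
  have hz := z.isLt
  apply Fin.ext
  unfold prt
  by_cases h : z.val < m
  · simp [h]
  · have h2 : z.val - m < m := by omega
    simp [h, h2]; omega

theorem prt_ne (m : ℕ) (z : Fin (2 * m)) : prt m z ≠ z := by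
  have hz := z.isLt
  intro h
  have := congrArg Fin.val h
  unfold prt at this
  by_cases h : z.val < m
  · simp [h] at this; omega
  · simp [h] at this; omega

theorem prt_val (m : ℕ) (z : Fin (2 * m)) :
    (prt m z).val = if z.val < m then z.val + m else z.val - m := by
  unfold prt; split <;> rfl

/-- `prt` as an equivalence -/
def prtE (m : ℕ) : Perm (Fin (2 * m)) :=
  ⟨prt m, prt m, prt_prt m, prt_prt m⟩

theorem sum_prt (m : ℕ) (f : Fin (2 * m) → ℝ) : ∑ z, f (prt m z) = ∑ z, f z :=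
  Equiv.sum_comp (prtE m) f

theorem sw_prt (m : ℕ) (z : Fin (2 * m)) : sw m (prt m z) = sw m z := by
  have hz := z.isLt
  apply Fin.ext
  unfold sw prt
  by_cases h1 : z.val < m
  · simp [h1]
  · have : z.val % m = z.val - m := by
      rw [Nat.mod_eq_sub_mod (by omega), Nat.mod_eq_of_lt (by omega)]
    simp [h1, this, Nat.mod_eq_of_lt (show z.val - m < m by omega)]

theorem sw_eq_iff (m : ℕ) (z w : Fin (2 * m)) : sw m z = sw m w ↔ w = z ∨ w = prt m z := by
  constructor
  · intro hzw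
    have h1 := z.isLt
    have h2 := w.isLt
    have hm : 0 < m := by omega
    have key : z.val % m = w.val % m := congrArg Fin.val hzw
    by_cases ha : z.val < m
    · by_cases hb : w.val < m
      · left; apply Fin.ext
        rw [Nat.mod_eq_of_lt ha, Nat.mod_eq_of_lt hb] at key; exact key.symm
      · right; apply Fin.ext
        rw [Nat.mod_eq_of_lt ha, Nat.mod_eq_sub_mod (by omega), Nat.mod_eq_of_lt (by omega)] at key
        simp [prt, ha]; omega
    · by_cases hb : w.val < m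
      · right; apply Fin.ext
        rw [Nat.mod_eq_of_lt hb, Nat.mod_eq_sub_mod (by omega), Nat.mod_eq_of_lt (by omega)] at key
        simp [prt, ha]; omega
      · left; apply Fin.ext
        rw [Nat.mod_eq_sub_mod (a := z.val) (by omega),
          Nat.mod_eq_of_lt (a := z.val - m) (by omega),
          Nat.mod_eq_sub_mod (a := w.val) (by omega),
          Nat.mod_eq_of_lt (a := w.val - m) (by omega)] at key
        omega
  · rintro (h | h)
    · rw [h]
    · rw [h, sw_prt]

/-! ### conv -/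

section conv
set_option linter.unusedSectionVars false
set_option linter.unusedVariables false
variable {G : Type*} [Group G] [Fintype G] [DecidableEq G]

theorem conv_one_left (g : G → ℝ) : conv (fun w : G => if w = 1 then (1 : ℝ) else 0) g = g := by
  funext w
  simp [conv]

theorem conv_sum (f g : G → ℝ) : ∑ w, conv f g w = (∑ w, f w) * ∑ w, g w := by
  unfold conv
  rw [Finset.sum_comm, Finset.sum_mul]
  apply Finset.sum_congr rfl; intro u _
  rw [← Finset.mul_sum]
  congr 1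
  exact Equiv.sum_comp (Equiv.mulLeft u⁻¹) g

theorem conv_assoc (f g h : G → ℝ) : conv (conv f g) h = conv f (conv g h) := by
  funext w
  simp only [conv, Finset.sum_mul, Finset.mul_sum]
  rw [Finset.sum_comm]
  apply Finset.sum_congr rfl; intro u _
  rw [← Equiv.sum_comp (Equiv.mulLeft u⁻¹) (fun v => f u * (g v * h (v⁻¹ * (u⁻¹ * w))))]
  apply Finset.sum_congr rfl; intro v _
  simp only [Equiv.coe_mulLeft]
  rw [mul_assoc]; congr 3; group

theorem conv_abs_le (f g : G → ℝ) : ∑ w, |conv f g w| ≤ (∑ w, |f w|) * ∑ w, |g w| := by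
  rw [← conv_sum (fun w => |f w|) (fun w => |g w|)]
  apply Finset.sum_le_sum; intro w _
  unfold conv
  refine (Finset.abs_sum_le_sum_abs _ _).trans (le_of_eq ?_)
  exact Finset.sum_congr rfl fun u _ => abs_mul _ _

theorem cpow_nonneg (a : G → ℝ) (ha : ∀ w, 0 ≤ a w) : ∀ (r : ℕ) (w : G), 0 ≤ cpow a r w
  | 0, w => by simp only [cpow]; split <;> norm_num
  | r + 1, w => Finset.sum_nonneg fun u _ => mul_nonneg (ha u) (cpow_nonneg a ha r _)

theorem cpow_sum (a : G → ℝ) : ∀ r : ℕ, ∑ w, cpow a r w = (∑ w, a w) ^ r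
  | 0 => by simp [cpow]
  | r + 1 => by rw [cpow, conv_sum, cpow_sum a r, pow_succ, mul_comm]

end conv

instance (d : ℕ) : Nonempty (Env d) := ⟨⟨lab (2 ^ d), fun _ _ => false⟩⟩

end Crest.Agent.S0222
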