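import Crest.Agent.S0222_Defs

/-!
# S0222, tasks C2 and D9 : bound on the hits, and its consequence for class functions
-/

set_option autoImplicit false
set_option linter.unusedSectionVars false

namespace Crest.Agent.S0222

open Finset Equiv

section C2
variable {A : Type*} [Fintype A] [DecidableEq A]

/-- `a` hits `y` -/
def C2hit (w : Perm A) {j : ℕ} (y : Fin j → A) (a : A) : Prop :=
  w a = a ∨ (∃ i, w (y i) = a) ∨ (∃ i, w a = y i)

instance C2hit_dec (w : Perm A) {j : ℕ} (y : Fin j → A) (a : A) : Decidable (C2hit w y a) := by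
  unfold C2hit; infer_instance

/-- number of hits -/
def C2H (w : Perm A) : (j : ℕ) → (Fin j → A) → ℕ
  | 0, _ => 0
  | j + 1, y => C2H w j (Fin.tail y) + if C2hit w (Fin.tail y) (y 0) then 1 else 0

theorem C2_missC_eq (w : Perm A) {k : ℕ} (y : Fin k → A) :
    missC w y = ∑ i : Fin k, if ∀ j, w (y i) ≠ y j then 1 else 0 := by
  unfold missC
  rw [Finset.card_filter]

theorem C2_missC_le (w : Perm A) {k : ℕ} (y : Fin k → A) : missC w y ≤ k := by
  unfold missC
  refine (Finset.card_filter_le _ _).trans ?_
  simp

theorem C2_missC_cons (w : Perm A) {j : ℕ} (y : Fin j → A) (hy : Function.Injective y) (a : A) :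
    missC w y + 1 ≤ missC w (Fin.cons a y : Fin (j + 1) → A) +
      2 * (if C2hit w y a then 1 else 0) := by
  rw [C2_missC_eq, C2_missC_eq, Fin.sum_univ_succ]
  simp only [Fin.forall_fin_succ, Fin.cons_zero, Fin.cons_succ]
  by_cases h : C2hit w y a
  · rw [if_pos h]
    have h1 : ∑ i : Fin j, (if ∀ l, w (y i) ≠ y l then 1 else 0) ≤
        ∑ i : Fin j, ((if w (y i) ≠ a ∧ ∀ l, w (y i) ≠ y l then 1 else 0) +
          (if w (y i) = a then 1 else 0)) := by
      apply Finset.sum_le_sum
      intro i _
      by_cases h2 : w (y i) = a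
      · simp only [h2, if_true]
        split_ifs <;> omega
      · simp [h2]
    rw [Finset.sum_add_distrib] at h1
    have h2 : ∑ i : Fin j, (if w (y i) = a then 1 else 0) ≤ 1 := by
      rw [← Finset.card_filter, Finset.card_le_one]
      intro i hi l hl
      rw [Finset.mem_filter] at hi hl
      exact hy (w.injective (hi.2.trans hl.2.symm))
    omega
  · rw [if_neg h]
    unfold C2hit at h
    push Not at h
    obtain ⟨h1, h2, h3⟩ := h
    rw [if_pos ⟨h1, h3⟩]
    have : ∀ i : Fin j, (w (y i) ≠ a ∧ ∀ l, w (y i) ≠ y l) ↔ (∀ l, w (y i) ≠ y l) := by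
      intro i
      constructor
      · exact fun h => h.2
      · exact fun h => ⟨h2 i, h⟩
    simp only [this]
    omega

theorem C2_missC_H (w : Perm A) : ∀ (j : ℕ) (y : Fin j → A), Function.Injective y →
    j ≤ missC w y + 2 * C2H w j y
  | 0, _, _ => Nat.zero_le _
  | j + 1, y, hy => by
      have h1 : y = Fin.cons (y 0) (Fin.tail y) := (Fin.cons_self_tail y).symm
      have h2 : Function.Injective (Fin.tail y) := by
        intro a b hab
        exact Fin.succ_injective _ (hy hab)
      have ih := C2_missC_H w j (Fin.tail y) h2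
      have h3 := C2_missC_cons w (Fin.tail y) h2 (y 0)
      rw [← h1] at h3
      simp only [C2H]
      omega

theorem C2_hit_card (w : Perm A) {j : ℕ} (y : Fin j → A) :
    (univ.filter (fun a => C2hit w y a)).card ≤
      (univ.filter (fun z => w z = z)).card + 2 * j := by
  have h1 : univ.filter (fun a => C2hit w y a) ⊆
      univ.filter (fun z => w z = z) ∪ (univ.image (fun i => w (y i)) ∪
        univ.image (fun i => w.symm (y i))) := by
    intro a ha
    rw [Finset.mem_filter] at ha
    rcases ha.2 with h | ⟨i, h⟩ | ⟨i, h⟩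
    · exact Finset.mem_union_left _ (Finset.mem_filter.2 ⟨Finset.mem_univ _, h⟩)
    · exact Finset.mem_union_right _ (Finset.mem_union_left _
        (Finset.mem_image.2 ⟨i, Finset.mem_univ _, h⟩))
    · refine Finset.mem_union_right _ (Finset.mem_union_right _
        (Finset.mem_image.2 ⟨i, Finset.mem_univ _, ?_⟩))
      rw [← h, Equiv.symm_apply_apply]
  refine (Finset.card_le_card h1).trans ((Finset.card_union_le _ _).trans ?_)
  have h2 : (univ.image (fun i : Fin j => w (y i)) ∪
        univ.image (fun i => w.symm (y i))).card ≤ j + j := by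
    refine (Finset.card_union_le _ _).trans (Nat.add_le_add ?_ ?_)
    · exact Finset.card_image_le.trans (by simp)
    · exact Finset.card_image_le.trans (by simp)
  omega

/-- the sum over injections, one more label -/
theorem C2_sum_cons (j : ℕ) (g : (Fin (j + 1) → A) → ℝ) :
    (∑ y : Fin (j + 1) → A, if Function.Injective y then g y else 0) =
      ∑ y : Fin j → A, if Function.Injective y then
        ∑ a : A, (if a ∉ Set.range y then g (Fin.cons a y) else 0) else 0 := by
  classical
  have h1 : (∑ y : Fin (j + 1) → A, if Function.Injective y then g y else 0) =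
      ∑ p : A × (Fin j → A), if Function.Injective (Fin.cons p.1 p.2 : Fin (j + 1) → A) then
        g (Fin.cons p.1 p.2) else 0 := by
    exact (Equiv.sum_comp (Fin.consEquiv (fun _ => A))
      (fun y : Fin (j + 1) → A => if Function.Injective y then g y else 0)).symm
  rw [h1, Fintype.sum_prod_type, Finset.sum_comm]
  apply Finset.sum_congr rfl
  intro y _
  simp only [Fin.cons_injective_iff]
  by_cases hy : Function.Injective y
  · rw [if_pos hy]
    apply Finset.sum_congr rfl
    intro a _
    simp [hy]
  · rw [if_neg hy]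
    apply Finset.sum_eq_zero
    intro a _
    simp [hy]

theorem C2_card_compl {j : ℕ} (y : Fin j → A) (hy : Function.Injective y) :
    (∑ a : A, (if a ∉ Set.range y then (1 : ℝ) else 0)) = (Fintype.card A : ℝ) - j := by
  classical
  have h1 : ∀ a : A, (if a ∉ Set.range y then (1 : ℝ) else 0) =
      1 - (if a ∈ univ.image y then 1 else 0) := by
    intro a
    by_cases h : a ∈ Set.range y
    · have : a ∈ univ.image y := by
        obtain ⟨i, hi⟩ := h
        exact Finset.mem_image.2 ⟨i, Finset.mem_univ _, hi⟩
      simp only [h, this, not_true_eq_false, if_false, if_true]; norm_num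
    · have : a ∉ univ.image y := by
        intro h'
        obtain ⟨i, _, hi⟩ := Finset.mem_image.1 h'
        exact h ⟨i, hi⟩
      simp only [h, this, not_false_eq_true, if_true, if_false]; norm_num
  simp only [h1]
  rw [Finset.sum_sub_distrib, Finset.sum_ite_mem, Finset.univ_inter, Finset.sum_const,
    Finset.sum_const, Finset.card_image_of_injective _ hy]
  simp

/-- the sequential summation -/
theorem C2_sumH (k : ℕ) (hk : 2 * k ≤ Fintype.card A)
    (w : Perm A) (η : ℝ) (hη1 : η ≤ 1) (hη0 : 0 < η)
    (hη : ((univ.filter (fun z => w z = z)).card + k : ℝ) ≤ η * (Fintype.card A - k)) :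
    ∀ j : ℕ, j ≤ k → (∑ y : Fin j → A, if Function.Injective y then (1 / η) ^ (C2H w j y) else 0) ≤
      3 ^ j * ((Fintype.card A).descFactorial j : ℝ)
  | 0, _ => by
      simp [C2H, Function.injective_of_subsingleton]
  | j + 1, hj => by
      classical
      have ih := C2_sumH k hk w η hη1 hη0 hη j (by omega)
      rw [C2_sum_cons]
      have hn : (2 : ℝ) * k ≤ Fintype.card A := by exact_mod_cast hk
      have hjk : (j : ℝ) + 1 ≤ k := by exact_mod_cast hj
      have hj0 : (0 : ℝ) ≤ j := Nat.cast_nonneg j
      have hdesc : (((Fintype.card A).descFactorial (j + 1) : ℕ) : ℝ) =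
          ((Fintype.card A : ℝ) - j) * ((Fintype.card A).descFactorial j : ℝ) := by
        rw [Nat.descFactorial_succ, Nat.cast_mul, Nat.cast_sub (by omega)]
      rw [hdesc]
      have hθ1 : 1 ≤ 1 / η := by rw [le_div_iff₀ hη0]; linarith
      have hθ0 : 0 < 1 / η := by linarith
      have hinner : ∀ y : Fin j → A, Function.Injective y →
          (∑ a : A, (if a ∉ Set.range y then (1 / η) ^ (C2H w (j + 1) (Fin.cons a y)) else 0)) ≤
            (3 * ((Fintype.card A : ℝ) - j)) * (1 / η) ^ (C2H w j y) := by
        intro y hy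
        have h1 : ∀ a : A, (if a ∉ Set.range y then (1 / η) ^ (C2H w (j + 1) (Fin.cons a y)) else 0) ≤
            ((if a ∉ Set.range y then (1 : ℝ) else 0) + (if C2hit w y a then (1 : ℝ) else 0) * (1 / η))
              * (1 / η) ^ (C2H w j y) := by
          intro a
          have hpos : 0 < (1 / η) ^ (C2H w j y) := pow_pos hθ0 _
          simp only [C2H, Fin.tail_cons, Fin.cons_zero]
          by_cases ha : a ∈ Set.range y
          · simp only [ha, not_true_eq_false, if_false]
            by_cases h : C2hit w y a
            · simp only [h, if_true]; positivity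
            · simp only [h, if_false]; simp
          · simp only [ha, not_false_eq_true, if_true]
            by_cases h : C2hit w y a
            · simp only [h, if_true, pow_add, pow_one]
              nlinarith
            · simp only [h, if_false]; simp
        refine (Finset.sum_le_sum (fun a _ => h1 a)).trans ?_
        rw [← Finset.sum_mul, Finset.sum_add_distrib, C2_card_compl y hy, ← Finset.sum_mul]
        apply mul_le_mul_of_nonneg_right _ (pow_pos hθ0 _).le
        have h2 : (∑ a : A, if C2hit w y a then (1 : ℝ) else 0) =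
            ((univ.filter (fun a => C2hit w y a)).card : ℝ) := by
          rw [Finset.card_filter]; push_cast; rfl
        rw [h2]
        have h3 : ((univ.filter (fun a => C2hit w y a)).card : ℝ) ≤
            ((univ.filter (fun z => w z = z)).card : ℝ) + 2 * j := by
          exact_mod_cast C2_hit_card w y
        have h4 : ((univ.filter (fun a => C2hit w y a)).card : ℝ) ≤ 2 * η * ((Fintype.card A : ℝ) - k) := by
          have : (0 : ℝ) ≤ ((univ.filter (fun z => w z = z)).card : ℝ) := Nat.cast_nonneg _
          linarith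
        have h5 : ((univ.filter (fun a => C2hit w y a)).card : ℝ) * (1 / η) ≤
            2 * η * ((Fintype.card A : ℝ) - k) * (1 / η) := mul_le_mul_of_nonneg_right h4 hθ0.le
        have h6 : 2 * η * ((Fintype.card A : ℝ) - k) * (1 / η) = 2 * ((Fintype.card A : ℝ) - k) := by
          field_simp
        linarith
      calc (∑ y : Fin j → A, if Function.Injective y then
        ∑ a : A, (if a ∉ Set.range y then (1 / η) ^ (C2H w (j + 1) (Fin.cons a y)) else 0) else 0)
          ≤ ∑ y : Fin j → A, (3 * ((Fintype.card A : ℝ) - j)) *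
            (if Function.Injective y then (1 / η) ^ (C2H w j y) else 0) := by
            apply Finset.sum_le_sum
            intro y _
            by_cases hy : Function.Injective y
            · simp only [hy, if_true]
              exact hinner y hy
            · simp [hy]
        _ = (3 * ((Fintype.card A : ℝ) - j)) *
            ∑ y : Fin j → A, (if Function.Injective y then (1 / η) ^ (C2H w j y) else 0) := by
            rw [Finset.mul_sum]
        _ ≤ (3 * ((Fintype.card A : ℝ) - j)) * (3 ^ j * ((Fintype.card A).descFactorial j : ℝ)) := by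
            apply mul_le_mul_of_nonneg_left ih
            linarith
        _ = _ := by rw [pow_succ]; ring

/-- the weight of `m` misses -/
theorem C2_weight (n k m : ℕ) (hm : m ≤ k) (hk : 2 * k ≤ n) (η : ℝ) (hη0 : 0 < η) (hη1 : η ≤ 1)
    (hη : (k : ℝ) ≤ η * ((n : ℝ) - k)) :
    (m.factorial : ℝ) ≤ η ^ m * (((n - k).descFactorial m : ℕ) : ℝ) := by
  have h1 : (m.factorial : ℝ) = ∏ i ∈ range m, ((m : ℝ) - i) := by
    rw [← Nat.descFactorial_self, Nat.descFactorial_eq_prod_range]
    push_cast
    apply Finset.prod_congr rfl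
    intro i hi
    rw [Nat.cast_sub (Finset.mem_range.1 hi).le]
  have h2 : (((n - k).descFactorial m : ℕ) : ℝ) = ∏ i ∈ range m, ((n : ℝ) - k - i) := by
    rw [Nat.descFactorial_eq_prod_range]
    push_cast
    apply Finset.prod_congr rfl
    intro i hi
    have := Finset.mem_range.1 hi
    rw [Nat.cast_sub (by omega), Nat.cast_sub (by omega)]
  have h0 : η ^ m = ∏ _i ∈ range m, η := by rw [Finset.prod_const, Finset.card_range]
  rw [h1, h2, h0, ← Finset.prod_mul_distrib]
  apply Finset.prod_le_prod
  · intro i hi
    have : (i : ℝ) ≤ m := by exact_mod_cast (Finset.mem_range.1 hi).le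
    linarith
  · intro i hi
    have h3 : (m : ℝ) ≤ k := by exact_mod_cast hm
    have h4 : (0 : ℝ) ≤ i := Nat.cast_nonneg i
    nlinarith

theorem C2_hits (k : ℕ) (hk : 2 * k ≤ Fintype.card A)
    (w : Perm A) (η : ℝ) (hη1 : η ≤ 1) (hη0 : 0 < η)
    (hη : ((univ.filter (fun z => w z = z)).card + k : ℝ) ≤ η * (Fintype.card A - k)) :
    hitW k w ≤ (3 * Real.sqrt η) ^ k := by
  classical
  have hn : (2 : ℝ) * k ≤ Fintype.card A := by exact_mod_cast hk
  have hk0 : (0 : ℝ) ≤ k := Nat.cast_nonneg k
  have hf0 : (0 : ℝ) ≤ ((univ.filter (fun z => w z = z)).card : ℝ) := Nat.cast_nonneg _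
  have hkη : (k : ℝ) ≤ η * (Fintype.card A - k) := by linarith
  have hD : (0 : ℝ) < ((Fintype.card A).descFactorial k : ℝ) := by
    have : 0 < (Fintype.card A).descFactorial k := Nat.descFactorial_pos.2 (by omega)
    exact_mod_cast this
  have hs0 : 0 < Real.sqrt η := Real.sqrt_pos.2 hη0
  have hs1 : Real.sqrt η ≤ 1 := Real.sqrt_le_one.2 hη1
  have hss : Real.sqrt η * Real.sqrt η = η := Real.mul_self_sqrt hη0.le
  unfold hitW
  rw [div_le_iff₀ hD]
  have key : ∀ y : Fin k → A, (if Function.Injective y then
      ((missC w y).factorial : ℝ) / ((Fintype.card A - k).descFactorial (missC w y) : ℝ) else 0) ≤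
      (Real.sqrt η) ^ k * (if Function.Injective y then (1 / η) ^ (C2H w k y) else 0) := by
    intro y
    by_cases hy : Function.Injective y
    · simp only [hy, if_true]
      have hm := C2_missC_le w y
      have h1 := C2_weight (Fintype.card A) k (missC w y) hm hk η hη0 hη1 hkη
      have hpos : (0 : ℝ) < (((Fintype.card A - k).descFactorial (missC w y) : ℕ) : ℝ) := by
        have : 0 < (Fintype.card A - k).descFactorial (missC w y) :=
          Nat.descFactorial_pos.2 (by omega)
        exact_mod_cast this
      have h2 : ((missC w y).factorial : ℝ) /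
          ((Fintype.card A - k).descFactorial (missC w y) : ℝ) ≤ η ^ (missC w y) := by
        rw [div_le_iff₀ hpos]; exact h1
      refine h2.trans ?_
      have h3 := C2_missC_H w k y hy
      have h4 : η ^ (missC w y) * η ^ (C2H w k y) ≤ (Real.sqrt η) ^ k := by
        calc η ^ (missC w y) * η ^ (C2H w k y) = (Real.sqrt η) ^ (2 * (missC w y + C2H w k y)) := by
              rw [pow_mul, pow_two, hss, pow_add]
          _ ≤ (Real.sqrt η) ^ k := pow_le_pow_of_le_one hs0.le hs1 (by omega)
      have h5 : (1 / η) ^ (C2H w k y) = (η ^ (C2H w k y))⁻¹ := by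
        rw [one_div, inv_pow]
      rw [h5, ← div_eq_mul_inv, le_div_iff₀ (pow_pos hη0 _)]
      exact h4
    · simp [hy]
  refine (Finset.sum_le_sum (fun y _ => key y)).trans ?_
  rw [← Finset.mul_sum]
  have h6 := C2_sumH k hk w η hη1 hη0 hη k le_rfl
  calc Real.sqrt η ^ k * ∑ y : Fin k → A, (if Function.Injective y then (1 / η) ^ (C2H w k y) else 0)
      ≤ Real.sqrt η ^ k * (3 ^ k * ((Fintype.card A).descFactorial k : ℝ)) :=
        mul_le_mul_of_nonneg_left h6 (pow_pos hs0 _).le
    _ = (3 * Real.sqrt η) ^ k * ((Fintype.card A).descFactorial k : ℝ) := by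
        rw [mul_pow]; ring

theorem C2_hitW_le_one (k : ℕ) (hk : 2 * k ≤ Fintype.card A) (w : Perm A) : hitW k w ≤ 1 := by
  classical
  have hD : (0 : ℝ) < ((Fintype.card A).descFactorial k : ℝ) := by
    have : 0 < (Fintype.card A).descFactorial k := Nat.descFactorial_pos.2 (by omega)
    exact_mod_cast this
  unfold hitW
  rw [div_le_iff₀ hD, one_mul]
  have key : ∀ y : Fin k → A, (if Function.Injective y then
      ((missC w y).factorial : ℝ) / ((Fintype.card A - k).descFactorial (missC w y) : ℝ) else 0) ≤
      (if Function.Injective y then (1 : ℝ) else 0) := by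
    intro y
    by_cases hy : Function.Injective y
    · simp only [hy, if_true]
      have hm := C2_missC_le w y
      have hpos : (0 : ℝ) < (((Fintype.card A - k).descFactorial (missC w y) : ℕ) : ℝ) := by
        have : 0 < (Fintype.card A - k).descFactorial (missC w y) :=
          Nat.descFactorial_pos.2 (by omega)
        exact_mod_cast this
      rw [div_le_one hpos]
      have : (missC w y).factorial ≤ (Fintype.card A - k).descFactorial (missC w y) := by
        rw [← Nat.descFactorial_self]
        exact Nat.descFactorial_le _ (by omega)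
      exact_mod_cast this
    · simp [hy]
  refine (Finset.sum_le_sum (fun y _ => key y)).trans (le_of_eq ?_)
  rw [← Finset.sum_filter, Finset.sum_const, nsmul_eq_mul, mul_one]
  congr 1
  have h1 : Fintype.card (Fin k ↪ A) = (Fintype.card A).descFactorial k := by
    rw [Fintype.card_embedding_eq, Fintype.card_fin]
  rw [← h1, ← Fintype.card_subtype]
  exact Fintype.card_congr (Equiv.subtypeInjectiveEquivEmbedding (Fin k) A)

theorem D9_fixN (x : ℕ) (hx : 0 < x) (w : Perm A) :
    x ^ (univ.filter (fun z => w z = z)).card ≤ fixN x w := by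
  classical
  haveI : NeZero x := ⟨by omega⟩
  unfold fixN
  have h1 : x ^ (univ.filter (fun z => w z = z)).card =
      Fintype.card ({z : A // w z = z} → Fin x) := by
    rw [Fintype.card_fun, Fintype.card_fin, Fintype.card_subtype]
  rw [h1, ← Fintype.card_subtype]
  let F : ({z : A // w z = z} → Fin x) → {κ : A → Fin x // ∀ z, κ (w z) = κ z} := fun φ =>
    ⟨fun z => if h : w z = z then φ ⟨z, h⟩ else 0, by
      intro z
      by_cases h : w z = z
      · have h2 : w (w z) = w z := by rw [h]; exact h
        simp only [h2, h, dif_pos]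
      · have h2 : ¬ (w (w z) = w z) := fun h' => h (w.injective h')
        simp only [h2, h, dif_neg, not_false_eq_true]⟩
  apply Fintype.card_le_of_injective F
  intro φ ψ h
  funext z
  have h3 := congrFun (congrArg Subtype.val h) z.1
  simp only [F, z.2, dif_pos] at h3
  exact h3

theorem D9_beta (a : Perm A → ℝ) (ha : ∀ w, 0 ≤ a w)
    (hp : ∑ w, a w ≤ 1) (y F k : ℕ) (hy : 1 ≤ y) (B : ℝ)
    (hB : ∑ w, a w * (fixN (y + 1) w : ℝ) ≤ B) (hk : 2 * k ≤ Fintype.card A)
    (η : ℝ) (h0 : 0 < η) (h1 : η ≤ 1) (hη : (F + k : ℝ) ≤ η * (Fintype.card A - k)) :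
    ∑ w, a w * hitW k w ≤ (3 * Real.sqrt η) ^ k + B / ((y : ℝ) + 1) ^ (F + 1) := by
  classical
  have hc0 : 0 ≤ (3 * Real.sqrt η) ^ k := by positivity
  have hY : (0 : ℝ) < ((y : ℝ) + 1) ^ (F + 1) := by positivity
  have key : ∀ w : Perm A, a w * hitW k w ≤
      a w * (3 * Real.sqrt η) ^ k + (a w * (fixN (y + 1) w : ℝ)) / ((y : ℝ) + 1) ^ (F + 1) := by
    intro w
    have hfn : (0 : ℝ) ≤ (fixN (y + 1) w : ℝ) := Nat.cast_nonneg _
    have haf : 0 ≤ a w * (fixN (y + 1) w : ℝ) := mul_nonneg (ha w) hfn
    by_cases hF : (univ.filter (fun z => w z = z)).card ≤ F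
    · have h2 : hitW k w ≤ (3 * Real.sqrt η) ^ k := by
        apply C2_hits k hk w η h1 h0
        refine le_trans ?_ hη
        have : ((univ.filter (fun z => w z = z)).card : ℝ) ≤ F := by exact_mod_cast hF
        linarith
      have h3 := mul_le_mul_of_nonneg_left h2 (ha w)
      have h4 : 0 ≤ (a w * (fixN (y + 1) w : ℝ)) / ((y : ℝ) + 1) ^ (F + 1) :=
        div_nonneg haf hY.le
      linarith
    · have h2 : hitW k w ≤ 1 := C2_hitW_le_one k hk w
      have h3 : ((y : ℝ) + 1) ^ (F + 1) ≤ (fixN (y + 1) w : ℝ) := by
        have h5 : (y + 1) ^ (F + 1) ≤ fixN (y + 1) w :=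
          (Nat.pow_le_pow_right (by omega) (by omega)).trans (D9_fixN (y + 1) (by omega) w)
        exact_mod_cast h5
      have h4 : 1 ≤ (fixN (y + 1) w : ℝ) / ((y : ℝ) + 1) ^ (F + 1) := by
        rw [one_le_div hY]; exact h3
      have h6 := mul_le_mul_of_nonneg_left (h2.trans h4) (ha w)
      have h7 : 0 ≤ a w * (3 * Real.sqrt η) ^ k := mul_nonneg (ha w) hc0
      rw [mul_div_assoc]
      linarith
  refine (Finset.sum_le_sum (fun w _ => key w)).trans ?_
  rw [Finset.sum_add_distrib, ← Finset.sum_mul, ← Finset.sum_div]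
  have h8 : (∑ w, a w) * (3 * Real.sqrt η) ^ k ≤ 1 * (3 * Real.sqrt η) ^ k :=
    mul_le_mul_of_nonneg_right hp hc0
  have h9 : (∑ w, a w * (fixN (y + 1) w : ℝ)) / ((y : ℝ) + 1) ^ (F + 1) ≤
      B / ((y : ℝ) + 1) ^ (F + 1) := div_le_div_of_nonneg_right hB hY.le
  linarith

end C2

end Crest.Agent.S0222
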