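import Crest.Agent.S0222_Defs

/-!
S0222, task C1: the harmonic bound.
-/

set_option autoImplicit false

namespace Crest.Agent.S0222

open Finset Equiv

namespace C1

variable {A : Type*} [Fintype A] [DecidableEq A] {k : ℕ}

/-- the unnormalised average over the group -/
noncomputable def TT (φ : (Fin k → A) → ℝ) (u x : Fin k → A) : ℝ :=
  ∑ g : Perm A, φ (fun i => g (u i)) * φ (fun i => g (x i))

/-- number of misses -/
def miss (u x : Fin k → A) : ℕ := (univ.filter (fun i : Fin k => ∀ j, u i ≠ x j)).card

theorem TT_smul (φ : (Fin k → A) → ℝ) (u x : Fin k → A) (σ : Perm A) :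
    TT φ (fun i => σ (u i)) (fun i => σ (x i)) = TT φ u x := by
  unfold TT
  exact Equiv.sum_comp (Equiv.mulRight σ)
    (fun g : Perm A => φ (fun i => g (u i)) * φ (fun i => g (x i)))

theorem exists_perm (u x : Fin k → A) (hu : Function.Injective u) (hx : Function.Injective x) :
    ∃ σ : Perm A, ∀ i, σ (x i) = u i := by
  classical
  let e : {a // a ∈ Set.range x} ≃ {a // a ∈ Set.range u} :=
    (Equiv.ofInjective x hx).symm.trans (Equiv.ofInjective u hu)
  refine ⟨Equiv.extendSubtype e, fun i => ?_⟩
  rw [Equiv.extendSubtype_apply_of_mem e (x i) ⟨i, rfl⟩]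
  have : (⟨x i, ⟨i, rfl⟩⟩ : {a // a ∈ Set.range x}) = Equiv.ofInjective x hx i := rfl
  rw [this]
  simp [e]

theorem sum_sq_eq (φ : (Fin k → A) → ℝ) (u x : Fin k → A) (hu : Function.Injective u)
    (hx : Function.Injective x) :
    ∑ g : Perm A, φ (fun i => g (u i)) ^ 2 = ∑ g : Perm A, φ (fun i => g (x i)) ^ 2 := by
  obtain ⟨σ, hσ⟩ := exists_perm u x hu hx
  have := Equiv.sum_comp (Equiv.mulRight σ) (fun g : Perm A => φ (fun i => g (x i)) ^ 2)
  rw [← this]
  refine Finset.sum_congr rfl fun g _ => ?_
  simp [hσ]

theorem sum_harm (φ : (Fin k → A) → ℝ)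
    (harm : ∀ (z : Fin k → A) (i : Fin k), ∑ b : A, φ (Function.update z i b) = 0)
    (u x : Fin k → A) (i : Fin k) : ∑ b : A, TT φ (Function.update u i b) x = 0 := by
  unfold TT
  rw [Finset.sum_comm]
  refine Finset.sum_eq_zero fun g _ => ?_
  rw [← Finset.sum_mul]
  have h1 : ∑ b : A, φ (fun j => g (Function.update u i b j)) =
      ∑ b : A, φ (Function.update (fun j => g (u j)) i (g b)) := by
    refine Finset.sum_congr rfl fun b _ => ?_
    congr 1
    funext j
    by_cases h : j = i
    · subst h; simp
    · simp [Function.update_of_ne h]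
  rw [h1, Equiv.sum_comp g (fun b => φ (Function.update (fun j => g (u j)) i b)), harm, zero_mul]

theorem TT_noninj (φ : (Fin k → A) → ℝ) (hφ : ∀ z, ¬ Function.Injective z → φ z = 0)
    (u x : Fin k → A) (hu : ¬ Function.Injective u) : TT φ u x = 0 := by
  unfold TT
  refine Finset.sum_eq_zero fun g _ => ?_
  rw [hφ, zero_mul]
  intro h
  apply hu
  intro i j hij
  exact h (by simp [hij])

theorem abs_TT_le (φ : (Fin k → A) → ℝ) (u x : Fin k → A) (hu : Function.Injective u)
    (hx : Function.Injective x) : |TT φ u x| ≤ ∑ g : Perm A, φ (fun i => g (x i)) ^ 2 := by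
  unfold TT
  refine (Finset.abs_sum_le_sum_abs _ _).trans ?_
  have h1 : ∀ g : Perm A, |φ (fun i => g (u i)) * φ (fun i => g (x i))| ≤
      (φ (fun i => g (u i)) ^ 2 + φ (fun i => g (x i)) ^ 2) / 2 := by
    intro g
    rw [abs_mul, ← sq_abs (φ (fun i => g (u i))), ← sq_abs (φ (fun i => g (x i)))]
    nlinarith [sq_nonneg (|φ (fun i => g (u i))| - |φ (fun i => g (x i))|)]
  refine (Finset.sum_le_sum fun g _ => h1 g).trans (le_of_eq ?_)
  rw [← Finset.sum_div, Finset.sum_add_distrib, sum_sq_eq φ u x hu hx]
  ring

theorem main_ind (φ : (Fin k → A) → ℝ) (hφ : ∀ z, ¬ Function.Injective z → φ z = 0)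
    (harm : ∀ (z : Fin k → A) (i : Fin k), ∑ b : A, φ (Function.update z i b) = 0)
    (x : Fin k → A) (hx : Function.Injective x) (hk : 2 * k ≤ Fintype.card A) :
    ∀ (m : ℕ) (u : Fin k → A), Function.Injective u → miss u x = m →
      |TT φ u x| * ((Fintype.card A - k).descFactorial m : ℝ) ≤
        (m.factorial : ℝ) * ∑ g : Perm A, φ (fun i => g (x i)) ^ 2
  | 0, u, hu, _ => by
    simpa using abs_TT_le φ u x hu hx
  | m + 1, u, hu, hm => by
    classical
    -- choose a miss
    have hpos : 0 < miss u x := by omega
    obtain ⟨i, hi⟩ := Finset.card_pos.mp hpos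
    have hi' : ∀ j, u i ≠ x j := by simpa using hi
    set B0 : Finset A := (univ.erase i).image u with hB0
    set R : Finset A := univ.image x with hR
    have hRcard : R.card = k := by
      rw [hR, Finset.card_image_of_injective _ hx, Finset.card_univ, Fintype.card_fin]
    -- misses among the other coordinates
    have hm1 : ((univ.erase i).filter (fun l : Fin k => ∀ j, u l ≠ x j)).card = m := by
      have h1 : (univ.filter (fun l : Fin k => ∀ j, u l ≠ x j)) =
          insert i ((univ.erase i).filter (fun l : Fin k => ∀ j, u l ≠ x j)) := by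
        ext l
        simp only [mem_filter, mem_univ, true_and, mem_insert, mem_erase, and_true]
        constructor
        · intro hl
          by_cases h : l = i
          · exact Or.inl h
          · exact Or.inr ⟨h, hl⟩
        · rintro (rfl | h)
          · exact hi'
          · exact h.2
      have h2 : i ∉ ((univ.erase i).filter (fun l : Fin k => ∀ j, u l ≠ x j)) := by simp
      unfold miss at hm
      rw [h1, Finset.card_insert_of_notMem h2] at hm
      omega
    have hB0card : B0.card = k - 1 := by
      rw [hB0, Finset.card_image_of_injective _ hu, Finset.card_erase_of_mem (mem_univ _),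
        Finset.card_univ, Fintype.card_fin]
    have hk1 : 1 ≤ k := by
      have := i.isLt
      omega
    -- B0 \ R has m elements
    have hB0R : (B0 \ R).card = m := by
      have : B0 \ R = ((univ.erase i).filter (fun l : Fin k => ∀ j, u l ≠ x j)).image u := by
        ext b
        simp only [hB0, hR, mem_sdiff, mem_image, mem_erase, mem_univ, and_true, true_and,
          mem_filter, not_exists]
        constructor
        · rintro ⟨⟨l, hl, rfl⟩, h2⟩
          exact ⟨l, ⟨hl, fun j hj => h2 j hj.symm⟩, rfl⟩
        · rintro ⟨l, ⟨hl, h2⟩, rfl⟩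
          exact ⟨⟨l, hl, rfl⟩, fun j hj => h2 j hj.symm⟩
      rw [this, Finset.card_image_of_injective _ hu, hm1]
    have hRB0 : (R \ B0).card = m + 1 := by
      have h1 := Finset.card_sdiff_add_card_inter R B0
      have h2 := Finset.card_sdiff_add_card_inter B0 R
      rw [Finset.inter_comm] at h2
      omega
    have hB2 : ((R ∪ B0)ᶜ).card = Fintype.card A - k - m := by
      rw [Finset.card_compl]
      have h1 : (R ∪ B0).card = R.card + (B0 \ R).card := by
        rw [← Finset.card_union_of_disjoint Finset.disjoint_sdiff, Finset.union_sdiff_self_eq_union]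
      omega
    -- split the harmonic sum
    have hsum := sum_harm φ harm u x i
    have hsplit : ∑ b : A, TT φ (Function.update u i b) x =
        ∑ b ∈ R \ B0, TT φ (Function.update u i b) x +
        ∑ b ∈ B0, TT φ (Function.update u i b) x +
        ∑ b ∈ (R ∪ B0)ᶜ, TT φ (Function.update u i b) x := by
      rw [← Finset.sum_union Finset.sdiff_disjoint, Finset.sdiff_union_self_eq_union,
        Finset.sum_add_sum_compl]
    have hzero : ∑ b ∈ B0, TT φ (Function.update u i b) x = 0 := by
      refine Finset.sum_eq_zero fun b hb => TT_noninj φ hφ _ _ ?_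
      rw [hB0] at hb
      obtain ⟨l, hl, rfl⟩ := Finset.mem_image.mp hb
      have hli : l ≠ i := by simpa using hl
      intro hinj
      apply hli
      apply hinj
      simp [Function.update_of_ne hli]
    have hsame : ∑ b ∈ (R ∪ B0)ᶜ, TT φ (Function.update u i b) x =
        ((Fintype.card A - k - m : ℕ) : ℝ) * TT φ u x := by
      rw [← hB2, ← nsmul_eq_mul, ← Finset.sum_const]
      refine Finset.sum_congr rfl fun b hb => ?_
      have hb' : (∀ j, x j ≠ b) ∧ ∀ l, l ≠ i → u l ≠ b := by
        rw [mem_compl, mem_union, not_or] at hb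
        refine ⟨fun j hj => hb.1 ?_, fun l hl hlb => hb.2 ?_⟩
        · rw [hR]; exact mem_image.mpr ⟨j, mem_univ _, hj⟩
        · rw [hB0]; exact mem_image.mpr ⟨l, by simp [hl], hlb⟩
      rw [← TT_smul φ u x (Equiv.swap (u i) b)]
      have e1 : (fun j => (Equiv.swap (u i) b) (x j)) = x := by
        funext j
        exact Equiv.swap_apply_of_ne_of_ne (fun h => hi' j h.symm) (hb'.1 j)
      have e2 : (fun l => (Equiv.swap (u i) b) (u l)) = Function.update u i b := by
        funext l
        by_cases hl : l = i
        · subst hl; simp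
        · rw [Function.update_of_ne hl]
          exact Equiv.swap_apply_of_ne_of_ne (fun h => hl (hu h)) (hb'.2 l hl)
      rw [e1, e2]
    have hkey : ((Fintype.card A - k - m : ℕ) : ℝ) * TT φ u x =
        - ∑ b ∈ R \ B0, TT φ (Function.update u i b) x := by
      rw [hsplit, hzero, hsame] at hsum
      linarith
    have hind : ∀ b ∈ R \ B0, |TT φ (Function.update u i b) x| *
        ((Fintype.card A - k).descFactorial m : ℝ) ≤
        (m.factorial : ℝ) * ∑ g : Perm A, φ (fun i => g (x i)) ^ 2 := by
      intro b hb
      rw [mem_sdiff] at hb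
      have hb1 : ∃ j, x j = b := by
        rw [hR] at hb
        obtain ⟨j, _, hj⟩ := mem_image.mp hb.1
        exact ⟨j, hj⟩
      have hb2 : ∀ l, l ≠ i → u l ≠ b := by
        intro l hl hlb
        apply hb.2
        rw [hB0]; exact mem_image.mpr ⟨l, by simp [hl], hlb⟩
      refine main_ind φ hφ harm x hx hk m (Function.update u i b) ?_ ?_
      · intro l l' hll
        by_cases h1 : l = i
        · by_cases h2 : l' = i
          · rw [h1, h2]
          · subst h1
            rw [Function.update_self, Function.update_of_ne h2] at hll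
            exact absurd hll.symm (hb2 l' h2)
        · by_cases h2 : l' = i
          · subst h2
            rw [Function.update_self, Function.update_of_ne h1] at hll
            exact absurd hll (hb2 l h1)
          · rw [Function.update_of_ne h1, Function.update_of_ne h2] at hll
            exact hu hll
      · unfold miss
        rw [← hm1]
        congr 1
        ext l
        simp only [mem_filter, mem_univ, true_and, mem_erase, and_true]
        by_cases hl : l = i
        · subst hl
          rw [Function.update_self]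
          obtain ⟨j, hj⟩ := hb1
          simp only [ne_eq, not_true_eq_false, false_and, iff_false, not_forall, not_not]
          exact ⟨j, hj.symm⟩
        · rw [Function.update_of_ne hl]
          simp [hl]
    have hmk : m + 1 ≤ k := by
      rw [← hRcard, ← hRB0]
      exact Finset.card_le_card Finset.sdiff_subset
    have hdesc : ((Fintype.card A - k).descFactorial (m + 1) : ℝ) =
        ((Fintype.card A - k - m : ℕ) : ℝ) * ((Fintype.card A - k).descFactorial m : ℝ) := by
      rw [Nat.descFactorial_succ]
      push_cast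
      ring
    rw [hdesc]
    calc |TT φ u x| * (((Fintype.card A - k - m : ℕ) : ℝ) *
          ((Fintype.card A - k).descFactorial m : ℝ))
        = |((Fintype.card A - k - m : ℕ) : ℝ) * TT φ u x| *
          ((Fintype.card A - k).descFactorial m : ℝ) := by
          rw [abs_mul, abs_of_nonneg (Nat.cast_nonneg (α := ℝ) _)]
          ring
      _ ≤ (∑ b ∈ R \ B0, |TT φ (Function.update u i b) x|) *
          ((Fintype.card A - k).descFactorial m : ℝ) := by
          rw [hkey, abs_neg]
          exact mul_le_mul_of_nonneg_right (Finset.abs_sum_le_sum_abs _ _) (Nat.cast_nonneg _)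
      _ = ∑ b ∈ R \ B0, |TT φ (Function.update u i b) x| *
          ((Fintype.card A - k).descFactorial m : ℝ) := by rw [Finset.sum_mul]
      _ ≤ ∑ b ∈ R \ B0, (m.factorial : ℝ) * ∑ g : Perm A, φ (fun i => g (x i)) ^ 2 :=
          Finset.sum_le_sum hind
      _ = ((m + 1).factorial : ℝ) * ∑ g : Perm A, φ (fun i => g (x i)) ^ 2 := by
          rw [Finset.sum_const, hRB0, nsmul_eq_mul, Nat.factorial_succ]
          push_cast
          ring

theorem T0_eq (φ : (Fin k → A) → ℝ) (hφ : ∀ z, ¬ Function.Injective z → φ z = 0)
    (x : Fin k → A) (hx : Function.Injective x) :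
    ((Fintype.card A).descFactorial k : ℝ) * ∑ g : Perm A, φ (fun i => g (x i)) ^ 2 =
      ((Fintype.card A).factorial : ℝ) * ∑ z : Fin k → A, φ z ^ 2 := by
  classical
  have h1 : ∑ z : Fin k → A, ∑ g : Perm A, φ (fun i => g (z i)) ^ 2 =
      ((Fintype.card A).factorial : ℝ) * ∑ z : Fin k → A, φ z ^ 2 := by
    rw [Finset.sum_comm]
    have : ∀ g : Perm A, ∑ z : Fin k → A, φ (fun i => g (z i)) ^ 2 = ∑ z : Fin k → A, φ z ^ 2 :=
      fun g => Equiv.sum_comp (Equiv.arrowCongr (Equiv.refl (Fin k)) g) (fun z => φ z ^ 2)
    simp only [this, Finset.sum_const, Finset.card_univ, Fintype.card_perm, nsmul_eq_mul]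
  rw [← h1]
  have h2 : ∀ z : Fin k → A, ∑ g : Perm A, φ (fun i => g (z i)) ^ 2 =
      if Function.Injective z then ∑ g : Perm A, φ (fun i => g (x i)) ^ 2 else 0 := by
    intro z
    split_ifs with hz
    · exact sum_sq_eq φ z x hz hx
    · refine Finset.sum_eq_zero fun g _ => ?_
      rw [hφ]
      · simp
      · intro h
        apply hz
        intro i j hij
        exact h (by simp [hij])
  rw [Finset.sum_congr rfl (fun z _ => h2 z)]
  rw [Finset.sum_ite, Finset.sum_const_zero, add_zero, Finset.sum_const, nsmul_eq_mul]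
  congr 1
  have h3 : (Fintype.card (Fin k ↪ A)) = (Fintype.card A).descFactorial k := by
    rw [Fintype.card_embedding_eq, Fintype.card_fin]
  rw [← h3]
  have h4 : Fintype.card (Fin k ↪ A) =
      (univ.filter (fun z : Fin k → A => Function.Injective z)).card := by
    rw [← Fintype.card_subtype]
    exact Fintype.card_congr (Equiv.subtypeInjectiveEquivEmbedding (Fin k) A).symm
  rw [h4]

end C1

open C1 in
/-- C1: the harmonic bound. -/
theorem C1_harmonic {A : Type*} [Fintype A] [DecidableEq A] (k : ℕ) (hk : 2 * k ≤ Fintype.card A)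
    (φ : (Fin k → A) → ℝ) (hφ : ∀ z, ¬ Function.Injective z → φ z = 0)
    (harm : ∀ (z : Fin k → A) (i : Fin k), ∑ b : A, φ (Function.update z i b) = 0)
    (a : Perm A → ℝ) (hcl : ∀ g w, a (g * w * g⁻¹) = a w) :
    |∑ w, a w * ∑ z : Fin k → A, φ z * φ (fun i => w⁻¹ (z i))|
      ≤ (∑ w, |a w| * hitW k w) * ∑ z : Fin k → A, φ z ^ 2 := by
  classical
  set N2 : ℝ := ∑ z : Fin k → A, φ z ^ 2 with hN2
  set Q : Perm A → ℝ := fun w => ∑ z : Fin k → A, φ z * φ (fun i => w⁻¹ (z i)) with hQ
  have hfac : (0 : ℝ) < ((Fintype.card A).factorial : ℝ) := by positivity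
  -- average over conjugations
  have hconj : ∀ g : Perm A, ∑ w, a w * Q w = ∑ w, a w * Q (g * w * g⁻¹) := by
    intro g
    have := Equiv.sum_comp (MulAut.conj g).toEquiv (fun w => a w * Q w)
    rw [← this]
    refine Finset.sum_congr rfl fun w _ => ?_
    have e : (MulAut.conj g).toEquiv w = g * w * g⁻¹ := rfl
    rw [e, hcl]
  have hQx : ∀ g w : Perm A, Q (g * w * g⁻¹) =
      ∑ x : Fin k → A, φ (fun i => g (w (x i))) * φ (fun i => g (x i)) := by
    intro g w
    have := Equiv.sum_comp (Equiv.arrowCongr (Equiv.refl (Fin k)) (g * w))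
      (fun z : Fin k → A => φ z * φ (fun i => (g * w * g⁻¹)⁻¹ (z i)))
    rw [hQ]
    simp only
    rw [← this]
    refine Finset.sum_congr rfl fun x _ => ?_
    congr 1
    congr 1
    funext i
    simp
  have htot : ((Fintype.card A).factorial : ℝ) * ∑ w, a w * Q w =
      ∑ w, a w * ∑ x : Fin k → A, if Function.Injective x then TT φ (fun i => w (x i)) x else 0 := by
    have h1 : ((Fintype.card A).factorial : ℝ) * ∑ w, a w * Q w =
        ∑ g : Perm A, ∑ w, a w * Q (g * w * g⁻¹) := by
      rw [← Finset.sum_congr rfl (fun g _ => hconj g), Finset.sum_const, Finset.card_univ,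
        Fintype.card_perm, nsmul_eq_mul]
    rw [h1, Finset.sum_comm]
    refine Finset.sum_congr rfl fun w _ => ?_
    rw [← Finset.mul_sum]
    congr 1
    simp only [hQx]
    rw [Finset.sum_comm]
    refine Finset.sum_congr rfl fun x _ => ?_
    split_ifs with hx
    · rfl
    · refine Finset.sum_eq_zero fun g _ => ?_
      rw [hφ (fun i => g (x i)), mul_zero]
      intro h
      apply hx
      intro i j hij
      exact h (by simp [hij])
  have hTT : ∀ (w : Perm A) (x : Fin k → A), Function.Injective x →
      |TT φ (fun i => w (x i)) x| ≤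
        ((missC w x).factorial : ℝ) / ((Fintype.card A - k).descFactorial (missC w x) : ℝ) /
          ((Fintype.card A).descFactorial k : ℝ) * ((Fintype.card A).factorial * N2) := by
    intro w x hx
    have hu : Function.Injective (fun i => w (x i)) := fun i j hij => hx (w.injective hij)
    have hmle : missC w x ≤ k := by
      unfold missC
      exact (Finset.card_le_univ _).trans (by simp)
    have hd1 : (0 : ℝ) < ((Fintype.card A - k).descFactorial (missC w x) : ℝ) := by
      have : 0 < (Fintype.card A - k).descFactorial (missC w x) :=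
        Nat.descFactorial_pos.mpr (by omega)
      exact_mod_cast this
    have hd2 : (0 : ℝ) < ((Fintype.card A).descFactorial k : ℝ) := by
      have : 0 < (Fintype.card A).descFactorial k := Nat.descFactorial_pos.mpr (by omega)
      exact_mod_cast this
    have h1 := main_ind φ hφ harm x hx hk (missC w x) (fun i => w (x i)) hu rfl
    have h2 := T0_eq φ hφ x hx
    rw [← hN2] at h2
    have h3 : ∑ g : Perm A, φ (fun i => g (x i)) ^ 2 =
        ((Fintype.card A).factorial : ℝ) * N2 / ((Fintype.card A).descFactorial k : ℝ) := by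
      rw [eq_div_iff hd2.ne', mul_comm, h2]
    rw [h3] at h1
    rw [← le_div_iff₀ hd1] at h1
    refine h1.trans (le_of_eq ?_)
    field_simp
  have hsumw : ∀ w : Perm A, |∑ x : Fin k → A,
      if Function.Injective x then TT φ (fun i => w (x i)) x else 0| ≤
      hitW k w * ((Fintype.card A).factorial * N2) := by
    intro w
    refine (Finset.abs_sum_le_sum_abs _ _).trans ?_
    unfold hitW
    rw [div_mul_eq_mul_div, Finset.sum_mul, Finset.sum_div]
    refine Finset.sum_le_sum fun x _ => ?_
    split_ifs with hx
    · refine (hTT w x hx).trans (le_of_eq ?_)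
      ring
    · simp
  have hfinal : ((Fintype.card A).factorial : ℝ) * |∑ w, a w * Q w| ≤
      ((Fintype.card A).factorial : ℝ) * ((∑ w, |a w| * hitW k w) * N2) := by
    rw [← abs_of_pos hfac, ← abs_mul, abs_of_pos hfac, htot]
    refine (Finset.abs_sum_le_sum_abs _ _).trans ?_
    have : ((Fintype.card A).factorial : ℝ) * ((∑ w, |a w| * hitW k w) * N2) =
        ∑ w, |a w| * (hitW k w * ((Fintype.card A).factorial * N2)) := by
      rw [Finset.sum_mul, Finset.mul_sum]
      refine Finset.sum_congr rfl fun w _ => ?_
      ring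
    rw [this]
    refine Finset.sum_le_sum fun w _ => ?_
    rw [abs_mul]
    exact mul_le_mul_of_nonneg_left (hsumw w) (abs_nonneg _)
  exact le_of_mul_le_mul_left hfinal hfac

end Crest.Agent.S0222
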