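import Crest.Agent.S0222_Defs

/-!
S0222, task C3: a nonzero left-invariant space of functions on `Sym(A)`, orthogonal to low degree
functions and to `sgn` times low degree functions, has dimension at least `2 ^ j0`.
-/

set_option autoImplicit false

namespace Crest.Agent.S0222

open Finset Equiv

section C3

variable {A : Type*}

/-- joint eigenvector of the commuting involutions `f ↦ f (τ i * ·)`, eigenvalue `-1` on `S` -/
def C3W {m : ℕ} (τ : Fin m → Perm A) (E : Submodule ℝ (Perm A → ℝ)) (S : Finset (Fin m))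
    (f : Perm A → ℝ) : Prop :=
  f ∈ E ∧ ∀ i g, f (τ i * g) = if i ∈ S then - f g else f g

theorem C3_decomp {m : ℕ} (τ : Fin m → Perm A) (hinv : ∀ i, τ i * τ i = 1)
    (hcomm : ∀ i j, τ i * τ j = τ j * τ i) (E : Submodule ℝ (Perm A → ℝ))
    (hE : ∀ h : Perm A, ∀ f ∈ E, (fun g => f (h * g)) ∈ E)
    (R : Finset (Fin m)) :
    ∀ (S' : Finset (Fin m)) (w : Perm A → ℝ), w ∈ E →
    (∀ i ∈ S', ∀ g, w (τ i * g) = - w g) →
    (∀ i, i ∉ S' → i ∉ R → ∀ g, w (τ i * g) = w g) →
    (∀ S'', S' ⊆ S'' → S'' ⊆ S' ∪ R → ∀ f, C3W τ E S'' f → f = 0) → w = 0 := by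
  have hii : ∀ i g, τ i * (τ i * g) = g := fun i g => by rw [← mul_assoc, hinv, one_mul]
  have hij : ∀ i j g, τ i * (τ j * g) = τ j * (τ i * g) := fun i j g => by
    rw [← mul_assoc, hcomm, mul_assoc]
  induction R using Finset.induction_on with
  | empty =>
    intro S' w hw h1 h2 hz
    refine hz S' (Subset.refl _) (by simp) w ⟨hw, fun i g => ?_⟩
    by_cases hi : i ∈ S'
    · simp [hi, h1 i hi g]
    · simp [hi, h2 i hi (by simp) g]
  | insert i R hiR ih =>
    intro S' w hw h1 h2 hz
    by_cases hiS : i ∈ S'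
    · -- `i` is already known
      refine ih S' w hw h1 (fun k hk hkR => h2 k hk ?_) (fun S'' ha hb => hz S'' ha ?_)
      · intro hmem
        rcases Finset.mem_insert.1 hmem with rfl | h
        · exact hk hiS
        · exact hkR h
      · exact hb.trans (Finset.union_subset_union_right (Finset.subset_insert _ _))
    · have hp : (fun g => w g + w (τ i * g)) = 0 := by
        refine ih S' _ (E.add_mem hw (hE (τ i) w hw)) ?_ ?_ ?_
        · intro k hk g
          rw [hij i k g, h1 k hk, h1 k hk]; ring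
        · intro k hk hkR g
          by_cases hki : k = i
          · subst hki
            rw [hii]; ring
          · have hkR' : k ∉ insert i R := by simp [hki, hkR]
            rw [hij i k g, h2 k hk hkR', h2 k hk hkR']
        · intro S'' ha hb
          exact hz S'' ha (hb.trans (Finset.union_subset_union_right (Finset.subset_insert _ _)))
      have hm : (fun g => w g - w (τ i * g)) = 0 := by
        refine ih (insert i S') _ (E.sub_mem hw (hE (τ i) w hw)) ?_ ?_ ?_
        · intro k hk g
          rcases Finset.mem_insert.1 hk with rfl | hk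
          · rw [hii]; ring
          · rw [hij i k g, h1 k hk, h1 k hk]; ring
        · intro k hk hkR g
          have hki : k ≠ i := fun h => hk (by simp [h])
          have hkS : k ∉ S' := fun h => hk (Finset.mem_insert_of_mem h)
          have hkR' : k ∉ insert i R := by simp [hki, hkR]
          rw [hij i k g, h2 k hkS hkR', h2 k hkS hkR']
        · intro S'' ha hb
          refine hz S'' ((Finset.subset_insert _ _).trans ha) (hb.trans ?_)
          intro k hk
          simp only [Finset.mem_union, Finset.mem_insert] at hk ⊢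
          tauto
      funext g
      have e1 := congrFun hp g
      have e2 := congrFun hm g
      simp only [Pi.zero_apply] at e1 e2 ⊢
      linarith

variable [DecidableEq A]

/-- the transposition of the pair `i` -/
def C3t {m : ℕ} (e : Fin m × Bool ↪ A) (i : Fin m) : Perm A := swap (e (i, false)) (e (i, true))

theorem C3t_inv {m : ℕ} (e : Fin m × Bool ↪ A) (i : Fin m) : C3t e i * C3t e i = 1 := by
  simp [C3t]

theorem C3_swap_comm {a b p q : A} (h1 : p ≠ a) (h2 : p ≠ b) (h3 : q ≠ a) (h4 : q ≠ b) :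
    swap p q * swap a b = swap a b * swap p q := by
  rw [Equiv.mul_swap_eq_swap_mul, swap_apply_of_ne_of_ne h1.symm h3.symm,
    swap_apply_of_ne_of_ne h2.symm h4.symm]

theorem C3t_comm {m : ℕ} (e : Fin m × Bool ↪ A) (i j : Fin m) :
    C3t e i * C3t e j = C3t e j * C3t e i := by
  by_cases hij : i = j
  · subst hij; rfl
  · unfold C3t
    apply C3_swap_comm <;>
    · intro h
      have := e.injective h
      simp_all


/-- points of the pairs in `S` -/
def C3I {m : ℕ} (e : Fin m × Bool ↪ A) (S : Finset (Fin m)) : Finset A :=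
  (S ×ˢ (univ : Finset Bool)).map e

theorem C3I_mem {m : ℕ} (e : Fin m × Bool ↪ A) (S : Finset (Fin m)) (i : Fin m) (c : Bool) :
    e (i, c) ∈ C3I e S ↔ i ∈ S := by
  simp [C3I]

theorem C3I_card {m : ℕ} (e : Fin m × Bool ↪ A) (S : Finset (Fin m)) :
    (C3I e S).card = 2 * S.card := by
  simp [C3I, Finset.card_product, mul_comm]

/-- invariance of the joint eigenspace under a transposition off `I` -/
theorem C3_swap_inv {m : ℕ} (e : Fin m × Bool ↪ A) (E : Submodule ℝ (Perm A → ℝ))
    (hE : ∀ h : Perm A, ∀ f ∈ E, (fun g => f (h * g)) ∈ E) (S : Finset (Fin m))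
    (hnext : ∀ S' : Finset (Fin m), S.card < S'.card → S'.card ≤ S.card + 2 →
      ∀ f, C3W (C3t e) E S' f → f = 0)
    (p q : A) (hp : p ∉ C3I e S) (hq : q ∉ C3I e S) (u : Perm A → ℝ)
    (hu : C3W (C3t e) E S u) : C3W (C3t e) E S (fun g => u (swap p q * g)) := by
  classical
  set w : Perm A → ℝ := fun g => u (swap p q * g) with hw
  have hwE : w ∈ E := hE _ u hu.1
  have hcS : ∀ i, e (i, false) ≠ p → e (i, true) ≠ p → e (i, false) ≠ q → e (i, true) ≠ q →
      ∀ g, swap p q * (C3t e i * g) = C3t e i * (swap p q * g) := by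
    intro i h1 h2 h3 h4 g
    rw [← mul_assoc, ← mul_assoc]
    congr 1
    exact C3_swap_comm h1.symm h2.symm h3.symm h4.symm
  have hS : ∀ i ∈ S, ∀ g, w (C3t e i * g) = - w g := by
    intro i hi g
    have h : ∀ c, e (i, c) ≠ p ∧ e (i, c) ≠ q := by
      intro c
      constructor <;> rintro rfl
      · exact hp ((C3I_mem e S i c).2 hi)
      · exact hq ((C3I_mem e S i c).2 hi)
    simp only [hw]
    rw [hcS i (h _).1 (h _).1 (h _).2 (h _).2, hu.2]
    simp [hi]
  -- touched indices
  set R0 : Finset (Fin m) := univ.filter (fun i => ∃ c, e (i, c) = p ∨ e (i, c) = q) with hR0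
  have hR0c : R0.card ≤ 2 := by
    have h1 : R0 ⊆ (univ.filter (fun i => ∃ c, e (i, c) = p)) ∪
        (univ.filter (fun i => ∃ c, e (i, c) = q)) := by
      intro i hi
      simp only [hR0, mem_filter, mem_univ, true_and, mem_union] at hi ⊢
      obtain ⟨c, hc | hc⟩ := hi
      · exact Or.inl ⟨c, hc⟩
      · exact Or.inr ⟨c, hc⟩
    have h2 : ∀ r : A, (univ.filter (fun i : Fin m => ∃ c, e (i, c) = r)).card ≤ 1 := by
      intro r
      rw [Finset.card_le_one]
      intro i hi j hj
      simp only [mem_filter, mem_univ, true_and] at hi hj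
      obtain ⟨c, hc⟩ := hi
      obtain ⟨c', hc'⟩ := hj
      have := e.injective (hc.trans hc'.symm)
      simp at this
      exact this.1
    calc R0.card ≤ _ := Finset.card_le_card h1
      _ ≤ _ := Finset.card_union_le _ _
      _ ≤ 2 := by have := h2 p; have := h2 q; omega
  have hunt : ∀ i, i ∉ S → i ∉ R0 → ∀ g, w (C3t e i * g) = w g := by
    intro i hi hiR g
    simp only [hR0, mem_filter, mem_univ, true_and, not_exists, not_or] at hiR
    simp only [hw]
    rw [hcS i (hiR _).1 (hiR _).1 (hiR _).2 (hiR _).2, hu.2]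
    simp [hi]
  have htou : ∀ i, i ∉ S → i ∈ R0 → ∀ g, w (C3t e i * g) = w g := by
    intro i hi hiR
    have hii : ∀ i g, C3t e i * (C3t e i * g) = g := fun i g => by
      rw [← mul_assoc, C3t_inv, one_mul]
    have hij : ∀ i j g, C3t e i * (C3t e j * g) = C3t e j * (C3t e i * g) := fun i j g => by
      rw [← mul_assoc, C3t_comm, mul_assoc]
    have hm : (fun g => w g - w (C3t e i * g)) = 0 := by
      refine C3_decomp (C3t e) (C3t_inv e) (C3t_comm e) E hE (R0.erase i) (insert i S) _
        (E.sub_mem hwE (hE _ w hwE)) ?_ ?_ ?_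
      · intro k hk g
        rcases Finset.mem_insert.1 hk with rfl | hk
        · rw [hii]; ring
        · rw [hij i k g, hS k hk, hS k hk]; ring
      · intro k hk hkR g
        have hki : k ≠ i := fun h => hk (by simp [h])
        have hkS : k ∉ S := fun h => hk (Finset.mem_insert_of_mem h)
        have hkR' : k ∉ R0 := fun h => hkR (Finset.mem_erase.2 ⟨hki, h⟩)
        rw [hij i k g, hunt k hkS hkR', hunt k hkS hkR']
      · intro S'' ha hb f hf
        have hc1 : (insert i S).card = S.card + 1 := Finset.card_insert_of_notMem hi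
        have hc2 := Finset.card_le_card ha
        have hc3 := Finset.card_le_card hb
        have hc4 := Finset.card_union_le (insert i S) (R0.erase i)
        have hc5 : (R0.erase i).card = R0.card - 1 := Finset.card_erase_of_mem hiR
        exact hnext S'' (by omega) (by omega) f hf
    intro g
    have := congrFun hm g
    simp only [Pi.zero_apply] at this
    linarith
  refine ⟨hwE, fun i g => ?_⟩
  by_cases hi : i ∈ S
  · simp [hi, hS i hi g]
  · by_cases hiR : i ∈ R0
    · simp [hi, htou i hi hiR g]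
    · simp [hi, hunt i hi hiR g]

/-- invariance of the joint eigenspace under the permutations fixing `I` -/
theorem C3_perm_inv {m : ℕ} (e : Fin m × Bool ↪ A) (E : Submodule ℝ (Perm A → ℝ))
    (S : Finset (Fin m)) [Finite A]
    (hsw : ∀ (p q : A), p ∉ C3I e S → q ∉ C3I e S → ∀ u : Perm A → ℝ,
      C3W (C3t e) E S u → C3W (C3t e) E S (fun g => u (swap p q * g)))
    (h : Perm A) (hh : ∀ x ∈ C3I e S, h x = x) (u : Perm A → ℝ)
    (hu : C3W (C3t e) E S u) : C3W (C3t e) E S (fun g => u (h * g)) := by
  have key : ∀ h' : Perm {x // x ∉ C3I e S}, ∀ u : Perm A → ℝ,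
      C3W (C3t e) E S u → C3W (C3t e) E S (fun g => u (Perm.ofSubtype h' * g)) := by
    intro h'
    induction h' using Equiv.Perm.swap_induction_on with
    | one => intro u hu; simpa using hu
    | swap_mul f x y hxy ih =>
      intro u hu
      have h1 := hsw x y x.2 y.2 u hu
      have h2 := ih _ h1
      have e1 : (fun g => u (Perm.ofSubtype (swap x y * f) * g)) =
          (fun g => u (swap (x : A) y * (Perm.ofSubtype f * g))) := by
        funext g
        rw [map_mul, Perm.ofSubtype_swap_eq, mul_assoc]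
      rw [e1]
      exact h2
  have hiff : ∀ x, h x ∉ C3I e S ↔ x ∉ C3I e S := by
    intro x
    rw [not_iff_not]
    constructor
    · intro hx
      have h1 := hh _ hx
      have h2 := h.injective h1
      rwa [h2] at hx
    · intro hx
      rwa [hh x hx]
  have := key (h.subtypePerm hiff) u hu
  rwa [Perm.ofSubtype_subtypePerm (p := fun x => x ∉ C3I e S) hiff
    (fun x hx hmem => hx (hh x hmem))] at this

/-- the permutations fixing `I` act trivially -/
theorem C3_fixed {m : ℕ} (e : Fin m × Bool ↪ A) (E : Submodule ℝ (Perm A → ℝ))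
    (S : Finset (Fin m)) [Finite A] (i : Fin m) (hi : i ∉ S)
    (hperm : ∀ (h : Perm A), (∀ x ∈ C3I e S, h x = x) → ∀ u : Perm A → ℝ,
      C3W (C3t e) E S u → C3W (C3t e) E S (fun g => u (h * g)))
    (u : Perm A → ℝ) (hu : C3W (C3t e) E S u)
    (h : Perm A) (hh : ∀ x ∈ C3I e S, h x = x) (g : Perm A) : u (h * g) = u g := by
  have ha : e (i, false) ∉ C3I e S := fun h => hi ((C3I_mem e S i _).1 h)
  have hb : e (i, true) ∉ C3I e S := fun h => hi ((C3I_mem e S i _).1 h)
  have hab : e (i, false) ≠ e (i, true) := fun h => by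
    have := e.injective h
    simp at this
  -- transpositions
  have hsw : ∀ p q : A, p ≠ q → p ∉ C3I e S → q ∉ C3I e S → ∀ g, u (swap p q * g) = u g := by
    intro p q hpq hp hq g
    set q' := swap p (e (i, false)) q with hq'
    have hq'I : q' ∉ C3I e S := by
      rw [hq', swap_apply_def]
      split_ifs <;> assumption
    have hq'a : q' ≠ e (i, false) := by
      intro h
      have h2 : q = p := by
        apply (swap p (e (i, false))).injective
        rw [swap_apply_left]
        exact h
      exact hpq h2.symm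
    set k : Perm A := swap q' (e (i, true)) * swap p (e (i, false)) with hk
    have hkp : k p = e (i, false) := by
      rw [hk, Perm.mul_apply, swap_apply_left, swap_apply_of_ne_of_ne hq'a.symm hab]
    have hkq : k q = e (i, true) := by
      rw [hk, Perm.mul_apply, ← hq', swap_apply_left]
    have hkfix : ∀ x ∈ C3I e S, k x = x := by
      intro x hx
      have h1 : x ≠ p := fun h => hp (h ▸ hx)
      have h2 : x ≠ e (i, false) := fun h => ha (h ▸ hx)
      have h3 : x ≠ q' := fun h => hq'I (h ▸ hx)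
      have h4 : x ≠ e (i, true) := fun h => hb (h ▸ hx)
      rw [hk, Perm.mul_apply, swap_apply_of_ne_of_ne h1 h2, swap_apply_of_ne_of_ne h3 h4]
    have hkinvfix : ∀ x ∈ C3I e S, k⁻¹ x = x := by
      intro x hx
      rw [Perm.inv_eq_iff_eq, hkfix x hx]
    have hconj : swap p q = k⁻¹ * (C3t e i * k) := by
      have h1 : k * swap p q = C3t e i * k := by
        rw [Equiv.mul_swap_eq_swap_mul, hkp, hkq]; rfl
      rw [← h1, inv_mul_cancel_left]
    have h1 := hperm k⁻¹ hkinvfix u hu
    have h2 := h1.2 i (k * g)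
    simp only [hi, if_false] at h2
    rw [hconj, mul_assoc, mul_assoc, h2, inv_mul_cancel_left]
  have key : ∀ h' : Perm {x // x ∉ C3I e S}, ∀ g, u (Perm.ofSubtype h' * g) = u g := by
    intro h'
    induction h' using Equiv.Perm.swap_induction_on with
    | one => intro g; simp
    | swap_mul f x y hxy ih =>
      intro g
      rw [map_mul, Perm.ofSubtype_swap_eq, mul_assoc,
        hsw x y (fun h => hxy (Subtype.ext h)) x.2 y.2, ih]
  have hiff : ∀ x, h x ∉ C3I e S ↔ x ∉ C3I e S := by
    intro x
    rw [not_iff_not]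
    constructor
    · intro hx
      have h1 := hh _ hx
      have h2 := h.injective h1
      rwa [h2] at hx
    · intro hx
      rwa [hh x hx]
  have := key (h.subtypePerm hiff) g
  rwa [Perm.ofSubtype_subtypePerm (p := fun x => x ∉ C3I e S) hiff
    (fun x hx hmem => hx (hh x hmem))] at this


/-- a joint eigenvector of small weight gives a contradiction -/
theorem C3_low [Fintype A] (j0 : ℕ) (e : Fin (2 * j0 + 2) × Bool ↪ A)
    (E : Submodule ℝ (Perm A → ℝ))
    (hE : ∀ h : Perm A, ∀ f ∈ E, (fun g => f (h * g)) ∈ E)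
    (h0 : ∀ f ∈ E, ∀ x y : Fin (2 * j0) → A, ∑ g, f g * cyl x y g = 0)
    (hmid : ∀ S : Finset (Fin (2 * j0 + 2)), j0 ≤ S.card → S.card ≤ j0 + 2 →
      ∀ f, C3W (C3t e) E S f → f = 0) :
    ∀ (k : ℕ) (S : Finset (Fin (2 * j0 + 2))), S.card + k = j0 → ∀ f,
      C3W (C3t e) E S f → f = 0 := by
  intro k
  induction k using Nat.strong_induction_on with
  | _ k ih =>
    intro S hS f hf
    by_cases hk0 : k = 0
    · exact hmid S (by omega) (by omega) f hf
    have hnext : ∀ S' : Finset (Fin (2 * j0 + 2)), S.card < S'.card → S'.card ≤ S.card + 2 →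
        ∀ f, C3W (C3t e) E S' f → f = 0 := by
      intro S' h1 h2 f hf
      by_cases h3 : j0 ≤ S'.card
      · exact hmid S' h3 (by omega) f hf
      · exact ih (j0 - S'.card) (by omega) S' (by omega) f hf
    have hsw := fun p q hp hq u hu => C3_swap_inv e E hE S hnext p q hp hq u hu
    have hperm := fun h hh u hu => C3_perm_inv e E S hsw h hh u hu
    obtain ⟨i, hi⟩ : ∃ i, i ∉ S := by
      by_contra hcon
      push Not at hcon
      have : S = univ := Finset.eq_univ_iff_forall.2 hcon
      rw [this, Finset.card_univ, Fintype.card_fin] at hS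
      omega
    have hfix : ∀ h : Perm A, (∀ x ∈ C3I e S, h x = x) → ∀ g, f (h * g) = f g :=
      fun h hh g => C3_fixed e E S i hi hperm f hf h hh g
    -- enumerate `I`
    have hcard : (C3I e S).card ≤ 2 * j0 := by rw [C3I_card]; omega
    obtain ⟨y, hy⟩ : ∃ y : Fin (2 * j0) → A, ∀ x ∈ C3I e S, ∃ t, y t = x := by
      have hj : 0 < 2 * j0 := by omega
      have hle : Fintype.card (C3I e S) ≤ Fintype.card (Fin (2 * j0)) := by
        simpa using hcard
      obtain ⟨φ⟩ := Function.Embedding.nonempty_of_card_le hle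
      have : Nonempty A := ⟨e (i, false)⟩
      refine ⟨fun t => if ht : ∃ x, φ x = t then (ht.choose : A) else Classical.arbitrary A,
        fun x hx => ⟨φ ⟨x, hx⟩, ?_⟩⟩
      have ht : ∃ x', φ x' = φ ⟨x, hx⟩ := ⟨⟨x, hx⟩, rfl⟩
      have h1 : ht.choose = ⟨x, hx⟩ := φ.injective ht.choose_spec
      simp only [dif_pos ht]
      exact congrArg Subtype.val h1
    have hdep : ∀ g g' : Perm A, (fun t => g⁻¹ (y t)) = (fun t => g'⁻¹ (y t)) → f g = f g' := by
      intro g g' hgg
      have h1 : f (g' * g⁻¹ * g) = f g := by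
        apply hfix
        intro x hx
        obtain ⟨t, rfl⟩ := hy x hx
        have h2 : g⁻¹ (y t) = g'⁻¹ (y t) := congrFun hgg t
        rw [Perm.mul_apply, h2]
        simp
      rw [inv_mul_cancel_right] at h1
      exact h1.symm
    set c : (Fin (2 * j0) → A) → ℝ := fun x =>
      if hx : ∃ g : Perm A, (fun t => g⁻¹ (y t)) = x then f hx.choose else 0 with hc
    have hfc : ∀ g : Perm A, f g = c (fun t => g⁻¹ (y t)) := by
      intro g
      have hx : ∃ g' : Perm A, (fun t => g'⁻¹ (y t)) = (fun t => g⁻¹ (y t)) := ⟨g, rfl⟩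
      rw [hc]
      simp only [dif_pos hx]
      exact hdep _ _ hx.choose_spec.symm
    have hcyl : ∀ g : Perm A, f g = ∑ x : Fin (2 * j0) → A, c x * cyl x y g := by
      intro g
      rw [Finset.sum_eq_single (fun t => g⁻¹ (y t))]
      · rw [hfc g]
        simp [cyl]
      · intro x _ hx
        have : ¬ ∀ i, g (x i) = y i := by
          intro h
          apply hx
          funext t
          rw [← h t]; simp
        simp [cyl, this]
      · intro h; exact absurd (Finset.mem_univ _) h
    have hsq : ∑ g, f g * f g = 0 := by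
      have h1 : ∑ g, f g * f g = ∑ g, ∑ x : Fin (2 * j0) → A, c x * (f g * cyl x y g) := by
        refine Finset.sum_congr rfl fun g _ => ?_
        conv_lhs => rw [hcyl g]
        rw [Finset.sum_mul]
        conv_lhs =>
          arg 2
          ext x
          rw [← hcyl g]
        refine Finset.sum_congr rfl fun x _ => by ring
      rw [h1, Finset.sum_comm]
      refine Finset.sum_eq_zero fun x _ => ?_
      rw [← Finset.mul_sum, h0 f hf.1 x y, mul_zero]
    funext g
    have := (Finset.sum_eq_zero_iff_of_nonneg (fun g _ => mul_self_nonneg (f g))).1 hsq g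
      (Finset.mem_univ g)
    simpa using this


theorem C3_binom (j0 j : ℕ) (h1 : j0 ≤ j) (h2 : j ≤ j0 + 2) : 2 ^ j0 ≤ (2 * j0 + 2).choose j := by
  have hc : ∀ n : ℕ, 2 ^ n ≤ Nat.centralBinom n := by
    intro n
    induction n with
    | zero => simp
    | succ n ih =>
      have h := Nat.succ_mul_centralBinom_succ n
      have h3 : (n + 1) * (2 * Nat.centralBinom n) ≤ (n + 1) * Nat.centralBinom (n + 1) := by
        rw [h]
        nlinarith [Nat.zero_le (Nat.centralBinom n), Nat.zero_le n]
      have h4 := Nat.le_of_mul_le_mul_left h3 (Nat.succ_pos n)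
      calc 2 ^ (n + 1) = 2 * 2 ^ n := by ring
        _ ≤ 2 * Nat.centralBinom n := by omega
        _ ≤ _ := h4
  have hc0 : 2 ^ j0 ≤ (2 * j0).choose j0 := by simpa [Nat.centralBinom] using hc j0
  have key : (2 * j0).choose j0 ≤ (2 * j0 + 2).choose j0 := Nat.choose_le_choose _ (by omega)
  obtain rfl | rfl | rfl : j = j0 ∨ j = j0 + 1 ∨ j = j0 + 2 := by omega
  · exact hc0.trans key
  · have h3 : (2 * j0 + 1).choose j0 ≤ (2 * j0 + 1 + 1).choose (j0 + 1) := by
      rw [Nat.choose_succ_succ]; omega
    have h4 : (2 * j0).choose j0 ≤ (2 * j0 + 1).choose j0 := Nat.choose_le_choose _ (by omega)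
    exact hc0.trans (h4.trans h3)
  · have h3 : (2 * j0 + 2).choose (j0 + 2) = (2 * j0 + 2).choose j0 := by
      rw [← Nat.choose_symm_of_eq_add]; omega
    rw [h3]
    exact hc0.trans key

/-- transport of joint eigenvectors between weights of the same cardinality -/
theorem C3_transport {m : ℕ} [Fintype A] (e : Fin m × Bool ↪ A)
    (E : Submodule ℝ (Perm A → ℝ))
    (hE : ∀ h : Perm A, ∀ f ∈ E, (fun g => f (h * g)) ∈ E)
    (S S' : Finset (Fin m)) (hSS : S.card = S'.card) (f : Perm A → ℝ) (hf : C3W (C3t e) E S f)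
    (hne : f ≠ 0) : ∃ f', C3W (C3t e) E S' f' ∧ f' ≠ 0 := by
  obtain ⟨π, hπ⟩ := Equiv.Perm.exists_map_finset_eq S' S hSS.symm
  obtain ⟨σ, hσ⟩ := Equiv.Perm.exists_extending_pair (fun a => e a)
    (fun a : Fin m × Bool => e (π a.1, a.2)) e.injective (by
      intro a b hab
      have := e.injective hab
      simp only [Prod.mk.injEq, EmbeddingLike.apply_eq_iff_eq] at this
      exact Prod.ext this.1 this.2)
  refine ⟨fun g => f (σ * g), ⟨hE _ f hf.1, fun i g => ?_⟩, ?_⟩
  · have h1 : σ * C3t e i = C3t e (π i) * σ := by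
      unfold C3t
      rw [Equiv.mul_swap_eq_swap_mul, hσ (i, false), hσ (i, true)]
    have h2 : π i ∈ S ↔ i ∈ S' := by
      rw [← hπ]
      simp
    simp only
    rw [← mul_assoc, h1, mul_assoc, hf.2]
    simp [h2]
  · intro h
    apply hne
    funext g
    have := congrFun h (σ⁻¹ * g)
    simpa using this

/-- dimension of a space containing a joint eigenvector of middle weight -/
theorem C3_dim_mid [Fintype A] {m : ℕ} (e : Fin m × Bool ↪ A)
    (E : Submodule ℝ (Perm A → ℝ))
    (hE : ∀ h : Perm A, ∀ f ∈ E, (fun g => f (h * g)) ∈ E)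
    (S : Finset (Fin m)) (f : Perm A → ℝ) (hf : C3W (C3t e) E S f)
    (hne : f ≠ 0) : m.choose S.card ≤ Module.finrank ℝ E := by
  classical
  have hex : ∀ S' : {S' : Finset (Fin m) // S'.card = S.card},
      ∃ f', C3W (C3t e) E S'.1 f' ∧ f' ≠ 0 := fun S' =>
    C3_transport e E hE S S'.1 S'.2.symm f hf hne
  choose v hv hv0 using hex
  let T : Module.End ℝ (Perm A → ℝ) :=
    ∑ i : Fin m, (2 ^ (i : ℕ) : ℝ) • (LinearMap.funLeft ℝ ℝ (fun g : Perm A => C3t e i * g))
  let μ : {S' : Finset (Fin m) // S'.card = S.card} → ℝ := fun S' =>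
    ∑ i : Fin m, (2 ^ (i : ℕ) : ℝ) * (if i ∈ S'.1 then -1 else 1)
  have hμ : Function.Injective μ := by
    intro S1 S2 h12
    have hsum : ∀ S' : Finset (Fin m),
        ∑ i : Fin m, (2 ^ (i : ℕ) : ℝ) * (if i ∈ S' then -1 else 1) =
        ∑ i : Fin m, (2 ^ (i : ℕ) : ℝ) -
          2 * (((∑ i ∈ S'.map Fin.valEmbedding, 2 ^ i : ℕ) : ℕ) : ℝ) := by
      intro S'
      rw [Finset.sum_map]
      push_cast
      have h1 : ∑ i ∈ S', (2 : ℝ) ^ (Fin.valEmbedding i) =
          ∑ i : Fin m, if i ∈ S' then (2 ^ (i : ℕ) : ℝ) else 0 := by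
        rw [Finset.sum_ite_mem, Finset.univ_inter]
        rfl
      rw [h1, Finset.mul_sum, ← Finset.sum_sub_distrib]
      refine Finset.sum_congr rfl fun i _ => ?_
      split_ifs <;> ring
    have h3 : (((∑ i ∈ S1.1.map Fin.valEmbedding, 2 ^ i : ℕ) : ℕ) : ℝ) =
        (((∑ i ∈ S2.1.map Fin.valEmbedding, 2 ^ i : ℕ) : ℕ) : ℝ) := by
      have h4 : μ S1 = μ S2 := h12
      simp only [μ] at h4
      rw [hsum, hsum] at h4
      linarith
    have h5 : (∑ i ∈ S1.1.map Fin.valEmbedding, 2 ^ i) =
        (∑ i ∈ S2.1.map Fin.valEmbedding, 2 ^ i) := by exact_mod_cast h3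
    have h6 := Finset.geomSum_injective (le_refl 2) h5
    exact Subtype.ext (Finset.map_injective _ h6)
  have hEv : ∀ S', T.HasEigenvector (μ S') (v S') := by
    intro S'
    refine ⟨?_, hv0 S'⟩
    rw [Module.End.mem_eigenspace_iff]
    funext g
    simp only [T, μ, LinearMap.sum_apply, LinearMap.smul_apply, Finset.sum_apply, Pi.smul_apply,
      LinearMap.funLeft_apply, smul_eq_mul, Finset.sum_mul]
    refine Finset.sum_congr rfl fun i _ => ?_
    rw [(hv S').2 i g]
    split_ifs <;> ring
  have hli : LinearIndependent ℝ v := Module.End.eigenvectors_linearIndependent' T μ hμ v hEv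
  have hli' : LinearIndependent ℝ (fun S' => (⟨v S', (hv S').1⟩ : E)) :=
    LinearIndependent.of_comp E.subtype hli
  have hcard := hli'.fintype_card_le_finrank
  have h7 : Fintype.card {S' : Finset (Fin m) // S'.card = S.card} = m.choose S.card := by
    rw [Fintype.card_finset_len, Fintype.card_fin]
  rwa [h7] at hcard

/-- C3 -/
theorem C3_dim {A : Type*} [Fintype A] [DecidableEq A] (j0 : ℕ) (h : 4 * j0 + 4 ≤ Fintype.card A)
    (E : Submodule ℝ (Perm A → ℝ)) (hE : ∀ h : Perm A, ∀ f ∈ E, (fun g => f (h * g)) ∈ E)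
    (hne : E ≠ ⊥)
    (h0 : ∀ f ∈ E, ∀ x y : Fin (2 * j0) → A, ∑ g, f g * cyl x y g = 0)
    (h1 : ∀ f ∈ E, ∀ x y : Fin (2 * j0) → A, ∑ g, f g * ((Perm.sign g : ℤ) : ℝ) * cyl x y g = 0) :
    2 ^ j0 ≤ Module.finrank ℝ E := by
  classical
  by_contra hcon
  push Not at hcon
  obtain ⟨e⟩ : Nonempty (Fin (2 * j0 + 2) × Bool ↪ A) := by
    apply Function.Embedding.nonempty_of_card_le
    simp only [Fintype.card_prod, Fintype.card_fin, Fintype.card_bool]
    omega
  have hmid : ∀ S : Finset (Fin (2 * j0 + 2)), j0 ≤ S.card → S.card ≤ j0 + 2 →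
      ∀ f, C3W (C3t e) E S f → f = 0 := by
    intro S h1 h2 f hf
    by_contra hf0
    have h3 := C3_dim_mid e E hE S f hf hf0
    have h4 := C3_binom j0 S.card h1 h2
    omega
  obtain ⟨f0, hf0, hf0ne⟩ := (Submodule.ne_bot_iff E).1 hne
  -- the sign twist
  let E' : Submodule ℝ (Perm A → ℝ) :=
    { carrier := {f | (fun g => ((Perm.sign g : ℤ) : ℝ) * f g) ∈ E}
      zero_mem' := by
        have : (fun g : Perm A => ((Perm.sign g : ℤ) : ℝ) * (0 : Perm A → ℝ) g) = 0 := by
          funext g; simp
        simp only [Set.mem_setOf_eq]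
        rw [this]; exact E.zero_mem
      add_mem' := by
        intro f f' hf hf'
        have : (fun g : Perm A => ((Perm.sign g : ℤ) : ℝ) * (f + f') g) =
            (fun g => ((Perm.sign g : ℤ) : ℝ) * f g) + (fun g => ((Perm.sign g : ℤ) : ℝ) * f' g) := by
          funext g; simp [mul_add]
        simp only [Set.mem_setOf_eq] at hf hf' ⊢
        rw [this]; exact E.add_mem hf hf'
      smul_mem' := by
        intro c f hf
        have : (fun g : Perm A => ((Perm.sign g : ℤ) : ℝ) * (c • f) g) =
            c • (fun g => ((Perm.sign g : ℤ) : ℝ) * f g) := by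
          funext g; simp; ring
        simp only [Set.mem_setOf_eq] at hf ⊢
        rw [this]; exact E.smul_mem c hf }
  have hE'mem : ∀ f, f ∈ E' ↔ (fun g => ((Perm.sign g : ℤ) : ℝ) * f g) ∈ E := fun f => Iff.rfl
  have hsgn : ∀ g : Perm A, ((Perm.sign g : ℤ) : ℝ) * ((Perm.sign g : ℤ) : ℝ) = 1 := by
    intro g
    rcases Int.units_eq_one_or (Perm.sign g) with h | h <;> simp [h]
  have hE' : ∀ h : Perm A, ∀ f ∈ E', (fun g => f (h * g)) ∈ E' := by
    intro h f hf
    rw [hE'mem] at hf ⊢
    have h2 := E.smul_mem (((Perm.sign h : ℤ) : ℝ)) (hE h _ hf)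
    convert h2 using 1
    funext g
    simp only [Pi.smul_apply, smul_eq_mul, Perm.sign_mul, Units.val_mul, Int.cast_mul]
    rw [← mul_assoc, ← mul_assoc, hsgn, one_mul]
  have h0' : ∀ f ∈ E', ∀ x y : Fin (2 * j0) → A, ∑ g, f g * cyl x y g = 0 := by
    intro f hf x y
    rw [hE'mem] at hf
    have h2 := h1 _ hf x y
    rw [← h2]
    refine Finset.sum_congr rfl fun g _ => ?_
    have := hsgn g
    calc f g * cyl x y g = (((Perm.sign g : ℤ) : ℝ) * ((Perm.sign g : ℤ) : ℝ)) * f g * cyl x y g := by
          rw [this, one_mul]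
      _ = _ := by ring
  have htw : ∀ (S : Finset (Fin (2 * j0 + 2))) (f : Perm A → ℝ) (E1 E2 : Submodule ℝ (Perm A → ℝ)),
      (fun g => ((Perm.sign g : ℤ) : ℝ) * f g) ∈ E2 → C3W (C3t e) E1 S f →
      C3W (C3t e) E2 Sᶜ (fun g => ((Perm.sign g : ℤ) : ℝ) * f g) := by
    intro S f E1 E2 hm hf
    refine ⟨hm, fun i g => ?_⟩
    have hs : Perm.sign (C3t e i) = -1 := by
      apply Perm.sign_swap
      intro hcon
      have := e.injective hcon
      simp at this
    simp only [Perm.sign_mul, hs]
    rw [hf.2 i g]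
    by_cases hi : i ∈ S
    · simp [hi]
    · simp [hi]
  have hmid' : ∀ S : Finset (Fin (2 * j0 + 2)), j0 ≤ S.card → S.card ≤ j0 + 2 →
      ∀ f, C3W (C3t e) E' S f → f = 0 := by
    intro S h1 h2 f hf
    have h3 := htw S f E' E ((hE'mem f).1 hf.1) hf
    have hc : Sᶜ.card = 2 * j0 + 2 - S.card := by
      rw [Finset.card_compl, Fintype.card_fin]
    have h4 := hmid Sᶜ (by omega) (by omega) _ h3
    funext g
    have h5 := congrFun h4 g
    simp only [Pi.zero_apply] at h5 ⊢
    rcases mul_eq_zero.1 h5 with h6 | h6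
    · have := hsgn g
      rw [h6] at this
      simp at this
    · exact h6
  have hall : ∀ S : Finset (Fin (2 * j0 + 2)), ∀ f, C3W (C3t e) E S f → f = 0 := by
    intro S f hf
    by_cases hS1 : S.card < j0
    · exact C3_low j0 e E hE h0 hmid (j0 - S.card) S (by omega) f hf
    by_cases hS2 : S.card ≤ j0 + 2
    · exact hmid S (by omega) hS2 f hf
    · have hc : Sᶜ.card = 2 * j0 + 2 - S.card := by
        rw [Finset.card_compl, Fintype.card_fin]
      have hSle : S.card ≤ 2 * j0 + 2 := by
        simpa using Finset.card_le_univ S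
      have hm : (fun g => ((Perm.sign g : ℤ) : ℝ) * f g) ∈ E' := by
        rw [hE'mem]
        convert hf.1 using 1
        funext g
        rw [← mul_assoc, hsgn, one_mul]
      have h3 := htw S f E E' hm hf
      have h4 := C3_low j0 e E' hE' h0' hmid' (j0 - Sᶜ.card) Sᶜ (by omega) _ h3
      funext g
      have h5 := congrFun h4 g
      simp only [Pi.zero_apply] at h5 ⊢
      rcases mul_eq_zero.1 h5 with h6 | h6
      · have := hsgn g
        rw [h6] at this
        simp at this
      · exact h6
  apply hf0ne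
  exact C3_decomp (C3t e) (C3t_inv e) (C3t_comm e) E hE univ ∅ f0 hf0 (by simp) (by simp)
    (fun S'' _ _ f hf => hall S'' f hf)

end C3

end Crest.Agent.S0222
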