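import Crest.Agent.S0222_Defs
import Crest.Agent.S0222_Basic

/-!
C4 (trace bound) for S0222.  Author: helper19.
-/

set_option autoImplicit false

namespace Crest.Agent.S0222

open Finset Equiv

section C4

variable {A : Type*} [Fintype A] [DecidableEq A]

/-- class average of a point mass -/
noncomputable def C4_u (w : Perm A) : Perm A → ℝ := fun v =>
  ((univ.filter (fun g : Perm A => g⁻¹ * w * g = v)).card : ℝ) / ((Fintype.card A).factorial : ℝ)

theorem C4_u_nonneg (w v : Perm A) : 0 ≤ C4_u w v := by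
  unfold C4_u; positivity

theorem C4_u_sum (w : Perm A) : ∑ v, C4_u w v = 1 := by
  unfold C4_u
  rw [← Finset.sum_div]
  have h : ∑ v : Perm A, ((univ.filter (fun g : Perm A => g⁻¹ * w * g = v)).card : ℝ) =
      ((Fintype.card A).factorial : ℝ) := by
    rw [← Nat.cast_sum]
    rw [← Finset.card_eq_sum_card_fiberwise (s := (univ : Finset (Perm A)))
      (f := fun g => g⁻¹ * w * g) (t := univ) (fun _ _ => by simp)]
    rw [Finset.card_univ, Fintype.card_perm]
  rw [h, div_self]
  positivity

/-- fixN is a class function (one inequality) -/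
theorem C4_fix_conj (x : ℕ) (w g : Perm A) : fixN x (g⁻¹ * w * g) ≤ fixN x w := by
  unfold fixN
  refine Finset.card_le_card_of_injOn (fun κ z => κ (g⁻¹ z)) ?_ ?_
  · intro κ hκ
    simp only [Finset.coe_filter, Finset.mem_univ, true_and, Set.mem_ofPred_eq] at hκ ⊢
    intro z
    have := hκ (g⁻¹ z)
    simpa [Perm.mul_apply] using this
  · intro κ _ κ' _ h
    funext z
    have := congrFun h (g z)
    simpa using this

theorem C4_fix_mono {x y : ℕ} (h : x ≤ y) (w : Perm A) : fixN x w ≤ fixN y w := by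
  unfold fixN
  refine Finset.card_le_card_of_injOn (fun κ z => Fin.castLE h (κ z)) ?_ ?_
  · intro κ hκ
    simp only [Finset.coe_filter, Finset.mem_univ, true_and, Set.mem_ofPred_eq] at hκ ⊢
    intro z
    rw [hκ z]
  · intro κ _ κ' _ hh
    funext z
    have := congrFun hh z
    exact Fin.castLE_injective h this

theorem C4_fix_pow (x s : ℕ) (w : Perm A) : fixN (x ^ s) w ≤ (fixN x w) ^ s := by
  unfold fixN
  have hc : ((univ.filter (fun κ : A → Fin x => ∀ z, κ (w z) = κ z)).card) ^ s =
      (Fintype.piFinset (fun _ : Fin s => univ.filter (fun κ : A → Fin x => ∀ z, κ (w z) = κ z))).card := by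
    rw [Fintype.card_piFinset_const]
  rw [hc]
  refine Finset.card_le_card_of_injOn
    (fun κ => fun i : Fin s => fun z => finFunctionFinEquiv.symm (κ z) i) ?_ ?_
  · intro κ hκ
    simp only [Finset.coe_filter, Finset.mem_univ, true_and, Set.mem_ofPred_eq] at hκ
    simp only [Finset.mem_coe, Fintype.mem_piFinset, Finset.mem_filter, Finset.mem_univ, true_and]
    intro i z
    rw [hκ z]
  · intro κ _ κ' _ h
    funext z
    apply finFunctionFinEquiv.symm.injective
    funext i
    exact congrFun (congrFun h i) z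

/-- number of `g` conjugating `w` to `v` -/
theorem C4_card_conj (w v : Perm A) :
    (univ.filter (fun g : Perm A => g⁻¹ * w * g = v)).card ≤ fixN (Fintype.card A) v := by
  classical
  unfold fixN
  let rep : A → A := fun a => Quotient.out (Quotient.mk (Perm.SameCycle.setoid v) a)
  have hrep : ∀ a, Perm.SameCycle v (rep a) a := fun a =>
    Quotient.mk_out (s := Perm.SameCycle.setoid v) a
  have hrepv : ∀ a, rep (v a) = rep a := by
    intro a
    show Quotient.out _ = Quotient.out _
    congr 1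
    apply Quotient.sound
    show Perm.SameCycle v (v a) a
    exact (Perm.sameCycle_apply_left).2 (Perm.SameCycle.refl _ _)
  refine Finset.card_le_card_of_injOn
    (fun g => fun a => Fintype.equivFin A (g (rep a))) ?_ ?_
  · intro g _
    simp only [Finset.coe_filter, Finset.mem_univ, true_and, Set.mem_ofPred_eq]
    intro z
    rw [hrepv]
  · intro g hg g' hg' h
    simp only [Finset.coe_filter, Finset.mem_univ, true_and, Set.mem_ofPred_eq] at hg hg'
    have key : ∀ (g : Perm A), g⁻¹ * w * g = v → ∀ (k : ℤ) a, g ((v ^ k) a) = (w ^ k) (g a) := by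
      intro g hg k a
      have h1 : g * v ^ k = w ^ k * g := by
        rw [← hg]
        have : (g⁻¹ * w * g) ^ k = g⁻¹ * w ^ k * g := by
          have := conj_zpow (a := g⁻¹) (b := w) (i := k)
          simpa using this
        rw [this]; group
      exact congrArg (fun f : Perm A => f a) h1
    ext a
    obtain ⟨k, hk⟩ := hrep a
    have h2 : g (rep a) = g' (rep a) := by
      have := congrFun h a
      exact (Fintype.equivFin A).injective this
    rw [← hk, key g hg, key g' hg', h2]

theorem C4_u_le (w v : Perm A) :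
    C4_u w v ≤ (fixN (Fintype.card A) w : ℝ) / ((Fintype.card A).factorial : ℝ) := by
  unfold C4_u
  apply div_le_div_of_nonneg_right _ (by positivity)
  rcases Finset.eq_empty_or_nonempty (univ.filter (fun g : Perm A => g⁻¹ * w * g = v)) with h | ⟨g, hg⟩
  · rw [h]; simp
  · have hg' : g⁻¹ * w * g = v := by simpa using hg
    have h2 : fixN (Fintype.card A) v ≤ fixN (Fintype.card A) w := by
      rw [← hg']; exact C4_fix_conj _ w g
    exact_mod_cast (C4_card_conj w v).trans h2

theorem C4_decomp (a : Perm A → ℝ) (hcl : ∀ g w, a (g * w * g⁻¹) = a w) (v : Perm A) :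
    a v = ∑ w, a w * C4_u w v := by
  unfold C4_u
  have hN : ((Fintype.card A).factorial : ℝ) ≠ 0 := by positivity
  have h1 : ∑ w, a w * (((univ.filter (fun g : Perm A => g⁻¹ * w * g = v)).card : ℝ) /
      ((Fintype.card A).factorial : ℝ)) =
      (∑ w, ∑ g : Perm A, if g⁻¹ * w * g = v then a w else 0) / ((Fintype.card A).factorial : ℝ) := by
    rw [Finset.sum_div]
    apply Finset.sum_congr rfl; intro w _
    rw [← Finset.sum_filter, Finset.sum_const, nsmul_eq_mul]
    ring
  rw [h1, Finset.sum_comm]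
  have h2 : ∀ g : Perm A, (∑ w, if g⁻¹ * w * g = v then a w else 0) = a v := by
    intro g
    rw [Finset.sum_eq_single (g * v * g⁻¹)]
    · rw [if_pos (by group), hcl]
    · intro b _ hb
      rw [if_neg]
      intro h
      apply hb
      rw [← h]; group
    · intro h; exact absurd (Finset.mem_univ _) h
  rw [Finset.sum_congr rfl (fun g _ => h2 g), Finset.sum_const, Finset.card_univ, Fintype.card_perm,
    nsmul_eq_mul]
  field_simp

/-- products of class averages -/
noncomputable def C4_U : (s : ℕ) → (Fin s → Perm A) → Perm A → ℝ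
  | 0, _ => fun w => if w = 1 then 1 else 0
  | s + 1, w => conv (C4_u (w 0)) (C4_U s (fun i => w i.succ))

theorem C4_U_nonneg : ∀ (s : ℕ) (w : Fin s → Perm A) (v : Perm A), 0 ≤ C4_U s w v
  | 0, _, v => by simp only [C4_U]; split <;> norm_num
  | s + 1, w, v => Finset.sum_nonneg fun u _ => mul_nonneg (C4_u_nonneg _ _) (C4_U_nonneg s _ _)

theorem C4_U_sum : ∀ (s : ℕ) (w : Fin s → Perm A), ∑ v, C4_U s w v = 1
  | 0, _ => by simp [C4_U]
  | s + 1, w => by
    rw [C4_U, conv_sum, C4_u_sum, C4_U_sum s, one_mul]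

theorem C4_U_le : ∀ (s : ℕ) (w : Fin s → Perm A) (v : Perm A) (i : Fin s),
    C4_U s w v ≤ (fixN (Fintype.card A) (w i) : ℝ) / ((Fintype.card A).factorial : ℝ)
  | 0, _, _, i => i.elim0
  | s + 1, w, v, i => by
    refine Fin.cases ?_ (fun j => ?_) i
    · simp only [C4_U, conv]
      calc ∑ u, C4_u (w 0) u * C4_U s (fun i => w i.succ) (u⁻¹ * v)
          ≤ ∑ u : Perm A, (fixN (Fintype.card A) (w 0) : ℝ) / ((Fintype.card A).factorial : ℝ) *
              C4_U s (fun i => w i.succ) (u⁻¹ * v) :=
            Finset.sum_le_sum fun u _ =>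
              mul_le_mul_of_nonneg_right (C4_u_le _ _) (C4_U_nonneg _ _ _)
        _ = (fixN (Fintype.card A) (w 0) : ℝ) / ((Fintype.card A).factorial : ℝ) := by
            rw [← Finset.mul_sum]
            have : ∑ u : Perm A, C4_U s (fun i => w i.succ) (u⁻¹ * v) = 1 := by
              rw [← C4_U_sum s (fun i => w i.succ)]
              exact Equiv.sum_comp ((Equiv.inv (Perm A)).trans (Equiv.mulRight v)) _
            rw [this, mul_one]
    · simp only [C4_U, conv]
      calc ∑ u, C4_u (w 0) u * C4_U s (fun i => w i.succ) (u⁻¹ * v)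
          ≤ ∑ u : Perm A, C4_u (w 0) u *
              ((fixN (Fintype.card A) (w j.succ) : ℝ) / ((Fintype.card A).factorial : ℝ)) :=
            Finset.sum_le_sum fun u _ =>
              mul_le_mul_of_nonneg_left (C4_U_le s (fun i => w i.succ) _ j) (C4_u_nonneg _ _)
        _ = (fixN (Fintype.card A) (w j.succ) : ℝ) / ((Fintype.card A).factorial : ℝ) := by
            rw [← Finset.sum_mul, C4_u_sum, one_mul]

theorem C4_expand (a : Perm A → ℝ) (hcl : ∀ g w, a (g * w * g⁻¹) = a w) :
    ∀ (s : ℕ) (v : Perm A), cpow a s v = ∑ w : Fin s → Perm A, (∏ i, a (w i)) * C4_U s w v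
  | 0, v => by simp [cpow, C4_U]
  | s + 1, v => by
    rw [cpow]
    have h1 : ∀ w : Fin (s + 1) → Perm A, (∏ i, a (w i)) * C4_U (s + 1) w v =
        (fun p : Perm A × (Fin s → Perm A) =>
          ∑ u, (a p.1 * C4_u p.1 u) * ((∏ i, a (p.2 i)) * C4_U s p.2 (u⁻¹ * v)))
        (w 0, fun i => w i.succ) := by
      intro w
      rw [Fin.prod_univ_succ]
      simp only [C4_U, conv]
      rw [Finset.mul_sum]
      apply Finset.sum_congr rfl; intro u _
      ring
    rw [Finset.sum_congr rfl (fun w _ => h1 w)]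
    have h2 : ∑ w : Fin (s + 1) → Perm A, (fun p : Perm A × (Fin s → Perm A) =>
          ∑ u, (a p.1 * C4_u p.1 u) * ((∏ i, a (p.2 i)) * C4_U s p.2 (u⁻¹ * v)))
        (w 0, fun i => w i.succ) = ∑ p : Perm A × (Fin s → Perm A),
          ∑ u, (a p.1 * C4_u p.1 u) * ((∏ i, a (p.2 i)) * C4_U s p.2 (u⁻¹ * v)) :=
      Equiv.sum_comp (Fin.consEquiv (fun _ => Perm A)).symm
        (fun p : Perm A × (Fin s → Perm A) =>
          ∑ u, (a p.1 * C4_u p.1 u) * ((∏ i, a (p.2 i)) * C4_U s p.2 (u⁻¹ * v)))
    rw [h2, Finset.sum_comm]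
    unfold conv
    apply Finset.sum_congr rfl; intro u _
    rw [Fintype.sum_prod_type]
    simp only []
    rw [C4_decomp a hcl u, Finset.sum_mul]
    apply Finset.sum_congr rfl; intro w _
    rw [C4_expand a hcl s, Finset.mul_sum]

theorem C4_trace {A : Type*} [Fintype A] [DecidableEq A] (a : Perm A → ℝ) (ha : ∀ w, 0 ≤ a w)
    (hcl : ∀ g w, a (g * w * g⁻¹) = a w) (x s : ℕ) (hn : Fintype.card A ≤ x ^ s) (hs : 0 < s) :
    ((Fintype.card A).factorial : ℝ) * cpow a s 1 ≤ (∑ w, a w * (fixN x w : ℝ)) ^ s := by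
  rw [C4_expand a hcl, Finset.mul_sum]
  have hR : (∑ w, a w * (fixN x w : ℝ)) ^ s =
      ∑ w : Fin s → Perm A, ∏ i, (a (w i) * (fixN x (w i) : ℝ)) := by
    rw [Fintype.sum_pow]
  rw [hR]
  apply Finset.sum_le_sum; intro w _
  rw [Finset.prod_mul_distrib]
  have hN : (0 : ℝ) < ((Fintype.card A).factorial : ℝ) := by positivity
  have key : ((Fintype.card A).factorial : ℝ) * C4_U s w 1 ≤ ∏ i, (fixN x (w i) : ℝ) := by
    have h0 : 0 ≤ ((Fintype.card A).factorial : ℝ) * C4_U s w 1 :=
      mul_nonneg hN.le (C4_U_nonneg _ _ _)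
    have h1 : ∀ i : Fin s, ((Fintype.card A).factorial : ℝ) * C4_U s w 1 ≤ (fixN x (w i) : ℝ) ^ s := by
      intro i
      have := C4_U_le s w 1 i
      rw [le_div_iff₀ hN] at this
      have h2 : (fixN (Fintype.card A) (w i) : ℝ) ≤ (fixN x (w i) : ℝ) ^ s := by
        exact_mod_cast (C4_fix_mono hn (w i)).trans (C4_fix_pow x s (w i))
      linarith
    have h3 : (((Fintype.card A).factorial : ℝ) * C4_U s w 1) ^ s ≤
        (∏ i, (fixN x (w i) : ℝ)) ^ s := by
      rw [← Finset.prod_pow]
      calc (((Fintype.card A).factorial : ℝ) * C4_U s w 1) ^ s =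
          ∏ _i : Fin s, (((Fintype.card A).factorial : ℝ) * C4_U s w 1) := by
            rw [Finset.prod_const, Finset.card_univ, Fintype.card_fin]
        _ ≤ _ := Finset.prod_le_prod (fun _ _ => h0) (fun i _ => h1 i)
    exact le_of_pow_le_pow_left₀ hs.ne' (Finset.prod_nonneg fun i _ => by positivity) h3
  calc ((Fintype.card A).factorial : ℝ) * ((∏ i, a (w i)) * C4_U s w 1)
      = (∏ i, a (w i)) * (((Fintype.card A).factorial : ℝ) * C4_U s w 1) := by ring
    _ ≤ (∏ i, a (w i)) * ∏ i, (fixN x (w i) : ℝ) :=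
        mul_le_mul_of_nonneg_left key (Finset.prod_nonneg fun i _ => ha _)

end C4

end Crest.Agent.S0222
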