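import Crest.Agent.S0222_Defs

/-! S0222, task C5: abstract spectral estimate (helper29). -/

set_option autoImplicit false

namespace Crest.Agent.S0222

open Finset

section C5
variable {H : Type*} [NormedAddCommGroup H] [InnerProductSpace ℝ H]

theorem C5_pow_apply (M : H →ₗ[ℝ] H) (v : H) (l : ℝ) (h : M v = l • v) (r : ℕ) :
    (M ^ r) v = l ^ r • v := by
  induction r with
  | zero => simp
  | succ r ih => rw [pow_succ', Module.End.mul_apply, ih, map_smul, h, smul_smul, ← pow_succ]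

variable [FiniteDimensional ℝ H]

theorem C5_trace_pow (T : H →ₗ[ℝ] H) (hT : T.IsSymmetric) (r : ℕ) :
    LinearMap.trace ℝ H (T ^ r) = ∑ i, (hT.eigenvalues rfl i) ^ r := by
  rw [LinearMap.trace_eq_sum_inner _ (hT.eigenvectorBasis rfl)]
  apply Finset.sum_congr rfl
  intro i _
  have h := hT.apply_eigenvectorBasis rfl i
  rw [C5_pow_apply T _ _ h, inner_smul_right, real_inner_self_eq_norm_sq,
    (hT.eigenvectorBasis rfl).orthonormal.1 i]
  simp

/-- trace of a power on an invariant subspace -/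
noncomputable def C5_tr (M : H →ₗ[ℝ] H) (W : Submodule ℝ H) (hW : ∀ v ∈ W, M v ∈ W) (r : ℕ) : ℝ :=
  LinearMap.trace ℝ W ((M.restrict hW) ^ r)

theorem C5_tr_nonneg (M : H →ₗ[ℝ] H) (hM : M.IsSymmetric) (W : Submodule ℝ H)
    (hW : ∀ v ∈ W, M v ∈ W) (r : ℕ) (hr : Even r) : 0 ≤ C5_tr M W hW r := by
  unfold C5_tr
  rw [C5_trace_pow _ (hM.restrict_invariant hW)]
  exact Finset.sum_nonneg (fun i _ => hr.pow_nonneg _)

theorem C5_eig (M : H →ₗ[ℝ] H) (hM : M.IsSymmetric) (W : Submodule ℝ H)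
    (hW : ∀ v ∈ W, M v ∈ W) (i : Fin (Module.finrank ℝ W)) :
    ∃ v : H, v ∈ W ∧ v ≠ 0 ∧ M v = ((hM.restrict_invariant hW).eigenvalues rfl i) • v := by
  have h := (hM.restrict_invariant hW).apply_eigenvectorBasis rfl i
  refine ⟨((hM.restrict_invariant hW).eigenvectorBasis rfl i : W), Subtype.coe_prop _, ?_, ?_⟩
  · intro h0
    have h1 := ((hM.restrict_invariant hW).eigenvectorBasis rfl).orthonormal.1 i
    have h2 : ((hM.restrict_invariant hW).eigenvectorBasis rfl i : W) = 0 := Subtype.ext h0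
    rw [h2] at h1
    simp at h1
  · exact congrArg (Subtype.val) h

omit [FiniteDimensional ℝ H] in
theorem C5_inv_orth (M : H →ₗ[ℝ] H) (hM : M.IsSymmetric) {J : Type*}
    (V : J → Submodule ℝ H) (hV : ∀ j, ∀ v ∈ V j, M v ∈ V j) :
    ∀ v ∈ (⨆ j, V j)ᗮ, M v ∈ (⨆ j, V j)ᗮ := by
  intro v hv
  rw [Submodule.mem_orthogonal] at hv ⊢
  intro u hu
  rw [← hM u v]
  apply hv
  have : (⨆ j, V j) ≤ (⨆ j, V j).comap M := by
    apply iSup_le
    intro j x hx
    exact Submodule.mem_iSup_of_mem j (hV j x hx)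
  exact this hu

theorem C5_decomp (M : H →ₗ[ℝ] H) (hM : M.IsSymmetric) {J : Type*} [Fintype J] [DecidableEq J]
    (V : J → Submodule ℝ H) (hV : ∀ j, ∀ v ∈ V j, M v ∈ V j)
    (horth : ∀ i j, i ≠ j → ∀ u ∈ V i, ∀ v ∈ V j, inner ℝ u v = 0) (r : ℕ) :
    LinearMap.trace ℝ H (M ^ r) = ∑ j, C5_tr M (V j) (hV j) r
       + C5_tr M (⨆ j, V j)ᗮ (C5_inv_orth M hM V hV) r := by
  set N : Option J → Submodule ℝ H := fun o => o.elim ((⨆ j, V j)ᗮ) V with hN
  have hOF : OrthogonalFamily ℝ (fun i => N i) fun i => (N i).subtypeₗᵢ := by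
    intro i j hij u v
    rcases i with _ | i <;> rcases j with _ | j
    · exact absurd rfl hij
    · have hu : (u : H) ∈ (⨆ j, V j)ᗮ := u.2
      have hv : (v : H) ∈ V j := v.2
      show inner ℝ (u : H) (v : H) = 0
      rw [real_inner_comm]
      exact (Submodule.mem_orthogonal _ _).mp hu _ (Submodule.mem_iSup_of_mem j hv)
    · have hu : (u : H) ∈ V i := u.2
      have hv : (v : H) ∈ (⨆ j, V j)ᗮ := v.2
      show inner ℝ (u : H) (v : H) = 0
      exact (Submodule.mem_orthogonal _ _).mp hv _ (Submodule.mem_iSup_of_mem i hu)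
    · have hu : (u : H) ∈ V i := u.2
      have hv : (v : H) ∈ V j := v.2
      show inner ℝ (u : H) (v : H) = 0
      exact horth i j (fun h => hij (by rw [h])) _ hu _ hv
  have hint : DirectSum.IsInternal N := by
    rw [hOF.isInternal_iff]
    rw [Submodule.eq_bot_iff]
    intro x hx
    have h1 : x ∈ (⨆ j, V j)ᗮ := by
      rw [Submodule.mem_orthogonal] at hx ⊢
      intro u hu
      apply hx
      have : (⨆ j, V j) ≤ iSup N := iSup_le (fun j => le_iSup N (some j))
      exact this hu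
    have h2 : x ∈ iSup N := Submodule.mem_iSup_of_mem (none : Option J) h1
    have := (Submodule.mem_orthogonal _ _).mp hx x h2
    exact inner_self_eq_zero.mp this
  have hf : ∀ i, Set.MapsTo M (N i) (N i) := by
    intro i
    rcases i with _ | i
    · exact C5_inv_orth M hM V hV
    · exact hV i
  have hfr : ∀ i, Set.MapsTo (M ^ r) (N i) (N i) := by
    intro i
    induction r with
    | zero => intro x hx; simpa using hx
    | succ r ih =>
      intro x hx
      rw [pow_succ', Module.End.mul_apply]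
      exact hf i (ih hx)
  rw [LinearMap.trace_eq_sum_trace_restrict hint hfr, Fintype.sum_option, add_comm]
  congr 1
  · apply Finset.sum_congr rfl
    intro j _
    unfold C5_tr
    rw [Module.End.pow_restrict]
    rfl
  · unfold C5_tr
    rw [Module.End.pow_restrict]
    rfl

/-- C5 (medium-hard, linear algebra). -/
theorem C5_spectral {H : Type*} [NormedAddCommGroup H] [InnerProductSpace ℝ H]
    [FiniteDimensional ℝ H] (M : H →ₗ[ℝ] H) (hM : M.IsSymmetric) {J : Type*} [Fintype J]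
    [DecidableEq J]
    (V : J → Submodule ℝ H) (hV : ∀ j, ∀ v ∈ V j, M v ∈ V j)
    (horth : ∀ i j, i ≠ j → ∀ u ∈ V i, ∀ v ∈ V j, inner ℝ u v = 0)
    (α : J → ℝ) (hα : ∀ j, ∀ v ∈ V j, v ≠ 0 → ∀ l : ℝ, M v = l • v → |l| ≤ α j)
    (q : ℕ) (hq : 0 < q)
    (hU : ∀ l : ℝ, ∀ v : H, v ≠ 0 → M v = l • v → (∀ j, ∀ u ∈ V j, inner ℝ u v = 0) →
      q ≤ Module.finrank ℝ
        ((Module.End.eigenspace M l ⊓ (⨆ j, V j)ᗮ : Submodule ℝ H)))
    (s : ℕ) (hs : Even s) (hs0 : 0 < s) :
    LinearMap.trace ℝ H (M ^ (2 * s)) ≤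
      ∑ j, (Module.finrank ℝ (V j) : ℝ) * α j ^ (2 * s) + (LinearMap.trace ℝ H (M ^ s)) ^ 2 / q := by
  have hUinv := C5_inv_orth M hM V hV
  set U : Submodule ℝ H := (⨆ j, V j)ᗮ with hUdef
  set τ : ℝ := LinearMap.trace ℝ H (M ^ s) with hτ
  have h2s : Even (2 * s) := even_two_mul s
  have hq' : (0:ℝ) < q := by exact_mod_cast hq
  -- step 1: q l^s ≤ τ for eigenvalues on U
  have key : ∀ l : ℝ, ∀ v ∈ U, v ≠ 0 → M v = l • v → (q : ℝ) * l ^ s ≤ τ := by
    intro l v hv hv0 hl
    have hort : ∀ j, ∀ u ∈ V j, inner ℝ u v = 0 := by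
      intro j u hu
      exact (Submodule.mem_orthogonal _ _).mp hv u (Submodule.mem_iSup_of_mem j hu)
    have hqd := hU l v hv0 hl hort
    set E : Submodule ℝ H := Module.End.eigenspace M l ⊓ U with hE
    have hEinv : ∀ v ∈ E, M v ∈ E := by
      intro v hv
      rw [hE, Submodule.mem_inf, Module.End.mem_eigenspace_iff] at hv ⊢
      refine ⟨?_, hUinv v hv.2⟩
      rw [hv.1, map_smul, hv.1]
    have hdec := C5_decomp M hM (fun _ : Unit => E) (fun _ => hEinv)
      (fun i j hij => absurd (Subsingleton.elim i j) hij) s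
    have h1 := C5_tr_nonneg M hM _ (C5_inv_orth M hM (fun _ : Unit => E) (fun _ => hEinv)) s hs
    have h2 : C5_tr M E hEinv s = (Module.finrank ℝ E : ℝ) * l ^ s := by
      unfold C5_tr
      rw [C5_trace_pow _ (hM.restrict_invariant hEinv)]
      have : ∀ i, (hM.restrict_invariant hEinv).eigenvalues rfl i = l := by
        intro i
        obtain ⟨w, hw, hw0, hwl⟩ := C5_eig M hM E hEinv i
        rw [hE, Submodule.mem_inf, Module.End.mem_eigenspace_iff] at hw
        rw [hw.1] at hwl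
        exact (smul_left_injective ℝ hw0 hwl).symm
      rw [Finset.sum_congr rfl (fun i _ => by rw [this i])]
      simp
    have h3 : (q : ℝ) * l ^ s ≤ (Module.finrank ℝ E : ℝ) * l ^ s :=
      mul_le_mul_of_nonneg_right (by exact_mod_cast hqd) (hs.pow_nonneg l)
    rw [hτ, hdec]
    simp only [Finset.univ_unique, Finset.sum_singleton]
    linarith
  -- step 2: the trace on U of M^s is at most τ
  have hUs : C5_tr M U hUinv s ≤ τ := by
    have hdec := C5_decomp M hM V hV horth s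
    have : 0 ≤ ∑ j, C5_tr M (V j) (hV j) s :=
      Finset.sum_nonneg (fun j _ => C5_tr_nonneg M hM _ (hV j) s hs)
    rw [hτ, hdec]
    linarith
  have hUs0 : 0 ≤ C5_tr M U hUinv s := C5_tr_nonneg M hM _ hUinv s hs
  have hτ0 : 0 ≤ τ := hUs0.trans hUs
  -- step 3
  have hU2 : C5_tr M U hUinv (2 * s) ≤ τ ^ 2 / q := by
    have e : C5_tr M U hUinv (2 * s) ≤ (τ / q) * C5_tr M U hUinv s := by
      unfold C5_tr
      rw [C5_trace_pow _ (hM.restrict_invariant hUinv), C5_trace_pow _ (hM.restrict_invariant hUinv),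
        Finset.mul_sum]
      apply Finset.sum_le_sum
      intro i _
      obtain ⟨w, hw, hw0, hwl⟩ := C5_eig M hM U hUinv i
      have hk := key _ w hw hw0 hwl
      set l := (hM.restrict_invariant hUinv).eigenvalues rfl i with hl
      have : l ^ (2 * s) = l ^ s * l ^ s := by rw [two_mul, pow_add]
      rw [this]
      apply mul_le_mul_of_nonneg_right _ (hs.pow_nonneg l)
      rw [le_div_iff₀ hq']
      linarith
    calc C5_tr M U hUinv (2 * s) ≤ (τ / q) * C5_tr M U hUinv s := e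
      _ ≤ (τ / q) * τ := mul_le_mul_of_nonneg_left hUs (by positivity)
      _ = τ ^ 2 / q := by ring
  -- step 4: the blocks V j
  have hV2 : ∀ j, C5_tr M (V j) (hV j) (2 * s) ≤ (Module.finrank ℝ (V j) : ℝ) * α j ^ (2 * s) := by
    intro j
    unfold C5_tr
    rw [C5_trace_pow _ (hM.restrict_invariant (hV j))]
    calc ∑ i, (hM.restrict_invariant (hV j)).eigenvalues rfl i ^ (2 * s)
        ≤ ∑ i : Fin (Module.finrank ℝ (V j)), α j ^ (2 * s) := by
          apply Finset.sum_le_sum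
          intro i _
          obtain ⟨w, hw, hw0, hwl⟩ := C5_eig M hM (V j) (hV j) i
          have h1 := hα j w hw hw0 _ hwl
          rw [← h2s.pow_abs]
          exact pow_le_pow_left₀ (abs_nonneg _) h1 _
      _ = _ := by simp
  rw [C5_decomp M hM V hV horth (2 * s)]
  exact add_le_add (Finset.sum_le_sum (fun j _ => hV2 j)) hU2

end C5

end Crest.Agent.S0222
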