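import Crest.Agent.S0222_C6
import Crest.Agent.S0222_C1
import Crest.Agent.S0222_C3
import Crest.Agent.S0222_C4
import Crest.Agent.S0222_C5

/-! C7 (helper44): main theorem of module C. -/

set_option autoImplicit false

namespace Crest.Agent.S0222

open Finset Equiv

section C7
variable {A : Type*} [Fintype A] [DecidableEq A]

/-! #### plain function facts -/

theorem C7_conv_add (b f h : Perm A → ℝ) : conv b (f + h) = conv b f + conv b h := by
  funext g
  simp only [conv, Pi.add_apply, mul_add, Finset.sum_add_distrib]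

theorem C7_conv_smul (b f : Perm A → ℝ) (c : ℝ) : conv b (c • f) = c • conv b f := by
  funext g
  simp only [conv, Pi.smul_apply, smul_eq_mul, Finset.mul_sum]
  apply Finset.sum_congr rfl
  intro u _
  ring

/-- left convolution as a linear map -/
def C7convL (b : Perm A → ℝ) : (Perm A → ℝ) →ₗ[ℝ] (Perm A → ℝ) where
  toFun f := conv b f
  map_add' f h := C7_conv_add b f h
  map_smul' c f := C7_conv_smul b f c

theorem C7_conv_cyl {k : ℕ} (b : Perm A → ℝ) (x y : Fin k → A) :
    conv b (cyl x y) = ∑ w, b w • cyl x (fun i => w (y i)) := by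
  funext g
  rw [Finset.sum_apply]
  unfold conv
  apply Finset.sum_congr rfl
  intro w _
  rw [Pi.smul_apply, smul_eq_mul]
  congr 1
  have := cyl_translate x y w⁻¹ g
  rw [inv_inv] at this
  exact this.symm

/-- span of the cylinders with `k` labels -/
def C7W (A : Type*) [Fintype A] [DecidableEq A] (k : ℕ) : Submodule ℝ (Perm A → ℝ) :=
  Submodule.span ℝ (Set.range (fun p : (Fin k → A) × (Fin k → A) => cyl p.1 p.2))

theorem C7_cyl_mem {k : ℕ} (x y : Fin k → A) : cyl x y ∈ C7W A k :=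
  Submodule.subset_span ⟨(x, y), rfl⟩

theorem C7_conv_mem (k : ℕ) (b f : Perm A → ℝ) (hf : f ∈ C7W A k) : conv b f ∈ C7W A k := by
  induction hf using Submodule.span_induction with
  | mem u h =>
    obtain ⟨p, rfl⟩ := h
    show conv b (cyl p.1 p.2) ∈ C7W A k
    rw [C7_conv_cyl]
    exact Submodule.sum_mem _ (fun w _ => Submodule.smul_mem _ _ (C7_cyl_mem _ _))
  | zero =>
    have : conv b (0 : Perm A → ℝ) = 0 := by
      funext g
      simp [conv]
    rw [this]
    exact Submodule.zero_mem _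
  | add u v _ _ hu hv =>
    rw [C7_conv_add]
    exact Submodule.add_mem _ hu hv
  | smul c u _ hu =>
    rw [C7_conv_smul]
    exact Submodule.smul_mem _ _ hu

theorem C7_W_mono [Nonempty A] (k : ℕ) : C7W A k ≤ C7W A (k + 1) := by
  unfold C7W
  rw [Submodule.span_le]
  rintro _ ⟨p, rfl⟩
  obtain ⟨a0⟩ := ‹Nonempty A›
  have h : cyl p.1 p.2 = ∑ b : A, cyl (Fin.snoc p.1 a0 : Fin (k + 1) → A)
      (Function.update (Fin.snoc p.2 a0 : Fin (k + 1) → A) (Fin.last k) b) := by
    funext g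
    rw [Finset.sum_apply, C6_sum_update]
    have e1 : (Fin.snoc p.1 a0 : Fin (k + 1) → A) ∘ (Fin.last k).succAbove = p.1 := by
      funext i
      simp [Fin.succAbove_last]
    have e2 : (Fin.snoc p.2 a0 : Fin (k + 1) → A) ∘ (Fin.last k).succAbove = p.2 := by
      funext i
      simp [Fin.succAbove_last]
    rw [e1, e2]
  show cyl p.1 p.2 ∈ C7W A (k + 1)
  rw [h]
  exact Submodule.sum_mem _ (fun b _ => C7_cyl_mem _ _)

theorem C7_W_mono' [Nonempty A] {k l : ℕ} (h : k ≤ l) : C7W A k ≤ C7W A l := by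
  induction h with
  | refl => exact le_refl _
  | step _ ih => exact ih.trans (C7_W_mono _)

theorem C7_finrank_W (k : ℕ) :
    Module.finrank ℝ (C7W A k) ≤ (Fintype.card A) ^ (2 * k) := by
  unfold C7W
  refine (finrank_range_le_card _).trans ?_
  rw [Fintype.card_prod, Fintype.card_fun, Fintype.card_fin, ← pow_add, two_mul]

theorem C7_conv_symm (b : Perm A → ℝ) (hinv : ∀ w, b w⁻¹ = b w) (f h : Perm A → ℝ) :
    ∑ g, conv b f g * h g = ∑ g, f g * conv b h g := by
  have h1 : ∑ g, conv b f g * h g = ∑ u, ∑ g, b u * f g * h (u * g) := by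
    simp only [conv, Finset.sum_mul]
    rw [Finset.sum_comm]
    apply Finset.sum_congr rfl
    intro u _
    rw [← Equiv.sum_comp (Equiv.mulLeft u)]
    apply Finset.sum_congr rfl
    intro g _
    simp
  have h2 : ∑ g, f g * conv b h g = ∑ u, ∑ g, b u * f g * h (u * g) := by
    simp only [conv, Finset.mul_sum]
    rw [Finset.sum_comm, ← Equiv.sum_comp (Equiv.inv (Perm A))]
    apply Finset.sum_congr rfl
    intro u _
    apply Finset.sum_congr rfl
    intro g _
    simp only [Equiv.inv_apply, inv_inv, hinv]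
    ring
  rw [h1, h2]

/-- the real valued sign -/
noncomputable def C7sgn (g : Perm A) : ℝ := ((Perm.sign g : ℤ) : ℝ)

theorem C7sgn_mul (g h : Perm A) : C7sgn (g * h) = C7sgn g * C7sgn h := by
  unfold C7sgn
  rw [Perm.sign_mul]
  push_cast
  rfl

theorem C7sgn_sq (g : Perm A) : C7sgn g * C7sgn g = 1 := by
  unfold C7sgn
  rcases Int.units_eq_one_or (Perm.sign g) with h | h <;> rw [h] <;> norm_num

theorem C7sgn_inv (g : Perm A) : C7sgn g⁻¹ = C7sgn g := by
  unfold C7sgn
  rw [Perm.sign_inv]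

theorem C7sgn_abs (g : Perm A) : |C7sgn g| = 1 := by
  unfold C7sgn
  rcases Int.units_eq_one_or (Perm.sign g) with h | h <;> rw [h] <;> norm_num

theorem C7sgn_conj (g w : Perm A) : C7sgn (g * w * g⁻¹) = C7sgn w := by
  rw [C7sgn_mul, C7sgn_mul, C7sgn_inv]
  have := C7sgn_sq g
  calc C7sgn g * C7sgn w * C7sgn g = (C7sgn g * C7sgn g) * C7sgn w := by ring
    _ = _ := by rw [this, one_mul]

/-- multiplication by the sign -/
noncomputable def C7sgnL : (Perm A → ℝ) ≃ₗ[ℝ] (Perm A → ℝ) :=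
  LinearEquiv.ofInvolutive
    { toFun := fun f g => C7sgn g * f g
      map_add' := fun f h => by funext g; simp [mul_add]
      map_smul' := fun c f => by funext g; simp; ring }
    (fun f => by
      funext g
      show C7sgn g * (C7sgn g * f g) = f g
      rw [← mul_assoc, C7sgn_sq, one_mul])

theorem C7sgnL_apply (f : Perm A → ℝ) (g : Perm A) : C7sgnL f g = C7sgn g * f g := rfl

/-- `conv a (sgn f) = sgn conv (a sgn) f` -/
theorem C7_conv_sgn (a f : Perm A → ℝ) :
    conv a (C7sgnL f) = C7sgnL (conv (fun w => a w * C7sgn w) f) := by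
  funext g
  rw [C7sgnL_apply]
  unfold conv
  rw [Finset.mul_sum]
  apply Finset.sum_congr rfl
  intro u _
  rw [C7sgnL_apply, C7sgn_mul, C7sgn_inv]
  ring

/-- cylinders are orthogonal to signed cylinders -/
theorem C7_cyl_sgn {k : ℕ} (hk : 2 * k + 2 ≤ Fintype.card A) (x y x' y' : Fin k → A) :
    ∑ g, cyl x y g * (C7sgn g * cyl x' y' g) = 0 := by
  -- two elements outside the labels
  have hcard : 1 < ((univ.image x ∪ univ.image x')ᶜ : Finset A).card := by
    rw [Finset.card_compl]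
    have h1 : (univ.image x).card ≤ k := Finset.card_image_le.trans (by simp)
    have h2 : (univ.image x').card ≤ k := Finset.card_image_le.trans (by simp)
    have h3 := Finset.card_union_le (univ.image x) (univ.image x')
    omega
  obtain ⟨p, hp, q, hq, hpq⟩ := Finset.one_lt_card.1 hcard
  rw [Finset.mem_compl, Finset.mem_union, not_or] at hp hq
  have hfix : ∀ (x : Fin k → A), (∀ i, x i ≠ p) → (∀ i, x i ≠ q) → ∀ y g,
      cyl x y (g * Equiv.swap p q) = cyl x y g := by
    intro x h1 h2 y g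
    unfold cyl
    have : ∀ i, (g * Equiv.swap p q) (x i) = g (x i) := by
      intro i
      rw [Perm.mul_apply, Equiv.swap_apply_of_ne_of_ne (h1 i) (h2 i)]
    simp only [this]
  have hx1 : ∀ i, x i ≠ p := fun i h => hp.1 (Finset.mem_image.2 ⟨i, Finset.mem_univ _, h⟩)
  have hx2 : ∀ i, x i ≠ q := fun i h => hq.1 (Finset.mem_image.2 ⟨i, Finset.mem_univ _, h⟩)
  have hx3 : ∀ i, x' i ≠ p := fun i h => hp.2 (Finset.mem_image.2 ⟨i, Finset.mem_univ _, h⟩)
  have hx4 : ∀ i, x' i ≠ q := fun i h => hq.2 (Finset.mem_image.2 ⟨i, Finset.mem_univ _, h⟩)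
  have hsw : C7sgn (Equiv.swap p q) = -1 := by
    unfold C7sgn
    rw [Perm.sign_swap hpq]
    norm_num
  have key : ∑ g, cyl x y g * (C7sgn g * cyl x' y' g) =
      - ∑ g, cyl x y g * (C7sgn g * cyl x' y' g) := by
    conv_lhs => rw [← Equiv.sum_comp (Equiv.mulRight (Equiv.swap p q))]
    rw [← Finset.sum_neg_distrib]
    apply Finset.sum_congr rfl
    intro g _
    simp only [Equiv.coe_mulRight]
    rw [hfix x hx1 hx2, hfix x' hx3 hx4, C7sgn_mul, hsw]
    ring
  linarith

theorem C7_W_sgn {k : ℕ} (hk : 2 * k + 2 ≤ Fintype.card A) (u v : Perm A → ℝ)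
    (hu : u ∈ C7W A k) (hv : v ∈ C7W A k) :
    ∑ g, u g * (C7sgn g * v g) = 0 := by
  induction hu using Submodule.span_induction with
  | mem u h =>
    obtain ⟨p, rfl⟩ := h
    induction hv using Submodule.span_induction with
    | mem v h' =>
      obtain ⟨p', rfl⟩ := h'
      exact C7_cyl_sgn hk _ _ _ _
    | zero => simp
    | add v v' _ _ hv hv' =>
      simp only [Pi.add_apply, mul_add, Finset.sum_add_distrib]
      rw [hv, hv', add_zero]
    | smul c v _ hv =>
      simp only [Pi.smul_apply, smul_eq_mul]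
      have : ∀ g, cyl p.1 p.2 g * (C7sgn g * (c * v g)) =
        c * (cyl p.1 p.2 g * (C7sgn g * v g)) := fun g => by ring
      simp only [this, ← Finset.mul_sum]
      rw [hv, mul_zero]
  | zero => simp
  | add u u' _ _ hu hu' =>
    simp only [Pi.add_apply, add_mul, Finset.sum_add_distrib]
    rw [hu, hu', add_zero]
  | smul c u _ hu =>
    simp only [Pi.smul_apply, smul_eq_mul, mul_assoc, ← Finset.mul_sum]
    rw [hu, mul_zero]

/-- functions in `W 0` are constant -/
theorem C7_W_zero (f : Perm A → ℝ) (hf : f ∈ C7W A 0) (g g' : Perm A) : f g = f g' := by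
  induction hf using Submodule.span_induction with
  | mem u h =>
    obtain ⟨p, rfl⟩ := h
    simp [cyl]
  | zero => rfl
  | add u v _ _ hu hv => simp only [Pi.add_apply, hu, hv]
  | smul c u _ hu => simp only [Pi.smul_apply, hu]

theorem C7_conv_W_zero (b f : Perm A → ℝ) (hf : f ∈ C7W A 0) :
    conv b f = (∑ w, b w) • f := by
  funext g
  rw [Pi.smul_apply, smul_eq_mul, Finset.sum_mul]
  unfold conv
  apply Finset.sum_congr rfl
  intro w _
  rw [C7_W_zero f hf (w⁻¹ * g) g]

theorem C7_eig (k : ℕ) (b : Perm A → ℝ) (hcl : ∀ g w, b (g * w * g⁻¹) = b w)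
    (hk : 2 * (k + 1) ≤ Fintype.card A) (f : Perm A → ℝ) (hf : f ∈ C7W A (k + 1))
    (hne : f ≠ 0) (hperp : ∀ u ∈ C7W A k, ∑ g, f g * u g = 0) (l : ℝ)
    (heig : conv b f = l • f) :
    |l| ≤ ∑ w, |b w| * hitW (k + 1) w := by
  obtain ⟨φ, hφ, hinj, harm, heφ⟩ := C6_extract k b f l
    (fun g => by
      have := congrFun heig g
      simpa [conv] using this) hne hf (fun x y => hperp _ (C7_cyl_mem x y))
  have h1 := C1_harmonic (k + 1) hk φ hinj harm b hcl
  have h2 : ∑ w, b w * ∑ z : Fin (k + 1) → A, φ z * φ (fun i => w⁻¹ (z i)) =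
      l * ∑ z : Fin (k + 1) → A, φ z ^ 2 := by
    simp only [Finset.mul_sum]
    rw [Finset.sum_comm]
    apply Finset.sum_congr rfl
    intro z _
    have h3 : ∀ w, b w * (φ z * φ (fun i => w⁻¹ (z i))) =
        φ z * (b w * φ (fun i => w⁻¹ (z i))) := fun w => by ring
    simp only [h3, ← Finset.mul_sum]
    rw [heφ z]
    ring
  rw [h2, abs_mul] at h1
  have hpos : 0 < ∑ z : Fin (k + 1) → A, φ z ^ 2 := by
    obtain ⟨z, hz⟩ := Function.ne_iff.1 hφ
    have hz' : φ z ≠ 0 := hz
    apply Finset.sum_pos' (fun z _ => sq_nonneg _)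
    exact ⟨z, Finset.mem_univ _, by positivity⟩
  rw [abs_of_pos hpos] at h1
  exact le_of_mul_le_mul_right h1 hpos

/-! #### the Euclidean space -/

/-- identification of functions with the Euclidean space -/
noncomputable def C7toH (A : Type*) [Fintype A] [DecidableEq A] :
    (Perm A → ℝ) ≃ₗ[ℝ] EuclideanSpace ℝ (Perm A) :=
  (WithLp.linearEquiv 2 ℝ (Perm A → ℝ)).symm

theorem C7_inner (u v : Perm A → ℝ) :
    inner ℝ (C7toH A u) (C7toH A v) = ∑ g, u g * v g := by
  unfold C7toH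
  rw [PiLp.inner_apply]
  apply Finset.sum_congr rfl
  intro g _
  simp
  ring

/-- the operator -/
noncomputable def C7M (a : Perm A → ℝ) :
    EuclideanSpace ℝ (Perm A) →ₗ[ℝ] EuclideanSpace ℝ (Perm A) :=
  (C7toH A).conj (C7convL a)

theorem C7M_apply (a f : Perm A → ℝ) : C7M a (C7toH A f) = C7toH A (conv a f) := by
  unfold C7M
  rw [LinearEquiv.conj_apply_apply, LinearEquiv.symm_apply_apply]
  rfl

theorem C7M_pow (a : Perm A → ℝ) (r : ℕ) : C7M a ^ r = C7M (cpow a r) := by
  induction r with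
  | zero =>
    apply LinearMap.ext
    intro v
    obtain ⟨f, rfl⟩ := (C7toH A).surjective v
    rw [C7M_apply, pow_zero]
    show C7toH A f = C7toH A (conv (fun w => if w = 1 then (1 : ℝ) else 0) f)
    rw [conv_one_left]
  | succ r ih =>
    apply LinearMap.ext
    intro v
    obtain ⟨f, rfl⟩ := (C7toH A).surjective v
    rw [pow_succ', ih, Module.End.mul_apply, C7M_apply, C7M_apply, C7M_apply]
    show _ = C7toH A (conv (conv a (cpow a r)) f)
    rw [conv_assoc]

theorem C7_trace (b : Perm A → ℝ) :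
    LinearMap.trace ℝ _ (C7M b) = ((Fintype.card A).factorial : ℝ) * b 1 := by
  unfold C7M
  rw [LinearMap.trace_conj', LinearMap.trace_eq_matrix_trace ℝ (Pi.basisFun ℝ (Perm A))]
  rw [Matrix.trace]
  have h1 : ∀ g : Perm A, Matrix.diag (LinearMap.toMatrix (Pi.basisFun ℝ (Perm A))
      (Pi.basisFun ℝ (Perm A)) (C7convL b)) g = b 1 := by
    intro g
    rw [Matrix.diag_apply, LinearMap.toMatrix_apply, Pi.basisFun_apply, Pi.basisFun_repr]
    show conv b (Pi.single g 1) g = b 1
    unfold conv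
    rw [Finset.sum_eq_single 1]
    · simp
    · intro u _ hu
      have : u⁻¹ * g ≠ g := by
        intro h
        apply hu
        have h2 : u⁻¹ = 1 := mul_eq_right.1 h
        exact inv_eq_one.1 h2
      rw [Pi.single_eq_of_ne this, mul_zero]
    · intro h
      exact absurd (Finset.mem_univ _) h
  rw [Finset.sum_congr rfl (fun g _ => h1 g), Finset.sum_const, Finset.card_univ,
    Fintype.card_perm, nsmul_eq_mul]

/-- `W k` in the Euclidean space -/
noncomputable def C7WH (A : Type*) [Fintype A] [DecidableEq A] (k : ℕ) :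
    Submodule ℝ (EuclideanSpace ℝ (Perm A)) :=
  (C7W A k).map (C7toH A : (Perm A → ℝ) →ₗ[ℝ] EuclideanSpace ℝ (Perm A))

theorem C7_mem_WH (k : ℕ) (f : Perm A → ℝ) : C7toH A f ∈ C7WH A k ↔ f ∈ C7W A k := by
  unfold C7WH
  constructor
  · intro h
    obtain ⟨u, hu, he⟩ := Submodule.mem_map.1 h
    have : u = f := (C7toH A).injective he
    rw [← this]; exact hu
  · intro h
    exact Submodule.mem_map_of_mem h

/-- multiplication by the sign on the Euclidean space -/
noncomputable def C7sgnH (A : Type*) [Fintype A] [DecidableEq A] :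
    EuclideanSpace ℝ (Perm A) ≃ₗ[ℝ] EuclideanSpace ℝ (Perm A) :=
  (C7toH A).symm.trans (C7sgnL.trans (C7toH A))

theorem C7sgnH_apply (f : Perm A → ℝ) : C7sgnH A (C7toH A f) = C7toH A (C7sgnL f) := by
  unfold C7sgnH
  simp

theorem C7_inner_sgn (u v : EuclideanSpace ℝ (Perm A)) :
    inner ℝ (C7sgnH A u) (C7sgnH A v) = inner ℝ u v := by
  obtain ⟨f, rfl⟩ := (C7toH A).surjective u
  obtain ⟨h, rfl⟩ := (C7toH A).surjective v
  rw [C7sgnH_apply, C7sgnH_apply, C7_inner, C7_inner]
  apply Finset.sum_congr rfl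
  intro g _
  rw [C7sgnL_apply, C7sgnL_apply]
  have := C7sgn_sq g
  calc C7sgn g * f g * (C7sgn g * h g) = (C7sgn g * C7sgn g) * (f g * h g) := by ring
    _ = _ := by rw [this, one_mul]

/-- the blocks -/
noncomputable def C7V (A : Type*) [Fintype A] [DecidableEq A] :
    ℕ → Submodule ℝ (EuclideanSpace ℝ (Perm A))
  | 0 => C7WH A 0
  | k + 1 => (C7WH A k)ᗮ ⊓ C7WH A (k + 1)

/-- all blocks -/
noncomputable def C7VV (A : Type*) [Fintype A] [DecidableEq A] (K : ℕ) (j : Fin (K + 1) × Bool) :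
    Submodule ℝ (EuclideanSpace ℝ (Perm A)) :=
  match j.2 with
  | false => C7V A j.1
  | true => (C7V A j.1).map (C7sgnH A : _ →ₗ[ℝ] EuclideanSpace ℝ (Perm A))

theorem C7V_le_WH (k : ℕ) : C7V A k ≤ C7WH A k := by
  cases k with
  | zero => exact le_refl _
  | succ k => exact inf_le_right

theorem C7WH_mono [Nonempty A] {k l : ℕ} (h : k ≤ l) : C7WH A k ≤ C7WH A l :=
  Submodule.map_mono (C7_W_mono' h)

theorem C7V_perp_lt [Nonempty A] {k l : ℕ} (h : k < l) (u v : EuclideanSpace ℝ (Perm A))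
    (hu : u ∈ C7V A k) (hv : v ∈ C7V A l) : inner ℝ u v = 0 := by
  cases l with
  | zero => omega
  | succ l =>
    have h1 : u ∈ C7WH A l := C7WH_mono (by omega) (C7V_le_WH k hu)
    have h2 : v ∈ (C7WH A l)ᗮ := (Submodule.mem_inf.1 hv).1
    exact (Submodule.mem_orthogonal _ _).1 h2 u h1

theorem C7V_perp [Nonempty A] {k l : ℕ} (h : k ≠ l) (u v : EuclideanSpace ℝ (Perm A))
    (hu : u ∈ C7V A k) (hv : v ∈ C7V A l) : inner ℝ u v = 0 := by
  rcases lt_or_gt_of_ne h with h | h
  · exact C7V_perp_lt h u v hu hv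
  · rw [real_inner_comm]
    exact C7V_perp_lt h v u hv hu

theorem C7V_cross {K : ℕ} [Nonempty A] (hK : 2 * K + 2 ≤ Fintype.card A) {k l : ℕ} (hk : k ≤ K)
    (hl : l ≤ K)
    (u v : EuclideanSpace ℝ (Perm A)) (hu : u ∈ C7V A k) (hv : v ∈ C7V A l) :
    inner ℝ u (C7sgnH A v) = 0 := by
  have hu' : u ∈ C7WH A K := C7WH_mono hk (C7V_le_WH k hu)
  have hv' : v ∈ C7WH A K := C7WH_mono hl (C7V_le_WH l hv)
  obtain ⟨f, rfl⟩ := (C7toH A).surjective u
  obtain ⟨h, rfl⟩ := (C7toH A).surjective v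
  rw [C7_mem_WH] at hu' hv'
  rw [C7sgnH_apply, C7_inner]
  exact C7_W_sgn hK f h hu' hv'

theorem C7VV_orth {K : ℕ} [Nonempty A] (hK : 2 * K + 2 ≤ Fintype.card A)
    (i j : Fin (K + 1) × Bool) (hij : i ≠ j) (u : EuclideanSpace ℝ (Perm A))
    (hu : u ∈ C7VV A K i) (v : EuclideanSpace ℝ (Perm A)) (hv : v ∈ C7VV A K j) :
    inner ℝ u v = 0 := by
  obtain ⟨i1, i2⟩ := i
  obtain ⟨j1, j2⟩ := j
  have hi1 := Nat.lt_succ_iff.1 i1.isLt
  have hj1 := Nat.lt_succ_iff.1 j1.isLt
  cases i2 <;> cases j2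
  · have hne : (i1 : ℕ) ≠ j1 := fun h => hij (by rw [Fin.ext h])
    exact C7V_perp hne u v hu hv
  · obtain ⟨v', hv', rfl⟩ := Submodule.mem_map.1 hv
    exact C7V_cross hK hi1 hj1 u v' hu hv'
  · obtain ⟨u', hu', rfl⟩ := Submodule.mem_map.1 hu
    rw [real_inner_comm]
    exact C7V_cross hK hj1 hi1 v u' hv hu'
  · obtain ⟨u', hu', rfl⟩ := Submodule.mem_map.1 hu
    obtain ⟨v', hv', rfl⟩ := Submodule.mem_map.1 hv
    have hne : (i1 : ℕ) ≠ j1 := fun h => hij (by rw [Fin.ext h])
    show inner ℝ (C7sgnH A u') (C7sgnH A v') = 0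
    rw [C7_inner_sgn]
    exact C7V_perp hne u' v' hu' hv'

/-! invariance -/

theorem C7_WH_inv (a : Perm A → ℝ) (k : ℕ) (v : EuclideanSpace ℝ (Perm A)) (hv : v ∈ C7WH A k) :
    C7M a v ∈ C7WH A k := by
  obtain ⟨f, rfl⟩ := (C7toH A).surjective v
  rw [C7_mem_WH] at hv
  rw [C7M_apply, C7_mem_WH]
  exact C7_conv_mem k a f hv

theorem C7M_symm (a : Perm A → ℝ) (hinv : ∀ w, a w⁻¹ = a w) : (C7M a).IsSymmetric := by
  intro u v
  obtain ⟨f, rfl⟩ := (C7toH A).surjective u
  obtain ⟨h, rfl⟩ := (C7toH A).surjective v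
  rw [C7M_apply, C7M_apply, C7_inner, C7_inner]
  exact C7_conv_symm a hinv f h

theorem C7V_inv (a : Perm A → ℝ) (hinv : ∀ w, a w⁻¹ = a w) (k : ℕ)
    (v : EuclideanSpace ℝ (Perm A)) (hv : v ∈ C7V A k) :
    C7M a v ∈ C7V A k := by
  cases k with
  | zero => exact C7_WH_inv a 0 v hv
  | succ k =>
    obtain ⟨h1, h2⟩ := Submodule.mem_inf.1 hv
    refine Submodule.mem_inf.2 ⟨?_, C7_WH_inv a (k + 1) v h2⟩
    rw [Submodule.mem_orthogonal]
    intro u hu
    rw [← C7M_symm a hinv u v]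
    exact (Submodule.mem_orthogonal _ _).1 h1 _ (C7_WH_inv a k u hu)

theorem C7M_sgn (a : Perm A → ℝ) (v : EuclideanSpace ℝ (Perm A)) :
    C7M a (C7sgnH A v) = C7sgnH A (C7M (fun w => a w * C7sgn w) v) := by
  obtain ⟨f, rfl⟩ := (C7toH A).surjective v
  rw [C7sgnH_apply, C7M_apply, C7M_apply, C7sgnH_apply, C7_conv_sgn]

theorem C7VV_inv (a : Perm A → ℝ) (hinv : ∀ w, a w⁻¹ = a w) (K : ℕ) (j : Fin (K + 1) × Bool)
    (v : EuclideanSpace ℝ (Perm A)) (hv : v ∈ C7VV A K j) :
    C7M a v ∈ C7VV A K j := by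
  obtain ⟨j1, j2⟩ := j
  cases j2
  · exact C7V_inv a hinv j1 v hv
  · obtain ⟨v', hv', rfl⟩ := Submodule.mem_map.1 hv
    refine Submodule.mem_map.2 ⟨C7M (fun w => a w * C7sgn w) v', ?_, ?_⟩
    · exact C7V_inv _ (fun w => by simp only [hinv, C7sgn_inv]) j1 v' hv'
    · exact (C7M_sgn a v').symm

/-! eigenvalue bounds -/

theorem C7V_eig_zero (b : Perm A → ℝ) (v : EuclideanSpace ℝ (Perm A)) (hv : v ∈ C7V A 0)
    (hne : v ≠ 0) (l : ℝ) (h : C7M b v = l • v) : l = ∑ w, b w := by
  obtain ⟨f, rfl⟩ := (C7toH A).surjective v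
  have hf : f ∈ C7W A 0 := (C7_mem_WH 0 f).1 hv
  rw [C7M_apply, C7_conv_W_zero b f hf, map_smul] at h
  have h2 : (l - ∑ w, b w) • C7toH A f = 0 := by
    rw [sub_smul, ← h, sub_self]
  rcases smul_eq_zero.1 h2 with h3 | h3
  · linarith
  · exact absurd h3 hne

theorem C7V_eig_succ (k : ℕ) (b : Perm A → ℝ) (hcl : ∀ g w, b (g * w * g⁻¹) = b w)
    (hk : 2 * (k + 1) ≤ Fintype.card A) (v : EuclideanSpace ℝ (Perm A))
    (hv : v ∈ C7V A (k + 1)) (hne : v ≠ 0) (l : ℝ) (h : C7M b v = l • v) :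
    |l| ≤ ∑ w, |b w| * hitW (k + 1) w := by
  obtain ⟨f, rfl⟩ := (C7toH A).surjective v
  obtain ⟨h1, h2⟩ := Submodule.mem_inf.1 hv
  rw [C7_mem_WH] at h2
  apply C7_eig k b hcl hk f h2 (fun h0 => hne (by rw [h0, map_zero]))
  · intro u hu
    have := (Submodule.mem_orthogonal _ _).1 h1 (C7toH A u) ((C7_mem_WH k u).2 hu)
    rw [C7_inner] at this
    rw [← this]
    apply Finset.sum_congr rfl
    intro g _
    ring
  · rw [C7M_apply, ← map_smul] at h
    exact (C7toH A).injective h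

/-! the supremum of the blocks -/

theorem C7_WH_le_iSup [Nonempty A] (K k : ℕ) (hk : k ≤ K) : C7WH A k ≤ ⨆ j, C7VV A K j := by
  induction k with
  | zero =>
    exact le_iSup (C7VV A K) (⟨0, by omega⟩, false)
  | succ k ih =>
    rw [← Submodule.sup_orthogonal_inf_of_hasOrthogonalProjection
      (C7WH_mono (Nat.le_succ k) : C7WH A k ≤ C7WH A (k + 1))]
    apply sup_le (ih (by omega))
    exact le_iSup (C7VV A K) (⟨k + 1, by omega⟩, false)

theorem C7_sWH_le_iSup [Nonempty A] (K k : ℕ) (hk : k ≤ K) :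
    (C7WH A k).map (C7sgnH A : _ →ₗ[ℝ] EuclideanSpace ℝ (Perm A)) ≤ ⨆ j, C7VV A K j := by
  induction k with
  | zero =>
    exact le_iSup (C7VV A K) (⟨0, by omega⟩, true)
  | succ k ih =>
    rw [← Submodule.sup_orthogonal_inf_of_hasOrthogonalProjection
      (C7WH_mono (Nat.le_succ k) : C7WH A k ≤ C7WH A (k + 1)), Submodule.map_sup]
    apply sup_le (ih (by omega))
    exact le_iSup (C7VV A K) (⟨k + 1, by omega⟩, true)

theorem C7_iSup_le [Nonempty A] (K : ℕ) :
    ⨆ j, C7VV A K j ≤ C7WH A K ⊔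
      (C7WH A K).map (C7sgnH A : _ →ₗ[ℝ] EuclideanSpace ℝ (Perm A)) := by
  apply iSup_le
  rintro ⟨j1, j2⟩
  have hj1 := Nat.lt_succ_iff.1 j1.isLt
  cases j2
  · exact ((C7V_le_WH _).trans (C7WH_mono hj1)).trans le_sup_left
  · exact (Submodule.map_mono ((C7V_le_WH _).trans (C7WH_mono hj1))).trans le_sup_right

/-- membership in the orthogonal complement of all blocks, in plain terms -/
theorem C7_mem_perp [Nonempty A] (K : ℕ) (f : Perm A → ℝ) :
    C7toH A f ∈ (⨆ j, C7VV A K j)ᗮ ↔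
      (∀ x y : Fin K → A, ∑ g, f g * cyl x y g = 0) ∧
      (∀ x y : Fin K → A, ∑ g, f g * C7sgn g * cyl x y g = 0) := by
  constructor
  · intro h
    rw [Submodule.mem_orthogonal] at h
    constructor
    · intro x y
      have h1 := h (C7toH A (cyl x y))
        (C7_WH_le_iSup K K le_rfl ((C7_mem_WH K _).2 (C7_cyl_mem x y)))
      rw [C7_inner] at h1
      rw [← h1]
      apply Finset.sum_congr rfl
      intro g _
      ring
    · intro x y
      have h1 := h (C7sgnH A (C7toH A (cyl x y)))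
        (C7_sWH_le_iSup K K le_rfl
          (Submodule.mem_map_of_mem ((C7_mem_WH K _).2 (C7_cyl_mem x y))))
      rw [C7sgnH_apply, C7_inner] at h1
      rw [← h1]
      apply Finset.sum_congr rfl
      intro g _
      rw [C7sgnL_apply]
      ring
  · rintro ⟨h1, h2⟩
    apply Submodule.orthogonal_le (C7_iSup_le K)
    rw [← Submodule.inf_orthogonal, Submodule.mem_inf]
    have e1 : ∀ u ∈ C7W A K, ∑ g, u g * f g = 0 := by
      intro u hu
      induction hu using Submodule.span_induction with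
      | mem u h =>
        obtain ⟨p, rfl⟩ := h
        rw [← h1 p.1 p.2]
        apply Finset.sum_congr rfl
        intro g _
        ring
      | zero => simp
      | add u v _ _ hu hv =>
        simp only [Pi.add_apply, add_mul, Finset.sum_add_distrib]
        rw [hu, hv, add_zero]
      | smul c u _ hu =>
        simp only [Pi.smul_apply, smul_eq_mul, mul_assoc, ← Finset.mul_sum]
        rw [hu, mul_zero]
    have e2 : ∀ u ∈ C7W A K, ∑ g, u g * (C7sgn g * f g) = 0 := by
      intro u hu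
      induction hu using Submodule.span_induction with
      | mem u h =>
        obtain ⟨p, rfl⟩ := h
        rw [← h2 p.1 p.2]
        apply Finset.sum_congr rfl
        intro g _
        ring
      | zero => simp
      | add u v _ _ hu hv =>
        simp only [Pi.add_apply, add_mul, Finset.sum_add_distrib]
        rw [hu, hv, add_zero]
      | smul c u _ hu =>
        simp only [Pi.smul_apply, smul_eq_mul, mul_assoc, ← Finset.mul_sum]
        rw [hu, mul_zero]
    constructor
    · rw [Submodule.mem_orthogonal]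
      intro u hu
      obtain ⟨u', rfl⟩ := (C7toH A).surjective u
      rw [C7_mem_WH] at hu
      rw [C7_inner]
      exact e1 u' hu
    · rw [Submodule.mem_orthogonal]
      intro u hu
      obtain ⟨u1, hu1, rfl⟩ := Submodule.mem_map.1 hu
      obtain ⟨u', rfl⟩ := (C7toH A).surjective u1
      rw [C7_mem_WH] at hu1
      show inner ℝ (C7sgnH A (C7toH A u')) _ = 0
      rw [C7sgnH_apply, C7_inner, ← e2 u' hu1]
      apply Finset.sum_congr rfl
      intro g _
      rw [C7sgnL_apply]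
      ring

/-- translates -/
theorem C7_sum_translate {k : ℕ} (h : Perm A) (f : Perm A → ℝ) (x y : Fin k → A) :
    ∑ g, f (h * g) * cyl x y g = ∑ g, f g * cyl x (fun i => h (y i)) g := by
  rw [← Equiv.sum_comp (Equiv.mulLeft h) (fun g => f g * cyl x (fun i => h (y i)) g)]
  apply Finset.sum_congr rfl
  intro g _
  simp only [Equiv.coe_mulLeft]
  have h1 := cyl_translate x (fun i => h (y i)) h g
  have h2 : (fun i => h⁻¹ (h (y i))) = y := by
    funext i
    simp
  rw [h2] at h1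
  rw [h1]

theorem C7_conv_translate (a : Perm A → ℝ) (hcl : ∀ g w, a (g * w * g⁻¹) = a w) (h : Perm A)
    (f : Perm A → ℝ) :
    conv a (fun g => f (h * g)) = fun g => conv a f (h * g) := by
  funext g
  unfold conv
  rw [← Equiv.sum_comp (MulAut.conj h).toEquiv (fun u => a u * f (u⁻¹ * (h * g)))]
  apply Finset.sum_congr rfl
  intro u _
  have e1 : (MulAut.conj h).toEquiv u = h * u * h⁻¹ := rfl
  rw [e1, hcl]
  congr 2
  group

theorem C7_hU [Nonempty A] (a : Perm A → ℝ) (hcl : ∀ g w, a (g * w * g⁻¹) = a w) (j0 : ℕ)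
    (hj : 4 * j0 + 4 ≤ Fintype.card A) (l : ℝ) (v : EuclideanSpace ℝ (Perm A)) (hv : v ≠ 0)
    (hl : C7M a v = l • v)
    (hperp : ∀ j, ∀ u ∈ C7VV A (2 * j0) j, inner ℝ u v = 0) :
    2 ^ j0 ≤ Module.finrank ℝ ((Module.End.eigenspace (C7M a) l ⊓
      (⨆ j, C7VV A (2 * j0) j)ᗮ : Submodule ℝ (EuclideanSpace ℝ (Perm A)))) := by
  set EH := (Module.End.eigenspace (C7M a) l ⊓
      (⨆ j, C7VV A (2 * j0) j)ᗮ : Submodule ℝ (EuclideanSpace ℝ (Perm A))) with hEH
  set E : Submodule ℝ (Perm A → ℝ) :=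
    EH.map ((C7toH A).symm : _ →ₗ[ℝ] (Perm A → ℝ)) with hE
  have hmem : ∀ f, f ∈ E ↔ C7toH A f ∈ EH := by
    intro f
    constructor
    · intro h
      obtain ⟨u, hu, he⟩ := Submodule.mem_map.1 h
      rw [← he]
      simpa using hu
    · intro h
      refine Submodule.mem_map.2 ⟨C7toH A f, h, ?_⟩
      simp
  have hmem2 : ∀ f, f ∈ E ↔ conv a f = l • f ∧
      (∀ x y : Fin (2 * j0) → A, ∑ g, f g * cyl x y g = 0) ∧
      (∀ x y : Fin (2 * j0) → A, ∑ g, f g * C7sgn g * cyl x y g = 0) := by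
    intro f
    rw [hmem, hEH, Submodule.mem_inf, C7_mem_perp, Module.End.mem_eigenspace_iff, C7M_apply,
      ← map_smul]
    constructor
    · rintro ⟨h1, h2⟩
      exact ⟨(C7toH A).injective h1, h2⟩
    · rintro ⟨h1, h2⟩
      exact ⟨by rw [h1], h2⟩
  have hfin : Module.finrank ℝ E = Module.finrank ℝ EH :=
    LinearEquiv.finrank_map_eq (C7toH A).symm EH
  rw [← hfin]
  apply C3_dim j0 hj E
  · intro h f hf
    rw [hmem2] at hf ⊢
    obtain ⟨h1, h2, h3⟩ := hf
    refine ⟨?_, ?_, ?_⟩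
    · rw [C7_conv_translate a hcl, h1]
      rfl
    · intro x y
      rw [C7_sum_translate]
      exact h2 _ _
    · intro x y
      have e1 : ∀ g, f (h * g) * C7sgn g * cyl x y g =
          C7sgn h * ((fun g => f g * C7sgn g) (h * g) * cyl x y g) := by
        intro g
        simp only [C7sgn_mul]
        have := C7sgn_sq h
        calc f (h * g) * C7sgn g * cyl x y g
            = (C7sgn h * C7sgn h) * (f (h * g) * C7sgn g * cyl x y g) := by rw [this, one_mul]
          _ = _ := by ring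
      simp only [e1, ← Finset.mul_sum]
      have := C7_sum_translate h (fun g => f g * C7sgn g) x y
      rw [this, h3, mul_zero]
  · intro hbot
    have hvE : (C7toH A).symm v ∈ E := by
      rw [hmem, LinearEquiv.apply_symm_apply, hEH, Submodule.mem_inf]
      refine ⟨Module.End.mem_eigenspace_iff.2 hl, ?_⟩
      rw [← Submodule.iInf_orthogonal, Submodule.mem_iInf]
      intro j
      rw [Submodule.mem_orthogonal]
      exact hperp j
    rw [hbot, Submodule.mem_bot] at hvE
    apply hv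
    have : C7toH A ((C7toH A).symm v) = 0 := by rw [hvE, map_zero]
    rwa [LinearEquiv.apply_symm_apply] at this
  · intro f hf
    exact ((hmem2 f).1 hf).2.1
  · intro f hf
    exact ((hmem2 f).1 hf).2.2

theorem C7_cpow_nonneg (a : Perm A → ℝ) (ha : ∀ w, 0 ≤ a w) (r : ℕ) : ∀ w, 0 ≤ cpow a r w := by
  induction r with
  | zero =>
    intro w
    show 0 ≤ (if w = 1 then (1 : ℝ) else 0)
    split_ifs <;> norm_num
  | succ r ih =>
    intro w
    show 0 ≤ conv a (cpow a r) w
    exact Finset.sum_nonneg (fun u _ => mul_nonneg (ha u) (ih _))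

theorem C7_hitW_nonneg (k : ℕ) (w : Perm A) : 0 ≤ hitW k w := by
  unfold hitW
  apply div_nonneg _ (Nat.cast_nonneg _)
  apply Finset.sum_nonneg
  intro y _
  split_ifs
  · positivity
  · exact le_rfl

/-- C7 (medium-hard; uses C1, C3, C4, C5, C6): module C main theorem. H = EuclideanSpace ℝ (Perm A), M f g = Σ_w a(w) f(w⁻¹ g): symmetric (hinv), commutes with f ↦ f(h ·) (class function), trace(M^r) = n! cpow a r 1.
W_k = span{cyl x y : x y : Fin k → A}, M-invariant, W_k ≤ W_{k+1}, finrank ≤ n^{2k}, K = 2 j0. Blocks: V_0 = W_0 (constants, α = p), V_{k} = W_k ⊓ W_{k-1}ᗮ (1 ≤ k ≤ K), and sgn·V_k (0 ≤ k ≤ K), J = Fin (K+1) × Bool.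
On sgn·V_k, M_a (sgn f) = sgn M_{a sgn} f, so C6+C1 applied to a·sgn (|a sgn| = a) give the same bound; α for sgn·V_0 is 0 (hsgn). C6 gives harmonic φ with l ‖φ‖² = Σ_w a w Σ_z φ z φ(w⁻¹ z); C1: |l| ≤ Σ a hitW k ≤ β k.
W_K ⟂ sgn W_K: two cylinders with 2K = 4 j0 ≤ n-2 labels in total: multiply g by a transposition of two positions not in x ∪ x'. High part: C3 with q = 2^{j0} applied to E = eigenspace ⊓ (⨆ V)ᗮ. trace(M^s) ≤ B^s by C4. -/
theorem C7_main {A : Type*} [Fintype A] [DecidableEq A] (a : Perm A → ℝ) (ha : ∀ w, 0 ≤ a w)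
    (hcl : ∀ g w, a (g * w * g⁻¹) = a w) (hinv : ∀ w, a w⁻¹ = a w)
    (p : ℝ) (hp : ∑ w, a w = p) (hsgn : ∑ w, a w * ((Perm.sign w : ℤ) : ℝ) = 0)
    (x s : ℕ) (hn : Fintype.card A ≤ x ^ s) (hs : Even s) (hs0 : 0 < s)
    (B : ℝ) (hB : ∑ w, a w * (fixN x w : ℝ) ≤ B)
    (j0 : ℕ) (hj : 8 * j0 + 8 ≤ Fintype.card A)
    (β : ℕ → ℝ) (hβ : ∀ k, 1 ≤ k → k ≤ 2 * j0 → ∑ w, a w * hitW k w ≤ β k) :
    ((Fintype.card A).factorial : ℝ) * cpow a (2 * s) 1 ≤
      p ^ (2 * s) + ∑ k ∈ Icc 1 (2 * j0), 2 * (Fintype.card A : ℝ) ^ (2 * k) * β k ^ (2 * s)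
        + (B ^ s) ^ 2 / 2 ^ j0 := by
  have hnA : Nonempty A := Fintype.card_pos_iff.1 (by omega)
  set K := 2 * j0 with hK
  have hp0 : 0 ≤ p := by rw [← hp]; exact Finset.sum_nonneg (fun w _ => ha w)
  set b : Perm A → ℝ := fun w => a w * C7sgn w with hb
  have hbcl : ∀ g w, b (g * w * g⁻¹) = b w := by
    intro g w
    simp only [hb, hcl, C7sgn_conj]
  have hbabs : ∀ w, |b w| = a w := by
    intro w
    simp only [hb, abs_mul, C7sgn_abs, mul_one, abs_of_nonneg (ha w)]
  have haabs : ∀ w, |a w| = a w := fun w => abs_of_nonneg (ha w)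
  -- eigenvalue bounds
  let α : Fin (K + 1) × Bool → ℝ := fun j =>
    if (j.1 : ℕ) = 0 then (if j.2 then 0 else p) else β j.1
  have hα : ∀ j, ∀ v ∈ C7VV A K j, v ≠ 0 → ∀ l : ℝ, C7M a v = l • v → |l| ≤ α j := by
    rintro ⟨j1, j2⟩ v hv hv0 l hl
    have hj1 := Nat.lt_succ_iff.1 j1.isLt
    cases j2
    · have hv' : v ∈ C7V A j1 := hv
      by_cases h0 : (j1 : ℕ) = 0
      · simp only [α, h0, if_true]
        rw [h0] at hv'
        have := C7V_eig_zero a v hv' hv0 l hl
        rw [this, hp]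
        simp [abs_of_nonneg hp0]
      · simp only [α, h0, if_false]
        obtain ⟨k, hk⟩ := Nat.exists_eq_succ_of_ne_zero h0
        rw [hk] at hv'
        have := C7V_eig_succ k a hcl (by omega) v hv' hv0 l hl
        simp only [haabs] at this
        rw [hk]
        exact this.trans (hβ (k + 1) (by omega) (by omega))
    · obtain ⟨u, hu, rfl⟩ := Submodule.mem_map.1 hv
      have hu0 : u ≠ 0 := fun h => hv0 (by rw [h, map_zero])
      have hl' : C7M b u = l • u := by
        have h1 : C7sgnH A (C7M b u) = C7sgnH A (l • u) := by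
          rw [← C7M_sgn, map_smul]
          exact hl
        exact (C7sgnH A).injective h1
      by_cases h0 : (j1 : ℕ) = 0
      · simp only [α, h0, if_true]
        rw [h0] at hu
        have := C7V_eig_zero b u hu hu0 l hl'
        rw [this]
        have h2 : ∑ w, b w = 0 := hsgn
        rw [h2]
        simp
      · simp only [α, h0, if_false]
        obtain ⟨k, hk⟩ := Nat.exists_eq_succ_of_ne_zero h0
        rw [hk] at hu
        have := C7V_eig_succ k b hbcl (by omega) u hu hu0 l hl'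
        simp only [hbabs] at this
        rw [hk]
        exact this.trans (hβ (k + 1) (by omega) (by omega))
  have hC5 := C5_spectral (C7M a) (C7M_symm a hinv) (C7VV A K) (fun j v hv => C7VV_inv a hinv K j v hv)
    (fun i j hij u hu v hv => C7VV_orth (by omega) i j hij u hu v hv) α hα (2 ^ j0)
    (by positivity) (fun l v hv hl hperp => C7_hU a hcl j0 (by omega) l v hv hl hperp) s hs hs0
  rw [C7M_pow, C7M_pow, C7_trace, C7_trace] at hC5
  refine hC5.trans ?_
  apply add_le_add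
  · -- the blocks
    rw [Fintype.sum_prod_type, Fin.sum_univ_succ]
    apply add_le_add
    · rw [Fintype.sum_bool]
      have h1 : α (0, true) = 0 := by simp [α]
      have h2 : α (0, false) = p := by simp [α]
      rw [h1, h2, zero_pow (by omega), mul_zero, zero_add]
      have h3 : Module.finrank ℝ (C7VV A K (0, false)) ≤ 1 := by
        have h4 : Module.finrank ℝ (C7VV A K (0, false)) ≤ Module.finrank ℝ (C7WH A 0) :=
          Submodule.finrank_mono (le_refl _)
        have h5 : Module.finrank ℝ (C7WH A 0) = Module.finrank ℝ (C7W A 0) :=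
          LinearEquiv.finrank_map_eq (C7toH A) _
        have h6 := C7_finrank_W (A := A) 0
        simp only [mul_zero, pow_zero] at h6
        omega
      have h3' : (Module.finrank ℝ (C7VV A K (0, false)) : ℝ) ≤ 1 := by exact_mod_cast h3
      calc (Module.finrank ℝ (C7VV A K (0, false)) : ℝ) * p ^ (2 * s) ≤ 1 * p ^ (2 * s) :=
            mul_le_mul_of_nonneg_right h3' (by positivity)
        _ = _ := one_mul _
    · have hsum : ∑ k ∈ Icc 1 K, 2 * (Fintype.card A : ℝ) ^ (2 * k) * β k ^ (2 * s) =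
          ∑ i : Fin K, 2 * (Fintype.card A : ℝ) ^ (2 * ((i : ℕ) + 1)) *
            β ((i : ℕ) + 1) ^ (2 * s) := by
        rw [Fin.sum_univ_eq_sum_range (fun i => 2 * (Fintype.card A : ℝ) ^ (2 * (i + 1)) *
            β (i + 1) ^ (2 * s)) K]
        rw [Finset.range_eq_Ico, Finset.sum_Ico_add' (fun k => 2 * (Fintype.card A : ℝ) ^ (2 * k) *
          β k ^ (2 * s)) 0 K 1]
        apply Finset.sum_congr
        · ext k
          simp only [Finset.mem_Icc, Finset.mem_Ico]
          omega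
        · intro k _
          rfl
      rw [hsum]
      apply Finset.sum_le_sum
      intro i _
      rw [Fintype.sum_bool]
      have hα1 : ∀ b : Bool, α (i.succ, b) = β ((i : ℕ) + 1) := by
        intro b
        simp [α]
      rw [hα1, hα1]
      have hWH : Module.finrank ℝ (C7WH A ((i : ℕ) + 1)) ≤ Fintype.card A ^ (2 * ((i : ℕ) + 1)) := by
        have h5 : Module.finrank ℝ (C7WH A ((i : ℕ) + 1)) =
            Module.finrank ℝ (C7W A ((i : ℕ) + 1)) :=
          LinearEquiv.finrank_map_eq (C7toH A) _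
        rw [h5]
        exact C7_finrank_W _
      have hVle : Module.finrank ℝ (C7V A ((i : ℕ) + 1)) ≤
          Fintype.card A ^ (2 * ((i : ℕ) + 1)) :=
        (Submodule.finrank_mono (C7V_le_WH _)).trans hWH
      have hf1 : (Module.finrank ℝ (C7VV A K (i.succ, false)) : ℝ) ≤
          (Fintype.card A : ℝ) ^ (2 * ((i : ℕ) + 1)) := by
        have : C7VV A K (i.succ, false) = C7V A ((i : ℕ) + 1) := rfl
        rw [this]
        exact_mod_cast hVle
      have hf2 : (Module.finrank ℝ (C7VV A K (i.succ, true)) : ℝ) ≤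
          (Fintype.card A : ℝ) ^ (2 * ((i : ℕ) + 1)) := by
        have h1 : C7VV A K (i.succ, true) = (C7V A ((i : ℕ) + 1)).map
          (C7sgnH A : _ →ₗ[ℝ] EuclideanSpace ℝ (Perm A)) := rfl
        have h2 : Module.finrank ℝ (C7VV A K (i.succ, true)) =
            Module.finrank ℝ (C7V A ((i : ℕ) + 1)) := by
          rw [h1]
          exact LinearEquiv.finrank_map_eq (C7sgnH A) _
        rw [h2]
        exact_mod_cast hVle
      have hβ0 : 0 ≤ β ((i : ℕ) + 1) ^ (2 * s) := by
        rw [pow_mul]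
        positivity
      have h1 := mul_le_mul_of_nonneg_right hf1 hβ0
      have h2 := mul_le_mul_of_nonneg_right hf2 hβ0
      calc _ ≤ (Fintype.card A : ℝ) ^ (2 * ((i : ℕ) + 1)) * β ((i : ℕ) + 1) ^ (2 * s) +
            (Fintype.card A : ℝ) ^ (2 * ((i : ℕ) + 1)) * β ((i : ℕ) + 1) ^ (2 * s) :=
            add_le_add h2 h1
        _ = _ := by ring
  · -- the high part
    have h4 := C4_trace a ha hcl x s hn hs0
    have h0 : 0 ≤ ∑ w, a w * (fixN x w : ℝ) :=
      Finset.sum_nonneg (fun w _ => mul_nonneg (ha w) (Nat.cast_nonneg _))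
    have h5 : ((Fintype.card A).factorial : ℝ) * cpow a s 1 ≤ B ^ s :=
      h4.trans (pow_le_pow_left₀ h0 hB s)
    have h6 : 0 ≤ ((Fintype.card A).factorial : ℝ) * cpow a s 1 :=
      mul_nonneg (Nat.cast_nonneg _) (C7_cpow_nonneg a ha s 1)
    have h7 : ((2 ^ j0 : ℕ) : ℝ) = 2 ^ j0 := by push_cast; rfl
    rw [h7]
    apply div_le_div_of_nonneg_right _ (by positivity)
    exact pow_le_pow_left₀ h6 h5 2

end C7

end Crest.Agent.S0222
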