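import Crest.Agent.S0222_Basic

set_option autoImplicit false

namespace Crest.Agent.S0222

open Finset Equiv Crest.ProbabilityR.Shuffle

theorem uniformProb_eq_EP (m t : ℕ) (g : Perm (Fin (2 * m))) :
    Crest.FinProb.uniformProb {cs : Fin t → Fin m → Bool | iterPos m t cs = ⇑g} =
      EP m t (fun h => if h = g then 1 else 0) := by
  classical
  unfold Crest.FinProb.uniformProb EP ex
  congr 1
  rw [Finset.sum_boole]
  congr 2
  ext cs
  simp only [Set.mem_setOf_eq, Finset.mem_filter, Finset.mem_univ, true_and]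
  constructor
  · intro h; ext x; rw [iterPerm_apply, h]
  · intro h; funext x; rw [← iterPerm_apply, h]

theorem D10_tv (m t : ℕ) : tvFromUniform m t =
    (1 / 2) * ∑ h : Perm (Fin (2 * m)),
      |EP m t (fun g => if g = h then 1 else 0) - 1 / (((2 * m).factorial : ℕ) : ℝ)| := by
  unfold tvFromUniform
  simp only [uniformProb_eq_EP]

theorem D10_succ (m t : ℕ) : tvFromUniform m (t + 1) ≤ tvFromUniform m t := by
  rw [D10_tv, D10_tv]
  apply mul_le_mul_of_nonneg_left _ (by norm_num)
  have h1 : ∀ h : Perm (Fin (2 * m)), EP m (t + 1) (fun g => if g = h then 1 else 0) -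
      1 / (((2 * m).factorial : ℕ) : ℝ) =
      ex (fun c : Fin m → Bool => EP m t (fun g => if g = (stepPerm m c)⁻¹ * h then 1 else 0) -
        1 / (((2 * m).factorial : ℕ) : ℝ)) := by
    intro h
    rw [ex_sub, ex_const, EP_succ]
    congr 1
    apply ex_congr; intro c; apply EP_congr; intro g
    simp only [eq_inv_mul_iff_mul_eq]
  simp only [h1]
  calc ∑ h : Perm (Fin (2 * m)), |ex (fun c : Fin m → Bool => EP m t (fun g => if g = (stepPerm m c)⁻¹ * h then 1 else 0) -
        1 / (((2 * m).factorial : ℕ) : ℝ))|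
      ≤ ∑ h : Perm (Fin (2 * m)), ex (fun c : Fin m → Bool => |EP m t (fun g => if g = (stepPerm m c)⁻¹ * h then 1 else 0) -
        1 / (((2 * m).factorial : ℕ) : ℝ)|) := Finset.sum_le_sum fun h _ => abs_ex_le _
    _ = ex (fun c : Fin m → Bool => ∑ h : Perm (Fin (2 * m)), |EP m t (fun g => if g = (stepPerm m c)⁻¹ * h then 1 else 0) -
        1 / (((2 * m).factorial : ℕ) : ℝ)|) := by rw [ex_sum]
    _ = ex (fun c : Fin m → Bool => ∑ h : Perm (Fin (2 * m)), |EP m t (fun g => if g = h then 1 else 0) -
        1 / (((2 * m).factorial : ℕ) : ℝ)|) := by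
        apply ex_congr; intro c
        exact Equiv.sum_comp (Equiv.mulLeft (stepPerm m c)⁻¹) (fun h => |EP m t (fun g => if g = h then 1 else 0) -
          1 / (((2 * m).factorial : ℕ) : ℝ)|)
    _ = _ := ex_const _

theorem D10_mono (m s t : ℕ) (h : s ≤ t) : tvFromUniform m t ≤ tvFromUniform m s := by
  induction t, h using Nat.le_induction with
  | base => exact le_rfl
  | succ n _ ih => exact (D10_succ m n).trans ih

end Crest.Agent.S0222
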