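import Crest.Agent.S0222_Defs
import Crest.Agent.S0222_Basic

/-!
D3 (bit arithmetic, condition Stars for windows) for S0222.  Author: helper19.
-/

set_option autoImplicit false

namespace Crest.Agent.S0222

open Finset Equiv Crest.ProbabilityR.Shuffle

theorem D3_bit (d : ℕ) : ∀ (t : ℕ) (cs : Fin t → Fin (2 ^ d) → Bool) (x : Fin (2 * 2 ^ d)) (i : ℕ),
    i + t ≤ d → Nat.testBit (iterPerm (2 ^ d) t cs x).val (i + t) = Nat.testBit x.val i
  | 0, _, x, i, _ => rfl
  | t + 1, cs, x, i, h => by
    have ih := D3_bit d t (fun i => cs i.castSucc) x i (by omega)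
    simp only [iterPerm, Perm.mul_apply]
    rw [stepPerm_val, ← add_assoc, Nat.testBit_succ]
    have hq : ∀ (q : ℕ) (P : Prop) [Decidable P], (2 * q + (if P then 1 else 0)) / 2 = q := by
      intro q P _
      split <;> omega
    rw [hq, Nat.testBit_mod_two_pow, ih]
    simp [show i + t < d by omega]

theorem D3_prt_low (d : ℕ) (z : Fin (2 * 2 ^ d)) (k : ℕ) (hk : k < d) :
    Nat.testBit (prt (2 ^ d) z).val k = Nat.testBit z.val k := by
  have hz := z.isLt
  have h1 : (prt (2 ^ d) z).val % 2 ^ d = z.val % 2 ^ d := by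
    rw [prt_val]
    split
    · simp
    · rename_i h
      rw [Nat.mod_eq_sub_mod (a := z.val) (by omega)]
  have h2 := congrArg (fun v => Nat.testBit v k) h1
  simp only [Nat.testBit_mod_two_pow, hk, decide_true, Bool.true_and] at h2
  exact h2

theorem D3_prt_top (d : ℕ) (z : Fin (2 * 2 ^ d)) :
    Nat.testBit (prt (2 ^ d) z).val d ≠ Nat.testBit z.val d := by
  have hz := z.isLt
  have hlow : ∀ v : ℕ, v < 2 ^ d → Nat.testBit v d = false := fun v hv => Nat.testBit_lt_two_pow hv
  have hhigh : ∀ v : ℕ, 2 ^ d ≤ v → v < 2 * 2 ^ d → Nat.testBit v d = true := by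
    intro v hv hv2
    rw [Nat.testBit_eq_decide_div_mod_eq]
    have : v / 2 ^ d = 1 := by
      apply Nat.div_eq_of_lt_le <;> omega
    simp [this]
  by_cases h : z.val < 2 ^ d
  · have h1 : (prt (2 ^ d) z).val = z.val + 2 ^ d := by rw [prt_val, if_pos h]
    rw [h1, hlow _ h, hhigh _ (by omega) (by omega)]
    simp
  · have h1 : (prt (2 ^ d) z).val = z.val - 2 ^ d := by rw [prt_val, if_neg h]
    rw [h1, hlow (z.val - 2 ^ d) (by omega), hhigh z.val (by omega) (by omega)]
    simp

theorem D3_inv (m : ℕ) (p : Fin m ↪ Fin (2 * m)) (a : Fin m) :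
    (posLayer m p).inv a = a ∨ p ((posLayer m p).inv a) = prt m (p a) := by
  by_cases h : ∃ b, p b = prt m (p a)
  · right
    have : (posLayer m p).inv a = h.choose := by
      simp only [posLayer, h, dif_pos]
    rw [this]
    exact h.choose_spec
  · left
    simp only [posLayer, h, dif_neg, not_false_eq_true]

theorem D3_stars (d : ℕ) (y : Fin (2 ^ d) ↪ Fin (2 * 2 ^ d)) (c : Fin (d + 1) → Fin (2 ^ d) → Bool) :
    Stars (wLayers (2 ^ d) (d + 1) y c) := by
  intro j
  have hj := j.isLt
  refine ⟨fun a => Nat.testBit (y a).val (d - j.val), ?_, ?_⟩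
  · intro a ha
    rcases D3_inv (2 ^ d) (y.trans
      (iterPerm (2 ^ d) j.val (fun i => c ⟨i.val, i.isLt.trans j.isLt⟩)).toEmbedding) a with h | h
    · exact absurd h ha
    · simp only [Function.Embedding.trans_apply, Equiv.coe_toEmbedding] at h
      have h1 := D3_bit d j.val (fun i => c ⟨i.val, i.isLt.trans j.isLt⟩) (y a) (d - j.val) (by omega)
      have h2 := D3_bit d j.val (fun i => c ⟨i.val, i.isLt.trans j.isLt⟩)
        (y ((posLayer (2 ^ d) (y.trans
      (iterPerm (2 ^ d) j.val (fun i => c ⟨i.val, i.isLt.trans j.isLt⟩)).toEmbedding)).inv a))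
        (d - j.val) (by omega)
      rw [show d - j.val + j.val = d by omega] at h1 h2
      show Nat.testBit (y ((posLayer (2 ^ d) (y.trans
      (iterPerm (2 ^ d) j.val (fun i => c ⟨i.val, i.isLt.trans j.isLt⟩)).toEmbedding)).inv a)).val
        (d - j.val) ≠ Nat.testBit (y a).val (d - j.val)
      rw [← h1, ← h2, h]
      exact D3_prt_top d _
  · intro i hij a
    have hij' : i.val < j.val := hij
    rcases D3_inv (2 ^ d) (y.trans
      (iterPerm (2 ^ d) i.val (fun l => c ⟨l.val, l.isLt.trans i.isLt⟩)).toEmbedding) a with h | h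
    · show Nat.testBit (y ((posLayer (2 ^ d) (y.trans
      (iterPerm (2 ^ d) i.val (fun l => c ⟨l.val, l.isLt.trans i.isLt⟩)).toEmbedding)).inv a)).val
        (d - j.val) = Nat.testBit (y a).val (d - j.val)
      rw [h]
    · simp only [Function.Embedding.trans_apply, Equiv.coe_toEmbedding] at h
      have h1 := D3_bit d i.val (fun l => c ⟨l.val, l.isLt.trans i.isLt⟩) (y a) (d - j.val) (by omega)
      have h2 := D3_bit d i.val (fun l => c ⟨l.val, l.isLt.trans i.isLt⟩)
        (y ((posLayer (2 ^ d) (y.trans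
      (iterPerm (2 ^ d) i.val (fun l => c ⟨l.val, l.isLt.trans i.isLt⟩)).toEmbedding)).inv a))
        (d - j.val) (by omega)
      show Nat.testBit (y ((posLayer (2 ^ d) (y.trans
      (iterPerm (2 ^ d) i.val (fun l => c ⟨l.val, l.isLt.trans i.isLt⟩)).toEmbedding)).inv a)).val
        (d - j.val) = Nat.testBit (y a).val (d - j.val)
      rw [← h1, ← h2, h]
      exact D3_prt_low d _ _ (by omega)

end Crest.Agent.S0222
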