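import Crest.Agent.S0222_Basic

/-!
S0222 task D12: the flip involution (`D1_flip`), the window decomposition (`D1_decomp`) and
relabelling (`D2_relabel`).
-/

set_option autoImplicit false
set_option linter.unusedVariables false

namespace Crest.Agent.S0222

open Finset Equiv Crest.ProbabilityR.Shuffle

/-! ### runs indexed by `ℕ` -/

/-- run with an infinite coin table -/
def D12_run (m : ℕ) (c : ℕ → Fin m → Bool) : ℕ → Perm (Fin (2 * m))
  | 0 => 1
  | s + 1 => stepPerm m (c s) * D12_run m c s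

theorem D12_iterPerm (m : ℕ) (C : ℕ → Fin m → Bool) : ∀ s : ℕ,
    iterPerm m s (fun i : Fin s => C i.val) = D12_run m C s
  | 0 => rfl
  | s + 1 => by
      simp only [iterPerm, D12_run, Fin.val_last, Fin.val_castSucc]
      rw [D12_iterPerm m C s]

/-- layers with an infinite coin table -/
noncomputable def D12_lay (m : ℕ) (y : Fin m ↪ Fin (2 * m)) (c : ℕ → Fin m → Bool) (s : ℕ) :
    Layer (Fin m) (Fin m) :=
  posLayer m (y.trans (D12_run m c s).toEmbedding)

/-- net with an infinite coin table -/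
noncomputable def D12_net (m : ℕ) (y : Fin m ↪ Fin (2 * m)) (c ξ : ℕ → Fin m → Bool) :
    ℕ → Perm (Fin m)
  | 0 => 1
  | s + 1 => (D12_lay m y c s).h (ξ s) * D12_net m y c ξ s

theorem D12_netq (m : ℕ) (y : Fin m ↪ Fin (2 * m)) (c ξ : ℕ → Fin m → Bool) : ∀ s : ℕ,
    netq s (fun i : Fin s => D12_lay m y c i.val) (fun i : Fin s => ξ i.val) = D12_net m y c ξ s
  | 0 => rfl
  | s + 1 => by
      simp only [netq, D12_net, Fin.val_last, Fin.val_castSucc]
      rw [D12_netq m y c ξ s]

/-- extension of a finite coin table -/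
def D12_ext {m t : ℕ} (c : Fin t → Fin m → Bool) : ℕ → Fin m → Bool :=
  fun i => if h : i < t then c ⟨i, h⟩ else fun _ => false

theorem D12_ext_val {m t : ℕ} (c : Fin t → Fin m → Bool) (i : Fin t) :
    D12_ext c i.val = c i := by
  unfold D12_ext
  simp

theorem D12_ext_lt {m t : ℕ} (c : Fin t → Fin m → Bool) (i : ℕ) (h : i < t) :
    D12_ext c i = c ⟨i, h⟩ := by
  unfold D12_ext
  simp [h]

/-- both positions of the switch `u` are in the set -/
def D12_occ (m : ℕ) (K : Set (Fin (2 * m))) (u : Fin m) : Prop :=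
  ∀ z : Fin (2 * m), sw m z = u → z ∈ K

open Classical in
/-- the flipped coin table -/
noncomputable def D12_flip (m : ℕ) (y : Fin m ↪ Fin (2 * m)) (ξ c : ℕ → Fin m → Bool) :
    ℕ → Fin m → Bool :=
  fun i u => xor (c i u) (ξ i u && decide (D12_occ m ((D12_run m c i) '' Set.range y) u))

theorem D12_le_prt (m : ℕ) (z : Fin (2 * m)) : m ≤ (prt m z).val ↔ ¬ m ≤ z.val := by
  have hz := z.isLt
  rw [prt_val]
  split <;> omega

/-- a step depends only on the coin of the switch -/
theorem D12_step_congr (m : ℕ) (c c' : Fin m → Bool) (x : Fin (2 * m))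
    (h : c' (sw m x) = c (sw m x)) : stepPerm m c' x = stepPerm m c x := by
  apply Fin.ext
  rw [stepPerm_val, stepPerm_val, h]

theorem D12_step_flip (m : ℕ) (c c' : Fin m → Bool) (x : Fin (2 * m))
    (h : c' (sw m x) = ! c (sw m x)) : stepPerm m c' x = stepPerm m c (prt m x) := by
  apply Fin.ext
  rw [stepPerm_val, stepPerm_val, sw_prt, h]
  have h1 : (prt m x).val % m = x.val % m := congrArg Fin.val (sw_prt m x)
  rw [h1]
  have h2 : decide (m ≤ (prt m x).val) = ! decide (m ≤ x.val) := by
    have h3 := D12_le_prt m x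
    by_cases hx : m ≤ x.val
    · have h4 : ¬ m ≤ (prt m x).val := fun h => h3.mp h hx
      simp only [hx, h4, decide_true, decide_false, Bool.not_true]
    · have h4 : m ≤ (prt m x).val := h3.mpr hx
      simp only [hx, h4, decide_true, decide_false, Bool.not_false]
  rw [h2]
  cases decide (m ≤ x.val) <;> cases c (sw m x) <;> rfl

theorem D12_occ_iff (m : ℕ) (K : Set (Fin (2 * m))) (x : Fin (2 * m)) :
    D12_occ m K (sw m x) ↔ x ∈ K ∧ prt m x ∈ K := by
  unfold D12_occ
  constructor
  · intro h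
    exact ⟨h x rfl, h _ (sw_prt m x)⟩
  · rintro ⟨h1, h2⟩ z hz
    rcases (sw_eq_iff m x z).mp hz.symm with h | h
    · rw [h]; exact h1
    · rw [h]; exact h2

theorem D12_main (m : ℕ) (y : Fin m ↪ Fin (2 * m)) (ξ c : ℕ → Fin m → Bool) : ∀ s : ℕ,
    (∀ a, D12_run m (D12_flip m y ξ c) s (y a) = D12_run m c s (y (D12_net m y c ξ s a))) ∧
    (∀ z, z ∉ Set.range y → D12_run m (D12_flip m y ξ c) s z = D12_run m c s z)
  | 0 => ⟨fun a => rfl, fun z _ => rfl⟩
  | s + 1 => by
      obtain ⟨ih1, ih2⟩ := D12_main m y ξ c s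
      constructor
      · intro a
        simp only [D12_run, D12_net, Perm.mul_apply]
        rw [ih1 a]
        set b := D12_net m y c ξ s a with hb
        set x := D12_run m c s (y b) with hx
        have hxK : x ∈ (D12_run m c s) '' Set.range y := ⟨y b, ⟨b, rfl⟩, rfl⟩
        by_cases hξ : ξ s (sw m x) = true
        · by_cases hex : ∃ b', (y.trans (D12_run m c s).toEmbedding) b' =
              prt m ((y.trans (D12_run m c s).toEmbedding) b)
          · have hinv : (D12_lay m y c s).h (ξ s) b = hex.choose := by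
              have hr : (D12_lay m y c s).rep b = sw m x := rfl
              simp only [Layer.h, Equiv.coe_fn_mk, hr, hξ, if_true]
              simp only [D12_lay, posLayer, hex, dif_pos]
            rw [hinv]
            have hs : D12_run m c s (y hex.choose) = prt m x := hex.choose_spec
            rw [hs]
            apply D12_step_flip
            have hocc : D12_occ m ((D12_run m c s) '' Set.range y) (sw m x) := by
              rw [D12_occ_iff]
              exact ⟨hxK, ⟨y hex.choose, ⟨_, rfl⟩, hs⟩⟩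
            simp [D12_flip, hξ, hocc]
          · have hinv : (D12_lay m y c s).h (ξ s) b = b := by
              have hr : (D12_lay m y c s).rep b = sw m x := rfl
              simp only [Layer.h, Equiv.coe_fn_mk, hr, hξ, if_true]
              simp only [D12_lay, posLayer, hex, dif_neg, not_false_iff]
            rw [hinv]
            apply D12_step_congr
            have hocc : ¬ D12_occ m ((D12_run m c s) '' Set.range y) (sw m x) := by
              rw [D12_occ_iff]
              rintro ⟨_, ⟨w, ⟨b', hb'⟩, hw⟩⟩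
              apply hex
              refine ⟨b', ?_⟩
              change D12_run m c s (y b') = prt m x
              rw [hb', hw]
            simp [D12_flip, hocc]
        · have hinv : (D12_lay m y c s).h (ξ s) b = b := by
            have hr : (D12_lay m y c s).rep b = sw m x := rfl
            simp only [Layer.h, Equiv.coe_fn_mk, hr, hξ]
            simp
          rw [hinv]
          apply D12_step_congr
          simp only [Bool.not_eq_true] at hξ
          simp [D12_flip, hξ]
      · intro z hz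
        simp only [D12_run, Perm.mul_apply]
        rw [ih2 z hz]
        apply D12_step_congr
        have hocc : ¬ D12_occ m ((D12_run m c s) '' Set.range y) (sw m (D12_run m c s z)) := by
          rw [D12_occ_iff]
          rintro ⟨⟨w, hw, hw2⟩, _⟩
          apply hz
          rw [← (D12_run m c s).injective hw2]
          exact hw
        simp [D12_flip, hocc]

theorem D12_image (m : ℕ) (y : Fin m ↪ Fin (2 * m)) (ξ c : ℕ → Fin m → Bool) (s : ℕ) :
    (D12_run m (D12_flip m y ξ c) s) '' Set.range y = (D12_run m c s) '' Set.range y := by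
  obtain ⟨h1, _⟩ := D12_main m y ξ c s
  ext x
  constructor
  · rintro ⟨_, ⟨a, rfl⟩, rfl⟩
    rw [h1]
    exact ⟨_, ⟨_, rfl⟩, rfl⟩
  · rintro ⟨_, ⟨a, rfl⟩, rfl⟩
    refine ⟨y ((D12_net m y c ξ s).symm a), ⟨_, rfl⟩, ?_⟩
    rw [h1, Equiv.apply_symm_apply]

theorem D12_flip_flip (m : ℕ) (y : Fin m ↪ Fin (2 * m)) (ξ c : ℕ → Fin m → Bool) :
    D12_flip m y ξ (D12_flip m y ξ c) = c := by
  funext i u
  rw [D12_flip, D12_image]
  simp [D12_flip]

/-- the run up to time `s` depends only on the first `s` rows -/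
theorem D12_run_congr (m : ℕ) (c c' : ℕ → Fin m → Bool) : ∀ s : ℕ, (∀ i, i < s → c i = c' i) →
    D12_run m c s = D12_run m c' s
  | 0, _ => rfl
  | s + 1, h => by
      simp only [D12_run]
      rw [h s (Nat.lt_succ_self s), D12_run_congr m c c' s (fun i hi => h i (Nat.lt_succ_of_lt hi))]

theorem D12_flip_congr (m : ℕ) (y : Fin m ↪ Fin (2 * m)) (ξ c c' : ℕ → Fin m → Bool) (i : ℕ)
    (h : ∀ j, j ≤ i → c j = c' j) : D12_flip m y ξ c i = D12_flip m y ξ c' i := by
  funext u
  rw [D12_flip, D12_flip, h i le_rfl, D12_run_congr m c c' i (fun j hj => h j hj.le)]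

/-- flip of a finite table -/
noncomputable def D12_e (m t : ℕ) (y : Fin m ↪ Fin (2 * m)) (ξ c : Fin t → Fin m → Bool) :
    Fin t → Fin m → Bool :=
  fun i => D12_flip m y (D12_ext ξ) (D12_ext c) i.val

theorem D12_e_e (m t : ℕ) (y : Fin m ↪ Fin (2 * m)) (ξ c : Fin t → Fin m → Bool) :
    D12_e m t y ξ (D12_e m t y ξ c) = c := by
  funext i
  have h : D12_flip m y (D12_ext ξ) (D12_ext (D12_e m t y ξ c)) i.val =
      D12_flip m y (D12_ext ξ) (D12_flip m y (D12_ext ξ) (D12_ext c)) i.val := by
    apply D12_flip_congr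
    intro j hj
    rw [D12_ext_lt _ j (lt_of_le_of_lt hj i.isLt)]
    rfl
  rw [D12_e, h, D12_flip_flip, D12_ext_val]

theorem D12_iter_eq (m t : ℕ) (c : Fin t → Fin m → Bool) (s : ℕ) (hs : s ≤ t) :
    iterPerm m s (fun i => c (Fin.castLE hs i)) = D12_run m (D12_ext c) s := by
  rw [← D12_iterPerm]
  congr 1
  funext i
  rw [D12_ext_lt _ i.val (lt_of_lt_of_le i.isLt hs)]
  rfl

theorem D12_wLayers_eq (m t : ℕ) (y : Fin m ↪ Fin (2 * m)) (c : Fin t → Fin m → Bool) (i : Fin t) :
    wLayers m t y c i = D12_lay m y (D12_ext c) i.val := by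
  unfold wLayers D12_lay
  congr 2
  rw [← D12_iter_eq m t c i.val i.isLt.le]
  rfl

theorem D12_netq_eq (m t : ℕ) (y : Fin m ↪ Fin (2 * m)) (c ξ : Fin t → Fin m → Bool) (s : ℕ)
    (hs : s ≤ t) :
    netq s (fun i => wLayers m t y c (Fin.castLE hs i)) (fun i => ξ (Fin.castLE hs i)) =
      D12_net m y (D12_ext c) (D12_ext ξ) s := by
  rw [← D12_netq]
  congr 1
  · funext i
    rw [D12_wLayers_eq]
    rfl
  · funext i
    rw [D12_ext_lt _ i.val (lt_of_lt_of_le i.isLt hs)]
    rfl

/-- D1_flip (medium-hard; the core of D1, also used by D4): the involution `c ↦ c'` described in D1, as an equivalence, with the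
relation between the two runs at every time `s ≤ t`. -/
theorem D1_flip (m t : ℕ) (y : Fin m ↪ Fin (2 * m)) (ξ : Fin t → Fin m → Bool) :
    ∃ e : (Fin t → Fin m → Bool) ≃ (Fin t → Fin m → Bool),
      ∀ (c : Fin t → Fin m → Bool) (s : ℕ) (hs : s ≤ t),
        (∀ a, iterPerm m s (fun i => e c (Fin.castLE hs i)) (y a) =
          iterPerm m s (fun i => c (Fin.castLE hs i))
            (y (netq s (fun i => wLayers m t y c (Fin.castLE hs i))
              (fun i => ξ (Fin.castLE hs i)) a))) ∧
        (∀ z, z ∉ Set.range y → iterPerm m s (fun i => e c (Fin.castLE hs i)) z =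
          iterPerm m s (fun i => c (Fin.castLE hs i)) z) := by
  refine ⟨⟨D12_e m t y ξ, D12_e m t y ξ, D12_e_e m t y ξ, D12_e_e m t y ξ⟩, ?_⟩
  intro c s hs
  simp only [Equiv.coe_fn_mk]
  rw [D12_iter_eq m t c s hs, D12_iter_eq m t (D12_e m t y ξ c) s hs, D12_netq_eq m t y c ξ s hs]
  have h : D12_run m (D12_ext (D12_e m t y ξ c)) s =
      D12_run m (D12_flip m y (D12_ext ξ) (D12_ext c)) s := by
    apply D12_run_congr
    intro i hi
    rw [D12_ext_lt _ i (lt_of_lt_of_le hi hs)]
    rfl
  rw [h]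
  exact D12_main m y (D12_ext ξ) (D12_ext c) s

/-- D1 -/
theorem D1_decomp (m t : ℕ) (g : Perm (Fin (2 * m))) (F : Perm (Fin (2 * m)) → ℝ) :
    EP m t (fun h => F (h * g)) =
      ex (fun c : Fin t → Fin m → Bool => ex (fun ξ : Fin t → Fin m → Bool =>
        F (iterPerm m t c * g *
          extP m (netq t (wLayers m t ((lab m).trans g.toEmbedding) c) ξ)))) := by
  rw [ex_comm]
  have key : ∀ ξ : Fin t → Fin m → Bool, ex (fun c : Fin t → Fin m → Bool =>
        F (iterPerm m t c * g *
          extP m (netq t (wLayers m t ((lab m).trans g.toEmbedding) c) ξ))) =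
      EP m t (fun h => F (h * g)) := by
    intro ξ
    obtain ⟨e, he⟩ := D1_flip m t ((lab m).trans g.toEmbedding) ξ
    unfold EP
    rw [← ex_equiv e (fun c => F (iterPerm m t c * g))]
    apply ex_congr
    intro c
    congr 1
    obtain ⟨h1, h2⟩ := he c t le_rfl
    have hc : ∀ f : Fin t → Fin m → Bool, (fun i => f (Fin.castLE le_rfl i)) = f := by
      intro f; funext i; rfl
    have hw : (fun i => wLayers m t ((lab m).trans g.toEmbedding) c (Fin.castLE le_rfl i)) =
        wLayers m t ((lab m).trans g.toEmbedding) c := by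
      funext i; rfl
    rw [hc, hc, hw, hc] at h1
    rw [hc, hc] at h2
    ext1 z
    simp only [Perm.mul_apply]
    by_cases hz : z ∈ Set.range (lab m)
    · obtain ⟨a, rfl⟩ := hz
      have := h1 a
      unfold extP
      rw [Equiv.Perm.viaEmbedding_apply]
      exact this.symm
    · unfold extP
      rw [Equiv.Perm.viaEmbedding_apply_of_notMem _ _ _ hz]
      symm
      apply h2
      rintro ⟨a, ha⟩
      exact hz ⟨a, g.injective ha⟩
  rw [ex_congr key, ex_const]

/-! ### relabelling -/

theorem D12_relabel_netq {A I : Type*} (ρ : Perm A) : ∀ (s : ℕ) (L L' : Fin s → Layer A I)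
    (ξ : Fin s → I → Bool), (∀ i a, (L' i).inv a = ρ⁻¹ ((L i).inv (ρ a))) →
    (∀ i a, (L' i).rep a = (L i).rep (ρ a)) → netq s L' ξ = ρ⁻¹ * netq s L ξ * ρ
  | 0, _, _, _, _, _ => by simp [netq]
  | s + 1, L, L', ξ, h1, h2 => by
      simp only [netq]
      rw [D12_relabel_netq ρ s (fun i => L i.castSucc) (fun i => L' i.castSucc)
        (fun i => ξ i.castSucc) (fun i a => h1 _ a) (fun i a => h2 _ a)]
      have h3 : (L' (Fin.last s)).h (ξ (Fin.last s)) =
          ρ⁻¹ * (L (Fin.last s)).h (ξ (Fin.last s)) * ρ := by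
        ext1 a
        simp only [Layer.h, Equiv.coe_fn_mk, Perm.mul_apply]
        rw [h1, h2]
        split <;> simp
      rw [h3]
      group

theorem D12_relabel_netW {A I : Type*} [DecidableEq A] (ρ : Perm A) : ∀ (s : ℕ)
    (L L' : Fin s → Layer A I) (f : A → ℝ) (a : A),
    (∀ i a, (L' i).inv a = ρ⁻¹ ((L i).inv (ρ a))) →
    netW s L' (f ∘ ρ) a = netW s L f (ρ a)
  | 0, _, _, _, _, _ => rfl
  | s + 1, L, L', f, a, h1 => by
      simp only [netW]
      have h3 : layerOp (L' (Fin.last s)) (f ∘ ρ) = (layerOp (L (Fin.last s)) f) ∘ ρ := by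
        funext b
        simp only [layerOp, Function.comp_apply, h1]
        have h4 : (ρ⁻¹ ((L (Fin.last s)).inv (ρ b)) = b) ↔ ((L (Fin.last s)).inv (ρ b) = ρ b) := by
          rw [Perm.inv_eq_iff_eq]
        have h5 : ρ (ρ⁻¹ ((L (Fin.last s)).inv (ρ b))) = (L (Fin.last s)).inv (ρ b) :=
          Equiv.apply_symm_apply ρ _
        simp only [h4, h5]
      rw [h3]
      exact D12_relabel_netW ρ s (fun i => L i.castSucc) (fun i => L' i.castSucc) _ a
        (fun i a => h1 _ a)

theorem D12_posLayer_inv (m : ℕ) (p : Fin m ↪ Fin (2 * m)) (ρ : Perm (Fin m)) (a : Fin m) :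
    (posLayer m (ρ.toEmbedding.trans p)).inv a = ρ⁻¹ ((posLayer m p).inv (ρ a)) := by
  simp only [posLayer]
  by_cases h : ∃ b, p b = prt m (p (ρ a))
  · have h' : ∃ b, (ρ.toEmbedding.trans p) b = prt m ((ρ.toEmbedding.trans p) a) := by
      obtain ⟨b, hb⟩ := h
      refine ⟨ρ⁻¹ b, ?_⟩
      simpa using hb
    rw [dif_pos h', dif_pos h]
    have hs := h.choose_spec
    have hs' := h'.choose_spec
    rw [Perm.eq_inv_iff_eq]
    apply p.injective
    rw [hs]
    exact hs'
  · have h' : ¬ ∃ b, (ρ.toEmbedding.trans p) b = prt m ((ρ.toEmbedding.trans p) a) := by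
      rintro ⟨b, hb⟩
      exact h ⟨ρ b, hb⟩
    rw [dif_neg h', dif_neg h]
    simp

/-- D2 (easy-medium). inv' = ρ⁻¹ ∘ inv ∘ ρ, rep' = rep ∘ ρ for the layers of `ρ.toEmbedding.trans y`; induct. -/
theorem D2_relabel (m t : ℕ) (y : Fin m ↪ Fin (2 * m)) (c ξ : Fin t → Fin m → Bool)
    (ρ : Perm (Fin m)) :
    netq t (wLayers m t (ρ.toEmbedding.trans y) c) ξ = ρ⁻¹ * netq t (wLayers m t y c) ξ * ρ ∧
    ∀ f : Fin m → ℝ, ∀ a, netW t (wLayers m t (ρ.toEmbedding.trans y) c) (f ∘ ρ) a =
      netW t (wLayers m t y c) f (ρ a) := by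
  have h1 : ∀ (i : Fin t) (a : Fin m), (wLayers m t (ρ.toEmbedding.trans y) c i).inv a =
      ρ⁻¹ ((wLayers m t y c i).inv (ρ a)) := by
    intro i a
    unfold wLayers
    rw [← D12_posLayer_inv]
    rfl
  have h2 : ∀ (i : Fin t) (a : Fin m), (wLayers m t (ρ.toEmbedding.trans y) c i).rep a =
      (wLayers m t y c i).rep (ρ a) := by
    intro i a
    rfl
  exact ⟨D12_relabel_netq ρ t _ _ ξ h1 h2, fun f a => D12_relabel_netW ρ t _ _ f a h1⟩

end Crest.Agent.S0222
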