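import Crest.Agent.S0222_Basic
import Crest.Agent.S0222_D12

/-!
Task D4 of S0222 (average environment).  helper39.
-/

set_option autoImplicit false

namespace Crest.Agent.S0222

open Finset Equiv Crest.ProbabilityR.Shuffle

/-! ### the network weight as an average -/

theorem D4_coin {I : Type*} [Fintype I] [DecidableEq I] (i : I) (φ : Bool → ℝ) :
    ex (fun ξ : I → Bool => φ (ξ i)) = (φ true + φ false) / 2 := by
  let e : (I → Bool) ≃ (I → Bool) :=
    { toFun := fun ξ => Function.update ξ i (!ξ i)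
      invFun := fun ξ => Function.update ξ i (!ξ i)
      left_inv := fun ξ => by simp
      right_inv := fun ξ => by simp }
  have h1 : ex (fun ξ : I → Bool => φ (e ξ i)) = ex (fun ξ : I → Bool => φ (ξ i)) :=
    ex_equiv e (fun ξ => φ (ξ i))
  have h2 : ex (fun ξ : I → Bool => φ (ξ i) + φ (e ξ i)) = φ true + φ false := by
    rw [← ex_const (Ω := I → Bool) (φ true + φ false)]
    apply ex_congr
    intro ξ
    simp only [e, Equiv.coe_fn_mk, Function.update_self]
    cases ξ i <;> simp [add_comm]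
  rw [ex_add, h1] at h2
  linarith

/-- weight of a layer at a label -/
noncomputable def D4w {A I : Type*} [DecidableEq A] (L : Layer A I) (a : A) : ℝ :=
  if L.inv a = a then 1 else 3 / 4

theorem D4_layer {A I : Type*} [DecidableEq A] [Fintype I] [DecidableEq I] (L : Layer A I)
    (t : A → ℝ) (a : A) :
    layerOp L t a = D4w L a * ex (fun ξ : I → Bool => t (L.h ξ a)) := by
  have h1 : ex (fun ξ : I → Bool => t (L.h ξ a)) = (t (L.inv a) + t a) / 2 := by
    have h := D4_coin (L.rep a) (fun b => if b then t (L.inv a) else t a)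
    simp only [if_true, Bool.false_eq_true, if_false] at h
    rw [← h]
    apply ex_congr
    intro ξ
    simp only [Layer.h, Equiv.coe_fn_mk]
    cases ξ (L.rep a) <;> simp
  rw [h1]
  unfold layerOp D4w
  by_cases h : L.inv a = a
  · simp [h]
  · simp only [h, if_false]; ring

theorem D4_netW {A I : Type*} [DecidableEq A] [Fintype I] [DecidableEq I] :
    ∀ (s : ℕ) (L : Fin s → Layer A I) (t : A → ℝ) (z : A),
    netW s L t z = ex (fun ξ : Fin s → I → Bool =>
      (∏ i : Fin s, D4w (L i) (netq i.val (fun j => L (Fin.castLE i.isLt.le j))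
        (fun j => ξ (Fin.castLE i.isLt.le j)) z)) * t (netq s L ξ z))
  | 0, L, t, z => by
      rw [ex_unique]; simp [netW, netq]
  | s + 1, L, t, z => by
      rw [netW, D4_netW s, ex_snoc, ex_comm]
      apply ex_congr
      intro g
      rw [D4_layer, ← mul_assoc, ← ex_const_mul]
      apply ex_congr
      intro a
      have hc : ∀ (k : ℕ) (hk : k ≤ s) (j : Fin k),
          (Fin.snoc g a : Fin (s + 1) → I → Bool) (Fin.castLE (hk.trans (Nat.le_succ s)) j)
            = g (Fin.castLE hk j) := by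
        intro k hk j
        have : Fin.castLE (hk.trans (Nat.le_succ s)) j = (Fin.castLE hk j).castSucc := rfl
        rw [this, Fin.snoc_castSucc]
      rw [Fin.prod_univ_castSucc]
      congr 1
      · congr 1
        · apply Finset.prod_congr rfl
          intro i _
          exact congrArg (fun ζ : Fin i.val → I → Bool => D4w (L i.castSucc)
            (netq i.val (fun j => L (Fin.castLE (i.isLt.le.trans (Nat.le_succ s)) j)) ζ z))
            (funext fun j => (hc i.val i.isLt.le j).symm)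
        · exact congrArg (fun ζ : Fin s → I → Bool => D4w (L (Fin.last s))
            (netq s (fun j => L (Fin.castLE (Nat.le_succ s) j)) ζ z))
            (funext fun j => (hc s le_rfl j).symm)
      · simp only [netq, Fin.snoc_last, Fin.snoc_castSucc, Equiv.Perm.mul_apply]

/-! ### matched labels -/

theorem D4_match (m : ℕ) (p : Fin m ↪ Fin (2 * m)) (a : Fin m) :
    (posLayer m p).inv a = a ↔ ¬ ∃ b, p b = prt m (p a) := by
  constructor
  · intro h hex
    have h1 : (posLayer m p).inv a = hex.choose := by simp only [posLayer, hex, dif_pos]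
    have h2 := hex.choose_spec
    rw [← h1, h] at h2
    exact prt_ne m (p a) h2.symm
  · intro h
    simp only [posLayer, h, dif_neg, not_false_iff]

/-- weight of the real run -/
noncomputable def D4G (m t : ℕ) (y : Fin m ↪ Fin (2 * m)) (c : Fin t → Fin m → Bool)
    (z : Fin m) : ℝ :=
  ∏ i : Fin t, if (iterPerm m i.val (fun j => c (Fin.castLE i.isLt.le j))).symm
      (prt m (iterPerm m i.val (fun j => c (Fin.castLE i.isLt.le j)) (y z)))
      ∈ univ.map y then (3 / 4 : ℝ) else 1

theorem D4_flip_avg (m t : ℕ) (y : Fin m ↪ Fin (2 * m)) (z : Fin m)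
    (ξ : Fin t → Fin m → Bool) :
    ex (fun c : Fin t → Fin m → Bool =>
      ∏ i : Fin t, D4w (wLayers m t y c i)
        (netq i.val (fun j => wLayers m t y c (Fin.castLE i.isLt.le j))
        (fun j => ξ (Fin.castLE i.isLt.le j)) z)) =
    ex (fun c : Fin t → Fin m → Bool => D4G m t y c z) := by
  obtain ⟨e, he⟩ := D1_flip m t y ξ
  refine ex_bij e _ _ ?_
  intro c
  unfold D4G
  apply Finset.prod_congr rfl
  intro i _
  obtain ⟨h1, -⟩ := he c i.val i.isLt.le
  have hiff : (wLayers m t y c i).inv (netq i.val (fun j => wLayers m t y c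
        (Fin.castLE i.isLt.le j)) (fun j => ξ (Fin.castLE i.isLt.le j)) z)
        = netq i.val (fun j => wLayers m t y c (Fin.castLE i.isLt.le j))
          (fun j => ξ (Fin.castLE i.isLt.le j)) z ↔
      ¬ ((iterPerm m i.val (fun j => e c (Fin.castLE i.isLt.le j))).symm
      (prt m (iterPerm m i.val (fun j => e c (Fin.castLE i.isLt.le j)) (y z)))
      ∈ univ.map y) := by
    unfold wLayers
    rw [D4_match, not_iff_not]
    constructor
    · rintro ⟨b, hb⟩
      rw [Finset.mem_map]
      refine ⟨(netq i.val (fun j => wLayers m t y c (Fin.castLE i.isLt.le j))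
          (fun j => ξ (Fin.castLE i.isLt.le j))).symm b, mem_univ _, ?_⟩
      rw [Equiv.eq_symm_apply, h1, h1, Equiv.apply_symm_apply]
      exact hb
    · intro h
      rw [Finset.mem_map] at h
      obtain ⟨b, -, hb⟩ := h
      refine ⟨netq i.val (fun j => wLayers m t y c (Fin.castLE i.isLt.le j))
          (fun j => ξ (Fin.castLE i.isLt.le j)) b, ?_⟩
      rw [Equiv.eq_symm_apply, h1, h1] at hb
      exact hb
  unfold D4w
  by_cases h : ((iterPerm m i.val (fun j => e c (Fin.castLE i.isLt.le j))).symm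
      (prt m (iterPerm m i.val (fun j => e c (Fin.castLE i.isLt.le j)) (y z)))
      ∈ univ.map y)
  · rw [if_pos h, if_neg (fun h' => (hiff.1 h') h)]
  · rw [if_neg h, if_pos (hiff.2 h)]

/-! ### bits -/

theorem D4_nat1 (w d i : ℕ) (hi : i ≤ d) : w % 2 ^ d / 2 ^ i = w / 2 ^ i % 2 ^ (d - i) := by
  have h2 : (2 : ℕ) ^ d = 2 ^ i * 2 ^ (d - i) := by rw [← pow_add]; congr 1; omega
  rw [h2, Nat.mod_mul_right_div_self]

theorem D4_nat2 (w d i : ℕ) (hi : i ≤ d) : (w + 2 ^ d) / 2 ^ i = w / 2 ^ i + 2 ^ (d - i) := by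
  have h2 : (2 : ℕ) ^ d = 2 ^ i * 2 ^ (d - i) := by rw [← pow_add]; congr 1; omega
  rw [h2, Nat.add_mul_div_left _ _ (by positivity)]

theorem D4_iter_div (d : ℕ) : ∀ (i : ℕ) (_ : i ≤ d + 1) (c : Fin i → Fin (2 ^ d) → Bool)
    (x : Fin (2 * 2 ^ d)), (iterPerm (2 ^ d) i c x).val / 2 ^ i = x.val % 2 ^ (d + 1 - i)
  | 0, _, c, x => by
      have hx := x.isLt
      have : x.val < 2 ^ (d + 1) := by rw [pow_succ]; omega
      simp [iterPerm, Nat.mod_eq_of_lt this]
  | i + 1, hi, c, x => by
      have ih := D4_iter_div d i (by omega) (fun j => c j.castSucc) x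
      simp only [iterPerm, Equiv.Perm.mul_apply]
      rw [stepPerm_val]
      set w := iterPerm (2 ^ d) i (fun j => c j.castSucc) x with hw
      have h1 : (2 * (w.val % 2 ^ d) + (if xor (decide (2 ^ d ≤ w.val)) (c (Fin.last i) (sw (2 ^ d) w))
          then 1 else 0)) / 2 ^ (i + 1) = (w.val % 2 ^ d) / 2 ^ i := by
        rw [pow_succ, mul_comm (2 ^ i) 2, ← Nat.div_div_eq_div_mul]
        congr 1
        split_ifs <;> omega
      rw [h1]
      rw [D4_nat1 _ _ _ (by omega), ih]
      have h3 : (2 : ℕ) ^ (d + 1 - (i + 1)) = 2 ^ (d - i) := by congr 1; omega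
      rw [h3]
      exact Nat.mod_mod_of_dvd _ (pow_dvd_pow 2 (by omega))

theorem D4_partner (d i : ℕ) (hi : i ≤ d) (K : Perm (Fin (2 * 2 ^ d)))
    (hK : ∀ x : Fin (2 * 2 ^ d), (K x).val / 2 ^ i = x.val % 2 ^ (d + 1 - i))
    (x p : Fin (2 * 2 ^ d)) (hp : K p = prt (2 ^ d) (K x)) :
    p.val % 2 ^ (d - i) = x.val % 2 ^ (d - i) ∧
      p.val % 2 ^ (d + 1 - i) ≠ x.val % 2 ^ (d + 1 - i) := by
  have hpv : (K p).val = if (K x).val < 2 ^ d then (K x).val + 2 ^ d else (K x).val - 2 ^ d := by
    rw [hp, prt_val]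
  have hKx := (K x).isLt
  have hmod : (K p).val % 2 ^ d = (K x).val % 2 ^ d := by
    rw [hpv]
    split_ifs with h
    · simp
    · rw [Nat.mod_eq_sub_mod (by omega : 2 ^ d ≤ (K x).val)]
  constructor
  · have e1 : ∀ u : Fin (2 * 2 ^ d), u.val % 2 ^ (d - i) = (K u).val % 2 ^ d / 2 ^ i := by
      intro u
      rw [D4_nat1 _ _ _ hi, hK]
      exact (Nat.mod_mod_of_dvd _ (pow_dvd_pow 2 (by omega))).symm
    rw [e1 p, e1 x, hmod]
  · rw [← hK p, ← hK x, hpv]
    have hpos : 0 < 2 ^ i := by positivity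
    split_ifs with h
    · rw [D4_nat2 _ _ _ hi]
      have : 0 < 2 ^ (d - i) := by positivity
      omega
    · have h4 : (K x).val / 2 ^ i = ((K x).val - 2 ^ d) / 2 ^ i + 2 ^ (d - i) := by
        rw [← D4_nat2 _ _ _ hi]
        congr 1
        omega
      rw [h4]
      have : 0 < 2 ^ (d - i) := by positivity
      omega

/-! ### random sets -/

theorem D4_reveal {X ι : Type*} [Fintype X] [DecidableEq X] (s : Finset ι) (R : ι → Finset X)
    (x0 : X) (M D : ℕ) (hcard : ∀ i ∈ s, (R i).card = M + 1)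
    (hsym : ∀ p p' : X, p ≠ x0 → p' ≠ x0 → ∀ F : Finset X → ℝ,
      ∑ i ∈ s, F (R i) = ∑ i ∈ s, F ((R i).map (Equiv.swap p p').toEmbedding))
    (θ : ℝ) (hθ : θ * Fintype.card X ≤ (M : ℝ) - D) (hX : 0 < Fintype.card X) :
    ∀ P : Finset X, x0 ∉ P → P.card ≤ D → θ ≤ 4 →
      ∑ i ∈ s, ∏ x ∈ P, (if x ∈ R i then (3 / 4 : ℝ) else 1) ≤ (s.card : ℝ) * (1 - θ / 4) ^ P.card := by
  intro P
  induction P using Finset.induction_on with
  | empty => intro _ _ _; simp
  | insert p P hp ih =>
    intro hx0 hPD hθ4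
    rw [Finset.mem_insert, not_or] at hx0
    rw [Finset.card_insert_of_notMem hp] at hPD ⊢
    have hih := ih hx0.2 (by omega) hθ4
    set u : ι → ℝ := fun i => ∏ x ∈ P, (if x ∈ R i then (3 / 4 : ℝ) else 1) with hu
    have hu0 : ∀ i, 0 ≤ u i := by
      intro i
      apply Finset.prod_nonneg
      intro x _
      split_ifs <;> norm_num
    -- symmetric sums
    have hB : ∀ p' : X, p' ∉ insert x0 P →
        ∑ i ∈ s, u i * (if p' ∈ R i then (1 : ℝ) else 0)
          = ∑ i ∈ s, u i * (if p ∈ R i then (1 : ℝ) else 0) := by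
      intro p' hp'
      rw [Finset.mem_insert, not_or] at hp'
      have h := hsym p p' (Ne.symm hx0.1) hp'.1 (fun S => (∏ x ∈ P, (if x ∈ S then (3 / 4 : ℝ) else 1))
        * (if p' ∈ S then (1 : ℝ) else 0))
      rw [hu]
      simp only
      rw [h]
      apply Finset.sum_congr rfl
      intro i _
      congr 1
      · apply Finset.prod_congr rfl
        intro x hx
        have hxp : x ≠ p := fun h => hp (h ▸ hx)
        have hxp' : x ≠ p' := fun h => hp'.2 (h ▸ hx)
        have : x ∈ (R i).map (Equiv.swap p p').toEmbedding ↔ x ∈ R i := by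
          rw [Finset.mem_map_equiv, Equiv.symm_swap, Equiv.swap_apply_of_ne_of_ne hxp hxp']
        simp only [this]
      · have : p' ∈ (R i).map (Equiv.swap p p').toEmbedding ↔ p ∈ R i := by
          rw [Finset.mem_map_equiv, Equiv.symm_swap, Equiv.swap_apply_right]
        simp only [this]
    have hsum : ((M : ℝ) - D) * ∑ i ∈ s, u i
        ≤ (Fintype.card X : ℝ) * ∑ i ∈ s, u i * (if p ∈ R i then (1 : ℝ) else 0) := by
      have h1 : ∑ p' ∈ (insert x0 P)ᶜ, ∑ i ∈ s, u i * (if p' ∈ R i then (1 : ℝ) else 0)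
          = ((insert x0 P)ᶜ.card : ℝ) * ∑ i ∈ s, u i * (if p ∈ R i then (1 : ℝ) else 0) := by
        rw [Finset.sum_congr rfl (fun p' hp' => hB p' (by simpa using hp')), Finset.sum_const,
          nsmul_eq_mul]
      have h2 : ((insert x0 P)ᶜ.card : ℝ) * ∑ i ∈ s, u i * (if p ∈ R i then (1 : ℝ) else 0)
          ≤ (Fintype.card X : ℝ) * ∑ i ∈ s, u i * (if p ∈ R i then (1 : ℝ) else 0) := by
        apply mul_le_mul_of_nonneg_right
        · exact_mod_cast Finset.card_le_univ _
        · apply Finset.sum_nonneg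
          intro i _
          apply mul_nonneg (hu0 i)
          split_ifs <;> norm_num
      rw [Finset.sum_comm] at h1
      rw [← h1] at h2
      refine le_trans ?_ h2
      rw [Finset.mul_sum]
      apply Finset.sum_le_sum
      intro i hi
      rw [← Finset.mul_sum, mul_comm]
      apply mul_le_mul_of_nonneg_left _ (hu0 i)
      rw [Finset.sum_ite, Finset.sum_const_zero, add_zero, Finset.sum_const, nsmul_eq_mul, mul_one]
      -- card of R i \ insert x0 P
      have h3 : (R i).card ≤ ((insert x0 P)ᶜ.filter (fun x => x ∈ R i)).card + (P.card + 1) := by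
        have h4 : R i ⊆ ((insert x0 P)ᶜ.filter (fun x => x ∈ R i)) ∪ insert x0 P := by
          intro x hx
          by_cases hxP : x ∈ insert x0 P
          · exact Finset.mem_union_right _ hxP
          · apply Finset.mem_union_left
            rw [Finset.mem_filter]
            exact ⟨by simpa using hxP, hx⟩
        calc (R i).card ≤ _ := Finset.card_le_card h4
          _ ≤ _ := Finset.card_union_le _ _
          _ ≤ _ := by
            have := Finset.card_insert_le x0 P
            omega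
      rw [hcard i hi] at h3
      have h5 : (M : ℝ) + 1 ≤ (((insert x0 P)ᶜ.filter (fun x => x ∈ R i)).card : ℝ) + (P.card + 1) := by
        exact_mod_cast h3
      have h6 : (P.card : ℝ) + 1 ≤ D := by exact_mod_cast hPD
      linarith
    have hθ1 : θ * ∑ i ∈ s, u i ≤ ∑ i ∈ s, u i * (if p ∈ R i then (1 : ℝ) else 0) := by
      have hN : (0 : ℝ) < Fintype.card X := by exact_mod_cast hX
      have hS : 0 ≤ ∑ i ∈ s, u i := Finset.sum_nonneg (fun i _ => hu0 i)
      have h7 : (Fintype.card X : ℝ) * (θ * ∑ i ∈ s, u i)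
          ≤ (Fintype.card X : ℝ) * ∑ i ∈ s, u i * (if p ∈ R i then (1 : ℝ) else 0) := by
        calc (Fintype.card X : ℝ) * (θ * ∑ i ∈ s, u i) = (θ * Fintype.card X) * ∑ i ∈ s, u i := by ring
          _ ≤ ((M : ℝ) - D) * ∑ i ∈ s, u i := mul_le_mul_of_nonneg_right hθ hS
          _ ≤ _ := hsum
      exact le_of_mul_le_mul_left h7 hN
    calc ∑ i ∈ s, ∏ x ∈ insert p P, (if x ∈ R i then (3 / 4 : ℝ) else 1)
        = ∑ i ∈ s, (u i - 1 / 4 * (u i * (if p ∈ R i then (1 : ℝ) else 0))) := by
          apply Finset.sum_congr rfl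
          intro i _
          rw [Finset.prod_insert hp, hu]
          simp only
          split_ifs <;> ring
      _ = ∑ i ∈ s, u i - 1 / 4 * ∑ i ∈ s, u i * (if p ∈ R i then (1 : ℝ) else 0) := by
          rw [Finset.sum_sub_distrib, Finset.mul_sum]
      _ ≤ (∑ i ∈ s, u i) * (1 - θ / 4) := by linarith
      _ ≤ ((s.card : ℝ) * (1 - θ / 4) ^ P.card) * (1 - θ / 4) :=
          mul_le_mul_of_nonneg_right hih (by linarith)
      _ = (s.card : ℝ) * (1 - θ / 4) ^ (P.card + 1) := by rw [pow_succ]; ring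

/-- average over the environments, for fixed coins -/
theorem D4_avg_y (d : ℕ) (hd : d + 2 ≤ 2 ^ d) (c : Fin (d + 1) → Fin (2 ^ d) → Bool)
    (z : Fin (2 ^ d)) :
    ex (fun y : Fin (2 ^ d) ↪ Fin (2 * 2 ^ d) => D4G (2 ^ d) (d + 1) y c z) ≤
      (1 - ((2 : ℝ) ^ d - 1 - (d + 1)) / (8 * 2 ^ d)) ^ (d + 1) := by
  classical
  have : Nonempty (Fin (2 ^ d) ↪ Fin (2 * 2 ^ d)) := ⟨lab (2 ^ d)⟩
  have hm : 0 < 2 ^ d := by positivity
  -- the partner
  let K : Fin (d + 1) → Perm (Fin (2 * 2 ^ d)) := fun i =>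
    iterPerm (2 ^ d) i.val (fun j => c (Fin.castLE i.isLt.le j))
  let q : Fin (2 * 2 ^ d) → Fin (d + 1) → Fin (2 * 2 ^ d) := fun x i =>
    (K i).symm (prt (2 ^ d) (K i x))
  have hq : ∀ x i, (q x i).val % 2 ^ (d - i.val) = x.val % 2 ^ (d - i.val) ∧
      (q x i).val % 2 ^ (d + 1 - i.val) ≠ x.val % 2 ^ (d + 1 - i.val) := by
    intro x i
    apply D4_partner d i.val (by omega) (K i)
      (fun x => D4_iter_div d i.val (by omega) _ x)
    simp only [q, Equiv.apply_symm_apply]
  have hqx : ∀ x i, q x i ≠ x := by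
    intro x i h
    exact (hq x i).2 (by rw [h])
  have hqlt : ∀ x (i j : Fin (d + 1)), i < j → q x i ≠ q x j := by
    intro x i j hij h
    apply (hq x j).2
    have h1 := (hq x i).1
    have hij' : i.val < j.val := hij
    have hdvd : 2 ^ (d + 1 - j.val) ∣ 2 ^ (d - i.val) := pow_dvd_pow 2 (by omega)
    rw [← h, ← Nat.mod_mod_of_dvd _ hdvd, h1, Nat.mod_mod_of_dvd _ hdvd]
  have hqinj : ∀ x, Function.Injective (q x) := by
    intro x i j h
    rcases lt_trichotomy i j with hlt | heq | hgt
    · exact absurd h (hqlt x i j hlt)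
    · exact heq
    · exact absurd h.symm (hqlt x j i hgt)
  -- θ
  set θ : ℝ := ((2 : ℝ) ^ d - 1 - (d + 1)) / (2 * 2 ^ d) with hθ
  have h2d : (0 : ℝ) < 2 ^ d := by positivity
  have hd' : (d : ℝ) + 2 ≤ 2 ^ d := by exact_mod_cast hd
  have hθ4 : θ / 4 = ((2 : ℝ) ^ d - 1 - (d + 1)) / (8 * 2 ^ d) := by
    rw [hθ]; field_simp; ring
  have hθle : θ ≤ 4 := by
    rw [hθ, div_le_iff₀ (by positivity)]
    have : (0 : ℝ) ≤ d := by positivity
    linarith
  rw [← hθ4]
  have hfib : ∀ x0 : Fin (2 * 2 ^ d),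
      ∑ y ∈ univ.filter (fun y : Fin (2 ^ d) ↪ Fin (2 * 2 ^ d) => y z = x0),
        D4G (2 ^ d) (d + 1) y c z ≤
      ((univ.filter (fun y : Fin (2 ^ d) ↪ Fin (2 * 2 ^ d) => y z = x0)).card : ℝ)
        * (1 - θ / 4) ^ (d + 1) := by
    intro x0
    have hPc : (univ.image (q x0)).card = d + 1 := by
      rw [Finset.card_image_of_injective _ (hqinj x0), Finset.card_univ, Fintype.card_fin]
    have hx0P : x0 ∉ univ.image (q x0) := by
      rw [Finset.mem_image]
      rintro ⟨i, -, hi⟩
      exact hqx x0 i hi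
    have h := D4_reveal (univ.filter (fun y : Fin (2 ^ d) ↪ Fin (2 * 2 ^ d) => y z = x0))
      (fun y => univ.map y) x0 (2 ^ d - 1) (d + 1)
      (by
        intro y _
        rw [Finset.card_map, Finset.card_univ, Fintype.card_fin]
        omega)
      (by
        intro p p' hp hp' F
        symm
        refine Finset.sum_bij' (fun y _ => y.trans (Equiv.swap p p').toEmbedding)
          (fun y _ => y.trans (Equiv.swap p p').toEmbedding) ?_ ?_ ?_ ?_ ?_
        · intro y hy
          rw [Finset.mem_filter] at hy ⊢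
          refine ⟨mem_univ _, ?_⟩
          simp only [Function.Embedding.trans_apply, Equiv.coe_toEmbedding, hy.2]
          exact Equiv.swap_apply_of_ne_of_ne (Ne.symm hp) (Ne.symm hp')
        · intro y hy
          rw [Finset.mem_filter] at hy ⊢
          refine ⟨mem_univ _, ?_⟩
          simp only [Function.Embedding.trans_apply, Equiv.coe_toEmbedding, hy.2]
          exact Equiv.swap_apply_of_ne_of_ne (Ne.symm hp) (Ne.symm hp')
        · intro y _
          ext a
          simp
        · intro y _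
          ext a
          simp
        · intro y _
          simp only [Finset.map_map])
      θ
      (by
        rw [Fintype.card_fin, Nat.cast_sub (by omega)]
        push_cast
        rw [hθ, div_mul_cancel₀ _ (by positivity)])
      (by rw [Fintype.card_fin]; omega)
      (univ.image (q x0)) hx0P (by rw [hPc]) hθle
    rw [hPc] at h
    refine le_trans (le_of_eq ?_) h
    apply Finset.sum_congr rfl
    intro y hy
    rw [Finset.mem_filter] at hy
    rw [Finset.prod_image (fun i _ j _ hij => hqinj x0 hij)]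
    unfold D4G
    apply Finset.prod_congr rfl
    intro i _
    simp only [q, K, hy.2]
  unfold ex
  rw [div_le_iff₀ (by exact_mod_cast Fintype.card_pos)]
  rw [← Finset.sum_fiberwise_of_maps_to (s := univ) (t := univ)
    (g := fun y : Fin (2 ^ d) ↪ Fin (2 * 2 ^ d) => y z) (fun _ _ => mem_univ _)]
  refine le_trans (Finset.sum_le_sum (fun x0 _ => hfib x0)) ?_
  rw [← Finset.sum_mul, mul_comm]
  apply le_of_eq
  congr 1
  rw [← Nat.cast_sum]
  congr 1
  rw [← Finset.card_eq_sum_card_fiberwise (fun _ _ => mem_univ _), Finset.card_univ]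

theorem D4_envG (d : ℕ) (hd : d + 2 ≤ 2 ^ d) :
    ex (fun e : Env d => envG d e) ≤
      2 ^ d * (1 - ((2 : ℝ) ^ d - 1 - (d + 1)) / (8 * 2 ^ d)) ^ (d + 1) := by
  unfold envG
  rw [ex_sum]
  have h1 : ∀ z : Fin (2 ^ d), ex (fun e : Env d =>
      netW (d + 1) (wLayers (2 ^ d) (d + 1) e.1 e.2) (fun _ => 1) z) ≤
      (1 - ((2 : ℝ) ^ d - 1 - (d + 1)) / (8 * 2 ^ d)) ^ (d + 1) := by
    intro z
    have h2 : ex (fun e : Env d =>
        netW (d + 1) (wLayers (2 ^ d) (d + 1) e.1 e.2) (fun _ => 1) z) =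
        ex (fun c : Fin (d + 1) → Fin (2 ^ d) → Bool =>
          ex (fun y : Fin (2 ^ d) ↪ Fin (2 * 2 ^ d) => D4G (2 ^ d) (d + 1) y c z)) := by
      rw [ex_prod, ex_comm (fun (c : Fin (d + 1) → Fin (2 ^ d) → Bool)
        (y : Fin (2 ^ d) ↪ Fin (2 * 2 ^ d)) => D4G (2 ^ d) (d + 1) y c z)]
      apply ex_congr
      intro y
      simp only [D4_netW, mul_one]
      rw [ex_comm]
      rw [ex_congr (fun ξ => D4_flip_avg (2 ^ d) (d + 1) y z ξ), ex_const]
    rw [h2]
    exact ex_le_const (fun c => D4_avg_y d hd c z)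
  refine le_trans (Finset.sum_le_sum (fun z _ => h1 z)) ?_
  rw [Finset.sum_const, Finset.card_univ, Fintype.card_fin, nsmul_eq_mul]
  push_cast
  exact le_rfl

end Crest.Agent.S0222
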