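import Crest.Agent.S0222_Defs
import Crest.Agent.S0222_Basic
import Crest.Agent.S0222_D12

/-!
S0222-D5 : the hybrid argument.  Author: helper87.
-/

set_option autoImplicit false
set_option linter.unusedVariables false

namespace Crest.Agent.S0222

open Finset Equiv Crest.ProbabilityR.Shuffle

/-! ### small facts -/

theorem D5_extP_mul (m : ℕ) (u v : Perm (Fin m)) : extP m (u * v) = extP m u * extP m v := by
  have := (Equiv.Perm.viaEmbeddingHom (lab m)).map_mul u v
  simpa [extP, Equiv.Perm.viaEmbeddingHom_apply] using this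

theorem D5_extP_one (m : ℕ) : extP m 1 = 1 := by
  have := (Equiv.Perm.viaEmbeddingHom (lab m)).map_one
  simpa [extP, Equiv.Perm.viaEmbeddingHom_apply] using this

/-- the non labels -/
def D5_up (m : ℕ) : Fin m ↪ Fin (2 * m) := ⟨fun a => ⟨a.val + m, by have := a.isLt; omega⟩, fun a b h => by
  apply Fin.ext
  have := congrArg (fun z : Fin (2*m) => z.val) h
  simp at this; omega⟩

theorem D5_range_lab (m : ℕ) (z : Fin (2 * m)) : z ∈ Set.range (lab m) ↔ z.val < m := by
  constructor
  · rintro ⟨a, rfl⟩; exact a.isLt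
  · intro h; exact ⟨⟨z.val, h⟩, rfl⟩

/-- a permutation fixing all non-labels is an extension -/
theorem D5_exists_ext (m : ℕ) (k : Perm (Fin (2 * m))) (hk : ∀ i, k (D5_up m i) = D5_up m i) :
    ∃ w : Perm (Fin m), extP m w = k := by
  have hk' : ∀ z : Fin (2 * m), m ≤ z.val → k z = z := by
    intro z hz
    have h1 := z.isLt
    have : z = D5_up m ⟨z.val - m, by omega⟩ := by
      apply Fin.ext; simp [D5_up]; omega
    rw [this]; exact hk _
  have hlt : ∀ a : Fin m, (k (lab m a)).val < m := by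
    intro a
    by_contra hcon
    have h2 : k (k (lab m a)) = k (lab m a) := hk' _ (by omega)
    have h3 := k.injective h2
    have : (k (lab m a)).val = a.val := by rw [h3]; rfl
    have := a.isLt
    omega
  let f : Fin m → Fin m := fun a => ⟨(k (lab m a)).val, hlt a⟩
  have hf : ∀ a, lab m (f a) = k (lab m a) := fun a => Fin.ext rfl
  have hinj : Function.Injective f := by
    intro a b hab
    have : k (lab m a) = k (lab m b) := by rw [← hf, ← hf, hab]
    exact (lab m).injective (k.injective this)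
  refine ⟨Equiv.ofBijective f (Finite.injective_iff_bijective.1 hinj), ?_⟩
  ext1 z
  by_cases hz : z.val < m
  · obtain ⟨a, rfl⟩ := (D5_range_lab m z).2 hz
    unfold extP
    rw [Equiv.Perm.viaEmbedding_apply]
    exact hf a
  · unfold extP
    rw [Equiv.Perm.viaEmbedding_apply_of_notMem _ _ _ (by rw [D5_range_lab]; exact hz)]
    exact (hk' z (by omega)).symm

theorem D5_exists_perm (m : ℕ) (x y : Fin m ↪ Fin (2 * m)) :
    ∃ k : Perm (Fin (2 * m)), ∀ i, k (x i) = y i := by
  have : MulAction.IsMultiplyPretransitive (Perm (Fin (2 * m))) (Fin (2 * m)) m :=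
    Equiv.Perm.isMultiplyPretransitive (Fin (2 * m)) m
  obtain ⟨g, hg⟩ := MulAction.exists_smul_eq (Perm (Fin (2*m))) x y
  exact ⟨g, fun i => by rw [← hg]; rfl⟩

instance D5_nonempty (m : ℕ) : Nonempty (Fin m ↪ Fin (2 * m)) := ⟨lab m⟩

/-- average over permutations of a function of the images of `x` -/
theorem D5_ex_perm (m : ℕ) (χ : (Fin m ↪ Fin (2 * m)) → ℝ) (x : Fin m ↪ Fin (2 * m)) :
    ex (fun h : Perm (Fin (2 * m)) => χ (x.trans h.toEmbedding)) = ex χ := by
  have h1 : ∀ y : Fin m ↪ Fin (2 * m),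
      ex (fun h : Perm (Fin (2 * m)) => χ (y.trans h.toEmbedding)) =
      ex (fun h : Perm (Fin (2 * m)) => χ (x.trans h.toEmbedding)) := by
    intro y
    obtain ⟨k, hk⟩ := D5_exists_perm m x y
    have : y = x.trans k.toEmbedding := by
      ext i; simp [hk]
    rw [← ex_equiv (Equiv.mulRight k) (fun h : Perm (Fin (2 * m)) => χ (x.trans h.toEmbedding))]
    apply ex_congr; intro h
    congr 1
    ext i
    simp [this]
  have h2 : ex (fun y : Fin m ↪ Fin (2 * m) =>
      ex (fun h : Perm (Fin (2 * m)) => χ (y.trans h.toEmbedding))) =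
      ex (fun h : Perm (Fin (2 * m)) => χ (x.trans h.toEmbedding)) := by
    rw [ex_congr h1, ex_const]
  rw [← h2, ex_comm]
  have h3 : ∀ h : Perm (Fin (2 * m)),
      ex (fun y : Fin m ↪ Fin (2 * m) => χ (y.trans h.toEmbedding)) = ex χ := by
    intro h
    let e : (Fin m ↪ Fin (2 * m)) ≃ (Fin m ↪ Fin (2 * m)) :=
      { toFun := fun y => y.trans h.toEmbedding
        invFun := fun y => y.trans h.symm.toEmbedding
        left_inv := fun y => by ext i; simp
        right_inv := fun y => by ext i; simp }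
    exact ex_equiv e χ
  rw [ex_congr h3, ex_const]

/-- expectation of a function of the images of `x`, compared to the uniform average -/
theorem D5_mix (m T : ℕ) (P B : ℝ) (x : Fin m ↪ Fin (2 * m))
    (hPM : ∑ y : Fin m ↪ Fin (2 * m),
      |EP m T (fun g => if (∀ i, g (x i) = y i) then 1 else 0)
        - 1 / (Fintype.card (Fin m ↪ Fin (2 * m)) : ℝ)| ≤ P)
    (χ : (Fin m ↪ Fin (2 * m)) → ℝ) (hB : 0 ≤ B) (hχ : ∀ y, |χ y| ≤ B) :
    |EP m T (fun g => χ (x.trans g.toEmbedding)) - ex χ| ≤ P * B := by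
  have h1 : EP m T (fun g => χ (x.trans g.toEmbedding)) =
      ∑ y : Fin m ↪ Fin (2 * m),
        EP m T (fun g => if (∀ i, g (x i) = y i) then 1 else 0) * χ y := by
    have : ∀ y, EP m T (fun g => if (∀ i, g (x i) = y i) then 1 else 0) * χ y =
        EP m T (fun g => (if (∀ i, g (x i) = y i) then 1 else 0) * χ y) := by
      intro y
      unfold EP
      rw [ex_mul_const]
    simp only [this]
    rw [← EP_sum]
    apply EP_congr; intro g
    rw [Finset.sum_eq_single (x.trans g.toEmbedding)]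
    · simp
    · intro y _ hy
      have : ¬ ∀ i, g (x i) = y i := by
        intro h
        apply hy
        ext i; simp [h]
      simp [this]
    · intro h; exact absurd (Finset.mem_univ _) h
  have h2 : ex χ = ∑ y : Fin m ↪ Fin (2 * m),
      1 / (Fintype.card (Fin m ↪ Fin (2 * m)) : ℝ) * χ y := by
    unfold ex
    rw [← Finset.mul_sum]; ring
  rw [h1, h2, ← Finset.sum_sub_distrib]
  simp only [← sub_mul]
  calc |∑ y : Fin m ↪ Fin (2 * m), (EP m T (fun g => if (∀ i, g (x i) = y i) then 1 else 0)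
        - 1 / (Fintype.card (Fin m ↪ Fin (2 * m)) : ℝ)) * χ y|
      ≤ ∑ y : Fin m ↪ Fin (2 * m), |(EP m T (fun g => if (∀ i, g (x i) = y i) then 1 else 0)
        - 1 / (Fintype.card (Fin m ↪ Fin (2 * m)) : ℝ)) * χ y| := Finset.abs_sum_le_sum_abs _ _
    _ ≤ ∑ y : Fin m ↪ Fin (2 * m), |EP m T (fun g => if (∀ i, g (x i) = y i) then 1 else 0)
        - 1 / (Fintype.card (Fin m ↪ Fin (2 * m)) : ℝ)| * B := by
        apply Finset.sum_le_sum; intro y _
        rw [abs_mul]
        exact mul_le_mul_of_nonneg_left (hχ y) (abs_nonneg _)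
    _ ≤ P * B := by
        rw [← Finset.sum_mul]
        exact mul_le_mul_of_nonneg_right hPM hB

/-! ### laws of the private permutations -/

theorem D5_envLaw_nonneg (d : ℕ) (e : Env d) (w : Perm (Fin (2 ^ d))) : 0 ≤ envLaw d e w := by
  unfold envLaw
  apply ex_nonneg; intro ξ; split <;> norm_num

theorem D5_envLaw_sum (d : ℕ) (e : Env d) : ∑ w, envLaw d e w = 1 := by
  unfold envLaw
  rw [← ex_sum]
  have : ∀ ξ : Fin (d + 1) → Fin (2 ^ d) → Bool,
      ∑ w, (if envq d e ξ = w then (1 : ℝ) else 0) = 1 := by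
    intro ξ; simp
  rw [ex_congr this, ex_const]

theorem D5_conv_norm (d : ℕ) (e : Env d) (ρ : Perm (Fin (2 ^ d)) → ℝ) :
    ∑ w, |conv (envLaw d e) ρ w| ≤ ∑ w, |ρ w| := by
  have h := conv_abs_le (envLaw d e) ρ
  have h2 : ∑ w, |envLaw d e w| = 1 := by
    rw [← D5_envLaw_sum d e]
    exact Finset.sum_congr rfl fun w _ => abs_of_nonneg (D5_envLaw_nonneg d e w)
  rw [h2, one_mul] at h
  exact h

theorem D5_idl_nonneg (d : ℕ) : ∀ (r : ℕ) (ρ : Perm (Fin (2 ^ d)) → ℝ), 0 ≤ idl d r ρ
  | 0, ρ => Finset.sum_nonneg fun _ _ => abs_nonneg _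
  | r + 1, ρ => ex_nonneg fun _ => D5_idl_nonneg d r _

theorem D5_idl_le (d : ℕ) : ∀ (r : ℕ) (ρ : Perm (Fin (2 ^ d)) → ℝ), idl d r ρ ≤ ∑ w, |ρ w|
  | 0, ρ => le_refl _
  | r + 1, ρ => ex_le_const fun e => (D5_idl_le d r _).trans (D5_conv_norm d e ρ)

/-- convolution against the law of the private permutation -/
theorem D5_conv_ex (d : ℕ) (e : Env d) (ρ : Perm (Fin (2 ^ d)) → ℝ)
    (Φ : Perm (Fin (2 ^ d)) → ℝ) :
    ∑ w, ρ w * ex (fun ξ : Fin (d + 1) → Fin (2 ^ d) → Bool => Φ (envq d e ξ * w)) =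
      ∑ v, conv (envLaw d e) ρ v * Φ v := by
  have h1 : ∀ w, ex (fun ξ : Fin (d + 1) → Fin (2 ^ d) → Bool => Φ (envq d e ξ * w)) =
      ∑ u, envLaw d e u * Φ (u * w) := by
    intro w
    unfold envLaw
    simp only [← ex_mul_const]
    rw [← ex_sum]
    apply ex_congr; intro ξ
    simp
  simp only [h1, conv, Finset.mul_sum, Finset.sum_mul]
  rw [Finset.sum_comm]
  rw [Finset.sum_comm (f := fun v u => envLaw d e u * ρ (u⁻¹ * v) * Φ v)]
  apply Finset.sum_congr rfl; intro u _
  rw [← Equiv.sum_comp (Equiv.mulLeft u) (fun v => envLaw d e u * ρ (u⁻¹ * v) * Φ v)]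
  apply Finset.sum_congr rfl; intro w _
  simp only [Equiv.coe_mulLeft, inv_mul_cancel_left]
  ring

/-! ### the hybrid argument -/

/-- statement of D1, as a hypothesis -/
def D5_D1 (m t : ℕ) : Prop := ∀ (g : Perm (Fin (2 * m))) (F : Perm (Fin (2 * m)) → ℝ),
    EP m t (fun h => F (h * g)) =
      ex (fun c : Fin t → Fin m → Bool => ex (fun ξ : Fin t → Fin m → Bool =>
        F (iterPerm m t c * g *
          extP m (netq t (wLayers m t ((lab m).trans g.toEmbedding) c) ξ))))

theorem D5_step (d T : ℕ) (P : ℝ) (hD1 : D5_D1 (2 ^ d) (d + 1))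
    (hPM : ∀ x : Fin (2 ^ d) ↪ Fin (2 * 2 ^ d), ∑ y : Fin (2 ^ d) ↪ Fin (2 * 2 ^ d),
      |EP (2 ^ d) T (fun g => if (∀ i, g (x i) = y i) then 1 else 0)
        - 1 / (Fintype.card (Fin (2 ^ d) ↪ Fin (2 * 2 ^ d)) : ℝ)| ≤ P) :
    ∀ (r : ℕ) (F : Perm (Fin (2 * 2 ^ d)) → ℝ) (hF : ∀ g, |F g| ≤ 1)
      (e : Perm (Fin (2 * 2 ^ d))) (ρ : Perm (Fin (2 ^ d)) → ℝ),
      |∑ w, ρ w * EP (2 ^ d) (r * (T + (d + 1))) (fun h => F (h * (e * extP (2 ^ d) w)))| ≤
        idl d r ρ + r * P * ∑ w, |ρ w|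
  | 0, F, hF, e, ρ => by
      simp only [Nat.cast_zero, zero_mul, add_zero, EP_zero, one_mul, idl]
      refine (Finset.abs_sum_le_sum_abs _ _).trans ?_
      apply Finset.sum_le_sum; intro w _
      rw [abs_mul]
      calc |ρ w| * |F (e * extP (2 ^ d) w)| ≤ |ρ w| * 1 :=
            mul_le_mul_of_nonneg_left (hF _) (abs_nonneg _)
        _ = |ρ w| := mul_one _
  | r + 1, F, hF, e, ρ => by
      have hP : 0 ≤ P := le_trans (Finset.sum_nonneg fun _ _ => abs_nonneg _) (hPM (lab _))
      have hS : 0 ≤ ∑ w, |ρ w| := Finset.sum_nonneg fun _ _ => abs_nonneg _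
      -- the function of the embedding and the coins
      let ψ : (Fin (2 ^ d) ↪ Fin (2 * 2 ^ d)) → ℝ := fun y =>
        ex (fun c : Fin (d + 1) → Fin (2 ^ d) → Bool => idl d r (conv (envLaw d (y, c)) ρ))
      have hψ0 : ∀ y, 0 ≤ ψ y := fun y => ex_nonneg fun c => D5_idl_nonneg d r _
      have hψ1 : ∀ y, ψ y ≤ ∑ w, |ρ w| := fun y =>
        ex_le_const fun c => (D5_idl_le d r _).trans (D5_conv_norm d (y, c) ρ)
      have hψ : ∀ y, |ψ y| ≤ ∑ w, |ρ w| := fun y => by
        rw [abs_of_nonneg (hψ0 y)]; exact hψ1 y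
      have hidl : idl d (r + 1) ρ = ex ψ := by
        simp only [idl]
        rw [ex_prod]
      -- expansion of the block
      have hN : (r + 1) * (T + (d + 1)) = T + ((d + 1) + r * (T + (d + 1))) := by ring
      let Φ : Perm (Fin (2 * 2 ^ d)) → ℝ := fun g =>
        EP (2 ^ d) (r * (T + (d + 1))) (fun h => F (h * g))
      have hexp : ∀ w, EP (2 ^ d) ((r + 1) * (T + (d + 1)))
          (fun h => F (h * (e * extP (2 ^ d) w))) =
          EP (2 ^ d) T (fun R => ex (fun c : Fin (d + 1) → Fin (2 ^ d) → Bool =>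
            ex (fun ξ : Fin (d + 1) → Fin (2 ^ d) → Bool =>
              Φ (iterPerm (2 ^ d) (d + 1) c * (R * e) * extP (2 ^ d)
                (envq d ((lab (2 ^ d)).trans (R * e : Perm _).toEmbedding, c) ξ * w))))) := by
        intro w
        rw [hN, EP_add]
        apply EP_congr; intro R
        rw [EP_add]
        have := hD1 (R * e) (fun g => Φ (g * extP (2 ^ d) w))
        rw [show (fun g => EP (2 ^ d) (r * (T + (d + 1)))
            (fun h => F (h * g * R * (e * extP (2 ^ d) w)))) =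
            (fun h => Φ (h * (R * e) * extP (2 ^ d) w)) from ?_]
        · rw [this]
          apply ex_congr; intro c; apply ex_congr; intro ξ
          rw [D5_extP_mul]
          simp only [envq, mul_assoc]
        · funext g
          simp only [Φ, mul_assoc]
      have hLHS : ∑ w, ρ w * EP (2 ^ d) ((r + 1) * (T + (d + 1)))
          (fun h => F (h * (e * extP (2 ^ d) w))) =
          EP (2 ^ d) T (fun R => ex (fun c : Fin (d + 1) → Fin (2 ^ d) → Bool =>
            ∑ v, conv (envLaw d ((lab (2 ^ d)).trans (R * e : Perm _).toEmbedding, c)) ρ v *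
              Φ (iterPerm (2 ^ d) (d + 1) c * (R * e) * extP (2 ^ d) v))) := by
        simp only [hexp]
        simp only [← EP_const_mul]
        rw [← EP_sum]
        apply EP_congr; intro R
        simp only [← ex_const_mul]
        rw [← ex_sum]
        apply ex_congr; intro c
        rw [← D5_conv_ex d ((lab (2 ^ d)).trans (R * e : Perm _).toEmbedding, c) ρ
          (fun v => Φ (iterPerm (2 ^ d) (d + 1) c * (R * e) * extP (2 ^ d) v))]
        apply Finset.sum_congr rfl; intro w _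
        rw [ex_const_mul]
      rw [hLHS, hidl]
      -- the induction hypothesis
      have hbound : |EP (2 ^ d) T (fun R => ex (fun c : Fin (d + 1) → Fin (2 ^ d) → Bool =>
            ∑ v, conv (envLaw d ((lab (2 ^ d)).trans (R * e : Perm _).toEmbedding, c)) ρ v *
              Φ (iterPerm (2 ^ d) (d + 1) c * (R * e) * extP (2 ^ d) v)))| ≤
          EP (2 ^ d) T (fun R => ψ (((lab (2 ^ d)).trans e.toEmbedding).trans R.toEmbedding)) +
            r * P * ∑ w, |ρ w| := by
        have h1 : ∀ R : Perm (Fin (2 * 2 ^ d)),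
            |ex (fun c : Fin (d + 1) → Fin (2 ^ d) → Bool =>
            ∑ v, conv (envLaw d ((lab (2 ^ d)).trans (R * e : Perm _).toEmbedding, c)) ρ v *
              Φ (iterPerm (2 ^ d) (d + 1) c * (R * e) * extP (2 ^ d) v))| ≤
            ψ (((lab (2 ^ d)).trans e.toEmbedding).trans R.toEmbedding) +
              r * P * ∑ w, |ρ w| := by
          intro R
          refine (abs_ex_le _).trans ?_
          have hemb : (lab (2 ^ d)).trans (R * e : Perm _).toEmbedding =
              ((lab (2 ^ d)).trans e.toEmbedding).trans R.toEmbedding := by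
            ext i; simp
          rw [hemb]
          calc _ ≤ ex (fun c : Fin (d + 1) → Fin (2 ^ d) → Bool =>
                idl d r (conv (envLaw d (((lab (2 ^ d)).trans e.toEmbedding).trans
                  R.toEmbedding, c)) ρ) + r * P * ∑ w, |ρ w|) := by
                apply ex_mono; intro c
                have ih := D5_step d T P hD1 hPM r F hF
                  (iterPerm (2 ^ d) (d + 1) c * (R * e))
                  (conv (envLaw d (((lab (2 ^ d)).trans e.toEmbedding).trans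
                  R.toEmbedding, c)) ρ)
                refine ih.trans ?_
                have h3 := D5_conv_norm d (((lab (2 ^ d)).trans e.toEmbedding).trans
                  R.toEmbedding, c) ρ
                have h4 : (0 : ℝ) ≤ r * P := mul_nonneg (Nat.cast_nonneg _) hP
                have h5 := mul_le_mul_of_nonneg_left h3 h4
                linarith
            _ = _ := by
                rw [ex_add, ex_const]
        calc _ ≤ EP (2 ^ d) T (fun R => ψ (((lab (2 ^ d)).trans e.toEmbedding).trans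
              R.toEmbedding) + r * P * ∑ w, |ρ w|) := by
              refine (abs_ex_le _).trans ?_
              exact ex_mono fun cs => h1 _
          _ = _ := by rw [EP_add_fun, EP_const]
      have hmix := D5_mix (2 ^ d) T P (∑ w, |ρ w|) ((lab (2 ^ d)).trans e.toEmbedding)
        (hPM _) ψ hS hψ
      have hmix' := (abs_le.1 hmix).2
      push_cast
      linarith

theorem D5_rho0_norm (d : ℕ) : ∑ w, |rho0 d w| ≤ 2 := by
  have h1 : ∀ w : Perm (Fin (2 ^ d)), |rho0 d w| ≤
      (if w = 1 then 1 else 0) + 1 / (((2 ^ d).factorial : ℕ) : ℝ) := by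
    intro w
    unfold rho0
    refine (abs_sub _ _).trans ?_
    apply le_of_eq
    congr 1
    · split <;> simp
    · exact abs_of_nonneg (by positivity)
  refine (Finset.sum_le_sum fun w _ => h1 w).trans ?_
  rw [Finset.sum_add_distrib]
  simp only [Finset.sum_ite_eq', Finset.mem_univ, if_true, Finset.sum_const, Finset.card_univ,
    Fintype.card_perm, Fintype.card_fin, nsmul_eq_mul]
  have : (((2 ^ d).factorial : ℕ) : ℝ) ≠ 0 := by exact_mod_cast Nat.factorial_ne_zero _
  rw [mul_one_div_cancel this]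
  norm_num

theorem D5_rho0_sum (d : ℕ) (X : Perm (Fin (2 ^ d)) → ℝ) :
    ∑ w, rho0 d w * X w = X 1 - ex X := by
  unfold rho0 ex
  simp only [sub_mul, Finset.sum_sub_distrib, ite_mul, one_mul, zero_mul, Finset.sum_ite_eq',
    Finset.mem_univ, if_true]
  congr 1
  rw [← Finset.mul_sum, Fintype.card_perm, Fintype.card_fin]
  ring

/-- last randomizer -/
theorem D5_last (m T : ℕ) (P : ℝ)
    (hPM : ∀ x : Fin m ↪ Fin (2 * m), ∑ y : Fin m ↪ Fin (2 * m),
      |EP m T (fun g => if (∀ i, g (x i) = y i) then 1 else 0)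
        - 1 / (Fintype.card (Fin m ↪ Fin (2 * m)) : ℝ)| ≤ P)
    (F : Perm (Fin (2 * m)) → ℝ) (hF : ∀ g, |F g| ≤ 1) (g : Perm (Fin (2 * m))) :
    |ex (fun w : Perm (Fin m) => EP m T (fun R => F (R * (g * extP m w)))) - ex F| ≤ P := by
  let Ψ : Perm (Fin (2 * m)) → ℝ := fun h => ex (fun w : Perm (Fin m) => F (h * extP m w))
  have hΨ1 : ∀ h, |Ψ h| ≤ 1 := fun h =>
    (abs_ex_le _).trans (ex_le_const fun w => hF _)
  have hΨinv : ∀ h k : Perm (Fin (2 * m)), (∀ i, h (D5_up m i) = k (D5_up m i)) → Ψ h = Ψ k := by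
    intro h k hhk
    obtain ⟨w, hw⟩ := D5_exists_ext m (h⁻¹ * k) (fun i => by
      rw [Equiv.Perm.mul_apply, ← hhk]
      exact h.symm_apply_apply _)
    have hk : k = h * extP m w := by rw [hw]; group
    simp only [Ψ]
    rw [hk, ← ex_equiv (Equiv.mulLeft w) (fun w => F (h * extP m w))]
    apply ex_congr; intro v
    rw [Equiv.coe_mulLeft, D5_extP_mul, mul_assoc]
  choose κ hκ using fun y : Fin m ↪ Fin (2 * m) => D5_exists_perm m (D5_up m) y
  let χ : (Fin m ↪ Fin (2 * m)) → ℝ := fun y => Ψ (κ y)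
  have hχ : ∀ h : Perm (Fin (2 * m)), χ ((D5_up m).trans h.toEmbedding) = Ψ h := by
    intro h
    apply hΨinv
    intro i
    rw [hκ]
    rfl
  have hexF : ex F = ex χ := by
    rw [← D5_ex_perm m χ (D5_up m)]
    rw [ex_congr hχ]
    simp only [Ψ]
    rw [ex_comm]
    have : ∀ w : Perm (Fin m), ex (fun h : Perm (Fin (2 * m)) => F (h * extP m w)) = ex F :=
      fun w => ex_equiv (Equiv.mulRight (extP m w)) F
    rw [ex_congr this, ex_const]
  have hEP : ex (fun w : Perm (Fin m) => EP m T (fun R => F (R * (g * extP m w)))) =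
      EP m T (fun R => χ (((D5_up m).trans g.toEmbedding).trans R.toEmbedding)) := by
    unfold EP
    rw [ex_comm]
    apply ex_congr; intro cs
    have : ((D5_up m).trans g.toEmbedding).trans (iterPerm m T cs).toEmbedding =
        (D5_up m).trans (iterPerm m T cs * g : Perm _).toEmbedding := by
      ext i; simp
    show ex (fun a => F (iterPerm m T cs * (g * extP m a))) =
      χ (((D5_up m).trans g.toEmbedding).trans (iterPerm m T cs).toEmbedding)
    rw [this, hχ]
    simp only [Ψ, mul_assoc]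
  rw [hEP, hexF]
  have := D5_mix m T P 1 ((D5_up m).trans g.toEmbedding) (hPM _) χ zero_le_one
    (fun y => hΨ1 _)
  rwa [mul_one] at this

theorem D5_core (d T r : ℕ) (P : ℝ) (hD1 : D5_D1 (2 ^ d) (d + 1))
    (hPM : ∀ x : Fin (2 ^ d) ↪ Fin (2 * 2 ^ d), ∑ y : Fin (2 ^ d) ↪ Fin (2 * 2 ^ d),
      |EP (2 ^ d) T (fun g => if (∀ i, g (x i) = y i) then 1 else 0)
        - 1 / (Fintype.card (Fin (2 ^ d) ↪ Fin (2 * 2 ^ d)) : ℝ)| ≤ P) :
    ∑ h : Perm (Fin (2 * 2 ^ d)),
      |EP (2 ^ d) ((r + 1) * T + r * (d + 1)) (fun g => if g = h then 1 else 0)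
        - 1 / (((2 * 2 ^ d).factorial : ℕ) : ℝ)| ≤ idl d r (rho0 d) + (2 * r + 1) * P := by
  have hP : 0 ≤ P := le_trans (Finset.sum_nonneg fun _ _ => abs_nonneg _) (hPM (lab _))
  set N : ℕ := (r + 1) * T + r * (d + 1) with hNdef
  have hN : N = r * (T + (d + 1)) + T := by rw [hNdef]; ring
  let a : Perm (Fin (2 * 2 ^ d)) → ℝ := fun h =>
    EP (2 ^ d) N (fun g => if g = h then 1 else 0) - 1 / (((2 * 2 ^ d).factorial : ℕ) : ℝ)
  let F : Perm (Fin (2 * 2 ^ d)) → ℝ := fun h => if 0 ≤ a h then 1 else -1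
  have hF : ∀ g, |F g| ≤ 1 := by
    intro g; simp only [F]; split <;> simp
  have haF : ∀ h, |a h| = EP (2 ^ d) N (fun g => if g = h then 1 else 0) * F h -
      1 / (((2 * 2 ^ d).factorial : ℕ) : ℝ) * F h := by
    intro h
    have : EP (2 ^ d) N (fun g => if g = h then 1 else 0) * F h -
      1 / (((2 * 2 ^ d).factorial : ℕ) : ℝ) * F h = a h * F h := by
      simp only [a]; ring
    rw [this]
    by_cases h0 : 0 ≤ a h
    · simp [F, h0, abs_of_nonneg]
    · simp only [F, h0, if_false, mul_neg, mul_one]; exact abs_of_neg (not_le.1 h0)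
  have hsum : ∑ h, |a h| = EP (2 ^ d) N F - ex F := by
    simp only [haF]
    rw [Finset.sum_sub_distrib, ← EP_eq_sum]
    congr 1
    unfold ex
    rw [← Finset.mul_sum, Fintype.card_perm, Fintype.card_fin]
    ring
  show ∑ h, |a h| ≤ _
  rw [hsum]
  -- decomposition
  let F2 : Perm (Fin (2 * 2 ^ d)) → ℝ := fun g => EP (2 ^ d) T (fun R => F (R * g))
  have hF2 : ∀ g, |F2 g| ≤ 1 := fun g => (abs_ex_le _).trans (ex_le_const fun cs => hF _)
  have h1 : EP (2 ^ d) N F = EP (2 ^ d) (r * (T + (d + 1))) F2 := by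
    rw [hN, EP_add]
  have h2 := D5_step d T P hD1 hPM r F2 hF2 1 (rho0 d)
  rw [D5_rho0_sum] at h2
  simp only [one_mul, D5_extP_one, mul_one] at h2
  have h3 : |ex (fun w : Perm (Fin (2 ^ d)) => EP (2 ^ d) (r * (T + (d + 1)))
      (fun h => F2 (h * extP (2 ^ d) w))) - ex F| ≤ P := by
    have h4 : ex (fun w : Perm (Fin (2 ^ d)) => EP (2 ^ d) (r * (T + (d + 1)))
      (fun h => F2 (h * extP (2 ^ d) w))) - ex F =
        EP (2 ^ d) (r * (T + (d + 1))) (fun h =>
          ex (fun w : Perm (Fin (2 ^ d)) => EP (2 ^ d) T (fun R => F (R * (h * extP (2 ^ d) w))))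
            - ex F) := by
      rw [EP_sub_fun, EP_const]
      congr 1
      unfold EP
      rw [ex_comm]
      rfl
    rw [h4]
    refine (abs_ex_le _).trans (ex_le_const fun cs => ?_)
    exact D5_last (2 ^ d) T P hPM F hF _
  rw [h1]
  have h5 := (abs_le.1 h2).2
  have h6 := (abs_le.1 h3).2
  have h7 := D5_rho0_norm d
  have h8 : (r : ℝ) * P * ∑ w, |rho0 d w| ≤ r * P * 2 :=
    mul_le_mul_of_nonneg_left h7 (mul_nonneg (Nat.cast_nonneg _) hP)
  linarith

theorem D5_hybrid (d T r : ℕ) (P : ℝ)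
    (hPM : ∀ x : Fin (2 ^ d) ↪ Fin (2 * 2 ^ d), ∑ y : Fin (2 ^ d) ↪ Fin (2 * 2 ^ d),
      |EP (2 ^ d) T (fun g => if (∀ i, g (x i) = y i) then 1 else 0)
        - 1 / (Fintype.card (Fin (2 ^ d) ↪ Fin (2 * 2 ^ d)) : ℝ)| ≤ P) :
    ∑ h : Perm (Fin (2 * 2 ^ d)),
      |EP (2 ^ d) ((r + 1) * T + r * (d + 1)) (fun g => if g = h then 1 else 0)
        - 1 / (((2 * 2 ^ d).factorial : ℕ) : ℝ)| ≤ idl d r (rho0 d) + (2 * r + 1) * P :=
  D5_core d T r P (fun g F => D1_decomp (2 ^ d) (d + 1) g F) hPM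

end Crest.Agent.S0222
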