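import Crest.Agent.S0222_Basic
import Crest.Agent.S0222_D12
import Crest.Agent.S0222_D3

/-!
S0222, task D7: properties of `aG`.  Owner: helper40.
`D7_fix` needs `B7_main`; here `D7_fix_of` takes it as hypothesis, the final form `D7_fix` is in
`S0222_D7f.lean`.
-/

set_option autoImplicit false
set_option linter.unusedVariables false

namespace Crest.Agent.S0222

open Finset Equiv Crest.ProbabilityR.Shuffle

instance D7_nonempty (d : ℕ) : Nonempty (Env d) := ⟨(lab (2 ^ d), fun _ _ => false)⟩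

theorem D7_envLaw_nonneg (d : ℕ) (e : Env d) (w : Perm (Fin (2 ^ d))) : 0 ≤ envLaw d e w :=
  ex_nonneg fun ξ => by split_ifs <;> norm_num

/-- expectation under `envLaw` -/
theorem D7_envLaw_sum (d : ℕ) (e : Env d) (f : Perm (Fin (2 ^ d)) → ℝ) :
    ∑ w, envLaw d e w * f w = ex (fun ξ : Fin (d + 1) → Fin (2 ^ d) → Bool => f (envq d e ξ)) := by
  unfold envLaw
  have h : ∀ w, ex (fun ξ : Fin (d + 1) → Fin (2 ^ d) → Bool =>
      if envq d e ξ = w then (1 : ℝ) else 0) * f w =
      ex (fun ξ : Fin (d + 1) → Fin (2 ^ d) → Bool =>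
        if envq d e ξ = w then f w else 0) := by
    intro w
    rw [← ex_mul_const]
    apply ex_congr; intro ξ
    split_ifs <;> simp
  rw [Finset.sum_congr rfl (fun w _ => h w)]
  rw [← ex_sum]
  apply ex_congr; intro ξ
  rw [Finset.sum_ite_eq]
  simp

theorem D7_envLaw_one (d : ℕ) (e : Env d) : ∑ w, envLaw d e w = 1 := by
  have := D7_envLaw_sum d e (fun _ => 1)
  simp only [mul_one] at this
  rw [this, ex_const]

theorem D7_nonneg (d : ℕ) (Γ : ℝ) (w : Perm (Fin (2 ^ d))) : 0 ≤ aG d Γ w := by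
  unfold aG
  apply ex_nonneg; intro e
  split_ifs
  · exact Finset.sum_nonneg fun u _ =>
      mul_nonneg (D7_envLaw_nonneg d e u) (D7_envLaw_nonneg d e _)
  · exact le_refl 0

theorem D7_inv (d : ℕ) (Γ : ℝ) (w : Perm (Fin (2 ^ d))) : aG d Γ w⁻¹ = aG d Γ w := by
  unfold aG
  apply ex_congr; intro e
  split_ifs
  · rw [← Equiv.sum_comp (Equiv.mulRight w)
      (fun u => envLaw d e u * envLaw d e (u * w⁻¹))]
    apply Finset.sum_congr rfl
    intro u _
    simp only [Equiv.coe_mulRight, mul_inv_cancel_right]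
    ring
  · rfl

/-- summation of a function against `aG` -/
theorem D7_aG_sum (d : ℕ) (Γ : ℝ) (f : Perm (Fin (2 ^ d)) → ℝ) :
    ∑ w, aG d Γ w * f w = ex (fun e : Env d => if envG d e ≤ Γ then
      ∑ u, envLaw d e u * ∑ v, envLaw d e v * f (u⁻¹ * v) else 0) := by
  unfold aG
  have h : ∀ w, ex (fun e : Env d => if envG d e ≤ Γ then
      ∑ u, envLaw d e u * envLaw d e (u * w) else 0) * f w =
      ex (fun e : Env d => if envG d e ≤ Γ then
        ∑ u, envLaw d e u * (envLaw d e (u * w) * f w) else 0) := by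
    intro w
    rw [← ex_mul_const]
    apply ex_congr; intro e
    split_ifs
    · rw [Finset.sum_mul]
      exact Finset.sum_congr rfl fun u _ => by ring
    · simp
  rw [Finset.sum_congr rfl (fun w _ => h w), ← ex_sum]
  apply ex_congr; intro e
  split_ifs
  · rw [Finset.sum_comm]
    apply Finset.sum_congr rfl; intro u _
    rw [← Finset.mul_sum]
    congr 1
    rw [← Equiv.sum_comp (Equiv.mulLeft u) (fun v => envLaw d e v * f (u⁻¹ * v))]
    apply Finset.sum_congr rfl; intro w _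
    simp
  · simp

theorem D7_sum (d : ℕ) (Γ : ℝ) : ∑ w, aG d Γ w = pG d Γ := by
  have h := D7_aG_sum d Γ (fun _ => 1)
  simp only [mul_one] at h
  rw [h]
  unfold pG
  apply ex_congr; intro e
  split_ifs
  · simp [D7_envLaw_one]
  · rfl

/-! ### sign -/

theorem D7_h_update {A I : Type*} [DecidableEq A] [DecidableEq I] (L : Layer A I) (a : A)
    (ξ : I → Bool) :
    L.h (Function.update ξ (L.rep a) (!ξ (L.rep a))) = L.h ξ * Equiv.swap a (L.inv a) := by
  ext z
  simp only [Perm.mul_apply]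
  by_cases hz : z = a
  · subst hz
    rw [Equiv.swap_apply_left]
    simp only [Layer.h, Equiv.coe_fn_mk, Function.update_self, L.rep_inv, L.inv_inv]
    cases ξ (L.rep z) <;> simp
  · by_cases hz2 : z = L.inv a
    · subst hz2
      rw [Equiv.swap_apply_right]
      simp only [Layer.h, Equiv.coe_fn_mk, L.rep_inv, Function.update_self, L.inv_inv]
      cases ξ (L.rep a) <;> simp
    · rw [Equiv.swap_apply_of_ne_of_ne hz hz2]
      have hr : L.rep z ≠ L.rep a := by
        intro h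
        rcases L.eq_or a z h.symm with h1 | h1
        · exact hz h1
        · exact hz2 h1
      simp only [Layer.h, Equiv.coe_fn_mk, Function.update_of_ne hr]

theorem D7_layer_sign {A I : Type*} [Fintype A] [DecidableEq A] [Fintype I] [DecidableEq I]
    (L : Layer A I) (a : A) (ha : L.inv a ≠ a) :
    ex (fun ξ : I → Bool => ((Perm.sign (L.h ξ) : ℤ) : ℝ)) = 0 := by
  let e : (I → Bool) ≃ (I → Bool) :=
    { toFun := fun ξ => Function.update ξ (L.rep a) (!ξ (L.rep a))
      invFun := fun ξ => Function.update ξ (L.rep a) (!ξ (L.rep a))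
      left_inv := fun ξ => by
        funext i; by_cases hi : i = L.rep a
        · subst hi; simp
        · simp [Function.update_of_ne hi]
      right_inv := fun ξ => by
        funext i; by_cases hi : i = L.rep a
        · subst hi; simp
        · simp [Function.update_of_ne hi] }
  have h1 : ex (fun ξ : I → Bool => ((Perm.sign (L.h (e ξ)) : ℤ) : ℝ)) =
      ex (fun ξ : I → Bool => ((Perm.sign (L.h ξ) : ℤ) : ℝ)) :=
    ex_equiv e (fun ξ : I → Bool => ((Perm.sign (L.h ξ) : ℤ) : ℝ))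
  have h2 : ex (fun ξ : I → Bool => ((Perm.sign (L.h (e ξ)) : ℤ) : ℝ)) =
      - ex (fun ξ : I → Bool => ((Perm.sign (L.h ξ) : ℤ) : ℝ)) := by
    rw [← ex_neg]
    apply ex_congr; intro ξ
    change ((Perm.sign (L.h (Function.update ξ (L.rep a) (!ξ (L.rep a)))) : ℤ) : ℝ) = _
    rw [D7_h_update, Perm.sign_mul, Perm.sign_swap (Ne.symm ha)]
    simp
  linarith

theorem D7_net_sign {A I : Type*} [Fintype A] [DecidableEq A] [Fintype I] [DecidableEq I] :
    ∀ (s : ℕ) (L : Fin s → Layer A I) (j : Fin s) (a : A) (_ : (L j).inv a ≠ a),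
    ex (fun ξ : Fin s → I → Bool => ((Perm.sign (netq s L ξ) : ℤ) : ℝ)) = 0
  | 0, _, j, _, _ => j.elim0
  | s + 1, L, j, a, ha => by
    rw [ex_snoc]
    have h : ∀ (b : I → Bool) (g : Fin s → I → Bool),
        ((Perm.sign (netq (s + 1) L (Fin.snoc g b)) : ℤ) : ℝ) =
        ((Perm.sign ((L (Fin.last s)).h b) : ℤ) : ℝ) *
          ((Perm.sign (netq s (fun i => L i.castSucc) g) : ℤ) : ℝ) := by
      intro b g
      rw [netq, Perm.sign_mul]
      simp only [Fin.snoc_last, Fin.snoc_castSucc]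
      push_cast
      ring
    have h2 : ex (fun b : I → Bool => ex (fun g : Fin s → I → Bool =>
        ((Perm.sign (netq (s + 1) L (Fin.snoc g b)) : ℤ) : ℝ))) =
        ex (fun b : I → Bool => ((Perm.sign ((L (Fin.last s)).h b) : ℤ) : ℝ)) *
        ex (fun g : Fin s → I → Bool =>
          ((Perm.sign (netq s (fun i => L i.castSucc) g) : ℤ) : ℝ)) := by
      rw [← ex_mul_const]
      apply ex_congr; intro b
      rw [← ex_const_mul]
      apply ex_congr; intro g
      exact h b g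
    refine h2.trans ?_
    induction j using Fin.lastCases with
    | last => rw [D7_layer_sign (L (Fin.last s)) a ha, zero_mul]
    | cast j =>
      rw [D7_net_sign s (fun i => L i.castSucc) j a ha, mul_zero]

theorem D7_netW_unmatched {A I : Type*} [DecidableEq A] :
    ∀ (s : ℕ) (L : Fin s → Layer A I) (_ : ∀ j a, (L j).inv a = a) (t : A → ℝ),
    netW s L t = t
  | 0, _, _, _ => rfl
  | s + 1, L, h, t => by
    rw [netW]
    have : layerOp (L (Fin.last s)) t = t := by
      funext a; simp [layerOp, h]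
    rw [this]
    exact D7_netW_unmatched s _ (fun j a => h _ a) t

theorem D7_netW_nonneg {A I : Type*} [DecidableEq A] :
    ∀ (s : ℕ) (L : Fin s → Layer A I) (t : A → ℝ) (_ : ∀ a, 0 ≤ t a) (a : A), 0 ≤ netW s L t a
  | 0, _, _, h, a => h a
  | s + 1, L, t, h, a => by
    rw [netW]
    apply D7_netW_nonneg s
    intro b
    unfold layerOp
    split_ifs
    · exact h b
    · exact mul_nonneg (by norm_num) (add_nonneg (h _) (h _))

theorem D7_envG_nonneg (d : ℕ) (e : Env d) : 0 ≤ envG d e :=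
  Finset.sum_nonneg fun z _ => D7_netW_nonneg _ _ _ (fun _ => zero_le_one) z

theorem D7_sgn (d : ℕ) (Γ : ℝ) (hΓ : Γ < 2 ^ d) :
    ∑ w, aG d Γ w * ((Perm.sign w : ℤ) : ℝ) = 0 := by
  rw [D7_aG_sum d Γ (fun w => ((Perm.sign w : ℤ) : ℝ))]
  refine Eq.trans (ex_congr ?_) (ex_zero (Ω := Env d))
  intro e
  split_ifs with hg
  · have h0 : ∑ v, envLaw d e v * ((Perm.sign v : ℤ) : ℝ) = 0 := by
      rw [D7_envLaw_sum d e (fun v => ((Perm.sign v : ℤ) : ℝ))]
      by_cases hm : ∃ (j : Fin (d + 1)) (a : Fin (2 ^ d)),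
          ((wLayers (2 ^ d) (d + 1) e.1 e.2) j).inv a ≠ a
      · obtain ⟨j, a, ha⟩ := hm
        exact D7_net_sign (d + 1) _ j a ha
      · exfalso
        push Not at hm
        have : envG d e = 2 ^ d := by
          unfold envG
          rw [D7_netW_unmatched _ _ hm]
          simp
        linarith
    apply Finset.sum_eq_zero; intro u _
    have h1 : ∑ v, envLaw d e v * ((Perm.sign (u⁻¹ * v) : ℤ) : ℝ) =
        ((Perm.sign u⁻¹ : ℤ) : ℝ) * ∑ v, envLaw d e v * ((Perm.sign v : ℤ) : ℝ) := by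
      rw [Finset.mul_sum]
      apply Finset.sum_congr rfl; intro v _
      rw [Perm.sign_mul]; push_cast; ring
    rw [h1, h0, mul_zero, mul_zero]
  · rfl

/-! ### fixN -/

theorem D7_fixN_conj {A : Type*} [Fintype A] [DecidableEq A] (x : ℕ) (g w : Perm A) :
    fixN x (g * w * g⁻¹) = fixN x w := by
  unfold fixN
  refine Finset.card_bij' (fun κ _ => κ ∘ g) (fun κ _ => κ ∘ (g⁻¹ : Perm A)) ?_ ?_ ?_ ?_
  · intro κ hκ
    simp only [Finset.mem_filter, Finset.mem_univ, true_and, Function.comp] at hκ ⊢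
    intro z
    have := hκ (g z)
    simpa [Perm.mul_apply] using this
  · intro κ hκ
    simp only [Finset.mem_filter, Finset.mem_univ, true_and, Function.comp] at hκ ⊢
    intro z
    have := hκ (g⁻¹ z)
    simpa [Perm.mul_apply] using this
  · intro κ _; funext z; simp
  · intro κ _; funext z; simp

/-- `D7_fix` for a fixed environment, from B7_main -/
theorem D7_fix_of (d : ℕ) (Γ : ℝ) (y : ℕ)
    (hB : ∀ e : Env d, ex (fun ξ : Fin (d + 1) → Fin (2 ^ d) → Bool =>
      ex (fun ξ' : Fin (d + 1) → Fin (2 ^ d) → Bool =>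
      (fixN (y + 1) (netq (d + 1) (wLayers (2 ^ d) (d + 1) e.1 e.2) ξ *
        (netq (d + 1) (wLayers (2 ^ d) (d + 1) e.1 e.2) ξ')⁻¹) : ℝ))) ≤
      Real.exp (y * ∑ z, netW (d + 1) (wLayers (2 ^ d) (d + 1) e.1 e.2) (fun _ => 1) z)) :
    ∑ w, aG d Γ w * (fixN (y + 1) w : ℝ) ≤ Real.exp (y * Γ) := by
  rw [D7_aG_sum d Γ (fun w => (fixN (y + 1) w : ℝ))]
  apply ex_le_const; intro e
  split_ifs with hg
  · have h1 : ∑ u, envLaw d e u * ∑ v, envLaw d e v * (fixN (y + 1) (u⁻¹ * v) : ℝ) =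
        ex (fun ξ' : Fin (d + 1) → Fin (2 ^ d) → Bool =>
        ex (fun ξ : Fin (d + 1) → Fin (2 ^ d) → Bool =>
          (fixN (y + 1) ((envq d e ξ')⁻¹ * envq d e ξ) : ℝ))) := by
      rw [D7_envLaw_sum d e (fun u => ∑ v, envLaw d e v * (fixN (y + 1) (u⁻¹ * v) : ℝ))]
      apply ex_congr; intro ξ'
      exact D7_envLaw_sum d e (fun v => (fixN (y + 1) ((envq d e ξ')⁻¹ * v) : ℝ))
    rw [h1, ex_comm]
    have h2 : ∀ ξ ξ' : Fin (d + 1) → Fin (2 ^ d) → Bool,
        fixN (y + 1) ((envq d e ξ')⁻¹ * envq d e ξ) =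
        fixN (y + 1) (envq d e ξ * (envq d e ξ')⁻¹) := by
      intro ξ ξ'
      rw [← D7_fixN_conj (y + 1) (envq d e ξ') ((envq d e ξ')⁻¹ * envq d e ξ)]
      congr 1
      group
    calc _ = ex (fun ξ : Fin (d + 1) → Fin (2 ^ d) → Bool =>
        ex (fun ξ' : Fin (d + 1) → Fin (2 ^ d) → Bool =>
          (fixN (y + 1) (envq d e ξ * (envq d e ξ')⁻¹) : ℝ))) := by
            apply ex_congr; intro ξ; apply ex_congr; intro ξ'; rw [h2]
      _ ≤ Real.exp (y * envG d e) := hB e
      _ ≤ Real.exp (y * Γ) := by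
            apply Real.exp_le_exp.2
            exact mul_le_mul_of_nonneg_left hg (Nat.cast_nonneg _)
  · exact (Real.exp_pos _).le

theorem D7_pG (d : ℕ) (Γ : ℝ) (hΓ : 0 < Γ) :
    1 - pG d Γ ≤ ex (fun e : Env d => envG d e) / Γ := by
  have h := markov (fun e : Env d => envG d e) (D7_envG_nonneg d) Γ hΓ
  refine le_trans ?_ h
  unfold pG
  have h1 : (1 : ℝ) = ex (fun _ : Env d => (1 : ℝ)) := (ex_const 1).symm
  rw [h1, ← ex_sub]
  apply ex_mono; intro e
  by_cases h2 : envG d e ≤ Γ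
  · simp only [h2, if_true]
    have : (0 : ℝ) ≤ if Γ ≤ envG d e then (1 : ℝ) else 0 := by split_ifs <;> norm_num
    rw [← h1]
    linarith
  · rw [if_neg h2, if_pos (le_of_lt (not_le.1 h2)), ← h1]
    norm_num

/-! ### class function -/

/-- relabelling of the environments -/
def D7_relab (d : ℕ) (g : Perm (Fin (2 ^ d))) : Env d ≃ Env d where
  toFun e := (g.toEmbedding.trans e.1, e.2)
  invFun e := (g.symm.toEmbedding.trans e.1, e.2)
  left_inv e := by
    apply Prod.ext
    · ext z; simp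
    · rfl
  right_inv e := by
    apply Prod.ext
    · ext z; simp
    · rfl

theorem D7_class_of (d : ℕ) (Γ : ℝ)
    (hD : ∀ (y : Fin (2 ^ d) ↪ Fin (2 * 2 ^ d)) (c ξ : Fin (d + 1) → Fin (2 ^ d) → Bool)
      (ρ : Perm (Fin (2 ^ d))),
      netq (d + 1) (wLayers (2 ^ d) (d + 1) (ρ.toEmbedding.trans y) c) ξ =
        ρ⁻¹ * netq (d + 1) (wLayers (2 ^ d) (d + 1) y c) ξ * ρ ∧
      ∀ f : Fin (2 ^ d) → ℝ, ∀ a, netW (d + 1) (wLayers (2 ^ d) (d + 1) (ρ.toEmbedding.trans y) c)
        (f ∘ ρ) a = netW (d + 1) (wLayers (2 ^ d) (d + 1) y c) f (ρ a))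
    (g w : Perm (Fin (2 ^ d))) : aG d Γ (g * w * g⁻¹) = aG d Γ w := by
  have hG : ∀ e : Env d, envG d (D7_relab d g e) = envG d e := by
    intro e
    unfold envG
    rw [← Equiv.sum_comp g (fun z => netW (d + 1) (wLayers (2 ^ d) (d + 1) e.1 e.2) (fun _ => 1) z)]
    apply Finset.sum_congr rfl; intro z _
    exact (hD e.1 e.2 e.2 g).2 (fun _ => 1) z
  have hL : ∀ (e : Env d) (u : Perm (Fin (2 ^ d))),
      envLaw d (D7_relab d g e) u = envLaw d e (g * u * g⁻¹) := by
    intro e u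
    unfold envLaw
    apply ex_congr; intro ξ
    have h1 : envq d (D7_relab d g e) ξ = g⁻¹ * envq d e ξ * g := (hD e.1 e.2 ξ g).1
    rw [h1]
    have h2 : (g⁻¹ * envq d e ξ * g = u) ↔ (envq d e ξ = g * u * g⁻¹) := by
      constructor
      · intro h; rw [← h]; group
      · intro h; rw [h]; group
    simp only [h2]
  unfold aG
  refine ex_bij (D7_relab d g) _ _ ?_
  intro e
  rw [hG]
  split_ifs
  · rw [← Equiv.sum_comp (MulAut.conj g).toEquiv
      (fun u => envLaw d e u * envLaw d e (u * (g * w * g⁻¹)))]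
    apply Finset.sum_congr rfl; intro u _
    rw [hL, hL]
    have h1 : (MulAut.conj g).toEquiv u = g * u * g⁻¹ := rfl
    have h2 : g * u * g⁻¹ * (g * w * g⁻¹) = g * (u * w) * g⁻¹ := by group
    rw [h1, h2]
  · rfl

theorem D7_class (d : ℕ) (Γ : ℝ) (g w : Perm (Fin (2 ^ d))) : aG d Γ (g * w * g⁻¹) = aG d Γ w :=
  D7_class_of d Γ (fun y c ξ ρ => D2_relabel (2 ^ d) (d + 1) y c ξ ρ) g w

end Crest.Agent.S0222
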