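import Crest.Agent.S0222_D6Core
import Crest.Agent.S0222_D7

/-!
S0222-D6: second moment recursion (final form; the proof is in `S0222_D6Core`).
-/

set_option autoImplicit false

namespace Crest.Agent.S0222

open Finset Equiv Crest.ProbabilityR.Shuffle

theorem D6_l2 (d : ℕ) (Γ : ℝ) (r : ℕ) :
    idl d r (rho0 d) ≤ 2 * r * (1 - pG d Γ) +
      Real.sqrt (((2 ^ d).factorial : ℕ) * cpow (aG d Γ) r 1 - pG d Γ ^ r) :=
  D6_core d Γ r (D7_class d Γ) (D7_sum d Γ)

end Crest.Agent.S0222
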