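import Crest.Agent.S0222_Basic

/-!
S0222, task B34: factorization of `Phi` over the two halves and averaging of one layer.
-/

set_option autoImplicit false
set_option linter.unusedSectionVars false

namespace Crest.Agent.S0222

open Finset Equiv Crest.ProbabilityR.Shuffle

section B3

variable {A I : Type*} [Fintype A] [DecidableEq A] [Fintype I] [DecidableEq I] {y : ℕ}

theorem B3_Phi_succ {s : ℕ} (L : Fin (s + 1) → Layer A I) (κ κ' : A → Fin (y + 1)) :
    Phi L κ κ' = ex (fun a : I → Bool => ex (fun a' : I → Bool =>
      Phi (fun i : Fin s => L i.castSucc) (κ ∘ (L (Fin.last s)).h a)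
        (κ' ∘ (L (Fin.last s)).h a'))) := by
  unfold Phi
  rw [ex_snoc]
  apply ex_congr; intro a
  calc ex (fun g : Fin s → I → Bool => ex (fun ξ' : Fin (s + 1) → I → Bool =>
        if (∀ z, κ (netq (s + 1) L (Fin.snoc g a : Fin (s + 1) → I → Bool) z) =
          κ' (netq (s + 1) L ξ' z)) then (1 : ℝ) else 0))
      = ex (fun g : Fin s → I → Bool => ex (fun a' : I → Bool => ex (fun g' : Fin s → I → Bool =>
        if (∀ z, κ (netq (s + 1) L (Fin.snoc g a : Fin (s + 1) → I → Bool) z) =
          κ' (netq (s + 1) L (Fin.snoc g' a' : Fin (s + 1) → I → Bool) z)) then (1 : ℝ) else 0))) := by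
        apply ex_congr; intro g
        rw [ex_snoc]
    _ = ex (fun a' : I → Bool => ex (fun g : Fin s → I → Bool => ex (fun g' : Fin s → I → Bool =>
        if (∀ z, κ (netq (s + 1) L (Fin.snoc g a : Fin (s + 1) → I → Bool) z) =
          κ' (netq (s + 1) L (Fin.snoc g' a' : Fin (s + 1) → I → Bool) z)) then (1 : ℝ) else 0))) :=
        ex_comm _
    _ = _ := by
        apply ex_congr; intro a'
        apply ex_congr; intro g
        apply ex_congr; intro g'
        simp [netq]

theorem B3_rs_comp (c : A → Bool) (L : Layer A I) (hc : ∀ a, c (L.inv a) = c a) (b : Bool)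
    (κ : A → Fin (y + 1)) (ξ : I → Bool) : rs c b (κ ∘ L.h ξ) = (rs c b κ) ∘ L.h ξ := by
  funext z
  have : c (L.h ξ z) = c z := by
    show c (if ξ (L.rep z) then L.inv z else z) = c z
    split_ifs
    · exact hc z
    · rfl
  simp [rs, this]

theorem B3_rs_congr (c : A → Bool) (L : Layer A I) (hc : ∀ a, c (L.inv a) = c a) (b : Bool)
    (κ : A → Fin (y + 1)) (ξ ξ' : I → Bool)
    (h : ∀ z, c z = b → ξ (L.rep z) = ξ' (L.rep z)) :
    (rs c b κ) ∘ L.h ξ = (rs c b κ) ∘ L.h ξ' := by
  funext z
  by_cases hz : c z = b
  · show rs c b κ (if ξ (L.rep z) then L.inv z else z) = rs c b κ (if ξ' (L.rep z) then L.inv z else z)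
    rw [h z hz]
  · have h1 : ∀ ξ : I → Bool, c (L.h ξ z) ≠ b := by
      intro ξ
      have : c (L.h ξ z) = c z := by
        show c (if ξ (L.rep z) then L.inv z else z) = c z
        split_ifs
        · exact hc z
        · rfl
      rw [this]; exact hz
    simp [rs, h1]

theorem B3_factor
    {s : ℕ} (L : Fin s → Layer A I)
    (c : A → Bool) (hc : ∀ i a, c ((L i).inv a) = c a) (κ κ' : A → Fin (y + 1)) :
    Phi L κ κ' = Phi L (rs c false κ) (rs c false κ') * Phi L (rs c true κ) (rs c true κ') := by
  induction s generalizing κ κ' with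
  | zero =>
    have hP : ∀ κ κ' : A → Fin (y + 1), Phi L κ κ' = if κ = κ' then 1 else 0 := by
      intro κ κ'
      unfold Phi
      rw [ex_unique, ex_unique]
      by_cases h : κ = κ'
      · rw [if_pos h]
        exact if_pos fun z => by rw [h]
      · rw [if_neg h]
        exact if_neg fun h' => h (funext fun z => h' z)
    simp only [hP]
    by_cases h : κ = κ'
    · simp [h]
    · rw [if_neg h]
      obtain ⟨z, hz⟩ := Function.ne_iff.1 h
      cases hcz : c z with
      | false =>
        rw [if_neg (c := rs c false κ = rs c false κ'), zero_mul]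
        intro h'
        apply hz
        have := congrFun h' z
        simpa [rs, hcz] using this
      | true =>
        rw [if_neg (c := rs c true κ = rs c true κ'), mul_zero]
        intro h'
        apply hz
        have := congrFun h' z
        simpa [rs, hcz] using this
  | succ s ih =>
    have hcl : ∀ a, c ((L (Fin.last s)).inv a) = c a := fun a => hc _ a
    set L' : Fin s → Layer A I := fun i => L i.castSucc with hL'
    have ih' := fun (κ κ' : A → Fin (y + 1)) =>
      ih L' (fun i a => hc _ a) κ κ'
    classical
    let p : I → Prop := fun i => ∃ z, (L (Fin.last s)).rep z = i ∧ c z = false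
    have hp : ∀ z, c z = true → ¬ p ((L (Fin.last s)).rep z) := by
      rintro z hz ⟨z', hz', hcz'⟩
      rcases (L (Fin.last s)).eq_or z z' hz'.symm with h | h
      · rw [h, hz] at hcz'; simp at hcz'
      · rw [h, hcl, hz] at hcz'; simp at hcz'
    have hp' : ∀ z, c z = false → p ((L (Fin.last s)).rep z) := fun z hz => ⟨z, rfl, hz⟩
    have hf : ∀ a b : I → Bool, (∀ i, p i → a i = b i) →
        ∀ κ : A → Fin (y + 1), (rs c false κ) ∘ (L (Fin.last s)).h a =
          (rs c false κ) ∘ (L (Fin.last s)).h b := fun a b h κ =>
      B3_rs_congr c _ hcl false κ a b fun z hz => h _ (hp' z hz)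
    have hg : ∀ a b : I → Bool, (∀ i, ¬ p i → a i = b i) →
        ∀ κ : A → Fin (y + 1), (rs c true κ) ∘ (L (Fin.last s)).h a =
          (rs c true κ) ∘ (L (Fin.last s)).h b := fun a b h κ =>
      B3_rs_congr c _ hcl true κ a b fun z hz => h _ (hp z hz)
    calc Phi L κ κ'
        = ex (fun a : I → Bool => ex (fun a' : I → Bool =>
            Phi L' (rs c false κ ∘ (L (Fin.last s)).h a) (rs c false κ' ∘ (L (Fin.last s)).h a') *
            Phi L' (rs c true κ ∘ (L (Fin.last s)).h a) (rs c true κ' ∘ (L (Fin.last s)).h a'))) := by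
          rw [B3_Phi_succ]
          apply ex_congr; intro a; apply ex_congr; intro a'
          rw [ih', B3_rs_comp c _ hcl, B3_rs_comp c _ hcl, B3_rs_comp c _ hcl, B3_rs_comp c _ hcl]
      _ = ex (fun a : I → Bool =>
            ex (fun a' : I → Bool => Phi L' (rs c false κ ∘ (L (Fin.last s)).h a)
              (rs c false κ' ∘ (L (Fin.last s)).h a')) *
            ex (fun a' : I → Bool => Phi L' (rs c true κ ∘ (L (Fin.last s)).h a)
              (rs c true κ' ∘ (L (Fin.last s)).h a'))) := by
          apply ex_congr; intro a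
          exact ex_indep p _ _ (fun a₁ b₁ h => by simp only [hf a₁ b₁ h])
            (fun a₁ b₁ h => by simp only [hg a₁ b₁ h])
      _ = ex (fun a : I → Bool =>
            ex (fun a' : I → Bool => Phi L' (rs c false κ ∘ (L (Fin.last s)).h a)
              (rs c false κ' ∘ (L (Fin.last s)).h a'))) *
          ex (fun a : I → Bool =>
            ex (fun a' : I → Bool => Phi L' (rs c true κ ∘ (L (Fin.last s)).h a)
              (rs c true κ' ∘ (L (Fin.last s)).h a'))) :=
          ex_indep p _ _ (fun a₁ b₁ h => by simp only [hf a₁ b₁ h])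
            (fun a₁ b₁ h => by simp only [hg a₁ b₁ h])
      _ = _ := by rw [← B3_Phi_succ, ← B3_Phi_succ]

/-- average of a product of functions of the separate coins -/
theorem B4_ex_prod (G : I → Bool → ℝ) :
    ex (fun ξ : I → Bool => ∏ i, G i (ξ i)) = ∏ i, (G i false + G i true) / 2 := by
  unfold ex
  have h := Finset.prod_univ_sum (fun _ : I => (univ : Finset Bool)) G
  rw [Fintype.piFinset_univ] at h
  rw [← h, Finset.prod_div_distrib, Finset.prod_const]
  simp [Fintype.card_pi, add_comm]

theorem B4_avg
    (L : Layer A I) (t : A → ℝ) (ht0 : ∀ a, 0 ≤ t a) (κ : A → Fin (y + 1)) :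
    ex (fun ξ : I → Bool => cw t (κ ∘ L.h ξ)) ≤ cw (tbar L t) κ := by
  let F : A → Bool → ℝ := fun z b => if κ z = 0 then 1 else t (if b then L.inv z else z)
  have h1 : ∀ ξ : I → Bool, cw t (κ ∘ L.h ξ) =
      ∏ i, ∏ z ∈ univ.filter (fun z => L.rep z = i), F z (ξ i) := by
    intro ξ
    have e1 : cw t (κ ∘ L.h ξ) = ∏ z, F z (ξ (L.rep z)) := by
      unfold cw
      rw [← Equiv.prod_comp (L.h ξ)]
      refine Finset.prod_congr rfl fun z _ => ?_
      have : L.h ξ (L.h ξ z) = z := (L.h ξ).left_inv z
      simp only [Function.comp, this, F]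
      rfl
    rw [e1, ← Finset.prod_fiberwise univ (fun z => L.rep z)]
    refine Finset.prod_congr rfl fun i _ => Finset.prod_congr rfl fun z hz => ?_
    rw [(Finset.mem_filter.1 hz).2]
  have hF0 : ∀ z b, 0 ≤ F z b := by
    intro z b
    simp only [F]
    split_ifs <;> first | exact zero_le_one | exact ht0 _
  rw [ex_congr h1]
  rw [B4_ex_prod (fun i b => ∏ z ∈ univ.filter (fun z => L.rep z = i), F z b)]
  unfold cw
  rw [← Finset.prod_fiberwise univ (fun z => L.rep z)]
  refine Finset.prod_le_prod (fun i _ => ?_) (fun i _ => ?_)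
  · exact div_nonneg (add_nonneg (Finset.prod_nonneg fun z _ => hF0 _ _)
      (Finset.prod_nonneg fun z _ => hF0 _ _)) (by norm_num)
  · by_cases hi : ∃ a, L.rep a = i
    · obtain ⟨a, ha⟩ := hi
      by_cases hinv : L.inv a = a
      · have hfil : univ.filter (fun z => L.rep z = i) = {a} := by
          ext z
          simp only [Finset.mem_filter, Finset.mem_univ, true_and, Finset.mem_singleton]
          constructor
          · intro hz
            rcases L.eq_or a z (by rw [ha, hz]) with h | h
            · exact h
            · rw [h, hinv]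
          · rintro rfl; exact ha
        simp only [hfil, Finset.prod_singleton, F, tbar, hinv]
        split_ifs <;> simp_all
      · have hfil : univ.filter (fun z => L.rep z = i) = {a, L.inv a} := by
          ext z
          simp only [Finset.mem_filter, Finset.mem_univ, true_and, Finset.mem_insert,
            Finset.mem_singleton]
          constructor
          · intro hz
            exact L.eq_or a z (by rw [ha, hz])
          · rintro (rfl | rfl)
            · exact ha
            · rw [L.rep_inv]; exact ha
        have hne : a ≠ L.inv a := fun h => hinv h.symm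
        rw [hfil, Finset.prod_pair hne, Finset.prod_pair hne, Finset.prod_pair hne]
        simp only [F, tbar, L.inv_inv, if_true, Bool.false_eq_true, if_false]
        have h3 := ht0 a
        have h4 := ht0 (L.inv a)
        split_ifs <;> nlinarith [sq_nonneg (t a - t (L.inv a))]
    · have hfil : univ.filter (fun z => L.rep z = i) = ∅ := by
        ext z
        simp only [Finset.mem_filter, Finset.mem_univ, true_and, Finset.notMem_empty, iff_false]
        exact fun h => hi ⟨z, h⟩
      simp [hfil]

end B3

end Crest.Agent.S0222
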