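import Crest.Agent.S0222_Defs

/-!
S0222, tasks B1, B2: kernel inequality and row sums.
-/

set_option autoImplicit false

namespace Crest.Agent.S0222

open Finset Equiv

namespace B12

/-- second moment of a positive kernel with small row sums -/
theorem kernel_sq {S : Type*} [Fintype S] (a : S → ℝ) (ha : ∀ s, 0 ≤ a s) (X : S → S → ℝ)
    (h0 : ∀ s t, 0 ≤ X s t) (hs : ∀ s t, X s t = X t s)
    (hd : ∀ s t, X s t ≤ (X s s + X t t) / 2) (R : ℝ) (hR : ∀ s, ∑ t, a t * X s t ≤ R) :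
    ∑ s, ∑ t, a s * a t * X s t ^ 2 ≤ (∑ s, a s * X s s) * R := by
  have h1 : ∑ s, ∑ t, a s * a t * X s t ^ 2 ≤
      ∑ s, ∑ t, (a s * a t * X s t * X s s / 2 + a s * a t * X s t * X t t / 2) := by
    refine Finset.sum_le_sum fun s _ => Finset.sum_le_sum fun t _ => ?_
    have hc : 0 ≤ a s * a t * X s t := mul_nonneg (mul_nonneg (ha s) (ha t)) (h0 s t)
    nlinarith [mul_le_mul_of_nonneg_left (hd s t) hc]
  have h2 : ∑ s, ∑ t, a s * a t * X s t * X t t / 2 = ∑ s, ∑ t, a s * a t * X s t * X s s / 2 := by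
    rw [Finset.sum_comm]
    refine Finset.sum_congr rfl fun s _ => Finset.sum_congr rfl fun t _ => ?_
    rw [hs t s]
    ring
  have h3 : ∑ s, ∑ t, (a s * a t * X s t * X s s / 2 + a s * a t * X s t * X t t / 2) =
      ∑ s, a s * X s s * ∑ t, a t * X s t := by
    simp only [Finset.sum_add_distrib]
    rw [h2, ← Finset.sum_add_distrib]
    refine Finset.sum_congr rfl fun s _ => ?_
    rw [← Finset.sum_add_distrib, Finset.mul_sum]
    refine Finset.sum_congr rfl fun t _ => ?_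
    ring
  rw [h3] at h1
  refine h1.trans ?_
  rw [Finset.sum_mul]
  refine Finset.sum_le_sum fun s _ => ?_
  exact mul_le_mul_of_nonneg_left (hR s) (mul_nonneg (ha s) (h0 s s))

end B12

open B12 in
/-- B1 -/
theorem B1_kernel {S U V : Type*} [Fintype S] [Fintype U] [Fintype V]
    (a : S → ℝ) (b0 : U → ℝ) (b1 : V → ℝ) (ha : ∀ s, 0 ≤ a s) (hb0 : ∀ u, 0 ≤ b0 u)
    (hb1 : ∀ v, 0 ≤ b1 v)
    (K0 : S × U → S × U → ℝ) (K1 : S × V → S × V → ℝ)
    (h0 : ∀ u v, 0 ≤ K0 u v) (h1 : ∀ u v, 0 ≤ K1 u v)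
    (hs0 : ∀ u v, K0 u v = K0 v u) (hs1 : ∀ u v, K1 u v = K1 v u)
    (hd0 : ∀ u v, K0 u v ≤ (K0 u u + K0 v v) / 2) (hd1 : ∀ u v, K1 u v ≤ (K1 u u + K1 v v) / 2)
    (R0 R1 : ℝ)
    (hR0 : ∀ σ, ∑ τ, ∑ u, a τ * b0 u * K0 (σ, u) (τ, u) ≤ R0)
    (hR1 : ∀ σ, ∑ τ, ∑ v, a τ * b1 v * K1 (σ, v) (τ, v) ≤ R1) :
    ∑ σ, ∑ τ, ∑ u, ∑ v, a σ * a τ * b0 u * b1 v * K0 (σ, u) (τ, u) * K1 (τ, v) (σ, v) ≤
      Real.sqrt ((∑ σ, ∑ u, a σ * b0 u * K0 (σ, u) (σ, u)) * R0) *
      Real.sqrt ((∑ σ, ∑ v, a σ * b1 v * K1 (σ, v) (σ, v)) * R1) := by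
  set X0 : S → S → ℝ := fun σ τ => ∑ u, b0 u * K0 (σ, u) (τ, u) with hX0
  set X1 : S → S → ℝ := fun σ τ => ∑ v, b1 v * K1 (σ, v) (τ, v) with hX1
  have X0n : ∀ s t, 0 ≤ X0 s t := fun s t => Finset.sum_nonneg fun u _ =>
    mul_nonneg (hb0 u) (h0 _ _)
  have X1n : ∀ s t, 0 ≤ X1 s t := fun s t => Finset.sum_nonneg fun u _ =>
    mul_nonneg (hb1 u) (h1 _ _)
  have X0s : ∀ s t, X0 s t = X0 t s := fun s t => Finset.sum_congr rfl fun u _ => by rw [hs0]
  have X1s : ∀ s t, X1 s t = X1 t s := fun s t => Finset.sum_congr rfl fun u _ => by rw [hs1]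
  have X0d : ∀ s t, X0 s t ≤ (X0 s s + X0 t t) / 2 := by
    intro s t
    rw [hX0]
    simp only
    rw [← Finset.sum_add_distrib, Finset.sum_div]
    refine Finset.sum_le_sum fun u _ => ?_
    have := mul_le_mul_of_nonneg_left (hd0 (s, u) (t, u)) (hb0 u)
    linarith
  have X1d : ∀ s t, X1 s t ≤ (X1 s s + X1 t t) / 2 := by
    intro s t
    rw [hX1]
    simp only
    rw [← Finset.sum_add_distrib, Finset.sum_div]
    refine Finset.sum_le_sum fun u _ => ?_
    have := mul_le_mul_of_nonneg_left (hd1 (s, u) (t, u)) (hb1 u)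
    linarith
  have k0 := kernel_sq a ha X0 X0n X0s X0d R0 (by
    intro s
    refine le_trans (le_of_eq ?_) (hR0 s)
    refine Finset.sum_congr rfl fun t _ => ?_
    rw [hX0]
    simp only
    rw [Finset.mul_sum]
    refine Finset.sum_congr rfl fun u _ => ?_
    ring)
  have k1 := kernel_sq a ha X1 X1n X1s X1d R1 (by
    intro s
    refine le_trans (le_of_eq ?_) (hR1 s)
    refine Finset.sum_congr rfl fun t _ => ?_
    rw [hX1]
    simp only
    rw [Finset.mul_sum]
    refine Finset.sum_congr rfl fun u _ => ?_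
    ring)
  have e0 : ∑ σ, ∑ u, a σ * b0 u * K0 (σ, u) (σ, u) = ∑ s, a s * X0 s s := by
    refine Finset.sum_congr rfl fun s _ => ?_
    rw [hX0]
    simp only
    rw [Finset.mul_sum]
    refine Finset.sum_congr rfl fun u _ => ?_
    ring
  have e1 : ∑ σ, ∑ v, a σ * b1 v * K1 (σ, v) (σ, v) = ∑ s, a s * X1 s s := by
    refine Finset.sum_congr rfl fun s _ => ?_
    rw [hX1]
    simp only
    rw [Finset.mul_sum]
    refine Finset.sum_congr rfl fun u _ => ?_
    ring
  have eL : ∑ σ, ∑ τ, ∑ u, ∑ v, a σ * a τ * b0 u * b1 v * K0 (σ, u) (τ, u) * K1 (τ, v) (σ, v) =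
      ∑ p : S × S, (Real.sqrt (a p.1 * a p.2) * X0 p.1 p.2) *
        (Real.sqrt (a p.1 * a p.2) * X1 p.1 p.2) := by
    rw [Fintype.sum_prod_type]
    refine Finset.sum_congr rfl fun s _ => Finset.sum_congr rfl fun t _ => ?_
    have hst : 0 ≤ a s * a t := mul_nonneg (ha s) (ha t)
    have : (Real.sqrt (a s * a t) * X0 s t) * (Real.sqrt (a s * a t) * X1 s t) =
        a s * a t * (X0 s t * X1 s t) := by
      have := Real.mul_self_sqrt hst
      linear_combination (X0 s t * X1 s t) * this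
    simp only
    rw [this, hX0, hX1]
    simp only
    rw [Finset.sum_mul_sum, Finset.mul_sum]
    refine Finset.sum_congr rfl fun u _ => ?_
    rw [Finset.mul_sum]
    refine Finset.sum_congr rfl fun v _ => ?_
    rw [hs1 (t, v) (s, v)]
    ring
  rw [e0, e1, eL]
  have q0 : ∑ p : S × S, (Real.sqrt (a p.1 * a p.2) * X0 p.1 p.2) ^ 2 =
      ∑ s, ∑ t, a s * a t * X0 s t ^ 2 := by
    rw [Fintype.sum_prod_type]
    refine Finset.sum_congr rfl fun s _ => Finset.sum_congr rfl fun t _ => ?_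
    rw [mul_pow, Real.sq_sqrt (mul_nonneg (ha s) (ha t))]
  have q1 : ∑ p : S × S, (Real.sqrt (a p.1 * a p.2) * X1 p.1 p.2) ^ 2 =
      ∑ s, ∑ t, a s * a t * X1 s t ^ 2 := by
    rw [Fintype.sum_prod_type]
    refine Finset.sum_congr rfl fun s _ => Finset.sum_congr rfl fun t _ => ?_
    rw [mul_pow, Real.sq_sqrt (mul_nonneg (ha s) (ha t))]
  refine (Real.sum_mul_le_sqrt_mul_sqrt _ _ _).trans ?_
  rw [q0, q1]
  exact mul_le_mul (Real.sqrt_le_sqrt k0) (Real.sqrt_le_sqrt k1) (Real.sqrt_nonneg _)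
    (Real.sqrt_nonneg _)

/-- B2 -/
theorem B2_row {A : Type*} [Fintype A] [DecidableEq A] {y : ℕ} (w : Perm A) (S : Finset A)
    (σ : A → Fin (y + 1)) (t : A → ℝ) (ht0 : ∀ a, 0 ≤ t a) (ht1 : ∀ a, t a ≤ 1) :
    ∑ κ : A → Fin (y + 1),
        (if (∀ z, κ (w z) = if z ∈ S then σ z else κ z) then cw t κ else 0) ≤
      ∑ κ : A → Fin (y + 1), (if (∀ z, κ (w z) = κ z) ∧ (∀ z ∈ S, κ z = 0) then cw t κ else 0) := by
  classical
  set P : A → Prop := fun z => ∃ s ∈ S, w.SameCycle s z with hP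
  set tl : (A → Fin (y + 1)) → (A → Fin (y + 1)) := fun κ z => if P z then 0 else κ z with htl
  have hPw : ∀ z, P (w z) ↔ P z := by
    intro z
    rw [hP]
    simp only
    constructor
    · rintro ⟨s, hs, h⟩
      exact ⟨s, hs, by simpa using h⟩
    · rintro ⟨s, hs, h⟩
      exact ⟨s, hs, by simpa using h⟩
  have hPS : ∀ z ∈ S, P z := fun z hz => ⟨z, hz, Equiv.Perm.SameCycle.refl _ _⟩
  rw [← Finset.sum_filter, ← Finset.sum_filter]
  have hcw0 : ∀ κ : A → Fin (y + 1), 0 ≤ cw t κ := fun κ => Finset.prod_nonneg fun z _ => by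
    split_ifs
    · norm_num
    · exact ht0 z
  have hmono : ∀ κ : A → Fin (y + 1), cw t κ ≤ cw t (tl κ) := by
    intro κ
    unfold cw
    refine Finset.prod_le_prod (fun z _ => ?_) (fun z _ => ?_)
    · split_ifs
      · norm_num
      · exact ht0 z
    · by_cases hz : P z
      · have e : tl κ z = 0 := by rw [htl]; exact if_pos hz
        rw [if_pos e]
        split_ifs
        · exact le_rfl
        · exact ht1 z
      · have e : tl κ z = κ z := by rw [htl]; exact if_neg hz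
        simp only [e]
        exact le_rfl
  have hinj : Set.InjOn tl ↑(univ.filter (fun κ : A → Fin (y + 1) =>
      ∀ z, κ (w z) = if z ∈ S then σ z else κ z)) := by
    intro κ hκ κ' hκ' heq
    simp only [coe_filter, mem_univ, true_and, Set.mem_ofPred_eq] at hκ hκ'
    funext z
    by_cases hz : P z
    · obtain ⟨s, hs, hsz⟩ := hz
      have key : ∀ n : ℕ, κ ((w ^ (n + 1)) s) = κ' ((w ^ (n + 1)) s) := by
        intro n
        induction n with
        | zero =>
          have h1 := hκ s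
          have h2 := hκ' s
          rw [if_pos hs] at h1 h2
          simpa using h1.trans h2.symm
        | succ n ih =>
          have h1 := hκ ((w ^ (n + 1)) s)
          have h2 := hκ' ((w ^ (n + 1)) s)
          rw [pow_succ' w (n + 1), Equiv.Perm.mul_apply, h1, h2, ih]
      obtain ⟨i, hi0, _, hi⟩ := hsz.exists_pow_eq''
      obtain ⟨n, rfl⟩ : ∃ n, i = n + 1 := ⟨i - 1, by omega⟩
      rw [← hi]
      exact key n
    · have := congrFun heq z
      rw [htl] at this
      simpa [hz] using this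
  calc ∑ κ ∈ univ.filter (fun κ : A → Fin (y + 1) =>
        ∀ z, κ (w z) = if z ∈ S then σ z else κ z), cw t κ
      ≤ ∑ κ ∈ univ.filter (fun κ : A → Fin (y + 1) =>
        ∀ z, κ (w z) = if z ∈ S then σ z else κ z), cw t (tl κ) :=
        Finset.sum_le_sum fun κ _ => hmono κ
    _ = ∑ κ ∈ (univ.filter (fun κ : A → Fin (y + 1) =>
        ∀ z, κ (w z) = if z ∈ S then σ z else κ z)).image tl, cw t κ := by
        rw [Finset.sum_image hinj]
    _ ≤ ∑ κ ∈ univ.filter (fun κ : A → Fin (y + 1) =>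
        (∀ z, κ (w z) = κ z) ∧ (∀ z ∈ S, κ z = 0)), cw t κ := by
        refine Finset.sum_le_sum_of_subset_of_nonneg ?_ (fun κ _ _ => hcw0 κ)
        intro κ' hκ'
        obtain ⟨κ, hκ, rfl⟩ := Finset.mem_image.mp hκ'
        simp only [mem_filter, mem_univ, true_and] at hκ ⊢
        constructor
        · intro z
          rw [htl]
          simp only
          by_cases hz : P z
          · rw [if_pos hz, if_pos ((hPw z).mpr hz)]
          · rw [if_neg hz, if_neg (fun h => hz ((hPw z).mp h)), hκ z,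
              if_neg (fun h => hz (hPS z h))]
        · intro z hz
          rw [htl]
          simp only
          rw [if_pos (hPS z hz)]

end Crest.Agent.S0222
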