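import Crest.Agent.S0222_Defs
import Crest.Agent.S0222_Basic
import Crest.Agent.S0222_B12
import Crest.Agent.S0222_B34

/-! S0222-B5 : the fixed swap pattern inequality (helper70). -/

set_option autoImplicit false

namespace Crest.Agent.S0222

open Finset Equiv

section B5

variable {A I : Type*} [Fintype A] [DecidableEq A] [Fintype I] [DecidableEq I] {y : ℕ} {s : ℕ}

theorem B5_Phi_nonneg (L : Fin s → Layer A I) (κ κ' : A → Fin (y + 1)) : 0 ≤ Phi L κ κ' := by
  unfold Phi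
  refine ex_nonneg fun ξ => ex_nonneg fun ξ' => ?_
  split_ifs <;> norm_num

theorem B5_Phi_symm (L : Fin s → Layer A I) (κ κ' : A → Fin (y + 1)) :
    Phi L κ κ' = Phi L κ' κ := by
  unfold Phi
  rw [ex_comm]
  refine ex_congr fun ξ => ex_congr fun ξ' => ?_
  simp only [eq_comm]

theorem B5_Phi_eq (L : Fin s → Layer A I) (κ κ' : A → Fin (y + 1)) :
    Phi L κ κ' = ∑ η : A → Fin (y + 1),
      ex (fun ξ : Fin s → I → Bool => if (fun z => κ (netq s L ξ z)) = η then (1 : ℝ) else 0) *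
      ex (fun ξ : Fin s → I → Bool => if (fun z => κ' (netq s L ξ z)) = η then (1 : ℝ) else 0) := by
  unfold Phi
  have h1 : ∀ η : A → Fin (y + 1),
      ex (fun ξ : Fin s → I → Bool => if (fun z => κ (netq s L ξ z)) = η then (1 : ℝ) else 0) *
      ex (fun ξ : Fin s → I → Bool => if (fun z => κ' (netq s L ξ z)) = η then (1 : ℝ) else 0) =
      ex (fun ξ : Fin s → I → Bool => ex (fun ξ' : Fin s → I → Bool =>
        (if (fun z => κ (netq s L ξ z)) = η then (1 : ℝ) else 0) *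
        (if (fun z => κ' (netq s L ξ' z)) = η then (1 : ℝ) else 0))) := by
    intro η
    rw [← ex_mul_const]
    refine ex_congr fun ξ => ?_
    rw [← ex_const_mul]
  simp_rw [h1]
  rw [← ex_sum]
  refine ex_congr fun ξ => ?_
  rw [← ex_sum]
  refine ex_congr fun ξ' => ?_
  simp only [mul_ite, mul_one, mul_zero]
  rw [Finset.sum_congr rfl (g := fun η => if (fun z => κ' (netq s L ξ' z)) = η then
    (if (fun z => κ (netq s L ξ z)) = η then (1 : ℝ) else 0) else 0) (fun η _ => rfl)]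
  rw [Finset.sum_ite_eq]
  simp only [mem_univ, if_true]
  by_cases h : (∀ z, κ (netq s L ξ z) = κ' (netq s L ξ' z))
  · rw [if_pos h, if_pos (funext h)]
  · rw [if_neg h, if_neg]
    intro h'
    exact h (fun z => congrFun h' z)

theorem B5_Phi_le (L : Fin s → Layer A I) (κ κ' : A → Fin (y + 1)) :
    Phi L κ κ' ≤ (Phi L κ κ + Phi L κ' κ') / 2 := by
  rw [B5_Phi_eq, B5_Phi_eq, B5_Phi_eq, ← Finset.sum_add_distrib, Finset.sum_div]
  refine Finset.sum_le_sum fun η _ => ?_
  set a := ex (fun ξ : Fin s → I → Bool => if (fun z => κ (netq s L ξ z)) = η then (1 : ℝ) else 0)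
  set b := ex (fun ξ : Fin s → I → Bool => if (fun z => κ' (netq s L ξ z)) = η then (1 : ℝ) else 0)
  nlinarith [sq_nonneg (a - b)]


set_option linter.unusedSectionVars false

/-- gluing on a half -/
def B5G (c : A → Bool) (g : Perm A) (b : Bool)
    (σ : {z // c z = b ∧ g z ≠ z} → Fin (y + 1)) (u : {z // c z = b ∧ g z = z} → Fin (y + 1)) :
    A → Fin (y + 1) :=
  fun z => if h : c z = b then (if h' : g z = z then u ⟨z, h, h'⟩ else σ ⟨z, h, h'⟩) else 0

theorem B5G_off (c : A → Bool) (g : Perm A) (b : Bool)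
    (σ : {z // c z = b ∧ g z ≠ z} → Fin (y + 1)) (u : {z // c z = b ∧ g z = z} → Fin (y + 1))
    (z : A) (h : c z ≠ b) : B5G c g b σ u z = 0 := by
  simp [B5G, h]

theorem B5G_mov (c : A → Bool) (g : Perm A) (b : Bool)
    (σ : {z // c z = b ∧ g z ≠ z} → Fin (y + 1)) (u : {z // c z = b ∧ g z = z} → Fin (y + 1))
    (z : A) (h : c z = b ∧ g z ≠ z) : B5G c g b σ u z = σ ⟨z, h⟩ := by
  simp [B5G, h.1, h.2]

theorem B5G_fix (c : A → Bool) (g : Perm A) (b : Bool)
    (σ : {z // c z = b ∧ g z ≠ z} → Fin (y + 1)) (u : {z // c z = b ∧ g z = z} → Fin (y + 1))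
    (z : A) (h : c z = b ∧ g z = z) : B5G c g b σ u z = u ⟨z, h⟩ := by
  simp [B5G, h.1, h.2]

/-- weight of a colouring of a subtype -/
noncomputable def B5w {P : A → Prop} [DecidablePred P] (t : A → ℝ) (σ : {z // P z} → Fin (y + 1)) : ℝ :=
  ∏ i, if σ i = 0 then 1 else t i.1

theorem B5w_nonneg {P : A → Prop} [DecidablePred P] (t : A → ℝ) (ht : ∀ a, 0 ≤ t a)
    (σ : {z // P z} → Fin (y + 1)) : 0 ≤ B5w t σ := by
  unfold B5w
  refine Finset.prod_nonneg fun i _ => ?_
  split_ifs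
  · norm_num
  · exact ht _

theorem B5w_eq {P : A → Prop} [DecidablePred P] (t : A → ℝ) (σ : {z // P z} → Fin (y + 1))
    (κ : A → Fin (y + 1)) (h : ∀ i, κ i.1 = σ i) :
    B5w t σ = ∏ z, if P z then (if κ z = 0 then 1 else t z) else 1 := by
  unfold B5w
  rw [← Finset.prod_filter, ← Finset.prod_subtype_eq_prod_filter]
  simp only [Finset.subtype_univ]
  refine Finset.prod_congr rfl fun i _ => ?_
  rw [h]

theorem B5_cw_G (c : A → Bool) (g : Perm A) (b : Bool) (t : A → ℝ)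
    (σ : {z // c z = b ∧ g z ≠ z} → Fin (y + 1)) (u : {z // c z = b ∧ g z = z} → Fin (y + 1)) :
    cw t (B5G c g b σ u) = B5w t σ * B5w t u := by
  rw [B5w_eq t σ (B5G c g b σ u) (fun i => B5G_mov c g b σ u i.1 i.2),
    B5w_eq t u (B5G c g b σ u) (fun i => B5G_fix c g b σ u i.1 i.2), ← Finset.prod_mul_distrib]
  unfold cw
  refine Finset.prod_congr rfl fun z _ => ?_
  by_cases h : c z = b
  · by_cases h' : g z = z
    · simp [h, h']
    · simp [h, h']
  · rw [B5G_off c g b σ u z h]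
    simp [h]

/-- the colourings supported on a half -/
def B5E (c : A → Bool) (g : Perm A) (b : Bool) :
    (({z // c z = b ∧ g z ≠ z} → Fin (y + 1)) × ({z // c z = b ∧ g z = z} → Fin (y + 1))) ≃
      {κ : A → Fin (y + 1) // ∀ z, c z ≠ b → κ z = 0} where
  toFun p := ⟨B5G c g b p.1 p.2, fun z hz => B5G_off c g b p.1 p.2 z hz⟩
  invFun κ := (fun i => κ.1 i.1, fun i => κ.1 i.1)
  left_inv p := by
    apply Prod.ext
    · funext i; exact B5G_mov c g b p.1 p.2 i.1 i.2
    · funext i; exact B5G_fix c g b p.1 p.2 i.1 i.2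
  right_inv κ := by
    apply Subtype.ext
    funext z
    by_cases h : c z = b
    · by_cases h' : g z = z
      · exact B5G_fix c g b _ _ z ⟨h, h'⟩
      · exact B5G_mov c g b _ _ z ⟨h, h'⟩
    · rw [κ.2 z h]; exact B5G_off c g b _ _ z h

theorem B5_sum_G (c : A → Bool) (g : Perm A) (b : Bool) (F : (A → Fin (y + 1)) → ℝ) :
    ∑ σ : {z // c z = b ∧ g z ≠ z} → Fin (y + 1), ∑ u : {z // c z = b ∧ g z = z} → Fin (y + 1),
      F (B5G c g b σ u) =
    ∑ κ ∈ univ.filter (fun κ : A → Fin (y + 1) => ∀ z, c z ≠ b → κ z = 0), F κ := by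
  rw [← Fintype.sum_prod_type', ← Finset.sum_subtype_eq_sum_filter, Finset.subtype_univ]
  exact Fintype.sum_equiv (B5E c g b) _ _ (fun p => rfl)

theorem B5_trace (L : Fin s → Layer A I) (c : A → Bool) (g : Perm A) (b : Bool) (t : A → ℝ) :
    ∑ σ : {z // c z = b ∧ g z ≠ z} → Fin (y + 1), ∑ u : {z // c z = b ∧ g z = z} → Fin (y + 1),
      B5w t σ * B5w t u * Phi L (B5G c g b σ u) (B5G c g b σ u) =
    ∑ κ ∈ univ.filter (fun κ : A → Fin (y + 1) => ∀ z, c z ≠ b → κ z = 0), cw t κ * Phi L κ κ := by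
  rw [← B5_sum_G c g b]
  refine Finset.sum_congr rfl fun σ _ => Finset.sum_congr rfl fun u _ => ?_
  rw [B5_cw_G]

/-- fixed permutations -/
theorem B5_row_fixed (c : A → Bool) (g : Perm A) (b : Bool) (t : A → ℝ)
    (ht0 : ∀ a, 0 ≤ t a) (ht1 : ∀ a, t a ≤ 1) (q q' : Perm A)
    (σ : A → Fin (y + 1)) :
    ∑ κ ∈ univ.filter (fun κ : A → Fin (y + 1) => ∀ z, c z ≠ b → κ z = 0),
      cw t κ * (if (∀ z, (fun z => if c z = b then (if g z = z then κ z else σ z) else 0) (q z) =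
        κ (q' z)) then (1 : ℝ) else 0) ≤
    ∑ κ ∈ univ.filter (fun κ : A → Fin (y + 1) => (∀ z, c z ≠ b → κ z = 0) ∧
            ∀ z, g z ≠ z → κ z = 0), cw t κ *
        (if (∀ z, κ (q z) = κ (q' z)) then (1 : ℝ) else 0) := by
  have hcw : ∀ κ : A → Fin (y + 1), 0 ≤ cw t κ := by
    intro κ
    unfold cw
    refine Finset.prod_nonneg fun i _ => ?_
    split_ifs
    · norm_num
    · exact ht0 _
  have key := B2_row (q' * q⁻¹) (univ.filter (fun z => c z = b → g z ≠ z))
    (fun z => if c z = b then σ z else 0) t ht0 ht1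
  rw [Finset.sum_filter, Finset.sum_filter]
  refine le_trans ?_ (le_trans key ?_)
  · refine Finset.sum_le_sum fun κ _ => ?_
    by_cases h1 : ∀ z, c z ≠ b → κ z = 0
    · rw [if_pos h1]
      by_cases h2 : ∀ z, (fun z => if c z = b then (if g z = z then κ z else σ z) else 0) (q z) =
        κ (q' z)
      · rw [if_pos h2, if_pos, mul_one]
        intro z
        have h3 := h2 (q⁻¹ z)
        have hq : q (q⁻¹ z) = z := q.apply_symm_apply z
        rw [hq] at h3
        rw [Perm.mul_apply, ← h3]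
        by_cases h4 : c z = b
        · by_cases h5 : g z = z
          · simp [h4, h5]
          · simp [h4, h5]
        · simp [h4]
      · rw [if_neg h2, mul_zero]
        split_ifs
        · exact hcw κ
        · exact le_rfl
    · rw [if_neg h1]
      split_ifs
      · exact hcw κ
      · exact le_rfl
  · refine Finset.sum_le_sum fun κ _ => ?_
    by_cases h1 : (∀ z, κ ((q' * q⁻¹) z) = κ z) ∧
      ∀ z ∈ univ.filter (fun z => c z = b → g z ≠ z), κ z = 0
    · rw [if_pos h1, if_pos, if_pos, mul_one]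
      · intro z
        have h3 := h1.1 (q z)
        have hq : q⁻¹ (q z) = z := q.symm_apply_apply z
        rw [Perm.mul_apply, hq] at h3
        exact h3.symm
      · constructor
        · intro z hz
          exact h1.2 z (by simp [hz])
        · intro z hz
          exact h1.2 z (by simp [hz])
    · rw [if_neg h1]
      split_ifs
      · simp [hcw κ]
      · simp
      · exact le_rfl

theorem B5_row (L : Fin s → Layer A I) (c : A → Bool) (g : Perm A) (b : Bool) (t : A → ℝ)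
    (ht0 : ∀ a, 0 ≤ t a) (ht1 : ∀ a, t a ≤ 1)
    (σ : {z // c z = b ∧ g z ≠ z} → Fin (y + 1)) :
    ∑ τ : {z // c z = b ∧ g z ≠ z} → Fin (y + 1), ∑ u : {z // c z = b ∧ g z = z} → Fin (y + 1),
      B5w t τ * B5w t u * Phi L (B5G c g b σ u) (B5G c g b τ u) ≤
    ∑ κ ∈ univ.filter (fun κ : A → Fin (y + 1) => (∀ z, c z ≠ b → κ z = 0) ∧
            ∀ z, g z ≠ z → κ z = 0), cw t κ * Phi L κ κ := by
  classical
  let σ' : A → Fin (y + 1) := fun z => if h : c z = b ∧ g z ≠ z then σ ⟨z, h⟩ else 0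
  have h1 : ∀ (τ : {z // c z = b ∧ g z ≠ z} → Fin (y + 1)) (u : {z // c z = b ∧ g z = z} → Fin (y + 1)),
      B5G c g b σ u = (fun z => if c z = b then (if g z = z then B5G c g b τ u z else σ' z) else 0) := by
    intro τ u
    funext z
    by_cases h : c z = b
    · by_cases h' : g z = z
      · simp only [h, h', if_true]
        rw [B5G_fix c g b _ _ z ⟨h, h'⟩, B5G_fix c g b _ _ z ⟨h, h'⟩]
      · simp only [h, h', if_true, if_false]
        rw [B5G_mov c g b _ _ z ⟨h, h'⟩]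
        simp [σ', h, h']
    · rw [B5G_off c g b _ _ z h]
      simp [h]
  have h2 : ∀ (τ : {z // c z = b ∧ g z ≠ z} → Fin (y + 1)) (u : {z // c z = b ∧ g z = z} → Fin (y + 1)),
      B5w t τ * B5w t u * Phi L (B5G c g b σ u) (B5G c g b τ u) =
      (fun κ : A → Fin (y + 1) => cw t κ *
        Phi L (fun z => if c z = b then (if g z = z then κ z else σ' z) else 0) κ) (B5G c g b τ u) := by
    intro τ u
    simp only
    rw [← h1 τ u, B5_cw_G]
  simp_rw [h2]
  rw [B5_sum_G c g b (fun κ : A → Fin (y + 1) => cw t κ *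
        Phi L (fun z => if c z = b then (if g z = z then κ z else σ' z) else 0) κ)]
  unfold Phi
  simp_rw [← ex_const_mul]
  rw [← ex_sum, ← ex_sum]
  refine ex_mono fun ξ => ?_
  rw [← ex_sum, ← ex_sum]
  refine ex_mono fun ξ' => ?_
  exact B5_row_fixed c g b t ht0 ht1 (netq s L ξ) (netq s L ξ') σ'

/-- the involution exchanges the moved points of the two halves -/
def B5gS (c : A → Bool) (g : Perm A) (hg : ∀ z, g (g z) = z) (hcg : ∀ z, g z ≠ z → c (g z) ≠ c z) :
    {z // c z = false ∧ g z ≠ z} ≃ {z // c z = true ∧ g z ≠ z} where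
  toFun z := ⟨g z.1, by
    have h := hcg z.1 z.2.2
    rw [z.2.1] at h
    refine ⟨by simpa using h, ?_⟩
    rw [hg]; exact fun h => z.2.2 h.symm⟩
  invFun z := ⟨g z.1, by
    have h := hcg z.1 z.2.2
    rw [z.2.1] at h
    refine ⟨by simpa using h, ?_⟩
    rw [hg]; exact fun h => z.2.2 h.symm⟩
  left_inv z := by apply Subtype.ext; exact hg z.1
  right_inv z := by apply Subtype.ext; exact hg z.1

/-- colourings of the moved points of the two halves -/
def B5e (c : A → Bool) (g : Perm A) (hg : ∀ z, g (g z) = z) (hcg : ∀ z, g z ≠ z → c (g z) ≠ c z) :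
    ({z // c z = false ∧ g z ≠ z} → Fin (y + 1)) ≃ ({z // c z = true ∧ g z ≠ z} → Fin (y + 1)) :=
  Equiv.arrowCongr (B5gS c g hg hcg) (Equiv.refl _)

theorem B5e_apply (c : A → Bool) (g : Perm A) (hg : ∀ z, g (g z) = z)
    (hcg : ∀ z, g z ≠ z → c (g z) ≠ c z) (σ : {z // c z = false ∧ g z ≠ z} → Fin (y + 1))
    (z : A) (hz : c z = true ∧ g z ≠ z) (hz' : c (g z) = false ∧ g (g z) ≠ g z) :
    B5e c g hg hcg σ ⟨z, hz⟩ = σ ⟨g z, hz'⟩ := rfl

theorem B5w_e (c : A → Bool) (g : Perm A) (hg : ∀ z, g (g z) = z)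
    (hcg : ∀ z, g z ≠ z → c (g z) ≠ c z) (t : A → ℝ) (htg : ∀ a, t (g a) = t a)
    (σ : {z // c z = false ∧ g z ≠ z} → Fin (y + 1)) :
    B5w t (B5e c g hg hcg σ) = B5w t σ := by
  unfold B5w
  symm
  refine Fintype.prod_equiv (B5gS c g hg hcg) _ _ fun i => ?_
  have h1 : B5e c g hg hcg σ (B5gS c g hg hcg i) = σ i := by
    show σ ((B5gS c g hg hcg).symm (B5gS c g hg hcg i)) = σ i
    rw [Equiv.symm_apply_apply]
  rw [h1]
  have h2 : t (B5gS c g hg hcg i).1 = t i.1 := htg i.1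
  rw [h2]

/-- the four way decomposition of a colouring -/
def B5K (c : A → Bool) (g : Perm A) (hg : ∀ z, g (g z) = z) (hcg : ∀ z, g z ≠ z → c (g z) ≠ c z)
    (σ τ : {z // c z = false ∧ g z ≠ z} → Fin (y + 1)) (u : {z // c z = false ∧ g z = z} → Fin (y + 1))
    (v : {z // c z = true ∧ g z = z} → Fin (y + 1)) : A → Fin (y + 1) :=
  fun z => if c z = false then B5G c g false σ u z else B5G c g true (B5e c g hg hcg τ) v z

theorem B5K_rs0 (c : A → Bool) (g : Perm A) (hg : ∀ z, g (g z) = z)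
    (hcg : ∀ z, g z ≠ z → c (g z) ≠ c z)
    (σ τ : {z // c z = false ∧ g z ≠ z} → Fin (y + 1)) (u : {z // c z = false ∧ g z = z} → Fin (y + 1))
    (v : {z // c z = true ∧ g z = z} → Fin (y + 1)) :
    rs c false (B5K c g hg hcg σ τ u v) = B5G c g false σ u := by
  funext z
  unfold rs B5K
  by_cases h : c z = false
  · simp [h]
  · rw [B5G_off c g false σ u z h]; simp [h]

theorem B5K_rs1 (c : A → Bool) (g : Perm A) (hg : ∀ z, g (g z) = z)
    (hcg : ∀ z, g z ≠ z → c (g z) ≠ c z)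
    (σ τ : {z // c z = false ∧ g z ≠ z} → Fin (y + 1)) (u : {z // c z = false ∧ g z = z} → Fin (y + 1))
    (v : {z // c z = true ∧ g z = z} → Fin (y + 1)) :
    rs c true (B5K c g hg hcg σ τ u v) = B5G c g true (B5e c g hg hcg τ) v := by
  funext z
  unfold rs B5K
  by_cases h : c z = true
  · simp [h]
  · rw [B5G_off c g true _ v z h]; simp [h]

theorem B5K_comp (c : A → Bool) (g : Perm A) (hg : ∀ z, g (g z) = z)
    (hcg : ∀ z, g z ≠ z → c (g z) ≠ c z)
    (σ τ : {z // c z = false ∧ g z ≠ z} → Fin (y + 1)) (u : {z // c z = false ∧ g z = z} → Fin (y + 1))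
    (v : {z // c z = true ∧ g z = z} → Fin (y + 1)) :
    B5K c g hg hcg σ τ u v ∘ g = B5K c g hg hcg τ σ u v := by
  funext z
  show B5K c g hg hcg σ τ u v (g z) = B5K c g hg hcg τ σ u v z
  unfold B5K
  by_cases h' : g z = z
  · rw [h']
    by_cases h : c z = false
    · simp only [h, if_true]
      rw [B5G_fix c g false _ _ z ⟨h, h'⟩, B5G_fix c g false _ _ z ⟨h, h'⟩]
    · have h1 : c z = true := by simpa using h
      rw [if_neg h, if_neg h, B5G_fix c g true _ _ z ⟨h1, h'⟩, B5G_fix c g true _ _ z ⟨h1, h'⟩]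
  · have h2 := hcg z h'
    have h3 : g (g z) ≠ g z := by rw [hg]; exact fun h => h' h.symm
    by_cases h : c z = false
    · have h4 : c (g z) = true := by rw [h] at h2; simpa using h2
      have h5 : ¬ (c (g z) = false) := by rw [h4]; simp
      rw [if_neg h5, if_pos h, B5G_mov c g true _ _ (g z) ⟨h4, h3⟩, B5G_mov c g false _ _ z ⟨h, h'⟩]
      have h6 : c (g (g z)) = false ∧ g (g (g z)) ≠ g (g z) := by
        rw [hg]; exact ⟨h, h'⟩
      rw [B5e_apply c g hg hcg τ (g z) ⟨h4, h3⟩ h6]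
      congr 1
      exact Subtype.ext (hg z)
    · have h1 : c z = true := by simpa using h
      have h4 : c (g z) = false := by rw [h1] at h2; simpa using h2
      rw [if_pos h4, if_neg h, B5G_mov c g false _ _ (g z) ⟨h4, h3⟩, B5G_mov c g true _ _ z ⟨h1, h'⟩]
      rw [B5e_apply c g hg hcg σ z ⟨h1, h'⟩ ⟨h4, h3⟩]

theorem B5K_cw (c : A → Bool) (g : Perm A) (hg : ∀ z, g (g z) = z)
    (hcg : ∀ z, g z ≠ z → c (g z) ≠ c z) (t : A → ℝ) (htg : ∀ a, t (g a) = t a)
    (σ τ : {z // c z = false ∧ g z ≠ z} → Fin (y + 1)) (u : {z // c z = false ∧ g z = z} → Fin (y + 1))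
    (v : {z // c z = true ∧ g z = z} → Fin (y + 1)) :
    cw t (B5K c g hg hcg σ τ u v) = B5w t σ * B5w t τ * B5w t u * B5w t v := by
  have h1 : cw t (B5K c g hg hcg σ τ u v) =
      cw t (B5G c g false σ u) * cw t (B5G c g true (B5e c g hg hcg τ) v) := by
    unfold cw
    rw [← Finset.prod_mul_distrib]
    refine Finset.prod_congr rfl fun z _ => ?_
    unfold B5K
    by_cases h : c z = false
    · have h1 : c z ≠ true := by rw [h]; simp
      rw [if_pos h, B5G_off c g true _ v z h1]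
      simp
    · rw [if_neg h, B5G_off c g false _ u z h]
      simp
  rw [h1, B5_cw_G, B5_cw_G, B5w_e c g hg hcg t htg]
  ring

/-- the four way decomposition as an equivalence -/
def B5KE (c : A → Bool) (g : Perm A) (hg : ∀ z, g (g z) = z) (hcg : ∀ z, g z ≠ z → c (g z) ≠ c z) :
    (({z // c z = false ∧ g z ≠ z} → Fin (y + 1)) × ({z // c z = false ∧ g z ≠ z} → Fin (y + 1)) ×
      ({z // c z = false ∧ g z = z} → Fin (y + 1)) × ({z // c z = true ∧ g z = z} → Fin (y + 1))) ≃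
      (A → Fin (y + 1)) where
  toFun p := B5K c g hg hcg p.1 p.2.1 p.2.2.1 p.2.2.2
  invFun κ := (fun i => κ i.1, fun i => κ (g i.1), fun i => κ i.1, fun i => κ i.1)
  left_inv p := by
    obtain ⟨σ, τ, u, v⟩ := p
    refine Prod.ext ?_ (Prod.ext ?_ (Prod.ext ?_ ?_))
    · funext i
      show B5K c g hg hcg σ τ u v i.1 = σ i
      unfold B5K
      rw [if_pos i.2.1]
      exact B5G_mov c g false _ _ i.1 i.2
    · funext i
      show (B5K c g hg hcg σ τ u v ∘ g) i.1 = τ i
      rw [B5K_comp]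
      unfold B5K
      rw [if_pos i.2.1]
      exact B5G_mov c g false _ _ i.1 i.2
    · funext i
      show B5K c g hg hcg σ τ u v i.1 = u i
      unfold B5K
      rw [if_pos i.2.1]
      exact B5G_fix c g false _ _ i.1 i.2
    · funext i
      show B5K c g hg hcg σ τ u v i.1 = v i
      unfold B5K
      have h5 : ¬ (c i.1 = false) := by rw [i.2.1]; simp
      rw [if_neg h5]
      exact B5G_fix c g true _ _ i.1 i.2
  right_inv κ := by
    funext z
    show B5K c g hg hcg _ _ _ _ z = κ z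
    unfold B5K
    by_cases h : c z = false
    · rw [if_pos h]
      by_cases h' : g z = z
      · rw [B5G_fix c g false _ _ z ⟨h, h'⟩]
      · rw [B5G_mov c g false _ _ z ⟨h, h'⟩]
    · have h1 : c z = true := by simpa using h
      rw [if_neg h]
      by_cases h' : g z = z
      · rw [B5G_fix c g true _ _ z ⟨h1, h'⟩]
      · have h2 := hcg z h'
        have h3 : g (g z) ≠ g z := by rw [hg]; exact fun h => h' h.symm
        have h4 : c (g z) = false := by rw [h1] at h2; simpa using h2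
        rw [B5G_mov c g true _ _ z ⟨h1, h'⟩, B5e_apply c g hg hcg _ z ⟨h1, h'⟩ ⟨h4, h3⟩]
        show κ (g (g z)) = κ z
        rw [hg]

/-- product of the two traces -/
theorem B5_AA (L : Fin s → Layer A I) (c : A → Bool) (hc : ∀ i a, c ((L i).inv a) = c a)
    (g : Perm A) (hg : ∀ z, g (g z) = z) (hcg : ∀ z, g z ≠ z → c (g z) ≠ c z)
    (t : A → ℝ) (htg : ∀ a, t (g a) = t a) :
    AA y L t =
      (∑ σ : {z // c z = false ∧ g z ≠ z} → Fin (y + 1), ∑ u : {z // c z = false ∧ g z = z} → Fin (y + 1),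
        B5w t σ * B5w t u * Phi L (B5G c g false σ u) (B5G c g false σ u)) *
      (∑ τ : {z // c z = false ∧ g z ≠ z} → Fin (y + 1), ∑ v : {z // c z = true ∧ g z = z} → Fin (y + 1),
        B5w t τ * B5w t v * Phi L (B5G c g true (B5e c g hg hcg τ) v)
          (B5G c g true (B5e c g hg hcg τ) v)) := by
  unfold AA
  rw [← Equiv.sum_comp (B5KE c g hg hcg), Fintype.sum_prod_type]
  simp_rw [Fintype.sum_prod_type]
  rw [Finset.sum_mul]
  refine Finset.sum_congr rfl fun σ _ => ?_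
  rw [Finset.mul_sum]
  refine Finset.sum_congr rfl fun τ _ => ?_
  rw [Finset.sum_mul]
  refine Finset.sum_congr rfl fun u _ => ?_
  rw [Finset.mul_sum]
  refine Finset.sum_congr rfl fun v _ => ?_
  show cw t (B5K c g hg hcg σ τ u v) * Phi L (B5K c g hg hcg σ τ u v) (B5K c g hg hcg σ τ u v) = _
  rw [B3_factor L c hc, B5K_rs0, B5K_rs1, B5K_cw c g hg hcg t htg]
  ring

theorem B5_main (L : Fin s → Layer A I) (c : A → Bool) (hc : ∀ i a, c ((L i).inv a) = c a)
    (g : Perm A) (hg : ∀ z, g (g z) = z) (hcg : ∀ z, g z ≠ z → c (g z) ≠ c z)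
    (t : A → ℝ) (ht0 : ∀ a, 0 ≤ t a) (ht1 : ∀ a, t a ≤ 1) (htg : ∀ a, t (g a) = t a) :
    ∑ κ : A → Fin (y + 1), cw t κ * Phi L κ (κ ∘ g) ≤
      Real.sqrt (AA y L t) *
      Real.sqrt (
        (∑ κ ∈ univ.filter (fun κ : A → Fin (y + 1) => (∀ z, c z ≠ false → κ z = 0) ∧
            ∀ z, g z ≠ z → κ z = 0), cw t κ * Phi L κ κ) *
        (∑ κ ∈ univ.filter (fun κ : A → Fin (y + 1) => (∀ z, c z ≠ true → κ z = 0) ∧
            ∀ z, g z ≠ z → κ z = 0), cw t κ * Phi L κ κ)) := by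
  set R0 := ∑ κ ∈ univ.filter (fun κ : A → Fin (y + 1) => (∀ z, c z ≠ false → κ z = 0) ∧
            ∀ z, g z ≠ z → κ z = 0), cw t κ * Phi L κ κ with hR0def
  set R1 := ∑ κ ∈ univ.filter (fun κ : A → Fin (y + 1) => (∀ z, c z ≠ true → κ z = 0) ∧
            ∀ z, g z ≠ z → κ z = 0), cw t κ * Phi L κ κ with hR1def
  have hcw : ∀ κ : A → Fin (y + 1), 0 ≤ cw t κ := by
    intro κ
    unfold cw
    refine Finset.prod_nonneg fun i _ => ?_
    split_ifs
    · norm_num
    · exact ht0 _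
  have hR0n : 0 ≤ R0 := Finset.sum_nonneg fun κ _ => mul_nonneg (hcw κ) (B5_Phi_nonneg L κ κ)
  have hR1n : 0 ≤ R1 := Finset.sum_nonneg fun κ _ => mul_nonneg (hcw κ) (B5_Phi_nonneg L κ κ)
  have key := B1_kernel (S := {z // c z = false ∧ g z ≠ z} → Fin (y + 1))
    (U := {z // c z = false ∧ g z = z} → Fin (y + 1))
    (V := {z // c z = true ∧ g z = z} → Fin (y + 1))
    (B5w t) (B5w t) (B5w t) (B5w_nonneg t ht0) (B5w_nonneg t ht0) (B5w_nonneg t ht0)
    (fun p p' => Phi L (B5G c g false p.1 p.2) (B5G c g false p'.1 p'.2))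
    (fun p p' => Phi L (B5G c g true (B5e c g hg hcg p.1) p.2) (B5G c g true (B5e c g hg hcg p'.1) p'.2))
    (fun _ _ => B5_Phi_nonneg L _ _) (fun _ _ => B5_Phi_nonneg L _ _)
    (fun _ _ => B5_Phi_symm L _ _) (fun _ _ => B5_Phi_symm L _ _)
    (fun _ _ => B5_Phi_le L _ _) (fun _ _ => B5_Phi_le L _ _) R0 R1
    (fun σ => B5_row L c g false t ht0 ht1 σ)
    (fun σ => by
      have h := B5_row L c g true t ht0 ht1 (B5e c g hg hcg σ)
      rw [← Equiv.sum_comp (B5e c g hg hcg)] at h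
      simp only [B5w_e c g hg hcg t htg] at h
      exact h)
  have hLHS : ∑ κ : A → Fin (y + 1), cw t κ * Phi L κ (κ ∘ g) =
      ∑ σ : {z // c z = false ∧ g z ≠ z} → Fin (y + 1),
      ∑ τ : {z // c z = false ∧ g z ≠ z} → Fin (y + 1),
      ∑ u : {z // c z = false ∧ g z = z} → Fin (y + 1),
      ∑ v : {z // c z = true ∧ g z = z} → Fin (y + 1), B5w t σ * B5w t τ * B5w t u * B5w t v *
        (Phi L (B5G c g false σ u) (B5G c g false τ u)) *
        (Phi L (B5G c g true (B5e c g hg hcg τ) v) (B5G c g true (B5e c g hg hcg σ) v)) := by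
    rw [← Equiv.sum_comp (B5KE c g hg hcg), Fintype.sum_prod_type]
    simp_rw [Fintype.sum_prod_type]
    refine Finset.sum_congr rfl fun σ _ => Finset.sum_congr rfl fun τ _ =>
      Finset.sum_congr rfl fun u _ => Finset.sum_congr rfl fun v _ => ?_
    show cw t (B5K c g hg hcg σ τ u v) * Phi L (B5K c g hg hcg σ τ u v)
      (B5K c g hg hcg σ τ u v ∘ g) = _
    rw [B3_factor L c hc, B5K_comp, B5K_rs0, B5K_rs1, B5K_rs0, B5K_rs1, B5K_cw c g hg hcg t htg]
    ring
  rw [hLHS, B5_AA L c hc g hg hcg t htg]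
  refine le_trans key (le_of_eq ?_)
  have hT0 : 0 ≤ ∑ σ : {z // c z = false ∧ g z ≠ z} → Fin (y + 1),
      ∑ u : {z // c z = false ∧ g z = z} → Fin (y + 1),
        B5w t σ * B5w t u * Phi L (B5G c g false σ u) (B5G c g false σ u) :=
    Finset.sum_nonneg fun σ _ => Finset.sum_nonneg fun u _ =>
      mul_nonneg (mul_nonneg (B5w_nonneg t ht0 _) (B5w_nonneg t ht0 _)) (B5_Phi_nonneg L _ _)
  have hT1 : 0 ≤ ∑ τ : {z // c z = false ∧ g z ≠ z} → Fin (y + 1),
      ∑ v : {z // c z = true ∧ g z = z} → Fin (y + 1),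
        B5w t τ * B5w t v * Phi L (B5G c g true (B5e c g hg hcg τ) v)
          (B5G c g true (B5e c g hg hcg τ) v) :=
    Finset.sum_nonneg fun σ _ => Finset.sum_nonneg fun u _ =>
      mul_nonneg (mul_nonneg (B5w_nonneg t ht0 _) (B5w_nonneg t ht0 _)) (B5_Phi_nonneg L _ _)
  rw [← Real.sqrt_mul (mul_nonneg hT0 hR0n), ← Real.sqrt_mul (mul_nonneg hT0 hT1)]
  congr 1
  ring

theorem B5_fixed (L : Fin s → Layer A I) (L1 : Layer A I)
    (c : A → Bool) (hc : ∀ i a, c ((L i).inv a) = c a) (hc1 : ∀ a, L1.inv a ≠ a → c (L1.inv a) ≠ c a)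
    (t : A → ℝ) (ht0 : ∀ a, 0 ≤ t a) (ht1 : ∀ a, t a ≤ 1) (htinv : ∀ a, t (L1.inv a) = t a)
    (ζ : I → Bool) :
    ∑ κ : A → Fin (y + 1), cw t κ * Phi L κ (κ ∘ L1.h ζ) ≤
      Real.sqrt (AA y L t) *
      Real.sqrt (
        (∑ κ ∈ univ.filter (fun κ : A → Fin (y + 1) => (∀ z, c z ≠ false → κ z = 0) ∧
            ∀ z, L1.h ζ z ≠ z → κ z = 0), cw t κ * Phi L κ κ) *
        (∑ κ ∈ univ.filter (fun κ : A → Fin (y + 1) => (∀ z, c z ≠ true → κ z = 0) ∧
            ∀ z, L1.h ζ z ≠ z → κ z = 0), cw t κ * Phi L κ κ)) := by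
  have happ : ∀ z, L1.h ζ z = if ζ (L1.rep z) then L1.inv z else z := fun z => rfl
  refine B5_main L c hc (L1.h ζ) ?_ ?_ t ht0 ht1 ?_
  · intro z
    rw [happ, happ]
    by_cases h : ζ (L1.rep z)
    · simp [h, L1.rep_inv, L1.inv_inv]
    · simp [h]
  · intro z hz
    rw [happ] at hz ⊢
    by_cases h : ζ (L1.rep z)
    · simp only [h, if_true] at hz ⊢
      exact hc1 z hz
    · simp [h] at hz
  · intro z
    rw [happ]
    by_cases h : ζ (L1.rep z)
    · simp [h, htinv]
    · simp [h]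

end B5

end Crest.Agent.S0222
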