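import Crest.Agent.S0222_Basic
import Crest.Agent.S0222_B34
import Crest.Agent.S0222_B5

/-!
S0222, task B67 : one layer inequality (B6) and main theorem of module B (B7).  helper77.
-/

set_option autoImplicit false
set_option linter.unusedSectionVars false

namespace Crest.Agent.S0222

open Finset Equiv Crest.ProbabilityR.Shuffle

section B67

variable {A I : Type*} [Fintype A] [DecidableEq A] [Fintype I] [DecidableEq I]

theorem B67_h_apply (L : Layer A I) (ξ : I → Bool) (a : A) :
    L.h ξ a = if ξ (L.rep a) then L.inv a else a := rfl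

theorem B67_rep_h (L : Layer A I) (ξ : I → Bool) (a : A) : L.rep (L.h ξ a) = L.rep a := by
  rw [B67_h_apply]; by_cases h : ξ (L.rep a) <;> simp [h, L.rep_inv]

theorem B67_h_h (L : Layer A I) (ξ ξ' : I → Bool) (a : A) :
    L.h ξ (L.h ξ' a) = L.h (fun i => xor (ξ i) (ξ' i)) a := by
  rw [B67_h_apply L ξ (L.h ξ' a), B67_rep_h]
  rw [B67_h_apply, B67_h_apply]
  by_cases h : ξ (L.rep a) <;> by_cases h' : ξ' (L.rep a) <;> simp [h, h', L.inv_inv]

theorem B67_h_invol (L : Layer A I) (ξ : I → Bool) (a : A) : L.h ξ (L.h ξ a) = a := by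
  rw [B67_h_h, B67_h_apply]; simp

/-- precomposition with `h` is an involution on colourings -/
def B67_pre (y : ℕ) (L : Layer A I) (ξ : I → Bool) :
    (A → Fin (y + 1)) ≃ (A → Fin (y + 1)) where
  toFun κ := κ ∘ L.h ξ
  invFun κ := κ ∘ L.h ξ
  left_inv κ := by funext a; simp [B67_h_invol]
  right_inv κ := by funext a; simp [B67_h_invol]

/-- xor with `ξ` on coins -/
def B67_xor (ξ : I → Bool) : (I → Bool) ≃ (I → Bool) where
  toFun η := fun i => xor (ξ i) (η i)
  invFun η := fun i => xor (ξ i) (η i)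
  left_inv η := by funext i; simp
  right_inv η := by funext i; simp

theorem B67_Phi_succ {y s : ℕ} (L : Fin (s + 1) → Layer A I) (κ κ' : A → Fin (y + 1)) :
    Phi L κ κ' = ex (fun a : I → Bool => ex (fun a' : I → Bool =>
      Phi (fun i : Fin s => L i.castSucc) (κ ∘ (L (Fin.last s)).h a)
        (κ' ∘ (L (Fin.last s)).h a'))) := by
  unfold Phi
  rw [ex_snoc]
  apply ex_congr; intro a
  have h1 : ∀ g : Fin s → I → Bool,
      ex (fun ξ' : Fin (s + 1) → I → Bool =>
        if (∀ z, κ (netq (s + 1) L (Fin.snoc g a : Fin (s + 1) → I → Bool) z) =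
          κ' (netq (s + 1) L ξ' z)) then (1 : ℝ) else 0) =
      ex (fun a' : I → Bool => ex (fun g' : Fin s → I → Bool =>
        if (∀ z, (κ ∘ (L (Fin.last s)).h a) (netq s (fun i : Fin s => L i.castSucc) g z) =
          (κ' ∘ (L (Fin.last s)).h a') (netq s (fun i : Fin s => L i.castSucc) g' z))
          then (1 : ℝ) else 0)) := by
    intro g
    rw [ex_snoc]
    apply ex_congr; intro a'; apply ex_congr; intro g'
    simp [netq, Perm.mul_apply]
  rw [ex_congr h1, ex_comm]

theorem B67_AA_succ {y s : ℕ} (L : Fin (s + 1) → Layer A I) (t : A → ℝ) :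
    AA y L t = ex (fun ζ : I → Bool => ∑ κ : A → Fin (y + 1),
      ex (fun ξ : I → Bool => cw t (κ ∘ (L (Fin.last s)).h ξ)) *
        Phi (fun i : Fin s => L i.castSucc) κ (κ ∘ (L (Fin.last s)).h ζ)) := by
  have h1 : AA y L t = ex (fun a : I → Bool => ex (fun a' : I → Bool =>
      ∑ κ : A → Fin (y + 1), cw t κ * Phi (fun i : Fin s => L i.castSucc)
        (κ ∘ (L (Fin.last s)).h a) (κ ∘ (L (Fin.last s)).h a'))) := by
    unfold AA
    simp only [B67_Phi_succ L, ex_sum, ex_const_mul]
  have h2 : ∀ a a' : I → Bool,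
      ∑ κ : A → Fin (y + 1), cw t κ * Phi (fun i : Fin s => L i.castSucc)
        (κ ∘ (L (Fin.last s)).h a) (κ ∘ (L (Fin.last s)).h a') =
      ∑ κ : A → Fin (y + 1), cw t (κ ∘ (L (Fin.last s)).h a) *
        Phi (fun i : Fin s => L i.castSucc) κ
          (κ ∘ (L (Fin.last s)).h (B67_xor a a')) := by
    intro a a'
    rw [← Equiv.sum_comp (B67_pre y (L (Fin.last s)) a)]
    apply Finset.sum_congr rfl; intro κ _
    congr 1
    · congr 1
      · funext z
        simp [B67_pre, B67_h_invol]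
      · funext z
        simp only [B67_pre, Equiv.coe_fn_mk, Function.comp_apply]
        rw [B67_h_h]; rfl
  have h3 : ∀ a : I → Bool, ex (fun a' : I → Bool =>
      ∑ κ : A → Fin (y + 1), cw t κ * Phi (fun i : Fin s => L i.castSucc)
        (κ ∘ (L (Fin.last s)).h a) (κ ∘ (L (Fin.last s)).h a')) =
      ex (fun ζ : I → Bool => ∑ κ : A → Fin (y + 1), cw t (κ ∘ (L (Fin.last s)).h a) *
        Phi (fun i : Fin s => L i.castSucc) κ (κ ∘ (L (Fin.last s)).h ζ)) := by
    intro a
    rw [ex_congr (h2 a)]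
    exact ex_equiv (B67_xor a) (fun ζ : I → Bool =>
      ∑ κ : A → Fin (y + 1), cw t (κ ∘ (L (Fin.last s)).h a) *
        Phi (fun i : Fin s => L i.castSucc) κ (κ ∘ (L (Fin.last s)).h ζ))
  rw [h1, ex_congr h3, ex_comm]
  apply ex_congr; intro ζ
  rw [ex_sum]
  apply Finset.sum_congr rfl; intro κ _
  rw [ex_mul_const]

theorem B67_Phi_nonneg {y s : ℕ} (L : Fin s → Layer A I) (κ κ' : A → Fin (y + 1)) :
    0 ≤ Phi L κ κ' := by
  unfold Phi
  apply ex_nonneg; intro ξ; apply ex_nonneg; intro ξ'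
  split <;> norm_num

theorem B67_cw_nonneg {y : ℕ} (t : A → ℝ) (ht0 : ∀ a, 0 ≤ t a) (κ : A → Fin (y + 1)) :
    0 ≤ cw t κ := by
  unfold cw
  apply Finset.prod_nonneg; intro z _
  split
  · norm_num
  · exact ht0 z

/-- expectation of a product of functions of the individual coins -/
theorem B67_ex_prod (f : I → Bool → ℝ) :
    ex (fun ξ : I → Bool => ∏ i, f i (ξ i)) = ∏ i, ((f i true + f i false) / 2) := by
  unfold ex
  have h1 : ∑ ξ : I → Bool, ∏ i, f i (ξ i) = ∏ i, ∑ b : Bool, f i b := by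
    rw [Finset.prod_univ_sum]
    rw [Fintype.piFinset_univ]
  have h2 : (Fintype.card (I → Bool) : ℝ) = ∏ _i : I, (2 : ℝ) := by
    simp
  rw [h1, h2, ← Finset.prod_div_distrib]
  apply Finset.prod_congr rfl; intro i _
  simp

/-- the probability that all coloured matched elements of the half are not swapped -/
theorem B67_prob {y : ℕ} (L1 : Layer A I) (c : A → Bool) (b : Bool)
    (hc1 : ∀ a, L1.inv a ≠ a → c (L1.inv a) ≠ c a) (t : A → ℝ)
    (ht0 : ∀ a, 0 ≤ t a) (κ : A → Fin (y + 1)) (hκ : ∀ z, c z ≠ b → κ z = 0) :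
    cw (tbar L1 t) κ * ex (fun ζ : I → Bool => if (∀ z, L1.h ζ z ≠ z → κ z = 0) then (1 : ℝ) else 0)
      = cw (tbar' L1 t) κ := by
  classical
  -- the set of coloured matched elements
  set M : Finset A := univ.filter (fun z => κ z ≠ 0 ∧ L1.inv z ≠ z) with hM
  have hinj : Set.InjOn L1.rep (M : Set A) := by
    intro a ha b' hb' hab
    simp only [hM, Finset.coe_filter, Finset.mem_univ, true_and, Set.mem_setOf_eq] at ha hb'
    rcases L1.eq_or a b' hab with h | h
    · exact h.symm
    · exfalso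
      have h1 := hc1 a ha.2
      rw [← h] at h1
      have h2 : c a = b := by
        by_contra h3; exact ha.1 (hκ a h3)
      have h3 : c b' = b := by
        by_contra h3; exact hb'.1 (hκ b' h3)
      exact h1 (by rw [h2, h3])
  have hprob : ex (fun ζ : I → Bool => if (∀ z, L1.h ζ z ≠ z → κ z = 0) then (1 : ℝ) else 0) =
      ∏ _z ∈ M, (1 / 2 : ℝ) := by
    have h1 : ∀ ζ : I → Bool, (if (∀ z, L1.h ζ z ≠ z → κ z = 0) then (1 : ℝ) else 0) =
        ∏ i, (if i ∈ M.image L1.rep then (if ζ i then (0 : ℝ) else 1) else 1) := by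
      intro ζ
      rw [Finset.prod_ite_mem, Finset.univ_inter]
      rw [Finset.prod_image (fun a ha b hb hab => hinj ha hb hab)]
      by_cases h : ∀ z, L1.h ζ z ≠ z → κ z = 0
      · rw [if_pos h]
        symm
        apply Finset.prod_eq_one
        intro z hz
        simp only [hM, Finset.mem_filter, Finset.mem_univ, true_and] at hz
        have h2 : ¬ (L1.h ζ z ≠ z) := fun h3 => hz.1 (h z h3)
        push Not at h2
        rw [B67_h_apply] at h2
        by_cases h3 : ζ (L1.rep z)
        · rw [if_pos h3] at h2; exact absurd h2 hz.2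
        · rw [if_neg h3]
      · rw [if_neg h]
        push Not at h
        obtain ⟨z, hz1, hz2⟩ := h
        symm
        have h3 : ζ (L1.rep z) = true := by
          by_contra h4
          apply hz1
          rw [B67_h_apply, if_neg h4]
        have h4 : L1.inv z ≠ z := by
          rw [B67_h_apply, if_pos h3] at hz1; exact hz1
        apply Finset.prod_eq_zero (i := z)
        · simp only [hM, Finset.mem_filter, Finset.mem_univ, true_and]; exact ⟨hz2, h4⟩
        · rw [if_pos h3]
    rw [ex_congr h1]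
    rw [B67_ex_prod (fun i b => if i ∈ M.image L1.rep then (if b then (0 : ℝ) else 1) else 1)]
    have h5 : ∀ i : I, (((if i ∈ M.image L1.rep then (if true then (0 : ℝ) else 1) else 1) +
        (if i ∈ M.image L1.rep then (if false then (0 : ℝ) else 1) else 1)) / 2) =
        if i ∈ M.image L1.rep then (1 / 2 : ℝ) else 1 := by
      intro i
      by_cases hi : i ∈ M.image L1.rep <;> simp [hi]
    rw [Finset.prod_congr rfl (fun i _ => h5 i)]
    rw [Finset.prod_ite_mem, Finset.univ_inter]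
    rw [Finset.prod_image (fun a ha b hb hab => hinj ha hb hab)]
  rw [hprob]
  have h6 : ∏ _z ∈ M, (1 / 2 : ℝ) = ∏ z : A, if z ∈ M then (1 / 2 : ℝ) else 1 := by
    rw [Finset.prod_ite_mem, Finset.univ_inter]
  rw [h6]
  unfold cw
  rw [← Finset.prod_mul_distrib]
  apply Finset.prod_congr rfl; intro z _
  by_cases hz : κ z = 0
  · simp [hM, hz]
  · by_cases hz2 : L1.inv z = z
    · simp [hM, hz, hz2, tbar, tbar']
    · simp only [hM, hz, hz2, tbar, tbar', Finset.mem_filter, Finset.mem_univ, true_and,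
        if_false, not_false_eq_true, ne_eq, and_self, if_true]
      ring

/-- sum over the colourings of a half -/
noncomputable def B67_half (y : ℕ) {s : ℕ} (L : Fin s → Layer A I) (c : A → Bool) (b : Bool)
    (t : A → ℝ) : ℝ :=
  ∑ κ ∈ univ.filter (fun κ : A → Fin (y + 1) => ∀ z, c z ≠ b → κ z = 0), cw t κ * Phi L κ κ

theorem B67_cw_split {y : ℕ} (c : A → Bool) (t : A → ℝ) (κ : A → Fin (y + 1)) :
    cw t κ = cw t (rs c false κ) * cw t (rs c true κ) := by
  unfold cw
  rw [← Finset.prod_mul_distrib]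
  apply Finset.prod_congr rfl; intro z _
  cases h : c z <;> simp [rs, h]

theorem B67_AA_split (y : ℕ) {s : ℕ} (L : Fin s → Layer A I) (c : A → Bool)
    (hc : ∀ i a, c ((L i).inv a) = c a) (t : A → ℝ) :
    AA y L t = B67_half y L c false t * B67_half y L c true t := by
  classical
  unfold AA B67_half
  rw [Finset.sum_mul_sum, ← Finset.sum_product']
  refine Finset.sum_bij' (fun κ _ => (rs c false κ, rs c true κ))
    (fun p _ => fun z => if c z = false then p.1 z else p.2 z) ?_ ?_ ?_ ?_ ?_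
  · intro κ _
    simp only [Finset.mem_product, Finset.mem_filter, Finset.mem_univ, true_and]
    constructor
    · intro z hz; simp only [rs]; rw [if_neg hz]
    · intro z hz; simp only [rs]; rw [if_neg hz]
  · intro p _; exact Finset.mem_univ _
  · intro κ _
    funext z
    cases h : c z <;> simp [rs, h]
  · intro p hp
    simp only [Finset.mem_product, Finset.mem_filter, Finset.mem_univ, true_and] at hp
    apply Prod.ext
    · funext z
      cases h : c z
      · simp [rs, h]
      · simp only [rs, h]; simp [hp.1 z (by simp [h])]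
    · funext z
      cases h : c z
      · simp only [rs, h]; simp [hp.2 z (by simp [h])]
      · simp [rs, h]
  · intro κ _
    rw [B67_cw_split c t κ, B3_factor L c hc κ κ]
    ring

theorem B67_half_nonneg (y : ℕ) {s : ℕ} (L : Fin s → Layer A I) (c : A → Bool) (b : Bool)
    (t : A → ℝ) (ht0 : ∀ a, 0 ≤ t a) : 0 ≤ B67_half y L c b t :=
  Finset.sum_nonneg fun κ _ => mul_nonneg (B67_cw_nonneg t ht0 κ) (B67_Phi_nonneg L κ κ)

theorem B67_R_avg (y : ℕ) {s : ℕ} (L : Fin s → Layer A I) (L1 : Layer A I) (c : A → Bool)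
    (b : Bool) (hc1 : ∀ a, L1.inv a ≠ a → c (L1.inv a) ≠ c a) (t : A → ℝ)
    (ht0 : ∀ a, 0 ≤ t a) :
    ex (fun ζ : I → Bool =>
      ∑ κ ∈ univ.filter (fun κ : A → Fin (y + 1) => (∀ z, c z ≠ b → κ z = 0) ∧
            ∀ z, L1.h ζ z ≠ z → κ z = 0), cw (tbar L1 t) κ * Phi L κ κ) =
      B67_half y L c b (tbar' L1 t) := by
  classical
  have h1 : ∀ ζ : I → Bool,
      ∑ κ ∈ univ.filter (fun κ : A → Fin (y + 1) => (∀ z, c z ≠ b → κ z = 0) ∧
            ∀ z, L1.h ζ z ≠ z → κ z = 0), cw (tbar L1 t) κ * Phi L κ κ =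
      ∑ κ ∈ univ.filter (fun κ : A → Fin (y + 1) => ∀ z, c z ≠ b → κ z = 0),
        (cw (tbar L1 t) κ * Phi L κ κ) *
          (if (∀ z, L1.h ζ z ≠ z → κ z = 0) then (1 : ℝ) else 0) := by
    intro ζ
    rw [← Finset.filter_filter, Finset.sum_filter]
    apply Finset.sum_congr rfl; intro κ _
    by_cases h : ∀ z, L1.h ζ z ≠ z → κ z = 0
    · rw [if_pos h, if_pos h, mul_one]
    · rw [if_neg h, if_neg h, mul_zero]
  rw [ex_congr h1, ex_sum]
  unfold B67_half
  apply Finset.sum_congr rfl; intro κ hκ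
  simp only [Finset.mem_filter, Finset.mem_univ, true_and] at hκ
  rw [ex_const_mul, ← B67_prob L1 c b hc1 t ht0 κ hκ]
  ring

end B67

theorem B6_layer {A I : Type*} [Fintype A] [DecidableEq A] [Fintype I] [DecidableEq I] (y : ℕ)
    {s : ℕ} (L : Fin (s + 1) → Layer A I)
    (c : A → Bool) (hc : ∀ i : Fin s, ∀ a, c ((L i.castSucc).inv a) = c a)
    (hc1 : ∀ a, (L (Fin.last s)).inv a ≠ a → c ((L (Fin.last s)).inv a) ≠ c a)
    (t : A → ℝ) (ht0 : ∀ a, 0 ≤ t a) (ht1 : ∀ a, t a ≤ 1) :
    AA y L t ≤ Real.sqrt (AA y (fun i : Fin s => L i.castSucc) (tbar (L (Fin.last s)) t) *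
      AA y (fun i : Fin s => L i.castSucc) (tbar' (L (Fin.last s)) t)) := by
  classical
  set L0 : Fin s → Layer A I := fun i : Fin s => L i.castSucc with hL0
  set L1 : Layer A I := L (Fin.last s) with hL1
  have htb0 : ∀ a, 0 ≤ tbar L1 t a := fun a => by
    unfold tbar; have := ht0 a; have := ht0 (L1.inv a); linarith
  have htb1 : ∀ a, tbar L1 t a ≤ 1 := fun a => by
    unfold tbar; have := ht1 a; have := ht1 (L1.inv a); linarith
  have htbinv : ∀ a, tbar L1 t (L1.inv a) = tbar L1 t a := fun a => by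
    unfold tbar; rw [L1.inv_inv]; ring
  have htb'0 : ∀ a, 0 ≤ tbar' L1 t a := fun a => by
    unfold tbar'; have h1 := ht0 a; have h2 := ht0 (L1.inv a)
    split
    · exact h1
    · linarith
  have hAA0 : 0 ≤ AA y L0 (tbar L1 t) :=
    Finset.sum_nonneg fun κ _ => mul_nonneg (B67_cw_nonneg _ htb0 κ) (B67_Phi_nonneg L0 κ κ)
  -- R functions
  set R0 : (I → Bool) → ℝ := fun ζ =>
    ∑ κ ∈ univ.filter (fun κ : A → Fin (y + 1) => (∀ z, c z ≠ false → κ z = 0) ∧
            ∀ z, L1.h ζ z ≠ z → κ z = 0), cw (tbar L1 t) κ * Phi L0 κ κ with hR0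
  set R1 : (I → Bool) → ℝ := fun ζ =>
    ∑ κ ∈ univ.filter (fun κ : A → Fin (y + 1) => (∀ z, c z ≠ true → κ z = 0) ∧
            ∀ z, L1.h ζ z ≠ z → κ z = 0), cw (tbar L1 t) κ * Phi L0 κ κ with hR1
  have hR0n : ∀ ζ, 0 ≤ R0 ζ := fun ζ =>
    Finset.sum_nonneg fun κ _ => mul_nonneg (B67_cw_nonneg _ htb0 κ) (B67_Phi_nonneg L0 κ κ)
  have hR1n : ∀ ζ, 0 ≤ R1 ζ := fun ζ =>
    Finset.sum_nonneg fun κ _ => mul_nonneg (B67_cw_nonneg _ htb0 κ) (B67_Phi_nonneg L0 κ κ)
  rw [B67_AA_succ]
  calc ex (fun ζ : I → Bool => ∑ κ : A → Fin (y + 1),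
      ex (fun ξ : I → Bool => cw t (κ ∘ L1.h ξ)) * Phi L0 κ (κ ∘ L1.h ζ))
      ≤ ex (fun ζ : I → Bool => ∑ κ : A → Fin (y + 1),
        cw (tbar L1 t) κ * Phi L0 κ (κ ∘ L1.h ζ)) := by
        apply ex_mono; intro ζ
        apply Finset.sum_le_sum; intro κ _
        exact mul_le_mul_of_nonneg_right (B4_avg L1 t ht0 κ) (B67_Phi_nonneg L0 _ _)
    _ ≤ ex (fun ζ : I → Bool => Real.sqrt (AA y L0 (tbar L1 t)) * Real.sqrt (R0 ζ * R1 ζ)) := by
        apply ex_mono; intro ζ
        exact B5_fixed L0 L1 c hc hc1 (tbar L1 t) htb0 htb1 htbinv ζ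
    _ = Real.sqrt (AA y L0 (tbar L1 t)) * ex (fun ζ : I → Bool => Real.sqrt (R0 ζ * R1 ζ)) :=
        ex_const_mul _ _
    _ ≤ Real.sqrt (AA y L0 (tbar L1 t)) * Real.sqrt (ex R0 * ex R1) := by
        apply mul_le_mul_of_nonneg_left _ (Real.sqrt_nonneg _)
        exact ex_sqrt_mul_le R0 R1 hR0n hR1n
    _ = Real.sqrt (AA y L0 (tbar L1 t)) *
          Real.sqrt (B67_half y L0 c false (tbar' L1 t) * B67_half y L0 c true (tbar' L1 t)) := by
        rw [show ex R0 = B67_half y L0 c false (tbar' L1 t) from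
            B67_R_avg y L0 L1 c false hc1 t ht0,
          show ex R1 = B67_half y L0 c true (tbar' L1 t) from
            B67_R_avg y L0 L1 c true hc1 t ht0]
    _ = Real.sqrt (AA y L0 (tbar L1 t) * AA y L0 (tbar' L1 t)) := by
        rw [← B67_AA_split y L0 c hc, ← Real.sqrt_mul hAA0]

section B7
variable {A I : Type*} [Fintype A] [DecidableEq A] [Fintype I] [DecidableEq I]

theorem B67_layerOp_eq (L1 : Layer A I) (t : A → ℝ) (a : A) :
    layerOp L1 t a = (tbar L1 t a + tbar' L1 t a) / 2 := by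
  unfold layerOp tbar tbar'
  by_cases h : L1.inv a = a
  · simp [h]
  · simp only [h, if_false]; ring

theorem B67_layerOp_add (L1 : Layer A I) (u v : A → ℝ) (a : A) :
    layerOp L1 (fun z => (u z + v z) / 2) a = (layerOp L1 u a + layerOp L1 v a) / 2 := by
  unfold layerOp
  by_cases h : L1.inv a = a
  · simp [h]
  · simp only [h, if_false]; ring

theorem B67_netW_avg : ∀ (s : ℕ) (L : Fin s → Layer A I) (u v : A → ℝ) (a : A),
    netW s L (fun z => (u z + v z) / 2) a = (netW s L u a + netW s L v a) / 2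
  | 0, _, _, _, _ => rfl
  | s + 1, L, u, v, a => by
      simp only [netW]
      rw [show layerOp (L (Fin.last s)) (fun z => (u z + v z) / 2) =
        (fun z => (layerOp (L (Fin.last s)) u z + layerOp (L (Fin.last s)) v z) / 2) from
        funext (B67_layerOp_add (L (Fin.last s)) u v)]
      exact B67_netW_avg s _ _ _ a

theorem B67_AA_zero (y : ℕ) (L : Fin 0 → Layer A I) (t : A → ℝ) :
    AA y L t = ∏ z, (1 + y * t z) := by
  unfold AA
  have h1 : ∀ κ : A → Fin (y + 1), Phi L κ κ = 1 := by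
    intro κ
    unfold Phi
    rw [ex_unique, ex_unique]
    simp [netq]
  simp only [h1, mul_one]
  unfold cw
  have h2 : ∑ κ : A → Fin (y + 1), ∏ z, (if κ z = 0 then (1 : ℝ) else t z) =
      ∏ z, ∑ j : Fin (y + 1), (if j = 0 then (1 : ℝ) else t z) := by
    rw [Finset.prod_univ_sum]
    rw [Fintype.piFinset_univ]
  rw [h2]
  apply Finset.prod_congr rfl; intro z _
  rw [Fin.sum_univ_succ]
  simp [Fin.succ_ne_zero]

theorem B67_bound (y : ℕ) : ∀ (s : ℕ) (L : Fin s → Layer A I) (_ : Stars L) (t : A → ℝ)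
    (_ : ∀ a, 0 ≤ t a) (_ : ∀ a, t a ≤ 1),
    AA y L t ≤ Real.exp (y * ∑ z, netW s L t z)
  | 0, L, _, t, ht0, _ => by
      rw [B67_AA_zero]
      simp only [netW]
      rw [Finset.mul_sum, Real.exp_sum]
      apply Finset.prod_le_prod
      · intro z _
        have := ht0 z
        positivity
      · intro z _
        have := Real.add_one_le_exp ((y : ℝ) * t z)
        linarith
  | s + 1, L, hL, t, ht0, ht1 => by
      obtain ⟨c, hc1, hc⟩ := hL (Fin.last s)
      have hc' : ∀ i : Fin s, ∀ a, c ((L i.castSucc).inv a) = c a :=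
        fun i a => hc i.castSucc (Fin.castSucc_lt_last i) a
      have hL0 : Stars (fun i : Fin s => L i.castSucc) := by
        intro j
        obtain ⟨c', h1, h2⟩ := hL j.castSucc
        exact ⟨c', h1, fun i hij a => h2 i.castSucc (by simpa using hij) a⟩
      have htb0 : ∀ a, 0 ≤ tbar (L (Fin.last s)) t a := fun a => by
        unfold tbar; have := ht0 a; have := ht0 ((L (Fin.last s)).inv a); linarith
      have htb1 : ∀ a, tbar (L (Fin.last s)) t a ≤ 1 := fun a => by
        unfold tbar; have := ht1 a; have := ht1 ((L (Fin.last s)).inv a); linarith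
      have htb'0 : ∀ a, 0 ≤ tbar' (L (Fin.last s)) t a := fun a => by
        unfold tbar'; have h1 := ht0 a; have h2 := ht0 ((L (Fin.last s)).inv a)
        split
        · exact h1
        · linarith
      have htb'1 : ∀ a, tbar' (L (Fin.last s)) t a ≤ 1 := fun a => by
        unfold tbar'; have h1 := ht1 a; have h2 := ht1 ((L (Fin.last s)).inv a)
        split
        · exact h1
        · linarith
      have h6 := B6_layer y L c hc' hc1 t ht0 ht1
      have hb := B67_bound y s (fun i : Fin s => L i.castSucc) hL0 _ htb0 htb1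
      have hb' := B67_bound y s (fun i : Fin s => L i.castSucc) hL0 _ htb'0 htb'1
      have hAA0 : 0 ≤ AA y (fun i : Fin s => L i.castSucc) (tbar' (L (Fin.last s)) t) :=
        Finset.sum_nonneg fun κ _ => mul_nonneg (B67_cw_nonneg _ htb'0 κ) (B67_Phi_nonneg _ κ κ)
      refine h6.trans ?_
      apply Real.sqrt_le_iff.2
      refine ⟨(Real.exp_pos _).le, ?_⟩
      refine (mul_le_mul hb hb' hAA0 (Real.exp_pos _).le).trans (le_of_eq ?_)
      rw [← Real.exp_add, sq, ← Real.exp_add]
      congr 1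
      have h7 : ∀ z, netW (s + 1) L t z =
          (netW s (fun i : Fin s => L i.castSucc) (tbar (L (Fin.last s)) t) z +
            netW s (fun i : Fin s => L i.castSucc) (tbar' (L (Fin.last s)) t) z) / 2 := by
        intro z
        simp only [netW]
        rw [show layerOp (L (Fin.last s)) t = (fun z => (tbar (L (Fin.last s)) t z +
          tbar' (L (Fin.last s)) t z) / 2) from funext (B67_layerOp_eq (L (Fin.last s)) t)]
        exact B67_netW_avg s _ _ _ z
      simp only [h7]
      rw [← Finset.sum_div, Finset.sum_add_distrib]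
      ring

end B7

theorem B7_main {A I : Type*} [Fintype A] [DecidableEq A] [Fintype I] [DecidableEq I] (y : ℕ)
    {s : ℕ} (L : Fin s → Layer A I) (hL : Stars L) :
    ex (fun ξ : Fin s → I → Bool => ex (fun ξ' : Fin s → I → Bool =>
      (fixN (y + 1) (netq s L ξ * (netq s L ξ')⁻¹) : ℝ))) ≤
      Real.exp (y * ∑ z, netW s L (fun _ => 1) z) := by
  have h := B67_bound y s L hL (fun _ => 1) (fun _ => zero_le_one) (fun _ => le_refl _)
  refine le_trans (le_of_eq ?_) h
  unfold AA
  have h1 : ∀ κ : A → Fin (y + 1), cw (fun _ => (1 : ℝ)) κ = 1 := by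
    intro κ; unfold cw; apply Finset.prod_eq_one; intro z _; split <;> rfl
  simp only [h1, one_mul]
  unfold Phi
  rw [← ex_sum]
  apply ex_congr; intro ξ
  rw [← ex_sum]
  apply ex_congr; intro ξ'
  unfold fixN
  rw [Finset.card_filter, Nat.cast_sum]
  apply Finset.sum_congr rfl; intro κ _
  have h2 : (∀ z, κ ((netq s L ξ * (netq s L ξ')⁻¹) z) = κ z) ↔
      (∀ z, κ (netq s L ξ z) = κ (netq s L ξ' z)) := by
    constructor
    · intro h z
      have := h (netq s L ξ' z)
      simpa [Perm.mul_apply] using this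
    · intro h z
      have := h ((netq s L ξ')⁻¹ z)
      simpa [Perm.mul_apply] using this
  simp only [h2]
  push_cast
  rfl

end Crest.Agent.S0222
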