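import Crest.Agent.S0222_D7
import Crest.Agent.S0222_B67

/-!
S0222, task D7 (final form of `D7_fix`).  Owner: helper40.
-/

set_option autoImplicit false

namespace Crest.Agent.S0222

open Finset Equiv Crest.ProbabilityR.Shuffle

theorem D7_fix (d : ℕ) (Γ : ℝ) (y : ℕ) :
    ∑ w, aG d Γ w * (fixN (y + 1) w : ℝ) ≤ Real.exp (y * Γ) :=
  D7_fix_of d Γ y (fun e => B7_main y (wLayers (2 ^ d) (d + 1) e.1 e.2) (D3_stars d e.1 e.2))

end Crest.Agent.S0222
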