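import Crest.Agent.S0222_Basic

/-!
S0222, task D8: final numerics.
-/

set_option autoImplicit false

namespace Crest.Agent.S0222

open Finset Equiv Crest.ProbabilityR.Shuffle

theorem D8_pmB : Filter.Tendsto (fun d : ℕ => pmB d (24 * (d + 1))) Filter.atTop (nhds 0) := by
  have h1 : ∀ d : ℕ, pmB d (24 * (d + 1)) = Real.sqrt
      (2 * (7 / 8 : ℝ) ^ 22 * (8 * (7 / 8 : ℝ) ^ 22) ^ d +
        16 * (((2 ^ d : ℕ) : ℝ) ^ 3 * (0.892 : ℝ) ^ (2 ^ d))) := by
    intro d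
    unfold pmB
    have h2 : (2 : ℝ) ^ d = Real.sqrt (((2 : ℝ) ^ d) ^ 2) := by
      rw [Real.sqrt_sq (by positivity)]
    rw [h2, ← Real.sqrt_mul (by positivity)]
    congr 1
    have h3 : (8 / 7 : ℝ) ^ (2 * (d + 1)) * (7 / 8) ^ (24 * (d + 1)) =
        (7 / 8 : ℝ) ^ 22 * ((7 / 8 : ℝ) ^ 22) ^ d := by
      have h4 : (7 / 8 : ℝ) ^ (24 * (d + 1)) =
          (7 / 8 : ℝ) ^ (2 * (d + 1)) * ((7 / 8 : ℝ) ^ 22) ^ (d + 1) := by
        rw [← pow_mul, ← pow_add]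
        congr 1
        ring
      rw [h4, ← mul_assoc, ← mul_pow]
      norm_num
      ring
    rw [h3, mul_pow]
    push_cast
    have h5 : (8 : ℝ) ^ d = ((2 : ℝ) ^ d) ^ 3 := by
      rw [← pow_mul, mul_comm, pow_mul]
      norm_num
    rw [h5, pow_succ (2 : ℝ) d]
    ring
  have h6 : Filter.Tendsto (fun d : ℕ => 2 * (7 / 8 : ℝ) ^ 22 * (8 * (7 / 8 : ℝ) ^ 22) ^ d +
      16 * (((2 ^ d : ℕ) : ℝ) ^ 3 * (0.892 : ℝ) ^ (2 ^ d))) Filter.atTop (nhds 0) := by
    have e1 : Filter.Tendsto (fun d : ℕ => (8 * (7 / 8 : ℝ) ^ 22) ^ d) Filter.atTop (nhds 0) :=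
      tendsto_pow_atTop_nhds_zero_of_lt_one (by positivity) (by norm_num)
    have e2 : Filter.Tendsto (fun n : ℕ => (n : ℝ) ^ 3 * (0.892 : ℝ) ^ n)
        Filter.atTop (nhds 0) :=
      tendsto_pow_const_mul_const_pow_of_abs_lt_one 3
        (by rw [abs_of_pos (by norm_num)]; norm_num)
    have e3 : Filter.Tendsto (fun d : ℕ => 2 ^ d) Filter.atTop Filter.atTop :=
      tendsto_pow_atTop_atTop_of_one_lt (by norm_num : (1 : ℕ) < 2)
    have e4 := e2.comp e3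
    have e5 := (e1.const_mul (2 * (7 / 8 : ℝ) ^ 22)).add (e4.const_mul 16)
    simpa [Function.comp_def] using e5
  have h7 := h6.sqrt
  rw [Real.sqrt_zero] at h7
  exact h7.congr (fun d => (h1 d).symm)

/-- the 300-th root of two -/
noncomputable def D8_r : ℝ := (2 : ℝ) ^ (1 / 300 : ℝ)

theorem D8_r_pos : 0 < D8_r := by
  unfold D8_r
  positivity

theorem D8_r_pow : D8_r ^ 300 = 2 := by
  unfold D8_r
  rw [← Real.rpow_natCast, ← Real.rpow_mul (by norm_num)]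
  norm_num

theorem D8_r_gt : 1 < D8_r := by
  by_contra h
  push Not at h
  have := pow_le_one₀ (n := 300) D8_r_pos.le h
  rw [D8_r_pow] at this
  norm_num at this

/-- the basic scale, `L d = 2^(d/300)` -/
noncomputable def D8_L (d : ℕ) : ℝ := D8_r ^ d

theorem D8_L_pos (d : ℕ) : 0 < D8_L d := pow_pos D8_r_pos d

theorem D8_L_pow (d : ℕ) : D8_L d ^ 300 = 2 ^ d := by
  unfold D8_L
  rw [← pow_mul, mul_comm, pow_mul, D8_r_pow]

theorem D8_L_tendsto : Filter.Tendsto D8_L Filter.atTop Filter.atTop :=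
  tendsto_pow_atTop_atTop_of_one_lt D8_r_gt

theorem D8_L_large : ∀ᶠ d : ℕ in Filter.atTop, 1000 ≤ D8_L d :=
  D8_L_tendsto.eventually_ge_atTop 1000

theorem D8_d_le : ∀ᶠ d : ℕ in Filter.atTop, (d : ℝ) ≤ D8_L d := by
  have h := tendsto_pow_const_div_const_pow_of_one_lt 1 D8_r_gt
  have h2 := h.eventually_lt_const (by norm_num : (0 : ℝ) < 1)
  filter_upwards [h2] with d hd
  have hp : 0 < D8_r ^ d := pow_pos D8_r_pos d
  rw [div_lt_one hp, pow_one] at hd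
  exact hd.le

noncomputable def D8_G (d : ℕ) : ℝ := D8_L d ^ 246
def D8_y (d : ℕ) : ℕ := 2 ^ ((d + 29) / 30) - 1
noncomputable def D8_F (d : ℕ) : ℕ := ⌊D8_L d ^ 270⌋₊
noncomputable def D8_j (d : ℕ) : ℕ := ⌊D8_L d ^ 261⌋₊
noncomputable def D8_eta (d : ℕ) : ℝ := 8 / D8_L d ^ 30

theorem D8_y_succ (d : ℕ) : D8_y d + 1 = 2 ^ ((d + 29) / 30) := by
  unfold D8_y
  have : 0 < 2 ^ ((d + 29) / 30) := by positivity
  omega

theorem D8_y_le (d : ℕ) : (D8_y d : ℝ) + 1 ≤ 2 * D8_L d ^ 10 := by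
  have h1 : ((D8_y d : ℝ) + 1) = (2 : ℝ) ^ ((d + 29) / 30) := by
    exact_mod_cast D8_y_succ d
  rw [h1]
  have hL := D8_L_pos d
  apply le_of_pow_le_pow_left₀ (n := 30) (by norm_num) (by positivity)
  rw [← pow_mul, mul_pow, ← pow_mul]
  have h2 : D8_L d ^ (10 * 30) = 2 ^ d := D8_L_pow d
  rw [h2, ← pow_add]
  apply pow_le_pow_right₀ (by norm_num)
  omega

theorem D8_yG (d : ℕ) : (D8_y d : ℝ) * D8_G d ≤ 2 * D8_L d ^ 256 := by
  have hL := D8_L_pos d
  have h := D8_y_le d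
  have h2 : (D8_y d : ℝ) ≤ 2 * D8_L d ^ 10 := by linarith
  unfold D8_G
  calc (D8_y d : ℝ) * D8_L d ^ 246 ≤ (2 * D8_L d ^ 10) * D8_L d ^ 246 :=
        mul_le_mul_of_nonneg_right h2 (by positivity)
    _ = 2 * D8_L d ^ 256 := by ring

theorem D8_pow_ge {L : ℝ} (hL : 1000 ≤ L) (a b : ℕ) : 1000 ^ b * L ^ a ≤ L ^ (a + b) := by
  rw [pow_add, mul_comm]
  exact mul_le_mul_of_nonneg_left (pow_le_pow_left₀ (by norm_num) hL b) (by positivity)

/-- bound of the exponential over the power -/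
theorem D8_E (d : ℕ) (hL : 1000 ≤ D8_L d) (hd : 1 ≤ d) :
    Real.exp (D8_y d * D8_G d) / ((D8_y d : ℝ) + 1) ^ (D8_F d + 1) ≤
      Real.exp (-(1 / 2) * D8_L d ^ 270) := by
  have h1 : (2 : ℝ) ≤ (D8_y d : ℝ) + 1 := by
    have h2 : 2 ^ 1 ≤ 2 ^ ((d + 29) / 30) := Nat.pow_le_pow_right (by norm_num) (by omega)
    have h3 : 2 ≤ D8_y d + 1 := by rw [D8_y_succ]; simpa using h2
    exact_mod_cast h3
  have h2 : D8_L d ^ 270 ≤ (D8_F d : ℝ) + 1 := (Nat.lt_floor_add_one _).le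
  have hLp := D8_L_pos d
  have h3 : Real.exp (0.69 * D8_L d ^ 270) ≤ ((D8_y d : ℝ) + 1) ^ (D8_F d + 1) := by
    calc Real.exp (0.69 * D8_L d ^ 270) ≤ Real.exp (Real.log 2 * ((D8_F d : ℝ) + 1)) := by
          apply Real.exp_le_exp.2
          have := Real.log_two_gt_d9
          apply mul_le_mul (by linarith) h2 (by positivity) (by linarith)
      _ = (2 : ℝ) ^ (D8_F d + 1) := by
          rw [Real.exp_mul, Real.exp_log (by norm_num)]
          exact_mod_cast Real.rpow_natCast 2 (D8_F d + 1)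
      _ ≤ _ := pow_le_pow_left₀ (by norm_num) h1 _
  have h4 := D8_yG d
  calc Real.exp (D8_y d * D8_G d) / ((D8_y d : ℝ) + 1) ^ (D8_F d + 1)
      ≤ Real.exp (2 * D8_L d ^ 256) / Real.exp (0.69 * D8_L d ^ 270) :=
        div_le_div₀ (Real.exp_pos _).le (Real.exp_le_exp.2 h4) (Real.exp_pos _) h3
    _ = Real.exp (2 * D8_L d ^ 256 - 0.69 * D8_L d ^ 270) := by rw [Real.exp_sub]
    _ ≤ _ := by
        apply Real.exp_le_exp.2
        have h5 := D8_pow_ge hL 256 14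
        have h6 : (0 : ℝ) ≤ D8_L d ^ 256 := by positivity
        norm_num at h5 ⊢
        linarith

theorem D8_T3 : Filter.Tendsto
    (fun d : ℕ => (Real.exp (D8_y d * D8_G d) ^ 30) ^ 2 / 2 ^ (D8_j d))
      Filter.atTop (nhds 0) := by
  have hg : Filter.Tendsto (fun d : ℕ => 2 * Real.exp (-D8_L d)) Filter.atTop (nhds 0) := by
    have := (Real.tendsto_exp_neg_atTop_nhds_zero.comp D8_L_tendsto).const_mul 2
    simpa using this
  refine squeeze_zero' (Filter.Eventually.of_forall fun d => by positivity) ?_ hg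
  filter_upwards [D8_L_large] with d hL
  have hLp := D8_L_pos d
  have h2 : D8_L d ^ 261 ≤ (D8_j d : ℝ) + 1 := (Nat.lt_floor_add_one _).le
  have h3 : Real.exp (0.69 * D8_L d ^ 261) ≤ 2 * 2 ^ (D8_j d) := by
    calc Real.exp (0.69 * D8_L d ^ 261) ≤ Real.exp (Real.log 2 * ((D8_j d : ℝ) + 1)) := by
          apply Real.exp_le_exp.2
          have := Real.log_two_gt_d9
          apply mul_le_mul (by linarith) h2 (by positivity) (by linarith)
      _ = (2 : ℝ) ^ (D8_j d + 1) := by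
          rw [Real.exp_mul, Real.exp_log (by norm_num)]
          exact_mod_cast Real.rpow_natCast 2 (D8_j d + 1)
      _ = _ := by ring
  have h4 : (Real.exp (D8_y d * D8_G d) ^ 30) ^ 2 ≤ Real.exp (120 * D8_L d ^ 256) := by
    rw [← pow_mul, ← Real.exp_nat_mul]
    apply Real.exp_le_exp.2
    have := D8_yG d
    push_cast
    linarith
  have h5 : Real.exp (120 * D8_L d ^ 256) ≤
      Real.exp (-D8_L d) * Real.exp (0.69 * D8_L d ^ 261) := by
    rw [← Real.exp_add]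
    apply Real.exp_le_exp.2
    have e1 := D8_pow_ge hL 256 5
    have e2 := D8_pow_ge hL 1 255
    have e3 : (0 : ℝ) ≤ D8_L d ^ 256 := by positivity
    have e4 : D8_L d ≤ D8_L d ^ 256 := le_self_pow₀ (by linarith) (by norm_num)
    norm_num at e1 ⊢
    linarith
  rw [div_le_iff₀ (by positivity)]
  calc (Real.exp (D8_y d * D8_G d) ^ 30) ^ 2 ≤ Real.exp (120 * D8_L d ^ 256) := h4
    _ ≤ Real.exp (-D8_L d) * Real.exp (0.69 * D8_L d ^ 261) := h5
    _ ≤ Real.exp (-D8_L d) * (2 * 2 ^ (D8_j d)) :=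
        mul_le_mul_of_nonneg_left h3 (Real.exp_pos _).le
    _ = 2 * Real.exp (-D8_L d) * 2 ^ (D8_j d) := by ring

theorem D8_nat (d : ℕ) (hd : 12 ≤ d) : 125 * (d + 2) ≤ 2 ^ d := by
  induction d, hd using Nat.le_induction with
  | base => norm_num
  | succ d hd ih =>
    rw [pow_succ]
    omega

theorem D8_r54 : D8_r ^ 54 < 1.14 := by
  by_contra h
  push Not at h
  have h1 : (1.14 : ℝ) ^ 50 ≤ (D8_r ^ 54) ^ 50 := pow_le_pow_left₀ (by norm_num) h 50
  have h2 : (D8_r ^ 54) ^ 50 = 512 := by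
    rw [← pow_mul]
    have : D8_r ^ (54 * 50) = (D8_r ^ 300) ^ 9 := by rw [← pow_mul]
    rw [this, D8_r_pow]
    norm_num
  rw [h2] at h1
  norm_num at h1

theorem D8_T1 : Filter.Tendsto
    (fun d : ℕ => 2 ^ d * (1 - ((2 : ℝ) ^ d - 1 - (d + 1)) / (8 * 2 ^ d)) ^ (d + 1) / D8_G d)
      Filter.atTop (nhds 0) := by
  have hg : Filter.Tendsto (fun d : ℕ => (1.14 * 0.876 : ℝ) ^ d) Filter.atTop (nhds 0) :=
    tendsto_pow_atTop_nhds_zero_of_lt_one (by norm_num) (by norm_num)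
  have hB : ∀ d : ℕ, 1 - ((2 : ℝ) ^ d - 1 - (d + 1)) / (8 * 2 ^ d) =
      7 / 8 + ((d : ℝ) + 2) / (8 * 2 ^ d) := by
    intro d
    have : (2 : ℝ) ^ d ≠ 0 := by positivity
    field_simp
    ring
  refine squeeze_zero' (Filter.Eventually.of_forall fun d => ?_) ?_ hg
  · rw [hB]
    have := D8_L_pos d
    unfold D8_G
    positivity
  · filter_upwards [Filter.eventually_ge_atTop 12] with d hd
    rw [hB]
    have h1 : 7 / 8 + ((d : ℝ) + 2) / (8 * 2 ^ d) ≤ 0.876 := by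
      have h2 : (125 : ℝ) * (d + 2) ≤ 2 ^ d := by exact_mod_cast D8_nat d hd
      have h3 : ((d : ℝ) + 2) / (8 * 2 ^ d) ≤ 0.001 := by
        rw [div_le_iff₀ (by positivity)]
        linarith
      linarith
    have h0 : 0 ≤ 7 / 8 + ((d : ℝ) + 2) / (8 * 2 ^ d) := by positivity
    have hr := D8_r_pos
    have h4 : (2 : ℝ) ^ d / D8_G d = (D8_r ^ 54) ^ d := by
      unfold D8_G D8_L
      rw [div_eq_iff (by positivity), ← pow_mul, ← pow_mul, ← pow_add]
      have : 54 * d + d * 246 = 300 * d := by ring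
      rw [this, pow_mul, D8_r_pow]
    calc 2 ^ d * (7 / 8 + ((d : ℝ) + 2) / (8 * 2 ^ d)) ^ (d + 1) / D8_G d
        = (2 ^ d / D8_G d) * (7 / 8 + ((d : ℝ) + 2) / (8 * 2 ^ d)) ^ (d + 1) := by ring
      _ = (D8_r ^ 54) ^ d * (7 / 8 + ((d : ℝ) + 2) / (8 * 2 ^ d)) ^ (d + 1) := by rw [h4]
      _ ≤ 1.14 ^ d * (0.876 : ℝ) ^ (d + 1) := by
          apply mul_le_mul
          · exact pow_le_pow_left₀ (by positivity) D8_r54.le d
          · exact pow_le_pow_left₀ h0 h1 _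
          · positivity
          · positivity
      _ ≤ 1.14 ^ d * (0.876 : ℝ) ^ d := by
          apply mul_le_mul_of_nonneg_left _ (by positivity)
          exact pow_le_pow_of_le_one (by norm_num) (by norm_num) (Nat.le_succ d)
      _ = (1.14 * 0.876 : ℝ) ^ d := by rw [mul_pow]

theorem D8_add_pow (u v : ℝ) (hu : 0 ≤ u) (hv : 0 ≤ v) :
    (u + v) ^ 60 ≤ 2 ^ 60 * (u ^ 60 + v ^ 60) := by
  rcases le_total u v with h | h
  · calc (u + v) ^ 60 ≤ (2 * v) ^ 60 := pow_le_pow_left₀ (by positivity) (by linarith) 60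
      _ = 2 ^ 60 * v ^ 60 := by rw [mul_pow]
      _ ≤ 2 ^ 60 * (u ^ 60 + v ^ 60) := by
          apply mul_le_mul_of_nonneg_left _ (by positivity)
          have : 0 ≤ u ^ 60 := by positivity
          linarith
  · calc (u + v) ^ 60 ≤ (2 * u) ^ 60 := pow_le_pow_left₀ (by positivity) (by linarith) 60
      _ = 2 ^ 60 * u ^ 60 := by rw [mul_pow]
      _ ≤ 2 ^ 60 * (u ^ 60 + v ^ 60) := by
          apply mul_le_mul_of_nonneg_left _ (by positivity)
          have : 0 ≤ v ^ 60 := by positivity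
          linarith

theorem D8_geom (θ : ℝ) (h0 : 0 ≤ θ) (h1 : θ ≤ 1 / 2) (n : ℕ) :
    ∑ k ∈ Icc 1 n, θ ^ k ≤ 2 * θ := by
  have key : ∀ n : ℕ, ∑ k ∈ Icc 1 n, θ ^ k ≤ 2 * θ - 2 * θ * θ ^ n := by
    intro n
    induction n with
    | zero => simp
    | succ n ih =>
      rw [Finset.sum_Icc_succ_top (by omega)]
      have h2 : 0 ≤ θ ^ n := by positivity
      have h3 : 0 ≤ θ ^ (n + 1) := by positivity
      have h4 : θ ^ (n + 1) = θ * θ ^ n := by ring
      have h5 : 2 * θ * θ ^ (n + 1) ≤ θ ^ (n + 1) := by nlinarith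
      nlinarith
  have := key n
  have h2 : 0 ≤ 2 * θ * θ ^ n := by positivity
  linarith

theorem D8_T2 : Filter.Tendsto
    (fun d : ℕ => ∑ k ∈ Icc 1 (2 * D8_j d), 2 * ((2 : ℝ) ^ d) ^ (2 * k) *
        ((3 * Real.sqrt (D8_eta d)) ^ k +
          Real.exp (D8_y d * D8_G d) / ((D8_y d : ℝ) + 1) ^ (D8_F d + 1)) ^ (2 * 30))
      Filter.atTop (nhds 0) := by
  have hg : Filter.Tendsto (fun d : ℕ => 2 ^ 61 * (2 * (72 ^ 30 / D8_L d ^ 300) +
      Real.exp (-D8_L d))) Filter.atTop (nhds 0) := by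
    have e1 := Real.tendsto_exp_neg_atTop_nhds_zero.comp D8_L_tendsto
    have e2 : Filter.Tendsto (fun d : ℕ => D8_L d ^ 300) Filter.atTop Filter.atTop :=
      (Filter.tendsto_pow_atTop (by norm_num : (300 : ℕ) ≠ 0)).comp D8_L_tendsto
    have e3 : Filter.Tendsto (fun d : ℕ => (72 : ℝ) ^ 30 / D8_L d ^ 300)
        Filter.atTop (nhds 0) := e2.const_div_atTop _
    have e4 := ((e3.const_mul 2).add e1).const_mul (2 ^ 61 : ℝ)
    simpa [Function.comp_def] using e4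
  refine squeeze_zero' (Filter.Eventually.of_forall fun d => ?_) ?_ hg
  · apply Finset.sum_nonneg
    intro k _
    have := D8_L_pos d
    positivity
  filter_upwards [D8_L_large, D8_d_le, Filter.eventually_ge_atTop 1] with d hL hdL hd1
  have hLp := D8_L_pos d
  set L := D8_L d with hLdef
  set E := Real.exp (D8_y d * D8_G d) / ((D8_y d : ℝ) + 1) ^ (D8_F d + 1) with hE
  have hE0 : 0 ≤ E := by positivity
  have hE1 : E ≤ Real.exp (-(1 / 2) * L ^ 270) := D8_E d hL hd1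
  have hE60 : E ^ 60 ≤ Real.exp (-30 * L ^ 270) := by
    calc E ^ 60 ≤ Real.exp (-(1 / 2) * L ^ 270) ^ 60 := pow_le_pow_left₀ hE0 hE1 60
      _ = Real.exp (-30 * L ^ 270) := by
          rw [← Real.exp_nat_mul]
          congr 1
          push_cast
          ring
  have hj : (D8_j d : ℝ) ≤ L ^ 261 := Nat.floor_le (by positivity)
  set θ : ℝ := 72 ^ 30 / L ^ 300 with hθ
  have hθ0 : 0 ≤ θ := by positivity
  have hθ1 : θ ≤ 1 / 2 := by
    rw [hθ, div_le_iff₀ (by positivity)]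
    have h1 : (1000 : ℝ) ^ 30 ≤ L ^ 30 := pow_le_pow_left₀ (by norm_num) hL 30
    have h2 : (72 : ℝ) ^ 30 ≤ 1 / 2 * 1000 ^ 30 := by norm_num
    have h3 : L ^ 30 ≤ L ^ 300 := pow_le_pow_right₀ (by linarith) (by norm_num)
    linarith
  have hterm : ∀ k ∈ Icc 1 (2 * D8_j d), 2 * ((2 : ℝ) ^ d) ^ (2 * k) *
      ((3 * Real.sqrt (D8_eta d)) ^ k + E) ^ (2 * 30) ≤
      2 ^ 61 * (θ ^ k + ((2 : ℝ) ^ d) ^ (4 * D8_j d) * E ^ 60) := by
    intro k hk
    rw [Finset.mem_Icc] at hk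
    have e1 : ((3 * Real.sqrt (D8_eta d)) ^ k + E) ^ (2 * 30) ≤
        2 ^ 60 * (((3 * Real.sqrt (D8_eta d)) ^ k) ^ 60 + E ^ 60) :=
      D8_add_pow _ _ (by positivity) hE0
    have e2 : ((3 * Real.sqrt (D8_eta d)) ^ k) ^ 60 = ((9 * D8_eta d) ^ 30) ^ k := by
      rw [← pow_mul, ← pow_mul, mul_comm k 60]
      have : (3 * Real.sqrt (D8_eta d)) ^ (60 * k) =
          ((3 * Real.sqrt (D8_eta d)) ^ 2) ^ (30 * k) := by
        rw [← pow_mul]
        congr 1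
        ring
      rw [this, mul_pow, Real.sq_sqrt (by unfold D8_eta; positivity)]
      norm_num
    have e3 : ((2 : ℝ) ^ d) ^ (2 * k) * ((9 * D8_eta d) ^ 30) ^ k = θ ^ k := by
      rw [pow_mul, ← mul_pow]
      congr 1
      rw [hθ, ← D8_L_pow d, ← hLdef]
      unfold D8_eta
      rw [← hLdef]
      have hL0 : L ≠ 0 := hLp.ne'
      have : 9 * (8 / L ^ 30) = 72 / L ^ 30 := by ring
      rw [this, div_pow, ← pow_mul, ← pow_mul]
      rw [← mul_div_assoc, div_eq_div_iff (by positivity) (by positivity)]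
      have : L ^ (300 * 2) * 72 ^ 30 * L ^ 300 = 72 ^ 30 * (L ^ (300 * 2) * L ^ 300) := by ring
      rw [this, ← pow_add]
    have e4 : ((2 : ℝ) ^ d) ^ (2 * k) ≤ ((2 : ℝ) ^ d) ^ (4 * D8_j d) :=
      pow_le_pow_right₀ (one_le_pow₀ (by norm_num)) (by omega)
    calc 2 * ((2 : ℝ) ^ d) ^ (2 * k) * ((3 * Real.sqrt (D8_eta d)) ^ k + E) ^ (2 * 30)
        ≤ 2 * ((2 : ℝ) ^ d) ^ (2 * k) *
            (2 ^ 60 * (((3 * Real.sqrt (D8_eta d)) ^ k) ^ 60 + E ^ 60)) :=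
          mul_le_mul_of_nonneg_left e1 (by positivity)
      _ = 2 ^ 61 * (((2 : ℝ) ^ d) ^ (2 * k) * ((9 * D8_eta d) ^ 30) ^ k +
            ((2 : ℝ) ^ d) ^ (2 * k) * E ^ 60) := by
          rw [e2]
          ring
      _ ≤ 2 ^ 61 * (θ ^ k + ((2 : ℝ) ^ d) ^ (4 * D8_j d) * E ^ 60) := by
          rw [e3]
          apply mul_le_mul_of_nonneg_left _ (by positivity)
          have := mul_le_mul_of_nonneg_right e4 (pow_nonneg hE0 60)
          linarith
  have hpow : ((2 : ℝ) ^ d) ^ (4 * D8_j d) ≤ Real.exp (4 * L ^ 262) := by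
    have e1 : ((2 : ℝ) ^ d) ^ (4 * D8_j d) = Real.exp (Real.log 2 * (d * (4 * D8_j d))) := by
      rw [Real.exp_mul, Real.exp_log (by norm_num), ← pow_mul]
      have := Real.rpow_natCast (2 : ℝ) (d * (4 * D8_j d))
      rw [← this]
      push_cast
      rfl
    rw [e1]
    apply Real.exp_le_exp.2
    have e2 : (d : ℝ) * (4 * D8_j d) ≤ 4 * L ^ 262 := by
      calc (d : ℝ) * (4 * D8_j d) ≤ L * (4 * L ^ 261) := by
            apply mul_le_mul hdL _ (by positivity) hLp.le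
            linarith
        _ = 4 * L ^ 262 := by ring
    have e3 : Real.log 2 ≤ 1 := by
      have := Real.log_two_lt_d9
      linarith
    have e4 : 0 ≤ Real.log 2 := Real.log_nonneg (by norm_num)
    calc Real.log 2 * ((d : ℝ) * (4 * D8_j d)) ≤ 1 * ((d : ℝ) * (4 * D8_j d)) :=
          mul_le_mul_of_nonneg_right e3 (by positivity)
      _ ≤ 4 * L ^ 262 := by rw [one_mul]; exact e2
  calc ∑ k ∈ Icc 1 (2 * D8_j d), 2 * ((2 : ℝ) ^ d) ^ (2 * k) *
      ((3 * Real.sqrt (D8_eta d)) ^ k + E) ^ (2 * 30)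
      ≤ ∑ k ∈ Icc 1 (2 * D8_j d), 2 ^ 61 * (θ ^ k + ((2 : ℝ) ^ d) ^ (4 * D8_j d) * E ^ 60) :=
        Finset.sum_le_sum hterm
    _ = 2 ^ 61 * (∑ k ∈ Icc 1 (2 * D8_j d), θ ^ k +
          (2 * D8_j d : ℕ) * (((2 : ℝ) ^ d) ^ (4 * D8_j d) * E ^ 60)) := by
        rw [← Finset.mul_sum, Finset.sum_add_distrib, Finset.sum_const, Nat.card_Icc,
          Nat.add_sub_cancel, nsmul_eq_mul]
    _ ≤ 2 ^ 61 * (2 * θ + Real.exp (-L)) := by
        apply mul_le_mul_of_nonneg_left _ (by positivity)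
        apply add_le_add (D8_geom θ hθ0 hθ1 _)
        have e1 : ((2 * D8_j d : ℕ) : ℝ) ≤ Real.exp (2 * L ^ 261) := by
          push_cast
          have := Real.add_one_le_exp (2 * L ^ 261)
          linarith
        calc ((2 * D8_j d : ℕ) : ℝ) * (((2 : ℝ) ^ d) ^ (4 * D8_j d) * E ^ 60)
            ≤ Real.exp (2 * L ^ 261) * (Real.exp (4 * L ^ 262) * Real.exp (-30 * L ^ 270)) := by
              apply mul_le_mul e1 _ (by positivity) (Real.exp_pos _).le
              exact mul_le_mul hpow hE60 (pow_nonneg hE0 60) (Real.exp_pos _).le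
          _ = Real.exp (2 * L ^ 261 + (4 * L ^ 262 + -30 * L ^ 270)) := by
              rw [Real.exp_add, Real.exp_add]
          _ ≤ Real.exp (-L) := by
              apply Real.exp_le_exp.2
              have f1 := D8_pow_ge hL 261 9
              have f2 := D8_pow_ge hL 262 8
              have f3 : L ≤ L ^ 261 := le_self_pow₀ (by linarith) (by norm_num)
              have f4 : 0 ≤ L ^ 262 := by positivity
              have f5 : 0 ≤ L ^ 261 := by positivity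
              norm_num at f1 f2 ⊢
              linarith

/-- final numerics -/
theorem D8_numeric : ∃ (Γ : ℕ → ℝ) (y F j0 : ℕ → ℕ) (η : ℕ → ℝ),
    (∀ᶠ d : ℕ in Filter.atTop, 0 < Γ d ∧ Γ d < 2 ^ d ∧ 2 ^ d ≤ (y d + 1) ^ 30 ∧ 1 ≤ y d ∧
      8 * j0 d + 8 ≤ 2 ^ d ∧ 0 < η d ∧ η d ≤ 1 ∧
      (F d + 2 * j0 d : ℝ) ≤ η d * ((2 : ℝ) ^ d - 2 * j0 d)) ∧
    Filter.Tendsto (fun d : ℕ => 2 ^ d * (1 - ((2 : ℝ) ^ d - 1 - (d + 1)) / (8 * 2 ^ d)) ^ (d + 1) / Γ d)
      Filter.atTop (nhds 0) ∧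
    Filter.Tendsto (fun d : ℕ => ∑ k ∈ Icc 1 (2 * j0 d), 2 * ((2 : ℝ) ^ d) ^ (2 * k) *
        ((3 * Real.sqrt (η d)) ^ k + Real.exp (y d * Γ d) / ((y d : ℝ) + 1) ^ (F d + 1)) ^ (2 * 30))
      Filter.atTop (nhds 0) ∧
    Filter.Tendsto (fun d : ℕ => (Real.exp (y d * Γ d) ^ 30) ^ 2 / 2 ^ (j0 d))
      Filter.atTop (nhds 0) := by
  refine ⟨D8_G, D8_y, D8_F, D8_j, D8_eta, ?_, D8_T1, D8_T2, D8_T3⟩
  filter_upwards [D8_L_large, Filter.eventually_ge_atTop 1] with d hL hd1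
  have hLp := D8_L_pos d
  have hx : (2 : ℝ) ^ d = D8_L d ^ 300 := (D8_L_pow d).symm
  have hj : (D8_j d : ℝ) ≤ D8_L d ^ 261 := Nat.floor_le (by positivity)
  have hF : (D8_F d : ℝ) ≤ D8_L d ^ 270 := Nat.floor_le (by positivity)
  have hL1 : 1 < D8_L d := by linarith
  refine ⟨?_, ?_, ?_, ?_, ?_, ?_, ?_, ?_⟩
  · unfold D8_G
    positivity
  · rw [hx]
    unfold D8_G
    exact pow_lt_pow_right₀ hL1 (by norm_num)
  · rw [D8_y_succ, ← pow_mul]
    apply Nat.pow_le_pow_right (by norm_num)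
    omega
  · have h2 : 2 ^ 1 ≤ 2 ^ ((d + 29) / 30) := Nat.pow_le_pow_right (by norm_num) (by omega)
    have h3 : 2 ≤ D8_y d + 1 := by rw [D8_y_succ]; simpa using h2
    omega
  · have h1 : (8 : ℝ) * D8_j d + 8 ≤ 2 ^ d := by
      rw [hx]
      have f1 := D8_pow_ge hL 261 39
      have f2 : (1 : ℝ) ≤ D8_L d ^ 261 := one_le_pow₀ hL1.le
      have f3 : (16 : ℝ) * D8_L d ^ 261 ≤ 1000 ^ 39 * D8_L d ^ 261 :=
        mul_le_mul_of_nonneg_right (by norm_num) (by positivity)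
      have f4 : D8_L d ^ (261 + 39) = D8_L d ^ 300 := by norm_num
      rw [f4] at f1
      linarith
    exact_mod_cast h1
  · unfold D8_eta
    positivity
  · unfold D8_eta
    rw [div_le_one (by positivity)]
    have f1 := D8_pow_ge hL 0 30
    have : (8 : ℝ) ≤ 1000 ^ 30 := by norm_num
    simp only [pow_zero, mul_one, zero_add] at f1
    linarith
  · have f1 := D8_pow_ge hL 261 9
    have f2 := D8_pow_ge hL 261 39
    have f4 : D8_L d ^ (261 + 39) = D8_L d ^ 300 := by norm_num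
    have f5 : D8_L d ^ (261 + 9) = D8_L d ^ 270 := by norm_num
    rw [f4] at f2
    rw [f5] at f1
    have f0 : (0 : ℝ) ≤ D8_L d ^ 261 := by positivity
    have g1 : (4 : ℝ) * D8_L d ^ 261 ≤ 1000 ^ 39 * D8_L d ^ 261 :=
      mul_le_mul_of_nonneg_right (by norm_num) f0
    have g2 : (2 : ℝ) * D8_L d ^ 261 ≤ 1000 ^ 9 * D8_L d ^ 261 :=
      mul_le_mul_of_nonneg_right (by norm_num) f0
    have h1 : D8_L d ^ 300 / 2 ≤ (2 : ℝ) ^ d - 2 * D8_j d := by
      rw [hx]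
      linarith
    calc (D8_F d : ℝ) + 2 * D8_j d ≤ 2 * D8_L d ^ 270 := by linarith
      _ ≤ 4 * D8_L d ^ 270 := by
          have : (0 : ℝ) ≤ D8_L d ^ 270 := by positivity
          linarith
      _ = D8_eta d * (D8_L d ^ 300 / 2) := by
          unfold D8_eta
          have h2 : D8_L d ^ 300 = D8_L d ^ 270 * D8_L d ^ 30 := by rw [← pow_add]
          rw [h2]
          have h3 : D8_L d ^ 30 ≠ 0 := by positivity
          field_simp
          norm_num
      _ ≤ D8_eta d * ((2 : ℝ) ^ d - 2 * D8_j d) :=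
          mul_le_mul_of_nonneg_left h1 (by unfold D8_eta; positivity)

end Crest.Agent.S0222
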