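import Crest.Statements.S0222
import Crest.Agent.S0222_Basic
import Crest.Agent.S0222_A6
import Crest.Agent.S0222_C2
import Crest.Agent.S0222_C67
import Crest.Agent.S0222_D3
import Crest.Agent.S0222_D4
import Crest.Agent.S0222_D5
import Crest.Agent.S0222_D6
import Crest.Agent.S0222_D7
import Crest.Agent.S0222_D7f
import Crest.Agent.S0222_D8
import Crest.Agent.S0222_D10

set_option autoImplicit false
open Crest Crest.ProbabilityR

namespace Crest.Agent.S0222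

section
open Finset Equiv Crest.ProbabilityR.Shuffle Filter

theorem final_bound (d : ℕ) (Γ η : ℝ) (y F j0 : ℕ) (hd : d + 2 ≤ 2 ^ d)
    (h : 0 < Γ ∧ Γ < 2 ^ d ∧ 2 ^ d ≤ (y + 1) ^ 30 ∧ 1 ≤ y ∧
      8 * j0 + 8 ≤ 2 ^ d ∧ 0 < η ∧ η ≤ 1 ∧
      (F + 2 * j0 : ℝ) ≤ η * ((2 : ℝ) ^ d - 2 * j0)) :
    tvFromUniform (2 ^ d) (1600 * (d + 1)) ≤
      (1 / 2) * (120 * (2 ^ d * (1 - ((2 : ℝ) ^ d - 1 - (d + 1)) / (8 * 2 ^ d)) ^ (d + 1) / Γ) +
        Real.sqrt ((∑ k ∈ Icc 1 (2 * j0), 2 * ((2 : ℝ) ^ d) ^ (2 * k) *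
        ((3 * Real.sqrt η) ^ k + Real.exp (y * Γ) / ((y : ℝ) + 1) ^ (F + 1)) ^ (2 * 30)) +
        (Real.exp (y * Γ) ^ 30) ^ 2 / 2 ^ j0) +
        121 * pmB d (24 * (d + 1))) := by
  obtain ⟨hΓ0, hΓ1, hy30, hy, hj, hη0, hη1, hη⟩ := h
  have htime : (60 + 1) * (24 * (d + 1)) + 60 * (d + 1) ≤ 1600 * (d + 1) := by
    omega
  have h1 := D10_mono (2 ^ d) _ _ htime
  have h2 := D5_hybrid d (24 * (d + 1)) 60 (pmB d (24 * (d + 1)))
    (fun x => A6_pm d (24 * (d + 1)) (2 ^ d) le_rfl x)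
  have h3 := D6_l2 d Γ 60
  have h4 := D7_pG d Γ hΓ0
  have h5 := D4_envG d hd
  have hcard : Fintype.card (Fin (2 ^ d)) = 2 ^ d := Fintype.card_fin _
  -- module C
  have hp1 : pG d Γ ≤ 1 := by
    unfold pG
    apply ex_le_const
    intro e; split <;> norm_num
  have h6 : (((2 ^ d).factorial : ℕ) : ℝ) * cpow (aG d Γ) (2 * 30) 1 ≤
      pG d Γ ^ (2 * 30) + ∑ k ∈ Icc 1 (2 * j0), 2 * ((2 : ℝ) ^ d) ^ (2 * k) *
        ((3 * Real.sqrt η) ^ k + Real.exp (y * Γ) / ((y : ℝ) + 1) ^ (F + 1)) ^ (2 * 30)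
        + (Real.exp (y * Γ) ^ 30) ^ 2 / 2 ^ j0 := by
    have hy30' : Fintype.card (Fin (2 ^ d)) ≤ (y + 1) ^ 30 := hcard.le.trans hy30
    have hj' : 8 * j0 + 8 ≤ Fintype.card (Fin (2 ^ d)) := hj.trans hcard.ge
    have hβ : ∀ k, 1 ≤ k → k ≤ 2 * j0 → ∑ w, aG d Γ w * hitW k w ≤
        (3 * Real.sqrt η) ^ k + Real.exp (y * Γ) / ((y : ℝ) + 1) ^ (F + 1) := by
      intro k hk1 hk2
      have hkj : (k : ℝ) ≤ 2 * j0 := by exact_mod_cast hk2
      have hkc : 2 * k ≤ Fintype.card (Fin (2 ^ d)) := by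
        rw [hcard]; omega
      have hηk : (F + k : ℝ) ≤ η * ((Fintype.card (Fin (2 ^ d)) : ℝ) - k) := by
        rw [hcard]; push_cast
        have : η * ((2 : ℝ) ^ d - 2 * j0) ≤ η * ((2 : ℝ) ^ d - k) :=
          mul_le_mul_of_nonneg_left (by linarith) hη0.le
        linarith
      exact D9_beta (aG d Γ) (D7_nonneg d Γ) (by rw [D7_sum]; exact hp1) y F k hy _
          (D7_fix d Γ y) hkc η hη0 hη1 hηk
    have := C7_main (A := Fin (2 ^ d)) (aG d Γ) (D7_nonneg d Γ) (D7_class d Γ) (D7_inv d Γ)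
      (pG d Γ) (D7_sum d Γ) (D7_sgn d Γ hΓ1) (y + 1) 30 hy30' ⟨15, by norm_num⟩
      (by norm_num) (Real.exp (y * Γ)) (D7_fix d Γ y) j0 hj'
      (fun k => (3 * Real.sqrt η) ^ k + Real.exp (y * Γ) / ((y : ℝ) + 1) ^ (F + 1)) hβ
    rw [hcard] at this
    push_cast at this ⊢
    exact this
  have h7 : Real.sqrt (((2 ^ d).factorial : ℕ) * cpow (aG d Γ) 60 1 - pG d Γ ^ 60) ≤
      Real.sqrt ((∑ k ∈ Icc 1 (2 * j0), 2 * ((2 : ℝ) ^ d) ^ (2 * k) *
        ((3 * Real.sqrt η) ^ k + Real.exp (y * Γ) / ((y : ℝ) + 1) ^ (F + 1)) ^ (2 * 30)) +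
        (Real.exp (y * Γ) ^ 30) ^ 2 / 2 ^ j0) := by
    apply Real.sqrt_le_sqrt
    have h8 : (2 * 30 : ℕ) = 60 := by norm_num
    rw [h8] at h6 ⊢
    linarith
  have h9 : 1 - pG d Γ ≤
      2 ^ d * (1 - ((2 : ℝ) ^ d - 1 - (d + 1)) / (8 * 2 ^ d)) ^ (d + 1) / Γ :=
    h4.trans (div_le_div_of_nonneg_right h5 hΓ0.le)
  refine h1.trans ?_
  rw [D10_tv]
  apply mul_le_mul_of_nonneg_left _ (by norm_num)
  refine h2.trans ?_
  push_cast at h3 ⊢
  push_cast at h7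
  linarith

theorem final_tendsto : Tendsto (fun d : ℕ => tvFromUniform (2 ^ d) (1600 * (d + 1)))
      atTop (nhds 0) := by
  obtain ⟨Γ, y, F, j0, η, hev, ht1, ht2, ht3⟩ := D8_numeric
  have hd : ∀ᶠ d : ℕ in atTop, d + 2 ≤ 2 ^ d := by
    filter_upwards [eventually_ge_atTop 2] with d hd
    induction d, hd using Nat.le_induction with
    | base => norm_num
    | succ n hn ih => rw [pow_succ]; omega
  have hlim : Tendsto (fun d : ℕ => (1 / 2 : ℝ) * (120 * (2 ^ d * (1 - ((2 : ℝ) ^ d - 1 - (d + 1)) / (8 * 2 ^ d)) ^ (d + 1) / Γ d) +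
        Real.sqrt ((∑ k ∈ Icc 1 (2 * j0 d), 2 * ((2 : ℝ) ^ d) ^ (2 * k) *
        ((3 * Real.sqrt (η d)) ^ k + Real.exp (y d * Γ d) / ((y d : ℝ) + 1) ^ (F d + 1)) ^ (2 * 30)) +
        (Real.exp (y d * Γ d) ^ 30) ^ 2 / 2 ^ j0 d) +
        121 * pmB d (24 * (d + 1)))) atTop (nhds ((1 / 2 : ℝ) * (120 * 0 + Real.sqrt (0 + 0) + 121 * 0))) := by
    apply Tendsto.const_mul
    apply Tendsto.add
    · apply Tendsto.add
      · exact Tendsto.const_mul _ ht1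
      · exact (Real.continuous_sqrt.tendsto _).comp (ht2.add ht3)
    · exact Tendsto.const_mul _ D8_pmB
  have h0 : (1 / 2 : ℝ) * (120 * 0 + Real.sqrt (0 + 0) + 121 * 0) = 0 := by simp
  rw [h0] at hlim
  refine tendsto_of_tendsto_of_tendsto_of_le_of_le' tendsto_const_nhds hlim ?_ ?_
  · exact Eventually.of_forall fun d => by
      unfold tvFromUniform
      exact mul_nonneg (by norm_num) (Finset.sum_nonneg fun _ _ => abs_nonneg _)
  · filter_upwards [hev, hd] with d h1 h2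
    exact final_bound d (Γ d) (η d) (y d) (F d) (j0 d) h2 h1

end

/-- Shuffle a deck of `n = 2 * 2 ^ d` cards `1600 * (d + 1)` times, that is `1600 * log₂ n` times. The total variation distance between the law of the resulting arrangement of the whole deck and the uniform law on all arrangements tends to `0` as `d → ∞`. -/
theorem result :
    Filter.Tendsto (fun d : ℕ => Crest.ProbabilityR.Shuffle.tvFromUniform (2 ^ d) (1600 * (d + 1)))
      Filter.atTop (nhds 0) :=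
  final_tendsto

end Crest.Agent.S0222
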