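import Crest.Agent.S0222_Defs

/-!
BLUEPRINT for S0222 (Thorp shuffle, N = 2^(d+1) cards mixes in 1600 (d+1) steps).  Owner helper43.
This file is NOT imported by the solution; it only lists the lemma statements (with `sorry`) and
paper proofs.  Put your proof in the file named in the task, `import Crest.Agent.S0222_Defs`
(and `Crest.Agent.S0222_Basic` for lemmas on `ex`, `EP`, `conv`), namespace `Crest.Agent.S0222`,
with exactly the same statement.

Notation: `N = 2m` positions, `m = n = 2^d`, `D = d+1`.  `z̄ = prt z` is the other position of the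
switch of `z`.  Shift structure: one step sends position `x` to `2 (x % m) + bit`: bits are shifted
up by one, the top bit is dropped, a random low bit is appended; the two positions of a switch
differ exactly in the top bit.

OVERVIEW OF THE PROOF.
A. (partial mixing) positions of any `k ≤ N/2` labelled cards after `24 D` steps are `pmB`-close (`ℓ¹`)
   to a uniform injection.
B. private network: labels `A = Fin m` (cards initially in the lower half). In a window of `D` steps,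
   fix public coins `c` (a "base run"); at switches where both base-run cards are in `A` put an extra
   private coin `ξ`. The real run = base run ∘ q, `q = netq ... ξ ∈ Sym(A)`. Main inequality
   E[x^{cyc(q q'⁻¹)}] ≤ exp((x-1) Σ_z E_z[(3/4)^{#matched steps}]).
C. class operator on L²(Sym A): n! a^{*60}(1) ≤ p^60 + small.
D. assembly.
-/

set_option autoImplicit false

namespace Crest.Agent.S0222.BP

open Finset Equiv Crest.ProbabilityR.Shuffle

/-! ## Module A -/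

/-- A1a (easy). `avgv` kills labelled positions; `nxt` transports by a bijection; the total mass of
`avgv` equals the total mass: sum over `z ∉ L`: pairs with both unlabelled are averaged (use the
bijection `prt` to symmetrize), others unchanged; labelled positions carry 0 mass by `Adm`. -/
theorem A1_adm (m : ℕ) (c : Fin m → Bool) (S : St m) (hS : Adm m S) : Adm m (nxt m c S) := by
  sorry

/-- A1b (easy). `((a+b)/2)^2 ≤ (a^2+b^2)/2`, symmetrize with the bijection `prt`. -/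
theorem A1_nrm (m : ℕ) (c : Fin m → Bool) (S : St m) : nrm m (nxt m c S) ≤ nrm m S := by
  sorry

/-- A1c (medium). For a block `B_β = {y : y % 2^(g+1) = β}`, `b = β % 2`, `β' = β / 2`: its positions are `2u+b`, `u < m`,
`u % 2^g = β'`. New mass at `2u+b`: with `ρ_u = r u + r (u+m)`: if both `u, u+m` unlabelled: `ρ_u/2`; if
exactly one is labelled: `ρ_u/2 ± ρ_u/2` with sign the coin `c u` (all the mass goes to one output);
both labelled: `0 = ρ_u`. So mass(B_β) = ½ ρ(B') + ½ Σ_{u singly labelled} ε_u ρ_u with independent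
fair signs, B' = {z : z % 2^g = β'} (uses g ≤ d so that 2^g ∣ m). Hence
E mass(B_β)^2 = ¼ (r(B')^2 + Σ_{z ∈ B', prt z ∈ L} r(z)^2). Sum over β (two β for each β'). -/
theorem A1_psi (d g : ℕ) (hg : g ≤ d) (S : St (2 ^ d)) (hS : Adm (2 ^ d) S) :
    ex (fun c : Fin (2 ^ d) → Bool => psi (2 ^ d) (g + 1) (nxt (2 ^ d) c S)) =
      (psi (2 ^ d) g S + sl (2 ^ d) S) / 2 := by
  sorry

/-- A2 (medium-hard). Independence of the two halves. After `j ≤ d` steps, bit `j` of a position is the initial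
low bit. FACTORIZATION LEMMA (induction on j ≤ d, peeling the LAST step): if `F` depends only on the
state restricted to positions with bit `j` = 0 (labelled indicator and mass there) and `G` only on
positions with bit `j` = 1, then `EE j (F·G) S = EE j F S * EE j G S`. (Step j → j+1 ≤ d: positions `y` with
bit (j+1) = b come from switch `u = y/2` with bit `j` of `u` and of `u+m` equal to b (as j < d), so the two
families use disjoint coins; `E_c[F G] = E_c F · E_c G`, and `E_c F` again depends only on positions with bit j = 0.)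
Also `EE j (1[w ∈ L]) S = 2^{-j} #{v ∈ L : v ≡ w >> j mod 2^(D-j)}`; for `j = d` it is (number of labelled
positions with low bit = top bit of w)/2^d = lowC_b/2^d. Then at j = d: sl = Σ_z r(z)^2 [prt z ∈ L], z and prt z have
different bit d, so E[r(z)^2 [prt z ∈ L]] = E[r(z)^2]·lowC_{1-b}/2^d ≤ δ E[r(z)^2]. -/
theorem A2_half (d : ℕ) (S : St (2 ^ d)) (hS : Adm (2 ^ d) S) (δ : ℝ)
    (h0 : (lowC (2 ^ d) 0 S : ℝ) ≤ δ * 2 ^ d) (h1 : (lowC (2 ^ d) 1 S : ℝ) ≤ δ * 2 ^ d) :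
    EE (2 ^ d) d (sl (2 ^ d)) S ≤ δ * EE (2 ^ d) d (nrm (2 ^ d)) S := by
  sorry

/-- A3 (medium). `lowC b` after one step = Σ_u [output 2u+b labelled]: doubly labelled switch: 1; singly
labelled: fair coin; none: 0. `E 2^{lowC} = 2^β (3/2)^k ≤ (3/2)^(2β+k) = (3/2)^{|L|} ≤ (3/2)^m` (β doubly, k singly labelled);
Markov: `Pr[lowC > 3m/4] ≤ (3/2)^m / 2^{3m/4} ≤ 0.892^m` (3/2 ≤ 0.892·2^{3/4} since (3/2)^4 = 5.0625 ≤ 0.892^4·8 = 5.0648...). -/
theorem A3_bad (m : ℕ) (S : St m) (hS : S.1.card ≤ m) (b : ℕ) (hb : b < 2) :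
    ex (fun c : Fin m → Bool =>
      if (3 / 4 * m : ℝ) < (lowC m b (nxt m c S) : ℝ) then (1 : ℝ) else 0) ≤ (0.892 : ℝ) ^ m := by
  sorry

/-- A4 (medium; uses A1, A2, A3). Write S_t = EE t nrm S, Sl_t = EE t sl S, Ψ_t(g) = EE t (psi g) S. (EE (a+b) F S = EE a (EE b F) S,
EE (t+1) F S = EE t (fun S => ex c, F (nxt c S)) S, monotone, linear.) A1c: Ψ_{t+1}(g+1) = (Ψ_t(g) + Sl_t)/2,
Ψ(0) = 0 (total mass 0), Ψ(D) = S (z % 2^(d+1) = z). So for t ≥ D: S_t = Σ_{j=1}^D 2^{-j} Sl_{t-j}.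
For s ≥ D = d+1: Sl_s = EE (s-d) (EE d sl) S ≤ (3/4) S_s + Pr[bad at time s-d] ≤ (3/4) S_s + 2·0.892^m: on good states
A2 with δ = 3/4; on bad states sl ≤ nrm ≤ 1 (A1b). Probability by A3 (last of the s-d ≥ 1 steps; |L| is preserved).
Hence for t ≥ 2D: S_t ≤ Σ_{j=1}^D 2^{-j} ((3/4) S_{t-j} + e), e = 2·0.892^m. Strong induction:
S_t ≤ (8/7)^{2D} (7/8)^t + 4e, using (3/4) Σ_j 2^{-j}(8/7)^j ≤ (3/4)(4/3) = 1; for t < 2D, S_t ≤ 1. -/
theorem A4_decay (d T : ℕ) (S : St (2 ^ d)) (hS : Adm (2 ^ d) S) (hc : S.1.card ≤ 2 ^ d)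
    (hn : nrm (2 ^ d) S ≤ 1) :
    EE (2 ^ d) T (nrm (2 ^ d)) S ≤
      (8 / 7 : ℝ) ^ (2 * (d + 1)) * (7 / 8) ^ T + 8 * (0.892 : ℝ) ^ (2 ^ d) := by
  sorry

/-- A5a (easy): induction on T (compare peeling the first and the last row). -/
theorem A5_EE (m T : ℕ) (F : St m → ℝ) (S : St m) :
    EE m T F S = ex (fun cs : Fin T → Fin m → Bool => F (stT m T cs S)) := by
  sorry

/-- A5b (medium). The conditional law process. Induction on T peeling the FIRST step: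
Σ_z a(z) 1{...} with first coins c: g = g' * stepPerm c; EP (T+1) F = ex c, EP T (fun g' => F (g' * stepPerm c)).
So LHS_{T+1}(x,a) = ex_c Σ_z a(z) EP T(1{g'(step_c x)=y ∧ g'(step_c z)=b}) = ex_c Σ_{z'} a(step_c⁻¹ z') Q_T(step_c x; z').
One-step lemma: for a function Φ of (step_c ∘ x) [i.e. only of the coins of switches having a labelled position],
ex_c Φ(step_c∘x) a(step_c⁻¹ z') = ex_c Φ(step_c∘x) avgv(image x, a)(step_c⁻¹ z'): flip the coin of the switch of z' if both its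
positions are unlabelled (involution on coin tables leaving step_c∘x unchanged, exchanging the two mass values). -/
theorem A5_link (m T k : ℕ) (x : Fin k → Fin (2 * m)) (a : Fin (2 * m) → ℝ)
    (ha : ∀ i, a (x i) = 0) (y : Fin k → Fin (2 * m)) (b : Fin (2 * m)) :
    ∑ z, a z * EP m T (fun g => if (∀ i, g (x i) = y i) ∧ g z = b then 1 else 0) =
      ex (fun cs : Fin T → Fin m → Bool => if (∀ i, iterPerm m T cs (x i) = y i) then
        (stT m T cs (univ.image x, a)).2 b else 0) := by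
  sorry

/-- A6 (medium; uses A4, A5). Telescoping over the number l of labels. p_l(y) = EP T(1{g∘x|_l = y}). For y injective on l labels,
b ∉ range y: p_{l+1}(y,b) - p_l(y)/(N-l) = ex_cs[1{g∘x = y} r_T(b)], r_T from the start mass
a = δ_{x_l} - (uniform on the complement of {x_0..x_{l-1}}) (admissible, nrm ≤ 1); (Σ_z unif(z) Pr[g x=y, g z=b] = p_l(y)/(N-l)).
So Σ_{y,b}|p_{l+1}(y,b) - u_{l+1}| ≤ Σ_y |p_l(y) - u_l| + ex_cs Σ_b |r_T(b)|, and ex Σ_b|r_T(b)| ≤ sqrt(N · EE T nrm) (Cauchy-Schwarz), A4.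
Total ≤ k sqrt(N (..)) ≤ pmB. -/
theorem A6_pm (d T k : ℕ) (hk : k ≤ 2 ^ d) (x : Fin k ↪ Fin (2 * 2 ^ d)) :
    ∑ y : Fin k ↪ Fin (2 * 2 ^ d),
      |EP (2 ^ d) T (fun g => if (∀ i, g (x i) = y i) then 1 else 0)
        - 1 / (Fintype.card (Fin k ↪ Fin (2 * 2 ^ d)) : ℝ)| ≤ pmB d T := by
  sorry

/-! ## Module B -/

/-- B1 (easy). With X0 σ τ = Σ_u b0 u K0 (σ,u) (τ,u), X1 similarly (symmetric): LHS = Σ_{σ,τ} aσ aτ X0 X1
≤ √(Σ aσ aτ X0²) √(Σ aσ aτ X1²), and Σ aσ aτ X0² ≤ Σ aσ aτ X0(σ,τ)(X0(σ,σ)+X0(τ,τ))/2 = Σ_σ aσ X0(σ,σ) Σ_τ aτ X0(σ,τ)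
≤ R0 Σ_σ aσ X0(σ,σ). -/
theorem B1_kernel {S U V : Type*} [Fintype S] [Fintype U] [Fintype V]
    (a : S → ℝ) (b0 : U → ℝ) (b1 : V → ℝ) (ha : ∀ s, 0 ≤ a s) (hb0 : ∀ u, 0 ≤ b0 u)
    (hb1 : ∀ v, 0 ≤ b1 v)
    (K0 : S × U → S × U → ℝ) (K1 : S × V → S × V → ℝ)
    (h0 : ∀ u v, 0 ≤ K0 u v) (h1 : ∀ u v, 0 ≤ K1 u v)
    (hs0 : ∀ u v, K0 u v = K0 v u) (hs1 : ∀ u v, K1 u v = K1 v u)
    (hd0 : ∀ u v, K0 u v ≤ (K0 u u + K0 v v) / 2) (hd1 : ∀ u v, K1 u v ≤ (K1 u u + K1 v v) / 2)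
    (R0 R1 : ℝ)
    (hR0 : ∀ σ, ∑ τ, ∑ u, a τ * b0 u * K0 (σ, u) (τ, u) ≤ R0)
    (hR1 : ∀ σ, ∑ τ, ∑ v, a τ * b1 v * K1 (σ, v) (τ, v) ≤ R1) :
    ∑ σ, ∑ τ, ∑ u, ∑ v, a σ * a τ * b0 u * b1 v * K0 (σ, u) (τ, u) * K1 (τ, v) (σ, v) ≤
      Real.sqrt ((∑ σ, ∑ u, a σ * b0 u * K0 (σ, u) (σ, u)) * R0) *
      Real.sqrt ((∑ σ, ∑ v, a σ * b1 v * K1 (σ, v) (σ, v)) * R1) := by
  sorry

/-- B2 (medium). Map κ ↦ κ̃, κ̃ z = κ z if the w-cycle of z (`w.SameCycle`) does not meet S, 0 otherwise. κ̃ satisfies the right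
hand condition; cw t κ ≤ cw t κ̃ (t ≤ 1); injective on the left set: on a cycle meeting S the equation κ (w z) = σ z or κ z
determines κ completely (propagate from a point of S forwards along the finite cycle). -/
theorem B2_row {A : Type*} [Fintype A] [DecidableEq A] {y : ℕ} (w : Perm A) (S : Finset A)
    (σ : A → Fin (y + 1)) (t : A → ℝ) (ht0 : ∀ a, 0 ≤ t a) (ht1 : ∀ a, t a ≤ 1) :
    ∑ κ : A → Fin (y + 1),
        (if (∀ z, κ (w z) = if z ∈ S then σ z else κ z) then cw t κ else 0) ≤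
      ∑ κ : A → Fin (y + 1), (if (∀ z, κ (w z) = κ z) ∧ (∀ z ∈ S, κ z = 0) then cw t κ else 0) := by
  sorry

/-- B3 (medium). Induction on s: Phi (s+1) κ κ' = E_{h,h'} Phi s (κ∘h) (κ'∘h') (h, h' last layers; note `netq (s+1) = h * netq s`, so
κ ∘ (h * q) = (κ∘h)∘q). `rs c b (κ∘h) = (rs c b κ)∘h` since h preserves c. One-layer independence: (rs c false κ)∘h depends only
on the coins `rep a`, c a = false, and (rs c true κ)∘h only on coins `rep a`, c a = true, disjoint by `eq_or` and hc.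
Also Phi of (rs..) with the trivially satisfied other half. -/
theorem B3_factor {A I : Type*} [Fintype A] [DecidableEq A] [Fintype I] [DecidableEq I] {y : ℕ}
    {s : ℕ} (L : Fin s → Layer A I)
    (c : A → Bool) (hc : ∀ i a, c ((L i).inv a) = c a) (κ κ' : A → Fin (y + 1)) :
    Phi L κ κ' = Phi L (rs c false κ) (rs c false κ') * Phi L (rs c true κ) (rs c true κ') := by
  sorry

/-- B4 (medium). cw t (κ∘h_ξ) = ∏_z (if κ(h z) = 0 then 1 else t z) = ∏_z (if κ z = 0 then 1 else t (h z)) (h involution) ; group over pairs: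
the coins of distinct pairs are independent (rep distinguishes pairs). Pair {a,ā}: both coloured: t_a t_ā ≤ ((t_a+t_ā)/2)²; exactly one
coloured: average (t_a+t_ā)/2; none: 1; unmatched: t a. Suggestion: induct over a Finset of coins i ∈ I, or write the product over A as product over
i ∈ I of the product over the fibre {a : rep a = i} (at most two elements) and use `Finset.prod_univ_sum` / independence of coordinates. -/
theorem B4_avg {A I : Type*} [Fintype A] [DecidableEq A] [Fintype I] [DecidableEq I] {y : ℕ}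
    (L : Layer A I) (t : A → ℝ) (ht0 : ∀ a, 0 ≤ t a) (κ : A → Fin (y + 1)) :
    ex (fun ξ : I → Bool => cw t (κ ∘ L.h ξ)) ≤ cw (tbar L t) κ := by
  sorry

/-- B5 (hard; uses B1, B2, B3). Let S̃ = {z : L1.h ζ z ≠ z} = swapped elements, S0 = S̃ ∩ {c=false}, S1 = S̃ ∩ {c=true}, g = L1.h ζ maps S0 ↔ S1.
Write κ = (σ, u, τ, v) with σ = κ on S0, u = κ on {c=false}\S0, τ(a) = κ(g a) for a ∈ S0 (κ on S1), v = κ on {c=true}\S1. Then κ∘g = (τ, u, σ, v).
cw t κ = t(σ) t(u) t(τ) t(v) (t∘g = t). B3: Phi κ (κ∘g) = K0((σ,u),(τ,u)) K1((τ,v),(σ,v)) with K0 = Phi of the colourings glued with 0 on the half c=true, etc.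
Phi is symmetric, ≥ 0, and Phi κ κ' ≤ (Phi κ κ + Phi κ' κ')/2 since Phi κ κ' = Σ_η Pr[κ∘q=η] Pr[κ'∘q=η]. Apply B1. Row sums: for fixed q, q' put w = q'∘q⁻¹ (or q q'⁻¹),
B2 with S := S0 ∪ {c = true} and σ extended by 0 gives R0 = Σ_{κ=0 on {c=true} and on S̃} cw t κ Phi κ κ. Traces: Σ_{κ=0 on c=true} cw t κ Phi κ κ; the product
of the two traces is AA y L t by B3. -/
theorem B5_fixed {A I : Type*} [Fintype A] [DecidableEq A] [Fintype I] [DecidableEq I] {y : ℕ}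
    {s : ℕ} (L : Fin s → Layer A I) (L1 : Layer A I)
    (c : A → Bool) (hc : ∀ i a, c ((L i).inv a) = c a) (hc1 : ∀ a, L1.inv a ≠ a → c (L1.inv a) ≠ c a)
    (t : A → ℝ) (ht0 : ∀ a, 0 ≤ t a) (ht1 : ∀ a, t a ≤ 1) (htinv : ∀ a, t (L1.inv a) = t a)
    (ζ : I → Bool) :
    ∑ κ : A → Fin (y + 1), cw t κ * Phi L κ (κ ∘ L1.h ζ) ≤
      Real.sqrt (AA y L t) *
      Real.sqrt (
        (∑ κ ∈ univ.filter (fun κ : A → Fin (y + 1) => (∀ z, c z ≠ false → κ z = 0) ∧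
            ∀ z, L1.h ζ z ≠ z → κ z = 0), cw t κ * Phi L κ κ) *
        (∑ κ ∈ univ.filter (fun κ : A → Fin (y + 1) => (∀ z, c z ≠ true → κ z = 0) ∧
            ∀ z, L1.h ζ z ≠ z → κ z = 0), cw t κ * Phi L κ κ)) := by
  sorry

/-- B6 (medium; uses B3, B4, B5). AA (s+1) t = Σ_κ cw t κ E_{ξ,ξ'} Phi s (κ∘h_ξ) (κ∘h_ξ'). Substituting κ → κ∘h_ξ (involution) and ζ = ξ xor ξ'
(h_ξ∘h_ξ' = h_{ξ xor ξ'}): = E_ζ Σ_κ (E_ξ cw t (κ∘h_ξ)) Phi s κ (κ∘h_ζ) ≤ E_ζ Σ_κ cw (tbar t) κ Phi κ (κ∘h_ζ) (B4) ≤ √AA(tbar) · E_ζ √(R0_ζ R1_ζ) (B5)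
≤ √AA(tbar) √(E_ζ R0_ζ) √(E_ζ R1_ζ), and E_ζ R0_ζ = Σ_{κ=0 on c=true} cw (tbar' t) κ Phi κ κ since each coloured matched z in the half must be non-swapped
(prob 1/2 each, distinct coins as one element of each pair lies in the half). By B3 the product of the two sums is AA(tbar'). -/
theorem B6_layer {A I : Type*} [Fintype A] [DecidableEq A] [Fintype I] [DecidableEq I] (y : ℕ)
    {s : ℕ} (L : Fin (s + 1) → Layer A I)
    (c : A → Bool) (hc : ∀ i : Fin s, ∀ a, c ((L i.castSucc).inv a) = c a)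
    (hc1 : ∀ a, (L (Fin.last s)).inv a ≠ a → c ((L (Fin.last s)).inv a) ≠ c a)
    (t : A → ℝ) (ht0 : ∀ a, 0 ≤ t a) (ht1 : ∀ a, t a ≤ 1) :
    AA y L t ≤ Real.sqrt (AA y (fun i : Fin s => L i.castSucc) (tbar (L (Fin.last s)) t) *
      AA y (fun i : Fin s => L i.castSucc) (tbar' (L (Fin.last s)) t)) := by
  sorry

/-- B7 (easy-medium; uses B6). Prove AA y L t ≤ exp(y Σ_z netW s L t z) for t : A → [0,1] by induction on s: layerOp L t = (tbar + tbar')/2 and netW is linear;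
s = 0: AA = ∏(1 + y t_z) ≤ exp. Then t = 1: AA y L 1 = E Σ_κ 1{κ∘q = κ∘q'} = E fixN (y+1) (q q'⁻¹). -/
theorem B7_main {A I : Type*} [Fintype A] [DecidableEq A] [Fintype I] [DecidableEq I] (y : ℕ)
    {s : ℕ} (L : Fin s → Layer A I) (hL : Stars L) :
    ex (fun ξ : Fin s → I → Bool => ex (fun ξ' : Fin s → I → Bool =>
      (fixN (y + 1) (netq s L ξ * (netq s L ξ')⁻¹) : ℝ))) ≤
      Real.exp (y * ∑ z, netW s L (fun _ => 1) z) := by
  sorry

/-! ## Module C -/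

/-- C1 (medium-hard). B(z,y) := Σ_w a(w) 1{w∘y = z}, LHS sum = Σ_{z,y inj} φ(z) φ(y) B(z,y). B(ρ∘z, ρ∘y) = B(z,y) so B depends only on the pattern of (z,y):
J = {i : z_i ∈ range y}, τ : J ↪ Fin k, z_i = y_{τ i}; call it b(J,τ). For fixed y, S(J,τ) := Σ_{z of pattern (J,τ) w.r.t. y} φ(z). Harmonicity in coordinate i ∉ J
gives S(J,τ) = - Σ_{j ∉ τ(J)} S(J∪{i}, τ∪{i→j}); iterating, S(J,τ)(y) = (-1)^m Σ_{τ' ∈ Perm (Fin k) extending τ} φ(y∘τ'), m = k-|J|, so |Σ_y φ(y) S(J,τ)(y)| ≤ m! ‖φ‖².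
The number of pairs (y,z) of pattern (J,τ) is (n)_k (n-k)_m, so |b(J,τ)| (n)_k (n-k)_m ≤ Σ_w |a w| #{y inj : pattern(w∘y, y) = (J,τ)}. Summing over (J,τ):
Σ |b(J,τ)| m! ≤ Σ_w |a w| hitW k w. -/
theorem C1_harmonic {A : Type*} [Fintype A] [DecidableEq A] (k : ℕ) (hk : 2 * k ≤ Fintype.card A)
    (φ : (Fin k → A) → ℝ) (hφ : ∀ z, ¬ Function.Injective z → φ z = 0)
    (harm : ∀ (z : Fin k → A) (i : Fin k), ∑ b : A, φ (Function.update z i b) = 0)
    (a : Perm A → ℝ) (hcl : ∀ g w, a (g * w * g⁻¹) = a w) :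
    |∑ w, a w * ∑ z : Fin k → A, φ z * φ (fun i => w⁻¹ (z i))|
      ≤ (∑ w, |a w| * hitW k w) * ∑ z : Fin k → A, φ z ^ 2 := by
  sorry

/-- C2 (medium-hard). m!/(n-k)_m ≤ (m/(n-k))^m ≤ θ^m, θ = k/(n-k) ≤ η, m = missC. Let J = {i : w(y_i) ∈ range y}, |J| = k - m. Reveal y_0,...,y_{k-1} in order;
a hit at step i: y_i ∈ {w y_j, w⁻¹ y_j : j < i} or w y_i = y_i. Then |J| ≤ 2H (H = number of hits), Pr[hit | past] ≤ (f + 2k)/(n-k) ≤ 2η.
η^m ≤ η^{(k-2H)_+} ≤ η^{k/2} η^{-H}; E[η^{-H}] ≤ (1 + 2η(1/η - 1))^k ≤ 3^k by sequential summation (induction on the number of revealed labels: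
Σ over injective y : Fin (k+1) → A = Σ over injective y' : Fin k → A, Σ over a ∉ range y'). -/
theorem C2_hits {A : Type*} [Fintype A] [DecidableEq A] (k : ℕ) (hk : 2 * k ≤ Fintype.card A)
    (w : Perm A) (η : ℝ) (hη1 : η ≤ 1) (hη0 : 0 < η)
    (hη : ((univ.filter (fun z => w z = z)).card + k : ℝ) ≤ η * (Fintype.card A - k)) :
    hitW k w ≤ (3 * Real.sqrt η) ^ k := by
  sorry

/-- C3 (hard). Take m = ⌊n/2⌋ disjoint transpositions τ_1..τ_m (on E via left translation f ↦ f(τ ·), commuting involutions); E = ⊕ joint eigenspaces E_χ, χ ∈ {±1}^m,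
weight |χ| = number of -1. Permutations of the pairs permute the E_χ, so if weight j occurs then all C(m,j) characters of weight j occur.
(i) If a weight j with j0 ≤ j ≤ m - j0 occurs: dim E ≥ C(m,j) ≥ C(m,j0) ≥ 2^{j0} (m ≥ 2 j0).
(ii) Otherwise suppose some weight < j0 occurs; let j be the largest weight < j0 occurring, 0 ≠ v ∈ E_χ, |χ| = j, I = union of the pairs with χ_i = -1 (|I| = 2j). For a transposition t
supported in I^c and u ∈ E_χ, t·u still has eigenvalue -1 on the pairs of I and +1 on all pairs not touched by t (at most 2 touched), so its components have weight in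
{j, j+1, j+2}; weights j+1, j+2 do not occur (j+2 ≤ j0+1 ≤ m-j0), so t·u ∈ E_χ. So E_χ is stable under Sym(I^c), the τ_i with i ∉ supp χ act trivially on it and every transposition of
Sym(I^c) is conjugate in Sym(I^c) to such a τ_i, hence acts trivially: v is fixed by Sym(I^c), i.e. v(h g) = v(g) for h ∈ Sym(I^c), i.e. v(g) depends only on g⁻¹|_I, so v is a combination of
cyl x y (y enumerating I with repetitions, x : Fin (2 j0) → A); with h0, Σ v² = 0, contradiction.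
(iii) If some weight > m - j0 occurs, apply (ii) to sgn·E (uses h1). -/
theorem C3_dim {A : Type*} [Fintype A] [DecidableEq A] (j0 : ℕ) (h : 4 * j0 + 4 ≤ Fintype.card A)
    (E : Submodule ℝ (Perm A → ℝ)) (hE : ∀ h : Perm A, ∀ f ∈ E, (fun g => f (h * g)) ∈ E)
    (hne : E ≠ ⊥)
    (h0 : ∀ f ∈ E, ∀ x y : Fin (2 * j0) → A, ∑ g, f g * cyl x y g = 0)
    (h1 : ∀ f ∈ E, ∀ x y : Fin (2 * j0) → A, ∑ g, f g * ((Perm.sign g : ℤ) : ℝ) * cyl x y g = 0) :
    2 ^ j0 ≤ Module.finrank ℝ E := by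
  sorry

/-- C4 (medium). Let u_w := (1/n!) Σ_g δ_{g⁻¹ w g} (class average of δ_w); a = Σ_w a(w) u_w (class function), so a^{*s}(1) = Σ_{w : Fin s → G} ∏ a(w_i) (u_{w_1} * ... * u_{w_s})(1).
sup u_w ≤ fixN n w / n!: #{g : g⁻¹ w g = w0} ≤ n^{#cycles of w} = fixN n w (g is determined by its values on one representative of each cycle of w0 since g (w0^k r) = w^k (g r), and w0, w have the same number of cycles; or inject
{g} into functions). ‖f*g‖_∞ ≤ min(‖f‖_∞‖g‖_1, ‖f‖_1‖g‖_∞), so sup of the s-fold product ≤ min_i fixN n w_i / n! ≤ ∏_i fixN x w_i / n!, because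
fixN n w ≤ fixN (x^s) w = (fixN x w)^s and min ≤ geometric mean (min_i c_i^s ≤ ∏ c_i for c_i ≥ 0). Sum: Σ ∏ a(w_i) fixN x w_i = (Σ a fixN)^s (`Fintype.sum_pow`). -/
theorem C4_trace {A : Type*} [Fintype A] [DecidableEq A] (a : Perm A → ℝ) (ha : ∀ w, 0 ≤ a w)
    (hcl : ∀ g w, a (g * w * g⁻¹) = a w) (x s : ℕ) (hn : Fintype.card A ≤ x ^ s) (hs : 0 < s) :
    ((Fintype.card A).factorial : ℝ) * cpow a s 1 ≤ (∑ w, a w * (fixN x w : ℝ)) ^ s := by
  sorry

/-- C5 (medium-hard, linear algebra). H = (⊕ V_j) ⊕ U, U = (⨆ V_j)ᗮ all M-invariant. trace(M^{2s}) = Σ_j tr(M^{2s}|V_j) + tr(M^{2s}|U). On V_j: symmetric restriction, eigenvalues |λ| ≤ α_j: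
≤ finrank V_j · α_j^{2s}. On U with eigenvalues λ_i (s even, λ_i^s ≥ 0): Σ λ_i^{2s} ≤ max λ_i^s · Σ λ_i^s, q λ_i^s ≤ Σ_i λ_i^s (multiplicity ≥ q by hU) ≤ trace(M^s) (the other blocks have trace ≥ 0).
Useful: LinearMap.trace_eq_sum_inner, LinearMap.IsSymmetric.trace_eq_sum_eigenvalues, LinearMap.IsSymmetric.restrict_invariant, DirectSum.IsInternal / LinearMap.trace_eq_sum_trace_restrict; or
choose an orthonormal eigenbasis adapted to the decomposition. -/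
theorem C5_spectral {H : Type*} [NormedAddCommGroup H] [InnerProductSpace ℝ H]
    [FiniteDimensional ℝ H] (M : H →ₗ[ℝ] H) (hM : M.IsSymmetric) {J : Type*} [Fintype J]
    [DecidableEq J]
    (V : J → Submodule ℝ H) (hV : ∀ j, ∀ v ∈ V j, M v ∈ V j)
    (horth : ∀ i j, i ≠ j → ∀ u ∈ V i, ∀ v ∈ V j, inner ℝ u v = 0)
    (α : J → ℝ) (hα : ∀ j, ∀ v ∈ V j, v ≠ 0 → ∀ l : ℝ, M v = l • v → |l| ≤ α j)
    (q : ℕ) (hq : 0 < q)
    (hU : ∀ l : ℝ, ∀ v : H, v ≠ 0 → M v = l • v → (∀ j, ∀ u ∈ V j, inner ℝ u v = 0) →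
      q ≤ Module.finrank ℝ
        ((Module.End.eigenspace M l ⊓ (⨆ j, V j)ᗮ : Submodule ℝ H)))
    (s : ℕ) (hs : Even s) (hs0 : 0 < s) :
    LinearMap.trace ℝ H (M ^ (2 * s)) ≤
      ∑ j, (Module.finrank ℝ (V j) : ℝ) * α j ^ (2 * s) + (LinearMap.trace ℝ H (M ^ s)) ^ 2 / q := by
  sorry

/-- C6 (medium). Some Σ_g f g cyl x y g ≠ 0 (f ∈ span, f ≠ 0). x is injective (otherwise cyl x y is 0 or a cylinder with k labels; hperp). φ z := Σ_g f g cyl x z g.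
Harmonic: Σ_b φ(update z i b) = Σ_g f g 1{g x_j = z_j for j ≠ i} = 0 by hperp (drop label i: `Fin.succAbove`). Eigen: substitute g = w⁻¹ g'. -/
theorem C6_extract {A : Type*} [Fintype A] [DecidableEq A] (k : ℕ) (a : Perm A → ℝ)
    (f : Perm A → ℝ) (l : ℝ) (hf : ∀ g, ∑ w, a w * f (w⁻¹ * g) = l * f g)
    (hne : f ≠ 0) (hW : f ∈ Submodule.span ℝ (Set.range
      (fun p : (Fin (k + 1) → A) × (Fin (k + 1) → A) => cyl p.1 p.2)))
    (hperp : ∀ x y : Fin k → A, ∑ g, f g * cyl x y g = 0) :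
    ∃ φ : (Fin (k + 1) → A) → ℝ, φ ≠ 0 ∧ (∀ z, ¬ Function.Injective z → φ z = 0) ∧
      (∀ (z : Fin (k + 1) → A) (i : Fin (k + 1)), ∑ b : A, φ (Function.update z i b) = 0) ∧
      (∀ z, ∑ w, a w * φ (fun i => w⁻¹ (z i)) = l * φ z) := by
  sorry

/-- C7 (medium-hard; uses C1, C3, C4, C5, C6): module C main theorem. H = EuclideanSpace ℝ (Perm A), M f g = Σ_w a(w) f(w⁻¹ g): symmetric (hinv), commutes with f ↦ f(h ·) (class function), trace(M^r) = n! cpow a r 1.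
W_k = span{cyl x y : x y : Fin k → A}, M-invariant, W_k ≤ W_{k+1}, finrank ≤ n^{2k}, K = 2 j0. Blocks: V_0 = W_0 (constants, α = p), V_{k} = W_k ⊓ W_{k-1}ᗮ (1 ≤ k ≤ K), and sgn·V_k (0 ≤ k ≤ K), J = Fin (K+1) × Bool.
On sgn·V_k, M_a (sgn f) = sgn M_{a sgn} f, so C6+C1 applied to a·sgn (|a sgn| = a) give the same bound; α for sgn·V_0 is 0 (hsgn). C6 gives harmonic φ with l ‖φ‖² = Σ_w a w Σ_z φ z φ(w⁻¹ z); C1: |l| ≤ Σ a hitW k ≤ β k.
W_K ⟂ sgn W_K: two cylinders with 2K = 4 j0 ≤ n-2 labels in total: multiply g by a transposition of two positions not in x ∪ x'. High part: C3 with q = 2^{j0} applied to E = eigenspace ⊓ (⨆ V)ᗮ. trace(M^s) ≤ B^s by C4. -/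
theorem C7_main {A : Type*} [Fintype A] [DecidableEq A] (a : Perm A → ℝ) (ha : ∀ w, 0 ≤ a w)
    (hcl : ∀ g w, a (g * w * g⁻¹) = a w) (hinv : ∀ w, a w⁻¹ = a w)
    (p : ℝ) (hp : ∑ w, a w = p) (hsgn : ∑ w, a w * ((Perm.sign w : ℤ) : ℝ) = 0)
    (x s : ℕ) (hn : Fintype.card A ≤ x ^ s) (hs : Even s) (hs0 : 0 < s)
    (B : ℝ) (hB : ∑ w, a w * (fixN x w : ℝ) ≤ B)
    (j0 : ℕ) (hj : 8 * j0 + 8 ≤ Fintype.card A)
    (β : ℕ → ℝ) (hβ : ∀ k, 1 ≤ k → k ≤ 2 * j0 → ∑ w, a w * hitW k w ≤ β k) :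
    ((Fintype.card A).factorial : ℝ) * cpow a (2 * s) 1 ≤
      p ^ (2 * s) + ∑ k ∈ Icc 1 (2 * j0), 2 * (Fintype.card A : ℝ) ^ (2 * k) * β k ^ (2 * s)
        + (B ^ s) ^ 2 / 2 ^ j0 := by
  sorry

/-! ## Module D -/

/-- D1_flip (medium-hard; the core of D1, also used by D4): the involution `c ↦ c'` described in D1, as an equivalence, with the
relation between the two runs at every time `s ≤ t`. -/
theorem D1_flip (m t : ℕ) (y : Fin m ↪ Fin (2 * m)) (ξ : Fin t → Fin m → Bool) :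
    ∃ e : (Fin t → Fin m → Bool) ≃ (Fin t → Fin m → Bool),
      ∀ (c : Fin t → Fin m → Bool) (s : ℕ) (hs : s ≤ t),
        (∀ a, iterPerm m s (fun i => e c (Fin.castLE hs i)) (y a) =
          iterPerm m s (fun i => c (Fin.castLE hs i))
            (y (netq s (fun i => wLayers m t y c (Fin.castLE hs i))
              (fun i => ξ (Fin.castLE hs i)) a))) ∧
        (∀ z, z ∉ Set.range y → iterPerm m s (fun i => e c (Fin.castLE hs i)) z =
          iterPerm m s (fun i => c (Fin.castLE hs i)) z) := by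
  sorry

/-- D1 (medium-hard). Real run with coins c' := c xor (ξ ∧ [both positions of the switch are occupied, in the c-run, by A-cards (labels)]) satisfies: at every time s the set of positions
occupied by labels is the same as in the c-run, non-label cards are at the same positions, and label a is where the c-run has label q_s a: iterPerm s c' * g = iterPerm s c * g * extP (netq s ...). Induct on t (last row peeled).
For fixed ξ the map c ↦ c' is an involution (occupied sets agree), so ex over c of F(real run) is the same as the plain average: EP m t (fun h => F (h*g)) = ex_c F(iterPerm c' * g) for every ξ; average over ξ. -/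
theorem D1_decomp (m t : ℕ) (g : Perm (Fin (2 * m))) (F : Perm (Fin (2 * m)) → ℝ) :
    EP m t (fun h => F (h * g)) =
      ex (fun c : Fin t → Fin m → Bool => ex (fun ξ : Fin t → Fin m → Bool =>
        F (iterPerm m t c * g *
          extP m (netq t (wLayers m t ((lab m).trans g.toEmbedding) c) ξ)))) := by
  sorry

/-- D2 (easy-medium). inv' = ρ⁻¹ ∘ inv ∘ ρ, rep' = rep ∘ ρ for the layers of `ρ.toEmbedding.trans y`; induct. -/
theorem D2_relabel (m t : ℕ) (y : Fin m ↪ Fin (2 * m)) (c ξ : Fin t → Fin m → Bool)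
    (ρ : Perm (Fin m)) :
    netq t (wLayers m t (ρ.toEmbedding.trans y) c) ξ = ρ⁻¹ * netq t (wLayers m t y c) ξ * ρ ∧
    ∀ f : Fin m → ℝ, ∀ a, netW t (wLayers m t (ρ.toEmbedding.trans y) c) (f ∘ ρ) a =
      netW t (wLayers m t y c) f (ρ a) := by
  sorry

/-- D3 (medium, bits). For layer j (0-based, j ≤ d) take c a := bit (d - j) of the initial position y a. Position at time j is p with bits: bit (i+j) of p = bit i of y a for i + j ≤ d.
Matched at layer j: positions at time j differ exactly in the top bit d, i.e. initial bit d-j differs. Matched at layer i < j: positions at time i differ only in the top bit, so initial bits < d-i agree, in particular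
bit d-j. -/
theorem D3_stars (d : ℕ) (y : Fin (2 ^ d) ↪ Fin (2 * 2 ^ d)) (c : Fin (d + 1) → Fin (2 ^ d) → Bool) :
    Stars (wLayers (2 ^ d) (d + 1) y c) := by
  sorry

/-- D4 (hard). (i) netW s L 1 z = ex_ξ ∏_{i<s} (3/4)^{[label q_i z is matched in layer i]}, q_i = netq of the first i layers (induction). (ii) For each ξ the involution c ↦ c' of D1 turns
E_{y,c} into the real run: matched ⟺ the partner position of the real position of label z at time i is occupied by a label. So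
E_e envG = ex_{y,c} Σ_z ∏_{i ≤ d} (3/4)^{[prt (K_i(c) (y z)) ∈ K_i(c) (range y)]}, K_i(c) = iterPerm i. (iii) For fixed c and y z = x0, let p_i = K_i(c)⁻¹ (prt (K_i(c) x0)), i ≤ d: initial position of the i-th partner. p_i differs from x0 in bit
d-i and agrees with x0 on the bits < d-i; so x0, p_0, ..., p_d are distinct. (iv) the positions of the labels other than z form a uniform (m-1)-subset of the complement of x0; so
E ∏_i (3/4)^{[p_i ∈ range y]} ≤ (1 - ¼ (m-1-D)/(2m))^D by revealing one p_i after another: Pr[p_i ∈ range | past] ≥ (m-1-i)/(2m-1-i) ≥ (m-1-D)/(2m). -/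
theorem D4_envG (d : ℕ) (hd : d + 2 ≤ 2 ^ d) :
    ex (fun e : Env d => envG d e) ≤
      2 ^ d * (1 - ((2 : ℝ) ^ d - 1 - (d + 1)) / (8 * 2 ^ d)) ^ (d + 1) := by
  sorry

/-- D5 (medium-hard; uses D1, EP_add). Block = T randomizer steps then a window of d+1 steps. For ρ a signed measure on Sym(A) with e ∈ Perm: Λ_r(F;e,ρ) := Σ_w ρ(w) E[F(G_r) | G_0 = e * extP w]. By D1,
Λ_{r+1}(F;e,ρ) = E_{R,c} Λ_r(F; K(c) R e, envLaw((R e)∘lab, c) * ρ). So |Λ_r(F;e,ρ)| ≤ real_r(e,ρ) for |F| ≤ 1, real_0 = ‖ρ‖₁, real_{r+1}(e,ρ) = E_{R,c} real_r(K(c)Re, conv (envLaw (..)) ρ).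
Claim real_r(e,ρ) ≤ idl r ρ + r P ‖ρ‖₁ by induction on r (idl r ρ ≤ ‖ρ‖₁; y = (Re)∘lab has law P-close to uniform by hPM; the function of (y,c) being averaged is in [0,‖ρ‖₁]).
With ρ = rho0: ‖law(G_r) - law(G_r u)‖₁ ≤ idl r rho0 + 2 r P, u uniform in Sym(A). Apply the last randomizer R (contraction), and
‖law(R g u) - uniform‖₁ ≤ P for every g: law(R g u)(h) = (1/m!) Pr[R g = h on the non-label cards], use hPM for the m cards ≥ m (embedding x ↦ g (x + m)). -/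
theorem D5_hybrid (d T r : ℕ) (P : ℝ)
    (hPM : ∀ x : Fin (2 ^ d) ↪ Fin (2 * 2 ^ d), ∑ y : Fin (2 ^ d) ↪ Fin (2 * 2 ^ d),
      |EP (2 ^ d) T (fun g => if (∀ i, g (x i) = y i) then 1 else 0)
        - 1 / (Fintype.card (Fin (2 ^ d) ↪ Fin (2 * 2 ^ d)) : ℝ)| ≤ P) :
    ∑ h : Perm (Fin (2 * 2 ^ d)),
      |EP (2 ^ d) ((r + 1) * T + r * (d + 1)) (fun g => if g = h then 1 else 0)
        - 1 / (((2 * 2 ^ d).factorial : ℕ) : ℝ)| ≤ idl d r (rho0 d) + (2 * r + 1) * P := by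
  sorry

/-- D6 (medium; uses D7_class-like invariance). Let Γ_r(u) := E over r good ideal windows of Pr[(q_r…q_1) u (q_r'…q_1')⁻¹ = 1]: Γ_0 = 1{u=1}, Γ_{r+1}(u) = E_e[1_good E_{ξ,ξ'} Γ_r(q u q'⁻¹)]. Γ_r is a class function (relabelling D2: replacing y by
ρ.toEmbedding.trans y conjugates q and keeps envG), so Γ_r(q u q'⁻¹) = Γ_r(u q'⁻¹ q) and Γ_{r+1}(u) = Σ_w aG(w) Γ_r(u w); hence Γ_r(1) = cpow aG r 1 and Σ_u Γ_r(u) = pG^r.
Q_r(ρ) := n! Σ_{v,v'} ρ(v) ρ(v') Γ_r(v v'⁻¹) satisfies Q_0(ρ) = n!‖ρ‖₂², Q_{r+1}(ρ) = E_e[1_good Q_r(conv (envLaw e) ρ)]. Induction (Cauchy-Schwarz/Jensen; ‖ρ‖₁ ≤ √(n!)‖ρ‖₂): idl r ρ ≤ r (1-pG) ‖ρ‖₁ + √(Q_r(ρ)).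
Q_r(rho0) = n! Γ_r(1) - pG^r; ‖rho0‖₁ ≤ 2. -/
theorem D6_l2 (d : ℕ) (Γ : ℝ) (r : ℕ) :
    idl d r (rho0 d) ≤ 2 * r * (1 - pG d Γ) +
      Real.sqrt (((2 ^ d).factorial : ℕ) * cpow (aG d Γ) r 1 - pG d Γ ^ r) := by
  sorry

/-- D7 : properties of `aG` (medium; D7_class uses D2, D7_fix uses B7 + D3 (+ fixN is a class function), D7_sgn: if all layers are unmatched then envG = 2^d > Γ; otherwise flipping one
private coin of a matched pair changes the sign of envq, so Σ_u envLaw e u sgn u = 0; D7_pG is Markov's inequality (envG ≥ 0)). -/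
theorem D7_nonneg (d : ℕ) (Γ : ℝ) (w : Perm (Fin (2 ^ d))) : 0 ≤ aG d Γ w := by
  sorry
theorem D7_class (d : ℕ) (Γ : ℝ) (g w : Perm (Fin (2 ^ d))) : aG d Γ (g * w * g⁻¹) = aG d Γ w := by
  sorry
theorem D7_inv (d : ℕ) (Γ : ℝ) (w : Perm (Fin (2 ^ d))) : aG d Γ w⁻¹ = aG d Γ w := by
  sorry
theorem D7_sum (d : ℕ) (Γ : ℝ) : ∑ w, aG d Γ w = pG d Γ := by
  sorry
theorem D7_sgn (d : ℕ) (Γ : ℝ) (hΓ : Γ < 2 ^ d) :
    ∑ w, aG d Γ w * ((Perm.sign w : ℤ) : ℝ) = 0 := by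
  sorry
theorem D7_fix (d : ℕ) (Γ : ℝ) (y : ℕ) :
    ∑ w, aG d Γ w * (fixN (y + 1) w : ℝ) ≤ Real.exp (y * Γ) := by
  sorry
theorem D7_pG (d : ℕ) (Γ : ℝ) (hΓ : 0 < Γ) : 1 - pG d Γ ≤ ex (fun e : Env d => envG d e) / Γ := by
  sorry

/-- D8 (medium, real analysis). Choices: y+1 = 2^((d+29)/30) (so (y+1)^30 ≥ 2^d, y ≤ 2·2^{d/30}), Γ = 2^{0.82 d}, F = ⌊2^{0.9 d}⌋, j0 = ⌊2^{0.87 d}⌋, η = 8·2^{-0.1 d} (any constant).
2nd: 2^d (7/8+o(1/d))^{d+1}/2^{0.82d} → 0 as 2^{0.18}·7/8 < 0.992. 3rd: (u+v)^60 ≤ 2^60 (u^60+v^60); (3√η)^{60k} = (9η)^{30k}, 2^{2dk}(9η)^{30k} = (C 2^{2d-3d})^k → geometric sum → 0;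
second part ≤ 2^{61}·2 j0·2^{4 d j0}·exp(60 yΓ)/2^{60 F} → 0 since yΓ ≤ 2·2^{0.8534 d}, j0 ≤ 2^{0.87d} ≪ F ~ 2^{0.9 d}. 4th: exp(60 y Γ)/2^{j0} → 0. -/
theorem D8_numeric : ∃ (Γ : ℕ → ℝ) (y F j0 : ℕ → ℕ) (η : ℕ → ℝ),
    (∀ᶠ d : ℕ in Filter.atTop, 0 < Γ d ∧ Γ d < 2 ^ d ∧ 2 ^ d ≤ (y d + 1) ^ 30 ∧ 1 ≤ y d ∧
      8 * j0 d + 8 ≤ 2 ^ d ∧ 0 < η d ∧ η d ≤ 1 ∧
      (F d + 2 * j0 d : ℝ) ≤ η d * ((2 : ℝ) ^ d - 2 * j0 d)) ∧
    Filter.Tendsto (fun d : ℕ => 2 ^ d * (1 - ((2 : ℝ) ^ d - 1 - (d + 1)) / (8 * 2 ^ d)) ^ (d + 1) / Γ d)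
      Filter.atTop (nhds 0) ∧
    Filter.Tendsto (fun d : ℕ => ∑ k ∈ Icc 1 (2 * j0 d), 2 * ((2 : ℝ) ^ d) ^ (2 * k) *
        ((3 * Real.sqrt (η d)) ^ k + Real.exp (y d * Γ d) / ((y d : ℝ) + 1) ^ (F d + 1)) ^ (2 * 30))
      Filter.atTop (nhds 0) ∧
    Filter.Tendsto (fun d : ℕ => (Real.exp (y d * Γ d) ^ 30) ^ 2 / 2 ^ (j0 d))
      Filter.atTop (nhds 0) := by
  sorry

/-- D8b (easy-medium): (8/7)^{2D}(7/8)^{24D} = (7/8)^{22D}, 2^{1.5} (7/8)^{11} < 0.66. -/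
theorem D8_pmB : Filter.Tendsto (fun d : ℕ => pmB d (24 * (d + 1))) Filter.atTop (nhds 0) := by
  sorry

/-- D9 (easy-medium; uses C2). w with at most F fixed points: C2. Others: hitW ≤ 1 (m! ≤ (n-k)_m as m ≤ k ≤ n-k) and (y+1)^{F+1} ≤ (y+1)^{#fixed points} ≤ fixN (y+1) w. -/
theorem D9_beta {A : Type*} [Fintype A] [DecidableEq A] (a : Perm A → ℝ) (ha : ∀ w, 0 ≤ a w)
    (hp : ∑ w, a w ≤ 1) (y F k : ℕ) (hy : 1 ≤ y) (B : ℝ)
    (hB : ∑ w, a w * (fixN (y + 1) w : ℝ) ≤ B) (hk : 2 * k ≤ Fintype.card A)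
    (η : ℝ) (h0 : 0 < η) (h1 : η ≤ 1) (hη : (F + k : ℝ) ≤ η * (Fintype.card A - k)) :
    ∑ w, a w * hitW k w ≤ (3 * Real.sqrt η) ^ k + B / ((y : ℝ) + 1) ^ (F + 1) := by
  sorry

/-- D10 (easy). -/
theorem D10_tv (m t : ℕ) : tvFromUniform m t =
    (1 / 2) * ∑ h : Perm (Fin (2 * m)),
      |EP m t (fun g => if g = h then 1 else 0) - 1 / (((2 * m).factorial : ℕ) : ℝ)| := by
  sorry

theorem D10_mono (m s t : ℕ) (h : s ≤ t) : tvFromUniform m t ≤ tvFromUniform m s := by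
  sorry

end Crest.Agent.S0222.BP
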