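import Crest.Agent.S0222_Basic

/-! C6 (helper44): extraction of a harmonic eigenfunction. -/

set_option autoImplicit false

namespace Crest.Agent.S0222

open Finset Equiv

section C6
variable {A : Type*} [Fintype A] [DecidableEq A]

omit [Fintype A] in
theorem C6_cyl_drop {k : ℕ} (x y : Fin (k + 1) → A) (i j : Fin (k + 1)) (hij : i ≠ j)
    (hx : x i = x j) (hy : y i = y j) :
    cyl x y = cyl (x ∘ i.succAbove) (y ∘ i.succAbove) := by
  funext g
  unfold cyl
  have hiff : (∀ l, g (x l) = y l) ↔
      ∀ l : Fin k, g ((x ∘ i.succAbove) l) = (y ∘ i.succAbove) l := by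
    constructor
    · intro h l
      exact h _
    · intro h l
      by_cases hl : l = i
      · subst hl
        obtain ⟨j', hj'⟩ := Fin.exists_succAbove_eq (Ne.symm hij)
        have := h j'
        simp only [Function.comp_apply, hj'] at this
        rw [hx, hy]
        exact this
      · obtain ⟨l', hl'⟩ := Fin.exists_succAbove_eq hl
        have := h l'
        simp only [Function.comp_apply, hl'] at this
        exact this
  by_cases h : ∀ l, g (x l) = y l
  · rw [if_pos h, if_pos (hiff.1 h)]
  · rw [if_neg h, if_neg (fun h' => h (hiff.2 h'))]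

theorem C6_sum_update {k : ℕ} (x z : Fin (k + 1) → A) (i : Fin (k + 1)) (g : Perm A) :
    ∑ b : A, cyl x (Function.update z i b) g =
      cyl (x ∘ i.succAbove) (z ∘ i.succAbove) g := by
  unfold cyl
  have h1 : ∀ b : A, (∀ l, g (x l) = Function.update z i b l) ↔
      (b = g (x i) ∧ ∀ l : Fin k, g ((x ∘ i.succAbove) l) = (z ∘ i.succAbove) l) := by
    intro b
    constructor
    · intro h
      refine ⟨?_, ?_⟩
      · have := h i
        rw [Function.update_self] at this
        exact this.symm
      · intro l
        have := h (i.succAbove l)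
        rw [Function.update_of_ne (Fin.succAbove_ne i l)] at this
        exact this
    · rintro ⟨h1, h2⟩ l
      by_cases hl : l = i
      · subst hl
        rw [Function.update_self, h1]
      · obtain ⟨l', hl'⟩ := Fin.exists_succAbove_eq hl
        have := h2 l'
        simp only [Function.comp_apply, hl'] at this
        rw [Function.update_of_ne hl]
        exact this
  by_cases h2 : ∀ l : Fin k, g ((x ∘ i.succAbove) l) = (z ∘ i.succAbove) l
  · rw [if_pos h2]
    rw [Finset.sum_eq_single (g (x i))]
    · rw [if_pos ((h1 _).2 ⟨rfl, h2⟩)]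
    · intro b _ hb
      rw [if_neg (fun h => hb ((h1 b).1 h).1)]
    · intro h
      exact absurd (Finset.mem_univ _) h
  · rw [if_neg h2]
    apply Finset.sum_eq_zero
    intro b _
    rw [if_neg (fun h => h2 ((h1 b).1 h).2)]

omit [Fintype A] in
/-- translating a cylinder -/
theorem cyl_translate {k : ℕ} (x z : Fin k → A) (w g : Perm A) :
    cyl x (fun i => w⁻¹ (z i)) g = cyl x z (w * g) := by
  unfold cyl
  have h1 : (∀ i, g (x i) = w⁻¹ (z i)) ↔ (∀ i, (w * g) (x i) = z i) := by
    constructor
    · intro h i
      rw [Perm.mul_apply, h i]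
      simp
    · intro h i
      have := h i
      rw [Perm.mul_apply] at this
      rw [← this]
      simp
  by_cases h : ∀ i, g (x i) = w⁻¹ (z i)
  · rw [if_pos h, if_pos (h1.1 h)]
  · rw [if_neg h, if_neg (fun h' => h (h1.2 h'))]

/-- C6 (medium). Some Σ_g f g cyl x y g ≠ 0 (f ∈ span, f ≠ 0). x is injective (otherwise cyl x y is 0 or a cylinder with k labels; hperp). φ z := Σ_g f g cyl x z g.
Harmonic: Σ_b φ(update z i b) = Σ_g f g 1{g x_j = z_j for j ≠ i} = 0 by hperp (drop label i: `Fin.succAbove`). Eigen: substitute g = w⁻¹ g'. -/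
theorem C6_extract {A : Type*} [Fintype A] [DecidableEq A] (k : ℕ) (a : Perm A → ℝ)
    (f : Perm A → ℝ) (l : ℝ) (hf : ∀ g, ∑ w, a w * f (w⁻¹ * g) = l * f g)
    (hne : f ≠ 0) (hW : f ∈ Submodule.span ℝ (Set.range
      (fun p : (Fin (k + 1) → A) × (Fin (k + 1) → A) => cyl p.1 p.2)))
    (hperp : ∀ x y : Fin k → A, ∑ g, f g * cyl x y g = 0) :
    ∃ φ : (Fin (k + 1) → A) → ℝ, φ ≠ 0 ∧ (∀ z, ¬ Function.Injective z → φ z = 0) ∧
      (∀ (z : Fin (k + 1) → A) (i : Fin (k + 1)), ∑ b : A, φ (Function.update z i b) = 0) ∧
      (∀ z, ∑ w, a w * φ (fun i => w⁻¹ (z i)) = l * φ z) := by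
  -- there is a cylinder not orthogonal to `f`
  have hex : ∃ x y : Fin (k + 1) → A, ∑ g, f g * cyl x y g ≠ 0 := by
    by_contra hcon
    push Not at hcon
    apply hne
    have hall : ∀ u ∈ Submodule.span ℝ (Set.range
        (fun p : (Fin (k + 1) → A) × (Fin (k + 1) → A) => cyl p.1 p.2)),
        ∑ g, f g * u g = 0 := by
      intro u hu
      induction hu using Submodule.span_induction with
      | mem u h =>
        obtain ⟨p, rfl⟩ := h
        exact hcon p.1 p.2
      | zero => simp
      | add u v _ _ hu hv =>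
        simp only [Pi.add_apply, mul_add, Finset.sum_add_distrib, hu, hv, add_zero]
      | smul c u _ hu =>
        simp only [Pi.smul_apply, smul_eq_mul]
        have : ∀ g, f g * (c * u g) = c * (f g * u g) := fun g => by ring
        simp only [this, ← Finset.mul_sum, hu, mul_zero]
    have h0 := hall f hW
    have h1 : ∀ g ∈ (Finset.univ : Finset (Perm A)), f g * f g = 0 :=
      (Finset.sum_eq_zero_iff_of_nonneg (fun g _ => mul_self_nonneg _)).1 h0
    funext g
    exact mul_self_eq_zero.1 (h1 g (Finset.mem_univ g))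
  obtain ⟨x, y, hxy⟩ := hex
  have hxinj : Function.Injective x := by
    intro i j hij
    by_contra hne'
    apply hxy
    by_cases hy : y i = y j
    · rw [C6_cyl_drop x y i j hne' hij hy]
      exact hperp _ _
    · apply Finset.sum_eq_zero
      intro g _
      unfold cyl
      rw [if_neg, mul_zero]
      intro h
      apply hy
      rw [← h i, ← h j, hij]
  refine ⟨fun z => ∑ g, f g * cyl x z g, ?_, ?_, ?_, ?_⟩
  · intro h
    exact hxy (congrFun h y)
  · intro z hz
    apply Finset.sum_eq_zero
    intro g _
    unfold cyl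
    rw [if_neg, mul_zero]
    intro h
    apply hz
    intro i j hij
    rw [← h i, ← h j] at hij
    exact hxinj (g.injective hij)
  · intro z i
    show ∑ b : A, ∑ g, f g * cyl x (Function.update z i b) g = 0
    rw [Finset.sum_comm]
    simp only [← Finset.mul_sum, C6_sum_update]
    exact hperp _ _
  · intro z
    show ∑ w, a w * ∑ g, f g * cyl x (fun i => w⁻¹ (z i)) g = l * ∑ g, f g * cyl x z g
    have h1 : ∀ w : Perm A, ∑ g, f g * cyl x (fun i => w⁻¹ (z i)) g =
        ∑ g, f (w⁻¹ * g) * cyl x z g := by
      intro w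
      rw [← Equiv.sum_comp (Equiv.mulLeft w) (fun g => f (w⁻¹ * g) * cyl x z g)]
      apply Finset.sum_congr rfl
      intro g _
      rw [cyl_translate]
      simp
    simp only [h1, Finset.mul_sum]
    rw [Finset.sum_comm]
    apply Finset.sum_congr rfl
    intro g _
    rw [← mul_assoc, ← hf g, Finset.sum_mul]
    apply Finset.sum_congr rfl
    intro w _
    ring

end C6

end Crest.Agent.S0222
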