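import Crest.Agent.S0222_Basic

/-!
S0222-D6: second moment recursion.
-/

set_option autoImplicit false
set_option linter.unusedVariables false
set_option linter.unusedSectionVars false

namespace Crest.Agent.S0222

open Finset Equiv Crest.ProbabilityR.Shuffle

section D6gen
variable {G : Type*} [Group G] [Fintype G] [DecidableEq G]

theorem D6_cpow_class (a : G → ℝ) (ha : ∀ g w, a (g * w * g⁻¹) = a w) :
    ∀ (r : ℕ) (g w : G), cpow a r (g * w * g⁻¹) = cpow a r w
  | 0, g, w => by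
      simp only [cpow]
      have : g * w * g⁻¹ = 1 ↔ w = 1 := by
        constructor
        · intro h
          have : w = g⁻¹ * (g * w * g⁻¹) * g := by group
          rw [this, h]; group
        · rintro rfl; group
      simp only [this]
  | r + 1, g, w => by
      simp only [cpow, conv]
      rw [← Equiv.sum_comp (MulAut.conj g).toEquiv]
      refine Finset.sum_congr rfl fun u _ => ?_
      have e1 : (MulAut.conj g).toEquiv u = g * u * g⁻¹ := rfl
      rw [e1, ha]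
      congr 1
      rw [← D6_cpow_class a ha r g (u⁻¹ * w)]
      congr 1
      group

/-- quadratic form -/
noncomputable def D6Q (c : G → ℝ) (ρ : G → ℝ) : ℝ := ∑ v, ∑ v', ρ v * ρ v' * c (v' * v⁻¹)

/-- law of `q'⁻¹ q` -/
noncomputable def D6b (l : G → ℝ) : G → ℝ := fun w => ∑ u, l u * l (u * w)

theorem D6Q_conv (c : G → ℝ) (hc : ∀ g w, c (g * w * g⁻¹) = c w) (l ρ : G → ℝ) :
    D6Q c (conv l ρ) = D6Q (conv (D6b l) c) ρ := by
  -- LHS as a sum over q x q' x'
  have h1 : D6Q c (conv l ρ) =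
      ∑ x, ∑ x', ρ x * ρ x' * ∑ q', ∑ q, l q' * l q * c (q⁻¹ * q' * (x' * x⁻¹)) := by
    unfold D6Q conv
    calc ∑ v, ∑ v', (∑ u, l u * ρ (u⁻¹ * v)) * (∑ u, l u * ρ (u⁻¹ * v')) * c (v' * v⁻¹)
        = ∑ v, ∑ v', ∑ q, ∑ q', l q * ρ (q⁻¹ * v) * (l q' * ρ (q'⁻¹ * v')) * c (v' * v⁻¹) := by
          refine Finset.sum_congr rfl fun v _ => Finset.sum_congr rfl fun v' _ => ?_
          rw [Finset.sum_mul_sum, Finset.sum_mul]
          refine Finset.sum_congr rfl fun q _ => ?_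
          rw [Finset.sum_mul]
      _ = ∑ q, ∑ v, ∑ q', ∑ v', l q * ρ (q⁻¹ * v) * (l q' * ρ (q'⁻¹ * v')) * c (v' * v⁻¹) := by
          rw [Finset.sum_comm' (s := univ) (t := fun _ => univ) (s' := fun _ => univ)
            (t' := univ) (by simp)]
          rw [Finset.sum_comm]
          have : ∀ v : G, ∑ v', ∑ q, ∑ q', l q * ρ (q⁻¹ * v) * (l q' * ρ (q'⁻¹ * v')) *
              c (v' * v⁻¹) = ∑ q, ∑ q', ∑ v', l q * ρ (q⁻¹ * v) * (l q' * ρ (q'⁻¹ * v')) *
              c (v' * v⁻¹) := by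
            intro v
            rw [Finset.sum_comm]
            refine Finset.sum_congr rfl fun q _ => ?_
            rw [Finset.sum_comm]
          rw [Finset.sum_congr rfl (fun v _ => this v)]
          rw [Finset.sum_comm]
      _ = ∑ q, ∑ x, ∑ q', ∑ x', l q * ρ x * (l q' * ρ x') * c (q⁻¹ * q' * (x' * x⁻¹)) := by
          refine Finset.sum_congr rfl fun q _ => ?_
          rw [← Equiv.sum_comp (Equiv.mulLeft q)]
          refine Finset.sum_congr rfl fun x _ => Finset.sum_congr rfl fun q' _ => ?_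
          rw [← Equiv.sum_comp (Equiv.mulLeft q')]
          refine Finset.sum_congr rfl fun x' _ => ?_
          simp only [Equiv.coe_mulLeft, inv_mul_cancel_left]
          congr 1
          rw [← hc q (q⁻¹ * q' * (x' * x⁻¹))]
          congr 1
          group
      _ = _ := by
          rw [Finset.sum_comm]
          refine Finset.sum_congr rfl fun x _ => ?_
          calc ∑ q, ∑ q', ∑ x', l q * ρ x * (l q' * ρ x') * c (q⁻¹ * q' * (x' * x⁻¹))
              = ∑ q, ∑ x', ∑ q', l q * ρ x * (l q' * ρ x') * c (q⁻¹ * q' * (x' * x⁻¹)) := by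
                refine Finset.sum_congr rfl fun q _ => ?_
                rw [Finset.sum_comm]
            _ = ∑ x', ∑ q, ∑ q', l q * ρ x * (l q' * ρ x') * c (q⁻¹ * q' * (x' * x⁻¹)) := by
                rw [Finset.sum_comm]
            _ = _ := by
                refine Finset.sum_congr rfl fun x' _ => ?_
                rw [Finset.sum_comm, Finset.mul_sum]
                refine Finset.sum_congr rfl fun q' _ => ?_
                rw [Finset.mul_sum]
                refine Finset.sum_congr rfl fun q _ => ?_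
                ring
  rw [h1]
  unfold D6Q
  refine Finset.sum_congr rfl fun x _ => Finset.sum_congr rfl fun x' _ => ?_
  congr 1
  unfold conv D6b
  simp only [Finset.sum_mul]
  have hsw : ∑ w : G, ∑ u : G, l u * l (u * w) * c (w⁻¹ * (x' * x⁻¹)) =
      ∑ u : G, ∑ w : G, l u * l (u * w) * c (w⁻¹ * (x' * x⁻¹)) := Finset.sum_comm
  rw [hsw]
  refine Finset.sum_congr rfl fun q' _ => ?_
  rw [← Equiv.sum_comp (Equiv.mulLeft q')]
  refine Finset.sum_congr rfl fun w _ => ?_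
  simp only [Equiv.coe_mulLeft]
  have e1 : (q' * w)⁻¹ * q' * (x' * x⁻¹) = w⁻¹ * (x' * x⁻¹) := by group
  rw [e1]

theorem D6Q_ex {Ω : Type*} [Fintype Ω] (b : Ω → G → ℝ) (c ρ : G → ℝ) :
    ex (fun e => D6Q (conv (b e) c) ρ) = D6Q (conv (fun w => ex (fun e => b e w)) c) ρ := by
  unfold D6Q conv
  rw [ex_sum]
  refine Finset.sum_congr rfl fun v _ => ?_
  rw [ex_sum]
  refine Finset.sum_congr rfl fun v' _ => ?_
  rw [ex_const_mul]
  congr 1
  rw [ex_sum]
  refine Finset.sum_congr rfl fun u _ => ?_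
  rw [ex_mul_const]

theorem D6Q_zero (ρ : G → ℝ) : D6Q (fun w => if w = 1 then 1 else 0) ρ = ∑ v, ρ v ^ 2 := by
  unfold D6Q
  refine Finset.sum_congr rfl fun v _ => ?_
  have : ∀ v', ρ v * ρ v' * (if v' * v⁻¹ = 1 then (1 : ℝ) else 0) =
      if v' = v then ρ v ^ 2 else 0 := by
    intro v'
    by_cases h : v' = v
    · subst h; simp; ring
    · rw [if_neg h, if_neg]
      · simp
      · intro h'; exact h (mul_inv_eq_one.1 h')
  simp [this]

theorem D6_l1_le (ρ : G → ℝ) :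
    ∑ w, |ρ w| ≤ Real.sqrt ((Fintype.card G : ℝ) * ∑ v, ρ v ^ 2) := by
  apply Real.le_sqrt_of_sq_le
  have := Finset.sum_mul_sq_le_sq_mul_sq (univ : Finset G) (fun _ => (1 : ℝ)) (fun w => |ρ w|)
  simpa using this

theorem D6Q_rho (c : G → ℝ) (N : ℝ) (hN : N = (Fintype.card G : ℝ)) :
    N * D6Q c (fun w => (if w = 1 then 1 else 0) - 1 / N) = N * c 1 - ∑ w, c w := by
  have hN0 : N ≠ 0 := by
    rw [hN]; exact_mod_cast Fintype.card_ne_zero
  have e : ∀ v v' : G, ((if v = 1 then 1 else 0) - 1 / N) * ((if v' = 1 then 1 else 0) - 1 / N) *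
      c (v' * v⁻¹) = (if v = 1 then (if v' = 1 then c (v' * v⁻¹) else 0) else 0) -
        1 / N * (if v = 1 then c (v' * v⁻¹) else 0) - 1 / N * (if v' = 1 then c (v' * v⁻¹) else 0) +
        1 / N * (1 / N) * c (v' * v⁻¹) := by
    intro v v'
    split_ifs <;> ring
  unfold D6Q
  simp only [e, Finset.sum_add_distrib, Finset.sum_sub_distrib, ← Finset.mul_sum]
  have s1 : ∑ v : G, ∑ v' : G, (if v = 1 then (if v' = 1 then c (v' * v⁻¹) else 0) else 0) = c 1 := by
    have : ∀ v : G, ∑ v' : G, (if v = 1 then (if v' = 1 then c (v' * v⁻¹) else 0) else 0) =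
        if v = 1 then c 1 else 0 := by
      intro v
      by_cases h : v = 1
      · subst h; simp
      · simp [h]
    simp [this]
  have s2 : ∑ v : G, ∑ v' : G, (if v = 1 then c (v' * v⁻¹) else 0) = ∑ w, c w := by
    have : ∀ v : G, ∑ v' : G, (if v = 1 then c (v' * v⁻¹) else 0) =
        if v = 1 then ∑ w, c w else 0 := by
      intro v
      by_cases h : v = 1
      · subst h; simp
      · simp [h]
    simp [this]
  have s3 : ∑ v : G, ∑ v' : G, (if v' = 1 then c (v' * v⁻¹) else 0) = ∑ w, c w := by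
    have : ∀ v : G, ∑ v' : G, (if v' = 1 then c (v' * v⁻¹) else 0) = c v⁻¹ := by
      intro v
      simp
    simp only [this]
    exact Equiv.sum_comp (Equiv.inv G) c
  have s4 : ∑ v : G, ∑ v' : G, c (v' * v⁻¹) = N * ∑ w, c w := by
    have : ∀ v : G, ∑ v' : G, c (v' * v⁻¹) = ∑ w, c w := fun v =>
      Equiv.sum_comp (Equiv.mulRight v⁻¹) c
    simp only [this]
    rw [Finset.sum_const, Finset.card_univ, nsmul_eq_mul, hN]
  rw [s1, s2, s3, s4]
  field_simp
  ring

end D6gen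

theorem D6_law_nonneg (d : ℕ) (e : Env d) (w : Perm (Fin (2 ^ d))) : 0 ≤ envLaw d e w :=
  ex_nonneg fun ξ => by split_ifs <;> norm_num

theorem D6_law_sum (d : ℕ) (e : Env d) : ∑ w, envLaw d e w = 1 := by
  unfold envLaw
  rw [← ex_sum]
  have : ∀ ξ : Fin (d + 1) → Fin (2 ^ d) → Bool,
      ∑ w : Perm (Fin (2 ^ d)), (if envq d e ξ = w then (1 : ℝ) else 0) = 1 := by
    intro ξ; simp
  rw [ex_congr this, ex_const]

theorem D6_conv_l1 (d : ℕ) (e : Env d) (ρ : Perm (Fin (2 ^ d)) → ℝ) :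
    ∑ w, |conv (envLaw d e) ρ w| ≤ ∑ w, |ρ w| := by
  refine (conv_abs_le _ _).trans (le_of_eq ?_)
  have : ∑ w, |envLaw d e w| = 1 := by
    rw [← D6_law_sum d e]
    exact Finset.sum_congr rfl fun w _ => abs_of_nonneg (D6_law_nonneg d e w)
  rw [this, one_mul]

instance D6_env_nonempty (d : ℕ) : Nonempty (Env d) :=
  ⟨(⟨fun a => ⟨a.val, by omega⟩, fun a b h => by
    apply Fin.ext; exact congrArg (fun z : Fin (2 * 2 ^ d) => z.val) h⟩, fun _ _ => false)⟩

theorem D6_idl_le (d : ℕ) : ∀ (r : ℕ) (ρ : Perm (Fin (2 ^ d)) → ℝ), idl d r ρ ≤ ∑ w, |ρ w|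
  | 0, ρ => le_refl _
  | r + 1, ρ => by
      show ex (fun e : Env d => idl d r (conv (envLaw d e) ρ)) ≤ _
      exact ex_le_const fun e => (D6_idl_le d r _).trans (D6_conv_l1 d e ρ)

theorem D6_idl_nonneg (d : ℕ) : ∀ (r : ℕ) (ρ : Perm (Fin (2 ^ d)) → ℝ), 0 ≤ idl d r ρ
  | 0, ρ => Finset.sum_nonneg fun _ _ => abs_nonneg _
  | r + 1, ρ => ex_nonneg fun e => D6_idl_nonneg d r _

theorem D6_pG_nonneg (d : ℕ) (Γ : ℝ) : 0 ≤ pG d Γ :=
  ex_nonneg fun e => by split_ifs <;> norm_num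

theorem D6_pG_le (d : ℕ) (Γ : ℝ) : pG d Γ ≤ 1 :=
  ex_le_const fun e => by split_ifs <;> norm_num

/-- the quadratic form after `r` windows -/
noncomputable def D6R (d : ℕ) (Γ : ℝ) (r : ℕ) (ρ : Perm (Fin (2 ^ d)) → ℝ) : ℝ :=
  (((2 ^ d).factorial : ℕ) : ℝ) * D6Q (cpow (aG d Γ) r) ρ

theorem D6R_zero (d : ℕ) (Γ : ℝ) (ρ : Perm (Fin (2 ^ d)) → ℝ) :
    D6R d Γ 0 ρ = (((2 ^ d).factorial : ℕ) : ℝ) * ∑ v, ρ v ^ 2 := by
  unfold D6R
  rw [← D6Q_zero ρ]
  rfl

theorem D6R_succ (d : ℕ) (Γ : ℝ) (hcl : ∀ g w, aG d Γ (g * w * g⁻¹) = aG d Γ w) (r : ℕ)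
    (ρ : Perm (Fin (2 ^ d)) → ℝ) :
    D6R d Γ (r + 1) ρ =
      ex (fun e : Env d => if envG d e ≤ Γ then D6R d Γ r (conv (envLaw d e) ρ) else 0) := by
  have h1 : ∀ e : Env d, (if envG d e ≤ Γ then D6R d Γ r (conv (envLaw d e) ρ) else 0) =
      (((2 ^ d).factorial : ℕ) : ℝ) * D6Q (conv (fun w => if envG d e ≤ Γ then
        ∑ u, envLaw d e u * envLaw d e (u * w) else 0) (cpow (aG d Γ) r)) ρ := by
    intro e
    by_cases h : envG d e ≤ Γ
    · simp only [if_pos h]
      unfold D6R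
      rw [D6Q_conv _ (D6_cpow_class _ hcl r)]
      rfl
    · simp only [if_neg h]
      simp [D6Q, conv]
  rw [ex_congr h1, ex_const_mul, D6Q_ex]
  rfl

theorem D6R_nonneg (d : ℕ) (Γ : ℝ) (hcl : ∀ g w, aG d Γ (g * w * g⁻¹) = aG d Γ w) :
    ∀ (r : ℕ) (ρ : Perm (Fin (2 ^ d)) → ℝ), 0 ≤ D6R d Γ r ρ
  | 0, ρ => by
      rw [D6R_zero]
      exact mul_nonneg (Nat.cast_nonneg _) (Finset.sum_nonneg fun _ _ => sq_nonneg _)
  | r + 1, ρ => by
      rw [D6R_succ d Γ hcl]
      exact ex_nonneg fun e => by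
        split_ifs
        · exact D6R_nonneg d Γ hcl r _
        · exact le_refl _

theorem D6_rec (d : ℕ) (Γ : ℝ) (hcl : ∀ g w, aG d Γ (g * w * g⁻¹) = aG d Γ w) :
    ∀ (r : ℕ) (ρ : Perm (Fin (2 ^ d)) → ℝ),
      idl d r ρ ≤ r * (1 - pG d Γ) * ∑ w, |ρ w| + Real.sqrt (D6R d Γ r ρ)
  | 0, ρ => by
      rw [D6R_zero]
      simp only [Nat.cast_zero, zero_mul, zero_add]
      have := D6_l1_le ρ
      rwa [Fintype.card_perm, Fintype.card_fin] at this
  | r + 1, ρ => by
      have hp1 := D6_pG_le d Γ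
      have hL : 0 ≤ ∑ w, |ρ w| := Finset.sum_nonneg fun _ _ => abs_nonneg _
      show ex (fun e : Env d => idl d r (conv (envLaw d e) ρ)) ≤ _
      have hb : ∀ e : Env d, idl d r (conv (envLaw d e) ρ) ≤
          (r * (1 - pG d Γ) * ∑ w, |ρ w|) +
          (Real.sqrt (if envG d e ≤ Γ then D6R d Γ r (conv (envLaw d e) ρ) else 0) +
          (1 - (if envG d e ≤ Γ then (1 : ℝ) else 0)) * ∑ w, |ρ w|) := by
        intro e
        have hr0 : 0 ≤ (r : ℝ) * (1 - pG d Γ) :=
          mul_nonneg (Nat.cast_nonneg _) (by linarith)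
        by_cases h : envG d e ≤ Γ
        · simp only [if_pos h]
          have h1 := D6_rec d Γ hcl r (conv (envLaw d e) ρ)
          have h2 := mul_le_mul_of_nonneg_left (D6_conv_l1 d e ρ) hr0
          linarith
        · simp only [if_neg h, Real.sqrt_zero]
          have h1 := D6_idl_le d r (conv (envLaw d e) ρ)
          have h2 := D6_conv_l1 d e ρ
          have h3 := mul_nonneg hr0 hL
          linarith
      refine (ex_mono hb).trans ?_
      rw [ex_add, ex_const, ex_add, ex_mul_const, ex_sub, ex_const]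
      have hj := ex_sqrt_le (fun e : Env d =>
        if envG d e ≤ Γ then D6R d Γ r (conv (envLaw d e) ρ) else 0) (fun e => by
          show 0 ≤ if envG d e ≤ Γ then D6R d Γ r (conv (envLaw d e) ρ) else 0
          split_ifs
          · exact D6R_nonneg d Γ hcl r _
          · exact le_refl _)
      rw [← D6R_succ d Γ hcl] at hj
      have hpG : ex (fun e : Env d => if envG d e ≤ Γ then (1 : ℝ) else 0) = pG d Γ := rfl
      rw [hpG]
      push_cast
      linarith

theorem D6_rho_l1 (d : ℕ) : ∑ w, |rho0 d w| ≤ 2 := by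
  have hN : (0 : ℝ) < (((2 ^ d).factorial : ℕ) : ℝ) := by exact_mod_cast Nat.factorial_pos _
  have h1 : ∀ w : Perm (Fin (2 ^ d)), |rho0 d w| ≤
      (if w = 1 then 1 else 0) + 1 / (((2 ^ d).factorial : ℕ) : ℝ) := by
    intro w
    unfold rho0
    refine (abs_sub _ _).trans ?_
    have hN' : (0 : ℝ) ≤ 1 / (((2 ^ d).factorial : ℕ) : ℝ) := by positivity
    rw [abs_of_nonneg hN']
    split_ifs <;> simp
  refine (Finset.sum_le_sum fun w _ => h1 w).trans ?_
  rw [Finset.sum_add_distrib, Finset.sum_const, Finset.card_univ, Fintype.card_perm,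
    Fintype.card_fin, nsmul_eq_mul, mul_one_div_cancel hN.ne']
  simp
  norm_num

theorem D6_core (d : ℕ) (Γ : ℝ) (r : ℕ) (hcl : ∀ g w, aG d Γ (g * w * g⁻¹) = aG d Γ w)
    (hsum : ∑ w, aG d Γ w = pG d Γ) :
    idl d r (rho0 d) ≤ 2 * r * (1 - pG d Γ) +
      Real.sqrt (((2 ^ d).factorial : ℕ) * cpow (aG d Γ) r 1 - pG d Γ ^ r) := by
  have h := D6_rec d Γ hcl r (rho0 d)
  have hp1 := D6_pG_le d Γ
  have hr0 : 0 ≤ (r : ℝ) * (1 - pG d Γ) := mul_nonneg (Nat.cast_nonneg _) (by linarith)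
  have h2 := mul_le_mul_of_nonneg_left (D6_rho_l1 d) hr0
  have h3 : D6R d Γ r (rho0 d) =
      (((2 ^ d).factorial : ℕ) : ℝ) * cpow (aG d Γ) r 1 - pG d Γ ^ r := by
    unfold D6R rho0
    rw [D6Q_rho (cpow (aG d Γ) r) _ (by rw [Fintype.card_perm, Fintype.card_fin]), cpow_sum, hsum]
  rw [h3] at h
  linarith

end Crest.Agent.S0222
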