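import Mathlib
import Crest.Prelude.Def_Shuffle

/-!
Shared definitions for S0222 (Thorp shuffle mixing).  Everything is elementary: finite sums.
Owner: helper43.
-/

set_option autoImplicit false

namespace Crest.Agent.S0222

open Finset Crest.ProbabilityR.Shuffle

/-! ### Averages over finite types -/

/-- average of `f` over a finite type -/
noncomputable def ex {Ω : Type*} [Fintype Ω] (f : Ω → ℝ) : ℝ :=
  (∑ ω, f ω) / (Fintype.card Ω : ℝ)

/-! ### Convolution on a finite group -/

section conv
variable {G : Type*} [Group G] [Fintype G] [DecidableEq G]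

/-- `(f * g)(w) = ∑_u f(u) g(u⁻¹ w)` : law of the product `U * V`, `U ∼ f`, `V ∼ g`. -/
def conv (f g : G → ℝ) : G → ℝ := fun w => ∑ u, f u * g (u⁻¹ * w)

/-- `r`-fold convolution power -/
def cpow (a : G → ℝ) : ℕ → G → ℝ
  | 0 => fun w => if w = 1 then 1 else 0
  | r + 1 => conv a (cpow a r)

end conv

/-! ### Colourings fixed by a permutation -/

/-- number of colourings `κ : A → Fin x` with `κ ∘ w = κ`  (it equals `x ^ (number of cycles of w,
fixed points included)`). -/
def fixN {A : Type*} [Fintype A] [DecidableEq A] (x : ℕ) (w : Equiv.Perm A) : ℕ :=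
  (univ.filter (fun κ : A → Fin x => ∀ z, κ (w z) = κ z)).card

/-! ### Switching networks (module B) -/

/-- One layer of a switching network on `A` : a partial matching (involution `inv`, unmatched
elements are fixed), coins are indexed by `I` ; the pair `{a, inv a}` uses the coin `rep a`. -/
structure Layer (A I : Type*) where
  inv : A → A
  rep : A → I
  inv_inv : ∀ a, inv (inv a) = a
  rep_inv : ∀ a, rep (inv a) = rep a
  eq_or : ∀ a b, rep a = rep b → b = a ∨ b = inv a

/-- the permutation of a layer when the coins are `ξ` -/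
def Layer.h {A I : Type*} (L : Layer A I) (ξ : I → Bool) : Equiv.Perm A where
  toFun a := if ξ (L.rep a) then L.inv a else a
  invFun a := if ξ (L.rep a) then L.inv a else a
  left_inv a := by
    by_cases h : ξ (L.rep a) <;> simp [h, L.rep_inv, L.inv_inv]
  right_inv a := by
    by_cases h : ξ (L.rep a) <;> simp [h, L.rep_inv, L.inv_inv]

/-- the permutation produced by the first `s` layers ; row `0` is applied first -/
def netq {A I : Type*} : (s : ℕ) → (Fin s → Layer A I) → (Fin s → I → Bool) → Equiv.Perm A
  | 0, _, _ => 1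
  | s + 1, L, ξ => (L (Fin.last s)).h (ξ (Fin.last s)) *
      netq s (fun i => L i.castSucc) (fun i => ξ i.castSucc)

/-- `(L t)(a) = t a` if `a` is unmatched and `3/8 (t a + t (inv a))` if it is matched. -/
noncomputable def layerOp {A I : Type*} [DecidableEq A] (L : Layer A I) (t : A → ℝ) : A → ℝ :=
  fun a => if L.inv a = a then t a else (3 / 8) * (t a + t (L.inv a))

/-- `netW s L t = L_0 (L_1 ( ... (L_{s-1} t)))`. -/
noncomputable def netW {A I : Type*} [DecidableEq A] :
    (s : ℕ) → (Fin s → Layer A I) → (A → ℝ) → A → ℝ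
  | 0, _, t => t
  | s + 1, L, t => netW s (fun i => L i.castSucc) (layerOp (L (Fin.last s)) t)

/-- the condition (★): layer `s` has a two-colouring `c` that separates all its matched pairs and is
preserved by all previous layers. -/
def Stars {A I : Type*} {s : ℕ} (L : Fin s → Layer A I) : Prop :=
  ∀ j : Fin s, ∃ c : A → Bool, (∀ a, (L j).inv a ≠ a → c ((L j).inv a) ≠ c a) ∧
    ∀ i : Fin s, i < j → ∀ a, c ((L i).inv a) = c a

/-! ### The shuffle (modules A and D) -/

/-- the other position of the same switch -/
def prt (m : ℕ) (z : Fin (2 * m)) : Fin (2 * m) :=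
  if h : z.val < m then ⟨z.val + m, by omega⟩ else ⟨z.val - m, by omega⟩

/-- index of the switch of a position -/
def sw (m : ℕ) (z : Fin (2 * m)) : Fin m :=
  ⟨z.val % m, Nat.mod_lt _ (by have := z.isLt; omega)⟩

/-- inverse of `stepPos` : position `2 u + b` comes from `u` if `b = c u`, from `u + m` otherwise -/
def stepInv (m : ℕ) (c : Fin m → Bool) (y : Fin (2 * m)) : Fin (2 * m) :=
  ⟨y.val / 2 + (if xor (decide (y.val % 2 = 1))
      (c ⟨y.val / 2, by have := y.isLt; omega⟩) then m else 0), by
    have := y.isLt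
    split <;> omega⟩

/-- one shuffle step, as a permutation of the positions -/
def stepPerm (m : ℕ) (c : Fin m → Bool) : Equiv.Perm (Fin (2 * m)) where
  toFun := stepPos m c
  invFun := stepInv m c
  left_inv x := by
    have hx := x.isLt
    have hm : 0 < m := by omega
    have h1 : x.val % m < m := Nat.mod_lt _ hm
    have hval : ∀ z : Fin (2 * m), (stepInv m c z).val = z.val / 2 +
      (if xor (decide (z.val % 2 = 1)) (c ⟨z.val / 2, by have := z.isLt; omega⟩) then m else 0) :=
      fun z => rfl
    have hval2 : (stepPos m c x).val = 2 * (x.val % m) +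
      (if xor (decide (m ≤ x.val)) (c ⟨x.val % m, h1⟩) then 1 else 0) := rfl
    have hdiv : (stepPos m c x).val / 2 = x.val % m := by
      rw [hval2]; split <;> omega
    apply Fin.ext
    rw [hval]
    have hfin : (⟨(stepPos m c x).val / 2, by have := (stepPos m c x).isLt; omega⟩ : Fin m) =
        ⟨x.val % m, h1⟩ := Fin.ext hdiv
    rw [hfin, hdiv]
    by_cases hxm : m ≤ x.val
    · have h2 : x.val % m = x.val - m := by
        rw [Nat.mod_eq_sub_mod hxm, Nat.mod_eq_of_lt (by omega)]
      rcases Bool.eq_false_or_eq_true (c ⟨x.val % m, h1⟩) with hc | hc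
      · have e2 : (stepPos m c x).val % 2 = 0 := by rw [hval2]; simp [hxm, hc]
        simp [hc, e2]; omega
      · have e2 : (stepPos m c x).val % 2 = 1 := by rw [hval2]; simp [hxm, hc]
        simp [hc, e2]; omega
    · have h2 : x.val % m = x.val := Nat.mod_eq_of_lt (by omega)
      rcases Bool.eq_false_or_eq_true (c ⟨x.val % m, h1⟩) with hc | hc
      · have e2 : (stepPos m c x).val % 2 = 1 := by rw [hval2]; simp [hxm, hc]
        simp [hc, e2]; omega
      · have e2 : (stepPos m c x).val % 2 = 0 := by rw [hval2]; simp [hxm, hc]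
        simp [hc, e2]; omega
  right_inv y := by
    have hy := y.isLt
    have hm : 0 < m := by omega
    have h1 : y.val / 2 < m := by omega
    have hval : (stepInv m c y).val = y.val / 2 +
      (if xor (decide (y.val % 2 = 1)) (c ⟨y.val / 2, h1⟩) then m else 0) := rfl
    have hmod : (stepInv m c y).val % m = y.val / 2 := by
      rw [hval]; split
      · simp [Nat.mod_eq_of_lt h1]
      · simp [Nat.mod_eq_of_lt h1]
    have hval2 : (stepPos m c (stepInv m c y)).val = 2 * ((stepInv m c y).val % m) +
      (if xor (decide (m ≤ (stepInv m c y).val))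
        (c ⟨(stepInv m c y).val % m, Nat.mod_lt _ hm⟩) then 1 else 0) := rfl
    apply Fin.ext
    have hfin : (⟨(stepInv m c y).val % m, Nat.mod_lt _ hm⟩ : Fin m) =
        ⟨y.val / 2, h1⟩ := Fin.ext hmod
    rw [hval2, hfin, hmod]
    rcases Bool.eq_false_or_eq_true (c ⟨y.val / 2, h1⟩) with hc | hc <;>
      by_cases h2 : y.val % 2 = 1
    · have : ¬ (m ≤ (stepInv m c y).val) := by rw [hval]; simp [hc, h2]; omega
      simp [hc, this]; omega
    · have : m ≤ (stepInv m c y).val := by rw [hval]; simp [hc, h2]
      simp [hc, this]; omega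
    · have : m ≤ (stepInv m c y).val := by rw [hval]; simp [hc, h2]
      simp [hc, this]; omega
    · have : ¬ (m ≤ (stepInv m c y).val) := by rw [hval]; simp [hc, h2]; omega
      simp [hc, this]; omega

/-- `t` steps, as a permutation of the positions -/
def iterPerm (m : ℕ) : (t : ℕ) → (Fin t → Fin m → Bool) → Equiv.Perm (Fin (2 * m))
  | 0, _ => 1
  | t + 1, cs => stepPerm m (cs (Fin.last t)) * iterPerm m t (fun i => cs i.castSucc)

theorem iterPerm_apply (m : ℕ) : ∀ (t : ℕ) (cs : Fin t → Fin m → Bool) (x : Fin (2 * m)),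
    iterPerm m t cs x = iterPos m t cs x
  | 0, _, _ => rfl
  | t + 1, cs, x => by
      simp only [iterPerm, iterPos, Equiv.Perm.mul_apply, iterPerm_apply m t]
      rfl

/-- expectation of `F` of the permutation after `t` steps -/
noncomputable def EP (m t : ℕ) (F : Equiv.Perm (Fin (2 * m)) → ℝ) : ℝ :=
  ex (fun cs : Fin t → Fin m → Bool => F (iterPerm m t cs))

/-! #### conditional law process (module A) -/

/-- average the unlabelled mass over the switches with two unlabelled positions; kill labelled -/
noncomputable def avgv (m : ℕ) (L : Finset (Fin (2 * m))) (r : Fin (2 * m) → ℝ) :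
    Fin (2 * m) → ℝ :=
  fun z => if z ∈ L then 0 else if prt m z ∈ L then r z else (r z + r (prt m z)) / 2

/-- state : the labelled positions and a (signed) mass on positions -/
abbrev St (m : ℕ) := Finset (Fin (2 * m)) × (Fin (2 * m) → ℝ)

/-- next state, when the coins of the step are `c` -/
noncomputable def nxt (m : ℕ) (c : Fin m → Bool) (S : St m) : St m :=
  (S.1.map (stepPerm m c).toEmbedding, fun y => avgv m S.1 S.2 ((stepPerm m c).symm y))

/-- expectation of `F` of the state after `T` steps from `S` (first step peeled first) -/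
noncomputable def EE (m : ℕ) : ℕ → (St m → ℝ) → St m → ℝ
  | 0, F, S => F S
  | T + 1, F, S => ex (fun c : Fin m → Bool => EE m T F (nxt m c S))

/-- state after the steps of a whole coin table (row `0` applied first) -/
noncomputable def stT (m : ℕ) : (T : ℕ) → (Fin T → Fin m → Bool) → St m → St m
  | 0, _, S => S
  | T + 1, cs, S => nxt m (cs (Fin.last T)) (stT m T (fun i => cs i.castSucc) S)

/-- admissible states : mass vanishes on the labelled positions and has total 0 -/
def Adm (m : ℕ) (S : St m) : Prop := (∀ z ∈ S.1, S.2 z = 0) ∧ ∑ z, S.2 z = 0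

/-- squared `ℓ²` norm of the mass -/
noncomputable def nrm (m : ℕ) (S : St m) : ℝ := ∑ z, S.2 z ^ 2

/-- squared mass facing a labelled position -/
noncomputable def sl (m : ℕ) (S : St m) : ℝ :=
  ∑ z, if prt m z ∈ S.1 then S.2 z ^ 2 else 0

/-- squared block masses, blocks = positions with given low `g` bits -/
noncomputable def psi (m g : ℕ) (S : St m) : ℝ :=
  ∑ β ∈ range (2 ^ g), (∑ z, if z.val % 2 ^ g = β then S.2 z else 0) ^ 2

/-! #### the private network of a window (module D) -/

/-- labels are `Fin m` ; `p a` is the position of label `a`.  Two labels are matched iff they sit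
at the two positions of the same switch. -/
noncomputable def posLayer (m : ℕ) (p : Fin m ↪ Fin (2 * m)) : Layer (Fin m) (Fin m) where
  inv a := if h : ∃ b, p b = prt m (p a) then h.choose else a
  rep a := sw m (p a)
  inv_inv a := by
    have hprt : ∀ z : Fin (2 * m), prt m (prt m z) = z := by
      intro z
      have hz := z.isLt
      apply Fin.ext
      unfold prt
      by_cases h : z.val < m
      · simp [h]
      · have h2 : z.val - m < m := by omega
        simp [h, h2]; omega
    by_cases h : ∃ b, p b = prt m (p a)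
    · have hs := h.choose_spec
      have h' : ∃ b, p b = prt m (p h.choose) := ⟨a, by rw [hs, hprt]⟩
      have hs' := h'.choose_spec
      simp only [h, dif_pos, h']
      apply p.injective
      rw [hs', hs, hprt]
    · simp [h]
  rep_inv a := by
    by_cases h : ∃ b, p b = prt m (p a)
    · have hs := h.choose_spec
      simp only [h, dif_pos]
      rw [hs]
      apply Fin.ext
      have hz := (p a).isLt
      unfold sw prt
      by_cases h1 : (p a).val < m
      · simp [h1]
      · have : (p a).val % m = (p a).val - m := by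
          rw [Nat.mod_eq_sub_mod (by omega), Nat.mod_eq_of_lt (by omega)]
        simp [h1, this, Nat.mod_eq_of_lt (show (p a).val - m < m by omega)]
    · simp [h]
  eq_or a b hab := by
    have h1 := (p a).isLt
    have h2 := (p b).isLt
    have hm : 0 < m := by omega
    have key : (p a).val % m = (p b).val % m := congrArg Fin.val hab
    have key2 : p b = p a ∨ p b = prt m (p a) := by
      by_cases ha : (p a).val < m
      · by_cases hb : (p b).val < m
        · left; apply Fin.ext
          rw [Nat.mod_eq_of_lt ha, Nat.mod_eq_of_lt hb] at key; exact key.symm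
        · right; apply Fin.ext
          rw [Nat.mod_eq_of_lt ha, Nat.mod_eq_sub_mod (by omega), Nat.mod_eq_of_lt (by omega)] at key
          simp [prt, ha]; omega
      · by_cases hb : (p b).val < m
        · right; apply Fin.ext
          rw [Nat.mod_eq_of_lt hb, Nat.mod_eq_sub_mod (by omega), Nat.mod_eq_of_lt (by omega)] at key
          simp [prt, ha]; omega
        · left; apply Fin.ext
          rw [Nat.mod_eq_sub_mod (a := (p a).val) (by omega),
            Nat.mod_eq_of_lt (a := (p a).val - m) (by omega),
            Nat.mod_eq_sub_mod (a := (p b).val) (by omega),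
            Nat.mod_eq_of_lt (a := (p b).val - m) (by omega)] at key
          omega
    rcases key2 with h | h
    · left; exact p.injective h
    · right
      have hex : ∃ b, p b = prt m (p a) := ⟨b, h⟩
      simp only [hex, dif_pos]
      apply p.injective
      rw [h, hex.choose_spec]

/-- layers of a window of `t` steps, public coins `c`, started with label `a` at position `y a` -/
noncomputable def wLayers (m t : ℕ) (y : Fin m ↪ Fin (2 * m)) (c : Fin t → Fin m → Bool) :
    Fin t → Layer (Fin m) (Fin m) :=
  fun s => posLayer m (y.trans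
    (iterPerm m s.val (fun i => c ⟨i.val, i.isLt.trans s.isLt⟩)).toEmbedding)

/-- the labels : card `a` (initially at position `a < m`) -/
def lab (m : ℕ) : Fin m ↪ Fin (2 * m) := ⟨fun a => ⟨a.val, by omega⟩, fun a b h => by
  apply Fin.ext; exact congrArg (fun z : Fin (2*m) => z.val) h⟩

/-- extension of a permutation of the labels to all cards -/
noncomputable def extP (m : ℕ) (q : Equiv.Perm (Fin m)) : Equiv.Perm (Fin (2 * m)) :=
  q.viaEmbedding (lab m)

/-! #### environments of a window -/

/-- ideal environment of a window : positions of the labels and public coins -/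
abbrev Env (d : ℕ) := (Fin (2 ^ d) ↪ Fin (2 * 2 ^ d)) × (Fin (d + 1) → Fin (2 ^ d) → Bool)

/-- the private permutation of a window -/
noncomputable def envq (d : ℕ) (e : Env d) (ξ : Fin (d + 1) → Fin (2 ^ d) → Bool) :
    Equiv.Perm (Fin (2 ^ d)) :=
  netq (d + 1) (wLayers (2 ^ d) (d + 1) e.1 e.2) ξ

/-- law of the private permutation in the environment `e` -/
noncomputable def envLaw (d : ℕ) (e : Env d) : Equiv.Perm (Fin (2 ^ d)) → ℝ :=
  fun w => ex (fun ξ : Fin (d + 1) → Fin (2 ^ d) → Bool => if envq d e ξ = w then 1 else 0)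

/-- `∑_z E_z[(3/4)^{number of matched steps}]` -/
noncomputable def envG (d : ℕ) (e : Env d) : ℝ :=
  ∑ z, netW (d + 1) (wLayers (2 ^ d) (d + 1) e.1 e.2) (fun _ => 1) z

/-- `ℓ¹` norm of the signed measure `ρ` after `r` ideal windows, averaged over environments -/
noncomputable def idl (d : ℕ) : ℕ → (Equiv.Perm (Fin (2 ^ d)) → ℝ) → ℝ
  | 0, ρ => ∑ w, |ρ w|
  | r + 1, ρ => ex (fun e : Env d => idl d r (conv (envLaw d e) ρ))

/-- `δ_1 - uniform` -/
noncomputable def rho0 (d : ℕ) : Equiv.Perm (Fin (2 ^ d)) → ℝ :=
  fun w => (if w = 1 then 1 else 0) - 1 / (((2 ^ d).factorial : ℕ) : ℝ)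

/-- the class function of module C : `a(w) = E_e[1_{G(e) ≤ Γ} Pr[q'⁻¹ q = w]]` -/
noncomputable def aG (d : ℕ) (Γ : ℝ) : Equiv.Perm (Fin (2 ^ d)) → ℝ :=
  fun w => ex (fun e : Env d => if envG d e ≤ Γ then
    ∑ u, envLaw d e u * envLaw d e (u * w) else 0)

/-- probability of a good environment -/
noncomputable def pG (d : ℕ) (Γ : ℝ) : ℝ :=
  ex (fun e : Env d => if envG d e ≤ Γ then (1 : ℝ) else 0)

/-- bound for partial mixing -/
noncomputable def pmB (d T : ℕ) : ℝ :=
  (2 : ℝ) ^ d * Real.sqrt (2 ^ (d + 1) *
    ((8 / 7 : ℝ) ^ (2 * (d + 1)) * (7 / 8) ^ T + 8 * (0.892 : ℝ) ^ (2 ^ d)))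

/-! #### module C definitions -/

/-- number of `i` such that `w (y i)` is not among the `y j` -/
def missC {A : Type*} [DecidableEq A] {k : ℕ} (w : Equiv.Perm A) (y : Fin k → A) : ℕ :=
  (univ.filter (fun i : Fin k => ∀ j, w (y i) ≠ y j)).card

/-- average over injective `y : Fin k → A` of `m! / (n-k)_m`, `m = missC w y` -/
noncomputable def hitW {A : Type*} [Fintype A] [DecidableEq A] (k : ℕ) (w : Equiv.Perm A) : ℝ :=
  (∑ y : Fin k → A, if Function.Injective y then
      ((missC w y).factorial : ℝ) / ((Fintype.card A - k).descFactorial (missC w y) : ℝ) else 0)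
    / ((Fintype.card A).descFactorial k : ℝ)

/-- cylinder functions -/
def cyl {A : Type*} [DecidableEq A] {k : ℕ} (x y : Fin k → A) : Equiv.Perm A → ℝ :=
  fun g => if ∀ i, g (x i) = y i then 1 else 0

/-! #### module B definitions. Colours are `Fin (y+1)`, colour `0` is special. -/

/-- weight of a colouring : product of `t z` over the `z` with nonzero colour -/
noncomputable def cw {A : Type*} [Fintype A] {y : ℕ} (t : A → ℝ) (κ : A → Fin (y + 1)) : ℝ :=
  ∏ z, if κ z = 0 then 1 else t z

/-- probability (two independent coin tables) that `κ ∘ q = κ' ∘ q'` -/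
noncomputable def Phi {A I : Type*} [Fintype A] [DecidableEq A] [Fintype I] [DecidableEq I]
    {y : ℕ} {s : ℕ} (L : Fin s → Layer A I) (κ κ' : A → Fin (y + 1)) : ℝ :=
  ex (fun ξ : Fin s → I → Bool => ex (fun ξ' : Fin s → I → Bool =>
    if (∀ z, κ (netq s L ξ z) = κ' (netq s L ξ' z)) then (1 : ℝ) else 0))

/-- weighted count of colourings invariant under `q q'⁻¹` -/
noncomputable def AA {A I : Type*} [Fintype A] [DecidableEq A] [Fintype I] [DecidableEq I]
    (y : ℕ) {s : ℕ} (L : Fin s → Layer A I) (t : A → ℝ) : ℝ :=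
  ∑ κ : A → Fin (y + 1), cw t κ * Phi L κ κ

/-- pair average -/
noncomputable def tbar {A I : Type*} (L : Layer A I) (t : A → ℝ) : A → ℝ :=
  fun a => (t a + t (L.inv a)) / 2

/-- pair average, halved on matched elements -/
noncomputable def tbar' {A I : Type*} [DecidableEq A] (L : Layer A I) (t : A → ℝ) : A → ℝ :=
  fun a => if L.inv a = a then t a else (t a + t (L.inv a)) / 4

/-- restriction of a colouring to a half -/
def rs {A : Type*} {y : ℕ} (c : A → Bool) (b : Bool) (κ : A → Fin (y + 1)) : A → Fin (y + 1) :=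
  fun z => if c z = b then κ z else 0

/-- number of labelled positions with low bit `b` -/
def lowC (m b : ℕ) (S : St m) : ℕ := (S.1.filter (fun z => z.val % 2 = b)).card


/-! force the generation of the equation lemmas in this module (avoids duplicates) -/
alias cpow_eqd := cpow.eq_def
alias cpow_eq1 := cpow.eq_1
alias cpow_eq2 := cpow.eq_2
alias netq_eqd := netq.eq_def
alias netq_eq1 := netq.eq_1
alias netq_eq2 := netq.eq_2
alias netW_eqd := netW.eq_def
alias netW_eq1 := netW.eq_1
alias netW_eq2 := netW.eq_2
alias iterPerm_eqd := iterPerm.eq_def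
alias iterPerm_eq1 := iterPerm.eq_1
alias iterPerm_eq2 := iterPerm.eq_2
alias EE_eqd := EE.eq_def
alias EE_eq1 := EE.eq_1
alias EE_eq2 := EE.eq_2
alias stT_eqd := stT.eq_def
alias stT_eq1 := stT.eq_1
alias stT_eq2 := stT.eq_2
alias idl_eqd := idl.eq_def
alias idl_eq1 := idl.eq_1
alias idl_eq2 := idl.eq_2
alias ex_eq1 := ex.eq_1
alias conv_eq1 := conv.eq_1
alias fixN_eq1 := fixN.eq_1
alias Layer_h_eq1 := Layer.h.eq_1
alias layerOp_eq1 := layerOp.eq_1
alias Stars_eq1 := Stars.eq_1
alias prt_eq1 := prt.eq_1
alias sw_eq1 := sw.eq_1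
alias stepInv_eq1 := stepInv.eq_1
alias stepPerm_eq1 := stepPerm.eq_1
alias EP_eq1 := EP.eq_1
alias avgv_eq1 := avgv.eq_1
alias nxt_eq1 := nxt.eq_1
alias Adm_eq1 := Adm.eq_1
alias nrm_eq1 := nrm.eq_1
alias sl_eq1 := sl.eq_1
alias psi_eq1 := psi.eq_1
alias posLayer_eq1 := posLayer.eq_1
alias wLayers_eq1 := wLayers.eq_1
alias lab_eq1 := lab.eq_1
alias extP_eq1 := extP.eq_1
alias envq_eq1 := envq.eq_1
alias envLaw_eq1 := envLaw.eq_1
alias envG_eq1 := envG.eq_1
alias rho0_eq1 := rho0.eq_1
alias aG_eq1 := aG.eq_1
alias pG_eq1 := pG.eq_1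
alias pmB_eq1 := pmB.eq_1
alias missC_eq1 := missC.eq_1
alias hitW_eq1 := hitW.eq_1
alias cyl_eq1 := cyl.eq_1
alias cw_eq1 := cw.eq_1
alias Phi_eq1 := Phi.eq_1
alias AA_eq1 := AA.eq_1
alias tbar_eq1 := tbar.eq_1
alias tbar'_eq1 := tbar'.eq_1
alias rs_eq1 := rs.eq_1
alias lowC_eq1 := lowC.eq_1

end Crest.Agent.S0222
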