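import Crest.Statements.S0223
import Crest.Agent.S0222_D10

set_option autoImplicit false
open Crest Crest.ProbabilityR

namespace Crest.Agent.S0223

open Finset Equiv Crest.Agent.S0222 in
theorem lower (m t : ℕ) :
    1 - (2 : ℝ) ^ (m * t) / (((2 * m).factorial : ℕ) : ℝ)
      ≤ Crest.ProbabilityR.Shuffle.tvFromUniform m t := by
  classical
  rw [D10_tv]
  set N : ℝ := (((2 * m).factorial : ℕ) : ℝ) with hN
  have hNpos : 0 < N := by rw [hN]; exact_mod_cast Nat.factorial_pos _
  let p : Perm (Fin (2 * m)) → ℝ := fun h => EP m t (fun g => if g = h then 1 else 0)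
  let S : Finset (Perm (Fin (2 * m))) := univ.image (iterPerm m t)
  have hS : (S.card : ℝ) ≤ 2 ^ (m * t) := by
    have h1 : S.card ≤ Fintype.card (Fin t → Fin m → Bool) := Finset.card_image_le
    have h2 : Fintype.card (Fin t → Fin m → Bool) = 2 ^ (m * t) := by
      simp [pow_mul]
    exact_mod_cast h1.trans h2.le
  have hsum : ∑ h, p h = 1 := by
    have := EP_eq_sum m t (fun _ => 1)
    simp only [mul_one] at this
    rw [← this, EP_const]
  have hzero : ∀ h, h ∉ S → p h = 0 := by
    intro h hh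
    show EP m t (fun g => if g = h then 1 else 0) = 0
    unfold EP
    have : ∀ cs : Fin t → Fin m → Bool, (if iterPerm m t cs = h then (1 : ℝ) else 0) = 0 := by
      intro cs
      have : iterPerm m t cs ≠ h := by
        rintro rfl; exact hh (Finset.mem_image_of_mem _ (Finset.mem_univ _))
      simp [this]
    rw [ex_congr this]; exact ex_zero
  have hcard : (Fintype.card (Perm (Fin (2 * m))) : ℝ) = N := by
    rw [Fintype.card_perm, Fintype.card_fin]
  have hsumS : ∑ h ∈ S, p h = 1 := by
    rw [← hsum]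
    exact Finset.sum_subset (Finset.subset_univ _) (fun h _ hh => hzero h hh)
  have hsplit : ∑ h, |p h - 1 / N| = ∑ h ∈ S, |p h - 1 / N| + ∑ h ∈ Sᶜ, |p h - 1 / N| :=
    (Finset.sum_add_sum_compl S _).symm
  have h1 : 1 - S.card / N ≤ ∑ h ∈ S, |p h - 1 / N| := by
    calc 1 - S.card / N = ∑ h ∈ S, (p h - 1 / N) := by
          rw [Finset.sum_sub_distrib, hsumS, Finset.sum_const, nsmul_eq_mul, mul_one_div]
      _ ≤ ∑ h ∈ S, |p h - 1 / N| := Finset.sum_le_sum fun _ _ => le_abs_self _
  have h2 : ∑ h ∈ Sᶜ, |p h - 1 / N| = 1 - S.card / N := by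
    have : ∀ h ∈ Sᶜ, |p h - 1 / N| = 1 / N := by
      intro h hh
      rw [hzero h (Finset.mem_compl.1 hh), zero_sub, abs_neg, abs_of_nonneg (by positivity)]
    rw [Finset.sum_congr rfl this, Finset.sum_const, nsmul_eq_mul, Finset.card_compl,
      Nat.cast_sub (Finset.card_le_univ _), hcard, mul_one_div, sub_div, div_self hNpos.ne']
  have h3 : (S.card : ℝ) / N ≤ 2 ^ (m * t) / N := div_le_div_of_nonneg_right hS hNpos.le
  have h4 : ∑ h, |p h - 1 / N| ≥ 2 * (1 - S.card / N) := by rw [hsplit, h2]; linarith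
  show 1 - (2 : ℝ) ^ (m * t) / N ≤ (1 / 2) * ∑ h, |p h - 1 / N|
  linarith

/-- For a deck of `2 * 2 ^ d` cards and every number `t` of shuffles, the total variation distance between the law of the arrangement of the deck and the uniform law on all arrangements is at least `1 - 2 ^ (2 ^ d * t) / (2 * 2 ^ d)!`. -/
theorem result (d t : ℕ) :
    1 - (2 : ℝ) ^ (2 ^ d * t) / ((2 * 2 ^ d).factorial : ℝ)
      ≤ Crest.ProbabilityR.Shuffle.tvFromUniform (2 ^ d) t :=
  lower (2 ^ d) t

end Crest.Agent.S0223
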