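import Crest.Agent.SRF_Defs
import Crest.Prelude.Def_Labels
import Crest.Prelude.Def_GraphTables

/-!
Task SRF-T8a (row S0254): i.i.d. uniform labels on the vertices of a locally finite graph on `ℕ`
are turned, measurably and equivariantly, into i.i.d. uniform labels on its edges.
-/

set_option autoImplicit false

namespace Crest.Agent.SRF

open MeasureTheory Filter Topology

namespace EdgeLab

local notation "I" => unitInterval

/-- a measurable map from `[0,1]` onto i.i.d. sequences -/
theorem exists_theta : ∃ f : I → (ℕ → I), Measurable f ∧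
    (volume : Measure I).map f = Measure.infinitePi (fun _ : ℕ => (volume : Measure I)) :=
  Measure.exists_measurable_map_eq _

noncomputable def theta : I → (ℕ → I) := exists_theta.choose

theorem measurable_theta : Measurable theta := exists_theta.choose_spec.1

theorem map_theta : (volume : Measure I).map theta =
    Measure.infinitePi (fun _ : ℕ => (volume : Measure I)) := exists_theta.choose_spec.2

/-- the order labels -/
noncomputable def aOf (x : ℕ → I) : ℕ → I := fun v => theta (x v) 0

/-- the reservoir of labels of each vertex -/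
noncomputable def bOf (x : ℕ → I) : ℕ × ℕ × ℕ → I := fun i => theta (x i.1) (Nat.pair i.2.1 i.2.2 + 1)

theorem measurable_aOf : Measurable aOf := by
  refine measurable_pi_iff.2 fun v => ?_
  exact (measurable_pi_apply 0).comp (measurable_theta.comp (measurable_pi_apply v))

theorem measurable_bOf : Measurable bOf := by
  refine measurable_pi_iff.2 fun v => ?_
  exact (measurable_pi_apply _).comp (measurable_theta.comp (measurable_pi_apply v.1))

theorem aOf_comp (x : ℕ → I) (σ : ℕ → ℕ) (v : ℕ) : aOf (x ∘ σ) v = aOf x (σ v) := rfl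

theorem bOf_comp (x : ℕ → I) (σ : ℕ → ℕ) (v : ℕ) (i : ℕ × ℕ) :
    bOf (x ∘ σ) (v, i) = bOf x (σ v, i) := rfl

open Classical in
/-- rank of `v` among the neighbours of `u` -/
noncomputable def cnt (G : SimpleGraph ℕ) (a : ℕ → I) (u v : ℕ) : ℕ :=
  ⌊(∑' w, if G.Adj u w ∧ a w < a v then (1 : ENNReal) else 0).toReal⌋₊

open Classical in
theorem cnt_eq_ncard (G : SimpleGraph ℕ) (a : ℕ → I) (u v : ℕ) (hu : (G.neighborSet u).Finite) :
    cnt G a u v = Set.ncard {w | G.Adj u w ∧ a w < a v} := by
  have hfin : {w | G.Adj u w ∧ a w < a v}.Finite := hu.subset fun w hw => hw.1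
  unfold cnt
  have h1 : (∑' w, if G.Adj u w ∧ a w < a v then (1 : ENNReal) else 0) =
      ((Set.ncard {w | G.Adj u w ∧ a w < a v} : ℕ) : ENNReal) := by
    rw [tsum_eq_sum (s := hfin.toFinset)]
    · rw [Finset.sum_congr rfl (g := fun _ => (1 : ENNReal))]
      · rw [Finset.sum_const, Set.ncard_eq_toFinset_card _ hfin]
        simp
      · intro w hw
        have : G.Adj u w ∧ a w < a v := by simpa using hw
        simp [this]
    · intro w hw
      have : ¬ (G.Adj u w ∧ a w < a v) := by simpa using hw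
      simp only [this, if_false]
  rw [h1]
  simp

theorem cnt_injOn (G : SimpleGraph ℕ) (a : ℕ → I) (u : ℕ) (hu : (G.neighborSet u).Finite)
    (ha : Function.Injective a) : Set.InjOn (cnt G a u) (G.neighborSet u) := by
  have key : ∀ v ∈ G.neighborSet u, ∀ v' ∈ G.neighborSet u, a v < a v' → cnt G a u v < cnt G a u v' := by
    intro v hv v' hv' h
    rw [cnt_eq_ncard G a u v hu, cnt_eq_ncard G a u v' hu]
    apply Set.ncard_lt_ncard
    · refine ⟨fun w hw => ⟨hw.1, hw.2.trans h⟩, fun hsub => ?_⟩
      have : v ∈ {w | G.Adj u w ∧ a w < a v} := hsub ⟨hv, h⟩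
      exact lt_irrefl _ this.2
    · exact hu.subset fun w hw => hw.1
  intro v hv v' hv' h
  rcases lt_trichotomy (a v) (a v') with h1 | h1 | h1
  · exact absurd h (key v hv v' hv' h1).ne
  · exact ha h1
  · exact absurd h (key v' hv' v hv h1).ne'

theorem cnt_comap (G : SimpleGraph ℕ) (σ : Equiv.Perm ℕ) (a : ℕ → I) (u v : ℕ) :
    cnt (G.comap ⇑σ) (fun w => a (σ w)) u v = cnt G a (σ u) (σ v) := by
  classical
  unfold cnt
  congr 2
  rw [← Equiv.tsum_eq σ (fun w => if G.Adj (σ u) w ∧ a w < a (σ v) then (1 : ENNReal) else 0)]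
  refine tsum_congr fun w => ?_
  simp [SimpleGraph.comap_adj]

open Classical in
/-- the label of the pair `{u,v}`: read off the reservoir of its lower endpoint -/
noncomputable def rd (G : SimpleGraph ℕ) (a : ℕ → I) (b : ℕ × ℕ × ℕ → I) (k u v : ℕ) : I :=
  if a u < a v then b (u, cnt G a u v, k) else if a v < a u then b (v, cnt G a v u, k) else 0

theorem rd_symm (G : SimpleGraph ℕ) (a : ℕ → I) (b : ℕ × ℕ × ℕ → I) (k u v : ℕ) :
    rd G a b k u v = rd G a b k v u := by
  unfold rd
  rcases lt_trichotomy (a u) (a v) with h | h | h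
  · simp [h, h.not_gt]
  · simp [h]
  · simp [h, h.not_gt]

/-- edge label from order labels and reservoirs -/
noncomputable def eL (G : SimpleGraph ℕ) (a : ℕ → I) (b : ℕ × ℕ × ℕ → I) (i : Sym2 ℕ × ℕ) : I :=
  Sym2.lift ⟨rd G a b i.2, rd_symm G a b i.2⟩ i.1

theorem eL_mk (G : SimpleGraph ℕ) (a : ℕ → I) (b : ℕ × ℕ × ℕ → I) (u v k : ℕ) :
    eL G a b (s(u, v), k) = rd G a b k u v := rfl

end EdgeLab

open EdgeLab

/-- i.i.d. edge labels from i.i.d. vertex labels -/
noncomputable def edgeLab (G : SimpleGraph ℕ) (x : ℕ → unitInterval) : Sym2 ℕ × ℕ → unitInterval :=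
  eL G (aOf x) (bOf x)

theorem measurable_edgeLab :
    Measurable fun p : (ℕ → ℕ → Bool) × (ℕ → unitInterval) =>
      edgeLab (Crest.ProbabilityR.GraphTables.graphOfTable p.1) p.2 := by
  classical
  have hadj : ∀ u w : ℕ, MeasurableSet {p : (ℕ → ℕ → Bool) × (ℕ → unitInterval) |
      (Crest.ProbabilityR.GraphTables.graphOfTable p.1).Adj u w} := by
    intro u w
    have : {p : (ℕ → ℕ → Bool) × (ℕ → unitInterval) |
      (Crest.ProbabilityR.GraphTables.graphOfTable p.1).Adj u w} =
      {p | u ≠ w ∧ (p.1 u w = true ∨ p.1 w u = true)} := by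
      ext p
      simp [Crest.ProbabilityR.GraphTables.graphOfTable, SimpleGraph.fromRel_adj]
    rw [this]
    have h1 : ∀ u w : ℕ, MeasurableSet {p : (ℕ → ℕ → Bool) × (ℕ → unitInterval) | p.1 u w = true} := by
      intro u w
      have hm : Measurable fun p : (ℕ → ℕ → Bool) × (ℕ → unitInterval) => p.1 u w :=
        (measurable_pi_apply w).comp ((measurable_pi_apply u).comp measurable_fst)
      exact hm (measurableSet_singleton true)
    by_cases h : u = w
    · simp [h]
    · have : {p : (ℕ → ℕ → Bool) × (ℕ → unitInterval) | u ≠ w ∧ (p.1 u w = true ∨ p.1 w u = true)} =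
        {p | p.1 u w = true} ∪ {p | p.1 w u = true} := by
        ext p; simp [h]
      rw [this]
      exact (h1 u w).union (h1 w u)
  have ha : ∀ v : ℕ, Measurable fun p : (ℕ → ℕ → Bool) × (ℕ → unitInterval) => aOf p.2 v :=
    fun v => (measurable_pi_apply v).comp (measurable_aOf.comp measurable_snd)
  have hlt : ∀ u v : ℕ, MeasurableSet {p : (ℕ → ℕ → Bool) × (ℕ → unitInterval) | aOf p.2 u < aOf p.2 v} :=
    fun u v => measurableSet_lt (ha u) (ha v)
  have hcnt : ∀ u v : ℕ, Measurable fun p : (ℕ → ℕ → Bool) × (ℕ → unitInterval) =>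
      cnt (Crest.ProbabilityR.GraphTables.graphOfTable p.1) (aOf p.2) u v := by
    intro u v
    unfold cnt
    refine Nat.measurable_floor.comp (ENNReal.measurable_toReal.comp ?_)
    refine Measurable.tsum fun w => ?_
    exact Measurable.ite ((hadj u w).inter (hlt w v)) measurable_const measurable_const
  have hb : ∀ u v k : ℕ, Measurable fun p : (ℕ → ℕ → Bool) × (ℕ → unitInterval) =>
      bOf p.2 (u, cnt (Crest.ProbabilityR.GraphTables.graphOfTable p.1) (aOf p.2) u v, k) := by
    intro u v k
    have h1 : Measurable fun q : ℕ × ((ℕ → ℕ → Bool) × (ℕ → unitInterval)) => bOf q.2.2 (u, q.1, k) := by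
      refine measurable_from_prod_countable_right fun n => ?_
      exact (measurable_pi_apply (u, n, k)).comp (measurable_bOf.comp measurable_snd)
    exact h1.comp ((hcnt u v).prodMk measurable_id)
  refine measurable_pi_iff.2 fun i => ?_
  obtain ⟨e, k⟩ := i
  induction e using Sym2.ind with
  | _ u v =>
    simp only [edgeLab, eL_mk, rd]
    exact Measurable.ite (hlt u v) (hb u v k) (Measurable.ite (hlt v u) (hb v u k) measurable_const)

theorem edgeLab_comap (σ : Equiv.Perm ℕ) (G : SimpleGraph ℕ) (x : ℕ → unitInterval)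
    (e : Sym2 ℕ) (k : ℕ) :
    edgeLab (G.comap ⇑σ) (x ∘ ⇑σ) (e, k) = edgeLab G x (Sym2.map ⇑σ e, k) := by
  induction e using Sym2.ind with
  | _ u v =>
    have h : ∀ u v, cnt (G.comap ⇑σ) (aOf (x ∘ ⇑σ)) u v = cnt G (aOf x) (σ u) (σ v) :=
      fun u v => cnt_comap G σ (aOf x) u v
    simp only [edgeLab, Sym2.map_mk, eL_mk, rd, aOf_comp, bOf_comp, h]

namespace EdgeLab

/-- joint law of two families over a sum type -/
theorem prod_infinitePi_map_sumElim {ι₁ ι₂ : Type*} :
    ((Measure.infinitePi (fun _ : ι₁ => (volume : Measure unitInterval))).prod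
      (Measure.infinitePi (fun _ : ι₂ => (volume : Measure unitInterval)))).map
      (fun (q : (ι₁ → unitInterval) × (ι₂ → unitInterval)) (i : ι₁ ⊕ ι₂) => Sum.elim q.1 q.2 i) =
    Measure.infinitePi (fun _ : ι₁ ⊕ ι₂ => (volume : Measure unitInterval)) := by
  classical
  have hmeas : Measurable (fun (q : (ι₁ → unitInterval) × (ι₂ → unitInterval)) (i : ι₁ ⊕ ι₂) =>
      Sum.elim q.1 q.2 i) := by
    refine measurable_pi_iff.2 fun i => ?_
    cases i with
    | inl i => exact (measurable_pi_apply i).comp measurable_fst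
    | inr i => exact (measurable_pi_apply i).comp measurable_snd
  refine Measure.eq_infinitePi _ fun s t ht => ?_
  rw [Measure.map_apply hmeas (.pi s.countable_toSet fun _ _ => ht _)]
  have hpre : (fun (q : (ι₁ → unitInterval) × (ι₂ → unitInterval)) (i : ι₁ ⊕ ι₂) =>
      Sum.elim q.1 q.2 i) ⁻¹' ((s : Set (ι₁ ⊕ ι₂)).pi t) =
      ((s.toLeft : Set ι₁).pi fun i => t (Sum.inl i)) ×ˢ ((s.toRight : Set ι₂).pi fun i => t (Sum.inr i)) := by
    ext q
    simp only [Set.mem_preimage, Set.mem_pi, Set.mem_prod, Finset.mem_coe, Finset.mem_toLeft,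
      Finset.mem_toRight]
    constructor
    · intro h
      exact ⟨fun i hi => h (Sum.inl i) hi, fun i hi => h (Sum.inr i) hi⟩
    · rintro ⟨h1, h2⟩ (i | i) hi
      · exact h1 i hi
      · exact h2 i hi
  rw [hpre, Measure.prod_prod, Measure.infinitePi_pi _ (fun i _ => ht _),
    Measure.infinitePi_pi _ (fun i _ => ht _)]
  conv_rhs => rw [← Finset.toLeft_disjSum_toRight (u := s)]
  rw [Finset.prod_disjSum]

/-- law of all the uniforms extracted from the vertex labels -/
theorem map_aOf_bOf :
    (Crest.ProbabilityR.Labels.labelMeasure ℕ).map (fun x => (aOf x, bOf x)) =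
      (Measure.infinitePi (fun _ : ℕ => (volume : Measure unitInterval))).prod
        (Measure.infinitePi (fun _ : ℕ × ℕ × ℕ => (volume : Measure unitInterval))) := by
  -- the doubly indexed array
  have hY : (Crest.ProbabilityR.Labels.labelMeasure ℕ).map
      (fun (x : ℕ → unitInterval) (i : ℕ × ℕ) => theta (x i.1) i.2) =
      Measure.infinitePi (fun _ : ℕ × ℕ => (volume : Measure unitInterval)) := by
    have h1 : (Crest.ProbabilityR.Labels.labelMeasure ℕ).map
        (fun (x : ℕ → unitInterval) (v : ℕ) => theta (x v)) =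
        Measure.infinitePi (fun _ : ℕ => Measure.infinitePi (fun _ : ℕ => (volume : Measure unitInterval))) := by
      unfold Crest.ProbabilityR.Labels.labelMeasure
      rw [Measure.infinitePi_map_pi (μ := fun _ : ℕ => (volume : Measure unitInterval))
        (f := fun _ => theta) (fun _ => measurable_theta)]
      simp only [map_theta]
    have h2 : Measurable (fun (x : ℕ → unitInterval) (v : ℕ) => theta (x v)) :=
      measurable_pi_iff.2 fun v => measurable_theta.comp (measurable_pi_apply v)
    rw [← Measure.infinitePi_map_curry_symm (fun (_ _ : ℕ) => (volume : Measure unitInterval)), ← h1,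
      Measure.map_map (MeasurableEquiv.measurable _) h2]
    rfl
  -- injection of the sum type
  let f : ℕ ⊕ ℕ × ℕ × ℕ → ℕ × ℕ := fun i => match i with
    | Sum.inl v => (v, 0)
    | Sum.inr (v, r, k) => (v, Nat.pair r k + 1)
  have hf : Function.Injective f := by
    rintro (v | ⟨v, r, k⟩) (v' | ⟨v', r', k'⟩) h
    · simp only [f, Prod.mk.injEq] at h
      rw [h.1]
    · simp [f] at h
    · simp [f] at h
    · simp only [f, Prod.mk.injEq, Nat.add_right_cancel_iff, Nat.pair_eq_pair] at h
      obtain ⟨h1, h2, h3⟩ := h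
      rw [h1, h2, h3]
  have hS : (Crest.ProbabilityR.Labels.labelMeasure ℕ).map
      (fun (x : ℕ → unitInterval) (i : ℕ ⊕ ℕ × ℕ × ℕ) => theta (x (f i).1) (f i).2) =
      Measure.infinitePi (fun _ : ℕ ⊕ ℕ × ℕ × ℕ => (volume : Measure unitInterval)) := by
    rw [← Measure.map_infinitePi_infinitePi_of_inj (P := fun _ : ℕ × ℕ => (volume : Measure unitInterval)) hf,
      ← hY, Measure.map_map]
    · rfl
    · exact measurable_pi_iff.2 fun i => measurable_pi_apply _
    · refine measurable_pi_iff.2 fun i => ?_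
      exact (measurable_pi_apply i.2).comp (measurable_theta.comp (measurable_pi_apply i.1))
  -- split
  have hT := congrArg (fun μ : Measure (ℕ ⊕ ℕ × ℕ × ℕ → unitInterval) =>
    μ.map (fun z => ((fun v : ℕ => z (Sum.inl v)), (fun i : ℕ × ℕ × ℕ => z (Sum.inr i)))))
    (hS.trans (prod_infinitePi_map_sumElim (ι₁ := ℕ) (ι₂ := ℕ × ℕ × ℕ)).symm)
  have hm1 : Measurable (fun z : ℕ ⊕ ℕ × ℕ × ℕ → unitInterval =>
      ((fun v : ℕ => z (Sum.inl v)), (fun i : ℕ × ℕ × ℕ => z (Sum.inr i)))) :=
    (measurable_pi_iff.2 fun v => measurable_pi_apply _).prodMk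
      (measurable_pi_iff.2 fun v => measurable_pi_apply _)
  have hm2 : Measurable (fun (x : ℕ → unitInterval) (i : ℕ ⊕ ℕ × ℕ × ℕ) => theta (x (f i).1) (f i).2) :=
    measurable_pi_iff.2 fun i =>
      (measurable_pi_apply _).comp (measurable_theta.comp (measurable_pi_apply _))
  have hm3 : Measurable (fun (q : (ℕ → unitInterval) × (ℕ × ℕ × ℕ → unitInterval)) (i : ℕ ⊕ ℕ × ℕ × ℕ) =>
      Sum.elim q.1 q.2 i) := by
    refine measurable_pi_iff.2 fun i => ?_
    cases i with
    | inl i => exact (measurable_pi_apply i).comp measurable_fst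
    | inr i => exact (measurable_pi_apply i).comp measurable_snd
  rw [Measure.map_map hm1 hm2, Measure.map_map hm1 hm3] at hT
  have h4 : (fun z : ℕ ⊕ ℕ × ℕ × ℕ → unitInterval =>
      ((fun v : ℕ => z (Sum.inl v)), (fun i : ℕ × ℕ × ℕ => z (Sum.inr i)))) ∘
      (fun (q : (ℕ → unitInterval) × (ℕ × ℕ × ℕ → unitInterval)) (i : ℕ ⊕ ℕ × ℕ × ℕ) =>
      Sum.elim q.1 q.2 i) = id := by
    funext q
    rfl
  rw [h4, Measure.map_id] at hT
  exact hT

/-- almost surely the order labels are distinct -/
theorem ae_injective :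
    ∀ᵐ a ∂(Measure.infinitePi (fun _ : ℕ => (volume : Measure unitInterval))), Function.Injective a := by
  have h : ∀ v w : ℕ, v ≠ w →
      ∀ᵐ a ∂(Measure.infinitePi (fun _ : ℕ => (volume : Measure unitInterval))), a v ≠ a w := by
    intro v w hvw
    have h1 := Measure.infinitePi_map_eval_prod (P := fun _ : ℕ => (volume : Measure unitInterval)) hvw
    have h2 : ∀ᵐ q ∂((volume : Measure unitInterval).prod (volume : Measure unitInterval)), q.1 ≠ q.2 := by
      rw [ae_iff]
      have hms : MeasurableSet {q : unitInterval × unitInterval | ¬ q.1 ≠ q.2} := by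
        simp only [ne_eq, not_not]
        exact measurableSet_eq_fun measurable_fst measurable_snd
      rw [Measure.measure_prod_null hms]
      refine Filter.Eventually.of_forall fun z => ?_
      have : Prod.mk z ⁻¹' {q : unitInterval × unitInterval | ¬ q.1 ≠ q.2} = {z} := by
        ext y; simp [eq_comm]
      simp only [this]
      simp
    rw [← h1] at h2
    have hm : Measurable (fun a : ℕ → unitInterval => (a v, a w)) :=
      (measurable_pi_apply v).prodMk (measurable_pi_apply w)
    exact ae_of_ae_map hm.aemeasurable h2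
  have h' : ∀ᵐ a ∂(Measure.infinitePi (fun _ : ℕ => (volume : Measure unitInterval))),
      ∀ v w : ℕ, v ≠ w → a v ≠ a w := by
    rw [ae_all_iff]; intro v
    rw [ae_all_iff]; intro w
    by_cases hvw : v = w
    · exact Filter.Eventually.of_forall fun a h => absurd hvw h
    · filter_upwards [h v w hvw] with a ha _ using ha
  filter_upwards [h'] with a ha v w hvw
  by_contra hne
  exact ha v w hne hvw

end EdgeLab

theorem measurable_eL (G : SimpleGraph ℕ) :
    Measurable fun q : (ℕ → unitInterval) × (ℕ × ℕ × ℕ → unitInterval) => eL G q.1 q.2 := by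
  classical
  have ha : ∀ v : ℕ, Measurable fun q : (ℕ → unitInterval) × (ℕ × ℕ × ℕ → unitInterval) => q.1 v :=
    fun v => (measurable_pi_apply v).comp measurable_fst
  have hlt : ∀ u v : ℕ, MeasurableSet
      {q : (ℕ → unitInterval) × (ℕ × ℕ × ℕ → unitInterval) | q.1 u < q.1 v} :=
    fun u v => measurableSet_lt (ha u) (ha v)
  have hcnt : ∀ u v : ℕ, Measurable fun q : (ℕ → unitInterval) × (ℕ × ℕ × ℕ → unitInterval) =>
      cnt G q.1 u v := by
    intro u v
    unfold cnt
    refine Nat.measurable_floor.comp (ENNReal.measurable_toReal.comp ?_)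
    refine Measurable.tsum fun w => ?_
    by_cases h : G.Adj u w
    · simp only [h, true_and]
      exact Measurable.ite (hlt w v) measurable_const measurable_const
    · simp only [h, false_and, if_false]
      exact measurable_const
  have hb : ∀ u v k : ℕ, Measurable fun q : (ℕ → unitInterval) × (ℕ × ℕ × ℕ → unitInterval) =>
      q.2 (u, cnt G q.1 u v, k) := by
    intro u v k
    have h1 : Measurable fun q : ℕ × ((ℕ → unitInterval) × (ℕ × ℕ × ℕ → unitInterval)) =>
        q.2.2 (u, q.1, k) := by
      refine measurable_from_prod_countable_right fun n => ?_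
      exact (measurable_pi_apply (u, n, k)).comp measurable_snd
    exact h1.comp ((hcnt u v).prodMk measurable_id)
  refine measurable_pi_iff.2 fun i => ?_
  obtain ⟨e, k⟩ := i
  induction e using Sym2.ind with
  | _ u v =>
    simp only [eL_mk, rd]
    exact Measurable.ite (hlt u v) (hb u v k) (Measurable.ite (hlt v u) (hb v u k) measurable_const)

/-- for distinct order labels the edge labels are a relabelling of the reservoir -/
theorem EdgeLab.exists_inj (G : SimpleGraph ℕ) (hG : ∀ v : ℕ, (G.neighborSet v).Finite)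
    (a : ℕ → unitInterval) (ha : Function.Injective a) :
    ∃ f : G.edgeSet × ℕ → ℕ × ℕ × ℕ, Function.Injective f ∧
      ∀ b : ℕ × ℕ × ℕ → unitInterval, ∀ i : G.edgeSet × ℕ, eL G a b (i.1, i.2) = b (f i) := by
  classical
  have h : ∀ e : G.edgeSet, ∃ u v : ℕ, (e : Sym2 ℕ) = s(u, v) ∧ G.Adj u v ∧ a u < a v := by
    rintro ⟨e, he⟩
    induction e using Sym2.ind with
    | _ u v =>
      have hadj : G.Adj u v := he
      rcases lt_trichotomy (a u) (a v) with h | h | h
      · exact ⟨u, v, rfl, hadj, h⟩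
      · exact absurd (ha h) hadj.ne
      · exact ⟨v, u, Sym2.eq_swap, hadj.symm, h⟩
  choose lo hi h1 h2 h3 using h
  refine ⟨fun i => (lo i.1, cnt G a (lo i.1) (hi i.1), i.2), ?_, ?_⟩
  · rintro ⟨e, k⟩ ⟨e', k'⟩ heq
    simp only [Prod.mk.injEq] at heq
    obtain ⟨h4, h5, h6⟩ := heq
    rw [← h4] at h5
    have h7 : hi e = hi e' := by
      refine cnt_injOn G a (lo e) (hG _) ha (h2 e) ?_ h5
      rw [h4]
      exact h2 e'
    have h8 : e = e' := by
      apply Subtype.ext
      rw [h1 e, h1 e', h4, h7]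
    rw [h8, h6]
  · intro b i
    rw [h1 i.1, eL_mk, rd, if_pos (h3 i.1)]

theorem map_edgeLab (G : SimpleGraph ℕ) (hG : ∀ v : ℕ, (G.neighborSet v).Finite) :
    (Crest.ProbabilityR.Labels.labelMeasure ℕ).map
      (fun (x : ℕ → unitInterval) (i : G.edgeSet × ℕ) => edgeLab G x (i.1, i.2)) =
      lab G.edgeSet := by
  have hm0 : Measurable (fun x : ℕ → unitInterval => (aOf x, bOf x)) :=
    measurable_aOf.prodMk measurable_bOf
  have hm1 : Measurable (fun (q : (ℕ → unitInterval) × (ℕ × ℕ × ℕ → unitInterval))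
      (i : G.edgeSet × ℕ) => eL G q.1 q.2 (i.1, i.2)) :=
    measurable_pi_iff.2 fun i =>
      (measurable_pi_apply ((i.1 : Sym2 ℕ), i.2)).comp (measurable_eL G)
  have h1 : (Crest.ProbabilityR.Labels.labelMeasure ℕ).map
      (fun (x : ℕ → unitInterval) (i : G.edgeSet × ℕ) => edgeLab G x (i.1, i.2)) =
      ((Measure.infinitePi (fun _ : ℕ => (volume : Measure unitInterval))).prod
        (Measure.infinitePi (fun _ : ℕ × ℕ × ℕ => (volume : Measure unitInterval)))).map
      (fun (q : (ℕ → unitInterval) × (ℕ × ℕ × ℕ → unitInterval))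
        (i : G.edgeSet × ℕ) => eL G q.1 q.2 (i.1, i.2)) := by
    rw [← map_aOf_bOf, Measure.map_map hm1 hm0]
    rfl
  rw [h1]
  refine Measure.ext fun T hT => ?_
  rw [Measure.map_apply hm1 hT, Measure.prod_apply (hm1 hT)]
  have h2 : ∀ᵐ a ∂(Measure.infinitePi (fun _ : ℕ => (volume : Measure unitInterval))),
      (Measure.infinitePi (fun _ : ℕ × ℕ × ℕ => (volume : Measure unitInterval)))
        (Prod.mk a ⁻¹' ((fun (q : (ℕ → unitInterval) × (ℕ × ℕ × ℕ → unitInterval))
        (i : G.edgeSet × ℕ) => eL G q.1 q.2 (i.1, i.2)) ⁻¹' T)) = lab G.edgeSet T := by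
    filter_upwards [ae_injective] with a ha
    obtain ⟨f, hf, hfe⟩ := EdgeLab.exists_inj G hG a ha
    have h3 := Measure.map_infinitePi_infinitePi_of_inj
      (P := fun _ : ℕ × ℕ × ℕ => (volume : Measure unitInterval)) hf
    unfold lab
    have hm2 : Measurable (fun (ω : ℕ × ℕ × ℕ → unitInterval) (i : G.edgeSet × ℕ) => ω (f i)) :=
      measurable_pi_iff.2 fun i => measurable_pi_apply (f i)
    rw [← h3, Measure.map_apply hm2 hT]
    congr 1
    ext b
    simp only [Set.mem_preimage]
    have : (fun (i : G.edgeSet × ℕ) => eL G a b (i.1, i.2)) = fun i => b (f i) :=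
      funext fun i => hfe b i
    rw [this]
  rw [lintegral_congr_ae h2, lintegral_const]
  simp

end Crest.Agent.SRF
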