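import Crest.Agent.TI_Law
import Crest.Agent.SRF_EdgeLab

/-!
Row S0241, task Fin: final assembly
-/

set_option autoImplicit false
set_option linter.unusedSectionVars false
set_option linter.unusedVariables false

namespace Crest.Agent.TI

open MeasureTheory Filter Topology
open Crest.Agent.SRF (Lab lab)


section FIN

variable {V : Type*} [DecidableEq V]

open Crest.Agent.SRF.EdgeLab (theta measurable_theta map_theta)

/-- label space: one uniform label per vertex is split into countably many -/
noncomputable def spl (x : V → unitInterval) : Om V :=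
  fun c => theta (x c.1.1) (2 * c.2 + (if c.1.2 then 1 else 0))

theorem measurable_spl : Measurable (spl (V := V)) := by
  refine measurable_pi_iff.2 fun c => ?_
  exact (measurable_pi_apply _).comp (measurable_theta.comp (measurable_pi_apply c.1.1))

theorem map_spl : (Crest.ProbabilityR.Labels.labelMeasure V).map spl = PP V := by
  have hY : (Crest.ProbabilityR.Labels.labelMeasure V).map
      (fun (x : V → unitInterval) (i : V × ℕ) => theta (x i.1) i.2) =
      Measure.infinitePi (fun _ : V × ℕ => (volume : Measure unitInterval)) := by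
    have h1 : (Crest.ProbabilityR.Labels.labelMeasure V).map
        (fun (x : V → unitInterval) (v : V) => theta (x v)) =
        Measure.infinitePi (fun _ : V => Measure.infinitePi (fun _ : ℕ => (volume : Measure unitInterval))) := by
      unfold Crest.ProbabilityR.Labels.labelMeasure
      rw [Measure.infinitePi_map_pi (μ := fun _ : V => (volume : Measure unitInterval))
        (f := fun _ => theta) (fun _ => measurable_theta)]
      simp only [map_theta]
    have h2 : Measurable (fun (x : V → unitInterval) (v : V) => theta (x v)) :=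
      measurable_pi_iff.2 fun v => measurable_theta.comp (measurable_pi_apply v)
    rw [← Measure.infinitePi_map_curry_symm (fun (_ : V) (_ : ℕ) => (volume : Measure unitInterval)), ← h1,
      Measure.map_map (MeasurableEquiv.measurable _) h2]
    rfl
  let f : (V × Bool) × ℕ → V × ℕ := fun c => (c.1.1, 2 * c.2 + (if c.1.2 then 1 else 0))
  have hf : Function.Injective f := by
    rintro ⟨⟨v, b⟩, k⟩ ⟨⟨v', b'⟩, k'⟩ h
    simp only [f, Prod.mk.injEq] at h
    obtain ⟨h1, h2⟩ := h
    subst h1
    cases b <;> cases b' <;> simp at h2 ⊢ <;> omega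
  have h3 := Measure.map_infinitePi_infinitePi_of_inj
    (P := fun _ : V × ℕ => (volume : Measure unitInterval)) hf
  have hmX : Measurable (fun (x : V → unitInterval) (i : V × ℕ) => theta (x i.1) i.2) :=
    measurable_pi_iff.2 fun i => (measurable_pi_apply _).comp
      (measurable_theta.comp (measurable_pi_apply i.1))
  have hm2 : Measurable (fun (ω : V × ℕ → unitInterval) (c : (V × Bool) × ℕ) => ω (f c)) :=
    measurable_pi_iff.2 fun i => measurable_pi_apply (f i)
  have e : (spl (V := V)) = (fun (ω : V × ℕ → unitInterval) (c : (V × Bool) × ℕ) => ω (f c)) ∘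
      (fun (x : V → unitInterval) (i : V × ℕ) => theta (x i.1) i.2) := rfl
  rw [e, ← Measure.map_map hm2 hmX, hY]
  exact h3

theorem spl_comp (g : V ≃ V) (x : V → unitInterval) : spl (x ∘ g) = act g (spl x) := rfl

theorem countable_of_tree {G : SimpleGraph V} [G.LocallyFinite] (hT : G.IsTree) : Countable V := by
  obtain ⟨v⟩ := hT.connected.nonempty
  have h : (Set.univ : Set V) = ⋃ n : ℕ, (bal G v n : Set V) := by
    ext u
    simp only [Set.mem_univ, Set.mem_iUnion, Finset.mem_coe, true_iff]
    exact ⟨G.dist v u, (mem_bal hT v _ u).2 le_rfl⟩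
  have h2 : (Set.univ : Set V).Countable := by
    rw [h]
    exact Set.countable_iUnion fun n => (bal G v n).countable_toSet
  exact Set.countable_univ_iff.1 h2

theorem fin_isingWeight_congr {G : SimpleGraph V} (θ : ℝ) (S : Finset V) (η η' : V → Bool)
    (h : ∀ v ∈ S, η v = η' v) : Crest.ProbabilityR.TreeIsing.isingWeight G θ S η =
      Crest.ProbabilityR.TreeIsing.isingWeight G θ S η' := by
  unfold Crest.ProbabilityR.TreeIsing.isingWeight
  refine congrArg _ (Finset.prod_congr rfl ?_)
  intro e he
  have he' : e ∈ S.sym2 := by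
    classical
    exact Finset.mem_of_mem_filter e he
  clear he
  induction e using Sym2.ind with
  | _ a c =>
    rw [Finset.mk_mem_sym2_iff] at he'
    have e1 : Sym2.map η s(a, c) = Sym2.map η' s(a, c) := by
      rw [Sym2.map_mk, Sym2.map_mk, h a he'.1, h c he'.2]
    rw [e1]

/-- main theorem with `b = d - 1` -/
theorem main_b {G : SimpleGraph V} [G.LocallyFinite] (hT : G.IsTree) (b : ℕ) (hb : 2 ≤ b)
    (hreg : G.IsRegularOfDegree (b + 1)) (θ : ℝ) (h0 : 0 ≤ θ) (h1 : b * θ ^ 2 ≤ 1) :
    ∃ Φ : (V → unitInterval) → (V → Bool), Measurable Φ ∧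
      (∀ (g : G ≃g G) (x : V → unitInterval), Φ (x ∘ ⇑g) = Φ x ∘ ⇑g) ∧
      ∀ (S : Finset V) (η : V → Bool), (G.induce (S : Set V)).Connected →
        (Crest.ProbabilityR.Labels.labelMeasure V).map Φ {σ | ∀ v ∈ S, σ v = η v} =
          ENNReal.ofReal (Crest.ProbabilityR.TreeIsing.isingWeight G θ S η) := by
  classical
  have : Countable V := countable_of_tree hT
  obtain ⟨θs, ns, hs1, hs2, hs3, hs4⟩ := sel hT b hb hreg θ h0 h1
  have hlaw : ∀ F : Finset V, Win G F → (PP V).map (obI G θs ns F) =
      ∑ S ∈ F.powerset, ENNReal.ofReal (ip G θ F S) •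
        (PP V).map (fun ω => fun c : (F × Bool) × ℕ => TS F S ω (((c.1.1 : V), c.1.2), c.2)) :=
    fun F hF => law_lim hT b hb hreg θ h0 h1 θs ns hs1 hs2 hs3 hs4 F hF
  set Ψ : Om V → V → Bool := fun ω v => dcd (fun k => (ω ((v, false), k), zI G θs ns v k ω)) with hΨ
  have hΨm : Measurable Ψ := by
    refine measurable_pi_iff.2 fun v => ?_
    refine measurable_dcd.comp (measurable_pi_iff.2 fun k => ?_)
    exact (measurable_pi_apply _).prodMk (measurable_zI θs ns v k)
  refine ⟨fun x => Ψ (spl x), hΨm.comp measurable_spl, ?_, ?_⟩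
  · intro g x
    funext v
    have e1 : spl (x ∘ ⇑g) = act g.toEquiv (spl x) := rfl
    simp only [hΨ, Function.comp_apply]
    rw [e1]
    congr 1
    funext k
    rw [zI_eqv θs ns g v k (spl x)]
    rfl
  · intro S η hS
    have hset : MeasurableSet {σ : V → Bool | ∀ v ∈ S, σ v = η v} := by
      have : {σ : V → Bool | ∀ v ∈ S, σ v = η v} = ⋂ v ∈ S, {σ | σ v = η v} := by
        ext σ; simp
      rw [this]
      refine Finset.measurableSet_biInter S fun v _ => ?_
      have h0 : Measurable (fun σ : V → Bool => σ v) := measurable_pi_apply v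
      exact h0 (measurableSet_singleton (η v))
    have h2 := law_dcd hT b hb hreg θ h0 h1 θs ns hlaw S hS (S.filter fun v => η v = true)
      (Finset.filter_subset _ _)
    have e1 : (fun x => Ψ (spl x)) = Ψ ∘ spl := rfl
    rw [e1, ← Measure.map_map hΨm measurable_spl, map_spl, Measure.map_apply hΨm hset]
    have e2 : Ψ ⁻¹' {σ : V → Bool | ∀ v ∈ S, σ v = η v} = {ω | ∀ v ∈ S,
        dcd (fun k => (ω ((v, false), k), zI G θs ns v k ω)) =
          decide (v ∈ S.filter fun v => η v = true)} := by
      ext ω
      simp only [Set.mem_preimage, Set.mem_ofPred_eq, hΨ]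
      refine forall₂_congr fun v hv => ?_
      have e3 : decide (v ∈ S.filter fun v => η v = true) = η v := by
        simp [hv]
      rw [e3]
    rw [e2, h2]
    congr 1
    unfold ip
    refine fin_isingWeight_congr θ S _ _ fun v hv => ?_
    simp [hv]

end FIN

end Crest.Agent.TI
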