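import Crest.Agent.SRF_Win
import Crest.Agent.SRF_EdgeLab

/-!
The free uniform spanning forest as a factor of i.i.d. labels: final assembly.
-/

set_option autoImplicit false

namespace Crest.Agent.SRF

open MeasureTheory Filter Topology Crest.ProbabilityR Crest.ProbabilityR.GraphTables

section law

variable (G : SimpleGraph ℕ)

/-- inclusion of the edges of `G` -/
abbrev fE : G.edgeSet ↪ Sym2 ℕ := Function.Embedding.subtype (· ∈ G.edgeSet)

/-- restriction of labels to the edges of `G` -/
def res (L : Lab (Sym2 ℕ)) : Lab G.edgeSet := fun i => L (fE G i.1, i.2)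

theorem measurable_res : Measurable (res G) :=
  measurable_pi_iff.2 fun _ => measurable_pi_apply _

theorem map_res : (lab (Sym2 ℕ)).map (res G) = lab G.edgeSet := by
  unfold lab
  have hf : Function.Injective (fun i : G.edgeSet × ℕ => (fE G i.1, i.2)) := by
    rintro ⟨a, b⟩ ⟨c, d⟩ h
    simp only [Prod.mk.injEq] at h
    rw [(fE G).injective h.1, h.2]
  exact Measure.map_infinitePi_infinitePi_of_inj
    (P := fun _ : Sym2 ℕ × ℕ => (volume : Measure unitInterval)) hf

open Classical in
/-- windows as sets of edges of `G` -/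
noncomputable def win' (e : Sym2 ℕ) (n : ℕ) : Finset G.edgeSet :=
  (win G e n).subtype (· ∈ G.edgeSet)

theorem map_win' (e : Sym2 ℕ) (n : ℕ) : (win' G e n).map (fE G) = win G e n := by
  classical
  unfold win' fE
  rw [Finset.subtype_map, Finset.filter_eq_self]
  exact fun x hx => win_subset_edgeSet e n x hx

/-- the scheme on the edges of `G` -/
noncomputable def XX' (e : G.edgeSet) (s n : ℕ) (L : Lab G.edgeSet) : unitInterval :=
  Zs (pcomap (fmass G) (fE G)) (win' G (e : Sym2 ℕ) n) L (e, s + 1)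

theorem XX_eq (e : G.edgeSet) (s n : ℕ) (L : Lab (Sym2 ℕ)) :
    XX G (e : Sym2 ℕ) s n L = XX' G e s n (res G L) := by
  unfold XX XX'
  rw [← map_win']
  exact (Zs_pcomap (fmass G) (fE G) (win' G (e : Sym2 ℕ) n) L e (s + 1)).symm

theorem measurable_XX' (e : G.edgeSet) (s n : ℕ) : Measurable (XX' G e s n) :=
  measurable_pi_iff.1 (measurable_Zs (pcomap (fmass G) (fE G)) (win' G (e : Sym2 ℕ) n)) (e, s + 1)

theorem bad_eq (e : G.edgeSet) (k s m m' : ℕ) :
    bad G (e : Sym2 ℕ) k s m m' =
      lab G.edgeSet {L | (1 / 2 : ℝ) ^ k < |(XX' G e s m L : ℝ) - XX' G e s m' L|} := by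
  have hset : MeasurableSet {L | (1 / 2 : ℝ) ^ k < |(XX' G e s m L : ℝ) - XX' G e s m' L|} := by
    apply measurableSet_lt measurable_const
    exact ((measurable_subtype_coe.comp (measurable_XX' G e s m)).sub
      (measurable_subtype_coe.comp (measurable_XX' G e s m'))).abs
  rw [← map_res, Measure.map_apply (measurable_res G) hset]
  unfold bad
  congr 1
  ext L
  simp only [Set.mem_preimage, Set.mem_ofPred_eq]
  rw [XX_eq, XX_eq]

variable {G}

theorem eventually_subset_win' (hc : G.Connected) (hG : ∀ v : ℕ, (G.neighborSet v).Finite)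
    (e : Sym2 ℕ) (V : Finset G.edgeSet) : ∀ᶠ n in atTop, V ⊆ win' G e n := by
  classical
  have h1 : ∀ a ∈ V, ∀ᶠ n in atTop, a ∈ win' G e n := by
    intro a _
    filter_upwards [eventually_mem_win hc hG e (a : Sym2 ℕ) a.2] with n hn
    unfold win'
    rw [Finset.mem_subtype]
    exact hn
  filter_upwards [(Filter.eventually_all_finset V).2 h1] with n hn a ha
  exact hn a ha

theorem exists_cond (hc : G.Connected) (hG : ∀ v : ℕ, (G.neighborSet v).Finite)
    (e : G.edgeSet) (k : ℕ) : ∃ n, cond G (e : Sym2 ℕ) k n := by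
  have hp : IsGood (pcomap (fmass G) (fE G)) := (fmass_isGood G hc).pcomap (fE G)
  have h1 : ∀ s : ℕ, ∀ᶠ n in atTop, ∀ m m' : ℕ, n ≤ m → n ≤ m' →
      bad G (e : Sym2 ℕ) k s m m' ≤ ENNReal.ofReal ((1 / 2) ^ k) := by
    intro s
    obtain ⟨V, hV⟩ := Zs_cauchy hp e s ((1 / 2 : ℝ) ^ k) (by positivity)
    obtain ⟨n0, hn0⟩ := eventually_atTop.1 (eventually_subset_win' hc hG (e : Sym2 ℕ) V)
    filter_upwards [eventually_ge_atTop n0] with n hn m m' hm hm'
    rw [bad_eq]
    exact hV _ _ (hn0 m (hn.trans hm)) (hn0 m' (hn.trans hm'))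
  have h2 : ∀ᶠ n in atTop, ∀ s ∈ Finset.range (k + 1), ∀ m m' : ℕ, n ≤ m → n ≤ m' →
      bad G (e : Sym2 ℕ) k s m m' ≤ ENNReal.ofReal ((1 / 2) ^ k) :=
    (Filter.eventually_all_finset _).2 fun s _ => h1 s
  obtain ⟨n, hn⟩ := h2.exists
  exact ⟨n, fun m m' hm hm' s hs => hn s (Finset.mem_range.2 (by omega)) m m' hm hm'⟩

theorem cond_lev (hc : G.Connected) (hG : ∀ v : ℕ, (G.neighborSet v).Finite)
    (e : G.edgeSet) (k : ℕ) : cond G (e : Sym2 ℕ) k (lev G (e : Sym2 ℕ) k) :=
  Nat.sInf_mem (s := {n | cond G (e : Sym2 ℕ) k n}) (exists_cond hc hG e k)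

theorem lev_le_idx (e : Sym2 ℕ) (k : ℕ) : lev G e k ≤ idx G e k := by
  unfold idx
  have : lev G e k + 1 ≤ ∑ j ∈ Finset.range (k + 1), (lev G e j + 1) :=
    Finset.single_le_sum (f := fun j => lev G e j + 1) (fun _ _ => Nat.zero_le _)
      (Finset.mem_range.2 (Nat.lt_succ_self k))
  omega

theorem idx_mono (e : Sym2 ℕ) (k : ℕ) : idx G e k ≤ idx G e (k + 1) := by
  unfold idx
  rw [Finset.sum_range_succ _ (k + 1)]
  omega

theorem le_idx (e : Sym2 ℕ) (k : ℕ) : k ≤ idx G e k := by
  unfold idx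
  have : ∑ j ∈ Finset.range (k + 1), 1 ≤ ∑ j ∈ Finset.range (k + 1), (lev G e j + 1) :=
    Finset.sum_le_sum fun j _ => by omega
  simp only [Finset.sum_const, Finset.card_range, smul_eq_mul, mul_one] at this
  omega

theorem tendsto_XX' (hc : G.Connected) (hG : ∀ v : ℕ, (G.neighborSet v).Finite)
    (e : G.edgeSet) (s : ℕ) :
    ∀ᵐ L ∂lab G.edgeSet, Tendsto (fun k => XX' G e s (idx G (e : Sym2 ℕ) k) L) atTop
      (𝓝 (limU fun k => XX' G e s (idx G (e : Sym2 ℕ) k) L)) := by
  refine ae_tendsto_limU (lab G.edgeSet) (fun k L => XX' G e s (idx G (e : Sym2 ℕ) k) L) s ?_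
  intro k hk
  have h := cond_lev hc hG e k (idx G e k) (idx G e (k + 1)) (lev_le_idx _ k)
    ((lev_le_idx _ k).trans (idx_mono _ k)) s hk
  rwa [bad_eq] at h

end law

open Classical in
/-- the factor map -/
noncomputable def Phi (G : SimpleGraph ℕ) (x : ℕ → unitInterval) (e : Sym2 ℕ) : Bool :=
  if goodG G ∧ e ∈ G.edgeSet then dec (fun s => zeta G e s (edgeLab G x)) else false

theorem measurable_Phi : Measurable (fun p : (ℕ → ℕ → Bool) × (ℕ → unitInterval) =>
    Phi (graphOfTable p.1) p.2) := by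
  classical
  refine measurable_pi_iff.2 fun e => ?_
  unfold Phi
  refine Measurable.ite ?_ ?_ measurable_const
  · exact measurable_fst (measurableSet_goodG.inter (measurableSet_edge e))
  · have h1 : Measurable (fun p : (ℕ → ℕ → Bool) × (ℕ → unitInterval) =>
        (p.1, edgeLab (graphOfTable p.1) p.2)) := measurable_fst.prodMk measurable_edgeLab
    have h2 : ∀ s, Measurable (fun p : (ℕ → ℕ → Bool) × (ℕ → unitInterval) =>
        zeta (graphOfTable p.1) e s (edgeLab (graphOfTable p.1) p.2)) := by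
      intro s
      generalize hz : (fun q : (ℕ → ℕ → Bool) × Lab (Sym2 ℕ) =>
        zeta (graphOfTable q.1) e s q.2) = Z
      have hZ : Measurable Z := by rw [← hz]; exact measurable_zeta_table e s
      have h4 : (fun p : (ℕ → ℕ → Bool) × (ℕ → unitInterval) =>
          zeta (graphOfTable p.1) e s (edgeLab (graphOfTable p.1) p.2)) =
          fun p => Z (p.1, edgeLab (graphOfTable p.1) p.2) := by
        rw [← hz]
      rw [h4]
      exact hZ.comp h1
    have h3 : Measurable (fun (p : (ℕ → ℕ → Bool) × (ℕ → unitInterval)) (s : ℕ) =>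
        zeta (graphOfTable p.1) e s (edgeLab (graphOfTable p.1) p.2)) := measurable_pi_iff.2 h2
    exact measurable_dec.comp h3

theorem Phi_comap (σ : Equiv.Perm ℕ) (G : SimpleGraph ℕ) (x : ℕ → unitInterval) :
    Phi (G.comap ⇑σ) (x ∘ ⇑σ) = Phi G x ∘ Sym2.map ⇑σ := by
  classical
  funext e
  have h1 : edgeLab (G.comap ⇑σ) (x ∘ ⇑σ) = relab σ (edgeLab G x) := by
    funext i
    exact edgeLab_comap σ G x i.1 i.2
  have h2 : (goodG (G.comap ⇑σ) ∧ e ∈ (G.comap ⇑σ).edgeSet) ↔
      (goodG G ∧ Sym2.map ⇑σ e ∈ G.edgeSet) := by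
    rw [goodG_comap, mem_edgeSet_comap]
  simp only [Function.comp_apply, Phi]
  rw [h1]
  simp only [zeta_comap]
  by_cases h : goodG G ∧ Sym2.map ⇑σ e ∈ G.edgeSet
  · rw [if_pos h, if_pos (h2.2 h)]
  · rw [if_neg h, if_neg (fun h' => h (h2.1 h'))]

theorem graphOfTable_tableOf (G : SimpleGraph ℕ) : graphOfTable (tableOf G) = G := by
  classical
  ext u v
  simp only [graphOfTable, tableOf, SimpleGraph.fromRel_adj, decide_eq_true_eq]
  constructor
  · rintro ⟨_, h | h⟩
    · exact h
    · exact h.symm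
  · intro h
    exact ⟨h.ne, Or.inl h⟩

theorem measurable_Phi_fixed (G : SimpleGraph ℕ) : Measurable (Phi G) := by
  have h := measurable_Phi.comp (measurable_prodMk_left (x := tableOf G))
  simp only [Function.comp_def, graphOfTable_tableOf] at h
  exact h

theorem law_Phi (G : SimpleGraph ℕ) (hc : G.Connected) (hG : ∀ v : ℕ, (G.neighborSet v).Finite)
    (F : Finset (Sym2 ℕ)) (hF : (F : Set (Sym2 ℕ)) ⊆ G.edgeSet) :
    (Labels.labelMeasure ℕ).map (Phi G) {ω | ∀ e ∈ F, ω e = true} = ENNReal.ofReal (fus G F) := by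
  classical
  have hset : MeasurableSet {ω : Sym2 ℕ → Bool | ∀ e ∈ F, ω e = true} := by
    have : {ω : Sym2 ℕ → Bool | ∀ e ∈ F, ω e = true} = ⋂ e ∈ F, {ω | ω e = true} := by
      ext ω; simp
    rw [this]
    refine Finset.measurableSet_biInter F fun e _ => ?_
    have h0 : Measurable (fun ω : Sym2 ℕ → Bool => ω e) := measurable_pi_apply e
    exact h0 (measurableSet_singleton true)
  rw [Measure.map_apply (measurable_Phi_fixed G) hset]
  have hp : IsGood (pcomap (fmass G) (fE G)) := (fmass_isGood G hc).pcomap (fE G)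
  set F' : Finset G.edgeSet := F.subtype (· ∈ G.edgeSet) with hF'
  have hmapF : F'.map (fE G) = F := by
    rw [hF']
    unfold fE
    rw [Finset.subtype_map, Finset.filter_eq_self]
    exact fun x hx => hF (Finset.mem_coe.2 hx)
  set ζ : G.edgeSet → ℕ → Lab G.edgeSet → unitInterval := fun e s L =>
    limU fun k => XX' G e s (idx G (e : Sym2 ℕ) k) L with hζ
  have hζm : ∀ e s, Measurable (ζ e s) := fun e s =>
    measurable_limU _ fun k => measurable_XX' G e s _
  have hlaw := law_dec hp (fun e k => win' G (e : Sym2 ℕ) (idx G (e : Sym2 ℕ) k)) (by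
    intro e V
    obtain ⟨n0, hn0⟩ := eventually_atTop.1 (eventually_subset_win' hc hG (e : Sym2 ℕ) V)
    filter_upwards [eventually_ge_atTop n0] with k hk
    exact hn0 _ (hk.trans (le_idx _ k))) ζ hζm (fun e s => tendsto_XX' hc hG e s) F'
  have hval : pcomap (fmass G) (fE G) F' F' = fus G F := by
    unfold pcomap
    rw [hmapF, fmass_self]
  rw [hval] at hlaw
  rw [← hlaw, ← map_edgeLab G hG, Measure.map_apply]
  · congr 1
    ext x
    simp only [Set.mem_preimage, Set.mem_ofPred_eq]
    have key : ∀ e : G.edgeSet, Phi G x (e : Sym2 ℕ) =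
        dec (fun s => ζ e s (fun i : G.edgeSet × ℕ => edgeLab G x (i.1, i.2))) := by
      intro e
      unfold Phi
      rw [if_pos ⟨⟨hc, hG⟩, e.2⟩]
      congr 1
      funext s
      rw [hζ]
      unfold zeta
      simp only [XX_eq]
      rfl
    constructor
    · intro h e he
      rw [← key e]
      exact h _ (by
        rw [← hmapF]
        exact Finset.mem_map_of_mem (fE G) he)
    · intro h e he
      have heG : e ∈ G.edgeSet := hF (Finset.mem_coe.2 he)
      have h2 := h ⟨e, heG⟩ (by rw [hF', Finset.mem_subtype]; exact he)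
      rw [← key ⟨e, heG⟩] at h2
      exact h2
  · refine measurable_pi_iff.2 fun i => ?_
    have h := measurable_edgeLab.comp (measurable_prodMk_left (x := tableOf G))
    simp only [Function.comp_def, graphOfTable_tableOf] at h
    exact measurable_pi_iff.1 h (i.1, i.2)
  · have : {L : Lab G.edgeSet | ∀ e ∈ F', dec (fun s => ζ e s L) = true} =
        ⋂ e ∈ F', {L | dec (fun s => ζ e s L) = true} := by
      ext L; simp
    rw [this]
    refine Finset.measurableSet_biInter F' fun e _ => ?_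
    exact (measurable_dec.comp (measurable_pi_iff.2 fun s => hζm e s)) (measurableSet_singleton true)

end Crest.Agent.SRF
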