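import Mathlib

set_option autoImplicit false

namespace Crest.Agent.SRF

open Filter Topology Polynomial Metric

/-- complex evaluation of a real polynomial -/
noncomputable def ev (a : Polynomial ℝ) (ζ : ℂ) : ℂ := (a.map (algebraMap ℝ ℂ)).eval ζ

theorem ev_real (a : Polynomial ℝ) (x : ℝ) : ev a (x : ℂ) = ((a.eval x : ℝ) : ℂ) := by
  unfold ev
  rw [Polynomial.eval_map_algebraMap]
  have := Polynomial.aeval_algebraMap_apply ℂ x a
  simpa using this

theorem ev_conj (a : Polynomial ℝ) (ζ : ℂ) : ev a ((starRingEnd ℂ) ζ) = (starRingEnd ℂ) (ev a ζ) := by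
  unfold ev
  rw [Polynomial.eval_map_algebraMap, Polynomial.eval_map_algebraMap]
  exact Polynomial.aeval_conj a ζ

theorem ev_differentiable (a : Polynomial ℝ) : Differentiable ℂ (ev a) := by
  unfold ev
  exact Polynomial.differentiable _

theorem eval_pos_of_coeff_nonneg (b : Polynomial ℝ) (hb : ∀ n, 0 ≤ b.coeff n) (hb0 : b ≠ 0) (x : ℝ)
    (hx : 0 < x) : 0 < b.eval x := by
  rw [Polynomial.eval_eq_sum_range]
  apply Finset.sum_pos' (fun i _ => mul_nonneg (hb i) (pow_nonneg hx.le i))
  refine ⟨b.natDegree, Finset.mem_range.2 (Nat.lt_succ_self _), ?_⟩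
  have h1 : b.coeff b.natDegree ≠ 0 := by simpa using hb0
  exact mul_pos (lt_of_le_of_ne (hb _) (Ne.symm h1)) (pow_pos hx _)

theorem eval_nonneg_of_coeff_nonneg (b : Polynomial ℝ) (hb : ∀ n, 0 ≤ b.coeff n) (x : ℝ)
    (hx : 0 ≤ x) : 0 ≤ b.eval x := by
  rw [Polynomial.eval_eq_sum_range]
  exact Finset.sum_nonneg (fun i _ => mul_nonneg (hb i) (pow_nonneg hx i))

theorem ev_ne_zero (a b : Polynomial ℝ) (hb0 : b ≠ 0)
    (hst : ∀ ζ w : ℂ, 0 < ζ.im → 0 < w.im → ev a ζ + w * ev b ζ ≠ 0) (ζ₀ : ℂ) (hζ : 0 < ζ₀.im) :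
    ev b ζ₀ ≠ 0 := by
  intro hb
  have ha : ev a ζ₀ ≠ 0 := by
    intro ha
    apply hst ζ₀ Complex.I hζ (by simp)
    rw [ha, hb]; ring
  have hopen : {z : ℂ | 0 < z.im ∧ ev a z ≠ 0} ∈ 𝓝 ζ₀ := by
    apply IsOpen.mem_nhds
    · apply IsOpen.inter
      · exact isOpen_lt continuous_const Complex.continuous_im
      · exact isOpen_ne_fun (ev_differentiable a).continuous continuous_const
    · exact ⟨hζ, ha⟩
  have han : AnalyticAt ℂ (fun z => ev b z / ev a z) ζ₀ := by
    apply AnalyticAt.div
    · exact (ev_differentiable b).analyticAt ζ₀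
    · exact (ev_differentiable a).analyticAt ζ₀
    · exact ha
  rcases han.eventually_constant_or_nhds_le_map_nhds with h | h
  · -- constant: then b = 0
    have h1 : ∀ᶠ z in 𝓝 ζ₀, ev b z = 0 := by
      filter_upwards [h, hopen] with z hz hz2
      rw [hb, zero_div, div_eq_zero_iff] at hz
      rcases hz with hz | hz
      · exact hz
      · exact absurd hz hz2.2
    have hinf : Set.Infinite {z : ℂ | ev b z = 0} := infinite_of_mem_nhds ζ₀ h1
    have : b.map (algebraMap ℝ ℂ) = 0 := by
      apply Polynomial.eq_zero_of_infinite_isRoot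
      exact hinf
    rw [Polynomial.map_eq_zero_iff (algebraMap ℝ ℂ).injective] at this
    exact hb0 this
  · have h2 : (fun z => ev b z / ev a z) '' {z : ℂ | 0 < z.im ∧ ev a z ≠ 0}
        ∈ 𝓝 (ev b ζ₀ / ev a ζ₀) := h (image_mem_map hopen)
    rw [hb, zero_div] at h2
    obtain ⟨ε, hε, hball⟩ := Metric.mem_nhds_iff.1 h2
    have hmem : (((ε / 2 : ℝ) : ℂ) * Complex.I) ∈ ball (0 : ℂ) ε := by
      rw [mem_ball_zero_iff, norm_mul, Complex.norm_I, mul_one, Complex.norm_real,
        Real.norm_eq_abs, abs_of_pos (by linarith)]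
      linarith
    obtain ⟨z, ⟨hz1, hz2⟩, hz3⟩ := hball hmem
    have hε0 : ((ε / 2 : ℝ) : ℂ) ≠ 0 := by
      have : (ε / 2 : ℝ) ≠ 0 := by linarith
      exact_mod_cast this
    apply hst z (((2 / ε : ℝ) : ℂ) * Complex.I) hz1 (by simp; positivity)
    have hz4 : ev b z = ((ε / 2 : ℝ) : ℂ) * Complex.I * ev a z := by
      rw [← hz3]; field_simp
    rw [hz4]
    have : ((2 / ε : ℝ) : ℂ) * Complex.I * (((ε / 2 : ℝ) : ℂ) * Complex.I * ev a z)
        = (((2 / ε) * (ε / 2) : ℝ) : ℂ) * (Complex.I * Complex.I) * ev a z := by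
      push_cast; ring
    rw [this, Complex.I_mul_I, show (2 / ε) * (ε / 2) = 1 by field_simp]
    push_cast; ring

/-- Schwarz lemma on the right half plane, for functions real on the positive reals -/
theorem schwarz_rhp (g : ℂ → ℂ) (hg : DifferentiableOn ℂ g {s | 0 < s.re})
    (hpos : ∀ s : ℂ, 0 < s.re → 0 < (g s).re) (hreal : ∀ s : ℝ, 0 < s → (g s).im = 0)
    (s : ℝ) (hs : 1 ≤ s) : (g s).re ≤ s * (g 1).re := by
  set g1 : ℝ := (g 1).re with hg1
  have hg1pos : 0 < g1 := hpos 1 (by simp)
  let φ : ℂ → ℂ := fun z => (1 + z) / (1 - z)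
  have hφre : ∀ z ∈ ball (0 : ℂ) 1, 0 < (φ z).re := by
    intro z hz
    rw [mem_ball_zero_iff] at hz
    have hz2 : z.re ^ 2 + z.im ^ 2 < 1 := by
      have h1 := Complex.sq_norm z
      have h2 := Complex.normSq_apply z
      have h3 : ‖z‖ ^ 2 < 1 := by nlinarith [norm_nonneg z]
      nlinarith
    have hne : (1 : ℂ) - z ≠ 0 := by
      intro h
      have : z = 1 := by linear_combination -h
      rw [this] at hz; simp at hz
    have hns : 0 < Complex.normSq (1 - z) := Complex.normSq_pos.2 hne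
    simp only [φ]
    rw [Complex.div_re]
    have : (1 + z).re * (1 - z).re / Complex.normSq (1 - z) + (1 + z).im * (1 - z).im / Complex.normSq (1 - z)
        = (1 - (z.re ^ 2 + z.im ^ 2)) / Complex.normSq (1 - z) := by
      simp only [Complex.add_re, Complex.sub_re, Complex.one_re, Complex.add_im, Complex.sub_im,
        Complex.one_im]
      field_simp
      ring
    rw [this]
    exact div_pos (by linarith) hns
  have hφd : DifferentiableOn ℂ φ (ball 0 1) := by
    intro z hz
    have hne : (1 : ℂ) - z ≠ 0 := by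
      intro h
      have : z = 1 := by linear_combination -h
      rw [mem_ball_zero_iff, this] at hz; simp at hz
    apply DifferentiableAt.differentiableWithinAt
    simp only [φ]
    apply DifferentiableAt.div _ _ hne <;> fun_prop
  let h : ℂ → ℂ := fun z => (g (φ z) - g1) / (g (φ z) + g1)
  have hden : ∀ u : ℂ, 0 < u.re → u + g1 ≠ 0 := by
    intro u hu hne
    have := congrArg Complex.re hne
    simp at this
    linarith
  have hhd : DifferentiableOn ℂ h (ball 0 1) := by
    have hgc : DifferentiableOn ℂ (fun z => g (φ z)) (ball 0 1) :=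
      hg.comp hφd (fun z hz => hφre z hz)
    apply DifferentiableOn.div
    · exact hgc.sub_const _
    · exact hgc.add_const _
    · intro z hz
      exact hden _ (hpos _ (hφre z hz))
  have hg1' : g 1 = (g1 : ℂ) := by
    apply Complex.ext
    · simp [hg1]
    · have := hreal 1 (by norm_num)
      simpa using this
  have hh0 : h 0 = 0 := by
    simp only [h, φ]
    simp [hg1']
  have hmaps : Set.MapsTo h (ball 0 1) (closedBall 0 1) := by
    intro z hz
    rw [mem_closedBall_zero_iff]
    have hu := hpos _ (hφre z hz)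
    simp only [h]
    rw [norm_div, div_le_one (norm_pos_iff.2 (hden _ hu))]
    rw [← sq_le_sq₀ (norm_nonneg _) (norm_nonneg _), Complex.sq_norm, Complex.sq_norm,
      Complex.normSq_apply, Complex.normSq_apply]
    simp only [Complex.sub_re, Complex.ofReal_re, Complex.sub_im, Complex.ofReal_im, Complex.add_re,
      Complex.add_im]
    nlinarith
  set z : ℝ := (s - 1) / (s + 1) with hz
  have hs1 : (0 : ℝ) < s + 1 := by linarith
  have hz0 : 0 ≤ z := div_nonneg (by linarith) hs1.le
  have hz1 : z < 1 := by rw [hz, div_lt_one hs1]; linarith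
  have hnz : ‖(z : ℂ)‖ = z := by rw [Complex.norm_real, Real.norm_eq_abs, abs_of_nonneg hz0]
  have hsch := Complex.norm_le_norm_of_mapsTo_ball (f := h) (z := (z : ℂ)) hhd hmaps hh0
    (by rw [hnz]; exact hz1)
  rw [hnz] at hsch
  have hφz : φ (z : ℂ) = (s : ℂ) := by
    simp only [φ]
    rw [hz]
    have h1 : ((s : ℂ) + 1) ≠ 0 := by exact_mod_cast hs1.ne'
    push_cast
    rw [div_eq_iff]
    · field_simp; ring
    · have : (1 : ℂ) - (s - 1) / (s + 1) = 2 / (s + 1) := by field_simp; ring
      rw [this]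
      exact div_ne_zero two_ne_zero h1
  have hgs0 : 0 < (g s).re := hpos s (by simp; linarith)
  have hgs : g s = (((g s).re : ℝ) : ℂ) := by
    apply Complex.ext
    · simp
    · simpa using hreal s (by linarith)
  have hhz : ‖h z‖ = |((g s).re - g1) / ((g s).re + g1)| := by
    simp only [h]
    rw [hφz, hgs]
    rw [← Complex.ofReal_sub, ← Complex.ofReal_add, ← Complex.ofReal_div, Complex.norm_real,
      Real.norm_eq_abs]
    simp
  rw [hhz] at hsch
  have h5 : ((g s).re - g1) / ((g s).re + g1) ≤ z := (le_abs_self _).trans hsch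
  rw [hz, div_le_div_iff₀ (by linarith) hs1] at h5
  nlinarith

/-- principal square root -/
noncomputable def csq (z : ℂ) : ℂ := z ^ (1 / 2 : ℂ)

theorem csq_re_pos (z : ℂ) (hz : z ∈ Complex.slitPlane) : 0 < (csq z).re := by
  have hz0 : z ≠ 0 := Complex.slitPlane_ne_zero hz
  unfold csq
  rw [Complex.cpow_def_of_ne_zero hz0, Complex.exp_re]
  apply mul_pos (Real.exp_pos _)
  apply Real.cos_pos_of_mem_Ioo
  have him : (Complex.log z * (1 / 2)).im = z.arg / 2 := by
    rw [Complex.mul_im, Complex.log_im, Complex.log_re]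
    norm_num
    ring
  rw [him]
  have h1 := Complex.neg_pi_lt_arg z
  have h2 := Complex.arg_le_pi z
  have h3 : z.arg ≠ Real.pi := (Complex.mem_slitPlane_iff_arg.1 hz).1
  have h4 : z.arg < Real.pi := lt_of_le_of_ne h2 h3
  constructor <;> linarith

theorem csq_real (x : ℝ) (hx : 0 < x) : csq x = ((Real.sqrt x : ℝ) : ℂ) := by
  unfold csq
  rw [Real.sqrt_eq_rpow, Complex.ofReal_cpow hx.le]
  norm_num

theorem pick_ratio (a b : Polynomial ℝ) (ha : ∀ n, 0 ≤ a.coeff n) (hb : ∀ n, 0 ≤ b.coeff n)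
    (hb0 : b ≠ 0)
    (hst : ∀ ζ w : ℂ, 0 < ζ.im → 0 < w.im →
      (a.map (algebraMap ℝ ℂ)).eval ζ + w * (b.map (algebraMap ℝ ℂ)).eval ζ ≠ 0)
    (x : ℝ) (hx : 1 ≤ x) :
    a.eval x * b.eval 1 ≤ x * (a.eval 1 * b.eval x) := by
  have hst' : ∀ ζ w : ℂ, 0 < ζ.im → 0 < w.im → ev a ζ + w * ev b ζ ≠ 0 := hst
  have hbH : ∀ ζ : ℂ, 0 < ζ.im → ev b ζ ≠ 0 := ev_ne_zero a b hb0 hst'
  have hbpos : ∀ y : ℝ, 0 < y → 0 < b.eval y := eval_pos_of_coeff_nonneg b hb hb0
  have hapos : ∀ y : ℝ, 0 ≤ y → 0 ≤ a.eval y := eval_nonneg_of_coeff_nonneg a ha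
  have hbS : ∀ ζ ∈ Complex.slitPlane, ev b ζ ≠ 0 := by
    intro ζ hζ
    rcases lt_trichotomy ζ.im 0 with h | h | h
    · intro h0
      apply hbH ((starRingEnd ℂ) ζ) (by simpa using h)
      rw [ev_conj, h0, map_zero]
    · have hre : 0 < ζ.re := by
        rw [Complex.mem_slitPlane_iff] at hζ
        rcases hζ with h1 | h1
        · exact h1
        · exact absurd h h1
      have : ζ = ((ζ.re : ℝ) : ℂ) := Complex.ext (by simp) (by simp [h])
      rw [this, ev_real]
      have := (hbpos ζ.re hre).ne'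
      exact_mod_cast this
    · exact hbH ζ h
  have hImH : ∀ ζ : ℂ, 0 < ζ.im → 0 ≤ (ev a ζ / ev b ζ).im := by
    intro ζ hζ
    by_contra hneg
    push Not at hneg
    apply hst' ζ (-(ev a ζ / ev b ζ)) hζ (by simpa using hneg)
    have := hbH ζ hζ
    field_simp
    ring
  -- key: for every ε > 0
  have key : ∀ ε : ℝ, 0 < ε →
      a.eval x / b.eval x + ε * x ≤ x * (a.eval 1 / b.eval 1 + ε) := by
    intro ε hε
    let F : ℂ → ℂ := fun ζ => ev a ζ / ev b ζ + ε * ζ
    have hFim : ∀ ζ : ℂ, 0 < ζ.im → 0 < (F ζ).im := by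
      intro ζ hζ
      simp only [F]
      rw [Complex.add_im]
      have h1 := hImH ζ hζ
      have h2 : ((ε : ℂ) * ζ).im = ε * ζ.im := by simp
      rw [h2]
      nlinarith [mul_pos hε hζ]
    have hFconj : ∀ ζ : ℂ, F ((starRingEnd ℂ) ζ) = (starRingEnd ℂ) (F ζ) := by
      intro ζ
      simp only [F]
      rw [ev_conj, ev_conj, map_add, map_div₀, map_mul, Complex.conj_ofReal]
    have hFreal : ∀ y : ℝ, F y = ((a.eval y / b.eval y + ε * y : ℝ) : ℂ) := by
      intro y
      simp only [F]
      rw [ev_real, ev_real]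
      push_cast; rfl
    have hFS : ∀ ζ ∈ Complex.slitPlane, F ζ ∈ Complex.slitPlane := by
      intro ζ hζ
      rw [Complex.mem_slitPlane_iff]
      rcases lt_trichotomy ζ.im 0 with h | h | h
      · right
        have h1 := hFim ((starRingEnd ℂ) ζ) (by simpa using h)
        rw [hFconj] at h1
        simp at h1
        exact h1.ne
      · left
        have hre : 0 < ζ.re := by
          rw [Complex.mem_slitPlane_iff] at hζ
          rcases hζ with h1 | h1
          · exact h1
          · exact absurd h h1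
        have e : ζ = ((ζ.re : ℝ) : ℂ) := Complex.ext (by simp) (by simp [h])
        rw [e, hFreal, Complex.ofReal_re]
        have h1 := hapos ζ.re hre.le
        have h2 := hbpos ζ.re hre
        have h3 : 0 ≤ a.eval ζ.re / b.eval ζ.re := div_nonneg h1 h2.le
        nlinarith [mul_pos hε hre]
      · right
        exact (hFim ζ h).ne'
    have hsqS : ∀ s : ℂ, 0 < s.re → s ^ 2 ∈ Complex.slitPlane := by
      intro s hs
      rw [Complex.mem_slitPlane_iff]
      by_cases h : s.im = 0
      · left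
        rw [pow_two, Complex.mul_re, h]
        nlinarith
      · right
        rw [pow_two, Complex.mul_im]
        have : s.re * s.im ≠ 0 := mul_ne_zero hs.ne' h
        intro h0
        apply this
        linarith
    let g : ℂ → ℂ := fun s => csq (F (s ^ 2))
    have hgd : DifferentiableOn ℂ g {s | 0 < s.re} := by
      intro s hs
      apply DifferentiableAt.differentiableWithinAt
      have hs2 := hsqS s hs
      have h1 : DifferentiableAt ℂ (fun s : ℂ => F (s ^ 2)) s := by
        simp only [F]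
        apply DifferentiableAt.add
        · apply DifferentiableAt.div
          · exact (ev_differentiable a).differentiableAt.comp s (by fun_prop)
          · exact (ev_differentiable b).differentiableAt.comp s (by fun_prop)
          · exact hbS _ hs2
        · fun_prop
      simp only [g, csq]
      exact h1.cpow_const (hFS _ hs2)
    have hgpos : ∀ s : ℂ, 0 < s.re → 0 < (g s).re := fun s hs => csq_re_pos _ (hFS _ (hsqS s hs))
    have hFpos : ∀ y : ℝ, 0 < y → 0 < a.eval y / b.eval y + ε * y := by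
      intro y hy
      have h3 : 0 ≤ a.eval y / b.eval y := div_nonneg (hapos y hy.le) (hbpos y hy).le
      nlinarith [mul_pos hε hy]
    have hgr : ∀ s : ℝ, 0 < s → g s = ((Real.sqrt (a.eval (s ^ 2) / b.eval (s ^ 2) + ε * s ^ 2) : ℝ) : ℂ) := by
      intro s hs
      simp only [g]
      rw [← Complex.ofReal_pow, hFreal, csq_real _ (hFpos _ (by positivity))]
    have hgim : ∀ s : ℝ, 0 < s → (g s).im = 0 := by
      intro s hs
      rw [hgr s hs, Complex.ofReal_im]
    have hsx : 1 ≤ Real.sqrt x := by rw [Real.one_le_sqrt]; exact hx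
    have hmain := schwarz_rhp g hgd hgpos hgim (Real.sqrt x) hsx
    have e1 : g 1 = ((Real.sqrt (a.eval 1 / b.eval 1 + ε) : ℝ) : ℂ) := by
      have := hgr 1 one_pos
      simpa using this
    rw [hgr _ (by linarith), e1, Complex.ofReal_re, Complex.ofReal_re, Real.sq_sqrt (by linarith)] at hmain
    have h1 : 0 < a.eval x / b.eval x + ε * x := hFpos x (by linarith)
    have h2 : 0 < a.eval 1 / b.eval 1 + ε := by simpa using hFpos 1 one_pos
    have h3 := mul_self_le_mul_self (Real.sqrt_nonneg _) hmain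
    rw [Real.mul_self_sqrt h1.le] at h3
    have h4 : Real.sqrt x * Real.sqrt (a.eval 1 / b.eval 1 + ε) * (Real.sqrt x * Real.sqrt (a.eval 1 / b.eval 1 + ε))
        = x * (a.eval 1 / b.eval 1 + ε) := by
      have e5 := Real.mul_self_sqrt (show 0 ≤ x by linarith)
      have e6 := Real.mul_self_sqrt h2.le
      calc _ = (Real.sqrt x * Real.sqrt x) * (Real.sqrt (a.eval 1 / b.eval 1 + ε) * Real.sqrt (a.eval 1 / b.eval 1 + ε)) := by ring
        _ = _ := by rw [e5, e6]
    rw [h4] at h3
    exact h3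
  have hlim : a.eval x / b.eval x ≤ x * (a.eval 1 / b.eval 1) := by
    have := key 1 one_pos
    nlinarith
  have hbx := hbpos x (by linarith)
  have hb1 := hbpos 1 one_pos
  rw [← mul_div_assoc, div_le_div_iff₀ hbx hb1] at hlim
  linarith

end Crest.Agent.SRF
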