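import Crest.Agent.SRF_Defs
import Crest.Agent.SRF_Pick
import Crest.Prelude.Def_StronglyRayleigh

set_option autoImplicit false

namespace Crest.Agent.SRF

open MeasureTheory Filter Topology Crest.ProbabilityR

section Poly

variable {E : Type*} [DecidableEq E]

/-- multi-affine polynomial with coefficients `c` -/
def mp {K : Type*} [CommRing K] (c : Finset E → K) (V : Finset E) (z : E → K) : K :=
  ∑ S ∈ V.powerset, c S * ∏ e ∈ S, z e

theorem mp_insert {K : Type*} [CommRing K] (c : Finset E → K) (V : Finset E) (g : E) (hg : g ∉ V)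
    (z : E → K) : mp c (insert g V) z = mp c V z + z g * mp (fun S => c (insert g S)) V z := by
  unfold mp
  rw [Finset.sum_powerset_insert hg, Finset.mul_sum]
  congr 1
  apply Finset.sum_congr rfl
  intro S hS
  have hgS : g ∉ S := fun h => hg (Finset.mem_powerset.1 hS h)
  rw [Finset.prod_insert hgS]
  ring

omit [DecidableEq E] in
theorem mp_congr {K : Type*} [CommRing K] (c : Finset E → K) (V : Finset E) (z z' : E → K)
    (h : ∀ e ∈ V, z e = z' e) : mp c V z = mp c V z' := by
  unfold mp
  apply Finset.sum_congr rfl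
  intro S hS
  congr 1
  exact Finset.prod_congr rfl fun e he => h e (Finset.mem_powerset.1 hS he)

omit [DecidableEq E] in
theorem mp_ofReal (c : Finset E → ℝ) (V : Finset E) (w : E → ℝ) :
    mp (fun S => (c S : ℂ)) V (fun e => (w e : ℂ)) = ((mp c V w : ℝ) : ℂ) := by
  unfold mp
  push_cast
  rfl

omit [DecidableEq E] in
theorem mp_nonneg (c : Finset E → ℝ) (V : Finset E) (w : E → ℝ) (hc : ∀ S, 0 ≤ c S)
    (hw : ∀ e, 0 ≤ w e) : 0 ≤ mp c V w :=
  Finset.sum_nonneg fun S _ => mul_nonneg (hc S) (Finset.prod_nonneg fun e _ => hw e)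

omit [DecidableEq E] in
theorem mp_continuous (c : Finset E → ℂ) (V : Finset E) : Continuous (mp c V) := by
  unfold mp
  fun_prop

/-- stability of the generating polynomial -/
def StableOn (c : Finset E → ℝ) (W : Finset E) : Prop :=
  ∀ z : E → ℂ, (∀ i ∈ W, 0 < (z i).im) → mp (fun S => (c S : ℂ)) W z ≠ 0

theorem im_nonneg_open (c : Finset E → ℝ) (V : Finset E) (g : E) (hg : g ∉ V)
    (hst : StableOn c (insert g V)) (z : E → ℂ) (hz : ∀ i ∈ V, 0 < (z i).im) :
    0 ≤ (mp (fun S => (c S : ℂ)) V z *
      (starRingEnd ℂ) (mp (fun S => (c (insert g S) : ℂ)) V z)).im := by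
  set A := mp (fun S => (c S : ℂ)) V z with hA
  set B := mp (fun S => (c (insert g S) : ℂ)) V z with hB
  by_cases hB0 : B = 0
  · rw [hB0]; simp
  by_contra hneg
  push Not at hneg
  -- take z_g = -A/B
  have hns : 0 < Complex.normSq B := Complex.normSq_pos.2 hB0
  have him : 0 < (-(A / B)).im := by
    have : A / B = A * (starRingEnd ℂ) B / (Complex.normSq B : ℂ) := by
      rw [div_eq_div_iff hB0 (by exact_mod_cast hns.ne')]
      rw [mul_assoc, mul_comm ((starRingEnd ℂ) B) B, Complex.mul_conj]
    rw [this, Complex.neg_im, Complex.div_ofReal_im]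
    have : (A * (starRingEnd ℂ) B).im / Complex.normSq B < 0 := div_neg_of_neg_of_pos hneg hns
    linarith
  let z' : E → ℂ := Function.update z g (-(A / B))
  have hz' : ∀ i ∈ insert g V, 0 < (z' i).im := by
    intro i hi
    by_cases hig : i = g
    · subst hig; simp only [z', Function.update_self]; exact him
    · simp only [z', Function.update_of_ne hig]
      exact hz i ((Finset.mem_insert.1 hi).resolve_left hig)
  apply hst z' hz'
  rw [mp_insert _ _ _ hg]
  have e1 : mp (fun S => (c S : ℂ)) V z' = A := by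
    rw [hA]
    apply mp_congr
    intro e he
    have : e ≠ g := fun h => hg (h ▸ he)
    simp [z', Function.update_of_ne this]
  have e2 : mp (fun S => (c (insert g S) : ℂ)) V z' = B := by
    rw [hB]
    apply mp_congr
    intro e he
    have : e ≠ g := fun h => hg (h ▸ he)
    simp [z', Function.update_of_ne this]
  have e3 : mp (fun S => ((fun S => (c S : ℂ)) (insert g S))) V z' = B := e2
  rw [e1, e3]
  simp only [z', Function.update_self]
  field_simp
  ring

theorem im_nonneg_closed (c : Finset E → ℝ) (V : Finset E) (g : E) (hg : g ∉ V)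
    (hst : StableOn c (insert g V)) (z : E → ℂ) (hz : ∀ i ∈ V, 0 ≤ (z i).im) :
    0 ≤ (mp (fun S => (c S : ℂ)) V z *
      (starRingEnd ℂ) (mp (fun S => (c (insert g S) : ℂ)) V z)).im := by
  let F : (E → ℂ) → ℝ := fun z => (mp (fun S => (c S : ℂ)) V z *
      (starRingEnd ℂ) (mp (fun S => (c (insert g S) : ℂ)) V z)).im
  have hF : Continuous F := by
    have h1 := mp_continuous (fun S => (c S : ℂ)) V
    have h2 := mp_continuous (fun S => (c (insert g S) : ℂ)) V
    exact Complex.continuous_im.comp (h1.mul (Complex.continuous_conj.comp h2))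
  let γ : ℝ → (E → ℂ) := fun t e => z e + t * Complex.I
  have hγ : Continuous γ := by fun_prop
  have hγ0 : γ 0 = z := by ext e; simp [γ]
  have hlim : Tendsto (fun t => F (γ t)) (𝓝[>] 0) (𝓝 (F z)) := by
    have := ((hF.comp hγ).tendsto 0).mono_left (nhdsWithin_le_nhds (s := Set.Ioi (0 : ℝ)))
    simpa [Function.comp_def, hγ0] using this
  apply ge_of_tendsto hlim
  filter_upwards [self_mem_nhdsWithin] with t ht
  apply im_nonneg_open c V g hg hst
  intro i hi
  have := hz i hi
  simp only [γ, Complex.add_im, Complex.mul_im, Complex.ofReal_re, Complex.I_im, mul_one,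
    Complex.ofReal_im, Complex.I_re, mul_zero, add_zero]
  have ht' : (0 : ℝ) < t := ht
  linarith

theorem rayleigh (c : Finset E → ℝ) (U : Finset E) (g h : E) (hh : h ∉ U) (hg : g ∉ insert h U)
    (hst : StableOn c (insert g (insert h U))) (w : E → ℝ) :
    mp c U w * mp (fun S => c (insert g (insert h S))) U w ≤
      mp (fun S => c (insert h S)) U w * mp (fun S => c (insert g S)) U w := by
  let z : E → ℂ := Function.update (fun e => (w e : ℂ)) h Complex.I
  have hz : ∀ i ∈ insert h U, 0 ≤ (z i).im := by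
    intro i _
    by_cases hi : i = h
    · subst hi; simp [z]
    · simp [z, Function.update_of_ne hi]
  have key := im_nonneg_closed c (insert h U) g hg hst z hz
  rw [mp_insert _ _ _ hh, mp_insert _ _ _ hh] at key
  have hzc : ∀ c' : Finset E → ℝ, mp (fun S => (c' S : ℂ)) U z = ((mp c' U w : ℝ) : ℂ) := by
    intro c'
    rw [← mp_ofReal]
    apply mp_congr
    intro e he
    have : e ≠ h := fun h' => hh (h' ▸ he)
    simp [z, Function.update_of_ne this]
  have h1 := hzc c
  have h2 := hzc (fun S => c (insert h S))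
  have h3 := hzc (fun S => c (insert g S))
  have h4 := hzc (fun S => c (insert g (insert h S)))
  have hzh : z h = Complex.I := by simp [z]
  simp only [hzh] at key
  rw [h1, h2, h3, h4] at key
  simp only [map_add, map_mul, Complex.conj_ofReal, Complex.conj_I] at key
  have e : (((mp c U w : ℝ) : ℂ) + Complex.I * ((mp (fun S => c (insert h S)) U w : ℝ) : ℂ)) *
      (((mp (fun S => c (insert g S)) U w : ℝ) : ℂ) +
        -Complex.I * ((mp (fun S => c (insert g (insert h S))) U w : ℝ) : ℂ))
      = (((mp c U w * mp (fun S => c (insert g S)) U w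
          + mp (fun S => c (insert h S)) U w * mp (fun S => c (insert g (insert h S))) U w : ℝ)) : ℂ)
        + (((mp (fun S => c (insert h S)) U w * mp (fun S => c (insert g S)) U w
          - mp c U w * mp (fun S => c (insert g (insert h S))) U w : ℝ)) : ℂ) * Complex.I := by
    push_cast
    ring_nf
    rw [Complex.I_sq]
    ring
  rw [e] at key
  simp only [Complex.add_im, Complex.ofReal_im, Complex.mul_im, Complex.ofReal_re, Complex.I_im,
    Complex.I_re, mul_one, mul_zero, zero_add, add_zero] at key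
  linarith

theorem gen_eq_mp (p : Finset E → Finset E → ℝ) (W : Finset E) (w : E → ℝ) :
    gen p W w = mp (p W) W w := rfl

theorem genIn_eq (p : Finset E → Finset E → ℝ) (V : Finset E) (g : E) (hg : g ∉ V) (w : E → ℝ) :
    genIn p (insert g V) g w = w g * mp (fun S => p (insert g V) (insert g S)) V w := by
  unfold genIn mp
  rw [Finset.sum_filter, Finset.sum_powerset_insert hg, Finset.mul_sum]
  have h1 : ∑ S ∈ V.powerset, (if g ∈ S then p (insert g V) S * ∏ e ∈ S, w e else 0) = 0 := by
    apply Finset.sum_eq_zero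
    intro S hS
    rw [if_neg]
    exact fun h => hg (Finset.mem_powerset.1 hS h)
  rw [h1, zero_add]
  apply Finset.sum_congr rfl
  intro S hS
  have hgS : g ∉ S := fun h => hg (Finset.mem_powerset.1 hS h)
  rw [if_pos (Finset.mem_insert_self _ _), Finset.prod_insert hgS]
  ring

theorem mp_pos_of_sum (c : Finset E → ℝ) (W : Finset E) (hc : ∀ S, 0 ≤ c S)
    (hsum : ∑ R ∈ W.powerset, c R = 1) (w : E → ℝ) (hw : ∀ e, 0 < w e) : 0 < mp c W w := by
  have hex : ∃ R ∈ W.powerset, 0 < c R := by
    by_contra hno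
    push Not at hno
    have : ∑ R ∈ W.powerset, c R ≤ 0 := Finset.sum_nonpos hno
    linarith
  obtain ⟨R, hR, hR0⟩ := hex
  apply Finset.sum_pos' (fun S _ => mul_nonneg (hc S) (Finset.prod_nonneg fun e _ => (hw e).le))
  exact ⟨R, hR, mul_pos hR0 (Finset.prod_pos fun e _ => hw e)⟩

theorem anti_of_stable (p : Finset E → Finset E → ℝ) (hp : ∀ W R, 0 ≤ p W R)
    (htot : ∀ W, ∑ R ∈ W.powerset, p W R = 1) (hst : ∀ W, StableOn (p W) W) :
    ∀ W, ∀ g ∈ W, ∀ h ∈ W, h ≠ g → ∀ w w' : E → ℝ, (∀ e, 0 < w e) →
    (∀ e, e ≠ h → w' e = w e) → w h ≤ w' h → pm p W g w' ≤ pm p W g w := by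
  intro W g hg h hh hne w w' hw hw' hle
  obtain ⟨V, hgV, rfl⟩ : ∃ V, g ∉ V ∧ insert g V = W :=
    ⟨W.erase g, Finset.notMem_erase g W, Finset.insert_erase hg⟩
  have hhV : h ∈ V := (Finset.mem_insert.1 hh).resolve_left hne
  obtain ⟨U, hhU, rfl⟩ : ∃ U, h ∉ U ∧ insert h U = V :=
    ⟨V.erase h, Finset.notMem_erase h V, Finset.insert_erase hhV⟩
  set W := insert g (insert h U) with hW
  set c : Finset E → ℝ := p W with hc
  have hw'pos : ∀ e, 0 < w' e := by
    intro e
    by_cases he : e = h
    · subst he; exact lt_of_lt_of_le (hw e) hle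
    · rw [hw' e he]; exact hw e
  have hgenw : ∀ v : E → ℝ, gen p W v = (mp c U v + v h * mp (fun S => c (insert h S)) U v)
      + v g * (mp (fun S => c (insert g S)) U v + v h * mp (fun S => c (insert g (insert h S))) U v) := by
    intro v
    rw [gen_eq_mp, hW, mp_insert _ _ _ hgV, mp_insert _ _ _ hhU, mp_insert _ _ _ hhU]
  have hinw : ∀ v : E → ℝ, genIn p W g v =
      v g * (mp (fun S => c (insert g S)) U v + v h * mp (fun S => c (insert g (insert h S))) U v) := by
    intro v
    rw [hW, genIn_eq p _ g hgV, mp_insert _ _ _ hhU]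
  have hcongr : ∀ c' : Finset E → ℝ, mp c' U w' = mp c' U w := by
    intro c'
    apply mp_congr
    intro e he
    exact hw' e (fun h' => hhU (h' ▸ he))
  have hG := mp_pos_of_sum (p W) W (hp W) (htot W) w hw
  have hG' := mp_pos_of_sum (p W) W (hp W) (htot W) w' hw'pos
  rw [← gen_eq_mp] at hG hG'
  unfold pm
  rw [div_le_div_iff₀ hG' hG]
  have hR := rayleigh c U g h hhU hgV (hst W) w
  rw [hgenw w, hgenw w', hinw w, hinw w', hcongr, hcongr, hcongr, hcongr,
    hw' g (Ne.symm hne)]
  set A0 := mp c U w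
  set A1 := mp (fun S => c (insert h S)) U w
  set B0 := mp (fun S => c (insert g S)) U w
  set B1 := mp (fun S => c (insert g (insert h S))) U w
  have hkey : 0 ≤ (w' h - w h) * (A1 * B0 - A0 * B1) :=
    mul_nonneg (by linarith) (by linarith)
  have hg0 := hw g
  have : w g * (B0 + w h * B1) * (A0 + w' h * A1 + w g * (B0 + w' h * B1))
      - w g * (B0 + w' h * B1) * (A0 + w h * A1 + w g * (B0 + w h * B1))
      = w g * ((w' h - w h) * (A1 * B0 - A0 * B1)) := by ring
  nlinarith [mul_nonneg hg0.le hkey]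

/-- the univariate polynomial obtained by scaling all the weights -/
noncomputable def up (c : Finset E → ℝ) (V : Finset E) (w : E → ℝ) : Polynomial ℝ :=
  ∑ S ∈ V.powerset, Polynomial.C (c S * ∏ e ∈ S, w e) * Polynomial.X ^ S.card

theorem up_coeff_nonneg (c : Finset E → ℝ) (V : Finset E) (w : E → ℝ) (hc : ∀ S, 0 ≤ c S)
    (hw : ∀ e, 0 < w e) (n : ℕ) : 0 ≤ (up c V w).coeff n := by
  unfold up
  rw [Polynomial.finset_sum_coeff]
  apply Finset.sum_nonneg
  intro S _
  rw [Polynomial.coeff_C_mul, Polynomial.coeff_X_pow]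
  apply mul_nonneg (mul_nonneg (hc S) (Finset.prod_nonneg fun e _ => (hw e).le))
  split_ifs <;> norm_num

theorem up_eval (c : Finset E → ℝ) (V : Finset E) (w : E → ℝ) (x : ℝ) :
    (up c V w).eval x = mp c V (fun e => x * w e) := by
  unfold up mp
  rw [Polynomial.eval_finset_sum]
  apply Finset.sum_congr rfl
  intro S _
  rw [Polynomial.eval_mul, Polynomial.eval_C, Polynomial.eval_pow, Polynomial.eval_X,
    Finset.prod_mul_distrib, Finset.prod_const]
  ring

theorem up_eval_complex (c : Finset E → ℝ) (V : Finset E) (w : E → ℝ) (x : ℂ) :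
    ((up c V w).map (algebraMap ℝ ℂ)).eval x = mp (fun S => (c S : ℂ)) V (fun e => x * w e) := by
  unfold up mp
  rw [Polynomial.map_sum, Polynomial.eval_finset_sum]
  apply Finset.sum_congr rfl
  intro S _
  rw [Polynomial.map_mul, Polynomial.map_C, Polynomial.map_pow, Polynomial.map_X,
    Polynomial.eval_mul, Polynomial.eval_C, Polynomial.eval_pow, Polynomial.eval_X,
    Finset.prod_mul_distrib, Finset.prod_const]
  simp only [Complex.coe_algebraMap]
  push_cast
  ring

theorem scale_of_stable (p : Finset E → Finset E → ℝ) (hp : ∀ W R, 0 ≤ p W R)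
    (htot : ∀ W, ∑ R ∈ W.powerset, p W R = 1) (hst : ∀ W, StableOn (p W) W) :
    ∀ W, ∀ g ∈ W, ∀ w : E → ℝ, (∀ e, 0 < w e) → ∀ c : ℝ, 1 ≤ c →
    pm p W g w ≤ pm p W g (fun e => c * w e) := by
  intro W g hg w hw x hx
  obtain ⟨V, hgV, rfl⟩ : ∃ V, g ∉ V ∧ insert g V = W :=
    ⟨W.erase g, Finset.notMem_erase g W, Finset.insert_erase hg⟩
  set W := insert g V with hW
  set c : Finset E → ℝ := p W with hc
  set a := up c V w with ha
  set b := up (fun S => c (insert g S)) V w with hb
  have hx0 : 0 < x := by linarith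
  have hgenx : ∀ y : ℝ, gen p W (fun e => y * w e) = a.eval y + y * w g * b.eval y := by
    intro y
    rw [gen_eq_mp, hW, mp_insert _ _ _ hgV, ha, hb, up_eval, up_eval]
  have hinx : ∀ y : ℝ, genIn p W g (fun e => y * w e) = y * w g * b.eval y := by
    intro y
    rw [hW, genIn_eq p V g hgV, hb, up_eval]
  have hGx := mp_pos_of_sum (p W) W (hp W) (htot W) (fun e => x * w e) (fun e => mul_pos hx0 (hw e))
  have hG1 := mp_pos_of_sum (p W) W (hp W) (htot W) w hw
  rw [← gen_eq_mp] at hGx hG1
  have e1 : gen p W w = a.eval 1 + w g * b.eval 1 := by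
    have := hgenx 1; simpa using this
  have e2 : genIn p W g w = w g * b.eval 1 := by
    have := hinx 1; simpa using this
  by_cases hb0 : b = 0
  · unfold pm
    rw [hinx, e2, hb0]
    simp
  have hpick := pick_ratio a b (up_coeff_nonneg _ _ _ (hp W) hw)
    (up_coeff_nonneg _ _ _ (fun S => hp W _) hw) hb0 (by
      intro ζ t hζ ht
      have h1 := hst W (fun e => if e = g then t else ζ * w e) (by
        intro i hi
        by_cases hig : i = g
        · simp only [hig, if_true]; exact ht
        · simp only [hig, if_false]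
          rw [Complex.mul_im, Complex.ofReal_re, Complex.ofReal_im, mul_zero, zero_add]
          exact mul_pos hζ (hw i))
      rw [hW, mp_insert _ _ _ hgV] at h1
      rw [ha, hb, up_eval_complex, up_eval_complex]
      have c1 : ∀ c' : Finset E → ℂ, mp c' V (fun e => if e = g then t else ζ * w e)
          = mp c' V (fun e => ζ * w e) := by
        intro c'
        apply mp_congr
        intro e he
        have hne : e ≠ g := fun h => hgV (h ▸ he)
        simp only [hne, if_false]
      rw [c1, c1] at h1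
      simpa using h1) x hx
  unfold pm
  rw [div_le_div_iff₀ hG1 hGx, hinx, hgenx, e1, e2]
  have hg0 := hw g
  have : x * w g * b.eval x * (a.eval 1 + w g * b.eval 1) - w g * b.eval 1 * (a.eval x + x * w g * b.eval x)
      = w g * (x * (a.eval 1 * b.eval x) - a.eval x * b.eval 1) := by ring
  nlinarith [mul_nonneg hg0.le (sub_nonneg.2 hpick)]

end Poly

section Measure

variable {E : Type*}

theorem measurableSet_cyl (W R : Finset E) :
    MeasurableSet {ω : E → Bool | ∀ i ∈ W, (ω i = true ↔ i ∈ R)} := by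
  have : {ω : E → Bool | ∀ i ∈ W, (ω i = true ↔ i ∈ R)}
      = ⋂ i ∈ W, (fun ω : E → Bool => ω i) ⁻¹' {b | b = true ↔ i ∈ R} := by
    ext ω; simp
  rw [this]
  apply Finset.measurableSet_biInter
  intro i _
  exact (measurable_pi_apply i) (MeasurableSet.of_discrete)

open Classical in
theorem cyl_consistent (ν : Measure (E → Bool)) [IsProbabilityMeasure ν] (V W R : Finset E)
    (hVW : V ⊆ W) (hR : R ⊆ V) :
    (ν {ω | ∀ i ∈ V, (ω i = true ↔ i ∈ R)}).toReal =
      ∑ S ∈ W.powerset with S ∩ V = R, (ν {ω | ∀ i ∈ W, (ω i = true ↔ i ∈ S)}).toReal := by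
  have hset : {ω : E → Bool | ∀ i ∈ V, (ω i = true ↔ i ∈ R)} =
      ⋃ S ∈ (W.powerset.filter (fun S => S ∩ V = R)),
        {ω : E → Bool | ∀ i ∈ W, (ω i = true ↔ i ∈ S)} := by
    ext ω
    simp only [Set.mem_setOf_eq, Set.mem_iUnion, Finset.mem_filter, Finset.mem_powerset,
      exists_prop]
    constructor
    · intro hω
      refine ⟨W.filter (fun i => ω i = true), ⟨Finset.filter_subset _ _, ?_⟩, ?_⟩
      · ext i
        simp only [Finset.mem_inter, Finset.mem_filter]
        constructor
        · rintro ⟨⟨_, h1⟩, h2⟩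
          exact (hω i h2).1 h1
        · intro hi
          have hiV := hR hi
          exact ⟨⟨hVW hiV, (hω i hiV).2 hi⟩, hiV⟩
      · intro i hi
        simp [hi]
    · rintro ⟨S, ⟨_, hSV⟩, hω⟩ i hi
      rw [hω i (hVW hi), ← hSV]
      simp [hi]
  rw [hset, measure_biUnion_finset, ENNReal.toReal_sum]
  · intro S _
    exact measure_ne_top _ _
  · intro S hS T hT hne
    rw [Function.onFun, Set.disjoint_left]
    intro ω h1 h2
    apply hne
    have hSW : S ⊆ W := by
      have := (Finset.mem_filter.1 hS).1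
      exact Finset.mem_powerset.1 this
    have hTW : T ⊆ W := by
      have := (Finset.mem_filter.1 hT).1
      exact Finset.mem_powerset.1 this
    ext i
    constructor
    · intro hi
      exact (h2 i (hSW hi)).1 ((h1 i (hSW hi)).2 hi)
    · intro hi
      exact (h1 i (hTW hi)).1 ((h2 i (hTW hi)).2 hi)
  · intro S _
    exact measurableSet_cyl W S

open Classical in
theorem isGood_of_stronglyRayleigh {E : Type*} (ν : Measure (E → Bool)) [IsProbabilityMeasure ν]
    (hsr : StronglyRayleigh.IsStronglyRayleigh ν) :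
    IsGood (fun W R => (ν {ω | ∀ i ∈ W, (ω i = true ↔ i ∈ R)}).toReal) := by
  set p : Finset E → Finset E → ℝ :=
    (fun W R => (ν {ω | ∀ i ∈ W, (ω i = true ↔ i ∈ R)}).toReal) with hp
  have hnn : ∀ W R, 0 ≤ p W R := fun W R => ENNReal.toReal_nonneg
  have hcons : ∀ V W R, V ⊆ W → R ⊆ V → p V R = ∑ S ∈ W.powerset with S ∩ V = R, p W S :=
    fun V W R h1 h2 => cyl_consistent ν V W R h1 h2
  have htot : ∀ W, ∑ R ∈ W.powerset, p W R = 1 := by
    intro W
    have h := hcons ∅ W ∅ (Finset.empty_subset _) (Finset.Subset.refl _)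
    have h1 : p ∅ ∅ = 1 := by
      simp [hp]
    rw [h1] at h
    rw [h]
    apply Finset.sum_congr _ (fun _ _ => rfl)
    ext S
    simp
  have hst : ∀ W, StableOn (p W) W := by
    intro W z hz
    exact hsr W z hz
  exact ⟨fun W R _ => hnn W R, htot, hcons, anti_of_stable p hnn htot hst,
    scale_of_stable p hnn htot hst⟩

end Measure

end Crest.Agent.SRF
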