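import Crest.Agent.SRF_Nat
import Crest.Agent.SRF_SR
import Crest.Agent.SRF_EdgeLab

/-!
Task SRF-T7 (row S0254, statement S0255): assembly of the factor map for group-indexed strongly
Rayleigh processes.
-/

set_option autoImplicit false

namespace Crest.Agent.SRF

open MeasureTheory Filter Topology

/-! ### a convergent subsequence of windows -/

section Subseq

variable {E : Type*} [DecidableEq E]

/-- If the schemes are eventually `2^-k`-close in probability, they converge almost surely. -/
theorem ae_tendsto_of_fast {p : Finset E → Finset E → ℝ} (g : E) (s : ℕ) (W : ℕ → Finset E)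
    (K : ℕ)
    (h : ∀ k, K ≤ k → lab E {L | (1 / 2 : ℝ) ^ k < |(Zs p (W k) L (g, s + 1) : ℝ) -
      Zs p (W (k + 1)) L (g, s + 1)|} ≤ ENNReal.ofReal ((1 / 2 : ℝ) ^ k)) :
    ∀ᵐ L ∂lab E, ∃ z : unitInterval, Tendsto (fun k => Zs p (W k) L (g, s + 1)) atTop (𝓝 z) := by
  set A : ℕ → Set (Lab E) := fun k => {L | (1 / 2 : ℝ) ^ (k + K) <
    |(Zs p (W (k + K)) L (g, s + 1) : ℝ) - Zs p (W (k + K + 1)) L (g, s + 1)|} with hA
  have hsum : ∑' k, lab E (A k) ≠ ⊤ := by
    have h1 : ∀ k, lab E (A k) ≤ ENNReal.ofReal ((1 / 2 : ℝ) ^ k) := by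
      intro k
      refine (h (k + K) (Nat.le_add_left _ _)).trans ?_
      apply ENNReal.ofReal_le_ofReal
      exact pow_le_pow_of_le_one (by norm_num) (by norm_num) (Nat.le_add_right _ _)
    refine ne_top_of_le_ne_top ?_ (ENNReal.tsum_le_tsum h1)
    rw [← ENNReal.ofReal_tsum_of_nonneg (fun k => by positivity) summable_geometric_two]
    exact ENNReal.ofReal_ne_top
  filter_upwards [ae_eventually_notMem hsum] with L hL
  have hc : CauchySeq (fun k => Zs p (W k) L (g, s + 1)) := by
    apply cauchySeq_of_summable_dist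
    rw [← summable_nat_add_iff K]
    refine Summable.of_norm_bounded_eventually_nat (g := fun k => (1 / 2 : ℝ) ^ k)
      summable_geometric_two ?_
    filter_upwards [hL] with k hk
    have h2 : |(Zs p (W (k + K)) L (g, s + 1) : ℝ) - Zs p (W (k + K + 1)) L (g, s + 1)| ≤
        (1 / 2 : ℝ) ^ (k + K) := not_lt.1 hk
    rw [Real.norm_of_nonneg dist_nonneg]
    have h3 : dist (Zs p (W (k + K)) L (g, s + 1)) (Zs p (W (k + K).succ) L (g, s + 1)) =
        |(Zs p (W (k + K)) L (g, s + 1) : ℝ) - Zs p (W (k + K + 1)) L (g, s + 1)| := by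
      rw [Subtype.dist_eq, Real.dist_eq]
    rw [h3]
    exact h2.trans (pow_le_pow_of_le_one (by norm_num) (by norm_num) (Nat.le_add_right _ _))
  exact cauchySeq_tendsto_of_complete hc

/-- along a fast subsequence of any exhaustion the schemes converge almost surely at a given site -/
theorem exists_subseq_limit {p : Finset E → Finset E → ℝ} (hp : IsGood p) (g : E)
    (V : ℕ → Finset E) (hV : Monotone V) (hVex : ∀ F : Finset E, ∃ n, F ⊆ V n) :
    ∃ n : ℕ → ℕ, StrictMono n ∧
      ∀ s, ∀ᵐ L ∂lab E, ∃ z : unitInterval,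
        Tendsto (fun k => Zs p (V (n k)) L (g, s + 1)) atTop (𝓝 z) := by
  -- thresholds
  have h1 : ∀ k s : ℕ, ∃ N : ℕ, ∀ n n', N ≤ n → N ≤ n' →
      lab E {L | (1 / 2 : ℝ) ^ k < |(Zs p (V n) L (g, s + 1) : ℝ) - Zs p (V n') L (g, s + 1)|} ≤
        ENNReal.ofReal ((1 / 2 : ℝ) ^ k) := by
    intro k s
    obtain ⟨U, hU⟩ := Zs_cauchy hp g s ((1 / 2 : ℝ) ^ k) (by positivity)
    obtain ⟨N, hN⟩ := hVex U
    exact ⟨N, fun n n' hn hn' => hU _ _ (hN.trans (hV hn)) (hN.trans (hV hn'))⟩
  choose N hN using h1
  let M : ℕ → ℕ := fun k => (Finset.range (k + 1)).sup (fun s => N k s)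
  have hM : ∀ k s, s ≤ k → N k s ≤ M k := fun k s hs =>
    Finset.le_sup (f := fun s => N k s) (Finset.mem_range.2 (Nat.lt_succ_of_le hs))
  let n : ℕ → ℕ := fun k => k + (Finset.range (k + 1)).sup M
  have hn : StrictMono n := by
    refine strictMono_nat_of_lt_succ fun k => ?_
    have : (Finset.range (k + 1)).sup M ≤ (Finset.range (k + 1 + 1)).sup M :=
      Finset.sup_mono (Finset.range_mono (Nat.le_succ _))
    simp only [n]
    omega
  have hnM : ∀ k, M k ≤ n k := by
    intro k
    have : M k ≤ (Finset.range (k + 1)).sup M := Finset.le_sup (Finset.mem_range.2 (Nat.lt_succ_self _))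
    exact this.trans (Nat.le_add_left _ _)
  refine ⟨n, hn, fun s => ?_⟩
  refine ae_tendsto_of_fast g s (fun k => V (n k)) s fun k hk => ?_
  have h2 : N k s ≤ n k := (hM k s hk).trans (hnM k)
  exact hN k s _ _ h2 (h2.trans (hn.monotone (Nat.le_succ k)))

end Subseq

/-! ### labels on an arbitrary index type -/

section LabOf

/-- a sequence of uniforms at every site from one uniform at every site -/
noncomputable def labOf {Γ : Type*} (u : Γ → unitInterval) : Lab Γ :=
  fun i => EdgeLab.theta (u i.1) i.2

theorem measurable_labOf {Γ : Type*} : Measurable (labOf (Γ := Γ)) :=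
  measurable_pi_iff.2 fun i =>
    (measurable_pi_apply i.2).comp (EdgeLab.measurable_theta.comp (measurable_pi_apply i.1))

theorem map_labOf (Γ : Type*) :
    (Crest.ProbabilityR.Labels.labelMeasure Γ).map labOf = lab Γ := by
  have h1 : (Crest.ProbabilityR.Labels.labelMeasure Γ).map
      (fun (x : Γ → unitInterval) (v : Γ) => EdgeLab.theta (x v)) =
      Measure.infinitePi (fun _ : Γ => Measure.infinitePi (fun _ : ℕ => (volume : Measure unitInterval))) := by
    unfold Crest.ProbabilityR.Labels.labelMeasure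
    rw [Measure.infinitePi_map_pi (μ := fun _ : Γ => (volume : Measure unitInterval))
      (f := fun _ => EdgeLab.theta) (fun _ => EdgeLab.measurable_theta)]
    simp only [EdgeLab.map_theta]
  have h2 : Measurable (fun (x : Γ → unitInterval) (v : Γ) => EdgeLab.theta (x v)) :=
    measurable_pi_iff.2 fun v => EdgeLab.measurable_theta.comp (measurable_pi_apply v)
  unfold lab
  rw [← Measure.infinitePi_map_curry_symm (fun (_ : Γ) (_ : ℕ) => (volume : Measure unitInterval)), ← h1,
    Measure.map_map (MeasurableEquiv.measurable _) h2]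
  rfl

/-- reindexing labels along a permutation of the sites -/
theorem map_reindex {E : Type*} (f : Equiv.Perm E) :
    (lab E).map (fun (L : Lab E) (i : E × ℕ) => L (f i.1, i.2)) = lab E := by
  have hf : Function.Injective (fun i : E × ℕ => (f i.1, i.2)) := by
    rintro ⟨e, k⟩ ⟨e', k'⟩ h
    simp only [Prod.mk.injEq, EmbeddingLike.apply_eq_iff_eq] at h
    rw [h.1, h.2]
  exact Measure.map_infinitePi_infinitePi_of_inj (P := fun _ : E × ℕ => (volume : Measure unitInterval)) hf

end LabOf

/-! ### the law of a random subset is determined by its inclusion probabilities -/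

theorem ext_of_inclusion {E : Type*} [Countable E] (μ ν : Measure (E → Bool))
    [IsProbabilityMeasure μ] [IsProbabilityMeasure ν]
    (h : ∀ F : Finset E, μ {ω | ∀ e ∈ F, ω e = true} = ν {ω | ∀ e ∈ F, ω e = true}) : μ = ν := by
  classical
  set C : Set (Set (E → Bool)) := {A | ∃ F : Finset E, A = {ω | ∀ e ∈ F, ω e = true}} with hC
  have hpi : IsPiSystem C := by
    rintro _ ⟨F, rfl⟩ _ ⟨F', rfl⟩ _
    refine ⟨F ∪ F', ?_⟩
    ext ω
    simp only [Set.mem_inter_iff, Set.mem_ofPred_eq, Finset.mem_union]
    constructor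
    · rintro ⟨h1, h2⟩ e (he | he)
      · exact h1 e he
      · exact h2 e he
    · intro h1
      exact ⟨fun e he => h1 e (Or.inl he), fun e he => h1 e (Or.inr he)⟩
  have hgen : (MeasurableSpace.pi : MeasurableSpace (E → Bool)) = MeasurableSpace.generateFrom C := by
    apply le_antisymm
    · -- coordinates are measurable for the generated sigma-algebra
      have hcoord : ∀ e : E, Measurable[MeasurableSpace.generateFrom C] (fun ω : E → Bool => ω e) := by
        intro e
        refine @measurable_to_bool _ (MeasurableSpace.generateFrom C) _ ?_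
        apply MeasurableSpace.measurableSet_generateFrom
        refine ⟨{e}, ?_⟩
        ext ω
        simp
      have := @measurable_pi_iff (E → Bool) E (fun _ => Bool) (MeasurableSpace.generateFrom C) _ (fun ω => ω)
      have h1 : @Measurable _ _ (MeasurableSpace.generateFrom C) MeasurableSpace.pi (fun ω : E → Bool => ω) :=
        this.2 hcoord
      intro A hA
      exact h1 hA
    · apply MeasurableSpace.generateFrom_le
      rintro _ ⟨F, rfl⟩
      have : {ω : E → Bool | ∀ e ∈ F, ω e = true} = ⋂ e ∈ F, (fun ω => ω e) ⁻¹' {true} := by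
        ext ω; simp
      rw [this]
      exact Finset.measurableSet_biInter _ fun e _ => measurable_pi_apply e (measurableSet_singleton true)
  refine MeasureTheory.ext_of_generate_finite C hgen hpi ?_ ?_
  · rintro _ ⟨F, rfl⟩
    exact h F
  · simp

end Crest.Agent.SRF
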