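import Crest.Statements.S0255
import Crest.Agent.SRF_Group

set_option autoImplicit false
open Crest Crest.ProbabilityR

namespace Crest.Agent.S0255

open MeasureTheory Filter Topology Crest.Agent.SRF

/-- the masses of the law `ν` -/
noncomputable def mass {Γ : Type*} (ν : Measure (Γ → Bool)) (W R : Finset Γ) : ℝ :=
  (ν {ω | ∀ i ∈ W, (ω i = true ↔ i ∈ R)}).toReal

theorem mass_shift {Γ : Type*} [Group Γ] (ν : Measure (Γ → Bool))
    (hinv : Crest.ProbabilityR.StronglyRayleigh.IsShiftInvariant ν) (g : Γ) :
    pcomap (mass ν) (Equiv.mulLeft g).toEmbedding = mass ν := by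
  funext W R
  unfold pcomap mass
  have hmeas : MeasurableSet {ω : Γ → Bool | ∀ i ∈ W, (ω i = true ↔ i ∈ R)} := by
    classical
    have : {ω : Γ → Bool | ∀ i ∈ W, (ω i = true ↔ i ∈ R)} =
        ⋂ i ∈ W, (fun ω : Γ → Bool => ω i) ⁻¹' {b | b = true ↔ i ∈ R} := by
      ext ω; simp
    rw [this]
    exact Finset.measurableSet_biInter _ fun i _ => measurable_pi_apply i (MeasurableSet.of_discrete)
  rw [← hinv g⁻¹ _ hmeas]
  congr 2
  ext ω
  simp only [Finset.mem_map_equiv, Set.mem_ofPred_eq, Set.mem_preimage,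
    Crest.ProbabilityR.StronglyRayleigh.leftShift, inv_inv]
  constructor
  · intro h i hi
    have := h (g * i) (by simpa using hi)
    simpa using this
  · intro h i hi
    have := h (g⁻¹ * i) (by simpa using hi)
    simpa using this

/-- For a countable group `Γ` and a strongly Rayleigh probability law `ν` on binary configurations `Γ → Bool` that is invariant under every left shift `a ↦ (h ↦ a (g⁻¹ h))`, there is a measurable map from independent uniform labels indexed by `Γ` to configurations that commutes with every left shift and pushes the label law forward to `ν`. -/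
theorem result (Γ : Type*) [Group Γ]
    [Countable Γ] (ν : MeasureTheory.Measure (Γ → Bool)) [MeasureTheory.IsProbabilityMeasure ν]
    (hsr : Crest.ProbabilityR.StronglyRayleigh.IsStronglyRayleigh ν)
    (hinv : Crest.ProbabilityR.StronglyRayleigh.IsShiftInvariant ν) :
    ∃ Φ : (Γ → unitInterval) → (Γ → Bool), Measurable Φ ∧
      (∀ (g : Γ) (u : Γ → unitInterval),
        Φ (Crest.ProbabilityR.StronglyRayleigh.leftShift g u) =
          Crest.ProbabilityR.StronglyRayleigh.leftShift g (Φ u)) ∧
      (Crest.ProbabilityR.Labels.labelMeasure Γ).map Φ = ν := by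
  classical
  have hp : IsGood (mass ν) := by
    exact isGood_of_stronglyRayleigh ν hsr
  -- exhaustion
  obtain ⟨enc, henc⟩ := exists_injective_nat Γ
  have hfin : ∀ n : ℕ, {g : Γ | enc g < n}.Finite := fun n =>
    (Set.finite_Iio n).preimage henc.injOn
  let V : ℕ → Finset Γ := fun n => (hfin n).toFinset
  have hVmem : ∀ n g, g ∈ V n ↔ enc g < n := fun n g => by simp [V]
  have hVmono : Monotone V := fun m n hmn g hg => by
    rw [hVmem] at hg ⊢
    omega
  have hVex : ∀ F : Finset Γ, ∃ n, F ⊆ V n := fun F => by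
    refine ⟨F.sup enc + 1, fun g hg => ?_⟩
    rw [hVmem]
    exact Nat.lt_succ_of_le (Finset.le_sup hg)
  obtain ⟨n, hn, hlim⟩ := exists_subseq_limit hp (1 : Γ) V hVmono hVex
  -- limit observations at the identity
  let ζ0 : ℕ → Lab Γ → unitInterval := fun s L =>
    limsup (fun k => Zs (mass ν) (V (n k)) L (1, s + 1)) atTop
  have hζ0 : ∀ s, Measurable (ζ0 s) := by
    intro s
    refine Measurable.limsup fun k => ?_
    exact (measurable_pi_iff.1 (measurable_Zs (mass ν) (V (n k)))) (1, s + 1)
  have hζlim : ∀ s, ∀ᵐ L ∂lab Γ, Tendsto (fun k => Zs (mass ν) (V (n k)) L (1, s + 1)) atTop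
      (𝓝 (ζ0 s L)) := by
    intro s
    filter_upwards [hlim s] with L hL
    obtain ⟨z, hz⟩ := hL
    have : ζ0 s L = z := hz.limsup_eq
    rw [this]
    exact hz
  -- translated labels
  let tr : Γ → Lab Γ → Lab Γ := fun g L i => L (g * i.1, i.2)
  have htr : ∀ g, Measurable (tr g) := fun g => measurable_pi_iff.2 fun i => measurable_pi_apply _
  have htrmap : ∀ g, (lab Γ).map (tr g) = lab Γ := fun g => map_reindex (Equiv.mulLeft g)
  let ζ : Γ → ℕ → Lab Γ → unitInterval := fun g s L => ζ0 s (tr g L)
  have hζ : ∀ g s, Measurable (ζ g s) := fun g s => (hζ0 s).comp (htr g)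
  let Wn : Γ → ℕ → Finset Γ := fun g k => (V (n k)).map (Equiv.mulLeft g).toEmbedding
  have hWn : ∀ g (F : Finset Γ), ∀ᶠ k in atTop, F ⊆ Wn g k := by
    intro g F
    obtain ⟨m, hm⟩ := hVex (F.map (Equiv.mulLeft g⁻¹).toEmbedding)
    filter_upwards [eventually_ge_atTop m] with k hk
    intro x hx
    have h1 : m ≤ n k := hk.trans (hn.le_apply)
    have h2 : g⁻¹ * x ∈ V (n k) := by
      refine hVmono h1 (hm ?_)
      simpa using hx
    simpa [Wn, Finset.mem_map_equiv] using h2
  have hWlim : ∀ g s, ∀ᵐ L ∂lab Γ, Tendsto (fun k => Zs (mass ν) (Wn g k) L (g, s + 1)) atTop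
      (𝓝 (ζ g s L)) := by
    intro g s
    have h1 := hζlim s
    rw [← htrmap g] at h1
    have h2 := ae_of_ae_map (htr g).aemeasurable h1
    filter_upwards [h2] with L hL
    have h3 : ∀ k, Zs (mass ν) (Wn g k) L (g, s + 1) = Zs (mass ν) (V (n k)) (tr g L) (1, s + 1) := by
      intro k
      have h4 := Zs_pcomap (mass ν) (Equiv.mulLeft g).toEmbedding (V (n k)) L 1 (s + 1)
      rw [mass_shift ν hinv g] at h4
      have h5 : (Equiv.mulLeft g).toEmbedding 1 = g := by simp
      rw [h5] at h4
      exact h4.symm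
    simp only [h3]
    exact hL
  -- the factor map
  let Φ : (Γ → unitInterval) → (Γ → Bool) := fun u g => dec (fun s => ζ g s (labOf u))
  have hΦ : Measurable Φ := by
    refine measurable_pi_iff.2 fun g => ?_
    refine measurable_dec.comp ?_
    exact measurable_pi_iff.2 fun s => (hζ g s).comp measurable_labOf
  refine ⟨Φ, hΦ, ?_, ?_⟩
  · intro γ u
    funext g
    have h1 : tr g (labOf (Crest.ProbabilityR.StronglyRayleigh.leftShift γ u)) =
        tr (γ⁻¹ * g) (labOf u) := by
      funext i
      simp only [tr, labOf, Crest.ProbabilityR.StronglyRayleigh.leftShift, mul_assoc]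
    simp only [Φ, ζ, h1]
    rfl
  · have : IsProbabilityMeasure (Crest.ProbabilityR.Labels.labelMeasure Γ) := by
      unfold Crest.ProbabilityR.Labels.labelMeasure
      infer_instance
    have : IsProbabilityMeasure ((Crest.ProbabilityR.Labels.labelMeasure Γ).map Φ) :=
      Measure.isProbabilityMeasure_map hΦ.aemeasurable
    refine ext_of_inclusion _ _ fun F => ?_
    have hms : MeasurableSet {ω : Γ → Bool | ∀ e ∈ F, ω e = true} := by
      have : {ω : Γ → Bool | ∀ e ∈ F, ω e = true} = ⋂ e ∈ F, (fun ω => ω e) ⁻¹' {true} := by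
        ext ω; simp
      rw [this]
      exact Finset.measurableSet_biInter _ fun e _ => measurable_pi_apply e (measurableSet_singleton true)
    rw [Measure.map_apply hΦ hms]
    have hlaw := law_dec hp Wn hWn ζ hζ hWlim F
    have hD : MeasurableSet {L : Lab Γ | ∀ e ∈ F, dec (fun s => ζ e s L) = true} := by
      have : {L : Lab Γ | ∀ e ∈ F, dec (fun s => ζ e s L) = true} =
          ⋂ e ∈ F, (fun L => dec (fun s => ζ e s L)) ⁻¹' {true} := by
        ext ω; simp
      rw [this]
      refine Finset.measurableSet_biInter _ fun e _ => ?_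
      exact (measurable_dec.comp (measurable_pi_iff.2 fun s => hζ e s)) (measurableSet_singleton true)
    rw [← map_labOf Γ, Measure.map_apply measurable_labOf hD] at hlaw
    have h6 : (Φ ⁻¹' {ω : Γ → Bool | ∀ e ∈ F, ω e = true}) =
        labOf ⁻¹' {L : Lab Γ | ∀ e ∈ F, dec (fun s => ζ e s L) = true} := rfl
    rw [h6, hlaw]
    unfold mass
    rw [ENNReal.ofReal_toReal (measure_ne_top _ _)]
    congr 1
    ext ω
    simp only [Set.mem_ofPred_eq]
    constructor
    · intro h e he
      exact (h e he).2 he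
    · intro h e he
      simp [h e he, he]

end Crest.Agent.S0255
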