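import Crest.Agent.S0268_IndOps

set_option autoImplicit false

/-!
# S0268 (task T4) : universal property, functoriality and exactness of `Ind`

`Ind.lift f (y, a, b) = f y + ∑ u_j f (a j) + ∑ v_j f (b j)`; build it with `linT`.
The relations needed in a `T`-module `W` are those of `T.gen` applied to vectors, e.g.
`ζ u_j = u_j ζ + ∑_k ξ_kj u_k - τ u_j - v_j` (from `zu` and `xu`),
`e_b u_j = u_j e_(b+1)` (for `b = 5`: `e_5 u_j = 0`, because `u_j = ∑ u_j e_i = ∑_{i<5} e_i u_j`).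
Suggestion: `Ind.map f := Ind.lift (Ind.incl ∘ f) ..`, or directly by `linT`.
-/

namespace Crest.Agent.S0268

section rels

variable {W : Type} [AddCommGroup W] [Module T W]

theorem T.e5_u (j : Fin 2) : T.gen.e 5 * T.gen.u j = 0 := by
  have h1 : T.gen.u j = ∑ i : Fin 5, T.gen.e i.castSucc * T.gen.u j := by
    conv_lhs => rw [← mul_one (T.gen.u j), ← T.gen.e_sum, Fin.sum_univ_succ, mul_add, T.gen.u_e0,
      zero_add, Finset.mul_sum]
    exact Finset.sum_congr rfl fun i _ => T.gen.u_e j i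
  rw [h1, Finset.mul_sum]
  apply Finset.sum_eq_zero
  intro i _
  rw [← mul_assoc, T.gen.e_mul, if_neg, zero_mul]
  intro h
  have := congrArg Fin.val h
  simp at this
  omega

theorem T.e_u_smul (b : Fin 6) (j : Fin 2) (w : W) :
    T.gen.e b • T.gen.u j • w =
      if h : b.val + 1 < 6 then T.gen.u j • T.gen.e ⟨b.val + 1, h⟩ • w else 0 := by
  split_ifs with h
  · have h1 := T.gen.u_e j ⟨b.val, by omega⟩
    have h2 : (⟨b.val, by omega⟩ : Fin 5).castSucc = b := rfl
    have h3 : (⟨b.val, by omega⟩ : Fin 5).succ = ⟨b.val + 1, h⟩ := rfl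
    rw [h2, h3] at h1
    rw [smul_smul, smul_smul, h1]
  · have : b = 5 := by
      apply Fin.ext
      have := b.isLt
      simp
      omega
    rw [this, smul_smul, T.e5_u, zero_smul]

theorem T.e_v_smul (b : Fin 6) (j : Fin 2) (w : W) :
    T.gen.e b • T.gen.v j • w = T.gen.v j • T.gen.e b • w := by
  rw [smul_smul, smul_smul, T.gen.v_e]

theorem T.x_u_smul (k l j : Fin 2) (w : W) :
    T.gen.x k l • T.gen.u j • w =
      T.gen.u j • T.gen.x k l • w + if k = j then T.gen.v l • w else 0 := by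
  have h := T.gen.xu k l j
  rw [sub_eq_iff_eq_add] at h
  rw [smul_smul, h, add_smul, smul_smul, add_comm]
  split_ifs <;> simp

theorem T.x_v_smul (k l j : Fin 2) (w : W) :
    T.gen.x k l • T.gen.v j • w = -(T.gen.v j • T.gen.x k l • w) := by
  have h := T.gen.xv k l j
  rw [smul_smul, smul_smul, ← neg_smul, eq_neg_of_add_eq_zero_left h]

theorem T.z_u_smul (j : Fin 2) (w : W) :
    T.gen.z • T.gen.u j • w =
      T.gen.u j • T.gen.z • w + ∑ k, T.gen.u k • T.gen.x k j • w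
        - ∑ k, T.gen.u j • T.gen.x k k • w := by
  have h := T.gen.zu j
  rw [sub_eq_iff_eq_add] at h
  rw [smul_smul, h, add_smul, sub_smul, Finset.sum_smul, Finset.mul_sum, Finset.sum_smul]
  simp only [smul_smul]
  abel

theorem T.z_v_smul (j : Fin 2) (w : W) :
    T.gen.z • T.gen.v j • w =
      -(T.gen.v j • T.gen.z • w) - ∑ k, T.gen.v k • T.gen.x k j • w
        + ∑ k, T.gen.v j • T.gen.x k k • w := by
  have h := T.gen.zv j
  rw [← eq_sub_iff_add_eq] at h
  rw [smul_smul, h, sub_smul, add_smul, neg_smul, Finset.sum_smul, Finset.mul_sum,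
    Finset.sum_smul]
  simp only [smul_smul]
  abel

theorem T.u_u_smul (i j : Fin 2) (w : W) : T.gen.u i • T.gen.u j • w = 0 := by
  rw [smul_smul, T.gen.uu, zero_smul]
theorem T.u_v_smul (i j : Fin 2) (w : W) : T.gen.u i • T.gen.v j • w = 0 := by
  rw [smul_smul, T.gen.uv, zero_smul]
theorem T.v_u_smul (i j : Fin 2) (w : W) : T.gen.v i • T.gen.u j • w = 0 := by
  rw [smul_smul, T.gen.vu, zero_smul]
theorem T.v_v_smul (i j : Fin 2) (w : W) : T.gen.v i • T.gen.v j • w = 0 := by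
  rw [smul_smul, T.gen.vv, zero_smul]

end rels

/-- `B`-modules concentrated in positive degrees -/
class Pos (Y : Type) [AddCommGroup Y] [Module B Y] : Prop where
  e0 : ∀ y : Y, B.gen.e 0 • y = 0

section Ind

variable {Y Y' Y'' : Type} [AddCommGroup Y] [Module ℂ Y] [Module B Y] [IsScalarTower ℂ B Y]
  [AddCommGroup Y'] [Module ℂ Y'] [Module B Y'] [IsScalarTower ℂ B Y']
  [AddCommGroup Y''] [Module ℂ Y''] [Module B Y''] [IsScalarTower ℂ B Y'']

theorem Pos.opsB_e0 [Pos Y] : (opsB Y).e 0 = 0 := by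
  ext y; simp [Pos.e0]

/-- the induced `T`-module -/
abbrev Ind (Y : Type) [AddCommGroup Y] [Module ℂ Y] [Module B Y] [IsScalarTower ℂ B Y]
    [Pos Y] : Type := (indOps (opsB Y) Pos.opsB_e0).Mod

/-- make an element of `Ind Y` -/
def Ind.mk [Pos Y] (y : Y) (a b : Fin 2 → Y) : Ind Y := (y, a, b)

/-- `Y → Ind Y` -/
def Ind.incl [Pos Y] (y : Y) : Ind Y := Ind.mk y 0 0

theorem Ind.smul_e [Pos Y] (i : Fin 6) (y : Y) (a b : Fin 2 → Y) :
    T.gen.e i • Ind.mk y a b = Ind.mk (B.gen.e i • y)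
      (fun j => if h : i.val + 1 < 6 then B.gen.e ⟨i.val + 1, h⟩ • (a j) else 0)
      (fun j => B.gen.e i • b j) := by
  rw [TOps.smul_e]; rfl

theorem Ind.smul_x [Pos Y] (k l : Fin 2) (y : Y) (a b : Fin 2 → Y) :
    T.gen.x k l • Ind.mk y a b = Ind.mk (B.gen.x k l • y)
      (fun j => B.gen.x k l • (a j))
      (fun j => -(B.gen.x k l • b j) + if j = l then a k else 0) := by
  rw [TOps.smul_x]; rfl

theorem Ind.smul_z [Pos Y] (y : Y) (a b : Fin 2 → Y) :
    T.gen.z • Ind.mk y a b = Ind.mk (B.gen.z • y)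
      (fun j => B.gen.z • (a j) + ∑ i, B.gen.x j i • a i - ∑ i, B.gen.x i i • a j)
      (fun j => -(B.gen.z • b j) - ∑ i, B.gen.x j i • b i + ∑ i, B.gen.x i i • b j) := by
  rw [TOps.smul_z]; rfl

theorem Ind.smul_u [Pos Y] (i : Fin 2) (y : Y) (a b : Fin 2 → Y) :
    T.gen.u i • Ind.mk y a b = Ind.mk 0 (fun j => if j = i then y else 0) 0 := by
  rw [TOps.smul_u]; rfl

theorem Ind.smul_v [Pos Y] (i : Fin 2) (y : Y) (a b : Fin 2 → Y) :
    T.gen.v i • Ind.mk y a b = Ind.mk 0 0 (fun j => if j = i then y else 0) := by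
  rw [TOps.smul_v]; rfl

theorem Ind.mk_add [Pos Y] (y y' : Y) (a b a' b' : Fin 2 → Y) :
    Ind.mk y a b + Ind.mk y' a' b' = Ind.mk (y + y') (a + a') (b + b') := rfl

theorem Ind.smul_mk [Pos Y] (c : ℂ) (y : Y) (a b : Fin 2 → Y) :
    c • Ind.mk y a b = Ind.mk (c • y) (c • a) (c • b) := rfl

theorem Ind.mk_inj [Pos Y] {y y' : Y} {a b a' b' : Fin 2 → Y}
    (h : Ind.mk y a b = Ind.mk y' a' b') : y = y' ∧ a = a' ∧ b = b' := by
  have h1 := congrArg (fun t : IndC Y => t.1) h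
  have h2 := congrArg (fun t : IndC Y => t.2.1) h
  have h3 := congrArg (fun t : IndC Y => t.2.2) h
  exact ⟨h1, h2, h3⟩

theorem Ind.exists_mk [Pos Y] (t : Ind Y) : ∃ y a b, t = Ind.mk y a b :=
  ⟨(show IndC Y from t).1, (show IndC Y from t).2.1, (show IndC Y from t).2.2, rfl⟩

/-- the `ℂ`-linear map underlying `Ind.lift` -/
noncomputable def Ind.liftC [Pos Y] {W : Type} [AddCommGroup W] [Module ℂ W] [Module T W]
    [IsScalarTower ℂ T W] (f : Y →ₗ[ℂ] W) : Ind Y →ₗ[ℂ] W where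
  toFun t := f (show IndC Y from t).1 + ∑ j, T.gen.u j • f ((show IndC Y from t).2.1 j) +
    ∑ j, T.gen.v j • f ((show IndC Y from t).2.2 j)
  map_add' s t := by
    obtain ⟨y, a, b, rfl⟩ := Ind.exists_mk s
    obtain ⟨y', a', b', rfl⟩ := Ind.exists_mk t
    rw [Ind.mk_add]
    simp only [Ind.mk, Pi.add_apply, map_add, smul_add, Finset.sum_add_distrib]
    abel
  map_smul' c t := by
    obtain ⟨y, a, b, rfl⟩ := Ind.exists_mk t
    rw [Ind.smul_mk]
    have key : ∀ (g : T) (w : W), g • c • w = c • g • w := by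
      intro g w
      rw [← one_smul T w, ← smul_assoc c (1 : T) w, ← smul_assoc c g, smul_smul, smul_smul,
        mul_smul_comm, smul_mul_assoc]
    simp only [Ind.mk, Pi.smul_apply, map_smul, smul_add, Finset.smul_sum, RingHom.id_apply, key]

theorem Ind.liftC_mk [Pos Y] {W : Type} [AddCommGroup W] [Module ℂ W] [Module T W]
    [IsScalarTower ℂ T W] (f : Y →ₗ[ℂ] W) (y : Y) (a b : Fin 2 → Y) :
    Ind.liftC f (Ind.mk y a b) =
      f y + ∑ j, T.gen.u j • f (a j) + ∑ j, T.gen.v j • f (b j) := rfl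

/-- universal property of `Ind Y` (task T4) -/
noncomputable def Ind.lift [Pos Y] {W : Type} [AddCommGroup W] [Module ℂ W] [Module T W]
    [IsScalarTower ℂ T W] (f : Y →ₗ[ℂ] W)
    (he : ∀ i y, f (B.gen.e i • y) = T.gen.e i • f y)
    (hx : ∀ k l y, f (B.gen.x k l • y) = T.gen.x k l • f y)
    (hz : ∀ y, f (B.gen.z • y) = T.gen.z • f y) : Ind Y →ₗ[T] W := by
  refine linT (Ind.liftC f) ?_ ?_ ?_ ?_ ?_
  · intro i m
    obtain ⟨y, a, b, rfl⟩ := Ind.exists_mk m
    rw [Ind.smul_e, Ind.liftC_mk, Ind.liftC_mk, he]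
    simp only [Fin.sum_univ_two, smul_add, T.e_u_smul, T.e_v_smul, he]
    split_ifs with h
    · simp only [he]
    · simp
  · intro k l m
    obtain ⟨y, a, b, rfl⟩ := Ind.exists_mk m
    rw [Ind.smul_x, Ind.liftC_mk, Ind.liftC_mk, hx]
    simp only [Fin.sum_univ_two, smul_add, T.x_u_smul, T.x_v_smul, hx, map_add, map_neg,
      apply_ite f, map_zero]
    fin_cases k <;> fin_cases l <;> simp <;> abel
  · intro m
    obtain ⟨y, a, b, rfl⟩ := Ind.exists_mk m
    rw [Ind.smul_z, Ind.liftC_mk, Ind.liftC_mk, hz]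
    simp only [Fin.sum_univ_two, smul_add, smul_sub, smul_neg, T.z_u_smul, T.z_v_smul, hx, hz,
      map_add, map_neg, map_sub]
    abel
  · intro i m
    obtain ⟨y, a, b, rfl⟩ := Ind.exists_mk m
    rw [Ind.smul_u, Ind.liftC_mk, Ind.liftC_mk]
    simp only [Fin.sum_univ_two, smul_add, T.u_u_smul, T.u_v_smul, map_zero, Pi.zero_apply,
      smul_zero, apply_ite f]
    fin_cases i <;> simp
  · intro i m
    obtain ⟨y, a, b, rfl⟩ := Ind.exists_mk m
    rw [Ind.smul_v, Ind.liftC_mk, Ind.liftC_mk]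
    simp only [Fin.sum_univ_two, smul_add, T.v_u_smul, T.v_v_smul, map_zero, Pi.zero_apply,
      smul_zero, apply_ite f]
    fin_cases i <;> simp

theorem Ind.lift_mk [Pos Y] {W : Type} [AddCommGroup W] [Module ℂ W] [Module T W]
    [IsScalarTower ℂ T W] (f : Y →ₗ[ℂ] W) (he hx hz) (y : Y) (a b : Fin 2 → Y) :
    Ind.lift f he hx hz (Ind.mk y a b) =
      f y + ∑ j, T.gen.u j • f (a j) + ∑ j, T.gen.v j • f (b j) := rfl

/-- elements of `Ind Y` in terms of `Y` -/
theorem Ind.mk_eq [Pos Y] (y : Y) (a b : Fin 2 → Y) :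
    Ind.mk y a b = Ind.incl y + ∑ j, T.gen.u j • Ind.incl (a j) +
      ∑ j, T.gen.v j • Ind.incl (b j) := by
  simp only [Ind.incl, Ind.smul_u, Ind.smul_v, Fin.sum_univ_two, Ind.mk_add]
  congr 1
  · simp
  · funext j; fin_cases j <;> simp
  · funext j; fin_cases j <;> simp

theorem Ind.incl_add [Pos Y] (y y' : Y) :
    Ind.incl (y + y') = Ind.incl y + Ind.incl y' := by
  simp only [Ind.incl, Ind.mk_add, add_zero]

theorem Ind.incl_smul [Pos Y] (c : ℂ) (y : Y) : Ind.incl (c • y) = c • Ind.incl y := by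
  simp only [Ind.incl, Ind.smul_mk, smul_zero]

theorem Ind.incl_sig [Pos Y] (b : B) (y : Y) : Ind.incl (b • y) = sig b • Ind.incl y := by
  induction b using B.left_induction generalizing y with
  | h1 => simp
  | hadd a b ha hb => rw [add_smul, Ind.incl_add, ha, hb, map_add, add_smul]
  | hsmul c a ha => rw [smul_assoc, Ind.incl_smul, ha, map_smul, smul_assoc]
  | he i a ha =>
    rw [mul_smul, map_mul, mul_smul, ← ha, sig_e, Ind.incl, Ind.incl, Ind.smul_e]
    congr 1
    · funext j; simp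
    · funext j; simp
  | hx k l a ha =>
    rw [mul_smul, map_mul, mul_smul, ← ha, sig_x, Ind.incl, Ind.incl, Ind.smul_x]
    congr 1
    · funext j; simp
    · funext j; simp
  | hz a ha =>
    rw [mul_smul, map_mul, mul_smul, ← ha, sig_z, Ind.incl, Ind.incl, Ind.smul_z]
    congr 1
    · funext j; simp
    · funext j; simp

/-- functoriality -/
noncomputable def Ind.map [Pos Y] [Pos Y'] (f : Y →ₗ[B] Y') : Ind Y →ₗ[T] Ind Y' := by
  refine linT (M := Ind Y) (N := Ind Y')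
    { toFun := fun t => Ind.mk (f (show IndC Y from t).1)
        (fun j => f ((show IndC Y from t).2.1 j)) (fun j => f ((show IndC Y from t).2.2 j))
      map_add' := ?_
      map_smul' := ?_ } ?_ ?_ ?_ ?_ ?_
  · intro s t
    obtain ⟨y, a, b, rfl⟩ := Ind.exists_mk s
    obtain ⟨y', a', b', rfl⟩ := Ind.exists_mk t
    rw [Ind.mk_add, Ind.mk_add]
    simp only [Ind.mk, Pi.add_apply, map_add]
    rfl
  · intro c t
    obtain ⟨y, a, b, rfl⟩ := Ind.exists_mk t
    rw [Ind.smul_mk, RingHom.id_apply, Ind.smul_mk]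
    simp only [Ind.mk, Pi.smul_apply, map_smul_C_B]
    rfl
  · intro i m
    obtain ⟨y, a, b, rfl⟩ := Ind.exists_mk m
    simp only [LinearMap.coe_mk, AddHom.coe_mk]
    rw [Ind.smul_e]
    simp only [Ind.mk]
    erw [Ind.smul_e]
    simp only [Ind.mk, map_smul]
    congr 2
    funext j
    split_ifs <;> simp
  · intro k l m
    obtain ⟨y, a, b, rfl⟩ := Ind.exists_mk m
    simp only [LinearMap.coe_mk, AddHom.coe_mk]
    rw [Ind.smul_x]
    simp only [Ind.mk]
    erw [Ind.smul_x]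
    simp only [Ind.mk, map_smul, map_add, map_neg, apply_ite f, map_zero]
    try rfl
  · intro m
    obtain ⟨y, a, b, rfl⟩ := Ind.exists_mk m
    simp only [LinearMap.coe_mk, AddHom.coe_mk]
    rw [Ind.smul_z]
    simp only [Ind.mk]
    erw [Ind.smul_z]
    simp only [Ind.mk, map_smul, map_add, map_sub, map_neg, map_sum]
    try rfl
  · intro i m
    obtain ⟨y, a, b, rfl⟩ := Ind.exists_mk m
    simp only [LinearMap.coe_mk, AddHom.coe_mk]
    rw [Ind.smul_u]
    simp only [Ind.mk]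
    erw [Ind.smul_u]
    simp only [Ind.mk, map_zero, apply_ite f, Pi.zero_apply]
    rfl
  · intro i m
    obtain ⟨y, a, b, rfl⟩ := Ind.exists_mk m
    simp only [LinearMap.coe_mk, AddHom.coe_mk]
    rw [Ind.smul_v]
    simp only [Ind.mk]
    erw [Ind.smul_v]
    simp only [Ind.mk, map_zero, apply_ite f, Pi.zero_apply]
    rfl

theorem Ind.map_mk [Pos Y] [Pos Y'] (f : Y →ₗ[B] Y') (y : Y) (a b : Fin 2 → Y) :
    Ind.map f (Ind.mk y a b) = Ind.mk (f y) (fun j => f (a j)) (fun j => f (b j)) := rfl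

theorem Ind.map_incl [Pos Y] [Pos Y'] (f : Y →ₗ[B] Y') (y : Y) :
    Ind.map f (Ind.incl y) = Ind.incl (f y) := by
  rw [Ind.incl, Ind.map_mk, Ind.incl]
  congr 1
  · funext j; simp
  · funext j; simp

theorem Ind.map_injective [Pos Y] [Pos Y'] (f : Y →ₗ[B] Y') (hf : Function.Injective f) :
    Function.Injective (Ind.map f) := by
  intro s t h
  obtain ⟨y, a, b, rfl⟩ := Ind.exists_mk s
  obtain ⟨y', a', b', rfl⟩ := Ind.exists_mk t
  rw [Ind.map_mk, Ind.map_mk] at h
  obtain ⟨h1, h2, h3⟩ := Ind.mk_inj h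
  rw [hf h1, show a = a' from funext fun j => hf (congrFun h2 j),
    show b = b' from funext fun j => hf (congrFun h3 j)]

theorem Ind.map_surjective [Pos Y] [Pos Y'] (f : Y →ₗ[B] Y') (hf : Function.Surjective f) :
    Function.Surjective (Ind.map f) := by
  intro t
  obtain ⟨y, a, b, rfl⟩ := Ind.exists_mk t
  obtain ⟨y', hy⟩ := hf y
  choose g hg using hf
  refine ⟨Ind.mk y' (fun j => g (a j)) (fun j => g (b j)), ?_⟩
  rw [Ind.map_mk, hy]
  simp only [hg]

theorem Ind.map_exact [Pos Y] [Pos Y'] [Pos Y''] (f : Y →ₗ[B] Y') (g : Y' →ₗ[B] Y'')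
    (hfg : Function.Exact f g) : Function.Exact (Ind.map f) (Ind.map g) := by
  intro t
  obtain ⟨y, a, b, rfl⟩ := Ind.exists_mk t
  constructor
  · intro h
    rw [Ind.map_mk] at h
    obtain ⟨h1, h2, h3⟩ := Ind.mk_inj (y' := (0 : Y'')) (a' := 0) (b' := 0) h
    obtain ⟨y', hy⟩ := (hfg y).1 h1
    have ha : ∀ j, ∃ a', f a' = a j := fun j => (hfg (a j)).1 (congrFun h2 j)
    have hb : ∀ j, ∃ b', f b' = b j := fun j => (hfg (b j)).1 (congrFun h3 j)
    choose a' ha' using ha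
    choose b' hb' using hb
    refine ⟨Ind.mk y' a' b', ?_⟩
    rw [Ind.map_mk, hy]
    simp only [ha', hb']
  · rintro ⟨s, hs⟩
    obtain ⟨y', a', b', rfl⟩ := Ind.exists_mk s
    rw [Ind.map_mk] at hs
    rw [← hs, Ind.map_mk]
    have : ∀ y, g (f y) = 0 := fun y => (hfg (f y)).2 ⟨y, rfl⟩
    simp only [this]
    rfl

/-- projection to the `Y`-component: `T`-linear if `Y` is a `T`-module through `pr`.
We state the consequences we need. -/
noncomputable def Ind.proj [Pos Y] : Ind Y →ₗ[ℂ] Y := LinearMap.fst ℂ Y _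

theorem Ind.proj_incl [Pos Y] (y : Y) : Ind.proj (Ind.incl y) = y := rfl

theorem Ind.proj_map [Pos Y] [Pos Y'] (f : Y →ₗ[B] Y') (t : Ind Y) :
    Ind.proj (Ind.map f t) = f (Ind.proj t) := by
  rfl

theorem Ind.proj_smul [Pos Y] (t : T) (w : Ind Y) : Ind.proj (t • w) = pr t • Ind.proj w := by
  induction t using T.left_induction generalizing w with
  | h1 => simp
  | hadd a b ha hb => rw [add_smul, map_add, ha, hb, map_add, add_smul]
  | hsmul c a ha => rw [smul_assoc, map_smul, ha, map_smul, smul_assoc]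
  | he i a ha =>
    rw [mul_smul, map_mul, mul_smul, ← ha, pr_e]
    obtain ⟨y, a, b, h⟩ := Ind.exists_mk (a • w)
    rw [h, Ind.smul_e]
    rfl
  | hx k l a ha =>
    rw [mul_smul, map_mul, mul_smul, ← ha, pr_x]
    obtain ⟨y, a, b, h⟩ := Ind.exists_mk (a • w)
    rw [h, Ind.smul_x]
    rfl
  | hz a ha =>
    rw [mul_smul, map_mul, mul_smul, ← ha, pr_z]
    obtain ⟨y, a, b, h⟩ := Ind.exists_mk (a • w)
    rw [h, Ind.smul_z]
    rfl
  | hu j a ha =>
    rw [mul_smul, map_mul, mul_smul, ← ha, pr_u, zero_smul]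
    obtain ⟨y, a, b, h⟩ := Ind.exists_mk (a • w)
    rw [h, Ind.smul_u]
    rfl
  | hv j a ha =>
    rw [mul_smul, map_mul, mul_smul, ← ha, pr_v, zero_smul]
    obtain ⟨y, a, b, h⟩ := Ind.exists_mk (a • w)
    rw [h, Ind.smul_v]
    rfl

end Ind

end Crest.Agent.S0268
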