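import Crest.Agent.S0268_Maps
import Crest.Agent.S0268_IndDef

set_option autoImplicit false

/-!
# S0268 (task T14) : `J(V) ≅ Ind (X1 V)`, and the vacuum in `X1 V`

`JIso` : `Ind.lift` of the `ℂ`-linear map `(ι : V → JC V, v ↦ (v, 0, 0)).lTensor Fk`
(compatible with the `B`-action), evaluated on `(y, y_j, z_j)`:
`JC`-components: `V`: `y`; `UV (deg 0)`, component `j`: `y_j`;
`UV (deg 1)`, component `l`: `P z_l + ∑_j I_jl P y_j`.  Bijective because `P² = 1`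
(use the projections `lTensor Fk` of the coordinate maps `JC V → V`, and
`id = ∑ (inclusion ∘ projection)`), then `LinearEquiv.ofBijective`.

`X1_vac` : `y = vac ⊗ v`, `v ≠ 0`: `e_1 = π_0`, `z • y = d vac ⊗ v + ∑ X vac ⊗ E v`.
NOTE: `z • y = ∑ X_ab vac ⊗ E_ab v`, which is `0` only if `E v = 0`; so the statement assumes `E = 0`.
If `y = z • w` then `y = e_1 • y = e_1 • z • w = z • e_0 • w = 0`, contradiction.
-/

namespace Crest.Agent.S0268

open scoped TensorProduct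

section aux
variable {W W' : Type} [AddCommGroup W] [Module ℂ W] [AddCommGroup W'] [Module ℂ W']

theorem FW_X_tmul (k l : Fin 2) (f : Fk) (w : W) :
    (FW W).X k l (f ⊗ₜ w) = (FC.X k l f) ⊗ₜ w := rfl
theorem FW_I_tmul (k l : Fin 2) (f : Fk) (w : W) :
    (FW W).I k l (f ⊗ₜ w) = (FC.I k l f) ⊗ₜ w := rfl
theorem FW_P_tmul (f : Fk) (w : W) :
    (FW W).P (f ⊗ₜ w) = (FC.P f) ⊗ₜ w := rfl
theorem FW_d_tmul (f : Fk) (w : W) :
    (FW W).d (f ⊗ₜ w) = (FC.d f) ⊗ₜ w := rfl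
theorem FW_π_tmul (b : Fin 5) (f : Fk) (w : W) :
    (FW W).π b (f ⊗ₜ w) = (FC.π b f) ⊗ₜ w := rfl
theorem SW_E_tmul (S : SOps (Module.End ℂ W)) (k l : Fin 2) (f : Fk) (w : W) :
    (SW S).E k l (f ⊗ₜ w) = f ⊗ₜ (S.E k l w) := rfl
theorem SW_D_tmul (S : SOps (Module.End ℂ W)) (f : Fk) (w : W) :
    (SW S).D (f ⊗ₜ w) = f ⊗ₜ (S.D w) := rfl
theorem SW_a_tmul (S : SOps (Module.End ℂ W)) (j : Fin 2) (f : Fk) (w : W) :
    (SW S).a j (f ⊗ₜ w) = f ⊗ₜ (S.a j w) := rfl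
theorem SW_c_tmul (S : SOps (Module.End ℂ W)) (j : Fin 2) (f : Fk) (w : W) :
    (SW S).c j (f ⊗ₜ w) = f ⊗ₜ (S.c j w) := rfl
theorem SW_p0_tmul (S : SOps (Module.End ℂ W)) (f : Fk) (w : W) :
    (SW S).p0 (f ⊗ₜ w) = f ⊗ₜ (S.p0 w) := rfl
theorem SW_p1_tmul (S : SOps (Module.End ℂ W)) (f : Fk) (w : W) :
    (SW S).p1 (f ⊗ₜ w) = f ⊗ₜ (S.p1 w) := rfl

/-- `lTensor` commutes with `e` -/
theorem lT_e (S : SOps (Module.End ℂ W)) (S' : SOps (Module.End ℂ W')) (φ : W →ₗ[ℂ] W')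
    (h0 : ∀ w, φ (S.p0 w) = S'.p0 (φ w)) (h1 : ∀ w, φ (S.p1 w) = S'.p1 (φ w)) (b : Fin 6)
    (t : Fk ⊗[ℂ] W) :
    φ.lTensor Fk ((TW S).e b t) = (TW S').e b (φ.lTensor Fk t) := by
  induction t using TensorProduct.induction_on with
  | zero => simp
  | add x y hx hy => rw [map_add, map_add, map_add, map_add, hx, hy]
  | tmul f w =>
    rw [LinearMap.lTensor_tmul, TW, TW, comb_toBOps_e, comb_toBOps_e]
    unfold combE
    rw [LinearMap.add_apply, LinearMap.add_apply, map_add]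
    congr 1
    · split_ifs
      · rw [Module.End.mul_apply, Module.End.mul_apply, SW_p0_tmul, SW_p0_tmul, FW_π_tmul,
          FW_π_tmul, LinearMap.lTensor_tmul, h0]
      · simp
    · split_ifs
      · rw [Module.End.mul_apply, Module.End.mul_apply, SW_p1_tmul, SW_p1_tmul, FW_π_tmul,
          FW_π_tmul, LinearMap.lTensor_tmul, h1]
      · simp

/-- `lTensor` commutes with `x` -/
theorem lT_x (S : SOps (Module.End ℂ W)) (S' : SOps (Module.End ℂ W')) (φ : W →ₗ[ℂ] W')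
    (k l : Fin 2) (t : Fk ⊗[ℂ] W) :
    φ.lTensor Fk ((TW S).x k l t) = (TW S').x k l (φ.lTensor Fk t) := by
  induction t using TensorProduct.induction_on with
  | zero => simp
  | add x y hx hy => rw [map_add, map_add, map_add, map_add, hx, hy]
  | tmul f w =>
    rw [LinearMap.lTensor_tmul, TW, TW, comb_toBOps_x, comb_toBOps_x, FW_X_tmul, FW_X_tmul,
      LinearMap.lTensor_tmul]

/-- `lTensor` commutes with `z` -/
theorem lT_z (S : SOps (Module.End ℂ W)) (S' : SOps (Module.End ℂ W')) (φ : W →ₗ[ℂ] W')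
    (hE : ∀ k l w, φ (S.E k l w) = S'.E k l (φ w)) (hD : ∀ w, φ (S.D w) = S'.D (φ w))
    (t : Fk ⊗[ℂ] W) :
    φ.lTensor Fk ((TW S).z t) = (TW S').z (φ.lTensor Fk t) := by
  induction t using TensorProduct.induction_on with
  | zero => simp
  | add x y hx hy => rw [map_add, map_add, map_add, map_add, hx, hy]
  | tmul f w =>
    rw [LinearMap.lTensor_tmul, TW, TW, comb_toBOps_z, comb_toBOps_z]
    simp only [LinearMap.add_apply, LinearMap.sum_apply, Module.End.mul_apply, SW_E_tmul,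
      SW_D_tmul, FW_X_tmul, FW_P_tmul, FW_d_tmul, map_add, map_sum, LinearMap.lTensor_tmul, hE, hD]

end aux

section
variable {V : Type} [AddCommGroup V] [Module ℂ V]

/-- the `B`-module `F ⊗ V` with `e 0 = 0`, `e (b+1) = π b` -/
abbrev X1 (ρ : GLMod V) : Type := (TW (S1 ρ)).toBOps.Mod

theorem X1_e0 (ρ : GLMod V) (t : Fk ⊗[ℂ] V) : (TW (S1 ρ)).e 0 t = 0 := by
  induction t using TensorProduct.induction_on with
  | zero => simp
  | add x y hx hy => rw [map_add, hx, hy, add_zero]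
  | tmul f w =>
    rw [TW, comb_toBOps_e]
    unfold combE
    rw [LinearMap.add_apply, dif_pos (by decide), dif_neg (by decide), Module.End.mul_apply,
      SW_p0_tmul]
    simp [S1]

instance X1_pos (ρ : GLMod V) : Pos (X1 ρ) := by
  constructor
  intro y
  rw [BOps.smul_e]
  exact X1_e0 ρ y

/-- `V → JC V` -/
noncomputable def jV (V : Type) [AddCommGroup V] [Module ℂ V] : V →ₗ[ℂ] JC V :=
  LinearMap.inl ℂ V _
/-- `V → JC V`, deg 0 -/
noncomputable def jA (V : Type) [AddCommGroup V] [Module ℂ V] (j : Fin 2) : V →ₗ[ℂ] JC V :=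
  LinearMap.inr ℂ V _ ∘ₗ LinearMap.inl ℂ (Fin 2 → V) _ ∘ₗ eps V j
/-- `V → JC V`, deg 1 -/
noncomputable def jB (V : Type) [AddCommGroup V] [Module ℂ V] (j : Fin 2) : V →ₗ[ℂ] JC V :=
  LinearMap.inr ℂ V _ ∘ₗ LinearMap.inr ℂ (Fin 2 → V) _ ∘ₗ eps V j
/-- `JC V → V` -/
noncomputable def qV (V : Type) [AddCommGroup V] [Module ℂ V] : JC V →ₗ[ℂ] V :=
  LinearMap.fst ℂ V _
/-- `JC V → V` -/
noncomputable def qA (V : Type) [AddCommGroup V] [Module ℂ V] (j : Fin 2) : JC V →ₗ[ℂ] V :=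
  LinearMap.proj j ∘ₗ LinearMap.fst ℂ (Fin 2 → V) (Fin 2 → V) ∘ₗ LinearMap.snd ℂ V _
/-- `JC V → V` -/
noncomputable def qB (V : Type) [AddCommGroup V] [Module ℂ V] (j : Fin 2) : JC V →ₗ[ℂ] V :=
  LinearMap.proj j ∘ₗ LinearMap.snd ℂ (Fin 2 → V) (Fin 2 → V) ∘ₗ LinearMap.snd ℂ V _

theorem qVV (v : V) : qV V (jV V v) = v := rfl
theorem qVA (j : Fin 2) (v : V) : qV V (jA V j v) = 0 := rfl
theorem qVB (j : Fin 2) (v : V) : qV V (jB V j v) = 0 := rfl
theorem qAV (j : Fin 2) (v : V) : qA V j (jV V v) = 0 := rfl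
theorem qAA (i j : Fin 2) (v : V) : qA V i (jA V j v) = if i = j then v else 0 := by
  simp [qA, jA, eps_apply]
theorem qAB (i j : Fin 2) (v : V) : qA V i (jB V j v) = 0 := rfl
theorem qBV (j : Fin 2) (v : V) : qB V j (jV V v) = 0 := rfl
theorem qBA (i j : Fin 2) (v : V) : qB V i (jA V j v) = 0 := rfl
theorem qBB (i j : Fin 2) (v : V) : qB V i (jB V j v) = if i = j then v else 0 := by
  simp [qB, jB, eps_apply]
theorem j_decomp (w : JC V) :
    w = jV V (qV V w) + ∑ j, jA V j (qA V j w) + ∑ j, jB V j (qB V j w) := by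
  obtain ⟨a, b, c⟩ := w
  refine Prod.ext ?_ (Prod.ext ?_ ?_)
  · simp [jV, jA, jB, qV, qA, qB, Fin.sum_univ_two]
  · funext i
    fin_cases i <;> simp [jV, jA, jB, qV, qA, qB, Fin.sum_univ_two, eps_apply]
  · funext i
    fin_cases i <;> simp [jV, jA, jB, qV, qA, qB, Fin.sum_univ_two, eps_apply]

/-- tensored decomposition -/
theorem j_decomp' (t : Fk ⊗[ℂ] JC V) :
    t = (jV V).lTensor Fk ((qV V).lTensor Fk t)
      + ∑ j, (jA V j).lTensor Fk ((qA V j).lTensor Fk t)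
      + ∑ j, (jB V j).lTensor Fk ((qB V j).lTensor Fk t) := by
  induction t using TensorProduct.induction_on with
  | zero => simp
  | add x y hx hy =>
    conv_lhs => rw [hx, hy]
    simp only [map_add, Finset.sum_add_distrib]
    abel
  | tmul f w =>
    conv_lhs => rw [j_decomp w]
    simp only [TensorProduct.tmul_add, TensorProduct.tmul_sum, LinearMap.lTensor_tmul]

theorem lqVV (t : Fk ⊗[ℂ] V) : (qV V).lTensor Fk ((jV V).lTensor Fk t) = t := by
  rw [← LinearMap.comp_apply, ← LinearMap.lTensor_comp]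
  have : qV V ∘ₗ jV V = LinearMap.id := LinearMap.ext qVV
  rw [this, LinearMap.lTensor_id]; rfl
theorem lqVA (j : Fin 2) (t : Fk ⊗[ℂ] V) : (qV V).lTensor Fk ((jA V j).lTensor Fk t) = 0 := by
  rw [← LinearMap.comp_apply, ← LinearMap.lTensor_comp]
  have : qV V ∘ₗ jA V j = 0 := LinearMap.ext (qVA j)
  rw [this, LinearMap.lTensor_zero]; rfl
theorem lqVB (j : Fin 2) (t : Fk ⊗[ℂ] V) : (qV V).lTensor Fk ((jB V j).lTensor Fk t) = 0 := by
  rw [← LinearMap.comp_apply, ← LinearMap.lTensor_comp]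
  have : qV V ∘ₗ jB V j = 0 := LinearMap.ext (qVB j)
  rw [this, LinearMap.lTensor_zero]; rfl
theorem lqAV (j : Fin 2) (t : Fk ⊗[ℂ] V) : (qA V j).lTensor Fk ((jV V).lTensor Fk t) = 0 := by
  rw [← LinearMap.comp_apply, ← LinearMap.lTensor_comp]
  have : qA V j ∘ₗ jV V = 0 := LinearMap.ext (qAV j)
  rw [this, LinearMap.lTensor_zero]; rfl
theorem lqAA (i j : Fin 2) (t : Fk ⊗[ℂ] V) :
    (qA V i).lTensor Fk ((jA V j).lTensor Fk t) = if i = j then t else 0 := by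
  rw [← LinearMap.comp_apply, ← LinearMap.lTensor_comp]
  split_ifs with h
  · have : qA V i ∘ₗ jA V j = LinearMap.id := LinearMap.ext fun v => by
      rw [LinearMap.comp_apply, qAA, if_pos h]; rfl
    rw [this, LinearMap.lTensor_id]; rfl
  · have : qA V i ∘ₗ jA V j = 0 := LinearMap.ext fun v => by
      rw [LinearMap.comp_apply, qAA, if_neg h]; rfl
    rw [this, LinearMap.lTensor_zero]; rfl
theorem lqAB (i j : Fin 2) (t : Fk ⊗[ℂ] V) :
    (qA V i).lTensor Fk ((jB V j).lTensor Fk t) = 0 := by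
  rw [← LinearMap.comp_apply, ← LinearMap.lTensor_comp]
  have : qA V i ∘ₗ jB V j = 0 := LinearMap.ext (qAB i j)
  rw [this, LinearMap.lTensor_zero]; rfl
theorem lqBV (j : Fin 2) (t : Fk ⊗[ℂ] V) : (qB V j).lTensor Fk ((jV V).lTensor Fk t) = 0 := by
  rw [← LinearMap.comp_apply, ← LinearMap.lTensor_comp]
  have : qB V j ∘ₗ jV V = 0 := LinearMap.ext (qBV j)
  rw [this, LinearMap.lTensor_zero]; rfl
theorem lqBA (i j : Fin 2) (t : Fk ⊗[ℂ] V) :
    (qB V i).lTensor Fk ((jA V j).lTensor Fk t) = 0 := by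
  rw [← LinearMap.comp_apply, ← LinearMap.lTensor_comp]
  have : qB V i ∘ₗ jA V j = 0 := LinearMap.ext (qBA i j)
  rw [this, LinearMap.lTensor_zero]; rfl
theorem lqBB (i j : Fin 2) (t : Fk ⊗[ℂ] V) :
    (qB V i).lTensor Fk ((jB V j).lTensor Fk t) = if i = j then t else 0 := by
  rw [← LinearMap.comp_apply, ← LinearMap.lTensor_comp]
  split_ifs with h
  · have : qB V i ∘ₗ jB V j = LinearMap.id := LinearMap.ext fun v => by
      rw [LinearMap.comp_apply, qBB, if_pos h]; rfl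
    rw [this, LinearMap.lTensor_id]; rfl
  · have : qB V i ∘ₗ jB V j = 0 := LinearMap.ext fun v => by
      rw [LinearMap.comp_apply, qBB, if_neg h]; rfl
    rw [this, LinearMap.lTensor_zero]; rfl

/-- the map `X1 V → J V` -/
noncomputable def jX (ρ : GLMod V) : X1 ρ →ₗ[ℂ] (TW (SJ ρ)).Mod := (jV V).lTensor Fk

theorem jX_e (ρ : GLMod V) (i : Fin 6) (y : X1 ρ) :
    jX ρ (B.gen.e i • y) = T.gen.e i • jX ρ y := by
  rw [BOps.smul_e, TOps.smul_e]
  exact lT_e (S1 ρ) (SJ ρ) (jV V) (fun w => rfl) (fun w => rfl) i y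

theorem jX_x (ρ : GLMod V) (k l : Fin 2) (y : X1 ρ) :
    jX ρ (B.gen.x k l • y) = T.gen.x k l • jX ρ y := by
  rw [BOps.smul_x, TOps.smul_x]
  exact lT_x (S1 ρ) (SJ ρ) (jV V) k l y

theorem jX_z (ρ : GLMod V) (y : X1 ρ) :
    jX ρ (B.gen.z • y) = T.gen.z • jX ρ y := by
  rw [BOps.smul_z, TOps.smul_z]
  refine lT_z (S1 ρ) (SJ ρ) (jV V) (fun k l w => ?_) (fun w => ?_) y
  · refine Prod.ext rfl (Prod.ext ?_ ?_)
    · exact (map_zero (ρ.UE k l)).symm
    · exact (map_zero (ρ.UE k l)).symm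
  · refine Prod.ext rfl (Prod.ext rfl ?_)
    show (0 : Fin 2 → V) = -(ρ.eta 0)
    rw [map_zero, neg_zero]

theorem TW_u_jX (ρ : GLMod V) (j : Fin 2) (y : Fk ⊗[ℂ] V) :
    (TW (SJ ρ)).u j ((jV V).lTensor Fk y) = (jA V j).lTensor Fk y +
      ∑ l, (jB V l).lTensor Fk ((FW V).I j l ((FW V).P y)) := by
  induction y using TensorProduct.induction_on with
  | zero => simp
  | add x y hx hy =>
    simp only [map_add, hx, hy, Finset.sum_add_distrib]
    abel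
  | tmul f w =>
    rw [LinearMap.lTensor_tmul, TW, comb_u]
    simp only [LinearMap.add_apply, LinearMap.sum_apply, Module.End.mul_apply, SW_a_tmul,
      SW_c_tmul, FW_P_tmul, FW_I_tmul, LinearMap.lTensor_tmul]
    rfl

theorem TW_v_jX (ρ : GLMod V) (j : Fin 2) (y : Fk ⊗[ℂ] V) :
    (TW (SJ ρ)).v j ((jV V).lTensor Fk y) = (jB V j).lTensor Fk ((FW V).P y) := by
  induction y using TensorProduct.induction_on with
  | zero => simp
  | add x y hx hy => simp only [map_add, hx, hy]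
  | tmul f w =>
    rw [LinearMap.lTensor_tmul, TW, comb_v]
    simp only [Module.End.mul_apply, SW_c_tmul, FW_P_tmul, LinearMap.lTensor_tmul]
    rfl

theorem FW_PP (y : Fk ⊗[ℂ] V) : (FW V).P ((FW V).P y) = y := by
  have := congrArg (fun f => f y) (FW V).PP
  simpa using this

/-- the `T`-linear map -/
noncomputable def jMap (ρ : GLMod V) : Ind (X1 ρ) →ₗ[T] (TW (SJ ρ)).Mod :=
  Ind.lift (jX ρ) (jX_e ρ) (jX_x ρ) (jX_z ρ)

theorem jMap_mk (ρ : GLMod V) (y : Fk ⊗[ℂ] V) (a b : Fin 2 → Fk ⊗[ℂ] V) :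
    (jMap ρ (Ind.mk (Y := X1 ρ) y a b) : Fk ⊗[ℂ] JC V) =
      (jV V).lTensor Fk y + ∑ j, (jA V j).lTensor Fk (a j) +
      ∑ l, (jB V l).lTensor Fk ((FW V).P (b l) + ∑ j, (FW V).I j l ((FW V).P (a j))) := by
  have h := Ind.lift_mk (jX ρ) (jX_e ρ) (jX_x ρ) (jX_z ρ) y a b
  refine h.trans ?_
  have e1 : ∀ j, (T.gen.u j • jX ρ (a j) : (TW (SJ ρ)).Mod) = ((jA V j).lTensor Fk (a j) +
      ∑ l, (jB V l).lTensor Fk ((FW V).I j l ((FW V).P (a j))) : Fk ⊗[ℂ] JC V) :=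
    fun j => (TOps.smul_u _ _ _).trans (TW_u_jX ρ j (a j))
  have e2 : ∀ j, (T.gen.v j • jX ρ (b j) : (TW (SJ ρ)).Mod) =
      ((jB V j).lTensor Fk ((FW V).P (b j)) : Fk ⊗[ℂ] JC V) :=
    fun j => (TOps.smul_v _ _ _).trans (TW_v_jX ρ j (b j))
  have e1' : (∑ j, T.gen.u j • jX ρ (a j) : (TW (SJ ρ)).Mod) =
      (∑ j, ((jA V j).lTensor Fk (a j) +
      ∑ l, (jB V l).lTensor Fk ((FW V).I j l ((FW V).P (a j)))) : Fk ⊗[ℂ] JC V) :=
    Finset.sum_congr rfl fun j _ => e1 j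
  have e2' : (∑ j, T.gen.v j • jX ρ (b j) : (TW (SJ ρ)).Mod) =
      (∑ j, (jB V j).lTensor Fk ((FW V).P (b j)) : Fk ⊗[ℂ] JC V) :=
    Finset.sum_congr rfl fun j _ => e2 j
  refine (congrArg₂ (fun p q => (jX ρ y + p) + q) e1' e2').trans ?_
  show ((jV V).lTensor Fk y + (∑ j, ((jA V j).lTensor Fk (a j) +
      ∑ l, (jB V l).lTensor Fk ((FW V).I j l ((FW V).P (a j))))) +
      ∑ j, (jB V j).lTensor Fk ((FW V).P (b j)) : Fk ⊗[ℂ] JC V) = _
  simp only [Finset.sum_add_distrib, map_add, map_sum]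
  rw [Finset.sum_comm (f := fun j l => (jB V l).lTensor Fk ((FW V).I j l ((FW V).P (a j))))]
  abel

theorem jMap_inj_aux (y : Fk ⊗[ℂ] V) (a b : Fin 2 → Fk ⊗[ℂ] V)
    (h2 : ((jV V).lTensor Fk y + ∑ j, (jA V j).lTensor Fk (a j) +
      ∑ l, (jB V l).lTensor Fk ((FW V).P (b l) + ∑ j, (FW V).I j l ((FW V).P (a j))) :
        Fk ⊗[ℂ] JC V) = 0) : y = 0 ∧ a = 0 ∧ b = 0 := by
  have hy : y = 0 := by
    have := congrArg ((qV V).lTensor Fk) h2
    simp only [map_add, map_sum, lqVV, lqVA, lqVB, Finset.sum_const_zero, add_zero,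
      map_zero] at this
    exact this
  have ha : a = 0 := by
    funext i
    have := congrArg ((qA V i).lTensor Fk) h2
    rw [map_add, map_add, lqAV, map_sum, map_sum] at this
    simp only [lqAA, lqAB, Finset.sum_const_zero, add_zero,
      map_zero, zero_add, Finset.sum_ite_eq, Finset.mem_univ, if_true] at this
    exact this
  have hb : b = 0 := by
    funext i
    have := congrArg ((qB V i).lTensor Fk) h2
    rw [map_add, map_add, lqBV, map_sum, map_sum] at this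
    simp only [lqBA, lqBB, Finset.sum_const_zero, add_zero,
      map_zero, zero_add, Finset.sum_ite_eq, Finset.mem_univ, if_true, ha, Pi.zero_apply] at this
    have h3 := congrArg (FW V).P this
    rwa [FW_PP, map_zero] at h3
  exact ⟨hy, ha, hb⟩

theorem jMap_bij (ρ : GLMod V) : Function.Bijective (jMap ρ) := by
  constructor
  · rw [injective_iff_map_eq_zero]
    rintro ⟨y, a, b⟩ h
    have h2 : ((jV V).lTensor Fk y + ∑ j, (jA V j).lTensor Fk (a j) +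
      ∑ l, (jB V l).lTensor Fk ((FW V).P (b l) + ∑ j, (FW V).I j l ((FW V).P (a j))) :
        Fk ⊗[ℂ] JC V) = 0 := by
      rw [← jMap_mk]; exact h
    obtain ⟨hy, ha, hb⟩ := jMap_inj_aux y a b h2
    exact Prod.ext hy (Prod.ext ha hb)
  · intro t
    set y := (qV V).lTensor Fk t with hy
    set a : Fin 2 → Fk ⊗[ℂ] V := fun j => (qA V j).lTensor Fk t with ha
    set b : Fin 2 → Fk ⊗[ℂ] V := fun l => (FW V).P ((qB V l).lTensor Fk t -
      ∑ j, (FW V).I j l ((FW V).P (a j))) with hb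
    refine ⟨Ind.mk (Y := X1 ρ) y a b, ?_⟩
    have h := jMap_mk ρ y a b
    refine h.trans ?_
    have h3 : ∀ l, (FW V).P (b l) + ∑ j, (FW V).I j l ((FW V).P (a j)) =
        (qB V l).lTensor Fk t := by
      intro l
      rw [hb]
      simp only [FW_PP]
      abel
    simp only [h3]
    exact (j_decomp' t).symm

/-- task T14 -/
noncomputable def JIso (ρ : GLMod V) : Ind (X1 ρ) ≃ₗ[T] (TW (SJ ρ)).Mod :=
  LinearEquiv.ofBijective (jMap ρ) (jMap_bij ρ)

theorem FC_apply_vac (M : Matrix (Fin 16) (Fin 16) ℤ) (i : Fin 16) :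
    (matHom M : Fk →ₗ[ℂ] Fk) vac i = (M i 0 : ℂ) := by
  unfold matHom vac
  simp [Matrix.toLin'_apply, Matrix.mulVec_single]

theorem FC_d_vac : (FC.d : Fk →ₗ[ℂ] Fk) vac = 0 := by
  funext i
  show (matHom md : Fk →ₗ[ℂ] Fk) vac i = 0
  rw [FC_apply_vac]
  have : md i 0 = 0 := by
    have hI : ∀ n < 4, ∀ r : Fin 16, mI n r 0 = 0 := by decide +kernel
    have hg : ∀ k l : Fin 2, gn k l < 4 := by decide
    unfold md
    simp only [Matrix.neg_apply, Matrix.sum_apply, Matrix.mul_apply, hI _ (hg _ _), mul_zero,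
      Finset.sum_const_zero, neg_zero]
  rw [this]; simp

theorem FC_π0_vac : (FC.π 0 : Fk →ₗ[ℂ] Fk) vac = vac := by
  funext i
  show (matHom (mπ 0) : Fk →ₗ[ℂ] Fk) vac i = vac i
  rw [FC_apply_vac]
  have : mπ 0 i 0 = if i = 0 then 1 else 0 := by
    revert i; decide +kernel
  rw [this]
  unfold vac
  simp [Pi.single_apply]

theorem vac_tmul_ne (v : V) (hv : v ≠ 0) : (vac ⊗ₜ v : Fk ⊗[ℂ] V) ≠ 0 := by
  intro h
  have h2 := congrArg (fun t => TensorProduct.lid ℂ V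
    ((LinearMap.proj (R := ℂ) (φ := fun _ : Fin 16 => ℂ) 0).rTensor V t)) h
  simp [vac] at h2
  exact hv h2

/-- task T14' : `X1 V` is not `ζ`-exact in degree `1` (vacuum) -/
theorem X1_vac (ρ : GLMod V) [Nontrivial V] (hρ : ∀ k l v, ρ.E k l v = 0) :
    ∃ y : X1 ρ, B.gen.e 1 • y = y ∧ B.gen.z • y = 0 ∧ ¬ ∃ w : X1 ρ, y = B.gen.z • w := by
  obtain ⟨v, hv⟩ := exists_ne (0 : V)
  have he1 : (TW (S1 ρ)).e 1 (vac ⊗ₜ v : Fk ⊗[ℂ] V) = vac ⊗ₜ v := by
    rw [TW, comb_toBOps_e]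
    unfold combE
    rw [LinearMap.add_apply, dif_pos (by decide), dif_pos (by decide), Module.End.mul_apply,
      Module.End.mul_apply, SW_p0_tmul, SW_p1_tmul]
    have h0 : (S1 ρ).p0 v = 0 := rfl
    have h1 : (S1 ρ).p1 v = v := rfl
    rw [h0, h1, TensorProduct.tmul_zero, map_zero, zero_add, FW_π_tmul]
    exact congrArg (fun f => f ⊗ₜ v) FC_π0_vac
  refine ⟨(vac ⊗ₜ v : Fk ⊗[ℂ] V), ?_, ?_, ?_⟩
  · exact (BOps.smul_e (TW (S1 ρ)).toBOps 1 (vac ⊗ₜ v : Fk ⊗[ℂ] V)).trans he1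
  · refine (BOps.smul_z (TW (S1 ρ)).toBOps (vac ⊗ₜ v : Fk ⊗[ℂ] V)).trans ?_
    show (TW (S1 ρ)).z (vac ⊗ₜ v : Fk ⊗[ℂ] V) = 0
    rw [TW, comb_toBOps_z]
    simp only [LinearMap.add_apply, LinearMap.sum_apply, Module.End.mul_apply, SW_E_tmul,
      SW_D_tmul, FW_X_tmul, FW_P_tmul, FW_d_tmul]
    have h0 : (S1 ρ).D v = 0 := rfl
    have h1 : ∀ k l, (S1 ρ).E k l v = 0 := fun k l => hρ k l v
    rw [FC_d_vac, h0]
    simp [h1]
  · rintro ⟨w, hw⟩
    have h1 : B.gen.e 1 • B.gen.z • w = B.gen.z • B.gen.e 0 • w := by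
      rw [← mul_smul, ← mul_smul]
      have := B.gen.z_e 0
      rw [show (0 : Fin 5).succ = (1 : Fin 6) from rfl,
        show (0 : Fin 5).castSucc = (0 : Fin 6) from rfl] at this
      rw [this]
    have h2 : (B.gen.e 0 • w : X1 ρ) = 0 := Pos.e0 w
    rw [h2, smul_zero] at h1
    have h4 : (TW (S1 ρ)).e 1 (vac ⊗ₜ v : Fk ⊗[ℂ] V) = 0 :=
      (BOps.smul_e (TW (S1 ρ)).toBOps 1 (vac ⊗ₜ v : Fk ⊗[ℂ] V)).symm.trans
        ((congrArg (fun t : X1 ρ => B.gen.e 1 • t) hw).trans h1)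
    have h3 : (vac ⊗ₜ v : Fk ⊗[ℂ] V) = 0 := he1.symm.trans h4
    exact vac_tmul_ne v hv h3

end

end Crest.Agent.S0268
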