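import Crest.Agent.S0268_GL

set_option autoImplicit false

/-!
# S0268 (task T8) : the `gl_2`-modules `V_n` = homogeneous polynomials in two variables

`Vs 0 = 0`, `Vs (n+1)` = homogeneous polynomials of degree `n` in `x_0, x_1`;
`E_kl = x_k ∂_l`; `s q = (x_1 q, -x_0 q)`, `p f = ∂_1 f_0 - ∂_0 f_1`.
Identities: `p (s q) = (n+1) q` on `Vs n`, `η = (n+1) - s ∘ p` on `U ⊗ Vs (n+1)`, `η s = 0`,
`p η = 0`; exactness follows.  (`η(f)_l = ∂_l (∑ x_i f_i)`; Euler's identity
`MvPolynomial.IsHomogeneous.sum_X_mul_pderiv`.)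
The gl-action on `U ⊗ V`: `(UE_kl f)_i = E_kl f_i + δ_ki f_l - δ_kl f_i`.
(You may replace `ρN` by a structure with fields; keep the types of all the statements.)
-/

namespace Crest.Agent.S0268

/-- homogeneous polynomials of degree `n - 1` (`0` for `n = 0`) -/
noncomputable def Vs : ℕ → Submodule ℂ (MvPolynomial (Fin 2) ℂ)
  | 0 => ⊥
  | n + 1 => MvPolynomial.homogeneousSubmodule (Fin 2) ℂ n

instance Vs_fd (n : ℕ) : FiniteDimensional ℂ (Vs n) := by
  cases n with
  | zero =>
    change FiniteDimensional ℂ ((⊥ : Submodule ℂ (MvPolynomial (Fin 2) ℂ)))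
    infer_instance
  | succ n =>
    change Module.Finite ℂ (MvPolynomial.homogeneousSubmodule (Fin 2) ℂ n)
    rw [Module.Finite.iff_fg]
    exact MvPolynomial.homogeneousSubmodule_fg (Fin 2) ℂ n

instance Vs_zero : Subsingleton (Vs 0) := by
  change Subsingleton ((⊥ : Submodule ℂ (MvPolynomial (Fin 2) ℂ)))
  infer_instance

instance Vs_one : Nontrivial (Vs 1) := by
  refine ⟨⟨⟨1, ?_⟩, 0, ?_⟩⟩
  · change (1 : MvPolynomial (Fin 2) ℂ) ∈ MvPolynomial.homogeneousSubmodule (Fin 2) ℂ 0
    rw [MvPolynomial.mem_homogeneousSubmodule]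
    exact MvPolynomial.isHomogeneous_one _ _
  · intro h
    have := congrArg Subtype.val h
    simp at this

open MvPolynomial in
theorem Vs.X_mul {n : ℕ} {f : MvPolynomial (Fin 2) ℂ} (k : Fin 2) (hf : f ∈ Vs n) :
    X k * f ∈ Vs (n + 1) := by
  cases n with
  | zero =>
    have : f = 0 := by simpa [Vs] using hf
    rw [this, mul_zero]; exact Submodule.zero_mem _
  | succ n =>
    have h : f.IsHomogeneous n := hf
    have := (isHomogeneous_X ℂ k).mul h
    change (X k * f).IsHomogeneous (n + 1)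
    rwa [add_comm] at this

open MvPolynomial in
theorem Vs.pderiv_mem {n : ℕ} {f : MvPolynomial (Fin 2) ℂ} (k : Fin 2) (hf : f ∈ Vs (n + 1)) :
    pderiv k f ∈ Vs n := by
  have h : f.IsHomogeneous n := hf
  cases n with
  | zero =>
    rw [← totalDegree_zero_iff_isHomogeneous, totalDegree_eq_zero_iff_eq_C] at h
    rw [h, pderiv_C]; exact Submodule.zero_mem _
  | succ n =>
    exact h.pderiv

open MvPolynomial in
theorem Vs.E_mem {n : ℕ} {f : MvPolynomial (Fin 2) ℂ} (k l : Fin 2) (hf : f ∈ Vs n) :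
    X k * pderiv l f ∈ Vs n := by
  cases n with
  | zero =>
    have : f = 0 := by simpa [Vs] using hf
    rw [this, map_zero, mul_zero]; exact Submodule.zero_mem _
  | succ n => exact Vs.X_mul k (Vs.pderiv_mem l hf)

open MvPolynomial in
/-- Euler's identity, degree `n` -/
theorem Vs.euler {n : ℕ} {f : MvPolynomial (Fin 2) ℂ} (hf : f ∈ Vs (n + 1)) :
    X 0 * pderiv 0 f + X 1 * pderiv 1 f = (n : ℂ) • f := by
  have h : f.IsHomogeneous n := hf
  have := h.sum_X_mul_pderiv
  rw [Fin.sum_univ_two] at this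
  rw [this, Nat.cast_smul_eq_nsmul]

open MvPolynomial in
/-- Euler's identity, shifted -/
theorem Vs.euler' {n : ℕ} {f : MvPolynomial (Fin 2) ℂ} (hf : f ∈ Vs n) :
    X 0 * pderiv 0 f + X 1 * pderiv 1 f + f + f = ((n : ℂ) + 1) • f := by
  cases n with
  | zero =>
    have : f = 0 := by simpa [Vs] using hf
    simp [this]
  | succ n =>
    rw [Vs.euler hf]
    push_cast
    simp only [add_smul, one_smul]

open MvPolynomial in
theorem poly_pderiv_comm (i j : Fin 2) (f : MvPolynomial (Fin 2) ℂ) :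
    pderiv i (pderiv j f) = pderiv j (pderiv i f) := by
  have h : ⁅(pderiv i : Derivation ℂ (MvPolynomial (Fin 2) ℂ) (MvPolynomial (Fin 2) ℂ)),
      (pderiv j : Derivation ℂ (MvPolynomial (Fin 2) ℂ) (MvPolynomial (Fin 2) ℂ))⁆ = 0 := by
    apply MvPolynomial.derivation_ext
    intro k
    rw [Derivation.commutator_apply]
    simp [pderiv_X, Pi.single_apply]
    split_ifs <;> simp
  have := congrArg (fun D => D f) h
  simp only [Derivation.commutator_apply] at this
  rw [← sub_eq_zero]; simpa using this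

open MvPolynomial in
theorem poly_E_comm (k l p q : Fin 2) (f : MvPolynomial (Fin 2) ℂ) :
    X k * pderiv l (X p * pderiv q f) - X p * pderiv q (X k * pderiv l f) =
      (if l = p then X k * pderiv q f else 0) - (if q = k then X p * pderiv l f else 0) := by
  simp only [pderiv_mul, pderiv_X, Pi.single_apply, poly_pderiv_comm l q, @eq_comm _ p l,
    @eq_comm _ k q]
  split_ifs <;> ring

/-- `x_k ∂_l` on all polynomials -/
noncomputable def polyEop (k l : Fin 2) :
    MvPolynomial (Fin 2) ℂ →ₗ[ℂ] MvPolynomial (Fin 2) ℂ where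
  toFun f := MvPolynomial.X k * MvPolynomial.pderiv l f
  map_add' f g := by rw [map_add, mul_add]
  map_smul' c f := by
    rw [(MvPolynomial.pderiv l).map_smul, RingHom.id_apply, mul_smul_comm]

/-- `x_k ∂_l` on `Vs n` -/
noncomputable def polyE (n : ℕ) (k l : Fin 2) : Module.End ℂ (Vs n) :=
  (polyEop k l).restrict (p := Vs n) (q := Vs n) (fun _ hf => Vs.E_mem k l hf)

theorem polyE_coe (n : ℕ) (k l : Fin 2) (v : Vs n) :
    ((polyE n k l v : Vs n) : MvPolynomial (Fin 2) ℂ) =
      MvPolynomial.X k * MvPolynomial.pderiv l (v : MvPolynomial (Fin 2) ℂ) := rfl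

/-- `E_kl = x_k ∂_l` on `Vs n` -/
noncomputable def ρN (n : ℕ) : GLMod (Vs n) where
  E k l := polyE n k l
  EE k l p q := by
    apply LinearMap.ext
    intro v
    apply Subtype.ext
    have h := poly_E_comm k l p q (v : MvPolynomial (Fin 2) ℂ)
    simp only [LinearMap.sub_apply, Module.End.mul_apply, AddSubgroupClass.coe_sub, polyE_coe]
    rw [h]
    split_ifs <;> simp [polyE_coe]

theorem ρN_coe (n : ℕ) (k l : Fin 2) (v : Vs n) :
    (((ρN n).E k l v : Vs n) : MvPolynomial (Fin 2) ℂ) =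
      MvPolynomial.X k * MvPolynomial.pderiv l (v : MvPolynomial (Fin 2) ℂ) := rfl

/-- `E = 0` on constants -/
theorem ρN_one (k l : Fin 2) (v : Vs 1) : (ρN 1).E k l v = 0 := by
  have h := Vs.pderiv_mem l v.2
  have h0 : MvPolynomial.pderiv l (v : MvPolynomial (Fin 2) ℂ) = 0 := by simpa [Vs] using h
  apply Subtype.ext
  rw [ρN_coe, h0, mul_zero]
  rfl

/-- multiplication by `x_k`, `Vs n → Vs (n+1)` -/
noncomputable def polyM (n : ℕ) (k : Fin 2) : Vs n →ₗ[ℂ] Vs (n + 1) where
  toFun v := ⟨MvPolynomial.X k * (v : MvPolynomial (Fin 2) ℂ), Vs.X_mul k v.2⟩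
  map_add' f g := by apply Subtype.ext; simp [mul_add]
  map_smul' c f := by apply Subtype.ext; simp

/-- `∂_k : Vs (n+1) → Vs n` -/
noncomputable def polyD (n : ℕ) (k : Fin 2) : Vs (n + 1) →ₗ[ℂ] Vs n where
  toFun v := ⟨MvPolynomial.pderiv k v, Vs.pderiv_mem k v.2⟩
  map_add' f g := by apply Subtype.ext; simp
  map_smul' c f := by
    apply Subtype.ext
    simp only [SetLike.val_smul, (MvPolynomial.pderiv k).map_smul, RingHom.id_apply]

theorem polyM_coe (n : ℕ) (k : Fin 2) (v : Vs n) :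
    ((polyM n k v : Vs (n + 1)) : MvPolynomial (Fin 2) ℂ) =
      MvPolynomial.X k * (v : MvPolynomial (Fin 2) ℂ) := rfl

theorem polyD_coe (n : ℕ) (k : Fin 2) (v : Vs (n + 1)) :
    ((polyD n k v : Vs n) : MvPolynomial (Fin 2) ℂ) = MvPolynomial.pderiv k v := rfl

/-- `s q = (x_1 q, - x_0 q)` -/
noncomputable def polyS (n : ℕ) : Vs n →ₗ[ℂ] (Fin 2 → Vs (n + 1)) where
  toFun q i := if i = 0 then polyM n 1 q else - polyM n 0 q
  map_add' f g := by
    funext i
    fin_cases i
    · simp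
    · simp; abel
  map_smul' c f := by
    funext i
    fin_cases i
    · simp
    · simp

/-- `p f = ∂_1 f_0 - ∂_0 f_1` -/
noncomputable def polyP (n : ℕ) : (Fin 2 → Vs (n + 1)) →ₗ[ℂ] Vs n where
  toFun f := polyD n 1 (f 0) - polyD n 0 (f 1)
  map_add' f g := by simp; abel
  map_smul' c f := by simp [smul_sub]

theorem polyS_zero (n : ℕ) (q : Vs n) : polyS n q 0 = polyM n 1 q := by simp [polyS]
theorem polyS_one (n : ℕ) (q : Vs n) : polyS n q 1 = - polyM n 0 q := by simp [polyS]
theorem polyP_apply (n : ℕ) (f : Fin 2 → Vs (n + 1)) : polyP n f = polyD n 1 (f 0) - polyD n 0 (f 1) := rfl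

theorem polyP_polyS (n : ℕ) (q : Vs n) : polyP n (polyS n q) = ((n : ℂ) + 1) • q := by
  apply Subtype.ext
  rw [polyP_apply, polyS_zero, polyS_one]
  have h := Vs.euler' q.2
  simp only [AddSubgroupClass.coe_sub, polyD_coe, polyM_coe, map_neg, NegMemClass.coe_neg,
    SetLike.val_smul, MvPolynomial.pderiv_mul, MvPolynomial.pderiv_X_self]
  rw [← h]
  ring

theorem poly_eta (n : ℕ) (f : Fin 2 → Vs (n + 1)) :
    (ρN (n + 1)).eta f = ((n : ℂ) + 1) • f - polyS n (polyP n f) := by
  funext l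
  apply Subtype.ext
  have h0 := Vs.euler (f 0).2
  have h1 := Vs.euler (f 1).2
  fin_cases l
  · change ((f 0 + ∑ i, (ρN (n + 1)).E i 0 (f i) : Vs (n + 1)) : MvPolynomial (Fin 2) ℂ) =
      ((((n : ℂ) + 1) • f 0 - polyS n (polyP n f) 0 : Vs (n + 1)) : MvPolynomial (Fin 2) ℂ)
    rw [Fin.sum_univ_two, polyS_zero, polyP_apply]
    simp only [Submodule.coe_add, AddSubgroupClass.coe_sub, ρN_coe, polyM_coe, polyD_coe,
      SetLike.val_smul, add_smul, one_smul]
    rw [← h0]
    ring
  · change ((f 1 + ∑ i, (ρN (n + 1)).E i 1 (f i) : Vs (n + 1)) : MvPolynomial (Fin 2) ℂ) =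
      ((((n : ℂ) + 1) • f 1 - polyS n (polyP n f) 1 : Vs (n + 1)) : MvPolynomial (Fin 2) ℂ)
    rw [Fin.sum_univ_two, polyS_one, polyP_apply]
    simp only [Submodule.coe_add, AddSubgroupClass.coe_sub, ρN_coe, polyM_coe, polyD_coe,
      NegMemClass.coe_neg, SetLike.val_smul, add_smul, one_smul]
    rw [← h1]
    ring

theorem poly_succ_ne (n : ℕ) : ((n : ℂ) + 1) ≠ 0 := by
  exact_mod_cast Nat.succ_ne_zero n

/-- the pair `(V_n, V_{n-1})` -/
noncomputable def pairN (n : ℕ) : Pair (Vs (n + 1)) (Vs n) where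
  ρ := ρN (n + 1)
  ρ' := ρN n
  s := polyS n
  p := polyP n
  s_E k l v := by
    funext i
    apply Subtype.ext
    change _ = (((ρN (n + 1)).E k l (polyS n v i) + (if k = i then polyS n v l else 0)
      - (if k = l then polyS n v i else 0) : Vs (n + 1)) : MvPolynomial (Fin 2) ℂ)
    fin_cases i <;> fin_cases k <;> fin_cases l <;>
      simp [polyS_zero, polyS_one, ρN_coe, polyM_coe, MvPolynomial.pderiv_mul, MvPolynomial.pderiv_X_self,
        MvPolynomial.pderiv_X] <;> ring
  p_E k l f := by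
    apply Subtype.ext
    have hU : ∀ i, (ρN (n + 1)).UE k l f i = (ρN (n + 1)).E k l (f i) + (if k = i then f l else 0)
      - (if k = l then f i else 0) := fun i => rfl
    rw [polyP_apply, polyP_apply, hU, hU]
    fin_cases k <;> fin_cases l <;>
      simp [ρN_coe, polyD_coe, MvPolynomial.pderiv_mul, MvPolynomial.pderiv_X_self,
        MvPolynomial.pderiv_X, poly_pderiv_comm 0 1]
  s_inj := by
    intro a b h
    have := congrArg (polyP n) h
    rw [polyP_polyS, polyP_polyS] at this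
    exact (smul_right_injective _ (poly_succ_ne n)) this
  ex1 := by
    intro f
    constructor
    · intro h
      rw [poly_eta, sub_eq_zero] at h
      refine ⟨((n : ℂ) + 1)⁻¹ • polyP n f, ?_⟩
      rw [map_smul, ← h, smul_smul, inv_mul_cancel₀ (poly_succ_ne n), one_smul]
    · rintro ⟨q, rfl⟩
      rw [poly_eta, polyP_polyS, map_smul, sub_self]
  ex2 := by
    intro f
    constructor
    · intro h
      refine ⟨((n : ℂ) + 1)⁻¹ • f, ?_⟩
      rw [map_smul, poly_eta, h, map_zero, sub_zero, smul_smul, inv_mul_cancel₀ (poly_succ_ne n),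
        one_smul]
    · rintro ⟨q, rfl⟩
      rw [poly_eta, map_sub, map_smul, polyP_polyS, sub_self]
  p_surj := by
    intro q
    refine ⟨((n : ℂ) + 1)⁻¹ • polyS n q, ?_⟩
    rw [map_smul, polyP_polyS, smul_smul, inv_mul_cancel₀ (poly_succ_ne n), one_smul]

end Crest.Agent.S0268
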