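import Crest.Agent.S0268_PdInd

set_option autoImplicit false

/-!
# S0268 (task T11) : `ζ`-exactness from finite projective dimension

**`conOps`, `zex_of_projective`.**  `Con Y = Y × Y` with the operators
`e_i (y, y') = (e_i y, e_{i-1} y')` (`e_{-1} = 0`) is not unital (`(0, y')` with `y' ∈ e_5 Y`), so take
`Con Y = Y × {y' // e_5 y' = 0}` with `ζ (y, y') = (ζ y, (1 - e_5) (y - ζ y'))`,
`ξ (y, y') = (ξ y, -(1 - e_5) ξ y')`.
It is a `B`-module with `e_0 = 0`; `Con Y → Y`, `(y, y') ↦ y` is `B`-linear and surjective.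
If `Ind Y` is projective, then `Ind (Con Y) → Ind Y` has a `T`-linear section `σ`; the map
`y ↦ Ind.proj (σ (Ind.incl y))` is a `B`-linear section `Y → Con Y`
(`Ind.incl_sig`, `Ind.proj_smul`, `pr (sig b) = b`).
`Con Y` is `ζ`-exact in degrees `≤ 4`: if `ζ (y, y') = 0`, `e_i (y, y') = (y, y')`, `i ≤ 4`, then
`y = ζ y'` and `(y, y') = ζ (y', 0)`.  (`y'` has degree `i - 1 ≤ 3`.) Hence so is its retract `Y`.

**`zex_of_pd`.**  Induction on `k`; `k = 0` is the above.
Step: PD (Ind Y) (k+2), `k + 1 + m = 4`.
`0 → K → P → Y → 0` from `exists_cover 1 Y`; `PD (Ind K) (k+1)` by `PD.one`; so `K` is `ζ`-exact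
in degrees `≤ m + 1`; `P` is `ζ`-exact in degrees `≤ 4`.  For `y = e_i y`, `i ≤ m`, `ζ y = 0`:
lift to `p = e_i p`; `ζ p ∈ K` has degree `i + 1 ≤ m + 1`, `ζ ζ p = 0`, so `ζ p = ζ q`, `q ∈ K`, we may
take `q = e_i q`; then `p - q = ζ w`, so `y = ζ (π w)`.
-/

namespace Crest.Agent.S0268

/-- `ζ`-exactness in degrees `≤ m` -/
def ZEx (m : ℕ) (Y : Type) [AddCommGroup Y] [Module B Y] : Prop :=
  ∀ i : Fin 6, i.val ≤ m → ∀ y : Y, B.gen.e i • y = y → B.gen.z • y = 0 → ∃ w, y = B.gen.z • w

section con
variable {Y : Type} [AddCommGroup Y] [Module ℂ Y] (O : BOps (Module.End ℂ Y))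

/-- the part of degree `≤ 4` -/
abbrev ConW : Submodule ℂ Y := LinearMap.ker (O.e (Fin.last 5))

theorem con_h55 (y : Y) : O.e (Fin.last 5) (O.e (Fin.last 5) y) = O.e (Fin.last 5) y := by
  have := congrArg (fun f : Module.End ℂ Y => f y) (O.e_mul (Fin.last 5) (Fin.last 5))
  simpa using this

theorem con_h5c (i : Fin 5) (y : Y) : O.e (Fin.last 5) (O.e i.castSucc y) = 0 := by
  have := congrArg (fun f : Module.End ℂ Y => f y) (O.e_mul (Fin.last 5) i.castSucc)
  rw [if_neg (Fin.castSucc_ne_last i).symm] at this
  simpa using this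

theorem con_hc5 (i : Fin 5) (y : Y) : O.e i.castSucc (O.e (Fin.last 5) y) = 0 := by
  have := congrArg (fun f : Module.End ℂ Y => f y) (O.e_mul i.castSucc (Fin.last 5))
  rw [if_neg (Fin.castSucc_ne_last i)] at this
  simpa using this

theorem con_hx5 (k l : Fin 2) (y : Y) : O.x k l (O.e (Fin.last 5) y) = 0 := by
  have := congrArg (fun f : Module.End ℂ Y => f y) (O.x_e5 k l)
  simpa using this

theorem con_hz5 (y : Y) : O.z (O.e (Fin.last 5) y) = 0 := by
  have := congrArg (fun f : Module.End ℂ Y => f y) O.z_e5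
  simpa using this

theorem con_hxe (k l : Fin 2) (i : Fin 5) (y : Y) :
    O.x k l (O.e i.castSucc y) = O.e i.succ (O.x k l y) := by
  have := congrArg (fun f : Module.End ℂ Y => f y) (O.x_e k l i)
  simpa using this

theorem con_hze (i : Fin 5) (y : Y) : O.z (O.e i.castSucc y) = O.e i.succ (O.z y) := by
  have := congrArg (fun f : Module.End ℂ Y => f y) (O.z_e i)
  simpa using this

theorem con_hzz (y : Y) : O.z (O.z y) = 0 := by
  have := congrArg (fun f : Module.End ℂ Y => f y) O.zz
  simpa using this

theorem con_hxx (k l p q : Fin 2) (y : Y) :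
    O.x k l (O.x p q y) + O.x p q (O.x k l y) = 0 := by
  have := congrArg (fun f : Module.End ℂ Y => f y) (O.xx k l p q)
  simpa using this

theorem con_hzx (k l : Fin 2) (y : Y) :
    O.z (O.x k l y) + O.x k l (O.z y) = -∑ m, O.x k m (O.x m l y) := by
  have := congrArg (fun f : Module.End ℂ Y => f y) (O.zx k l)
  simpa using this

/-- `(1 - e_5) f` -/
noncomputable def bar (f : Module.End ℂ Y) : Y →ₗ[ℂ] ConW O :=
  LinearMap.codRestrict (ConW O) (f - O.e (Fin.last 5) * f) (by
    intro y
    rw [LinearMap.mem_ker, LinearMap.sub_apply, Module.End.mul_apply, map_sub, con_h55, sub_self])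

@[simp] theorem bar_coe (f : Module.End ℂ Y) (y : Y) :
    ((bar O f y : ConW O) : Y) = f y - O.e (Fin.last 5) (f y) := rfl

theorem con_w (w : ConW O) : O.e (Fin.last 5) (w : Y) = 0 := w.2

/-- the shifted idempotents -/
noncomputable def conE (i : Fin 6) : Module.End ℂ (Y × ConW O) :=
  Fin.cases 0 (fun i' : Fin 5 => LinearMap.prodMap (O.e i'.succ)
    (bar O (O.e i'.castSucc) ∘ₗ (ConW O).subtype)) i

theorem conE_zero : conE O 0 = 0 := rfl

theorem conE_succ (i : Fin 5) : conE O i.succ = LinearMap.prodMap (O.e i.succ)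
    (bar O (O.e i.castSucc) ∘ₗ (ConW O).subtype) := rfl

theorem conE_succ_fst (i : Fin 5) (t : Y × ConW O) : (conE O i.succ t).1 = O.e i.succ t.1 := rfl

theorem conE_succ_snd (i : Fin 5) (t : Y × ConW O) :
    ((conE O i.succ t).2 : Y) = O.e i.castSucc (t.2 : Y) := by
  change O.e i.castSucc (t.2 : Y) - O.e (Fin.last 5) (O.e i.castSucc (t.2 : Y)) = _
  rw [con_h5c, sub_zero]

/-- `ξ` -/
noncomputable def conX (k l : Fin 2) : Module.End ℂ (Y × ConW O) :=
  LinearMap.prodMap (O.x k l) (-(bar O (O.x k l) ∘ₗ (ConW O).subtype))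

theorem conX_fst (k l : Fin 2) (t : Y × ConW O) : (conX O k l t).1 = O.x k l t.1 := rfl
theorem conX_snd (k l : Fin 2) (t : Y × ConW O) :
    ((conX O k l t).2 : Y) = -(O.x k l (t.2 : Y) - O.e (Fin.last 5) (O.x k l (t.2 : Y))) := rfl

/-- `ζ` -/
noncomputable def conZ : Module.End ℂ (Y × ConW O) :=
  LinearMap.prod (O.z ∘ₗ LinearMap.fst ℂ Y (ConW O))
    (bar O 1 ∘ₗ LinearMap.fst ℂ Y (ConW O) -
      bar O O.z ∘ₗ (ConW O).subtype ∘ₗ LinearMap.snd ℂ Y (ConW O))

theorem conZ_fst (t : Y × ConW O) : (conZ O t).1 = O.z t.1 := rfl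
theorem conZ_snd (t : Y × ConW O) :
    ((conZ O t).2 : Y) = (t.1 - O.e (Fin.last 5) t.1) -
      (O.z (t.2 : Y) - O.e (Fin.last 5) (O.z (t.2 : Y))) := rfl

theorem con_ext {f g : Module.End ℂ (Y × ConW O)} (h1 : ∀ t, (f t).1 = (g t).1)
    (h2 : ∀ t, ((f t).2 : Y) = ((g t).2 : Y)) : f = g :=
  LinearMap.ext fun t => Prod.ext (h1 t) (Subtype.ext (h2 t))

/-- the operators on `Con Y` -/
noncomputable def conOps (h0 : O.e 0 = 0) : BOps (Module.End ℂ (Y × ConW O)) where
  e := conE O
  x := conX O
  z := conZ O
  e_mul i j := by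
    induction i using Fin.cases with
    | zero => rw [conE_zero]; simp
    | succ i =>
      induction j using Fin.cases with
      | zero =>
        rw [conE_zero, mul_zero, if_neg (Fin.succ_ne_zero i)]
      | succ j =>
        have h := O.e_mul i.succ j.succ
        have h' := O.e_mul i.castSucc j.castSucc
        apply con_ext
        · intro t
          have := congrArg (fun f : Module.End ℂ Y => f t.1) h
          by_cases hij : i = j
          · subst hij
            simpa [conE_succ_fst] using this
          · simp only [Fin.succ_inj, if_neg hij] at this ⊢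
            simpa [conE_succ_fst] using this
        · intro t
          have := congrArg (fun f : Module.End ℂ Y => f (t.2 : Y)) h'
          by_cases hij : i = j
          · subst hij
            simpa [conE_succ_snd] using this
          · simp only [Fin.succ_inj, Fin.castSucc_inj, if_neg hij] at this ⊢
            simpa [conE_succ_snd] using this
  e_sum := by
    rw [Fin.sum_univ_succ, conE_zero, zero_add]
    apply con_ext
    · intro t
      have := congrArg (fun f : Module.End ℂ Y => f t.1) O.e_sum
      rw [Fin.sum_univ_succ, h0, zero_add, LinearMap.sum_apply] at this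
      rw [LinearMap.sum_apply, Prod.fst_sum]
      simp only [conE_succ_fst]
      exact this
    · intro t
      have := congrArg (fun f : Module.End ℂ Y => f (t.2 : Y)) O.e_sum
      rw [Fin.sum_univ_castSucc, LinearMap.add_apply, LinearMap.sum_apply, con_w, add_zero] at this
      rw [LinearMap.sum_apply, Prod.snd_sum, AddSubmonoidClass.coe_finsetSum]
      simp only [conE_succ_snd]
      exact this
  x_e k l i := by
    induction i using Fin.cases with
    | zero =>
      rw [show (Fin.castSucc (0 : Fin 5)) = 0 from rfl, conE_zero, mul_zero]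
      apply con_ext
      · intro t
        have := con_hxe O k l 0 t.1
        rw [show (Fin.castSucc (0 : Fin 5)) = 0 from rfl, h0] at this
        simp only [Module.End.mul_apply, conE_succ_fst, conX_fst, ← this]
        simp
      · intro t
        simp only [Module.End.mul_apply, conE_succ_snd]
        rw [show (Fin.castSucc (0 : Fin 5)) = 0 from rfl, h0]
        simp
    | succ i =>
      rw [show i.succ.castSucc = i.castSucc.succ from rfl]
      apply con_ext
      · intro t
        simp only [Module.End.mul_apply, conE_succ_fst, conX_fst]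
        exact con_hxe O k l i.succ t.1
      · intro t
        simp only [Module.End.mul_apply, conE_succ_snd, conX_snd]
        rw [con_hxe, map_neg, map_sub, con_hc5, sub_zero]
        have := con_h5c O i.succ (O.x k l (t.2 : Y))
        rw [show i.succ.castSucc = i.castSucc.succ from rfl] at this ⊢
        rw [this, sub_zero]
  x_e5 k l := by
    apply con_ext
    · intro t
      rw [show (Fin.last 5) = (Fin.last 4).succ from rfl]
      simp only [Module.End.mul_apply, conE_succ_fst, conX_fst]
      exact con_hx5 O k l t.1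
    · intro t
      rw [show (Fin.last 5) = (Fin.last 4).succ from rfl]
      simp only [Module.End.mul_apply, conE_succ_snd, conX_snd]
      rw [con_hxe, show (Fin.last 4).succ = (Fin.last 5) from rfl, con_h55]
      simp
  z_e i := by
    induction i using Fin.cases with
    | zero =>
      rw [show (Fin.castSucc (0 : Fin 5)) = 0 from rfl, conE_zero, mul_zero]
      apply con_ext
      · intro t
        have := con_hze O 0 t.1
        rw [show (Fin.castSucc (0 : Fin 5)) = 0 from rfl, h0] at this
        simp only [Module.End.mul_apply, conE_succ_fst, conZ_fst, ← this]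
        simp
      · intro t
        simp only [Module.End.mul_apply, conE_succ_snd]
        rw [show (Fin.castSucc (0 : Fin 5)) = 0 from rfl, h0]
        simp
    | succ i =>
      rw [show i.succ.castSucc = i.castSucc.succ from rfl]
      apply con_ext
      · intro t
        simp only [Module.End.mul_apply, conE_succ_fst, conZ_fst]
        exact con_hze O i.succ t.1
      · intro t
        simp only [Module.End.mul_apply, conE_succ_snd, conE_succ_fst, conZ_snd]
        rw [con_hze, map_sub, map_sub, map_sub, con_hc5, con_hc5, sub_zero, sub_zero]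
        have h1 := con_h5c O i.succ (O.z (t.2 : Y))
        have h2 := con_h5c O i.succ t.1
        rw [show i.succ.castSucc = i.castSucc.succ from rfl] at h1 h2 ⊢
        rw [h1, h2, sub_zero, sub_zero]
  z_e5 := by
    apply con_ext
    · intro t
      rw [show (Fin.last 5) = (Fin.last 4).succ from rfl]
      simp only [Module.End.mul_apply, conE_succ_fst, conZ_fst]
      exact con_hz5 O t.1
    · intro t
      rw [show (Fin.last 5) = (Fin.last 4).succ from rfl]
      simp only [Module.End.mul_apply, conE_succ_snd, conE_succ_fst, conZ_snd]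
      rw [con_hze, show (Fin.last 4).succ = (Fin.last 5) from rfl, con_h55, con_h55]
      simp
  xx k l p q := by
    apply con_ext
    · intro t
      simp only [LinearMap.add_apply, Module.End.mul_apply, Prod.fst_add, conX_fst]
      exact con_hxx O k l p q t.1
    · intro t
      simp only [LinearMap.add_apply, Module.End.mul_apply, Prod.snd_add, conX_snd,
        Submodule.coe_add, map_neg, map_sub, con_hx5, sub_zero]
      have := con_hxx O k l p q (t.2 : Y)
      have h2 := congrArg (O.e (Fin.last 5)) this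
      rw [map_add, map_zero] at h2
      simp only [LinearMap.zero_apply, Prod.snd_zero, ZeroMemClass.coe_zero]
      have h3 := congrArg₂ (· - ·) this h2
      simp only [sub_zero] at h3
      rw [← h3]
      abel
  zz := by
    apply con_ext
    · intro t
      simp only [Module.End.mul_apply, conZ_fst]
      exact con_hzz O t.1
    · intro t
      simp only [Module.End.mul_apply, conZ_snd, conZ_fst, map_sub, con_hz5, con_hzz, sub_zero]
      simp
  zx k l := by
    apply con_ext
    · intro t
      simp only [LinearMap.add_apply, Module.End.mul_apply, Prod.fst_add, conX_fst, conZ_fst]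
      rw [con_hzx]
      simp [conX_fst]
    · intro t
      have h1 := con_hzx O k l (t.2 : Y)
      have h2 := congrArg (O.e (Fin.last 5)) h1
      simp only [LinearMap.add_apply, Module.End.mul_apply, Prod.snd_add, conX_snd, conZ_snd,
        conX_fst, Submodule.coe_add, map_neg, map_sub, con_hx5, con_hz5, sub_zero,
        LinearMap.neg_apply, LinearMap.sum_apply, Prod.snd_neg, Prod.snd_sum,
        NegMemClass.coe_neg, AddSubmonoidClass.coe_finsetSum, neg_sub,
        map_add, map_sum, Finset.sum_sub_distrib] at h1 h2 ⊢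
      have h3 := congrArg₂ (· - ·) h1 h2
      rw [neg_sub_neg] at h3
      rw [Finset.sum_const_zero, map_zero, Finset.sum_const_zero]
      refine Eq.trans ?_ (h3.trans ?_) <;> abel

end con

theorem pr_sig (b : B) : pr (sig b) = b := by
  induction b using B.left_induction with
  | h1 => simp
  | hadd a b ha hb => rw [map_add, map_add, ha, hb]
  | hsmul c a ha => rw [map_smul, map_smul, ha]
  | he i a ha => rw [map_mul, map_mul, ha, sig_e, pr_e]
  | hx k l a ha => rw [map_mul, map_mul, ha, sig_x, pr_x]
  | hz a ha => rw [map_mul, map_mul, ha, sig_z, pr_z]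

section
variable (Y : Type) [AddCommGroup Y] [Module ℂ Y] [Module B Y] [IsScalarTower ℂ B Y] [Pos Y]

/-- the cone -/
abbrev Con : Type := (conOps (opsB Y) Pos.opsB_e0).Mod

instance : Pos (Con Y) where
  e0 t := by
    rw [BOps.smul_e]
    rfl

/-- the projection of the cone -/
noncomputable def Con.pr : Con Y →ₗ[B] Y :=
  linB (M := Con Y) (N := Y) (LinearMap.fst ℂ Y (ConW (opsB Y)))
    (by
      intro i m
      rw [BOps.smul_e]
      induction i using Fin.cases with
      | zero =>
        rw [Pos.e0]
        rfl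
      | succ i => rfl)
    (by
      intro k l m
      rw [BOps.smul_x]
      rfl)
    (by
      intro m
      rw [BOps.smul_z]
      rfl)

theorem Con.pr_surjective : Function.Surjective (Con.pr Y) := fun y =>
  ⟨((y, 0) : Y × ConW (opsB Y)), rfl⟩

theorem Con.zex : ZEx 4 (Con Y) := by
  intro i hi t he hz
  rw [BOps.smul_e] at he
  rw [BOps.smul_z] at hz
  obtain ⟨y, w⟩ := t
  induction i using Fin.cases with
  | zero =>
    refine ⟨0, ?_⟩
    rw [smul_zero]
    exact he.symm
  | succ i =>
    have hi' : i.val < 4 := by simpa using hi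
    -- degree
    have he1 : (opsB Y).e i.succ y = y := congrArg Prod.fst he
    have he2 : (opsB Y).e i.castSucc (w : Y) = (w : Y) := by
      have := congrArg (fun t : Y × ConW (opsB Y) => (t.2 : Y)) he
      rw [← conE_succ_snd (opsB Y) i (y, w)]
      exact this
    have hz2 : (y - (opsB Y).e (Fin.last 5) y) - ((opsB Y).z (w : Y) -
        (opsB Y).e (Fin.last 5) ((opsB Y).z (w : Y))) = 0 := by
      have := congrArg (fun t : Y × ConW (opsB Y) => (t.2 : Y)) hz
      rw [← conZ_snd (opsB Y) (y, w)]
      exact this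
    have h5y : (opsB Y).e (Fin.last 5) y = 0 := by
      obtain ⟨i', rfl⟩ : ∃ i' : Fin 4, i = i'.castSucc := ⟨⟨i.val, hi'⟩, rfl⟩
      rw [← he1, show i'.castSucc.succ = i'.succ.castSucc from rfl]
      exact con_h5c _ _ _
    have h5z : (opsB Y).e (Fin.last 5) ((opsB Y).z (w : Y)) = 0 := by
      obtain ⟨i', rfl⟩ : ∃ i' : Fin 4, i = i'.castSucc := ⟨⟨i.val, hi'⟩, rfl⟩
      rw [← he2, con_hze, show i'.castSucc.succ = i'.succ.castSucc from rfl]
      exact con_h5c _ _ _
    rw [h5y, h5z, sub_zero, sub_zero, sub_eq_zero] at hz2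
    refine ⟨(((w : Y), (0 : ConW (opsB Y))) : Y × ConW (opsB Y)), ?_⟩
    refine Eq.trans ?_ (BOps.smul_z (conOps (opsB Y) Pos.opsB_e0) _).symm
    refine Prod.ext ?_ (Subtype.ext ?_)
    · exact hz2
    · refine Eq.trans ?_ (conZ_snd (opsB Y) ((w : Y), 0)).symm
      simp [con_w]

end

/-- task T11a -/
theorem zex_of_projective (Y : Type) [AddCommGroup Y] [Module ℂ Y]
    [Module B Y] [IsScalarTower ℂ B Y] [Pos Y] (h : Module.Projective T (Ind Y)) : ZEx 4 Y := by
  obtain ⟨σ, hσ⟩ := Module.projective_lifting_property (Ind.map (Con.pr Y)) LinearMap.id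
    (Ind.map_surjective _ (Con.pr_surjective Y))
  let s : Y → Con Y := fun y => Ind.proj (σ (Ind.incl y))
  have hs : ∀ (b : B) (y : Y), s (b • y) = b • s y := by
    intro b y
    change Ind.proj (σ (Ind.incl (b • y))) = b • Ind.proj (σ (Ind.incl y))
    rw [Ind.incl_sig, map_smul, Ind.proj_smul, pr_sig]
  have hs0 : s 0 = 0 := by
    have := hs 0 0
    rwa [zero_smul, zero_smul] at this
  have hps : ∀ y : Y, Con.pr Y (s y) = y := by
    intro y
    change Con.pr Y (Ind.proj (σ (Ind.incl y))) = y
    rw [← Ind.proj_map, show Ind.map (Con.pr Y) (σ (Ind.incl y)) = Ind.incl y from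
      LinearMap.congr_fun hσ _, Ind.proj_incl]
  intro i hi y he hz
  obtain ⟨w, hw⟩ := Con.zex Y i hi (s y) (by rw [← hs, he]) (by rw [← hs, hz, hs0])
  refine ⟨Con.pr Y w, ?_⟩
  rw [← map_smul, ← hw, hps]

/-- task T11b -/
theorem zex_of_pd (k m : ℕ) (hkm : k + m = 4) (Y : Type) [AddCommGroup Y] [Module ℂ Y]
    [Module B Y] [IsScalarTower ℂ B Y] [Pos Y] (h : PD T (Ind Y) (k + 1)) : ZEx m Y := by
  induction k generalizing m Y with
  | zero =>
    obtain rfl : m = 4 := by omega
    exact zex_of_projective Y h.projective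
  | succ k ih =>
    obtain ⟨P, iP1, iP2, iP3, iP4, iP5, π, hsurj, hproj, hker⟩ := exists_cover 1 Y (by
      intro j hj y
      obtain rfl : j = 0 := by
        apply Fin.ext
        simpa using hj
      exact Pos.e0 y)
    have hK : PD T (Ind (LinearMap.ker π)) (k + 1) := by
      refine PD.one (N := Ind P) (L := Ind Y) (Ind.map (LinearMap.ker π).subtype) (Ind.map π)
        (Ind.map_injective _ (Submodule.injective_subtype _)) (Ind.map_exact _ _ ?_)
        (Ind.map_surjective _ hsurj) (PD.of_projective (by omega)) h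
      exact LinearMap.exact_subtype_ker_map π
    have hzK : ZEx (m + 1) (LinearMap.ker π) := ih (m + 1) (by omega) _ hK
    have hzP : ZEx 4 P := zex_of_projective P hproj
    intro i hi y he hz
    obtain ⟨p0, hp0⟩ := hsurj y
    have hee : ∀ (i : Fin 6), B.gen.e i * B.gen.e i = B.gen.e i := by
      intro i
      rw [B.gen.e_mul, if_pos rfl]
    set p := B.gen.e i • p0 with hp
    have hpy : π p = y := by rw [hp, map_smul, hp0, he]
    have hep : B.gen.e i • p = p := by rw [hp, ← mul_smul, hee]
    obtain ⟨i', rfl⟩ : ∃ i' : Fin 5, i = i'.castSucc := ⟨⟨i.val, by omega⟩, rfl⟩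
    have hzk : B.gen.z • p ∈ LinearMap.ker π := by
      rw [LinearMap.mem_ker, map_smul, hpy, hz]
    obtain ⟨q, hq⟩ := hzK i'.succ (by simpa using hi) ⟨B.gen.z • p, hzk⟩ (by
      apply Subtype.ext
      change B.gen.e i'.succ • (B.gen.z • p) = B.gen.z • p
      rw [← mul_smul, ← B.gen.z_e, mul_smul, hep]) (by
      apply Subtype.ext
      change B.gen.z • (B.gen.z • p) = 0
      rw [← mul_smul, B.gen.zz, zero_smul])
    have hq' : B.gen.z • p = B.gen.z • (q : P) := congrArg Subtype.val hq
    have hq2 : B.gen.z • (B.gen.e i'.castSucc • (q : P)) = B.gen.z • p := by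
      rw [← mul_smul, B.gen.z_e, mul_smul, ← hq', ← mul_smul, ← B.gen.z_e, mul_smul, hep]
    obtain ⟨w, hw⟩ := hzP i'.castSucc (by omega) (p - B.gen.e i'.castSucc • (q : P)) (by
      rw [smul_sub, hep, ← mul_smul, hee]) (by
      rw [smul_sub, hq2, sub_self])
    refine ⟨π w, ?_⟩
    rw [← map_smul, ← hw, map_sub, hpy, map_smul, show π (q : P) = 0 from q.2, smul_zero, sub_zero]

end Crest.Agent.S0268
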