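import Crest.Agent.S0268_Q
import Crest.Agent.S0268_J
import Crest.Agent.S0268_ZEx
import Crest.Agent.S0268_Poly

set_option autoImplicit false

/-!
# S0268 (task T15) : the recursion

`pd_J`: `JIso` and `pd_ind 1` (`Cls 1 (X1 ρ)` from `Pos`).
Exact sequences: `0 → X(V') → J → Q → Z → 0` (`TW.map` of `mf`, `mg`, `mh`), and
`0 → X(V') → Z → X(V) → 0`.
`pd_step`: let `K = ker (Q → Z) = range (J → Q)`: `0 → X(V') → J → K → 0`, `0 → K → Q → Z → 0`.
`PD K (d+2)` (`PD.three`), `¬ PD K (d+1)` (`PD.one`, as `PD J d`), `PD Z (d+3)`, `¬ PD Z (d+2)`,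
`PD X(V) (d+3)` (`PD.three`), `¬ PD X(V) (d+2)` (`PD.two`).
`pd_base`: `V' = 0`, so `0 → J → Q → Z → 0`, `Z ≅ X(V)`; `PD Z 6`; if `PD Z 5` then `PD J 4`, then
`zex_of_pd 3 1` applied to `X1 ρ` contradicts `X1_vac`.
-/

namespace Crest.Agent.S0268

open scoped TensorProduct

/-- the `T`-module `X_n = F ⊗ V_n` -/
abbrev Xn (n : ℕ) : Type := (TW (S0 (ρN n))).Mod

/-- `pd J(V) ≤ 4` -/
theorem pd_J {V : Type} [AddCommGroup V] [Module ℂ V] (ρ : GLMod V) :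
    PD T (TW (SJ ρ)).Mod 5 := by
  refine PD.equiv (JIso ρ) (pd_ind 1 le_rfl (by norm_num) (X1 ρ) ?_)
  intro j hj y
  have h0 : j = 0 := by
    apply Fin.ext; simpa using hj
  rw [h0]
  exact Pos.e0 y

section seq
variable {V V' : Type} [AddCommGroup V] [Module ℂ V] [AddCommGroup V'] [Module ℂ V']

/-- `X(V') → J(V)` -/
noncomputable def rF (π : Pair V V') : (TW (S0 π.ρ')).Mod →ₗ[T] (TW (SJ π.ρ)).Mod :=
  TW.map (mf π) (mf_hom π)
/-- `J(V) → Q(V)` -/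
noncomputable def rG (π : Pair V V') : (TW (SJ π.ρ)).Mod →ₗ[T] (TW (SQ π.ρ)).Mod :=
  TW.map (mg π) (mg_hom π)
/-- `Q(V) → Z` -/
noncomputable def rH (π : Pair V V') : (TW (SQ π.ρ)).Mod →ₗ[T] (TW (SZ π)).Mod :=
  TW.map (mh π) (mh_hom π)
/-- `X(V') → Z` -/
noncomputable def rI (π : Pair V V') : (TW (S0 π.ρ')).Mod →ₗ[T] (TW (SZ π)).Mod :=
  TW.map (LinearMap.inr ℂ V V') (mi_hom π)
/-- `Z → X(V)` -/
noncomputable def rQ (π : Pair V V') : (TW (SZ π)).Mod →ₗ[T] (TW (S0 π.ρ)).Mod :=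
  TW.map (LinearMap.fst ℂ V V') (mq_hom π)

theorem rF_inj (π : Pair V V') : Function.Injective (rF π) :=
  TW.map_injective _ _ (mf_inj π)
theorem rFG (π : Pair V V') : Function.Exact (rF π) (rG π) :=
  TW.map_exact _ _ _ _ (mfg_exact π)
theorem rGH (π : Pair V V') : Function.Exact (rG π) (rH π) :=
  TW.map_exact _ _ _ _ (mgh_exact π)
theorem rH_surj (π : Pair V V') : Function.Surjective (rH π) :=
  TW.map_surjective _ _ (mh_surj π)
theorem rI_inj (π : Pair V V') : Function.Injective (rI π) :=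
  TW.map_injective _ _ LinearMap.inr_injective
theorem rIQ (π : Pair V V') : Function.Exact (rI π) (rQ π) :=
  TW.map_exact _ _ _ _ (miq_exact π)
theorem rQ_surj (π : Pair V V') : Function.Surjective (rQ π) :=
  TW.map_surjective _ _ LinearMap.fst_surjective

/-- the kernel of `Q(V) → Z` -/
noncomputable abbrev rK (π : Pair V V') : Submodule T (TW (SQ π.ρ)).Mod := LinearMap.ker (rH π)

/-- `J(V) → K` -/
noncomputable def rG' (π : Pair V V') : (TW (SJ π.ρ)).Mod →ₗ[T] rK π :=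
  LinearMap.codRestrict (rK π) (rG π) (fun x => by
    rw [LinearMap.mem_ker]
    exact (rGH π).apply_apply_eq_zero x)

theorem rG'_apply (π : Pair V V') (x : (TW (SJ π.ρ)).Mod) : ((rG' π x : rK π) : (TW (SQ π.ρ)).Mod)
    = rG π x := rfl

theorem rFG' (π : Pair V V') : Function.Exact (rF π) (rG' π) := by
  intro x
  rw [← rFG π x]
  constructor
  · intro h
    rw [← rG'_apply, h]; rfl
  · intro h
    apply Subtype.ext
    rw [rG'_apply, h]; rfl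

theorem rG'_surj (π : Pair V V') : Function.Surjective (rG' π) := by
  rintro ⟨x, hx⟩
  obtain ⟨y, hy⟩ := (rGH π x).1 hx
  exact ⟨y, Subtype.ext hy⟩

theorem rKH (π : Pair V V') : Function.Exact (rK π).subtype (rH π) := by
  intro x
  constructor
  · intro h
    exact ⟨⟨x, h⟩, rfl⟩
  · rintro ⟨y, rfl⟩
    exact y.2

/-- `PD` of the kernel -/
theorem pdK_three (π : Pair V V') {n : ℕ} (h1 : PD T (TW (S0 π.ρ')).Mod n)
    (h2 : PD T (TW (SJ π.ρ)).Mod (n + 1)) : PD T (rK π) (n + 1) :=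
  PD.three (rF π) (rG' π) (rF_inj π) (rFG' π) (rG'_surj π) h1 h2
theorem pdK_one (π : Pair V V') {n : ℕ} (h1 : PD T (TW (SJ π.ρ)).Mod n)
    (h2 : PD T (rK π) (n + 1)) : PD T (TW (S0 π.ρ')).Mod n :=
  PD.one (rF π) (rG' π) (rF_inj π) (rFG' π) (rG'_surj π) h1 h2
theorem pdK_two (π : Pair V V') {n : ℕ} (h1 : PD T (TW (S0 π.ρ')).Mod n)
    (h2 : PD T (rK π) n) : PD T (TW (SJ π.ρ)).Mod n :=
  PD.two (rF π) (rG' π) (rF_inj π) (rFG' π) (rG'_surj π) h1 h2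
theorem pdZ_three (π : Pair V V') {n : ℕ} (h1 : PD T (rK π) n)
    (h2 : PD T (TW (SQ π.ρ)).Mod (n + 1)) : PD T (TW (SZ π)).Mod (n + 1) :=
  PD.three (rK π).subtype (rH π) (rK π).injective_subtype (rKH π) (rH_surj π) h1 h2
theorem pdZ_one (π : Pair V V') {n : ℕ} (h1 : PD T (TW (SQ π.ρ)).Mod n)
    (h2 : PD T (TW (SZ π)).Mod (n + 1)) : PD T (rK π) n :=
  PD.one (rK π).subtype (rH π) (rK π).injective_subtype (rKH π) (rH_surj π) h1 h2
theorem pdX_three (π : Pair V V') {n : ℕ} (h1 : PD T (TW (S0 π.ρ')).Mod n)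
    (h2 : PD T (TW (SZ π)).Mod (n + 1)) : PD T (TW (S0 π.ρ)).Mod (n + 1) :=
  PD.three (rI π) (rQ π) (rI_inj π) (rIQ π) (rQ_surj π) h1 h2
theorem pdX_two (π : Pair V V') {n : ℕ} (h1 : PD T (TW (S0 π.ρ')).Mod n)
    (h2 : PD T (TW (S0 π.ρ)).Mod n) : PD T (TW (SZ π)).Mod n :=
  PD.two (rI π) (rQ π) (rI_inj π) (rIQ π) (rQ_surj π) h1 h2
theorem pdQ (π : Pair V V') [FiniteDimensional ℂ V] {n : ℕ} (hn : 1 ≤ n) :
    PD T (TW (SQ π.ρ)).Mod n := by
  have := Q_proj π.ρ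
  exact PD.of_projective hn

end seq

/-- recursion step -/
theorem pd_step {V V' : Type} [AddCommGroup V] [Module ℂ V] [AddCommGroup V'] [Module ℂ V']
    [FiniteDimensional ℂ V] (π : Pair V V') (d : ℕ) (hd : 5 ≤ d)
    (h1 : PD T (TW (S0 π.ρ')).Mod (d + 1)) (h2 : ¬ PD T (TW (S0 π.ρ')).Mod d) :
    PD T (TW (S0 π.ρ)).Mod (d + 3) ∧ ¬ PD T (TW (S0 π.ρ)).Mod (d + 2) := by
  have hK : PD T (rK π) (d + 2) := pdK_three π h1 ((pd_J π.ρ).mono (by omega))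
  have hZ : PD T (TW (SZ π)).Mod (d + 3) := pdZ_three π hK (pdQ π (by omega))
  refine ⟨pdX_three π (h1.mono (by omega)) hZ, fun hX => ?_⟩
  have hZ' : PD T (TW (SZ π)).Mod (d + 2) := pdX_two π (h1.mono (by omega)) hX
  have hK' : PD T (rK π) (d + 1) := pdZ_one π (pdQ π (by omega)) hZ'
  exact h2 (pdK_one π ((pd_J π.ρ).mono hd) hK')

/-- base case -/
theorem pd_base {V V' : Type} [AddCommGroup V] [Module ℂ V] [AddCommGroup V'] [Module ℂ V']
    [FiniteDimensional ℂ V] [Subsingleton V'] [Nontrivial V] (π : Pair V V')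
    (hρ : ∀ k l v, π.ρ.E k l v = 0) :
    PD T (TW (S0 π.ρ)).Mod 6 ∧ ¬ PD T (TW (S0 π.ρ)).Mod 5 := by
  have hss : Subsingleton (Fk ⊗[ℂ] V') := by
    refine ⟨fun a b => ?_⟩
    have h : ∀ t : Fk ⊗[ℂ] V', t = 0 := by
      intro t
      induction t with
      | zero => rfl
      | tmul x y => rw [Subsingleton.elim y 0, TensorProduct.tmul_zero]
      | add x y hx hy => rw [hx, hy, add_zero]
    rw [h a, h b]
  have : Subsingleton (TW (S0 π.ρ')).Mod := hss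
  have h0 : ∀ n, PD T (TW (S0 π.ρ')).Mod n := fun n => PD.of_subsingleton n
  have hK : PD T (rK π) 5 := pdK_three π (h0 4) (pd_J π.ρ)
  have hZ : PD T (TW (SZ π)).Mod 6 := pdZ_three π hK (pdQ π (by norm_num))
  refine ⟨pdX_three π (h0 5) hZ, fun hX => ?_⟩
  have hZ' : PD T (TW (SZ π)).Mod 5 := pdX_two π (h0 5) hX
  have hK' : PD T (rK π) 4 := pdZ_one π (pdQ π (by norm_num)) hZ'
  have hJ : PD T (TW (SJ π.ρ)).Mod 4 := pdK_two π (h0 4) hK'
  have hI : PD T (Ind (X1 π.ρ)) (3 + 1) := PD.equiv (JIso π.ρ).symm hJ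
  have hz : ZEx 1 (X1 π.ρ) := zex_of_pd 3 1 (by norm_num) (X1 π.ρ) hI
  obtain ⟨y, hy1, hy2, hy3⟩ := X1_vac π.ρ hρ
  exact hy3 (hz 1 (by norm_num) y hy1 hy2)

theorem pd_Xn (n : ℕ) : PD T (Xn (n + 1)) (2 * n + 6) ∧ ¬ PD T (Xn (n + 1)) (2 * n + 5) := by
  induction n with
  | zero =>
    have : Subsingleton (Vs 0) := Vs_zero
    have : Nontrivial (Vs (0 + 1)) := Vs_one
    exact pd_base (pairN 0) ρN_one
  | succ n ih => exact pd_step (pairN (n + 1)) (2 * n + 5) (by omega) ih.1 ih.2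

end Crest.Agent.S0268
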