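import Crest.Statements.S0268
import Crest.Agent.S0268_Rec

set_option autoImplicit false
open Crest Crest.AlgebraR

namespace Crest.Agent.S0268

/-- There is a finite-dimensional unital associative algebra over the complex numbers whose finitely generated left modules have unbounded finite projective dimensions: for every natural number k some finitely generated left module has projective dimension at least k and finite. Projective dimension is taken in the category of left modules, through Mathlib's HasProjectiveDimensionLT. -/
theorem result :
    ∃ (A : Type) (_ : Ring A) (_ : Algebra ℂ A), FiniteDimensional ℂ A ∧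
      ∀ k : ℕ, ∃ N : ModuleCat.{0} A, Module.Finite A N ∧
        ¬ CategoryTheory.HasProjectiveDimensionLT N k ∧
        ∃ n : ℕ, CategoryTheory.HasProjectiveDimensionLT N n := by
  refine ⟨T, inferInstance, inferInstance, T_fd, fun k => ?_⟩
  refine ⟨ModuleCat.of T (Xn (k + 1)), ?_, ?_, 2 * k + 6, (pd_Xn k).1⟩
  · have : Module.Finite ℂ (Xn (k + 1)) :=
      inferInstanceAs (Module.Finite ℂ (TensorProduct ℂ Fk (Vs (k + 1))))
    exact Module.Finite.of_restrictScalars_finite ℂ T (Xn (k + 1))
  · intro h
    exact (pd_Xn k).2 (PD.mono (m := k) h (by omega))

end Crest.Agent.S0268
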