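import Crest.Agent.S0268_Ops

set_option autoImplicit false

/-!
# S0268 (task T1b) : the relations not involving idempotents

Write `z = d + ∑ X_ab E_ab + P D`, `u_j = a_j + ∑_l I_jl P c_l`, `v_j = P c_j`, `τ = ∑ X_kk`.
`F`-operators commute with `S`-operators (`Comm F S`).

`zz`: `d d = 0`; `d X_ab E_ab + X_ab E_ab d = -∑ X_am X_mb E_ab`;
`(∑ X_ab E_ab)^2 = 1/2 ∑ X_ab X_cd [E_ab, E_cd] = ∑ X_ab X_bd E_ad` (avoid the division by
pairing terms, or prove directly after expansion over `Fin 2`); `P D` anticommutes with the rest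
and `(P D)^2 = 0`.

`zu`: `[z, a_j] = ∑_a X_aj a_a - τ a_j - P (c_j + ∑_l c_l E_jl)`;
`[z, ∑_l I_jl P c_l] = ∑_{k,l} X_kj I_kl P c_l - ∑_{l,q} X_lq I_jq P c_l
  + ∑_{a,l} X_al I_jl P c_a - τ ∑_l I_jl P c_l + P ∑_l c_l E_jl`
(the terms `d`, `X E`, `P D` treated separately; `I_jl` and `P` anticommute, and
`P D I_jl P c_l - I_jl P c_l P D = -I_jl (D c_l + c_l D) = 0`).
Hence `z u_j - u_j z = ∑_k X_kj u_k - τ u_j - v_j`, and this equals the stated form
`∑ u_k X_kj - u_j τ` because `X_kl u_j - u_j X_kl = δ_kj v_l` (prove `comb_xu` first).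

`zv`: `d P c_j + P c_j d = 0`, `X_ab E_ab P c_j + P c_j X_ab E_ab = X_ab P [E_ab, c_j]`,
`P D P c_j + P c_j P D = D c_j + c_j D = 0`.
Tip: `linear_combination (norm := noncomm_ring) ...` and expansion with `Fin.sum_univ_two` work,
or use `simp only` with the commutation rules as rewriting rules.
-/

namespace Crest.Agent.S0268

set_option linter.unusedSectionVars false
set_option linter.unusedVariables false

section
variable {A : Type} [Ring A]

theorem YY_aux (x0 x1 x2 x3 e0 e1 e2 e3 : A)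
    (c00 : e0 * x0 = x0 * e0)
    (c01 : e0 * x1 = x1 * e0)
    (c02 : e0 * x2 = x2 * e0)
    (c03 : e0 * x3 = x3 * e0)
    (c10 : e1 * x0 = x0 * e1)
    (c11 : e1 * x1 = x1 * e1)
    (c12 : e1 * x2 = x2 * e1)
    (c13 : e1 * x3 = x3 * e1)
    (c20 : e2 * x0 = x0 * e2)
    (c21 : e2 * x1 = x1 * e2)
    (c22 : e2 * x2 = x2 * e2)
    (c23 : e2 * x3 = x3 * e2)
    (c30 : e3 * x0 = x0 * e3)
    (c31 : e3 * x1 = x1 * e3)
    (c32 : e3 * x2 = x2 * e3)
    (c33 : e3 * x3 = x3 * e3)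
    (a01 : x0 * x1 + x1 * x0 = 0)
    (a02 : x0 * x2 + x2 * x0 = 0)
    (a03 : x0 * x3 + x3 * x0 = 0)
    (a12 : x1 * x2 + x2 * x1 = 0)
    (a13 : x1 * x3 + x3 * x1 = 0)
    (a23 : x2 * x3 + x3 * x2 = 0)
    (s0 : x0 * x0 = 0)
    (s1 : x1 * x1 = 0)
    (s2 : x2 * x2 = 0)
    (s3 : x3 * x3 = 0)
    (b01 : e0 * e1 - e1 * e0 = e1)
    (b02 : e0 * e2 - e2 * e0 = -e2)
    (b03 : e0 * e3 - e3 * e0 = 0)
    (b12 : e1 * e2 - e2 * e1 = e0 - e3)
    (b13 : e1 * e3 - e3 * e1 = e1)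
    (b23 : e2 * e3 - e3 * e2 = -e2) :
    (x0 * e0 + x1 * e1 + (x2 * e2 + x3 * e3)) * (x0 * e0 + x1 * e1 + (x2 * e2 + x3 * e3)) =
      (x0 * x0 + x1 * x2) * e0 + (x0 * x1 + x1 * x3) * e1 +
      ((x2 * x0 + x3 * x2) * e2 + (x2 * x1 + x3 * x3) * e3) := by
  linear_combination (norm := noncomm_ring)
    x0 * c00 * e0 +
    x0 * c01 * e1 +
    x0 * c02 * e2 +
    x0 * c03 * e3 +
    x1 * c10 * e0 +
    x1 * c11 * e1 +
    x1 * c12 * e2 +
    x1 * c13 * e3 +
    x2 * c20 * e0 +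
    x2 * c21 * e1 +
    x2 * c22 * e2 +
    x2 * c23 * e3 +
    x3 * c30 * e0 +
    x3 * c31 * e1 +
    x3 * c32 * e2 +
    x3 * c33 * e3 +
    x0 * x1 * b01 +
    x0 * x2 * b02 +
    x0 * x3 * b03 +
    x1 * x2 * b12 +
    x1 * x3 * b13 +
    x2 * x3 * b23 +
    a01 * (e1 * e0) +
    a02 * (e2 * e0) +
    a03 * (e3 * e0) +
    a12 * (e2 * e1) +
    a13 * (e3 * e1) +
    a23 * (e3 * e2) +
    s0 * (e0 * e0) +
    s1 * (e1 * e1) +
    s2 * (e2 * e2) +
    s3 * (e3 * e3) -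
    a02 * e2 - a23 * e2 - a12 * e3 - s0 * e0 - s3 * e3
end

section
variable {A : Type} [Ring A] [Algebra ℂ A]
theorem FOps.X_sq (F : FOps A) (k l : Fin 2) : F.X k l * F.X k l = 0 := sq_zero_of (F.XX k l k l)

/-- the element `∑ X_ab E_ab` -/
theorem YY (F : FOps A) (S : SOps A) (C : Comm F S) :
    (∑ a, ∑ b, F.X a b * S.E a b) * (∑ a, ∑ b, F.X a b * S.E a b) =
      ∑ a, ∑ b, (∑ m, F.X a m * F.X m b) * S.E a b := by
  simp only [Fin.sum_univ_two]
  exact YY_aux (F.X 0 0) (F.X 0 1) (F.X 1 0) (F.X 1 1) (S.E 0 0) (S.E 0 1) (S.E 1 0) (S.E 1 1)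
    (C.XE ..) (C.XE ..) (C.XE ..) (C.XE ..) (C.XE ..) (C.XE ..) (C.XE ..) (C.XE ..)
    (C.XE ..) (C.XE ..) (C.XE ..) (C.XE ..) (C.XE ..) (C.XE ..) (C.XE ..) (C.XE ..)
    (F.XX ..) (F.XX ..) (F.XX ..) (F.XX ..) (F.XX ..) (F.XX ..)
    (F.X_sq ..) (F.X_sq ..) (F.X_sq ..) (F.X_sq ..)
    (by simpa using S.EE 0 0 0 1) (by simpa using S.EE 0 0 1 0) (by simpa using S.EE 0 0 1 1)
    (by simpa using S.EE 0 1 1 0) (by simpa using S.EE 0 1 1 1) (by simpa using S.EE 1 0 1 1)

theorem dY (F : FOps A) (S : SOps A) (C : Comm F S) :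
    F.d * (∑ a, ∑ b, F.X a b * S.E a b) + (∑ a, ∑ b, F.X a b * S.E a b) * F.d =
      -∑ a, ∑ b, (∑ m, F.X a m * F.X m b) * S.E a b := by
  simp only [Finset.mul_sum, Finset.sum_mul, ← Finset.sum_add_distrib, ← Finset.sum_neg_distrib]
  refine Finset.sum_congr rfl fun a _ => Finset.sum_congr rfl fun b _ => ?_
  rw [mul_assoc (F.X a b), C.dE, ← mul_assoc, ← mul_assoc, ← add_mul, F.dX, neg_mul,
    Finset.sum_mul]
  simp only [Finset.sum_neg_distrib]

theorem PD_zz (F : FOps A) (S : SOps A) (C : Comm F S) :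
    F.P * S.D * (F.P * S.D) = 0 := by
  rw [show F.P * S.D * (F.P * S.D) = F.P * (S.D * F.P) * S.D by noncomm_ring, C.PD,
    show F.P * (F.P * S.D) * S.D = F.P * F.P * (S.D * S.D) by noncomm_ring, S.DD, mul_zero]

theorem dPD (F : FOps A) (S : SOps A) (C : Comm F S) :
    F.d * (F.P * S.D) + F.P * S.D * F.d = 0 := by
  linear_combination (norm := noncomm_ring) F.P * C.dD + F.Pd * S.D

theorem YPD (F : FOps A) (S : SOps A) (C : Comm F S) :
    (∑ a, ∑ b, F.X a b * S.E a b) * (F.P * S.D) + F.P * S.D * (∑ a, ∑ b, F.X a b * S.E a b)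
      = 0 := by
  simp only [Finset.mul_sum, Finset.sum_mul, ← Finset.sum_add_distrib]
  refine Finset.sum_eq_zero fun a _ => Finset.sum_eq_zero fun b _ => ?_
  linear_combination (norm := noncomm_ring) F.X a b * C.PE a b * S.D +
    F.X a b * F.P * S.ED a b + F.P * C.XD a b * S.E a b + F.PX a b * (S.D * S.E a b)

theorem comb_zz (F : FOps A) (S : SOps A) (C : Comm F S) :
    (F.d + ∑ a, ∑ b, F.X a b * S.E a b + F.P * S.D) *
      (F.d + ∑ a, ∑ b, F.X a b * S.E a b + F.P * S.D) = 0 := by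
  linear_combination (norm := noncomm_ring) F.dd + dY F S C + YY F S C + PD_zz F S C + dPD F S C + YPD F S C

theorem comb_zx (F : FOps A) (S : SOps A) (C : Comm F S) (k l : Fin 2) :
    (F.d + ∑ a, ∑ b, F.X a b * S.E a b + F.P * S.D) * F.X k l +
      F.X k l * (F.d + ∑ a, ∑ b, F.X a b * S.E a b + F.P * S.D) =
      -∑ m, F.X k m * F.X m l := by
  have h1 : (∑ a, ∑ b, F.X a b * S.E a b) * F.X k l + F.X k l * (∑ a, ∑ b, F.X a b * S.E a b) = 0 := by
    simp only [Finset.mul_sum, Finset.sum_mul, ← Finset.sum_add_distrib]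
    refine Finset.sum_eq_zero fun a _ => Finset.sum_eq_zero fun b _ => ?_
    linear_combination (norm := noncomm_ring) F.X a b * C.XE k l a b + F.XX a b k l * S.E a b
  have h2 : F.P * S.D * F.X k l + F.X k l * (F.P * S.D) = 0 := by
    linear_combination (norm := noncomm_ring) F.P * C.XD k l + F.PX k l * S.D
  linear_combination (norm := noncomm_ring) F.dX k l + h1 + h2
end


section
variable {A : Type} [Ring A] [Algebra ℂ A]

theorem comb_xv (F : FOps A) (S : SOps A) (C : Comm F S) (k l j : Fin 2) :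
    F.X k l * (F.P * S.c j) + F.P * S.c j * F.X k l = 0 := by
  linear_combination (norm := noncomm_ring) F.P * C.Xc k l j + F.PX k l * S.c j

theorem comb_xu (F : FOps A) (S : SOps A) (C : Comm F S) (k l j : Fin 2) :
    F.X k l * (S.a j + ∑ l, F.I j l * (F.P * S.c l)) -
      (S.a j + ∑ l, F.I j l * (F.P * S.c l)) * F.X k l =
      if k = j then F.P * S.c l else 0 := by
  have h : ∀ m, F.X k l * (F.I j m * (F.P * S.c m)) - F.I j m * (F.P * S.c m) * F.X k l =
      if k = j ∧ l = m then F.P * S.c m else 0 := by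
    intro m
    have h1 : F.X k l * (F.I j m * (F.P * S.c m)) - F.I j m * (F.P * S.c m) * F.X k l =
      (F.X k l * F.I j m + F.I j m * F.X k l) * (F.P * S.c m) := by
      linear_combination (norm := noncomm_ring) (-1 : A) * (F.I j m * F.P * C.Xc k l m) -
        F.I j m * F.PX k l * S.c m
    rw [h1, F.XI]; split_ifs <;> simp
  have h2 : F.X k l * (∑ l, F.I j l * (F.P * S.c l)) - (∑ l, F.I j l * (F.P * S.c l)) * F.X k l =
      if k = j then F.P * S.c l else 0 := by
    rw [Finset.mul_sum, Finset.sum_mul, ← Finset.sum_sub_distrib, Finset.sum_congr rfl fun m _ => h m]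
    by_cases hk : k = j
    · simp [hk]
    · simp [hk]
  linear_combination (norm := noncomm_ring) h2 - C.Xa k l j

/-- `[z, a_j]` -/
theorem z_a (F : FOps A) (S : SOps A) (C : Comm F S) (j : Fin 2) :
    (F.d + ∑ a, ∑ b, F.X a b * S.E a b + F.P * S.D) * S.a j -
      S.a j * (F.d + ∑ a, ∑ b, F.X a b * S.E a b + F.P * S.D) =
    ∑ k, F.X k j * S.a k - (∑ k, F.X k k) * S.a j - F.P * (S.c j + ∑ l, S.c l * S.E j l) := by
  have h1 : (∑ a, ∑ b, F.X a b * S.E a b) * S.a j - S.a j * (∑ a, ∑ b, F.X a b * S.E a b) =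
      ∑ k, F.X k j * S.a k - (∑ k, F.X k k) * S.a j := by
    have h : ∀ a b, F.X a b * S.E a b * S.a j - S.a j * (F.X a b * S.E a b) =
        F.X a b * ((if b = j then S.a a else 0) - (if a = b then S.a j else 0)) := by
      intro a b
      rw [← S.Ea]
      linear_combination (norm := noncomm_ring) (-1 : A) * (C.Xa a b j * S.E a b)
    simp only [Finset.mul_sum, Finset.sum_mul, ← Finset.sum_sub_distrib, h]
    fin_cases j <;> simp [Fin.sum_univ_two] <;> noncomm_ring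
  linear_combination (norm := noncomm_ring) h1 - C.da j - F.P * S.aD j - C.Pa j * S.D

/-- `[z, I_jl P c_l]` -/
theorem z_IPc (F : FOps A) (S : SOps A) (C : Comm F S) (j : Fin 2) :
    (F.d + ∑ a, ∑ b, F.X a b * S.E a b + F.P * S.D) * (∑ l, F.I j l * (F.P * S.c l)) -
      (∑ l, F.I j l * (F.P * S.c l)) * (F.d + ∑ a, ∑ b, F.X a b * S.E a b + F.P * S.D) =
    ∑ k, F.X k j * (∑ l, F.I k l * (F.P * S.c l)) -
      (∑ k, F.X k k) * (∑ l, F.I j l * (F.P * S.c l)) + F.P * ∑ l, S.c l * S.E j l := by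
  have h1 : F.d * (∑ l, F.I j l * (F.P * S.c l)) - (∑ l, F.I j l * (F.P * S.c l)) * F.d =
      ∑ l, (∑ k, F.X k j * F.I k l - ∑ q, F.X l q * F.I j q) * (F.P * S.c l) := by
    rw [Finset.mul_sum, Finset.sum_mul, ← Finset.sum_sub_distrib]
    refine Finset.sum_congr rfl fun l _ => ?_
    rw [← F.dI j l]
    linear_combination (norm := noncomm_ring) (-1 : A) * (F.I j l * F.P * C.dc l) - F.I j l * F.Pd * S.c l
  have h2 : (∑ a, ∑ b, F.X a b * S.E a b) * (∑ l, F.I j l * (F.P * S.c l)) -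
      (∑ l, F.I j l * (F.P * S.c l)) * (∑ a, ∑ b, F.X a b * S.E a b) =
      ∑ l, ∑ a, ∑ b, (F.X a b * F.I j l * F.P * ((if b = l then S.c a else 0) - (if a = b then S.c l else 0)) +
        (if a = j ∧ b = l then F.P * S.c l * S.E a b else 0)) := by
    have h : ∀ l a b, F.X a b * S.E a b * (F.I j l * (F.P * S.c l)) -
        F.I j l * (F.P * S.c l) * (F.X a b * S.E a b) =
        F.X a b * F.I j l * F.P * (S.E a b * S.c l - S.c l * S.E a b) +
        (F.X a b * F.I j l + F.I j l * F.X a b) * (F.P * S.c l * S.E a b) := by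
      intro l a b
      linear_combination (norm := noncomm_ring) F.X a b * C.IE j l a b * F.P * S.c l +
        F.X a b * F.I j l * C.PE a b * S.c l - F.I j l * F.P * C.Xc a b l * S.E a b -
        F.I j l * F.PX a b * S.c l * S.E a b
    rw [Finset.mul_sum, Finset.sum_mul, ← Finset.sum_sub_distrib]
    refine Finset.sum_congr rfl fun l _ => ?_
    simp only [Finset.mul_sum, Finset.sum_mul, ← Finset.sum_sub_distrib]
    refine Finset.sum_congr rfl fun a _ => Finset.sum_congr rfl fun b _ => ?_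
    rw [h, S.Ec, F.XI]
    congr 1
    split_ifs <;> simp
  have h3 : F.P * S.D * (∑ l, F.I j l * (F.P * S.c l)) - (∑ l, F.I j l * (F.P * S.c l)) * (F.P * S.D) = 0 := by
    rw [Finset.mul_sum, Finset.sum_mul, ← Finset.sum_sub_distrib]
    refine Finset.sum_eq_zero fun l _ => ?_
    linear_combination (norm := noncomm_ring) F.P * C.ID j l * F.P * S.c l + F.P * F.I j l * C.PD * S.c l +
      F.PI j l * F.P * S.D * S.c l - F.I j l * F.P * C.Pc l * S.D - F.I j l * F.P * F.P * S.cD l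
  have h4 : ∑ l, (∑ k, F.X k j * F.I k l - ∑ q, F.X l q * F.I j q) * (F.P * S.c l) +
      ∑ l, ∑ a, ∑ b, (F.X a b * F.I j l * F.P * ((if b = l then S.c a else 0) - (if a = b then S.c l else 0)) +
        (if a = j ∧ b = l then F.P * S.c l * S.E a b else 0)) =
      ∑ k, F.X k j * (∑ l, F.I k l * (F.P * S.c l)) -
      (∑ k, F.X k k) * (∑ l, F.I j l * (F.P * S.c l)) + F.P * ∑ l, S.c l * S.E j l := by
    fin_cases j <;> simp [Fin.sum_univ_two] <;> noncomm_ring
  linear_combination (norm := noncomm_ring) h1 + h2 + h3 + h4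

theorem comb_zu' (F : FOps A) (S : SOps A) (C : Comm F S) (j : Fin 2) :
    (F.d + ∑ a, ∑ b, F.X a b * S.E a b + F.P * S.D) * (S.a j + ∑ l, F.I j l * (F.P * S.c l)) -
      (S.a j + ∑ l, F.I j l * (F.P * S.c l)) * (F.d + ∑ a, ∑ b, F.X a b * S.E a b + F.P * S.D) =
      ∑ k, F.X k j * (S.a k + ∑ l, F.I k l * (F.P * S.c l)) -
      (∑ k, F.X k k) * (S.a j + ∑ l, F.I j l * (F.P * S.c l)) - F.P * S.c j := by
  have h1 := z_a F S C j
  have h2 := z_IPc F S C j
  have h3 : ∑ k, F.X k j * (S.a k + ∑ l, F.I k l * (F.P * S.c l)) =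
      ∑ k, F.X k j * S.a k + ∑ k, F.X k j * (∑ l, F.I k l * (F.P * S.c l)) := by
    simp only [mul_add, Finset.sum_add_distrib]
  rw [h3, mul_add, add_mul, mul_add]
  linear_combination (norm := noncomm_ring) h1 + h2

theorem comb_zu (F : FOps A) (S : SOps A) (C : Comm F S) (j : Fin 2) :
    (F.d + ∑ a, ∑ b, F.X a b * S.E a b + F.P * S.D) * (S.a j + ∑ l, F.I j l * (F.P * S.c l)) -
      (S.a j + ∑ l, F.I j l * (F.P * S.c l)) * (F.d + ∑ a, ∑ b, F.X a b * S.E a b + F.P * S.D) =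
      ∑ k, (S.a k + ∑ l, F.I k l * (F.P * S.c l)) * F.X k j -
      (S.a j + ∑ l, F.I j l * (F.P * S.c l)) * ∑ k, F.X k k := by
  rw [comb_zu' F S C j]
  have h1 : ∀ k, F.X k j * (S.a k + ∑ l, F.I k l * (F.P * S.c l)) =
      (S.a k + ∑ l, F.I k l * (F.P * S.c l)) * F.X k j + F.P * S.c j := by
    intro k
    have := comb_xu F S C k j k
    rw [if_pos rfl] at this
    linear_combination (norm := noncomm_ring) this
  have h2 : (∑ k, F.X k k) * (S.a j + ∑ l, F.I j l * (F.P * S.c l)) =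
      (S.a j + ∑ l, F.I j l * (F.P * S.c l)) * (∑ k, F.X k k) + F.P * S.c j := by
    rw [Finset.sum_mul, Finset.mul_sum]
    have : ∀ k, F.X k k * (S.a j + ∑ l, F.I j l * (F.P * S.c l)) =
        (S.a j + ∑ l, F.I j l * (F.P * S.c l)) * F.X k k + if k = j then F.P * S.c k else 0 := by
      intro k
      have := comb_xu F S C k k j
      linear_combination (norm := noncomm_ring) this
    rw [Finset.sum_congr rfl fun k _ => this k, Finset.sum_add_distrib,
      Finset.sum_ite_eq' Finset.univ j (fun k => F.P * S.c k), if_pos (Finset.mem_univ j)]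
  rw [h2, Finset.sum_congr rfl fun k _ => h1 k, Finset.sum_add_distrib, Finset.sum_const,
    Finset.card_univ, Fintype.card_fin, two_smul]
  noncomm_ring

theorem comb_zv (F : FOps A) (S : SOps A) (C : Comm F S) (j : Fin 2) :
    (F.d + ∑ a, ∑ b, F.X a b * S.E a b + F.P * S.D) * (F.P * S.c j) +
      F.P * S.c j * (F.d + ∑ a, ∑ b, F.X a b * S.E a b + F.P * S.D) =
      -(∑ k, F.P * S.c k * F.X k j) + F.P * S.c j * ∑ k, F.X k k := by
  have h1 : F.d * (F.P * S.c j) + F.P * S.c j * F.d = 0 := by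
    linear_combination (norm := noncomm_ring) F.P * C.dc j + F.Pd * S.c j
  have h2 : F.P * S.D * (F.P * S.c j) + F.P * S.c j * (F.P * S.D) = 0 := by
    linear_combination (norm := noncomm_ring) F.P * C.PD * S.c j + F.P * C.Pc j * S.D +
      F.P * F.P * S.cD j
  have h3 : ∀ a b, F.X a b * S.E a b * (F.P * S.c j) + F.P * S.c j * (F.X a b * S.E a b) =
      F.X a b * F.P * ((if b = j then S.c a else 0) - (if a = b then S.c j else 0)) := by
    intro a b
    rw [← S.Ec]
    linear_combination (norm := noncomm_ring) F.X a b * C.PE a b * S.c j +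
      F.P * C.Xc a b j * S.E a b + F.PX a b * S.c j * S.E a b
  have h4 : (∑ a, ∑ b, F.X a b * S.E a b) * (F.P * S.c j) +
      F.P * S.c j * (∑ a, ∑ b, F.X a b * S.E a b) =
      ∑ a, ∑ b, F.X a b * F.P * ((if b = j then S.c a else 0) - (if a = b then S.c j else 0)) := by
    simp only [Finset.mul_sum, Finset.sum_mul, ← Finset.sum_add_distrib, h3]
  have h5 : ∀ k l m, F.P * S.c k * F.X l m = -(F.X l m * F.P * S.c k) := by
    intro k l m
    linear_combination (norm := noncomm_ring) F.P * C.Xc l m k + F.PX l m * S.c k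
  have h6 : ∑ a, ∑ b, F.X a b * F.P * ((if b = j then S.c a else 0) - (if a = b then S.c j else 0)) =
      -(∑ k, F.P * S.c k * F.X k j) + F.P * S.c j * ∑ k, F.X k k := by
    simp only [Finset.mul_sum, h5]
    fin_cases j <;> simp [Fin.sum_univ_two] <;> noncomm_ring
  linear_combination (norm := noncomm_ring) h1 + h2 + h4 + h6

/-- products of `a`'s and `c`'s vanish -/
theorem ic_zero (F : FOps A) (S : SOps A) (C : Comm F S) (j : Fin 2) (t : A)
    (hc : ∀ l, t * S.c l = 0) (hI : ∀ l, t * F.I j l = F.I j l * t) (hP : t * F.P = F.P * t) :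
    t * (∑ l, F.I j l * (F.P * S.c l)) = 0 := by
  rw [Finset.mul_sum]
  refine Finset.sum_eq_zero fun l _ => ?_
  linear_combination (norm := noncomm_ring) hI l * F.P * S.c l + F.I j l * hP * S.c l +
    F.I j l * F.P * hc l

theorem c_zero (F : FOps A) (S : SOps A) (C : Comm F S) (i j : Fin 2) :
    S.c i * (S.a j + ∑ l, F.I j l * (F.P * S.c l)) = 0 := by
  rw [mul_add, S.ca, ic_zero F S C j (S.c i) (S.cc i) (fun l => C.Ic j l i) (C.Pc i), add_zero]

theorem a_zero (F : FOps A) (S : SOps A) (C : Comm F S) (i j : Fin 2) :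
    S.a i * (S.a j + ∑ l, F.I j l * (F.P * S.c l)) = 0 := by
  rw [mul_add, S.aa, ic_zero F S C j (S.a i) (S.ac i) (fun l => C.Ia j l i) (C.Pa i), add_zero]

theorem comb_uu (F : FOps A) (S : SOps A) (C : Comm F S) (i j : Fin 2) :
    (S.a i + ∑ l, F.I i l * (F.P * S.c l)) * (S.a j + ∑ l, F.I j l * (F.P * S.c l)) = 0 := by
  rw [add_mul, a_zero F S C, zero_add, Finset.sum_mul]
  refine Finset.sum_eq_zero fun l _ => ?_
  rw [mul_assoc, mul_assoc, c_zero F S C, mul_zero, mul_zero]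

theorem comb_vu (F : FOps A) (S : SOps A) (C : Comm F S) (i j : Fin 2) :
    F.P * S.c i * (S.a j + ∑ l, F.I j l * (F.P * S.c l)) = 0 := by
  rw [mul_assoc, c_zero F S C, mul_zero]

theorem comb_uv (F : FOps A) (S : SOps A) (C : Comm F S) (i j : Fin 2) :
    (S.a i + ∑ l, F.I i l * (F.P * S.c l)) * (F.P * S.c j) = 0 := by
  have h1 : S.a i * (F.P * S.c j) = 0 := by
    linear_combination (norm := noncomm_ring) C.Pa i * S.c j + F.P * S.ac i j
  have h2 : ∀ l, S.c l * (F.P * S.c j) = 0 := fun l => by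
    linear_combination (norm := noncomm_ring) C.Pc l * S.c j + F.P * S.cc l j
  rw [add_mul, h1, zero_add, Finset.sum_mul]
  refine Finset.sum_eq_zero fun l _ => ?_
  rw [mul_assoc, mul_assoc, h2, mul_zero, mul_zero]

theorem comb_vv (F : FOps A) (S : SOps A) (C : Comm F S) (i j : Fin 2) :
    F.P * S.c i * (F.P * S.c j) = 0 := by
  linear_combination (norm := noncomm_ring) F.P * C.Pc i * S.c j + F.P * F.P * S.cc i j

end


end Crest.Agent.S0268
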