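import Crest.Agent.S0268_CombE
import Crest.Agent.S0268_CombZ

set_option autoImplicit false

/-!
# S0268 : combining Fock operators and `S`-operators into `T`-operators (assembly, no sorry)
-/

namespace Crest.Agent.S0268

variable {A : Type} [Ring A] [Algebra ℂ A]

/-- `T`-operators from commuting Fock operators and `S`-operators. -/
@[simps toBOps_e toBOps_x toBOps_z u v]
def comb (F : FOps A) (S : SOps A) (C : Comm F S) : TOps A where
  e := combE F S
  x := F.X
  z := F.d + ∑ a, ∑ b, F.X a b * S.E a b + F.P * S.D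
  u j := S.a j + ∑ l, F.I j l * (F.P * S.c l)
  v j := F.P * S.c j
  e_mul := combE_mul F S C
  e_sum := combE_sum F S
  x_e := comb_x_e F S C
  x_e5 := comb_x_e5 F S C
  z_e := comb_z_e F S C
  z_e5 := comb_z_e5 F S C
  xx := F.XX
  zz := comb_zz F S C
  zx := comb_zx F S C
  u_e := comb_u_e F S C
  u_e0 := comb_u_e0 F S C
  v_e := comb_v_e F S C
  xu := comb_xu F S C
  xv := comb_xv F S C
  zu := comb_zu F S C
  zv := comb_zv F S C
  uu := comb_uu F S C
  uv := comb_uv F S C
  vu := comb_vu F S C
  vv := comb_vv F S C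

end Crest.Agent.S0268
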