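import Crest.Agent.S0268_Ops

set_option autoImplicit false

/-!
# S0268 (task T1a) : relations involving the idempotents `combE`

`combE F S b = π b * p0 + π (b-1) * p1` (`π 5 = 0`, `π (-1) = 0`).
Everything is elementary; use `fin_cases` on the indices, `simp [combE]`, and the commutation
rules in `Comm F S`.  (Feel free to prove the auxiliary facts in any way.)
-/

namespace Crest.Agent.S0268

variable {A : Type} [Ring A]

/-- shifted and extended `π`: `Qn F 0 = 0`, `Qn F (n+1) = π n` -/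
private def Qn (F : FOps A) : ℕ → A
  | 0 => 0
  | n + 1 => if h : n < 5 then F.π ⟨n, h⟩ else 0

private theorem Qn_zero (F : FOps A) : Qn F 0 = 0 := rfl

private theorem Qn_succ_lt (F : FOps A) {n : ℕ} (h : n < 5) : Qn F (n + 1) = F.π ⟨n, h⟩ := by
  simp [Qn, h]

private theorem Qn_succ_ge (F : FOps A) {n : ℕ} (h : ¬ n < 5) : Qn F (n + 1) = 0 := by
  simp [Qn, h]

private theorem Qn_mul (F : FOps A) (m n : ℕ) : Qn F m * Qn F n = if m = n then Qn F m else 0 := by
  rcases m with _ | m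
  · simp [Qn_zero]
  rcases n with _ | n
  · simp [Qn_zero]
  by_cases hm : m < 5
  · by_cases hn : n < 5
    · rw [Qn_succ_lt F hm, Qn_succ_lt F hn, F.π_mul]
      simp
    · rw [Qn_succ_ge F hn, mul_zero, if_neg (by omega)]
  · rw [Qn_succ_ge F hm, zero_mul]; simp

private theorem Qn_X (F : FOps A) (k l : Fin 2) (n : ℕ) :
    F.X k l * Qn F n = Qn F (n + 1) * F.X k l := by
  rcases n with _ | n
  · rw [Qn_zero, mul_zero, Qn_succ_lt F (by norm_num : 0 < 5)]
    exact (F.πX0 k l).symm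
  by_cases h : n < 4
  · rw [Qn_succ_lt F (by omega : n < 5), Qn_succ_lt F (by omega : n + 1 < 5)]
    exact F.Xπ k l ⟨n, h⟩
  by_cases h5 : n < 5
  · have h4 : n = 4 := by omega
    subst h4
    rw [Qn_succ_lt F h5, Qn_succ_ge F (by norm_num : ¬ (4 + 1 < 5)), zero_mul]
    exact F.Xπ4 k l
  · rw [Qn_succ_ge F h5, Qn_succ_ge F (by omega : ¬ n + 1 < 5), zero_mul, mul_zero]

private theorem Qn_d (F : FOps A) (n : ℕ) :
    F.d * Qn F n = Qn F (n + 1) * F.d := by
  rcases n with _ | n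
  · rw [Qn_zero, mul_zero, Qn_succ_lt F (by norm_num : 0 < 5)]
    exact (F.πd0).symm
  by_cases h : n < 4
  · rw [Qn_succ_lt F (by omega : n < 5), Qn_succ_lt F (by omega : n + 1 < 5)]
    exact F.dπ ⟨n, h⟩
  by_cases h5 : n < 5
  · have h4 : n = 4 := by omega
    subst h4
    rw [Qn_succ_lt F h5, Qn_succ_ge F (by norm_num : ¬ (4 + 1 < 5)), zero_mul]
    exact F.dπ4
  · rw [Qn_succ_ge F h5, Qn_succ_ge F (by omega : ¬ n + 1 < 5), zero_mul, mul_zero]

private theorem Qn_I (F : FOps A) (k l : Fin 2) (n : ℕ) :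
    F.I k l * Qn F (n + 1) = Qn F n * F.I k l := by
  rcases n with _ | n
  · rw [Qn_zero, zero_mul, Qn_succ_lt F (by norm_num : 0 < 5)]
    exact F.Iπ0 k l
  by_cases h : n < 4
  · rw [Qn_succ_lt F (by omega : n < 5), Qn_succ_lt F (by omega : n + 1 < 5)]
    exact F.Iπ k l ⟨n, h⟩
  by_cases h5 : n < 5
  · have h4 : n = 4 := by omega
    subst h4
    rw [Qn_succ_lt F h5, Qn_succ_ge F (by norm_num : ¬ (4 + 1 < 5)), mul_zero]
    exact (F.πI4 k l).symm
  · rw [Qn_succ_ge F h5, Qn_succ_ge F (by omega : ¬ n + 1 < 5), zero_mul, mul_zero]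

/-- anything commuting with every `π` commutes with `Qn` -/
private theorem Qn_comm (F : FOps A) (x : A) (h : ∀ b, x * F.π b = F.π b * x) (n : ℕ) :
    x * Qn F n = Qn F n * x := by
  rcases n with _ | n
  · rw [Qn_zero, zero_mul, mul_zero]
  by_cases h5 : n < 5
  · rw [Qn_succ_lt F h5]; exact h _
  · rw [Qn_succ_ge F h5, zero_mul, mul_zero]

/-- extended `combE` -/
private def En (F : FOps A) (S : SOps A) (n : ℕ) : A := Qn F (n + 1) * S.p0 + Qn F n * S.p1

private theorem combE_eq (F : FOps A) (S : SOps A) (b : Fin 6) : combE F S b = En F S b.val := by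
  obtain ⟨b, hb⟩ := b
  unfold combE En
  congr 1
  · by_cases h : b < 5
    · simp [Qn, h]
    · simp [Qn, h]
  · rcases b with _ | b
    · simp [Qn]
    · simp [Qn, (by omega : b < 5)]

private theorem En_six (F : FOps A) (S : SOps A) : En F S 6 = 0 := by
  unfold En
  rw [Qn_succ_ge F (by norm_num : ¬ 6 < 5), Qn_succ_ge F (by norm_num : ¬ 5 < 5)]
  simp

private theorem En_X (F : FOps A) (S : SOps A) (C : Comm F S) (k l : Fin 2) (n : ℕ) :
    F.X k l * En F S n = En F S (n + 1) * F.X k l := by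
  unfold En
  rw [mul_add, add_mul, ← mul_assoc, ← mul_assoc, Qn_X, Qn_X, mul_assoc, mul_assoc, ← C.Xp0,
    ← C.Xp1, ← mul_assoc, ← mul_assoc]

private theorem En_d (F : FOps A) (S : SOps A) (C : Comm F S) (n : ℕ) :
    F.d * En F S n = En F S (n + 1) * F.d := by
  unfold En
  rw [mul_add, add_mul, ← mul_assoc, ← mul_assoc, Qn_d, Qn_d, mul_assoc, mul_assoc, ← C.dp0,
    ← C.dp1, ← mul_assoc, ← mul_assoc]

private theorem En_I (F : FOps A) (S : SOps A) (C : Comm F S) (k l : Fin 2) (n : ℕ) :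
    F.I k l * En F S (n + 1) = En F S n * F.I k l := by
  unfold En
  rw [mul_add, add_mul, ← mul_assoc, ← mul_assoc, Qn_I, Qn_I, mul_assoc, mul_assoc, ← C.Ip0,
    ← C.Ip1, ← mul_assoc, ← mul_assoc]

private theorem En_I0 (F : FOps A) (S : SOps A) (k l : Fin 2) :
    F.I k l * En F S 0 = 0 := by
  unfold En
  rw [mul_add, ← mul_assoc, Qn_I, Qn_zero]
  simp

/-- elements commuting with `π`, `p0`, `p1` commute with `En` -/
private theorem En_comm (F : FOps A) (S : SOps A) (x : A) (h : ∀ b, x * F.π b = F.π b * x)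
    (h0 : x * S.p0 = S.p0 * x) (h1 : x * S.p1 = S.p1 * x) (n : ℕ) :
    x * En F S n = En F S n * x := by
  unfold En
  rw [mul_add, add_mul, ← mul_assoc, ← mul_assoc, Qn_comm F x h, Qn_comm F x h, mul_assoc,
    mul_assoc, h0, h1, ← mul_assoc, ← mul_assoc]

private theorem En_D (F : FOps A) (S : SOps A) (C : Comm F S) (n : ℕ) :
    S.D * En F S n = En F S (n + 1) * S.D := by
  unfold En
  rw [mul_add, add_mul, ← mul_assoc, ← mul_assoc, Qn_comm F S.D (fun b => C.πD b),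
    Qn_comm F S.D (fun b => C.πD b), mul_assoc, mul_assoc, S.Dp0, S.Dp1, mul_zero, add_zero,
    mul_assoc (Qn F (n + 1 + 1)), S.p0D, mul_zero, zero_add, ← mul_assoc]

private theorem En_a (F : FOps A) (S : SOps A) (C : Comm F S) (j : Fin 2) (n : ℕ) :
    S.a j * En F S (n + 1) = En F S n * S.a j := by
  unfold En
  rw [mul_add, add_mul, ← mul_assoc, ← mul_assoc, Qn_comm F (S.a j) (fun b => C.πa b j),
    Qn_comm F (S.a j) (fun b => C.πa b j), mul_assoc, mul_assoc, S.ap0, S.ap1, mul_zero, zero_add,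
    mul_assoc (Qn F n), S.p1a, mul_zero, add_zero, ← mul_assoc]

private theorem En_a0 (F : FOps A) (S : SOps A) (C : Comm F S) (j : Fin 2) :
    S.a j * En F S 0 = 0 := by
  unfold En
  rw [mul_add, ← mul_assoc, ← mul_assoc, Qn_comm F (S.a j) (fun b => C.πa b j), Qn_zero, mul_assoc,
    S.ap0]
  simp

private theorem En_P (F : FOps A) (S : SOps A) (C : Comm F S) (n : ℕ) :
    F.P * En F S n = En F S n * F.P :=
  En_comm F S F.P F.Pπ C.Pp0.symm C.Pp1.symm n

private theorem En_c (F : FOps A) (S : SOps A) (C : Comm F S) (j : Fin 2) (n : ℕ) :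
    S.c j * En F S n = En F S n * S.c j :=
  En_comm F S (S.c j) (fun b => C.πc b j) (S.cp0 j) (S.cp1 j) n

private theorem En_E (F : FOps A) (S : SOps A) (C : Comm F S) (p q : Fin 2) (n : ℕ) :
    S.E p q * En F S n = En F S n * S.E p q :=
  En_comm F S (S.E p q) (fun b => C.πE b p q) (S.Ep0 p q) (S.Ep1 p q) n

private theorem En_z (F : FOps A) (S : SOps A) (C : Comm F S) (n : ℕ) :
    (F.d + ∑ a, ∑ b, F.X a b * S.E a b + F.P * S.D) * En F S n =
      En F S (n + 1) * (F.d + ∑ a, ∑ b, F.X a b * S.E a b + F.P * S.D) := by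
  rw [add_mul, add_mul, mul_add, mul_add, En_d F S C, Finset.sum_mul, Finset.mul_sum]
  congr 1
  · congr 1
    refine Finset.sum_congr rfl fun a _ => ?_
    rw [Finset.sum_mul, Finset.mul_sum]
    refine Finset.sum_congr rfl fun b _ => ?_
    rw [mul_assoc, En_E F S C, ← mul_assoc, En_X F S C, mul_assoc]
  · rw [mul_assoc, En_D F S C, ← mul_assoc, En_P F S C, mul_assoc]

private theorem En_u (F : FOps A) (S : SOps A) (C : Comm F S) (j : Fin 2) (n : ℕ) :
    (S.a j + ∑ l, F.I j l * (F.P * S.c l)) * En F S (n + 1) =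
      En F S n * (S.a j + ∑ l, F.I j l * (F.P * S.c l)) := by
  rw [add_mul, mul_add, En_a F S C, Finset.sum_mul, Finset.mul_sum]
  congr 1
  refine Finset.sum_congr rfl fun l _ => ?_
  rw [mul_assoc, mul_assoc, En_c F S C, ← mul_assoc F.P, En_P F S C, mul_assoc, ← mul_assoc,
    En_I F S C, mul_assoc]

theorem combE_mul (F : FOps A) (S : SOps A) (C : Comm F S) (i j : Fin 6) :
    combE F S i * combE F S j = if i = j then combE F S i else 0 := by
  rw [combE_eq, combE_eq]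
  have h : ∀ m n : ℕ, En F S m * En F S n = if m = n then En F S m else 0 := by
    intro m n
    unfold En
    have h0 : ∀ k, S.p0 * Qn F k = Qn F k * S.p0 := Qn_comm F S.p0 (fun b => C.πp0 b)
    have h1 : ∀ k, S.p1 * Qn F k = Qn F k * S.p1 := Qn_comm F S.p1 (fun b => C.πp1 b)
    have e1 : Qn F (m + 1) * S.p0 * (Qn F (n + 1) * S.p0) = Qn F (m + 1) * Qn F (n + 1) * S.p0 := by
      rw [mul_assoc, ← mul_assoc S.p0, h0, mul_assoc (Qn F (n + 1)), S.p00, mul_assoc]
    have e2 : Qn F (m + 1) * S.p0 * (Qn F n * S.p1) = 0 := by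
      rw [mul_assoc, ← mul_assoc S.p0, h0, mul_assoc (Qn F n), S.p01, mul_zero, mul_zero]
    have e3 : Qn F m * S.p1 * (Qn F (n + 1) * S.p0) = 0 := by
      rw [mul_assoc, ← mul_assoc S.p1, h1, mul_assoc (Qn F (n + 1)), S.p10, mul_zero, mul_zero]
    have e4 : Qn F m * S.p1 * (Qn F n * S.p1) = Qn F m * Qn F n * S.p1 := by
      rw [mul_assoc, ← mul_assoc S.p1, h1, mul_assoc (Qn F n), S.p11, mul_assoc]
    rw [add_mul, mul_add, mul_add, e1, e2, e3, e4, Qn_mul, Qn_mul]
    by_cases hmn : m = n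
    · subst hmn; simp
    · simp [hmn]
  rw [h]
  simp [Fin.ext_iff]

theorem combE_sum (F : FOps A) (S : SOps A) : ∑ i, combE F S i = 1 := by
  have hπ := F.π_sum
  have hp := S.psum
  rw [Fin.sum_univ_five] at hπ
  rw [Fin.sum_univ_six]
  simp only [combE_eq]
  have e0 : En F S ((0 : Fin 6) : ℕ) = F.π 0 * S.p0 := by
    show Qn F 1 * S.p0 + Qn F 0 * S.p1 = _
    rw [Qn_zero, Qn_succ_lt F (by norm_num : 0 < 5)]; simp
  have e1 : En F S ((1 : Fin 6) : ℕ) = F.π 1 * S.p0 + F.π 0 * S.p1 := by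
    show Qn F 2 * S.p0 + Qn F 1 * S.p1 = _
    rw [Qn_succ_lt F (by norm_num : 0 < 5), Qn_succ_lt F (by norm_num : 1 < 5)]; rfl
  have e2 : En F S ((2 : Fin 6) : ℕ) = F.π 2 * S.p0 + F.π 1 * S.p1 := by
    show Qn F 3 * S.p0 + Qn F 2 * S.p1 = _
    rw [Qn_succ_lt F (by norm_num : 1 < 5), Qn_succ_lt F (by norm_num : 2 < 5)]; rfl
  have e3 : En F S ((3 : Fin 6) : ℕ) = F.π 3 * S.p0 + F.π 2 * S.p1 := by
    show Qn F 4 * S.p0 + Qn F 3 * S.p1 = _
    rw [Qn_succ_lt F (by norm_num : 2 < 5), Qn_succ_lt F (by norm_num : 3 < 5)]; rfl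
  have e4 : En F S ((4 : Fin 6) : ℕ) = F.π 4 * S.p0 + F.π 3 * S.p1 := by
    show Qn F 5 * S.p0 + Qn F 4 * S.p1 = _
    rw [Qn_succ_lt F (by norm_num : 3 < 5), Qn_succ_lt F (by norm_num : 4 < 5)]; rfl
  have e5 : En F S ((5 : Fin 6) : ℕ) = F.π 4 * S.p1 := by
    show Qn F 6 * S.p0 + Qn F 5 * S.p1 = _
    rw [Qn_succ_lt F (by norm_num : 4 < 5), Qn_succ_ge F (by norm_num : ¬ 5 < 5)]; simp
  rw [e0, e1, e2, e3, e4, e5]
  have : F.π 0 * S.p0 + (F.π 1 * S.p0 + F.π 0 * S.p1) + (F.π 2 * S.p0 + F.π 1 * S.p1) +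
      (F.π 3 * S.p0 + F.π 2 * S.p1) + (F.π 4 * S.p0 + F.π 3 * S.p1) + F.π 4 * S.p1 =
      (F.π 0 + F.π 1 + F.π 2 + F.π 3 + F.π 4) * (S.p0 + S.p1) := by
    noncomm_ring
  rw [this, hπ, hp, one_mul]

theorem comb_x_e (F : FOps A) (S : SOps A) (C : Comm F S) (k l : Fin 2) (i : Fin 5) :
    F.X k l * combE F S i.castSucc = combE F S i.succ * F.X k l := by
  rw [combE_eq, combE_eq]
  exact En_X F S C k l i.val

theorem comb_x_e5 (F : FOps A) (S : SOps A) (C : Comm F S) (k l : Fin 2) :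
    F.X k l * combE F S (Fin.last 5) = 0 := by
  rw [combE_eq]
  have := En_X F S C k l 5
  rw [En_six, zero_mul] at this
  exact this

theorem comb_z_e (F : FOps A) (S : SOps A) (C : Comm F S) (i : Fin 5) :
    (F.d + ∑ a, ∑ b, F.X a b * S.E a b + F.P * S.D) * combE F S i.castSucc =
      combE F S i.succ * (F.d + ∑ a, ∑ b, F.X a b * S.E a b + F.P * S.D) := by
  rw [combE_eq, combE_eq]
  exact En_z F S C i.val

theorem comb_z_e5 (F : FOps A) (S : SOps A) (C : Comm F S) :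
    (F.d + ∑ a, ∑ b, F.X a b * S.E a b + F.P * S.D) * combE F S (Fin.last 5) = 0 := by
  rw [combE_eq]
  have := En_z F S C 5
  rw [En_six, zero_mul] at this
  exact this

theorem comb_u_e (F : FOps A) (S : SOps A) (C : Comm F S) (j : Fin 2) (i : Fin 5) :
    (S.a j + ∑ l, F.I j l * (F.P * S.c l)) * combE F S i.succ =
      combE F S i.castSucc * (S.a j + ∑ l, F.I j l * (F.P * S.c l)) := by
  rw [combE_eq, combE_eq]
  exact En_u F S C j i.val

theorem comb_u_e0 (F : FOps A) (S : SOps A) (C : Comm F S) (j : Fin 2) :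
    (S.a j + ∑ l, F.I j l * (F.P * S.c l)) * combE F S 0 = 0 := by
  rw [combE_eq]
  show (S.a j + ∑ l, F.I j l * (F.P * S.c l)) * En F S 0 = 0
  rw [add_mul, En_a0 F S C, zero_add, Finset.sum_mul]
  refine Finset.sum_eq_zero fun l _ => ?_
  rw [mul_assoc, mul_assoc, En_c F S C, ← mul_assoc F.P, En_P F S C, mul_assoc, ← mul_assoc,
    En_I0, zero_mul]

theorem comb_v_e (F : FOps A) (S : SOps A) (C : Comm F S) (j : Fin 2) (i : Fin 6) :
    F.P * S.c j * combE F S i = combE F S i * (F.P * S.c j) := by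
  rw [combE_eq, mul_assoc, En_c F S C, ← mul_assoc, En_P F S C, mul_assoc]

end Crest.Agent.S0268
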