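import Crest.Agent.S0268_IndDef

set_option autoImplicit false

/-!
# S0268 (task T9) : projective covers of `B`-modules, relative to the idempotents

`e_B_e`, `e_B_e_self`: by `B.left_induction` on `b` (prove both together, for all `j ≤ l`;
note `e 0 * x = 0`, `e 0 * z = 0`, `e (i+1) * x = x * e i`).

`exists_cover`: `P = ⊕_j B e_j ⊗_ℂ e_j Y`, realized as the range (`LinearMap.range`) of the
idempotent `B`-linear map `θ : b ⊗ y ↦ ∑ j, (b * e_j) ⊗ (e_j • y)` of `B ⊗[ℂ] Y`
(`TensorProduct.AlgebraTensorModule.lift`), `π (b ⊗ y) = b • y` (surjective: `y = π (θ (1 ⊗ y))`).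
* `Cls i P`, `Pos P`: `e_j b e_l = 0` for `j < l`, and `e_l y = 0` for `l < i`.
* for `x ∈ P`, `j = i`: `e_i x = e_i ⊗ y'` for some `y' ∈ e_i Y` (`e_i b e_l = 0` for `l > i`,
  `e_l Y = 0` for `l < i`, `e_i b e_i = c e_i`; additive in `x`), and `π (e_i x) = y'`.
* `Ind P` is projective: it is a retract of the free `T`-module `T ⊗[ℂ] Y`
  (`Module.Projective.of_split`; `Module.Free.tensor`), via `Ind P → T ⊗ Y` (`Ind.lift`), induced by
  `b e_j ⊗ e_j y ↦ sig (b e_j) ⊗ e_j y` (restriction of `b ⊗ y ↦ sig b ⊗ y`), and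
  `T ⊗ Y → Ind P`, `t ⊗ y ↦ t • Ind.incl (θ (1 ⊗ y))`.  The composite is the identity on
  `Ind.incl x` (`x = θ (b ⊗ y)`), hence everywhere by `Ind.mk_eq`.
-/

namespace Crest.Agent.S0268

/-- `e_j Y = 0` for `j < i` -/
def Cls (i : ℕ) (Y : Type) [AddCommGroup Y] [Module B Y] : Prop :=
  ∀ j : Fin 6, j.val < i → ∀ y : Y, B.gen.e j • y = 0

/-! ### products with idempotents -/

theorem cover_e_succ_x (k l : Fin 2) (i : Fin 5) :
    B.gen.e i.succ * B.gen.x k l = B.gen.x k l * B.gen.e i.castSucc := (B.gen.x_e k l i).symm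

theorem cover_e_succ_z (i : Fin 5) :
    B.gen.e i.succ * B.gen.z = B.gen.z * B.gen.e i.castSucc := (B.gen.z_e i).symm

theorem cover_e_zero_x (k l : Fin 2) : B.gen.e 0 * B.gen.x k l = 0 := by
  have h : B.gen.x k l = ∑ i, B.gen.x k l * B.gen.e i := by
    rw [← Finset.mul_sum, B.gen.e_sum, mul_one]
  rw [h, Fin.sum_univ_castSucc, mul_add, Finset.mul_sum, B.gen.x_e5, mul_zero, add_zero]
  refine Finset.sum_eq_zero fun i _ => ?_
  rw [B.gen.x_e, ← mul_assoc, B.gen.e_mul, if_neg (Fin.succ_ne_zero i).symm, zero_mul]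

theorem cover_e_zero_z : B.gen.e 0 * B.gen.z = 0 := by
  have h : B.gen.z = ∑ i, B.gen.z * B.gen.e i := by
    rw [← Finset.mul_sum, B.gen.e_sum, mul_one]
  rw [h, Fin.sum_univ_castSucc, mul_add, Finset.mul_sum, B.gen.z_e5, mul_zero, add_zero]
  refine Finset.sum_eq_zero fun i _ => ?_
  rw [B.gen.z_e, ← mul_assoc, B.gen.e_mul, if_neg (Fin.succ_ne_zero i).symm, zero_mul]

/-- `e_j B e_l = 0` for `j < l` -/
theorem e_B_e (j l : Fin 6) (h : j < l) (b : B) : B.gen.e j * b * B.gen.e l = 0 := by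
  induction b using B.left_induction generalizing j with
  | h1 => rw [mul_one, B.gen.e_mul, if_neg h.ne]
  | hadd a b ha hb => rw [mul_add, add_mul, ha j h, hb j h, add_zero]
  | hsmul c a ha => rw [mul_smul_comm, smul_mul_assoc, ha j h, smul_zero]
  | he i a ha =>
    rw [← mul_assoc, B.gen.e_mul]
    split_ifs
    · exact ha j h
    · rw [zero_mul, zero_mul]
  | hx k p a ha =>
    induction j using Fin.cases with
    | zero => rw [← mul_assoc, cover_e_zero_x, zero_mul, zero_mul]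
    | succ i =>
      rw [← mul_assoc, cover_e_succ_x, mul_assoc, mul_assoc, ← mul_assoc (B.gen.e i.castSucc),
        ha i.castSucc (lt_trans (Fin.castSucc_lt_succ) h), mul_zero]
  | hz a ha =>
    induction j using Fin.cases with
    | zero => rw [← mul_assoc, cover_e_zero_z, zero_mul, zero_mul]
    | succ i =>
      rw [← mul_assoc, cover_e_succ_z, mul_assoc, mul_assoc, ← mul_assoc (B.gen.e i.castSucc),
        ha i.castSucc (lt_trans (Fin.castSucc_lt_succ) h), mul_zero]

/-- `e_l B e_l = ℂ e_l` -/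
theorem e_B_e_self (l : Fin 6) (b : B) : ∃ c : ℂ, B.gen.e l * b * B.gen.e l = c • B.gen.e l := by
  induction b using B.left_induction with
  | h1 => exact ⟨1, by rw [mul_one, B.gen.e_mul, if_pos rfl, one_smul]⟩
  | hadd a b ha hb =>
    obtain ⟨c, hc⟩ := ha
    obtain ⟨d, hd⟩ := hb
    exact ⟨c + d, by rw [mul_add, add_mul, hc, hd, add_smul]⟩
  | hsmul c a ha =>
    obtain ⟨d, hd⟩ := ha
    exact ⟨c * d, by rw [mul_smul_comm, smul_mul_assoc, hd, smul_smul]⟩
  | he i a ha =>
    rw [← mul_assoc, B.gen.e_mul]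
    split_ifs
    · exact ha
    · exact ⟨0, by rw [zero_mul, zero_mul, zero_smul]⟩
  | hx k p a ha =>
    refine ⟨0, ?_⟩
    rw [zero_smul]
    induction l using Fin.cases with
    | zero => rw [← mul_assoc, cover_e_zero_x, zero_mul, zero_mul]
    | succ i =>
      rw [← mul_assoc, cover_e_succ_x, mul_assoc, mul_assoc, ← mul_assoc (B.gen.e i.castSucc),
        e_B_e _ _ (Fin.castSucc_lt_succ), mul_zero]
  | hz a ha =>
    refine ⟨0, ?_⟩
    rw [zero_smul]
    induction l using Fin.cases with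
    | zero => rw [← mul_assoc, cover_e_zero_z, zero_mul, zero_mul]
    | succ i =>
      rw [← mul_assoc, cover_e_succ_z, mul_assoc, mul_assoc, ← mul_assoc (B.gen.e i.castSucc),
        e_B_e _ _ (Fin.castSucc_lt_succ), mul_zero]

/-! ### the cover -/

section cover

open TensorProduct

variable (Y : Type) [AddCommGroup Y] [Module ℂ Y] [Module B Y] [IsScalarTower ℂ B Y]

/-- the idempotent `b ⊗ y ↦ ∑ j, (b * e_j) ⊗ (e_j • y)` -/
noncomputable def coverTheta : B ⊗[ℂ] Y →ₗ[B] B ⊗[ℂ] Y :=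
  ∑ j, TensorProduct.AlgebraTensorModule.map (LinearMap.toSpanSingleton B B (B.gen.e j))
    ((opsB Y).e j)

variable {Y} in
theorem coverTheta_tmul (b : B) (y : Y) :
    coverTheta Y (b ⊗ₜ[ℂ] y) = ∑ j, (b * B.gen.e j) ⊗ₜ[ℂ] (B.gen.e j • y) := by
  unfold coverTheta
  rw [LinearMap.sum_apply]
  refine Finset.sum_congr rfl fun j _ => ?_
  rw [TensorProduct.AlgebraTensorModule.map_tmul, LinearMap.toSpanSingleton_apply, smul_eq_mul,
    opsB_e]

/-- multiplication map `b ⊗ y ↦ b • y` -/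
noncomputable def coverMu : B ⊗[ℂ] Y →ₗ[B] Y :=
  TensorProduct.AlgebraTensorModule.lift
    { toFun := fun b => Module.toModuleEnd ℂ (S := B) Y b
      map_add' := fun a b => map_add _ a b
      map_smul' := fun a b => by
        ext y
        simp [mul_smul] }

variable {Y} in
theorem coverMu_tmul (b : B) (y : Y) : coverMu Y (b ⊗ₜ[ℂ] y) = b • y := by
  unfold coverMu
  rw [TensorProduct.AlgebraTensorModule.lift_tmul]
  rfl

theorem cover_sum_e (y : Y) : ∑ j, B.gen.e j • y = y := by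
  rw [← Finset.sum_smul, B.gen.e_sum, one_smul]

theorem cover_e_e (j : Fin 6) (y : Y) : B.gen.e j • B.gen.e j • y = B.gen.e j • y := by
  rw [← mul_smul, B.gen.e_mul, if_pos rfl]

theorem cover_e_e_ne {j l : Fin 6} (h : j ≠ l) (y : Y) : B.gen.e j • B.gen.e l • y = 0 := by
  rw [← mul_smul, B.gen.e_mul, if_neg h, zero_smul]

variable {Y}

theorem coverMu_theta (x : B ⊗[ℂ] Y) : coverMu Y (coverTheta Y x) = coverMu Y x := by
  induction x using TensorProduct.induction_on with
  | zero => simp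
  | tmul b y =>
    rw [coverTheta_tmul, map_sum, coverMu_tmul]
    conv_rhs => rw [← cover_sum_e Y y, Finset.smul_sum]
    refine Finset.sum_congr rfl fun j _ => ?_
    rw [coverMu_tmul, mul_smul, cover_e_e]
  | add x y hx hy => rw [map_add, map_add, map_add, hx, hy]

theorem coverTheta_idem (x : B ⊗[ℂ] Y) : coverTheta Y (coverTheta Y x) = coverTheta Y x := by
  induction x using TensorProduct.induction_on with
  | zero => simp
  | tmul b y =>
    rw [coverTheta_tmul, map_sum]
    refine Finset.sum_congr rfl fun j _ => ?_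
    rw [coverTheta_tmul, Finset.sum_eq_single j]
    · rw [mul_assoc, B.gen.e_mul, if_pos rfl, cover_e_e]
    · intro l _ hl
      rw [cover_e_e_ne Y hl, TensorProduct.tmul_zero]
    · simp
  | add x y hx hy => rw [map_add, map_add, hx, hy]

/-- key computation: `e_j θ(x) = e_j ⊗ y'` if `e_l Y = 0` for `l < j`. -/
theorem cover_e_theta (j : Fin 6) (hY : ∀ l : Fin 6, l < j → ∀ y : Y, B.gen.e l • y = 0)
    (x : B ⊗[ℂ] Y) : ∃ y' : Y, B.gen.e j • y' = y' ∧
      B.gen.e j • coverTheta Y x = B.gen.e j ⊗ₜ[ℂ] y' := by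
  induction x using TensorProduct.induction_on with
  | zero => exact ⟨0, by simp, by simp⟩
  | tmul b y =>
    obtain ⟨c, hc⟩ := e_B_e_self j b
    refine ⟨c • B.gen.e j • y, ?_, ?_⟩
    · rw [smul_comm, cover_e_e]
    · rw [coverTheta_tmul, Finset.smul_sum, Finset.sum_eq_single j]
      · rw [TensorProduct.smul_tmul', smul_eq_mul, ← mul_assoc, hc, TensorProduct.smul_tmul]
      · intro l _ hl
        rw [TensorProduct.smul_tmul', smul_eq_mul, ← mul_assoc]
        rcases lt_or_gt_of_ne hl with h | h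
        · rw [hY l h, TensorProduct.tmul_zero]
        · rw [e_B_e _ _ h, TensorProduct.zero_tmul]
      · simp
  | add x y hx hy =>
    obtain ⟨y₁, h₁, h₁'⟩ := hx
    obtain ⟨y₂, h₂, h₂'⟩ := hy
    exact ⟨y₁ + y₂, by rw [smul_add, h₁, h₂],
      by rw [map_add, smul_add, h₁', h₂', TensorProduct.tmul_add]⟩

variable (Y)

/-- the cover `⊕_j B e_j ⊗ e_j Y` -/
noncomputable abbrev CoverP : Submodule B (B ⊗[ℂ] Y) := LinearMap.range (coverTheta Y)

variable {Y}

theorem cover_theta_of_mem (x : CoverP Y) : coverTheta Y (x : B ⊗[ℂ] Y) = x := by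
  obtain ⟨x, w, rfl⟩ := x
  exact coverTheta_idem w

theorem cover_mu_eq_zero (j : Fin 6) (hY : ∀ l : Fin 6, l < j → ∀ y : Y, B.gen.e l • y = 0)
    (x : CoverP Y) (hx : coverMu Y (x : B ⊗[ℂ] Y) = 0) : B.gen.e j • x = 0 := by
  obtain ⟨y', h1, h2⟩ := cover_e_theta j hY (x : B ⊗[ℂ] Y)
  rw [cover_theta_of_mem] at h2
  have h3 : coverMu Y (B.gen.e j • (x : B ⊗[ℂ] Y)) = 0 := by
    rw [map_smul, hx, smul_zero]
  rw [h2, coverMu_tmul, h1] at h3
  apply Subtype.ext
  rw [Submodule.coe_smul, h2, h3, TensorProduct.tmul_zero]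
  rfl

instance cover_pos [Pos Y] : Pos (CoverP Y) where
  e0 x := by
    obtain ⟨y', h1, h2⟩ := cover_e_theta 0 (fun l hl => absurd hl (Fin.not_lt_zero l))
      (x : B ⊗[ℂ] Y)
    rw [cover_theta_of_mem] at h2
    apply Subtype.ext
    rw [Submodule.coe_smul, h2, ← h1, Pos.e0, TensorProduct.tmul_zero]
    rfl

/-- `b ⊗ y ↦ sig b ⊗ y` -/
noncomputable def coverSig : B ⊗[ℂ] Y →ₗ[ℂ] T ⊗[ℂ] Y :=
  TensorProduct.map sig.toLinearMap LinearMap.id

theorem coverSig_smul (b : B) (x : B ⊗[ℂ] Y) : coverSig (b • x) = sig b • coverSig x := by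
  induction x using TensorProduct.induction_on with
  | zero => simp
  | tmul c y =>
    rw [TensorProduct.smul_tmul', smul_eq_mul]
    simp only [coverSig, TensorProduct.map_tmul, AlgHom.toLinearMap_apply, map_mul,
      TensorProduct.smul_tmul', smul_eq_mul]
  | add x y hx hy => rw [smul_add, map_add, hx, hy, map_add, smul_add]

/-- `Ind P → T ⊗ Y` -/
noncomputable def coverI [Pos Y] : Ind (CoverP Y) →ₗ[T] T ⊗[ℂ] Y :=
  Ind.lift (coverSig ∘ₗ ((CoverP Y).subtype.restrictScalars ℂ))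
    (fun i y => by
      simp only [LinearMap.comp_apply, LinearMap.coe_restrictScalars, map_smul,
        Submodule.subtype_apply]
      rw [← sig_e, ← coverSig_smul])
    (fun k l y => by
      simp only [LinearMap.comp_apply, LinearMap.coe_restrictScalars, map_smul,
        Submodule.subtype_apply]
      rw [← sig_x, ← coverSig_smul])
    (fun y => by
      simp only [LinearMap.comp_apply, LinearMap.coe_restrictScalars, map_smul,
        Submodule.subtype_apply]
      rw [← sig_z, ← coverSig_smul])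

theorem coverI_incl [Pos Y] (x : CoverP Y) : coverI (Ind.incl x) = coverSig (x : B ⊗[ℂ] Y) := by
  unfold coverI Ind.incl
  rw [Ind.lift_mk]
  simp

/-- `θ` corestricted -/
noncomputable def coverThetaP : B ⊗[ℂ] Y →ₗ[B] CoverP Y := (coverTheta Y).rangeRestrict

theorem coverThetaP_coe (x : CoverP Y) : coverThetaP (x : B ⊗[ℂ] Y) = x :=
  Subtype.ext (cover_theta_of_mem x)

/-- `y ↦ incl (θ (1 ⊗ y))` -/
noncomputable def coverH [Pos Y] : Y →ₗ[ℂ] Ind (CoverP Y) where
  toFun y := Ind.incl (coverThetaP ((1 : B) ⊗ₜ[ℂ] y))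
  map_add' y y' := by rw [TensorProduct.tmul_add, map_add, Ind.incl_add]
  map_smul' c y := by
    have h : (coverThetaP ((1 : B) ⊗ₜ[ℂ] (c • y)) : CoverP Y)
        = c • coverThetaP ((1 : B) ⊗ₜ[ℂ] y) := by
      rw [TensorProduct.tmul_smul]
      exact LinearMap.map_smul_of_tower (coverThetaP (Y := Y)) c _
    rw [h, Ind.incl_smul]
    rfl

/-- `T ⊗ Y → Ind P` -/
noncomputable def coverR [Pos Y] : T ⊗[ℂ] Y →ₗ[T] Ind (CoverP Y) :=
  TensorProduct.AlgebraTensorModule.lift
    { toFun := fun t => (Module.toModuleEnd ℂ (S := T) (Ind (CoverP Y)) t) ∘ₗ coverH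
      map_add' := fun a b => by
        ext y
        simp [add_smul]
      map_smul' := fun a b => by
        ext y
        simp [mul_smul] }

theorem coverR_tmul [Pos Y] (t : T) (y : Y) :
    coverR (t ⊗ₜ[ℂ] y) = t • Ind.incl (coverThetaP ((1 : B) ⊗ₜ[ℂ] y)) := by
  unfold coverR
  rw [TensorProduct.AlgebraTensorModule.lift_tmul]
  rfl

theorem coverR_sig [Pos Y] (x : B ⊗[ℂ] Y) :
    coverR (coverSig x) = Ind.incl (coverThetaP x) := by
  induction x using TensorProduct.induction_on with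
  | zero =>
    have h0 : Ind.incl (0 : CoverP Y) = 0 := rfl
    rw [map_zero, map_zero, map_zero, h0]
  | tmul b y =>
    have h1 : (b ⊗ₜ[ℂ] y : B ⊗[ℂ] Y) = b • ((1 : B) ⊗ₜ[ℂ] y) := by
      rw [TensorProduct.smul_tmul', smul_eq_mul, mul_one]
    rw [h1, coverSig_smul, map_smul, map_smul, Ind.incl_sig]
    congr 1
    simp only [coverSig, TensorProduct.map_tmul, AlgHom.toLinearMap_apply, map_one,
      LinearMap.id_apply]
    rw [coverR_tmul, one_smul]
  | add x y hx hy => rw [map_add, map_add, hx, hy, map_add, Ind.incl_add]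

theorem coverR_I [Pos Y] (w : Ind (CoverP Y)) : coverR (coverI w) = w := by
  have hincl : ∀ x : CoverP Y, coverR (coverI (Ind.incl x)) = Ind.incl x := by
    intro x
    rw [coverI_incl, coverR_sig, coverThetaP_coe]
  obtain ⟨y, a, b⟩ := w
  have h := Ind.mk_eq (Y := CoverP Y) y a b
  change coverR (coverI (Ind.mk y a b)) = Ind.mk y a b
  rw [h]
  simp only [map_add, map_sum, map_smul, hincl]

theorem cover_projective [Pos Y] : Module.Projective T (Ind (CoverP Y)) :=
  Module.Projective.of_split coverI coverR (LinearMap.ext fun w => coverR_I w)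

end cover

/-- Relative projective cover. -/
theorem exists_cover (i : ℕ) (Y : Type) [AddCommGroup Y] [Module ℂ Y] [Module B Y]
    [IsScalarTower ℂ B Y] [Pos Y] (hY : Cls i Y) :
    ∃ (P : Type) (_ : AddCommGroup P) (_ : Module ℂ P) (_ : Module B P)
      (_ : IsScalarTower ℂ B P) (_ : Pos P) (π : P →ₗ[B] Y),
      Function.Surjective π ∧ Module.Projective T (Ind P) ∧
      ∀ j : Fin 6, j.val ≤ i → ∀ x : P, π x = 0 → B.gen.e j • x = 0 := by
  refine ⟨CoverP Y, inferInstance, inferInstance, inferInstance, inferInstance, cover_pos,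
    coverMu Y ∘ₗ (CoverP Y).subtype, ?_, cover_projective, ?_⟩
  · intro y
    refine ⟨coverThetaP ((1 : B) ⊗ₜ[ℂ] y), ?_⟩
    have h : ((coverThetaP ((1 : B) ⊗ₜ[ℂ] y) : CoverP Y) : TensorProduct ℂ B Y)
      = coverTheta Y ((1 : B) ⊗ₜ[ℂ] y) := rfl
    rw [LinearMap.comp_apply, Submodule.subtype_apply, h, coverMu_theta, coverMu_tmul, one_smul]
  · intro j hj x hx
    exact cover_mu_eq_zero j (fun l hl y => hY l (lt_of_lt_of_le hl hj) y) x hx

end Crest.Agent.S0268
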