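import Mathlib

set_option autoImplicit false

/-!
# S0268 : definitions (blueprint by helper81)

`B` : algebra generated by `e i` (i : Fin 6), `x k l` (k l : Fin 2), `z`
(windows `[0,5]` of the Koszul dual of the homogenized enveloping algebra of `gl_2`).
`T` : generated by moreover `u j`, `v j`.
-/

namespace Crest.Agent.S0268

open scoped BigOperators

/-- Elements of a ring satisfying the relations of `B`. -/
structure BOps (A : Type) [Ring A] where
  e : Fin 6 → A
  x : Fin 2 → Fin 2 → A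
  z : A
  e_mul : ∀ i j, e i * e j = if i = j then e i else 0
  e_sum : ∑ i, e i = 1
  x_e : ∀ k l (i : Fin 5), x k l * e i.castSucc = e i.succ * x k l
  x_e5 : ∀ k l, x k l * e (Fin.last 5) = 0
  z_e : ∀ i : Fin 5, z * e i.castSucc = e i.succ * z
  z_e5 : z * e (Fin.last 5) = 0
  xx : ∀ k l p q, x k l * x p q + x p q * x k l = 0
  zz : z * z = 0
  zx : ∀ k l, z * x k l + x k l * z = -∑ m, x k m * x m l

/-- Elements of a ring satisfying the relations of `T`. -/
structure TOps (A : Type) [Ring A] extends BOps A where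
  u : Fin 2 → A
  v : Fin 2 → A
  u_e : ∀ j (i : Fin 5), u j * e i.succ = e i.castSucc * u j
  u_e0 : ∀ j, u j * e 0 = 0
  v_e : ∀ j i, v j * e i = e i * v j
  xu : ∀ k l j, x k l * u j - u j * x k l = if k = j then v l else 0
  xv : ∀ k l j, x k l * v j + v j * x k l = 0
  zu : ∀ j, z * u j - u j * z = ∑ k, u k * x k j - u j * ∑ k, x k k
  zv : ∀ j, z * v j + v j * z = -(∑ k, v k * x k j) + v j * ∑ k, x k k
  uu : ∀ i j, u i * u j = 0
  uv : ∀ i j, u i * v j = 0
  vu : ∀ i j, v i * u j = 0
  vv : ∀ i j, v i * v j = 0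

/-! ### the rings `B` and `T` -/

/-- generators of `B` -/
inductive GB where
  | e (i : Fin 6) | x (k l : Fin 2) | z

/-- generators of `T` -/
inductive GT where
  | e (i : Fin 6) | x (k l : Fin 2) | z | u (j : Fin 2) | v (j : Fin 2)

namespace GB
noncomputable abbrev E (i : Fin 6) : FreeAlgebra ℂ GB := FreeAlgebra.ι ℂ (GB.e i)
noncomputable abbrev X (k l : Fin 2) : FreeAlgebra ℂ GB := FreeAlgebra.ι ℂ (GB.x k l)
noncomputable abbrev Z : FreeAlgebra ℂ GB := FreeAlgebra.ι ℂ GB.z
end GB

namespace GT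
noncomputable abbrev E (i : Fin 6) : FreeAlgebra ℂ GT := FreeAlgebra.ι ℂ (GT.e i)
noncomputable abbrev X (k l : Fin 2) : FreeAlgebra ℂ GT := FreeAlgebra.ι ℂ (GT.x k l)
noncomputable abbrev Z : FreeAlgebra ℂ GT := FreeAlgebra.ι ℂ GT.z
noncomputable abbrev U (j : Fin 2) : FreeAlgebra ℂ GT := FreeAlgebra.ι ℂ (GT.u j)
noncomputable abbrev V (j : Fin 2) : FreeAlgebra ℂ GT := FreeAlgebra.ι ℂ (GT.v j)
end GT

open GB in
/-- relations of `B` -/
inductive RelB : FreeAlgebra ℂ GB → FreeAlgebra ℂ GB → Prop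
  | e_mul (i j : Fin 6) : RelB (E i * E j) (if i = j then E i else 0)
  | e_sum : RelB (∑ i, E i) 1
  | x_e (k l : Fin 2) (i : Fin 5) : RelB (X k l * E i.castSucc) (E i.succ * X k l)
  | x_e5 (k l : Fin 2) : RelB (X k l * E (Fin.last 5)) 0
  | z_e (i : Fin 5) : RelB (Z * E i.castSucc) (E i.succ * Z)
  | z_e5 : RelB (Z * E (Fin.last 5)) 0
  | xx (k l p q : Fin 2) : RelB (X k l * X p q + X p q * X k l) 0
  | zz : RelB (Z * Z) 0
  | zx (k l : Fin 2) : RelB (Z * X k l + X k l * Z) (-∑ m, X k m * X m l)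

open Crest.Agent.S0268.GT in
/-- relations of `T` -/
inductive RelT : FreeAlgebra ℂ GT → FreeAlgebra ℂ GT → Prop
  | e_mul (i j : Fin 6) : RelT (E i * E j) (if i = j then E i else 0)
  | e_sum : RelT (∑ i, E i) 1
  | x_e (k l : Fin 2) (i : Fin 5) : RelT (X k l * E i.castSucc) (E i.succ * X k l)
  | x_e5 (k l : Fin 2) : RelT (X k l * E (Fin.last 5)) 0
  | z_e (i : Fin 5) : RelT (Z * E i.castSucc) (E i.succ * Z)
  | z_e5 : RelT (Z * E (Fin.last 5)) 0
  | xx (k l p q : Fin 2) : RelT (X k l * X p q + X p q * X k l) 0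
  | zz : RelT (Z * Z) 0
  | zx (k l : Fin 2) : RelT (Z * X k l + X k l * Z) (-∑ m, X k m * X m l)
  | u_e (j : Fin 2) (i : Fin 5) : RelT (U j * E i.succ) (E i.castSucc * U j)
  | u_e0 (j : Fin 2) : RelT (U j * E 0) 0
  | v_e (j : Fin 2) (i : Fin 6) : RelT (V j * E i) (E i * V j)
  | xu (k l j : Fin 2) : RelT (X k l * U j - U j * X k l) (if k = j then V l else 0)
  | xv (k l j : Fin 2) : RelT (X k l * V j + V j * X k l) 0
  | zu (j : Fin 2) : RelT (Z * U j - U j * Z) (∑ k, U k * X k j - U j * ∑ k, X k k)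
  | zv (j : Fin 2) : RelT (Z * V j + V j * Z) (-(∑ k, V k * X k j) + V j * ∑ k, X k k)
  | uu (i j : Fin 2) : RelT (U i * U j) 0
  | uv (i j : Fin 2) : RelT (U i * V j) 0
  | vu (i j : Fin 2) : RelT (V i * U j) 0
  | vv (i j : Fin 2) : RelT (V i * V j) 0

/-- the algebra `B` -/
def B : Type := RingQuot RelB
/-- the algebra `T` -/
def T : Type := RingQuot RelT

noncomputable instance : Ring B := inferInstanceAs (Ring (RingQuot RelB))
noncomputable instance : Algebra ℂ B := inferInstanceAs (Algebra ℂ (RingQuot RelB))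
noncomputable instance : Ring T := inferInstanceAs (Ring (RingQuot RelT))
noncomputable instance : Algebra ℂ T := inferInstanceAs (Algebra ℂ (RingQuot RelT))

noncomputable def B.mk : FreeAlgebra ℂ GB →ₐ[ℂ] B := RingQuot.mkAlgHom ℂ RelB
noncomputable def T.mk : FreeAlgebra ℂ GT →ₐ[ℂ] T := RingQuot.mkAlgHom ℂ RelT

theorem B.mk_surjective : Function.Surjective B.mk := RingQuot.mkAlgHom_surjective ℂ RelB
theorem T.mk_surjective : Function.Surjective T.mk := RingQuot.mkAlgHom_surjective ℂ RelT

theorem B.mk_rel {a b : FreeAlgebra ℂ GB} (h : RelB a b) : B.mk a = B.mk b :=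
  RingQuot.mkAlgHom_rel ℂ h
theorem T.mk_rel {a b : FreeAlgebra ℂ GT} (h : RelT a b) : T.mk a = T.mk b :=
  RingQuot.mkAlgHom_rel ℂ h

/-- the generators of `B` -/
noncomputable def B.gen : BOps B where
  e i := B.mk (GB.E i)
  x k l := B.mk (GB.X k l)
  z := B.mk GB.Z
  e_mul i j := by
    rw [← map_mul, B.mk_rel (RelB.e_mul i j)]; split_ifs <;> simp
  e_sum := by rw [← map_sum, B.mk_rel RelB.e_sum, map_one]
  x_e k l i := by rw [← map_mul, ← map_mul, B.mk_rel (RelB.x_e k l i)]
  x_e5 k l := by rw [← map_mul, B.mk_rel (RelB.x_e5 k l), map_zero]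
  z_e i := by rw [← map_mul, ← map_mul, B.mk_rel (RelB.z_e i)]
  z_e5 := by rw [← map_mul, B.mk_rel RelB.z_e5, map_zero]
  xx k l p q := by
    rw [← map_mul, ← map_mul, ← map_add, B.mk_rel (RelB.xx k l p q), map_zero]
  zz := by rw [← map_mul, B.mk_rel RelB.zz, map_zero]
  zx k l := by
    simp only [← map_mul, ← map_add, ← map_sum, ← map_neg]
    exact B.mk_rel (RelB.zx k l)

/-- the generators of `T` -/
noncomputable def T.gen : TOps T where
  e i := T.mk (GT.E i)
  x k l := T.mk (GT.X k l)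
  z := T.mk GT.Z
  u j := T.mk (GT.U j)
  v j := T.mk (GT.V j)
  e_mul i j := by
    rw [← map_mul, T.mk_rel (RelT.e_mul i j)]; split_ifs <;> simp
  e_sum := by rw [← map_sum, T.mk_rel RelT.e_sum, map_one]
  x_e k l i := by rw [← map_mul, ← map_mul, T.mk_rel (RelT.x_e k l i)]
  x_e5 k l := by rw [← map_mul, T.mk_rel (RelT.x_e5 k l), map_zero]
  z_e i := by rw [← map_mul, ← map_mul, T.mk_rel (RelT.z_e i)]
  z_e5 := by rw [← map_mul, T.mk_rel RelT.z_e5, map_zero]
  xx k l p q := by
    rw [← map_mul, ← map_mul, ← map_add, T.mk_rel (RelT.xx k l p q), map_zero]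
  zz := by rw [← map_mul, T.mk_rel RelT.zz, map_zero]
  zx k l := by
    simp only [← map_mul, ← map_add, ← map_sum, ← map_neg]
    exact T.mk_rel (RelT.zx k l)
  u_e j i := by rw [← map_mul, ← map_mul, T.mk_rel (RelT.u_e j i)]
  u_e0 j := by rw [← map_mul, T.mk_rel (RelT.u_e0 j), map_zero]
  v_e j i := by rw [← map_mul, ← map_mul, T.mk_rel (RelT.v_e j i)]
  xu k l j := by
    rw [← map_mul, ← map_mul, ← map_sub, T.mk_rel (RelT.xu k l j)]; split_ifs <;> simp
  xv k l j := by rw [← map_mul, ← map_mul, ← map_add, T.mk_rel (RelT.xv k l j), map_zero]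
  zu j := by
    simp only [← map_mul, ← map_sub, ← map_sum]
    exact T.mk_rel (RelT.zu j)
  zv j := by
    simp only [← map_mul, ← map_add, ← map_sum, ← map_neg]
    exact T.mk_rel (RelT.zv j)
  uu i j := by rw [← map_mul, T.mk_rel (RelT.uu i j), map_zero]
  uv i j := by rw [← map_mul, T.mk_rel (RelT.uv i j), map_zero]
  vu i j := by rw [← map_mul, T.mk_rel (RelT.vu i j), map_zero]
  vv i j := by rw [← map_mul, T.mk_rel (RelT.vv i j), map_zero]

section lift
variable {A : Type} [Ring A] [Algebra ℂ A]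

/-- values of the generators -/
def BOps.val (O : BOps A) : GB → A
  | GB.e i => O.e i
  | GB.x k l => O.x k l
  | GB.z => O.z

/-- values of the generators -/
def TOps.val (O : TOps A) : GT → A
  | GT.e i => O.e i
  | GT.x k l => O.x k l
  | GT.z => O.z
  | GT.u j => O.u j
  | GT.v j => O.v j

/-- universal property of `B` -/
noncomputable def BOps.lift (O : BOps A) : B →ₐ[ℂ] A :=
  RingQuot.liftAlgHom ℂ ⟨FreeAlgebra.lift ℂ O.val, by
    intro a b h
    induction h with
    | e_mul i j => have := O.e_mul i j; split_ifs with hij <;> simp_all [BOps.val]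
    | e_sum => simpa [BOps.val] using O.e_sum
    | x_e k l i => simpa [BOps.val] using O.x_e k l i
    | x_e5 k l => simpa [BOps.val] using O.x_e5 k l
    | z_e i => simpa [BOps.val] using O.z_e i
    | z_e5 => simpa [BOps.val] using O.z_e5
    | xx k l p q => simpa [BOps.val] using O.xx k l p q
    | zz => simpa [BOps.val] using O.zz
    | zx k l => simpa [BOps.val] using O.zx k l⟩

/-- universal property of `T` -/
noncomputable def TOps.lift (O : TOps A) : T →ₐ[ℂ] A :=
  RingQuot.liftAlgHom ℂ ⟨FreeAlgebra.lift ℂ O.val, by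
    intro a b h
    induction h with
    | e_mul i j => have := O.e_mul i j; split_ifs with hij <;> simp_all [TOps.val]
    | e_sum => simpa [TOps.val] using O.e_sum
    | x_e k l i => simpa [TOps.val] using O.x_e k l i
    | x_e5 k l => simpa [TOps.val] using O.x_e5 k l
    | z_e i => simpa [TOps.val] using O.z_e i
    | z_e5 => simpa [TOps.val] using O.z_e5
    | xx k l p q => simpa [TOps.val] using O.xx k l p q
    | zz => simpa [TOps.val] using O.zz
    | zx k l => simpa [TOps.val] using O.zx k l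
    | u_e j i => simpa [TOps.val] using O.u_e j i
    | u_e0 j => simpa [TOps.val] using O.u_e0 j
    | v_e j i => simpa [TOps.val] using O.v_e j i
    | xu k l j =>
      have h := O.xu k l j
      by_cases hkj : k = j
      · simp only [if_pos hkj] at h ⊢; simpa [TOps.val] using h
      · simp only [if_neg hkj] at h ⊢; simpa [TOps.val] using h
    | xv k l j => simpa [TOps.val] using O.xv k l j
    | zu j => simpa [TOps.val] using O.zu j
    | zv j => simpa [TOps.val] using O.zv j
    | uu i j => simpa [TOps.val] using O.uu i j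
    | uv i j => simpa [TOps.val] using O.uv i j
    | vu i j => simpa [TOps.val] using O.vu i j
    | vv i j => simpa [TOps.val] using O.vv i j⟩

theorem BOps.lift_mk (O : BOps A) (a : FreeAlgebra ℂ GB) :
    O.lift (B.mk a) = FreeAlgebra.lift ℂ O.val a := by
  exact RingQuot.liftAlgHom_mkAlgHom_apply ℂ _ _ _

theorem TOps.lift_mk (O : TOps A) (a : FreeAlgebra ℂ GT) :
    O.lift (T.mk a) = FreeAlgebra.lift ℂ O.val a := by
  exact RingQuot.liftAlgHom_mkAlgHom_apply ℂ _ _ _

@[simp] theorem BOps.lift_e (O : BOps A) (i : Fin 6) : O.lift (B.gen.e i) = O.e i := by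
  simp [B.gen, BOps.lift_mk, BOps.val]
@[simp] theorem BOps.lift_x (O : BOps A) (k l : Fin 2) : O.lift (B.gen.x k l) = O.x k l := by
  simp [B.gen, BOps.lift_mk, BOps.val]
@[simp] theorem BOps.lift_z (O : BOps A) : O.lift B.gen.z = O.z := by
  simp [B.gen, BOps.lift_mk, BOps.val]
@[simp] theorem TOps.lift_e (O : TOps A) (i : Fin 6) : O.lift (T.gen.e i) = O.e i := by
  simp [T.gen, TOps.lift_mk, TOps.val]
@[simp] theorem TOps.lift_x (O : TOps A) (k l : Fin 2) : O.lift (T.gen.x k l) = O.x k l := by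
  simp [T.gen, TOps.lift_mk, TOps.val]
@[simp] theorem TOps.lift_z (O : TOps A) : O.lift T.gen.z = O.z := by
  simp [T.gen, TOps.lift_mk, TOps.val]
@[simp] theorem TOps.lift_u (O : TOps A) (j : Fin 2) : O.lift (T.gen.u j) = O.u j := by
  simp [T.gen, TOps.lift_mk, TOps.val]
@[simp] theorem TOps.lift_v (O : TOps A) (j : Fin 2) : O.lift (T.gen.v j) = O.v j := by
  simp [T.gen, TOps.lift_mk, TOps.val]

end lift

/-- induction on elements of `B`: a subspace containing 1 and stable under left multiplication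
by the generators is everything. -/
theorem B.left_induction {p : B → Prop} (h1 : p 1) (hadd : ∀ a b, p a → p b → p (a + b))
    (hsmul : ∀ (c : ℂ) a, p a → p (c • a)) (he : ∀ i a, p a → p (B.gen.e i * a))
    (hx : ∀ k l a, p a → p (B.gen.x k l * a)) (hz : ∀ a, p a → p (B.gen.z * a)) (b : B) : p b := by
  obtain ⟨a, rfl⟩ := B.mk_surjective b
  suffices H : ∀ c : B, p c → p (B.mk a * c) by simpa using H 1 h1
  induction a with
  | grade0 r => intro c hc; rw [AlgHom.commutes, ← Algebra.smul_def]; exact hsmul r c hc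
  | grade1 g =>
    intro c hc
    cases g with
    | e i => exact he i c hc
    | x k l => exact hx k l c hc
    | z => exact hz c hc
  | mul a b ha hb => intro c hc; rw [map_mul, mul_assoc]; exact ha _ (hb _ hc)
  | add a b ha hb => intro c hc; rw [map_add, add_mul]; exact hadd _ _ (ha _ hc) (hb _ hc)

/-- induction on elements of `T` -/
theorem T.left_induction {p : T → Prop} (h1 : p 1) (hadd : ∀ a b, p a → p b → p (a + b))
    (hsmul : ∀ (c : ℂ) a, p a → p (c • a)) (he : ∀ i a, p a → p (T.gen.e i * a))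
    (hx : ∀ k l a, p a → p (T.gen.x k l * a)) (hz : ∀ a, p a → p (T.gen.z * a))
    (hu : ∀ j a, p a → p (T.gen.u j * a)) (hv : ∀ j a, p a → p (T.gen.v j * a)) (b : T) : p b := by
  obtain ⟨a, rfl⟩ := T.mk_surjective b
  suffices H : ∀ c : T, p c → p (T.mk a * c) by simpa using H 1 h1
  induction a with
  | grade0 r => intro c hc; rw [AlgHom.commutes, ← Algebra.smul_def]; exact hsmul r c hc
  | grade1 g =>
    intro c hc
    cases g with
    | e i => exact he i c hc
    | x k l => exact hx k l c hc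
    | z => exact hz c hc
    | u j => exact hu j c hc
    | v j => exact hv j c hc
  | mul a b ha hb => intro c hc; rw [map_mul, mul_assoc]; exact ha _ (hb _ hc)
  | add a b ha hb => intro c hc; rw [map_add, add_mul]; exact hadd _ _ (ha _ hc) (hb _ hc)

/-- the inclusion `B → T` -/
noncomputable def sig : B →ₐ[ℂ] T := T.gen.toBOps.lift

@[simp] theorem sig_e (i : Fin 6) : sig (B.gen.e i) = T.gen.e i := by simp [sig]
@[simp] theorem sig_x (k l : Fin 2) : sig (B.gen.x k l) = T.gen.x k l := by simp [sig]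
@[simp] theorem sig_z : sig B.gen.z = T.gen.z := by simp [sig]

/-- the projection `T → B` (`u, v ↦ 0`) -/
noncomputable def BtoT : TOps B where
  toBOps := B.gen
  u _ := 0
  v _ := 0
  u_e := by simp
  u_e0 := by simp
  v_e := by simp
  xu := by intros; simp
  xv := by simp
  zu := by simp
  zv := by simp
  uu := by simp
  uv := by simp
  vu := by simp
  vv := by simp

noncomputable def pr : T →ₐ[ℂ] B := BtoT.lift

@[simp] theorem pr_e (i : Fin 6) : pr (T.gen.e i) = B.gen.e i := by simp [pr, BtoT]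
@[simp] theorem pr_x (k l : Fin 2) : pr (T.gen.x k l) = B.gen.x k l := by simp [pr, BtoT]
@[simp] theorem pr_z : pr T.gen.z = B.gen.z := by simp [pr, BtoT]
@[simp] theorem pr_u (j : Fin 2) : pr (T.gen.u j) = 0 := by simp [pr, BtoT]
@[simp] theorem pr_v (j : Fin 2) : pr (T.gen.v j) = 0 := by simp [pr, BtoT]

end Crest.Agent.S0268
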