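import Crest.Agent.S0268_Mods

set_option autoImplicit false

/-!
# S0268 (task T12) : `T` is finite-dimensional, and `dim T e_0 ≤ 96`

Let `M` be a `T`-module, `G` a finite set of vectors.  `L(G)` = span of
`ξ_00^a ξ_01^b ξ_10^c ξ_11^d g`, `a, b, c, d ∈ {0,1}`, `g ∈ G`: dimension `≤ 16 |G|`, and it is stable
under all `ξ_kl` (anticommuting, square zero).
If `ζ g, u_j g, v_j g, e_b g ∈ L(G)` for all `g ∈ G`, then `L(G)` is a `T`-submodule: the set
`{t ∈ L(G) | ζ t, u_j t, v_j t, e_b t ∈ L(G)}` is stable under `ξ_kl`, by the relations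
`ζ ξ_kl = -ξ_kl ζ - ∑ ξ_km ξ_ml`, `u_j ξ_kl = ξ_kl u_j - δ_kj v_l`, `v_j ξ_kl = -ξ_kl v_j`,
`e_(b+1) ξ = ξ e_b`, `e_0 ξ = 0`.

`T` itself: `G = {1, u_j, v_j} · {1, ζ} · {e_b}` (60 elements), using
`ζ u_j = u_j ζ + ∑_k ξ_kj u_k - τ u_j - v_j`, `ζ v_j = -v_j ζ - ∑ v_k ξ_kj + v_j τ`, `u u = u v = .. = 0`.

`T e_0`: `G = {e_0, ζ e_0, v_0 e_0, v_1 e_0, v_0 ζ e_0, v_1 ζ e_0}` (6 elements), using
`u_j e_0 = 0` and `u_j ζ e_0 = v_j e_0`.
-/

namespace Crest.Agent.S0268

open scoped Pointwise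

/-! ### stability under left multiplication -/

/-- `N` is stable under left multiplication by `y` -/
def FinSt (y : T) (N : Submodule ℂ T) : Prop := ∀ t ∈ N, y * t ∈ N

noncomputable abbrev FinW (x : T) : Submodule ℂ T := Submodule.span ℂ {1, x}

theorem finSt_anti {x y : T} (h : y * x = -(x * y)) {N : Submodule ℂ T} (hN : FinSt y N) :
    FinSt y (FinW x * N) := by
  intro t ht
  induction ht using Submodule.mul_induction_on' with
  | mem_mul_mem m hm n hn =>
    obtain ⟨a, b, rfl⟩ := Submodule.mem_span_pair.1 hm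
    have : y * ((a • (1 : T) + b • x) * n) = (a • (1 : T) + (-b) • x) * (y * n) := by
      rw [← mul_assoc, mul_add, mul_smul_comm, mul_smul_comm, h, mul_one]
      rw [← mul_assoc, add_mul, add_mul, add_mul, smul_mul_assoc, smul_mul_assoc, smul_mul_assoc,
        smul_mul_assoc, one_mul]
      simp [mul_assoc]
    rw [this]
    exact Submodule.mul_mem_mul (Submodule.mem_span_pair.2 ⟨a, -b, rfl⟩) (hN n hn)
  | add s t hs ht hs' ht' => rw [mul_add]; exact add_mem hs' ht'

theorem finSt_self {x : T} (h : x * x = 0) {N : Submodule ℂ T} :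
    FinSt x (FinW x * N) := by
  intro t ht
  induction ht using Submodule.mul_induction_on' with
  | mem_mul_mem m hm n hn =>
    obtain ⟨a, b, rfl⟩ := Submodule.mem_span_pair.1 hm
    have : x * ((a • (1 : T) + b • x) * n) = (a • x) * n := by
      rw [← mul_assoc, mul_add, mul_smul_comm, mul_smul_comm, h, mul_one]
      simp
    rw [this]
    exact Submodule.mul_mem_mul (Submodule.mem_span_pair.2 ⟨0, a, by simp⟩) hn
  | add s t hs ht hs' ht' => rw [mul_add]; exact add_mem hs' ht'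

theorem finW_le {x : T} {N N' : Submodule ℂ T} (h : N ≤ N') (hx : FinSt x N') :
    FinW x * N ≤ N' := by
  rw [Submodule.mul_le]
  intro m hm n hn
  obtain ⟨a, b, rfl⟩ := Submodule.mem_span_pair.1 hm
  rw [add_mul, smul_mul_assoc, smul_mul_assoc, one_mul]
  exact add_mem (N'.smul_mem _ (h hn)) (N'.smul_mem _ (hx n (h hn)))

theorem le_finW {x : T} {N : Submodule ℂ T} : N ≤ FinW x * N := by
  intro n hn
  have := Submodule.mul_mem_mul (M := FinW x) (N := N)
    (Submodule.mem_span_pair.2 ⟨1, 0, rfl⟩) hn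
  simpa using this

/-- `L(G)` -/
noncomputable def FinL (G : Finset T) : Submodule ℂ T :=
  FinW (T.gen.x 0 0) * (FinW (T.gen.x 0 1) * (FinW (T.gen.x 1 0) * (FinW (T.gen.x 1 1) *
    Submodule.span ℂ (G : Set T))))

theorem finL_eq (G : Finset T) : ∃ H : Finset T, H.card ≤ 16 * G.card ∧
    FinL G = Submodule.span ℂ (H : Set T) := by
  classical
  refine ⟨({1, T.gen.x 0 0} : Finset T) * (({1, T.gen.x 0 1} : Finset T) *
    (({1, T.gen.x 1 0} : Finset T) * (({1, T.gen.x 1 1} : Finset T) * G))), ?_, ?_⟩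
  · have h2 : ∀ x : T, ({1, x} : Finset T).card ≤ 2 := fun x => Finset.card_le_two
    refine Finset.card_mul_le.trans ?_
    have h1 := Finset.card_mul_le (s := ({1, T.gen.x 1 1} : Finset T)) (t := G)
    have h3 := Finset.card_mul_le (s := ({1, T.gen.x 1 0} : Finset T))
      (t := ({1, T.gen.x 1 1} : Finset T) * G)
    have h4 := Finset.card_mul_le (s := ({1, T.gen.x 0 1} : Finset T))
      (t := ({1, T.gen.x 1 0} : Finset T) * (({1, T.gen.x 1 1} : Finset T) * G))
    calc _ ≤ 2 * (2 * (2 * (2 * G.card))) := by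
          refine Nat.mul_le_mul (h2 _) (h4.trans (Nat.mul_le_mul (h2 _) (h3.trans
            (Nat.mul_le_mul (h2 _) (h1.trans (Nat.mul_le_mul (h2 _) le_rfl))))))
      _ = 16 * G.card := by ring
  · unfold FinL FinW
    rw [Submodule.span_mul_span, Submodule.span_mul_span, Submodule.span_mul_span,
      Submodule.span_mul_span]
    congr 1
    push_cast
    rfl

theorem finL_finrank (G : Finset T) : Module.finrank ℂ (FinL G) ≤ 16 * G.card := by
  obtain ⟨H, h1, h2⟩ := finL_eq G
  rw [h2]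
  exact (finrank_span_finset_le_card H).trans h1

instance finL_fd (G : Finset T) : FiniteDimensional ℂ (FinL G) := by
  obtain ⟨H, h1, h2⟩ := finL_eq G
  rw [h2]
  exact FiniteDimensional.span_finset ℂ H

theorem fin_xx (k l p q : Fin 2) :
    T.gen.x k l * T.gen.x p q = -(T.gen.x p q * T.gen.x k l) :=
  eq_neg_of_add_eq_zero_left (T.gen.xx k l p q)

theorem fin_xx0 (k l : Fin 2) : T.gen.x k l * T.gen.x k l = 0 := by
  have h := T.gen.xx k l k l
  have h2 : (2 : ℂ) • (T.gen.x k l * T.gen.x k l) = 0 := by rw [two_smul]; exact h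
  exact (smul_eq_zero.1 h2).resolve_left two_ne_zero

theorem finL_x (G : Finset T) (k l : Fin 2) : FinSt (T.gen.x k l) (FinL G) := by
  unfold FinL
  fin_cases k <;> fin_cases l
  · exact finSt_self (fin_xx0 _ _)
  · exact finSt_anti (fin_xx _ _ _ _) (finSt_self (fin_xx0 _ _))
  · exact finSt_anti (fin_xx _ _ _ _) (finSt_anti (fin_xx _ _ _ _) (finSt_self (fin_xx0 _ _)))
  · exact finSt_anti (fin_xx _ _ _ _) (finSt_anti (fin_xx _ _ _ _)
      (finSt_anti (fin_xx _ _ _ _) (finSt_self (fin_xx0 _ _))))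

theorem finL_le {G : Finset T} {N : Submodule ℂ T} (hG : ∀ g ∈ G, g ∈ N)
    (hx : ∀ k l, FinSt (T.gen.x k l) N) : FinL G ≤ N := by
  unfold FinL
  refine finW_le (finW_le (finW_le (finW_le ?_ (hx _ _)) (hx _ _)) (hx _ _)) (hx _ _)
  rw [Submodule.span_le]
  intro g hg
  exact hG g hg

theorem mem_finL {G : Finset T} {g : T} (hg : g ∈ G) : g ∈ FinL G := by
  unfold FinL
  exact le_finW (le_finW (le_finW (le_finW (Submodule.subset_span hg))))

/-! ### relations -/

theorem fin_e0x (k l : Fin 2) : T.gen.e 0 * T.gen.x k l = 0 := by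
  have h : T.gen.e 0 * T.gen.x k l = T.gen.e 0 * (T.gen.x k l * ∑ i, T.gen.e i) := by
    rw [T.gen.e_sum, mul_one]
  rw [h, Fin.sum_univ_castSucc, mul_add, Finset.mul_sum, mul_add]
  have h5 : T.gen.x k l * T.gen.e (Fin.last 5) = 0 := T.gen.x_e5 k l
  rw [h5, mul_zero, add_zero, Finset.mul_sum]
  refine Finset.sum_eq_zero fun i _ => ?_
  rw [T.gen.x_e, ← mul_assoc, T.gen.e_mul, if_neg (Fin.succ_ne_zero i).symm, zero_mul]

theorem fin_e0z : T.gen.e 0 * T.gen.z = 0 := by
  have h : T.gen.e 0 * T.gen.z = T.gen.e 0 * (T.gen.z * ∑ i, T.gen.e i) := by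
    rw [T.gen.e_sum, mul_one]
  rw [h, Fin.sum_univ_castSucc, mul_add, Finset.mul_sum, mul_add]
  have h5 : T.gen.z * T.gen.e (Fin.last 5) = 0 := T.gen.z_e5
  rw [h5, mul_zero, add_zero, Finset.mul_sum]
  refine Finset.sum_eq_zero fun i _ => ?_
  rw [T.gen.z_e, ← mul_assoc, T.gen.e_mul, if_neg (Fin.succ_ne_zero i).symm, zero_mul]

theorem fin_e5u (j : Fin 2) : T.gen.e (Fin.last 5) * T.gen.u j = 0 := by
  have h : T.gen.e (Fin.last 5) * T.gen.u j = T.gen.e (Fin.last 5) * (T.gen.u j * ∑ i, T.gen.e i) := by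
    rw [T.gen.e_sum, mul_one]
  rw [h, Fin.sum_univ_succ, mul_add, Finset.mul_sum, mul_add, T.gen.u_e0, mul_zero, zero_add,
    Finset.mul_sum]
  refine Finset.sum_eq_zero fun i _ => ?_
  rw [T.gen.u_e, ← mul_assoc, T.gen.e_mul, if_neg (Fin.castSucc_lt_last i).ne', zero_mul]

theorem fin_ux (j k l : Fin 2) : T.gen.u j * T.gen.x k l =
    T.gen.x k l * T.gen.u j - if k = j then T.gen.v l else 0 := by
  rw [← T.gen.xu k l j]; abel

theorem fin_vx (j k l : Fin 2) : T.gen.v j * T.gen.x k l = -(T.gen.x k l * T.gen.v j) := by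
  have := T.gen.xv k l j
  rw [add_comm] at this
  exact eq_neg_of_add_eq_zero_left this

theorem fin_zx (k l : Fin 2) : T.gen.z * T.gen.x k l =
    -(T.gen.x k l * T.gen.z) - ∑ m, T.gen.x k m * T.gen.x m l := by
  have := T.gen.zx k l
  rw [eq_sub_of_add_eq this]; abel

theorem fin_zu (j : Fin 2) : T.gen.z * T.gen.u j = T.gen.u j * T.gen.z
    + ∑ k, T.gen.x k j * T.gen.u k - ∑ k, T.gen.x k k * T.gen.u j - T.gen.v j := by
  have := T.gen.zu j
  rw [eq_add_of_sub_eq this, Finset.mul_sum]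
  simp only [fin_ux, Finset.sum_sub_distrib]
  simp only [Finset.sum_const, Finset.card_univ, Fintype.card_fin, Finset.sum_ite_eq',
    Finset.mem_univ, if_true, ite_true, two_smul]
  abel

theorem fin_zv (j : Fin 2) : T.gen.z * T.gen.v j = -(T.gen.v j * T.gen.z)
    + ∑ k, T.gen.x k j * T.gen.v k - ∑ k, T.gen.x k k * T.gen.v j := by
  have := T.gen.zv j
  rw [eq_sub_of_add_eq this, Finset.mul_sum]
  simp only [fin_vx, Finset.sum_neg_distrib]
  abel

/-- the main stability criterion -/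
theorem finL_stable {G : Finset T}
    (hz : ∀ g ∈ G, T.gen.z * g ∈ FinL G) (hu : ∀ j, ∀ g ∈ G, T.gen.u j * g ∈ FinL G)
    (hv : ∀ j, ∀ g ∈ G, T.gen.v j * g ∈ FinL G) (he : ∀ i, ∀ g ∈ G, T.gen.e i * g ∈ FinL G) :
    FinSt T.gen.z (FinL G) ∧ (∀ j, FinSt (T.gen.u j) (FinL G)) ∧
      (∀ j, FinSt (T.gen.v j) (FinL G)) ∧ (∀ i, FinSt (T.gen.e i) (FinL G)) := by
  let N : Submodule ℂ T :=
    { carrier := {t | t ∈ FinL G ∧ T.gen.z * t ∈ FinL G ∧ (∀ j, T.gen.u j * t ∈ FinL G) ∧
        (∀ j, T.gen.v j * t ∈ FinL G) ∧ (∀ i, T.gen.e i * t ∈ FinL G)}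
      add_mem' := by
        rintro a b ⟨a1, a2, a3, a4, a5⟩ ⟨b1, b2, b3, b4, b5⟩
        refine ⟨add_mem a1 b1, ?_, fun j => ?_, fun j => ?_, fun i => ?_⟩
        · rw [mul_add]; exact add_mem a2 b2
        · rw [mul_add]; exact add_mem (a3 j) (b3 j)
        · rw [mul_add]; exact add_mem (a4 j) (b4 j)
        · rw [mul_add]; exact add_mem (a5 i) (b5 i)
      zero_mem' := by simp
      smul_mem' := by
        rintro c b ⟨b1, b2, b3, b4, b5⟩
        refine ⟨Submodule.smul_mem _ _ b1, ?_, fun j => ?_, fun j => ?_, fun i => ?_⟩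
        · rw [mul_smul_comm]; exact Submodule.smul_mem _ _ b2
        · rw [mul_smul_comm]; exact Submodule.smul_mem _ _ (b3 j)
        · rw [mul_smul_comm]; exact Submodule.smul_mem _ _ (b4 j)
        · rw [mul_smul_comm]; exact Submodule.smul_mem _ _ (b5 i) }
  have hN : FinL G ≤ N := by
    refine finL_le (fun g hg => ⟨mem_finL hg, hz g hg, fun j => hu j g hg, fun j => hv j g hg,
      fun i => he i g hg⟩) ?_
    rintro k l t ⟨t1, t2, t3, t4, t5⟩
    refine ⟨finL_x G k l t t1, ?_, fun j => ?_, fun j => ?_, fun i => ?_⟩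
    · rw [← mul_assoc, fin_zx, sub_mul, neg_mul, Finset.sum_mul]
      refine sub_mem (neg_mem ?_) (sum_mem fun m _ => ?_)
      · rw [mul_assoc]; exact finL_x G _ _ _ t2
      · rw [mul_assoc]; exact finL_x G _ _ _ (finL_x G _ _ _ t1)
    · rw [← mul_assoc, fin_ux, sub_mul]
      refine sub_mem ?_ ?_
      · rw [mul_assoc]; exact finL_x G _ _ _ (t3 j)
      · split_ifs
        · exact t4 l
        · simp
    · rw [← mul_assoc, fin_vx, neg_mul]
      refine neg_mem ?_
      rw [mul_assoc]; exact finL_x G _ _ _ (t4 j)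
    · rw [← mul_assoc]
      refine Fin.cases ?_ (fun i => ?_) i
      · rw [fin_e0x]; simp
      · have hx : T.gen.e i.succ * T.gen.x k l = T.gen.x k l * T.gen.e i.castSucc :=
          (T.gen.x_e k l i).symm
        rw [hx, mul_assoc]
        exact finL_x G _ _ _ (t5 _)
  exact ⟨fun t ht => (hN ht).2.1, fun j t ht => (hN ht).2.2.1 j, fun j t ht => (hN ht).2.2.2.1 j,
    fun i t ht => (hN ht).2.2.2.2 i⟩

theorem fin_mem_all {G : Finset T} (hz : FinSt T.gen.z (FinL G))
    (hu : ∀ j, FinSt (T.gen.u j) (FinL G)) (hv : ∀ j, FinSt (T.gen.v j) (FinL G))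
    (he : ∀ i, FinSt (T.gen.e i) (FinL G)) {g : T} (hg : g ∈ FinL G) (t : T) :
    t * g ∈ FinL G := by
  induction t using T.left_induction with
  | h1 => simpa using hg
  | hadd a b ha hb => rw [add_mul]; exact add_mem ha hb
  | hsmul c a ha => rw [smul_mul_assoc]; exact Submodule.smul_mem _ _ ha
  | he i a ha => rw [mul_assoc]; exact he i _ ha
  | hx k l a ha => rw [mul_assoc]; exact finL_x G k l _ ha
  | hz a ha => rw [mul_assoc]; exact hz _ ha
  | hu j a ha => rw [mul_assoc]; exact hu j _ ha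
  | hv j a ha => rw [mul_assoc]; exact hv j _ ha

/-- generic words `w ζ' e_b` -/
theorem fin_ez (i b : Fin 6) : T.gen.e i * (T.gen.z * T.gen.e b) = 0 ∨
    T.gen.e i * (T.gen.z * T.gen.e b) = T.gen.z * T.gen.e b := by
  rw [← mul_assoc]
  refine Fin.cases ?_ (fun i => ?_) i
  · rw [fin_e0z]; simp
  · have hx : T.gen.e i.succ * T.gen.z = T.gen.z * T.gen.e i.castSucc := (T.gen.z_e i).symm
    rw [hx, mul_assoc, T.gen.e_mul]
    split_ifs with h
    · right; rw [h]
    · left; simp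

theorem fin_ee (i b : Fin 6) : T.gen.e i * T.gen.e b = 0 ∨
    T.gen.e i * T.gen.e b = T.gen.e b := by
  rw [T.gen.e_mul]
  split_ifs with h
  · right; rw [h]
  · left; rfl

/-- absorbing property -/
def FinAb (g : T) : Prop := ∀ i, T.gen.e i * g = 0 ∨ T.gen.e i * g = g

theorem finAb_v {g : T} (h : FinAb g) (j : Fin 2) : FinAb (T.gen.v j * g) := by
  intro i
  rw [← mul_assoc, ← T.gen.v_e, mul_assoc]
  rcases h i with h | h <;> rw [h] <;> simp

theorem finAb_u {g : T} (h : FinAb g) (j : Fin 2) : FinAb (T.gen.u j * g) := by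
  intro i
  rw [← mul_assoc]
  refine Fin.lastCases ?_ (fun i => ?_) i
  · rw [fin_e5u]; simp
  · rw [← T.gen.u_e, mul_assoc]
    rcases h i.succ with h | h <;> rw [h] <;> simp

instance T_fd : FiniteDimensional ℂ T := by
  classical
  let A : Finset T := Finset.univ.image (fun b : Fin 6 => T.gen.e b)
  let C : Finset T := A ∪ A.image (fun a => T.gen.z * a)
  let G : Finset T := C ∪ (Finset.univ ×ˢ C).image (fun p : Fin 2 × T => T.gen.u p.1 * p.2)
    ∪ (Finset.univ ×ˢ C).image (fun p : Fin 2 × T => T.gen.v p.1 * p.2)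
  have hAC : ∀ b, T.gen.e b ∈ C := fun b => Finset.mem_union_left _ (by simp [A])
  have hCab : ∀ c ∈ C, FinAb c := by
    intro c hc
    simp only [C, A, Finset.mem_union, Finset.mem_image, Finset.mem_univ, true_and] at hc
    rcases hc with ⟨b, rfl⟩ | ⟨_, ⟨b, rfl⟩, rfl⟩
    · exact fun i => fin_ee i b
    · exact fun i => fin_ez i b
  have hCz : ∀ c ∈ C, T.gen.z * c = 0 ∨ T.gen.z * c ∈ C := by
    intro c hc
    simp only [C, A, Finset.mem_union, Finset.mem_image, Finset.mem_univ, true_and] at hc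
    rcases hc with ⟨b, rfl⟩ | ⟨_, ⟨b, rfl⟩, rfl⟩
    · right
      simp [C, A]
    · left
      rw [← mul_assoc, T.gen.zz, zero_mul]
  have hCG : ∀ c ∈ C, c ∈ FinL G := fun c hc =>
    mem_finL (Finset.mem_union_left _ (Finset.mem_union_left _ hc))
  have huG : ∀ j, ∀ c ∈ C, T.gen.u j * c ∈ FinL G := fun j c hc =>
    mem_finL (Finset.mem_union_left _ (Finset.mem_union_right _
      (Finset.mem_image.2 ⟨(j, c), by simp [hc], rfl⟩)))
  have hvG : ∀ j, ∀ c ∈ C, T.gen.v j * c ∈ FinL G := fun j c hc =>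
    mem_finL (Finset.mem_union_right _
      (Finset.mem_image.2 ⟨(j, c), by simp [hc], rfl⟩))
  have hG : ∀ g ∈ G, g ∈ C ∨ (∃ j, ∃ c ∈ C, T.gen.u j * c = g) ∨ (∃ j, ∃ c ∈ C, T.gen.v j * c = g) := by
    intro g hg
    simp only [G, Finset.mem_union, Finset.mem_image, Finset.mem_product, Finset.mem_univ,
      true_and, Prod.exists] at hg
    rcases hg with (h | ⟨j, c, hc, rfl⟩) | ⟨j, c, hc, rfl⟩
    · exact Or.inl h
    · exact Or.inr (Or.inl ⟨j, c, hc, rfl⟩)
    · exact Or.inr (Or.inr ⟨j, c, hc, rfl⟩)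
  have hab : ∀ g ∈ G, FinAb g := by
    intro g hg
    rcases hG g hg with h | ⟨j, c, hc, rfl⟩ | ⟨j, c, hc, rfl⟩
    · exact hCab g h
    · exact finAb_u (hCab c hc) j
    · exact finAb_v (hCab c hc) j
  obtain ⟨hz, hu, hv, he⟩ := finL_stable (G := G)
    (by
      intro g hg
      rcases hG g hg with h | ⟨j, c, hc, rfl⟩ | ⟨j, c, hc, rfl⟩
      · rcases hCz g h with h0 | h0
        · rw [h0]; simp
        · exact hCG _ h0
      · rw [← mul_assoc, fin_zu, sub_mul, sub_mul, add_mul, mul_assoc, Finset.sum_mul, Finset.sum_mul]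
        refine sub_mem (sub_mem (add_mem ?_ (sum_mem fun k _ => ?_)) (sum_mem fun k _ => ?_)) (hvG _ _ hc)
        · rcases hCz c hc with h0 | h0
          · rw [h0]; simp
          · exact huG _ _ h0
        · rw [mul_assoc]; exact finL_x _ _ _ _ (huG _ _ hc)
        · rw [mul_assoc]; exact finL_x _ _ _ _ (huG _ _ hc)
      · rw [← mul_assoc, fin_zv, sub_mul, add_mul, neg_mul, mul_assoc, Finset.sum_mul, Finset.sum_mul]
        refine sub_mem (add_mem (neg_mem ?_) (sum_mem fun k _ => ?_)) (sum_mem fun k _ => ?_)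
        · rcases hCz c hc with h0 | h0
          · rw [h0]; simp
          · exact hvG _ _ h0
        · rw [mul_assoc]; exact finL_x _ _ _ _ (hvG _ _ hc)
        · rw [mul_assoc]; exact finL_x _ _ _ _ (hvG _ _ hc))
    (by
      intro i g hg
      rcases hG g hg with h | ⟨j, c, hc, rfl⟩ | ⟨j, c, hc, rfl⟩
      · exact huG _ _ h
      · rw [← mul_assoc, T.gen.uu]; simp
      · rw [← mul_assoc, T.gen.uv]; simp)
    (by
      intro i g hg
      rcases hG g hg with h | ⟨j, c, hc, rfl⟩ | ⟨j, c, hc, rfl⟩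
      · exact hvG _ _ h
      · rw [← mul_assoc, T.gen.vu]; simp
      · rw [← mul_assoc, T.gen.vv]; simp)
    (by
      intro i g hg
      rcases hab g hg i with h | h
      · rw [h]; simp
      · rw [h]; exact mem_finL hg)
  have h1 : (1 : T) ∈ FinL G := by
    rw [← T.gen.e_sum]
    exact sum_mem fun b _ => hCG _ (hAC b)
  have htop : FinL G = ⊤ := by
    rw [eq_top_iff]
    intro t _
    have := fin_mem_all hz hu hv he h1 t
    simpa using this
  have := finL_fd G
  rw [htop] at this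
  exact Module.finite_def.2 (Module.Finite.iff_fg.1 this)

/-- the left ideal `T e_0` -/
noncomputable abbrev Te0 : Submodule T T := Submodule.span T {T.gen.e 0}

theorem finrank_Te0 : Module.finrank ℂ Te0 ≤ 96 := by
  classical
  let C : Finset T := {T.gen.e 0, T.gen.z * T.gen.e 0}
  let G : Finset T := {T.gen.e 0, T.gen.z * T.gen.e 0, T.gen.v 0 * T.gen.e 0,
    T.gen.v 1 * T.gen.e 0, T.gen.v 0 * (T.gen.z * T.gen.e 0), T.gen.v 1 * (T.gen.z * T.gen.e 0)}
  have hGcard : G.card ≤ 6 := Finset.card_le_six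
  have hCab : ∀ c ∈ C, FinAb c := by
    intro c hc
    simp only [C, Finset.mem_insert, Finset.mem_singleton] at hc
    rcases hc with rfl | rfl
    · exact fun i => fin_ee i 0
    · exact fun i => fin_ez i 0
  have hCz : ∀ c ∈ C, T.gen.z * c = 0 ∨ T.gen.z * c ∈ C := by
    intro c hc
    simp only [C, Finset.mem_insert, Finset.mem_singleton] at hc
    rcases hc with rfl | rfl
    · right; simp [C]
    · left; rw [← mul_assoc, T.gen.zz, zero_mul]
  have hCG : ∀ c ∈ C, c ∈ FinL G := by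
    intro c hc
    apply mem_finL
    simp only [C, Finset.mem_insert, Finset.mem_singleton] at hc
    rcases hc with rfl | rfl <;> simp [G]
  have hvG : ∀ j, ∀ c ∈ C, T.gen.v j * c ∈ FinL G := by
    intro j c hc
    apply mem_finL
    simp only [C, Finset.mem_insert, Finset.mem_singleton] at hc
    rcases hc with rfl | rfl <;> fin_cases j <;> simp [G]
  have huC : ∀ j, ∀ c ∈ C, T.gen.u j * c ∈ FinL G := by
    intro j c hc
    simp only [C, Finset.mem_insert, Finset.mem_singleton] at hc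
    rcases hc with rfl | rfl
    · rw [T.gen.u_e0]; simp
    · have h1 : T.gen.u j * (T.gen.z * T.gen.e 0) = T.gen.v j * T.gen.e 0 := by
        have h2 := fin_zu j
        have h3 : T.gen.u j * T.gen.z = T.gen.z * T.gen.u j - ∑ k, T.gen.x k j * T.gen.u k
            + ∑ k, T.gen.x k k * T.gen.u j + T.gen.v j := by rw [h2]; abel
        rw [← mul_assoc, h3, add_mul, add_mul, sub_mul, Finset.sum_mul, Finset.sum_mul, mul_assoc,
          T.gen.u_e0]
        simp [mul_assoc, T.gen.u_e0]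
      rw [h1]
      exact hvG j _ (by simp [C])
  have hG : ∀ g ∈ G, g ∈ C ∨ (∃ j, ∃ c ∈ C, T.gen.v j * c = g) := by
    intro g hg
    simp only [G, Finset.mem_insert, Finset.mem_singleton] at hg
    rcases hg with rfl | rfl | rfl | rfl | rfl | rfl
    · left; simp [C]
    · left; simp [C]
    · right; exact ⟨0, _, by simp [C], rfl⟩
    · right; exact ⟨1, _, by simp [C], rfl⟩
    · right; exact ⟨0, T.gen.z * T.gen.e 0, by simp [C], rfl⟩
    · right; exact ⟨1, T.gen.z * T.gen.e 0, by simp [C], rfl⟩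
  have hab : ∀ g ∈ G, FinAb g := by
    intro g hg
    rcases hG g hg with h | ⟨j, c, hc, rfl⟩
    · exact hCab g h
    · exact finAb_v (hCab c hc) j
  obtain ⟨hz, hu, hv, he⟩ := finL_stable (G := G)
    (by
      intro g hg
      rcases hG g hg with h | ⟨j, c, hc, rfl⟩
      · rcases hCz g h with h0 | h0
        · rw [h0]; simp
        · exact hCG _ h0
      · rw [← mul_assoc, fin_zv, sub_mul, add_mul, neg_mul, mul_assoc, Finset.sum_mul, Finset.sum_mul]
        refine sub_mem (add_mem (neg_mem ?_) (sum_mem fun k _ => ?_)) (sum_mem fun k _ => ?_)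
        · rcases hCz c hc with h0 | h0
          · rw [h0]; simp
          · exact hvG _ _ h0
        · rw [mul_assoc]; exact finL_x _ _ _ _ (hvG _ _ hc)
        · rw [mul_assoc]; exact finL_x _ _ _ _ (hvG _ _ hc))
    (by
      intro i g hg
      rcases hG g hg with h | ⟨j, c, hc, rfl⟩
      · exact huC _ _ h
      · rw [← mul_assoc, T.gen.uv]; simp)
    (by
      intro i g hg
      rcases hG g hg with h | ⟨j, c, hc, rfl⟩
      · exact hvG _ _ h
      · rw [← mul_assoc, T.gen.vv]; simp)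
    (by
      intro i g hg
      rcases hab g hg i with h | h
      · rw [h]; simp
      · rw [h]; exact mem_finL hg)
  have h1 : T.gen.e 0 ∈ FinL G := hCG _ (by simp [C])
  have hle : ∀ t ∈ Te0, t ∈ FinL G := by
    intro t ht
    obtain ⟨a, rfl⟩ := Submodule.mem_span_singleton.1 ht
    exact fin_mem_all hz hu hv he h1 a
  let φ : Te0 →ₗ[ℂ] FinL G :=
    { toFun := fun t => ⟨t.1, hle t.1 t.2⟩
      map_add' := fun a b => rfl
      map_smul' := fun a b => rfl }
  have hφ : Function.Injective φ := by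
    intro a b hab
    have : (φ a).1 = (φ b).1 := by rw [hab]
    exact Subtype.ext this
  calc Module.finrank ℂ Te0 ≤ Module.finrank ℂ (FinL G) :=
        LinearMap.finrank_le_finrank_of_injective hφ
    _ ≤ 16 * G.card := finL_finrank G
    _ ≤ 96 := by omega

end Crest.Agent.S0268
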