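import Crest.Agent.S0268_Ops

set_option autoImplicit false

/-!
# S0268 (task T2) : the Fock space `ℂ^16`, and `T`-modules `F ⊗ W`

`Fin 16` = bit masks; bit `2*k+l` is the generator `(k,l)`.
Basis vector `S` ↔ product of the generators of `S` in increasing order.
-/

namespace Crest.Agent.S0268

open scoped TensorProduct

/-- the Fock space -/
abbrev Fk : Type := Fin 16 → ℂ

/-- number of bits of `S` below `i` -/
def cntLow (S i : ℕ) : ℕ := ((List.range i).filter fun j => S.testBit j).length

/-- matrix of left multiplication by the generator number `i` -/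
def mX (i : ℕ) : Matrix (Fin 16) (Fin 16) ℤ := fun r s =>
  if s.val.testBit i = false ∧ r.val = s.val + 2 ^ i then (-1) ^ cntLow s.val i else 0
/-- matrix of the contraction with the generator number `i` -/
def mI (i : ℕ) : Matrix (Fin 16) (Fin 16) ℤ := fun r s =>
  if s.val.testBit i = true ∧ r.val + 2 ^ i = s.val then (-1) ^ cntLow s.val i else 0
/-- parity -/
def mP : Matrix (Fin 16) (Fin 16) ℤ := fun r s => if r = s then (-1) ^ cntLow s.val 4 else 0
/-- degree projections -/
def mπ (b : ℕ) : Matrix (Fin 16) (Fin 16) ℤ := fun r s =>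
  if r = s ∧ cntLow s.val 4 = b then 1 else 0

/-- generator number of `(k,l)` -/
def gn (k l : Fin 2) : ℕ := 2 * k.val + l.val

/-- `d = -∑ X_km X_mq I_kq` -/
def md : Matrix (Fin 16) (Fin 16) ℤ :=
  -∑ k : Fin 2, ∑ m : Fin 2, ∑ q : Fin 2, mX (gn k m) * mX (gn m q) * mI (gn k q)

/-! ### sparse operators: a matrix given by its columns, as lists of entries -/

abbrev Op : Type := Fin 16 → List (Fin 16 × ℤ)

def ev (L : List (Fin 16 × ℤ)) (r : Fin 16) : ℤ := (L.map fun p => if p.1 = r then p.2 else 0).sum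

def toMat (A : Op) : Matrix (Fin 16) (Fin 16) ℤ := fun r s => ev (A s) r

def cmp (A B : Op) : Op := fun s => (B s).flatMap fun p => (A p.1).map fun q => (q.1, q.2 * p.2)

def ad (A B : Op) : Op := fun s => A s ++ B s

def ng (A : Op) : Op := fun s => (A s).map fun p => (p.1, -p.2)

def zr : Op := fun _ => []

def on : Op := fun s => [(s, 1)]

theorem ev_nil (r : Fin 16) : ev [] r = 0 := rfl

theorem ev_cons (p : Fin 16 × ℤ) (L : List (Fin 16 × ℤ)) (r : Fin 16) :
    ev (p :: L) r = (if p.1 = r then p.2 else 0) + ev L r := by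
  simp [ev]

theorem ev_append (L L' : List (Fin 16 × ℤ)) (r : Fin 16) : ev (L ++ L') r = ev L r + ev L' r := by
  simp [ev]

theorem ev_smul (L : List (Fin 16 × ℤ)) (c : ℤ) (r : Fin 16) :
    ev (L.map fun q => (q.1, q.2 * c)) r = ev L r * c := by
  induction L with
  | nil => simp [ev_nil]
  | cons p L ih =>
    rw [List.map_cons, ev_cons, ev_cons, ih, add_mul]
    congr 1
    split_ifs <;> simp

theorem ev_neg (L : List (Fin 16 × ℤ)) (r : Fin 16) :
    ev (L.map fun q => (q.1, -q.2)) r = -ev L r := by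
  induction L with
  | nil => simp [ev_nil]
  | cons p L ih =>
    rw [List.map_cons, ev_cons, ev_cons, ih, neg_add]
    congr 1
    split_ifs <;> simp

theorem toMat_cmp (A B : Op) : toMat A * toMat B = toMat (cmp A B) := by
  ext r s
  rw [Matrix.mul_apply]
  change ∑ j, ev (A j) r * ev (B s) j = ev ((B s).flatMap fun p => (A p.1).map fun q =>
    (q.1, q.2 * p.2)) r
  induction B s with
  | nil => simp [ev_nil]
  | cons p L ih =>
    rw [List.flatMap_cons, ev_append, ev_smul, ← ih]
    simp only [ev_cons, mul_add, Finset.sum_add_distrib]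
    congr 1
    simp

theorem toMat_ad (A B : Op) : toMat A + toMat B = toMat (ad A B) := by
  ext r s
  exact (ev_append _ _ _).symm

theorem toMat_ng (A : Op) : -toMat A = toMat (ng A) := by
  ext r s
  exact (ev_neg _ _).symm

theorem toMat_sub (A B : Op) : toMat A - toMat B = toMat (ad A (ng B)) := by
  rw [sub_eq_add_neg, toMat_ng, toMat_ad]

theorem toMat_zr : (0 : Matrix (Fin 16) (Fin 16) ℤ) = toMat zr := by
  ext r s
  rfl

theorem toMat_on : (1 : Matrix (Fin 16) (Fin 16) ℤ) = toMat on := by
  ext r s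
  rw [Matrix.one_apply]
  simp [toMat, on, ev, eq_comm]

theorem toMat_ext {A B : Op} (h : ∀ s r, ev (A s) r = ev (B s) r) : toMat A = toMat B := by
  ext r s
  exact h s r

def oX (i : ℕ) : Op := fun s =>
  if s.val.testBit i = false then
    (if h : s.val + 2 ^ i < 16 then [(⟨s.val + 2 ^ i, h⟩, (-1) ^ cntLow s.val i)] else []) else []

def oI (i : ℕ) : Op := fun s =>
  if s.val.testBit i = true then
    (if 2 ^ i ≤ s.val then
      [(⟨s.val - 2 ^ i, lt_of_le_of_lt (Nat.sub_le _ _) s.2⟩, (-1) ^ cntLow s.val i)] else []) else []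

def oP : Op := fun s => [(s, (-1) ^ cntLow s.val 4)]

def oπ (b : ℕ) : Op := fun s => if cntLow s.val 4 = b then [(s, 1)] else []

theorem mX_eq (i : ℕ) : mX i = toMat (oX i) := by
  ext r s
  unfold mX toMat oX
  by_cases h1 : s.val.testBit i = false
  · by_cases h2 : s.val + 2 ^ i < 16
    · by_cases h3 : r.val = s.val + 2 ^ i
      · have : (⟨s.val + 2 ^ i, h2⟩ : Fin 16) = r := Fin.ext h3.symm
        simp [h1, h2, ev, this, h3]
      · have : (⟨s.val + 2 ^ i, h2⟩ : Fin 16) ≠ r := fun h => h3 (by rw [← h])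
        simp [h1, h2, ev, this, h3]
    · have h3 : r.val ≠ s.val + 2 ^ i := fun h => h2 (h ▸ r.2)
      simp [h1, h2, ev, h3]
  · simp [h1, ev]

theorem mI_eq (i : ℕ) : mI i = toMat (oI i) := by
  ext r s
  unfold mI toMat oI
  by_cases h1 : s.val.testBit i = true
  · by_cases h2 : 2 ^ i ≤ s.val
    · by_cases h3 : r.val + 2 ^ i = s.val
      · have : (⟨s.val - 2 ^ i, lt_of_le_of_lt (Nat.sub_le _ _) s.2⟩ : Fin 16) = r :=
          Fin.ext (by simp only; omega)
        simp [h1, h2, ev, this, h3]
      · have : (⟨s.val - 2 ^ i, lt_of_le_of_lt (Nat.sub_le _ _) s.2⟩ : Fin 16) ≠ r :=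
          fun h => h3 (by rw [← h]; simp only; omega)
        simp [h1, h2, ev, this, h3]
    · have h3 : r.val + 2 ^ i ≠ s.val := fun h => h2 (by omega)
      simp [h1, h2, ev, h3]
  · simp [h1, ev]

theorem mP_eq : mP = toMat oP := by
  ext r s
  unfold mP toMat oP
  by_cases h : r = s
  · simp [h, ev]
  · have : ¬ s = r := fun h' => h h'.symm
    simp [h, ev, this]

theorem mπ_eq (b : ℕ) : mπ b = toMat (oπ b) := by
  ext r s
  unfold mπ toMat oπ
  by_cases h1 : cntLow s.val 4 = b
  · by_cases h : r = s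
    · simp [h, ev, h1]
    · have : ¬ s = r := fun h' => h h'.symm
      simp [h, ev, this, h1]
  · simp [h1, ev]

def oXXI (k m q : Fin 2) : Op := cmp (cmp (oX (gn k m)) (oX (gn m q))) (oI (gn k q))

def od0 : Op := ng (ad (ad (ad (oXXI 0 0 0) (oXXI 0 0 1)) (ad (oXXI 0 1 0) (oXXI 0 1 1)))
  (ad (ad (oXXI 1 0 0) (oXXI 1 0 1)) (ad (oXXI 1 1 0) (oXXI 1 1 1))))

theorem md_eq0 : md = toMat od0 := by
  unfold md od0 oXXI
  simp only [Fin.sum_univ_two, mX_eq, mI_eq, toMat_cmp, toMat_ad, toMat_ng]

def od : Op := ![[],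
  [(6, -1)],
  [(3, -1), (10, -1)],
  [(11, 1)],
  [(5, 1), (12, 1)],
  [(13, -1)],
  [],
  [],
  [(6, 1)],
  [(7, -1), (14, -1)],
  [(11, -1)],
  [],
  [(13, 1)],
  [],
  [],
  []]

theorem md_eq : md = toMat od := by
  rw [md_eq0]
  apply toMat_ext; decide +kernel


/-- Fock operators as integer matrices -/
def FZ : FOps (Matrix (Fin 16) (Fin 16) ℤ) where
  X k l := mX (gn k l)
  I k l := mI (gn k l)
  P := mP
  d := md
  π b := mπ b.val
  XX k l p q := by
    simp only [mX_eq, toMat_cmp, toMat_ad, toMat_zr]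
    apply toMat_ext; revert k l p q; decide +kernel
  II k l p q := by
    simp only [mI_eq, toMat_cmp, toMat_ad, toMat_zr]
    apply toMat_ext; revert k l p q; decide +kernel
  XI k l p q := by
    have h : (if k = p ∧ l = q then (1 : Matrix (Fin 16) (Fin 16) ℤ) else 0) =
      toMat (if k = p ∧ l = q then on else zr) := by
      split_ifs
      · exact toMat_on
      · exact toMat_zr
    rw [h]
    simp only [mX_eq, mI_eq, toMat_cmp, toMat_ad]
    apply toMat_ext; revert k l p q; decide +kernel
  PP := by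
    simp only [mP_eq, toMat_cmp, toMat_on]
    apply toMat_ext; decide +kernel
  PX k l := by
    simp only [mP_eq, mX_eq, toMat_cmp, toMat_ng]
    apply toMat_ext; revert k l; decide +kernel
  PI k l := by
    simp only [mP_eq, mI_eq, toMat_cmp, toMat_ng]
    apply toMat_ext; revert k l; decide +kernel
  Pd := by
    simp only [mP_eq, md_eq, toMat_cmp, toMat_ng]
    apply toMat_ext; decide +kernel
  dd := by
    simp only [md_eq, toMat_cmp, toMat_zr]
    apply toMat_ext; decide +kernel
  dX k l := by
    simp only [Fin.sum_univ_two, md_eq, mX_eq, toMat_cmp, toMat_ad, toMat_ng]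
    apply toMat_ext; revert k l; decide +kernel
  dI k l := by
    simp only [Fin.sum_univ_two, md_eq, mX_eq, mI_eq, toMat_cmp, toMat_ad, toMat_sub]
    apply toMat_ext; revert k l; decide +kernel
  π_mul i j := by
    have h : (if i = j then mπ i.val else 0) = toMat (if i = j then oπ i.val else zr) := by
      split_ifs
      · exact mπ_eq _
      · exact toMat_zr
    rw [h]
    simp only [mπ_eq, toMat_cmp]
    apply toMat_ext; revert i j; decide +kernel
  π_sum := by
    simp only [Fin.sum_univ_five, mπ_eq, toMat_ad, toMat_on]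
    apply toMat_ext; decide +kernel
  Xπ k l i := by
    simp only [mπ_eq, mX_eq, toMat_cmp]
    apply toMat_ext; revert k l i; decide +kernel
  Xπ4 k l := by
    simp only [mπ_eq, mX_eq, toMat_cmp, toMat_zr]
    apply toMat_ext; revert k l; decide +kernel
  πX0 k l := by
    simp only [mπ_eq, mX_eq, toMat_cmp, toMat_zr]
    apply toMat_ext; revert k l; decide +kernel
  dπ i := by
    simp only [mπ_eq, md_eq, toMat_cmp]
    apply toMat_ext; revert i; decide +kernel
  dπ4 := by
    simp only [mπ_eq, md_eq, toMat_cmp, toMat_zr]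
    apply toMat_ext; decide +kernel
  πd0 := by
    simp only [mπ_eq, md_eq, toMat_cmp, toMat_zr]
    apply toMat_ext; decide +kernel
  Iπ k l i := by
    simp only [mπ_eq, mI_eq, toMat_cmp]
    apply toMat_ext; revert k l i; decide +kernel
  Iπ0 k l := by
    simp only [mπ_eq, mI_eq, toMat_cmp, toMat_zr]
    apply toMat_ext; revert k l; decide +kernel
  πI4 k l := by
    simp only [mπ_eq, mI_eq, toMat_cmp, toMat_zr]
    apply toMat_ext; revert k l; decide +kernel
  Pπ i := by
    simp only [mπ_eq, mP_eq, toMat_cmp]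
    apply toMat_ext; revert i; decide +kernel

/-- ring hom from integer matrices to endomorphisms of the Fock space -/
noncomputable def matHom : Matrix (Fin 16) (Fin 16) ℤ →+* Module.End ℂ Fk :=
  (Matrix.toLinAlgEquiv' (R := ℂ) (n := Fin 16)).toRingEquiv.toRingHom.comp
    (Int.castRingHom ℂ).mapMatrix

/-- Fock operators on the Fock space -/
noncomputable def FC : FOps (Module.End ℂ Fk) := FZ.map matHom

/-- the vacuum vector -/
noncomputable def vac : Fk := Pi.single 0 1

end Crest.Agent.S0268
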