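import Crest.Agent.S0268_Ops

set_option autoImplicit false

/-!
# S0268 (task T5) : `gl_2`-modules, `U ⊗ V`, and the maps `η`, `ε_j`

Prove the four lemmas `UE_EE`, `UE_eta`, `UE_eps`, `eta_eps` by evaluating at `f` and `i : Fin 2`
(`ext f i` or `LinearMap.ext fun f => funext fun i => ..`), `fin_cases` on the indices and the
relation `ρ.EE` evaluated at vectors.
-/

namespace Crest.Agent.S0268

/-- a `gl_2`-module -/
structure GLMod (V : Type) [AddCommGroup V] [Module ℂ V] where
  E : Fin 2 → Fin 2 → Module.End ℂ V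
  EE : ∀ k l p q, E k l * E p q - E p q * E k l =
    (if l = p then E k q else 0) - (if q = k then E p l else 0)

section V
variable {V V' : Type} [AddCommGroup V] [Module ℂ V] [AddCommGroup V'] [Module ℂ V']

/-- the action on `U ⊗ V = (Fin 2 → V)`, `U = ℂ^2 ⊗ det^{-1}` :
`(E_kl f)_i = E_kl f_i + δ_ki f_l - δ_kl f_i` -/
noncomputable def GLMod.UE (ρ : GLMod V) (k l : Fin 2) : Module.End ℂ (Fin 2 → V) where
  toFun f i := ρ.E k l (f i) + (if k = i then f l else 0) - (if k = l then f i else 0)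
  map_add' f g := by
    funext i
    simp only [Pi.add_apply, map_add]
    split_ifs <;> abel
  map_smul' c f := by
    funext i
    simp only [Pi.smul_apply, map_smul, RingHom.id_apply]
    split_ifs <;> simp [smul_add, smul_sub]

/-- `η(f)_l = f_l + ∑ i, E_il f_i` -/
noncomputable def GLMod.eta (ρ : GLMod V) : Module.End ℂ (Fin 2 → V) where
  toFun f l := f l + ∑ i, ρ.E i l (f i)
  map_add' f g := by
    funext i; simp [Fin.sum_univ_two]; abel
  map_smul' c f := by
    funext i; simp [Fin.sum_univ_two, smul_add]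

/-- `v ↦ ε_j ⊗ v` -/
noncomputable def eps (V : Type) [AddCommGroup V] [Module ℂ V] (j : Fin 2) :
    V →ₗ[ℂ] (Fin 2 → V) := LinearMap.single ℂ (fun _ => V) j

theorem eps_apply (j : Fin 2) (v : V) (i : Fin 2) : eps V j v i = if i = j then v else 0 := by
  simp [eps, Pi.single_apply]

theorem GLMod.UE_apply (ρ : GLMod V) (k l : Fin 2) (f : Fin 2 → V) (i : Fin 2) :
    ρ.UE k l f i =
      ρ.E k l (f i) + (if k = i then f l else 0) - (if k = l then f i else 0) := rfl

theorem GLMod.eta_apply (ρ : GLMod V) (f : Fin 2 → V) (l : Fin 2) :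
    ρ.eta f l = f l + (ρ.E 0 l (f 0) + ρ.E 1 l (f 1)) := by
  simp [GLMod.eta, Fin.sum_univ_two]

theorem GLMod.EE_apply (ρ : GLMod V) (k l p q : Fin 2) (v : V) :
    ρ.E k l (ρ.E p q v) = ρ.E p q (ρ.E k l v) +
    (if l = p then ρ.E k q v else 0) - (if q = k then ρ.E p l v else 0) := by
  have h := LinearMap.congr_fun (ρ.EE k l p q) v
  rw [LinearMap.sub_apply, Module.End.mul_apply, Module.End.mul_apply, sub_eq_iff_eq_add] at h
  rw [h]
  split_ifs <;> simp <;> abel

theorem GLMod.UE_EE (ρ : GLMod V) (k l p q : Fin 2) :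
    ρ.UE k l * ρ.UE p q - ρ.UE p q * ρ.UE k l =
    (if l = p then ρ.UE k q else 0) - (if q = k then ρ.UE p l else 0) := by
  refine LinearMap.ext fun f => funext fun i => ?_
  have h := ρ.EE_apply k l p q (f i)
  have e1 : ((if l = p then ρ.UE k q else 0) - (if q = k then ρ.UE p l else 0) :
      Module.End ℂ (Fin 2 → V)) f i =
      (if l = p then ρ.UE k q f i else 0) - (if q = k then ρ.UE p l f i else 0) := by
    split_ifs <;> simp
  rw [e1, LinearMap.sub_apply, Pi.sub_apply, Module.End.mul_apply, Module.End.mul_apply]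
  simp only [GLMod.UE_apply, map_add, map_sub]
  rw [h]
  fin_cases k <;> fin_cases l <;> fin_cases p <;> fin_cases q <;> fin_cases i <;>
    simp <;> abel

theorem GLMod.UE_eta (ρ : GLMod V) (k l : Fin 2) (f : Fin 2 → V) :
    ρ.UE k l (ρ.eta f) = ρ.eta (ρ.UE k l f) := by
  refine funext fun i => ?_
  simp only [GLMod.UE_apply, GLMod.eta_apply, map_add, map_sub]
  rw [ρ.EE_apply k l 0 i (f 0), ρ.EE_apply k l 1 i (f 1)]
  fin_cases k <;> fin_cases l <;> fin_cases i <;> simp <;> abel

theorem GLMod.UE_eps (ρ : GLMod V) (k l j : Fin 2) (v : V) :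
    ρ.UE k l (eps V j v) = eps V j (ρ.E k l v) + (if l = j then eps V k v else 0)
      - (if k = l then eps V j v else 0) := by
  refine funext fun i => ?_
  fin_cases k <;> fin_cases l <;> fin_cases j <;> fin_cases i <;>
    simp [GLMod.UE, eps_apply]

theorem GLMod.eta_eps (ρ : GLMod V) (j : Fin 2) (v : V) :
    ρ.eta (eps V j v) = eps V j v + ∑ l, eps V l (ρ.E j l v) := by
  refine funext fun i => ?_
  fin_cases j <;> fin_cases i <;>
    simp [GLMod.eta, eps_apply, Fin.sum_univ_two]

/-- the data relating `V' = V_{n-1}` and `V = V_n`: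
`0 → V' → U⊗V → U⊗V → V' → 0` (maps `s`, `η`, `p`) is exact and equivariant. -/
structure Pair (V V' : Type) [AddCommGroup V] [Module ℂ V] [AddCommGroup V'] [Module ℂ V'] where
  ρ : GLMod V
  ρ' : GLMod V'
  s : V' →ₗ[ℂ] (Fin 2 → V)
  p : (Fin 2 → V) →ₗ[ℂ] V'
  s_E : ∀ k l v, s (ρ'.E k l v) = ρ.UE k l (s v)
  p_E : ∀ k l f, p (ρ.UE k l f) = ρ'.E k l (p f)
  s_inj : Function.Injective s
  ex1 : Function.Exact s ρ.eta
  ex2 : Function.Exact ρ.eta p
  p_surj : Function.Surjective p

/-! ### the `S`-modules -/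

/-- `V` in degree `0` -/
noncomputable def S0 (ρ : GLMod V) : SOps (Module.End ℂ V) where
  E := ρ.E
  D := 0
  a _ := 0
  c _ := 0
  p0 := 1
  p1 := 0
  EE := ρ.EE
  ED := by simp
  DD := by simp
  Ea := by intros; simp
  Ec := by intros; simp
  aD := by simp
  cD := by simp
  aa := by simp
  ac := by simp
  ca := by simp
  cc := by simp
  p00 := by simp
  p11 := by simp
  p01 := by simp
  p10 := by simp
  psum := by simp
  Ep0 := by simp
  Ep1 := by simp
  Dp0 := by simp
  Dp1 := by simp
  p0D := by simp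
  ap1 := by simp
  ap0 := by simp
  p1a := by simp
  cp0 := by simp
  cp1 := by simp

/-- `V` in degree `1` -/
noncomputable def S1 (ρ : GLMod V) : SOps (Module.End ℂ V) where
  E := ρ.E
  D := 0
  a _ := 0
  c _ := 0
  p0 := 0
  p1 := 1
  EE := ρ.EE
  ED := by simp
  DD := by simp
  Ea := by intros; simp
  Ec := by intros; simp
  aD := by simp
  cD := by simp
  aa := by simp
  ac := by simp
  ca := by simp
  cc := by simp
  p00 := by simp
  p11 := by simp
  p01 := by simp
  p10 := by simp
  psum := by simp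
  Ep0 := by simp
  Ep1 := by simp
  Dp0 := by simp
  Dp1 := by simp
  p0D := by simp
  ap1 := by simp
  ap0 := by simp
  p1a := by simp
  cp0 := by simp
  cp1 := by simp

end V

end Crest.Agent.S0268
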