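import Crest.Agent.S0268_Mods

set_option autoImplicit false

/-!
# S0268 (task T3) : the explicit induction functor `Ind` from `B`-modules with `e 0 = 0`
to `T`-modules.

`Ind Y = Y ⊕ u_0 Y ⊕ u_1 Y ⊕ v_0 Y ⊕ v_1 Y`.

Task T3: verify the relations below on triples `(y, y_j, z_j)`.
Method: `refine LinearMap.ext fun t => Prod.ext ?_ (Prod.ext ?_ ?_)`, `funext j` and use the
relations of `O` evaluated at vectors, e.g. `have := congrArg (fun f => f y) (O.zx k l)`.
`fin_cases j` and expansion with `Fin.sum_univ_two` is fine.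
(`indE O b` : `(e b y, e (b+1) y_j, e b z_j)` with `e 6 = 0`; from the relations,
`e 0 * x = 0`, `e 0 * z = 0` — multiply `1 = ∑ e i` on the right, use `x_e`, `x_e5` and
orthogonality.)
-/

namespace Crest.Agent.S0268

/-- carrier of `Ind Y`: `(y, (y_j), (z_j)) = y + ∑ u_j y_j + ∑ v_j z_j` -/
abbrev IndC (Y : Type) : Type := Y × (Fin 2 → Y) × (Fin 2 → Y)

section ops
variable {Y : Type} [AddCommGroup Y] [Module ℂ Y]

/-- `e b (y, y_j, z_j) = (e b y, e (b+1) y_j, e b z_j)` with `e 6 = 0` -/
noncomputable def indE (O : BOps (Module.End ℂ Y)) (b : Fin 6) : Module.End ℂ (IndC Y) where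
  toFun t := (O.e b t.1, fun j => if h : b.val + 1 < 6 then O.e ⟨b.val + 1, h⟩ (t.2.1 j) else 0,
    fun j => O.e b (t.2.2 j))
  map_add' s t := by
    refine Prod.ext (by simp) (Prod.ext ?_ (by funext j; simp))
    funext j
    by_cases h : b.val + 1 < 6 <;> simp [h]
  map_smul' c t := by
    refine Prod.ext (by simp) (Prod.ext ?_ (by funext j; simp))
    funext j
    by_cases h : b.val + 1 < 6 <;> simp [h]

/-- `ξ_kl (y, y_j, z_j) = (ξ y, ξ_kl y_j, -ξ_kl z_j + δ_jl y_k)` -/
noncomputable def indX (O : BOps (Module.End ℂ Y)) (k l : Fin 2) : Module.End ℂ (IndC Y) where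
  toFun t := (O.x k l t.1, fun j => O.x k l (t.2.1 j),
    fun j => -(O.x k l (t.2.2 j)) + if j = l then t.2.1 k else 0)
  map_add' s t := by
    refine Prod.ext (by simp) (Prod.ext (by funext j; simp) ?_)
    funext j
    by_cases h : j = l <;> simp [h] <;> abel
  map_smul' c t := by
    refine Prod.ext (by simp) (Prod.ext ?_ ?_) <;> funext j <;> simp

/-- `ζ (y, y_j, z_j) = (ζ y, ζ y_j + ∑ ξ_ji y_i - τ y_j, -ζ z_j - ∑ ξ_ji z_i + τ z_j)` -/
noncomputable def indZ (O : BOps (Module.End ℂ Y)) : Module.End ℂ (IndC Y) where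
  toFun t := (O.z t.1,
    fun j => O.z (t.2.1 j) + ∑ i, O.x j i (t.2.1 i) - ∑ i, O.x i i (t.2.1 j),
    fun j => -(O.z (t.2.2 j)) - ∑ i, O.x j i (t.2.2 i) + ∑ i, O.x i i (t.2.2 j))
  map_add' s t := by
    refine Prod.ext (by simp) (Prod.ext ?_ ?_) <;> funext j <;>
      simp [Fin.sum_univ_two] <;> abel
  map_smul' c t := by
    refine Prod.ext (by simp) (Prod.ext ?_ ?_) <;> funext j <;>
      simp [Fin.sum_univ_two, smul_add, smul_sub]

/-- `u_i (y, y_j, z_j) = (0, δ_ij y, 0)` -/
noncomputable def indU (i : Fin 2) : Module.End ℂ (IndC Y) where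
  toFun t := (0, fun j => if j = i then t.1 else 0, 0)
  map_add' s t := by
    refine Prod.ext (by simp) (Prod.ext ?_ (by simp))
    funext j; simp; split_ifs <;> simp
  map_smul' c t := by
    refine Prod.ext (by simp) (Prod.ext ?_ (by simp))
    funext j; simp

/-- `v_i (y, y_j, z_j) = (0, 0, δ_ij y)` -/
noncomputable def indV (i : Fin 2) : Module.End ℂ (IndC Y) where
  toFun t := (0, 0, fun j => if j = i then t.1 else 0)
  map_add' s t := by
    refine Prod.ext (by simp) (Prod.ext (by simp) ?_)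
    funext j; simp; split_ifs <;> simp
  map_smul' c t := by
    refine Prod.ext (by simp) (Prod.ext (by simp) ?_)
    funext j; simp

/-! ### evaluation of the operators -/

theorem indE_apply (O : BOps (Module.End ℂ Y)) (b : Fin 6) (t : IndC Y) :
    indE O b t = (O.e b t.1,
      fun j => if h : b.val + 1 < 6 then O.e ⟨b.val + 1, h⟩ (t.2.1 j) else 0,
      fun j => O.e b (t.2.2 j)) := rfl

theorem indX_apply (O : BOps (Module.End ℂ Y)) (k l : Fin 2) (t : IndC Y) :
    indX O k l t = (O.x k l t.1, fun j => O.x k l (t.2.1 j),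
      fun j => -(O.x k l (t.2.2 j)) + if j = l then t.2.1 k else 0) := rfl

theorem indZ_apply (O : BOps (Module.End ℂ Y)) (t : IndC Y) :
    indZ O t = (O.z t.1,
      fun j => O.z (t.2.1 j) + ∑ i, O.x j i (t.2.1 i) - ∑ i, O.x i i (t.2.1 j),
      fun j => -(O.z (t.2.2 j)) - ∑ i, O.x j i (t.2.2 i) + ∑ i, O.x i i (t.2.2 j)) := rfl

theorem indU_apply (i : Fin 2) (t : IndC Y) :
    (indU i : Module.End ℂ (IndC Y)) t = (0, fun j => if j = i then t.1 else 0, 0) := rfl

theorem indV_apply (i : Fin 2) (t : IndC Y) :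
    (indV i : Module.End ℂ (IndC Y)) t = (0, 0, fun j => if j = i then t.1 else 0) := rfl

theorem ap_e_mul (O : BOps (Module.End ℂ Y)) (i j : Fin 6) (y : Y) :
    O.e i (O.e j y) = if i = j then O.e i y else 0 := by
  have h := congrArg (fun f : Module.End ℂ Y => f y) (O.e_mul i j)
  split_ifs with hij
  · simpa [hij] using h
  · simpa [hij] using h

theorem ap_e_sum (O : BOps (Module.End ℂ Y)) (y : Y) : ∑ i, O.e i y = y := by
  have h := congrArg (fun f : Module.End ℂ Y => f y) O.e_sum
  simpa using h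

theorem ap_x_e (O : BOps (Module.End ℂ Y)) (k l : Fin 2) (i : Fin 5) (y : Y) :
    O.x k l (O.e i.castSucc y) = O.e i.succ (O.x k l y) := by
  have h := congrArg (fun f : Module.End ℂ Y => f y) (O.x_e k l i)
  simpa using h

theorem ap_x_e5 (O : BOps (Module.End ℂ Y)) (k l : Fin 2) (y : Y) :
    O.x k l (O.e (Fin.last 5) y) = 0 := by
  have h := congrArg (fun f : Module.End ℂ Y => f y) (O.x_e5 k l)
  simpa using h

theorem ap_z_e (O : BOps (Module.End ℂ Y)) (i : Fin 5) (y : Y) :
    O.z (O.e i.castSucc y) = O.e i.succ (O.z y) := by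
  have h := congrArg (fun f : Module.End ℂ Y => f y) (O.z_e i)
  simpa using h

theorem ap_z_e5 (O : BOps (Module.End ℂ Y)) (y : Y) :
    O.z (O.e (Fin.last 5) y) = 0 := by
  have h := congrArg (fun f : Module.End ℂ Y => f y) O.z_e5
  simpa using h

theorem ap_xx (O : BOps (Module.End ℂ Y)) (k l p q : Fin 2) (y : Y) :
    O.x k l (O.x p q y) = -O.x p q (O.x k l y) := by
  have h := congrArg (fun f : Module.End ℂ Y => f y) (O.xx k l p q)
  exact eq_neg_of_add_eq_zero_left (by simpa using h)

theorem ap_xx0 (O : BOps (Module.End ℂ Y)) (k l : Fin 2) (y : Y) :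
    O.x k l (O.x k l y) = 0 := by
  have h := ap_xx O k l k l y
  have h2 : (2 : ℂ) • O.x k l (O.x k l y) = 0 := by
    rw [two_smul]
    nth_rewrite 1 [h]
    exact neg_add_cancel _
  exact (smul_eq_zero.mp h2).resolve_left two_ne_zero

theorem ap_zz (O : BOps (Module.End ℂ Y)) (y : Y) : O.z (O.z y) = 0 := by
  have h := congrArg (fun f : Module.End ℂ Y => f y) O.zz
  simpa using h

theorem ap_zx (O : BOps (Module.End ℂ Y)) (k l : Fin 2) (y : Y) :
    O.z (O.x k l y) = -O.x k l (O.z y) - (O.x k 0 (O.x 0 l y) + O.x k 1 (O.x 1 l y)) := by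
  have h := congrArg (fun f : Module.End ℂ Y => f y) (O.zx k l)
  simp only [Fin.sum_univ_two, Module.End.mul_apply, LinearMap.add_apply, LinearMap.neg_apply] at h
  have h2 := eq_sub_of_add_eq h
  rw [h2]
  abel

theorem ap_e0_x (O : BOps (Module.End ℂ Y)) (k l : Fin 2) (y : Y) :
    O.e 0 (O.x k l y) = 0 := by
  have h : O.x k l y = ∑ i, O.x k l (O.e i y) := by
    rw [← map_sum, ap_e_sum]
  rw [h, map_sum, Fin.sum_univ_castSucc]
  rw [ap_x_e5, map_zero, add_zero]
  refine Finset.sum_eq_zero fun i _ => ?_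
  rw [ap_x_e, ap_e_mul, if_neg (Fin.succ_ne_zero i).symm]

theorem ap_e0_z (O : BOps (Module.End ℂ Y)) (y : Y) :
    O.e 0 (O.z y) = 0 := by
  have h : O.z y = ∑ i, O.z (O.e i y) := by
    rw [← map_sum, ap_e_sum]
  rw [h, map_sum, Fin.sum_univ_castSucc]
  rw [ap_z_e5, map_zero, add_zero]
  refine Finset.sum_eq_zero fun i _ => ?_
  rw [ap_z_e, ap_e_mul, if_neg (Fin.succ_ne_zero i).symm]

/-- shifted idempotents -/
private noncomputable def es (O : BOps (Module.End ℂ Y)) (n : ℕ) : Module.End ℂ Y :=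
  if h : n < 6 then O.e ⟨n, h⟩ else 0

private theorem indE_apply' (O : BOps (Module.End ℂ Y)) (b : Fin 6) (t : IndC Y) :
    indE O b t = (es O b.val t.1, fun j => es O (b.val + 1) (t.2.1 j),
      fun j => es O b.val (t.2.2 j)) := by
  rw [indE_apply]
  have hb : es O b.val = O.e b := by
    unfold es
    rw [dif_pos b.isLt]
  refine Prod.ext ?_ (Prod.ext ?_ ?_)
  · rw [hb]
  · funext j
    unfold es
    by_cases h : b.val + 1 < 6
    · simp only [dif_pos h]
    · simp only [dif_neg h, LinearMap.zero_apply]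
  · funext j
    rw [hb]

private theorem es_x (O : BOps (Module.End ℂ Y)) (k l : Fin 2) (n : ℕ) (y : Y) :
    O.x k l (es O n y) = es O (n + 1) (O.x k l y) := by
  unfold es
  rcases Nat.lt_or_ge n 5 with h | h
  · rw [dif_pos (by omega : n < 6), dif_pos (by omega : n + 1 < 6)]
    exact ap_x_e O k l ⟨n, h⟩ y
  · rw [dif_neg (by omega : ¬ n + 1 < 6)]
    rcases Nat.eq_or_lt_of_le h with h | h
    · subst h
      rw [dif_pos (by omega : 5 < 6)]
      exact ap_x_e5 O k l y
    · rw [dif_neg (by omega : ¬ n < 6)]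
      simp

private theorem es_z (O : BOps (Module.End ℂ Y)) (n : ℕ) (y : Y) :
    O.z (es O n y) = es O (n + 1) (O.z y) := by
  unfold es
  rcases Nat.lt_or_ge n 5 with h | h
  · rw [dif_pos (by omega : n < 6), dif_pos (by omega : n + 1 < 6)]
    exact ap_z_e O ⟨n, h⟩ y
  · rw [dif_neg (by omega : ¬ n + 1 < 6)]
    rcases Nat.eq_or_lt_of_le h with h | h
    · subst h
      rw [dif_pos (by omega : 5 < 6)]
      exact ap_z_e5 O y
    · rw [dif_neg (by omega : ¬ n < 6)]
      simp

private theorem es_of_ge (O : BOps (Module.End ℂ Y)) {n : ℕ} (h : 6 ≤ n) : es O n = 0 := by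
  unfold es
  rw [dif_neg (by omega)]

private theorem es_mul (O : BOps (Module.End ℂ Y)) (m n : ℕ) (y : Y) :
    es O m (es O n y) = if m = n then es O m y else 0 := by
  unfold es
  by_cases hm : m < 6
  · by_cases hn : n < 6
    · rw [dif_pos hm, dif_pos hn, ap_e_mul]
      simp only [Fin.mk.injEq]
    · rw [dif_pos hm, dif_neg hn]
      have : m ≠ n := by omega
      simp [this]
  · rw [dif_neg hm]
    simp

theorem ind_e_mul (O : BOps (Module.End ℂ Y)) (i j : Fin 6) :
    indE O i * indE O j = if i = j then indE O i else 0 := by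
  refine LinearMap.ext fun t => ?_
  rw [Module.End.mul_apply]
  by_cases hij : i = j
  · subst hij
    rw [if_pos rfl]
    simp only [indE_apply', es_mul, if_true]
  · rw [if_neg hij]
    have h1 : i.val ≠ j.val := fun h => hij (Fin.ext h)
    simp only [indE_apply', es_mul, if_neg h1, Nat.add_right_cancel_iff]
    rfl

theorem ind_e_sum (O : BOps (Module.End ℂ Y)) (h0 : O.e 0 = 0) : ∑ i, indE O i = 1 := by
  refine LinearMap.ext fun t => ?_
  rw [LinearMap.sum_apply]
  have hs := ap_e_sum O
  simp only [Fin.sum_univ_succ, Fin.sum_univ_zero, add_zero] at hs ⊢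
  refine Prod.ext ?_ (Prod.ext ?_ ?_)
  · simpa [indE_apply, Fin.sum_univ_succ] using hs t.1
  · funext j
    have h := hs (t.2.1 j)
    rw [h0] at h
    simpa [indE_apply] using h
  · funext j
    simpa [indE_apply] using hs (t.2.2 j)

theorem ind_x_e (O : BOps (Module.End ℂ Y)) (k l : Fin 2) (i : Fin 5) :
    indX O k l * indE O i.castSucc = indE O i.succ * indX O k l := by
  refine LinearMap.ext fun t => ?_
  simp only [Module.End.mul_apply, indE_apply', indX_apply, Fin.val_castSucc, Fin.val_succ,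
    es_x, map_add, map_neg]
  refine Prod.ext rfl (Prod.ext rfl ?_)
  funext j
  by_cases hj : j = l
  · simp [hj]
  · simp [hj]

theorem ind_x_e5 (O : BOps (Module.End ℂ Y)) (k l : Fin 2) :
    indX O k l * indE O (Fin.last 5) = 0 := by
  refine LinearMap.ext fun t => ?_
  simp only [Module.End.mul_apply, indE_apply', indX_apply, Fin.val_last, es_x,
    es_of_ge O (le_refl 6), LinearMap.zero_apply, map_zero]
  refine Prod.ext rfl (Prod.ext rfl ?_)
  funext j
  simp

theorem ind_z_e (O : BOps (Module.End ℂ Y)) (i : Fin 5) :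
    indZ O * indE O i.castSucc = indE O i.succ * indZ O := by
  refine LinearMap.ext fun t => ?_
  simp only [Module.End.mul_apply, indE_apply', indZ_apply, Fin.val_castSucc, Fin.val_succ,
    es_x, es_z, map_add, map_neg, map_sub, map_sum]

theorem ind_z_e5 (O : BOps (Module.End ℂ Y)) : indZ O * indE O (Fin.last 5) = 0 := by
  refine LinearMap.ext fun t => ?_
  simp only [Module.End.mul_apply, indE_apply', indZ_apply, Fin.val_last, es_x, es_z,
    es_of_ge O (le_refl 6), LinearMap.zero_apply, map_zero]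
  refine Prod.ext rfl (Prod.ext ?_ ?_) <;> funext j <;> simp

theorem ind_xx (O : BOps (Module.End ℂ Y)) (k l p q : Fin 2) :
    indX O k l * indX O p q + indX O p q * indX O k l = 0 := by
  refine LinearMap.ext fun t => ?_
  simp only [LinearMap.add_apply, Module.End.mul_apply, indX_apply, LinearMap.zero_apply]
  refine Prod.ext ?_ (Prod.ext ?_ ?_)
  · show O.x k l (O.x p q t.1) + O.x p q (O.x k l t.1) = 0
    rw [ap_xx O k l p q]; abel
  · funext j
    show O.x k l (O.x p q (t.2.1 j)) + O.x p q (O.x k l (t.2.1 j)) = 0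
    rw [ap_xx O k l p q]; abel
  · funext j
    show -(O.x k l (-(O.x p q (t.2.2 j)) + if j = q then t.2.1 p else 0)) +
        (if j = l then O.x p q (t.2.1 k) else 0) +
      (-(O.x p q (-(O.x k l (t.2.2 j)) + if j = l then t.2.1 k else 0)) +
        (if j = q then O.x k l (t.2.1 p) else 0)) = 0
    have e1 : O.x k l (if j = q then t.2.1 p else 0) = if j = q then O.x k l (t.2.1 p) else 0 := by
      split_ifs <;> simp
    have e2 : O.x p q (if j = l then t.2.1 k else 0) = if j = l then O.x p q (t.2.1 k) else 0 := by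
      split_ifs <;> simp
    rw [map_add, map_add, map_neg, map_neg, ap_xx O k l p q (t.2.2 j), e1, e2]
    abel

theorem ind_zz (O : BOps (Module.End ℂ Y)) : indZ O * indZ O = 0 := by
  refine LinearMap.ext fun t => ?_
  simp only [Module.End.mul_apply, indZ_apply, LinearMap.zero_apply]
  have r1 := fun y => ap_xx O 0 1 0 0 y
  have r2 := fun y => ap_xx O 1 0 0 0 y
  have r3 := fun y => ap_xx O 1 1 0 0 y
  have r4 := fun y => ap_xx O 1 0 0 1 y
  have r5 := fun y => ap_xx O 1 1 0 1 y
  have r6 := fun y => ap_xx O 1 1 1 0 y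
  refine Prod.ext (ap_zz O t.1) (Prod.ext ?_ ?_)
  · funext j
    fin_cases j <;>
    · simp only [Fin.sum_univ_two, map_add, map_sub, map_neg, ap_zz, ap_zx, Prod.snd_zero,
        Prod.fst_zero, Pi.zero_apply, Fin.zero_eta, Fin.mk_one, Fin.isValue]
      simp only [r1, r2, r3, r4, r5, r6, ap_xx0]
      abel
  · funext j
    fin_cases j <;>
    · simp only [Fin.sum_univ_two, map_add, map_sub, map_neg, ap_zz, ap_zx, Prod.snd_zero,
        Prod.fst_zero, Pi.zero_apply, Fin.zero_eta, Fin.mk_one, Fin.isValue]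
      simp only [r1, r2, r3, r4, r5, r6, ap_xx0]
      abel

theorem ind_zx (O : BOps (Module.End ℂ Y)) (k l : Fin 2) :
    indZ O * indX O k l + indX O k l * indZ O = -∑ m, indX O k m * indX O m l := by
  refine LinearMap.ext fun t => ?_
  have r1 := fun y => ap_xx O 0 1 0 0 y
  have r2 := fun y => ap_xx O 1 0 0 0 y
  have r3 := fun y => ap_xx O 1 1 0 0 y
  have r4 := fun y => ap_xx O 1 0 0 1 y
  have r5 := fun y => ap_xx O 1 1 0 1 y
  have r6 := fun y => ap_xx O 1 1 1 0 y
  simp only [LinearMap.add_apply, LinearMap.neg_apply, Fin.sum_univ_two, Module.End.mul_apply,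
    indZ_apply, indX_apply]
  refine Prod.ext ?_ (Prod.ext ?_ ?_)
  · simp only [Prod.fst_add, Prod.fst_neg, ap_zx]
    abel
  · funext j
    fin_cases j <;> fin_cases k <;> fin_cases l <;>
    · simp only [Prod.snd_add, Prod.fst_add, Prod.snd_neg, Prod.fst_neg, Pi.add_apply,
        Pi.neg_apply, map_add, map_sub, map_neg, ap_zz, ap_zx, Fin.zero_eta, Fin.mk_one,
        Fin.isValue]
      simp only [r1, r2, r3, r4, r5, r6, ap_xx0]
      abel
  · funext j
    fin_cases j <;> fin_cases k <;> fin_cases l <;>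
    · simp only [Prod.snd_add, Prod.snd_neg, Pi.add_apply,
        Pi.neg_apply, map_add, map_sub, map_neg, ap_zz, ap_zx, Fin.zero_eta, Fin.mk_one,
        Fin.isValue, if_true, zero_ne_one, one_ne_zero, if_false, map_zero]
      simp only [r1, r2, r3, r4, r5, r6, ap_xx0, map_neg, map_zero]
      abel

theorem ind_u_e (O : BOps (Module.End ℂ Y)) (j : Fin 2) (i : Fin 5) :
    (indU j : Module.End ℂ (IndC Y)) * indE O i.succ = indE O i.castSucc * indU j := by
  refine LinearMap.ext fun t => ?_
  simp only [Module.End.mul_apply, indE_apply', indU_apply, Fin.val_castSucc, Fin.val_succ,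
    map_zero]
  refine Prod.ext rfl (Prod.ext ?_ ?_) <;> funext m
  · by_cases h : m = j <;> simp [h]
  · simp

theorem ind_u_e0 (O : BOps (Module.End ℂ Y)) (h0 : O.e 0 = 0) (j : Fin 2) :
    (indU j : Module.End ℂ (IndC Y)) * indE O 0 = 0 := by
  refine LinearMap.ext fun t => ?_
  simp only [Module.End.mul_apply, indE_apply, indU_apply, h0, LinearMap.zero_apply]
  refine Prod.ext rfl (Prod.ext ?_ rfl)
  funext m
  simp

theorem ind_v_e (O : BOps (Module.End ℂ Y)) (j : Fin 2) (i : Fin 6) :
    (indV j : Module.End ℂ (IndC Y)) * indE O i = indE O i * indV j := by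
  refine LinearMap.ext fun t => ?_
  simp only [Module.End.mul_apply, indE_apply', indV_apply, map_zero]
  refine Prod.ext rfl (Prod.ext ?_ ?_) <;> funext m
  · simp
  · by_cases h : m = j <;> simp [h]

theorem ind_xu (O : BOps (Module.End ℂ Y)) (k l j : Fin 2) :
    indX O k l * indU j - indU j * indX O k l = if k = j then indV l else 0 := by
  refine LinearMap.ext fun t => ?_
  by_cases hkj : k = j
  · rw [if_pos hkj]
    simp only [LinearMap.sub_apply, Module.End.mul_apply, indX_apply, indU_apply, indV_apply]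
    refine Prod.ext (by simp) (Prod.ext ?_ ?_) <;> funext m
    · by_cases h : m = j <;> simp [h]
    · by_cases h : m = l <;> simp [h, hkj]
  · rw [if_neg hkj]
    simp only [LinearMap.sub_apply, Module.End.mul_apply, indX_apply, indU_apply,
      LinearMap.zero_apply]
    refine Prod.ext (by simp) (Prod.ext ?_ ?_) <;> funext m
    · by_cases h : m = j <;> simp [h]
    · by_cases h : m = l <;> simp [h, hkj]

theorem ind_xv (O : BOps (Module.End ℂ Y)) (k l j : Fin 2) :
    indX O k l * indV j + indV j * indX O k l = 0 := by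
  refine LinearMap.ext fun t => ?_
  simp only [LinearMap.add_apply, Module.End.mul_apply, indX_apply, indV_apply,
    LinearMap.zero_apply]
  refine Prod.ext (by simp) (Prod.ext ?_ ?_) <;> funext m
  · simp
  · by_cases h : m = j <;> simp [h]

theorem ind_zu (O : BOps (Module.End ℂ Y)) (j : Fin 2) :
    indZ O * indU j - indU j * indZ O = ∑ k, indU k * indX O k j - indU j * ∑ k, indX O k k := by
  refine LinearMap.ext fun t => ?_
  simp only [LinearMap.sub_apply, Module.End.mul_apply, indZ_apply, indU_apply, indX_apply,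
    Fin.sum_univ_two, LinearMap.add_apply]
  refine Prod.ext (by simp) (Prod.ext ?_ ?_) <;> funext m <;> fin_cases m <;> fin_cases j <;>
    simp <;> abel

theorem ind_zv (O : BOps (Module.End ℂ Y)) (j : Fin 2) :
    indZ O * indV j + indV j * indZ O =
      -(∑ k, indV k * indX O k j) + indV j * ∑ k, indX O k k := by
  refine LinearMap.ext fun t => ?_
  simp only [LinearMap.add_apply, LinearMap.neg_apply, Module.End.mul_apply, indZ_apply,
    indV_apply, indX_apply, Fin.sum_univ_two]
  refine Prod.ext (by simp) (Prod.ext ?_ ?_) <;> funext m <;> fin_cases m <;> fin_cases j <;>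
    simp <;> abel

theorem ind_uu (i j : Fin 2) : (indU i : Module.End ℂ (IndC Y)) * indU j = 0 := by
  refine LinearMap.ext fun t => ?_
  simp only [Module.End.mul_apply, indU_apply, LinearMap.zero_apply]
  refine Prod.ext rfl (Prod.ext ?_ rfl)
  funext m
  simp

theorem ind_uv (i j : Fin 2) : (indU i : Module.End ℂ (IndC Y)) * indV j = 0 := by
  refine LinearMap.ext fun t => ?_
  simp only [Module.End.mul_apply, indU_apply, indV_apply, LinearMap.zero_apply]
  refine Prod.ext rfl (Prod.ext ?_ rfl)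
  funext m
  simp

theorem ind_vu (i j : Fin 2) : (indV i : Module.End ℂ (IndC Y)) * indU j = 0 := by
  refine LinearMap.ext fun t => ?_
  simp only [Module.End.mul_apply, indU_apply, indV_apply, LinearMap.zero_apply]
  refine Prod.ext rfl (Prod.ext rfl ?_)
  funext m
  simp

theorem ind_vv (i j : Fin 2) : (indV i : Module.End ℂ (IndC Y)) * indV j = 0 := by
  refine LinearMap.ext fun t => ?_
  simp only [Module.End.mul_apply, indV_apply, LinearMap.zero_apply]
  refine Prod.ext rfl (Prod.ext rfl ?_)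
  funext m
  simp

/-- the `T`-operators on `Ind Y` -/
noncomputable def indOps (O : BOps (Module.End ℂ Y)) (h0 : O.e 0 = 0) :
    TOps (Module.End ℂ (IndC Y)) where
  e := indE O
  x := indX O
  z := indZ O
  u := indU
  v := indV
  e_mul := ind_e_mul O
  e_sum := ind_e_sum O h0
  x_e := ind_x_e O
  x_e5 := ind_x_e5 O
  z_e := ind_z_e O
  z_e5 := ind_z_e5 O
  xx := ind_xx O
  zz := ind_zz O
  zx := ind_zx O
  u_e := ind_u_e O
  u_e0 := ind_u_e0 O h0
  v_e := ind_v_e O
  xu := ind_xu O
  xv := ind_xv O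
  zu := ind_zu O
  zv := ind_zv O
  uu := ind_uu
  uv := ind_uv
  vu := ind_vu
  vv := ind_vv

end ops

end Crest.Agent.S0268
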