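import Crest.Agent.S0268_GL

set_option autoImplicit false

/-!
# S0268 (task T6b) : the `S`-module `Q(V)`

Check each relation on `w = (w0, w1, f0, f1)` (use `LinearMap.ext`, `simp [Prod.ext_iff]`).
`aD`: both sides are `(0, 0, η(ε_j w0), -η(ε_j w1))` (`eta_eps`); `Ea`: `UE_eta`, `UE_eps`.
-/

namespace Crest.Agent.S0268

variable {V V' : Type} [AddCommGroup V] [Module ℂ V] [AddCommGroup V'] [Module ℂ V']

/-- carrier of `Q(V)` : `W0 × W1 × W0' × W1'` -/
abbrev QC (V : Type) : Type := V × V × (Fin 2 → V) × (Fin 2 → V)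

/-- `Q(V)`: `D (w0, w1, f0, f1) = (0, w0, 0, f0)`, `c_j (..) = (0, 0, ε_j w0, -ε_j w1)`,
`a_j (..) = (0, 0, η (ε_j w1), 0)` -/
noncomputable def SQ (ρ : GLMod V) : SOps (Module.End ℂ (QC V)) where
  E k l := (ρ.E k l).prodMap ((ρ.E k l).prodMap ((ρ.UE k l).prodMap (ρ.UE k l)))
  D :=
    { toFun := fun w => (0, w.1, 0, w.2.2.1)
      map_add' := by intros; simp
      map_smul' := by intros; simp }
  a j :=
    { toFun := fun w => (0, 0, ρ.eta (eps V j w.2.1), 0)
      map_add' := by intros; simp
      map_smul' := by intros; simp }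
  c j :=
    { toFun := fun w => (0, 0, eps V j w.1, -(eps V j w.2.1))
      map_add' := by intros; simp [add_comm]
      map_smul' := by intros; simp }
  p0 :=
    { toFun := fun w => (w.1, 0, w.2.2.1, 0)
      map_add' := by intros; simp
      map_smul' := by intros; simp }
  p1 :=
    { toFun := fun w => (0, w.2.1, 0, w.2.2.2)
      map_add' := by intros; simp
      map_smul' := by intros; simp }
  EE k l p q := by
    have h1 := fun v => LinearMap.congr_fun (ρ.EE k l p q) v
    have h2 := fun v => LinearMap.congr_fun (ρ.UE_EE k l p q) v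
    refine LinearMap.ext fun w => ?_
    split_ifs at h1 h2 ⊢ <;> simp [Prod.ext_iff] at h1 h2 ⊢ <;>
      exact ⟨h1 _, h1 _, h2 _, h2 _⟩
  ED k l := by
    refine LinearMap.ext fun w => ?_
    simp [Prod.ext_iff]
  DD := by
    refine LinearMap.ext fun w => ?_
    simp [Prod.ext_iff]
  Ea k l j := by
    refine LinearMap.ext fun w => ?_
    have h := ρ.UE_eps k l j w.2.1
    split_ifs at h ⊢ <;> simp [Prod.ext_iff, ρ.UE_eta, h, sub_eq_add_neg] <;> abel
  Ec k l j := by
    refine LinearMap.ext fun w => ?_
    have h := ρ.UE_eps k l j w.1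
    have h' := ρ.UE_eps k l j w.2.1
    split_ifs at h h' ⊢ <;> simp [Prod.ext_iff, h, h', sub_eq_add_neg] <;> constructor <;> abel
  aD j := by
    refine LinearMap.ext fun w => ?_
    simp [Prod.ext_iff, ρ.eta_eps]
    abel
  cD j := by
    refine LinearMap.ext fun w => ?_
    simp [Prod.ext_iff]
  aa i j := by
    refine LinearMap.ext fun w => ?_
    simp [Prod.ext_iff]
  ac i j := by
    refine LinearMap.ext fun w => ?_
    simp [Prod.ext_iff]
  ca i j := by
    refine LinearMap.ext fun w => ?_
    simp [Prod.ext_iff]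
  cc i j := by
    refine LinearMap.ext fun w => ?_
    simp [Prod.ext_iff]
  p00 := by
    refine LinearMap.ext fun w => ?_
    simp [Prod.ext_iff]
  p11 := by
    refine LinearMap.ext fun w => ?_
    simp [Prod.ext_iff]
  p01 := by
    refine LinearMap.ext fun w => ?_
    simp [Prod.ext_iff]
  p10 := by
    refine LinearMap.ext fun w => ?_
    simp [Prod.ext_iff]
  psum := by
    refine LinearMap.ext fun w => ?_
    simp [Prod.ext_iff]
  Ep0 k l := by
    refine LinearMap.ext fun w => ?_
    simp [Prod.ext_iff]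
  Ep1 k l := by
    refine LinearMap.ext fun w => ?_
    simp [Prod.ext_iff]
  Dp0 := by
    refine LinearMap.ext fun w => ?_
    simp [Prod.ext_iff]
  Dp1 := by
    refine LinearMap.ext fun w => ?_
    simp [Prod.ext_iff]
  p0D := by
    refine LinearMap.ext fun w => ?_
    simp [Prod.ext_iff]
  ap1 j := by
    refine LinearMap.ext fun w => ?_
    simp [Prod.ext_iff]
  ap0 j := by
    refine LinearMap.ext fun w => ?_
    simp [Prod.ext_iff]
  p1a j := by
    refine LinearMap.ext fun w => ?_
    simp [Prod.ext_iff]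
  cp0 j := by
    refine LinearMap.ext fun w => ?_
    simp [Prod.ext_iff]
  cp1 j := by
    refine LinearMap.ext fun w => ?_
    simp [Prod.ext_iff]

end Crest.Agent.S0268
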