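import Crest.Agent.S0268_GL

set_option autoImplicit false

/-!
# S0268 (task T6a) : the `S`-module `Z(V,V')`

`aD` reads `0 = c_j + ∑_l c_l E_jl`, i.e. `p (η (ε_j v)) = 0` (`eta_eps`, `π.ex2`).
`Ec` follows from `π.p_E` and `UE_eps`.
-/

namespace Crest.Agent.S0268

variable {V V' : Type} [AddCommGroup V] [Module ℂ V] [AddCommGroup V'] [Module ℂ V']

/-- `Z(V,V') = V ⊕ V'`, `c_j (v, v') = (0, p (ε_j ⊗ v))` -/
noncomputable def SZ (π : Pair V V') : SOps (Module.End ℂ (V × V')) where
  E k l := (π.ρ.E k l).prodMap (π.ρ'.E k l)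
  D := 0
  a _ := 0
  c j := LinearMap.prod 0 (π.p ∘ₗ eps V j ∘ₗ LinearMap.fst ℂ V V')
  p0 := 1
  p1 := 0
  EE := by
    intro k l p q
    have h1 := π.ρ.EE k l p q
    have h2 := π.ρ'.EE k l p q
    refine LinearMap.ext fun w => Prod.ext ?_ ?_
    · have := LinearMap.congr_fun h1 w.1
      split_ifs at this ⊢ <;> simpa using this
    · have := LinearMap.congr_fun h2 w.2
      split_ifs at this ⊢ <;> simpa using this
  ED := by simp
  DD := by simp
  Ea := by intros; simp
  Ec := by
    intro k l j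
    refine LinearMap.ext fun w => Prod.ext ?_ ?_
    · split_ifs <;> simp
    · have h := π.p_E k l (eps V j w.1)
      rw [GLMod.UE_eps] at h
      split_ifs at h ⊢ <;> simp [← h]
      abel
  aD := by
    intro j
    refine LinearMap.ext fun w => Prod.ext ?_ ?_
    · simp
    · have h : π.p (π.ρ.eta (eps V j w.1)) = 0 := (π.ex2 _).2 ⟨_, rfl⟩
      rw [GLMod.eta_eps, map_add, map_sum] at h
      simpa [Fin.sum_univ_two] using h.symm
  cD := by simp
  aa := by simp
  ac := by simp
  ca := by simp
  cc := by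
    intro i j
    refine LinearMap.ext fun w => Prod.ext ?_ ?_ <;> simp
  p00 := by simp
  p11 := by simp
  p01 := by simp
  p10 := by simp
  psum := by simp
  Ep0 := by simp
  Ep1 := by simp
  Dp0 := by simp
  Dp1 := by simp
  p0D := by simp
  ap1 := by simp
  ap0 := by simp
  p1a := by simp
  cp0 := by simp
  cp1 := by simp

end Crest.Agent.S0268
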