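import Crest.Agent.S0268_TW
import Crest.Agent.S0268_SZ
import Crest.Agent.S0268_SQ
import Crest.Agent.S0268_SJ

set_option autoImplicit false

/-!
# S0268 (task T7b) : the maps `0 → V' → J(V) → Q(V) → Z(V,V') → 0` and `0 → V' → Z → V → 0`
of `S`-modules

`η s = 0`, `p η = 0` come from `π.ex1`, `π.ex2` (`.apply_apply_eq_zero`).
-/

namespace Crest.Agent.S0268

/-! ### the maps -/

section maps
variable {V V' : Type} [AddCommGroup V] [Module ℂ V] [AddCommGroup V'] [Module ℂ V']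

/-- `f : S0(V') → J(V)`, `q ↦ (0, s q, 0)` -/
noncomputable def mf (π : Pair V V') : V' →ₗ[ℂ] JC V :=
  LinearMap.prod 0 (LinearMap.prod π.s 0)
/-- `g : J(V) → Q(V)`, `(w, f0, f1) ↦ (0, w, η f0, -f1)` -/
noncomputable def mg (π : Pair V V') : JC V →ₗ[ℂ] QC V where
  toFun w := (0, w.1, π.ρ.eta w.2.1, -w.2.2)
  map_add' := by intros; simp [add_comm]
  map_smul' := by intros; simp
/-- `h : Q(V) → Z(V,V')`, `(w0, w1, f0, f1) ↦ (w0, p f0)` -/
noncomputable def mh (π : Pair V V') : QC V →ₗ[ℂ] V × V' where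
  toFun w := (w.1, π.p w.2.2.1)
  map_add' := by intros; simp
  map_smul' := by intros; simp

theorem mf_hom (π : Pair V V') : SHom (S0 π.ρ') (SJ π.ρ) (mf π) := by
  refine ⟨fun k l w => ?_, fun w => ?_, fun j w => ?_, fun j w => ?_, fun w => ?_, fun w => ?_⟩
  · exact Prod.ext (map_zero (π.ρ.E k l)).symm (Prod.ext (π.s_E k l w) (map_zero (π.ρ.UE k l)).symm)
  · refine Prod.ext rfl (Prod.ext (map_zero _) ?_)
    show (0 : Fin 2 → V) = -(π.ρ.eta (π.s w))
    rw [π.ex1.apply_apply_eq_zero, neg_zero]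
  · exact Prod.ext rfl (Prod.ext ((map_zero _).trans (map_zero _).symm) rfl)
  · exact Prod.ext rfl (Prod.ext (map_zero _) (map_zero _).symm)
  · exact Prod.ext rfl (Prod.ext rfl rfl)
  · exact Prod.ext rfl (Prod.ext (map_zero _) rfl)
theorem mg_hom (π : Pair V V') : SHom (SJ π.ρ) (SQ π.ρ) (mg π) := by
  refine ⟨fun k l w => ?_, fun w => ?_, fun j w => ?_, fun j w => ?_, fun w => ?_, fun w => ?_⟩
  · exact Prod.ext (map_zero (π.ρ.E k l)).symm (Prod.ext rfl
      (Prod.ext (π.ρ.UE_eta k l w.2.1).symm (map_neg (π.ρ.UE k l) w.2.2).symm))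
  · exact Prod.ext rfl (Prod.ext rfl (Prod.ext (map_zero _) (neg_neg _)))
  · exact Prod.ext rfl (Prod.ext rfl (Prod.ext rfl neg_zero))
  · exact Prod.ext rfl (Prod.ext rfl (Prod.ext ((map_zero _).trans (map_zero _).symm) rfl))
  · exact Prod.ext rfl (Prod.ext rfl (Prod.ext rfl neg_zero))
  · exact Prod.ext rfl (Prod.ext rfl (Prod.ext (map_zero _) rfl))
theorem mh_hom (π : Pair V V') : SHom (SQ π.ρ) (SZ π) (mh π) := by
  refine ⟨fun k l w => ?_, fun w => ?_, fun j w => ?_, fun j w => ?_, fun w => ?_, fun w => ?_⟩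
  · exact Prod.ext rfl (π.p_E k l w.2.2.1)
  · exact Prod.ext rfl (map_zero _)
  · exact Prod.ext rfl (π.ex2.apply_apply_eq_zero _)
  · exact Prod.ext rfl rfl
  · exact Prod.ext rfl rfl
  · exact Prod.ext rfl (map_zero _)
theorem mi_hom (π : Pair V V') : SHom (S0 π.ρ') (SZ π) (LinearMap.inr ℂ V V') := by
  refine ⟨fun k l w => ?_, fun w => ?_, fun j w => ?_, fun j w => ?_, fun w => ?_, fun w => ?_⟩
  · exact Prod.ext (map_zero (π.ρ.E k l)).symm rfl
  · exact Prod.ext rfl rfl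
  · exact Prod.ext rfl rfl
  · refine Prod.ext rfl ?_
    show (0 : V') = π.p (eps V j 0)
    rw [map_zero, map_zero]
  · exact Prod.ext rfl rfl
  · exact Prod.ext rfl rfl
theorem mq_hom (π : Pair V V') : SHom (SZ π) (S0 π.ρ) (LinearMap.fst ℂ V V') := by
  exact ⟨fun k l w => rfl, fun w => rfl, fun j w => rfl, fun j w => rfl, fun w => rfl,
    fun w => rfl⟩
theorem mf_inj (π : Pair V V') : Function.Injective (mf π) := by
  intro a b h
  have h2 : π.s a = π.s b := congrArg (fun w : JC V => w.2.1) h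
  exact π.s_inj h2
theorem mfg_exact (π : Pair V V') : Function.Exact (mf π) (mg π) := by
  intro w
  constructor
  · intro h
    have h1 : w.1 = 0 := congrArg (fun w : QC V => w.2.1) h
    have h2 : π.ρ.eta w.2.1 = 0 := congrArg (fun w : QC V => w.2.2.1) h
    have h3 : -w.2.2 = 0 := congrArg (fun w : QC V => w.2.2.2) h
    obtain ⟨q, hq⟩ := (π.ex1 _).1 h2
    exact ⟨q, Prod.ext h1.symm (Prod.ext hq (neg_eq_zero.1 h3).symm)⟩
  · rintro ⟨q, rfl⟩
    exact Prod.ext rfl (Prod.ext rfl (Prod.ext (π.ex1.apply_apply_eq_zero q) neg_zero))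
theorem mgh_exact (π : Pair V V') : Function.Exact (mg π) (mh π) := by
  intro w
  constructor
  · intro h
    have h1 : w.1 = 0 := congrArg (fun w : V × V' => w.1) h
    have h2 : π.p w.2.2.1 = 0 := congrArg (fun w : V × V' => w.2) h
    obtain ⟨f, hf⟩ := (π.ex2 _).1 h2
    exact ⟨(w.2.1, f, -w.2.2.2), Prod.ext h1.symm (Prod.ext rfl (Prod.ext hf (neg_neg _)))⟩
  · rintro ⟨q, rfl⟩
    exact Prod.ext rfl (π.ex2.apply_apply_eq_zero _)
theorem mh_surj (π : Pair V V') : Function.Surjective (mh π) := by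
  rintro ⟨v, v'⟩
  obtain ⟨f, hf⟩ := π.p_surj v'
  exact ⟨(v, 0, f, 0), Prod.ext rfl hf⟩
theorem miq_exact (π : Pair V V') :
    Function.Exact (LinearMap.inr ℂ V V') (LinearMap.fst ℂ V V') := by
  intro w
  constructor
  · intro h
    exact ⟨w.2, Prod.ext (Eq.symm h) rfl⟩
  · rintro ⟨q, rfl⟩
    rfl

end maps

end Crest.Agent.S0268
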