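import Crest.Agent.S0268_Defs

set_option autoImplicit false

/-!
# S0268 : projective dimension predicate and modules given by operators
-/

namespace Crest.Agent.S0268

open CategoryTheory

/-! ### projective dimension as a predicate on unbundled modules -/

/-- projective dimension `< n` -/
def PD (R : Type) [Ring R] (M : Type) [AddCommGroup M] [Module R M] (n : ℕ) : Prop :=
  HasProjectiveDimensionLT (ModuleCat.of R M) n

section PD
variable {R : Type} [Ring R] {M N L : Type} [AddCommGroup M] [Module R M]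
  [AddCommGroup N] [Module R N] [AddCommGroup L] [Module R L]

theorem PD.mono {m n : ℕ} (h : PD R M m) (hmn : m ≤ n) : PD R M n := by
  have : HasProjectiveDimensionLT (ModuleCat.of R M) m := h
  exact hasProjectiveDimensionLT_of_ge _ m n hmn

theorem PD.of_subsingleton [Subsingleton M] (n : ℕ) : PD R M n := by
  refine PD.mono (m := 0) ?_ (Nat.zero_le n)
  exact (hasProjectiveDimensionLT_zero_iff_isZero _).2 (ModuleCat.isZero_of_subsingleton _)

theorem PD.subsingleton (h : PD R M 0) : Subsingleton M := by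
  have h2 := (hasProjectiveDimensionLT_zero_iff_isZero _).1 h
  exact ModuleCat.isZero_iff_subsingleton.1 h2

theorem PD.of_projective [Module.Projective R M] {n : ℕ} (hn : 1 ≤ n) : PD R M n := by
  refine PD.mono (m := 1) ?_ hn
  unfold PD
  rw [← projective_iff_hasProjectiveDimensionLT_one, ← IsProjective.iff_projective]
  infer_instance

theorem PD.projective (h : PD R M 1) : Module.Projective R M := by
  unfold PD at h
  rw [← projective_iff_hasProjectiveDimensionLT_one] at h
  exact (IsProjective.iff_projective M).2 h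

theorem PD.equiv (e : M ≃ₗ[R] N) {n : ℕ} (h : PD R M n) : PD R N n := by
  have : HasProjectiveDimensionLT (ModuleCat.of R M) n := h
  exact hasProjectiveDimensionLT_of_iso e.toModuleIso n

/-- the short exact sequence attached to linear maps -/
theorem ses (f : M →ₗ[R] N) (g : N →ₗ[R] L) (hf : Function.Injective f)
    (hfg : Function.Exact f g) (hg : Function.Surjective g) :
    (ModuleCat.shortComplexOfCompEqZero f g (hfg.linearMap_comp_eq_zero)).ShortExact :=
  ModuleCat.shortComplex_shortExact _ hfg hf hg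

theorem PD.two (f : M →ₗ[R] N) (g : N →ₗ[R] L) (hf : Function.Injective f)
    (hfg : Function.Exact f g) (hg : Function.Surjective g) {n : ℕ}
    (h1 : PD R M n) (h3 : PD R L n) : PD R N n :=
  (ses f g hf hfg hg).hasProjectiveDimensionLT_X₂ n h1 h3

theorem PD.three (f : M →ₗ[R] N) (g : N →ₗ[R] L) (hf : Function.Injective f)
    (hfg : Function.Exact f g) (hg : Function.Surjective g) {n : ℕ}
    (h1 : PD R M n) (h2 : PD R N (n + 1)) : PD R L (n + 1) :=
  (ses f g hf hfg hg).hasProjectiveDimensionLT_X₃ n h1 h2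

theorem PD.one (f : M →ₗ[R] N) (g : N →ₗ[R] L) (hf : Function.Injective f)
    (hfg : Function.Exact f g) (hg : Function.Surjective g) {n : ℕ}
    (h2 : PD R N n) (h3 : PD R L (n + 1)) : PD R M n :=
  (ses f g hf hfg hg).hasProjectiveDimensionLT_X₁ n h2 h3

end PD

/-! ### modules given by operators -/

/-- in a `ℂ`-algebra, `x x + x x = 0` implies `x x = 0` -/
theorem sq_zero_of {A : Type} [Ring A] [Algebra ℂ A] {x : A} (h : x * x + x * x = 0) :
    x * x = 0 := by
  have h2 : (2 : ℂ) • (x * x) = 0 := by rw [two_smul]; exact h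
  have h3 : (2 : ℂ)⁻¹ • ((2 : ℂ) • (x * x)) = 0 := by rw [h2, smul_zero]
  rwa [smul_smul, inv_mul_cancel₀ (by norm_num), one_smul] at h3

/-- `ξ² = 0` -/
theorem BOps.x_sq {A : Type} [Ring A] [Algebra ℂ A] (O : BOps A) (k l : Fin 2) :
    O.x k l * O.x k l = 0 := sq_zero_of (O.xx k l k l)

section Ops
variable {A A' : Type} [Ring A] [Ring A']

/-- image of `B`-operators under a ring homomorphism -/
@[simps] def BOps.map (O : BOps A) (φ : A →+* A') : BOps A' where
  e i := φ (O.e i)
  x k l := φ (O.x k l)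
  z := φ O.z
  e_mul i j := by rw [← map_mul, O.e_mul]; split_ifs <;> simp
  e_sum := by rw [← map_sum, O.e_sum, map_one]
  x_e k l i := by rw [← map_mul, O.x_e, map_mul]
  x_e5 k l := by rw [← map_mul, O.x_e5, map_zero]
  z_e i := by rw [← map_mul, O.z_e, map_mul]
  z_e5 := by rw [← map_mul, O.z_e5, map_zero]
  xx k l p q := by rw [← map_mul, ← map_mul, ← map_add, O.xx, map_zero]
  zz := by rw [← map_mul, O.zz, map_zero]
  zx k l := by simp only [← map_mul, ← map_add, O.zx, map_neg, map_sum]

/-- image of `T`-operators under a ring homomorphism -/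
@[simps toBOps u v] def TOps.map (O : TOps A) (φ : A →+* A') : TOps A' where
  toBOps := O.toBOps.map φ
  u j := φ (O.u j)
  v j := φ (O.v j)
  u_e j i := by simp only [BOps.map_e, ← map_mul, O.u_e]
  u_e0 j := by simp only [BOps.map_e, ← map_mul, O.u_e0, map_zero]
  v_e j i := by simp only [BOps.map_e, ← map_mul, O.v_e]
  xu k l j := by
    simp only [BOps.map_x, ← map_mul, ← map_sub, O.xu]; split_ifs <;> simp
  xv k l j := by simp only [BOps.map_x, ← map_mul, ← map_add, O.xv, map_zero]
  zu j := by simp only [BOps.map_x, BOps.map_z, ← map_mul, ← map_sub, ← map_sum, O.zu]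
  zv j := by
    simp only [BOps.map_x, BOps.map_z, ← map_mul, ← map_add, ← map_sum, ← map_neg, O.zv]
  uu i j := by rw [← map_mul, O.uu, map_zero]
  uv i j := by rw [← map_mul, O.uv, map_zero]
  vu i j := by rw [← map_mul, O.vu, map_zero]
  vv i j := by rw [← map_mul, O.vv, map_zero]

end Ops

section Mod
variable {M : Type} [AddCommGroup M] [Module ℂ M]

/-- the `B`-module attached to `B`-operators on a vector space -/
def BOps.Mod (_O : BOps (Module.End ℂ M)) : Type := M

/-- the `T`-module attached to `T`-operators on a vector space -/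
def TOps.Mod (_O : TOps (Module.End ℂ M)) : Type := M

noncomputable instance (O : BOps (Module.End ℂ M)) : AddCommGroup O.Mod :=
  inferInstanceAs (AddCommGroup M)
noncomputable instance (O : BOps (Module.End ℂ M)) : Module ℂ O.Mod :=
  inferInstanceAs (Module ℂ M)
noncomputable instance (O : BOps (Module.End ℂ M)) : Module B O.Mod :=
  Module.compHom (R := Module.End ℂ M) M O.lift.toRingHom
noncomputable instance (O : TOps (Module.End ℂ M)) : AddCommGroup O.Mod :=
  inferInstanceAs (AddCommGroup M)
noncomputable instance (O : TOps (Module.End ℂ M)) : Module ℂ O.Mod :=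
  inferInstanceAs (Module ℂ M)
noncomputable instance (O : TOps (Module.End ℂ M)) : Module T O.Mod :=
  Module.compHom (R := Module.End ℂ M) M O.lift.toRingHom

theorem BOps.smul_def (O : BOps (Module.End ℂ M)) (b : B) (m : O.Mod) :
    b • m = (O.lift b : M →ₗ[ℂ] M) m := rfl
theorem TOps.smul_def (O : TOps (Module.End ℂ M)) (b : T) (m : O.Mod) :
    b • m = (O.lift b : M →ₗ[ℂ] M) m := rfl

instance (O : BOps (Module.End ℂ M)) : IsScalarTower ℂ B O.Mod where
  smul_assoc c b m := by
    rw [BOps.smul_def, BOps.smul_def, map_smul]; rfl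
instance (O : TOps (Module.End ℂ M)) : IsScalarTower ℂ T O.Mod where
  smul_assoc c b m := by
    rw [TOps.smul_def, TOps.smul_def, map_smul]; rfl

theorem BOps.smul_e (O : BOps (Module.End ℂ M)) (i : Fin 6) (m : O.Mod) :
    B.gen.e i • m = (O.e i : M →ₗ[ℂ] M) m := by rw [BOps.smul_def, BOps.lift_e]
theorem BOps.smul_x (O : BOps (Module.End ℂ M)) (k l : Fin 2) (m : O.Mod) :
    B.gen.x k l • m = (O.x k l : M →ₗ[ℂ] M) m := by rw [BOps.smul_def, BOps.lift_x]
theorem BOps.smul_z (O : BOps (Module.End ℂ M)) (m : O.Mod) :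
    B.gen.z • m = (O.z : M →ₗ[ℂ] M) m := by rw [BOps.smul_def, BOps.lift_z]
theorem TOps.smul_e (O : TOps (Module.End ℂ M)) (i : Fin 6) (m : O.Mod) :
    T.gen.e i • m = (O.e i : M →ₗ[ℂ] M) m := by rw [TOps.smul_def, TOps.lift_e]
theorem TOps.smul_x (O : TOps (Module.End ℂ M)) (k l : Fin 2) (m : O.Mod) :
    T.gen.x k l • m = (O.x k l : M →ₗ[ℂ] M) m := by rw [TOps.smul_def, TOps.lift_x]
theorem TOps.smul_z (O : TOps (Module.End ℂ M)) (m : O.Mod) :
    T.gen.z • m = (O.z : M →ₗ[ℂ] M) m := by rw [TOps.smul_def, TOps.lift_z]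
theorem TOps.smul_u (O : TOps (Module.End ℂ M)) (j : Fin 2) (m : O.Mod) :
    T.gen.u j • m = (O.u j : M →ₗ[ℂ] M) m := by rw [TOps.smul_def, TOps.lift_u]
theorem TOps.smul_v (O : TOps (Module.End ℂ M)) (j : Fin 2) (m : O.Mod) :
    T.gen.v j • m = (O.v j : M →ₗ[ℂ] M) m := by rw [TOps.smul_def, TOps.lift_v]

end Mod

/-! ### operators attached to a module, and linear maps -/

section act
variable {M N : Type} [AddCommGroup M] [Module ℂ M] [AddCommGroup N] [Module ℂ N]

/-- the operators on a `B`-module -/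
noncomputable def opsB (M : Type) [AddCommGroup M] [Module ℂ M] [Module B M]
    [IsScalarTower ℂ B M] : BOps (Module.End ℂ M) :=
  B.gen.map (Module.toModuleEnd ℂ (S := B) M)

@[simp] theorem opsB_e [Module B M] [IsScalarTower ℂ B M] (i : Fin 6) (m : M) :
    (opsB M).e i m = B.gen.e i • m := rfl
@[simp] theorem opsB_x [Module B M] [IsScalarTower ℂ B M] (k l : Fin 2) (m : M) :
    (opsB M).x k l m = B.gen.x k l • m := rfl
@[simp] theorem opsB_z [Module B M] [IsScalarTower ℂ B M] (m : M) :
    (opsB M).z m = B.gen.z • m := rfl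

/-- the operators on a `T`-module -/
noncomputable def opsT (M : Type) [AddCommGroup M] [Module ℂ M] [Module T M]
    [IsScalarTower ℂ T M] : TOps (Module.End ℂ M) :=
  T.gen.map (Module.toModuleEnd ℂ (S := T) M)

@[simp] theorem opsT_e [Module T M] [IsScalarTower ℂ T M] (i : Fin 6) (m : M) :
    (opsT M).e i m = T.gen.e i • m := rfl
@[simp] theorem opsT_x [Module T M] [IsScalarTower ℂ T M] (k l : Fin 2) (m : M) :
    (opsT M).x k l m = T.gen.x k l • m := rfl
@[simp] theorem opsT_z [Module T M] [IsScalarTower ℂ T M] (m : M) :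
    (opsT M).z m = T.gen.z • m := rfl
@[simp] theorem opsT_u [Module T M] [IsScalarTower ℂ T M] (j : Fin 2) (m : M) :
    (opsT M).u j m = T.gen.u j • m := rfl
@[simp] theorem opsT_v [Module T M] [IsScalarTower ℂ T M] (j : Fin 2) (m : M) :
    (opsT M).v j m = T.gen.v j • m := rfl

/-- a `ℂ`-linear map commuting with the generators is `B`-linear -/
noncomputable def linB [Module B M] [IsScalarTower ℂ B M] [Module B N] [IsScalarTower ℂ B N]
    (φ : M →ₗ[ℂ] N)
    (he : ∀ i m, φ (B.gen.e i • m) = B.gen.e i • φ m)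
    (hx : ∀ k l m, φ (B.gen.x k l • m) = B.gen.x k l • φ m)
    (hz : ∀ m, φ (B.gen.z • m) = B.gen.z • φ m) : M →ₗ[B] N where
  toFun := φ
  map_add' := φ.map_add
  map_smul' b m := by
    simp only [RingHom.id_apply]
    induction b using B.left_induction generalizing m with
    | h1 => simp
    | hadd a b ha hb => rw [add_smul, add_smul, map_add, ha, hb]
    | hsmul c a ha => rw [smul_assoc, smul_assoc, map_smul, ha]
    | he i a ha => rw [mul_smul, mul_smul, he, ha]
    | hx k l a ha => rw [mul_smul, mul_smul, hx, ha]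
    | hz a ha => rw [mul_smul, mul_smul, hz, ha]

@[simp] theorem linB_apply [Module B M] [IsScalarTower ℂ B M] [Module B N] [IsScalarTower ℂ B N]
    (φ : M →ₗ[ℂ] N) (he hx hz) (m : M) : linB φ he hx hz m = φ m := rfl

/-- a `ℂ`-linear map commuting with the generators is `T`-linear -/
noncomputable def linT [Module T M] [IsScalarTower ℂ T M] [Module T N] [IsScalarTower ℂ T N]
    (φ : M →ₗ[ℂ] N)
    (he : ∀ i m, φ (T.gen.e i • m) = T.gen.e i • φ m)
    (hx : ∀ k l m, φ (T.gen.x k l • m) = T.gen.x k l • φ m)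
    (hz : ∀ m, φ (T.gen.z • m) = T.gen.z • φ m)
    (hu : ∀ j m, φ (T.gen.u j • m) = T.gen.u j • φ m)
    (hv : ∀ j m, φ (T.gen.v j • m) = T.gen.v j • φ m) : M →ₗ[T] N where
  toFun := φ
  map_add' := φ.map_add
  map_smul' b m := by
    simp only [RingHom.id_apply]
    induction b using T.left_induction generalizing m with
    | h1 => simp
    | hadd a b ha hb => rw [add_smul, add_smul, map_add, ha, hb]
    | hsmul c a ha => rw [smul_assoc, smul_assoc, map_smul, ha]
    | he i a ha => rw [mul_smul, mul_smul, he, ha]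
    | hx k l a ha => rw [mul_smul, mul_smul, hx, ha]
    | hz a ha => rw [mul_smul, mul_smul, hz, ha]
    | hu j a ha => rw [mul_smul, mul_smul, hu, ha]
    | hv j a ha => rw [mul_smul, mul_smul, hv, ha]

@[simp] theorem linT_apply [Module T M] [IsScalarTower ℂ T M] [Module T N] [IsScalarTower ℂ T N]
    (φ : M →ₗ[ℂ] N) (he hx hz hu hv) (m : M) : linT φ he hx hz hu hv m = φ m := rfl

/-- `T`-linear maps are `ℂ`-linear -/
theorem map_smul_C_T [Module T M] [IsScalarTower ℂ T M] [Module T N] [IsScalarTower ℂ T N]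
    (f : M →ₗ[T] N) (c : ℂ) (m : M) : f (c • m) = c • f m := by
  rw [← one_smul T m, ← smul_assoc, map_smul, smul_assoc, one_smul, one_smul]

theorem map_smul_C_B [Module B M] [IsScalarTower ℂ B M] [Module B N] [IsScalarTower ℂ B N]
    (f : M →ₗ[B] N) (c : ℂ) (m : M) : f (c • m) = c • f m := by
  rw [← one_smul B m, ← smul_assoc, map_smul, smul_assoc, one_smul, one_smul]

end act

end Crest.Agent.S0268
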