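import Crest.Agent.S0268_Mods

set_option autoImplicit false

/-!
# S0268 : Fock space operators, `S`-operators, and their combination
-/

namespace Crest.Agent.S0268

/-- Fock space operators. -/
structure FOps (A : Type) [Ring A] where
  X : Fin 2 → Fin 2 → A
  I : Fin 2 → Fin 2 → A
  P : A
  d : A
  /-- `π b`, `b = 0..4` : projection on exterior degree `b` -/
  π : Fin 5 → A
  XX : ∀ k l p q, X k l * X p q + X p q * X k l = 0
  II : ∀ k l p q, I k l * I p q + I p q * I k l = 0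
  XI : ∀ k l p q, X k l * I p q + I p q * X k l = if k = p ∧ l = q then 1 else 0
  PP : P * P = 1
  PX : ∀ k l, P * X k l = -(X k l * P)
  PI : ∀ k l, P * I k l = -(I k l * P)
  Pd : P * d = -(d * P)
  dd : d * d = 0
  dX : ∀ k l, d * X k l + X k l * d = -∑ m, X k m * X m l
  dI : ∀ j l, d * I j l + I j l * d = ∑ k, X k j * I k l - ∑ q, X l q * I j q
  π_mul : ∀ i j, π i * π j = if i = j then π i else 0
  π_sum : ∑ i, π i = 1
  Xπ : ∀ k l (i : Fin 4), X k l * π i.castSucc = π i.succ * X k l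
  Xπ4 : ∀ k l, X k l * π (Fin.last 4) = 0
  πX0 : ∀ k l, π 0 * X k l = 0
  dπ : ∀ i : Fin 4, d * π i.castSucc = π i.succ * d
  dπ4 : d * π (Fin.last 4) = 0
  πd0 : π 0 * d = 0
  Iπ : ∀ k l (i : Fin 4), I k l * π i.succ = π i.castSucc * I k l
  Iπ0 : ∀ k l, I k l * π 0 = 0
  πI4 : ∀ k l, π (Fin.last 4) * I k l = 0
  Pπ : ∀ i, P * π i = π i * P

/-- `S`-operators: `E` is a representation of `gl_2`, `D` is a differential, etc.;
`p0`, `p1` are the projections on degree `0` and `1`. -/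
structure SOps (A : Type) [Ring A] where
  E : Fin 2 → Fin 2 → A
  D : A
  a : Fin 2 → A
  c : Fin 2 → A
  p0 : A
  p1 : A
  EE : ∀ k l p q, E k l * E p q - E p q * E k l =
    (if l = p then E k q else 0) - (if q = k then E p l else 0)
  ED : ∀ k l, E k l * D = D * E k l
  DD : D * D = 0
  Ea : ∀ k l j, E k l * a j - a j * E k l = (if l = j then a k else 0) - (if k = l then a j else 0)
  Ec : ∀ k l j, E k l * c j - c j * E k l = (if l = j then c k else 0) - (if k = l then c j else 0)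
  aD : ∀ j, a j * D - D * a j = c j + ∑ l, c l * E j l
  cD : ∀ j, D * c j + c j * D = 0
  aa : ∀ i j, a i * a j = 0
  ac : ∀ i j, a i * c j = 0
  ca : ∀ i j, c i * a j = 0
  cc : ∀ i j, c i * c j = 0
  p00 : p0 * p0 = p0
  p11 : p1 * p1 = p1
  p01 : p0 * p1 = 0
  p10 : p1 * p0 = 0
  psum : p0 + p1 = 1
  Ep0 : ∀ k l, E k l * p0 = p0 * E k l
  Ep1 : ∀ k l, E k l * p1 = p1 * E k l
  Dp0 : D * p0 = p1 * D
  Dp1 : D * p1 = 0
  p0D : p0 * D = 0
  ap1 : ∀ j, a j * p1 = p0 * a j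
  ap0 : ∀ j, a j * p0 = 0
  p1a : ∀ j, p1 * a j = 0
  cp0 : ∀ j, c j * p0 = p0 * c j
  cp1 : ∀ j, c j * p1 = p1 * c j

section map
variable {A A' : Type} [Ring A] [Ring A']

/-- image of Fock operators under a ring homomorphism -/
@[simps] def FOps.map (O : FOps A) (φ : A →+* A') : FOps A' where
  X k l := φ (O.X k l)
  I k l := φ (O.I k l)
  P := φ O.P
  d := φ O.d
  π i := φ (O.π i)
  XX k l p q := by rw [← map_mul, ← map_mul, ← map_add, O.XX, map_zero]
  II k l p q := by rw [← map_mul, ← map_mul, ← map_add, O.II, map_zero]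
  XI k l p q := by
    rw [← map_mul, ← map_mul, ← map_add, O.XI]; split_ifs <;> simp
  PP := by rw [← map_mul, O.PP, map_one]
  PX k l := by rw [← map_mul, ← map_mul, O.PX, map_neg]
  PI k l := by rw [← map_mul, ← map_mul, O.PI, map_neg]
  Pd := by rw [← map_mul, ← map_mul, O.Pd, map_neg]
  dd := by rw [← map_mul, O.dd, map_zero]
  dX k l := by simp only [← map_mul, ← map_add, O.dX, map_neg, map_sum]
  dI j l := by simp only [← map_mul, ← map_add, O.dI, map_sub, map_sum]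
  π_mul i j := by rw [← map_mul, O.π_mul]; split_ifs <;> simp
  π_sum := by rw [← map_sum, O.π_sum, map_one]
  Xπ k l i := by rw [← map_mul, ← map_mul, O.Xπ]
  Xπ4 k l := by rw [← map_mul, O.Xπ4, map_zero]
  πX0 k l := by rw [← map_mul, O.πX0, map_zero]
  dπ i := by rw [← map_mul, ← map_mul, O.dπ]
  dπ4 := by rw [← map_mul, O.dπ4, map_zero]
  πd0 := by rw [← map_mul, O.πd0, map_zero]
  Iπ k l i := by rw [← map_mul, ← map_mul, O.Iπ]
  Iπ0 k l := by rw [← map_mul, O.Iπ0, map_zero]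
  πI4 k l := by rw [← map_mul, O.πI4, map_zero]
  Pπ i := by rw [← map_mul, ← map_mul, O.Pπ]

/-- image of `S`-operators under a ring homomorphism -/
@[simps] def SOps.map (O : SOps A) (φ : A →+* A') : SOps A' where
  E k l := φ (O.E k l)
  D := φ O.D
  a j := φ (O.a j)
  c j := φ (O.c j)
  p0 := φ O.p0
  p1 := φ O.p1
  EE k l p q := by
    rw [← map_mul, ← map_mul, ← map_sub, O.EE, map_sub]; split_ifs <;> simp
  ED k l := by rw [← map_mul, ← map_mul, O.ED]
  DD := by rw [← map_mul, O.DD, map_zero]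
  Ea k l j := by
    rw [← map_mul, ← map_mul, ← map_sub, O.Ea, map_sub]; split_ifs <;> simp
  Ec k l j := by
    rw [← map_mul, ← map_mul, ← map_sub, O.Ec, map_sub]; split_ifs <;> simp
  aD j := by simp only [← map_mul, ← map_sub, O.aD, map_add, map_sum]
  cD j := by rw [← map_mul, ← map_mul, ← map_add, O.cD, map_zero]
  aa i j := by rw [← map_mul, O.aa, map_zero]
  ac i j := by rw [← map_mul, O.ac, map_zero]
  ca i j := by rw [← map_mul, O.ca, map_zero]
  cc i j := by rw [← map_mul, O.cc, map_zero]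
  p00 := by rw [← map_mul, O.p00]
  p11 := by rw [← map_mul, O.p11]
  p01 := by rw [← map_mul, O.p01, map_zero]
  p10 := by rw [← map_mul, O.p10, map_zero]
  psum := by rw [← map_add, O.psum, map_one]
  Ep0 k l := by rw [← map_mul, ← map_mul, O.Ep0]
  Ep1 k l := by rw [← map_mul, ← map_mul, O.Ep1]
  Dp0 := by rw [← map_mul, ← map_mul, O.Dp0]
  Dp1 := by rw [← map_mul, O.Dp1, map_zero]
  p0D := by rw [← map_mul, O.p0D, map_zero]
  ap1 j := by rw [← map_mul, ← map_mul, O.ap1]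
  ap0 j := by rw [← map_mul, O.ap0, map_zero]
  p1a j := by rw [← map_mul, O.p1a, map_zero]
  cp0 j := by rw [← map_mul, ← map_mul, O.cp0]
  cp1 j := by rw [← map_mul, ← map_mul, O.cp1]

end map

/-- `e`-operators from the `π`'s and `p0`, `p1`:
`e b = π b * p0 + π (b-1) * p1` -/
def combE {A : Type} [Ring A] (F : FOps A) (S : SOps A) (b : Fin 6) : A :=
  (if h : b.val < 5 then F.π ⟨b.val, h⟩ * S.p0 else 0) +
  (if h : 0 < b.val then F.π ⟨b.val - 1, by omega⟩ * S.p1 else 0)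

/-- Commuting Fock operators and `S`-operators. -/
structure Comm {A : Type} [Ring A] (F : FOps A) (S : SOps A) : Prop where
  XE : ∀ k l p q, S.E p q * F.X k l = F.X k l * S.E p q
  XD : ∀ k l, S.D * F.X k l = F.X k l * S.D
  Xa : ∀ k l j, S.a j * F.X k l = F.X k l * S.a j
  Xc : ∀ k l j, S.c j * F.X k l = F.X k l * S.c j
  Xp0 : ∀ k l, S.p0 * F.X k l = F.X k l * S.p0
  Xp1 : ∀ k l, S.p1 * F.X k l = F.X k l * S.p1
  IE : ∀ k l p q, S.E p q * F.I k l = F.I k l * S.E p q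
  ID : ∀ k l, S.D * F.I k l = F.I k l * S.D
  Ia : ∀ k l j, S.a j * F.I k l = F.I k l * S.a j
  Ic : ∀ k l j, S.c j * F.I k l = F.I k l * S.c j
  Ip0 : ∀ k l, S.p0 * F.I k l = F.I k l * S.p0
  Ip1 : ∀ k l, S.p1 * F.I k l = F.I k l * S.p1
  PE : ∀ p q, S.E p q * F.P = F.P * S.E p q
  PD : S.D * F.P = F.P * S.D
  Pa : ∀ j, S.a j * F.P = F.P * S.a j
  Pc : ∀ j, S.c j * F.P = F.P * S.c j
  Pp0 : S.p0 * F.P = F.P * S.p0
  Pp1 : S.p1 * F.P = F.P * S.p1
  dE : ∀ p q, S.E p q * F.d = F.d * S.E p q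
  dD : S.D * F.d = F.d * S.D
  da : ∀ j, S.a j * F.d = F.d * S.a j
  dc : ∀ j, S.c j * F.d = F.d * S.c j
  dp0 : S.p0 * F.d = F.d * S.p0
  dp1 : S.p1 * F.d = F.d * S.p1
  πE : ∀ b p q, S.E p q * F.π b = F.π b * S.E p q
  πD : ∀ b, S.D * F.π b = F.π b * S.D
  πa : ∀ b j, S.a j * F.π b = F.π b * S.a j
  πc : ∀ b j, S.c j * F.π b = F.π b * S.c j
  πp0 : ∀ b, S.p0 * F.π b = F.π b * S.p0
  πp1 : ∀ b, S.p1 * F.π b = F.π b * S.p1

end Crest.Agent.S0268
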