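import Crest.Agent.S0268_Cover

set_option autoImplicit false

/-!
# S0268 (task T10) : upper bound for the projective dimension of `Ind Y`

Descending induction on `i`: for `i = 6`, `Y = 0` (`∑ e_j = 1`).  For `i ≤ 5`:
`exists_cover i Y` gives `0 → K → P → Y → 0` with `K = LinearMap.ker π` in class `i + 1`;
apply `Ind` (`Ind.map_exact` etc.), then `PD.three` with `PD.of_projective`.
-/

namespace Crest.Agent.S0268

section
variable {P : Type} [AddCommGroup P] [Module ℂ P] [Module B P] [IsScalarTower ℂ B P]

instance Pos.submodule [Pos P] (K : Submodule B P) : Pos K where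
  e0 y := by
    apply Subtype.ext
    simp [Pos.e0]

end

/-- task T10 -/
theorem pd_ind (i : ℕ) (hi : 1 ≤ i) (hi' : i ≤ 6) (Y : Type) [AddCommGroup Y] [Module ℂ Y]
    [Module B Y] [IsScalarTower ℂ B Y] [Pos Y] (hY : Cls i Y) : PD T (Ind Y) (6 - i) := by
  obtain ⟨n, hn⟩ : ∃ n, n = 6 - i := ⟨_, rfl⟩
  rw [← hn]
  induction n generalizing i Y with
  | zero =>
    have hi6 : i = 6 := by omega
    subst hi6
    have h0 : ∀ y : Y, y = 0 := by
      intro y
      have h1 : (∑ j, B.gen.e j) • y = y := by rw [B.gen.e_sum, one_smul]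
      rw [Finset.sum_smul] at h1
      rw [← h1]
      exact Finset.sum_eq_zero (fun j _ => hY j j.isLt y)
    have hs : Subsingleton Y := ⟨fun a b => by rw [h0 a, h0 b]⟩
    have hsub : Subsingleton (Ind Y) := by
      have key : ∀ a b : Y × (Fin 2 → Y) × (Fin 2 → Y), a = b := fun a b =>
        Subsingleton.elim a b
      exact ⟨key⟩
    exact @PD.of_subsingleton T _ (Ind Y) _ _ hsub 0
  | succ n ih =>
    have hi5 : i ≤ 5 := by omega
    obtain ⟨P, _, _, _, _, _, π, hπ, hproj, hker⟩ := exists_cover i Y hY
    let K : Submodule B P := LinearMap.ker π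
    have hK : Cls (i + 1) K := by
      intro j hj y
      apply Subtype.ext
      have := hker j (by omega) y.1 y.2
      simpa using this
    have h1 : PD T (Ind K) n := ih (i + 1) (by omega) (by omega) K hK (by omega)
    have h2 : PD T (Ind P) (n + 1) := PD.of_projective (by omega)
    exact PD.three (Ind.map K.subtype) (Ind.map π)
      (Ind.map_injective _ (Submodule.injective_subtype K))
      (Ind.map_exact _ _ (by
        intro x
        constructor
        · intro hx
          exact ⟨⟨x, hx⟩, rfl⟩
        · rintro ⟨y, rfl⟩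
          exact y.2))
      (Ind.map_surjective _ hπ) h1 h2

end Crest.Agent.S0268
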