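import Crest.Agent.S0268_Maps
import Crest.Agent.S0268_Fin

set_option autoImplicit false

/-!
# S0268 (task T13) : `Q(V)` is projective

`Te0 ⊗[ℂ] V → Q(V)`, `t ⊗ v ↦ t • (vac ⊗ (v, 0, 0, 0))` is well defined
(`TensorProduct.AlgebraTensorModule.lift`; restrict from `T ⊗ V`), and surjective:
`ξ`'s acting on `vac ⊗ (v,0,0,0)` give all `φ ⊗ (v,0,0,0)` (the Fock space is generated by `vac`
under the `X`'s: basis vector number `S` is `±` a product of `X`'s applied to `vac`); then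
`ζ • (φ ⊗ (v,0,0,0)) = d φ ⊗ .. + ∑ X φ ⊗ .. + P φ ⊗ (0, v, 0, 0)` gives `φ ⊗ (0, v, 0, 0)`;
`v_j` gives `φ ⊗ (0, 0, ε_j v, 0)` from the first and `φ ⊗ (0, 0, 0, ε_j v)` from the second.
`finrank (Te0 ⊗ V) ≤ 96 * finrank V = finrank (Q(V))`, so the map is bijective
(`Te0` is a direct summand of `T`: `t ↦ t * e_0`, so `Te0` is projective and so is `Te0 ⊗ V`,
instance for `Module.Projective R (M ⊗[R₀] N)`).
`T.gen.e 0 • (vac ⊗ (v,0,0,0)) = vac ⊗ (v,0,0,0)`.
-/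

namespace Crest.Agent.S0268

open scoped TensorProduct

theorem Q_matHom_single (A : Matrix (Fin 16) (Fin 16) ℤ) (s : Fin 16) :
    (matHom A : Fk →ₗ[ℂ] Fk) (Pi.single s 1) = fun r => (A r s : ℂ) := by
  funext r
  simp [matHom, Matrix.toLinAlgEquiv'_apply]

theorem Q_gen_dec : ∀ s : Fin 16, s ≠ 0 → ∃ k l : Fin 2, ∃ s' : Fin 16, s' < s ∧
    ((∀ r, mX (gn k l) r s' = if r = s then 1 else 0) ∨
     (∀ r, mX (gn k l) r s' = if r = s then -1 else 0)) := by
  decide +kernel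

/-- the Fock space is generated by the vacuum -/
theorem Q_fock_gen (p : Submodule ℂ Fk) (h0 : vac ∈ p)
    (hX : ∀ k l, ∀ φ ∈ p, (FC.X k l : Fk →ₗ[ℂ] Fk) φ ∈ p) : p = ⊤ := by
  have key : ∀ n : ℕ, ∀ s : Fin 16, s.val = n → (Pi.single s 1 : Fk) ∈ p := by
    intro n
    induction n using Nat.strong_induction_on with
    | _ n ih =>
      intro s hs
      by_cases hs0 : s = 0
      · subst hs0; exact h0
      obtain ⟨k, l, s', hlt, h⟩ := Q_gen_dec s hs0
      have h1 := ih s'.val (by rw [← hs]; exact hlt) s' rfl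
      have h2 := hX k l _ h1
      have h3 : (FC.X k l : Fk →ₗ[ℂ] Fk) (Pi.single s' 1) = fun r => ((mX (gn k l) r s' : ℤ) : ℂ) :=
        Q_matHom_single _ _
      rw [h3] at h2
      rcases h with h | h
      · have : (fun r => ((mX (gn k l) r s' : ℤ) : ℂ)) = (Pi.single s 1 : Fk) := by
          funext r
          rw [h r, Pi.single_apply]
          split_ifs <;> simp
        rwa [this] at h2
      · have : (fun r => ((mX (gn k l) r s' : ℤ) : ℂ)) = -(Pi.single s 1 : Fk) := by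
          funext r
          rw [Pi.neg_apply, h r, Pi.single_apply]
          split_ifs <;> simp
        rw [this] at h2
        simpa using p.neg_mem h2
  rw [eq_top_iff]
  intro φ _
  have : φ = ∑ s, φ s • (Pi.single s 1 : Fk) := by
    funext r
    simp [Finset.sum_apply, Pi.single_apply]
  rw [this]
  exact p.sum_mem fun s _ => p.smul_mem _ (key _ s rfl)

section
variable {V : Type} [AddCommGroup V] [Module ℂ V]

/-- the vector `φ ⊗ w` of `Q(V)` -/
def Q_tm (ρ : GLMod V) (φ : Fk) (w : QC V) : (TW (SQ ρ)).Mod := (φ ⊗ₜ[ℂ] w : Fk ⊗[ℂ] QC V)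

theorem Q_x (ρ : GLMod V) (k l : Fin 2) (φ : Fk) (w : QC V) :
    T.gen.x k l • Q_tm ρ φ w = Q_tm ρ ((FC.X k l : Fk →ₗ[ℂ] Fk) φ) w := by
  rw [TOps.smul_x]
  simp only [TW, comb_toBOps_x, FW, FOps.map_X]
  rfl

theorem Q_z (ρ : GLMod V) (φ : Fk) (w : QC V) :
    T.gen.z • Q_tm ρ φ w = Q_tm ρ ((FC.d : Fk →ₗ[ℂ] Fk) φ) w +
      ∑ a, ∑ b, Q_tm ρ ((FC.X a b : Fk →ₗ[ℂ] Fk) φ) ((SQ ρ).E a b w) +
      Q_tm ρ ((FC.P : Fk →ₗ[ℂ] Fk) φ) ((SQ ρ).D w) := by
  rw [TOps.smul_z]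
  simp only [TW, comb_toBOps_z, FW, FOps.map_X, FOps.map_d, FOps.map_P, SW, SOps.map_E, SOps.map_D,
    Fin.sum_univ_two]
  rfl

theorem Q_v (ρ : GLMod V) (j : Fin 2) (φ : Fk) (w : QC V) :
    T.gen.v j • Q_tm ρ φ w = Q_tm ρ ((FC.P : Fk →ₗ[ℂ] Fk) φ) ((SQ ρ).c j w) := by
  rw [TOps.smul_v]
  simp only [TW, comb_v, FW, FOps.map_P, SW, SOps.map_c]
  rfl

theorem Q_e0 (ρ : GLMod V) (φ : Fk) (w : QC V) :
    T.gen.e 0 • Q_tm ρ φ w = Q_tm ρ ((FC.π 0 : Fk →ₗ[ℂ] Fk) φ) ((SQ ρ).p0 w) := by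
  rw [TOps.smul_e]
  simp only [TW, comb_toBOps_e, combE, FW, SW]
  simp
  rfl

theorem Q_vac : (FC.π 0 : Fk →ₗ[ℂ] Fk) vac = vac := by
  have : (FC.π 0 : Fk →ₗ[ℂ] Fk) vac = fun r => ((mπ 0 r 0 : ℤ) : ℂ) := Q_matHom_single _ _
  rw [this]
  funext r
  fin_cases r <;> simp [vac, mπ, cntLow]

/-- the generating map -/
noncomputable def Q_iota (ρ : GLMod V) : V →ₗ[ℂ] (TW (SQ ρ)).Mod where
  toFun v := Q_tm ρ vac (v, 0, 0, 0)
  map_add' v v' := by
    have : ((v + v', 0, 0, 0) : QC V) = (v, 0, 0, 0) + (v', 0, 0, 0) := by simp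
    rw [this]
    exact TensorProduct.tmul_add _ _ _
  map_smul' c v := by
    have : ((c • v, 0, 0, 0) : QC V) = c • (v, 0, 0, 0) := by simp
    rw [this]
    exact TensorProduct.tmul_smul _ _ _

theorem Q_iota_apply (ρ : GLMod V) (v : V) : Q_iota ρ v = Q_tm ρ vac (v, 0, 0, 0) := rfl

theorem Q_iota_e0 (ρ : GLMod V) (v : V) : T.gen.e 0 • Q_iota ρ v = Q_iota ρ v := by
  rw [Q_iota_apply, Q_e0, Q_vac]
  rfl

/-- `T ⊗ V → Q(V)` restricted to `Te0 ⊗ V` -/
noncomputable def Q_Phi (ρ : GLMod V) : Te0 ⊗[ℂ] V →ₗ[T] (TW (SQ ρ)).Mod :=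
  TensorProduct.AlgebraTensorModule.lift
    { toFun := fun t =>
        { toFun := fun v => (t : T) • Q_iota ρ v
          map_add' := by intro v v'; rw [map_add, smul_add]
          map_smul' := by
            intro c v
            rw [map_smul, RingHom.id_apply, smul_comm] }
      map_add' := by
        intro t t'
        ext v
        simp [add_smul]
      map_smul' := by
        intro t t'
        ext v
        simp [mul_smul] }

theorem Q_Phi_tmul (ρ : GLMod V) (t : Te0) (v : V) :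
    Q_Phi ρ (t ⊗ₜ[ℂ] v) = (t : T) • Q_iota ρ v := rfl

theorem Q_Phi_surj (ρ : GLMod V) : Function.Surjective (Q_Phi ρ) := by
  rw [← LinearMap.range_eq_top]
  set N : Submodule T (TW (SQ ρ)).Mod := LinearMap.range (Q_Phi ρ) with hN
  have hC : ∀ (c : ℂ) (m : (TW (SQ ρ)).Mod), m ∈ N → c • m ∈ N := by
    intro c m hm
    rw [← algebraMap_smul T c m]
    exact N.smul_mem _ hm
  have htadd : ∀ φ φ' w, Q_tm ρ (φ + φ') w = Q_tm ρ φ w + Q_tm ρ φ' w := fun φ φ' w =>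
    TensorProduct.add_tmul _ _ _
  have htadd' : ∀ φ w w', Q_tm ρ φ (w + w') = Q_tm ρ φ w + Q_tm ρ φ w' := fun φ w w' =>
    TensorProduct.tmul_add _ _ _
  have htsmul : ∀ (c : ℂ) φ w, Q_tm ρ (c • φ) w = c • Q_tm ρ φ w := fun c φ w => rfl
  have htsmul' : ∀ (c : ℂ) φ w, Q_tm ρ φ (c • w) = c • Q_tm ρ φ w := fun c φ w =>
    TensorProduct.tmul_smul _ _ _
  have htzero : ∀ w, Q_tm ρ 0 w = 0 := fun w => TensorProduct.zero_tmul _ _
  have htzero' : ∀ φ, Q_tm ρ φ 0 = 0 := fun w => TensorProduct.tmul_zero _ _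
  -- the Fock space is generated by the vacuum
  have hA : ∀ w, Q_tm ρ vac w ∈ N → ∀ φ, Q_tm ρ φ w ∈ N := by
    intro w hw φ
    let p : Submodule ℂ Fk :=
      { carrier := {φ | Q_tm ρ φ w ∈ N}
        add_mem' := by
          intro a b ha hb
          change Q_tm ρ (a + b) w ∈ N
          rw [htadd]
          exact N.add_mem ha hb
        zero_mem' := by
          change Q_tm ρ 0 w ∈ N
          rw [htzero]
          exact N.zero_mem
        smul_mem' := by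
          intro c a ha
          change Q_tm ρ (c • a) w ∈ N
          rw [htsmul]
          exact hC _ _ ha }
    have hp : p = ⊤ := by
      refine Q_fock_gen p hw ?_
      intro k l ψ hψ
      change Q_tm ρ _ w ∈ N
      rw [← Q_x]
      exact N.smul_mem _ hψ
    have : φ ∈ p := by rw [hp]; trivial
    exact this
  -- the good vectors
  let W0 : Submodule ℂ (QC V) :=
    { carrier := {w | ∀ φ, Q_tm ρ φ w ∈ N}
      add_mem' := by
        intro a b ha hb φ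
        rw [htadd']
        exact N.add_mem (ha φ) (hb φ)
      zero_mem' := by
        intro φ
        rw [htzero']
        exact N.zero_mem
      smul_mem' := by
        intro c a ha φ
        rw [htsmul']
        exact hC _ _ (ha φ) }
  have hPP : ∀ φ : Fk, (FC.P : Fk →ₗ[ℂ] Fk) ((FC.P : Fk →ₗ[ℂ] Fk) φ) = φ := by
    intro φ
    have := FC.PP
    exact LinearMap.congr_fun this φ
  have h1 : ∀ v : V, ((v, 0, 0, 0) : QC V) ∈ W0 := by
    intro v
    refine hA _ ?_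
    refine ⟨(⟨T.gen.e 0, Submodule.mem_span_singleton_self _⟩ : Te0) ⊗ₜ[ℂ] v, ?_⟩
    rw [Q_Phi_tmul]
    exact Q_iota_e0 ρ v
  have h2 : ∀ v : V, ((0, v, 0, 0) : QC V) ∈ W0 := by
    intro v φ
    have e1 := Q_z ρ ((FC.P : Fk →ₗ[ℂ] Fk) φ) ((v, 0, 0, 0) : QC V)
    rw [hPP] at e1
    have e2 : (SQ ρ).D ((v, 0, 0, 0) : QC V) = (0, v, 0, 0) := rfl
    have e3 : ∀ a b, (SQ ρ).E a b ((v, 0, 0, 0) : QC V) = (ρ.E a b v, 0, 0, 0) := by
      intro a b
      simp [SQ]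
    rw [e2] at e1
    have e4 : Q_tm ρ φ ((0, v, 0, 0) : QC V) =
        T.gen.z • Q_tm ρ ((FC.P : Fk →ₗ[ℂ] Fk) φ) ((v, 0, 0, 0) : QC V) -
        Q_tm ρ ((FC.d : Fk →ₗ[ℂ] Fk) ((FC.P : Fk →ₗ[ℂ] Fk) φ)) ((v, 0, 0, 0) : QC V) -
        ∑ a, ∑ b, Q_tm ρ ((FC.X a b : Fk →ₗ[ℂ] Fk) ((FC.P : Fk →ₗ[ℂ] Fk) φ))
          ((SQ ρ).E a b ((v, 0, 0, 0) : QC V)) := by
      rw [e1]; abel
    rw [e4]
    refine N.sub_mem (N.sub_mem (N.smul_mem _ (h1 v _)) (h1 v _)) ?_
    refine N.sum_mem fun a _ => N.sum_mem fun b _ => ?_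
    rw [e3]
    exact h1 _ _
  have h3 : ∀ (j : Fin 2) (v : V), ((0, 0, eps V j v, 0) : QC V) ∈ W0 := by
    intro j v φ
    have e1 := Q_v ρ j ((FC.P : Fk →ₗ[ℂ] Fk) φ) ((v, 0, 0, 0) : QC V)
    rw [hPP] at e1
    have e2 : (SQ ρ).c j ((v, 0, 0, 0) : QC V) = (0, 0, eps V j v, 0) := by
      simp [SQ]
    rw [← e2, ← e1]
    exact N.smul_mem _ (h1 v _)
  have h4 : ∀ (j : Fin 2) (v : V), ((0, 0, 0, eps V j v) : QC V) ∈ W0 := by
    intro j v φ
    have e1 := Q_v ρ j ((FC.P : Fk →ₗ[ℂ] Fk) φ) ((0, -v, 0, 0) : QC V)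
    rw [hPP] at e1
    have e2 : (SQ ρ).c j ((0, -v, 0, 0) : QC V) = (0, 0, 0, eps V j v) := by
      simp [SQ]
    rw [← e2, ← e1]
    exact N.smul_mem _ (h2 _ _)
  have hW0 : ∀ w : QC V, w ∈ W0 := by
    rintro ⟨w0, w1, f0, f1⟩
    have : ((w0, w1, f0, f1) : QC V) = (w0, 0, 0, 0) + (0, w1, 0, 0) +
        ((0, 0, eps V 0 (f0 0), 0) + (0, 0, eps V 1 (f0 1), 0)) +
        ((0, 0, 0, eps V 0 (f1 0)) + (0, 0, 0, eps V 1 (f1 1))) := by
      simp only [Prod.mk_add_mk, Prod.mk.injEq, add_zero, zero_add, true_and]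
      constructor
      · funext i
        fin_cases i <;> simp [eps_apply]
      · funext i
        fin_cases i <;> simp [eps_apply]
    rw [this]
    exact W0.add_mem (W0.add_mem (W0.add_mem (h1 _) (h2 _)) (W0.add_mem (h3 _ _) (h3 _ _)))
      (W0.add_mem (h4 _ _) (h4 _ _))
  rw [eq_top_iff]
  intro m _
  change (m : Fk ⊗[ℂ] QC V) ∈ {m : (TW (SQ ρ)).Mod | m ∈ N}
  refine TensorProduct.induction_on (motive := fun m : Fk ⊗[ℂ] QC V =>
    (m : (TW (SQ ρ)).Mod) ∈ N) m ?_ ?_ ?_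
  · exact N.zero_mem
  · intro φ w
    exact hW0 w φ
  · intro a b ha hb
    exact N.add_mem ha hb

instance Q_Te0_proj : Module.Projective T Te0 := by
  refine Module.Projective.of_split (M := T) Te0.subtype
    ((LinearMap.toSpanSingleton T T (T.gen.e 0)).codRestrict Te0 fun c => ?_) ?_
  · exact Submodule.smul_mem _ _ (Submodule.mem_span_singleton_self _)
  · ext ⟨t, ht⟩
    obtain ⟨s, rfl⟩ := Submodule.mem_span_singleton.1 ht
    change (s * T.gen.e 0) * T.gen.e 0 = s * T.gen.e 0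
    rw [mul_assoc, T.gen.e_mul]
    simp

/-- task T13 -/
theorem Q_proj (ρ : GLMod V) [FiniteDimensional ℂ V] :
    Module.Projective T (TW (SQ ρ)).Mod := by
  have : Module.Finite ℂ Te0 :=
    Module.Finite.of_injective (Te0.subtype.restrictScalars ℂ) Subtype.val_injective
  have : Module.Finite ℂ (TW (SQ ρ)).Mod := inferInstanceAs (Module.Finite ℂ (Fk ⊗[ℂ] QC V))
  have hfr : Module.finrank ℂ (Te0 ⊗[ℂ] V) ≤ Module.finrank ℂ (TW (SQ ρ)).Mod := by
    have e1 : Module.finrank ℂ (TW (SQ ρ)).Mod = Module.finrank ℂ (Fk ⊗[ℂ] QC V) := rfl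
    rw [e1, Module.finrank_tensorProduct, Module.finrank_tensorProduct]
    have e2 : Module.finrank ℂ (QC V) = 6 * Module.finrank ℂ V := by
      simp only [Module.finrank_prod, Module.finrank_pi_fintype, Finset.sum_const,
        Finset.card_univ, Fintype.card_fin, smul_eq_mul]
      ring
    have e3 : Module.finrank ℂ Fk = 16 := by simp
    rw [e2, e3]
    have := Nat.mul_le_mul_right (Module.finrank ℂ V) finrank_Te0
    linarith
  have hsurj := Q_Phi_surj ρ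
  have hinj : Function.Injective ((Q_Phi ρ).restrictScalars ℂ) := by
    have h1 : Function.Surjective ((Q_Phi ρ).restrictScalars ℂ) := hsurj
    have h2 : Module.finrank ℂ (Te0 ⊗[ℂ] V) = Module.finrank ℂ (TW (SQ ρ)).Mod :=
      le_antisymm hfr (LinearMap.finrank_le_finrank_of_surjective h1)
    exact (LinearMap.injective_iff_surjective_of_finrank_eq_finrank h2).2 h1
  exact Module.Projective.of_equiv (LinearEquiv.ofBijective (Q_Phi ρ) ⟨hinj, hsurj⟩)

end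

end Crest.Agent.S0268
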