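import Crest.Agent.S0268_Comb
import Crest.Agent.S0268_Fock

set_option autoImplicit false

/-!
# S0268 (task T7) : the `T`-modules `F ⊗ W` for `S`-modules `W`

`comm_FS`: all from `(LinearMap.rTensor_comp_lTensor, lTensor_comp_rTensor)`.
`TW.map`: use `linT` with the `ℂ`-linear map `φ.lTensor Fk`; commutation on pure tensors
(`TensorProduct.induction_on` or `LinearMap.congr_fun` of composition identities).
Exactness: `Fk` is a free (flat) `ℂ`-module: `Module.Flat.lTensor_preserves_injective_linearMap`,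
`LinearMap.lTensor_surjective`, `Module.Flat.lTensor_exact`.
-/

namespace Crest.Agent.S0268

open scoped TensorProduct

/-! ### `T`-modules `F ⊗ W` -/

section TW
variable {W W' W'' : Type} [AddCommGroup W] [Module ℂ W] [AddCommGroup W'] [Module ℂ W']
  [AddCommGroup W''] [Module ℂ W'']

/-- Fock operators on `F ⊗ W` -/
noncomputable def FW (W : Type) [AddCommGroup W] [Module ℂ W] :
    FOps (Module.End ℂ (Fk ⊗[ℂ] W)) :=
  FC.map (Module.End.rTensorAlgHom ℂ Fk W).toRingHom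

/-- `S`-operators on `F ⊗ W` -/
noncomputable def SW (S : SOps (Module.End ℂ W)) : SOps (Module.End ℂ (Fk ⊗[ℂ] W)) :=
  S.map (Module.End.lTensorAlgHom ℂ W Fk).toRingHom

theorem TWlr (f : Module.End ℂ Fk) (g : Module.End ℂ W) :
    (Module.End.lTensorAlgHom ℂ W Fk).toRingHom g * (Module.End.rTensorAlgHom ℂ Fk W).toRingHom f =
    (Module.End.rTensorAlgHom ℂ Fk W).toRingHom f * (Module.End.lTensorAlgHom ℂ W Fk).toRingHom g := by
  apply TensorProduct.ext'
  intro x y
  rfl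

theorem comm_FS (S : SOps (Module.End ℂ W)) : Comm (FW W) (SW S) := by
  constructor <;> intros <;> exact TWlr _ _

/-- `T`-operators on `F ⊗ W` -/
noncomputable def TW (S : SOps (Module.End ℂ W)) : TOps (Module.End ℂ (Fk ⊗[ℂ] W)) :=
  comb (FW W) (SW S) (comm_FS S)

/-- `φ : W → W'` commutes with the `S`-operators -/
structure SHom (S : SOps (Module.End ℂ W)) (S' : SOps (Module.End ℂ W')) (φ : W →ₗ[ℂ] W') :
    Prop where
  E : ∀ k l w, φ (S.E k l w) = S'.E k l (φ w)
  D : ∀ w, φ (S.D w) = S'.D (φ w)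
  a : ∀ j w, φ (S.a j w) = S'.a j (φ w)
  c : ∀ j w, φ (S.c j w) = S'.c j (φ w)
  p0 : ∀ w, φ (S.p0 w) = S'.p0 (φ w)
  p1 : ∀ w, φ (S.p1 w) = S'.p1 (φ w)

/-- intertwining of operators -/
def TWInt {M N : Type} [AddCommGroup M] [Module ℂ M] [AddCommGroup N] [Module ℂ N]
    (L : M →ₗ[ℂ] N) (A : Module.End ℂ M) (A' : Module.End ℂ N) : Prop :=
  ∀ m, L (A m) = A' (L m)

section TWInt
variable {M N : Type} [AddCommGroup M] [Module ℂ M] [AddCommGroup N] [Module ℂ N]
  {L : M →ₗ[ℂ] N} {A B : Module.End ℂ M} {A' B' : Module.End ℂ N}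

theorem TWInt.add (h1 : TWInt L A A') (h2 : TWInt L B B') : TWInt L (A + B) (A' + B') := by
  intro m; rw [LinearMap.add_apply, LinearMap.add_apply, map_add, h1, h2]

theorem TWInt.mul (h1 : TWInt L A A') (h2 : TWInt L B B') : TWInt L (A * B) (A' * B') := by
  intro m; rw [Module.End.mul_apply, Module.End.mul_apply, h1, h2]

theorem TWInt.zero : TWInt L 0 0 := by
  intro m; simp

theorem TWInt.sum {ι : Type} (s : Finset ι) {A : ι → Module.End ℂ M} {A' : ι → Module.End ℂ N}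
    (h : ∀ i, TWInt L (A i) (A' i)) : TWInt L (∑ i ∈ s, A i) (∑ i ∈ s, A' i) := by
  intro m
  rw [LinearMap.sum_apply, LinearMap.sum_apply, map_sum]
  exact Finset.sum_congr rfl (fun i _ => h i m)

theorem TWInt.dite {p : Prop} [Decidable p] {A : p → Module.End ℂ M} {A' : p → Module.End ℂ N}
    (h : ∀ hp, TWInt L (A hp) (A' hp)) :
    TWInt L (if hp : p then A hp else 0) (if hp : p then A' hp else 0) := by
  by_cases hp : p
  · rw [dif_pos hp, dif_pos hp]; exact h hp
  · rw [dif_neg hp, dif_neg hp]; exact TWInt.zero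

end TWInt

theorem TWInt_F (φ : W →ₗ[ℂ] W') (f : Module.End ℂ Fk) :
    TWInt (φ.lTensor Fk) ((Module.End.rTensorAlgHom ℂ Fk W).toRingHom f)
      ((Module.End.rTensorAlgHom ℂ Fk W').toRingHom f) := by
  intro m
  induction m using TensorProduct.induction_on with
  | zero => simp only [map_zero]
  | tmul x y => rfl
  | add x y hx hy => simp only [map_add, hx, hy]

theorem TWInt_S (φ : W →ₗ[ℂ] W') {g : Module.End ℂ W} {g' : Module.End ℂ W'}
    (h : ∀ w, φ (g w) = g' (φ w)) :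
    TWInt (φ.lTensor Fk) ((Module.End.lTensorAlgHom ℂ W Fk).toRingHom g)
      ((Module.End.lTensorAlgHom ℂ W' Fk).toRingHom g') := by
  intro m
  induction m using TensorProduct.induction_on with
  | zero => simp only [map_zero]
  | tmul x y =>
    show x ⊗ₜ[ℂ] (φ (g y)) = x ⊗ₜ[ℂ] (g' (φ y))
    rw [h]
  | add x y hx hy => simp only [map_add, hx, hy]

section ops
variable {S : SOps (Module.End ℂ W)} {S' : SOps (Module.End ℂ W')} {φ : W →ₗ[ℂ] W'}

theorem TWInt_e (h : SHom S S' φ) (i : Fin 6) :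
    TWInt (φ.lTensor Fk) ((TW S).e i) ((TW S').e i) := by
  show TWInt (φ.lTensor Fk) (combE (FW W) (SW S) i) (combE (FW W') (SW S') i)
  unfold combE
  refine TWInt.add (TWInt.dite fun hp => ?_) (TWInt.dite fun hp => ?_)
  · exact TWInt.mul (TWInt_F φ _) (TWInt_S φ h.p0)
  · exact TWInt.mul (TWInt_F φ _) (TWInt_S φ h.p1)

theorem TWInt_x (_h : SHom S S' φ) (k l : Fin 2) :
    TWInt (φ.lTensor Fk) ((TW S).x k l) ((TW S').x k l) := TWInt_F φ _

theorem TWInt_z (h : SHom S S' φ) :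
    TWInt (φ.lTensor Fk) (TW S).z (TW S').z := by
  refine TWInt.add (TWInt.add (TWInt_F φ _) ?_) (TWInt.mul (TWInt_F φ _) (TWInt_S φ h.D))
  refine TWInt.sum _ fun a => TWInt.sum _ fun b => ?_
  exact TWInt.mul (TWInt_F φ _) (TWInt_S φ (h.E a b))

theorem TWInt_u (h : SHom S S' φ) (j : Fin 2) :
    TWInt (φ.lTensor Fk) ((TW S).u j) ((TW S').u j) := by
  refine TWInt.add (TWInt_S φ (h.a j)) ?_
  refine TWInt.sum _ fun l => ?_
  exact TWInt.mul (TWInt_F φ _) (TWInt.mul (TWInt_F φ _) (TWInt_S φ (h.c l)))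

theorem TWInt_v (h : SHom S S' φ) (j : Fin 2) :
    TWInt (φ.lTensor Fk) ((TW S).v j) ((TW S').v j) :=
  TWInt.mul (TWInt_F φ _) (TWInt_S φ (h.c j))

end ops

/-- `id ⊗ φ` as a `T`-linear map -/
noncomputable def TW.map {S : SOps (Module.End ℂ W)} {S' : SOps (Module.End ℂ W')}
    (φ : W →ₗ[ℂ] W') (h : SHom S S' φ) : (TW S).Mod →ₗ[T] (TW S').Mod :=
  linT (M := (TW S).Mod) (N := (TW S').Mod) (φ.lTensor Fk)
    (fun i m => by
      rw [TOps.smul_e, TOps.smul_e]; exact TWInt_e h i m)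
    (fun k l m => by
      rw [TOps.smul_x, TOps.smul_x]; exact TWInt_x h k l m)
    (fun m => by
      rw [TOps.smul_z, TOps.smul_z]; exact TWInt_z h m)
    (fun j m => by
      rw [TOps.smul_u, TOps.smul_u]; exact TWInt_u h j m)
    (fun j m => by
      rw [TOps.smul_v, TOps.smul_v]; exact TWInt_v h j m)

theorem TW.map_apply {S : SOps (Module.End ℂ W)} {S' : SOps (Module.End ℂ W')}
    (φ : W →ₗ[ℂ] W') (h : SHom S S' φ) (t : Fk ⊗[ℂ] W) :
    TW.map φ h (t : (TW S).Mod) = (φ.lTensor Fk t : Fk ⊗[ℂ] W') := rfl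

theorem TW.map_injective {S : SOps (Module.End ℂ W)} {S' : SOps (Module.End ℂ W')}
    (φ : W →ₗ[ℂ] W') (h : SHom S S' φ) (hφ : Function.Injective φ) :
    Function.Injective (TW.map φ h) :=
  Module.Flat.lTensor_preserves_injective_linearMap (M := Fk) φ hφ

theorem TW.map_surjective {S : SOps (Module.End ℂ W)} {S' : SOps (Module.End ℂ W')}
    (φ : W →ₗ[ℂ] W') (h : SHom S S' φ) (hφ : Function.Surjective φ) :
    Function.Surjective (TW.map φ h) :=
  LinearMap.lTensor_surjective Fk hφ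

theorem TW.map_exact {S : SOps (Module.End ℂ W)} {S' : SOps (Module.End ℂ W')}
    {S'' : SOps (Module.End ℂ W'')} (φ : W →ₗ[ℂ] W') (h : SHom S S' φ)
    (ψ : W' →ₗ[ℂ] W'') (h' : SHom S' S'' ψ) (hφ : Function.Exact φ ψ) :
    Function.Exact (TW.map φ h) (TW.map ψ h') :=
  Module.Flat.lTensor_exact Fk hφ

end TW

end Crest.Agent.S0268
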