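import Crest.Agent.SX_StepQ

/-!
# S0297/S0298: from `Good` to an intertwining map into the tensor square of the Specht module
-/

set_option autoImplicit false

namespace Crest.Agent.SX

open Equiv Equiv.Perm TensorProduct

variable {Ω ι : Type} [Fintype Ω] [DecidableEq Ω] [Fintype ι] (h : ι → ℕ)

/-- The map from the tensor square to functions on pairs of words. -/
noncomputable def PhiS (Ω : Type) {ι : Type} [Fintype Ω] [DecidableEq Ω] (h : ι → ℕ) :
    (Sp (Ω := Ω) h ⊗[ℂ] Sp (Ω := Ω) h) →ₗ[ℂ] (WW Ω → ℂ) :=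
  TensorProduct.lift
    (LinearMap.mk₂ ℂ (fun x y => fun z : WW Ω => x.1 z.1 * y.1 z.2)
      (fun x x' y => by funext z; simp [add_mul]) (fun a x y => by funext z; simp [mul_assoc])
      (fun x y y' => by funext z; simp [mul_add]) (fun a x y => by funext z; simp; ring))

theorem PhiS_tmul (x y : Sp (Ω := Ω) h) (z : WW Ω) :
    PhiS Ω h (x ⊗ₜ y) z = x.1 z.1 * y.1 z.2 := rfl

theorem PhiS_inj : Function.Injective (PhiS Ω h) := by
  rw [injective_iff_map_eq_zero]
  intro T hT
  by_contra hne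
  let j : Sp (Ω := Ω) h →ₗ[ℂ] (WW Ω → ℂ) :=
    { toFun := fun x z => x.1 z.1
      map_add' := fun _ _ => rfl
      map_smul' := fun _ _ => rfl }
  have hj : Function.Injective j := by
    intro x y h
    apply Subtype.ext
    funext w
    exact congrFun h (w, w)
  obtain ⟨x, hx⟩ := qmap_ne_zero (A := Ω) (B := Ω) j j LinearMap.id hj hj T hne
  apply hx
  have key : ∀ T, qmap (A := Ω) (B := Ω) j j LinearMap.id T x =
      PhiS Ω h T ((resl x).1, (resr x).1) := by
    intro T
    induction T using TensorProduct.induction_on with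
    | zero => simp
    | tmul x y => rfl
    | add a b ha hb => rw [map_add, map_add, Pi.add_apply, Pi.add_apply, ha, hb]
  rw [key, hT]
  rfl

theorem PhiS_equiv (g : Perm Ω) (T : Sp (Ω := Ω) h ⊗[ℂ] Sp (Ω := Ω) h) (z : WW Ω) :
    PhiS Ω h (Representation.tprod (SpRep Ω h) (SpRep Ω h) g T) z = PhiS Ω h T (pull g z) := by
  induction T using TensorProduct.induction_on with
  | zero => simp
  | tmul x y => rfl
  | add a b ha hb => rw [map_add, map_add, map_add, Pi.add_apply, Pi.add_apply, ha, hb]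

theorem VV_le_range : VV (Ω := Ω) h ≤ LinearMap.range (PhiS Ω h) := by
  refine Submodule.span_le.2 ?_
  rintro _ ⟨t, t', rfl⟩
  exact ⟨⟨_, pt_mem_Sp t⟩ ⊗ₜ ⟨_, pt_mem_Sp t'⟩, rfl⟩

/-- A good representation embeds in the tensor square. -/
theorem Good_intertwine {R : AddSubgroup ℂ} {p : WW Ω} {W : Type} [AddCommGroup W] [Module ℂ W]
    (σ : Representation ℂ (Perm Ω) W) (hG : Good R h p σ) :
    ∃ Ψ : W →ₗ[ℂ] (Sp (Ω := Ω) h ⊗[ℂ] Sp (Ω := Ω) h), Function.Injective Ψ ∧
      ∀ g w, Ψ (σ g w) = Representation.tprod (SpRep Ω h) (SpRep Ω h) g (Ψ w) := by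
  obtain ⟨j, hj1, hj2, hj3, -⟩ := hG
  let e := LinearEquiv.ofInjective (PhiS Ω h) (PhiS_inj h)
  let j' : W →ₗ[ℂ] LinearMap.range (PhiS Ω h) :=
    LinearMap.codRestrict _ j fun w => VV_le_range h (hj3 w)
  have hval : ∀ w, PhiS Ω h ((e.symm.toLinearMap ∘ₗ j') w) = j w := by
    intro w
    have h1 : e (e.symm (j' w)) = j' w := LinearEquiv.apply_symm_apply _ _
    exact congrArg Subtype.val h1
  refine ⟨e.symm.toLinearMap ∘ₗ j', ?_, ?_⟩
  · intro w w' hw
    apply hj1
    rw [← hval w, ← hval w', hw]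
  · intro g w
    apply PhiS_inj h
    rw [hval]
    funext z
    rw [PhiS_equiv, hval, hj2]

end Crest.Agent.SX
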