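import Crest.Agent.SX_Main
import Crest.Agent.SX_Int
import Crest.Prelude.Def_SpechtModule

/-!
# S0297: final assembly (helper61)
-/

set_option autoImplicit false

namespace Crest.Agent.SX

open Equiv Equiv.Perm TensorProduct Crest.AlgebraR.Specht

/-- The cells of the staircase. -/
def cellEquiv (m : ℕ) : Cel (stair m) ≃ {c // c ∈ staircaseShape m} where
  toFun c := ⟨((c.2 : ℕ), m - 1 - (c.1 : ℕ)), by
    have h1 := c.1.2
    have h2 := c.2.2
    simp only [stair] at h2
    simp only [staircaseShape, Finset.mem_filter, Finset.mem_product, Finset.mem_range]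
    omega⟩
  invFun c := ⟨⟨m - 1 - c.1.2, by
      have h := c.2
      simp only [staircaseShape, Finset.mem_filter, Finset.mem_product, Finset.mem_range] at h
      omega⟩, ⟨c.1.1, by
      have h := c.2
      simp only [staircaseShape, Finset.mem_filter, Finset.mem_product, Finset.mem_range] at h
      simp only [stair]
      omega⟩⟩
  left_inv c := by
    obtain ⟨i, r⟩ := c
    have h1 := i.2
    have hi : m - 1 - (m - 1 - (i : ℕ)) = i := by omega
    refine Sigma.ext ?_ ?_
    · exact Fin.ext hi
    · refine (Fin.heq_ext_iff ?_).2 rfl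
      simp only [stair]
      omega
  right_inv c := by
    obtain ⟨⟨r, j⟩, h⟩ := c
    simp only [staircaseShape, Finset.mem_filter, Finset.mem_product, Finset.mem_range] at h
    apply Subtype.ext
    simp only [Prod.mk.injEq, true_and]
    omega

theorem card_staircase (m : ℕ) : 2 * (staircaseShape m).card = m * (m + 1) := by
  rw [← card_stair m, ← Fintype.card_coe, Fintype.card_congr (cellEquiv m)]

/-- A vector of the free space on row words as a function. -/
noncomputable def toF {n : ℕ} : (RowWord n →₀ ℂ) →ₗ[ℂ] ((Fin n → ℕ) → ℂ) where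
  toFun x := fun w => x w
  map_add' _ _ := rfl
  map_smul' _ _ := rfl

theorem toF_apply {n : ℕ} (x : RowWord n →₀ ℂ) (w : Fin n → ℕ) : toF x w = x w := rfl

theorem toF_inj {n : ℕ} : Function.Injective (toF (n := n)) := fun x y h => by
  ext w
  exact congrFun h w

theorem toF_rep {n : ℕ} (g : Perm (Fin n)) (x : RowWord n →₀ ℂ) (w : Fin n → ℕ) :
    toF (rowWordRep n g x) w = toF x (w ∘ g) := by
  have key : ∀ W W' : RowWord n, W = g • W' → (rowWordRep n g x) W = x W' := by
    rintro W W' rfl
    exact Finsupp.mapDomain_apply (MulAction.injective g) x _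
  refine key w (fun i => w (g i)) ?_
  funext i
  show w i = w (g (g.symm i))
  rw [Equiv.apply_symm_apply]

open scoped Classical in
theorem polytabloid_apply {D : Finset (ℕ × ℕ)} (t : D ≃ Fin D.card) (W : RowWord D.card) :
    polytabloid t W = ∑ σ ∈ columnGroup t,
      if σ • rowWord t = W then ((sign σ : ℤ) : ℂ) else 0 := by
  rw [polytabloid, Finsupp.finsetSum_apply]
  refine Finset.sum_congr rfl fun σ _ => ?_
  rw [Finsupp.smul_apply, Finsupp.single_apply, smul_eq_mul]
  split_ifs <;> simp

/-- The polytabloid of the Prelude is the polytabloid `pt`. -/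
theorem toF_polytabloid (m : ℕ) (t : (staircaseShape m) ≃ Fin (staircaseShape m).card) :
    toF (polytabloid t) = pt (t.symm.trans (cellEquiv m).symm) := by
  classical
  funext w
  rw [toF_apply]
  refine (polytabloid_apply t w).trans ?_
  rw [pt_def, columnGroup, Finset.sum_filter]
  refine Finset.sum_congr rfl fun s _ => ?_
  have hc : ∀ c c' : {c // c ∈ staircaseShape m},
      ((cellEquiv m).symm c).1 = ((cellEquiv m).symm c').1 ↔ c.1.2 = c'.1.2 := by
    intro c c'
    have h := c.2
    have h' := c'.2
    simp only [staircaseShape, Finset.mem_filter, Finset.mem_product, Finset.mem_range] at h h'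
    show (⟨m - 1 - c.1.2, _⟩ : Fin m) = ⟨m - 1 - c'.1.2, _⟩ ↔ _
    rw [Fin.mk.injEq]
    omega
  have h1 : (∀ i, (t.symm (s i)).1.2 = (t.symm i).1.2) ↔
      ∀ x, ((t.symm.trans (cellEquiv m).symm) (s x)).1 =
        ((t.symm.trans (cellEquiv m).symm) x).1 := by
    refine forall_congr' fun x => ?_
    rw [Equiv.trans_apply, Equiv.trans_apply, hc]
  have h2 : (s • rowWord t = (w : RowWord _)) ↔
      ∀ x, w (s x) = (((t.symm.trans (cellEquiv m).symm) x).2 : ℕ) := by
    constructor
    · intro h x
      have := congrFun h (s x)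
      show w (s x) = (t.symm x).1.1
      rw [← this]
      show (t.symm (s.symm (s x))).1.1 = _
      rw [Equiv.symm_apply_apply]
    · intro h
      funext x
      show (t.symm (s.symm x)).1.1 = w x
      have := h (s.symm x)
      rw [Equiv.apply_symm_apply] at this
      exact this.symm
  by_cases hA : ∀ i, (t.symm (s i)).1.2 = (t.symm i).1.2
  · rw [if_pos hA]
    by_cases hB : s • rowWord t = (w : RowWord _)
    · rw [if_pos hB, if_pos ⟨h1.1 hA, h2.1 hB⟩]
    · rw [if_neg hB, if_neg (fun h => hB (h2.2 h.2))]
  · rw [if_neg hA, if_neg (fun h => hA (h1.2 h.1))]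

theorem polytabloid_mem {D : Finset (ℕ × ℕ)} (t : D ≃ Fin D.card) :
    polytabloid t ∈ (spechtSubrep D).toSubmodule := by
  show polytabloid t ∈ sInf _
  rw [Submodule.mem_sInf]
  intro p hp
  exact hp.1 ⟨t, rfl⟩

/-- The map from the tensor square to functions on pairs of words. -/
noncomputable def PhiT (D : Finset (ℕ × ℕ)) :
    ((spechtSubrep D).toSubmodule ⊗[ℂ] (spechtSubrep D).toSubmodule) →ₗ[ℂ]
      (WW (Fin D.card) → ℂ) :=
  TensorProduct.lift
    (LinearMap.mk₂ ℂ (fun x y => fun z : WW (Fin D.card) => toF x.1 z.1 * toF y.1 z.2)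
      (fun x x' y => by funext z; simp [add_mul]) (fun a x y => by funext z; simp [mul_assoc])
      (fun x y y' => by funext z; simp [mul_add]) (fun a x y => by funext z; simp; ring))

theorem PhiT_tmul (D : Finset (ℕ × ℕ)) (x y : (spechtSubrep D).toSubmodule)
    (z : WW (Fin D.card)) : PhiT D (x ⊗ₜ y) z = toF x.1 z.1 * toF y.1 z.2 := rfl

theorem Sp_le_map (m : ℕ) : Sp (Ω := Fin (staircaseShape m).card) (stair m) ≤
    ((spechtSubrep (staircaseShape m)).toSubmodule).map toF := by
  refine Submodule.span_le.2 ?_
  rintro _ ⟨t, rfl⟩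
  refine ⟨_, polytabloid_mem (t.trans (cellEquiv m)).symm, ?_⟩
  rw [toF_polytabloid]
  have e1 : (t.trans (cellEquiv m)).symm.symm.trans (cellEquiv m).symm = t := by
    apply Equiv.ext
    intro x
    show (cellEquiv m).symm ((cellEquiv m) (t x)) = t x
    rw [Equiv.symm_apply_apply]
  rw [e1]

/-- The comparison map. -/
theorem exists_psi (m : ℕ) :
    ∃ ψ : Sp (Ω := Fin (staircaseShape m).card) (stair m) →ₗ[ℂ]
        (spechtSubrep (staircaseShape m)).toSubmodule,
      (∀ x, toF (ψ x).1 = x.1) := by
  have h1 := Sp_le_map m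
  let L : (spechtSubrep (staircaseShape m)).toSubmodule →ₗ[ℂ]
      ((Fin (staircaseShape m).card → ℕ) → ℂ) := toF ∘ₗ Submodule.subtype _
  have hL : Function.Injective L := fun x y h => Subtype.ext (toF_inj h)
  choose f hf hf' using fun x : Sp (Ω := Fin (staircaseShape m).card) (stair m) => h1 x.2
  refine ⟨{ toFun := fun x => ⟨f x, hf x⟩
            map_add' := fun x y => ?_
            map_smul' := fun a x => ?_ }, fun x => hf' x⟩
  · apply hL
    rw [map_add]
    show toF (f (x + y)) = toF (f x) + toF (f y)
    rw [hf', hf', hf']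
    rfl
  · apply hL
    rw [map_smul]
    show toF (f (a • x)) = a • toF (f x)
    rw [hf', hf']
    rfl

theorem saxl_final (m : ℕ) (W : Type) [AddCommGroup W] [Module ℂ W] [FiniteDimensional ℂ W]
    (σ : Representation ℂ (Equiv.Perm (Fin (staircaseShape m).card)) W)
    (hσ : Representation.IsIrreducible σ) :
    Nontrivial (Representation.IntertwiningMap σ
      (Representation.tprod (spechtRep (staircaseShape m)) (spechtRep (staircaseShape m)))) := by
  obtain ⟨V, hV⟩ := exists_val
  have hc := card_staircase m
  have hW : Nontrivial W := by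
    by_contra hn
    rw [not_nontrivial_iff_subsingleton] at hn
    have h1 := hσ
    have h2 : (⊥ : Subrepresentation σ) ≠ ⊤ := bot_ne_top
    apply h2
    apply SetLike.ext
    intro x
    have hx : x = 0 := Subsingleton.elim _ _
    subst hx
    constructor
    · intro _; trivial
    · intro _; exact Submodule.zero_mem (⊥ : Subrepresentation σ).toSubmodule
  -- a staircase pair of words
  have t : {c // c ∈ staircaseShape m} ≃ Fin (staircaseShape m).card :=
    (staircaseShape m).equivFin
  let p : WW (Fin (staircaseShape m).card) := (fun x => (t.symm x).1.1, fun x => (t.symm x).1.2)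
  have hp : IsStair m p := by
    constructor
    · intro x y h
      apply t.symm.injective
      apply Subtype.ext
      exact h
    · intro x
      have h := (t.symm x).2
      simp only [staircaseShape, Finset.mem_filter, Finset.mem_product, Finset.mem_range] at h
      exact h.2
  have hG := saxl_all V hV m (Fin (staircaseShape m).card) (by rw [Fintype.card_fin]; exact hc)
    p hp W σ hσ
  obtain ⟨Ψ, hΨ1, hΨ2⟩ := Good_intertwine (stair m) σ hG
  obtain ⟨ψ, hψ⟩ := exists_psi m
  have hψe : ∀ g x, ψ (SpRep _ (stair m) g x) = spechtRep (staircaseShape m) g (ψ x) := by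
    intro g x
    apply Subtype.ext
    apply toF_inj
    rw [hψ]
    funext w
    show x.1 (w ∘ g) = toF (rowWordRep _ g (ψ x).1) w
    rw [toF_rep, hψ]
  have hcomp : ∀ T, PhiT (staircaseShape m) (TensorProduct.map ψ ψ T) =
      PhiS (Fin (staircaseShape m).card) (stair m) T := by
    intro T
    induction T using TensorProduct.induction_on with
    | zero => simp
    | tmul x y =>
      funext z
      rw [TensorProduct.map_tmul, PhiT_tmul, PhiS_tmul, hψ, hψ]
    | add a b ha hb => rw [map_add, map_add, map_add, ha, hb]
  let Ψ' : Representation.IntertwiningMap σ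
      (Representation.tprod (spechtRep (staircaseShape m)) (spechtRep (staircaseShape m))) :=
    { toLinearMap := TensorProduct.map ψ ψ ∘ₗ Ψ
      isIntertwining' := by
        intro g
        ext w
        show TensorProduct.map ψ ψ (Ψ (σ g w)) = _
        rw [hΨ2]
        show _ = Representation.tprod (spechtRep (staircaseShape m))
          (spechtRep (staircaseShape m)) g (TensorProduct.map ψ ψ (Ψ w))
        generalize Ψ w = T
        induction T using TensorProduct.induction_on with
        | zero => simp
        | tmul x y =>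
          show TensorProduct.map ψ ψ ((SpRep _ (stair m) g x) ⊗ₜ (SpRep _ (stair m) g y)) = _
          rw [TensorProduct.map_tmul, hψe, hψe]
          rfl
        | add a b ha hb => rw [map_add, map_add, ha, hb, ← map_add, ← map_add] }
  refine ⟨⟨Ψ', 0, fun h0 => ?_⟩⟩
  obtain ⟨w, hw⟩ := exists_ne (0 : W)
  have h1 : TensorProduct.map ψ ψ (Ψ w) = 0 := by
    have := congrArg (fun f : Representation.IntertwiningMap σ _ => f w) h0
    exact this
  have h2 := hcomp (Ψ w)
  rw [h1, map_zero] at h2
  have h3 : Ψ w = 0 := PhiS_inj (stair m) (by rw [← h2, map_zero])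
  exact hw (hΨ1 (by rw [h3, map_zero]))

end Crest.Agent.SX
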