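import Crest.Agent.SY_K2b

/-!
# S0298, combinatorics (4): the recursion

`Full n k` for all `n ≥ 63` (and many smaller `n`), from the staircases, the TOP-4 rule and the three
extra sets of levels `Full 34 8`, `Full 39 9`, `Full 54 11`.
-/

set_option autoImplicit false

namespace Crest.Agent.SY

open Finset

theorem full_T (n w : ℕ) (h : 2 * n = w * (w + 1)) : Full n w := by
  have h1 : ∑ j ∈ range (w + 1), j = n := by
    have := Finset.sum_range_id_mul_two (w + 1)
    rw [Nat.add_sub_cancel] at this
    nlinarith
  rw [← h1]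
  exact full_stair w

theorem full_tab (h34 : Full 34 8) (h39 : Full 39 9) (h54 : Full 54 11) (n : ℕ) (hn : n ≤ 138)
    (hn' : n ∉ ([2, 4, 5, 7, 8, 9, 11, 12, 13, 16, 17, 20, 22, 24, 26, 27, 30, 31, 33, 35, 37, 38, 41, 42, 43, 46, 47, 50, 51, 58, 62] : List ℕ)) :
    ∃ k, k * k ≤ 3 * n + 49 ∧ Full n k := by
  have f0 : Full 0 0 := full_T 0 0 (by norm_num)
  have f1 : Full 1 1 := full_T 1 1 (by norm_num)
  have f3 : Full 3 2 := full_T 3 2 (by norm_num)
  have f6 : Full 6 3 := full_T 6 3 (by norm_num)
  have f10 : Full 10 4 := full_T 10 4 (by norm_num)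
  have f14 : Full 14 5 := f0.top (by norm_num) (by norm_num) (by decide)
  have f15 : Full 15 5 := full_T 15 5 (by norm_num)
  have f18 : Full 18 6 := f0.top (by norm_num) (by norm_num) (by decide)
  have f19 : Full 19 6 := f1.top (by norm_num) (by norm_num) (by decide)
  have f21 : Full 21 6 := full_T 21 6 (by norm_num)
  have f23 : Full 23 7 := f1.top (by norm_num) (by norm_num) (by decide)
  have f25 : Full 25 7 := f3.top (by norm_num) (by norm_num) (by decide)
  have f28 : Full 28 7 := full_T 28 7 (by norm_num)
  have f29 : Full 29 8 := f3.top (by norm_num) (by norm_num) (by decide)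
  have f32 : Full 32 8 := f6.top (by norm_num) (by norm_num) (by decide)
  have f34 : Full 34 8 := h34
  have f36 : Full 36 8 := full_T 36 8 (by norm_num)
  have f39 : Full 39 9 := h39
  have f40 : Full 40 9 := f10.top (by norm_num) (by norm_num) (by decide)
  have f44 : Full 44 9 := f14.top (by norm_num) (by norm_num) (by decide)
  have f45 : Full 45 9 := full_T 45 9 (by norm_num)
  have f48 : Full 48 10 := f14.top (by norm_num) (by norm_num) (by decide)
  have f49 : Full 49 10 := f15.top (by norm_num) (by norm_num) (by decide)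
  have f52 : Full 52 10 := f18.top (by norm_num) (by norm_num) (by decide)
  have f53 : Full 53 10 := f19.top (by norm_num) (by norm_num) (by decide)
  have f54 : Full 54 11 := h54
  have f55 : Full 55 10 := full_T 55 10 (by norm_num)
  have f56 : Full 56 11 := f18.top (by norm_num) (by norm_num) (by decide)
  have f57 : Full 57 11 := f19.top (by norm_num) (by norm_num) (by decide)
  have f59 : Full 59 11 := f21.top (by norm_num) (by norm_num) (by decide)
  have f60 : Full 60 12 := f18.top (by norm_num) (by norm_num) (by decide)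
  have f61 : Full 61 11 := f23.top (by norm_num) (by norm_num) (by decide)
  have f63 : Full 63 11 := f25.top (by norm_num) (by norm_num) (by decide)
  have f64 : Full 64 13 := f18.top (by norm_num) (by norm_num) (by decide)
  have f65 : Full 65 12 := f23.top (by norm_num) (by norm_num) (by decide)
  have f66 : Full 66 11 := full_T 66 11 (by norm_num)
  have f67 : Full 67 12 := f25.top (by norm_num) (by norm_num) (by decide)
  have f68 : Full 68 14 := f18.top (by norm_num) (by norm_num) (by decide)
  have f69 : Full 69 13 := f23.top (by norm_num) (by norm_num) (by decide)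
  have f70 : Full 70 12 := f28.top (by norm_num) (by norm_num) (by decide)
  have f71 : Full 71 12 := f29.top (by norm_num) (by norm_num) (by decide)
  have f72 : Full 72 15 := f18.top (by norm_num) (by norm_num) (by decide)
  have f73 : Full 73 14 := f23.top (by norm_num) (by norm_num) (by decide)
  have f74 : Full 74 12 := f32.top (by norm_num) (by norm_num) (by decide)
  have f75 : Full 75 13 := f29.top (by norm_num) (by norm_num) (by decide)
  have f76 : Full 76 12 := f34.top (by norm_num) (by norm_num) (by decide)
  have f77 : Full 77 15 := f23.top (by norm_num) (by norm_num) (by decide)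
  have f78 : Full 78 12 := full_T 78 12 (by norm_num)
  have f79 : Full 79 14 := f29.top (by norm_num) (by norm_num) (by decide)
  have f80 : Full 80 13 := f34.top (by norm_num) (by norm_num) (by decide)
  have f81 : Full 81 16 := f23.top (by norm_num) (by norm_num) (by decide)
  have f82 : Full 82 13 := f36.top (by norm_num) (by norm_num) (by decide)
  have f83 : Full 83 15 := f29.top (by norm_num) (by norm_num) (by decide)
  have f84 : Full 84 14 := f34.top (by norm_num) (by norm_num) (by decide)
  have f85 : Full 85 13 := f39.top (by norm_num) (by norm_num) (by decide)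
  have f86 : Full 86 13 := f40.top (by norm_num) (by norm_num) (by decide)
  have f87 : Full 87 16 := f29.top (by norm_num) (by norm_num) (by decide)
  have f88 : Full 88 15 := f34.top (by norm_num) (by norm_num) (by decide)
  have f89 : Full 89 14 := f39.top (by norm_num) (by norm_num) (by decide)
  have f90 : Full 90 13 := f44.top (by norm_num) (by norm_num) (by decide)
  have f91 : Full 91 13 := full_T 91 13 (by norm_num)
  have f92 : Full 92 16 := f34.top (by norm_num) (by norm_num) (by decide)
  have f93 : Full 93 15 := f39.top (by norm_num) (by norm_num) (by decide)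
  have f94 : Full 94 14 := f44.top (by norm_num) (by norm_num) (by decide)
  have f95 : Full 95 14 := f45.top (by norm_num) (by norm_num) (by decide)
  have f96 : Full 96 17 := f34.top (by norm_num) (by norm_num) (by decide)
  have f97 : Full 97 16 := f39.top (by norm_num) (by norm_num) (by decide)
  have f98 : Full 98 14 := f48.top (by norm_num) (by norm_num) (by decide)
  have f99 : Full 99 14 := f49.top (by norm_num) (by norm_num) (by decide)
  have f100 : Full 100 18 := f34.top (by norm_num) (by norm_num) (by decide)
  have f101 : Full 101 17 := f39.top (by norm_num) (by norm_num) (by decide)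
  have f102 : Full 102 14 := f52.top (by norm_num) (by norm_num) (by decide)
  have f103 : Full 103 14 := f53.top (by norm_num) (by norm_num) (by decide)
  have f104 : Full 104 19 := f34.top (by norm_num) (by norm_num) (by decide)
  have f105 : Full 105 14 := full_T 105 14 (by norm_num)
  have f106 : Full 106 15 := f52.top (by norm_num) (by norm_num) (by decide)
  have f107 : Full 107 15 := f53.top (by norm_num) (by norm_num) (by decide)
  have f108 : Full 108 15 := f54.top (by norm_num) (by norm_num) (by decide)
  have f109 : Full 109 15 := f55.top (by norm_num) (by norm_num) (by decide)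
  have f110 : Full 110 15 := f56.top (by norm_num) (by norm_num) (by decide)
  have f111 : Full 111 15 := f57.top (by norm_num) (by norm_num) (by decide)
  have f112 : Full 112 16 := f54.top (by norm_num) (by norm_num) (by decide)
  have f113 : Full 113 15 := f59.top (by norm_num) (by norm_num) (by decide)
  have f114 : Full 114 16 := f56.top (by norm_num) (by norm_num) (by decide)
  have f115 : Full 115 15 := f61.top (by norm_num) (by norm_num) (by decide)
  have f116 : Full 116 17 := f54.top (by norm_num) (by norm_num) (by decide)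
  have f117 : Full 117 15 := f63.top (by norm_num) (by norm_num) (by decide)
  have f118 : Full 118 16 := f60.top (by norm_num) (by norm_num) (by decide)
  have f119 : Full 119 16 := f61.top (by norm_num) (by norm_num) (by decide)
  have f120 : Full 120 15 := full_T 120 15 (by norm_num)
  have f121 : Full 121 16 := f63.top (by norm_num) (by norm_num) (by decide)
  have f122 : Full 122 17 := f60.top (by norm_num) (by norm_num) (by decide)
  have f123 : Full 123 16 := f65.top (by norm_num) (by norm_num) (by decide)
  have f124 : Full 124 16 := f66.top (by norm_num) (by norm_num) (by decide)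
  have f125 : Full 125 16 := f67.top (by norm_num) (by norm_num) (by decide)
  have f126 : Full 126 17 := f64.top (by norm_num) (by norm_num) (by decide)
  have f127 : Full 127 17 := f65.top (by norm_num) (by norm_num) (by decide)
  have f128 : Full 128 16 := f70.top (by norm_num) (by norm_num) (by decide)
  have f129 : Full 129 16 := f71.top (by norm_num) (by norm_num) (by decide)
  have f130 : Full 130 18 := f64.top (by norm_num) (by norm_num) (by decide)
  have f131 : Full 131 17 := f69.top (by norm_num) (by norm_num) (by decide)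
  have f132 : Full 132 16 := f74.top (by norm_num) (by norm_num) (by decide)
  have f133 : Full 133 17 := f71.top (by norm_num) (by norm_num) (by decide)
  have f134 : Full 134 16 := f76.top (by norm_num) (by norm_num) (by decide)
  have f135 : Full 135 18 := f69.top (by norm_num) (by norm_num) (by decide)
  have f136 : Full 136 16 := full_T 136 16 (by norm_num)
  have f137 : Full 137 17 := f75.top (by norm_num) (by norm_num) (by decide)
  have f138 : Full 138 17 := f76.top (by norm_num) (by norm_num) (by decide)
  interval_cases n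
  · exact ⟨0, by norm_num, f0⟩
  · exact ⟨1, by norm_num, f1⟩
  · simp at hn'
  · exact ⟨2, by norm_num, f3⟩
  · simp at hn'
  · simp at hn'
  · exact ⟨3, by norm_num, f6⟩
  · simp at hn'
  · simp at hn'
  · simp at hn'
  · exact ⟨4, by norm_num, f10⟩
  · simp at hn'
  · simp at hn'
  · simp at hn'
  · exact ⟨5, by norm_num, f14⟩
  · exact ⟨5, by norm_num, f15⟩
  · simp at hn'
  · simp at hn'
  · exact ⟨6, by norm_num, f18⟩
  · exact ⟨6, by norm_num, f19⟩
  · simp at hn'
  · exact ⟨6, by norm_num, f21⟩
  · simp at hn'
  · exact ⟨7, by norm_num, f23⟩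
  · simp at hn'
  · exact ⟨7, by norm_num, f25⟩
  · simp at hn'
  · simp at hn'
  · exact ⟨7, by norm_num, f28⟩
  · exact ⟨8, by norm_num, f29⟩
  · simp at hn'
  · simp at hn'
  · exact ⟨8, by norm_num, f32⟩
  · simp at hn'
  · exact ⟨8, by norm_num, f34⟩
  · simp at hn'
  · exact ⟨8, by norm_num, f36⟩
  · simp at hn'
  · simp at hn'
  · exact ⟨9, by norm_num, f39⟩
  · exact ⟨9, by norm_num, f40⟩
  · simp at hn'
  · simp at hn'
  · simp at hn'
  · exact ⟨9, by norm_num, f44⟩
  · exact ⟨9, by norm_num, f45⟩
  · simp at hn'
  · simp at hn'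
  · exact ⟨10, by norm_num, f48⟩
  · exact ⟨10, by norm_num, f49⟩
  · simp at hn'
  · simp at hn'
  · exact ⟨10, by norm_num, f52⟩
  · exact ⟨10, by norm_num, f53⟩
  · exact ⟨11, by norm_num, f54⟩
  · exact ⟨10, by norm_num, f55⟩
  · exact ⟨11, by norm_num, f56⟩
  · exact ⟨11, by norm_num, f57⟩
  · simp at hn'
  · exact ⟨11, by norm_num, f59⟩
  · exact ⟨12, by norm_num, f60⟩
  · exact ⟨11, by norm_num, f61⟩
  · simp at hn'
  · exact ⟨11, by norm_num, f63⟩
  · exact ⟨13, by norm_num, f64⟩
  · exact ⟨12, by norm_num, f65⟩
  · exact ⟨11, by norm_num, f66⟩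
  · exact ⟨12, by norm_num, f67⟩
  · exact ⟨14, by norm_num, f68⟩
  · exact ⟨13, by norm_num, f69⟩
  · exact ⟨12, by norm_num, f70⟩
  · exact ⟨12, by norm_num, f71⟩
  · exact ⟨15, by norm_num, f72⟩
  · exact ⟨14, by norm_num, f73⟩
  · exact ⟨12, by norm_num, f74⟩
  · exact ⟨13, by norm_num, f75⟩
  · exact ⟨12, by norm_num, f76⟩
  · exact ⟨15, by norm_num, f77⟩
  · exact ⟨12, by norm_num, f78⟩
  · exact ⟨14, by norm_num, f79⟩
  · exact ⟨13, by norm_num, f80⟩
  · exact ⟨16, by norm_num, f81⟩
  · exact ⟨13, by norm_num, f82⟩
  · exact ⟨15, by norm_num, f83⟩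
  · exact ⟨14, by norm_num, f84⟩
  · exact ⟨13, by norm_num, f85⟩
  · exact ⟨13, by norm_num, f86⟩
  · exact ⟨16, by norm_num, f87⟩
  · exact ⟨15, by norm_num, f88⟩
  · exact ⟨14, by norm_num, f89⟩
  · exact ⟨13, by norm_num, f90⟩
  · exact ⟨13, by norm_num, f91⟩
  · exact ⟨16, by norm_num, f92⟩
  · exact ⟨15, by norm_num, f93⟩
  · exact ⟨14, by norm_num, f94⟩
  · exact ⟨14, by norm_num, f95⟩
  · exact ⟨17, by norm_num, f96⟩
  · exact ⟨16, by norm_num, f97⟩
  · exact ⟨14, by norm_num, f98⟩
  · exact ⟨14, by norm_num, f99⟩
  · exact ⟨18, by norm_num, f100⟩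
  · exact ⟨17, by norm_num, f101⟩
  · exact ⟨14, by norm_num, f102⟩
  · exact ⟨14, by norm_num, f103⟩
  · exact ⟨19, by norm_num, f104⟩
  · exact ⟨14, by norm_num, f105⟩
  · exact ⟨15, by norm_num, f106⟩
  · exact ⟨15, by norm_num, f107⟩
  · exact ⟨15, by norm_num, f108⟩
  · exact ⟨15, by norm_num, f109⟩
  · exact ⟨15, by norm_num, f110⟩
  · exact ⟨15, by norm_num, f111⟩
  · exact ⟨16, by norm_num, f112⟩
  · exact ⟨15, by norm_num, f113⟩
  · exact ⟨16, by norm_num, f114⟩
  · exact ⟨15, by norm_num, f115⟩
  · exact ⟨17, by norm_num, f116⟩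
  · exact ⟨15, by norm_num, f117⟩
  · exact ⟨16, by norm_num, f118⟩
  · exact ⟨16, by norm_num, f119⟩
  · exact ⟨15, by norm_num, f120⟩
  · exact ⟨16, by norm_num, f121⟩
  · exact ⟨17, by norm_num, f122⟩
  · exact ⟨16, by norm_num, f123⟩
  · exact ⟨16, by norm_num, f124⟩
  · exact ⟨16, by norm_num, f125⟩
  · exact ⟨17, by norm_num, f126⟩
  · exact ⟨17, by norm_num, f127⟩
  · exact ⟨16, by norm_num, f128⟩
  · exact ⟨16, by norm_num, f129⟩
  · exact ⟨18, by norm_num, f130⟩
  · exact ⟨17, by norm_num, f131⟩
  · exact ⟨16, by norm_num, f132⟩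
  · exact ⟨17, by norm_num, f133⟩
  · exact ⟨16, by norm_num, f134⟩
  · exact ⟨18, by norm_num, f135⟩
  · exact ⟨16, by norm_num, f136⟩
  · exact ⟨17, by norm_num, f137⟩
  · exact ⟨17, by norm_num, f138⟩

theorem full_large (h34 : Full 34 8) (h39 : Full 39 9) (h54 : Full 54 11) (n : ℕ) (hn : 63 ≤ n) :
    ∃ k, k * k ≤ 3 * n + 49 ∧ Full n k := by
  induction n using Nat.strong_induction_on with
  | _ n ih =>
    by_cases h : n ≤ 138
    · refine full_tab h34 h39 h54 n h ?_
      intro hc
      simp only [List.mem_cons, List.not_mem_nil, or_false] at hc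
      omega
    · push Not at h
      obtain ⟨k, hk⟩ : ∃ k, k = Nat.sqrt (3 * n) := ⟨_, rfl⟩
      have h1 : k * k ≤ 3 * n := by rw [hk]; exact Nat.sqrt_le (3 * n)
      have h2 : 3 * n < (k + 1) * (k + 1) := by rw [hk]; exact Nat.lt_succ_sqrt (3 * n)
      have h20 : 20 ≤ k := by
        by_contra hcon
        have : k + 1 ≤ 20 := by omega
        have := Nat.mul_le_mul this this
        omega
      have h4 : 4 * k + 57 ≤ n := by
        by_contra hcon
        have h3 : n ≤ 4 * k + 56 := by omega
        -- `k * k ≤ 3 n ≤ 12 k + 168`, hence `k ≤ 20`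
        have h5 : k ≤ 20 := by
          by_contra hk'
          have : 21 ≤ k := by omega
          nlinarith
        omega
      have h8 : 8 * k ≤ n + 48 := by
        by_contra hcon
        have h3 : n + 49 ≤ 8 * k := by omega
        nlinarith
      obtain ⟨m, hm⟩ : ∃ m, n + 6 = m + 4 * k := ⟨n + 6 - 4 * k, by omega⟩
      obtain ⟨j, hj1, hj2⟩ := ih m (by omega) (by omega)
      have hjk : j + 4 ≤ k := by
        by_contra hcon
        have h3 : k ≤ j + 3 := by omega
        have h5 : 20 ≤ j + 3 := by omega
        nlinarith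
      refine ⟨k, by omega, hj2.top hjk hm (Or.inl ⟨by omega, ?_, ?_, h8, ?_⟩)⟩
      · omega
      · omega
      · nlinarith

end Crest.Agent.SY
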