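import Crest.Agent.SY_E15

/-!
# S0298, bases (16): the check with one exceptional partition, `n = 47`
-/

set_option autoImplicit false
set_option maxRecDepth 100000

namespace Crest.Agent.SY.Ck

noncomputable section

/-- slow test, or exceptional -/
def slowX (exc : List ℕ) (b2 m n t C8 C4 : ℕ) (Ts : List Tm) (A8 A4 a0 a1 : ℕ) (L : List ℕ) :
    Bool :=
  slow b2 m n t C8 C4 Ts A8 A4 a0 a1 L |' (leL L exc &' leL exc L)

/-- test all lists `B ++ K` -/
def allBX (exc : List ℕ) (b2 m n t C8 C4 : ℕ) (Ts : List Tm) (K : List ℕ) (k8 k4 : ℕ) (Bs : List (List ℕ)) : Bool :=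
  @List.rec (List ℕ) (fun _ => Bool) true (fun B _ ih =>
    slowX exc b2 m n t C8 C4 Ts (Nat.add (ssub 8 B) k8) (Nat.add (ssub 4 B) k4)
      (cnt 0 (B ++ K)) (cnt 1 (B ++ K)) (B ++ K) &' ih) Bs

/-- test of a `κ` -/
def nodeX (exc : List ℕ) (b2 m n t C8 C4 : ℕ) (Ts : List Tm) (K : List ℕ) (rem : ℕ) : Bool :=
  ppK b2 m n C8 C4 K (lsum (d4 K)) (Nat.sub n rem) |'
  force Bool (ssub 8 K) fun k8 => force Bool (ssub 4 K) fun k4 => force Bool (hd K) fun k0 =>
    force Bool rem fun rem => allBX exc b2 m n t C8 C4 Ts K k8 k4 (failB b2 m C8 C4 k8 k4 k0 rem)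

/-- enumeration of all `κ` extending `K`; `x` = bound for the next row, `rem` = remaining cells,
the first four rows need at least `4 * hd K` of them -/
def enumX (exc : List ℕ) (b2 m n t C8 C4 : ℕ) (Ts : List Tm) (k : ℕ) : List ℕ → ℕ → ℕ → Bool :=
  @Nat.rec (fun _ => List ℕ → ℕ → ℕ → Bool) (fun _ _ _ => false)
    (fun _ ih K x rem => nodeX exc b2 m n t C8 C4 Ts K rem &'
      allN (fun y => ih (snoc K y) y (Nat.sub rem y)) (mn x (Nat.sub rem (Nat.mul 4 (hd K)))) 1) k

/-- the check for first row `y` -/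
def checkYX (exc : List ℕ) (b2 m n t C8 C4 : ℕ) (Ts : List Tm) (y : ℕ) : Bool :=
  enumX exc b2 m n t C8 C4 Ts n [y] y (Nat.sub n y)

end

end Crest.Agent.SY.Ck

namespace Crest.Agent.SY

open Finset Ck

theorem slowX_sound (exc : List ℕ) {b n t C8 C4 : ℕ} (hP : Par b n t C8 C4) {L : List ℕ} {S : Shp}
    (hS : IsR S L) (hn : S.size = n) (Ts : List Tm)
    (h : slowX exc (b + 2) (2 * b + 3) n t C8 C4 Ts (ssub 8 L) (ssub 4 L) (cnt 0 L) (cnt 1 L) L =
      true) : Good b t S ∨ IsR S exc := by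
  unfold slowX at h
  rw [or_rec, and_rec, Bool.or_eq_true, Bool.and_eq_true] at h
  rcases h with h | ⟨h1, h2⟩
  · exact Or.inl (slow_sound hP hS hn Ts h)
  · refine Or.inr fun r => ?_
    have e1 := leL_spec L exc h1 r
    have e2 := leL_spec exc L h2 r
    rw [hS r]
    omega

theorem allBX_sound (exc : List ℕ) {b n t C8 C4 : ℕ} (Ts : List Tm) (K : List ℕ) (Bs : List (List ℕ)) :
    allBX exc (b + 2) (2 * b + 3) n t C8 C4 Ts K (ssub 8 K) (ssub 4 K) Bs = true → ∀ B ∈ Bs,
    slowX exc (b + 2) (2 * b + 3) n t C8 C4 Ts (ssub 8 (B ++ K)) (ssub 4 (B ++ K)) (cnt 0 (B ++ K))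
      (cnt 1 (B ++ K)) (B ++ K) = true := by
  induction Bs with
  | nil => intro _ B hB; simp at hB
  | cons B0 Bs ih =>
    intro h B hB
    have e : allBX exc (b + 2) (2 * b + 3) n t C8 C4 Ts K (ssub 8 K) (ssub 4 K) (B0 :: Bs) =
      (slowX exc (b + 2) (2 * b + 3) n t C8 C4 Ts (Nat.add (ssub 8 B0) (ssub 8 K))
        (Nat.add (ssub 4 B0) (ssub 4 K)) (cnt 0 (B0 ++ K)) (cnt 1 (B0 ++ K)) (B0 ++ K) &&
        allBX exc (b + 2) (2 * b + 3) n t C8 C4 Ts K (ssub 8 K) (ssub 4 K) Bs) := and_rec _ _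
    rw [e, Bool.and_eq_true] at h
    rcases List.mem_cons.1 hB with rfl | hB
    · rw [ssub_append, ssub_append]; exact h.1
    · exact ih h.2 B hB

theorem nodeX_sound (exc : List ℕ) {b n t C8 C4 : ℕ} (hP : Par b n t C8 C4) (Ts : List Tm) {K : List ℕ} {S : Shp}
    (hK : IsR (Shp.drop 4 S) K) (hl : len K = (Shp.drop 4 S).a 0) (hn : S.size = n) {rem : ℕ}
    (hr : rem + lsum K = n)
    (h : nodeX exc (b + 2) (2 * b + 3) n t C8 C4 Ts K rem = true) : Good b t S ∨ IsR S exc := by
  unfold nodeX at h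
  rw [or_rec, Bool.or_eq_true, force_eq, force_eq, force_eq, force_eq] at h
  rcases h with h | h
  · rw [show Nat.sub n rem = lsum K by simp only [Nat.sub_eq]; omega] at h
    exact Or.inl (ppK_sound hP hK hl hn h)
  · have hS : IsR S ([S.b 0, S.b 1, S.b 2, S.b 3] ++ K) := by
      intro r
      match r with
      | 0 => rfl
      | 1 => rfl
      | 2 => rfl
      | 3 => rfl
      | r + 4 =>
        have := hK r
        exact this
    have hs := hS.size
    have e1 : lsum ([S.b 0, S.b 1, S.b 2, S.b 3] ++ K) =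
        S.b 0 + (S.b 1 + (S.b 2 + (S.b 3 + lsum K))) := rfl
    rw [e1, hn] at hs
    by_cases hq : quick (b + 2) (2 * b + 3) C8 C4 (ssub 8 K) (ssub 4 K) (S.b 0) (S.b 1) (S.b 2)
        (S.b 3) = true
    · exact Or.inl (quick_sound hP hS hn hq)
    · have hmem := failB_spec (b + 2) (2 * b + 3) C8 C4 (ssub 8 K) (ssub 4 K) (hd K) rem (S.b 0)
        (S.b 1) (S.b 2) (S.b 3) (by rw [hK.hd]; exact S.anti_b (by omega)) (S.anti_b (by omega))
        (S.anti_b (by omega)) (S.anti_b (by omega)) (by omega) hq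
      exact slowX_sound exc hP hS hn Ts (allBX_sound exc Ts K _ h _ hmem)

theorem enumX_sound (exc : List ℕ) {b n t C8 C4 : ℕ} (hP : Par b n t C8 C4) (Ts : List Tm) {S : Shp}
    (hn : S.size = n) (k : ℕ) : ∀ (K : List ℕ) (x rem : ℕ), 1 ≤ len K →
    (∀ r < len K, S.b (r + 4) = K.getD r 0) → 0 < S.b (len K - 1 + 4) →
    x = S.b (len K - 1 + 4) → rem + lsum K = n →
    enumX exc (b + 2) (2 * b + 3) n t C8 C4 Ts k K x rem = true → Good b t S ∨ IsR S exc := by
  induction k with
  | zero =>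
    intro K x rem _ _ _ _ _ h
    exact absurd (show false = true from h) (by decide)
  | succ k ih =>
    intro K x rem hK1 hK hpos hx hr h
    have e : enumX exc (b + 2) (2 * b + 3) n t C8 C4 Ts (k + 1) K x rem =
      (nodeX exc (b + 2) (2 * b + 3) n t C8 C4 Ts K rem &&
      allN (fun y => enumX exc (b + 2) (2 * b + 3) n t C8 C4 Ts k (snoc K y) y (Nat.sub rem y))
        (mn x (Nat.sub rem (Nat.mul 4 (hd K)))) 1) := and_rec _ _
    rw [e, Bool.and_eq_true] at h
    by_cases h0 : S.b (len K + 4) = 0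
    · -- exact
      have hKR : IsR (Shp.drop 4 S) K := by
        intro r
        show S.b (r + 4) = _
        by_cases hrl : r < len K
        · exact hK r hrl
        · rw [getD_len K r (by omega)]
          have := S.anti_b (show len K + 4 ≤ r + 4 by omega)
          omega
      have hl : len K = (Shp.drop 4 S).a 0 := by
        show len K = S.a 0 - 4
        have h1 := (S.h 0 (len K - 1 + 4)).2 hpos
        have h2 : ¬ (len K + 4 < S.a 0) := by
          intro hh
          have := (S.h 0 (len K + 4)).1 hh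
          omega
        omega
      exact nodeX_sound exc hP Ts hKR hl hn hr h.1
    · -- one more row
      have hy := allN_spec _ _ _ h.2 (S.b (len K + 4)) (by omega) (by
        rw [mn_eq, hx]
        have h1 := S.anti_b (show len K - 1 + 4 ≤ len K + 4 by omega)
        have h2 : S.b (len K + 4) + 4 * hd K ≤ rem := by
          -- count cells
          have hd0 : hd K = S.b 4 := by rw [hd_eq, ← hK 0 (by omega)]
          have g1 := S.size_rows (4 + (len K + (1 + S.a 0))) (by omega)
          rw [sum_range_add, sum_range_add, sum_range_add] at g1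
          have g2 : ∑ x ∈ range (len K), S.b (4 + x) = lsum K := by
            have hll : K.length = len K := by
              clear * -
              induction K with
              | nil => rfl
              | cons x K ih => show K.length + 1 = Nat.succ (len K); rw [ih]
            rw [← sum_getD K (len K) hll.le]
            refine sum_congr rfl fun r hr => ?_
            rw [mem_range] at hr
            rw [add_comm 4 r]
            exact hK r hr
          have g3 : ∑ x ∈ range 4, S.b x = S.b 0 + S.b 1 + S.b 2 + S.b 3 := by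
            simp [sum_range_succ]
          have g4 : ∑ x ∈ range 1, S.b (4 + (len K + x)) = S.b (len K + 4) := by
            simp [add_comm]
          rw [g2, g3, g4, hn] at g1
          have a0 := S.anti_b (show 0 ≤ 4 by omega)
          have a1 := S.anti_b (show 1 ≤ 4 by omega)
          have a2 := S.anti_b (show 2 ≤ 4 by omega)
          have a3 := S.anti_b (show 3 ≤ 4 by omega)
          omega
        have h3 : Nat.sub rem (Nat.mul 4 (hd K)) = rem - 4 * hd K := rfl
        rw [h3]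
        omega)
      refine ih (snoc K (S.b (len K + 4))) _ _ (by rw [snoc_len]; omega) ?_ ?_ ?_ ?_ hy
      · intro r hrl
        rw [snoc_len] at hrl
        rw [snoc_getD]
        by_cases hr' : r = len K
        · rw [if_pos hr', hr']
        · rw [if_neg hr']
          exact hK r (by omega)
      · rw [snoc_len]
        show 0 < S.b (len K + 1 - 1 + 4)
        rw [Nat.add_sub_cancel]
        omega
      · rw [snoc_len]
        show _ = S.b (len K + 1 - 1 + 4)
        rw [Nat.add_sub_cancel]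
      · rw [snoc_lsum]
        show rem - S.b (len K + 4) + _ = _
        have hle : S.b (len K + 4) ≤ rem := by
          have g1 := S.size_rows (4 + (len K + (1 + S.a 0))) (by omega)
          rw [sum_range_add, sum_range_add, sum_range_add] at g1
          have g2 : ∑ x ∈ range (len K), S.b (4 + x) = lsum K := by
            have hll : K.length = len K := by
              clear * -
              induction K with
              | nil => rfl
              | cons x K ih => show K.length + 1 = Nat.succ (len K); rw [ih]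
            rw [← sum_getD K (len K) hll.le]
            refine sum_congr rfl fun r hr => ?_
            rw [mem_range] at hr
            rw [add_comm 4 r]
            exact hK r hr
          have g4 : ∑ x ∈ range 1, S.b (4 + (len K + x)) = S.b (len K + 4) := by
            simp [add_comm]
          rw [g2, g4, hn] at g1
          omega
        omega

theorem checkX_sound (exc : List ℕ) {b n t C8 C4 : ℕ} (hP : Par b n t C8 C4) (Ts : List Tm)
    (h0 : nodeX exc (b + 2) (2 * b + 3) n t C8 C4 Ts [] n = true)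
    (hy : ∀ y, 1 ≤ y → y ≤ n / 5 → checkYX exc (b + 2) (2 * b + 3) n t C8 C4 Ts y = true)
    {S : Shp} (hn : S.size = n) : Good b t S ∨ IsR S exc := by
  by_cases hb : S.b 4 = 0
  · refine nodeX_sound exc hP Ts (K := []) ?_ ?_ hn (by simp [lsum]) h0
    · intro r
      show S.b (r + 4) = _
      have := S.anti_b (show 4 ≤ r + 4 by omega)
      simp
      omega
    · show 0 = S.a 0 - 4
      have : ¬ (4 < S.a 0) := fun hh => by
        have := (S.h 0 4).1 hh
        omega
      omega
  · have g1 := S.size_rows (5 + S.a 0) (by omega)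
    rw [sum_range_add] at g1
    have g3 : ∑ x ∈ range 5, S.b x = S.b 0 + S.b 1 + S.b 2 + S.b 3 + S.b 4 := by
      simp [sum_range_succ]
    rw [g3, hn] at g1
    have a0 := S.anti_b (show 0 ≤ 4 by omega)
    have a1 := S.anti_b (show 1 ≤ 4 by omega)
    have a2 := S.anti_b (show 2 ≤ 4 by omega)
    have a3 := S.anti_b (show 3 ≤ 4 by omega)
    have h := hy (S.b 4) (by omega) (by omega)
    refine enumX_sound exc hP Ts hn n [S.b 4] (S.b 4) (n - S.b 4) (by show 1 ≤ 1; omega) ?_ ?_ ?_ ?_ h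
    · intro r hr
      have hr' : r < 1 := hr
      obtain rfl : r = 0 := by omega
      rfl
    · show 0 < S.b (1 - 1 + 4)
      simp
      omega
    · rfl
    · show n - S.b 4 + (S.b 4 + 0) = n
      omega

/-- from the numerical conditions to derivations -/
theorem der_of_good (w b a : ℕ) (hwb : w ≤ b) (hba : b + 2 ≤ a) (S : Shp)
    (hS2 : 2 * S.size = w * (w + 1) + 2 * (2 * b + 3) + 2 * (4 * a + 10)) (h : Good b (a + 4) S) :
    Der (JPQ w b a) (a + 4) (four a (gP w b)) (four a (gP w b)) S := by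
  have hgt : (four a (gP w b)).tr = four a (gP w b) :=
    four_tr a _ (by rw [gP_a_zero]; omega) (gP_tr w b hwb)
  have hS3 : 2 * S.tr.size = w * (w + 1) + 2 * (2 * b + 3) + 2 * (4 * a + 10) := by
    rw [Shp.size_tr]; exact hS2
  rcases h with (h1 | h1) | (h1 | h1)
  · exact der_of_goodPP w b a hwb hba S hS2 h1
  · exact Der.symm_of hgt (der_of_goodPP w b a hwb hba S.tr hS3 h1)
  · exact der_of_goodHV w b a hwb hba S hS2 h1
  · exact Der.symm_of hgt (der_of_goodHV w b a hwb hba S.tr hS3 h1)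

/-- templates -/
def Ts47 : List Tm := [
  ⟨[6,3], [0,1,2,2], 1, 2⟩,
  ⟨[5,4], [0,0,2,2], 1, 2⟩,
  ⟨[2,2,1,1,1,1,1], [2,1,2,2], 2, 2⟩,
  ⟨[8,1], [1,1,2,1], 1, 2⟩,
  ⟨[2,1,1,1,1,1,1,1], [2,2,1,1], 1, 1⟩,
  ⟨[8,1], [2,1,1,1], 1, 2⟩,
  ⟨[2,1,1,1,1,1,1,1], [1,2,2,2], 1, 2⟩,
  ⟨[7,2], [0,1,2,2], 1, 2⟩,
  ⟨[2,2,1,1,1,1,1], [1,1,2,2], 2, 2⟩,
  ⟨[8,1], [2,0,1,1], 1, 2⟩,
  ⟨[2,1,1,1,1,1,1,1], [0,0,0,0], 1, 0⟩,
  ⟨[8,1], [0,1,1,1], 1, 2⟩,
  ⟨[5,4], [0,0,1,1], 1, 1⟩,
  ⟨[5,4], [0,1,1,1], 1, 0⟩,
  ⟨[7,2], [2,1,1,1], 1, 2⟩,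
  ⟨[8,1], [1,0,1,1], 1, 0⟩,
  ⟨[2,2,1,1,1,1,1], [2,2,2,2,2,2,2], 1, 1⟩]

/-- the exceptional partition -/
def exc47 : List ℕ := [18, 5, 5, 3, 3, 1, 1, 1, 1, 1, 1, 1, 1, 1, 1, 1, 1, 1]

theorem node47 : nodeX exc47 (3 + 2) (2 * 3 + 3) 47 11 9 26 Ts47 [] 47 = true := by decide +kernel

theorem y47_1 : checkYX exc47 (3 + 2) (2 * 3 + 3) 47 11 9 26 Ts47 1 = true := by decide +kernel

theorem y47_2 : checkYX exc47 (3 + 2) (2 * 3 + 3) 47 11 9 26 Ts47 2 = true := by decide +kernel

theorem y47_3 : checkYX exc47 (3 + 2) (2 * 3 + 3) 47 11 9 26 Ts47 3 = true := by decide +kernel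

theorem y47_4 : checkYX exc47 (3 + 2) (2 * 3 + 3) 47 11 9 26 Ts47 4 = true := by decide +kernel

theorem y47_5 : checkYX exc47 (3 + 2) (2 * 3 + 3) 47 11 9 26 Ts47 5 = true := by decide +kernel

theorem y47_6 : checkYX exc47 (3 + 2) (2 * 3 + 3) 47 11 9 26 Ts47 6 = true := by decide +kernel

theorem y47_7 : checkYX exc47 (3 + 2) (2 * 3 + 3) 47 11 9 26 Ts47 7 = true := by decide +kernel

theorem y47_8 : checkYX exc47 (3 + 2) (2 * 3 + 3) 47 11 9 26 Ts47 8 = true := by decide +kernel

theorem y47_9 : checkYX exc47 (3 + 2) (2 * 3 + 3) 47 11 9 26 Ts47 9 = true := by decide +kernel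

theorem ys47 : ∀ y, 1 ≤ y → y ≤ 47 / 5 → checkYX exc47 (3 + 2) (2 * 3 + 3) 47 11 9 26 Ts47 y = true := by
  intro y h1 h2
  have h3 : y < 10 := by omega
  interval_cases y
  · exact y47_1
  · exact y47_2
  · exact y47_3
  · exact y47_4
  · exact y47_5
  · exact y47_6
  · exact y47_7
  · exact y47_8
  · exact y47_9

/-- all partitions of `47` but one -/
theorem der47 (S : Shp) (hS : S.size = 47) : Der (JPQ 0 3 7) 11 (four 7 (gP 0 3)) (four 7 (gP 0 3)) S ∨
    ∀ r, S.b r = exc47.getD r 0 := by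
  rcases checkX_sound exc47 (b := 3) (n := 47) (t := 11) (C8 := 9) (C4 := 26) ⟨by omega, by omega⟩
    Ts47 node47 ys47 hS with h | h
  · exact Or.inl (der_of_good 0 3 7 (by omega) (by omega) S (by omega) h)
  · exact Or.inr h

end Crest.Agent.SY
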