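import Crest.Agent.SY_M2
import Crest.Agent.SY_E16

/-!
# S0298: `n = 47`
(owner: helper61)
-/

set_option autoImplicit false

namespace Crest.Agent.SY

open Crest.Agent.SZ

/-- the type used for `n = 47` -/
def g47 : Shp := four 7 (gP 0 3)

theorem g47_a : g47.a = fun c => l47.getD c 0 := by
  funext c
  by_cases hc : c < 11
  · interval_cases c <;> decide
  · have h1 : ¬ (0 < g47.a c) := by
      intro h
      have h2 : c < g47.b 0 := (g47.h c 0).1 h
      have h3 : g47.b 0 = 11 := by decide
      omega
    have h4 : l47.getD c 0 = 0 := by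
      rw [List.getD_eq_default]
      show 11 ≤ c
      omega
    rw [h4]
    omega

theorem x47_sym (c r : ℕ) (hr : r < 18) : (c < x47.getD r 0 ↔ r < x47.getD c 0) := by
  by_cases hc : c < 18
  · have : ∀ c' : Fin 18, ∀ r' : Fin 18, ((c' : ℕ) < x47.getD (r' : ℕ) 0 ↔ (r' : ℕ) < x47.getD (c' : ℕ) 0) := by
      decide
    exact this ⟨c, hc⟩ ⟨r, hr⟩
  · have h1 : x47.getD c 0 = 0 := by
      rw [List.getD_eq_default]
      show 18 ≤ c
      omega
    have h2 : ∀ r' : Fin 18, x47.getD (r' : ℕ) 0 ≤ 18 := by decide
    have h3 := h2 ⟨r, hr⟩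
    simp only at h3
    rw [h1]
    omega

theorem x47_a (S : Shp) (h : ∀ r, S.b r = exc47.getD r 0) : S.a = fun c => x47.getD c 0 := by
  have he : exc47 = x47 := rfl
  rw [he] at h
  funext c
  have key : ∀ r, (r < S.a c ↔ r < x47.getD c 0) := by
    intro r
    rw [S.h c r, h r]
    by_cases hr : r < 18
    · exact x47_sym c r hr
    · have h1 : x47.getD r 0 = 0 := by
        rw [List.getD_eq_default]
        show 18 ≤ r
        omega
      have h2 : x47.getD c 0 ≤ 18 := by
        by_cases hc : c < 18
        · have h2 : ∀ r' : Fin 18, x47.getD (r' : ℕ) 0 ≤ 18 := by decide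
          exact h2 ⟨c, hc⟩
        · rw [List.getD_eq_default]
          · omega
          · show 18 ≤ c
            omega
      rw [h1]
      omega
  have h1 := key (S.a c)
  have h2 := key (x47.getD c 0)
  show S.a c = x47.getD c 0
  omega

theorem Concl47 : Concl 47 := by
  refine Concl_mixed 47 11 (JPQ 0 3 7) g47 ?_ (by decide) ?_
  · rw [Shp.size_eq_sum g47 11 (by decide)]
    decide
  · intro lam hlam
    rcases der47 lam hlam with h | h
    · exact Or.inl h
    · exact Or.inr (kr47 g47 lam g47_a (x47_a lam h))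

end Crest.Agent.SY
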