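import Crest.Agent.SY_K1b

/-!
# S0298, combinatorics (3): the TOP-4 rule
-/

set_option autoImplicit false

namespace Crest.Agent.SY

open Finset

namespace Der

variable {J : ℕ → Bool} {k : ℕ} {g g' lam al : Shp}

theorem stripCC (h : Der J k g g' al) (hJ : J (k + 1) = true) (hR : Shp.Rm 1 (k + 1) lam al) :
    Der J (k + 1) (Shp.col (k + 1) g) (Shp.col (k + 1) g') lam :=
  Der.strip k g g' lam al hJ h hR.1 hR.2.1 hR.2.2

theorem pathCC (h : Der J k g g' al) (hJ : J (k + 1) = true) (hJ' : J (k + 2) = true)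
    (hR : Shp.Rm 4 (2 * k + 3) lam al) :
    Der J (k + 2) (Shp.col (k + 2) (Shp.col (k + 1) g)) (Shp.col (k + 2) (Shp.col (k + 1) g')) lam :=
  Der.path k g g' lam al hJ hJ' h hR.1 hR.2.1 hR.2.2

/-- Twist of both types. -/
theorem twist2 (h : Der J k g g' lam) : Der J k g.tr g'.tr lam := by
  have := Der.twist' k g g'.tr lam.tr (Der.twist k g g' lam h)
  exact this

theorem stripRR (h : Der J k g g' al) (hJ : J (k + 1) = true) (hR : Shp.Rm 1 (k + 1) lam al) :
    Der J (k + 1) (Shp.row (k + 1) g) (Shp.row (k + 1) g') lam :=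
  (h.twist2.stripCC hJ hR).twist2

theorem pathRR (h : Der J k g g' al) (hJ : J (k + 1) = true) (hJ' : J (k + 2) = true)
    (hR : Shp.Rm 4 (2 * k + 3) lam al) :
    Der J (k + 2) (Shp.row (k + 2) (Shp.row (k + 1) g)) (Shp.row (k + 2) (Shp.row (k + 1) g')) lam :=
  (h.twist2.pathCC hJ hJ' hR).twist2

theorem stripCR (h : Der J k g g' al) (hJ : J (k + 1) = true)
    (hR : Shp.Rm 1 (k + 1) lam.tr al.tr) :
    Der J (k + 1) (Shp.col (k + 1) g) (Shp.row (k + 1) g') lam :=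
  Der.twist _ _ _ _ ((Der.twist k g g' al h).stripCC hJ hR)

theorem stripRC (h : Der J k g g' al) (hJ : J (k + 1) = true)
    (hR : Shp.Rm 1 (k + 1) lam.tr al.tr) :
    Der J (k + 1) (Shp.row (k + 1) g) (Shp.col (k + 1) g') lam :=
  Der.twist' _ _ _ _ ((Der.twist' k g g' al h).stripCC hJ hR)

theorem pathCR (h : Der J k g g' al) (hJ : J (k + 1) = true) (hJ' : J (k + 2) = true)
    (hR : Shp.Rm 4 (2 * k + 3) lam.tr al.tr) :
    Der J (k + 2) (Shp.col (k + 2) (Shp.col (k + 1) g)) (Shp.row (k + 2) (Shp.row (k + 1) g')) lam :=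
  Der.twist _ _ _ _ ((Der.twist k g g' al h).pathCC hJ hJ' hR)

theorem pathRC (h : Der J k g g' al) (hJ : J (k + 1) = true) (hJ' : J (k + 2) = true)
    (hR : Shp.Rm 4 (2 * k + 3) lam.tr al.tr) :
    Der J (k + 2) (Shp.row (k + 2) (Shp.row (k + 1) g)) (Shp.col (k + 2) (Shp.col (k + 1) g')) lam :=
  Der.twist' _ _ _ _ ((Der.twist' k g g' al h).pathCC hJ hJ' hR)

/-- `Der` only depends on the values of `J` on the levels `1, …, k`. -/
theorem congr {J' : ℕ → Bool} (h : Der J k g g' lam) (hJ : ∀ j, 1 ≤ j → j ≤ k → J j = J' j) :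
    Der J' k g g' lam := by
  induction h with
  | saxl k lam h1 h2 =>
    exact Der.saxl k lam (fun j a b => by rw [← hJ j a b]; exact h1 j a b) h2
  | skip k g g' lam h1 _ ih =>
    exact Der.skip k g g' lam (by rw [← hJ _ (by omega) le_rfl]; exact h1)
      (ih fun j a b => hJ j a (by omega))
  | strip k g g' lam al h1 _ h2 h3 h4 ih =>
    exact Der.strip k g g' lam al (by rw [← hJ _ (by omega) le_rfl]; exact h1)
      (ih fun j a b => hJ j a (by omega)) h2 h3 h4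
  | path k g g' lam al h1 h1' _ h2 h3 h4 ih =>
    exact Der.path k g g' lam al (by rw [← hJ _ (by omega) (by omega)]; exact h1)
      (by rw [← hJ _ (by omega) le_rfl]; exact h1')
      (ih fun j a b => hJ j a (by omega)) h2 h3 h4
  | twist k g g' lam _ ih => exact Der.twist _ _ _ _ (ih hJ)
  | twist' k g g' lam _ ih => exact Der.twist' _ _ _ _ (ih hJ)

end Der

/-- The new type after four more levels. -/
def four (k : ℕ) (g : Shp) : Shp :=
  Shp.row (k + 4) (Shp.row (k + 3) (Shp.col (k + 2) (Shp.col (k + 1) g)))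

theorem row_a_zero (k : ℕ) (g : Shp) : (Shp.row (k + 1) g).a 0 = g.a 0 + 1 := by
  show (if 0 < k + 1 then g.a 0 + 1 else 0) = _
  simp

theorem four_eq (k : ℕ) (g : Shp) :
    four k g = Shp.row (k + 4) (Shp.col (k + 3) (Shp.row (k + 2) (Shp.col (k + 1) g))) := by
  unfold four
  rw [Shp.row_col (k + 2) (Shp.col (k + 1) g) (by rw [Shp.col_a_zero]; omega)]

theorem four_eq' (k : ℕ) (g : Shp) :
    four k g = Shp.col (k + 4) (Shp.row (k + 3) (Shp.row (k + 2) (Shp.col (k + 1) g))) := by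
  rw [four_eq, Shp.row_col (k + 3)]
  rw [row_a_zero, Shp.col_a_zero]
  omega

theorem four_eq'' (k : ℕ) (g : Shp) (hg : g.a 0 ≤ k) :
    four k g = Shp.col (k + 4) (Shp.col (k + 3) (Shp.row (k + 2) (Shp.row (k + 1) g))) := by
  rw [four_eq']
  congr 1
  rw [Shp.row_col (k + 1) g (by omega),
    Shp.row_col (k + 2) (Shp.row (k + 1) g) (by rw [row_a_zero]; omega)]

theorem four_tr (k : ℕ) (g : Shp) (hg : g.a 0 ≤ k) (hgt : g.tr = g) : (four k g).tr = four k g := by
  have h1 : (four k g).tr =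
      Shp.col (k + 4) (Shp.col (k + 3) (Shp.row (k + 2) (Shp.row (k + 1) g.tr))) := rfl
  rw [h1, hgt, ← four_eq'' k g hg]

theorem four_a_zero (k : ℕ) (g : Shp) : (four k g).a 0 = k + 4 := by
  rw [four_eq', Shp.col_a_zero]

/-- The numerical condition under which four levels can be peeled off. -/
def Crit (t : ℕ) (S : Shp) : Prop :=
  (2 * t - 1 ≤ ∑ r ∈ range 4, S.b r ∧ 4 * t - 6 ≤ ∑ r ∈ range 8, S.b r) ∨
  (2 * t - 1 ≤ ∑ r ∈ range 4, S.a r ∧ 4 * t - 6 ≤ ∑ r ∈ range 8, S.a r) ∨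
  (2 * t - 4 ≤ S.b 0 + S.b 1 ∧ 2 * t - 4 ≤ S.a 0 + S.a 1 ∧
    4 * t - 2 ≤ S.b 0 + S.b 1 + (S.a 0 + S.a 1))

/-- The corresponding condition for hooks. -/
def Hook (t : ℕ) (S : Shp) : Prop :=
  S.a 1 ≤ 1 ∧ S.b 1 ≤ 1 ∧ 2 * t - 4 ≤ S.b 0 + S.b 1 ∧ 2 * t - 4 ≤ S.a 0 + S.a 1 ∧
    4 * t - 3 ≤ S.b 0 + S.b 1 + (S.a 0 + S.a 1)

theorem Rm_size {m s : ℕ} {S T : Shp} (h : Shp.Rm m s S T) : S.size = T.size + s := h.2.2

/-- TOP-4 rule. -/
theorem top4' (J : ℕ → Bool) (k n : ℕ) (g : Shp) (hg : g.a 0 ≤ k)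
    (h1 : J (k + 1) = true) (h2 : J (k + 2) = true) (h3 : J (k + 3) = true) (h4 : J (k + 4) = true)
    (hfull : ∀ al : Shp, al.size = n → Der J k g g al) (lam : Shp)
    (hs : lam.size = n + 4 * k + 10) (hc : Crit (k + 4) lam ∨ Hook (k + 4) lam) :
    Der J (k + 4) (four k g) (four k g) lam := by
  have key : (2 * (k + 4) - 1 ≤ lam.b 0 + lam.b 1 ∧ 2 * (k + 4) - 4 ≤ lam.a 0 + lam.a 1 ∧
      (4 * (k + 4) - 2 ≤ lam.b 0 + lam.b 1 + (lam.a 0 + lam.a 1) ∨
      (lam.a 1 ≤ 1 ∧ 4 * (k + 4) - 3 ≤ lam.b 0 + lam.b 1 + (lam.a 0 + lam.a 1)))) →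
      Der J (k + 4) (four k g) (four k g) lam := by
    rintro ⟨a1, a2, a3⟩
    obtain ⟨S₁, S₂, x1, x2, T₁, T₂, x3, x4⟩ := lam.exists_HHVV' (k + 4) (by omega) a1 a2 a3
    have z1 := Rm_size x1
    have z2 := Rm_size x2
    have z3 := Rm_size x3
    have z4 := Rm_size x4
    rw [Shp.size_tr] at z3
    have y0 : Der J k g g T₂.tr := hfull _ (by rw [Shp.size_tr]; omega)
    have y1 : Der J (k + 1) (Shp.col (k + 1) g) (Shp.row (k + 1) g) T₁.tr :=
      y0.stripCR h1 (by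
        have e : k + 4 - 3 = k + 1 := by omega
        rw [e] at x4
        exact x4)
    have y2 : Der J (k + 2) (Shp.row (k + 2) (Shp.col (k + 1) g))
        (Shp.col (k + 2) (Shp.row (k + 1) g)) S₂ :=
      y1.stripRC h2 (by
        have e : k + 4 - 2 = k + 1 + 1 := by omega
        rw [e] at x3
        exact x3)
    rw [← Shp.row_col (k + 1) g (by omega)] at y2
    have y3 := y2.stripCC (lam := S₁) h3 (by
        have e : k + 4 - 1 = k + 2 + 1 := by omega
        rw [e] at x2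
        exact x2)
    have y4 := y3.stripRR (lam := lam) h4 x1
    rw [four_eq]
    exact y4
  have hc' : (2 * (k + 4) - 1 ≤ ∑ r ∈ range 4, lam.b r ∧ 4 * (k + 4) - 6 ≤ ∑ r ∈ range 8, lam.b r) ∨
      (2 * (k + 4) - 1 ≤ ∑ r ∈ range 4, lam.a r ∧ 4 * (k + 4) - 6 ≤ ∑ r ∈ range 8, lam.a r) ∨
      (2 * (k + 4) - 4 ≤ lam.b 0 + lam.b 1 ∧ 2 * (k + 4) - 4 ≤ lam.a 0 + lam.a 1 ∧
        (4 * (k + 4) - 2 ≤ lam.b 0 + lam.b 1 + (lam.a 0 + lam.a 1) ∨
        (lam.a 1 ≤ 1 ∧ lam.b 1 ≤ 1 ∧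
          4 * (k + 4) - 3 ≤ lam.b 0 + lam.b 1 + (lam.a 0 + lam.a 1)))) := by
    rcases hc with (h | h | h) | h
    · exact Or.inl h
    · exact Or.inr (Or.inl h)
    · exact Or.inr (Or.inr ⟨h.1, h.2.1, Or.inl h.2.2⟩)
    · exact Or.inr (Or.inr ⟨h.2.2.1, h.2.2.2.1, Or.inr ⟨h.1, h.2.1, h.2.2.2.2⟩⟩)
  rcases hc' with ⟨a1, a2⟩ | ⟨a1, a2⟩ | ⟨a1, a2, a3⟩
  · obtain ⟨S₁, S₂, x1, x2⟩ := lam.exists_PP (k + 4) (by omega) a1 a2
    have z1 := Rm_size x1
    have z2 := Rm_size x2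
    have y0 : Der J k g g S₂ := hfull _ (by omega)
    have y1 := y0.pathCC (lam := S₁) h1 h2 (by
      have e : 2 * (k + 4) - 5 = 2 * k + 3 := by omega
      rw [e] at x2
      exact x2)
    have y2 := y1.pathRR (lam := lam) h3 h4 (by
      have e : 2 * (k + 4) - 1 = 2 * (k + 2) + 3 := by omega
      rw [e] at x1
      exact x1)
    exact y2
  · obtain ⟨S₁, S₂, x1, x2⟩ := lam.tr.exists_PP (k + 4) (by omega) a1 a2
    have z1 := Rm_size x1
    have z2 := Rm_size x2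
    rw [Shp.size_tr] at z1
    have y0 : Der J k g g S₂.tr := hfull _ (by rw [Shp.size_tr]; omega)
    have y1 : Der J (k + 2) _ _ S₁.tr := y0.pathCR (lam := S₁.tr) h1 h2 (by
      have e : 2 * (k + 4) - 5 = 2 * k + 3 := by omega
      rw [e] at x2
      exact x2)
    have y2 := y1.pathRC (lam := lam) h3 h4 (by
      have e : 2 * (k + 4) - 1 = 2 * (k + 2) + 3 := by omega
      rw [e] at x1
      exact x1)
    have e1 : Shp.row (k + 2 + 2) (Shp.row (k + 2 + 1) (Shp.col (k + 2) (Shp.col (k + 1) g))) =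
        four k g := rfl
    have e2 : Shp.col (k + 2 + 2) (Shp.col (k + 2 + 1) (Shp.row (k + 2) (Shp.row (k + 1) g))) =
        four k g := (four_eq'' k g hg).symm
    rw [e1, e2] at y2
    exact y2
  · by_cases hr : 2 * (k + 4) - 1 ≤ lam.b 0 + lam.b 1
    · exact key ⟨hr, a2, a3.imp id fun h => ⟨h.1, h.2.2⟩⟩
    · -- the transposed case
      obtain ⟨S₁, S₂, x1, x2, T₁, T₂, x3, x4⟩ := lam.tr.exists_HHVV' (k + 4) (by omega)
        (show 2 * (k + 4) - 1 ≤ lam.a 0 + lam.a 1 by omega)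
        (show 2 * (k + 4) - 4 ≤ lam.b 0 + lam.b 1 from a1)
        (show 4 * (k + 4) - 2 ≤ lam.a 0 + lam.a 1 + (lam.b 0 + lam.b 1) ∨ (lam.b 1 ≤ 1 ∧
          4 * (k + 4) - 3 ≤ lam.a 0 + lam.a 1 + (lam.b 0 + lam.b 1)) by omega)
      have z1 := Rm_size x1
      have z2 := Rm_size x2
      have z3 := Rm_size x3
      have z4 := Rm_size x4
      rw [Shp.size_tr] at z1 z3
      have y0 : Der J k g g T₂ := hfull _ (by omega)
      have y1 := y0.stripCC (lam := T₁) h1 (by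
        have e : k + 4 - 3 = k + 1 := by omega
        rw [e] at x4
        exact x4)
      have y2 := y1.stripRR (lam := S₂.tr) h2 (by
        have e : k + 4 - 2 = k + 1 + 1 := by omega
        rw [e] at x3
        exact x3)
      have y3 := y2.stripCR (lam := S₁.tr) h3 (by
        have e : k + 4 - 1 = k + 2 + 1 := by omega
        rw [e] at x2
        exact x2)
      have y4 := y3.stripRC (lam := lam) h4 x1
      have e1 : Shp.row (k + 1 + 1 + 1 + 1) (Shp.col (k + 1 + 1 + 1)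
          (Shp.row (k + 1 + 1) (Shp.col (k + 1) g))) = four k g := (four_eq k g).symm
      have e2 : Shp.col (k + 1 + 1 + 1 + 1) (Shp.row (k + 1 + 1 + 1)
          (Shp.row (k + 1 + 1) (Shp.col (k + 1) g))) = four k g := (four_eq' k g).symm
      rw [e1, e2] at y4
      exact y4

/-- TOP-4 rule. -/
theorem top4 (J : ℕ → Bool) (k n : ℕ) (g : Shp) (hg : g.a 0 ≤ k)
    (h1 : J (k + 1) = true) (h2 : J (k + 2) = true) (h3 : J (k + 3) = true) (h4 : J (k + 4) = true)
    (hfull : ∀ al : Shp, al.size = n → Der J k g g al) (lam : Shp)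
    (hs : lam.size = n + 4 * k + 10) (hc : Crit (k + 4) lam) :
    Der J (k + 4) (four k g) (four k g) lam :=
  top4' J k n g hg h1 h2 h3 h4 hfull lam hs (Or.inl hc)

/-- `Full n k`: the levels `≤ k` contain a set `J` with sum `n` for which every partition of `n` is
derivable in a self-conjugate type. -/
def Full (n k : ℕ) : Prop :=
  ∃ (J : ℕ → Bool) (g : Shp), g.tr = g ∧ g.a 0 ≤ k ∧
    (∑ j ∈ range (k + 1), if J j = true then j else 0) = n ∧
    ∀ lam : Shp, lam.size = n → Der J k g g lam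

theorem full_stair (w : ℕ) : Full (∑ j ∈ range (w + 1), j) w := by
  refine ⟨fun _ => true, Shp.st w, rfl, Nat.sub_le _ _, by simp, fun lam hl => ?_⟩
  refine Der.saxl w lam (fun _ _ _ => rfl) ?_
  rw [hl, mul_comm, Finset.sum_range_id_mul_two]
  simp [mul_comm]

theorem Full.mono {n k k' : ℕ} (h : Full n k) (hk : k ≤ k') : Full n k' := by
  obtain ⟨J, g, h1, h2, h3, h4⟩ := h
  induction k', hk using Nat.le_induction with
  | base => exact ⟨J, g, h1, h2, h3, h4⟩
  | succ m hm ih =>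
    obtain ⟨J, g, h1, h2, h3, h4⟩ := ih
    refine ⟨fun j => if j ≤ m then J j else false, g, h1, by omega, ?_, fun lam hl => ?_⟩
    · rw [sum_range_succ]
      have : ¬ (m + 1 ≤ m) := by omega
      simp only [this, if_false]
      rw [← h3]
      simp only [Bool.false_eq_true, if_false, add_zero]
      refine sum_congr rfl fun j hj => ?_
      rw [mem_range] at hj
      simp [show j ≤ m by omega]
    · refine Der.skip _ _ _ _ (by simp) ((h4 lam hl).congr fun j _ hj => ?_)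
      simp [hj]

/-- Four more levels. -/
theorem Full.four' {n k t : ℕ} (h : Full n k) (hk : k + 4 ≤ t)
    (hc : ∀ lam : Shp, lam.size = n + 4 * t - 6 → Crit t lam ∨ Hook t lam) :
    Full (n + 4 * t - 6) t := by
  obtain ⟨m, rfl⟩ : ∃ m, t = m + 4 := ⟨t - 4, by omega⟩
  obtain ⟨J, g, h1, h2, h3, h4⟩ := h.mono (show k ≤ m by omega)
  have e : n + 4 * (m + 4) - 6 = n + 4 * m + 10 := by omega
  rw [e] at hc ⊢
  refine ⟨fun j => if j ≤ m then J j else true, Crest.Agent.SY.four m g, four_tr m g h2 h1,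
    (four_a_zero m g).le, ?_, fun lam hl => ?_⟩
  · rw [sum_range_succ, sum_range_succ, sum_range_succ, sum_range_succ]
    have e1 : ¬ (m + 1 ≤ m) := by omega
    have e2 : ¬ (m + 1 + 1 ≤ m) := by omega
    have e3 : ¬ (m + 1 + 1 + 1 ≤ m) := by omega
    have e4 : ¬ (m + 1 + 1 + 1 + 1 ≤ m) := by omega
    have e5 : ∑ j ∈ range (m + 1), (if (if j ≤ m then J j else true) = true then j else 0) =
        ∑ j ∈ range (m + 1), (if J j = true then j else 0) := by
      refine sum_congr rfl fun j hj => ?_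
      rw [mem_range] at hj
      simp [show j ≤ m by omega]
    rw [e5, h3]
    have e2' : ¬ (m + 2 ≤ m) := by omega
    have e3' : ¬ (m + 3 ≤ m) := by omega
    have e4' : ¬ (m + 4 ≤ m) := by omega
    simp only [e1, e2', e3', e4', if_false, if_true]
    omega
  · refine top4' _ m n g h2 ?_ ?_ ?_ ?_ (fun al hal => (h4 al hal).congr fun j _ hj => ?_) lam hl
      (hc lam hl)
    · simp
    · simp
    · simp
    · simp
    · simp [hj]

/-- Four more levels. -/
theorem Full.four {n k t : ℕ} (h : Full n k) (hk : k + 4 ≤ t)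
    (hc : ∀ lam : Shp, lam.size = n + 4 * t - 6 → Crit t lam) : Full (n + 4 * t - 6) t :=
  h.four' hk fun lam hl => Or.inl (hc lam hl)

end Crest.Agent.SY
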