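import Crest.Agent.SY_R8
import Crest.Agent.SY_K3

/-!
# S0298: `Full n k` implies the conclusion of S0298 for `n` (owner: helper61)
-/

set_option autoImplicit false

namespace Crest.Agent.SY

theorem Concl_of_Full {n k : ℕ} (h : Full n k) : Concl n := by
  obtain ⟨J, g, -, -, -, H⟩ := h
  exact Concl_of_Der' n k J g H

end Crest.Agent.SY
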