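import Crest.Agent.SZ_HomB
import Crest.Agent.SZ_D5
import Crest.Agent.SZ_D19
import Crest.Agent.SZ_D23
import Crest.Agent.SZ_D25
import Crest.Agent.SZ_D26
import Crest.Agent.SZ_D27
import Crest.Agent.SZ_D29
import Crest.Agent.SZ_D30

/-!
# S0298: all `n ≤ 30`
-/

set_option autoImplicit false

namespace Crest.Agent.SZ

/-- For `n ≤ 30`, `n ≠ 2, 4, 9`, some shape has a tensor square which contains everything. -/
theorem exists_KL (n : ℕ) (h0 : 0 < n) (hn : n ≤ 30) (h2 : n ≠ 2) (h4 : n ≠ 4) (h9 : n ≠ 9) :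
    ∃ a : List ℕ, a.sum = n ∧ ∀ c : List ℕ, (∀ h ∈ c, 0 < h) → c.sum = n → KL a a c := by
  have tri : ∀ k : ℕ, 2 * n = k * (k + 1) → ∃ a : List ℕ, a.sum = n ∧
      ∀ c : List ℕ, (∀ h ∈ c, 0 < h) → c.sum = n → KL a a c := by
    intro k hk
    have h1 : ∀ c : List ℕ, (∀ h ∈ c, 0 < h) → c.sum = n → KL (stairL k) (stairL k) c :=
      fun c _ hs => KL_saxl k c (by rw [hs, hk])
    refine ⟨stairL k, ?_, h1⟩
    have h2 := (h1 (List.replicate n 1) (by
      intro h hh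
      rw [List.mem_replicate] at hh
      omega) (by simp)).1
    simpa using h2
  interval_cases n
  · exact tri 1 (by norm_num)
  · exact absurd rfl h2
  · exact tri 2 (by norm_num)
  · exact absurd rfl h4
  · exact ⟨[3, 1, 1], by decide, all5⟩
  · exact tri 3 (by norm_num)
  · exact ⟨[4, 1, 1, 1], by decide, all7⟩
  · exact ⟨[4, 2, 1, 1], by decide, all8⟩
  · exact absurd rfl h9
  · exact tri 4 (by norm_num)
  · exact ⟨[4, 3, 3, 1], by decide, all11⟩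
  · exact ⟨[5, 3, 2, 1, 1], by decide, all12⟩
  · exact ⟨[5, 3, 3, 1, 1], by decide, all13⟩
  · exact ⟨[5, 4, 2, 2, 1], by decide, all14⟩
  · exact tri 5 (by norm_num)
  · exact ⟨[6, 4, 2, 2, 1, 1], by decide, all16⟩
  · exact ⟨[6, 4, 3, 2, 1, 1], by decide, all17⟩
  · exact ⟨[6, 5, 2, 2, 2, 1], by decide, all18⟩
  · exact ⟨[6, 5, 3, 2, 2, 1], by decide, all19⟩
  · exact ⟨[7, 5, 2, 2, 2, 1, 1], by decide, all20⟩
  · exact tri 6 (by norm_num)
  · exact ⟨[8, 5, 2, 2, 2, 1, 1, 1], by decide, all22⟩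
  · exact ⟨[7, 5, 4, 3, 2, 1, 1], by decide, all23⟩
  · exact ⟨[7, 5, 4, 4, 2, 1, 1], by decide, all24⟩
  · exact ⟨[8, 5, 4, 3, 2, 1, 1, 1], by decide, all25⟩
  · exact ⟨[8, 5, 4, 4, 2, 1, 1, 1], by decide, all26⟩
  · exact ⟨[7, 6, 5, 3, 3, 2, 1], by decide, all27⟩
  · exact tri 7 (by norm_num)
  · exact ⟨[8, 6, 5, 3, 3, 2, 1, 1], by decide, all29⟩
  · exact ⟨[8, 6, 5, 4, 3, 2, 1, 1], by decide, all30⟩

/-- S0298 for `n ≤ 30`. -/
theorem small_n (n : ℕ) (h0 : 0 < n) (hn : n ≤ 30) (h2 : n ≠ 2) (h4 : n ≠ 4) (h9 : n ≠ 9) :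
    ∃ (V : Type) (_ : AddCommGroup V) (_ : Module ℂ V) (_ : FiniteDimensional ℂ V)
      (ρ : Representation ℂ (Equiv.Perm (Fin n)) V), Representation.IsIrreducible ρ ∧
      ∀ (W : Type) [AddCommGroup W] [Module ℂ W] [FiniteDimensional ℂ W]
        (σ : Representation ℂ (Equiv.Perm (Fin n)) W), Representation.IsIrreducible σ →
        Nontrivial (Representation.IntertwiningMap σ (Representation.tprod ρ ρ)) := by
  obtain ⟨a, ha, h⟩ := exists_KL n h0 hn h2 h4 h9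
  exact of_KL n a ha h

end Crest.Agent.SZ
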