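import Crest.Statements.S0298
import Crest.Agent.SY_R9
import Crest.Agent.SY_M3
import Crest.Agent.SY_K4
import Crest.Agent.SY_E15
import Crest.Agent.SZ_Small

set_option autoImplicit false
open Crest Crest.AlgebraR

namespace Crest.Agent.S0298

/-- For every positive integer n other than 2, 4 and 9, the symmetric group on n letters has an irreducible finite-dimensional complex representation ρ such that every irreducible finite-dimensional complex representation has a nonzero equivariant linear map into the tensor square of ρ (with the diagonal action); that is, the tensor square of ρ contains every irreducible representation. -/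
theorem result (n : ℕ) (hn : 0 < n)
    (h2 : n ≠ 2) (h4 : n ≠ 4) (h9 : n ≠ 9) :
    ∃ (V : Type) (_ : AddCommGroup V) (_ : Module ℂ V) (_ : FiniteDimensional ℂ V)
      (ρ : Representation ℂ (Equiv.Perm (Fin n)) V), Representation.IsIrreducible ρ ∧
      ∀ (W : Type) [AddCommGroup W] [Module ℂ W] [FiniteDimensional ℂ W]
        (σ : Representation ℂ (Equiv.Perm (Fin n)) W), Representation.IsIrreducible σ →
        Nontrivial (Representation.IntertwiningMap σ (Representation.tprod ρ ρ)) := by
  by_cases h30 : n ≤ 30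
  · exact Crest.Agent.SZ.small_n n hn h30 h2 h4 h9
  by_cases h63 : 63 ≤ n
  · obtain ⟨k, -, hk⟩ := Crest.Agent.SY.full_large Crest.Agent.SY.full34 Crest.Agent.SY.full39
      Crest.Agent.SY.full54 n h63
    exact Crest.Agent.SY.Concl_of_Full hk
  by_cases hT : n ∈ ([2, 4, 5, 7, 8, 9, 11, 12, 13, 16, 17, 20, 22, 24, 26, 27, 30, 31, 33, 35, 37,
      38, 41, 42, 43, 46, 47, 50, 51, 58, 62] : List ℕ)
  · have h5 : n = 31 ∨ n = 33 ∨ n = 35 ∨ n = 37 ∨ n = 38 ∨ n = 41 ∨ n = 42 ∨ n = 43 ∨ n = 46 ∨
        n = 47 ∨ n = 50 ∨ n = 51 ∨ n = 58 ∨ n = 62 := by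
      simp only [List.mem_cons, List.not_mem_nil, or_false] at hT
      omega
    rcases h5 with rfl | rfl | rfl | rfl | rfl | rfl | rfl | rfl | rfl | rfl | rfl | rfl | rfl | rfl
    · exact Crest.Agent.SY.Concl_of_Full Crest.Agent.SY.full31
    · exact Crest.Agent.SY.Concl_of_Full Crest.Agent.SY.full33
    · exact Crest.Agent.SY.Concl_of_Full Crest.Agent.SY.full35
    · exact Crest.Agent.SY.Concl_of_Full Crest.Agent.SY.full37
    · exact Crest.Agent.SY.Concl_of_Full Crest.Agent.SY.full38
    · exact Crest.Agent.SY.Concl_of_Full Crest.Agent.SY.full41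
    · exact Crest.Agent.SY.Concl_of_Full Crest.Agent.SY.full42
    · exact Crest.Agent.SY.Concl_of_Full Crest.Agent.SY.full43
    · exact Crest.Agent.SY.Concl_of_Full Crest.Agent.SY.full46
    · exact Crest.Agent.SY.Concl47
    · exact Crest.Agent.SY.Concl_of_Full Crest.Agent.SY.full50
    · exact Crest.Agent.SY.Concl_of_Full Crest.Agent.SY.full51
    · exact Crest.Agent.SY.Concl_of_Full Crest.Agent.SY.full58
    · exact Crest.Agent.SY.Concl_of_Full Crest.Agent.SY.full62
  · obtain ⟨k, -, hk⟩ := Crest.Agent.SY.full_tab Crest.Agent.SY.full34 Crest.Agent.SY.full39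
      Crest.Agent.SY.full54 n (by omega) hT
    exact Crest.Agent.SY.Concl_of_Full hk

end Crest.Agent.S0298
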