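import Crest.Agent.S0316_Flow

set_option autoImplicit false
open Crest Crest.GeometryTopology

namespace Crest.Agent.S0316

open Crest.GeometryTopology.Quadric Complex

/-- The size of the perturbation. -/
noncomputable def eps : ℝ := 1 / (32 * (Lc + 1))

theorem eps_pos : 0 < eps := by
  unfold eps; positivity

theorem eps_mul : eps * Lc ≤ 1 / 32 := by
  unfold eps
  have h : (0 : ℝ) ≤ Lc := Lc.2
  rw [div_mul_eq_mul_div, div_le_div_iff₀ (by positivity) (by norm_num)]
  nlinarith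

/-- Time reparametrisation. -/
noncomputable def tau (t : ℝ) : ℝ := eps * Real.sin (Real.pi * t / 2)

theorem tau_small (t : ℝ) : |tau t| * Lc ≤ 1 / 32 := by
  have h1 : |tau t| ≤ eps := by
    unfold tau
    rw [abs_mul, abs_of_pos eps_pos]
    have := Real.abs_sin_le_one (Real.pi * t / 2)
    nlinarith [eps_pos]
  calc |tau t| * Lc ≤ eps * Lc := by gcongr
    _ ≤ _ := eps_mul

theorem tau_lt (t : ℝ) : |tau t| * Lc < 1 := by linarith [tau_small t]

theorem tau_one : tau 1 = eps := by simp [tau]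

theorem tau_zero : tau 0 = 0 := by simp [tau]

theorem hasDerivAt_tau (t : ℝ) :
    HasDerivAt tau (eps * (Real.cos (Real.pi * t / 2) * (Real.pi / 2))) t := by
  unfold tau
  have h1 : HasDerivAt (fun t : ℝ => Real.pi * t / 2) (Real.pi / 2) t := by
    have := ((hasDerivAt_id t).const_mul Real.pi).div_const 2
    simpa using this
  exact h1.sin.const_mul eps

theorem contDiff_tau : ContDiff ℝ (⊤ : ℕ∞) tau := by
  unfold tau
  fun_prop

/-- The lifted isotopy. -/
noncomputable def Psi (p : ℝ × E) : E :=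
  rot (Real.cos (Real.pi * p.1)) (Real.sin (Real.pi * p.1)) (fl (tau p.1) p.2)

theorem cs (t : ℝ) : Real.cos t ^ 2 + Real.sin t ^ 2 = 1 := by
  rw [Real.cos_sq_add_sin_sq]

theorem contDiff_fl_tau : ContDiff ℝ (⊤ : ℕ∞) (fun p : ℝ × E => fl (tau p.1) p.2) := by
  rw [contDiff_iff_contDiffAt]
  intro p
  have h1 := LibSmoothFlow.contDiffAt_flow XC contDiff_XC Lc lip_XC (tau p.1) (tau_lt p.1) p.2
  have h2 : ContDiff ℝ (⊤ : ℕ∞) (fun p : ℝ × E => (tau p.1, p.2)) :=
    (contDiff_tau.comp contDiff_fst).prodMk contDiff_snd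
  exact ContDiffAt.comp (f := fun p : ℝ × E => (tau p.1, p.2)) p h1 h2.contDiffAt

theorem contDiff_rot_time {f : ℝ × E → E} {c s : ℝ × E → ℝ} (hf : ContDiff ℝ (⊤ : ℕ∞) f)
    (hc : ContDiff ℝ (⊤ : ℕ∞) c) (hs : ContDiff ℝ (⊤ : ℕ∞) s) :
    ContDiff ℝ (⊤ : ℕ∞) (fun p => rot (c p) (s p) (f p)) := by
  have hf' : ∀ j, ContDiff ℝ (⊤ : ℕ∞) (fun p => f p j) := contDiff_pi.1 hf
  have hc' : ContDiff ℝ (⊤ : ℕ∞) (fun p => (c p : ℂ)) := Complex.ofRealCLM.contDiff.comp hc
  have hs' : ContDiff ℝ (⊤ : ℕ∞) (fun p => (s p : ℂ)) := Complex.ofRealCLM.contDiff.comp hs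
  rw [contDiff_pi]
  intro j
  fin_cases j
  · exact hf' 0
  · exact (hc'.mul (hf' 1)).sub (hs'.mul (hf' 2))
  · exact (hs'.mul (hf' 1)).add (hc'.mul (hf' 2))
  · exact (hc'.mul (hf' 3)).sub (hs'.mul (hf' 4))
  · exact (hs'.mul (hf' 3)).add (hc'.mul (hf' 4))

theorem contDiff_Psi : ContDiff ℝ (⊤ : ℕ∞) Psi := by
  unfold Psi
  refine contDiff_rot_time contDiff_fl_tau ?_ ?_ <;> fun_prop

/-- The infinitesimal rotation. -/
noncomputable def Jm (z : E) : E := ![0, - z 2, z 1, - z 4, z 3]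

/-- The lifted Hamiltonian. -/
noncomputable def Ham (p : ℝ × E) : ℝ :=
  Real.pi * (herm (Jm p.2) p.2).im +
    eps * (Real.cos (Real.pi * p.1 / 2) * (Real.pi / 2)) *
      (lam (rot (Real.cos (Real.pi * p.1)) (- Real.sin (Real.pi * p.1)) p.2)).re

theorem contDiff_Jm (j : Fin 5) : ContDiff ℝ (⊤ : ℕ∞) (fun z : E => Jm z j) := by
  fin_cases j
  · exact contDiff_const
  · exact (contDiff_coord 2).neg
  · exact contDiff_coord 1
  · exact (contDiff_coord 4).neg
  · exact contDiff_coord 3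

theorem contDiff_Ham : ContDiff ℝ (⊤ : ℕ∞) Ham := by
  unfold Ham
  have h1 : ContDiff ℝ (⊤ : ℕ∞) (fun z : E => herm (Jm z) z) := by
    unfold herm
    exact ContDiff.sum fun j _ => (contDiff_conj.comp (contDiff_Jm j)).mul (contDiff_coord j)
  have h2 : ContDiff ℝ (⊤ : ℕ∞) (fun p : ℝ × E => (herm (Jm p.2) p.2).im) :=
    Complex.imCLM.contDiff.comp (h1.comp contDiff_snd)
  have h3 : ContDiff ℝ (⊤ : ℕ∞) (fun p : ℝ × E =>
      (lam (rot (Real.cos (Real.pi * p.1)) (- Real.sin (Real.pi * p.1)) p.2)).re) := by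
    refine Complex.reCLM.contDiff.comp (contDiff_lam.comp ?_)
    refine contDiff_rot_time contDiff_snd ?_ ?_ <;> fun_prop
  have h4 : ContDiff ℝ (⊤ : ℕ∞) (fun p : ℝ × E =>
      eps * (Real.cos (Real.pi * p.1 / 2) * (Real.pi / 2))) := by fun_prop
  exact (contDiff_const.mul h2).add (h4.mul h3)


theorem hasDerivAt_Psi (t : ℝ) (z : E) :
    HasDerivAt (fun s => Psi (s, z))
      ((Real.pi : ℂ) • Jm (Psi (t, z)) +
        ((eps * (Real.cos (Real.pi * t / 2) * (Real.pi / 2)) : ℝ) : ℂ) •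
          rot (Real.cos (Real.pi * t)) (Real.sin (Real.pi * t)) (Xt (fl (tau t) z))) t := by
  have h1 : HasDerivAt (fun s => fl (tau s) z)
      ((eps * (Real.cos (Real.pi * t / 2) * (Real.pi / 2))) • Xt (fl (tau t) z)) t :=
    HasDerivAt.scomp (h := tau) t (hasDerivAt_fl (tau t) (tau_lt t) z) (hasDerivAt_tau t)
  have h2 := hasDerivAt_pi.1 h1
  have hlin : HasDerivAt (fun s : ℝ => Real.pi * s) Real.pi t := by
    simpa using (hasDerivAt_id t).const_mul Real.pi
  have hc : HasDerivAt (fun s : ℝ => ((Real.cos (Real.pi * s) : ℝ) : ℂ))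
      (((- Real.sin (Real.pi * t) * Real.pi : ℝ)) : ℂ) t := hlin.cos.ofReal_comp
  have hs : HasDerivAt (fun s : ℝ => ((Real.sin (Real.pi * s) : ℝ) : ℂ))
      (((Real.cos (Real.pi * t) * Real.pi : ℝ)) : ℂ) t := hlin.sin.ofReal_comp
  rw [hasDerivAt_pi]
  intro j
  fin_cases j
  · refine (h2 0).congr_deriv ?_
    simp [Jm, rot, Psi]
  · refine ((hc.fun_mul (h2 1)).fun_sub (hs.fun_mul (h2 2))).congr_deriv ?_
    simp [Jm, rot, Psi]
    ring
  · refine ((hs.fun_mul (h2 1)).fun_add (hc.fun_mul (h2 2))).congr_deriv ?_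
    simp [Jm, rot, Psi]
    ring
  · refine ((hc.fun_mul (h2 3)).fun_sub (hs.fun_mul (h2 4))).congr_deriv ?_
    simp [Jm, rot, Psi]
    ring
  · refine ((hs.fun_mul (h2 3)).fun_add (hc.fun_mul (h2 4))).congr_deriv ?_
    simp [Jm, rot, Psi]
    ring

theorem Psi_mem (t : ℝ) (z : E) (hz : z ∈ unitCone) : Psi (t, z) ∈ unitCone :=
  rot_mem_cone _ _ (cs _) _ (fl_mem_cone z hz _ (tau_lt t))

theorem Psi_smul (t : ℝ) (z : E) (c : ℂ) (hc : ‖c‖ = 1) : Psi (t, c • z) = c • Psi (t, z) := by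
  unfold Psi
  simp only
  rw [fl_smul c hc _ (tau_lt t), rot_smul]

theorem Psi_zero (z : E) : Psi (0, z) = z := by
  unfold Psi
  simp only [tau_zero, fl_zero, mul_zero, Real.cos_zero, Real.sin_zero]
  apply ext5 <;> simp [rot0, rot1, rot2, rot3, rot4]

theorem lam_smul (c : ℂ) (hc : ‖c‖ = 1) (z : E) : lam (c • z) = lam z := by
  have hcc : (starRingEnd ℂ) c * c = 1 := by
    rw [mul_comm, Complex.mul_conj, Complex.normSq_eq_norm_sq, hc]; simp
  unfold lam herm
  refine Finset.sum_congr rfl fun j _ => ?_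
  simp only [A_smul, Pi.smul_apply, smul_eq_mul, map_mul]
  linear_combination ((starRingEnd ℂ) (z j) * A z j) * hcc

theorem Ham_smul (t : ℝ) (z : E) (c : ℂ) (hc : ‖c‖ = 1) : Ham (t, c • z) = Ham (t, z) := by
  have hcc : (starRingEnd ℂ) c * c = 1 := by
    rw [mul_comm, Complex.mul_conj, Complex.normSq_eq_norm_sq, hc]; simp
  have h1 : herm (Jm (c • z)) (c • z) = herm (Jm z) z := by
    rw [herm_eq, herm_eq]
    simp only [Jm, Matrix.cons_val, Pi.smul_apply, smul_eq_mul, map_mul, map_neg, map_zero]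
    linear_combination (-(starRingEnd ℂ) (z 2) * z 1 + (starRingEnd ℂ) (z 1) * z 2
      - (starRingEnd ℂ) (z 4) * z 3 + (starRingEnd ℂ) (z 3) * z 4) * hcc
  unfold Ham
  simp only [h1, rot_smul, lam_smul c hc]

/-- Derivative of the two quadratic forms. -/
theorem quad1 (x w : E) (r : ℝ) : (herm (Jm (x + r • w)) (x + r • w)).im =
    (herm (Jm x) x).im + r * (2 * (herm (Jm x) w).im) + r ^ 2 * (herm (Jm w) w).im := by
  simp only [herm_eq, Jm, Matrix.cons_val, Pi.add_apply, Pi.smul_apply]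
  simp [Complex.add_re, Complex.add_im, Complex.mul_re, Complex.mul_im]
  ring

theorem quad2 (x w : E) (r : ℝ) : (lam (x + r • w)).re =
    (lam x).re + r * (2 * (herm (A x) w).re) + r ^ 2 * (lam w).re := by
  simp only [lam, herm_eq, A, Matrix.cons_val, Pi.add_apply, Pi.smul_apply]
  simp [Complex.add_re, Complex.add_im, Complex.mul_re, Complex.mul_im]
  ring

theorem fderiv_Ham (t : ℝ) (x w : E) :
    fderiv ℝ (fun x : E => Ham (t, x)) x w =
      Real.pi * (2 * (herm (Jm x) w).im) +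
      eps * (Real.cos (Real.pi * t / 2) * (Real.pi / 2)) *
        (2 * (herm (A (rot (Real.cos (Real.pi * t)) (- Real.sin (Real.pi * t)) x))
          (rot (Real.cos (Real.pi * t)) (- Real.sin (Real.pi * t)) w)).re) := by
  have hd : DifferentiableAt ℝ (fun x : E => Ham (t, x)) x := by
    have : ContDiff ℝ (⊤ : ℕ∞) (fun x : E => Ham (t, x)) :=
      contDiff_Ham.comp (contDiff_const.prodMk contDiff_id)
    exact this.differentiable (by simp) x
  have h1 : HasDerivAt (fun r : ℝ => Ham (t, x + r • w))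
      (fderiv ℝ (fun x : E => Ham (t, x)) x w) 0 := by
    have hline : HasDerivAt (fun r : ℝ => x + r • w) w 0 := by
      simpa using ((hasDerivAt_id (0:ℝ)).smul_const w).const_add x
    have hd' : HasFDerivAt (fun x : E => Ham (t, x)) (fderiv ℝ (fun x : E => Ham (t, x)) x)
        (x + (0:ℝ) • w) := by
      simpa using hd.hasFDerivAt
    exact hd'.comp_hasDerivAt (0:ℝ) hline
  set c := Real.cos (Real.pi * t) with hc
  set s := - Real.sin (Real.pi * t) with hs
  set k := eps * (Real.cos (Real.pi * t / 2) * (Real.pi / 2)) with hk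
  have h2 : (fun r : ℝ => Ham (t, x + r • w)) = fun r : ℝ =>
      (Real.pi * ((herm (Jm x) x).im + r * (2 * (herm (Jm x) w).im) + r ^ 2 * (herm (Jm w) w).im) +
      k * ((lam (rot c s x)).re + r * (2 * (herm (A (rot c s x)) (rot c s w)).re) +
        r ^ 2 * (lam (rot c s w)).re)) := by
    funext r
    unfold Ham
    simp only
    rw [quad1, rot_add]
    have : rot c s (r • w) = r • rot c s w := by
      have := rot_smul c s (r : ℂ) w
      simpa using this
    rw [this, quad2]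
  rw [h2] at h1
  have h3 : ∀ a b d : ℝ, HasDerivAt (fun r : ℝ => a + r * b + r ^ 2 * d) b 0 := by
    intro a b d
    have e1 : HasDerivAt (fun r : ℝ => r * b) b 0 := by
      simpa using (hasDerivAt_id (0:ℝ)).mul_const b
    have e2 : HasDerivAt (fun r : ℝ => r ^ 2 * d) 0 0 := by
      simpa using ((hasDerivAt_id (0:ℝ)).pow 2).mul_const d
    simpa using (e1.const_add a).fun_add e2
  have h4 := ((h3 ((herm (Jm x) x).im) (2 * (herm (Jm x) w).im) ((herm (Jm w) w).im)).const_mul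
    Real.pi).fun_add ((h3 ((lam (rot c s x)).re) (2 * (herm (A (rot c s x)) (rot c s w)).re)
      ((lam (rot c s w)).re)).const_mul k)
  exact h1.unique h4

theorem pairing_X (z w : E) (hz : z ∈ unitCone) (hw : w ∈ coneTangent z) :
    (herm (X z) w).im = (herm (A z) w).re := by
  have h1 : herm (X z) w = I * (herm (A z) w - (starRingEnd ℂ) (mu z) * (∑ j, z j * w j) -
      lam z * herm z w) := by
    have hl := lam_conj z
    have hh : herm z z = 1 := hz.1
    unfold X
    rw [hh]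
    rw [herm_eq, herm_eq, herm_eq z w, Fin.sum_univ_five]
    simp only [map_mul, map_sub, map_neg, Complex.conj_I, Complex.conj_conj, hl, map_one]
    ring
  rw [h1, hw.2]
  have h2 := hw.1
  have h3 := lam_im z
  simp only [mul_zero, sub_zero, Complex.mul_im, Complex.I_re, Complex.I_im, zero_mul, one_mul,
    zero_add, Complex.sub_re, Complex.mul_re, h2, h3, sub_zero, mul_zero]

theorem herm_add_left (u v w : E) : herm (u + v) w = herm u w + herm v w := by
  simp only [herm_eq, Pi.add_apply, map_add]; ring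

theorem herm_smul_left (a : ℂ) (u w : E) : herm (a • u) w = (starRingEnd ℂ) a * herm u w := by
  simp only [herm_eq, Pi.smul_apply, smul_eq_mul, map_mul]; ring

theorem hamilton_eq (t : ℝ) (z : E) (hz : z ∈ unitCone) (w : E) (hw : w ∈ coneTangent (Psi (t, z))) :
    2 * (herm (deriv (fun s : ℝ => Psi (s, z)) t) w).im =
      fderiv ℝ (fun x : E => Ham (t, x)) (Psi (t, z)) w := by
  rw [(hasDerivAt_Psi t z).deriv, fderiv_Ham]
  set c := Real.cos (Real.pi * t) with hc
  set s := Real.sin (Real.pi * t) with hs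
  set k := eps * (Real.cos (Real.pi * t / 2) * (Real.pi / 2)) with hk
  have hcs : c ^ 2 + s ^ 2 = 1 := cs _
  have hcs' : c ^ 2 + (-s) ^ 2 = 1 := by rw [neg_sq]; exact hcs
  set y := fl (tau t) z with hy
  have hP : Psi (t, z) = rot c s y := rfl
  have hyc : y ∈ unitCone := fl_mem_cone z hz _ (tau_lt t)
  rw [herm_add_left, herm_smul_left, herm_smul_left, Complex.conj_ofReal, Complex.conj_ofReal]
  rw [hP] at hw ⊢
  have h1 : rot c (-s) (rot c s y) = y := rot_neg_rot c s hcs y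
  have hw' : rot c (-s) w ∈ coneTangent y := by
    have := rot_tangent c (-s) hcs' _ _ hw
    rwa [h1] at this
  have h2 : herm (rot c s (Xt y)) w = herm (Xt y) (rot c (-s) w) := by
    rw [← herm_rot c s hcs (Xt y) (rot c (-s) w), rot_rot_neg c s hcs]
  rw [h1, h2, Xt_eq_X y hyc]
  have h3 := pairing_X y (rot c (-s) w) hyc hw'
  simp only [Complex.add_im, Complex.mul_im, Complex.ofReal_re, Complex.ofReal_im, zero_mul,
    add_zero, h3]
  ring

/-- The Hamiltonian lift. -/
noncomputable def L : HamiltonianConeLift where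
  Ψ := Psi
  H := Ham
  smooth_Ψ := contDiff_Psi
  smooth_H := contDiff_Ham
  mapsTo_cone := fun t z hz => Psi_mem t z hz
  compatible := fun t z _ c hc => ⟨c, Psi_smul t z c hc⟩
  start := fun z _ => ⟨1, by rw [Psi_zero, one_smul]⟩
  invariant := fun t z _ c hc => Ham_smul t z c hc
  hamilton := fun t _ z hz w hw => hamilton_eq t z hz w hw


/-! ### Fixed points -/

theorem herm_X_zero (z : E) (hz : z ∈ unitCone) : herm z (X z) = 0 := by
  rw [herm_X]
  have : q z = 0 := hz.2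
  rw [this]; simp

theorem herm_conj_symm (u v : E) : herm u v = (starRingEnd ℂ) (herm v u) := by
  simp only [herm_eq, map_add, map_mul, Complex.conj_conj]; ring

theorem norm_herm_le (u v : E) : ‖herm u v‖ ≤ 5 * ‖u‖ * ‖v‖ := by
  unfold herm
  calc ‖∑ j, (starRingEnd ℂ) (u j) * v j‖ ≤ ∑ j : Fin 5, ‖(starRingEnd ℂ) (u j) * v j‖ :=
        norm_sum_le _ _
    _ ≤ ∑ _j : Fin 5, ‖u‖ * ‖v‖ := by
        refine Finset.sum_le_sum fun j _ => ?_
        rw [norm_mul, RCLike.norm_conj]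
        gcongr
        · exact norm_le_pi_norm u j
        · exact norm_le_pi_norm v j
    _ = 5 * ‖u‖ * ‖v‖ := by simp; ring

theorem norm_rotR (z : E) : ‖rot (-1) 0 z‖ = ‖z‖ := by
  have h : ∀ z : E, ‖rot (-1) 0 z‖ ≤ ‖z‖ := by
    intro z
    rw [pi_norm_le_iff_of_nonneg (norm_nonneg _)]
    intro j
    fin_cases j
    · simpa [rot] using norm_le_pi_norm z 0
    · simpa [rot] using norm_le_pi_norm z 1
    · simpa [rot] using norm_le_pi_norm z 2
    · simpa [rot] using norm_le_pi_norm z 3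
    · simpa [rot] using norm_le_pi_norm z 4
  apply le_antisymm (h z)
  have h1 := h (rot (-1) 0 z)
  have h2 : rot (-1) 0 (rot (-1) 0 z) = z := by
    have := rot_rot_neg (-1) 0 (by norm_num) z
    simpa using this
  rwa [h2] at h1

/-- Fixed lines are zeros of the vector field. -/
theorem X_zero_of_fixed (z : E) (hz : z ∈ unitCone) (c : ℂ)
    (hfix : Psi (1, z) = c • z) : X z = 0 ∧ z 0 = 0 := by
  have hs : |eps| * Lc ≤ 1 / 32 := by rw [abs_of_pos eps_pos]; exact eps_mul
  have hs1 : |eps| * Lc < 1 := by linarith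
  have hs2 : |eps| * Lc ≤ 1 / 2 := by linarith
  set z' := fl eps z with hz'
  have hz'c : z' ∈ unitCone := fl_mem_cone z hz _ hs1
  have hP : Psi (1, z) = rot (-1) 0 z' := by
    unfold Psi
    simp only [mul_one, Real.cos_pi, Real.sin_pi, tau_one]
    rfl
  rw [hP] at hfix
  have hinv : ∀ u : E, rot (-1) 0 (rot (-1) 0 u) = u := by
    intro u
    have := rot_rot_neg (-1) 0 (by norm_num) u
    simpa using this
  have hz'eq : z' = c • rot (-1) 0 z := by
    rw [← rot_smul, ← hfix, hinv]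
  -- `‖c‖ = 1`
  have hcn : ‖c‖ = 1 := by
    have h1 : herm z' z' = 1 := hz'c.1
    have h2 : herm z' z' = (starRingEnd ℂ) c * c * herm z z := by
      rw [← herm_rot (-1) 0 (by norm_num) z z, hz'eq]
      simp only [herm_eq, Pi.smul_apply, smul_eq_mul, map_mul]; ring
    rw [h1, hz.1, mul_one, mul_comm, Complex.mul_conj, Complex.normSq_eq_norm_sq] at h2
    have h3 : ‖c‖ ^ 2 = 1 := by exact_mod_cast h2.symm
    nlinarith [norm_nonneg c]
  have hX' : Xt z' = c • rot (-1) 0 (Xt z) := by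
    rw [hz'eq, Xt_smul c hcn, Xt_R]
  have hz'' : fl eps z' = (c * c) • z := by
    conv_lhs => rw [hz'eq]
    rw [fl_smul c hcn _ hs1, fl_R _ hs1]
    change c • rot (-1) 0 z' = _
    rw [hfix, smul_smul]
  have hXX : Xt z = X z := Xt_eq_X z hz
  have e1 : ‖z' - z‖ ≤ 2 * eps * ‖X z‖ := by
    have := LibSmoothFlow.norm_flow_sub_le XC Lc lip_XC eps hs2 z
    rw [abs_of_pos eps_pos, XC_apply, hXX] at this
    exact this
  have e2 : ‖z' - z - eps • X z‖ ≤ 2 * Lc * eps ^ 2 * ‖X z‖ := by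
    have := LibSmoothFlow.norm_flow_sub_sub_le XC Lc lip_XC eps hs2 z
    rw [XC_apply, hXX] at this
    exact this
  have hnX' : ‖Xt z'‖ = ‖X z‖ := by
    rw [hX', norm_smul, hcn, one_mul, norm_rotR, hXX]
  have e3 : ‖(c * c) • z - z' - eps • Xt z'‖ ≤ 2 * Lc * eps ^ 2 * ‖X z‖ := by
    have := LibSmoothFlow.norm_flow_sub_sub_le XC Lc lip_XC eps hs2 z'
    rw [XC_apply, hnX'] at this
    have h4 : LibSmoothFlow.flow XC eps z' = (c * c) • z := hz''
    rw [h4] at this
    exact this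
  have e4 : ‖Xt z' - X z‖ ≤ 2 * Lc * eps * ‖X z‖ := by
    have h5 := lip_Xt.dist_le_mul z' z
    rw [dist_eq_norm, dist_eq_norm, hXX] at h5
    calc ‖Xt z' - X z‖ ≤ Lc * ‖z' - z‖ := h5
      _ ≤ Lc * (2 * eps * ‖X z‖) := by gcongr
      _ = _ := by ring
  have e5 : ‖(c * c) • z - z - (2 * eps) • X z‖ ≤ 6 * Lc * eps ^ 2 * ‖X z‖ := by
    have h6 : (c * c) • z - z - (2 * eps) • X z =
        ((c * c) • z - z' - eps • Xt z') + (z' - z - eps • X z) + eps • (Xt z' - X z) := by
      rw [smul_sub, two_mul, add_smul]; abel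
    rw [h6]
    have h7 : ‖eps • (Xt z' - X z)‖ ≤ eps * (2 * Lc * eps * ‖X z‖) := by
      rw [norm_smul, Real.norm_eq_abs, abs_of_pos eps_pos]
      gcongr
      exact eps_pos.le
    calc _ ≤ ‖((c * c) • z - z' - eps • Xt z')‖ + ‖(z' - z - eps • X z)‖ +
          ‖eps • (Xt z' - X z)‖ := norm_add₃_le
      _ ≤ 2 * Lc * eps ^ 2 * ‖X z‖ + 2 * Lc * eps ^ 2 * ‖X z‖ +
          eps * (2 * Lc * eps * ‖X z‖) := by gcongr
      _ = _ := by ring
  -- pair with `X z`
  have hpair : herm (X z) ((c * c) • z - z - (2 * eps) • X z) =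
      - ((2 * eps : ℝ) : ℂ) * herm (X z) (X z) := by
    have h8 : herm (X z) z = 0 := by
      rw [herm_conj_symm, herm_X_zero z hz, map_zero]
    have h9 : herm (X z) ((c * c) • z - z - (2 * eps) • X z) =
        (c * c) * herm (X z) z - herm (X z) z - ((2 * eps : ℝ) : ℂ) * herm (X z) (X z) := by
      simp only [herm_eq, Pi.sub_apply, Pi.smul_apply, smul_eq_mul, Complex.real_smul]
      ring
    rw [h9, h8]; ring
  have hle := norm_herm_le (X z) ((c * c) • z - z - (2 * eps) • X z)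
  rw [hpair] at hle
  have hge : 2 * eps * ‖X z‖ ^ 2 ≤ ‖- ((2 * eps : ℝ) : ℂ) * herm (X z) (X z)‖ := by
    rw [norm_mul, norm_neg, Complex.norm_real, Real.norm_eq_abs,
      abs_of_pos (by linarith [eps_pos] : 0 < 2 * eps)]
    have h10 := norm_sq_le_herm (X z)
    have h11 : (herm (X z) (X z)).re ≤ ‖herm (X z) (X z)‖ := Complex.re_le_norm _
    have := eps_pos
    gcongr
    linarith
  have hfin : 2 * eps * ‖X z‖ ^ 2 ≤ 30 * (eps * Lc) * eps * ‖X z‖ ^ 2 := by
    calc 2 * eps * ‖X z‖ ^ 2 ≤ 5 * ‖X z‖ * ‖(c * c) • z - z - (2 * eps) • X z‖ := hge.trans hle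
      _ ≤ 5 * ‖X z‖ * (6 * Lc * eps ^ 2 * ‖X z‖) := by gcongr
      _ = _ := by ring
  have hX0 : X z = 0 := by
    by_contra hne
    have hpos : 0 < ‖X z‖ := norm_pos_iff.2 hne
    have h12 : 30 * (eps * Lc) * eps * ‖X z‖ ^ 2 ≤ 30 * (1 / 32) * eps * ‖X z‖ ^ 2 := by
      have := eps_pos
      have := eps_mul
      gcongr
    have h13 : 0 < eps * ‖X z‖ ^ 2 := by
      have := eps_pos
      positivity
    nlinarith
  refine ⟨hX0, ?_⟩
  -- now `z' = z`
  have hz'z : z' = z := by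
    rw [hX0, norm_zero, mul_zero] at e1
    exact sub_eq_zero.1 (norm_le_zero_iff.1 e1)
  rw [hz'z] at hfix
  by_contra h0
  have f0 := congrFun hfix 0
  have f1 := congrFun hfix 1
  have f2 := congrFun hfix 2
  have f3 := congrFun hfix 3
  have f4 := congrFun hfix 4
  simp only [rot0, rot1, rot2, rot3, rot4, Pi.smul_apply, smul_eq_mul, Complex.ofReal_neg,
    Complex.ofReal_one, Complex.ofReal_zero, zero_mul, sub_zero, zero_add] at f0 f1 f2 f3 f4
  have hc1 : c = 1 := by
    have : (c - 1) * z 0 = 0 := by linear_combination -f0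
    rcases mul_eq_zero.1 this with h | h
    · exact sub_eq_zero.1 h
    · exact absurd h h0
  rw [hc1] at f1 f2 f3 f4
  have g1 : z 1 = 0 := by linear_combination (-1/2 : ℂ) * f1
  have g2 : z 2 = 0 := by linear_combination (-1/2 : ℂ) * f2
  have g3 : z 3 = 0 := by linear_combination (-1/2 : ℂ) * f3
  have g4 : z 4 = 0 := by linear_combination (-1/2 : ℂ) * f4
  have hq := hz.2
  rw [Fin.sum_univ_five, g1, g2, g3, g4] at hq
  apply h0
  simpa using hq

/-- Zeros of `X` on the cone with `z 0 = 0` are fixed. -/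
theorem fixed_of_X_zero (z : E) (hz : z ∈ unitCone) (hX : X z = 0) (h0 : z 0 = 0) :
    Psi (1, z) = (-1 : ℂ) • z := by
  have hs : |eps| * Lc ≤ 1 / 32 := by rw [abs_of_pos eps_pos]; exact eps_mul
  have hs2 : |eps| * Lc ≤ 1 / 2 := by linarith
  have hfl : fl eps z = z := by
    have := LibSmoothFlow.norm_flow_sub_le XC Lc lip_XC eps hs2 z
    rw [XC_apply, Xt_eq_X z hz, hX, norm_zero, mul_zero] at this
    exact sub_eq_zero.1 (norm_le_zero_iff.1 this)
  unfold Psi
  simp only [mul_one, Real.cos_pi, Real.sin_pi, tau_one]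
  rw [hfl]
  apply ext5 <;> simp [rot0, rot1, rot2, rot3, rot4, h0]

end Crest.Agent.S0316
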