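import Crest.Statements.S0316
import Crest.Agent.S0316_Lift

set_option autoImplicit false
open Crest Crest.GeometryTopology

namespace Crest.Agent.S0316

open Crest.GeometryTopology.Quadric Complex

theorem crit_of_X_zero (z : E) (hz : z ∈ unitCone) (hX : X z = 0) (j : Fin 5) :
    A z j = mu z * (starRingEnd ℂ) (z j) + lam z * z j := by
  have h1 := congrFun hX j
  simp only [X, Pi.zero_apply] at h1
  have h2 : herm z z = 1 := hz.1
  rw [h2] at h1
  have h3 : (-I : ℂ) ≠ 0 := by simp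
  rcases mul_eq_zero.1 h1 with h | h
  · exact absurd h h3
  · linear_combination h

/-- The number `1/√2`. -/
noncomputable def r2 : ℝ := (Real.sqrt 2)⁻¹

theorem r2_sq : r2 ^ 2 = 1 / 2 := by
  unfold r2
  rw [inv_pow, Real.sq_sqrt (by norm_num)]; norm_num

theorem r2_ne : r2 ≠ 0 := by
  intro h
  have := r2_sq
  rw [h] at this
  norm_num at this

/-- The candidate critical points. -/
noncomputable def pt (α β : ℝ) : E := ![0, r2, 0, r2 * α * I, r2 * β * I]

theorem pt0 (α β : ℝ) : pt α β 0 = 0 := rfl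
theorem pt1 (α β : ℝ) : pt α β 1 = r2 := rfl
theorem pt2 (α β : ℝ) : pt α β 2 = 0 := rfl
theorem pt3 (α β : ℝ) : pt α β 3 = r2 * α * I := rfl
theorem pt4 (α β : ℝ) : pt α β 4 = r2 * β * I := rfl

theorem pt_mem (α β : ℝ) (h : α ^ 2 + β ^ 2 = 1) : pt α β ∈ unitCone := by
  have hr : (r2 : ℂ) ^ 2 = 1 / 2 := by
    have := congrArg (fun x : ℝ => (x : ℂ)) r2_sq
    push_cast at this; exact this
  have h' : (α : ℂ) ^ 2 + (β : ℂ) ^ 2 = 1 := by exact_mod_cast h
  have hI : I ^ 2 = -1 := Complex.I_sq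
  refine ⟨?_, ?_⟩
  · rw [herm_eq]
    simp only [pt0, pt1, pt2, pt3, pt4, map_mul, map_zero, Complex.conj_ofReal, Complex.conj_I]
    linear_combination (1 + α ^ 2 + β ^ 2 : ℂ) * hr + (1 / 2 : ℂ) * h' -
      (r2 : ℂ) ^ 2 * (α ^ 2 + β ^ 2) * hI
  · rw [Fin.sum_univ_five]
    simp only [pt0, pt1, pt2, pt3, pt4]
    linear_combination (r2 : ℂ) ^ 2 * (α ^ 2 + β ^ 2) * hI - (r2 : ℂ) ^ 2 * h'

theorem X_pt (α β : ℝ) (h : α ^ 2 + β ^ 2 = 1) (hβ : β ^ 2 - α ^ 2 = β) : X (pt α β) = 0 := by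
  have hr : (r2 : ℂ) ^ 2 = 1 / 2 := by
    have := congrArg (fun x : ℝ => (x : ℂ)) r2_sq
    push_cast at this; exact this
  have h' : (α : ℂ) ^ 2 + (β : ℂ) ^ 2 = 1 := by exact_mod_cast h
  have hβ' : (β : ℂ) ^ 2 - (α : ℂ) ^ 2 = β := by exact_mod_cast hβ
  have hI : I ^ 2 = -1 := Complex.I_sq
  have hm : mu (pt α β) = 1 - 2 * α * β := by
    rw [mu_eq]
    simp only [A0, A1, A2, A3, A4, pt0, pt1, pt2, pt3, pt4]
    have : (r2 : ℂ) * (r2 + 2 * I * (r2 * α * I)) + 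
      r2 * α * I * (-(r2 * α * I) - 2 * I * r2 + 2 * (r2 * β * I)) +
      r2 * β * I * (-(r2 * β * I) + 2 * (r2 * α * I)) =
      (r2 : ℂ) ^ 2 * (1 + (2 * α - α ^ 2 - 2 * α + 2 * α * β - β ^ 2 + 2 * α * β) * I ^ 2) := by ring
    linear_combination this + (1 + (- α ^ 2 + 4 * α * β - β ^ 2) * I ^ 2 : ℂ) * hr +
      (1 / 2 : ℂ) * (- α ^ 2 + 4 * α * β - β ^ 2) * hI + (1 / 2 : ℂ) * h'
  have hl : lam (pt α β) = - 2 * α + 2 * α * β := by
    rw [lam, herm_eq]
    simp only [A0, A1, A2, A3, A4, pt0, pt1, pt2, pt3, pt4, map_mul, map_zero,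
      Complex.conj_ofReal, Complex.conj_I]
    linear_combination (1 + 2 * α * I ^ 2 + (2 * α + α ^ 2 - 4 * α * β + β ^ 2) * I ^ 2 : ℂ) * hr +
      (1 / 2 : ℂ) * (2 * α + 2 * α + α ^ 2 - 4 * α * β + β ^ 2) * hI - (1 / 2 : ℂ) * h'
  have hh : herm (pt α β) (pt α β) = 1 := (pt_mem α β h).1
  apply ext5 <;> simp only [X, hm, hl, hh, A0, A1, A2, A3, A4, pt0, pt1, pt2, pt3, pt4, map_mul,
    map_zero, Complex.conj_ofReal, Complex.conj_I, Pi.zero_apply]
  · ring
  · linear_combination (-2 * I * r2 * α : ℂ) * hI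
  · ring
  · linear_combination (-2 * I ^ 2 * r2 : ℂ) * ((1 - β) * h' + β * hβ')
  · linear_combination (2 * α * I ^ 2 * r2 : ℂ) * (h' + hβ')


theorem Psi_pt (α β : ℝ) (h : α ^ 2 + β ^ 2 = 1) (hβ : β ^ 2 - α ^ 2 = β) :
    Psi (1, pt α β) = (-1 : ℂ) • pt α β :=
  fixed_of_X_zero _ (pt_mem α β h) (X_pt α β h hβ) (pt0 α β)

/-- Solutions of the reduced equations. -/
theorem cases_ab (α β : ℝ) (h : α ^ 2 + β ^ 2 = 1) (hβ : β ^ 2 - α ^ 2 = β) :
    (α = 0 ∧ β = 1) ∨ (α = Real.sqrt 3 / 2 ∧ β = - 1 / 2) ∨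
      (α = - (Real.sqrt 3 / 2) ∧ β = - 1 / 2) := by
  have h1 : (2 * β + 1) * (β - 1) = 0 := by nlinarith
  rcases mul_eq_zero.1 h1 with h2 | h2
  · right
    have hb : β = -1 / 2 := by linarith
    subst hb
    have h3 : α ^ 2 = (Real.sqrt 3 / 2) ^ 2 := by
      rw [div_pow, Real.sq_sqrt (by norm_num)]; linarith
    rcases sq_eq_sq_iff_eq_or_eq_neg.1 h3 with h4 | h4
    · left; exact ⟨h4, rfl⟩
    · right; exact ⟨h4, rfl⟩
  · left
    have hb : β = 1 := by linarith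
    subst hb
    refine ⟨?_, rfl⟩
    nlinarith

theorem s3_sq : (Real.sqrt 3 / 2) ^ 2 = 3 / 4 := by
  rw [div_pow, Real.sq_sqrt (by norm_num)]; norm_num

theorem fixedLines_eq : fixedLines L =
    {Submodule.span ℂ {pt 0 1}, Submodule.span ℂ {pt (Real.sqrt 3 / 2) (-1 / 2)},
      Submodule.span ℂ {pt (-(Real.sqrt 3 / 2)) (-1 / 2)}} := by
  have hab1 : ((0:ℝ)) ^ 2 + (1:ℝ) ^ 2 = 1 := by norm_num
  have hb1 : (1:ℝ) ^ 2 - (0:ℝ) ^ 2 = 1 := by norm_num
  have hab2 : (Real.sqrt 3 / 2) ^ 2 + (-1 / 2 : ℝ) ^ 2 = 1 := by rw [s3_sq]; norm_num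
  have hb2 : (-1 / 2 : ℝ) ^ 2 - (Real.sqrt 3 / 2) ^ 2 = -1 / 2 := by rw [s3_sq]; norm_num
  have hab3 : (-(Real.sqrt 3 / 2)) ^ 2 + (-1 / 2 : ℝ) ^ 2 = 1 := by
    rw [neg_sq, s3_sq]; norm_num
  have hb3 : (-1 / 2 : ℝ) ^ 2 - (-(Real.sqrt 3 / 2)) ^ 2 = -1 / 2 := by
    rw [neg_sq, s3_sq]; norm_num
  have key : ∀ α β : ℝ, α ^ 2 + β ^ 2 = 1 → β ^ 2 - α ^ 2 = β →
      Submodule.span ℂ {pt α β} ∈ fixedLines L := by
    intro α β h hβ
    refine ⟨pt α β, pt_mem α β h, rfl, ?_⟩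
    change Psi (1, pt α β) ∈ _
    rw [Psi_pt α β h hβ]
    exact Submodule.smul_mem _ _ (Submodule.mem_span_singleton_self _)
  apply Set.Subset.antisymm
  · rintro ℓ ⟨z, hz, rfl, hfix⟩
    obtain ⟨c, hc⟩ := Submodule.mem_span_singleton.1 hfix
    change c • z = Psi (1, z) at hc
    obtain ⟨hX, h0⟩ := X_zero_of_fixed z hz c hc.symm
    obtain ⟨h1, h2, α, β, hab, hb, h3, h4⟩ := classification z hz h0 (crit_of_X_zero z hz hX)
    have hr : (r2 : ℂ) ≠ 0 := by exact_mod_cast r2_ne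
    have hz' : z = (z 1 / r2) • pt α β := by
      apply ext5 <;> simp only [Pi.smul_apply, smul_eq_mul, pt0, pt1, pt2, pt3, pt4, h0, h2, h3, h4]
      · simp
      · field_simp
      · simp
      · field_simp
      · field_simp
    have hspan : Submodule.span ℂ {z} = Submodule.span ℂ {pt α β} := by
      rw [hz']
      exact Submodule.span_singleton_smul_eq
        (isUnit_iff_ne_zero.2 (div_ne_zero (by simpa [pt1, h1] using h1) hr)) _
    rw [hspan]
    rcases cases_ab α β hab hb with ⟨rfl, rfl⟩ | ⟨rfl, rfl⟩ | ⟨rfl, rfl⟩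
    · simp
    · simp
    · simp
  · intro ℓ hℓ
    simp only [Set.mem_insert_iff, Set.mem_singleton_iff] at hℓ
    rcases hℓ with rfl | rfl | rfl
    · exact key 0 1 hab1 hb1
    · exact key _ _ hab2 hb2
    · exact key _ _ hab3 hb3

theorem span_pt_inj (α β α' β' : ℝ)
    (h : Submodule.span ℂ {pt α β} = Submodule.span ℂ {pt α' β'}) : α = α' ∧ β = β' := by
  have h1 : pt α β ∈ Submodule.span ℂ {pt α' β'} := by
    rw [← h]; exact Submodule.mem_span_singleton_self _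
  obtain ⟨c, hc⟩ := Submodule.mem_span_singleton.1 h1
  have hr : (r2 : ℂ) ≠ 0 := by exact_mod_cast r2_ne
  have c1 := congrFun hc 1
  have c3 := congrFun hc 3
  have c4 := congrFun hc 4
  simp only [Pi.smul_apply, smul_eq_mul, pt1, pt3, pt4] at c1 c3 c4
  have hc1 : c = 1 := by
    have : (c - 1) * r2 = 0 := by linear_combination c1
    rcases mul_eq_zero.1 this with h | h
    · exact sub_eq_zero.1 h
    · exact absurd h hr
  subst hc1
  have e3 : ((r2 : ℂ) * I) * ((α : ℂ) - α') = 0 := by linear_combination -c3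
  have e4 : ((r2 : ℂ) * I) * ((β : ℂ) - β') = 0 := by linear_combination -c4
  have hrI : (r2 : ℂ) * I ≠ 0 := mul_ne_zero hr Complex.I_ne_zero
  constructor
  · rcases mul_eq_zero.1 e3 with h | h
    · exact absurd h hrI
    · exact_mod_cast sub_eq_zero.1 h
  · rcases mul_eq_zero.1 e4 with h | h
    · exact absurd h hrI
    · exact_mod_cast sub_eq_zero.1 h

theorem ncard_three : (fixedLines L).ncard = 3 := by
  have h3 : 0 < Real.sqrt 3 := Real.sqrt_pos.2 (by norm_num)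
  rw [Set.ncard_eq_three]
  refine ⟨_, _, _, ?_, ?_, ?_, fixedLines_eq⟩
  · intro h
    have := (span_pt_inj _ _ _ _ h).2
    norm_num at this
  · intro h
    have := (span_pt_inj _ _ _ _ h).2
    norm_num at this
  · intro h
    have := (span_pt_inj _ _ _ _ h).1
    linarith

/-! ### The degenerate fixed point -/

/-- The degenerate direction. -/
noncomputable def w2 : E := ![0, 0, 1, 0, 0]

theorem X_line (δ : ℝ) : X (pt 0 1 + δ • w2) = ((δ ^ 2 : ℝ) * I) • (pt 0 1 + δ • w2) := by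
  have hr : (r2 : ℂ) ^ 2 = 1 / 2 := by
    have := congrArg (fun x : ℝ => (x : ℂ)) r2_sq
    push_cast at this; exact this
  have hI : I ^ 2 = -1 := Complex.I_sq
  set u : E := pt 0 1 + δ • w2 with hu
  have u0 : u 0 = 0 := by simp [hu, pt, w2]
  have u1 : u 1 = r2 := by simp [hu, pt, w2]
  have u2 : u 2 = δ := by simp [hu, pt, w2]
  have u3 : u 3 = 0 := by simp [hu, pt, w2]
  have u4 : u 4 = r2 * I := by simp [hu, pt, w2]
  have hh : herm u u = 1 + δ ^ 2 := by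
    rw [herm_eq]
    simp only [u0, u1, u2, u3, u4, map_mul, map_zero, Complex.conj_ofReal, Complex.conj_I]
    linear_combination (1 - I ^ 2 : ℂ) * hr - (1 / 2 : ℂ) * hI
  have hm : mu u = 1 + δ ^ 2 := by
    rw [mu_eq]
    simp only [A0, A1, A2, A3, A4, u0, u1, u2, u3, u4]
    linear_combination (1 - I ^ 2 : ℂ) * hr - (1 / 2 : ℂ) * hI
  have hl : lam u = δ ^ 2 := by
    rw [lam, herm_eq]
    simp only [A0, A1, A2, A3, A4, u0, u1, u2, u3, u4, map_mul, map_zero,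
      Complex.conj_ofReal, Complex.conj_I]
    linear_combination (1 + I ^ 2 : ℂ) * hr + (1 / 2 : ℂ) * hI
  apply ext5 <;> simp only [X, hm, hl, hh, A0, A1, A2, A3, A4, u0, u1, u2, u3, u4, map_mul,
    map_zero, Complex.conj_ofReal, Complex.conj_I, Pi.smul_apply, smul_eq_mul] <;>
    push_cast
  · ring
  · ring
  · ring
  · linear_combination (0 : ℂ) * hI
  · ring

theorem norm_Xt_line (δ : ℝ) (hδ : |δ| ≤ 1) :
    ‖Xt (pt 0 1 + δ • w2)‖ ≤ (‖pt 0 1‖ + ‖w2‖) * δ ^ 2 := by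
  have h1 : ‖Xt (pt 0 1 + δ • w2)‖ ≤ ‖X (pt 0 1 + δ • w2)‖ := by
    rw [pi_norm_le_iff_of_nonneg (norm_nonneg _)]
    intro j
    simp only [Xt, norm_mul, Complex.norm_real, Real.norm_eq_abs]
    have h2 : |chi (pt 0 1 + δ • w2)| ≤ 1 := by
      unfold chi
      rw [abs_of_nonneg (Real.smoothTransition.nonneg _)]
      exact Real.smoothTransition.le_one _
    calc _ ≤ 1 * ‖X (pt 0 1 + δ • w2) j‖ := by gcongr
      _ ≤ _ := by rw [one_mul]; exact norm_le_pi_norm _ j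
  refine h1.trans ?_
  rw [X_line, norm_smul]
  have h3 : ‖((δ ^ 2 : ℝ) : ℂ) * I‖ = δ ^ 2 := by
    rw [norm_mul, Complex.norm_I, mul_one, Complex.norm_real, Real.norm_eq_abs,
      abs_of_nonneg (by positivity)]
  rw [h3, mul_comm]
  gcongr
  calc ‖pt 0 1 + δ • w2‖ ≤ ‖pt 0 1‖ + ‖δ • w2‖ := norm_add_le _ _
    _ ≤ ‖pt 0 1‖ + 1 * ‖w2‖ := by
      rw [norm_smul, Real.norm_eq_abs]
      gcongr
    _ = _ := by rw [one_mul]

theorem hasDerivAt_line :
    HasDerivAt (fun δ : ℝ => Psi (1, pt 0 1 + δ • w2)) (rot (-1) 0 w2) 0 := by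
  have hs : |eps| * Lc ≤ 1 / 32 := by rw [abs_of_pos eps_pos]; exact eps_mul
  have hs2 : |eps| * Lc ≤ 1 / 2 := by linarith
  have hline : HasDerivAt (fun δ : ℝ => pt 0 1 + δ • w2) w2 0 := by
    simpa using ((hasDerivAt_id (0:ℝ)).smul_const w2).const_add (pt 0 1)
  have hg : HasDerivAt (fun δ : ℝ => fl eps (pt 0 1 + δ • w2) - (pt 0 1 + δ • w2)) 0 0 := by
    have hO : (fun δ : ℝ => fl eps (pt 0 1 + δ • w2) - (pt 0 1 + δ • w2)) =O[nhds 0]
        (fun δ : ℝ => ‖δ - 0‖ ^ 2) := by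
      apply Asymptotics.IsBigO.of_bound (2 * eps * (‖pt 0 1‖ + ‖w2‖))
      have hev : ∀ᶠ δ : ℝ in nhds 0, |δ| ≤ 1 := by
        have : Metric.closedBall (0:ℝ) 1 ∈ nhds (0:ℝ) := Metric.closedBall_mem_nhds _ (by norm_num)
        filter_upwards [this] with δ hδ
        simpa using hδ
      filter_upwards [hev] with δ hδ
      have h1 := LibSmoothFlow.norm_flow_sub_le XC Lc lip_XC eps hs2 (pt 0 1 + δ • w2)
      rw [abs_of_pos eps_pos, XC_apply] at h1
      have h2 := norm_Xt_line δ hδ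
      have := eps_pos
      calc ‖fl eps (pt 0 1 + δ • w2) - (pt 0 1 + δ • w2)‖
          ≤ 2 * eps * ‖Xt (pt 0 1 + δ • w2)‖ := h1
        _ ≤ 2 * eps * ((‖pt 0 1‖ + ‖w2‖) * δ ^ 2) := by gcongr
        _ = 2 * eps * (‖pt 0 1‖ + ‖w2‖) * ‖‖δ - 0‖ ^ 2‖ := by
          rw [sub_zero, Real.norm_eq_abs, Real.norm_eq_abs, sq_abs, abs_of_nonneg (sq_nonneg δ)]
          ring
    have := hO.hasFDerivAt (𝕜 := ℝ) (by norm_num)
    simpa using this.hasDerivAt
  have h3 : HasDerivAt (fun δ : ℝ => fl eps (pt 0 1 + δ • w2)) w2 0 := by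
    have := hg.fun_add hline
    simpa using this
  have h4 : HasDerivAt (fun δ : ℝ => RL (fl eps (pt 0 1 + δ • w2))) (RL w2) 0 :=
    RL.hasFDerivAt.comp_hasDerivAt (0:ℝ) h3
  have h5 : (fun δ : ℝ => Psi (1, pt 0 1 + δ • w2)) =
      fun δ : ℝ => RL (fl eps (pt 0 1 + δ • w2)) := by
    funext δ
    unfold Psi
    simp only [mul_one, Real.cos_pi, Real.sin_pi, tau_one]
    rfl
  rw [h5]
  exact h4

theorem degenerate : HasDegenerateFixedPoint L := by
  refine ⟨pt 0 1, pt_mem 0 1 (by norm_num), -1, Psi_pt 0 1 (by norm_num) (by norm_num), w2,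
    ⟨?_, ?_⟩, ?_, 0, ?_⟩
  · rw [herm_eq]; simp [pt, w2]
  · rw [Fin.sum_univ_five]; simp [pt, w2]
  · intro r hr
    have := congrFun hr 2
    simp [w2, pt] at this
  · change fderiv ℝ (fun x : E => Psi (1, x)) (pt 0 1) w2 = _
    have hd : DifferentiableAt ℝ (fun x : E => Psi (1, x)) (pt 0 1) := by
      have : ContDiff ℝ (⊤ : ℕ∞) (fun x : E => Psi (1, x)) :=
        contDiff_Psi.comp (contDiff_const.prodMk contDiff_id)
      exact this.differentiable (by simp) _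
    have hline : HasDerivAt (fun δ : ℝ => pt 0 1 + δ • w2) w2 0 := by
      simpa using ((hasDerivAt_id (0:ℝ)).smul_const w2).const_add (pt 0 1)
    have hd' : HasFDerivAt (fun x : E => Psi (1, x)) (fderiv ℝ (fun x : E => Psi (1, x)) (pt 0 1))
        (pt 0 1 + (0:ℝ) • w2) := by
      simpa using hd.hasFDerivAt
    have h1 := hd'.comp_hasDerivAt (0:ℝ) hline
    rw [h1.unique hasDerivAt_line]
    apply ext5 <;> simp [rot, w2]

/-- There is a Hamiltonian diffeomorphism of the complex quadric threefold (the zero set of z₀² + ⋯ + z₄² in complex projective 4-space, with the restricted Fubini–Study form) having exactly three fixed points, at least one of them degenerate. Hamiltonian isotopies are encoded by smooth lifts to the unit isotropic cone in ℂ⁵ obeying Hamilton's equation; points of the quadric are complex lines through cone points; degenerate means the differential of the time-one map fixes a nonzero tangent vector.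 -/
theorem result :
    ∃ L : Crest.GeometryTopology.Quadric.HamiltonianConeLift,
      (Crest.GeometryTopology.Quadric.fixedLines L).ncard = 3 ∧
      Crest.GeometryTopology.Quadric.HasDegenerateFixedPoint L :=
  ⟨L, ncard_three, degenerate⟩

end Crest.Agent.S0316
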