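import Crest.Statements.S0316
import Crest.Agent.LibSmoothFlow

set_option autoImplicit false
open Crest Crest.GeometryTopology

namespace Crest.Agent.S0316

open Crest.GeometryTopology.Quadric Complex

/-- Complex five-space. -/
abbrev E := Fin 5 → ℂ

/-- The Hermitian operator generating the small Hamiltonian. -/
noncomputable def A (z : E) : E :=
  ![0, z 1 + 2 * I * z 3, z 2, - z 3 - 2 * I * z 1 + 2 * z 4, - z 4 + 2 * z 3]

/-- `zᵀ A z`. -/
noncomputable def mu (z : E) : ℂ := ∑ j, z j * A z j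

/-- `z* A z`. -/
noncomputable def lam (z : E) : ℂ := herm z (A z)

/-- `zᵀ z`. -/
noncomputable def q (z : E) : ℂ := ∑ j, z j ^ 2

theorem A0 (z : E) : A z 0 = 0 := rfl
theorem A1 (z : E) : A z 1 = z 1 + 2 * I * z 3 := rfl
theorem A2 (z : E) : A z 2 = z 2 := rfl
theorem A3 (z : E) : A z 3 = - z 3 - 2 * I * z 1 + 2 * z 4 := rfl
theorem A4 (z : E) : A z 4 = - z 4 + 2 * z 3 := rfl

theorem herm_eq (u w : E) : herm u w = (starRingEnd ℂ) (u 0) * w 0 + (starRingEnd ℂ) (u 1) * w 1 +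
    (starRingEnd ℂ) (u 2) * w 2 + (starRingEnd ℂ) (u 3) * w 3 + (starRingEnd ℂ) (u 4) * w 4 := by
  simp [herm, Fin.sum_univ_five]

theorem q_eq (z : E) : q z = z 0 ^ 2 + z 1 ^ 2 + z 2 ^ 2 + z 3 ^ 2 + z 4 ^ 2 := by
  simp [q, Fin.sum_univ_five]

theorem mu_eq (z : E) : mu z = z 0 * A z 0 + z 1 * A z 1 + z 2 * A z 2 + z 3 * A z 3 +
    z 4 * A z 4 := by
  simp [mu, Fin.sum_univ_five]

theorem lam_im (z : E) : (lam z).im = 0 := by
  rw [lam, herm_eq, A0, A1, A2, A3, A4]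
  simp
  ring

theorem lam_conj (z : E) : (starRingEnd ℂ) (lam z) = lam z := by
  rw [Complex.conj_eq_iff_im]; exact lam_im z

/-- The vector field. -/
noncomputable def X (z : E) : E := fun j =>
  - I * (herm z z * A z j - mu z * (starRingEnd ℂ) (z j) - lam z * z j)

theorem herm_self_im (z : E) : (herm z z).im = 0 := by
  rw [herm_eq]; simp; ring

theorem herm_self_conj (z : E) : (starRingEnd ℂ) (herm z z) = herm z z := by
  rw [Complex.conj_eq_iff_im]; exact herm_self_im z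

theorem sum_mul_X (z : E) : ∑ j, z j * X z j = I * lam z * q z := by
  simp only [X]
  rw [q_eq]
  simp only [Fin.sum_univ_five]
  have h1 : herm z z = (starRingEnd ℂ) (z 0) * z 0 + (starRingEnd ℂ) (z 1) * z 1 +
    (starRingEnd ℂ) (z 2) * z 2 + (starRingEnd ℂ) (z 3) * z 3 + (starRingEnd ℂ) (z 4) * z 4 :=
    herm_eq z z
  have h2 := mu_eq z
  linear_combination (-I) * (herm z z) * (-1 : ℂ) * h2 + (I * mu z) * (-1 : ℂ) * h1

theorem herm_X (z : E) : herm z (X z) = I * mu z * (starRingEnd ℂ) (q z) := by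
  rw [herm_eq, q_eq]
  simp only [X]
  have h1 : herm z z = (starRingEnd ℂ) (z 0) * z 0 + (starRingEnd ℂ) (z 1) * z 1 +
    (starRingEnd ℂ) (z 2) * z 2 + (starRingEnd ℂ) (z 3) * z 3 + (starRingEnd ℂ) (z 4) * z 4 :=
    herm_eq z z
  have h2 : lam z = (starRingEnd ℂ) (z 0) * A z 0 + (starRingEnd ℂ) (z 1) * A z 1 +
    (starRingEnd ℂ) (z 2) * A z 2 + (starRingEnd ℂ) (z 3) * A z 3 +
    (starRingEnd ℂ) (z 4) * A z 4 := by rw [lam, herm_eq]
  simp only [map_add, map_pow]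
  linear_combination (-I) * (herm z z) * (-1 : ℂ) * h2 + (I * lam z) * (-1 : ℂ) * h1

/-- Real-algebraic core of the classification of critical lines. -/
theorem core (a b : Fin 5 → ℝ) 
    (P12 : a 1 * b 2 - b 1 * a 2 = 0) (P23 : a 2 * b 3 - b 2 * a 3 = 0)
    (P34 : a 3 * b 4 - b 3 * a 4 = 0)
    (Q13 : a 1 * a 3 + b 1 * b 3 = a 1 * a 4 + b 1 * b 4)
    (Q23 : a 2 * a 3 + b 2 * b 3 = a 2 * a 4 + b 2 * b 4)
    (N : a 4 ^ 2 + b 4 ^ 2 - a 3 ^ 2 - b 3 ^ 2 = a 1 * b 4 - b 1 * a 4)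
    (C1 : a 1 ^ 2 + a 2 ^ 2 + a 3 ^ 2 + a 4 ^ 2 = b 1 ^ 2 + b 2 ^ 2 + b 3 ^ 2 + b 4 ^ 2)
    (C2 : a 1 * b 1 + a 2 * b 2 + a 3 * b 3 + a 4 * b 4 = 0)
    (C3 : a 1 ^ 2 + a 2 ^ 2 + a 3 ^ 2 + a 4 ^ 2 + b 1 ^ 2 + b 2 ^ 2 + b 3 ^ 2 + b 4 ^ 2 = 1) :
    a 2 = 0 ∧ b 2 = 0 ∧ a 1 ^ 2 + b 1 ^ 2 ≠ 0 ∧ ∃ α β : ℝ, α ^ 2 + β ^ 2 = 1 ∧ β ^ 2 - α ^ 2 = β ∧
      a 3 = - α * b 1 ∧ b 3 = α * a 1 ∧ a 4 = - β * b 1 ∧ b 4 = β * a 1 := by
  generalize a 1 = a1 at *
  generalize a 2 = a2 at *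
  generalize a 3 = a3 at *
  generalize a 4 = a4 at *
  generalize b 1 = b1 at *
  generalize b 2 = b2 at *
  generalize b 3 = b3 at *
  generalize b 4 = b4 at *
  -- z₂ = 0
  have key2 : a2 ^ 2 + b2 ^ 2 = 0 := by
    by_contra hne
    have hpos : 0 < a2 ^ 2 + b2 ^ 2 := lt_of_le_of_ne (by positivity) (Ne.symm hne)
    obtain ⟨r1, h1a, h1b⟩ : ∃ r1 : ℝ, a1 = r1 * a2 ∧ b1 = r1 * b2 := by
      refine ⟨(a1 * a2 + b1 * b2) / (a2 ^ 2 + b2 ^ 2), ?_, ?_⟩
      · rw [div_mul_eq_mul_div, eq_div_iff hne]; linear_combination b2 * P12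
      · rw [div_mul_eq_mul_div, eq_div_iff hne]; linear_combination (- a2) * P12
    obtain ⟨r3, h3a, h3b⟩ : ∃ r3 : ℝ, a3 = r3 * a2 ∧ b3 = r3 * b2 := by
      refine ⟨(a3 * a2 + b3 * b2) / (a2 ^ 2 + b2 ^ 2), ?_, ?_⟩
      · rw [div_mul_eq_mul_div, eq_div_iff hne]; linear_combination (-b2) * P23
      · rw [div_mul_eq_mul_div, eq_div_iff hne]; linear_combination (a2) * P23
    subst h1a h1b h3a h3b
    by_cases hr3 : r3 = 0
    · subst hr3
      obtain ⟨r4, h4a, h4b⟩ : ∃ r4 : ℝ, a4 = - r4 * b2 ∧ b4 = r4 * a2 := by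
        refine ⟨(a2 * b4 - b2 * a4) / (a2 ^ 2 + b2 ^ 2), ?_, ?_⟩
        · rw [neg_mul, div_mul_eq_mul_div, ← neg_div, eq_div_iff hne]
          linear_combination (-a2) * Q23
        · rw [div_mul_eq_mul_div, eq_div_iff hne]
          linear_combination (-b2) * Q23
      subst h4a h4b
      have e1 : (r4 ^ 2 - r1 * r4) * (a2 ^ 2 + b2 ^ 2) = 0 := by linear_combination N
      have e1' : r4 ^ 2 - r1 * r4 = 0 := by
        rcases mul_eq_zero.1 e1 with h | h
        · exact h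
        · exact absurd h hne
      have e2 : (1 + r1 ^ 2 - r4 ^ 2) * (a2 ^ 2 - b2 ^ 2) = 0 := by linear_combination C1
      have e3 : (1 + r1 ^ 2 - r4 ^ 2) * (a2 * b2) = 0 := by linear_combination C2
      have e4 : 1 + r1 ^ 2 - r4 ^ 2 = 0 := by
        by_contra hn
        have f1 : a2 ^ 2 - b2 ^ 2 = 0 := by
          rcases mul_eq_zero.1 e2 with h | h
          · exact absurd h hn
          · exact h
        have f2 : a2 * b2 = 0 := by
          rcases mul_eq_zero.1 e3 with h | h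
          · exact absurd h hn
          · exact h
        have f3 : (a2 ^ 2 + b2 ^ 2) ^ 2 = 0 := by
          have : (a2 ^ 2 + b2 ^ 2) ^ 2 = (a2 ^ 2 - b2 ^ 2) ^ 2 + 4 * (a2 * b2) ^ 2 := by ring
          rw [this, f1, f2]; ring
        exact hne (by simpa using f3)
      have e5 : r4 * (r4 - r1) = 0 := by linear_combination e1'
      rcases mul_eq_zero.1 e5 with h | h
      · subst h; nlinarith [sq_nonneg r1]
      · have : r4 = r1 := by linarith
        subst this; linarith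
    · have hne3 : (r3 * a2) ^ 2 + (r3 * b2) ^ 2 ≠ 0 := by
        have : (r3 * a2) ^ 2 + (r3 * b2) ^ 2 = r3 ^ 2 * (a2 ^ 2 + b2 ^ 2) := by ring
        rw [this]
        exact mul_ne_zero (pow_ne_zero _ hr3) hne
      obtain ⟨r4, h4a, h4b⟩ : ∃ r4 : ℝ, a4 = r4 * (r3 * a2) ∧ b4 = r4 * (r3 * b2) := by
        refine ⟨(a4 * (r3 * a2) + b4 * (r3 * b2)) / ((r3 * a2) ^ 2 + (r3 * b2) ^ 2), ?_, ?_⟩
        · rw [div_mul_eq_mul_div, eq_div_iff hne3]; linear_combination (- (r3 * b2)) * P34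
        · rw [div_mul_eq_mul_div, eq_div_iff hne3]; linear_combination (r3 * a2) * P34
      subst h4a h4b
      have e2 : (1 + r1 ^ 2 + r3 ^ 2 + (r4 * r3) ^ 2) * (a2 ^ 2 - b2 ^ 2) = 0 := by
        linear_combination C1
      have e3 : (1 + r1 ^ 2 + r3 ^ 2 + (r4 * r3) ^ 2) * (a2 * b2) = 0 := by
        linear_combination C2
      have hpos' : (1 + r1 ^ 2 + r3 ^ 2 + (r4 * r3) ^ 2) ≠ 0 := by positivity
      have f1 : a2 ^ 2 - b2 ^ 2 = 0 := by
        rcases mul_eq_zero.1 e2 with h | h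
        · exact absurd h hpos'
        · exact h
      have f2 : a2 * b2 = 0 := by
        rcases mul_eq_zero.1 e3 with h | h
        · exact absurd h hpos'
        · exact h
      have f3 : (a2 ^ 2 + b2 ^ 2) ^ 2 = 0 := by
        have : (a2 ^ 2 + b2 ^ 2) ^ 2 = (a2 ^ 2 - b2 ^ 2) ^ 2 + 4 * (a2 * b2) ^ 2 := by ring
        rw [this, f1, f2]; ring
      exact hne (by simpa using f3)
  have ha2 : a2 = 0 := by nlinarith [sq_nonneg a2, sq_nonneg b2]
  have hb2 : b2 = 0 := by nlinarith [sq_nonneg a2, sq_nonneg b2]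
  subst ha2 hb2
  have key1 : a1 ^ 2 + b1 ^ 2 ≠ 0 := by
    intro h0
    have ha1 : a1 = 0 := by nlinarith [sq_nonneg a1, sq_nonneg b1]
    have hb1 : b1 = 0 := by nlinarith [sq_nonneg a1, sq_nonneg b1]
    subst ha1 hb1
    have h3 : a3 ^ 2 + b3 ^ 2 = 1 / 2 := by nlinarith
    have h4 : a4 ^ 2 + b4 ^ 2 = 1 / 2 := by nlinarith
    -- parallel and `z₃² + z₄² = 0`
    have h5 : (a3 * a4 + b3 * b4) ^ 2 = 1 / 4 := by
      have : (a3 * a4 + b3 * b4) ^ 2 = (a3 ^ 2 + b3 ^ 2) * (a4 ^ 2 + b4 ^ 2) -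
        (a3 * b4 - b3 * a4) ^ 2 := by ring
      rw [this, P34, h3, h4]; ring
    have h6 : a3 ^ 2 - b3 ^ 2 = - (a4 ^ 2 - b4 ^ 2) := by linarith
    have h7 : a3 * b3 = - (a4 * b4) := by linarith
    have h8 : (a3 * a4 + b3 * b4) ^ 2 * 2 = (a3 ^ 2 + b3 ^ 2) * (a4 ^ 2 + b4 ^ 2) +
      (a3 ^ 2 - b3 ^ 2) * (a4 ^ 2 - b4 ^ 2) + 4 * (a3 * b3) * (a4 * b4) := by ring
    rw [h5, h3, h4, h6, h7] at h8
    nlinarith [sq_nonneg (a4 ^ 2 - b4 ^ 2), sq_nonneg (a4 * b4),
      sq_nonneg (a4 ^ 2 + b4 ^ 2)]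
  refine ⟨rfl, rfl, key1, ?_⟩
  -- `z₃ = (p + i α) z₁`, `z₄ = (p + i β) z₁`
  obtain ⟨p, α, h3a, h3b⟩ : ∃ p α : ℝ, a3 = p * a1 - α * b1 ∧ b3 = p * b1 + α * a1 := by
    refine ⟨(a1 * a3 + b1 * b3) / (a1 ^ 2 + b1 ^ 2), (a1 * b3 - b1 * a3) / (a1 ^ 2 + b1 ^ 2), ?_, ?_⟩
    · rw [div_mul_eq_mul_div, div_mul_eq_mul_div, ← sub_div, eq_div_iff key1]; ring
    · rw [div_mul_eq_mul_div, div_mul_eq_mul_div, ← add_div, eq_div_iff key1]; ring
  obtain ⟨p', β, h4a, h4b⟩ : ∃ p' β : ℝ, a4 = p' * a1 - β * b1 ∧ b4 = p' * b1 + β * a1 := by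
    refine ⟨(a1 * a4 + b1 * b4) / (a1 ^ 2 + b1 ^ 2), (a1 * b4 - b1 * a4) / (a1 ^ 2 + b1 ^ 2), ?_, ?_⟩
    · rw [div_mul_eq_mul_div, div_mul_eq_mul_div, ← sub_div, eq_div_iff key1]; ring
    · rw [div_mul_eq_mul_div, div_mul_eq_mul_div, ← add_div, eq_div_iff key1]; ring
  subst h3a h3b h4a h4b
  have canc : ∀ t : ℝ, t * (a1 ^ 2 + b1 ^ 2) = 0 → t = 0 := by
    intro t ht
    rcases mul_eq_zero.1 ht with h | h
    · exact h
    · exact absurd h key1
  have hp : p - p' = 0 := canc _ (by linear_combination Q13)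
  have hp' : p = p' := by linarith
  subst hp'
  have hpp : p * (β - α) = 0 := canc _ (by linear_combination P34)
  have hN : (β ^ 2 - α ^ 2) - β = 0 := canc _ (by linear_combination N)
  have e2 : (1 + (p ^ 2 - α ^ 2) + (p ^ 2 - β ^ 2)) * (a1 ^ 2 - b1 ^ 2) -
      (2 * p * α + 2 * p * β) * (2 * (a1 * b1)) = 0 := by linear_combination C1
  have e3 : (1 + (p ^ 2 - α ^ 2) + (p ^ 2 - β ^ 2)) * (2 * (a1 * b1)) +
      (2 * p * α + 2 * p * β) * (a1 ^ 2 - b1 ^ 2) = 0 := by linear_combination 2 * C2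
  have e4 : 1 + (p ^ 2 - α ^ 2) + (p ^ 2 - β ^ 2) = 0 := by
    have : (1 + (p ^ 2 - α ^ 2) + (p ^ 2 - β ^ 2)) * (a1 ^ 2 + b1 ^ 2) ^ 2 = 0 := by
      linear_combination (a1 ^ 2 - b1 ^ 2) * e2 + (2 * (a1 * b1)) * e3
    rcases mul_eq_zero.1 this with h | h
    · exact h
    · exact absurd (by simpa using h) key1
  rcases mul_eq_zero.1 hpp with h | h
  · subst h
    refine ⟨α, β, ?_, ?_, ?_, ?_, ?_, ?_⟩
    · linarith
    · linarith
    · ring
    · ring
    · ring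
    · ring
  · exfalso
    have hab : β = α := by linarith
    subst hab
    have hb0 : β = 0 := by linarith
    subst hb0
    nlinarith [sq_nonneg p]


theorem torque (z : E) (hcr : ∀ j, A z j = mu z * (starRingEnd ℂ) (z j) + lam z * z j) (j k : Fin 5) :
    ((starRingEnd ℂ) (A z j) * z k - (starRingEnd ℂ) (A z k) * z j).re = 0 := by
  rw [hcr j, hcr k]
  simp only [map_add, map_mul, Complex.conj_conj, lam_conj]
  have h := lam_im z
  simp only [Complex.sub_re, Complex.mul_re, Complex.add_re, Complex.add_im, Complex.mul_im,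
    Complex.conj_re, Complex.conj_im, h]
  ring

/-- Critical lines of the Hermitian form `A` on the quadric surface `z 0 = 0`. -/
theorem classification (z : E) (hz : z ∈ unitCone) (hz0 : z 0 = 0)
    (hcr : ∀ j, A z j = mu z * (starRingEnd ℂ) (z j) + lam z * z j) :
    z 1 ≠ 0 ∧ z 2 = 0 ∧ ∃ α β : ℝ, α ^ 2 + β ^ 2 = 1 ∧ β ^ 2 - α ^ 2 = β ∧
      z 3 = α * I * z 1 ∧ z 4 = β * I * z 1 := by
  obtain ⟨hn, hq⟩ := hz
  rw [herm_eq] at hn
  rw [Fin.sum_univ_five] at hq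
  have t12 := torque z hcr 1 2
  have t13 := torque z hcr 1 3
  have t14 := torque z hcr 1 4
  have t23 := torque z hcr 2 3
  have t24 := torque z hcr 2 4
  have t34 := torque z hcr 3 4
  rw [hz0] at hn hq
  have hn' := congrArg Complex.re hn
  have hq1 := congrArg Complex.re hq
  have hq2 := congrArg Complex.im hq
  simp only [A1, A2, A3, A4, map_add, map_sub, map_neg, map_mul, Complex.conj_I, map_ofNat] at t12 t13 t14 t23 t24 t34
  simp [pow_two] at t12 t13 t14 t23 t24 t34 hn' hq1 hq2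
  have P12 : (z 1).re * (z 2).im - (z 1).im * (z 2).re = 0 := by linarith
  have P23 : (z 2).re * (z 3).im - (z 2).im * (z 3).re = 0 := by linarith
  have P34 : (z 3).re * (z 4).im - (z 3).im * (z 4).re = 0 := by linarith
  have Q13 : (z 1).re * (z 3).re + (z 1).im * (z 3).im =
    (z 1).re * (z 4).re + (z 1).im * (z 4).im := by linarith
  have Q23 : (z 2).re * (z 3).re + (z 2).im * (z 3).im =
    (z 2).re * (z 4).re + (z 2).im * (z 4).im := by linarith
  have N : (z 4).re ^ 2 + (z 4).im ^ 2 - (z 3).re ^ 2 - (z 3).im ^ 2 =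
    (z 1).re * (z 4).im - (z 1).im * (z 4).re := by nlinarith
  obtain ⟨h2a, h2b, h1, α, β, hαβ, hβ, h3a, h3b, h4a, h4b⟩ :=
    core (fun j => (z j).re) (fun j => (z j).im) P12 P23 P34 Q13 Q23 N (by nlinarith) (by nlinarith)
      (by nlinarith)
  refine ⟨?_, Complex.ext h2a h2b, α, β, hαβ, hβ, ?_, ?_⟩
  · intro h
    apply h1
    simp [h]
  · apply Complex.ext
    · simp at h3a ⊢; linarith
    · simp at h3b ⊢; linarith
  · apply Complex.ext
    · simp at h4a ⊢; linarith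
    · simp at h4b ⊢; linarith


section field

/-- Radial cutoff. -/
noncomputable def chi (z : E) : ℝ := Real.smoothTransition (2 - (herm z z).re)

/-- Compactly supported version of the vector field. -/
noncomputable def Xt (z : E) : E := fun j => (chi z : ℂ) * X z j

theorem contDiff_conj : ContDiff ℝ (⊤ : ℕ∞) (starRingEnd ℂ : ℂ → ℂ) :=
  Complex.conjCLE.contDiff

theorem contDiff_coord (j : Fin 5) : ContDiff ℝ (⊤ : ℕ∞) (fun z : E => z j) :=
  contDiff_apply ℝ ℂ j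

theorem contDiff_conj_coord (j : Fin 5) :
    ContDiff ℝ (⊤ : ℕ∞) (fun z : E => (starRingEnd ℂ) (z j)) :=
  contDiff_conj.comp (contDiff_coord j)

theorem contDiff_A (j : Fin 5) : ContDiff ℝ (⊤ : ℕ∞) (fun z : E => A z j) := by
  fin_cases j
  · exact contDiff_const
  · exact (contDiff_coord 1).add ((contDiff_const).mul (contDiff_coord 3))
  · exact contDiff_coord 2
  · exact ((contDiff_coord 3).neg.sub (contDiff_const.mul (contDiff_coord 1))).add
      (contDiff_const.mul (contDiff_coord 4))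
  · exact (contDiff_coord 4).neg.add (contDiff_const.mul (contDiff_coord 3))

theorem contDiff_herm_self : ContDiff ℝ (⊤ : ℕ∞) (fun z : E => herm z z) := by
  unfold herm
  exact ContDiff.sum fun j _ => (contDiff_conj_coord j).mul (contDiff_coord j)

theorem contDiff_lam : ContDiff ℝ (⊤ : ℕ∞) (fun z : E => lam z) := by
  unfold lam herm
  exact ContDiff.sum fun j _ => (contDiff_conj_coord j).mul (contDiff_A j)

theorem contDiff_mu : ContDiff ℝ (⊤ : ℕ∞) (fun z : E => mu z) := by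
  unfold mu
  exact ContDiff.sum fun j _ => (contDiff_coord j).mul (contDiff_A j)

theorem contDiff_X (j : Fin 5) : ContDiff ℝ (⊤ : ℕ∞) (fun z : E => X z j) := by
  unfold X
  exact contDiff_const.mul (((contDiff_herm_self.mul (contDiff_A j)).sub
    (contDiff_mu.mul (contDiff_conj_coord j))).sub (contDiff_lam.mul (contDiff_coord j)))

theorem contDiff_chi : ContDiff ℝ (⊤ : ℕ∞) chi := by
  unfold chi
  exact Real.smoothTransition.contDiff.comp
    (contDiff_const.sub (Complex.reCLM.contDiff.comp contDiff_herm_self))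

theorem contDiff_Xt : ContDiff ℝ (⊤ : ℕ∞) Xt := by
  rw [contDiff_pi]
  intro j
  exact (Complex.ofRealCLM.contDiff.comp contDiff_chi).mul (contDiff_X j)

theorem norm_sq_le_herm (z : E) : ‖z‖ ^ 2 ≤ (herm z z).re := by
  have h : ∀ j, ‖z j‖ ^ 2 ≤ (herm z z).re := by
    intro j
    have h1 : (herm z z).re = ∑ i, ‖z i‖ ^ 2 := by
      unfold herm
      rw [Complex.re_sum]
      refine Finset.sum_congr rfl fun i _ => ?_
      rw [mul_comm, Complex.mul_conj, Complex.ofReal_re, Complex.normSq_eq_norm_sq]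
    rw [h1]
    exact Finset.single_le_sum (f := fun i => ‖z i‖ ^ 2) (fun i _ => by positivity)
      (Finset.mem_univ j)
  obtain ⟨j, _, hj⟩ := Finset.exists_mem_eq_sup' (Finset.univ_nonempty (α := Fin 5))
    (fun j => ‖z j‖)
  have h2 : ‖z‖ ≤ ‖z j‖ := by
    rw [pi_norm_le_iff_of_nonneg (norm_nonneg _)]
    intro i
    have := Finset.le_sup' (fun j => ‖z j‖) (Finset.mem_univ i)
    rw [hj] at this
    exact this
  calc ‖z‖ ^ 2 ≤ ‖z j‖ ^ 2 := by gcongr
    _ ≤ _ := h j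

theorem hasCompactSupport_Xt : HasCompactSupport Xt := by
  apply HasCompactSupport.intro (isCompact_closedBall (0 : E) 2)
  intro z hz
  have h1 : 2 < ‖z‖ := by simpa using hz
  have h2 : 2 < (herm z z).re := by nlinarith [norm_sq_le_herm z]
  have h3 : chi z = 0 := Real.smoothTransition.zero_of_nonpos (by linarith)
  funext j
  simp [Xt, h3]

theorem exists_lipschitz : ∃ L, LipschitzWith L Xt :=
  ContDiff.lipschitzWith_of_hasCompactSupport hasCompactSupport_Xt contDiff_Xt (by simp)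

/-- Lipschitz constant of `Xt`. -/
noncomputable def Lc : NNReal := exists_lipschitz.choose

theorem lip_Xt : LipschitzWith Lc Xt := exists_lipschitz.choose_spec

/-- `Xt` as a bundled continuous map. -/
noncomputable def XC : C(E, E) := ⟨Xt, contDiff_Xt.continuous⟩

/-- Local flow of `Xt`. -/
noncomputable def fl (s : ℝ) (z : E) : E := LibSmoothFlow.flow XC s z

end field

end Crest.Agent.S0316
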