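import Crest.Agent.S0316_Alg

set_option autoImplicit false
open Crest Crest.GeometryTopology

namespace Crest.Agent.S0316

open Crest.GeometryTopology.Quadric Complex

theorem XC_apply (z : E) : XC z = Xt z := rfl

theorem lip_XC : LipschitzWith Lc XC := lip_Xt

theorem contDiff_XC : ContDiff ℝ (⊤ : ℕ∞) XC := contDiff_Xt

theorem chi_eq_one (z : E) (hz : herm z z = 1) : chi z = 1 := by
  unfold chi
  rw [hz]
  apply Real.smoothTransition.one_of_one_le
  norm_num

theorem Xt_eq_X (z : E) (hz : z ∈ unitCone) : Xt z = X z := by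
  funext j
  simp [Xt, chi_eq_one z hz.1]

theorem herm_Xt (z : E) : herm z (Xt z) = chi z * (I * mu z * (starRingEnd ℂ) (q z)) := by
  rw [← herm_X]
  unfold herm Xt
  rw [Finset.mul_sum]
  refine Finset.sum_congr rfl fun j _ => by ring

theorem sum_mul_Xt (z : E) : ∑ j, z j * Xt z j = chi z * (I * lam z * q z) := by
  rw [← sum_mul_X]
  unfold Xt
  rw [Finset.mul_sum]
  refine Finset.sum_congr rfl fun j _ => by ring

theorem hasDerivAt_fl (s : ℝ) (hs : |s| * Lc < 1) (z : E) :
    HasDerivAt (fun s => fl s z) (Xt (fl s z)) s :=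
  LibSmoothFlow.hasDerivAt_flow XC Lc lip_XC s hs z

theorem hasDerivAt_q (s : ℝ) (hs : |s| * Lc < 1) (z : E) :
    HasDerivAt (fun s => q (fl s z)) (2 * (chi (fl s z) * (I * lam (fl s z) * q (fl s z)))) s := by
  rw [← sum_mul_Xt, Finset.mul_sum]
  have h := hasDerivAt_pi.1 (hasDerivAt_fl s hs z)
  unfold q
  refine HasDerivAt.fun_sum fun j _ => ?_
  have := (h j).fun_pow 2
  refine this.congr_deriv ?_
  simp
  ring

theorem hasDerivAt_conj {f : ℝ → ℂ} {f' : ℂ} {s : ℝ} (hf : HasDerivAt f f' s) :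
    HasDerivAt (fun s => (starRingEnd ℂ) (f s)) ((starRingEnd ℂ) f') s :=
  Complex.conjCLE.toContinuousLinearMap.hasFDerivAt.comp_hasDerivAt s hf

theorem hasDerivAt_herm (s : ℝ) (hs : |s| * Lc < 1) (z : E) :
    HasDerivAt (fun s => herm (fl s z) (fl s z))
      ((starRingEnd ℂ) (herm (fl s z) (Xt (fl s z))) + herm (fl s z) (Xt (fl s z))) s := by
  have h := hasDerivAt_pi.1 (hasDerivAt_fl s hs z)
  unfold herm
  rw [map_sum, ← Finset.sum_add_distrib]
  refine HasDerivAt.fun_sum fun j _ => ?_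
  have := (hasDerivAt_conj (h j)).fun_mul (h j)
  refine this.congr_deriv ?_
  simp
  ring

theorem const_of_deriv {f : ℝ → ℂ} (h : ∀ s : ℝ, |s| * Lc < 1 → HasDerivAt f 0 s) (s : ℝ)
    (hs : |s| * Lc < 1) : f s = f 0 := by
  have hopen : IsOpen {s : ℝ | |s| * (Lc : ℝ) < 1} :=
    isOpen_lt (by fun_prop) continuous_const
  have hconv : Convex ℝ {s : ℝ | |s| * (Lc : ℝ) < 1} := by
    intro x hx y hy a b ha hb hab
    simp only [Set.mem_ofPred_eq, smul_eq_mul] at *
    have h1 : |a * x + b * y| ≤ a * |x| + b * |y| := by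
      calc |a * x + b * y| ≤ |a * x| + |b * y| := abs_add_le _ _
        _ = a * |x| + b * |y| := by rw [abs_mul, abs_mul, abs_of_nonneg ha, abs_of_nonneg hb]
    have h2 : |a * x + b * y| * Lc ≤ (a * |x| + b * |y|) * Lc := by gcongr
    rcases eq_or_lt_of_le ha with h0 | h0
    · have hb1 : b = 1 := by linarith
      subst hb1
      rw [← h0] at h2 ⊢
      linarith
    · nlinarith
  refine hopen.is_const_of_deriv_eq_zero hconv.isPreconnected
    (fun x hx => (h x hx).differentiableAt.differentiableWithinAt)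
    (fun x hx => (h x hx).deriv) hs ?_
  simp

theorem fl_zero (z : E) : fl 0 z = z := LibSmoothFlow.flow_zero XC Lc lip_XC z

theorem fl_mem_cone (z : E) (hz : z ∈ unitCone) (s : ℝ) (hs : |s| * Lc < 1) :
    fl s z ∈ unitCone := by
  have hq0 : q z = 0 := hz.2
  have hqall : ∀ s : ℝ, |s| * Lc < 1 → q (fl s z) = 0 := by
    intro s hs
    have h1 : ∀ s : ℝ, |s| * Lc < 1 →
        HasDerivAt (fun s => q (fl s z) * (starRingEnd ℂ) (q (fl s z))) 0 s := by
      intro s hs
      have h2 := hasDerivAt_q s hs z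
      have h3 := h2.fun_mul (hasDerivAt_conj h2)
      refine h3.congr_deriv ?_
      simp only [map_mul, Complex.conj_ofReal, Complex.conj_I, lam_conj, map_ofNat]
      ring
    have h4 := const_of_deriv h1 s hs
    simp only [fl_zero, hq0, zero_mul] at h4
    rcases mul_eq_zero.1 h4 with h | h
    · exact h
    · simpa using h
  refine ⟨?_, hqall s hs⟩
  have h1 : ∀ s : ℝ, |s| * Lc < 1 → HasDerivAt (fun s => herm (fl s z) (fl s z)) 0 s := by
    intro s hs
    refine (hasDerivAt_herm s hs z).congr_deriv ?_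
    rw [herm_Xt, hqall s hs]
    simp
  have h2 := const_of_deriv h1 s hs
  rw [h2, fl_zero]
  exact hz.1

/-! ### Equivariance -/

theorem A_smul (c : ℂ) (z : E) (j : Fin 5) : A (c • z) j = c * A z j := by
  fin_cases j
  · simp [A]
  · simp [A]; ring
  · simp [A]
  · simp [A]; ring
  · simp [A]; ring

theorem X_smul (c : ℂ) (hc : ‖c‖ = 1) (z : E) : X (c • z) = c • X z := by
  have hcc : (starRingEnd ℂ) c * c = 1 := by
    rw [mul_comm, Complex.mul_conj, Complex.normSq_eq_norm_sq, hc]; simp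
  have hh : herm (c • z) (c • z) = herm z z := by
    unfold herm
    refine Finset.sum_congr rfl fun j _ => ?_
    simp only [Pi.smul_apply, smul_eq_mul, map_mul]
    linear_combination ((starRingEnd ℂ) (z j) * z j) * hcc
  have hl : lam (c • z) = lam z := by
    unfold lam herm
    refine Finset.sum_congr rfl fun j _ => ?_
    simp only [A_smul, Pi.smul_apply, smul_eq_mul, map_mul]
    linear_combination ((starRingEnd ℂ) (z j) * A z j) * hcc
  have hm : mu (c • z) = c ^ 2 * mu z := by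
    unfold mu
    rw [Finset.mul_sum]
    refine Finset.sum_congr rfl fun j _ => ?_
    simp only [A_smul, Pi.smul_apply, smul_eq_mul]
    ring
  funext j
  simp only [X, hh, hl, hm, A_smul, Pi.smul_apply, smul_eq_mul, map_mul]
  linear_combination (I * c * mu z * (starRingEnd ℂ) (z j)) * hcc

theorem chi_smul (c : ℂ) (hc : ‖c‖ = 1) (z : E) : chi (c • z) = chi z := by
  have hcc : (starRingEnd ℂ) c * c = 1 := by
    rw [mul_comm, Complex.mul_conj, Complex.normSq_eq_norm_sq, hc]; simp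
  have hh : herm (c • z) (c • z) = herm z z := by
    unfold herm
    refine Finset.sum_congr rfl fun j _ => ?_
    simp only [Pi.smul_apply, smul_eq_mul, map_mul]
    linear_combination ((starRingEnd ℂ) (z j) * z j) * hcc
  unfold chi
  rw [hh]

theorem Xt_smul (c : ℂ) (hc : ‖c‖ = 1) (z : E) : Xt (c • z) = c • Xt z := by
  funext j
  have := congrFun (X_smul c hc z) j
  simp only [Xt, chi_smul c hc, this, Pi.smul_apply, smul_eq_mul]
  ring

/-- The rotation by the matrix `[[c, -s], [s, c]]` in the coordinate planes `(1, 2)`, `(3, 4)`. -/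
noncomputable def rot (c s : ℝ) (z : E) : E :=
  ![z 0, c * z 1 - s * z 2, s * z 1 + c * z 2, c * z 3 - s * z 4, s * z 3 + c * z 4]

theorem rot0 (c s : ℝ) (z : E) : rot c s z 0 = z 0 := rfl
theorem rot1 (c s : ℝ) (z : E) : rot c s z 1 = c * z 1 - s * z 2 := rfl
theorem rot2 (c s : ℝ) (z : E) : rot c s z 2 = s * z 1 + c * z 2 := rfl
theorem rot3 (c s : ℝ) (z : E) : rot c s z 3 = c * z 3 - s * z 4 := rfl
theorem rot4 (c s : ℝ) (z : E) : rot c s z 4 = s * z 3 + c * z 4 := rfl

theorem ext5 {u v : E} (h0 : u 0 = v 0) (h1 : u 1 = v 1) (h2 : u 2 = v 2) (h3 : u 3 = v 3)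
    (h4 : u 4 = v 4) : u = v := by
  funext j
  fin_cases j
  · exact h0
  · exact h1
  · exact h2
  · exact h3
  · exact h4

theorem rot_add (c s : ℝ) (u v : E) : rot c s (u + v) = rot c s u + rot c s v := by
  apply ext5 <;> simp only [rot0, rot1, rot2, rot3, rot4, Pi.add_apply] <;> ring

theorem rot_smul (c s : ℝ) (a : ℂ) (u : E) : rot c s (a • u) = a • rot c s u := by
  apply ext5 <;> simp only [rot0, rot1, rot2, rot3, rot4, Pi.smul_apply, smul_eq_mul] <;> ring

theorem rot_rot_neg (c s : ℝ) (h : c ^ 2 + s ^ 2 = 1) (z : E) : rot c s (rot c (-s) z) = z := by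
  have h' : (c : ℂ) ^ 2 + (s : ℂ) ^ 2 = 1 := by exact_mod_cast h
  apply ext5 <;> simp only [rot0, rot1, rot2, rot3, rot4, Complex.ofReal_neg]
  · linear_combination (z 1) * h'
  · linear_combination (z 2) * h'
  · linear_combination (z 3) * h'
  · linear_combination (z 4) * h'

theorem rot_neg_rot (c s : ℝ) (h : c ^ 2 + s ^ 2 = 1) (z : E) : rot c (-s) (rot c s z) = z := by
  have h' : (c : ℂ) ^ 2 + (s : ℂ) ^ 2 = 1 := by exact_mod_cast h
  apply ext5 <;> simp only [rot0, rot1, rot2, rot3, rot4, Complex.ofReal_neg]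
  · linear_combination (z 1) * h'
  · linear_combination (z 2) * h'
  · linear_combination (z 3) * h'
  · linear_combination (z 4) * h'

theorem herm_rot (c s : ℝ) (h : c ^ 2 + s ^ 2 = 1) (u v : E) :
    herm (rot c s u) (rot c s v) = herm u v := by
  have h' : (c : ℂ) ^ 2 + (s : ℂ) ^ 2 = 1 := by exact_mod_cast h
  rw [herm_eq, herm_eq]
  simp only [rot0, rot1, rot2, rot3, rot4, map_add, map_sub, map_mul, Complex.conj_ofReal]
  linear_combination ((starRingEnd ℂ) (u 1) * v 1 + (starRingEnd ℂ) (u 2) * v 2 +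
    (starRingEnd ℂ) (u 3) * v 3 + (starRingEnd ℂ) (u 4) * v 4) * h'

theorem dot_rot (c s : ℝ) (h : c ^ 2 + s ^ 2 = 1) (u v : E) :
    ∑ j, rot c s u j * rot c s v j = ∑ j, u j * v j := by
  have h' : (c : ℂ) ^ 2 + (s : ℂ) ^ 2 = 1 := by exact_mod_cast h
  rw [Fin.sum_univ_five, Fin.sum_univ_five]
  simp only [rot0, rot1, rot2, rot3, rot4]
  linear_combination (u 1 * v 1 + u 2 * v 2 + u 3 * v 3 + u 4 * v 4) * h'

theorem rot_mem_cone (c s : ℝ) (h : c ^ 2 + s ^ 2 = 1) (z : E) (hz : z ∈ unitCone) :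
    rot c s z ∈ unitCone := by
  refine ⟨?_, ?_⟩
  · rw [herm_rot c s h]; exact hz.1
  · have h1 := dot_rot c s h z z
    have h2 := hz.2
    simp only [pow_two] at h2 ⊢
    rw [h1, h2]

theorem rot_tangent (c s : ℝ) (h : c ^ 2 + s ^ 2 = 1) (z w : E) (hw : w ∈ coneTangent z) :
    rot c s w ∈ coneTangent (rot c s z) := by
  refine ⟨?_, ?_⟩
  · rw [herm_rot c s h]; exact hw.1
  · rw [dot_rot c s h]; exact hw.2

/-- The involution `R`. -/
noncomputable def RL : E →L[ℝ] E :=
  LinearMap.toContinuousLinearMap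
    { toFun := rot (-1) 0
      map_add' := rot_add _ _
      map_smul' := by
        intro a u
        have := rot_smul (-1) 0 (a : ℂ) u
        simpa using this }

theorem RL_apply (z : E) : RL z = rot (-1) 0 z := rfl

theorem A_R (z : E) (j : Fin 5) : A (rot (-1) 0 z) j = rot (-1) 0 (A z) j := by
  fin_cases j <;> simp [rot, A] <;> ring

theorem Xt_R (z : E) : Xt (rot (-1) 0 z) = rot (-1) 0 (Xt z) := by
  have h1 : ((-1 : ℝ)) ^ 2 + (0 : ℝ) ^ 2 = 1 := by norm_num
  have hA : A (rot (-1) 0 z) = rot (-1) 0 (A z) := funext (A_R z)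
  have hh := herm_rot (-1) 0 h1 z z
  have hl : lam (rot (-1) 0 z) = lam z := by
    unfold lam; rw [hA, herm_rot (-1) 0 h1]
  have hm : mu (rot (-1) 0 z) = mu z := by
    unfold mu; rw [hA, dot_rot (-1) 0 h1]
  have hc : chi (rot (-1) 0 z) = chi z := by
    unfold chi; rw [hh]
  apply ext5 <;>
    simp only [Xt, X, hc, hm, hl, hh, hA, rot0, rot1, rot2, rot3, rot4] <;> simp <;> ring

theorem fl_smul (c : ℂ) (hc : ‖c‖ = 1) (s : ℝ) (hs : |s| * Lc < 1) (z : E) :
    fl s (c • z) = c • fl s z :=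
  LibSmoothFlow.flow_equivariant XC Lc lip_XC (c • ContinuousLinearMap.id ℝ E)
    (fun x => Xt_smul c hc x) s hs z

theorem fl_R (s : ℝ) (hs : |s| * Lc < 1) (z : E) :
    fl s (rot (-1) 0 z) = rot (-1) 0 (fl s z) :=
  LibSmoothFlow.flow_equivariant XC Lc lip_XC RL (fun x => Xt_R x) s hs z

end Crest.Agent.S0316
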