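import Crest.Agent.S0325_Tetra

/-! Minimal projection area of the standard regular tetrahedron. -/
set_option autoImplicit false
open MeasureTheory Measure
open Crest.Agent.LibArea2

namespace Crest.Agent.S0325

/-- determinant of three vectors -/
noncomputable def det3 (a b c : E3) : ℝ :=
  a 0 * (b 1 * c 2 - b 2 * c 1) - a 1 * (b 0 * c 2 - b 2 * c 0) + a 2 * (b 0 * c 1 - b 1 * c 0)

theorem det3_sub_mid (a b b' c : E3) : det3 a (b - b') c = det3 a b c - det3 a b' c := by
  unfold det3; simp only [PiLp.sub_apply]; ring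

theorem det3_add_mid (a b b' c : E3) : det3 a (b + b') c = det3 a b c + det3 a b' c := by
  unfold det3; simp only [PiLp.add_apply]; ring

theorem det3_smul_mid (t : ℝ) (a b c : E3) : det3 a (t • b) c = t * det3 a b c := by
  unfold det3; simp only [PiLp.smul_apply, smul_eq_mul]; ring

theorem det3_self_mid (a c : E3) : det3 a a c = 0 := by
  unfold det3; ring

theorem det3_right (a c : E3) : det3 a c c = 0 := by
  unfold det3; ring

theorem det3_pr (a b v : E3) : det3 a (pr v b) v = det3 a b v := by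
  unfold pr
  rw [det3_sub_mid, det3_smul_mid, det3_right, mul_zero, sub_zero]

theorem gramArea_pr_eq_det (v a b : E3) (hv : ‖v‖ = 1) :
    gramArea (pr v a) (pr v b) = |det3 a b v| := by
  have hv0 : v ≠ 0 := by
    intro h; rw [h] at hv; simp at hv
  rw [gramArea, ← Real.sqrt_sq_eq_abs]
  congr 1
  rw [← real_inner_self_eq_norm_sq, ← real_inner_self_eq_norm_sq, inner_pr_pr _ _ _ hv0,
    inner_pr_pr _ _ _ hv0, inner_pr_pr _ _ _ hv0, hv]
  have hvv : v 0 ^ 2 + v 1 ^ 2 + v 2 ^ 2 = 1 := by
    have := EuclideanSpace.norm_sq_eq v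
    rw [hv, Fin.sum_univ_three] at this
    simp only [Real.norm_eq_abs, sq_abs] at this
    linarith
  simp only [PiLp.inner_apply, Fin.sum_univ_three, RCLike.inner_apply, conj_trivial]
  unfold det3
  generalize v 0 = x at *
  generalize v 1 = y at *
  generalize v 2 = z at *
  generalize a 0 = a0
  generalize a 1 = a1
  generalize a 2 = a2
  generalize b 0 = b0
  generalize b 1 = b1
  generalize b 2 = b2
  linear_combination (-((a0 ^ 2 + a1 ^ 2 + a2 ^ 2) * (b0 ^ 2 + b1 ^ 2 + b2 ^ 2) -
    (a0 * b0 + a1 * b1 + a2 * b2) ^ 2)) * hvv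

/-- area of a projected triangle -/
theorem area_pr_triangle (v p q r : E3) (hv : ‖v‖ = 1) :
    μHE[2] ((pr v) '' convexHull ℝ ({p, q, r} : Set E3)) =
      ENNReal.ofReal (|det3 (q - p) (r - p) v| / 2) := by
  rw [pr_image_triangle, area_triangle, ← pr_sub, ← pr_sub, gramArea_pr_eq_det v _ _ hv]

theorem area_pr_triangle_le (K : Set E3) (v p q r : E3) (hv : ‖v‖ = 1)
    (hK : convexHull ℝ ({p, q, r} : Set E3) ⊆ K) :
    ENNReal.ofReal (|det3 (q - p) (r - p) v| / 2) ≤ μHE[2] ((pr v) '' K) := by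
  rw [← area_pr_triangle v p q r hv]
  exact measure_mono (Set.image_mono hK)

/-- area of the projection of a set containing two triangles with a common side `pq`. -/
theorem area_pr_quad_le (K : Set E3) (v p q r s : E3) (hv : ‖v‖ = 1)
    (hr : convexHull ℝ ({p, q, r} : Set E3) ⊆ K) (hs : convexHull ℝ ({p, q, s} : Set E3) ⊆ K) :
    ENNReal.ofReal (|det3 (q - p) (s - r) v| / 2) ≤ μHE[2] ((pr v) '' K) := by
  have h1 := area_pr_triangle_le K v p q r hv hr
  have h2 := area_pr_triangle_le K v p q s hv hs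
  set α := det3 (q - p) (r - p) v with hα
  set β := det3 (q - p) (s - p) v with hβ
  have hsr : det3 (q - p) (s - r) v = β - α := by
    rw [hα, hβ, ← det3_sub_mid]
    congr 1
    abel
  rw [hsr]
  by_cases hαβ : 0 < α * β
  · -- same side
    have : |β - α| ≤ max |α| |β| := by
      rcases (mul_pos_iff.1 hαβ) with ⟨ha, hb⟩ | ⟨ha, hb⟩
      · rw [abs_of_pos ha, abs_of_pos hb, abs_le]
        rcases le_total α β with h | h
        · rw [max_eq_right h]; constructor <;> linarith
        · rw [max_eq_left h]; constructor <;> linarith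
      · rw [abs_of_neg ha, abs_of_neg hb, abs_le]
        rcases le_total α β with h | h
        · rw [max_eq_left (neg_le_neg h)]; constructor <;> linarith
        · rw [max_eq_right (neg_le_neg h)]; constructor <;> linarith
    rcases le_max_iff.1 this with h | h
    · exact (ENNReal.ofReal_le_ofReal (by linarith)).trans h1
    · exact (ENNReal.ofReal_le_ofReal (by linarith)).trans h2
  · push Not at hαβ
    have habs : |β - α| = |α| + |β| := by
      rcases le_total 0 α with ha | ha
      · rcases eq_or_lt_of_le ha with ha0 | ha0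
        · rw [← ha0]; simp
        · have hb : β ≤ 0 := by
            by_contra hb; push Not at hb
            exact absurd hαβ (not_le.2 (mul_pos ha0 hb))
          rw [abs_of_nonneg ha, abs_of_nonpos hb, abs_of_nonpos (by linarith)]; ring
      · rcases eq_or_lt_of_le ha with ha0 | ha0
        · rw [ha0]; simp
        · have hb : 0 ≤ β := by
            by_contra hb; push Not at hb
            exact absurd hαβ (not_le.2 (mul_pos_of_neg_of_neg ha0 hb))
          rw [abs_of_nonpos ha, abs_of_nonneg hb, abs_of_nonneg (by linarith)]; ring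
    set T1 := (pr v) '' convexHull ℝ ({p, q, r} : Set E3) with hT1
    set T2 := (pr v) '' convexHull ℝ ({p, q, s} : Set E3) with hT2
    have hm2 : MeasurableSet T2 := by
      rw [hT2, pr_image_triangle]
      exact (Set.Finite.isCompact_convexHull ℝ (Set.toFinite _)).isClosed.measurableSet
    have hinter : μHE[2] (T1 ∩ T2) = 0 := by
      by_cases ha : α = 0
      · apply measure_mono_null Set.inter_subset_left
        rw [hT1, area_pr_triangle v p q r hv, ← hα, ha]; simp
      by_cases hb : β = 0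
      · apply measure_mono_null Set.inter_subset_right
        rw [hT2, area_pr_triangle v p q s hv, ← hβ, hb]; simp
      have hsub : T1 ∩ T2 ⊆ (pr v) '' convexHull ℝ ({p, q, q} : Set E3) := by
        rintro x ⟨hx1, hx2⟩
        rw [hT1, pr_image_triangle, mem_convexHull_triple] at hx1
        rw [hT2, pr_image_triangle, mem_convexHull_triple] at hx2
        obtain ⟨s1, t1, hs1, ht1, hst1, hx1⟩ := hx1
        obtain ⟨s2, t2, hs2, ht2, hst2, hx2⟩ := hx2
        have e1 : det3 (q - p) (x - pr v p) v = t1 * α := by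
          rw [hx1, ← pr_sub, ← pr_sub]
          have : pr v p + s1 • pr v (q - p) + t1 • pr v (r - p) - pr v p =
            s1 • pr v (q - p) + t1 • pr v (r - p) := by abel
          rw [this, det3_add_mid, det3_smul_mid, det3_smul_mid, det3_pr, det3_pr, det3_self_mid,
            mul_zero, zero_add]
        have e2 : det3 (q - p) (x - pr v p) v = t2 * β := by
          rw [hx2, ← pr_sub, ← pr_sub]
          have : pr v p + s2 • pr v (q - p) + t2 • pr v (s - p) - pr v p =
            s2 • pr v (q - p) + t2 • pr v (s - p) := by abel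
          rw [this, det3_add_mid, det3_smul_mid, det3_smul_mid, det3_pr, det3_pr, det3_self_mid,
            mul_zero, zero_add]
        have e3 : t1 * α = t2 * β := by rw [← e1, e2]
        have ht : t1 = 0 := by
          have h5 : t1 * α ^ 2 = t2 * (α * β) := by
            calc t1 * α ^ 2 = (t1 * α) * α := by ring
              _ = t2 * (α * β) := by rw [e3]; ring
          have h6 : t2 * (α * β) ≤ 0 := mul_nonpos_of_nonneg_of_nonpos ht2 hαβ
          have h7 : 0 < α ^ 2 := by positivity
          by_contra hne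
          have : 0 < t1 := lt_of_le_of_ne ht1 (Ne.symm hne)
          have := mul_pos this h7
          linarith
        rw [pr_image_triangle, mem_convexHull_triple]
        refine ⟨s1, 0, hs1, le_rfl, by linarith, ?_⟩
        rw [hx1, ht]; simp
      apply measure_mono_null hsub
      rw [area_pr_triangle v p q q hv, det3_self_mid]; simp
    have hunion : μHE[2] (T1 ∪ T2) = μHE[2] T1 + μHE[2] T2 := by
      have := measure_union_add_inter (μ := (μHE[2] : Measure E3)) T1 hm2
      rw [hinter, add_zero] at this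
      exact this
    have hle : μHE[2] (T1 ∪ T2) ≤ μHE[2] ((pr v) '' K) :=
      measure_mono (Set.union_subset (Set.image_mono hr) (Set.image_mono hs))
    refine le_trans (le_of_eq ?_) hle
    rw [hunion, hT1, hT2, area_pr_triangle v p q r hv, area_pr_triangle v p q s hv, ← hα, ← hβ,
      habs, ← ENNReal.ofReal_add (by positivity) (by positivity)]
    congr 1
    ring


theorem num_claim (a b c : ℝ) (ha : 0 ≤ a) (hb : 0 ≤ b) (hc : 0 ≤ c)
    (h : a ^ 2 + b ^ 2 + c ^ 2 = 1) (h1 : a + b < 1) (h2 : Real.sqrt 2 * a + c < Real.sqrt 2)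
    (h3 : Real.sqrt 2 * b + c < Real.sqrt 2) (h4 : 2 * c < Real.sqrt 2) : False := by
  have hs := sqrt2_pos
  have hs2 := sqrt2_sq
  -- c² ≤ c / √2 , i.e. √2 c² ≤ c
  have hc2 : Real.sqrt 2 * c ^ 2 ≤ c := by
    have : Real.sqrt 2 * c ≤ 1 := by nlinarith
    nlinarith
  rcases le_total b a with hab | hab
  · have h5 : a ^ 2 + b ^ 2 ≤ a := by nlinarith
    nlinarith
  · have h5 : a ^ 2 + b ^ 2 ≤ b := by nlinarith
    nlinarith

theorem fun_eq_pr (v : E3) (hv : ‖v‖ = 1) : (fun y : E3 => y - inner ℝ y v • v) = pr v := by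
  funext y
  unfold pr
  rw [hv]; simp

theorem minproj_le (v : E3) (hv : ‖v‖ = 1) :
    ENNReal.ofReal (Real.sqrt 2) ≤ μHE[2] ((fun y => y - inner ℝ y v • v) '' tetra) := by
  rw [fun_eq_pr v hv]
  have hs := sqrt2_pos
  have hs2 := sqrt2_sq
  set A : E3 := !₂[1, 0, 0] with hA
  set B : E3 := !₂[-1, 0, 0] with hB
  set C : E3 := !₂[0, 1, Real.sqrt 2] with hC
  set D : E3 := !₂[0, -1, Real.sqrt 2] with hD
  have hK : tetra = convexHull ℝ ({A, B, C, D} : Set E3) := rfl
  have hsub : ∀ {p q r : E3}, p ∈ ({A, B, C, D} : Set E3) → q ∈ ({A, B, C, D} : Set E3) →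
      r ∈ ({A, B, C, D} : Set E3) → convexHull ℝ ({p, q, r} : Set E3) ⊆ tetra := by
    intro p q r hp hq hr
    rw [hK]
    apply convexHull_mono
    intro x hx
    simp only [Set.mem_insert_iff, Set.mem_singleton_iff] at hx
    rcases hx with rfl | rfl | rfl
    · exact hp
    · exact hq
    · exact hr
  have mA : A ∈ ({A, B, C, D} : Set E3) := by simp
  have mB : B ∈ ({A, B, C, D} : Set E3) := by simp
  have mC : C ∈ ({A, B, C, D} : Set E3) := by simp
  have mD : D ∈ ({A, B, C, D} : Set E3) := by simp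
  have f1 := area_pr_triangle_le tetra v A B C hv (hsub mA mB mC)
  have f2 := area_pr_triangle_le tetra v A B D hv (hsub mA mB mD)
  have f3 := area_pr_triangle_le tetra v A C D hv (hsub mA mC mD)
  have f4 := area_pr_triangle_le tetra v B C D hv (hsub mB mC mD)
  have g1 := area_pr_quad_le tetra v A B C D hv (hsub mA mB mC) (hsub mA mB mD)
  have g2 := area_pr_quad_le tetra v A C B D hv (hsub mA mC mB) (hsub mA mC mD)
  have g3 := area_pr_quad_le tetra v A D B C hv (hsub mA mD mB) (hsub mA mD mC)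
  have d1 : det3 (B - A) (C - A) v / 2 = Real.sqrt 2 * v 1 - v 2 := by
    simp [det3, hA, hB, hC]; ring
  have d2 : det3 (B - A) (D - A) v / 2 = Real.sqrt 2 * v 1 + v 2 := by
    simp [det3, hA, hB, hD]; ring
  have d3 : det3 (C - A) (D - A) v / 2 = Real.sqrt 2 * v 0 + v 2 := by
    simp [det3, hA, hC, hD]; ring
  have d4 : det3 (C - B) (D - B) v / 2 = Real.sqrt 2 * v 0 - v 2 := by
    simp [det3, hB, hC, hD]; ring
  have d5 : det3 (B - A) (D - C) v / 2 = 2 * v 2 := by
    simp [det3, hA, hB, hC, hD]; ring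
  have d6 : det3 (C - A) (D - B) v / 2 = Real.sqrt 2 * (v 0 + v 1) := by
    simp [det3, hA, hB, hC, hD]; ring
  have d7 : det3 (D - A) (C - B) v / 2 = Real.sqrt 2 * (v 1 - v 0) := by
    simp [det3, hA, hB, hC, hD]; ring
  by_contra hlt
  push Not at hlt
  have key : ∀ x y : ℝ, x / 2 = y → ENNReal.ofReal (|x| / 2) ≤ μHE[2] (pr v '' tetra) →
      |y| < Real.sqrt 2 := by
    intro x y hxy hle
    have h1 := lt_of_le_of_lt hle hlt
    rw [ENNReal.ofReal_lt_ofReal_iff hs] at h1
    rw [← hxy, abs_div, abs_two]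
    exact h1
  have k1 := abs_lt.1 (key _ _ d1 f1)
  have k2 := abs_lt.1 (key _ _ d2 f2)
  have k3 := abs_lt.1 (key _ _ d3 f3)
  have k4 := abs_lt.1 (key _ _ d4 f4)
  have k5 := key _ _ d5 g1
  have k6 := key _ _ d6 g2
  have k7 := key _ _ d7 g3
  rw [abs_mul, abs_of_pos hs] at k6 k7
  have k6' : |v 0 + v 1| < 1 := by
    by_contra hh; push Not at hh; nlinarith
  have k7' : |v 1 - v 0| < 1 := by
    by_contra hh; push Not at hh; nlinarith
  rw [abs_mul, abs_two] at k5
  have l6 := abs_lt.1 k6'
  have l7 := abs_lt.1 k7'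
  have hvv : |v 0| ^ 2 + |v 1| ^ 2 + |v 2| ^ 2 = 1 := by
    have := EuclideanSpace.norm_sq_eq v
    rw [hv, Fin.sum_univ_three] at this
    simp only [Real.norm_eq_abs] at this
    linarith
  refine num_claim |v 0| |v 1| |v 2| (abs_nonneg _) (abs_nonneg _) (abs_nonneg _) hvv ?_ ?_ ?_ k5
  · rcases abs_cases (v 0) with ⟨h0, _⟩ | ⟨h0, _⟩ <;> rcases abs_cases (v 1) with ⟨h1, _⟩ | ⟨h1, _⟩ <;>
      rw [h0, h1] <;> linarith
  · rcases abs_cases (v 0) with ⟨h0, _⟩ | ⟨h0, _⟩ <;> rcases abs_cases (v 2) with ⟨h1, _⟩ | ⟨h1, _⟩ <;>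
      rw [h0, h1] <;> linarith
  · rcases abs_cases (v 1) with ⟨h0, _⟩ | ⟨h0, _⟩ <;> rcases abs_cases (v 2) with ⟨h1, _⟩ | ⟨h1, _⟩ <;>
      rw [h0, h1] <;> linarith

theorem minproj_eq : μHE[2] ((fun y : E3 => y - inner ℝ y (!₂[1, 0, 0] : E3) • (!₂[1, 0, 0] : E3)) '' tetra) =
    ENNReal.ofReal (Real.sqrt 2) := by
  have hv : ‖(!₂[1, 0, 0] : E3)‖ = 1 := by simp [EuclideanSpace.norm_eq, Fin.sum_univ_three]
  apply le_antisymm _ (minproj_le _ hv)
  rw [fun_eq_pr _ hv]
  set v : E3 := !₂[1, 0, 0] with hvdef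
  have hlin : ∀ x y : E3, ∀ α β : ℝ, pr v (α • x + β • y) = α • pr v x + β • pr v y := by
    intro x y α β; rw [pr_add, pr_smul, pr_smul]
  have hsub : (pr v) '' tetra ⊆ convexHull ℝ ({(0 : E3), !₂[0, 1, Real.sqrt 2], !₂[0, -1, Real.sqrt 2]} : Set E3) := by
    rw [Set.image_subset_iff]
    apply convexHull_min
    · have p1 : pr v !₂[1, 0, 0] = 0 := by
        apply pr_self; intro h; rw [h] at hv; simp at hv
      have p2 : pr v !₂[-1, 0, 0] = 0 := by
        have : (!₂[-1, 0, 0] : E3) = (-1 : ℝ) • v := by ext i; fin_cases i <;> simp [hvdef]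
        rw [this, pr_smul, hvdef, p1, smul_zero]
      have p3 : pr v !₂[0, 1, Real.sqrt 2] = !₂[0, 1, Real.sqrt 2] := by
        unfold pr
        have : inner ℝ (!₂[0, 1, Real.sqrt 2] : E3) v = 0 := by
          simp [hvdef, PiLp.inner_apply, Fin.sum_univ_three]
        rw [this]; simp
      have p4 : pr v !₂[0, -1, Real.sqrt 2] = !₂[0, -1, Real.sqrt 2] := by
        unfold pr
        have : inner ℝ (!₂[0, -1, Real.sqrt 2] : E3) v = 0 := by
          simp [hvdef, PiLp.inner_apply, Fin.sum_univ_three]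
        rw [this]; simp
      intro x hx
      simp only [Set.mem_insert_iff, Set.mem_singleton_iff] at hx
      apply subset_convexHull
      rcases hx with rfl | rfl | rfl | rfl
      · rw [p1]; simp
      · rw [p2]; simp
      · rw [p3]; simp
      · rw [p4]; simp
    · intro x hx y hy α β hα hβ hαβ
      rw [Set.mem_preimage, hlin]
      exact convex_convexHull ℝ _ hx hy hα hβ hαβ
  refine (measure_mono hsub).trans ?_
  rw [area_triangle]
  apply ENNReal.ofReal_le_ofReal
  have : gramArea ((!₂[0, 1, Real.sqrt 2] : E3) - 0) ((!₂[0, -1, Real.sqrt 2] : E3) - 0) = 2 * Real.sqrt 2 := by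
    rw [sub_zero, sub_zero, gramArea]
    have h1 : ‖(!₂[0, 1, Real.sqrt 2] : E3)‖ ^ 2 = 3 := by
      simp [EuclideanSpace.norm_sq_eq, Fin.sum_univ_three]; norm_num
    have h2 : ‖(!₂[0, -1, Real.sqrt 2] : E3)‖ ^ 2 = 3 := by
      simp [EuclideanSpace.norm_sq_eq, Fin.sum_univ_three]; norm_num
    have h3 : inner ℝ (!₂[0, 1, Real.sqrt 2] : E3) (!₂[0, -1, Real.sqrt 2] : E3) = 1 := by
      simp [PiLp.inner_apply, Fin.sum_univ_three]; norm_num
    rw [h1, h2, h3]
    rw [show (3 : ℝ) * 3 - 1 ^ 2 = 2 ^ 2 * 2 by norm_num, Real.sqrt_mul (by norm_num),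
      Real.sqrt_sq (by norm_num)]
  rw [this]
  linarith

end Crest.Agent.S0325
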