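import Crest.Statements.S0324
import Crest.Agent.S0325_MinProj
import Crest.Agent.LibPlane3

set_option autoImplicit false
open MeasureTheory
open scoped ENNReal
open Crest Crest.GeometryTopology Crest.GeometryTopology.Convex

namespace Crest.Agent.S0324

open Crest.Agent.S0325 Crest.Agent.LibArea2 Crest.Agent.LibPlane3

theorem isCompact_tetra : IsCompact tetra := Set.Finite.isCompact_convexHull ℝ (Set.toFinite _)

theorem continuous_pr (v : EuclideanSpace ℝ (Fin 3)) : Continuous (pr v) := by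
  unfold pr
  fun_prop

theorem proj_lt_top (v : EuclideanSpace ℝ (Fin 3)) (hv : ‖v‖ = 1) (K : Set (EuclideanSpace ℝ (Fin 3)))
    (hK : IsCompact K) : μHE[2] ((fun y => y - inner ℝ y v • v) '' K) < ∞ := by
  rw [fun_eq_pr v hv]
  apply area_lt_top v hv _ (hK.image (continuous_pr v)).isBounded
  rintro _ ⟨x, _, rfl⟩
  have hv0 : v ≠ 0 := by intro h; rw [h] at hv; simp at hv
  exact inner_pr v x hv0

/-- The regular tetrahedron `K` with vertices `(±1, 0, 0)`, `(0, ±1, √2)` is covered by finitely many cylinders `Bᵢ + ℝ uᵢ`, each with unit direction `uᵢ` and base `Bᵢ` a triangle (convex hull of three points) in the plane `uᵢ^⊥`, whose total base area `∑ᵢ area(Bᵢ)` is smaller, by a positive margin, than half the area of the orthogonal projection of `K` onto `v^⊥` for every unit vector `v`; areas are 2-dimensional Hausdorff measure. -/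
theorem result :
    ∃ (m : ℕ) (u p q r : Fin m → EuclideanSpace ℝ (Fin 3)),
      (∀ i, ‖u i‖ = 1) ∧
      (∀ i, inner ℝ (p i) (u i) = 0 ∧ inner ℝ (q i) (u i) = 0 ∧ inner ℝ (r i) (u i) = 0) ∧
      convexHull ℝ {!₂[1, 0, 0], !₂[-1, 0, 0], !₂[0, 1, Real.sqrt 2], !₂[0, -1, Real.sqrt 2]} ⊆
        ⋃ i, {x : EuclideanSpace ℝ (Fin 3) | ∃ b ∈ convexHull ℝ {p i, q i, r i}, ∃ t : ℝ, x = b + t • u i} ∧
      ∃ δ : ℝ, 0 < δ ∧ ∀ v : EuclideanSpace ℝ (Fin 3), ‖v‖ = 1 →
        ∑ i, (μH[(2 : ℝ)] (convexHull ℝ {p i, q i, r i})).toReal + δ ≤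
          (μH[(2 : ℝ)] ((fun y => y - inner ℝ y v • v) '' convexHull ℝ {!₂[1, 0, 0], !₂[-1, 0, 0], !₂[0, 1, Real.sqrt 2], !₂[0, -1, Real.sqrt 2]})).toReal / 2 := by
  obtain ⟨n, u, p, q, r, -, hu, ho, hcov, hsum⟩ := core_cover'
  obtain ⟨κ, hκ, hH⟩ := exists_hausdorff_const
  have hs := sqrt2_pos
  refine ⟨n, u, p, q, r, hu, ho, hcov, κ * (Real.sqrt 2 * (13 / 6000 * (1 / 2000) ^ 2)),
    by positivity, ?_⟩
  intro v hv
  have h1 := minproj_le v hv
  have h2 := proj_lt_top v hv tetra isCompact_tetra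
  have h3 : Real.sqrt 2 ≤ (μHE[2] ((fun y => y - inner ℝ y v • v) '' tetra)).toReal := by
    rw [← ENNReal.toReal_ofReal hs.le]
    exact ENNReal.toReal_mono h2.ne h1
  change ∑ i, (μH[(2 : ℝ)] (convexHull ℝ {p i, q i, r i})).toReal +
      κ * (Real.sqrt 2 * (13 / 6000 * (1 / 2000) ^ 2)) ≤
    (μH[(2 : ℝ)] ((fun y => y - inner ℝ y v • v) '' tetra)).toReal / 2
  simp_rw [hH, ENNReal.toReal_mul, ENNReal.toReal_ofReal hκ.le]
  rw [← Finset.mul_sum]
  have h4 : ∑ i, (μHE[2] (convexHull ℝ ({p i, q i, r i} : Set (EuclideanSpace ℝ (Fin 3))))).toReal +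
      Real.sqrt 2 * (13 / 6000 * (1 / 2000) ^ 2) ≤
      (μHE[2] ((fun y => y - inner ℝ y v • v) '' tetra)).toReal / 2 := by
    have : Real.sqrt 2 * (1 / 2 - 13 / 6000 * (1 / 2000) ^ 2) +
      Real.sqrt 2 * (13 / 6000 * (1 / 2000) ^ 2) = Real.sqrt 2 / 2 := by ring
    linarith
  have h5 := mul_le_mul_of_nonneg_left h4 hκ.le
  linarith

end Crest.Agent.S0324
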