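import Crest.Statements.S0325
import Crest.Agent.S0325_MinProj

set_option autoImplicit false
open MeasureTheory
open scoped ENNReal
open Crest Crest.GeometryTopology Crest.GeometryTopology.Convex

namespace Crest.Agent.S0325

open Crest.Agent.LibArea2 in
/-- Padding a cover with trivial cylinders and one cylinder of prescribed base area. -/
theorem pad_cover {n0 n : ℕ} (h : n0 < n) (u p q r : Fin n0 → E3) (hu : ∀ i, ‖u i‖ = 1)
    (ho : ∀ i, inner ℝ (p i) (u i) = 0 ∧ inner ℝ (q i) (u i) = 0 ∧ inner ℝ (r i) (u i) = 0)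
    (A : ℝ) (hA : ∑ i, (μHE[2] (convexHull ℝ ({p i, q i, r i} : Set E3))).toReal ≤ A) :
    ∃ (u' p' q' r' : Fin n → E3), (∀ i, ‖u' i‖ = 1) ∧
      (∀ i, inner ℝ (p' i) (u' i) = 0 ∧ inner ℝ (q' i) (u' i) = 0 ∧ inner ℝ (r' i) (u' i) = 0) ∧
      (⋃ i, {x : E3 | ∃ b ∈ convexHull ℝ {p i, q i, r i}, ∃ t : ℝ, x = b + t • u i}) ⊆
        (⋃ i, {x : E3 | ∃ b ∈ convexHull ℝ {p' i, q' i, r' i}, ∃ t : ℝ, x = b + t • u' i}) ∧
      ∑ i, (μHE[2] (convexHull ℝ ({p' i, q' i, r' i} : Set E3))).toReal = A := by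
  set A0 := ∑ i, (μHE[2] (convexHull ℝ ({p i, q i, r i} : Set E3))).toReal with hA0
  let e1 : E3 := !₂[1, 0, 0]
  let e2 : E3 := !₂[0, 2 * (A - A0), 0]
  let e3 : E3 := !₂[0, 0, 1]
  have he1 : ‖e1‖ = 1 := by simp [e1, EuclideanSpace.norm_eq, Fin.sum_univ_three]
  have h21 : inner ℝ e2 e1 = 0 := by simp [e1, e2, PiLp.inner_apply, Fin.sum_univ_three]
  have h31 : inner ℝ e3 e1 = 0 := by simp [e1, e3, PiLp.inner_apply, Fin.sum_univ_three]
  have hgram : gramArea e2 e3 = 2 * (A - A0) := by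
    have h2 : ‖e2‖ ^ 2 = (2 * (A - A0)) ^ 2 := by
      simp [e2, EuclideanSpace.norm_sq_eq, Fin.sum_univ_three]
    have h3 : ‖e3‖ ^ 2 = 1 := by
      simp [e3, EuclideanSpace.norm_sq_eq, Fin.sum_univ_three]
    have h4 : inner ℝ e2 e3 = 0 := by
      simp [e2, e3, PiLp.inner_apply, Fin.sum_univ_three]
    rw [gramArea, h2, h3, h4]
    rw [show (2 * (A - A0)) ^ 2 * 1 - 0 ^ 2 = (2 * (A - A0)) ^ 2 by ring]
    exact Real.sqrt_sq (by linarith)
  let U : ℕ → E3 := fun i => if hi : i < n0 then u ⟨i, hi⟩ else e1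
  let P : ℕ → E3 := fun i => if hi : i < n0 then p ⟨i, hi⟩ else 0
  let Q : ℕ → E3 := fun i => if hi : i < n0 then q ⟨i, hi⟩ else if i = n0 then e2 else 0
  let R : ℕ → E3 := fun i => if hi : i < n0 then r ⟨i, hi⟩ else if i = n0 then e3 else 0
  refine ⟨fun i => U i, fun i => P i, fun i => Q i, fun i => R i, ?_, ?_, ?_, ?_⟩
  · intro i
    by_cases hi : (i : ℕ) < n0
    · simp only [U, hi, dite_true]; exact hu _
    · simp only [U, hi, dite_false]; exact he1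
  · intro i
    by_cases hi : (i : ℕ) < n0
    · simp only [U, P, Q, R, hi, dite_true]; exact ho _
    · by_cases hi2 : (i : ℕ) = n0
      · simp only [U, P, Q, R, hi2, lt_irrefl, dite_false, if_true]
        exact ⟨inner_zero_left _, h21, h31⟩
      · simp only [U, P, Q, R, hi, dite_false, hi2, if_false]
        exact ⟨inner_zero_left _, inner_zero_left _, inner_zero_left _⟩
  · intro x hx
    rw [Set.mem_iUnion] at hx ⊢
    obtain ⟨i, hi⟩ := hx
    refine ⟨⟨i, i.2.trans h⟩, ?_⟩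
    have : ((⟨i, i.2.trans h⟩ : Fin n) : ℕ) < n0 := i.2
    simp only [U, P, Q, R, this, dite_true]
    exact hi
  · rw [Fin.sum_univ_eq_sum_range (fun i : ℕ => (μHE[2] (convexHull ℝ ({P i, Q i, R i} : Set E3))).toReal) n]
    have hsub : Finset.range (n0 + 1) ⊆ Finset.range n := Finset.range_subset_range.2 h
    rw [← Finset.sum_subset hsub]
    · rw [Finset.sum_range_succ]
      have h1 : ∑ i ∈ Finset.range n0, (μHE[2] (convexHull ℝ ({P i, Q i, R i} : Set E3))).toReal = A0 := by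
        rw [← Fin.sum_univ_eq_sum_range
          (fun i : ℕ => (μHE[2] (convexHull ℝ ({P i, Q i, R i} : Set E3))).toReal) n0, hA0]
        refine Finset.sum_congr rfl fun i _ => ?_
        have : (i : ℕ) < n0 := i.2
        simp only [P, Q, R, this, dite_true]
      have h2 : (μHE[2] (convexHull ℝ ({P n0, Q n0, R n0} : Set E3))).toReal = A - A0 := by
        simp only [P, Q, R, lt_irrefl, dite_false, if_true]
        rw [area_triangle_toReal, sub_zero, sub_zero, hgram]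
        ring
      rw [h1, h2]
      ring
    · intro i _ hi
      rw [Finset.mem_range, not_lt] at hi
      have hi1 : ¬ i < n0 := by omega
      have hi2 : ¬ i = n0 := by omega
      simp only [P, Q, R, hi1, dite_false, hi2, if_false]
      rw [area_triangle_toReal, sub_zero]
      simp [gramArea]

/-- Let K be the regular tetrahedron with vertices (±1, 0, 0), (0, ±1, √2); areas are Lebesgue-normalised 2-dimensional Hausdorff measure. (1) The least area of an orthogonal projection of K onto a plane is √2: each map y ↦ y − ⟪y, v⟫ v with ‖v‖ = 1 sends K to a set of area ≥ √2, equal for some v. (2) For every 0 < ε ≤ 5·10⁻⁴, K is covered by 2⌈2/ε²⌉ cylinders Bᵢ + ℝ uᵢ, uᵢ a unit vector, Bᵢ a triangle (convex hull of three points) in uᵢ^⊥, of total area A with ‖A/√2 − 1/2 + 13 ε²/6000‖ ≤ 2 ε⁴. -/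
theorem result :
    ((∀ v : EuclideanSpace ℝ (Fin 3), ‖v‖ = 1 →
        ENNReal.ofReal (Real.sqrt 2) ≤ μHE[2] ((fun y => y - inner ℝ y v • v) '' convexHull ℝ {!₂[1, 0, 0], !₂[-1, 0, 0], !₂[0, 1, Real.sqrt 2], !₂[0, -1, Real.sqrt 2]})) ∧
      ∃ v : EuclideanSpace ℝ (Fin 3), ‖v‖ = 1 ∧
        μHE[2] ((fun y => y - inner ℝ y v • v) '' convexHull ℝ {!₂[1, 0, 0], !₂[-1, 0, 0], !₂[0, 1, Real.sqrt 2], !₂[0, -1, Real.sqrt 2]}) = ENNReal.ofReal (Real.sqrt 2)) ∧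
    ∀ ε : ℝ, 0 < ε → ε ≤ 1 / 2000 →
      ∃ (u p q r : Fin (2 * ⌈2 / ε ^ 2⌉₊) → EuclideanSpace ℝ (Fin 3)),
        (∀ i, ‖u i‖ = 1) ∧
        (∀ i, inner ℝ (p i) (u i) = 0 ∧ inner ℝ (q i) (u i) = 0 ∧ inner ℝ (r i) (u i) = 0) ∧
        convexHull ℝ {!₂[1, 0, 0], !₂[-1, 0, 0], !₂[0, 1, Real.sqrt 2], !₂[0, -1, Real.sqrt 2]} ⊆
          ⋃ i, {x : EuclideanSpace ℝ (Fin 3) | ∃ b ∈ convexHull ℝ {p i, q i, r i}, ∃ t : ℝ, x = b + t • u i} ∧
        abs ((∑ i, (μHE[2] (convexHull ℝ ({p i, q i, r i} : Set (EuclideanSpace ℝ (Fin 3))))).toReal) / Real.sqrt 2 -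
            (1 / 2 - 13 / 6000 * ε ^ 2)) ≤ 2 * ε ^ 4 := by
  refine ⟨⟨minproj_le, !₂[1, 0, 0], by simp [EuclideanSpace.norm_eq, Fin.sum_univ_three],
    minproj_eq⟩, ?_⟩
  intro ε hε hε'
  obtain ⟨n0, u, p, q, r, hn0, hu, ho, hcov, hsum⟩ := core_cover'
  have hn : n0 < 2 * ⌈2 / ε ^ 2⌉₊ := by
    have h1 : (8000000 : ℝ) ≤ 2 / ε ^ 2 := by
      rw [le_div_iff₀ (by positivity)]
      nlinarith
    have h2 : (8000000 : ℝ) ≤ (⌈2 / ε ^ 2⌉₊ : ℝ) := h1.trans (Nat.le_ceil _)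
    have h3 : 8000000 ≤ ⌈2 / ε ^ 2⌉₊ := by exact_mod_cast h2
    omega
  have hs := sqrt2_pos
  have hA : ∑ i, (μHE[2] (convexHull ℝ ({p i, q i, r i} : Set E3))).toReal ≤
      Real.sqrt 2 * (1 / 2 - 13 / 6000 * ε ^ 2) := by
    refine hsum.trans (mul_le_mul_of_nonneg_left ?_ hs.le)
    have : ε ^ 2 ≤ (1 / 2000) ^ 2 := pow_le_pow_left₀ hε.le hε' 2
    linarith
  obtain ⟨u', p', q', r', hu', ho', hsub, hsum'⟩ := pad_cover hn u p q r hu ho _ hA
  refine ⟨u', p', q', r', hu', ho', hcov.trans hsub, ?_⟩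
  have : (∑ i, (μHE[2] (convexHull ℝ ({p' i, q' i, r' i} : Set (EuclideanSpace ℝ (Fin 3))))).toReal) /
      Real.sqrt 2 = 1 / 2 - 13 / 6000 * ε ^ 2 := by
    rw [hsum', mul_div_cancel_left₀ _ hs.ne']
  rw [this, sub_self, abs_zero]
  positivity

end Crest.Agent.S0325
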