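import Crest.Agent.LibArea2

/-!
Explicit cover of the regular tetrahedron by 8,000,000 triangular cylinders of total base area
below one half of the minimal projection area (auxiliary file for S0324, S0325, S0327).
-/

set_option autoImplicit false
open MeasureTheory Measure
open Crest.Agent.LibArea2

namespace Crest.Agent.S0325

/-- Step 1: ruling parameters of a point for the radial sweep. -/
theorem exists_param (e x y s : ℝ) (hx : |x| ≤ s) :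
    ∃ t ρ : ℝ, -1 ≤ t ∧ t ≤ 1 ∧ 0 ≤ ρ ∧ s = ρ + e * y * t ∧ 2 * x - e * y = t * (s + ρ) ∧
      ρ ^ 2 = s ^ 2 - 2 * e * x * y + e ^ 2 * y ^ 2 := by
  have hs : 0 ≤ s := (abs_nonneg x).trans hx
  obtain ⟨hx1, hx2⟩ := abs_le.1 hx
  have hR : 0 ≤ s ^ 2 - 2 * e * x * y + e ^ 2 * y ^ 2 := by
    nlinarith [sq_nonneg (e * y - x), mul_nonneg (sub_nonneg.2 hx2) (by linarith : 0 ≤ s + x)]
  set ρ := Real.sqrt (s ^ 2 - 2 * e * x * y + e ^ 2 * y ^ 2) with hρ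
  have hρ0 : 0 ≤ ρ := Real.sqrt_nonneg _
  have hρ2 : ρ ^ 2 = s ^ 2 - 2 * e * x * y + e ^ 2 * y ^ 2 := Real.sq_sqrt hR
  by_cases h0 : s + ρ = 0
  · have hs0 : s = 0 := by linarith
    have hr0 : ρ = 0 := by linarith
    have hx0 : x = 0 := by
      rw [hs0] at hx
      exact abs_nonpos_iff.1 hx
    have hey : (e * y) ^ 2 = 0 := by
      rw [hs0, hr0, hx0] at hρ2
      nlinarith
    have hey' : e * y = 0 := by simpa using hey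
    refine ⟨0, ρ, by norm_num, by norm_num, hρ0, ?_, ?_, hρ2⟩
    · rw [hs0, hr0]; ring
    · rw [hx0, hey']; ring
  · have hpos : 0 < s + ρ := lt_of_le_of_ne (by linarith) (Ne.symm h0)
    refine ⟨(2 * x - e * y) / (s + ρ), ρ, ?_, ?_, hρ0, ?_, ?_, hρ2⟩
    · rw [le_div_iff₀ hpos]
      by_contra hcon
      push Not at hcon
      have h1 : 2 * x - e * y < 0 := by linarith
      have h2 : ρ < - (2 * x - e * y) - s := by linarith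
      have h3 : ρ ^ 2 < (- (2 * x - e * y) - s) ^ 2 := by
        apply pow_lt_pow_left₀ h2 hρ0 (by norm_num)
      nlinarith [mul_nonneg (by linarith : 0 ≤ s + x) (by linarith : 0 ≤ -(2 * x - e * y))]
    · rw [div_le_iff₀ hpos]
      by_contra hcon
      push Not at hcon
      have h1 : 0 < 2 * x - e * y := by linarith
      have h2 : ρ < (2 * x - e * y) - s := by linarith
      have h3 : ρ ^ 2 < ((2 * x - e * y) - s) ^ 2 := by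
        apply pow_lt_pow_left₀ h2 hρ0 (by norm_num)
      nlinarith [mul_nonneg (by linarith : 0 ≤ s - x) h1.le]
    · have : (s - ρ) * (s + ρ) = e * y * (2 * x - e * y) := by
        ring_nf
        ring_nf at hρ2
        linarith
      have h2 : s - ρ = e * y * ((2 * x - e * y) / (s + ρ)) := by
        rw [mul_div_assoc', eq_div_iff h0, this]
      linarith
    · rw [div_mul_cancel₀ _ h0]

/-- radius function of the sweep -/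
noncomputable def rad (e t : ℝ) : ℝ := 1 / 2 + (e ^ 2 * (t ^ 2 + t ^ 4) / 4 + 8 * e ^ 3)

/-- comparison of `X²+X⁴` with `t²+t⁴` -/
theorem quartic_compare (e a b : ℝ) (he : 0 < e) (he' : e ≤ 1 / 2000) (ha : 0 ≤ a) (ha1 : a ≤ 1)
    (hb : 0 ≤ b) (hab : b ≤ a + 4 * e) : b ^ 2 + b ^ 4 ≤ a ^ 2 + a ^ 4 + 25 * e := by
  have h1 : b ^ 2 ≤ a ^ 2 + 8.1 * e := by nlinarith
  have h2 : b ^ 4 ≤ (a ^ 2 + 8.1 * e) ^ 2 := by
    have : b ^ 4 = (b ^ 2) ^ 2 := by ring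
    rw [this]
    exact pow_le_pow_left₀ (sq_nonneg b) h1 2
  have h3 : a ^ 2 ≤ 1 := by nlinarith
  nlinarith

/-- key convexity step -/
theorem parabola_contra (A B d : ℝ) (hd : |d| ≤ 1 / 2) (h1 : A < d + d ^ 2) (h2 : B < -d + d ^ 2)
    (h : (A - B) ^ 2 ≤ 2 * (A + B)) : False := by
  obtain ⟨hd1, hd2⟩ := abs_le.1 hd
  nlinarith [mul_nonneg (by linarith : 0 ≤ 1 - 2 * d) (by linarith : 0 ≤ d + d ^ 2 - A),
    mul_nonneg (by linarith : 0 ≤ 1 + 2 * d) (by linarith : 0 ≤ -d + d ^ 2 - B),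
    sq_nonneg (A - B - 2 * d)]

theorem step_low (e s ρ m y : ℝ) (he : 0 < e) (he' : e ≤ 1 / 2000) (hs : 0 ≤ s)
    (hm : |m| ≤ 1 / 4) (hy2 : y ^ 2 ≤ 1) (h3 : ρ ^ 2 = s ^ 2 - 2 * e * m + e ^ 2 * y ^ 2)
    (hρ : 1 / 4 < ρ ^ 2) : 1 / 2 - e ≤ s := by
  obtain ⟨hm1, hm2⟩ := abs_le.1 hm
  by_contra h
  push Not at h
  have h5 : s ^ 2 < (1 / 2 - e) ^ 2 := by nlinarith
  have h6 : e * (-m) ≤ e * (1 / 4) := mul_le_mul_of_nonneg_left (by linarith) he.le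
  have h7 : e ^ 2 * y ^ 2 ≤ e ^ 2 * 1 := mul_le_mul_of_nonneg_left hy2 (sq_nonneg e)
  nlinarith

theorem step_high (e s ρ m y : ℝ) (he : 0 < e) (he' : e ≤ 1 / 2000) (hs : 0 ≤ s)
    (hs1 : s ≤ 1 / 2 + e)
    (hm : |m| ≤ 1 / 4) (hy2 : y ^ 2 ≤ 1) (h3 : ρ ^ 2 = s ^ 2 - 2 * e * m + e ^ 2 * y ^ 2)
     : ρ ≤ 1 / 2 + 2 * e := by
  obtain ⟨hm1, hm2⟩ := abs_le.1 hm
  by_contra h
  push Not at h
  have h5 : (1 / 2 + 2 * e) ^ 2 < ρ ^ 2 := by nlinarith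
  have h6 : e * (-m) ≤ e * (1 / 4) := mul_le_mul_of_nonneg_left (by linarith) he.le
  have h7 : e ^ 2 * y ^ 2 ≤ e ^ 2 * 1 := mul_le_mul_of_nonneg_left hy2 (sq_nonneg e)
  have h8 : s ^ 2 ≤ (1 / 2 + e) ^ 2 := by nlinarith
  nlinarith

theorem step_X (e s ρ x y t : ℝ) (he : 0 < e) (he' : e ≤ 1 / 2000) (hs0 : 0 ≤ s + ρ)
    (hs : s + ρ ≤ 1 + 3 * e) (ht : |t| ≤ 1) (hy : |y| ≤ 1 / 2 + e)
    (h4 : 2 * x = t * (s + ρ) + e * y) : |2 * x| ≤ |t| + 4 * e := by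
  rw [h4]
  have h5 : |t * (s + ρ) + e * y| ≤ |t * (s + ρ)| + |e * y| := abs_add_le _ _
  rw [abs_mul, abs_mul, abs_of_pos he, abs_of_nonneg hs0] at h5
  have h6 : |t| * (s + ρ) ≤ |t| * (1 + 3 * e) := mul_le_mul_of_nonneg_left hs (abs_nonneg t)
  have h7 : |t| * (3 * e) ≤ 1 * (3 * e) := mul_le_mul_of_nonneg_right ht (by positivity)
  have h8 : e * |y| ≤ e * (1 / 2 + e) := mul_le_mul_of_nonneg_left hy he.le
  nlinarith

theorem pow4_abs (z : ℝ) : |z| ^ 4 = z ^ 4 := by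
  rw [show (4 : ℕ) = 2 * 2 by norm_num, pow_mul, sq_abs, ← pow_mul]

theorem step_g (e t x : ℝ) (he : 0 < e) (he' : e ≤ 1 / 2000) (ht : |t| ≤ 1)
    (hX : |2 * x| ≤ |t| + 4 * e) :
    e ^ 2 * ((2 * x) ^ 2 + (2 * x) ^ 4) / 4 + 1.75 * e ^ 3 ≤
      e ^ 2 * (t ^ 2 + t ^ 4) / 4 + 8 * e ^ 3 := by
  have hq := quartic_compare e |t| |2 * x| he he' (abs_nonneg _) ht (abs_nonneg _) hX
  rw [sq_abs, sq_abs, pow4_abs, pow4_abs] at hq
  have := mul_le_mul_of_nonneg_left hq (sq_nonneg e)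
  nlinarith

theorem step_gu (e t : ℝ) (ht : |t| ≤ 1) :
    e ^ 2 * (t ^ 2 + t ^ 4) / 4 + 8 * e ^ 3 ≤ e ^ 2 / 2 + 8 * e ^ 3 := by
  have ht2 : t ^ 2 ≤ 1 := by rw [← sq_abs]; nlinarith [abs_nonneg t]
  have ht4 : t ^ 4 ≤ 1 := by nlinarith [sq_nonneg t]
  have := mul_le_mul_of_nonneg_left (add_le_add ht2 ht4) (sq_nonneg e)
  linarith

theorem step_gl (e t : ℝ) : 8 * e ^ 3 ≤ e ^ 2 * (t ^ 2 + t ^ 4) / 4 + 8 * e ^ 3 := by
  have : 0 ≤ e ^ 2 * (t ^ 2 + t ^ 4) / 4 := by positivity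
  linarith

theorem step_final (e x y g g' : ℝ) (he : 0 < e) (he' : e ≤ 1 / 2000)
    (hm : |x * y| ≤ 1 / 4) (hx2 : x ^ 2 ≤ 0.26) (hy2 : y ^ 2 ≤ 0.26)
    (hg : e ^ 2 * ((2 * x) ^ 2 + (2 * x) ^ 4) / 4 + 1.75 * e ^ 3 ≤ g)
    (hg' : e ^ 2 * ((2 * y) ^ 2 + (2 * y) ^ 4) / 4 + 1.75 * e ^ 3 ≤ g')
    (hgu : g ≤ e ^ 2 / 2 + 8 * e ^ 3) (hgu' : g' ≤ e ^ 2 / 2 + 8 * e ^ 3)
    (hgl : 8 * e ^ 3 ≤ g) (hgl' : 8 * e ^ 3 ≤ g') :
    (g + 2 * e * (x * y) - e ^ 2 * y ^ 2 - (g' - 2 * e * (x * y) - e ^ 2 * x ^ 2)) ^ 2 ≤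
      2 * (g + 2 * e * (x * y) - e ^ 2 * y ^ 2 + (g' - 2 * e * (x * y) - e ^ 2 * x ^ 2)) := by
  obtain ⟨D, hD⟩ : ∃ D, D = (g - g') + e ^ 2 * (x ^ 2 - y ^ 2) := ⟨_, rfl⟩
  have h5 : e ^ 2 * (x ^ 2 - y ^ 2) ≤ e ^ 2 * 0.26 :=
    mul_le_mul_of_nonneg_left (by linarith [sq_nonneg y]) (sq_nonneg e)
  have h6 : e ^ 2 * (y ^ 2 - x ^ 2) ≤ e ^ 2 * 0.26 :=
    mul_le_mul_of_nonneg_left (by linarith [sq_nonneg x]) (sq_nonneg e)
  have hDab : |D| ≤ 0.8 * e ^ 2 := by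
    rw [hD, abs_le]
    constructor <;> linarith [sq_nonneg e]
  have hexp : (g + 2 * e * (x * y) - e ^ 2 * y ^ 2 - (g' - 2 * e * (x * y) - e ^ 2 * x ^ 2)) =
      4 * e * (x * y) + D := by rw [hD]; ring
  rw [hexp]
  have hprod : |4 * e * (x * y) * D| ≤ 0.8 * e ^ 3 := by
    rw [abs_mul, abs_mul, abs_of_pos (by positivity : 0 < 4 * e)]
    calc 4 * e * |x * y| * |D| ≤ 4 * e * (1 / 4) * (0.8 * e ^ 2) := by
          apply mul_le_mul _ hDab (abs_nonneg _) (by positivity)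
          apply mul_le_mul_of_nonneg_left hm (by positivity)
      _ = 0.8 * e ^ 3 := by ring
  have hprod2 := (abs_le.1 hprod).2
  have hD2 : D ^ 2 ≤ (0.8 * e ^ 2) ^ 2 := by
    rw [← sq_abs D]
    exact pow_le_pow_left₀ (abs_nonneg D) hDab 2
  have h3 := pow_pos he 3
  have hD3 : D ^ 2 ≤ e ^ 3 := by
    have : e ^ 4 ≤ e ^ 3 / 2000 := by nlinarith
    nlinarith
  have hxy4 : 2 * (x * y) ^ 2 ≤ x ^ 4 + y ^ 4 := by nlinarith [sq_nonneg (x ^ 2 - y ^ 2)]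
  have h7 := mul_le_mul_of_nonneg_left hxy4 (sq_nonneg e)
  nlinarith

theorem sq_gt_of (g ρ : ℝ) (hg : 0 ≤ g) (h : 1 / 2 + g < ρ) : 1 / 4 + g < ρ ^ 2 := by
  nlinarith

theorem sq_le_of (e z : ℝ) (he : 0 < e) (he' : e ≤ 1 / 2000) (h : |z| ≤ 1 / 2 + e) :
    z ^ 2 ≤ 0.26 := by
  rw [← sq_abs]; nlinarith [abs_nonneg z]

theorem sq_le_one_of (z : ℝ) (h : |z| ≤ 1) : z ^ 2 ≤ 1 := by
  rw [← sq_abs]; nlinarith [abs_nonneg z]

theorem dichotomy (e x y s t ρ t' ρ' : ℝ) (he : 0 < e) (he' : e ≤ 1 / 2000)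
    (hx : |x| ≤ s) (hy : |y| ≤ 1 - s)
    (ht : |t| ≤ 1) (hρ0 : 0 ≤ ρ)
    (h2 : 2 * x - e * y = t * (s + ρ)) (h3 : ρ ^ 2 = s ^ 2 - 2 * e * x * y + e ^ 2 * y ^ 2)
    (ht' : |t'| ≤ 1) (hρ0' : 0 ≤ ρ')
    (h2' : 2 * y + e * x = t' * ((1 - s) + ρ'))
    (h3' : ρ' ^ 2 = (1 - s) ^ 2 + 2 * e * x * y + e ^ 2 * x ^ 2) :
    ρ ≤ rad e t ∨ ρ' ≤ rad e t' := by
  by_contra hcon
  push Not at hcon
  obtain ⟨hc, hc'⟩ := hcon
  unfold rad at hc hc'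
  have hgl := step_gl e t
  have hgl' := step_gl e t'
  have hgu := step_gu e t ht
  have hgu' := step_gu e t' ht'
  have hgX := step_g e t x he he' ht
  have hgY := step_g e t' y he he' ht'
  generalize e ^ 2 * (t ^ 2 + t ^ 4) / 4 + 8 * e ^ 3 = g at *
  generalize e ^ 2 * (t' ^ 2 + t' ^ 4) / 4 + 8 * e ^ 3 = g' at *
  have he3 := pow_pos he 3
  have hax := abs_nonneg x
  have hay := abs_nonneg y
  have hs0 : 0 ≤ s := hax.trans hx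
  have hs1 : 0 ≤ 1 - s := hay.trans hy
  have hxy : |x| * |y| ≤ 1 / 4 := by
    have : |x| * |y| ≤ s * (1 - s) := mul_le_mul hx hy hay hs0
    nlinarith [sq_nonneg (s - 1 / 2)]
  have hxy2 : |x * y| ≤ 1 / 4 := by rw [abs_mul]; exact hxy
  have hxy3 : |-(x * y)| ≤ 1 / 4 := by rw [abs_neg]; exact hxy2
  have hx2 : x ^ 2 ≤ 1 := sq_le_one_of x (by linarith)
  have hy2 : y ^ 2 ≤ 1 := sq_le_one_of y (by linarith)
  have hr2 : 1 / 4 + g < ρ ^ 2 := sq_gt_of g ρ (by linarith) hc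
  have hr2' : 1 / 4 + g' < ρ' ^ 2 := sq_gt_of g' ρ' (by linarith) hc'
  have hslow : 1 / 2 - e ≤ s :=
    step_low e s ρ (x * y) y he he' hs0 hxy2 hy2 (by rw [h3]; ring) (by linarith)
  have hshigh : 1 / 2 - e ≤ 1 - s :=
    step_low e (1 - s) ρ' (-(x * y)) x he he' hs1 hxy3 hx2 (by rw [h3']; ring) (by linarith)
  have hxs : |x| ≤ 1 / 2 + e := by linarith
  have hys : |y| ≤ 1 / 2 + e := by linarith
  have hx2' : x ^ 2 ≤ 0.26 := sq_le_of e x he he' hxs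
  have hy2' : y ^ 2 ≤ 0.26 := sq_le_of e y he he' hys
  have hρup : ρ ≤ 1 / 2 + 2 * e :=
    step_high e s ρ (x * y) y he he' hs0 (by linarith) hxy2 hy2 (by rw [h3]; ring)
  have hρup' : ρ' ≤ 1 / 2 + 2 * e :=
    step_high e (1 - s) ρ' (-(x * y)) x he he' hs1 (by linarith) hxy3 hx2 (by rw [h3']; ring)
  have hX : |2 * x| ≤ |t| + 4 * e :=
    step_X e s ρ x y t he he' (by linarith) (by linarith) ht hys (by linarith)
  have hY : |2 * y| ≤ |t'| + 4 * e :=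
    step_X e (1 - s) ρ' y (-x) t' he he' (by linarith) (by linarith) ht'
      (by rw [abs_neg]; exact hxs) (by linarith)
  refine parabola_contra (g + 2 * e * (x * y) - e ^ 2 * y ^ 2) (g' - 2 * e * (x * y) - e ^ 2 * x ^ 2)
    (s - 1 / 2) (abs_le.2 ⟨by linarith, by linarith⟩) ?_ ?_
    (step_final e x y g g' he he' hxy2 hx2' hy2' (hgX hX) (hgY hY) hgu hgu' hgl hgl')
  · have : s ^ 2 = ρ ^ 2 + 2 * e * (x * y) - e ^ 2 * y ^ 2 := by rw [h3]; ring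
    have h9 : s - 1 / 2 + (s - 1 / 2) ^ 2 = s ^ 2 - 1 / 4 := by ring
    rw [h9, this]
    linarith
  · have : (1 - s) ^ 2 = ρ' ^ 2 - 2 * e * (x * y) - e ^ 2 * x ^ 2 := by rw [h3']; ring
    have h9 : -(s - 1 / 2) + (s - 1 / 2) ^ 2 = (1 - s) ^ 2 - 1 / 4 := by ring
    rw [h9, this]
    linarith


/-- height of the (oblique) triangle of the cylinder with tag `c` (cell half-width `e²`). -/
noncomputable def WW (e c : ℝ) : ℝ := 1 / 2 + e ^ 2 * (c ^ 2 + c ^ 4) / 4 + 11 * e ^ 3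

/-- membership in the cylinder with tag `c`, in coordinates -/
def InCyl (e c x y s : ℝ) : Prop :=
  |x - y * e * (c ^ 2 + 1) / 2 - c * (s - e * c * y)| ≤ e ^ 2 * (s - e * c * y + 3 / 2 * e ^ 3) ∧
    s - e * c * y + 3 / 2 * e ^ 3 ≤ WW e c

theorem rad_le (e t c : ℝ) (he : 0 < e) (he' : e ≤ 1 / 2000) (ht : |t| ≤ 1)
    (hc : |c| ≤ 1) (htc : |t - c| ≤ e ^ 2) :
    rad e t + 5 / 2 * e ^ 3 ≤ WW e c := by
  unfold rad WW
  have h1 : t ^ 2 ≤ c ^ 2 + 2 * e ^ 2 := by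
    have : t ^ 2 - c ^ 2 = (t - c) * (t + c) := by ring
    have h2 : |(t - c) * (t + c)| ≤ e ^ 2 * 2 := by
      rw [abs_mul]
      apply mul_le_mul htc _ (abs_nonneg _) (sq_nonneg e)
      calc |t + c| ≤ |t| + |c| := abs_add_le _ _
        _ ≤ 2 := by linarith
    have h3 := (abs_le.1 h2).2
    linarith
  have hc2 : c ^ 2 ≤ 1 := by rw [← sq_abs]; nlinarith [abs_nonneg c]
  have h4 : t ^ 4 ≤ (c ^ 2 + 2 * e ^ 2) ^ 2 := by
    have : t ^ 4 = (t ^ 2) ^ 2 := by ring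
    rw [this]
    exact pow_le_pow_left₀ (sq_nonneg t) h1 2
  have h5 : t ^ 4 ≤ c ^ 4 + 5 * e ^ 2 := by
    have h6 : e ^ 2 * c ^ 2 ≤ e ^ 2 * 1 := mul_le_mul_of_nonneg_left hc2 (sq_nonneg e)
    have h7 : e ^ 2 ≤ 1 / 4 := by nlinarith
    nlinarith [sq_nonneg e]
  have h8 : e ^ 2 * (t ^ 2 + t ^ 4) ≤ e ^ 2 * (c ^ 2 + c ^ 4 + 7 * e ^ 2) :=
    mul_le_mul_of_nonneg_left (by linarith) (sq_nonneg e)
  have h9 : e ^ 4 ≤ e ^ 3 / 2000 := by nlinarith [pow_pos he 3]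
  nlinarith [pow_pos he 3]

theorem in_cell (e x y s t ρ c : ℝ) (he : 0 < e) (he' : e ≤ 1 / 2000) (ht : |t| ≤ 1)
    (hc : |c| ≤ 1) (htc : |t - c| ≤ e ^ 2) (hρ : 0 ≤ ρ) (hy : |y| ≤ 1)
    (hs : s = ρ + e * y * t) (hx : x = ρ * t + e * y * (t ^ 2 + 1) / 2)
    (hr : ρ ≤ rad e t) : InCyl e c x y s := by
  have hW := rad_le e t c he he' ht hc htc
  have h3 := pow_pos he 3
  -- |e y (t - c)| ≤ e^3
  have hb : |e * y * (t - c)| ≤ e ^ 3 := by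
    rw [abs_mul, abs_mul, abs_of_pos he]
    calc e * |y| * |t - c| ≤ e * 1 * e ^ 2 :=
          mul_le_mul (mul_le_mul_of_nonneg_left hy he.le) htc (abs_nonneg _) (by positivity)
      _ = e ^ 3 := by ring
  obtain ⟨hb1, hb2⟩ := abs_le.1 hb
  have hxi : s - e * c * y = ρ + e * y * (t - c) := by rw [hs]; ring
  have hzeta : x - y * e * (c ^ 2 + 1) / 2 - c * (s - e * c * y) =
      (t - c) * (ρ + e * y * (t - c) / 2) := by rw [hxi, hx]; ring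
  unfold InCyl
  rw [hzeta, hxi]
  refine ⟨?_, by linarith⟩
  rw [abs_mul]
  apply mul_le_mul htc _ (abs_nonneg _) (sq_nonneg e)
  rw [abs_le]
  constructor <;> linarith

/-- tags -/
noncomputable def tag (d : ℝ) (i : ℕ) : ℝ := -1 + (2 * (i : ℝ) + 1) * d

theorem exists_tag (N : ℕ) (d t : ℝ) (hd : 0 < d) (hN : (N : ℝ) * d = 1) (ht : |t| ≤ 1) :
    ∃ i < N, |t - tag d i| ≤ d := by
  obtain ⟨ht1, ht2⟩ := abs_le.1 ht
  have hN0 : 0 < N := by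
    rcases Nat.eq_zero_or_pos N with h | h
    · rw [h] at hN; simp at hN
    · exact h
  set k := ⌊(t + 1) / (2 * d)⌋₊ with hk
  have hnn : 0 ≤ (t + 1) / (2 * d) := div_nonneg (by linarith) (by linarith)
  have h1 : (k : ℝ) ≤ (t + 1) / (2 * d) := Nat.floor_le hnn
  have h2 : (t + 1) / (2 * d) < k + 1 := Nat.lt_floor_add_one _
  rw [le_div_iff₀ (by linarith)] at h1
  rw [div_lt_iff₀ (by linarith)] at h2
  by_cases hkN : k < N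
  · refine ⟨k, hkN, ?_⟩
    unfold tag
    rw [abs_le]
    constructor <;> nlinarith
  · push Not at hkN
    refine ⟨N - 1, by omega, ?_⟩
    have h3 : ((N - 1 : ℕ) : ℝ) = N - 1 := by
      rw [Nat.cast_sub hN0]; simp
    have h4 : (N : ℝ) ≤ k := by exact_mod_cast hkN
    have h5 : (N : ℝ) * (2 * d) ≤ k * (2 * d) := mul_le_mul_of_nonneg_right h4 (by linarith)
    unfold tag
    rw [h3, abs_le]
    constructor <;> nlinarith

theorem tag_abs (N : ℕ) (d : ℝ) (hd : 0 < d) (hN : (N : ℝ) * d = 1) (i : ℕ) (hi : i < N) :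
    |tag d i| ≤ 1 := by
  have h1 : (i : ℝ) + 1 ≤ N := by exact_mod_cast hi
  have h2 : ((i : ℝ) + 1) * d ≤ N * d := mul_le_mul_of_nonneg_right h1 hd.le
  have h3 : 0 ≤ (i : ℝ) * d := by positivity
  unfold tag
  rw [abs_le]
  constructor <;> nlinarith


/-- squared norm of the direction of the cylinder with tag `c` -/
noncomputable def nD (e c : ℝ) : ℝ := 1 + e ^ 2 * ((c ^ 2 + 1) ^ 2 / 4 + 2 * c ^ 2)

noncomputable def Phi (e t : ℝ) : ℝ :=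
  t / 4 + e ^ 2 * (7 * t ^ 5 / 160 - t ^ 3 / 48 - t / 32) + 11.5 * e ^ 3 * t

theorem cell_poly (e v : ℝ) (he : 0 < e) (he' : e ≤ 1 / 2000) (hv0 : 0 ≤ v) (hv1 : v ≤ 1) :
    (1 / 2 + e ^ 2 * (v + v ^ 2) / 4 + 11 * e ^ 3) ^ 2 ≤
      (1 / 4 + e ^ 2 * (7 * v ^ 2 / 32 - v / 16 - 1 / 32) + 11.4 * e ^ 3) *
        (1 + e ^ 2 * ((v + 1) ^ 2 / 4 + 2 * v) / 2 - (e ^ 2 * ((v + 1) ^ 2 / 4 + 2 * v)) ^ 2 / 8) := by
  have h3 := pow_pos he 3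
  have h2 := pow_pos he 2
  have h4 : e ^ 4 ≤ e ^ 3 / 2000 := by nlinarith
  have h4' : 0 ≤ e ^ 4 := by positivity
  have hv2 : v ^ 2 ≤ 1 := by nlinarith
  obtain ⟨a, ha⟩ : ∃ a, a = e ^ 2 * (v + v ^ 2) / 4 + 11 * e ^ 3 := ⟨_, rfl⟩
  obtain ⟨q, hq⟩ : ∃ q, q = e ^ 2 * ((v + 1) ^ 2 / 4 + 2 * v) := ⟨_, rfl⟩
  obtain ⟨F, hF⟩ : ∃ F, F = 1 / 4 + e ^ 2 * (7 * v ^ 2 / 32 - v / 16 - 1 / 32) + 11.4 * e ^ 3 :=
    ⟨_, rfl⟩
  rw [← hq, ← hF]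
  have hW : 1 / 2 + e ^ 2 * (v + v ^ 2) / 4 + 11 * e ^ 3 = 1 / 2 + a := by rw [ha]; ring
  rw [hW]
  have ha0 : 0 ≤ a := by rw [ha]; positivity
  have ha1 : a ≤ 0.51 * e ^ 2 := by
    rw [ha]
    have : e ^ 2 * (v + v ^ 2) ≤ e ^ 2 * 2 := mul_le_mul_of_nonneg_left (by linarith) h2.le
    nlinarith
  have ha2 : a ^ 2 ≤ 0.001 * e ^ 3 := by
    have : a ^ 2 ≤ (0.51 * e ^ 2) ^ 2 := pow_le_pow_left₀ ha0 ha1 2
    nlinarith
  have hq0 : 0 ≤ q := by rw [hq]; positivity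
  have hq1 : q ≤ 3 * e ^ 2 := by
    rw [hq]
    have : e ^ 2 * ((v + 1) ^ 2 / 4 + 2 * v) ≤ e ^ 2 * 3 :=
      mul_le_mul_of_nonneg_left (by nlinarith) h2.le
    linarith
  have hF0 : 1 / 4 - 0.1 * e ^ 2 ≤ F := by
    rw [hF]
    have : e ^ 2 * (-0.1) ≤ e ^ 2 * (7 * v ^ 2 / 32 - v / 16 - 1 / 32) :=
      mul_le_mul_of_nonneg_left (by nlinarith) h2.le
    nlinarith
  have hF1 : F ≤ 0.3 := by
    rw [hF]
    have : e ^ 2 * (7 * v ^ 2 / 32 - v / 16 - 1 / 32) ≤ e ^ 2 * 1 :=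
      mul_le_mul_of_nonneg_left (by nlinarith) h2.le
    nlinarith
  have hFq : q / 8 - 0.15 * e ^ 4 ≤ F * q / 2 := by
    have : (1 / 4 - 0.1 * e ^ 2) * q ≤ F * q := mul_le_mul_of_nonneg_right hF0 hq0
    have h5 : e ^ 2 * q ≤ e ^ 2 * (3 * e ^ 2) := mul_le_mul_of_nonneg_left hq1 h2.le
    nlinarith
  have hFq2 : F * q ^ 2 / 8 ≤ 0.34 * e ^ 4 := by
    have h5 : q ^ 2 ≤ (3 * e ^ 2) ^ 2 := pow_le_pow_left₀ hq0 hq1 2
    have h6 : F * q ^ 2 ≤ 0.3 * (3 * e ^ 2) ^ 2 :=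
      mul_le_mul hF1 h5 (sq_nonneg q) (by norm_num)
    nlinarith
  have hsum : F + q / 8 = 1 / 4 + e ^ 2 * (v + v ^ 2) / 4 + 11.4 * e ^ 3 := by
    rw [hF, hq]; ring
  have hexp : F * (1 + q / 2 - q ^ 2 / 8) = F + F * q / 2 - F * q ^ 2 / 8 := by ring
  rw [hexp]
  have : (1 / 2 + a) ^ 2 = 1 / 4 + a + a ^ 2 := by ring
  rw [this, ha]
  rw [ha] at ha2
  nlinarith

theorem sqrt_lower (q : ℝ) (hq0 : 0 ≤ q) (hq1 : q ≤ 1) : 1 + q / 2 - q ^ 2 / 8 ≤ Real.sqrt (1 + q) := by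
  apply Real.le_sqrt_of_sq_le
  have h1 : (1 + q / 2 - q ^ 2 / 8) ^ 2 = 1 + q - q ^ 3 / 8 * (1 - q / 8) := by ring
  rw [h1]
  have h2 : 0 ≤ q ^ 3 / 8 * (1 - q / 8) := mul_nonneg (by positivity) (by linarith)
  linarith

theorem cell_bound (e c : ℝ) (he : 0 < e) (he' : e ≤ 1 / 2000) (hc : |c| ≤ 1) :
    2 * e ^ 2 * WW e c ^ 2 / Real.sqrt (nD e c) ≤ Phi e (c + e ^ 2) - Phi e (c - e ^ 2) := by
  have hc2 : c ^ 2 ≤ 1 := by rw [← sq_abs]; nlinarith [abs_nonneg c]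
  have h3 := pow_pos he 3
  have h2 := pow_pos he 2
  have hq0 : 0 ≤ e ^ 2 * ((c ^ 2 + 1) ^ 2 / 4 + 2 * c ^ 2) := by positivity
  have hq1 : e ^ 2 * ((c ^ 2 + 1) ^ 2 / 4 + 2 * c ^ 2) ≤ 1 := by
    have : e ^ 2 * ((c ^ 2 + 1) ^ 2 / 4 + 2 * c ^ 2) ≤ e ^ 2 * 3 :=
      mul_le_mul_of_nonneg_left (by nlinarith [sq_nonneg c]) h2.le
    nlinarith
  have hsq := sqrt_lower _ hq0 hq1
  have hpos : 0 < Real.sqrt (nD e c) := by
    apply Real.sqrt_pos.2; unfold nD; linarith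
  rw [div_le_iff₀ hpos]
  have hp := cell_poly e (c ^ 2) he he' (sq_nonneg c) hc2
  have hW : WW e c = 1 / 2 + e ^ 2 * (c ^ 2 + (c ^ 2) ^ 2) / 4 + 11 * e ^ 3 := by
    unfold WW; ring
  rw [hW]
  set F := 1 / 4 + e ^ 2 * (7 * (c ^ 2) ^ 2 / 32 - c ^ 2 / 16 - 1 / 32) + 11.4 * e ^ 3 with hF
  have hF0 : 0 ≤ F := by
    rw [hF]
    have : e ^ 2 * (-0.1) ≤ e ^ 2 * (7 * (c ^ 2) ^ 2 / 32 - c ^ 2 / 16 - 1 / 32) :=
      mul_le_mul_of_nonneg_left (by nlinarith [sq_nonneg (c ^ 2)]) h2.le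
    nlinarith
  have h5 : F * (1 + e ^ 2 * ((c ^ 2 + 1) ^ 2 / 4 + 2 * c ^ 2) / 2 -
      (e ^ 2 * ((c ^ 2 + 1) ^ 2 / 4 + 2 * c ^ 2)) ^ 2 / 8) ≤ F * Real.sqrt (nD e c) :=
    mul_le_mul_of_nonneg_left hsq hF0
  have h6 : 2 * e ^ 2 * F ≤ Phi e (c + e ^ 2) - Phi e (c - e ^ 2) := by
    rw [hF]; unfold Phi
    have h7 : (c + e ^ 2) ^ 5 - (c - e ^ 2) ^ 5 = 10 * c ^ 4 * e ^ 2 + 20 * c ^ 2 * e ^ 6 + 2 * e ^ 10 := by
      ring
    have h8 : (c + e ^ 2) ^ 3 - (c - e ^ 2) ^ 3 = 6 * c ^ 2 * e ^ 2 + 2 * e ^ 6 := by ring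
    have h9 : (c + e ^ 2) / 4 + e ^ 2 * (7 * (c + e ^ 2) ^ 5 / 160 - (c + e ^ 2) ^ 3 / 48 - (c + e ^ 2) / 32) +
          11.5 * e ^ 3 * (c + e ^ 2) -
        ((c - e ^ 2) / 4 + e ^ 2 * (7 * (c - e ^ 2) ^ 5 / 160 - (c - e ^ 2) ^ 3 / 48 - (c - e ^ 2) / 32) +
          11.5 * e ^ 3 * (c - e ^ 2)) =
        e ^ 2 / 2 + e ^ 2 * (7 * ((c + e ^ 2) ^ 5 - (c - e ^ 2) ^ 5) / 160 -
          ((c + e ^ 2) ^ 3 - (c - e ^ 2) ^ 3) / 48 - e ^ 2 / 16) + 23 * e ^ 5 := by ring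
    rw [h9, h7, h8]
    have h10 : e ^ 8 ≤ e ^ 5 := pow_le_pow_of_le_one he.le (by linarith) (by norm_num)
    have h11 : 0 ≤ e ^ 5 := by positivity
    have h12 : 0 ≤ e ^ 8 * c ^ 2 := by positivity
    have h13 : 0 ≤ e ^ 12 := by positivity
    nlinarith
  calc 2 * e ^ 2 * (1 / 2 + e ^ 2 * (c ^ 2 + (c ^ 2) ^ 2) / 4 + 11 * e ^ 3) ^ 2
      ≤ 2 * e ^ 2 * (F * Real.sqrt (nD e c)) :=
        mul_le_mul_of_nonneg_left (hp.trans h5) (by positivity)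
    _ = 2 * e ^ 2 * F * Real.sqrt (nD e c) := by ring
    _ ≤ (Phi e (c + e ^ 2) - Phi e (c - e ^ 2)) * Real.sqrt (nD e c) :=
        mul_le_mul_of_nonneg_right h6 hpos.le

theorem sum_bound (e : ℝ) (N : ℕ) (he : 0 < e) (he' : e ≤ 1 / 2000) (hN : (N : ℝ) * e ^ 2 = 1) :
    ∑ i ∈ Finset.range N, 2 * e ^ 2 * WW e (tag (e ^ 2) i) ^ 2 / Real.sqrt (nD e (tag (e ^ 2) i)) ≤
      1 / 2 - e ^ 2 / 60 + 23 * e ^ 3 := by
  have h1 : ∀ i ∈ Finset.range N,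
      2 * e ^ 2 * WW e (tag (e ^ 2) i) ^ 2 / Real.sqrt (nD e (tag (e ^ 2) i)) ≤
        Phi e (-1 + 2 * ((i + 1 : ℕ) : ℝ) * e ^ 2) - Phi e (-1 + 2 * (i : ℝ) * e ^ 2) := by
    intro i hi
    have hi' := Finset.mem_range.1 hi
    have habs : |tag (e ^ 2) i| ≤ 1 := by
      have h1 : (i : ℝ) + 1 ≤ N := by exact_mod_cast hi'
      have h2 : ((i : ℝ) + 1) * e ^ 2 ≤ N * e ^ 2 := mul_le_mul_of_nonneg_right h1 (sq_nonneg e)
      have h3 : 0 ≤ (i : ℝ) * e ^ 2 := by positivity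
      have h4 := pow_pos he 2
      unfold tag
      rw [abs_le]
      constructor <;> nlinarith
    have := cell_bound e (tag (e ^ 2) i) he he' habs
    have e1 : tag (e ^ 2) i + e ^ 2 = -1 + 2 * ((i + 1 : ℕ) : ℝ) * e ^ 2 := by
      unfold tag; push_cast; ring
    have e2 : tag (e ^ 2) i - e ^ 2 = -1 + 2 * (i : ℝ) * e ^ 2 := by
      unfold tag; ring
    rw [e1, e2] at this
    exact this
  refine (Finset.sum_le_sum h1).trans ?_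
  rw [Finset.sum_range_sub (fun i : ℕ => Phi e (-1 + 2 * (i : ℝ) * e ^ 2))]
  have e3 : -1 + 2 * (N : ℝ) * e ^ 2 = 1 := by linarith
  have e4 : -1 + 2 * ((0 : ℕ) : ℝ) * e ^ 2 = -1 := by simp
  rw [e3, e4]
  unfold Phi
  nlinarith

abbrev E3 := EuclideanSpace ℝ (Fin 3)

/-- A frame: origin `p₀`, axis `f`, depth vector `a`, lateral vector `b`. -/
structure Frame where
  p0 : E3
  f : E3
  a : E3
  b : E3
  hf : ‖f‖ = 1
  haf : inner ℝ a f = 0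
  hbf : inner ℝ b f = 0
  hab : inner ℝ a b = 0
  ha : ‖a‖ ^ 2 = 2
  hb : ‖b‖ ^ 2 = 1

namespace Frame

variable (F : Frame)

/-- axis direction with tag `c` -/
noncomputable def D (e c : ℝ) : E3 := F.f + ((e * c) • F.a + (e * (c ^ 2 + 1) / 2) • F.b)

noncomputable def P0 (e c : ℝ) : E3 := F.p0 + (-(3 / 2 * e ^ 3)) • F.a + (-(3 / 2 * e ^ 3) * c) • F.b
noncomputable def P1 (e c : ℝ) : E3 := F.P0 e c + WW e c • (F.a + (c + e ^ 2) • F.b)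
noncomputable def P2 (e c : ℝ) : E3 := F.P0 e c + WW e c • (F.a + (c - e ^ 2) • F.b)

theorem normD_sq (e c : ℝ) : ‖F.D e c‖ ^ 2 = nD e c := by
  have hfa : inner ℝ F.f F.a = 0 := by rw [real_inner_comm]; exact F.haf
  have hfb : inner ℝ F.f F.b = 0 := by rw [real_inner_comm]; exact F.hbf
  have hba : inner ℝ F.b F.a = 0 := by rw [real_inner_comm]; exact F.hab
  have hff : inner ℝ F.f F.f = (1 : ℝ) := by rw [real_inner_self_eq_norm_sq, F.hf]; norm_num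
  have haa : inner ℝ F.a F.a = (2 : ℝ) := by rw [real_inner_self_eq_norm_sq, F.ha]
  have hbb : inner ℝ F.b F.b = (1 : ℝ) := by rw [real_inner_self_eq_norm_sq, F.hb]
  rw [← real_inner_self_eq_norm_sq]
  unfold D nD
  simp only [inner_add_left, inner_add_right, real_inner_smul_left, real_inner_smul_right, hfa, hfb,
    hba, hff, haa, hbb, F.haf, F.hbf, F.hab]
  ring

theorem D_ne (e c : ℝ) : F.D e c ≠ 0 := by
  intro h
  have := F.normD_sq e c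
  rw [h] at this
  simp at this
  unfold nD at this
  have h2 : 0 ≤ e ^ 2 * ((c ^ 2 + 1) ^ 2 / 4 + 2 * c ^ 2) := by positivity
  linarith

theorem normD (e c : ℝ) : ‖F.D e c‖ = Real.sqrt (nD e c) := by
  rw [← F.normD_sq, Real.sqrt_sq (norm_nonneg _)]

theorem area_eq (e c : ℝ) (he : 0 < e) :
    (μHE[2] (convexHull ℝ ({pr (F.D e c) (F.P0 e c), pr (F.D e c) (F.P1 e c),
      pr (F.D e c) (F.P2 e c)} : Set E3))).toReal =
      Real.sqrt 2 * (e ^ 2 * WW e c ^ 2 / Real.sqrt (nD e c)) := by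
  rw [area_triangle_toReal, ← pr_sub, ← pr_sub]
  have h1 : F.P1 e c - F.P0 e c = WW e c • F.a + (WW e c * (c + e ^ 2)) • F.b := by
    unfold P1; rw [add_sub_cancel_left, smul_add, smul_smul]
  have h2 : F.P2 e c - F.P0 e c = WW e c • F.a + (WW e c * (c - e ^ 2)) • F.b := by
    unfold P2; rw [add_sub_cancel_left, smul_add, smul_smul]
  rw [h1, h2, pr_add, pr_add, pr_smul, pr_smul, pr_smul, gramArea_comb]
  have h3 := gramArea_pr F.f F.a F.b (e * c) (e * (c ^ 2 + 1) / 2) F.hf F.haf F.hbf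
  have h4 : gramArea F.a F.b = Real.sqrt 2 := by
    unfold gramArea; rw [F.ha, F.hb, F.hab]; norm_num
  rw [h4] at h3
  change gramArea (pr (F.D e c) F.a) (pr (F.D e c) F.b) = Real.sqrt 2 / ‖F.D e c‖ at h3
  rw [h3, F.normD]
  have h5 : |WW e c * (WW e c * (c - e ^ 2)) - WW e c * (c + e ^ 2) * WW e c| =
      2 * e ^ 2 * WW e c ^ 2 := by
    have : WW e c * (WW e c * (c - e ^ 2)) - WW e c * (c + e ^ 2) * WW e c =
      - (2 * e ^ 2 * WW e c ^ 2) := by ring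
    rw [this, abs_neg, abs_of_nonneg (by positivity)]
  rw [h5]
  ring

theorem mem_of_inCyl (e c x y s : ℝ) (he : 0 < e) (h : InCyl e c x y s) :
    ∃ b ∈ convexHull ℝ ({pr (F.D e c) (F.P0 e c), pr (F.D e c) (F.P1 e c),
      pr (F.D e c) (F.P2 e c)} : Set E3), ∃ t : ℝ,
      F.p0 + s • F.a + x • F.b + y • F.f = b + t • (‖F.D e c‖⁻¹ • F.D e c) := by
  apply mem_cyl_unit (F.D_ne e c) y
  obtain ⟨h1, h2⟩ := h
  rw [mem_convexHull_triple]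
  set W := WW e c with hW
  set ξ := s - e * c * y with hξ
  set ζ := x - y * e * (c ^ 2 + 1) / 2 - c * ξ with hζ
  have he2 := pow_pos he 2
  have he3 := pow_pos he 3
  have hWpos : 0 < W := by
    rw [hW]; unfold WW; positivity
  have hk : 0 ≤ ξ + 3 / 2 * e ^ 3 := by
    by_contra hneg
    push Not at hneg
    have : e ^ 2 * (ξ + 3 / 2 * e ^ 3) < 0 := mul_neg_of_pos_of_neg he2 hneg
    linarith [abs_nonneg ζ]
  obtain ⟨h3, h4⟩ := abs_le.1 h1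
  refine ⟨((ξ + 3 / 2 * e ^ 3) + ζ / e ^ 2) / (2 * W), ((ξ + 3 / 2 * e ^ 3) - ζ / e ^ 2) / (2 * W),
    ?_, ?_, ?_, ?_⟩
  · apply div_nonneg _ (by positivity)
    have : -(ξ + 3 / 2 * e ^ 3) ≤ ζ / e ^ 2 := by
      rw [le_div_iff₀ he2]; linarith
    linarith
  · apply div_nonneg _ (by positivity)
    have : ζ / e ^ 2 ≤ ξ + 3 / 2 * e ^ 3 := by
      rw [div_le_iff₀ he2]; linarith
    linarith
  · have : ((ξ + 3 / 2 * e ^ 3) + ζ / e ^ 2) / (2 * W) + ((ξ + 3 / 2 * e ^ 3) - ζ / e ^ 2) / (2 * W) =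
      (ξ + 3 / 2 * e ^ 3) / W := by field_simp; ring
    rw [this, div_le_one hWpos]
    exact h2
  · have h5 : F.P1 e c - F.P0 e c = W • (F.a + (c + e ^ 2) • F.b) := by
      unfold P1; rw [add_sub_cancel_left]
    have h6 : F.P2 e c - F.P0 e c = W • (F.a + (c - e ^ 2) • F.b) := by
      unfold P2; rw [add_sub_cancel_left]
    rw [h5, h6]
    have hWne : W ≠ 0 := hWpos.ne'
    have hene : e ^ 2 ≠ 0 := he2.ne'
    have ha : s - y * (e * c) = -(3 / 2 * e ^ 3) + ((ξ + 3 / 2 * e ^ 3) + ζ / e ^ 2) / (2 * W) * W +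
        ((ξ + 3 / 2 * e ^ 3) - ζ / e ^ 2) / (2 * W) * W := by
      field_simp
      rw [hξ]; ring
    have hb : x - y * (e * (c ^ 2 + 1) / 2) = -(3 / 2 * e ^ 3) * c +
        ((ξ + 3 / 2 * e ^ 3) + ζ / e ^ 2) / (2 * W) * (W * (c + e ^ 2)) +
        ((ξ + 3 / 2 * e ^ 3) - ζ / e ^ 2) / (2 * W) * (W * (c - e ^ 2)) := by
      have : x - y * (e * (c ^ 2 + 1) / 2) = ζ + c * ξ := by rw [hζ]; ring
      rw [this]
      field_simp
      ring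
    have hlhs : F.p0 + s • F.a + x • F.b + y • F.f - y • F.D e c =
        F.p0 + (s - y * (e * c)) • F.a + (x - y * (e * (c ^ 2 + 1) / 2)) • F.b := by
      unfold D
      module
    rw [hlhs, ha, hb]
    unfold P0
    module

end Frame

end Crest.Agent.S0325
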