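import Crest.Agent.S0325_Cover

/-! Cover of the standard regular tetrahedron (continued): frames and the core cover theorem. -/
set_option autoImplicit false
open MeasureTheory Measure
open Crest.Agent.LibArea2

namespace Crest.Agent.S0325

/-- standard regular tetrahedron -/
noncomputable def tetra : Set E3 :=
  convexHull ℝ {!₂[1, 0, 0], !₂[-1, 0, 0], !₂[0, 1, Real.sqrt 2], !₂[0, -1, Real.sqrt 2]}

theorem sqrt2_pos : 0 < Real.sqrt 2 := Real.sqrt_pos.2 (by norm_num)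
theorem sqrt2_sq : Real.sqrt 2 ^ 2 = 2 := Real.sq_sqrt (by norm_num)

/-- upper frame -/
noncomputable def Fup : Frame where
  p0 := !₂[0, 0, Real.sqrt 2]
  f := !₂[0, 1, 0]
  a := !₂[0, 0, -Real.sqrt 2]
  b := !₂[1, 0, 0]
  hf := by simp [EuclideanSpace.norm_eq, Fin.sum_univ_three]
  haf := by simp [PiLp.inner_apply, Fin.sum_univ_three]
  hbf := by simp [PiLp.inner_apply, Fin.sum_univ_three]
  hab := by simp [PiLp.inner_apply, Fin.sum_univ_three]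
  ha := by simp [EuclideanSpace.norm_sq_eq, Fin.sum_univ_three]
  hb := by simp [EuclideanSpace.norm_sq_eq, Fin.sum_univ_three]

/-- lower frame -/
noncomputable def Flo : Frame where
  p0 := !₂[0, 0, 0]
  f := !₂[-1, 0, 0]
  a := !₂[0, 0, Real.sqrt 2]
  b := !₂[0, 1, 0]
  hf := by simp [EuclideanSpace.norm_eq, Fin.sum_univ_three]
  haf := by simp [PiLp.inner_apply, Fin.sum_univ_three]
  hbf := by simp [PiLp.inner_apply, Fin.sum_univ_three]
  hab := by simp [PiLp.inner_apply, Fin.sum_univ_three]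
  ha := by simp [EuclideanSpace.norm_sq_eq, Fin.sum_univ_three]
  hb := by simp [EuclideanSpace.norm_sq_eq, Fin.sum_univ_three]

/-- the tetrahedron satisfies its four face inequalities -/
theorem tetra_ineq {z : E3} (hz : z ∈ tetra) :
    |z 0| ≤ 1 - z 2 / Real.sqrt 2 ∧ |z 1| ≤ z 2 / Real.sqrt 2 := by
  have h2 := sqrt2_pos
  have hconv : Convex ℝ {z : E3 | |z 0| ≤ 1 - z 2 / Real.sqrt 2 ∧ |z 1| ≤ z 2 / Real.sqrt 2} := by
    intro x hx y hy α β hα hβ hαβ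
    obtain ⟨hx1, hx2⟩ := hx
    obtain ⟨hy1, hy2⟩ := hy
    constructor
    · simp only [PiLp.add_apply, PiLp.smul_apply, smul_eq_mul]
      calc |α * x 0 + β * y 0| ≤ |α * x 0| + |β * y 0| := abs_add_le _ _
        _ = α * |x 0| + β * |y 0| := by rw [abs_mul, abs_mul, abs_of_nonneg hα, abs_of_nonneg hβ]
        _ ≤ α * (1 - x 2 / Real.sqrt 2) + β * (1 - y 2 / Real.sqrt 2) :=
            add_le_add (mul_le_mul_of_nonneg_left hx1 hα) (mul_le_mul_of_nonneg_left hy1 hβ)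
        _ = (α + β) - (α * x 2 + β * y 2) / Real.sqrt 2 := by ring
        _ = 1 - (α * x 2 + β * y 2) / Real.sqrt 2 := by rw [hαβ]
    · simp only [PiLp.add_apply, PiLp.smul_apply, smul_eq_mul]
      calc |α * x 1 + β * y 1| ≤ |α * x 1| + |β * y 1| := abs_add_le _ _
        _ = α * |x 1| + β * |y 1| := by rw [abs_mul, abs_mul, abs_of_nonneg hα, abs_of_nonneg hβ]
        _ ≤ α * (x 2 / Real.sqrt 2) + β * (y 2 / Real.sqrt 2) :=
            add_le_add (mul_le_mul_of_nonneg_left hx2 hα) (mul_le_mul_of_nonneg_left hy2 hβ)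
        _ = (α * x 2 + β * y 2) / Real.sqrt 2 := by ring
  have hsub : ({!₂[1, 0, 0], !₂[-1, 0, 0], !₂[0, 1, Real.sqrt 2], !₂[0, -1, Real.sqrt 2]} : Set E3) ⊆
      {z : E3 | |z 0| ≤ 1 - z 2 / Real.sqrt 2 ∧ |z 1| ≤ z 2 / Real.sqrt 2} := by
    intro w hw
    simp only [Set.mem_insert_iff, Set.mem_singleton_iff] at hw
    rcases hw with rfl | rfl | rfl | rfl <;> simp
  exact convexHull_min hsub hconv hz

/-- the main covering statement in coordinates -/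
theorem cover_coord (e x y s : ℝ) (N : ℕ) (he : 0 < e) (he' : e ≤ 1 / 2000)
    (hN : (N : ℝ) * e ^ 2 = 1) (hx : |x| ≤ s) (hy : |y| ≤ 1 - s) :
    (∃ i < N, InCyl e (tag (e ^ 2) i) x y s) ∨ (∃ i < N, InCyl e (tag (e ^ 2) i) y (-x) (1 - s)) := by
  obtain ⟨t, ρ, ht1, ht2, hρ, h1, h2, h3⟩ := exists_param e x y s hx
  obtain ⟨t', ρ', ht1', ht2', hρ', h1', h2', h3'⟩ := exists_param e y (-x) (1 - s) hy
  have hax := abs_nonneg x
  have hay := abs_nonneg y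
  have ht : |t| ≤ 1 := abs_le.2 ⟨ht1, ht2⟩
  have ht' : |t'| ≤ 1 := abs_le.2 ⟨ht1', ht2'⟩
  have he2 := pow_pos he 2
  rcases dichotomy e x y s t ρ t' ρ' he he' hx hy ht hρ h2 h3 ht' hρ' (by linarith)
    (by rw [h3']; ring) with hc | hc
  · left
    obtain ⟨i, hi, hti⟩ := exists_tag N (e ^ 2) t he2 hN ht
    refine ⟨i, hi, in_cell e x y s t ρ _ he he' ht (tag_abs N (e ^ 2) he2 hN i hi) hti hρ
      (by linarith) h1 ?_ hc⟩
    linear_combination (1 / 2) * h2 + (t / 2) * h1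
  · right
    obtain ⟨i, hi, hti⟩ := exists_tag N (e ^ 2) t' he2 hN ht'
    refine ⟨i, hi, in_cell e y (-x) (1 - s) t' ρ' _ he he' ht' (tag_abs N (e ^ 2) he2 hN i hi) hti hρ'
      (by rw [abs_neg]; linarith) h1' ?_ hc⟩
    linear_combination (1 / 2) * h2' + (t' / 2) * h1'


theorem up_point (x y s : ℝ) :
    Fup.p0 + s • Fup.a + x • Fup.b + y • Fup.f = !₂[x, y, Real.sqrt 2 * (1 - s)] := by
  ext i
  fin_cases i <;> simp [Fup]
  ring

theorem lo_point (x y s : ℝ) :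
    Flo.p0 + (1 - s) • Flo.a + y • Flo.b + (-x) • Flo.f = !₂[x, y, Real.sqrt 2 * (1 - s)] := by
  ext i
  fin_cases i <;> simp [Flo]
  ring

/-- orthogonal base and axis of the cylinder with tag `c` in the frame `F`, as a set -/
noncomputable def Frame.cyl (F : Frame) (e c : ℝ) : Set E3 :=
  {x : E3 | ∃ b ∈ convexHull ℝ ({pr (F.D e c) (F.P0 e c), pr (F.D e c) (F.P1 e c),
      pr (F.D e c) (F.P2 e c)} : Set E3), ∃ t : ℝ, x = b + t • (‖F.D e c‖⁻¹ • F.D e c)}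

theorem tetra_subset (e : ℝ) (N : ℕ) (he : 0 < e) (he' : e ≤ 1 / 2000)
    (hN : (N : ℝ) * e ^ 2 = 1) (z : E3) (hz : z ∈ tetra) :
    (∃ i < N, z ∈ Fup.cyl e (tag (e ^ 2) i)) ∨ (∃ i < N, z ∈ Flo.cyl e (tag (e ^ 2) i)) := by
  obtain ⟨h1, h2⟩ := tetra_ineq hz
  have hs2 := sqrt2_pos
  have hz' : z = !₂[z 0, z 1, Real.sqrt 2 * (1 - (1 - z 2 / Real.sqrt 2))] := by
    ext i
    fin_cases i <;> simp
    rw [mul_div_cancel₀ _ hs2.ne']
  rcases cover_coord e (z 0) (z 1) (1 - z 2 / Real.sqrt 2) N he he' hN h1 (by linarith) with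
    ⟨i, hi, hc⟩ | ⟨i, hi, hc⟩
  · left
    refine ⟨i, hi, ?_⟩
    have := Fup.mem_of_inCyl e _ _ _ _ he hc
    rw [up_point, ← hz'] at this
    exact this
  · right
    refine ⟨i, hi, ?_⟩
    have := Flo.mem_of_inCyl e _ _ _ _ he hc
    rw [lo_point, ← hz'] at this
    exact this

/-- The core cover. -/
theorem core_cover (e : ℝ) (N : ℕ) (he : 0 < e) (he' : e ≤ 1 / 2000)
    (hN : (N : ℝ) * e ^ 2 = 1) :
    ∃ (u p q r : Fin (2 * N) → E3),
      (∀ i, ‖u i‖ = 1) ∧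
      (∀ i, inner ℝ (p i) (u i) = 0 ∧ inner ℝ (q i) (u i) = 0 ∧ inner ℝ (r i) (u i) = 0) ∧
      tetra ⊆ ⋃ i, {x : E3 | ∃ b ∈ convexHull ℝ {p i, q i, r i}, ∃ t : ℝ, x = b + t • u i} ∧
      ∑ i, (μHE[2] (convexHull ℝ ({p i, q i, r i} : Set E3))).toReal ≤
        Real.sqrt 2 * (1 / 2 - e ^ 2 / 60 + 23 * e ^ 3) := by
  let Fr : Fin 2 → Frame := ![Fup, Flo]
  let idx : Fin (2 * N) → Fin 2 × Fin N := finProdFinEquiv.symm
  let D : Fin 2 × Fin N → E3 := fun k => (Fr k.1).D e (tag (e ^ 2) k.2)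
  let P : Fin 2 × Fin N → E3 := fun k => pr (D k) ((Fr k.1).P0 e (tag (e ^ 2) k.2))
  let Q : Fin 2 × Fin N → E3 := fun k => pr (D k) ((Fr k.1).P1 e (tag (e ^ 2) k.2))
  let R : Fin 2 × Fin N → E3 := fun k => pr (D k) ((Fr k.1).P2 e (tag (e ^ 2) k.2))
  have hD : ∀ k, D k ≠ 0 := fun k => (Fr k.1).D_ne _ _
  refine ⟨fun i => ‖D (idx i)‖⁻¹ • D (idx i), fun i => P (idx i), fun i => Q (idx i),
    fun i => R (idx i), fun i => norm_unit (hD _),
    fun i => ⟨inner_pr_unit _ _ (hD _), inner_pr_unit _ _ (hD _), inner_pr_unit _ _ (hD _)⟩, ?_, ?_⟩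
  · intro z hz
    rw [Set.mem_iUnion]
    rcases tetra_subset e N he he' hN z hz with ⟨i, hi, hc⟩ | ⟨i, hi, hc⟩
    · refine ⟨finProdFinEquiv (0, ⟨i, hi⟩), ?_⟩
      simpa [idx, D, P, Q, R, Fr, Frame.cyl] using hc
    · refine ⟨finProdFinEquiv (1, ⟨i, hi⟩), ?_⟩
      simpa [idx, D, P, Q, R, Fr, Frame.cyl] using hc
  · have h1 : ∑ i : Fin (2 * N), (μHE[2] (convexHull ℝ ({P (idx i), Q (idx i), R (idx i)} : Set E3))).toReal
        = ∑ k : Fin 2 × Fin N, (μHE[2] (convexHull ℝ ({P k, Q k, R k} : Set E3))).toReal :=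
      Equiv.sum_comp finProdFinEquiv.symm
        (fun k => (μHE[2] (convexHull ℝ ({P k, Q k, R k} : Set E3))).toReal)
    rw [h1]
    have h2 : ∀ k : Fin 2 × Fin N, (μHE[2] (convexHull ℝ ({P k, Q k, R k} : Set E3))).toReal =
        Real.sqrt 2 * (e ^ 2 * WW e (tag (e ^ 2) k.2) ^ 2 / Real.sqrt (nD e (tag (e ^ 2) k.2))) :=
      fun k => (Fr k.1).area_eq e _ he
    simp_rw [h2]
    rw [Fintype.sum_prod_type, Fin.sum_univ_two]
    simp only []
    rw [← two_mul, ← Finset.mul_sum]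
    have h3 := sum_bound e N he he' hN
    rw [← Fin.sum_univ_eq_sum_range
      (fun i => 2 * e ^ 2 * WW e (tag (e ^ 2) i) ^ 2 / Real.sqrt (nD e (tag (e ^ 2) i)))] at h3
    calc 2 * (Real.sqrt 2 * ∑ i : Fin N, e ^ 2 * WW e (tag (e ^ 2) i) ^ 2 / Real.sqrt (nD e (tag (e ^ 2) i)))
        = Real.sqrt 2 * ∑ i : Fin N, 2 * e ^ 2 * WW e (tag (e ^ 2) i) ^ 2 / Real.sqrt (nD e (tag (e ^ 2) i)) := by
          rw [Finset.mul_sum, Finset.mul_sum, Finset.mul_sum]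
          refine Finset.sum_congr rfl fun i _ => ?_
          ring
      _ ≤ _ := mul_le_mul_of_nonneg_left h3 sqrt2_pos.le

/-- The core cover at `e = 1/2000`, with 8000000 cylinders. -/
theorem core_cover' :
    ∃ (n : ℕ) (u p q r : Fin n → E3), n = 8000000 ∧
      (∀ i, ‖u i‖ = 1) ∧
      (∀ i, inner ℝ (p i) (u i) = 0 ∧ inner ℝ (q i) (u i) = 0 ∧ inner ℝ (r i) (u i) = 0) ∧
      tetra ⊆ ⋃ i, {x : E3 | ∃ b ∈ convexHull ℝ {p i, q i, r i}, ∃ t : ℝ, x = b + t • u i} ∧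
      ∑ i, (μHE[2] (convexHull ℝ ({p i, q i, r i} : Set E3))).toReal ≤
        Real.sqrt 2 * (1 / 2 - 13 / 6000 * (1 / 2000) ^ 2) := by
  obtain ⟨u, p, q, r, h1, h2, h3, h4⟩ := core_cover (1 / 2000) 4000000 (by norm_num) (by norm_num)
    (by norm_num)
  refine ⟨2 * 4000000, u, p, q, r, by norm_num, h1, h2, h3, h4.trans ?_⟩
  apply mul_le_mul_of_nonneg_left _ sqrt2_pos.le
  norm_num

end Crest.Agent.S0325
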