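import Mathlib

set_option autoImplicit false
open MeasureTheory
open scoped ENNReal

namespace Crest.Agent.S0326

/-- the plane -/
abbrev E2 : Type := EuclideanSpace ℝ (Fin 2)

/-- half-open box volume -/
lemma volume_boxIco (x y : ℝ) (p q : ℝ) :
    volume {z : E2 | x ≤ z 0 ∧ z 0 < p ∧ y ≤ z 1 ∧ z 1 < q} =
      ENNReal.ofReal (p - x) * ENNReal.ofReal (q - y) := by
  have h := (PiLp.volume_preserving_ofLp (Fin 2)).measure_preimage
    (s := Set.univ.pi fun i => Set.Ico ((![x, y] : Fin 2 → ℝ) i) ((![p, q] : Fin 2 → ℝ) i))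
    (MeasurableSet.univ_pi fun i => measurableSet_Ico).nullMeasurableSet
  rw [Real.volume_pi_Ico] at h
  simp only [Fin.prod_univ_two, Matrix.cons_val_zero, Matrix.cons_val_one] at h
  rw [← h]
  congr 1
  ext z
  simp only [Set.mem_setOf_eq, Set.mem_preimage, Set.mem_pi, Set.mem_univ, true_implies,
    Fin.forall_fin_two, Matrix.cons_val_zero, Matrix.cons_val_one, Set.mem_Ico]
  tauto

lemma volume_boxIcc (x y : ℝ) (p q : ℝ) :
    volume {z : E2 | x ≤ z 0 ∧ z 0 ≤ p ∧ y ≤ z 1 ∧ z 1 ≤ q} =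
      ENNReal.ofReal (p - x) * ENNReal.ofReal (q - y) := by
  have h := (PiLp.volume_preserving_ofLp (Fin 2)).measure_preimage
    (s := Set.univ.pi fun i => Set.Icc ((![x, y] : Fin 2 → ℝ) i) ((![p, q] : Fin 2 → ℝ) i))
    (MeasurableSet.univ_pi fun i => measurableSet_Icc).nullMeasurableSet
  have h2 : volume (Set.univ.pi fun i => Set.Icc ((![x, y] : Fin 2 → ℝ) i) ((![p, q] : Fin 2 → ℝ) i)) =
      ENNReal.ofReal (p - x) * ENNReal.ofReal (q - y) := by
    have := @Real.volume_Icc_pi (Fin 2) _ (![x, y]) (![p, q])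
    rw [← Set.pi_univ_Icc] at this
    rw [this]
    simp [Fin.prod_univ_two]
  rw [h2] at h
  rw [← h]
  congr 1
  ext z
  simp only [Set.mem_setOf_eq, Set.mem_preimage, Set.mem_pi, Set.mem_univ, true_implies,
    Fin.forall_fin_two, Matrix.cons_val_zero, Matrix.cons_val_one, Set.mem_Icc]
  tauto

/-- grid squares of side `s` -/
def gsq (s : ℝ) (i : ℤ × ℤ) : Set E2 :=
  {z | s * i.1 ≤ z 0 ∧ z 0 < s * (i.1 + 1) ∧ s * i.2 ≤ z 1 ∧ z 1 < s * (i.2 + 1)}

lemma mem_gsq {s : ℝ} (hs : 0 < s) (z : E2) (i : ℤ × ℤ) :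
    z ∈ gsq s i ↔ i = (⌊z 0 / s⌋, ⌊z 1 / s⌋) := by
  unfold gsq
  simp only [Set.mem_setOf_eq]
  rw [Prod.ext_iff]
  simp only
  rw [eq_comm (a := i.1), eq_comm (a := i.2), Int.floor_eq_iff, Int.floor_eq_iff,
    le_div_iff₀ hs, div_lt_iff₀ hs, le_div_iff₀ hs, div_lt_iff₀ hs]
  constructor
  · rintro ⟨h1, h2, h3, h4⟩
    refine ⟨⟨by linarith, by linarith⟩, by linarith, by linarith⟩
  · rintro ⟨⟨h1, h2⟩, h3, h4⟩
    refine ⟨by linarith, by linarith, by linarith, by linarith⟩

lemma volume_gsq {s : ℝ} (hs : 0 < s) (i : ℤ × ℤ) :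
    volume (gsq s i) = ENNReal.ofReal (s ^ 2) := by
  unfold gsq
  rw [volume_boxIco, ← ENNReal.ofReal_mul (by linarith)]
  congr 1
  ring

lemma norm_le_of_coord (z : E2) (c : ℝ) (h0 : |z 0| ≤ c) (h1 : |z 1| ≤ c) : ‖z‖ ≤ 2 * c := by
  have hc : 0 ≤ c := le_trans (abs_nonneg _) h0
  rw [EuclideanSpace.norm_eq, Fin.sum_univ_two]
  apply Real.sqrt_le_iff.mpr
  refine ⟨by linarith, ?_⟩
  have a0 : ‖z 0‖ ^ 2 ≤ c ^ 2 := by
    rw [Real.norm_eq_abs]; exact pow_le_pow_left₀ (abs_nonneg _) h0 2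
  have a1 : ‖z 1‖ ^ 2 ≤ c ^ 2 := by
    rw [Real.norm_eq_abs]; exact pow_le_pow_left₀ (abs_nonneg _) h1 2
  nlinarith

lemma exists_grid_cover (K : Set E2) (hK : IsCompact K) (m : ℝ) (hm : volume K < ENNReal.ofReal m)
    (ℓ : ℝ) (hℓ : 0 < ℓ) :
    ∃ (s : ℝ) (F : Finset (ℤ × ℤ)), 0 < s ∧ s ≤ ℓ ∧ K ⊆ ⋃ i ∈ F, gsq s i ∧
      (∀ i ∈ F, (gsq s i ∩ K).Nonempty) ∧ F.card * s ^ 2 ≤ m := by
  obtain ⟨O, hKO, hO, hOm⟩ := Set.exists_isOpen_lt_of_lt K _ hm
  obtain ⟨δ, hδ, hth⟩ := hK.exists_thickening_subset_open hO hKO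
  have hm0 : 0 ≤ m := by
    by_contra hneg
    rw [ENNReal.ofReal_of_nonpos (by linarith)] at hm
    exact absurd hm (by simp)
  set s : ℝ := min ℓ (δ / 4) with hsdef
  have hs : 0 < s := lt_min hℓ (by positivity)
  have hsδ : s ≤ δ / 4 := min_le_right _ _
  have hsl : s ≤ ℓ := min_le_left _ _
  have hfin : {i : ℤ × ℤ | (gsq s i ∩ K).Nonempty}.Finite := by
    obtain ⟨R, hR⟩ := hK.isBounded.exists_norm_le
    apply ((Set.finite_Icc (⌊-R / s⌋) (⌊R / s⌋)).prod (Set.finite_Icc (⌊-R / s⌋) (⌊R / s⌋))).subset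
    rintro i ⟨z, hz, hzK⟩
    rw [mem_gsq hs] at hz
    have hzR := hR z hzK
    have h0 : |z 0| ≤ R := by
      have := PiLp.norm_apply_le z 0
      rw [Real.norm_eq_abs] at this
      linarith
    have h1 : |z 1| ≤ R := by
      have := PiLp.norm_apply_le z 1
      rw [Real.norm_eq_abs] at this
      linarith
    rw [abs_le] at h0 h1
    rw [hz]
    simp only [Set.mem_prod, Set.mem_Icc]
    refine ⟨⟨Int.floor_le_floor ?_, Int.floor_le_floor ?_⟩, Int.floor_le_floor ?_,
      Int.floor_le_floor ?_⟩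
    · gcongr; exact h0.1
    · gcongr; exact h0.2
    · gcongr; exact h1.1
    · gcongr; exact h1.2
  refine ⟨s, hfin.toFinset, hs, hsl, ?_, ?_, ?_⟩
  · intro z hz
    have : z ∈ gsq s (⌊z 0 / s⌋, ⌊z 1 / s⌋) := (mem_gsq hs _ _).2 rfl
    simp only [Set.mem_iUnion]
    refine ⟨_, ?_, this⟩
    rw [Set.Finite.mem_toFinset]
    exact ⟨z, this, hz⟩
  · intro i hi
    rw [Set.Finite.mem_toFinset] at hi
    exact hi
  · have hsub : (⋃ i ∈ hfin.toFinset, gsq s i) ⊆ O := by
      apply Set.iUnion₂_subset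
      intro i hi z hz
      rw [Set.Finite.mem_toFinset] at hi
      obtain ⟨y, hy, hyK⟩ := hi
      apply hth
      rw [Metric.mem_thickening_iff]
      refine ⟨y, hyK, ?_⟩
      rw [dist_eq_norm]
      have : ‖z - y‖ ≤ 2 * s := by
        unfold gsq at hz hy
        simp only [Set.mem_setOf_eq] at hz hy
        apply norm_le_of_coord
        · rw [PiLp.sub_apply, abs_le]; constructor <;> linarith [hz.1, hz.2.1, hy.1, hy.2.1]
        · rw [PiLp.sub_apply, abs_le]; constructor <;> linarith [hz.2.2.1, hz.2.2.2, hy.2.2.1, hy.2.2.2]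
      linarith
    have hmeas : ∀ i, MeasurableSet (gsq s i) := by
      intro i
      unfold gsq
      have m0 : Measurable fun z : E2 => z 0 := (PiLp.continuous_apply 2 _ 0).measurable
      have m1 : Measurable fun z : E2 => z 1 := (PiLp.continuous_apply 2 _ 1).measurable
      exact (measurableSet_le measurable_const m0).inter ((measurableSet_lt m0 measurable_const).inter
        ((measurableSet_le measurable_const m1).inter (measurableSet_lt m1 measurable_const)))
    have hdisj : Set.PairwiseDisjoint (↑hfin.toFinset : Set (ℤ × ℤ)) (gsq s) := by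
      intro i _ j _ hij
      rw [Function.onFun, Set.disjoint_left]
      intro z hz hz'
      rw [mem_gsq hs] at hz hz'
      exact hij (hz.trans hz'.symm)
    have hvol : volume (⋃ i ∈ hfin.toFinset, gsq s i) = hfin.toFinset.card * ENNReal.ofReal (s ^ 2) := by
      rw [measure_biUnion_finset hdisj (fun i _ => hmeas i)]
      simp [volume_gsq hs]
    have hle := measure_mono (μ := volume) hsub
    rw [hvol] at hle
    have h3 : (hfin.toFinset.card : ℝ≥0∞) * ENNReal.ofReal (s ^ 2) ≤ ENNReal.ofReal m :=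
      le_trans hle hOm.le
    rw [← ENNReal.ofReal_natCast, ← ENNReal.ofReal_mul (by positivity)] at h3
    exact (ENNReal.ofReal_le_ofReal_iff hm0).1 h3


/-- the weight -/
noncomputable def J (h : ℝ) (g : E2) : ℝ := 1 / Real.sqrt (1 + (g 0) ^ 2 + h ^ 2 * (g 1) ^ 2)

lemma J_pos (h : ℝ) (g : E2) : 0 < J h g := by
  unfold J
  have : 0 < 1 + (g 0) ^ 2 + h ^ 2 * (g 1) ^ 2 := by positivity
  positivity

lemma J_le_one (h : ℝ) (g : E2) : J h g ≤ 1 := by
  unfold J
  rw [div_le_one (by positivity)]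
  apply Real.one_le_sqrt.mpr
  nlinarith [sq_nonneg (g 0), sq_nonneg (h * g 1)]

lemma J_continuous (h : ℝ) : Continuous (J h) := by
  unfold J
  have c0 : Continuous fun z : E2 => z 0 := PiLp.continuous_apply 2 _ 0
  have c1 : Continuous fun z : E2 => z 1 := PiLp.continuous_apply 2 _ 1
  refine Continuous.div continuous_const ?_ ?_
  · exact Real.continuous_sqrt.comp (by fun_prop)
  · intro g
    positivity

/-- sheared cylinder -/
def Cyl (c a b g : E2) : Set (ℝ × E2) :=
  {z | ∃ x ∈ Set.Icc (0 : ℝ) 1, ∃ y ∈ Set.Icc (0 : ℝ) 1, z.2 = c + x • a + y • b + z.1 • g}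

/-- ruled set -/
def Ruled (L : ℝ) (V : E2 → E2) (S : Set E2) : Set (ℝ × E2) :=
  {z | ∃ p ∈ S, abs z.1 ≤ L ∧ z.2 = p + z.1 • V p}

/-- `S` can be covered at cost `m` -/
def Cov (L h : ℝ) (V : E2 → E2) (S : Set E2) (m : ℝ) : Prop :=
  ∃ (ι : Type) (_ : Fintype ι) (c a b g : ι → E2),
    (∀ i, a i ≠ 0 ∧ ‖b i‖ = ‖a i‖ ∧ inner ℝ (a i) (b i) = 0) ∧
    Ruled L V S ⊆ ⋃ i, Cyl (c i) (a i) (b i) (g i) ∧
    ∑ i, ‖a i‖ ^ 2 * J h (g i) ≤ m

lemma Ruled_mono {L : ℝ} {V : E2 → E2} {S S' : Set E2} (h : S ⊆ S') : Ruled L V S ⊆ Ruled L V S' := by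
  rintro z ⟨p, hp, h1, h2⟩
  exact ⟨p, h hp, h1, h2⟩

lemma Cov.mono {L h : ℝ} {V : E2 → E2} {S S' : Set E2} {m m' : ℝ} (hc : Cov L h V S' m)
    (hS : S ⊆ S') (hm : m ≤ m') : Cov L h V S m' := by
  obtain ⟨ι, _, c, a, b, g, h1, h2, h3⟩ := hc
  exact ⟨ι, _, c, a, b, g, h1, (Ruled_mono hS).trans h2, h3.trans hm⟩

lemma Cov.empty (L h : ℝ) (V : E2 → E2) : Cov L h V ∅ 0 := by
  refine ⟨Empty, inferInstance, fun _ => 0, fun _ => 0, fun _ => 0, fun _ => 0, fun i => i.elim, ?_, ?_⟩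
  · rintro z ⟨p, hp, _⟩
    exact absurd hp (by simp)
  · simp

lemma Cov.union {L h : ℝ} {V : E2 → E2} {S S' : Set E2} {m m' : ℝ} (hc : Cov L h V S m)
    (hc' : Cov L h V S' m') : Cov L h V (S ∪ S') (m + m') := by
  obtain ⟨ι, _, c, a, b, g, h1, h2, h3⟩ := hc
  obtain ⟨ι', _, c', a', b', g', h1', h2', h3'⟩ := hc'
  refine ⟨ι ⊕ ι', inferInstance, Sum.elim c c', Sum.elim a a', Sum.elim b b', Sum.elim g g', ?_, ?_, ?_⟩
  · rintro (i | i)
    · exact h1 i
    · exact h1' i
  · rintro z ⟨p, hp | hp, hz1, hz2⟩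
    · obtain ⟨i, hi⟩ := Set.mem_iUnion.1 (h2 ⟨p, hp, hz1, hz2⟩)
      exact Set.mem_iUnion.2 ⟨Sum.inl i, hi⟩
    · obtain ⟨i, hi⟩ := Set.mem_iUnion.1 (h2' ⟨p, hp, hz1, hz2⟩)
      exact Set.mem_iUnion.2 ⟨Sum.inr i, hi⟩
  · rw [Fintype.sum_sum_type]
    simpa using add_le_add h3 h3'

lemma Cov.biUnion {L h : ℝ} {V : E2 → E2} {κ : Type*} (F : Finset κ) (S : κ → Set E2) (m : κ → ℝ)
    (hc : ∀ i ∈ F, Cov L h V (S i) (m i)) : Cov L h V (⋃ i ∈ F, S i) (∑ i ∈ F, m i) := by
  classical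
  induction F using Finset.induction_on with
  | empty => simpa using Cov.empty L h V
  | insert i F hi ih =>
    rw [Finset.sum_insert hi, Finset.set_biUnion_insert]
    exact (hc i (Finset.mem_insert_self _ _)).union (ih fun j hj => hc j (Finset.mem_insert_of_mem hj))

/-- point with given coordinates -/
noncomputable def pt (x y : ℝ) : E2 := WithLp.toLp 2 ![x, y]

@[simp] lemma pt_zero (x y : ℝ) : pt x y 0 = x := rfl
@[simp] lemma pt_one (x y : ℝ) : pt x y 1 = y := rfl

lemma norm_pt_x (x : ℝ) : ‖pt x 0‖ = |x| := by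
  rw [EuclideanSpace.norm_eq, Fin.sum_univ_two]
  simp [Real.sqrt_sq_eq_abs]

lemma norm_pt_y (x : ℝ) : ‖pt 0 x‖ = |x| := by
  rw [EuclideanSpace.norm_eq, Fin.sum_univ_two]
  simp [Real.sqrt_sq_eq_abs]

lemma inner_pt (x y : ℝ) : inner ℝ (pt x 0) (pt 0 y) = 0 := by
  rw [PiLp.inner_apply, Fin.sum_univ_two]
  simp

lemma ext2 {z w : E2} (h0 : z 0 = w 0) (h1 : z 1 = w 1) : z = w := by
  ext i
  fin_cases i
  · exact h0
  · exact h1

/-- membership in an axis parallel square -/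
lemma mem_Cyl_axis {x y ℓ : ℝ} (hℓ : 0 < ℓ) (g : E2) (z : ℝ × E2)
    (h0 : x ≤ (z.2 - z.1 • g) 0) (h0' : (z.2 - z.1 • g) 0 ≤ x + ℓ)
    (h1 : y ≤ (z.2 - z.1 • g) 1) (h1' : (z.2 - z.1 • g) 1 ≤ y + ℓ) :
    z ∈ Cyl (pt x y) (pt ℓ 0) (pt 0 ℓ) g := by
  refine ⟨((z.2 - z.1 • g) 0 - x) / ℓ, ?_, ((z.2 - z.1 • g) 1 - y) / ℓ, ?_, ?_⟩
  · rw [Set.mem_Icc, le_div_iff₀ hℓ, div_le_iff₀ hℓ]
    constructor <;> linarith
  · rw [Set.mem_Icc, le_div_iff₀ hℓ, div_le_iff₀ hℓ]
    constructor <;> linarith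
  · have hne : ℓ ≠ 0 := hℓ.ne'
    apply ext2
    · simp only [PiLp.add_apply, PiLp.smul_apply, PiLp.sub_apply, pt_zero, smul_eq_mul]
      field_simp
      ring
    · simp only [PiLp.add_apply, PiLp.smul_apply, PiLp.sub_apply, pt_one, smul_eq_mul]
      field_simp
      ring

lemma cov_of_compact {L h : ℝ} {V : E2 → E2} (K : Set E2) (hK : IsCompact K) (m : ℝ)
    (hm : volume K < ENNReal.ofReal m) (g : E2) (S : Set E2)
    (hS : ∀ p ∈ S, ∀ s : ℝ, |s| ≤ L → p + s • V p - s • g ∈ K) :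
    Cov L h V S (m * J h g) := by
  obtain ⟨ℓ, F, hℓ, -, hKF, -, hcard⟩ := exists_grid_cover K hK m hm 1 one_pos
  refine ⟨F, inferInstance, fun i => pt (ℓ * i.1.1) (ℓ * i.1.2), fun _ => pt ℓ 0, fun _ => pt 0 ℓ,
    fun _ => g, ?_, ?_, ?_⟩
  · intro i
    refine ⟨?_, ?_, inner_pt _ _⟩
    · rw [← norm_pos_iff, norm_pt_x]; positivity
    · rw [norm_pt_x, norm_pt_y]
  · rintro z ⟨p, hp, hz1, hz2⟩
    have := hKF (hS p hp z.1 hz1)
    rw [← hz2] at this
    simp only [Set.mem_iUnion] at this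
    obtain ⟨i, hi, h0, h0', h1, h1'⟩ := this
    refine Set.mem_iUnion.2 ⟨⟨i, hi⟩, mem_Cyl_axis hℓ g z h0 ?_ h1 ?_⟩
    · simp only at *; linarith
    · simp only at *; linarith
  · simp only [norm_pt_x, sq_abs, Finset.sum_const, Finset.card_univ, Fintype.card_coe, nsmul_eq_mul]
    rw [← mul_assoc]
    exact mul_le_mul_of_nonneg_right hcard (J_pos _ _).le

lemma cov_small {L h : ℝ} (hL : 0 < L) {V : E2 → E2} {M δ : ℝ} (hM : 0 ≤ M) (hδ : 0 < δ)
    (K : Set E2) (hK : IsCompact K)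
    (hV : ∀ p ∈ K, ∀ q ∈ K, dist p q < δ → dist (V p) (V q) ≤ M * dist p q) (η : ℝ)
    (hη : volume K < ENNReal.ofReal η) :
    Cov L h V K ((1 + 4 * L * M) ^ 2 * η) := by
  obtain ⟨ℓ, F, hℓ, hℓδ, hKF, hne, hcard⟩ := exists_grid_cover K hK η hη (δ / 4) (by positivity)
  have hne' : ∀ i : F, ∃ q, q ∈ gsq ℓ i.1 ∩ K := fun i => hne i.1 i.2
  choose q hq using hne'
  have hLM : 0 ≤ L * M := by positivity
  set ℓ' : ℝ := ℓ * (1 + 4 * L * M) with hℓ'
  have hℓ'pos : 0 < ℓ' := by
    have : 0 < 1 + 4 * L * M := by nlinarith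
    positivity
  refine ⟨F, inferInstance, fun i => pt (ℓ * i.1.1 - 2 * L * M * ℓ) (ℓ * i.1.2 - 2 * L * M * ℓ),
    fun _ => pt ℓ' 0, fun _ => pt 0 ℓ', fun i => V (q i), ?_, ?_, ?_⟩
  · intro i
    refine ⟨?_, ?_, inner_pt _ _⟩
    · rw [← norm_pos_iff, norm_pt_x]; positivity
    · rw [norm_pt_x, norm_pt_y]
  · rintro z ⟨p, hp, hz1, hz2⟩
    have := hKF hp
    simp only [Set.mem_iUnion] at this
    obtain ⟨i, hi, hpi⟩ := this
    have hqi := hq ⟨i, hi⟩
    set q0 := q ⟨i, hi⟩ with hq0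
    have hpq : ‖p - q0‖ ≤ 2 * ℓ := by
      obtain ⟨⟨a1, a2, a3, a4⟩, _⟩ := hqi
      obtain ⟨b1, b2, b3, b4⟩ := hpi
      simp only at *
      apply norm_le_of_coord
      · rw [PiLp.sub_apply, abs_le]; constructor <;> linarith
      · rw [PiLp.sub_apply, abs_le]; constructor <;> linarith
    have hVpq : ‖V p - V q0‖ ≤ M * (2 * ℓ) := by
      have h1 := hV p hp q0 hqi.2 (by rw [dist_eq_norm]; linarith)
      rw [dist_eq_norm, dist_eq_norm] at h1
      exact h1.trans (mul_le_mul_of_nonneg_left hpq hM)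
    have hw : ‖z.1 • (V p - V q0)‖ ≤ 2 * L * M * ℓ := by
      rw [norm_smul, Real.norm_eq_abs]
      calc |z.1| * ‖V p - V q0‖ ≤ L * (M * (2 * ℓ)) :=
            mul_le_mul hz1 hVpq (norm_nonneg _) hL.le
        _ = 2 * L * M * ℓ := by ring
    have hz3 : z.2 - z.1 • V q0 = p + z.1 • (V p - V q0) := by
      rw [hz2, smul_sub]; abel
    have hw0 : |(z.1 • (V p - V q0)) 0| ≤ 2 * L * M * ℓ := by
      have := PiLp.norm_apply_le (z.1 • (V p - V q0)) 0
      rw [Real.norm_eq_abs] at this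
      exact this.trans hw
    have hw1 : |(z.1 • (V p - V q0)) 1| ≤ 2 * L * M * ℓ := by
      have := PiLp.norm_apply_le (z.1 • (V p - V q0)) 1
      rw [Real.norm_eq_abs] at this
      exact this.trans hw
    rw [abs_le] at hw0 hw1
    obtain ⟨b1, b2, b3, b4⟩ := hpi
    refine Set.mem_iUnion.2 ⟨⟨i, hi⟩, mem_Cyl_axis hℓ'pos (V q0) z ?_ ?_ ?_ ?_⟩
    · rw [hz3, PiLp.add_apply]; simp only; linarith
    · rw [hz3, PiLp.add_apply, hℓ']; simp only; nlinarith
    · rw [hz3, PiLp.add_apply]; simp only; linarith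
    · rw [hz3, PiLp.add_apply, hℓ']; simp only; nlinarith
  · simp only [norm_pt_x, sq_abs]
    calc ∑ i : F, ℓ' ^ 2 * J h (V (q i)) ≤ ∑ i : F, ℓ' ^ 2 :=
          Finset.sum_le_sum fun i _ => by
            have := J_le_one h (V (q i))
            nlinarith [sq_nonneg ℓ']
      _ = (1 + 4 * L * M) ^ 2 * (F.card * ℓ ^ 2) := by
          simp only [Finset.sum_const, Finset.card_univ, Fintype.card_coe, nsmul_eq_mul]
          rw [hℓ']; ring
      _ ≤ (1 + 4 * L * M) ^ 2 * η := mul_le_mul_of_nonneg_left hcard (sq_nonneg _)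

/-- tiles adapted to an endomorphism -/
def HasTile (L : ℝ) (A : E2 →ₗ[ℝ] E2) : Prop :=
  ∀ δ : ℝ, 0 < δ → ∃ T That : Set E2, IsCompact T ∧ (interior T).Nonempty ∧
    IsCompact That ∧ (∀ x ∈ T, ∀ s : ℝ, |s| ≤ L → x + s • A x ∈ That) ∧
    volume That < ENNReal.ofReal (1 + δ) * volume T

lemma HasTile.conj {L : ℝ} {A A₀ : E2 →ₗ[ℝ] E2} (P : E2 ≃ₗ[ℝ] E2) (h : HasTile L A₀)
    (hP : ∀ x, A (P x) = P (A₀ x)) : HasTile L A := by
  intro δ hδ
  obtain ⟨T, That, h1, h2, h3, h4, h5⟩ := h δ hδ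
  have hcont : Continuous P := P.toLinearMap.continuous_of_finiteDimensional
  refine ⟨P '' T, P '' That, h1.image hcont, ?_, h3.image hcont, ?_, ?_⟩
  · have := P.toContinuousLinearEquiv.toHomeomorph.image_interior T
    have e1 : (P.toContinuousLinearEquiv.toHomeomorph : E2 → E2) = P := rfl
    rw [e1] at this
    rw [← this]
    exact h2.image _
  · rintro _ ⟨x, hx, rfl⟩ s hs
    refine ⟨x + s • A₀ x, h4 x hx s hs, ?_⟩
    rw [map_add, map_smul, hP]
  · have e1 : ∀ S : Set E2, volume (P '' S) = ENNReal.ofReal |LinearMap.det (P : E2 →ₗ[ℝ] E2)| * volume S := by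
      intro S
      exact Measure.addHaar_image_linearMap volume (P : E2 →ₗ[ℝ] E2) S
    rw [e1, e1, mul_left_comm]
    have hdet : (0 : ℝ) < |LinearMap.det (P : E2 →ₗ[ℝ] E2)| :=
      abs_pos.2 (LinearEquiv.isUnit_det' P).ne_zero
    exact ENNReal.mul_lt_mul_right (by simpa using hdet) (by simp) h5

lemma isCompact_of_coord {S : Set E2} (hS : IsClosed S) (R : ℝ)
    (h : ∀ z ∈ S, |z 0| ≤ R ∧ |z 1| ≤ R) : IsCompact S := by
  apply Metric.isCompact_of_isClosed_isBounded hS
  rw [isBounded_iff_forall_norm_le]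
  exact ⟨2 * R, fun z hz => norm_le_of_coord z R (h z hz).1 (h z hz).2⟩

lemma cont0 : Continuous fun z : E2 => z 0 := PiLp.continuous_apply 2 _ 0
lemma cont1 : Continuous fun z : E2 => z 1 := PiLp.continuous_apply 2 _ 1

/-- boxes -/
def bx (a b : ℝ) : Set E2 := {z | |z 0| ≤ a ∧ |z 1| ≤ b}

lemma volume_bx (a b : ℝ) (ha : 0 ≤ a) : volume (bx a b) = ENNReal.ofReal (4 * a * b) := by
  have : bx a b = {z : E2 | -a ≤ z 0 ∧ z 0 ≤ a ∧ -b ≤ z 1 ∧ z 1 ≤ b} := by
    ext z
    simp only [bx, abs_le, Set.mem_ofPred_eq]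
    tauto
  rw [this, volume_boxIcc, ← ENNReal.ofReal_mul (by linarith)]
  congr 1; ring

lemma isClosed_bx (a b : ℝ) : IsClosed (bx a b) :=
  (isClosed_le (cont0.abs) continuous_const).inter (isClosed_le (cont1.abs) continuous_const)

lemma isCompact_bx (a b : ℝ) : IsCompact (bx a b) :=
  isCompact_of_coord (isClosed_bx a b) (max a b) fun _ hz =>
    ⟨hz.1.trans (le_max_left _ _), hz.2.trans (le_max_right _ _)⟩

lemma interior_bx {a b : ℝ} (ha : 0 < a) (hb : 0 < b) : (interior (bx a b)).Nonempty := by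
  refine ⟨0, ?_⟩
  rw [mem_interior]
  refine ⟨{z : E2 | |z 0| < a} ∩ {z : E2 | |z 1| < b}, ?_, ?_, ?_⟩
  · rintro z ⟨h1, h2⟩
    exact ⟨le_of_lt h1, le_of_lt h2⟩
  · exact (isOpen_lt cont0.abs continuous_const).inter (isOpen_lt cont1.abs continuous_const)
  · constructor <;> simp [ha, hb]

lemma HasTile.zero (L : ℝ) : HasTile L 0 := by
  intro δ hδ
  refine ⟨bx 1 1, bx 1 1, isCompact_bx _ _, interior_bx one_pos one_pos, isCompact_bx _ _, ?_, ?_⟩
  · intro x hx s _
    simpa using hx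
  · rw [volume_bx _ _ zero_le_one, ← ENNReal.ofReal_mul (by linarith)]
    rw [ENNReal.ofReal_lt_ofReal_iff (by linarith)]
    linarith

lemma HasTile.nil {L : ℝ} (hL : 0 < L) (A : E2 →ₗ[ℝ] E2) (hA : ∀ z, A z = pt (z 1) 0) :
    HasTile L A := by
  intro δ hδ
  have hc : 0 < δ / (2 * L) := by positivity
  set c := δ / (2 * L) with hcdef
  have hLc : L * c = δ / 2 := by rw [hcdef]; field_simp
  refine ⟨bx 1 c, bx (1 + L * c) c, isCompact_bx _ _, interior_bx one_pos hc, isCompact_bx _ _, ?_, ?_⟩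
  · rintro x ⟨h0, h1⟩ s hs
    rw [hA]
    constructor
    · simp only [PiLp.add_apply, PiLp.smul_apply, pt_zero, smul_eq_mul]
      calc |x 0 + s * x 1| ≤ |x 0| + |s| * |x 1| := by
            rw [← abs_mul]; exact abs_add_le _ _
        _ ≤ 1 + L * c := add_le_add h0 (mul_le_mul hs h1 (abs_nonneg _) hL.le)
    · simpa using h1
  · rw [volume_bx _ _ zero_le_one, volume_bx _ _ (by positivity), ← ENNReal.ofReal_mul (by linarith)]
    rw [ENNReal.ofReal_lt_ofReal_iff (by positivity)]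
    rw [hLc]
    nlinarith

/-- hyperbolic tile -/
def hyp (c : ℝ) : Set E2 := {z | |z 0| ≤ 1 ∧ |z 1| ≤ 1 ∧ |z 0 * z 1| ≤ c}

lemma isClosed_hyp (c : ℝ) : IsClosed (hyp c) :=
  (isClosed_le (cont0.abs) continuous_const).inter
    ((isClosed_le (cont1.abs) continuous_const).inter
      (isClosed_le ((cont0.mul cont1).abs) continuous_const))

lemma isCompact_hyp (c : ℝ) : IsCompact (hyp c) :=
  isCompact_of_coord (isClosed_hyp c) 1 fun _ hz => ⟨hz.1, hz.2.1⟩

lemma interior_hyp {c : ℝ} (hc : 0 < c) : (interior (hyp c)).Nonempty := by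
  refine ⟨0, ?_⟩
  rw [mem_interior]
  refine ⟨{z : E2 | |z 0| < 1} ∩ ({z : E2 | |z 1| < 1} ∩ {z : E2 | |z 0 * z 1| < c}), ?_, ?_, ?_⟩
  · rintro z ⟨h1, h2, h3⟩
    exact ⟨le_of_lt h1, le_of_lt h2, le_of_lt h3⟩
  · exact (isOpen_lt cont0.abs continuous_const).inter ((isOpen_lt cont1.abs continuous_const).inter
      (isOpen_lt (cont0.mul cont1).abs continuous_const))
  · refine ⟨?_, ?_, ?_⟩ <;> simp [hc]

lemma volume_hyp_ge (n : ℕ) :
    ENNReal.ofReal (n * (1 / 2 : ℝ) ^ n) ≤ volume (hyp ((1 / 2 : ℝ) ^ n)) := by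
  set u : ℕ → ℝ := fun k => (1 / 2 : ℝ) ^ k with hu
  have hupos : ∀ k, 0 < u k := fun k => by simp only [hu]; positivity
  have hule : ∀ k, u k ≤ 1 := fun k => by
    simp only [hu]; exact pow_le_one₀ (by norm_num) (by norm_num)
  have hanti : ∀ j k, j ≤ k → u k ≤ u j := fun j k hjk => by
    simp only [hu]; exact pow_le_pow_of_le_one (by norm_num) (by norm_num) hjk
  have hsucc : ∀ k, u (k + 1) = u k / 2 := fun k => by simp only [hu]; rw [pow_succ]; ring
  have hmul : ∀ k, k < n → u k * u (n - k) = u n := fun k hk => by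
    simp only [hu]; rw [← pow_add]; congr 1; omega
  set B : ℕ → Set E2 := fun k =>
    {z | u (k + 1) ≤ z 0 ∧ z 0 < u k ∧ -u (n - k) ≤ z 1 ∧ z 1 < u (n - k)} with hB
  have hvol : ∀ k ∈ Finset.range n, volume (B k) = ENNReal.ofReal (u n) := by
    intro k hk
    rw [Finset.mem_range] at hk
    simp only [hB]
    rw [volume_boxIco, ← ENNReal.ofReal_mul (by rw [hsucc]; linarith [hupos k])]
    congr 1
    rw [hsucc, ← hmul k hk]
    ring
  have hmeas : ∀ k ∈ Finset.range n, MeasurableSet (B k) := by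
    intro k _
    exact (measurableSet_le measurable_const cont0.measurable).inter
      ((measurableSet_lt cont0.measurable measurable_const).inter
        ((measurableSet_le measurable_const cont1.measurable).inter
          (measurableSet_lt cont1.measurable measurable_const)))
  have hdisj : Set.PairwiseDisjoint (↑(Finset.range n) : Set ℕ) B := by
    have key : ∀ j k, j < k → Disjoint (B j) (B k) := by
      intro j k hjk
      rw [Set.disjoint_left]
      rintro z ⟨h1, _⟩ ⟨_, h2, _⟩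
      have := hanti (j + 1) k hjk
      linarith
    intro j _ k _ hjk
    rcases lt_or_gt_of_ne hjk with h | h
    · exact key j k h
    · exact (key k j h).symm
  have hsub : (⋃ k ∈ Finset.range n, B k) ⊆ hyp (u n) := by
    apply Set.iUnion₂_subset
    rintro k hk z ⟨h1, h2, h3, h4⟩
    rw [Finset.mem_range] at hk
    have hz0 : |z 0| ≤ u k := by
      rw [abs_le]; constructor <;> linarith [hupos k, hupos (k + 1)]
    have hz1 : |z 1| ≤ u (n - k) := by
      rw [abs_le]; constructor <;> linarith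
    refine ⟨hz0.trans (hule k), hz1.trans (hule _), ?_⟩
    rw [abs_mul, ← hmul k hk]
    exact mul_le_mul hz0 hz1 (abs_nonneg _) (hupos k).le
  have h1 := measure_mono (μ := volume) hsub
  rw [measure_biUnion_finset hdisj hmeas, Finset.sum_congr rfl hvol] at h1
  rw [Finset.sum_const, Finset.card_range, nsmul_eq_mul, ← ENNReal.ofReal_natCast,
    ← ENNReal.ofReal_mul (by positivity)] at h1
  exact h1

lemma HasTile.hyperbolic {L lam : ℝ} (hlam : 0 < lam) (hLlam : L * lam < 1)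
    (A : E2 →ₗ[ℝ] E2) (hA : ∀ z, A z = pt (lam * z 0) (-lam * z 1)) : HasTile L A := by
  intro δ hδ
  obtain ⟨n, hn⟩ := exists_nat_gt (16 / δ)
  have hnpos : (0 : ℝ) < n := lt_trans (by positivity) hn
  set c : ℝ := (1 / 2 : ℝ) ^ n with hc
  have hcpos : 0 < c := by positivity
  refine ⟨hyp c, hyp c ∪ (bx 2 c ∪ bx c 2), isCompact_hyp _, interior_hyp hcpos,
    (isCompact_hyp _).union ((isCompact_bx _ _).union (isCompact_bx _ _)), ?_, ?_⟩
  · rintro x ⟨h0, h1, h01⟩ s hs
    set y := x + s • A x with hy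
    have hslam : |s * lam| < 1 := by
      rw [abs_mul, abs_of_pos hlam]
      exact lt_of_le_of_lt (mul_le_mul_of_nonneg_right hs hlam.le) hLlam
    rw [abs_lt] at hslam
    have hy0 : y 0 = (1 + s * lam) * x 0 := by
      rw [hy, hA]; simp only [PiLp.add_apply, PiLp.smul_apply, pt_zero, smul_eq_mul]; ring
    have hy1 : y 1 = (1 - s * lam) * x 1 := by
      rw [hy, hA]; simp only [PiLp.add_apply, PiLp.smul_apply, pt_one, smul_eq_mul]; ring
    have b0 : |y 0| ≤ 2 := by
      rw [hy0, abs_mul, abs_of_pos (by linarith : 0 < 1 + s * lam)]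
      nlinarith [abs_nonneg (x 0)]
    have b1 : |y 1| ≤ 2 := by
      rw [hy1, abs_mul, abs_of_pos (by linarith : 0 < 1 - s * lam)]
      nlinarith [abs_nonneg (x 1)]
    have b01 : |y 0 * y 1| ≤ c := by
      have : y 0 * y 1 = (1 - (s * lam) ^ 2) * (x 0 * x 1) := by rw [hy0, hy1]; ring
      rw [this, abs_mul]
      have h3 : |1 - (s * lam) ^ 2| ≤ 1 := by
        rw [abs_le]; constructor <;> nlinarith
      calc |1 - (s * lam) ^ 2| * |x 0 * x 1| ≤ 1 * c :=
            mul_le_mul h3 h01 (abs_nonneg _) zero_le_one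
        _ = c := one_mul c
    by_cases c0 : |y 0| ≤ 1
    · by_cases c1 : |y 1| ≤ 1
      · exact Or.inl ⟨c0, c1, b01⟩
      · push Not at c1
        refine Or.inr (Or.inr ⟨?_, b1⟩)
        rw [abs_mul] at b01
        nlinarith [abs_nonneg (y 0)]
    · push Not at c0
      refine Or.inr (Or.inl ⟨b0, ?_⟩)
      rw [abs_mul] at b01
      nlinarith [abs_nonneg (y 1)]
  · have hle := volume_hyp_ge n
    rw [← hc] at hle
    have hfin : volume (hyp c) ≠ ⊤ := (isCompact_hyp c).measure_lt_top.ne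
    set v := (volume (hyp c)).toReal with hv
    have hveq : volume (hyp c) = ENNReal.ofReal v := (ENNReal.ofReal_toReal hfin).symm
    have hv0 : 0 ≤ v := ENNReal.toReal_nonneg
    rw [hveq, ENNReal.ofReal_le_ofReal_iff hv0] at hle
    calc volume (hyp c ∪ (bx 2 c ∪ bx c 2)) ≤ volume (hyp c) + (volume (bx 2 c) + volume (bx c 2)) :=
          (measure_union_le _ _).trans (add_le_add le_rfl (measure_union_le _ _))
      _ = ENNReal.ofReal (v + 16 * c) := by
          rw [volume_bx _ _ (by norm_num), volume_bx _ _ hcpos.le, hveq, ← ENNReal.ofReal_add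
            (by positivity) (by positivity), ← ENNReal.ofReal_add hv0 (by positivity)]
          congr 1; ring
      _ < ENNReal.ofReal (1 + δ) * volume (hyp c) := by
          rw [hveq, ← ENNReal.ofReal_mul (by linarith)]
          have hvpos : 0 < v := lt_of_lt_of_le (by positivity) hle
          rw [ENNReal.ofReal_lt_ofReal_iff (by positivity)]
          have h16 : 16 < δ * n := by
            rw [div_lt_iff₀ hδ] at hn; linarith
          have : 16 * c < δ * v := by
            calc 16 * c < δ * n * c := by nlinarith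
              _ = δ * (n * c) := by ring
              _ ≤ δ * v := mul_le_mul_of_nonneg_left hle hδ.le
          linarith

lemma decomp (z : E2) : z = z 0 • pt 1 0 + z 1 • pt 0 1 := by
  apply ext2
  · simp
  · simp

/-- the endomorphism with prescribed columns -/
noncomputable def mk (v w : E2) : E2 →ₗ[ℝ] E2 where
  toFun z := z 0 • v + z 1 • w
  map_add' x y := by simp only [PiLp.add_apply, add_smul]; abel
  map_smul' c x := by simp only [PiLp.smul_apply, smul_eq_mul, RingHom.id_apply, smul_add, smul_smul]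

lemma mk_apply (v w z : E2) : mk v w z = z 0 • v + z 1 • w := rfl

lemma exists_equiv (v w : E2) (h : ∀ x y : ℝ, x • v + y • w = 0 → x = 0 ∧ y = 0) :
    ∃ P : E2 ≃ₗ[ℝ] E2, ∀ z, P z = z 0 • v + z 1 • w := by
  have hinj : Function.Injective (mk v w) := by
    rw [injective_iff_map_eq_zero]
    intro z hz
    obtain ⟨h0, h1⟩ := h _ _ hz
    exact ext2 h0 h1
  exact ⟨LinearEquiv.ofInjectiveEndo (mk v w) hinj, fun z => rfl⟩

lemma trace_det (A : E2 →ₗ[ℝ] E2) :
    LinearMap.trace ℝ _ A = (A (pt 1 0)) 0 + (A (pt 0 1)) 1 ∧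
    LinearMap.det A = (A (pt 1 0)) 0 * (A (pt 0 1)) 1 - (A (pt 0 1)) 0 * (A (pt 1 0)) 1 := by
  set b := (EuclideanSpace.basisFun (Fin 2) ℝ).toBasis with hb
  have e0 : b 0 = pt 1 0 := by
    rw [hb]; apply ext2 <;> simp
  have e1 : b 1 = pt 0 1 := by
    rw [hb]; apply ext2 <;> simp
  have hM : ∀ i j, LinearMap.toMatrix b b A i j = (A (b j)) i := by
    intro i j
    rw [LinearMap.toMatrix_apply, hb]
    simp
  constructor
  · rw [LinearMap.trace_eq_matrix_trace ℝ b, Matrix.trace_fin_two, hM, hM, e0, e1]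
  · rw [← LinearMap.det_toMatrix b, Matrix.det_fin_two, hM, hM, hM, hM, e0, e1]

lemma sq_apply (A : E2 →ₗ[ℝ] E2) (htr : LinearMap.trace ℝ _ A = 0) (x : E2) :
    A (A x) = (-LinearMap.det A) • x := by
  obtain ⟨h1, h2⟩ := trace_det A
  rw [htr] at h1
  rw [h2]
  set a := (A (pt 1 0)) 0
  set c := (A (pt 1 0)) 1
  set b := (A (pt 0 1)) 0
  set d := (A (pt 0 1)) 1
  have hA0 : ∀ z : E2, (A z) 0 = z 0 * a + z 1 * b := by
    intro z
    conv_lhs => rw [decomp z]
    rw [map_add, map_smul, map_smul]; simp [a, b]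
  have hA1 : ∀ z : E2, (A z) 1 = z 0 * c + z 1 * d := by
    intro z
    conv_lhs => rw [decomp z]
    rw [map_add, map_smul, map_smul]; simp [c, d]
  have hd : d = -a := by linarith
  apply ext2
  · rw [hA0, hA0, hA1, PiLp.smul_apply, smul_eq_mul, hd]; ring
  · rw [hA1, hA0, hA1, PiLp.smul_apply, smul_eq_mul, hd]; ring

lemma hasTile {L : ℝ} (hL : 0 < L) (A : E2 →ₗ[ℝ] E2) (htr : LinearMap.trace ℝ _ A = 0)
    (hdet : -(L ^ 2)⁻¹ < LinearMap.det A) (hdet' : LinearMap.det A ≤ 0) : HasTile L A := by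
  have hsq := sq_apply A htr
  rcases eq_or_lt_of_le hdet' with h0 | hneg
  · by_cases hA : A = 0
    · rw [hA]; exact HasTile.zero L
    · obtain ⟨x, hx⟩ : ∃ x, A x ≠ 0 := by
        by_contra hcon
        push Not at hcon
        exact hA (LinearMap.ext hcon)
      have hAA : ∀ y, A (A y) = 0 := fun y => by rw [hsq, h0]; simp
      obtain ⟨P, hP⟩ := exists_equiv (A x) x (by
        intro s t hst
        have h1 : A (s • A x + t • x) = 0 := by rw [hst, map_zero]
        rw [map_add, map_smul, map_smul, hAA, smul_zero, zero_add] at h1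
        have ht : t = 0 := by
          rcases smul_eq_zero.1 h1 with h | h
          · exact h
          · exact absurd h hx
        refine ⟨?_, ht⟩
        rw [ht, zero_smul, add_zero] at hst
        rcases smul_eq_zero.1 hst with h | h
        · exact h
        · exact absurd h hx)
      refine HasTile.conj (A₀ := mk 0 (pt 1 0)) P (HasTile.nil hL _ ?_) ?_
      · intro z
        rw [mk_apply]
        apply ext2 <;> simp
      · intro z
        rw [hP, hP, map_add, map_smul, map_smul, hAA, mk_apply]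
        simp
  · set lam := Real.sqrt (-LinearMap.det A) with hlam
    have hlam2 : lam ^ 2 = -LinearMap.det A := Real.sq_sqrt (by linarith)
    have hlampos : 0 < lam := Real.sqrt_pos.2 (by linarith)
    have hLlam : L * lam < 1 := by
      have h1 : (L * lam) ^ 2 < 1 := by
        rw [mul_pow, hlam2]
        have : L ^ 2 * (-LinearMap.det A) < L ^ 2 * (L ^ 2)⁻¹ :=
          mul_lt_mul_of_pos_left (by linarith) (by positivity)
        rwa [mul_inv_cancel₀ (by positivity)] at this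
      nlinarith [mul_pos hL hlampos]
    have hAA : ∀ y, A (A y) = (lam ^ 2) • y := fun y => by rw [hsq, hlam2]
    obtain ⟨x, hx⟩ : ∃ x, A x + lam • x ≠ 0 := by
      by_contra hcon
      push Not at hcon
      have e : ∀ z, A z = -(lam • z) := fun z => eq_neg_of_add_eq_zero_left (hcon z)
      obtain ⟨h1, _⟩ := trace_det A
      rw [htr, e, e] at h1
      simp at h1
      linarith
    obtain ⟨y, hy⟩ : ∃ y, A y - lam • y ≠ 0 := by
      by_contra hcon
      push Not at hcon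
      have e : ∀ z, A z = lam • z := fun z => sub_eq_zero.1 (hcon z)
      obtain ⟨h1, _⟩ := trace_det A
      rw [htr, e, e] at h1
      simp at h1
      linarith
    set v := A x + lam • x with hv
    set w := A y - lam • y with hw
    have hAv : A v = lam • v := by
      rw [hv, map_add, map_smul, hAA, smul_add, smul_smul]
      rw [add_comm, pow_two]
    have hAw : A w = -(lam • w) := by
      rw [hw, map_sub, map_smul, hAA, smul_sub, smul_smul, pow_two]
      abel
    obtain ⟨P, hP⟩ := exists_equiv v w (by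
      intro s t hst
      have h1 : A (s • v + t • w) = 0 := by rw [hst, map_zero]
      rw [map_add, map_smul, map_smul, hAv, hAw] at h1
      have h2 : lam • (s • v - t • w) = 0 := by
        rw [← h1]; simp only [smul_sub, smul_smul, smul_neg, mul_comm lam]; abel
      have h3 : s • v - t • w = 0 := by
        rcases smul_eq_zero.1 h2 with h | h
        · exact absurd h hlampos.ne'
        · exact h
      have h4 : (2 * s) • v = 0 := by
        have : (2 * s) • v = (s • v + t • w) + (s • v - t • w) := by rw [two_mul, add_smul]; abel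
        rw [this, hst, h3, add_zero]
      have h5 : (2 * t) • w = 0 := by
        have : (2 * t) • w = (s • v + t • w) - (s • v - t • w) := by rw [two_mul, add_smul]; abel
        rw [this, hst, h3, sub_zero]
      constructor
      · rcases smul_eq_zero.1 h4 with h | h
        · linarith
        · exact absurd h hx
      · rcases smul_eq_zero.1 h5 with h | h
        · linarith
        · exact absurd h hy)
    refine HasTile.conj (A₀ := mk (pt lam 0) (pt 0 (-lam))) P
      (HasTile.hyperbolic hlampos hLlam _ ?_) ?_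
    · intro z
      rw [mk_apply]
      apply ext2
      · simp [mul_comm]
      · simp [mul_comm]
    · intro z
      rw [hP, hP, map_add, map_smul, map_smul, hAv, hAw, mk_apply]
      simp only [PiLp.add_apply, PiLp.smul_apply, pt_zero, pt_one, smul_eq_mul, mul_zero, add_zero,
        zero_add, smul_smul, smul_neg]
      rw [mul_neg, neg_smul]

/-- dilation-translation -/
def dl (q : E2) (r : ℝ) (S : Set E2) : Set E2 := (fun x => q + r • x) '' S

open scoped Pointwise in
lemma volume_dl (q : E2) {r : ℝ} (hr : 0 < r) (S : Set E2) :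
    volume (dl q r S) = ENNReal.ofReal (r ^ 2) * volume S := by
  have h1 : dl q r S = (fun y => -q + y) ⁻¹' (r • S) := by
    ext y
    simp only [dl, Set.mem_image, Set.mem_preimage, Set.mem_smul_set]
    constructor
    · rintro ⟨x, hx, rfl⟩
      exact ⟨x, hx, by simp⟩
    · rintro ⟨x, hx, hxy⟩
      exact ⟨x, hx, by rw [hxy]; simp⟩
  rw [h1, measure_preimage_add, Measure.addHaar_smul]
  congr 2
  rw [finrank_euclideanSpace_fin, abs_of_pos (by positivity)]

lemma isOpen_dl (q : E2) {r : ℝ} (hr : 0 < r) {S : Set E2} (hS : IsOpen S) : IsOpen (dl q r S) := by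
  have := ((Homeomorph.smulOfNeZero r hr.ne').trans (Homeomorph.addLeft q)).isOpenMap S hS
  exact this

lemma isCompact_dl (q : E2) (r : ℝ) {S : Set E2} (hS : IsCompact S) : IsCompact (dl q r S) :=
  hS.image (by fun_prop)

lemma dl_mono (q : E2) (r : ℝ) {S S' : Set E2} (h : S ⊆ S') : dl q r S ⊆ dl q r S' :=
  Set.image_mono h

lemma interior_dl (q : E2) {r : ℝ} (hr : 0 < r) {S : Set E2} (hS : (interior S).Nonempty) :
    (interior (dl q r S)).Nonempty := by
  obtain ⟨x, hx⟩ := hS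
  refine ⟨q + r • x, ?_⟩
  rw [mem_interior]
  exact ⟨dl q r (interior S), dl_mono _ _ interior_subset, isOpen_dl q hr isOpen_interior,
    ⟨x, hx, rfl⟩⟩

/-- local data at a point -/
structure Loc (L h : ℝ) (V : E2 → E2) (δ : ℝ) (p : E2) where
  T : Set E2
  T' : Set E2
  R : ℝ
  ρ : ℝ
  M : ℝ
  C : NNReal
  hT : IsCompact T
  hTi : (interior T).Nonempty
  hT' : IsOpen T'
  hTT' : T ⊆ T'
  hR : 0 < R
  hT'R : T' ⊆ Metric.closedBall 0 R
  hρ : 0 < ρ
  hM : 0 ≤ M
  hC : volume (Metric.closedBall (0 : E2) (3 * R)) ≤ C * volume T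
  lip : ∀ x ∈ Metric.ball p ρ, ∀ y ∈ Metric.ball p ρ, dist (V x) (V y) ≤ M * dist x y
  cov : ∀ (q : E2) (r : ℝ), 0 < r → dist q p + r * R < ρ →
    Cov L h V (dl q r T') ((1 + δ) * (volume (dl q r T)).toReal * J h (V q))

lemma exists_loc {L h : ℝ} (hL : 0 < L) {V : E2 → E2} {p : E2} {A : E2 →L[ℝ] E2}
    (hA : HasStrictFDerivAt V A p) (ht : HasTile L (A : E2 →ₗ[ℝ] E2)) {δ : ℝ} (hδ : 0 < δ) :
    Nonempty (Loc L h V δ p) := by
  obtain ⟨T, That, hT, hTi, hThat, hmem, hvol⟩ := ht δ hδ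
  -- thickening
  obtain ⟨η, hη, hηvol⟩ : ∃ η : ℝ, 0 < η ∧
      volume (Metric.cthickening η That) < ENNReal.ofReal (1 + δ) * volume T := by
    have h1 := tendsto_measure_cthickening_of_isCompact (μ := (volume : Measure E2)) hThat
    have h2 := (h1.eventually (gt_mem_nhds hvol))
    have h3 : ∀ᶠ r in nhdsWithin (0 : ℝ) (Set.Ioi 0), volume (Metric.cthickening r That) <
        ENNReal.ofReal (1 + δ) * volume T := nhdsWithin_le_nhds h2
    obtain ⟨η, h4, h5⟩ := (h3.and self_mem_nhdsWithin).exists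
    exact ⟨η, h5, h4⟩
  obtain ⟨R₀, hR₀⟩ := hT.isBounded.exists_norm_le
  set R : ℝ := |R₀| + 1 with hRdef
  have hR : 0 < R := by positivity
  have hTR : ∀ x ∈ T, ‖x‖ ≤ R - 1 := fun x hx => by
    have := hR₀ x hx
    have := le_abs_self R₀
    linarith
  -- constants
  obtain ⟨c, hccoe⟩ : ∃ c : NNReal, (c : ℝ) = η / (2 * L * R) :=
    ⟨Real.toNNReal (η / (2 * L * R)), Real.coe_toNNReal _ (by positivity)⟩
  have hcpos : 0 < c := by
    rw [← NNReal.coe_pos, hccoe]; positivity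
  have hcval : L * (c : ℝ) * R = η / 2 := by
    rw [hccoe]; field_simp
  obtain ⟨N, hN, happ⟩ := hA.approximates_deriv_on_nhds (c := c) (Or.inr hcpos)
  obtain ⟨ρ, hρ, hρN⟩ := Metric.mem_nhds_iff.1 hN
  set η' : ℝ := min 1 (η / (2 * (1 + L * ‖A‖))) with hη'
  have hη'pos : 0 < η' := lt_min one_pos (by positivity)
  have hη'1 : η' ≤ 1 := min_le_left _ _
  have hη'2 : (1 + L * ‖A‖) * η' ≤ η / 2 := by
    have h1 : η' ≤ η / (2 * (1 + L * ‖A‖)) := min_le_right _ _
    calc (1 + L * ‖A‖) * η' ≤ (1 + L * ‖A‖) * (η / (2 * (1 + L * ‖A‖))) :=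
          mul_le_mul_of_nonneg_left h1 (by positivity)
      _ = η / 2 := by field_simp
  have hT'R : ∀ x ∈ Metric.thickening η' T, ‖x‖ ≤ R := by
    intro x hx
    rw [Metric.mem_thickening_iff] at hx
    obtain ⟨x0, hx0, hd⟩ := hx
    rw [dist_eq_norm] at hd
    have := hTR x0 hx0
    calc ‖x‖ = ‖x0 + (x - x0)‖ := by congr 1; abel
      _ ≤ ‖x0‖ + ‖x - x0‖ := norm_add_le _ _
      _ ≤ R := by linarith
  have hvT : volume T ≠ ⊤ := hT.measure_lt_top.ne
  have hvTpos : 0 < volume T :=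
    lt_of_lt_of_le (isOpen_interior.measure_pos volume hTi) (measure_mono interior_subset)
  obtain ⟨C, hC⟩ : ∃ C : NNReal, volume (Metric.closedBall (0 : E2) (3 * R)) ≤ C * volume T := by
    refine ⟨(volume (Metric.closedBall (0 : E2) (3 * R)) / volume T).toNNReal, ?_⟩
    rw [ENNReal.coe_toNNReal]
    · rw [ENNReal.div_mul_cancel hvTpos.ne' hvT]
    · exact ENNReal.div_ne_top (isCompact_closedBall _ _).measure_lt_top.ne hvTpos.ne'
  refine ⟨⟨T, Metric.thickening η' T, R, ρ, ‖A‖ + c, C, hT, hTi, Metric.isOpen_thickening,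
    Metric.self_subset_thickening hη'pos T, hR, ?_, hρ, by positivity, hC, ?_, ?_⟩⟩
  · intro x hx
    rw [mem_closedBall_zero_iff]
    exact hT'R x hx
  · intro x hx y hy
    have h1 := happ x (hρN hx) y (hρN hy)
    rw [dist_eq_norm, dist_eq_norm]
    calc ‖V x - V y‖ = ‖(V x - V y - A (x - y)) + A (x - y)‖ := by congr 1; abel
      _ ≤ ‖V x - V y - A (x - y)‖ + ‖A (x - y)‖ := norm_add_le _ _
      _ ≤ c * ‖x - y‖ + ‖A‖ * ‖x - y‖ := add_le_add h1 (A.le_opNorm _)
      _ = (‖A‖ + c) * ‖x - y‖ := by ring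
  · intro q r hr hqr
    have hq : q ∈ Metric.ball p ρ := by
      rw [Metric.mem_ball]
      have : 0 < r * R := by positivity
      linarith
    have hKvol : volume (dl q r (Metric.cthickening η That)) <
        ENNReal.ofReal ((1 + δ) * (volume (dl q r T)).toReal) := by
      rw [ENNReal.ofReal_mul (by positivity), ENNReal.ofReal_toReal, volume_dl q hr, volume_dl q hr,
        mul_left_comm]
      · exact ENNReal.mul_lt_mul_right (by simpa using hr.ne') (by simp) hηvol
      · rw [volume_dl q hr]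
        exact ENNReal.mul_ne_top (by simp) hvT
    refine cov_of_compact _ (isCompact_dl q r hThat.cthickening) _ hKvol (V q) _ ?_
    rintro _ ⟨x, hx, rfl⟩ s hs
    have hxR := hT'R x hx
    rw [Metric.mem_thickening_iff] at hx
    obtain ⟨x0, hx0, hd⟩ := hx
    rw [dist_eq_norm] at hd
    simp only
    have hyq : (q + r • x) - q = r • x := by abel
    have hrx : ‖r • x‖ ≤ r * R := by
      rw [norm_smul, Real.norm_eq_abs, abs_of_pos hr]
      exact mul_le_mul_of_nonneg_left hxR hr.le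
    have hy : q + r • x ∈ Metric.ball p ρ := by
      rw [Metric.mem_ball, dist_eq_norm]
      rw [dist_eq_norm] at hqr
      calc ‖q + r • x - p‖ = ‖(q - p) + r • x‖ := by congr 1; abel
        _ ≤ ‖q - p‖ + ‖r • x‖ := norm_add_le _ _
        _ < ρ := by linarith
    have happ1 := happ _ (hρN hy) _ (hρN hq)
    rw [hyq] at happ1
    set e : E2 := V (q + r • x) - V q - A (r • x) with he
    have he' : ‖e‖ ≤ c * (r * R) := happ1.trans (mul_le_mul_of_nonneg_left hrx c.2)
    refine ⟨x + s • A x + (s / r) • e, ?_, ?_⟩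
    · have h0 := hmem x0 hx0 s hs
      refine Metric.mem_cthickening_of_dist_le _ (x0 + s • (A : E2 →ₗ[ℝ] E2) x0) η _ h0 ?_
      rw [dist_eq_norm]
      have e1 : x + s • A x + (s / r) • e - (x0 + s • (A : E2 →ₗ[ℝ] E2) x0) =
          ((x - x0) + s • A (x - x0)) + (s / r) • e := by
        simp only [ContinuousLinearMap.coe_coe, map_sub, smul_sub]; abel
      rw [e1]
      have b1 : ‖(x - x0) + s • A (x - x0)‖ ≤ (1 + L * ‖A‖) * η' := by
        calc ‖(x - x0) + s • A (x - x0)‖ ≤ ‖x - x0‖ + ‖s • A (x - x0)‖ := norm_add_le _ _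
          _ ≤ η' + L * (‖A‖ * η') := by
              refine add_le_add hd.le ?_
              rw [norm_smul, Real.norm_eq_abs]
              refine mul_le_mul hs ?_ (norm_nonneg _) hL.le
              exact (A.le_opNorm _).trans (mul_le_mul_of_nonneg_left hd.le (norm_nonneg _))
          _ = (1 + L * ‖A‖) * η' := by ring
      have b2 : ‖(s / r) • e‖ ≤ η / 2 := by
        rw [norm_smul, Real.norm_eq_abs, abs_div, abs_of_pos hr]
        calc |s| / r * ‖e‖ ≤ L / r * (c * (r * R)) :=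
              mul_le_mul (div_le_div_of_nonneg_right hs hr.le) he' (norm_nonneg _) (by positivity)
          _ = L * c * R := by field_simp
          _ = η / 2 := hcval
      calc ‖((x - x0) + s • A (x - x0)) + (s / r) • e‖ ≤
            ‖(x - x0) + s • A (x - x0)‖ + ‖(s / r) • e‖ := norm_add_le _ _
        _ ≤ η := by linarith
    · have e2 : V (q + r • x) = V q + r • A x + e := by
        rw [he, map_smul]; abel
      have hrr : r * (s / r) = s := by field_simp
      simp only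
      rw [e2, smul_add r, smul_add r, smul_smul r (s / r), hrr, smul_add s, smul_add s, smul_smul,
        smul_smul, mul_comm s r]
      abel
end Crest.Agent.S0326
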