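import Crest.Statements.S0326
import Crest.Agent.S0326_Aux

set_option autoImplicit false
open MeasureTheory
open scoped ENNReal
open Crest Crest.GeometryTopology Crest.GeometryTopology.Convex

namespace Crest.Agent.S0326

lemma exists_finset_small {ι : Type*} (u : Set ι) (hu : u.Countable) (B : ι → Set E2)
    (hB : ∀ a, MeasurableSet (B a)) (D : Set E2) (hD : IsCompact D)
    (h0 : volume (D \ ⋃ a ∈ u, B a) = 0) (η : ℝ≥0∞) (hη : 0 < η) :
    ∃ v : Finset ι, (↑v : Set ι) ⊆ u ∧ volume (D \ ⋃ a ∈ v, B a) < η := by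
  classical
  have : Countable ↥u := hu.to_subtype
  set s : Finset ↥u → Set E2 := fun F => D \ ⋃ a ∈ F, B a.1 with hs
  have hanti : Antitone s := by
    intro F G hFG x hx
    refine ⟨hx.1, fun hx' => hx.2 ?_⟩
    simp only [Set.mem_iUnion] at hx' ⊢
    obtain ⟨a, ha, hxa⟩ := hx'
    exact ⟨a, hFG ha, hxa⟩
  have hmeas : ∀ F, NullMeasurableSet (s F) volume := by
    intro F
    exact (hD.measurableSet.diff (Finset.measurableSet_biUnion F fun a _ => hB a.1)).nullMeasurableSet
  have hfin : ∃ F, volume (s F) ≠ ⊤ :=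
    ⟨∅, (lt_of_le_of_lt (measure_mono Set.diff_subset) hD.measure_lt_top).ne⟩
  have ht := tendsto_measure_iInter_atTop hmeas hanti hfin
  have hI : (⋂ F, s F) ⊆ D \ ⋃ a ∈ u, B a := by
    intro x hx
    rw [Set.mem_iInter] at hx
    refine ⟨(hx ∅).1, fun hx' => ?_⟩
    simp only [Set.mem_iUnion] at hx'
    obtain ⟨a, ha, hxa⟩ := hx'
    refine (hx {⟨a, ha⟩}).2 ?_
    simpa using hxa
  have hI0 : volume (⋂ F, s F) = 0 := measure_mono_null hI h0
  rw [hI0] at ht
  obtain ⟨F, hF⟩ := (ht.eventually (gt_mem_nhds hη)).exists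
  refine ⟨F.map (Function.Embedding.subtype _), ?_, ?_⟩
  · intro a ha
    simp only [Finset.coe_map, Function.Embedding.subtype_apply, Set.mem_image, Finset.mem_coe] at ha
    obtain ⟨b, _, rfl⟩ := ha
    exact b.2
  · have : (⋃ a ∈ F.map (Function.Embedding.subtype _), B a) = ⋃ a ∈ F, B a.1 := by
      ext x
      simp
    rw [this]
    exact hF

lemma main {L h : ℝ} (hL : 0 < L) (D : Set E2) (hD : IsCompact D) (V : E2 → E2) (U : Set E2)
    (hU : IsOpen U) (hDU : D ⊆ U) (hV : ContDiffOn ℝ 1 V U)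
    (htr : ∀ p ∈ D, LinearMap.trace ℝ _ (fderiv ℝ V p).toLinearMap = 0)
    (hdet : ∀ p ∈ D, -(L ^ 2)⁻¹ < LinearMap.det (fderiv ℝ V p).toLinearMap ∧
      LinearMap.det (fderiv ℝ V p).toLinearMap ≤ 0)
    (ε : ℝ) (hε : 0 < ε) : Cov L h V D ((∫ p in D, J h (V p)) + ε) := by
  classical
  -- constants
  set m : ℝ := (volume D).toReal with hm
  have hm0 : 0 ≤ m := ENNReal.toReal_nonneg
  have hDfin : volume D ≠ ⊤ := hD.measure_lt_top.ne
  set δ : ℝ := min 1 (ε / (12 * (m + 1))) with hδdef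
  have hδ : 0 < δ := lt_min one_pos (by positivity)
  have hδ1 : δ ≤ 1 := min_le_left _ _
  have hδ2 : 3 * δ * m ≤ ε / 4 := by
    have h1 : δ ≤ ε / (12 * (m + 1)) := min_le_right _ _
    have h2 : δ * (12 * (m + 1)) ≤ ε := by rwa [le_div_iff₀ (by positivity)] at h1
    nlinarith
  -- local data
  have hloc : ∀ p ∈ D, Nonempty (Loc L h V δ p) := by
    intro p hp
    have hA : HasStrictFDerivAt V (fderiv ℝ V p) p :=
      (hV.contDiffAt (hU.mem_nhds (hDU hp))).hasStrictFDerivAt (by norm_num)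
    exact exists_loc hL hA (hasTile hL _ (htr p hp) (hdet p hp).1 (hdet p hp).2) hδ
  obtain ⟨ld⟩ : Nonempty (∀ p : D, Loc L h V δ p.1) := ⟨fun p => (hloc p.1 p.2).some⟩
  -- finite subcover
  obtain ⟨t0, ht0⟩ : ∃ t0 : Finset D, D ⊆ ⋃ p ∈ t0, Metric.ball p.1 ((ld p).ρ / 2) :=
    hD.elim_finite_subcover (fun p : D => Metric.ball p.1 ((ld p).ρ / 2))
      (fun _ => Metric.isOpen_ball) (by
        intro x hx
        exact Set.mem_iUnion.2 ⟨⟨x, hx⟩, Metric.mem_ball_self (half_pos (ld _).hρ)⟩)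
  -- Lipschitz
  obtain ⟨M, δ0, hM, hδ0, hlip⟩ : ∃ M δ0 : ℝ, 0 ≤ M ∧ 0 < δ0 ∧
      ∀ p ∈ D, ∀ q ∈ D, dist p q < δ0 → dist (V p) (V q) ≤ M * dist p q := by
    obtain ⟨δ0, hδ0, hleb⟩ := lebesgue_number_lemma_of_metric hD
      (c := fun p : t0 => Metric.ball p.1.1 (ld p.1).ρ) (fun _ => Metric.isOpen_ball) (by
        intro x hx
        have := ht0 hx
        simp only [Set.mem_iUnion] at this
        obtain ⟨p, hp, hxp⟩ := this
        refine Set.mem_iUnion.2 ⟨⟨p, hp⟩, ?_⟩
        exact Metric.ball_subset_ball (by have := (ld p).hρ; linarith) hxp)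
    refine ⟨∑ p ∈ t0, (ld p).M, δ0, Finset.sum_nonneg fun p _ => (ld p).hM, hδ0, ?_⟩
    intro p hp q hq hpq
    obtain ⟨i, hi⟩ := hleb p hp
    have h1 := (ld i.1).lip p (hi (Metric.mem_ball_self hδ0)) q
      (hi (by rw [Metric.mem_ball, dist_comm]; exact hpq))
    exact h1.trans (mul_le_mul_of_nonneg_right
      (Finset.single_le_sum (f := fun p => (ld p).M) (fun p _ => (ld p).hM) i.2) dist_nonneg)
  set C2 : ℝ := (1 + 4 * L * M) ^ 2 with hC2
  have hC2pos : 0 < C2 := by
    have : 0 < 1 + 4 * L * M := by positivity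
    positivity
  set η : ℝ := ε / (4 * C2) with hη
  have hηpos : 0 < η := by positivity
  -- the open set
  obtain ⟨O, hDO, hO, hOvol⟩ := hD.exists_isOpen_lt_add (μ := (volume : Measure E2))
    (ε := ENNReal.ofReal (ε / 8)) (by simpa using hε)
  have hOD : volume (O \ D) ≤ ENNReal.ofReal (ε / 8) := by
    rw [measure_diff hDO hD.measurableSet.nullMeasurableSet hDfin]
    exact tsub_le_iff_left.2 hOvol.le
  obtain ⟨r1, hr1, hr1O⟩ := hD.exists_thickening_subset_open hO hDO
  have hVD : ContinuousOn V D := hV.continuousOn.mono hDU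
  have hJV : ContinuousOn (fun x => J h (V x)) D := (J_continuous h).comp_continuousOn hVD
  obtain ⟨r2, hr2, hr2J⟩ := (Metric.uniformContinuousOn_iff.1
    (hD.uniformContinuousOn_of_continuous hJV)) δ hδ
  -- Vitali family
  set rr : ℝ := min r1 r2 with hrr
  have hrrpos : 0 < rr := lt_min hr1 hr2
  set t : Set (D × E2 × ℝ) := {a | a.1 ∈ t0 ∧ a.2.1 ∈ D ∧ dist a.2.1 a.1.1 < (ld a.1).ρ / 2 ∧
    0 < a.2.2 ∧ a.2.2 * (ld a.1).R < (ld a.1).ρ / 2 ∧ a.2.2 * (ld a.1).R < rr} with ht
  set B : D × E2 × ℝ → Set E2 := fun a => dl a.2.1 a.2.2 (ld a.1).T with hB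
  have hBcomp : ∀ a, IsCompact (B a) := fun a => isCompact_dl _ _ (ld a.1).hT
  have hBball' : ∀ a : D × E2 × ℝ, 0 < a.2.2 → dl a.2.1 a.2.2 (ld a.1).T' ⊆
      Metric.closedBall a.2.1 (a.2.2 * (ld a.1).R) := by
    rintro a ha _ ⟨x, hx, rfl⟩
    have := (ld a.1).hT'R hx
    rw [mem_closedBall_zero_iff] at this
    rw [Metric.mem_closedBall, dist_eq_norm]
    simp only [add_sub_cancel_left]
    rw [norm_smul, Real.norm_eq_abs, abs_of_pos ha]
    exact mul_le_mul_of_nonneg_left this ha.le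
  have hBball : ∀ a ∈ t, B a ⊆ Metric.closedBall a.2.1 (a.2.2 * (ld a.1).R) := fun a ha =>
    (dl_mono _ _ (ld a.1).hTT').trans (hBball' a ha.2.2.2.1)
  obtain ⟨u, hut, huc, hud, hu0⟩ := Vitali.exists_disjoint_covering_ae (volume : Measure E2) D t
    (∑ p ∈ t0, (ld p).C) (fun a => a.2.2 * (ld a.1).R) (fun a => a.2.1) B hBball
    (by
      intro a ha
      have hr : 0 < a.2.2 := ha.2.2.2.1
      have hsub : Metric.closedBall a.2.1 (3 * (a.2.2 * (ld a.1).R)) ⊆
          dl a.2.1 a.2.2 (Metric.closedBall 0 (3 * (ld a.1).R)) := by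
        intro y hy
        rw [Metric.mem_closedBall, dist_eq_norm] at hy
        refine ⟨(a.2.2)⁻¹ • (y - a.2.1), ?_, ?_⟩
        · rw [mem_closedBall_zero_iff, norm_smul, norm_inv, Real.norm_eq_abs, abs_of_pos hr,
            inv_mul_le_iff₀ hr]
          linarith
        · simp only
          rw [smul_smul, mul_inv_cancel₀ hr.ne', one_smul]
          abel
      calc volume (Metric.closedBall a.2.1 (3 * (a.2.2 * (ld a.1).R))) ≤
            volume (dl a.2.1 a.2.2 (Metric.closedBall 0 (3 * (ld a.1).R))) := measure_mono hsub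
        _ = ENNReal.ofReal (a.2.2 ^ 2) * volume (Metric.closedBall (0 : E2) (3 * (ld a.1).R)) :=
            volume_dl _ hr _
        _ ≤ ENNReal.ofReal (a.2.2 ^ 2) * ((ld a.1).C * volume (ld a.1).T) := by
            gcongr
            exact (ld a.1).hC
        _ = (ld a.1).C * volume (B a) := by
            rw [hB]; simp only; rw [volume_dl _ hr]; ring
        _ ≤ ↑(∑ p ∈ t0, (ld p).C) * volume (B a) := by
            gcongr
            exact Finset.single_le_sum (f := fun p => (ld p).C) (fun _ _ => zero_le') ha.1)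
    (fun a ha => interior_dl _ ha.2.2.2.1 (ld a.1).hTi)
    (fun a _ => (hBcomp a).isClosed)
    (by
      intro x hx e he
      have := ht0 hx
      simp only [Set.mem_iUnion] at this
      obtain ⟨p, hp, hxp⟩ := this
      have hRp := (ld p).hR
      set w : ℝ := min e (min ((ld p).ρ / 2) rr) with hw
      have hwpos : 0 < w := lt_min he (lt_min (half_pos (ld p).hρ) hrrpos)
      refine ⟨(p, x, w / (2 * (ld p).R)), ?_, ?_, rfl⟩
      · have hval : w / (2 * (ld p).R) * (ld p).R = w / 2 := by field_simp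
        refine ⟨hp, hx, hxp, by positivity, ?_, ?_⟩
        · simp only
          rw [hval]
          have : w ≤ (ld p).ρ / 2 := (min_le_right _ _).trans (min_le_left _ _)
          linarith
        · simp only
          rw [hval]
          have : w ≤ rr := (min_le_right _ _).trans (min_le_right _ _)
          linarith
      · simp only
        have hval : w / (2 * (ld p).R) * (ld p).R = w / 2 := by field_simp
        rw [hval]
        have : w ≤ e := min_le_left _ _
        linarith)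
  obtain ⟨v, hvu, hvη⟩ := exists_finset_small u huc B (fun a => (hBcomp a).measurableSet) D hD hu0
    (ENNReal.ofReal η) (by simpa using hηpos)
  have hvt : ∀ a ∈ v, a ∈ t := fun a ha => hut (hvu ha)
  -- remainder
  set K0 : Set E2 := D \ ⋃ a ∈ v, dl a.2.1 a.2.2 (ld a.1).T' with hK0
  have hK0c : IsCompact K0 := by
    refine hD.diff (isOpen_biUnion fun a ha => ?_)
    exact isOpen_dl _ (hvt a ha).2.2.2.1 (ld a.1).hT'
  have hK0v : volume K0 < ENNReal.ofReal η := by
    refine lt_of_le_of_lt (measure_mono ?_) hvη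
    intro x hx
    refine ⟨hx.1, fun hx' => hx.2 ?_⟩
    simp only [Set.mem_iUnion] at hx' ⊢
    obtain ⟨a, ha, hxa⟩ := hx'
    exact ⟨a, ha, dl_mono _ _ (ld a.1).hTT' hxa⟩
  have hcovK0 : Cov L h V K0 (C2 * η) :=
    cov_small hL hM hδ0 K0 hK0c (fun p hp q hq => hlip p hp.1 q hq.1) η hK0v
  have hcovv : Cov L h V (⋃ a ∈ v, dl a.2.1 a.2.2 (ld a.1).T')
      (∑ a ∈ v, (1 + δ) * (volume (B a)).toReal * J h (V a.2.1)) := by
    refine Cov.biUnion v _ _ fun a ha => ?_
    have := hvt a ha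
    exact (ld a.1).cov a.2.1 a.2.2 this.2.2.2.1 (by linarith [this.2.2.1, this.2.2.2.2.1])
  refine (hcovK0.union hcovv).mono ?_ ?_
  · intro x hx
    by_cases hx' : x ∈ ⋃ a ∈ v, dl a.2.1 a.2.2 (ld a.1).T'
    · exact Or.inr hx'
    · exact Or.inl ⟨hx, hx'⟩
  -- sums
  have hint : IntegrableOn (fun x => J h (V x)) D := hJV.integrableOn_compact hD
  have hint' : IntegrableOn (fun x => J h (V x) + δ) D :=
    (hJV.add continuousOn_const).integrableOn_compact hD
  have hdisj : Set.PairwiseDisjoint (↑v : Set (D × E2 × ℝ)) B := hud.subset hvu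
  have hterm : ∀ a ∈ v, (volume (B a)).toReal * J h (V a.2.1) ≤
      (∫ y in B a ∩ D, (J h (V y) + δ)) + (volume (B a \ D)).toReal := by
    intro a ha
    have hat := hvt a ha
    have hBfin : volume (B a) ≠ ⊤ := (hBcomp a).measure_lt_top.ne
    have hBDfin : volume (B a ∩ D) ≠ ⊤ :=
      (lt_of_le_of_lt (measure_mono Set.inter_subset_left) (hBcomp a).measure_lt_top).ne
    have hBDfin' : volume (B a \ D) ≠ ⊤ :=
      (lt_of_le_of_lt (measure_mono Set.diff_subset) (hBcomp a).measure_lt_top).ne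
    have hsplit : (volume (B a)).toReal = (volume (B a ∩ D)).toReal + (volume (B a \ D)).toReal := by
      rw [← ENNReal.toReal_add hBDfin hBDfin', measure_inter_add_diff _ hD.measurableSet]
    have h1 : (volume (B a ∩ D)).toReal * J h (V a.2.1) ≤ ∫ y in B a ∩ D, (J h (V y) + δ) := by
      have e1 : (volume (B a ∩ D)).toReal * J h (V a.2.1) = ∫ y in B a ∩ D, J h (V a.2.1) := by
        rw [setIntegral_const, smul_eq_mul]; rfl
      rw [e1]
      refine setIntegral_mono_on ?_ (hint'.mono_set Set.inter_subset_right)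
        ((hBcomp a).measurableSet.inter hD.measurableSet) ?_
      · exact integrableOn_const hBDfin
      · intro y hy
        have hdy : dist a.2.1 y < r2 := by
          have := hBball a hat hy.1
          rw [Metric.mem_closedBall, dist_comm] at this
          have h3 := hat.2.2.2.2.2
          have h4 : rr ≤ r2 := min_le_right _ _
          linarith
        have := hr2J _ hat.2.1 y hy.2 hdy
        rw [Real.dist_eq, abs_lt] at this
        linarith [this.2]
    have h2 : (volume (B a \ D)).toReal * J h (V a.2.1) ≤ (volume (B a \ D)).toReal := by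
      have := J_le_one h (V a.2.1)
      nlinarith [ENNReal.toReal_nonneg (a := volume (B a \ D))]
    rw [hsplit, add_mul]
    linarith
  have hsum1 : ∑ a ∈ v, (∫ y in B a ∩ D, (J h (V y) + δ)) ≤ ∫ y in D, (J h (V y) + δ) := by
    rw [← integral_biUnion_finset]
    · refine setIntegral_mono_set hint' ?_ ?_
      · exact Filter.Eventually.of_forall fun y => by
          have := J_pos h (V y)
          simp only [Pi.zero_apply]
          positivity
      · exact (Set.iUnion₂_subset fun a _ => Set.inter_subset_right).eventuallyLE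
    · intro a _
      exact (hBcomp a).measurableSet.inter hD.measurableSet
    · intro a ha b hb hab
      exact (hdisj ha hb hab).mono Set.inter_subset_left Set.inter_subset_left
    · intro a _
      exact hint'.mono_set Set.inter_subset_right
  have hsum2 : ∑ a ∈ v, (volume (B a \ D)).toReal ≤ ε / 8 := by
    have h1 : ∑ a ∈ v, volume (B a \ D) ≤ ENNReal.ofReal (ε / 8) := by
      rw [← measure_biUnion_finset]
      · refine (measure_mono ?_).trans hOD
        refine Set.iUnion₂_subset fun a ha => ?_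
        rintro y ⟨hy, hyD⟩
        refine ⟨hr1O ?_, hyD⟩
        have hat := hvt a ha
        have h2 := hBball a hat hy
        rw [Metric.mem_closedBall] at h2
        rw [Metric.mem_thickening_iff]
        refine ⟨a.2.1, hat.2.1, lt_of_le_of_lt h2 ?_⟩
        exact lt_of_lt_of_le hat.2.2.2.2.2 (min_le_left _ _)
      · intro a ha b hb hab
        exact (hdisj ha hb hab).mono Set.diff_subset Set.diff_subset
      · intro a _
        exact (hBcomp a).measurableSet.diff hD.measurableSet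
    rw [← ENNReal.toReal_sum]
    · exact ENNReal.toReal_le_of_le_ofReal (by positivity) h1
    · intro a _
      exact (lt_of_le_of_lt (measure_mono Set.diff_subset) (hBcomp a).measure_lt_top).ne
  have hIadd : ∫ y in D, (J h (V y) + δ) = (∫ y in D, J h (V y)) + δ * m := by
    rw [integral_add hint (integrableOn_const hDfin), setIntegral_const, smul_eq_mul, mul_comm]
    rfl
  set I : ℝ := ∫ y in D, J h (V y) with hI
  have hIm : I ≤ m := by
    have : I ≤ ∫ y in D, (1 : ℝ) :=
      setIntegral_mono_on hint (integrableOn_const hDfin) hD.measurableSet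
        fun y _ => J_le_one h (V y)
    rw [setIntegral_const, smul_eq_mul, mul_one] at this
    exact this
  have hS : ∑ a ∈ v, (volume (B a)).toReal * J h (V a.2.1) ≤ I + δ * m + ε / 8 := by
    calc ∑ a ∈ v, (volume (B a)).toReal * J h (V a.2.1) ≤
          ∑ a ∈ v, ((∫ y in B a ∩ D, (J h (V y) + δ)) + (volume (B a \ D)).toReal) :=
          Finset.sum_le_sum hterm
      _ = ∑ a ∈ v, (∫ y in B a ∩ D, (J h (V y) + δ)) + ∑ a ∈ v, (volume (B a \ D)).toReal :=
          Finset.sum_add_distrib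
      _ ≤ (I + δ * m) + ε / 8 := by
          rw [← hIadd]
          exact add_le_add hsum1 hsum2
  have hC2η : C2 * η = ε / 4 := by rw [hη]; field_simp
  have hfac : ∑ a ∈ v, (1 + δ) * (volume (B a)).toReal * J h (V a.2.1) =
      (1 + δ) * ∑ a ∈ v, (volume (B a)).toReal * J h (V a.2.1) := by
    rw [Finset.mul_sum]
    exact Finset.sum_congr rfl fun a _ => by ring
  rw [hfac, hC2η]
  have h5 : (1 + δ) * ∑ a ∈ v, (volume (B a)).toReal * J h (V a.2.1) ≤
      (1 + δ) * (I + δ * m + ε / 8) := mul_le_mul_of_nonneg_left hS (by linarith)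
  have h6 : (1 + δ) * (I + δ * m + ε / 8) ≤ I + 3 * δ * m + ε / 4 := by
    have a1 : δ * I ≤ δ * m := mul_le_mul_of_nonneg_left hIm hδ.le
    have a2 : δ * (δ * m) ≤ 1 * (δ * m) := mul_le_mul_of_nonneg_right hδ1 (by positivity)
    have a3 : δ * (ε / 8) ≤ 1 * (ε / 8) := mul_le_mul_of_nonneg_right hδ1 (by positivity)
    nlinarith
  linarith

/-- Let D ⊂ ℝ² be compact, V : ℝ² → ℝ² be C¹ on an open set containing D, and L, h > 0, with tr DV(p) = 0 and −1/L² < det DV(p) ≤ 0 for p ∈ D. Let E ⊂ ℝ × ℝ² be the ruled set of points (s, p + s V(p)), p ∈ D, −L ≤ s ≤ L. For every ε > 0, finitely many squares Tᵢ = cᵢ + [0,1]aᵢ + [0,1]bᵢ (aᵢ ⊥ bᵢ of equal nonzero length) and velocities gᵢ ∈ ℝ² exist whose sheared cylinders {(s, ξ) : ξ ∈ Tᵢ + s gᵢ} cover E, with ∑ᵢ area(Tᵢ) J(gᵢ) ≤ ∫_D J(V(p)) dp + ε, where J(g) = (1 + g₁² + h² g₂²)^(−1/2). -/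
theorem result
    (D : Set (EuclideanSpace ℝ (Fin 2))) (hD : IsCompact D)
    (V : EuclideanSpace ℝ (Fin 2) → EuclideanSpace ℝ (Fin 2)) (U : Set (EuclideanSpace ℝ (Fin 2)))
    (hU : IsOpen U) (hDU : D ⊆ U) (hV : ContDiffOn ℝ 1 V U) (L h : ℝ) (hL : 0 < L) (hh : 0 < h)
    (htr : ∀ p ∈ D, LinearMap.trace ℝ _ (fderiv ℝ V p).toLinearMap = 0)
    (hdet : ∀ p ∈ D, -(L ^ 2)⁻¹ < LinearMap.det (fderiv ℝ V p).toLinearMap ∧
      LinearMap.det (fderiv ℝ V p).toLinearMap ≤ 0)
    (ε : ℝ) (hε : 0 < ε) :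
    ∃ (k : ℕ) (c a b g : Fin k → EuclideanSpace ℝ (Fin 2)),
      (∀ i, a i ≠ 0 ∧ ‖b i‖ = ‖a i‖ ∧ inner ℝ (a i) (b i) = 0) ∧
      {z : ℝ × EuclideanSpace ℝ (Fin 2) | ∃ p ∈ D, abs z.1 ≤ L ∧ z.2 = p + z.1 • V p} ⊆
        ⋃ i, {z : ℝ × EuclideanSpace ℝ (Fin 2) | ∃ x ∈ Set.Icc (0 : ℝ) 1, ∃ y ∈ Set.Icc (0 : ℝ) 1,
          z.2 = c i + x • a i + y • b i + z.1 • g i} ∧
      ∑ i, ‖a i‖ ^ 2 / Real.sqrt (1 + (g i 0) ^ 2 + h ^ 2 * (g i 1) ^ 2) ≤
        (∫ p in D, 1 / Real.sqrt (1 + (V p 0) ^ 2 + h ^ 2 * (V p 1) ^ 2)) + ε := by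
  obtain ⟨ι, _, c, a, b, g, h1, h2, h3⟩ := main (h := h) hL D hD V U hU hDU hV htr hdet ε hε
  refine ⟨Fintype.card ι, fun i => c ((Fintype.equivFin ι).symm i),
    fun i => a ((Fintype.equivFin ι).symm i), fun i => b ((Fintype.equivFin ι).symm i),
    fun i => g ((Fintype.equivFin ι).symm i), fun i => h1 _, ?_, ?_⟩
  · intro z hz
    obtain ⟨i, hi⟩ := Set.mem_iUnion.1 (h2 hz)
    refine Set.mem_iUnion.2 ⟨Fintype.equivFin ι i, ?_⟩
    simp only [Equiv.symm_apply_apply]
    exact hi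
  · refine le_trans (le_of_eq ?_) h3
    rw [← Equiv.sum_comp (Fintype.equivFin ι).symm]
    refine Finset.sum_congr rfl fun i _ => ?_
    unfold J
    rw [mul_one_div]

end Crest.Agent.S0326
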