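import Crest.Agent.S0324

set_option autoImplicit false
open MeasureTheory Measure
open scoped ENNReal

namespace Crest.Agent.S0327

open Crest.Agent.S0325 Crest.Agent.LibArea2

abbrev E3 := EuclideanSpace ℝ (Fin 3)

/-- A linear isometry taking the standard frame to a given orthonormal frame. -/
theorem exists_isometry (f1 f2 f3 : E3) (h1 : ‖f1‖ = 1) (h2 : ‖f2‖ = 1) (h3 : ‖f3‖ = 1)
    (h12 : inner ℝ f1 f2 = 0) (h13 : inner ℝ f1 f3 = 0) (h23 : inner ℝ f2 f3 = 0) :
    ∃ Ψ : E3 ≃ₗᵢ[ℝ] E3, ∀ x : E3, Ψ x = x 0 • f1 + x 1 • f2 + x 2 • f3 := by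
  let L : E3 →ₗ[ℝ] E3 :=
    { toFun := fun x => x 0 • f1 + x 1 • f2 + x 2 • f3
      map_add' := fun x y => by simp only [PiLp.add_apply, add_smul]; abel
      map_smul' := fun c x => by
        simp only [PiLp.smul_apply, smul_eq_mul, mul_smul, smul_add, RingHom.id_apply] }
  have h21 : inner ℝ f2 f1 = 0 := by rw [real_inner_comm]; exact h12
  have h31 : inner ℝ f3 f1 = 0 := by rw [real_inner_comm]; exact h13
  have h32 : inner ℝ f3 f2 = 0 := by rw [real_inner_comm]; exact h23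
  have h11 : inner ℝ f1 f1 = (1 : ℝ) := by rw [real_inner_self_eq_norm_sq, h1]; norm_num
  have h22 : inner ℝ f2 f2 = (1 : ℝ) := by rw [real_inner_self_eq_norm_sq, h2]; norm_num
  have h33 : inner ℝ f3 f3 = (1 : ℝ) := by rw [real_inner_self_eq_norm_sq, h3]; norm_num
  have hn : ∀ x, ‖L x‖ = ‖x‖ := by
    intro x
    have h : ‖L x‖ ^ 2 = ‖x‖ ^ 2 := by
      rw [EuclideanSpace.norm_sq_eq x, Fin.sum_univ_three, ← real_inner_self_eq_norm_sq]
      change inner ℝ (x 0 • f1 + x 1 • f2 + x 2 • f3) (x 0 • f1 + x 1 • f2 + x 2 • f3) = _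
      simp only [inner_add_left, inner_add_right, real_inner_smul_left, real_inner_smul_right,
        h12, h13, h23, h21, h31, h32, h11, h22, h33, Real.norm_eq_abs, sq_abs]
      ring
    exact (pow_left_inj₀ (norm_nonneg _) (norm_nonneg _) (by norm_num)).1 h
  let Li : E3 →ₗᵢ[ℝ] E3 := ⟨L, hn⟩
  refine ⟨Li.toLinearIsometryEquiv rfl, fun x => ?_⟩
  rw [LinearIsometry.coe_toLinearIsometryEquiv]
  rfl

theorem exists_similarity (w : Fin 4 → E3) (ℓ : ℝ) (hℓ : 0 < ℓ)
    (hw : ∀ i j, i ≠ j → dist (w i) (w j) = ℓ) :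
    ∃ (Ψ : E3 ≃ₗᵢ[ℝ] E3) (c : E3),
      convexHull ℝ (Set.range w) = (fun x => c + (ℓ / 2) • Ψ x) '' tetra := by
  have hd : ∀ i j, i ≠ j → inner ℝ (w i - w j) (w i - w j) = ℓ ^ 2 := by
    intro i j hij
    rw [real_inner_self_eq_norm_sq, ← dist_eq_norm, hw i j hij]
  have e01 := hd 0 1 (by decide)
  have e02 := hd 0 2 (by decide)
  have e03 := hd 0 3 (by decide)
  have e12 := hd 1 2 (by decide)
  have e13 := hd 1 3 (by decide)
  have e23 := hd 2 3 (by decide)
  have hs := sqrt2_pos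
  have hs2 := sqrt2_sq
  simp only [inner_sub_left, inner_sub_right, real_inner_comm (w 1) (w 0), real_inner_comm (w 2) (w 0),
    real_inner_comm (w 3) (w 0), real_inner_comm (w 2) (w 1), real_inner_comm (w 3) (w 1),
    real_inner_comm (w 3) (w 2)] at e01 e02 e03 e12 e13 e23
  set f1 : E3 := (1 / ℓ) • (w 0 - w 1) with hf1
  set f2 : E3 := (1 / ℓ) • (w 2 - w 3) with hf2
  set f3 : E3 := (1 / (Real.sqrt 2 * ℓ)) • (w 2 + w 3 - w 0 - w 1) with hf3
  have hℓ0 : ℓ ≠ 0 := hℓ.ne'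
  have n1 : inner ℝ f1 f1 = (1 : ℝ) := by
    rw [hf1]
    simp only [inner_sub_left, inner_sub_right, real_inner_smul_left, real_inner_smul_right,
      real_inner_comm (w 1) (w 0)]
    field_simp
    linarith
  have n2 : inner ℝ f2 f2 = (1 : ℝ) := by
    rw [hf2]
    simp only [inner_sub_left, inner_sub_right, real_inner_smul_left, real_inner_smul_right,
      real_inner_comm (w 3) (w 2)]
    field_simp
    linarith
  have n3 : inner ℝ f3 f3 = (1 : ℝ) := by
    rw [hf3]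
    simp only [inner_sub_left, inner_sub_right, inner_add_left, inner_add_right, real_inner_smul_left,
      real_inner_smul_right, real_inner_comm (w 1) (w 0), real_inner_comm (w 2) (w 0),
      real_inner_comm (w 3) (w 0), real_inner_comm (w 2) (w 1), real_inner_comm (w 3) (w 1),
      real_inner_comm (w 3) (w 2)]
    field_simp
    rw [hs2]
    linarith
  have n12 : inner ℝ f1 f2 = (0 : ℝ) := by
    rw [hf1, hf2]
    simp only [inner_sub_left, inner_sub_right, real_inner_smul_left, real_inner_smul_right,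
      real_inner_comm (w 2) (w 0), real_inner_comm (w 3) (w 0), real_inner_comm (w 2) (w 1),
      real_inner_comm (w 3) (w 1)]
    linear_combination (1 / ℓ * (1 / ℓ) / 2) * (e03 + e12 - e02 - e13)
  have n13 : inner ℝ f1 f3 = (0 : ℝ) := by
    rw [hf1, hf3]
    simp only [inner_sub_left, inner_sub_right, inner_add_right, real_inner_smul_left,
      real_inner_smul_right, real_inner_comm (w 1) (w 0), real_inner_comm (w 2) (w 0),
      real_inner_comm (w 3) (w 0), real_inner_comm (w 2) (w 1), real_inner_comm (w 3) (w 1)]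
    linear_combination (1 / ℓ * (1 / (Real.sqrt 2 * ℓ)) / 2) * (e12 + e13 - e02 - e03)
  have n23 : inner ℝ f2 f3 = (0 : ℝ) := by
    rw [hf2, hf3]
    simp only [inner_sub_left, inner_sub_right, inner_add_right, real_inner_smul_left,
      real_inner_smul_right, real_inner_comm (w 3) (w 2)]
    linear_combination (1 / ℓ * (1 / (Real.sqrt 2 * ℓ)) / 2) * (e02 + e12 - e03 - e13)
  have nn : ∀ f : E3, inner ℝ f f = (1 : ℝ) → ‖f‖ = 1 := by
    intro f hf
    rw [real_inner_self_eq_norm_sq] at hf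
    exact (pow_eq_one_iff_of_nonneg (norm_nonneg _) (by norm_num)).1 hf
  obtain ⟨Ψ, hΨ⟩ := exists_isometry f1 f2 f3 (nn _ n1) (nn _ n2) (nn _ n3) n12 n13 n23
  refine ⟨Ψ, (1 / 2 : ℝ) • (w 0 + w 1), ?_⟩
  let T : E3 →ᵃ[ℝ] E3 := AffineMap.mk (fun x => (1 / 2 : ℝ) • (w 0 + w 1) + (ℓ / 2) • Ψ x)
    ((ℓ / 2) • (Ψ.toLinearEquiv : E3 →ₗ[ℝ] E3)) (by
      intro p v
      simp only [vadd_eq_add, map_add, smul_add, LinearMap.smul_apply]
      change _ = (ℓ / 2) • Ψ v + _
      abel)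
  change _ = T '' tetra
  unfold tetra
  rw [T.image_convexHull]
  congr 1
  have hT : ∀ x : E3, T x = (1 / 2 : ℝ) • (w 0 + w 1) + (ℓ / 2) • Ψ x := fun x => rfl
  have g1 : (ℓ / 2) • f1 = (1 / 2 : ℝ) • (w 0 - w 1) := by
    rw [hf1, smul_smul]; congr 1; field_simp
  have g2 : (ℓ / 2) • f2 = (1 / 2 : ℝ) • (w 2 - w 3) := by
    rw [hf2, smul_smul]; congr 1; field_simp
  have g3 : (ℓ / 2) • Real.sqrt 2 • f3 = (1 / 2 : ℝ) • (w 2 + w 3 - w 0 - w 1) := by
    rw [hf3, smul_smul, smul_smul]; congr 1; field_simp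
  have t0 : T !₂[1, 0, 0] = w 0 := by
    rw [hT, hΨ]
    simp only [Matrix.cons_val_zero, Matrix.cons_val_one, Matrix.cons_val, one_smul, zero_smul,
      add_zero, g1]
    module
  have t1 : T !₂[-1, 0, 0] = w 1 := by
    rw [hT, hΨ]
    simp only [Matrix.cons_val_zero, Matrix.cons_val_one, Matrix.cons_val, neg_smul, one_smul,
      zero_smul, add_zero, smul_neg, g1]
    module
  have t2 : T !₂[0, 1, Real.sqrt 2] = w 2 := by
    rw [hT, hΨ]
    simp only [Matrix.cons_val_zero, Matrix.cons_val_one, Matrix.cons_val, one_smul,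
      zero_smul, zero_add, smul_add, g2, g3]
    module
  have t3 : T !₂[0, -1, Real.sqrt 2] = w 3 := by
    rw [hT, hΨ]
    simp only [Matrix.cons_val_zero, Matrix.cons_val_one, Matrix.cons_val, neg_smul, one_smul,
      zero_smul, zero_add, smul_add, smul_neg, g2, g3]
    module
  rw [Set.image_insert_eq, Set.image_insert_eq, Set.image_insert_eq, Set.image_singleton, t0, t1, t2, t3]
  ext x
  simp only [Set.mem_range, Set.mem_insert_iff, Set.mem_singleton_iff]
  constructor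
  · rintro ⟨i, rfl⟩
    fin_cases i <;> simp
  · rintro (rfl | rfl | rfl | rfl)
    · exact ⟨0, rfl⟩
    · exact ⟨1, rfl⟩
    · exact ⟨2, rfl⟩
    · exact ⟨3, rfl⟩


open scoped Pointwise in
/-- triangle version for an arbitrary regular tetrahedron, plus a lower bound for all projections -/
theorem tri_version (w : Fin 4 → E3) (ℓ : ℝ) (hℓ : 0 < ℓ)
    (hw : ∀ i j, i ≠ j → dist (w i) (w j) = ℓ) :
    (∃ (n : ℕ) (u p q r : Fin n → E3), n = 8000000 ∧ (∀ i, ‖u i‖ = 1) ∧
      (∀ i, inner ℝ (p i) (u i) = 0 ∧ inner ℝ (q i) (u i) = 0 ∧ inner ℝ (r i) (u i) = 0) ∧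
      convexHull ℝ (Set.range w) ⊆
        ⋃ i, {x : E3 | ∃ b ∈ convexHull ℝ {p i, q i, r i}, ∃ t : ℝ, x = b + t • u i} ∧
      ∑ i, (μHE[2] (convexHull ℝ ({p i, q i, r i} : Set E3))).toReal ≤
        (ℓ / 2) ^ 2 * Real.sqrt 2 * (1 / 2 - 13 / 6000 * (1 / 2000) ^ 2)) ∧
    ∀ v : E3, ‖v‖ = 1 → (ℓ / 2) ^ 2 * Real.sqrt 2 ≤
      (μHE[2] ((fun y => y - inner ℝ y v • v) '' convexHull ℝ (Set.range w))).toReal := by
  obtain ⟨Ψ, c, hK⟩ := exists_similarity w ℓ hℓ hw
  have hs := sqrt2_pos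
  constructor
  · obtain ⟨n, u, p, q, r, hn, hu, ho, hcov, hsum⟩ := core_cover'
    have hΨinner : ∀ x y : E3, inner ℝ (Ψ x) (Ψ y) = inner ℝ x y := fun x y => Ψ.inner_map_map x y
    have hu' : ∀ i, ‖Ψ (u i)‖ = 1 := fun i => by rw [Ψ.norm_map]; exact hu i
    have hune : ∀ i, Ψ (u i) ≠ 0 := fun i h => by
      have := hu' i; rw [h] at this; simp at this
    have hbase : ∀ i (z : E3), inner ℝ z (u i) = 0 →
        inner ℝ (pr (Ψ (u i)) c + (ℓ / 2) • Ψ z) (Ψ (u i)) = 0 := by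
      intro i z hz
      rw [inner_add_left, inner_pr _ _ (hune i), real_inner_smul_left, hΨinner, hz]
      ring
    refine ⟨n, fun i => Ψ (u i), fun i => pr (Ψ (u i)) c + (ℓ / 2) • Ψ (p i),
      fun i => pr (Ψ (u i)) c + (ℓ / 2) • Ψ (q i), fun i => pr (Ψ (u i)) c + (ℓ / 2) • Ψ (r i), hn,
      hu', fun i => ⟨hbase i _ (ho i).1, hbase i _ (ho i).2.1, hbase i _ (ho i).2.2⟩, ?_, ?_⟩
    · rw [hK]
      rintro _ ⟨x, hx, rfl⟩
      have := hcov hx
      rw [Set.mem_iUnion] at this ⊢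
      obtain ⟨i, b, hb, t, rfl⟩ := this
      refine ⟨i, pr (Ψ (u i)) c + (ℓ / 2) • Ψ b, ?_,
        inner ℝ c (Ψ (u i)) / ‖Ψ (u i)‖ ^ 2 + (ℓ / 2) * t, ?_⟩
      · rw [mem_convexHull_triple] at hb ⊢
        obtain ⟨s, t, hs, ht, hst, rfl⟩ := hb
        refine ⟨s, t, hs, ht, hst, ?_⟩
        simp only [map_add, map_sub, map_smul]
        module
      · simp only [map_add, map_smul]
        conv_lhs => rw [decomp_pr (Ψ (u i)) c]
        module
    · have harea : ∀ i, (μHE[2] (convexHull ℝ ({pr (Ψ (u i)) c + (ℓ / 2) • Ψ (p i),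
          pr (Ψ (u i)) c + (ℓ / 2) • Ψ (q i), pr (Ψ (u i)) c + (ℓ / 2) • Ψ (r i)} : Set E3))).toReal =
          (ℓ / 2) ^ 2 * (μHE[2] (convexHull ℝ ({p i, q i, r i} : Set E3))).toReal := by
        intro i
        rw [area_triangle_toReal, area_triangle_toReal]
        have h1 : pr (Ψ (u i)) c + (ℓ / 2) • Ψ (q i) - (pr (Ψ (u i)) c + (ℓ / 2) • Ψ (p i)) =
          (ℓ / 2) • Ψ (q i - p i) := by rw [map_sub]; module
        have h2 : pr (Ψ (u i)) c + (ℓ / 2) • Ψ (r i) - (pr (Ψ (u i)) c + (ℓ / 2) • Ψ (p i)) =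
          (ℓ / 2) • Ψ (r i - p i) := by rw [map_sub]; module
        rw [h1, h2, gramArea_smul_smul]
        have h3 : gramArea (Ψ (q i - p i)) (Ψ (r i - p i)) = gramArea (q i - p i) (r i - p i) := by
          unfold gramArea; rw [Ψ.norm_map, Ψ.norm_map, hΨinner]
        rw [h3, abs_of_nonneg (by positivity)]
        ring
      rw [Finset.sum_congr rfl (fun i _ => harea i), ← Finset.mul_sum]
      have := mul_le_mul_of_nonneg_left hsum (sq_nonneg (ℓ / 2))
      linarith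
  · intro v hv
    have hv' : ‖Ψ.symm v‖ = 1 := by rw [Ψ.symm.norm_map]; exact hv
    have hcompact : IsCompact (convexHull ℝ (Set.range w)) :=
      Set.Finite.isCompact_convexHull ℝ (Set.finite_range w)
    have hfin := Crest.Agent.S0324.proj_lt_top v hv _ hcompact
    have h1 := minproj_le (Ψ.symm v) hv'
    have himg : (fun y => y - inner ℝ y v • v) '' convexHull ℝ (Set.range w) =
        (fun y => pr v c + y) '' ((ℓ / 2) • (Ψ '' ((fun y => y - inner ℝ y (Ψ.symm v) • Ψ.symm v) '' tetra))) := by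
      rw [hK, fun_eq_pr v hv, fun_eq_pr _ hv', ← Set.image_smul, Set.image_image, Set.image_image,
        Set.image_image, Set.image_image]
      refine Set.image_congr fun x _ => ?_
      rw [pr_add, pr_smul]
      congr 2
      unfold pr
      rw [map_sub, map_smul, Ψ.apply_symm_apply, hv, hv']
      congr 3
      rw [← Ψ.inner_map_map x, Ψ.apply_symm_apply]
    rw [himg] at hfin ⊢
    rw [(isometry_add_left _).euclideanHausdorffMeasure_image,
      euclideanHausdorffMeasure_smul₀ 2 (by positivity : ℓ / 2 ≠ 0),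
      Ψ.isometry.euclideanHausdorffMeasure_image] at hfin ⊢
    have hreal : ‖ℓ / 2‖₊ ^ 2 • (μHE[2] ((fun y => y - inner ℝ y (Ψ.symm v) • Ψ.symm v) '' tetra)) =
        ENNReal.ofReal ((ℓ / 2) ^ 2) * (μHE[2] ((fun y => y - inner ℝ y (Ψ.symm v) • Ψ.symm v) '' tetra)) := by
      rw [ENNReal.smul_def, smul_eq_mul]
      congr 1
      rw [ENNReal.ofReal_pow (by positivity)]
      push_cast
      congr 1
      exact Real.enorm_of_nonneg (by positivity)
    rw [hreal] at hfin ⊢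
    rw [ENNReal.toReal_mul, ENNReal.toReal_ofReal (sq_nonneg _)]
    apply mul_le_mul_of_nonneg_left _ (sq_nonneg _)
    have h2 := Crest.Agent.S0324.proj_lt_top (Ψ.symm v) hv' _ Crest.Agent.S0324.isCompact_tetra
    rw [← ENNReal.toReal_ofReal hs.le]
    exact ENNReal.toReal_mono h2.ne h1

end Crest.Agent.S0327
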