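import Crest.Statements.S0327
import Crest.Agent.S0327_Aux

set_option autoImplicit false
open MeasureTheory
open scoped ENNReal
open Crest Crest.GeometryTopology Crest.GeometryTopology.Convex

namespace Crest.Agent.S0327

open Crest.Agent.S0325 Crest.Agent.LibArea2 Crest.Agent.LibPlane3

/-- final numerical step -/
theorem final_step {n : ℕ} (f g : Fin n → ℝ) (G : EuclideanSpace ℝ (Fin 3) → ℝ) (m : ℝ) (hm : 0 < m)
    (hf : ∀ i, 0 ≤ f i) (hg : ∀ i, m ≤ g i) (hG : ∀ v, ‖v‖ = 1 → m ≤ G v)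
    (hsum : ∑ i, f i < m / 2) :
    (∃ δ : ℝ, 0 < δ ∧ ∀ v : EuclideanSpace ℝ (Fin 3), ‖v‖ = 1 → (∑ i, f i) + δ ≤ G v / 2) ∧
      ∑ i, f i / g i < 1 / 2 := by
  constructor
  · refine ⟨m / 2 - ∑ i, f i, by linarith, fun v hv => ?_⟩
    have := hG v hv
    linarith
  · have h1 : ∑ i, f i / g i ≤ ∑ i, f i / m := by
      apply Finset.sum_le_sum
      intro i _
      exact div_le_div_of_nonneg_left (hf i) hm (hg i)
    rw [← Finset.sum_div] at h1
    have h2 : (∑ i, f i) / m < 1 / 2 := by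
      rw [div_lt_iff₀ hm]; linarith
    linarith

/-- the columns covering a triangle -/
theorem tri_columns {E : Type*} [NormedAddCommGroup E] [InnerProductSpace ℝ E] (p q r : E) (K : ℕ)
    (hK : 0 < K) {x : E} (hx : x ∈ convexHull ℝ ({p, q, r} : Set E)) :
    ∃ j < K, ∃ s ∈ Set.Icc (0 : ℝ) 1, ∃ t ∈ Set.Icc (0 : ℝ) 1,
      x = (p + ((j : ℝ) / K) • (q - p)) + s • ((1 / (K : ℝ)) • (q - p)) +
        t • ((1 - (j : ℝ) / K) • (r - p)) := by
  rw [mem_convexHull_triple] at hx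
  obtain ⟨s, t, hs, ht, hst, rfl⟩ := hx
  have hK0 : (0 : ℝ) < K := by exact_mod_cast hK
  have hs1 : s ≤ 1 := by linarith
  -- choose j
  obtain ⟨j, hj, hj1, hj2⟩ : ∃ j < K, (j : ℝ) / K ≤ s ∧ s ≤ ((j : ℝ) + 1) / K := by
    by_cases h : ⌊s * K⌋₊ < K
    · refine ⟨⌊s * K⌋₊, h, ?_, ?_⟩
      · rw [div_le_iff₀ hK0]; exact Nat.floor_le (by positivity)
      · rw [le_div_iff₀ hK0]; exact (Nat.lt_floor_add_one _).le
    · push Not at h
      have h1 : (K : ℝ) ≤ s * K := by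
        have : (K : ℝ) ≤ (⌊s * K⌋₊ : ℝ) := by exact_mod_cast h
        exact this.trans (Nat.floor_le (by positivity))
      have h2 : s = 1 := by
        apply le_antisymm hs1
        by_contra hlt; push Not at hlt
        nlinarith
      refine ⟨K - 1, by omega, ?_, ?_⟩
      · rw [div_le_iff₀ hK0, h2, one_mul]
        exact_mod_cast Nat.sub_le K 1
      · rw [le_div_iff₀ hK0, h2, one_mul, Nat.cast_sub hK]; simp
  have hjK : (j : ℝ) + 1 ≤ K := by exact_mod_cast hj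
  have hpos : 0 < 1 - (j : ℝ) / K := by
    rw [sub_pos, div_lt_one hK0]; linarith
  refine ⟨j, hj, K * s - j, ⟨?_, ?_⟩, t / (1 - (j : ℝ) / K), ⟨?_, ?_⟩, ?_⟩
  · rw [div_le_iff₀ hK0] at hj1; linarith
  · rw [le_div_iff₀ hK0] at hj2; linarith
  · positivity
  · rw [div_le_one hpos]; linarith
  · rw [smul_smul (t / (1 - (j : ℝ) / K)), div_mul_cancel₀ _ hpos.ne', smul_smul]
    have : ((K : ℝ) * s - j) * (1 / K) = s - (j : ℝ) / K := by field_simp
    rw [this]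
    module

theorem column_area {E : Type*} [NormedAddCommGroup E] [InnerProductSpace ℝ E] (a b : E) (K : ℕ)
    (hK : 0 < K) :
    ∑ j : Fin K, gramArea ((1 / (K : ℝ)) • a) ((1 - ((j : ℕ) : ℝ) / K) • b) =
      gramArea a b / 2 * (1 + 1 / K) := by
  have hK0 : (0 : ℝ) < K := by exact_mod_cast hK
  have h1 : ∀ j : Fin K, gramArea ((1 / (K : ℝ)) • a) ((1 - ((j : ℕ) : ℝ) / K) • b) =
      gramArea a b * (1 / K * (1 - ((j : ℕ) : ℝ) / K)) := by
    intro j
    have hj : ((j : ℕ) : ℝ) ≤ K := by exact_mod_cast j.2.le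
    have : 0 ≤ 1 - ((j : ℕ) : ℝ) / K := by
      rw [sub_nonneg, div_le_one hK0]; exact hj
    rw [gramArea_smul_smul, abs_of_nonneg (by positivity)]
    ring
  simp_rw [h1]
  rw [← Finset.mul_sum, Fin.sum_univ_eq_sum_range (fun j : ℕ => 1 / (K : ℝ) * (1 - (j : ℝ) / K)),
    ← Finset.mul_sum, Finset.sum_sub_distrib, ← Finset.sum_div]
  have h2 : (∑ j ∈ Finset.range K, (j : ℝ)) = K * (K - 1) / 2 := by
    have h3 := Finset.sum_range_id_mul_two K
    have h4 : ((∑ j ∈ Finset.range K, j : ℕ) : ℝ) * 2 = K * (K - 1) := by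
      have : (((∑ j ∈ Finset.range K, j) * 2 : ℕ) : ℝ) = ((K * (K - 1) : ℕ) : ℝ) := by rw [h3]
      push_cast [Nat.cast_sub hK] at this
      push_cast
      linarith
    push_cast at h4
    linarith
  rw [h2]
  simp only [Finset.sum_const, Finset.card_range, nsmul_eq_mul, mul_one]
  field_simp
  ring

theorem col_sum (n K : ℕ) (hKpos : 0 < K) (p q r : Fin n → E3) (i : Fin n)
    (A B : Fin n × Fin K → E3) (hA : A = fun z => (1 / (K : ℝ)) • (q z.1 - p z.1))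
    (hB : B = fun z => (1 - ((z.2 : ℕ) : ℝ) / K) • (r z.1 - p z.1)) :
    ∑ y : Fin K, gramArea (A (i, y)) (B (i, y)) = gramArea (q i - p i) (r i - p i) / 2 * (1 + 1 / (K:ℝ)) := by
  rw [hA, hB]
  exact column_area (q i - p i) (r i - p i) K hKpos

theorem part1 {n : ℕ} (K : ℕ) (hKpos : 0 < K) (X : Set E3) (u p q r : Fin n → E3)
    (hu : ∀ i, ‖u i‖ = 1)
    (ho : ∀ i, inner ℝ (p i) (u i) = 0 ∧ inner ℝ (q i) (u i) = 0 ∧ inner ℝ (r i) (u i) = 0)
    (hcov : X ⊆ ⋃ i, {x : E3 | ∃ b ∈ convexHull ℝ {p i, q i, r i}, ∃ t : ℝ, x = b + t • u i}) :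
    ∃ (k : ℕ) (u' c a b : Fin k → E3), (∀ i, ‖u' i‖ = 1) ∧
      (∀ i, inner ℝ (c i) (u' i) = 0 ∧ inner ℝ (a i) (u' i) = 0 ∧ inner ℝ (b i) (u' i) = 0) ∧
      X ⊆ ⋃ i, {x : E3 | ∃ s ∈ Set.Icc (0 : ℝ) 1, ∃ t ∈ Set.Icc (0 : ℝ) 1, ∃ τ : ℝ,
        x = c i + s • a i + t • b i + τ • u' i} ∧
      ∑ i, gramArea (a i) (b i) =
        (∑ i, (μHE[2] (convexHull ℝ ({p i, q i, r i} : Set E3))).toReal) * (1 + 1 / (K : ℝ)) := by
  obtain ⟨idx⟩ : Nonempty (Fin (n * K) ≃ Fin n × Fin K) := ⟨finProdFinEquiv.symm⟩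
  obtain ⟨C, hC⟩ : ∃ C : Fin n × Fin K → E3, C = fun z => p z.1 + (((z.2 : ℕ) : ℝ) / K) • (q z.1 - p z.1) :=
    ⟨_, rfl⟩
  obtain ⟨A, hA⟩ : ∃ A : Fin n × Fin K → E3, A = fun z => (1 / (K : ℝ)) • (q z.1 - p z.1) := ⟨_, rfl⟩
  obtain ⟨B, hB⟩ : ∃ B : Fin n × Fin K → E3, B = fun z => (1 - ((z.2 : ℕ) : ℝ) / K) • (r z.1 - p z.1) :=
    ⟨_, rfl⟩
  refine ⟨n * K, fun i => u (idx i).1, fun i => C (idx i), fun i => A (idx i), fun i => B (idx i),
    fun i => hu _, ?_, ?_, ?_⟩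
  · intro i
    obtain ⟨h1, h2, h3⟩ := ho (idx i).1
    rw [hC, hA, hB]
    refine ⟨?_, ?_, ?_⟩
    · simp only [inner_add_left, real_inner_smul_left, inner_sub_left, h1, h2]; ring
    · simp only [real_inner_smul_left, inner_sub_left, h1, h2]; ring
    · simp only [real_inner_smul_left, inner_sub_left, h1, h3]; ring
  · intro x hx
    have := hcov hx
    rw [Set.mem_iUnion] at this ⊢
    obtain ⟨i, b, hb, τ, rfl⟩ := this
    obtain ⟨j, hj, s, hs', t, ht', hb'⟩ := tri_columns (p i) (q i) (r i) K hKpos hb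
    refine ⟨idx.symm (i, ⟨j, hj⟩), s, hs', t, ht', τ, ?_⟩
    rw [hC, hA, hB]
    simp only [Equiv.apply_symm_apply]
    rw [← hb']
  · rw [Equiv.sum_comp idx (fun z => gramArea (A z) (B z)), Fintype.sum_prod_type, Finset.sum_mul]
    refine Finset.sum_congr rfl fun i _ => ?_
    rw [area_triangle_toReal]
    exact col_sum n K hKpos p q r i A B hA hB

/-- Let K ⊂ ℝ³ be a regular tetrahedron (convex hull of four points with equal pairwise distances ℓ > 0); areas are Lebesgue-normalised 2-dimensional Hausdorff measure, π_v y = y − ⟪y, v⟫ v. (1) Finitely many cylinders Bᵢ + ℝ uᵢ, ‖uᵢ‖ = 1, with parallelogram bases Bᵢ = cᵢ + [0,1]aᵢ + [0,1]bᵢ in uᵢ^⊥ cover K, ∑ᵢ area(Bᵢ) being below half of area(π_v K) by a positive margin for all unit v, and ∑ᵢ area(Bᵢ)/area(π_{uᵢ} K) < 1/2. (2) The same with bounded relatively open subsets of the uᵢ^⊥ as bases. -/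
theorem result
    (w : Fin 4 → EuclideanSpace ℝ (Fin 3)) (ℓ : ℝ) (hℓ : 0 < ℓ)
    (hw : ∀ i j, i ≠ j → dist (w i) (w j) = ℓ) :
    (∃ (k : ℕ) (u c a b : Fin k → EuclideanSpace ℝ (Fin 3)),
      (∀ i, ‖u i‖ = 1) ∧
      (∀ i, inner ℝ (c i) (u i) = 0 ∧ inner ℝ (a i) (u i) = 0 ∧ inner ℝ (b i) (u i) = 0) ∧
      convexHull ℝ (Set.range w) ⊆ ⋃ i, {x : EuclideanSpace ℝ (Fin 3) |
        ∃ s ∈ Set.Icc (0 : ℝ) 1, ∃ t ∈ Set.Icc (0 : ℝ) 1, ∃ τ : ℝ, x = c i + s • a i + t • b i + τ • u i} ∧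
      (∃ δ : ℝ, 0 < δ ∧ ∀ v : EuclideanSpace ℝ (Fin 3), ‖v‖ = 1 →
        (∑ i, (μHE[2] {x : EuclideanSpace ℝ (Fin 3) |
            ∃ s ∈ Set.Icc (0 : ℝ) 1, ∃ t ∈ Set.Icc (0 : ℝ) 1, x = c i + s • a i + t • b i}).toReal) + δ ≤
          (μHE[2] ((fun y => y - inner ℝ y v • v) '' convexHull ℝ (Set.range w))).toReal / 2) ∧
      ∑ i, (μHE[2] {x : EuclideanSpace ℝ (Fin 3) |
            ∃ s ∈ Set.Icc (0 : ℝ) 1, ∃ t ∈ Set.Icc (0 : ℝ) 1, x = c i + s • a i + t • b i}).toReal /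
          (μHE[2] ((fun y => y - inner ℝ y (u i) • u i) '' convexHull ℝ (Set.range w))).toReal < 1 / 2) ∧
    (∃ (k : ℕ) (u : Fin k → EuclideanSpace ℝ (Fin 3)) (B : Fin k → Set (EuclideanSpace ℝ (Fin 3))),
      (∀ i, ‖u i‖ = 1) ∧
      (∀ i, Bornology.IsBounded (B i) ∧ ∃ O : Set (EuclideanSpace ℝ (Fin 3)), IsOpen O ∧
        B i = O ∩ {x | inner ℝ x (u i) = 0}) ∧
      convexHull ℝ (Set.range w) ⊆
        ⋃ i, {x : EuclideanSpace ℝ (Fin 3) | ∃ y ∈ B i, ∃ τ : ℝ, x = y + τ • u i} ∧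
      (∃ δ : ℝ, 0 < δ ∧ ∀ v : EuclideanSpace ℝ (Fin 3), ‖v‖ = 1 →
        (∑ i, (μHE[2] (B i)).toReal) + δ ≤
          (μHE[2] ((fun y => y - inner ℝ y v • v) '' convexHull ℝ (Set.range w))).toReal / 2) ∧
      ∑ i, (μHE[2] (B i)).toReal /
          (μHE[2] ((fun y => y - inner ℝ y (u i) • u i) '' convexHull ℝ (Set.range w))).toReal < 1 / 2) := by
  obtain ⟨⟨n, u, p, q, r, hn, hu, ho, hcov, hsum⟩, hmin⟩ := tri_version w ℓ hℓ hw
  have hs := sqrt2_pos
  set m := (ℓ / 2) ^ 2 * Real.sqrt 2 with hm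
  have hmpos : 0 < m := by positivity
  set S := ∑ i, (μHE[2] (convexHull ℝ ({p i, q i, r i} : Set E3))).toReal with hS
  have hS0 : 0 ≤ S := Finset.sum_nonneg fun i _ => ENNReal.toReal_nonneg
  constructor
  · obtain ⟨K, hKpos, hK⟩ : ∃ K : ℕ, 0 < K ∧ S * (1 + 1 / (K : ℝ)) < m / 2 := by
      refine ⟨10 ^ 10, by norm_num, ?_⟩
      have h1 : S * (1 + 1 / ((10 ^ 10 : ℕ) : ℝ)) ≤
          m * (1 / 2 - 13 / 6000 * (1 / 2000) ^ 2) * (1 + 1 / ((10 ^ 10 : ℕ) : ℝ)) :=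
        mul_le_mul_of_nonneg_right hsum (by positivity)
      refine lt_of_le_of_lt h1 ?_
      rw [mul_assoc]
      have : m / 2 = m * (1 / 2) := by ring
      rw [this]
      apply mul_lt_mul_of_pos_left _ hmpos
      norm_num
    obtain ⟨k, u', c, a, b, hu', ho', hcov', hsum'⟩ := part1 K hKpos _ u p q r hu ho hcov
    refine ⟨k, u', c, a, b, hu', ho', hcov', ?_⟩
    have hfin := final_step
      (fun i => (μHE[2] {x : EuclideanSpace ℝ (Fin 3) |
          ∃ s ∈ Set.Icc (0 : ℝ) 1, ∃ t ∈ Set.Icc (0 : ℝ) 1, x = c i + s • a i + t • b i}).toReal)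
      (fun i => (μHE[2] ((fun y => y - inner ℝ y (u' i) • u' i) ''
        convexHull ℝ (Set.range w))).toReal)
      (fun v => (μHE[2] ((fun y => y - inner ℝ y v • v) '' convexHull ℝ (Set.range w))).toReal)
      m hmpos (fun i => ENNReal.toReal_nonneg) (fun i => hmin _ (hu' _)) hmin
      (by
        rw [Finset.sum_congr rfl (fun i _ => area_parallelogram_toReal (c i) (a i) (b i)), hsum']
        exact hK)
    exact hfin
  · have hSm : S < m / 2 := by
      have : m * (1 / 2 - 13 / 6000 * (1 / 2000) ^ 2) < m / 2 := by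
        have : m / 2 = m * (1 / 2) := by ring
        rw [this]
        apply mul_lt_mul_of_pos_left _ hmpos
        norm_num
      linarith
    have hnpos : (0 : ℝ) < n := by rw [hn]; norm_num
    set η := (m / 2 - S) / (2 * n) with hη
    have hηpos : 0 < η := div_pos (by linarith) (by positivity)
    have hex : ∀ i, ∃ B' : Set E3, Bornology.IsBounded B' ∧
        (∃ O : Set E3, IsOpen O ∧ B' = O ∩ {x | inner ℝ x (u i) = 0}) ∧
        convexHull ℝ ({p i, q i, r i} : Set E3) ⊆ B' ∧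
        (μHE[2] B').toReal ≤ (μHE[2] (convexHull ℝ ({p i, q i, r i} : Set E3))).toReal + η := by
      intro i
      apply exists_open_base (u i) (hu i) _ (Set.Finite.isCompact_convexHull ℝ (Set.toFinite _)) _ η hηpos
      intro x hx
      rw [mem_convexHull_triple] at hx
      obtain ⟨s, t, _, _, _, rfl⟩ := hx
      obtain ⟨h1, h2, h3⟩ := ho i
      simp only [inner_add_left, real_inner_smul_left, inner_sub_left, h1, h2, h3]; ring
    choose B hBb hBo hBsub hBarea using hex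
    refine ⟨n, u, B, hu, fun i => ⟨hBb i, hBo i⟩, ?_, ?_⟩
    · intro x hx
      have := hcov hx
      rw [Set.mem_iUnion] at this ⊢
      obtain ⟨i, b, hb, τ, rfl⟩ := this
      exact ⟨i, b, hBsub i hb, τ, rfl⟩
    · have hfin := final_step (fun i => (μHE[2] (B i)).toReal)
        (fun i => (μHE[2] ((fun y => y - inner ℝ y (u i) • u i) ''
          convexHull ℝ (Set.range w))).toReal)
        (fun v => (μHE[2] ((fun y => y - inner ℝ y v • v) '' convexHull ℝ (Set.range w))).toReal)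
        m hmpos (fun i => ENNReal.toReal_nonneg) (fun i => hmin _ (hu _)) hmin
        (by
          have h1 : ∑ i, (μHE[2] (B i)).toReal ≤ S + n * η := by
            refine (Finset.sum_le_sum fun i _ => hBarea i).trans ?_
            rw [Finset.sum_add_distrib, Finset.sum_const, Finset.card_univ, Fintype.card_fin,
              nsmul_eq_mul]
          have h2 : (n : ℝ) * η = (m / 2 - S) / 2 := by
            rw [hη]; field_simp
          linarith)
      exact hfin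

end Crest.Agent.S0327
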