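import Mathlib
import Crest.Agent.LibArea2

set_option autoImplicit false
open MeasureTheory Measure
open scoped ENNReal
open Crest.Agent.LibArea2

namespace Crest.Agent.S0328

abbrev E3 := EuclideanSpace ℝ (Fin 3)

theorem exists_coords (e a b x : E3) (he : ‖e‖ = 1) (ha : inner ℝ a e = 0) (hb : inner ℝ b e = 0)
    (hx : inner ℝ x e = 0) (hab : LinearIndependent ℝ ![a, b]) :
    ∃ α β : ℝ, x = α • a + β • b := by
  have hee : inner ℝ e e = (1 : ℝ) := by rw [real_inner_self_eq_norm_sq, he]; norm_num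
  have hli : LinearIndependent ℝ ![e, a, b] := by
    have : (![e, a, b] : Fin 3 → E3) = Fin.cons e ![a, b] := rfl
    rw [this, linearIndependent_finCons]
    refine ⟨hab, ?_⟩
    intro h
    rw [Matrix.range_cons, Matrix.range_cons, Matrix.range_empty, Set.union_empty,
      Set.singleton_union, Submodule.mem_span_pair] at h
    obtain ⟨r, s, hrs⟩ := h
    have : inner ℝ e e = (0 : ℝ) := by
      nth_rw 1 [← hrs]
      rw [inner_add_left, real_inner_smul_left, real_inner_smul_left, ha, hb]
      simp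
    rw [hee] at this
    exact one_ne_zero this
  have hs := hli.span_eq_top_of_card_eq_finrank (by simp)
  have hx' : x ∈ Submodule.span ℝ (Set.range ![e, a, b]) := by rw [hs]; trivial
  rw [Matrix.range_cons, Matrix.range_cons, Matrix.range_cons, Matrix.range_empty, Set.union_empty,
    Set.singleton_union, Set.singleton_union, Submodule.mem_span_triple] at hx'
  obtain ⟨r, s, t, hrst⟩ := hx'
  have : r = 0 := by
    have h1 : inner ℝ x e = r := by
      rw [← hrst, inner_add_left, inner_add_left, real_inner_smul_left, real_inner_smul_left,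
        real_inner_smul_left, ha, hb, hee]
      ring
    rw [← h1, hx]
  refine ⟨s, t, ?_⟩
  rw [← hrst, this]
  simp

theorem gramArea_self (v : E3) : gramArea v v = 0 := by
  unfold gramArea
  rw [real_inner_self_eq_norm_sq]
  rw [show ‖v‖ ^ 2 * ‖v‖ ^ 2 - (‖v‖ ^ 2) ^ 2 = 0 by ring, Real.sqrt_zero]

theorem affineIndependent_of_gramArea {p q r : E3} (h : gramArea (q - p) (r - p) ≠ 0) :
    AffineIndependent ℝ ![p, q, r] := by
  rw [affineIndependent_iff_not_collinear_set]
  intro hc
  rw [collinear_iff_of_mem (p₀ := p) (by simp)] at hc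
  obtain ⟨v, hv⟩ := hc
  obtain ⟨r1, h1⟩ := hv q (by simp)
  obtain ⟨r2, h2⟩ := hv r (by simp)
  apply h
  have e1 : q - p = r1 • v := by rw [h1]; simp
  have e2 : r - p = r2 • v := by rw [h2]; simp
  rw [e1, e2, gramArea_smul_smul, gramArea_self, mul_zero]

theorem gramArea_pos_of_li {a b : E3} (hab : LinearIndependent ℝ ![a, b]) : 0 < gramArea a b := by
  have h0 := gramArea_nonneg a b
  rcases h0.lt_or_eq with h | h
  · exact h
  · exfalso
    have hsq := gramArea_sq a b
    rw [← h] at hsq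
    have h1 : inner ℝ a b ^ 2 = (‖a‖ * ‖b‖) ^ 2 := by nlinarith
    rw [sq_eq_sq_iff_abs_eq_abs, abs_of_nonneg (by positivity : 0 ≤ ‖a‖ * ‖b‖)] at h1
    have ha : a ≠ 0 := hab.ne_zero 0
    have hb : b ≠ 0 := hab.ne_zero 1
    have := (abs_real_inner_div_norm_mul_norm_eq_one_iff a b).1 (by
      rw [abs_div, h1, abs_of_nonneg (by positivity : 0 ≤ ‖a‖ * ‖b‖)]
      exact div_self (by positivity))
    obtain ⟨_, r, _, hr⟩ := this
    rw [LinearIndependent.pair_iff] at hab
    have := hab r (-1) (by rw [hr]; simp)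
    norm_num at this

/-- a planar triangle in affine coordinates -/
theorem tri_mem (p₀ a b : E3) {t0 t1 X0 Y0 W X Y : ℝ} (ht : t0 < t1) (hW : 0 < W)
    (_h1 : X0 ≤ X) (h2 : X ≤ X0 + W) (h3 : Y0 + t0 * (X - X0) ≤ Y) (h4 : Y ≤ Y0 + t1 * (X - X0)) :
    p₀ + X • a + Y • b ∈ convexHull ℝ ({p₀ + X0 • a + Y0 • b,
      p₀ + (X0 + W) • a + (Y0 + t0 * W) • b, p₀ + (X0 + W) • a + (Y0 + t1 * W) • b} : Set E3) := by
  rw [mem_convexHull_triple]
  have hd : 0 < t1 - t0 := by linarith
  refine ⟨(Y0 + t1 * (X - X0) - Y) / (W * (t1 - t0)), (Y - Y0 - t0 * (X - X0)) / (W * (t1 - t0)),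
    div_nonneg (by linarith) (by positivity), div_nonneg (by linarith) (by positivity), ?_, ?_⟩
  · rw [← add_div, div_le_one (by positivity)]
    nlinarith
  · have e1 : p₀ + (X0 + W) • a + (Y0 + t0 * W) • b - (p₀ + X0 • a + Y0 • b) =
        W • a + (t0 * W) • b := by
      simp only [add_smul]; abel
    have e2 : p₀ + (X0 + W) • a + (Y0 + t1 * W) • b - (p₀ + X0 • a + Y0 • b) =
        W • a + (t1 * W) • b := by
      simp only [add_smul]; abel
    rw [e1, e2]
    simp only [smul_add, smul_smul]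
    have hX : X = X0 + (Y0 + t1 * (X - X0) - Y) / (W * (t1 - t0)) * W +
        (Y - Y0 - t0 * (X - X0)) / (W * (t1 - t0)) * W := by
      field_simp
      ring
    have hY : Y = Y0 + (Y0 + t1 * (X - X0) - Y) / (W * (t1 - t0)) * (t0 * W) +
        (Y - Y0 - t0 * (X - X0)) / (W * (t1 - t0)) * (t1 * W) := by
      field_simp
      ring
    generalize (Y0 + t1 * (X - X0) - Y) / (W * (t1 - t0)) = s at hX hY ⊢
    generalize (Y - Y0 - t0 * (X - X0)) / (W * (t1 - t0)) = t at hX hY ⊢
    rw [hX]
    nth_rw 1 [hY]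
    rw [← hX]
    conv_lhs => rw [hX]
    simp only [add_smul]
    abel

/-- conversely, for the triangle with apex at the origin -/
theorem tri_sub (p₀ a b : E3) {t0 t1 W : ℝ} (ht : t0 < t1) (hW : 0 ≤ W) {x : E3}
    (hx : x ∈ convexHull ℝ ({p₀ + (0 : ℝ) • a + (0 : ℝ) • b,
      p₀ + (0 + W) • a + (0 + t0 * W) • b, p₀ + (0 + W) • a + (0 + t1 * W) • b} : Set E3)) :
    ∃ τ ∈ Set.Icc t0 t1, ∃ ρ ∈ Set.Icc 0 W, x = p₀ + ρ • (a + τ • b) := by
  rw [mem_convexHull_triple] at hx
  obtain ⟨s, t, hs, ht', hst, rfl⟩ := hx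
  have e1 : p₀ + (0 + W) • a + (0 + t0 * W) • b - (p₀ + (0 : ℝ) • a + (0 : ℝ) • b) =
      W • a + (t0 * W) • b := by
    simp only [add_smul, zero_smul, zero_add]; abel
  have e2 : p₀ + (0 + W) • a + (0 + t1 * W) • b - (p₀ + (0 : ℝ) • a + (0 : ℝ) • b) =
      W • a + (t1 * W) • b := by
    simp only [add_smul, zero_smul, zero_add]; abel
  rw [e1, e2]
  rcases (add_nonneg hs ht').lt_or_eq with h | h
  · refine ⟨(s * t0 + t * t1) / (s + t), ⟨?_, ?_⟩, (s + t) * W, ⟨by positivity, ?_⟩, ?_⟩
    · rw [le_div_iff₀ h]; nlinarith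
    · rw [div_le_iff₀ h]; nlinarith
    · nlinarith
    · have : (s + t) * W * ((s * t0 + t * t1) / (s + t)) = (s * t0 + t * t1) * W := by
        field_simp
      simp only [smul_add, smul_smul, this]
      simp only [add_smul, zero_smul, add_mul, mul_add, add_zero]
      rw [show s * (t0 * W) = s * t0 * W by ring, show t * (t1 * W) = t * t1 * W by ring]
      abel
  · have hs0 : s = 0 := by linarith
    have ht0 : t = 0 := by linarith
    refine ⟨t0, ⟨le_rfl, ht.le⟩, 0, ⟨le_rfl, hW⟩, ?_⟩
    rw [hs0, ht0]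
    simp

theorem area_pr_tri (e p₀ a b wc : E3) (he : ‖e‖ = 1) (ha : inner ℝ a e = 0) (hb : inner ℝ b e = 0)
    {α β : ℝ} (hwc : wc = α • a + β • b) (t0 t1 X0 Y0 W : ℝ) (ht : t0 ≤ t1) :
    gramArea (pr (e + wc) (p₀ + (X0 + W) • a + (Y0 + t0 * W) • b) - pr (e + wc) (p₀ + X0 • a + Y0 • b))
      (pr (e + wc) (p₀ + (X0 + W) • a + (Y0 + t1 * W) • b) - pr (e + wc) (p₀ + X0 • a + Y0 • b)) =
      W ^ 2 * (t1 - t0) * (gramArea a b / ‖e + wc‖) := by
  rw [← pr_sub, ← pr_sub]
  have e1 : p₀ + (X0 + W) • a + (Y0 + t0 * W) • b - (p₀ + X0 • a + Y0 • b) =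
      W • a + (t0 * W) • b := by
    simp only [add_smul]; abel
  have e2 : p₀ + (X0 + W) • a + (Y0 + t1 * W) • b - (p₀ + X0 • a + Y0 • b) =
      W • a + (t1 * W) • b := by
    simp only [add_smul]; abel
  rw [e1, e2]
  simp only [pr_add, pr_smul]
  rw [gramArea_comb, hwc, gramArea_pr e a b α β he ha hb]
  congr 1
  rw [show W * (t1 * W) - t0 * W * W = W ^ 2 * (t1 - t0) by ring]
  exact abs_of_nonneg (mul_nonneg (sq_nonneg _) (by linarith))

/-- integral representation of the direction field -/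
theorem dir_repr (a b : E3) {α β : ℝ} (hαβ : α < β) (w : ℝ → E3) (lam : ℝ → ℝ)
    (hlam : ContinuousOn lam (Set.Icc α β))
    (hw' : ∀ t ∈ Set.Icc α β, HasDerivWithinAt w (lam t • (a + t • b)) (Set.Icc α β) t) :
    ∃ M : ℝ, 0 ≤ M ∧ ∀ c ∈ Set.Icc α β, ∀ τ ∈ Set.Icc α β, ∃ L0 Er : ℝ,
      w τ = w c + L0 • a + (τ * L0 + Er) • b ∧ |L0| ≤ M * |τ - c| ∧ |Er| ≤ M * |τ - c| ^ 2 := by
  obtain ⟨M0, hM0⟩ := isCompact_Icc.exists_bound_of_continuousOn hlam
  have hM : 0 ≤ M0 := le_trans (norm_nonneg _) (hM0 α ⟨le_rfl, hαβ.le⟩)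
  set l : ℝ → ℝ := Set.IccExtend hαβ.le ((Set.Icc α β).domRestrict lam) with hl
  have hlc : Continuous l := by
    rw [hl]
    exact (continuousOn_iff_continuous_domRestrict.1 hlam).Icc_extend'
  have hle : ∀ t ∈ Set.Icc α β, l t = lam t := by
    intro t ht
    rw [hl, Set.IccExtend_of_mem _ _ ht]
    rfl
  have hlb : ∀ t, |l t| ≤ M0 := by
    intro t
    rw [hl]
    simp only [Set.IccExtend, Function.comp, Set.domRestrict_apply]
    exact hM0 _ (Set.projIcc α β hαβ.le t).2
  have hF : ∀ t ∈ Set.Icc α β, w t = w α + (∫ u in α..t, l u) • a + (∫ u in α..t, u * l u) • b := by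
    have key := constant_of_has_deriv_right_zero (a := α) (b := β)
      (f := fun t => w t - ((∫ u in α..t, l u) • a + (∫ u in α..t, u * l u) • b)) ?_ ?_
    · intro t ht
      have := key t ht
      simp only [intervalIntegral.integral_same, zero_smul, add_zero, sub_zero] at this
      rw [sub_eq_iff_eq_add] at this
      rw [this]; abel
    · apply ContinuousOn.sub
      · exact fun t ht => (hw' t ht).continuousWithinAt
      · apply Continuous.continuousOn
        apply Continuous.add
        · exact (intervalIntegral.continuous_primitive (fun _ _ => hlc.intervalIntegrable _ _) α).smul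
            continuous_const
        · exact (intervalIntegral.continuous_primitive
            (fun _ _ => (continuous_id.mul hlc).intervalIntegrable _ _) α).smul continuous_const
    · intro t ht
      have h1 : HasDerivWithinAt w (lam t • (a + t • b)) (Set.Ici t) t := by
        refine (hw' t ⟨ht.1, ht.2.le⟩).mono_of_mem_nhdsWithin ?_
        exact Filter.mem_of_superset (Icc_mem_nhdsGE ht.2) (Set.Icc_subset_Icc_left ht.1)
      have h2 : HasDerivAt (fun t => ∫ u in α..t, l u) (l t) t :=
        hlc.integral_hasStrictDerivAt α t |>.hasDerivAt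
      have h3 : HasDerivAt (fun t => ∫ u in α..t, u * l u) (t * l t) t :=
        (continuous_id.mul hlc).integral_hasStrictDerivAt α t |>.hasDerivAt
      have h4 := h1.sub (((h2.smul_const a).add (h3.smul_const b)).hasDerivWithinAt (s := Set.Ici t))
      refine HasDerivWithinAt.congr_deriv (f := fun t => w t -
        ((∫ u in α..t, l u) • a + (∫ u in α..t, u * l u) • b)) h4 ?_
      rw [hle t ⟨ht.1, ht.2.le⟩, smul_add, smul_smul, mul_comm (lam t) t]
      simp
  refine ⟨M0, hM, ?_⟩
  intro c hc τ hτ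
  refine ⟨∫ u in c..τ, l u, ∫ u in c..τ, (u - τ) * l u, ?_, ?_, ?_⟩
  · rw [hF τ hτ, hF c hc]
    have i1 : (∫ u in α..τ, l u) = (∫ u in α..c, l u) + ∫ u in c..τ, l u :=
      (intervalIntegral.integral_add_adjacent_intervals (hlc.intervalIntegrable _ _)
        (hlc.intervalIntegrable _ _)).symm
    have i2 : (∫ u in α..τ, u * l u) = (∫ u in α..c, u * l u) + ∫ u in c..τ, u * l u :=
      (intervalIntegral.integral_add_adjacent_intervals
        ((continuous_id.mul hlc).intervalIntegrable _ _)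
        ((continuous_id.mul hlc).intervalIntegrable _ _)).symm
    have i3 : (∫ u in c..τ, u * l u) = τ * (∫ u in c..τ, l u) + ∫ u in c..τ, (u - τ) * l u := by
      rw [← intervalIntegral.integral_const_mul, ← intervalIntegral.integral_add]
      · congr 1
        ext u
        ring
      · exact (continuous_const.mul hlc).intervalIntegrable _ _
      · exact ((continuous_id.sub continuous_const).mul hlc).intervalIntegrable _ _
    rw [i1, i2, i3]
    simp only [add_smul]
    abel
  · have := intervalIntegral.norm_integral_le_of_norm_le_const (a := c) (b := τ) (f := l) (C := M0)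
      (fun u _ => hlb u)
    simpa using this
  · have := intervalIntegral.norm_integral_le_of_norm_le_const (a := c) (b := τ)
      (f := fun u => (u - τ) * l u) (C := |τ - c| * M0) (fun u hu => by
        rw [norm_mul, Real.norm_eq_abs, Real.norm_eq_abs]
        apply mul_le_mul _ (hlb u) (abs_nonneg _) (abs_nonneg _)
        rw [Set.mem_uIoc] at hu
        rcases hu with hu | hu
        · rw [abs_of_nonpos (by linarith [hu.2]), abs_of_nonneg (by linarith [hu.1, hu.2])]
          linarith [hu.1]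
        · rw [abs_of_nonneg (by linarith [hu.1]), abs_of_nonpos (by linarith [hu.1, hu.2])]
          linarith [hu.2])
    rw [Real.norm_eq_abs] at this
    calc _ ≤ _ := this
      _ = _ := by ring

end Crest.Agent.S0328
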