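import Mathlib
import Crest.Agent.LibArea2
import Crest.Agent.S0328_Aux

set_option autoImplicit false
open MeasureTheory Measure
open scoped ENNReal
open Crest.Agent.LibArea2

namespace Crest.Agent.S0328

/-- one piece of the sweep -/
def pieceSet (e p₀ a b : E3) (R : ℝ → ℝ) (w : ℝ → E3) (L t0 t1 : ℝ) : Set E3 :=
  {x : E3 | ∃ τ ∈ Set.Icc t0 t1, ∃ ρ ∈ Set.Icc 0 (R τ), ∃ s : ℝ, abs s ≤ L ∧
    x = p₀ + ρ • (a + τ • b) + s • (e + w τ)}

/-- vertices of the covering triangle -/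
noncomputable def vA (p₀ a b : E3) (K t0 t1 : ℝ) : E3 :=
  p₀ + (-(K * (t1 - t0))) • a + (-(K * (t1 - t0) * ((t0 + t1) / 2))) • b

noncomputable def vB (p₀ a b : E3) (K t0 t1 W : ℝ) : E3 :=
  p₀ + (-(K * (t1 - t0)) + W) • a + (-(K * (t1 - t0) * ((t0 + t1) / 2)) + t0 * W) • b

noncomputable def vC (p₀ a b : E3) (K t0 t1 W : ℝ) : E3 :=
  p₀ + (-(K * (t1 - t0)) + W) • a + (-(K * (t1 - t0) * ((t0 + t1) / 2)) + t1 * W) • b

theorem aux_low {δ h X Q : ℝ} (h1 : 0 ≤ δ) (h2 : δ ≤ h) (hQ : 0 ≤ Q) (hX : -Q ≤ X) :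
    -(Q * h) ≤ δ * X := by
  by_cases hx : 0 ≤ X
  · have := mul_nonneg h1 hx
    have := mul_nonneg hQ (h1.trans h2)
    linarith
  · push Not at hx
    have e1 := mul_nonneg (by linarith : 0 ≤ h - δ) (by linarith : 0 ≤ -X)
    have e2 := mul_nonneg (h1.trans h2) (by linarith : 0 ≤ X + Q)
    nlinarith

section
variable (e p₀ a b : E3) (he : ‖e‖ = 1) (ha : inner ℝ a e = 0) (hb : inner ℝ b e = 0)
    (R : ℝ → ℝ) (w : ℝ → E3) (L t0 t1 c K M Rp Rm : ℝ) (hL : 0 < L) (ht : t0 < t1)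
    (hc : c ∈ Set.Icc t0 t1) (hK : 4 * L * M ≤ K) (hK0 : 0 < K) (hM : 0 ≤ M)
    (hrep : ∀ τ ∈ Set.Icc t0 t1, ∃ L0 Er : ℝ, w τ = w c + L0 • a + (τ * L0 + Er) • b ∧
      |L0| ≤ M * |τ - c| ∧ |Er| ≤ M * |τ - c| ^ 2)
    (hR : ∀ τ ∈ Set.Icc t0 t1, Rm ≤ R τ ∧ R τ ≤ Rp) (hRm : 0 ≤ Rm)

include hL ht hc hK hK0 hM hrep hR hRm in
theorem piece_point {x : E3} (hx : x ∈ pieceSet e p₀ a b R w L t0 t1) :
    ∃ y ∈ convexHull ℝ ({vA p₀ a b K t0 t1, vB p₀ a b K t0 t1 (Rp + 2 * K * (t1 - t0)),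
      vC p₀ a b K t0 t1 (Rp + 2 * K * (t1 - t0))} : Set E3), ∃ s : ℝ, x = y + s • (e + w c) := by
  obtain ⟨τ, hτ, ρ, hρ, s, hs, rfl⟩ := hx
  obtain ⟨L0, Er, hw, hL0, hEr⟩ := hrep τ hτ
  have hh : 0 < t1 - t0 := by linarith
  have hRt := hR τ hτ
  have hτc : |τ - c| ≤ t1 - t0 := by
    rw [abs_le]; constructor <;> linarith [hτ.1, hτ.2, hc.1, hc.2]
  have hL0' : |L0| ≤ M * (t1 - t0) := hL0.trans (mul_le_mul_of_nonneg_left hτc hM)
  have hEr' : |Er| ≤ M * (t1 - t0) ^ 2 :=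
    hEr.trans (mul_le_mul_of_nonneg_left (pow_le_pow_left₀ (abs_nonneg _) hτc 2) hM)
  have hsL0 : |s * L0| ≤ L * M * (t1 - t0) := by
    rw [abs_mul]
    calc |s| * |L0| ≤ L * (M * (t1 - t0)) :=
          mul_le_mul hs hL0' (abs_nonneg _) hL.le
      _ = _ := by ring
  have hsEr : |s * Er| ≤ L * M * (t1 - t0) ^ 2 := by
    rw [abs_mul]
    calc |s| * |Er| ≤ L * (M * (t1 - t0) ^ 2) :=
          mul_le_mul hs hEr' (abs_nonneg _) hL.le
      _ = _ := by ring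
  rw [abs_le] at hsL0 hsEr
  have hKLM : 4 * (L * M * (t1 - t0)) ≤ K * (t1 - t0) := by nlinarith
  have hKLM2 : 4 * (L * M * (t1 - t0) ^ 2) ≤ K * (t1 - t0) ^ 2 := by
    nlinarith [sq_nonneg (t1 - t0)]
  have hLM : 0 ≤ L * M * (t1 - t0) := by positivity
  refine ⟨p₀ + (ρ + s * L0) • a + (τ * (ρ + s * L0) + s * Er) • b, ?_, s, ?_⟩
  · have hX1 : -(K * (t1 - t0)) ≤ ρ + s * L0 := by linarith [hρ.1, hsL0.1]
    have hXlow : -(L * M * (t1 - t0)) ≤ ρ + s * L0 := by linarith [hρ.1, hsL0.1]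
    apply tri_mem p₀ a b ht
    · have h1 := hRt.1
      have h2 : 0 < K * (t1 - t0) := by positivity
      linarith [hRt.2]
    · exact hX1
    · linarith [hρ.2, hsL0.2, hRt.2]
    · have h1 : 0 ≤ τ - t0 := by linarith [hτ.1]
      have h2 : τ - t0 ≤ t1 - t0 := by linarith [hτ.2]
      have h3 := aux_low h1 h2 hLM hXlow
      have h4 : -(K * (t1 - t0) * ((t0 + t1) / 2)) + t0 * (ρ + s * L0 - -(K * (t1 - t0))) =
        τ * (ρ + s * L0) - (τ - t0) * (ρ + s * L0) - K * (t1 - t0) ^ 2 / 2 := by ring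
      rw [h4]
      have h5 : L * M * (t1 - t0) * (t1 - t0) = L * M * (t1 - t0) ^ 2 := by ring
      rw [h5] at h3
      linarith [hsEr.1]
    · have h1 : 0 ≤ t1 - τ := by linarith [hτ.2]
      have h2 : t1 - τ ≤ t1 - t0 := by linarith [hτ.1]
      have h3 := aux_low h1 h2 hLM hXlow
      have h4 : -(K * (t1 - t0) * ((t0 + t1) / 2)) + t1 * (ρ + s * L0 - -(K * (t1 - t0))) =
        τ * (ρ + s * L0) + (t1 - τ) * (ρ + s * L0) + K * (t1 - t0) ^ 2 / 2 := by ring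
      rw [h4]
      have h5 : L * M * (t1 - t0) * (t1 - t0) = L * M * (t1 - t0) ^ 2 := by ring
      rw [h5] at h3
      linarith [hsEr.2]
  · rw [hw]
    simp only [smul_add, smul_smul, add_smul, mul_add]
    rw [show s * (τ * L0) = τ * (s * L0) by ring, mul_comm ρ τ]
    abel

include hL ht hc hK hK0 hM hrep hR hRm in
theorem piece_cyl : pieceSet e p₀ a b R w L t0 t1 ⊆
    {x : E3 | ∃ y ∈ convexHull ℝ ({pr (e + w c) (vA p₀ a b K t0 t1),
      pr (e + w c) (vB p₀ a b K t0 t1 (Rp + 2 * K * (t1 - t0))),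
      pr (e + w c) (vC p₀ a b K t0 t1 (Rp + 2 * K * (t1 - t0)))} : Set E3), ∃ σ : ℝ,
        x = y + σ • (e + w c)} := by
  intro x hx
  obtain ⟨y, hy, s, hs⟩ := piece_point e p₀ a b R w L t0 t1 c K M Rp Rm hL ht hc hK hK0 hM hrep
    hR hRm hx
  have : x - s • (e + w c) ∈ convexHull ℝ ({vA p₀ a b K t0 t1,
      vB p₀ a b K t0 t1 (Rp + 2 * K * (t1 - t0)),
      vC p₀ a b K t0 t1 (Rp + 2 * K * (t1 - t0))} : Set E3) := by
    rw [hs]; simpa using hy
  obtain ⟨z, hz, t, hzt⟩ := mem_cyl_pr s this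
  exact ⟨z, hz, t, hzt⟩

include he in
theorem D_ne (hwe : inner ℝ (w c) e = 0) : e + w c ≠ 0 := by
  intro h
  have h1 : inner ℝ (e + w c) e = (0 : ℝ) := by rw [h]; simp
  rw [inner_add_left, hwe, real_inner_self_eq_norm_sq, he] at h1
  norm_num at h1

include he in
theorem norm_D (hwe : inner ℝ (w c) e = 0) : ‖e + w c‖ = Real.sqrt (1 + ‖w c‖ ^ 2) := by
  rw [← Real.sqrt_sq (norm_nonneg (e + w c))]
  congr 1
  have hwe' : inner ℝ e (w c) = (0 : ℝ) := by rw [real_inner_comm]; exact hwe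
  rw [← real_inner_self_eq_norm_sq, inner_add_left, inner_add_right, inner_add_right,
    hwe, hwe', real_inner_self_eq_norm_sq, real_inner_self_eq_norm_sq, he]
  ring

include he ha hb ht in
theorem area_big (hwe : inner ℝ (w c) e = 0) (W : ℝ) (hcoord : ∃ α β : ℝ, w c = α • a + β • b) :
    gramArea (pr (e + w c) (vB p₀ a b K t0 t1 W) - pr (e + w c) (vA p₀ a b K t0 t1))
      (pr (e + w c) (vC p₀ a b K t0 t1 W) - pr (e + w c) (vA p₀ a b K t0 t1)) =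
    gramArea a b * (t1 - t0) * W ^ 2 / Real.sqrt (1 + ‖w c‖ ^ 2) := by
  obtain ⟨α, β, h⟩ := hcoord
  rw [← norm_D e he w c hwe]
  have := area_pr_tri e p₀ a b (w c) he ha hb h t0 t1 (-(K * (t1 - t0)))
    (-(K * (t1 - t0) * ((t0 + t1) / 2))) W ht.le
  unfold vA vB vC
  rw [this]
  ring

include he ha hb hL ht hc hK hK0 hM hrep hR hRm in
theorem piece_area (hwe : inner ℝ (w c) e = 0) (hcoord : ∃ α β : ℝ, w c = α • a + β • b) :
    gramArea a b * (t1 - t0) * (Rm ^ 2 / (2 * Real.sqrt (1 + ‖w c‖ ^ 2))) ≤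
      (μHE[2] (pr (e + w c) '' pieceSet e p₀ a b R w L t0 t1)).toReal ∧
    (μHE[2] (pr (e + w c) '' pieceSet e p₀ a b R w L t0 t1)).toReal ≤
      gramArea a b * (t1 - t0) * ((Rp + 2 * K * (t1 - t0)) ^ 2 / (2 * Real.sqrt (1 + ‖w c‖ ^ 2))) := by
  have hD := D_ne e he w c hwe
  have hup : pr (e + w c) '' pieceSet e p₀ a b R w L t0 t1 ⊆
      convexHull ℝ ({pr (e + w c) (vA p₀ a b K t0 t1),
        pr (e + w c) (vB p₀ a b K t0 t1 (Rp + 2 * K * (t1 - t0))),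
        pr (e + w c) (vC p₀ a b K t0 t1 (Rp + 2 * K * (t1 - t0)))} : Set E3) := by
    rintro _ ⟨x, hx, rfl⟩
    obtain ⟨y, hy, s, hs⟩ := piece_point e p₀ a b R w L t0 t1 c K M Rp Rm hL ht hc hK hK0 hM hrep
      hR hRm hx
    rw [← pr_image_triangle, hs, pr_add, pr_smul, pr_self _ hD, smul_zero, add_zero]
    exact Set.mem_image_of_mem _ hy
  have hareaU : (μHE[2] (convexHull ℝ ({pr (e + w c) (vA p₀ a b K t0 t1),
        pr (e + w c) (vB p₀ a b K t0 t1 (Rp + 2 * K * (t1 - t0))),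
        pr (e + w c) (vC p₀ a b K t0 t1 (Rp + 2 * K * (t1 - t0)))} : Set E3))) =
      ENNReal.ofReal (gramArea a b * (t1 - t0) *
        ((Rp + 2 * K * (t1 - t0)) ^ 2 / (2 * Real.sqrt (1 + ‖w c‖ ^ 2)))) := by
    rw [area_triangle, area_big e p₀ a b he ha hb w t0 t1 c K ht hwe _ hcoord]
    congr 1
    ring
  have hlow : convexHull ℝ ({pr (e + w c) (p₀ + (0 : ℝ) • a + (0 : ℝ) • b),
        pr (e + w c) (p₀ + (0 + Rm) • a + (0 + t0 * Rm) • b),
        pr (e + w c) (p₀ + (0 + Rm) • a + (0 + t1 * Rm) • b)} : Set E3) ⊆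
      pr (e + w c) '' pieceSet e p₀ a b R w L t0 t1 := by
    rw [← pr_image_triangle]
    apply Set.image_mono
    intro x hx
    obtain ⟨τ, hτ, ρ, hρ, rfl⟩ := tri_sub p₀ a b ht hRm hx
    exact ⟨τ, hτ, ρ, ⟨hρ.1, hρ.2.trans (hR τ hτ).1⟩, 0, by simpa using hL.le, by simp⟩
  have hareaL : (μHE[2] (convexHull ℝ ({pr (e + w c) (p₀ + (0 : ℝ) • a + (0 : ℝ) • b),
        pr (e + w c) (p₀ + (0 + Rm) • a + (0 + t0 * Rm) • b),
        pr (e + w c) (p₀ + (0 + Rm) • a + (0 + t1 * Rm) • b)} : Set E3))).toReal =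
      gramArea a b * (t1 - t0) * (Rm ^ 2 / (2 * Real.sqrt (1 + ‖w c‖ ^ 2))) := by
    obtain ⟨α, β, h⟩ := hcoord
    rw [area_triangle_toReal, area_pr_tri e p₀ a b (w c) he ha hb h t0 t1 0 0 Rm ht.le,
      norm_D e he w c hwe]
    ring
  have hfin : μHE[2] (pr (e + w c) '' pieceSet e p₀ a b R w L t0 t1) ≠ ⊤ := by
    refine ne_top_of_le_ne_top ?_ (measure_mono hup)
    rw [hareaU]
    exact ENNReal.ofReal_ne_top
  constructor
  · rw [← hareaL]
    exact ENNReal.toReal_mono hfin (measure_mono hlow)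
  · have h1 := ENNReal.toReal_mono (by rw [hareaU]; exact ENNReal.ofReal_ne_top) (measure_mono hup)
    rw [hareaU, ENNReal.toReal_ofReal] at h1
    · exact h1
    · have := gramArea_nonneg a b
      have : 0 < t1 - t0 := by linarith
      positivity

end

/-- telescoping of errors over a partition -/
theorem sum_err (g : ℝ → ℝ) (κ ε α β : ℝ) (hg : ContinuousOn g (Set.Icc α β)) (N : ℕ)
    (t : Fin (N + 1) → ℝ) (ht : StrictMono t) (h0 : t 0 = α) (hN : t (Fin.last N) = β)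
    (A : Fin N → ℝ)
    (hA : ∀ i : Fin N, |A i - κ * ∫ τ in (t i.castSucc)..(t i.succ), g τ| ≤
      ε * (t i.succ - t i.castSucc)) :
    |(∑ i, A i) - κ * ∫ τ in α..β, g τ| ≤ ε * (β - α) := by
  have hint : ∀ i j : Fin (N + 1), IntervalIntegrable g volume (t i) (t j) := by
    intro i j
    apply ContinuousOn.intervalIntegrable
    apply hg.mono
    have hi : t i ∈ Set.Icc α β := ⟨h0 ▸ ht.monotone (Fin.zero_le i), hN ▸ ht.monotone (Fin.le_last i)⟩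
    have hj : t j ∈ Set.Icc α β := ⟨h0 ▸ ht.monotone (Fin.zero_le j), hN ▸ ht.monotone (Fin.le_last j)⟩
    exact Set.uIcc_subset_Icc hi hj
  set a : ℕ → ℝ := fun n => t (Fin.ofNat (N + 1) n) with ha
  have hcast : ∀ i : Fin N, a i = t i.castSucc := by
    intro i
    simp only [ha]
    congr 1
    ext
    simp [Fin.ofNat, Nat.mod_eq_of_lt (by omega : (i : ℕ) < N + 1)]
  have hsucc : ∀ i : Fin N, a (i + 1) = t i.succ := by
    intro i
    simp only [ha]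
    congr 1
    ext
    simp [Fin.ofNat, Nat.mod_eq_of_lt (by omega : (i : ℕ) + 1 < N + 1)]
  have ha0 : a 0 = α := by
    simp only [ha]
    rw [← h0]
    congr 1
  have haN : a N = β := by
    simp only [ha]
    rw [← hN]
    congr 1
    ext
    simp [Fin.ofNat, Nat.mod_eq_of_lt (by omega : N < N + 1)]
  have hsum : ∑ i : Fin N, (∫ τ in (t i.castSucc)..(t i.succ), g τ) = ∫ τ in α..β, g τ := by
    have h1 := intervalIntegral.sum_integral_adjacent_intervals (f := g) (μ := volume) (a := a)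
      (n := N) (fun k _ => hint _ _)
    rw [ha0, haN] at h1
    rw [← h1, ← Fin.sum_univ_eq_sum_range (fun k => ∫ τ in (a k)..(a (k + 1)), g τ)]
    apply Finset.sum_congr rfl
    intro i _
    rw [hcast, hsucc]
  have hlen : ∑ i : Fin N, (t i.succ - t i.castSucc) = β - α := by
    have h1 := Finset.sum_range_sub a N
    rw [ha0, haN] at h1
    rw [← h1, ← Fin.sum_univ_eq_sum_range (fun k => a (k + 1) - a k)]
    apply Finset.sum_congr rfl
    intro i _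
    rw [hcast, hsucc]
  rw [← hsum, Finset.mul_sum, ← Finset.sum_sub_distrib, ← hlen, Finset.mul_sum]
  exact (Finset.abs_sum_le_sum_abs _ _).trans (Finset.sum_le_sum fun i _ => hA i)

theorem piece_num (κ ε t0 t1 c N : ℝ) (R g : ℝ → ℝ) (R' : ℝ) (hκ : 0 ≤ κ) (hN : 1 ≤ N)
    (ht : t0 < t1) (hgc : g c = R c ^ 2 / (2 * N))
    (hg : ∀ τ ∈ Set.Icc t0 t1, |g τ - g c| ≤ ε) (hgi : IntervalIntegrable g volume t0 t1)
    (hR' : |R' ^ 2 - R c ^ 2| ≤ 2 * ε) :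
    |κ * (t1 - t0) * (R' ^ 2 / (2 * N)) - κ * ∫ τ in t0..t1, g τ| ≤ κ * (2 * ε) * (t1 - t0) := by
  have hh : 0 < t1 - t0 := by linarith
  have h1 : |(t1 - t0) * g c - ∫ τ in t0..t1, g τ| ≤ ε * (t1 - t0) := by
    have e1 : (t1 - t0) * g c - ∫ τ in t0..t1, g τ = ∫ τ in t0..t1, (g c - g τ) := by
      rw [intervalIntegral.integral_sub (by simp) hgi]
      simp
    rw [e1]
    have := intervalIntegral.norm_integral_le_of_norm_le_const (a := t0) (b := t1)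
      (f := fun τ => g c - g τ) (C := ε) (fun τ hτ => by
        rw [Set.uIoc_of_le ht.le] at hτ
        rw [Real.norm_eq_abs, abs_sub_comm]
        exact hg τ ⟨hτ.1.le, hτ.2⟩)
    rw [Real.norm_eq_abs, abs_of_pos hh] at this
    exact this
  have h2 : |R' ^ 2 / (2 * N) - g c| ≤ ε := by
    rw [hgc, ← sub_div, abs_div, abs_of_pos (by linarith : (0 : ℝ) < 2 * N), div_le_iff₀ (by linarith)]
    have hε : 0 ≤ ε := by linarith [abs_nonneg (R' ^ 2 - R c ^ 2)]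
    nlinarith
  have e2 : κ * (t1 - t0) * (R' ^ 2 / (2 * N)) - κ * ∫ τ in t0..t1, g τ =
      κ * ((t1 - t0) * (R' ^ 2 / (2 * N) - g c) + ((t1 - t0) * g c - ∫ τ in t0..t1, g τ)) := by ring
  rw [e2, abs_mul, abs_of_nonneg hκ, mul_assoc]
  apply mul_le_mul_of_nonneg_left _ hκ
  calc _ ≤ |(t1 - t0) * (R' ^ 2 / (2 * N) - g c)| + |(t1 - t0) * g c - ∫ τ in t0..t1, g τ| :=
        abs_add_le _ _
    _ ≤ (t1 - t0) * ε + ε * (t1 - t0) := by
        rw [abs_mul, abs_of_pos hh]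
        exact add_le_add (mul_le_mul_of_nonneg_left h2 hh.le) h1
    _ = _ := by ring

end Crest.Agent.S0328
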