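import Crest.Statements.S0328
import Crest.Agent.S0328_Aux
import Crest.Agent.S0328_Piece

set_option autoImplicit false
open MeasureTheory
open scoped ENNReal
open Crest Crest.GeometryTopology Crest.GeometryTopology.Convex

namespace Crest.Agent.S0328

/-- Unit e; a, b, p₀ ∈ e^⊥, a, b independent; α < β; L > 0; R ≥ 0, λ both continuous on [α, β]; w(t) ∈ e^⊥, w′ = λ(t)(a + tb). S = {p₀ + ρ(a + t b) + s(e + w t) : α ≤ t ≤ β, 0 ≤ ρ ≤ R t, ‖s‖ ≤ L}; A = κ ∫_α^β R²/(2√(1 + ‖w‖²)), κ = area spanned by a, b. For η > 0 a δ > 0 makes each partition t₀ < … < t_N of [α, β] of mesh ≤ δ, tags cᵢ, admit N cylinders (axes e + w(cᵢ), nondegenerate triangle bases) covering S, total area within η of A; same for S's pieces tᵢ ≤ t ≤ tᵢ₊₁ projected along these axes. -/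
theorem result
    (e a b p₀ : EuclideanSpace ℝ (Fin 3)) (he : ‖e‖ = 1)
    (ha : inner ℝ a e = 0) (hb : inner ℝ b e = 0) (hp₀ : inner ℝ p₀ e = 0)
    (hab : LinearIndependent ℝ ![a, b]) (L : ℝ) (hL : 0 < L) (α β : ℝ) (hαβ : α < β)
    (R : ℝ → ℝ) (hR : ContinuousOn R (Set.Icc α β)) (hR0 : ∀ t ∈ Set.Icc α β, 0 ≤ R t)
    (w : ℝ → EuclideanSpace ℝ (Fin 3)) (hw : ∀ t ∈ Set.Icc α β, inner ℝ (w t) e = 0)
    (lam : ℝ → ℝ) (hlam : ContinuousOn lam (Set.Icc α β))
    (hw' : ∀ t ∈ Set.Icc α β, HasDerivWithinAt w (lam t • (a + t • b)) (Set.Icc α β) t)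
    (η : ℝ) (hη : 0 < η) :
    ∃ δ : ℝ, 0 < δ ∧ ∀ (N : ℕ) (t : Fin (N + 1) → ℝ) (c : Fin N → ℝ),
      StrictMono t → t 0 = α → t (Fin.last N) = β →
      (∀ i : Fin N, t i.succ - t i.castSucc ≤ δ) →
      (∀ i : Fin N, t i.castSucc ≤ c i ∧ c i ≤ t i.succ) →
      (∃ (p q r : Fin N → EuclideanSpace ℝ (Fin 3)),
        (∀ i, inner ℝ (p i) (e + w (c i)) = 0 ∧ inner ℝ (q i) (e + w (c i)) = 0 ∧
          inner ℝ (r i) (e + w (c i)) = 0) ∧
        (∀ i, AffineIndependent ℝ ![p i, q i, r i]) ∧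
        {x : EuclideanSpace ℝ (Fin 3) | ∃ τ ∈ Set.Icc α β, ∃ ρ ∈ Set.Icc 0 (R τ), ∃ s : ℝ, abs s ≤ L ∧
            x = p₀ + ρ • (a + τ • b) + s • (e + w τ)} ⊆
          ⋃ i, {x : EuclideanSpace ℝ (Fin 3) | ∃ y ∈ convexHull ℝ {p i, q i, r i}, ∃ σ : ℝ,
            x = y + σ • (e + w (c i))} ∧
        abs ((∑ i, (μHE[2] (convexHull ℝ ({p i, q i, r i} : Set (EuclideanSpace ℝ (Fin 3))))).toReal) -
            Real.sqrt (‖a‖ ^ 2 * ‖b‖ ^ 2 - inner ℝ a b ^ 2) *
              ∫ τ in α..β, R τ ^ 2 / (2 * Real.sqrt (1 + ‖w τ‖ ^ 2))) ≤ η) ∧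
      abs ((∑ i : Fin N, (μHE[2] ((fun y => y - (inner ℝ y (e + w (c i)) / ‖e + w (c i)‖ ^ 2) • (e + w (c i))) ''
            {x : EuclideanSpace ℝ (Fin 3) | ∃ τ ∈ Set.Icc (t i.castSucc) (t i.succ), ∃ ρ ∈ Set.Icc 0 (R τ),
              ∃ s : ℝ, abs s ≤ L ∧ x = p₀ + ρ • (a + τ • b) + s • (e + w τ)})).toReal) -
          Real.sqrt (‖a‖ ^ 2 * ‖b‖ ^ 2 - inner ℝ a b ^ 2) *
            ∫ τ in α..β, R τ ^ 2 / (2 * Real.sqrt (1 + ‖w τ‖ ^ 2))) ≤ η := by
  obtain ⟨M, hM, hrep⟩ := dir_repr a b hαβ w lam hlam hw'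
  obtain ⟨B, hB⟩ := isCompact_Icc.exists_bound_of_continuousOn hR
  have hB0 : 0 ≤ B := le_trans (norm_nonneg _) (hB α ⟨le_rfl, hαβ.le⟩)
  have hwc : ContinuousOn w (Set.Icc α β) := fun t ht => (hw' t ht).continuousWithinAt
  have hκ : 0 < Crest.Agent.LibArea2.gramArea a b := gramArea_pos_of_li hab
  have hκe : Real.sqrt (‖a‖ ^ 2 * ‖b‖ ^ 2 - inner ℝ a b ^ 2) =
    Crest.Agent.LibArea2.gramArea a b := rfl
  rw [hκe]
  generalize Crest.Agent.LibArea2.gramArea a b = κ' at hκe hκ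
  subst hκe
  set κ := Real.sqrt (‖a‖ ^ 2 * ‖b‖ ^ 2 - inner ℝ a b ^ 2) with hκdef
  set g : ℝ → ℝ := fun τ => R τ ^ 2 / (2 * Real.sqrt (1 + ‖w τ‖ ^ 2)) with hg
  have hN1 : ∀ τ, 1 ≤ Real.sqrt (1 + ‖w τ‖ ^ 2) := by
    intro τ
    rw [Real.one_le_sqrt]
    linarith [sq_nonneg ‖w τ‖]
  have hgc : ContinuousOn g (Set.Icc α β) := by
    apply ContinuousOn.div (hR.pow 2)
    · exact continuousOn_const.mul ((continuousOn_const.add (hwc.norm.pow 2)).sqrt)
    · intro τ _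
      have := hN1 τ
      positivity
  set K : ℝ := 4 * L * M + 1 with hKdef
  have hK0 : 0 < K := by positivity
  have hden : 0 < 2 * κ * (β - α) + 1 := by
    have : 0 < β - α := by linarith
    positivity
  set ε₁ : ℝ := η / (2 * κ * (β - α) + 1) with hε₁
  have hε₁0 : 0 < ε₁ := by positivity
  set ω : ℝ := min 1 (ε₁ / (2 * B + 2)) with hω
  have hω0 : 0 < ω := lt_min one_pos (by positivity)
  have hω1 : ω ≤ 1 := min_le_left _ _
  have hω2 : ω * (2 * B + 2) ≤ ε₁ := by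
    have : ω ≤ ε₁ / (2 * B + 2) := min_le_right _ _
    rwa [le_div_iff₀ (by positivity)] at this
  obtain ⟨δ₁, hδ₁, hu₁⟩ := Metric.uniformContinuousOn_iff.1
    (isCompact_Icc.uniformContinuousOn_of_continuous hgc) ε₁ hε₁0
  obtain ⟨δ₂, hδ₂, hu₂⟩ := Metric.uniformContinuousOn_iff.1
    (isCompact_Icc.uniformContinuousOn_of_continuous hR) ω hω0
  refine ⟨min (min (δ₁ / 2) (δ₂ / 2)) (ω / (2 * K)), by positivity, ?_⟩
  intro N t c ht h0 hN hmesh hc
  have hin : ∀ i : Fin (N + 1), t i ∈ Set.Icc α β := fun i =>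
    ⟨h0 ▸ ht.monotone (Fin.zero_le i), hN ▸ ht.monotone (Fin.le_last i)⟩
  have hsub : ∀ i : Fin N, Set.Icc (t i.castSucc) (t i.succ) ⊆ Set.Icc α β := fun i =>
    Set.Icc_subset_Icc (hin i.castSucc).1 (hin i.succ).2
  have hlt : ∀ i : Fin N, t i.castSucc < t i.succ := fun i => ht Fin.castSucc_lt_succ
  have hci : ∀ i : Fin N, c i ∈ Set.Icc (t i.castSucc) (t i.succ) := fun i => hc i
  have hdist : ∀ i : Fin N, ∀ τ ∈ Set.Icc (t i.castSucc) (t i.succ),
      dist τ (c i) ≤ min (min (δ₁ / 2) (δ₂ / 2)) (ω / (2 * K)) := by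
    intro i τ hτ
    refine le_trans ?_ (hmesh i)
    rw [Real.dist_eq, abs_le]
    constructor <;> linarith [hτ.1, hτ.2, (hci i).1, (hci i).2]
  have hmin1 : min (min (δ₁ / 2) (δ₂ / 2)) (ω / (2 * K)) < δ₁ :=
    lt_of_le_of_lt ((min_le_left _ _).trans (min_le_left _ _)) (by linarith)
  have hmin2 : min (min (δ₁ / 2) (δ₂ / 2)) (ω / (2 * K)) < δ₂ :=
    lt_of_le_of_lt ((min_le_left _ _).trans (min_le_right _ _)) (by linarith)
  have hmin3 : ∀ i : Fin N, 2 * K * (t i.succ - t i.castSucc) ≤ ω := by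
    intro i
    have h1 := (hmesh i).trans (min_le_right _ _)
    rw [le_div_iff₀ (by positivity)] at h1
    linarith
  have hgvar : ∀ i : Fin N, ∀ τ ∈ Set.Icc (t i.castSucc) (t i.succ), |g τ - g (c i)| ≤ ε₁ := by
    intro i τ hτ
    have := hu₁ τ (hsub i hτ) (c i) (hsub i (hci i)) (lt_of_le_of_lt (hdist i τ hτ) hmin1)
    rw [Real.dist_eq] at this
    exact this.le
  have hRvar : ∀ i : Fin N, ∀ τ ∈ Set.Icc (t i.castSucc) (t i.succ), |R τ - R (c i)| ≤ ω := by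
    intro i τ hτ
    have := hu₂ τ (hsub i hτ) (c i) (hsub i (hci i)) (lt_of_le_of_lt (hdist i τ hτ) hmin2)
    rw [Real.dist_eq] at this
    exact this.le
  have hRc0 : ∀ i, 0 ≤ R (c i) := fun i => hR0 _ (hsub i (hci i))
  have hRcB : ∀ i, R (c i) ≤ B := fun i => by
    have := hB _ (hsub i (hci i))
    rw [Real.norm_eq_abs] at this
    exact (le_abs_self _).trans this
  have hRbd : ∀ i : Fin N, ∀ τ ∈ Set.Icc (t i.castSucc) (t i.succ),
      max 0 (R (c i) - ω) ≤ R τ ∧ R τ ≤ R (c i) + ω := by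
    intro i τ hτ
    have := abs_le.1 (hRvar i τ hτ)
    exact ⟨max_le (hR0 _ (hsub i hτ)) (by linarith), by linarith⟩
  have hrep' : ∀ i : Fin N, ∀ τ ∈ Set.Icc (t i.castSucc) (t i.succ), ∃ L0 Er : ℝ,
      w τ = w (c i) + L0 • a + (τ * L0 + Er) • b ∧
      |L0| ≤ M * |τ - c i| ∧ |Er| ≤ M * |τ - c i| ^ 2 := fun i τ hτ =>
    hrep (c i) (hsub i (hci i)) τ (hsub i hτ)
  have hwe : ∀ i, inner ℝ (w (c i)) e = 0 := fun i => hw _ (hsub i (hci i))
  have hcoord : ∀ i, ∃ α' β' : ℝ, w (c i) = α' • a + β' • b := fun i =>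
    exists_coords e a b (w (c i)) he ha hb (hwe i) hab
  have hDne : ∀ i, e + w (c i) ≠ 0 := fun i => D_ne e he w (c i) (hwe i)
  have hκ2 : κ = Crest.Agent.LibArea2.gramArea a b := rfl
  -- numeric estimates
  have hup : ∀ i : Fin N, |κ * (t i.succ - t i.castSucc) *
      ((R (c i) + ω + 2 * K * (t i.succ - t i.castSucc)) ^ 2 / (2 * Real.sqrt (1 + ‖w (c i)‖ ^ 2))) -
      κ * ∫ τ in (t i.castSucc)..(t i.succ), g τ| ≤ κ * (2 * ε₁) * (t i.succ - t i.castSucc) := by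
    intro i
    apply piece_num κ ε₁ _ _ (c i) _ R g _ hκ.le (hN1 _) (hlt i) rfl (hgvar i)
    · exact (hgc.mono (by rw [Set.uIcc_of_le (hlt i).le]; exact hsub i)).intervalIntegrable
    · have h1 := hmin3 i
      have h2 : 0 ≤ 2 * K * (t i.succ - t i.castSucc) := by
        have := hlt i
        have : 0 < t i.succ - t i.castSucc := by linarith
        positivity
      generalize 2 * K * (t i.succ - t i.castSucc) = z at h1 h2
      have h3 := hRc0 i
      have h4 := hRcB i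
      rw [abs_of_nonneg (by nlinarith)]
      have : (R (c i) + ω + z) ^ 2 - R (c i) ^ 2 = (ω + z) * (2 * R (c i) + (ω + z)) := by ring
      rw [this]
      calc (ω + z) * (2 * R (c i) + (ω + z)) ≤ (2 * ω) * (2 * B + 2) :=
            mul_le_mul (by linarith) (by linarith) (by positivity) (by positivity)
        _ ≤ 2 * ε₁ := by linarith
  have hlo : ∀ i : Fin N, |κ * (t i.succ - t i.castSucc) *
      (max 0 (R (c i) - ω) ^ 2 / (2 * Real.sqrt (1 + ‖w (c i)‖ ^ 2))) -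
      κ * ∫ τ in (t i.castSucc)..(t i.succ), g τ| ≤ κ * (2 * ε₁) * (t i.succ - t i.castSucc) := by
    intro i
    apply piece_num κ ε₁ _ _ (c i) _ R g _ hκ.le (hN1 _) (hlt i) rfl (hgvar i)
    · exact (hgc.mono (by rw [Set.uIcc_of_le (hlt i).le]; exact hsub i)).intervalIntegrable
    · have h3 := hRc0 i
      have h4 := hRcB i
      have h5 : 0 ≤ max 0 (R (c i) - ω) := le_max_left _ _
      have h6 : max 0 (R (c i) - ω) ≤ R (c i) := max_le h3 (by linarith)
      have h7 : R (c i) - ω ≤ max 0 (R (c i) - ω) := le_max_right _ _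
      generalize max 0 (R (c i) - ω) = z at h5 h6 h7
      rw [abs_of_nonpos (by nlinarith)]
      have : -(z ^ 2 - R (c i) ^ 2) = (R (c i) - z) * (R (c i) + z) := by ring
      rw [this]
      calc (R (c i) - z) * (R (c i) + z) ≤ ω * (2 * B + 2) :=
            mul_le_mul (by linarith) (by linarith) (by linarith) (by positivity)
        _ ≤ 2 * ε₁ := by linarith
  have hfinal : κ * (2 * ε₁) * (β - α) ≤ η := by
    have h1 : ε₁ * (2 * κ * (β - α) + 1) = η := by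
      rw [hε₁]; field_simp
    nlinarith
  refine ⟨⟨fun i => Crest.Agent.LibArea2.pr (e + w (c i)) (vA p₀ a b K (t i.castSucc) (t i.succ)),
    fun i => Crest.Agent.LibArea2.pr (e + w (c i)) (vB p₀ a b K (t i.castSucc) (t i.succ)
      (R (c i) + ω + 2 * K * (t i.succ - t i.castSucc))),
    fun i => Crest.Agent.LibArea2.pr (e + w (c i)) (vC p₀ a b K (t i.castSucc) (t i.succ)
      (R (c i) + ω + 2 * K * (t i.succ - t i.castSucc))), ?_, ?_, ?_, ?_⟩, ?_⟩
  · intro i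
    exact ⟨Crest.Agent.LibArea2.inner_pr _ _ (hDne i), Crest.Agent.LibArea2.inner_pr _ _ (hDne i),
      Crest.Agent.LibArea2.inner_pr _ _ (hDne i)⟩
  · intro i
    apply affineIndependent_of_gramArea
    rw [area_big e p₀ a b he ha hb w _ _ (c i) K (hlt i) (hwe i) _ (hcoord i), ← hκ2]
    have h1 : 0 < t i.succ - t i.castSucc := by linarith [hlt i]
    have h2 := hN1 (c i)
    have h3 := hRc0 i
    positivity
  · rintro x ⟨τ, hτ, ρ, hρ, s, hs, hx⟩
    have hex : ∃ i : Fin N, τ ∈ Set.Icc (t i.castSucc) (t i.succ) := by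
      by_contra hcon
      push Not at hcon
      have key : ∀ n : ℕ, ∀ hn : n < N + 1, t ⟨n, hn⟩ ≤ τ := by
        intro n
        induction n with
        | zero => intro hn; have : (⟨0, hn⟩ : Fin (N + 1)) = 0 := rfl
                  rw [this, h0]; exact hτ.1
        | succ n ih =>
          intro hn
          have h1 := ih (by omega)
          have h2 := hcon ⟨n, by omega⟩
          by_contra h3
          push Not at h3
          exact h2 ⟨h1, h3.le⟩
      rcases Nat.eq_zero_or_pos N with hN0 | hN0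
      · subst hN0
        have : (0 : Fin (0 + 1)) = Fin.last 0 := rfl
        rw [this, hN] at h0
        linarith
      · have h1 := key (N - 1) (by omega)
        apply hcon ⟨N - 1, by omega⟩
        refine ⟨h1, ?_⟩
        have : (Fin.succ ⟨N - 1, by omega⟩ : Fin (N + 1)) = Fin.last N := by
          ext; simp; omega
        rw [this, hN]
        exact hτ.2
    obtain ⟨i, hi⟩ := hex
    rw [Set.mem_iUnion]
    refine ⟨i, ?_⟩
    exact piece_cyl e p₀ a b R w L _ _ (c i) K M (R (c i) + ω) (max 0 (R (c i) - ω)) hL (hlt i)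
      (hci i) (by linarith) hK0 hM (hrep' i) (hRbd i) (le_max_left _ _) ⟨τ, hi, ρ, hρ, s, hs, hx⟩
  · refine (sum_err g κ (κ * (2 * ε₁)) α β hgc N t ht h0 hN _ ?_).trans hfinal
    intro i
    rw [Crest.Agent.LibArea2.area_triangle_toReal,
      area_big e p₀ a b he ha hb w _ _ (c i) K (hlt i) (hwe i) _ (hcoord i), ← hκ2]
    have := hup i
    rw [show κ * (t i.succ - t i.castSucc) *
      (R (c i) + ω + 2 * K * (t i.succ - t i.castSucc)) ^ 2 / Real.sqrt (1 + ‖w (c i)‖ ^ 2) / 2 =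
      κ * (t i.succ - t i.castSucc) *
      ((R (c i) + ω + 2 * K * (t i.succ - t i.castSucc)) ^ 2 / (2 * Real.sqrt (1 + ‖w (c i)‖ ^ 2))) by
        ring]
    exact this
  · refine (sum_err g κ (κ * (2 * ε₁)) α β hgc N t ht h0 hN _ ?_).trans hfinal
    intro i
    have h1 := piece_area e p₀ a b he ha hb R w L _ _ (c i) K M (R (c i) + ω)
      (max 0 (R (c i) - ω)) hL (hlt i)
      (hci i) (by linarith) hK0 hM (hrep' i) (hRbd i) (le_max_left _ _) (hwe i) (hcoord i)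
    rw [← hκ2] at h1
    have h2 := abs_le.1 (hup i)
    have h3 := abs_le.1 (hlo i)
    have h4 : (μHE[2] ((fun y => y - (inner ℝ y (e + w (c i)) / ‖e + w (c i)‖ ^ 2) • (e + w (c i))) ''
            {x : EuclideanSpace ℝ (Fin 3) | ∃ τ ∈ Set.Icc (t i.castSucc) (t i.succ), ∃ ρ ∈ Set.Icc 0 (R τ),
              ∃ s : ℝ, abs s ≤ L ∧ x = p₀ + ρ • (a + τ • b) + s • (e + w τ)})).toReal =
        (μHE[2] (Crest.Agent.LibArea2.pr (e + w (c i)) ''
          pieceSet e p₀ a b R w L (t i.castSucc) (t i.succ))).toReal := rfl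
    rw [h4, abs_le]
    constructor
    · linarith [h1.1, h3.1]
    · linarith [h1.2, h2.2]

end Crest.Agent.S0328
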