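import Crest.Statements.S0329
import Crest.Agent.S0326
import Crest.Agent.LibArea2

set_option autoImplicit false
open MeasureTheory
open scoped ENNReal
open Crest Crest.GeometryTopology Crest.GeometryTopology.Convex

namespace Crest.Agent.S0329

open Crest.Agent.S0326 (E2 J J_pos J_le_one Cov Cyl Ruled pt pt_zero pt_one ext2 cont0 cont1)
open Crest.Agent.LibArea2 (gramArea gramArea_nonneg pr inner_pr pr_add pr_smul pr_sub pr_self
  gramArea_pr area_image decomp_pr norm_unit volume_rect)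

/-- three-space -/
abbrev E3 : Type := EuclideanSpace ℝ (Fin 3)

/-- embedding of the plane as the slice `z 0 = 0` -/
noncomputable def P (h : ℝ) (ξ : E2) : E3 := !₂[0, ξ 0, h * ξ 1]

/-- direction -/
noncomputable def Dr (h : ℝ) (g : E2) : E3 := !₂[1, g 0, h * g 1]

/-- oblique coordinates of a point -/
noncomputable def xi (h : ℝ) (g : E2) (z : E3) : E2 := pt (z 1 - z 0 * g 0) (z 2 / h - z 0 * g 1)

lemma ext3 {z w : E3} (h0 : z 0 = w 0) (h1 : z 1 = w 1) (h2 : z 2 = w 2) : z = w := by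
  ext i
  fin_cases i
  · exact h0
  · exact h1
  · exact h2

lemma P_lin (h : ℝ) (c a b : E2) (x y : ℝ) :
    P h (c + x • a + y • b) = P h c + x • P h a + y • P h b := by
  apply ext3 <;> simp [P] <;> ring

lemma P_lin2 (h : ℝ) (a b : E2) (x y : ℝ) : P h (x • a + y • b) = x • P h a + y • P h b := by
  apply ext3 <;> simp [P] <;> ring

lemma decomp_xi {h : ℝ} (hh : h ≠ 0) (g : E2) (z : E3) : z = P h (xi h g z) + z 0 • Dr h g := by
  apply ext3
  · simp [P, Dr]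
  · simp [P, Dr, xi]
  · simp [P, Dr, xi]
    field_simp
    ring

lemma xi_apply {h : ℝ} (hh : h ≠ 0) (g ξ : E2) (s : ℝ) : xi h g (P h ξ + s • Dr h g) = ξ := by
  apply ext2
  · simp [P, Dr, xi]
  · simp [P, Dr, xi]
    field_simp
    ring

lemma square_coords {a b : E2} (ha : a ≠ 0) (hab : ‖b‖ = ‖a‖) (hin : inner ℝ a b = 0) :
    ‖a‖ ^ 2 = a 0 ^ 2 + a 1 ^ 2 ∧ b 0 ^ 2 = a 1 ^ 2 ∧ b 1 ^ 2 = a 0 ^ 2 ∧
      a 0 * a 1 + b 0 * b 1 = 0 ∧ a 0 * b 0 + a 1 * b 1 = 0 := by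
  have hna : ‖a‖ ^ 2 = a 0 ^ 2 + a 1 ^ 2 := by
    rw [EuclideanSpace.norm_sq_eq, Fin.sum_univ_two]; simp
  have hnb : ‖b‖ ^ 2 = b 0 ^ 2 + b 1 ^ 2 := by
    rw [EuclideanSpace.norm_sq_eq, Fin.sum_univ_two]; simp
  have h1 : a 0 * b 0 + a 1 * b 1 = 0 := by
    rw [PiLp.inner_apply, Fin.sum_univ_two] at hin
    simp at hin
    linarith
  have h2 : b 0 ^ 2 + b 1 ^ 2 = a 0 ^ 2 + a 1 ^ 2 := by rw [← hna, ← hnb, hab]
  have hn : 0 < a 0 ^ 2 + a 1 ^ 2 := by rw [← hna]; positivity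
  have h3 : b 0 ^ 2 = a 1 ^ 2 := by
    have : (b 0 ^ 2 - a 1 ^ 2) * (a 0 ^ 2 + a 1 ^ 2) = 0 := by
      have e : a 0 * b 0 = -(a 1 * b 1) := by linarith
      have e2 : (a 0 * b 0) ^ 2 = (a 1 * b 1) ^ 2 := by rw [e]; ring
      nlinarith
    rcases mul_eq_zero.1 this with h | h
    · linarith
    · exact absurd h hn.ne'
  have h4 : b 1 ^ 2 = a 0 ^ 2 := by linarith
  refine ⟨hna, h3, h4, ?_, h1⟩
  have e1 : (a 0 * a 1 + b 0 * b 1) * a 0 = 0 := by
    have : (a 0 * a 1 + b 0 * b 1) * a 0 = a 1 * (a 0 ^ 2 - b 1 ^ 2) + b 1 * (a 0 * b 0 + a 1 * b 1) := by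
      ring
    rw [this, h1, h4]; ring
  have e2 : (a 0 * a 1 + b 0 * b 1) * a 1 = 0 := by
    have : (a 0 * a 1 + b 0 * b 1) * a 1 = a 0 * (a 1 ^ 2 - b 0 ^ 2) + b 0 * (a 0 * b 0 + a 1 * b 1) := by
      ring
    rw [this, h1, h3]; ring
  have e3 : (a 0 * a 1 + b 0 * b 1) * (a 0 ^ 2 + a 1 ^ 2) = 0 := by
    have : (a 0 * a 1 + b 0 * b 1) * (a 0 ^ 2 + a 1 ^ 2) =
      ((a 0 * a 1 + b 0 * b 1) * a 0) * a 0 + ((a 0 * a 1 + b 0 * b 1) * a 1) * a 1 := by ring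
    rw [this, e1, e2]; ring
  rcases mul_eq_zero.1 e3 with h | h
  · exact h
  · exact absurd h hn.ne'

/-- first coordinate in the basis `a, b` -/
noncomputable def co (a w : E2) : ℝ := (w 0 * a 0 + w 1 * a 1) / ‖a‖ ^ 2

lemma expand {a b : E2} (ha : a ≠ 0) (hab : ‖b‖ = ‖a‖) (hin : inner ℝ a b = 0) (w : E2) :
    w = co a w • a + co b w • b := by
  obtain ⟨h0, h1, h2, h3, h4⟩ := square_coords ha hab hin
  have hn : 0 < ‖a‖ ^ 2 := by positivity
  have hn' : ‖b‖ ^ 2 = ‖a‖ ^ 2 := by rw [hab]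
  apply ext2
  · simp only [co, PiLp.add_apply, PiLp.smul_apply, smul_eq_mul, hn']
    have : w 0 * ‖a‖ ^ 2 = (w 0 * a 0 + w 1 * a 1) * a 0 + (w 0 * b 0 + w 1 * b 1) * b 0 := by
      rw [h0]
      have : (w 0 * a 0 + w 1 * a 1) * a 0 + (w 0 * b 0 + w 1 * b 1) * b 0 =
        w 0 * (a 0 ^ 2 + b 0 ^ 2) + w 1 * (a 0 * a 1 + b 0 * b 1) := by ring
      rw [this, h1, h3]; ring
    field_simp
    linarith
  · simp only [co, PiLp.add_apply, PiLp.smul_apply, smul_eq_mul, hn']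
    have : w 1 * ‖a‖ ^ 2 = (w 0 * a 0 + w 1 * a 1) * a 1 + (w 0 * b 0 + w 1 * b 1) * b 1 := by
      rw [h0]
      have : (w 0 * a 0 + w 1 * a 1) * a 1 + (w 0 * b 0 + w 1 * b 1) * b 1 =
        w 1 * (a 1 ^ 2 + b 1 ^ 2) + w 0 * (a 0 * a 1 + b 0 * b 1) := by ring
      rw [this, h2, h3]; ring
    field_simp
    linarith

lemma co_apply {a b : E2} (ha : a ≠ 0) (hab : ‖b‖ = ‖a‖) (hin : inner ℝ a b = 0) (x y : ℝ) :
    co a (x • a + y • b) = x ∧ co b (x • a + y • b) = y := by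
  obtain ⟨h0, h1, h2, h3, h4⟩ := square_coords ha hab hin
  have hn : 0 < ‖a‖ ^ 2 := by positivity
  have hn' : ‖b‖ ^ 2 = ‖a‖ ^ 2 := by rw [hab]
  constructor
  · simp only [co, PiLp.add_apply, PiLp.smul_apply, smul_eq_mul]
    rw [div_eq_iff hn.ne', h0]
    have : (x * a 0 + y * b 0) * a 0 + (x * a 1 + y * b 1) * a 1 =
      x * (a 0 ^ 2 + a 1 ^ 2) + y * (a 0 * b 0 + a 1 * b 1) := by ring
    rw [this, h4]; ring
  · simp only [co, PiLp.add_apply, PiLp.smul_apply, smul_eq_mul]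
    rw [hn', div_eq_iff hn.ne', h0]
    have : (x * a 0 + y * b 0) * b 0 + (x * a 1 + y * b 1) * b 1 =
      y * (b 0 ^ 2 + b 1 ^ 2) + x * (a 0 * b 0 + a 1 * b 1) := by ring
    rw [this, h4, h1, h2]; ring

lemma gramArea_P {h : ℝ} (hh : 0 < h) {a b : E2} (ha : a ≠ 0) (hab : ‖b‖ = ‖a‖)
    (hin : inner ℝ a b = 0) : gramArea (P h a) (P h b) = h * ‖a‖ ^ 2 := by
  obtain ⟨h0, h1, h2, h3, h4⟩ := square_coords ha hab hin
  have e1 : ‖P h a‖ ^ 2 = a 0 ^ 2 + h ^ 2 * a 1 ^ 2 := by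
    rw [EuclideanSpace.norm_sq_eq, Fin.sum_univ_three]; simp [P, mul_pow, sq_abs]
  have e2 : ‖P h b‖ ^ 2 = b 0 ^ 2 + h ^ 2 * b 1 ^ 2 := by
    rw [EuclideanSpace.norm_sq_eq, Fin.sum_univ_three]; simp [P, mul_pow, sq_abs]
  have e3 : inner ℝ (P h a) (P h b) = a 0 * b 0 + h ^ 2 * (a 1 * b 1) := by
    rw [PiLp.inner_apply, Fin.sum_univ_three]; simp [P]; ring
  unfold Crest.Agent.LibArea2.gramArea
  rw [e1, e2, e3]
  have h5 : a 1 * b 1 = -(a 0 * b 0) := by linarith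
  have h6 : (a 0 ^ 2 + h ^ 2 * a 1 ^ 2) * (b 0 ^ 2 + h ^ 2 * b 1 ^ 2) -
      (a 0 * b 0 + h ^ 2 * (a 1 * b 1)) ^ 2 = (h * ‖a‖ ^ 2) ^ 2 := by
    rw [h5, h0]
    have : (a 0 * b 0 + h ^ 2 * (-(a 0 * b 0))) ^ 2 = a 0 ^ 2 * b 0 ^ 2 * (1 - h ^ 2) ^ 2 := by ring
    rw [this, h1, h2]
    ring
  rw [h6, Real.sqrt_sq (by positivity)]

lemma norm_Dr (h : ℝ) (g : E2) : ‖Dr h g‖ = Real.sqrt (1 + (g 0) ^ 2 + h ^ 2 * (g 1) ^ 2) := by
  rw [EuclideanSpace.norm_eq, Fin.sum_univ_three]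
  simp [Dr, mul_pow]

lemma Dr_ne (h : ℝ) (g : E2) : Dr h g ≠ 0 := by
  intro hD
  have := congrArg (fun z : E3 => z 0) hD
  simp [Dr] at this

/-- the first axis -/
noncomputable def e0 : E3 := !₂[1, 0, 0]

lemma gramArea_pr_P {h : ℝ} (hh : 0 < h) {a b g : E2} (ha : a ≠ 0) (hab : ‖b‖ = ‖a‖)
    (hin : inner ℝ a b = 0) :
    gramArea (pr (Dr h g) (P h a)) (pr (Dr h g) (P h b)) = h * (‖a‖ ^ 2 * J h g) := by
  have hD : Dr h g = e0 + (co a g • P h a + co b g • P h b) := by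
    rw [← P_lin2, ← expand ha hab hin]
    apply ext3 <;> simp [Dr, P, e0]
  have he : ‖e0‖ = 1 := by
    rw [EuclideanSpace.norm_eq, Fin.sum_univ_three]
    simp [e0]
  have hPe : ∀ ξ : E2, inner ℝ (P h ξ) e0 = 0 := by
    intro ξ
    rw [PiLp.inner_apply, Fin.sum_univ_three]; simp [P, e0]
  have := gramArea_pr e0 (P h a) (P h b) (co a g) (co b g) he (hPe a) (hPe b)
  rw [← hD, gramArea_P hh ha hab hin, norm_Dr] at this
  rw [this]
  unfold Crest.Agent.S0326.J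
  ring

/-- open box -/
def obox (η : ℝ) : Set E2 := {x | x 0 ∈ Set.Icc (-η) (1 + η) ∧ x 1 ∈ Set.Icc (-η) (1 + η)}

lemma volume_obox (η : ℝ) (hη : 0 ≤ η) : volume (obox η) = ENNReal.ofReal ((1 + 2 * η) ^ 2) := by
  unfold obox
  rw [volume_rect, ← ENNReal.ofReal_mul (by linarith)]
  congr 1
  ring

/-- the open cylinder over a slightly enlarged square -/
def OC (h η : ℝ) (c a b g : E2) : Set E3 :=
  {z | -η < co a (xi h g z - c) ∧ co a (xi h g z - c) < 1 + η ∧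
    -η < co b (xi h g z - c) ∧ co b (xi h g z - c) < 1 + η}

lemma continuous_co_xi (h : ℝ) (c a g : E2) : Continuous fun z : E3 => co a (xi h g z - c) := by
  have c0 : Continuous fun z : E3 => z 0 := PiLp.continuous_apply 2 _ 0
  have c1 : Continuous fun z : E3 => z 1 := PiLp.continuous_apply 2 _ 1
  have c2 : Continuous fun z : E3 => z 2 := PiLp.continuous_apply 2 _ 2
  simp only [co, xi, PiLp.sub_apply, pt_zero, pt_one]
  fun_prop

lemma isOpen_OC (h η : ℝ) (c a b g : E2) : IsOpen (OC h η c a b g) := by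
  have ca := continuous_co_xi h c a g
  have cb := continuous_co_xi h c b g
  exact (isOpen_lt continuous_const ca).inter ((isOpen_lt ca continuous_const).inter
    ((isOpen_lt continuous_const cb).inter (isOpen_lt cb continuous_const)))

lemma xi_sub_smul {h : ℝ} (hh : h ≠ 0) (g : E2) (z : E3) (s : ℝ) :
    xi h g (z - s • Dr h g) = xi h g z := by
  have : z - s • Dr h g = P h (xi h g z) + (z 0 - s) • Dr h g := by
    conv_lhs => rw [decomp_xi hh g z]
    rw [sub_smul]; abel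
  rw [this, xi_apply hh]

lemma OC_inter_subset {h : ℝ} (hh : 0 < h) {η : ℝ} (c : E2) {a b : E2} (g : E2) (ha : a ≠ 0)
    (hab : ‖b‖ = ‖a‖) (hin : inner ℝ a b = 0) :
    OC h η c a b g ∩ {x | inner ℝ x (‖Dr h g‖⁻¹ • Dr h g) = 0} ⊆
      (fun x : E2 => pr (Dr h g) (P h c) + x 0 • pr (Dr h g) (P h a) + x 1 • pr (Dr h g) (P h b)) ''
        obox η := by
  rintro z ⟨⟨h1, h2, h3, h4⟩, h5⟩
  refine ⟨pt (co a (xi h g z - c)) (co b (xi h g z - c)), ⟨⟨h1.le, h2.le⟩, ⟨h3.le, h4.le⟩⟩, ?_⟩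
  have hDne := Dr_ne h g
  have hn : ‖Dr h g‖ ≠ 0 := norm_ne_zero_iff.2 hDne
  have h6 : inner ℝ z (Dr h g) = 0 := by
    simp only [Set.mem_ofPred_eq] at h5
    rw [real_inner_smul_right] at h5
    rcases mul_eq_zero.1 h5 with h | h
    · exact absurd h (inv_ne_zero hn)
    · exact h
  simp only [pt_zero, pt_one]
  rw [← pr_smul, ← pr_smul, ← pr_add, ← pr_add, ← P_lin]
  have h7 : c + co a (xi h g z - c) • a + co b (xi h g z - c) • b = xi h g z := by
    rw [add_assoc, ← expand ha hab hin]; abel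
  rw [h7]
  have h8 : P h (xi h g z) = z - z 0 • Dr h g := by
    conv_rhs => rw [decomp_xi hh.ne' g z]
    have : (P h (xi h g z) + z 0 • Dr h g : E3) 0 = z 0 := by
      rw [← decomp_xi hh.ne' g z]
    rw [this]; abel
  rw [h8, pr_sub, pr_smul, pr_self _ hDne, smul_zero, sub_zero]
  unfold Crest.Agent.LibArea2.pr
  rw [h6]; simp

/-- Let h, M > 0, D ⊂ ℝ² be compact with Lebesgue-null boundary, and V : ℝ² → ℝ² be C¹ on an open set containing D with tr DV(p) = 0 and −1/M² < det DV(p) < 0 for p ∈ D. For every ε > 0 the set of points (x, p₁ + x V₁(p), h (p₂ + x V₂(p))) ∈ ℝ³ with p ∈ D, −M ≤ x ≤ M is covered by finitely many cylinders Bᵢ + ℝ uᵢ, ‖uᵢ‖ = 1, with bases Bᵢ bounded relatively open subsets of the planes uᵢ^⊥ and ∑ᵢ area(Bᵢ) ≤ h ∫_D (1 + V₁² + h² V₂²)^(−1/2) + ε (areas: normalised 2-dimensional Hausdorff measure). -/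
theorem result
    (h M : ℝ) (hh : 0 < h) (hM : 0 < M) (D : Set (EuclideanSpace ℝ (Fin 2))) (hD : IsCompact D)
    (hbd : volume (frontier D) = 0)
    (V : EuclideanSpace ℝ (Fin 2) → EuclideanSpace ℝ (Fin 2)) (U : Set (EuclideanSpace ℝ (Fin 2)))
    (hU : IsOpen U) (hDU : D ⊆ U) (hV : ContDiffOn ℝ 1 V U)
    (htr : ∀ p ∈ D, LinearMap.trace ℝ _ (fderiv ℝ V p).toLinearMap = 0)
    (hdet : ∀ p ∈ D, -(M ^ 2)⁻¹ < LinearMap.det (fderiv ℝ V p).toLinearMap ∧
      LinearMap.det (fderiv ℝ V p).toLinearMap < 0)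
    (ε : ℝ) (hε : 0 < ε) :
    ∃ (k : ℕ) (u : Fin k → EuclideanSpace ℝ (Fin 3)) (B : Fin k → Set (EuclideanSpace ℝ (Fin 3))),
      (∀ i, ‖u i‖ = 1) ∧
      (∀ i, Bornology.IsBounded (B i) ∧ ∃ O : Set (EuclideanSpace ℝ (Fin 3)), IsOpen O ∧
        B i = O ∩ {x | inner ℝ x (u i) = 0}) ∧
      {z : EuclideanSpace ℝ (Fin 3) | ∃ p ∈ D, ∃ x : ℝ, abs x ≤ M ∧
          z = !₂[x, p 0 + x * V p 0, h * (p 1 + x * V p 1)]} ⊆
        ⋃ i, {z : EuclideanSpace ℝ (Fin 3) | ∃ y ∈ B i, ∃ τ : ℝ, z = y + τ • u i} ∧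
      ∑ i, (μHE[2] (B i)).toReal ≤
        h * (∫ p in D, 1 / Real.sqrt (1 + (V p 0) ^ 2 + h ^ 2 * (V p 1) ^ 2)) + ε := by
  have hVc : ContinuousOn V D := hV.continuousOn.mono hDU
  set I : ℝ := ∫ p in D, J h (V p) with hI
  have hI0 : 0 ≤ I := setIntegral_nonneg hD.measurableSet fun p _ => (J_pos h (V p)).le
  obtain ⟨ι, _, c, a, b, g, h1, h2, h3⟩ := Crest.Agent.S0326.main (h := h) hM D hD V U hU hDU hV htr
    (fun p hp => ⟨(hdet p hp).1, (hdet p hp).2.le⟩) (ε / (2 * h)) (by positivity)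
  have hIeq : (∫ p in D, 1 / Real.sqrt (1 + (V p 0) ^ 2 + h ^ 2 * (V p 1) ^ 2)) = I := rfl
  set W : ℝ := h * (I + ε / (2 * h)) with hW
  have hWpos : 0 < W := by positivity
  have hWeq : W = h * I + ε / 2 := by rw [hW]; field_simp
  set η : ℝ := min 1 (ε / (16 * W)) with hη
  have hηpos : 0 < η := lt_min one_pos (by positivity)
  have hη1 : η ≤ 1 := min_le_left _ _
  have hηW : 8 * η * W ≤ ε / 2 := by
    have : η ≤ ε / (16 * W) := min_le_right _ _
    rw [le_div_iff₀ (by positivity)] at this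
    linarith
  have hB : ∀ i, Bornology.IsBounded (OC h η (c i) (a i) (b i) (g i) ∩
        {x | inner ℝ x (‖Dr h (g i)‖⁻¹ • Dr h (g i)) = 0}) ∧
      (μHE[2] (OC h η (c i) (a i) (b i) (g i) ∩
        {x | inner ℝ x (‖Dr h (g i)‖⁻¹ • Dr h (g i)) = 0})).toReal ≤
        (1 + 2 * η) ^ 2 * (h * (‖a i‖ ^ 2 * J h (g i))) := by
    intro i
    obtain ⟨ha, hab, hin⟩ := h1 i
    have hsub := OC_inter_subset (η := η) hh (c i) (g i) ha hab hin
    constructor
    · refine Bornology.IsBounded.subset ?_ hsub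
      have hcomp : IsCompact (obox η) := by
        refine Crest.Agent.S0326.isCompact_of_coord ?_ (1 + η) ?_
        · exact ((isClosed_le continuous_const cont0).inter (isClosed_le cont0 continuous_const)).inter
            ((isClosed_le continuous_const cont1).inter (isClosed_le cont1 continuous_const))
        · rintro z ⟨⟨e1, e2⟩, e3, e4⟩
          rw [abs_le, abs_le]
          exact ⟨⟨by linarith, by linarith⟩, by linarith, by linarith⟩
      refine (hcomp.image ?_).isBounded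
      have c0 : Continuous fun z : E2 => z 0 := cont0
      have c1 : Continuous fun z : E2 => z 1 := cont1
      exact (continuous_const.add (c0.smul continuous_const)).add (c1.smul continuous_const)
    · refine ENNReal.toReal_le_of_le_ofReal (by have := J_pos h (g i); positivity) ?_
      refine (measure_mono hsub).trans (le_of_eq ?_)
      rw [area_image, volume_obox _ hηpos.le, gramArea_pr_P hh ha hab hin,
        ← ENNReal.ofReal_mul (by have := J_pos h (g i); positivity)]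
      congr 1
      ring
  refine ⟨Fintype.card ι, fun i => ‖Dr h (g ((Fintype.equivFin ι).symm i))‖⁻¹ •
      Dr h (g ((Fintype.equivFin ι).symm i)),
    fun i => OC h η (c ((Fintype.equivFin ι).symm i)) (a ((Fintype.equivFin ι).symm i))
      (b ((Fintype.equivFin ι).symm i)) (g ((Fintype.equivFin ι).symm i)) ∩
        {x | inner ℝ x (‖Dr h (g ((Fintype.equivFin ι).symm i))‖⁻¹ •
          Dr h (g ((Fintype.equivFin ι).symm i))) = 0}, ?_, ?_, ?_, ?_⟩
  · intro i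
    exact norm_unit (Dr_ne _ _)
  · intro i
    exact ⟨(hB _).1, _, isOpen_OC _ _ _ _ _ _, rfl⟩
  · rintro z ⟨p, hp, x, hx, hz⟩
    obtain ⟨i, s, hs, t, ht, hst⟩ := Set.mem_iUnion.1 (h2 (show (x, p + x • V p) ∈ Ruled M V D from
      ⟨p, hp, hx, rfl⟩))
    refine Set.mem_iUnion.2 ⟨Fintype.equivFin ι i, ?_⟩
    simp only [Equiv.symm_apply_apply]
    obtain ⟨ha, hab, hin⟩ := h1 i
    simp only at hst
    have hz' : z = P h (c i + s • a i + t • b i) + x • Dr h (g i) := by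
      have hst' : c i + s • a i + t • b i = p + x • V p - x • g i := by rw [hst]; abel
      rw [hst', hz]
      apply ext3 <;> simp [P, Dr] <;> ring
    have hDne := Dr_ne h (g i)
    have hn : ‖Dr h (g i)‖ ≠ 0 := norm_ne_zero_iff.2 hDne
    refine ⟨pr (Dr h (g i)) z, ⟨?_, ?_⟩, inner ℝ z (Dr h (g i)) / ‖Dr h (g i)‖ ^ 2 * ‖Dr h (g i)‖, ?_⟩
    · have hxi : xi h (g i) (pr (Dr h (g i)) z) = c i + s • a i + t • b i := by
        have : pr (Dr h (g i)) z = z - (inner ℝ z (Dr h (g i)) / ‖Dr h (g i)‖ ^ 2) • Dr h (g i) := rfl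
        rw [this, xi_sub_smul hh.ne', hz', xi_apply hh.ne']
      have hco := co_apply ha hab hin s t
      have hsub : c i + s • a i + t • b i - c i = s • a i + t • b i := by abel
      unfold OC
      simp only [Set.mem_ofPred_eq]
      rw [hxi, hsub, hco.1, hco.2]
      exact ⟨by linarith [hs.1], by linarith [hs.2], by linarith [ht.1], by linarith [ht.2]⟩
    · simp only [Set.mem_ofPred_eq]
      rw [real_inner_smul_right, inner_pr _ _ hDne, mul_zero]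
    · have := decomp_pr (Dr h (g i)) z
      rw [smul_smul, mul_assoc, mul_inv_cancel₀ hn, mul_one]
      exact this
  · calc ∑ i : Fin (Fintype.card ι), (μHE[2] (OC h η (c ((Fintype.equivFin ι).symm i))
          (a ((Fintype.equivFin ι).symm i))
          (b ((Fintype.equivFin ι).symm i)) (g ((Fintype.equivFin ι).symm i)) ∩
            {x | inner ℝ x (‖Dr h (g ((Fintype.equivFin ι).symm i))‖⁻¹ •
              Dr h (g ((Fintype.equivFin ι).symm i))) = 0})).toReal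
        ≤ ∑ i : Fin (Fintype.card ι), (1 + 2 * η) ^ 2 * (h * (‖a ((Fintype.equivFin ι).symm i)‖ ^ 2 *
            J h (g ((Fintype.equivFin ι).symm i)))) := Finset.sum_le_sum fun i _ => (hB _).2
      _ = ∑ i : ι, (1 + 2 * η) ^ 2 * (h * (‖a i‖ ^ 2 * J h (g i))) :=
          Equiv.sum_comp (Fintype.equivFin ι).symm
            (fun i => (1 + 2 * η) ^ 2 * (h * (‖a i‖ ^ 2 * J h (g i))))
      _ = (1 + 2 * η) ^ 2 * (h * ∑ i : ι, ‖a i‖ ^ 2 * J h (g i)) := by
          rw [Finset.mul_sum, Finset.mul_sum]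
      _ ≤ (1 + 2 * η) ^ 2 * W := by
          refine mul_le_mul_of_nonneg_left ?_ (sq_nonneg _)
          exact mul_le_mul_of_nonneg_left h3 hh.le
      _ ≤ h * I + ε := by
          have e1 : (1 + 2 * η) ^ 2 ≤ 1 + 8 * η := by nlinarith
          have e2 : (1 + 2 * η) ^ 2 * W ≤ (1 + 8 * η) * W := mul_le_mul_of_nonneg_right e1 hWpos.le
          nlinarith

end Crest.Agent.S0329
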