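import Crest.Statements.S0348
import Crest.Agent.CD_Main

set_option autoImplicit false
open MeasureTheory Filter
open scoped ENNReal
open Crest Crest.GeometryTopology Crest.GeometryTopology.Covering

namespace Crest.Agent.S0348

/-- There are constants `c > 0` and `n₀` such that for every `n ≥ n₀` some centrally symmetric convex body `K` in `ℝ^n` has translative covering density at least `c n log n`: for every locally finite set `X` of translation vectors with `K + X = ℝ^n`, the product of `vol(K)` with the upper limit, as `R → ∞`, of the number of points of `X` in the cube `[-R, R]^n` divided by `(2R)^n` is at least `c n log n`. -/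
theorem result :
    ∃ c : ℝ, 0 < c ∧ ∃ n₀ : ℕ, ∀ n : ℕ, n₀ ≤ n →
      ∃ K : Set (Fin n → ℝ), IsCompact K ∧ Convex ℝ K ∧ (interior K).Nonempty ∧
        (∀ x ∈ K, -x ∈ K) ∧
        ∀ X : Set (Fin n → ℝ), (∀ R : ℝ, (X ∩ {x | ∀ i, |x i| ≤ R}).Finite) →
          (∀ y : Fin n → ℝ, ∃ x ∈ X, y - x ∈ K) →
          ENNReal.ofReal (c * n * Real.log n) ≤
            volume K * limsup (fun R : ℝ => ((X ∩ {x | ∀ i, |x i| ≤ R}).ncard : ℝ≥0∞) /
              ENNReal.ofReal ((2 * R) ^ n)) atTop := by
  exact Crest.Agent.CD.main

end Crest.Agent.S0348
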