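import Crest.Agent.S0382_TaskD

set_option autoImplicit false

/-!
Task C of S0382: inserting a whisker in a globular shape.
-/

namespace Crest.Agent.S0382

open CategoryTheory CategoryTheory.Limits Opposite Crest.GeometryTopology.Coherator

universe u

namespace TaskC

/-- The inclusion of the last globe, as a map of shapes. -/
noncomputable def apexS (S : Shape) : Shape.globe S.last ⟶ S := S.apex

theorem faceMap_comp' {k l m : ℕ} (h : k < l) (h' : l < m) (b b' : Bool) :
    Shape.faceMap h b ≫ Shape.faceMap h' b' = Shape.faceMap (h.trans h') b := by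
  change (yoneda.map (GlobeObj.faceArrow h b) ≫ yoneda.map (GlobeObj.faceArrow h' b')) =
    yoneda.map (GlobeObj.faceArrow h b ≫ GlobeObj.faceArrow h' b')
  rw [← yoneda.map_comp]

theorem hinge_eq (S : Shape) {b : ℕ} (hb : b < S.last) :
    S.hinge hb = Shape.faceMap hb true ≫ apexS S := rfl

theorem apexS_glue (S : Shape) (b h : ℕ) (hb : b < S.last) (hh : b < h) :
    apexS (S.glue b h hb hh) = S.inRight b h hb hh := rfl

theorem glue_w (S : Shape) (b h : ℕ) (hb : b < S.last) (hh : b < h) :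
    S.hinge hb ≫ S.inLeft b h hb hh = Shape.faceMap hh false ≫ S.inRight b h hb hh :=
  pushout.condition (f := GlobPsh.globeRepFace hb true ≫ S.apex)
    (g := GlobPsh.globeRepFace hh false)

theorem hinge_glue (S : Shape) (b h : ℕ) (hb : b < S.last) (hh : b < h) {c : ℕ} (hc : c < h) :
    (S.glue b h hb hh).hinge hc = Shape.faceMap hc true ≫ S.inRight b h hb hh := rfl

theorem exists_desc (S : Shape) (b h : ℕ) (hb : b < S.last) (hh : b < h) {T : Shape} (f : S ⟶ T)
    (g : Shape.globe h ⟶ T) (w : S.hinge hb ≫ f = Shape.faceMap hh false ≫ g) :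
    ∃ d : S.glue b h hb hh ⟶ T, S.inLeft b h hb hh ≫ d = f ∧ S.inRight b h hb hh ≫ d = g := by
  refine ⟨pushout.desc (f := GlobPsh.globeRepFace hb true ≫ S.apex)
    (g := GlobPsh.globeRepFace hh false) f g w, ?_, ?_⟩
  · exact pushout.inl_desc (f := GlobPsh.globeRepFace hb true ≫ S.apex)
      (g := GlobPsh.globeRepFace hh false) f g w
  · exact pushout.inr_desc (f := GlobPsh.globeRepFace hb true ≫ S.apex)
      (g := GlobPsh.globeRepFace hh false) f g w

theorem globe_cases {k l : ℕ} (φ : Shape.globe k ⟶ Shape.globe l) :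
    ∃ f : GlobeObj.Arrow k l, φ = (yoneda.map (X := GlobeObj.mk k) (Y := GlobeObj.mk l) f :
      GlobPsh.globeRep k ⟶ GlobPsh.globeRep l) := by
  refine ⟨Yoneda.fullyFaithful.preimage (X := GlobeObj.mk k) (Y := GlobeObj.mk l) φ, ?_⟩
  exact (Yoneda.fullyFaithful.map_preimage (X := GlobeObj.mk k) (Y := GlobeObj.mk l) φ).symm

theorem cell_cases (n : ℕ) (S : Shape) (b h : ℕ) (hb : b < S.last) (hh : b < h)
    (y : Shape.globe n ⟶ S.glue b h hb hh) :
    (∃ y' : Shape.globe n ⟶ S, y = y' ≫ S.inLeft b h hb hh) ∨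
      ∃ y' : Shape.globe n ⟶ Shape.globe h, y = y' ≫ S.inRight b h hb hh := by
  have hp : IsPushout (GlobPsh.globeRepFace hb true ≫ S.apex) (GlobPsh.globeRepFace hh false)
      (pushout.inl (GlobPsh.globeRepFace hb true ≫ S.apex) (GlobPsh.globeRepFace hh false))
      (pushout.inr (GlobPsh.globeRepFace hb true ≫ S.apex) (GlobPsh.globeRepFace hh false)) :=
    IsPushout.of_hasPushout _ _
  have hp' := hp.map ((evaluation _ _).obj (op (GlobeObj.mk n)))
  let y0 : GlobPsh.globeRep n ⟶ pushout (GlobPsh.globeRepFace hb true ≫ S.apex)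
    (GlobPsh.globeRepFace hh false) := y
  rcases Types.eq_or_eq_of_isPushout hp' (yonedaEquiv y0) with ⟨x, hx⟩ | ⟨x, hx⟩
  · left
    refine ⟨(yonedaEquiv.symm x : GlobPsh.globeRep n ⟶ S.psh), ?_⟩
    apply (yonedaEquiv (X := GlobeObj.mk n)
      (F := pushout (GlobPsh.globeRepFace hb true ≫ S.apex) (GlobPsh.globeRepFace hh false))).injective
    change yonedaEquiv y0 = yonedaEquiv (yonedaEquiv.symm x ≫ pushout.inl _ _)
    rw [yonedaEquiv_comp, Equiv.apply_symm_apply]
    exact hx.symm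
  · right
    refine ⟨(yonedaEquiv.symm x : GlobPsh.globeRep n ⟶ GlobPsh.globeRep h), ?_⟩
    apply (yonedaEquiv (X := GlobeObj.mk n)
      (F := pushout (GlobPsh.globeRepFace hb true ≫ S.apex) (GlobPsh.globeRepFace hh false))).injective
    change yonedaEquiv y0 = yonedaEquiv (yonedaEquiv.symm x ≫ pushout.inr _ _)
    rw [yonedaEquiv_comp, Equiv.apply_symm_apply]
    exact hx.symm

/-! Parallelism -/

theorem shPar_refl {n : ℕ} {S : Shape} (w : Shape.globe n ⟶ S) : ShPar w w := by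
  cases n with
  | zero => trivial
  | succ n => exact ⟨rfl, rfl⟩

theorem shPar_trans {n : ℕ} {S : Shape} {a b c : Shape.globe n ⟶ S} (h : ShPar a b)
    (h' : ShPar b c) : ShPar a c := by
  cases n with
  | zero => trivial
  | succ n => exact ⟨h.1.trans h'.1, h.2.trans h'.2⟩

theorem shPar_comp {n : ℕ} {S T : Shape} {a b : Shape.globe n ⟶ S} (h : ShPar a b) (f : S ⟶ T) :
    ShPar (a ≫ f) (b ≫ f) := by
  cases n with
  | zero => trivial
  | succ n =>
    refine ⟨?_, ?_⟩
    · rw [← Category.assoc, ← Category.assoc, h.1]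
    · rw [← Category.assoc, ← Category.assoc, h.2]

theorem shPar_faceMap {n m : ℕ} (h : n < m) (b b' : Bool) :
    ShPar (Shape.faceMap h b) (Shape.faceMap h b') := by
  cases n with
  | zero => trivial
  | succ n =>
    refine ⟨?_, ?_⟩
    · rw [Shape.σ, faceMap_comp', faceMap_comp']
    · rw [Shape.τ, faceMap_comp', faceMap_comp']

/-- An extension of a shape along a cell. -/
def Ext (C : GlobTheory.{u}) (n : ℕ) (S : Shape) (w : Shape.globe n ⟶ S) : Prop :=
  ∃ (S' : Shape) (e : S ⟶ S') (k : Shape.globe (n + 1) ⟶ S'),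
    S'.dim ≤ max S.dim (n + 1) ∧
    IsPushout ((Fr C).map w) ((Fr C).map (Shape.σ n)) ((Fr C).map e) ((Fr C).map k) ∧
    ∀ b (hb : b < S.last), ∃ hb' : b < S'.last, S'.hinge hb' = S.hinge hb ≫ e

theorem glue_ext (C : GlobTheory.{u}) {P P' : Shape} (e1 : P ⟶ P') {b h : ℕ} (hb : b < P.last)
    (hb' : b < P'.last) (hh : b < h) (heq : P'.hinge hb' = P.hinge hb ≫ e1) :
    ∃ e : P.glue b h hb hh ⟶ P'.glue b h hb' hh,
      P.inLeft b h hb hh ≫ e = e1 ≫ P'.inLeft b h hb' hh ∧
      P.inRight b h hb hh ≫ e = P'.inRight b h hb' hh ∧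
      IsPushout ((Fr C).map e1) ((Fr C).map (P.inLeft b h hb hh))
        ((Fr C).map (P'.inLeft b h hb' hh)) ((Fr C).map e) := by
  obtain ⟨e, h1, h2⟩ := exists_desc P b h hb hh (e1 ≫ P'.inLeft b h hb' hh)
    (P'.inRight b h hb' hh) (by rw [← Category.assoc, ← heq, glue_w])
  refine ⟨e, h1, h2, ?_⟩
  have t := sq_Fr C P b h hb hh
  have s := sq_Fr C P' b h hb' hh
  refine IsPushout.of_left (h₁₁ := (Fr C).map (P.hinge hb)) (v₁₁ := (Fr C).map (Shape.faceMap hh false))
    (h₂₁ := (Fr C).map (P.inRight b h hb hh)) ?_ ?_ t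
  · rw [← Functor.map_comp, ← Functor.map_comp, ← heq, h2]
    exact s
  · rw [← Functor.map_comp, ← Functor.map_comp, h1]

theorem Ext.glue' {C : GlobTheory.{u}} {n : ℕ} {P : Shape} {w : Shape.globe n ⟶ P}
    {b h : ℕ} (hb : b < P.last) (hh : b < h) {P' : Shape} (e1 : P ⟶ P')
    (k1 : Shape.globe (n + 1) ⟶ P') (hd : P'.dim ≤ max P.dim (n + 1))
    (hp : IsPushout ((Fr C).map w) ((Fr C).map (Shape.σ n)) ((Fr C).map e1) ((Fr C).map k1))
    (hb' : b < P'.last) (heq : P'.hinge hb' = P.hinge hb ≫ e1) :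
    Ext C n (P.glue b h hb hh) (w ≫ P.inLeft b h hb hh) := by
  obtain ⟨e, h1, h2, h3⟩ := glue_ext C e1 hb hb' hh heq
  refine ⟨P'.glue b h hb' hh, e, k1 ≫ P'.inLeft b h hb' hh, ?_, ?_, ?_⟩
  · change max P'.dim h ≤ max (max P.dim h) (n + 1)
    omega
  · rw [Functor.map_comp, Functor.map_comp]
    exact hp.paste_horiz h3.flip
  · intro c hc
    refine ⟨hc, ?_⟩
    have e1 : (Shape.faceMap (show c < h from hc) true ≫ P.inRight b h hb hh) ≫ e =
      Shape.faceMap (show c < h from hc) true ≫ P'.inRight b h hb' hh := by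
      rw [Category.assoc, h2]
    exact e1.symm

theorem Ext.glue {C : GlobTheory.{u}} {n : ℕ} {P : Shape} {w : Shape.globe n ⟶ P}
    (hE : Ext C n P w) {b h : ℕ} (hb : b < P.last) (hh : b < h) :
    Ext C n (P.glue b h hb hh) (w ≫ P.inLeft b h hb hh) := by
  obtain ⟨P', e1, k1, hd, hp, hE⟩ := hE
  obtain ⟨hb', heq⟩ := hE b hb
  exact Ext.glue' hb hh e1 k1 hd hp hb' heq

theorem ext_globe (C : GlobTheory.{u}) (n : ℕ) : Ext C n (Shape.globe n) (𝟙 _) := by
  refine ⟨Shape.globe (n + 1), Shape.σ n, 𝟙 _, le_max_right _ _, ?_, ?_⟩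
  · rw [CategoryTheory.Functor.map_id, CategoryTheory.Functor.map_id]
    exact IsPushout.of_horiz_isIso ⟨by simp⟩
  · intro b hb
    have hb' : b < n := hb
    refine ⟨Nat.lt_succ_of_lt hb', ?_⟩
    have e1 : (Shape.globe n).hinge hb = Shape.faceMap hb' true := Category.comp_id _
    have e2 : (Shape.globe (n + 1)).hinge (Nat.lt_succ_of_lt hb') =
      Shape.faceMap (Nat.lt_succ_of_lt hb') true := Category.comp_id _
    rw [e1]
    refine e2.trans ?_
    exact (faceMap_comp' hb' (Nat.lt_succ_self n) true false).symm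

theorem ext_glue (C : GlobTheory.{u}) (P : Shape) (b n : ℕ) (hb : b < P.last) (hh : b < n) :
    Ext C n (P.glue b n hb hh) (P.inRight b n hb hh) := by
  have hh' : b < n + 1 := Nat.lt_succ_of_lt hh
  obtain ⟨e, h1, h2⟩ := exists_desc P b n hb hh (P.inLeft b (n + 1) hb hh')
    (Shape.σ n ≫ P.inRight b (n + 1) hb hh') (by
      rw [glue_w, ← Category.assoc, Shape.σ, faceMap_comp'])
  refine ⟨P.glue b (n + 1) hb hh', e, P.inRight b (n + 1) hb hh', ?_, ?_, ?_⟩
  · change max P.dim (n + 1) ≤ max (max P.dim n) (n + 1)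
    omega
  · have t := sq_Fr C P b n hb hh
    have s := sq_Fr C P b (n + 1) hb hh'
    refine IsPushout.of_top (h₁₁ := (Fr C).map (P.hinge hb)) (v₁₁ := (Fr C).map (Shape.faceMap hh false))
      (v₁₂ := (Fr C).map (P.inLeft b n hb hh)) ?_ ?_ t
    · rw [← Functor.map_comp, ← Functor.map_comp, h1, Shape.σ, faceMap_comp']
      exact s
    · rw [← Functor.map_comp, ← Functor.map_comp, h2]
  · intro c hc
    have hc' : c < n := hc
    refine ⟨Nat.lt_succ_of_lt hc', ?_⟩
    have e1 : (Shape.faceMap hc' true ≫ P.inRight b n hb hh) ≫ e =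
      Shape.faceMap (Nat.lt_succ_of_lt hc') true ≫ P.inRight b (n + 1) hb hh' := by
      rw [Category.assoc, h2, ← Category.assoc, Shape.σ, faceMap_comp']
    exact e1.symm

/-- The dichotomy. -/
def Dich (C : GlobTheory.{u}) (n : ℕ) (S : Shape) (y : Shape.globe n ⟶ S) : Prop :=
  (∃ hn : n < S.last, ShPar (S.hinge hn) y) ∨ ∃ w, ShPar w y ∧ Ext C n S w

theorem dich_globe (C : GlobTheory.{u}) (n h : ℕ) (y : Shape.globe n ⟶ Shape.globe h) :
    Dich C n (Shape.globe h) y := by
  obtain ⟨f, rfl⟩ := globe_cases y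
  cases f with
  | refl =>
    right
    have e1 : (yoneda.map (X := GlobeObj.mk n) (Y := GlobeObj.mk n) (GlobeObj.Arrow.refl n) :
      GlobPsh.globeRep n ⟶ GlobPsh.globeRep n) = 𝟙 (Shape.globe n) := yoneda.map_id (GlobeObj.mk n)
    refine ⟨𝟙 _, ?_, ext_globe C n⟩
    rw [e1]
    exact shPar_refl _
  | pole hlt up =>
    left
    refine ⟨hlt, ?_⟩
    have e1 : (Shape.globe h).hinge hlt = Shape.faceMap hlt true := Category.comp_id _
    rw [e1]
    exact shPar_faceMap hlt true up

theorem dich_glue (C : GlobTheory.{u}) (n : ℕ) (P : Shape) (b h : ℕ) (hb : b < P.last)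
    (hh : b < h) (ih : ∀ y : Shape.globe n ⟶ P, Dich C n P y)
    (y : Shape.globe n ⟶ P.glue b h hb hh) : Dich C n (P.glue b h hb hh) y := by
  rcases cell_cases n P b h hb hh y with ⟨y', rfl⟩ | ⟨y', rfl⟩
  · rcases ih y' with ⟨hn, hy⟩ | ⟨w, hy, hE⟩
    · have hy' := shPar_comp hy (P.inLeft b h hb hh)
      rcases lt_trichotomy n b with hnb | hnb | hnb
      · left
        refine ⟨(hnb.trans hh : n < h), ?_⟩
        have e1 : P.hinge hn ≫ P.inLeft b h hb hh =
            Shape.faceMap (hnb.trans hh) true ≫ P.inRight b h hb hh := by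
          rw [hinge_eq, ← faceMap_comp' hnb hb true true, Category.assoc, Category.assoc,
            ← Category.assoc _ (apexS P), ← hinge_eq, glue_w, ← Category.assoc, faceMap_comp']
        rw [e1] at hy'
        exact hy'
      · subst hnb
        left
        refine ⟨(hh : n < h), ?_⟩
        rw [glue_w] at hy'
        exact shPar_trans (shPar_comp (shPar_faceMap hh true false) (P.inRight n h hb hh)) hy'
      · right
        refine ⟨P.hinge hn ≫ P.inLeft b h hb hh, hy', ?_⟩
        have hbn : b < n + 1 := Nat.lt_succ_of_lt hnb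
        refine Ext.glue' (P' := P.glue n (n + 1) hn (Nat.lt_succ_self n)) hb hh
          (P.inLeft n (n + 1) hn (Nat.lt_succ_self n)) (P.inRight n (n + 1) hn (Nat.lt_succ_self n))
          le_rfl (sq_Fr C P n (n + 1) hn (Nat.lt_succ_self n)) hbn ?_
        have e1 : P.hinge hb ≫ P.inLeft n (n + 1) hn (Nat.lt_succ_self n) =
            Shape.faceMap hbn true ≫ P.inRight n (n + 1) hn (Nat.lt_succ_self n) := by
          rw [hinge_eq, ← faceMap_comp' hnb hn true true, Category.assoc, Category.assoc,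
            ← Category.assoc _ (apexS P), ← hinge_eq, glue_w, ← Category.assoc, faceMap_comp']
        exact e1.symm
    · right
      exact ⟨_, shPar_comp hy _, hE.glue hb hh⟩
  · obtain ⟨f, rfl⟩ := globe_cases y'
    cases f with
    | refl =>
      right
      have e1 : (yoneda.map (X := GlobeObj.mk n) (Y := GlobeObj.mk n) (GlobeObj.Arrow.refl n) :
        GlobPsh.globeRep n ⟶ GlobPsh.globeRep n) = 𝟙 (Shape.globe n) := yoneda.map_id (GlobeObj.mk n)
      refine ⟨P.inRight b n hb hh, ?_, ext_glue C P b n hb hh⟩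
      rw [e1, Category.id_comp]
      exact shPar_refl _
    | pole hlt up =>
      left
      exact ⟨(hlt : n < h), shPar_comp (shPar_faceMap hlt true up) (P.inRight b h hb hh)⟩

theorem main (C : GlobTheory.{u}) (n : ℕ) {last : ℕ} (P : Pasting last)
    (y : Shape.globe n ⟶ (⟨last, P⟩ : Shape)) : Dich C n ⟨last, P⟩ y := by
  induction P with
  | single h => exact dich_globe C n h y
  | glue P b h hb hh ih => exact dich_glue C n ⟨_, P⟩ b h hb hh ih y

end TaskC

theorem exists_insert (C : GlobTheory.{u}) (n : ℕ) (S : Shape) (y : Shape.globe n ⟶ S) :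
    ∃ (w : Shape.globe n ⟶ S) (S' : Shape) (e : S ⟶ S') (k : Shape.globe (n + 1) ⟶ S'),
      ShPar w y ∧ S'.dim ≤ max S.dim (n + 1) ∧
      IsPushout ((Fr C).map w) ((Fr C).map (Shape.σ n)) ((Fr C).map e) ((Fr C).map k) := by
  obtain ⟨last, P⟩ := S
  rcases TaskC.main C n P y with ⟨hn, hy⟩ | ⟨w, hy, S', e, k, h1, h2, -⟩
  · refine ⟨_, Shape.glue ⟨last, P⟩ n (n + 1) hn (Nat.lt_succ_self n),
      Shape.inLeft ⟨last, P⟩ n (n + 1) hn (Nat.lt_succ_self n),
      Shape.inRight ⟨last, P⟩ n (n + 1) hn (Nat.lt_succ_self n), hy, le_rfl, ?_⟩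
    exact sq_Fr C ⟨last, P⟩ n (n + 1) hn (Nat.lt_succ_self n)
  · exact ⟨w, S', e, k, hy, h1, h2⟩

end Crest.Agent.S0382
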