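import Crest.Agent.S0382_Basic

set_option autoImplicit false

/-!
S0382, task F: cellular models are cofibrant; a criterion for weak equivalences; the coherator axiom.
-/

namespace Crest.Agent.S0382

open CategoryTheory CategoryTheory.Limits Opposite Crest.GeometryTopology.Coherator

universe u

variable {C : GlobTheory.{u}}

namespace TaskF

/-- The cell named by a map out of a disk. -/
noncomputable def cl {X : Mod C} {m : ℕ} (f : D C m ⟶ X) :
    GlobSet.cell (GlobTheory.GlobModel.cells X) m :=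
  yonedaEquiv (X := (⟨Shape.globe m⟩ : C.Ob)) (F := X.functor) f

/-- The map out of a disk named by a cell. -/
noncomputable def uncl {X : Mod C} {m : ℕ}
    (x : GlobSet.cell (GlobTheory.GlobModel.cells X) m) : D C m ⟶ X :=
  (yonedaEquiv (X := (⟨Shape.globe m⟩ : C.Ob)) (F := X.functor)).symm x

@[simp] theorem cl_uncl {X : Mod C} {m : ℕ}
    (x : GlobSet.cell (GlobTheory.GlobModel.cells X) m) : cl (uncl x) = x :=
  (yonedaEquiv (X := (⟨Shape.globe m⟩ : C.Ob)) (F := X.functor)).apply_symm_apply x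

@[simp] theorem uncl_cl {X : Mod C} {m : ℕ} (f : D C m ⟶ X) : uncl (cl f) = f :=
  (yonedaEquiv (X := (⟨Shape.globe m⟩ : C.Ob)) (F := X.functor)).symm_apply_apply f

theorem cl_inj {X : Mod C} {m : ℕ} {f g : D C m ⟶ X} (h : cl f = cl g) : f = g := by
  rw [← uncl_cl f, h, uncl_cl]

theorem cl_comp {X Y : Mod C} {m : ℕ} (f : D C m ⟶ X) (g : X ⟶ Y) :
    cl (f ≫ g) = (GlobTheory.GlobModel.cellsMap g).app m (cl f) := rfl

theorem cl_op {X : Mod C} {k m : ℕ} (o : C.arr (Shape.globe k) (Shape.globe m))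
    (f : D C m ⟶ X) : cl (opMap C o ≫ f) = X.act o (cl f) := by
  have := yonedaEquiv_naturality (X := (⟨Shape.globe m⟩ : C.Ob)) (Y := (⟨Shape.globe k⟩ : C.Ob))
    (F := X.functor) f o
  exact this.symm

theorem cl_ds {X : Mod C} {m : ℕ} (f : D C (m + 1) ⟶ X) :
    cl (ds C m ≫ f) = (GlobTheory.GlobModel.cells X).src m (cl f) :=
  cl_op _ f

theorem cl_dt {X : Mod C} {m : ℕ} (f : D C (m + 1) ⟶ X) :
    cl (dt C m ≫ f) = (GlobTheory.GlobModel.cells X).tgt m (cl f) :=
  cl_op _ f

theorem par_iff {X : Mod C} {m : ℕ} (a b : D C m ⟶ X) :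
    Par a b ↔ (GlobTheory.GlobModel.cells X).AreParallel m (cl a) (cl b) := by
  cases m with
  | zero => exact Iff.rfl
  | succ m =>
    constructor
    · rintro ⟨h1, h2⟩
      exact ⟨by rw [← cl_ds, ← cl_ds, h1], by rw [← cl_dt, ← cl_dt, h2]⟩
    · rintro ⟨h1, h2⟩
      exact ⟨cl_inj (by rw [cl_ds, cl_ds, h1]), cl_inj (by rw [cl_dt, cl_dt, h2])⟩

theorem step_iff {X : Mod C} {m : ℕ} (a b : D C m ⟶ X) :
    Step a b ↔ (GlobTheory.GlobModel.cells X).Step m (cl a) (cl b) := by
  constructor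
  · rintro ⟨w, rfl, rfl⟩
    exact ⟨cl w, (cl_ds w).symm, (cl_dt w).symm⟩
  · rintro ⟨w, h1, h2⟩
    exact ⟨uncl w, cl_inj (by rw [cl_ds, cl_uncl, h1]), cl_inj (by rw [cl_dt, cl_uncl, h2])⟩

/-- Trivial fibrations in terms of cells: every cell of the base with a lift of its boundary
lifts. -/
theorem trivFib_cells {E B : Mod C} {p : E ⟶ B} (hp : TrivFib p) (m : ℕ)
    (s : (GlobTheory.GlobModel.cells E).Sphere m) (z : (GlobTheory.GlobModel.cells B).cell m)
    (h : (GlobTheory.GlobModel.cells B).bdry m z =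
      (GlobTheory.GlobModel.cellsMap p).sphere m s) :
    ∃ w : (GlobTheory.GlobModel.cells E).cell m, (GlobTheory.GlobModel.cells E).bdry m w = s ∧
      (GlobTheory.GlobModel.cellsMap p).app m w = z := by
  cases m with
  | zero =>
    obtain ⟨w, hw⟩ := hp.1 (uncl z)
    exact ⟨cl w, rfl, by rw [← cl_comp, hw, cl_uncl]⟩
  | succ m =>
    obtain ⟨⟨a, b⟩, hab⟩ := s
    have h' := congrArg Subtype.val h
    have h1 : (GlobTheory.GlobModel.cells B).src m z =
      (GlobTheory.GlobModel.cellsMap p).app m a := congrArg Prod.fst h'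
    have h2 : (GlobTheory.GlobModel.cells B).tgt m z =
      (GlobTheory.GlobModel.cellsMap p).app m b := congrArg Prod.snd h'
    obtain ⟨w, hw1, hw2, hw3⟩ := hp.2 m (uncl a) (uncl b)
      ((par_iff _ _).2 (by simpa using hab)) (uncl z)
      (cl_inj (by rw [cl_ds, cl_uncl, h1, cl_comp, cl_uncl]))
      (cl_inj (by rw [cl_dt, cl_uncl, h2, cl_comp, cl_uncl]))
    refine ⟨cl w, ?_, by rw [← cl_comp, hw3, cl_uncl]⟩
    apply Subtype.ext
    apply Prod.ext
    · change (GlobTheory.GlobModel.cells E).src m (cl w) = a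
      rw [← cl_ds, hw1, cl_uncl]
    · change (GlobTheory.GlobModel.cells E).tgt m (cl w) = b
      rw [← cl_dt, hw2, cl_uncl]

theorem bdry_map {X Y : Mod C} (f : X ⟶ Y) (m : ℕ)
    (x : (GlobTheory.GlobModel.cells X).cell m) :
    (GlobTheory.GlobModel.cells Y).bdry m ((GlobTheory.GlobModel.cellsMap f).app m x) =
      (GlobTheory.GlobModel.cellsMap f).sphere m ((GlobTheory.GlobModel.cells X).bdry m x) := by
  cases m with
  | zero => rfl
  | succ m =>
    apply Subtype.ext
    apply Prod.ext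
    · exact ((GlobTheory.GlobModel.cellsMap f).app_src m x).symm
    · exact ((GlobTheory.GlobModel.cellsMap f).app_tgt m x).symm

theorem sphere_comp {X Y Z : Mod C} (f : X ⟶ Y) (g : Y ⟶ Z) (m : ℕ)
    (s : (GlobTheory.GlobModel.cells X).Sphere m) :
    (GlobTheory.GlobModel.cellsMap (f ≫ g)).sphere m s =
      (GlobTheory.GlobModel.cellsMap g).sphere m
        ((GlobTheory.GlobModel.cellsMap f).sphere m s) := by
  cases m with
  | zero => rfl
  | succ m => rfl

theorem attaching_llp {X Y : Mod C} (f : X ⟶ Y) (hf : GlobTheory.GlobModel.IsAttaching f) :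
    (TrivFib (C := C)).llp f := by
  intro E B p hp
  constructor
  intro u v sq
  have key : ∀ k : hf.ι, ∃ w : (GlobTheory.GlobModel.cells E).cell (hf.dimOf k),
      (GlobTheory.GlobModel.cells E).bdry _ w =
        (GlobTheory.GlobModel.cellsMap u).sphere _ (hf.sphere k) ∧
      (GlobTheory.GlobModel.cellsMap p).app _ w =
        (GlobTheory.GlobModel.cellsMap v).app _ (hf.newCell k) := by
    intro k
    apply trivFib_cells hp
    rw [bdry_map, hf.newCell_bdry, ← sphere_comp, ← sphere_comp, sq.w]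
  choose z hz1 hz2 using key
  obtain ⟨h, ⟨hh1, hh2⟩, -⟩ := hf.universal E u z hz1
  refine ⟨⟨⟨h, hh1, ?_⟩⟩⟩
  obtain ⟨t, -, ht⟩ := hf.universal B (u ≫ p)
    (fun k => (GlobTheory.GlobModel.cellsMap v).app _ (hf.newCell k)) (by
      intro k
      rw [bdry_map, hf.newCell_bdry, ← sphere_comp, sq.w])
  rw [ht (h ≫ p) ⟨by rw [← Category.assoc, hh1], ?_⟩, ht v ⟨sq.w.symm, fun k => rfl⟩]
  intro k
  rw [← hz2 k, ← hh2 k]
  rfl

end TaskF

open TaskF

theorem cof_of_cellular {X : Mod C} (hX : X.IsCellularModel) : Cof X := by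
  obtain ⟨P⟩ := hX
  intro E B p hp f
  let _ := P.linOrd
  let _ := P.bot
  let _ := P.succ
  let _ := P.wf
  have hlift : HasLiftingProperty P.fromStart p := by
    let c : (TrivFib (C := C)).llp.TransfiniteCompositionOfShape P.J P.fromStart :=
      { toTransfiniteCompositionOfShape := P.chain
        map_mem := fun j hj => attaching_llp _ (P.attach j hj) }
    exact MorphismProperty.transfiniteCompositionsOfShape_le _ _ _ c.mem _ hp
  have sq : CommSq (P.startIsInitial.to E) P.fromStart p f :=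
    ⟨P.startIsInitial.hom_ext _ _⟩
  exact ⟨sq.lift, sq.fac_right⟩

theorem isWeakEquiv_of_step (e : C.UnitChoice) {X Y : Mod C} (i : X ⟶ Y) (r : Y ⟶ X)
    (hr : i ≫ r = 𝟙 X)
    (h0 : ∀ z : D C 0 ⟶ Y, Step z (z ≫ r ≫ i))
    (h1 : ∀ (k : ℕ) (a b : D C k ⟶ X) (z : D C (k + 1) ⟶ Y), ds C k ≫ z = a ≫ i →
      dt C k ≫ z = b ≫ i → Step z (z ≫ r ≫ i)) :
    GlobTheory.GlobModel.IsWeakEquiv e i := by
  have hri : ∀ (m : ℕ) (x : (GlobTheory.GlobModel.cells X).cell m),
      (GlobTheory.GlobModel.cellsMap r).app m ((GlobTheory.GlobModel.cellsMap i).app m x) = x := by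
    intro m x
    have : (GlobTheory.GlobModel.cellsMap (i ≫ r)).app m x = x := by rw [hr]; rfl
    exact this
  have hbase : ∀ (x : (GlobTheory.GlobModel.cells X).cell 0) (k : ℕ),
      (GlobTheory.GlobModel.cellsMap i).app k (X.basePoint e x k) =
        Y.basePoint e ((GlobTheory.GlobModel.cellsMap i).app 0 x) k := by
    intro x k
    induction k with
    | zero => rfl
    | succ k ih =>
      have h := types_congr_hom (i.naturality (Quiver.Hom.op
        (X := (⟨Shape.globe (k + 1)⟩ : C.Ob)) (Y := (⟨Shape.globe k⟩ : C.Ob)) (e.unit k)))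
        (X.basePoint e x k)
      change (GlobTheory.GlobModel.cellsMap i).app (k + 1) (X.unitCell e k (X.basePoint e x k)) =
        Y.unitCell e k ((GlobTheory.GlobModel.cellsMap i).app k (X.basePoint e x k)) at h
      rw [ih] at h
      exact h
  constructor
  · constructor
    · refine Function.LeftInverse.injective (g := GlobTheory.GlobModel.componentsMap r) ?_
      rintro ⟨x⟩
      exact congrArg _ (hri 0 x)
    · rintro ⟨z⟩
      refine ⟨Quot.mk _ ((GlobTheory.GlobModel.cellsMap r).app 0 z), ?_⟩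
      have h := (step_iff _ _).1 (h0 (uncl z))
      rw [cl_uncl, cl_comp, cl_uncl] at h
      exact (Quot.sound h).symm
  · intro x n
    constructor
    · have hF : ∀ z : Y.LoopsAt e ((GlobTheory.GlobModel.cellsMap i).app 0 x) n,
          (GlobTheory.GlobModel.cells X).src n ((GlobTheory.GlobModel.cellsMap r).app (n + 1) z.1) =
            X.basePoint e x n ∧
          (GlobTheory.GlobModel.cells X).tgt n ((GlobTheory.GlobModel.cellsMap r).app (n + 1) z.1) =
            X.basePoint e x n := by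
        intro z
        constructor
        · rw [← (GlobTheory.GlobModel.cellsMap r).app_src, z.2.1, ← hbase, hri]
        · rw [← (GlobTheory.GlobModel.cellsMap r).app_tgt, z.2.2, ← hbase, hri]
      let F : Y.HomotopyClasses e ((GlobTheory.GlobModel.cellsMap i).app 0 x) n →
          X.HomotopyClasses e x n :=
        Quot.map (fun z => ⟨(GlobTheory.GlobModel.cellsMap r).app (n + 1) z.1, hF z⟩) (by
          rintro _ _ ⟨c, hs, ht⟩
          exact ⟨(GlobTheory.GlobModel.cellsMap r).app (n + 2) c,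
            by rw [← (GlobTheory.GlobModel.cellsMap r).app_src, hs],
            by rw [← (GlobTheory.GlobModel.cellsMap r).app_tgt, ht]⟩)
      refine Function.LeftInverse.injective (g := F) ?_
      rintro ⟨a⟩
      refine congrArg (Quot.mk _) (Subtype.ext ?_)
      exact hri (n + 1) a.1
    · rintro ⟨z⟩
      have hs : ds C n ≫ uncl z.1 = uncl (X.basePoint e x n) ≫ i :=
        cl_inj (by rw [cl_ds, cl_uncl, cl_comp, cl_uncl, hbase]; exact z.2.1)
      have ht : dt C n ≫ uncl z.1 = uncl (X.basePoint e x n) ≫ i :=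
        cl_inj (by rw [cl_dt, cl_uncl, cl_comp, cl_uncl, hbase]; exact z.2.2)
      have h := (step_iff _ _).1 (h1 n _ _ _ hs ht)
      rw [cl_uncl, cl_comp, cl_uncl] at h
      have h3 : (GlobTheory.GlobModel.cells X).src n
            ((GlobTheory.GlobModel.cellsMap r).app (n + 1) z.1) = X.basePoint e x n := by
        rw [← (GlobTheory.GlobModel.cellsMap r).app_src, z.2.1, ← hbase, hri]
      have h4 : (GlobTheory.GlobModel.cells X).tgt n
            ((GlobTheory.GlobModel.cellsMap r).app (n + 1) z.1) = X.basePoint e x n := by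
        rw [← (GlobTheory.GlobModel.cellsMap r).app_tgt, z.2.2, ← hbase, hri]
      refine ⟨Quot.mk _ ⟨(GlobTheory.GlobModel.cellsMap r).app (n + 1) z.1, h3, h4⟩, ?_⟩
      exact Eq.symm (Quot.sound
        (r := fun a b : Y.LoopsAt e ((GlobTheory.GlobModel.cellsMap i).app 0 x) n =>
          (GlobTheory.GlobModel.cells Y).Step (n + 1) a.1 b.1)
        (a := z) (b := GlobTheory.GlobModel.loopsMap i e x n
          ⟨(GlobTheory.GlobModel.cellsMap r).app (n + 1) z.1, h3, h4⟩) h)

theorem L_of_coherator (hC : C.IsCoheratorTheory) (m : ℕ) (S : Shape) (h : S.dim ≤ m + 1) :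
    L m ((Fr C).obj S) := by
  intro a b hab
  have e1 : ∀ {k : ℕ} (f : D C k ⟶ (Fr C).obj S) (g : D C k ⟶ (Fr C).obj S),
    cl f = cl g → f = g := fun _ _ => cl_inj
  have hpar : C.OpsParallel m (cl a) (cl b) := by
    cases m with
    | zero => trivial
    | succ m =>
      obtain ⟨h1, h2⟩ := (par_iff a b).1 hab
      exact ⟨h1, h2⟩
  obtain ⟨z, hz1, hz2⟩ := hC.2 ⟨m, S, h, cl a, cl b, hpar⟩
  rw [step_iff]
  exact ⟨z, hz1, hz2⟩

end Crest.Agent.S0382
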