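import Crest.Agent.S0382_Core4

set_option autoImplicit false

namespace Crest.Agent.S0382

open CategoryTheory CategoryTheory.Limits Opposite Crest.GeometryTopology.Coherator

universe u

variable {C : GlobTheory.{u}}

namespace TaskI

theorem ShPar.map {S : Shape} {n : ℕ} {w y : Shape.globe n ⟶ S} (h : ShPar w y) :
    Par ((Fr C).map w) ((Fr C).map y) := by
  cases n with
  | zero => trivial
  | succ n =>
    refine ⟨?_, ?_⟩
    · rw [← Functor.map_comp, h.1, Functor.map_comp]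
    · rw [← Functor.map_comp, h.2, Functor.map_comp]

/-- `f` is a homotopy retract of the free model functor applied to a map of shapes. -/
structure Ret {m : ℕ} {j : ℕ∞} (K : Cyl C m j) (F : PathFunctor K.A K.ι0 K.ι1) (j₀ : ℕ)
    {S : Shape} {G : Mod C} (f : (Fr C).obj S ⟶ G) where
  De : Shape
  dim : De.dim ≤ j₀ + 1
  eps : S ⟶ De
  s : G ⟶ (Fr C).obj De
  pi : (Fr C).obj De ⟶ G
  H : G ⟶ F.P.obj G
  fs : f ≫ s = (Fr C).map eps
  epi : (Fr C).map eps ≫ pi = f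
  h0 : H ≫ F.p0.app G = s ≫ pi
  h1 : H ≫ F.p1.app G = 𝟙 G

theorem p0_nat {A : Shape ⥤ Mod C} {ι0 ι1 : Fr C ⟶ A} (F : PathFunctor A ι0 ι1) {X Y : Mod C}
    (i : X ⟶ Y) : F.P.map i ≫ F.p0.app Y = F.p0.app X ≫ i := F.p0.naturality i

theorem p1_nat {A : Shape ⥤ Mod C} {ι0 ι1 : Fr C ⟶ A} (F : PathFunctor A ι0 ι1) {X Y : Mod C}
    (i : X ⟶ Y) : F.P.map i ≫ F.p1.app Y = F.p1.app X ≫ i := F.p1.naturality i

theorem ret_L {m : ℕ} {j₀ : ℕ} (hax : CohAx C) (K : Cyl C m (j₀ : ℕ∞))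
    (F : PathFunctor K.A K.ι0 K.ι1)
    {S : Shape} {G : Mod C} (f : (Fr C).obj S ⟶ G) (R : Ret K F j₀ f) : L j₀ G := by
  intro a b hab
  have hs : Step (a ≫ R.s) (b ≫ R.s) := hax j₀ R.De R.dim _ _ (hab.comp R.s)
  have := path_p4 K F le_rfl (a ≫ R.H) (b ≫ R.H) (hab.comp R.H) (by
    rw [Category.assoc, Category.assoc, R.h0, ← Category.assoc, ← Category.assoc]
    exact hs.comp R.pi)
  rw [Category.assoc, Category.assoc, R.h1] at this
  simpa only [Category.comp_id] using this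

theorem ret_base [HasPushouts (Mod C)] [HasLimitsOfSize.{u, u} (Mod C)]
    (hax : CohAx C) (hsq : Sq (Fr C)) {m j₀ : ℕ} (K : Cyl C m (j₀ : ℕ∞))
    (F : PathFunctor K.A K.ι0 K.ι1)
    (hP : ∀ i < j₀, ∀ m, Pres C i m) (S : Shape) (hS : S.dim ≤ j₀ + 1) :
    Nonempty (Ret K F j₀ (𝟙 ((Fr C).obj S))) := by
  have hg := gd_Fr hax hsq j₀ hP S hS
  obtain ⟨H, h0, h1⟩ := exists_diag K F hg.1 (fun i _ hi => hg.2 i (by exact_mod_cast hi))
  exact ⟨⟨S, hS, 𝟙 S, 𝟙 _, 𝟙 _, H, by rw [CategoryTheory.Functor.map_id, Category.comp_id],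
    by rw [CategoryTheory.Functor.map_id, Category.comp_id], by rw [h0, Category.comp_id], h1⟩⟩

theorem ret_step [HasPushouts (Mod C)]
    (hax : CohAx C) (hsq : Sq (Fr C))
    (hins : ∀ (n : ℕ) (S : Shape) (y : Shape.globe n ⟶ S),
      ∃ (w : Shape.globe n ⟶ S) (S' : Shape) (e : S ⟶ S') (k : Shape.globe (n + 1) ⟶ S'),
        ShPar w y ∧ S'.dim ≤ max S.dim (n + 1) ∧
        IsPushout ((Fr C).map w) ((Fr C).map (Shape.σ n)) ((Fr C).map e) ((Fr C).map k))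
    {n j₀ : ℕ} (hn : n ≤ j₀) (K : Cyl C (n + 1) (j₀ : ℕ∞)) (F : PathFunctor K.A K.ι0 K.ι1)
    (hP : ∀ i < j₀, ∀ m, Pres C i m) {S : Shape}
    {G : Mod C} {f : (Fr C).obj S ⟶ G} (R : Ret K F j₀ f) (x : Shape.globe n ⟶ S)
    {G' : Mod C} {i : G ⟶ G'} {ga : D C (n + 1) ⟶ G'}
    (hpo : IsPushout ((Fr C).map x ≫ f) (ds C n) i ga) :
    Nonempty (Ret K F j₀ (f ≫ i)) := by
  obtain ⟨w, De', e, k, hwy, hdim, hk⟩ := hins n R.De (x ≫ R.eps)
  have hgd := gd_Fr hax hsq j₀ hP R.De R.dim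
  obtain ⟨phi, hphi1, hphi2⟩ := hgd.2 n hn _ _ (ShPar.map (C := C) hwy)
  rw [Functor.map_comp] at hphi2
  have hk' : (Fr C).map w ≫ (Fr C).map e = ds C n ≫ (Fr C).map k := hk.w
  have hxf : (Fr C).map x ≫ f ≫ i = ds C n ≫ ga := by rw [← Category.assoc]; exact hpo.w
  -- the new section
  have c1 : dt C n ≫ (invc hax n ≫ phi ≫ (Fr C).map e) = ds C n ≫ (Fr C).map k := by
    rw [← Category.assoc, dt_invc, ← Category.assoc, hphi1, hk']
  have c2 : ((Fr C).map x ≫ f) ≫ (R.s ≫ (Fr C).map e) =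
      ds C n ≫ compCell hax hsq (invc hax n ≫ phi ≫ (Fr C).map e) ((Fr C).map k) c1 := by
    rw [ds_compCell, ← Category.assoc (ds C n), ds_invc, ← Category.assoc (dt C n), hphi2,
      Category.assoc, ← Category.assoc f, R.fs, Category.assoc]
  -- the new projection
  have c3 : dt C n ≫ (phi ≫ R.pi ≫ i) = ds C n ≫ ga := by
    rw [← Category.assoc, hphi2, ← hxf, Category.assoc, ← Category.assoc _ R.pi, R.epi]
  have c4 : (Fr C).map w ≫ (R.pi ≫ i) = ds C n ≫ compCell hax hsq (phi ≫ R.pi ≫ i) ga c3 := by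
    rw [ds_compCell, ← Category.assoc (ds C n), hphi1]
  obtain ⟨s', hs1, hs2⟩ : ∃ s' : G' ⟶ (Fr C).obj De', i ≫ s' = R.s ≫ (Fr C).map e ∧
      ga ≫ s' = compCell hax hsq (invc hax n ≫ phi ≫ (Fr C).map e) ((Fr C).map k) c1 :=
    ⟨hpo.desc _ _ c2, hpo.inl_desc _ _ _, hpo.inr_desc _ _ _⟩
  obtain ⟨pi', hp1, hp2⟩ : ∃ pi' : (Fr C).obj De' ⟶ G', (Fr C).map e ≫ pi' = R.pi ≫ i ∧
      (Fr C).map k ≫ pi' = compCell hax hsq (phi ≫ R.pi ≫ i) ga c3 :=
    ⟨hk.desc _ _ c4, hk.inl_desc _ _ _, hk.inr_desc _ _ _⟩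
  -- the homotopy on the new cell
  have c5 : dt C n ≫ invc hax n ≫ (phi ≫ R.pi ≫ i) =
      ds C n ≫ compCell hax hsq (phi ≫ R.pi ≫ i) ga c3 := by
    rw [ds_compCell, ← Category.assoc, dt_invc]
  have hgasp : ga ≫ s' ≫ pi' = compCell hax hsq (invc hax n ≫ (phi ≫ R.pi ≫ i))
      (compCell hax hsq (phi ≫ R.pi ≫ i) ga c3) c5 := by
    rw [← Category.assoc, hs2, compCell_comp]
    congr 1
    simp only [Category.assoc, hp1]
  have hstep : Step (ga ≫ s' ≫ pi') ga := by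
    rw [hgasp]; exact slide_step hax hsq _ _ c3 c5
  obtain ⟨c, hc0, hc1⟩ := path_at_n K F _ _ hstep
  have c6 : ((Fr C).map x ≫ f) ≫ (R.H ≫ F.P.map i) = ds C n ≫ c := by
    apply path_low_inj K F (Nat.lt_succ_self n)
    rw [path_low_eq K F (Nat.lt_succ_self n), path_low_eq K F (Nat.lt_succ_self n)]
    rw [Category.assoc, Category.assoc, Category.assoc, p1_nat, ← Category.assoc R.H, R.h1,
      Category.id_comp, Category.assoc, hc1, hxf]
  obtain ⟨H', hH1, hH2⟩ : ∃ H' : G' ⟶ F.P.obj G', i ≫ H' = R.H ≫ F.P.map i ∧ ga ≫ H' = c :=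
    ⟨hpo.desc _ _ c6, hpo.inl_desc _ _ _, hpo.inr_desc _ _ _⟩
  refine ⟨⟨De', hdim.trans (max_le R.dim (by omega)), R.eps ≫ e, s', pi', H', ?_, ?_, ?_, ?_⟩⟩
  · rw [Category.assoc, hs1, ← Category.assoc, R.fs, Functor.map_comp]
  · rw [Functor.map_comp, Category.assoc, hp1, ← Category.assoc, R.epi]
  · apply hpo.hom_ext
    · rw [← Category.assoc, hH1, Category.assoc, p0_nat, ← Category.assoc R.H, R.h0,
        ← Category.assoc i, hs1, Category.assoc, Category.assoc, hp1]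
    · rw [← Category.assoc, hH2, hc0]
  · apply hpo.hom_ext
    · rw [← Category.assoc, hH1, Category.assoc, p1_nat, ← Category.assoc R.H, R.h1,
        Category.id_comp, Category.comp_id]
    · rw [← Category.assoc, hH2, hc1, Category.comp_id]

end TaskI

/-! ### Task I: the slide lemma -/
theorem slide_L [HasColimitsOfSize.{u, u} (Mod C)] [HasLimitsOfSize.{u, u} (Mod C)]
    (hax : CohAx C) (hsq : Sq (Fr C))
    (hfin : ∀ (n : ℕ) (S : Shape), Finite (Shape.globe n ⟶ S))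
    (hins : ∀ (n : ℕ) (S : Shape) (y : Shape.globe n ⟶ S),
      ∃ (w : Shape.globe n ⟶ S) (S' : Shape) (e : S ⟶ S') (k : Shape.globe (n + 1) ⟶ S'),
        ShPar w y ∧ S'.dim ≤ max S.dim (n + 1) ∧
        IsPushout ((Fr C).map w) ((Fr C).map (Shape.σ n)) ((Fr C).map e) ((Fr C).map k))
    {n j₀ : ℕ} (hn : n ≤ j₀) (K : Cyl C (n + 1) (j₀ : ℕ∞)) (F : PathFunctor K.A K.ι0 K.ι1)
    (hP : ∀ i < j₀, ∀ m, Pres C i m) (S : Shape) (hS : S.dim ≤ j₀ + 1)
    (A : Attach (Fr C) n (ds C n) (𝟙 (D C n))) : L j₀ (A.T'.obj S) := by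
  classical
  have : HasColimitsOfSize.{0, 0} (Mod C) := hasColimitsOfSizeShrink.{0, 0, u, u} (Mod C)
  -- the iterated attachments
  have key : ∀ l : List (Shape.globe n ⟶ S), ∃ (G : Mod C) (f : (Fr C).obj S ⟶ G)
      (ga : (Shape.globe n ⟶ S) → (D C (n + 1) ⟶ G)), Nonempty (TaskI.Ret K F j₀ f) ∧
      (∀ x, ds C n ≫ ga x = (Fr C).map x ≫ f) ∧
      ∀ (X : Mod C) (τ : (Fr C).obj S ⟶ X) (ga' : (Shape.globe n ⟶ S) → (D C (n + 1) ⟶ X)),
        (∀ x, ds C n ≫ ga' x = (Fr C).map x ≫ τ) →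
        ∃ g : G ⟶ X, f ≫ g = τ ∧ ∀ x ∈ l, ga x ≫ g = ga' x := by
    intro l
    induction l with
    | nil =>
      obtain ⟨v, hv1, _⟩ := exists_unit hax n
      refine ⟨_, 𝟙 _, fun x => v ≫ (Fr C).map x, TaskI.ret_base hax hsq K F hP S hS, ?_, ?_⟩
      · intro x
        rw [← Category.assoc, hv1, Category.id_comp, Category.comp_id]
      · intro X τ ga' _
        exact ⟨τ, Category.id_comp _, fun x hx => absurd hx (List.not_mem_nil)⟩
    | cons x l ih =>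
      obtain ⟨G, f, ga, ⟨R⟩, hga, huniv⟩ := ih
      have hpo := IsPushout.of_hasPushout ((Fr C).map x ≫ f) (ds C n)
      obtain ⟨R'⟩ := TaskI.ret_step hax hsq hins hn K F hP R x hpo
      refine ⟨_, _, fun z => if z = x then pushout.inr ((Fr C).map x ≫ f) (ds C n) else
        ga z ≫ pushout.inl ((Fr C).map x ≫ f) (ds C n), ⟨R'⟩, ?_, ?_⟩
      · intro z
        beta_reduce
        by_cases hz : z = x
        · subst hz
          rw [if_pos rfl, ← hpo.w, Category.assoc]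
        · rw [if_neg hz, ← Category.assoc, hga, Category.assoc]
      · intro X τ ga' hga'
        obtain ⟨g, hg1, hg2⟩ := huniv X τ ga' hga'
        refine ⟨hpo.desc g (ga' x) (by rw [Category.assoc, hg1, hga']), ?_, ?_⟩
        · rw [Category.assoc, hpo.inl_desc, hg1]
        · intro z hz
          beta_reduce
          by_cases hzx : z = x
          · subst hzx
            rw [if_pos rfl, hpo.inr_desc]
          · rw [if_neg hzx, Category.assoc, hpo.inl_desc]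
            exact hg2 z ((List.mem_cons.1 hz).resolve_left hzx)
  have := hfin n S
  obtain ⟨l, hl⟩ : ∃ l : List (Shape.globe n ⟶ S), ∀ x, x ∈ l := by
    have := Fintype.ofFinite (Shape.globe n ⟶ S)
    exact ⟨Finset.univ.toList, fun x => by simp⟩
  obtain ⟨G, f, ga, ⟨R⟩, hga, huniv⟩ := key l
  have hw : ∀ x : Shape.globe n ⟶ S,
      ds C n ≫ A.cell ≫ A.T'.map x = (Fr C).map x ≫ A.inl.app S := by
    intro x
    rw [← Category.assoc, A.w, Category.assoc, ← A.inl.naturality, Category.id_comp]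
  obtain ⟨g1, hg1, hg1'⟩ := huniv _ (A.inl.app S) (fun x => A.cell ≫ A.T'.map x) hw
  obtain ⟨g2, ⟨hg2, hg2'⟩, _⟩ := A.univ S G f ga (fun x => by rw [hga, Category.id_comp])
  have hid : g2 ≫ g1 = 𝟙 _ := by
    obtain ⟨q, _, hq⟩ := A.univ S _ (A.inl.app S) (fun x => A.cell ≫ A.T'.map x)
      (fun x => by rw [hw, Category.id_comp])
    rw [hq (g2 ≫ g1) ⟨?_, ?_⟩, hq (𝟙 _) ⟨?_, ?_⟩]
    · exact Category.comp_id _
    · intro x
      rw [Category.comp_id]
    · rw [← Category.assoc, hg2, hg1]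
    · intro x
      rw [← Category.assoc (A.T'.map x), ← Category.assoc A.cell, hg2', hg1' x (hl x)]
  have hL := TaskI.ret_L hax K F f R
  intro a b hab
  have h := (hL _ _ (hab.comp g2)).comp g1
  rw [Category.assoc, Category.assoc, hid, Category.comp_id, Category.comp_id] at h
  exact h

end Crest.Agent.S0382
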