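import Crest.Agent.S0382_Core10
import Crest.Agent.S0382_TaskC
import Crest.Agent.S0382_TaskF
import Crest.Agent.S0382_TaskI

set_option autoImplicit false

namespace Crest.Agent.S0382

open CategoryTheory CategoryTheory.Limits Opposite Crest.GeometryTopology.Coherator

universe u

variable {C : GlobTheory.{u}}

theorem slide_all (hax : CohAx C) : Slide C := by
  intro n j₀ hn K F hP S hS A
  exact slide_L hax (sq_Fr C) finite_cells (exists_insert C) hn K F hP S hS A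

section

variable (K : Cyl C 0 ⊤) (F : PathFunctor K.A K.ι0 K.ι1)

/-- `EndLift` in all dimensions, for the full cylinder. -/
theorem endLift_all (hPA : ∀ j m, Pres C j m)
    (hK : ∀ i : ℕ, ∀ S : Shape, S.dim ≤ i → Gd i (K.A.obj S)) (m : ℕ) : EndLift K F m := by
  apply endLift_of_omega K F (Nat.zero_le m)
  intro X v h' h e1 e2
  have s1 := IsPushout.of_hasPushout (K.ι0.app (Shape.globe m)) (ds C m)
  have s2 := IsPushout.of_hasPushout (K.ι1.app (Shape.globe m) ≫ pushout.inl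
    (K.ι0.app (Shape.globe m)) (ds C m)) (ds C m)
  have hg : ∀ i, m ≤ i → Gd i (pushout (K.ι1.app (Shape.globe m) ≫ pushout.inl
    (K.ι0.app (Shape.globe m)) (ds C m)) (ds C m)) := fun i hi =>
    hPA i m _ ((anod_ds m).of_isPushout s2) (hPA i m _ ((anod_ds m).of_isPushout s1)
      (hK i (Shape.globe m) hi))
  let f1 := s1.desc v h' e1.symm
  have f1l : pushout.inl (K.ι0.app (Shape.globe m)) (ds C m) ≫ f1 = v := s1.inl_desc _ _ _
  have f1r : pushout.inr (K.ι0.app (Shape.globe m)) (ds C m) ≫ f1 = h' := s1.inr_desc _ _ _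
  let f2 := s2.desc f1 h (by rw [Category.assoc, f1l, e2])
  have f2l : pushout.inl (K.ι1.app (Shape.globe m) ≫ pushout.inl
    (K.ι0.app (Shape.globe m)) (ds C m)) (ds C m) ≫ f2 = f1 := s2.inl_desc _ _ _
  have f2r : pushout.inr (K.ι1.app (Shape.globe m) ≫ pushout.inl
    (K.ι0.app (Shape.globe m)) (ds C m)) (ds C m) ≫ f2 = h := s2.inr_desc _ _ _
  refine ⟨_, pushout.inl (K.ι0.app (Shape.globe m)) (ds C m) ≫ pushout.inl
    (K.ι1.app (Shape.globe m) ≫ pushout.inl (K.ι0.app (Shape.globe m)) (ds C m)) (ds C m),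
    pushout.inr (K.ι0.app (Shape.globe m)) (ds C m) ≫ pushout.inl
    (K.ι1.app (Shape.globe m) ≫ pushout.inl (K.ι0.app (Shape.globe m)) (ds C m)) (ds C m),
    pushout.inr (K.ι1.app (Shape.globe m) ≫ pushout.inl
    (K.ι0.app (Shape.globe m)) (ds C m)) (ds C m), f2, ?_, ?_, ?_, ?_, ?_, ?_, ?_⟩
  · rw [← Category.assoc, ← s1.w, Category.assoc]
  · rw [← s2.w, Category.assoc]
  · rw [Category.assoc, f2l, f1l]
  · rw [Category.assoc, f2l, f1r]
  · exact f2r
  · exact fun _ => (hg m le_rfl).2 m le_rfl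
  · exact fun _ => (hg (m + 1) (Nat.le_succ m)).2 (m + 1) le_rfl

/-- The first end is a trivial fibration. -/
theorem p0_trivFib (hax : CohAx C) (X : Mod C) : TrivFib (F.p0.app X) := by
  refine ⟨fun z => ?_, fun m a b hab z h1 h2 => ?_⟩
  · obtain ⟨v, hv1, _⟩ := exists_unit hax 0
    obtain ⟨α, h1, _⟩ := K.at_n X (v ≫ z)
    refine ⟨(F.e _ X).symm α, ?_⟩
    have : K.ι0.app _ ≫ F.e _ X ((F.e _ X).symm α) = (F.e _ X).symm α ≫ F.p0.app X :=
      F.e_p0 _ X _
    rw [← this, Equiv.apply_symm_apply]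
    refine h1.trans ?_
    rw [← Category.assoc, hv1, Category.id_comp]
  · obtain ⟨γ, g1, g2, g3⟩ := K.lift0 m X (Nat.zero_le _) le_top (F.e _ X a) (F.e _ X b)
      ((par_iff K F a b).mp hab) z (by rw [h1, F.e_p0]) (by rw [h2, F.e_p0])
    refine ⟨(F.e _ X).symm γ, ?_, ?_, ?_⟩
    · apply (F.e _ X).injective
      rw [F.e_map, Equiv.apply_symm_apply, g1]
    · apply (F.e _ X).injective
      rw [F.e_map, Equiv.apply_symm_apply, g2]
    · have : K.ι0.app _ ≫ F.e _ X ((F.e _ X).symm γ) = (F.e _ X).symm γ ≫ F.p0.app X :=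
        F.e_p0 _ X _
      rw [← this, Equiv.apply_symm_apply, g3]

/-- The flip of the cylinder on globes. -/
theorem exists_flip (hK : ∀ i : ℕ, ∀ S : Shape, S.dim ≤ i → Gd i (K.A.obj S)) :
    ∃ τ : ∀ i, K.A.obj (Shape.globe i) ⟶ K.A.obj (Shape.globe i),
      (∀ i, K.ι0.app _ ≫ τ i = K.ι1.app _) ∧ (∀ i, K.ι1.app _ ≫ τ i = K.ι0.app _) ∧
      (∀ i, K.A.map (Shape.σ i) ≫ τ (i + 1) = τ i ≫ K.A.map (Shape.σ i)) ∧
      (∀ i, K.A.map (Shape.τ i) ≫ τ (i + 1) = τ i ≫ K.A.map (Shape.τ i)) := by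
  let Sw : ℕ → Type u := fun i => {τ : K.A.obj (Shape.globe i) ⟶ K.A.obj (Shape.globe i) //
    K.ι0.app _ ≫ τ = K.ι1.app _ ∧ K.ι1.app _ ≫ τ = K.ι0.app _ ∧
    ParA K.A (τ ≫ K.A.map (Shape.σ i)) (τ ≫ K.A.map (Shape.τ i))}
  have h0 : Nonempty (Sw 0) := by
    obtain ⟨α, h1, h2⟩ := K.ext0 (K.A.obj (Shape.globe 0)) rfl
      (fun _ => (hK 0 (Shape.globe 0) le_rfl).2 0 le_rfl) (K.ι1.app _) (K.ι0.app _)
    exact ⟨⟨α, h1, h2, trivial⟩⟩
  have hs : ∀ (i : ℕ) (t : Sw i), ∃ t' : Sw (i + 1),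
      K.A.map (Shape.σ i) ≫ t'.1 = t.1 ≫ K.A.map (Shape.σ i) ∧
      K.A.map (Shape.τ i) ≫ t'.1 = t.1 ≫ K.A.map (Shape.τ i) := by
    rintro i ⟨t, t1, t2, t3⟩
    obtain ⟨γ, g1, g2, g3, g4⟩ := K.ext i (K.A.obj (Shape.globe (i + 1))) (Nat.zero_le _)
      (fun _ => (hK (i + 1) (Shape.globe (i + 1)) le_rfl).2 (i + 1) le_rfl) _ _ t3
      (K.ι1.app _) (K.ι0.app _)
      (by rw [K.ι1.naturality, ← Category.assoc, t1])
      (by rw [K.ι1.naturality, ← Category.assoc, t1])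
      (by rw [K.ι0.naturality, ← Category.assoc, t2])
      (by rw [K.ι0.naturality, ← Category.assoc, t2])
    refine ⟨⟨γ, g3, g4, ?_, ?_⟩, g1, g2⟩
    · rw [← Category.assoc, g1, Category.assoc, ← K.A.map_comp, σσ, K.A.map_comp,
        ← Category.assoc t, ← g1, Category.assoc]
    · rw [← Category.assoc, g2, Category.assoc, ← K.A.map_comp, τσ, K.A.map_comp,
        ← Category.assoc t, ← g2, Category.assoc]
  obtain ⟨s0⟩ := h0
  let s : ∀ i, Sw i := fun i => Nat.rec (motive := fun i => Sw i) s0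
    (fun i t => (hs i t).choose) i
  have hs' : ∀ i, K.A.map (Shape.σ i) ≫ (s (i + 1)).1 = (s i).1 ≫ K.A.map (Shape.σ i) ∧
      K.A.map (Shape.τ i) ≫ (s (i + 1)).1 = (s i).1 ≫ K.A.map (Shape.τ i) :=
    fun i => (hs i (s i)).choose_spec
  exact ⟨fun i => (s i).1, fun i => (s i).2.1, fun i => (s i).2.2.1, fun i => (hs' i).1,
    fun i => (hs' i).2⟩

/-- The symmetric version of `p4`. -/
theorem path_p4' (hK : ∀ i : ℕ, ∀ S : Shape, S.dim ≤ i → Gd i (K.A.obj S)) {i : ℕ} {X : Mod C}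
    (a b : D C i ⟶ F.P.obj X) (h : Par a b)
    (hs : Step (a ≫ F.p1.app X) (b ≫ F.p1.app X)) : Step (a ≫ F.p0.app X) (b ≫ F.p0.app X) := by
  obtain ⟨τ, t1, t2, t3, t4⟩ := exists_flip K hK
  have hpar := (par_iff K F a b).mp h
  rw [← F.e_p1, ← F.e_p1] at hs
  rw [← F.e_p0, ← F.e_p0]
  have key := K.p4 i le_top X (τ i ≫ F.e _ X a) (τ i ≫ F.e _ X b) ?_ ?_
  · rw [← Category.assoc, t2, ← Category.assoc, t2] at key
    exact key
  · cases i with
    | zero => trivial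
    | succ i =>
      refine ⟨?_, ?_⟩
      · rw [← Category.assoc, t3, Category.assoc, hpar.1, ← Category.assoc, ← t3, Category.assoc]
      · rw [← Category.assoc, t4, Category.assoc, hpar.2, ← Category.assoc, ← t4, Category.assoc]
  · rw [← Category.assoc, t1, ← Category.assoc, t1]
    exact hs

end

/-- The pushout of a source inclusion along a map to a cofibrant model is a weak equivalence. -/
theorem main_theorem (hT : Nonempty C.Tower) (hax : CohAx C) (e : C.UnitChoice) {X Y : Mod C}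
    (hX : Cof X) {n : ℕ} {i : X ⟶ Y} (hi : Anod n i) : GlobTheory.GlobModel.IsWeakEquiv e i := by
  have hPA : ∀ j m, Pres C j m := pres_all hT hax (slide_all hax)
  obtain ⟨K, hK, _⟩ := exists_cyl (C := C) hax (n := 0) (j := ⊤) (fun i _ _ m _ => hPA i m)
    (fun A i _ _ S _ => hPA i 0 _ (A.anod S) (gd_Fr_all hax i (hPA i) S))
  have hK' : ∀ i : ℕ, ∀ S : Shape, S.dim ≤ i → Gd i (K.A.obj S) :=
    fun i S hS => hK i (Nat.zero_le i) le_top S hS
  obtain ⟨F⟩ := K.exists_path hT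
  have hE := endLift_all K F hPA hK' n
  obtain ⟨t, ht⟩ := hX (F.p0.app X) (p0_trivFib K F hax X) (𝟙 X)
  obtain ⟨r, hr⟩ := hi.exists_retraction hax (𝟙 X)
  obtain ⟨ψ, hψ⟩ := hi.exists_retraction hax ((t ≫ F.p1.app X) ≫ i)
  have n0 : (t ≫ F.P.map i) ≫ F.p0.app Y = i := by
    have := F.p0.naturality i
    simp only [Functor.id_map] at this
    rw [Category.assoc, this, ← Category.assoc, ht]
    exact Category.id_comp i
  have n1 : (t ≫ F.P.map i) ≫ F.p1.app Y = i ≫ ψ := by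
    have := F.p1.naturality i
    simp only [Functor.id_map] at this
    rw [Category.assoc, this, ← Category.assoc, hψ]
  obtain ⟨K1, k1, k10, k11⟩ := lift_homotopy K F hE hi (t ≫ F.P.map i) (𝟙 Y) ψ
    (by rw [n0, Category.comp_id]) n1.symm
  obtain ⟨K2, k2, k20, k21⟩ := lift_homotopy K F hE hi (t ≫ F.P.map i) (r ≫ i) ψ
    (by rw [n0, ← Category.assoc, hr, Category.id_comp]) n1.symm
  have key : ∀ (k : ℕ) (z : D C k ⟶ Y), Par (z ≫ K1) (z ≫ K2) → Step z (z ≫ r ≫ i) := by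
    intro k z hz
    have := path_p4' K F hK' (z ≫ K1) (z ≫ K2) hz (by
      rw [Category.assoc, Category.assoc, k11, k21]
      exact Step.refl hax _)
    rw [Category.assoc, Category.assoc, k10, k20] at this
    rwa [Category.comp_id] at this
  refine isWeakEquiv_of_step e i r hr (fun z => key 0 z trivial) ?_
  intro k a b z h1 h2
  refine key (k + 1) z ⟨?_, ?_⟩
  · rw [← Category.assoc, ← Category.assoc, h1, Category.assoc, Category.assoc, k1, k2]
  · rw [← Category.assoc, ← Category.assoc, h2, Category.assoc, Category.assoc, k1, k2]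

end Crest.Agent.S0382
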