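import Mathlib
import Crest.Prelude.Def_GlobularCoherator

set_option autoImplicit false

/-!
Basic definitions for S0382: cells of models as maps out of disks, parallel pairs, fillers,
lifting classes.  Everything lives in `Crest.Agent.S0382`.
-/

namespace Crest.Agent.S0382

open CategoryTheory CategoryTheory.Limits Opposite Crest.GeometryTopology.Coherator

universe u

/-- The category of models of `C`. -/
abbrev Mod (C : GlobTheory.{u}) : Type (u + 1) := GlobTheory.GlobModel C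

variable {C : GlobTheory.{u}}

/-- Operations of the theory act as morphisms between free models. -/
noncomputable def opMap (C : GlobTheory.{u}) {S T : Shape} (o : C.arr S T) :
    GlobTheory.GlobModel.freeOn C S ⟶ GlobTheory.GlobModel.freeOn C T :=
  (yoneda.map (show (⟨S⟩ : C.Ob) ⟶ ⟨T⟩ from o) :
    (GlobTheory.GlobModel.freeOn C S).functor ⟶ (GlobTheory.GlobModel.freeOn C T).functor)

/-- The free model functor on shapes. -/
noncomputable def Fr (C : GlobTheory.{u}) : Shape ⥤ Mod C where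
  obj S := GlobTheory.GlobModel.freeOn C S
  map f := opMap C (C.ofShape f)
  map_id S := by
    dsimp [opMap]
    exact (congrArg _ (C.ofShape_id S)).trans (yoneda.map_id (⟨S⟩ : C.Ob))
  map_comp f g := by
    dsimp [opMap]
    exact (congrArg _ (C.ofShape_comp f g)).trans
      (yoneda.map_comp (X := (⟨_⟩ : C.Ob)) (Y := ⟨_⟩) (Z := ⟨_⟩) _ _)

/-- The `m`-disk. -/
noncomputable abbrev D (C : GlobTheory.{u}) (m : ℕ) : Mod C := (Fr C).obj (Shape.globe m)

/-- Source inclusion of disks. -/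
noncomputable abbrev ds (C : GlobTheory.{u}) (m : ℕ) : D C m ⟶ D C (m + 1) :=
  (Fr C).map (Shape.σ m)

/-- Target inclusion of disks. -/
noncomputable abbrev dt (C : GlobTheory.{u}) (m : ℕ) : D C m ⟶ D C (m + 1) :=
  (Fr C).map (Shape.τ m)

/-- Parallel cells (cells of `X` are maps out of disks). -/
def Par {X : Mod C} : {m : ℕ} → (a b : D C m ⟶ X) → Prop
  | 0, _, _ => True
  | m + 1, a, b => ds C m ≫ a = ds C m ≫ b ∧ dt C m ≫ a = dt C m ≫ b

/-- `Step a b`: some `(m+1)`-cell goes from `a` to `b`. -/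
def Step {X : Mod C} {m : ℕ} (a b : D C m ⟶ X) : Prop :=
  ∃ w : D C (m + 1) ⟶ X, ds C m ≫ w = a ∧ dt C m ≫ w = b

/-- `L m X`: parallel `m`-cells of `X` are connected by an `(m+1)`-cell. -/
def L (m : ℕ) (X : Mod C) : Prop := ∀ a b : D C m ⟶ X, Par a b → Step a b

/-- Parallel maps of shapes out of a globe. -/
def ShPar {S : Shape} : {n : ℕ} → (w y : Shape.globe n ⟶ S) → Prop
  | 0, _, _ => True
  | n + 1, w, y => Shape.σ n ≫ w = Shape.σ n ≫ y ∧ Shape.τ n ≫ w = Shape.τ n ≫ y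

/-- Trivial fibrations: right lifting property against all boundary inclusions, in elementary
form. -/
def TrivFib : MorphismProperty (Mod C) := fun E B p =>
  (∀ z : D C 0 ⟶ B, ∃ w : D C 0 ⟶ E, w ≫ p = z) ∧
  ∀ (m : ℕ) (a b : D C m ⟶ E), Par a b → ∀ z : D C (m + 1) ⟶ B,
    ds C m ≫ z = a ≫ p → dt C m ≫ z = b ≫ p →
    ∃ w : D C (m + 1) ⟶ E, ds C m ≫ w = a ∧ dt C m ≫ w = b ∧ w ≫ p = z

/-- Cofibrant models: maps out of them lift along trivial fibrations. -/
def Cof (X : Mod C) : Prop :=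
  ∀ ⦃E B : Mod C⦄ (p : E ⟶ B), TrivFib p → ∀ f : X ⟶ B, ∃ g : X ⟶ E, g ≫ p = f

/-- `Anod m i`: `i` has the left lifting property against every map having the right lifting
property against the source inclusion `ds C m`. -/
def Anod (m : ℕ) {X Y : Mod C} (i : X ⟶ Y) : Prop :=
  ∀ ⦃E B : Mod C⦄ (p : E ⟶ B), HasLiftingProperty (ds C m) p → HasLiftingProperty i p

/-- `Gd j X`: `X` is cofibrant and has fillers for parallel cells up to dimension `j`. -/
def Gd (j : ℕ) (X : Mod C) : Prop := Cof X ∧ ∀ i ≤ j, L i X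

/-- `Pres j m`: goodness up to `j` is preserved by anodyne extensions of type `m`. -/
def Pres (C : GlobTheory.{u}) (j m : ℕ) : Prop :=
  ∀ ⦃X Y : Mod C⦄ (i : X ⟶ Y), Anod m i → Gd j X → Gd j Y

/-- A functor on shapes sends designated gluing squares to pushouts. -/
def Sq (T : Shape ⥤ Mod C) : Prop :=
  ∀ (S : Shape) (b h : ℕ) (hb : b < S.last) (hh : b < h),
    IsPushout (T.map (S.hinge hb)) (T.map (Shape.faceMap hh false))
      (T.map (S.inLeft b h hb hh)) (T.map (S.inRight b h hb hh))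

/-- `T'` is obtained from the functor `T` by attaching, for every `m`-globe `x` of the shape, a copy
of `G'` along `g : G ⟶ G'` and the universal cell `a`. -/
structure Attach (T : Shape ⥤ Mod C) (m : ℕ) {G G' : Mod C} (g : G ⟶ G')
    (a : G ⟶ T.obj (Shape.globe m)) where
  /-- the new functor -/
  T' : Shape ⥤ Mod C
  /-- the inclusion of the old functor -/
  inl : T ⟶ T'
  /-- the universal new cell -/
  cell : G' ⟶ T'.obj (Shape.globe m)
  w : g ≫ cell = a ≫ inl.app _
  univ : ∀ (S : Shape) (X : Mod C) (τ : T.obj S ⟶ X) (γ : (Shape.globe m ⟶ S) → (G' ⟶ X)),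
    (∀ x, g ≫ γ x = a ≫ T.map x ≫ τ) →
    ∃! f : T'.obj S ⟶ X, inl.app S ≫ f = τ ∧ ∀ x, cell ≫ T'.map x ≫ f = γ x

/-- Parallel maps out of the cylinders on globes. -/
def ParA (A : Shape ⥤ Mod C) {X : Mod C} :
    {m : ℕ} → (α β : A.obj (Shape.globe m) ⟶ X) → Prop
  | 0, _, _ => True
  | m + 1, α, β => A.map (Shape.σ m) ≫ α = A.map (Shape.σ m) ≫ β ∧
      A.map (Shape.τ m) ≫ α = A.map (Shape.τ m) ≫ β

/-- A functorial path object whose `S`-shaped diagrams are maps out of `A.obj S`. -/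
structure PathFunctor (A : Shape ⥤ Mod C) (ι0 ι1 : Fr C ⟶ A) where
  /-- the path functor -/
  P : Mod C ⥤ Mod C
  /-- first end -/
  p0 : P ⟶ 𝟭 (Mod C)
  /-- second end -/
  p1 : P ⟶ 𝟭 (Mod C)
  /-- cells of `P X` are cylinders in `X` -/
  e : ∀ (S : Shape) (X : Mod C), ((Fr C).obj S ⟶ P.obj X) ≃ (A.obj S ⟶ X)
  e_map : ∀ {S T : Shape} (f : S ⟶ T) (X : Mod C) (v : (Fr C).obj T ⟶ P.obj X),
    e S X ((Fr C).map f ≫ v) = A.map f ≫ e T X v
  e_comp : ∀ (S : Shape) {X Y : Mod C} (f : X ⟶ Y) (v : (Fr C).obj S ⟶ P.obj X),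
    e S Y (v ≫ P.map f) = e S X v ≫ f
  e_p0 : ∀ (S : Shape) (X : Mod C) (v : (Fr C).obj S ⟶ P.obj X),
    ι0.app S ≫ e S X v = v ≫ p0.app X
  e_p1 : ∀ (S : Shape) (X : Mod C) (v : (Fr C).obj S ⟶ P.obj X),
    ι1.app S ≫ e S X v = v ≫ p1.app X

end Crest.Agent.S0382
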