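import Crest.Agent.S0382_Basic

set_option autoImplicit false

namespace Crest.Agent.S0382

open CategoryTheory CategoryTheory.Limits Opposite Crest.GeometryTopology.Coherator

universe u

variable {C : GlobTheory.{u}}

theorem faceMap_comp' {k l m : ℕ} (h : k < l) (h' : l < m) (b b' : Bool) :
    Shape.faceMap h b ≫ Shape.faceMap h' b' = Shape.faceMap (h.trans h') b :=
  (yoneda.map_comp (GlobeObj.faceArrow h b) (GlobeObj.faceArrow h' b')).symm

theorem σσ (m : ℕ) : Shape.σ m ≫ Shape.σ (m + 1) = Shape.σ m ≫ Shape.τ (m + 1) := by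
  unfold Shape.σ Shape.τ
  rw [faceMap_comp', faceMap_comp']

theorem τσ (m : ℕ) : Shape.τ m ≫ Shape.σ (m + 1) = Shape.τ m ≫ Shape.τ (m + 1) := by
  unfold Shape.σ Shape.τ
  rw [faceMap_comp', faceMap_comp']

theorem ds_ds (m : ℕ) : ds C m ≫ ds C (m + 1) = ds C m ≫ dt C (m + 1) := by
  rw [← Functor.map_comp, ← Functor.map_comp, σσ]

theorem dt_ds (m : ℕ) : dt C m ≫ ds C (m + 1) = dt C m ≫ dt C (m + 1) := by
  rw [← Functor.map_comp, ← Functor.map_comp, τσ]

theorem ds_ds_assoc (m : ℕ) {X : Mod C} (f : D C (m + 2) ⟶ X) :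
    ds C m ≫ ds C (m + 1) ≫ f = ds C m ≫ dt C (m + 1) ≫ f := by
  rw [← Category.assoc, ds_ds, Category.assoc]

theorem dt_ds_assoc (m : ℕ) {X : Mod C} (f : D C (m + 2) ⟶ X) :
    dt C m ≫ ds C (m + 1) ≫ f = dt C m ≫ dt C (m + 1) ≫ f := by
  rw [← Category.assoc, dt_ds, Category.assoc]

section Par

variable {X Y : Mod C} {m : ℕ}

theorem Par.refl (a : D C m ⟶ X) : Par a a := by
  cases m with
  | zero => trivial
  | succ m => exact ⟨rfl, rfl⟩

theorem Par.symm {a b : D C m ⟶ X} (h : Par a b) : Par b a := by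
  cases m with
  | zero => trivial
  | succ m => exact ⟨h.1.symm, h.2.symm⟩

theorem Par.trans {a b c : D C m ⟶ X} (h : Par a b) (h' : Par b c) : Par a c := by
  cases m with
  | zero => trivial
  | succ m => exact ⟨h.1.trans h'.1, h.2.trans h'.2⟩

theorem Par.comp {a b : D C m ⟶ X} (h : Par a b) (f : X ⟶ Y) : Par (a ≫ f) (b ≫ f) := by
  cases m with
  | zero => trivial
  | succ m =>
    refine ⟨?_, ?_⟩
    · rw [← Category.assoc, h.1, Category.assoc]
    · rw [← Category.assoc, h.2, Category.assoc]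

theorem Step.comp {a b : D C m ⟶ X} (h : Step a b) (f : X ⟶ Y) : Step (a ≫ f) (b ≫ f) := by
  obtain ⟨w, h1, h2⟩ := h
  exact ⟨w ≫ f, by rw [← Category.assoc, h1], by rw [← Category.assoc, h2]⟩

/-- source and target of a cell are parallel -/
theorem par_src_tgt (w : D C (m + 1) ⟶ X) : Par (ds C m ≫ w) (dt C m ≫ w) := by
  cases m with
  | zero => trivial
  | succ m => exact ⟨ds_ds_assoc m w, dt_ds_assoc m w⟩

theorem Step.par {a b : D C m ⟶ X} (h : Step a b) : Par a b := by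
  obtain ⟨w, rfl, rfl⟩ := h
  exact par_src_tgt w

/-- the universal parallel pair in `D (m+1)` -/
theorem par_ds_dt (m : ℕ) : Par (ds C m) (dt C m) := by
  have := par_src_tgt (𝟙 (D C (m + 1)))
  rwa [Category.comp_id, Category.comp_id] at this

end Par

/-! ### consequences of the coherator axiom on small shapes -/

/-- Coherator axiom in the form used below. -/
def CohAx (C : GlobTheory.{u}) : Prop :=
  ∀ (m : ℕ) (S : Shape), S.dim ≤ m + 1 → L m ((Fr C).obj S)

/-- The pasting of two `(n+1)`-globes along the `n`-globe. -/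
def str (n : ℕ) : Shape := (Shape.globe (n + 1)).glue n (n + 1) (Nat.lt_succ_self n) (Nat.lt_succ_self n)

theorem str_dim (n : ℕ) : (str n).dim = n + 1 := by
  show max (n + 1) (n + 1) = n + 1
  simp

/-- The functor `Fr` sends gluing squares to pushouts (proved in Task D). -/
def FrSq (C : GlobTheory.{u}) : Prop := Sq (Fr C)

section Str

variable (hax : CohAx C) (hsq : Sq (Fr C))

theorem exists_unit (hax : CohAx C) (m : ℕ) :
    ∃ v : D C (m + 1) ⟶ D C m, ds C m ≫ v = 𝟙 _ ∧ dt C m ≫ v = 𝟙 _ :=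
  hax m (Shape.globe m) (Nat.le_succ m) (𝟙 _) (𝟙 _) (Par.refl _)

theorem Step.refl (hax : CohAx C) {X : Mod C} {m : ℕ} (a : D C m ⟶ X) : Step a a := by
  obtain ⟨v, h1, h2⟩ := exists_unit hax m
  exact ⟨v ≫ a, by rw [← Category.assoc, h1, Category.id_comp],
    by rw [← Category.assoc, h2, Category.id_comp]⟩

theorem exists_inv (hax : CohAx C) (m : ℕ) :
    ∃ v : D C (m + 1) ⟶ D C (m + 1), ds C m ≫ v = dt C m ∧ dt C m ≫ v = ds C m :=
  hax m (Shape.globe (m + 1)) le_rfl (dt C m) (ds C m) (par_ds_dt m).symm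

theorem Step.symm (hax : CohAx C) {X : Mod C} {m : ℕ} {a b : D C m ⟶ X} (h : Step a b) :
    Step b a := by
  obtain ⟨v, h1, h2⟩ := exists_inv hax m
  obtain ⟨w, rfl, rfl⟩ := h
  exact ⟨v ≫ w, by rw [← Category.assoc, h1], by rw [← Category.assoc, h2]⟩

theorem str_isPushout (hsq : Sq (Fr C)) (n : ℕ) :
    IsPushout (dt C n) (ds C n)
      ((Fr C).map ((Shape.globe (n + 1)).inLeft n (n + 1) (Nat.lt_succ_self n) (Nat.lt_succ_self n)))
      ((Fr C).map ((Shape.globe (n + 1)).inRight n (n + 1) (Nat.lt_succ_self n)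
        (Nat.lt_succ_self n))) := by
  have h := hsq (Shape.globe (n + 1)) n (n + 1) (Nat.lt_succ_self n) (Nat.lt_succ_self n)
  have e : (Shape.globe (n + 1)).hinge (Nat.lt_succ_self n) = Shape.τ n := by
    exact Category.comp_id (obj := GlobPsh.{0}) _
  rw [e] at h
  exact h

/-- first cell of the composable pair -/
noncomputable def strL (C : GlobTheory.{u}) (n : ℕ) : D C (n + 1) ⟶ (Fr C).obj (str n) :=
  (Fr C).map ((Shape.globe (n + 1)).inLeft n (n + 1) (Nat.lt_succ_self n) (Nat.lt_succ_self n))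

/-- second cell of the composable pair -/
noncomputable def strR (C : GlobTheory.{u}) (n : ℕ) : D C (n + 1) ⟶ (Fr C).obj (str n) :=
  (Fr C).map ((Shape.globe (n + 1)).inRight n (n + 1) (Nat.lt_succ_self n) (Nat.lt_succ_self n))

theorem str_w (hsq : Sq (Fr C)) (n : ℕ) : dt C n ≫ strL C n = ds C n ≫ strR C n :=
  (str_isPushout hsq n).w

/-- the map out of the composable pair given by two composable cells -/
noncomputable def pairStr (hsq : Sq (Fr C)) {X : Mod C} {n : ℕ} (a b : D C (n + 1) ⟶ X)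
    (h : dt C n ≫ a = ds C n ≫ b) : (Fr C).obj (str n) ⟶ X :=
  (str_isPushout hsq n).desc a b h

@[simp] theorem strL_pairStr (hsq : Sq (Fr C)) {X : Mod C} {n : ℕ} (a b : D C (n + 1) ⟶ X)
    (h : dt C n ≫ a = ds C n ≫ b) : strL C n ≫ pairStr hsq a b h = a :=
  (str_isPushout hsq n).inl_desc a b h

@[simp] theorem strR_pairStr (hsq : Sq (Fr C)) {X : Mod C} {n : ℕ} (a b : D C (n + 1) ⟶ X)
    (h : dt C n ≫ a = ds C n ≫ b) : strR C n ≫ pairStr hsq a b h = b :=
  (str_isPushout hsq n).inr_desc a b h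

theorem pairStr_comp (hsq : Sq (Fr C)) {X Y : Mod C} {n : ℕ} (a b : D C (n + 1) ⟶ X)
    (h : dt C n ≫ a = ds C n ≫ b) (f : X ⟶ Y) :
    pairStr hsq a b h ≫ f = pairStr hsq (a ≫ f) (b ≫ f)
      (by rw [← Category.assoc, h, Category.assoc]) := by
  apply (str_isPushout hsq n).hom_ext
  · change strL C n ≫ _ = strL C n ≫ _
    rw [strL_pairStr, ← Category.assoc, strL_pairStr]
  · change strR C n ≫ _ = strR C n ≫ _
    rw [strR_pairStr, ← Category.assoc, strR_pairStr]

/-- composition cell -/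
theorem exists_cc (hax : CohAx C) (hsq : Sq (Fr C)) (n : ℕ) :
    ∃ c : D C (n + 1) ⟶ (Fr C).obj (str n),
      ds C n ≫ c = ds C n ≫ strL C n ∧ dt C n ≫ c = dt C n ≫ strR C n := by
  refine hax n (str n) (by rw [str_dim]) _ _ ?_
  refine (par_src_tgt (strL C n)).trans ?_
  rw [str_w hsq]
  exact par_src_tgt (strR C n)

/-- the inverse operation -/
noncomputable def invc (hax : CohAx C) (n : ℕ) : D C (n + 1) ⟶ D C (n + 1) :=
  (exists_inv hax n).choose

theorem ds_invc (hax : CohAx C) (n : ℕ) : ds C n ≫ invc hax n = dt C n :=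
  (exists_inv hax n).choose_spec.1

theorem dt_invc (hax : CohAx C) (n : ℕ) : dt C n ≫ invc hax n = ds C n :=
  (exists_inv hax n).choose_spec.2

/-- the composition operation -/
noncomputable def compCell (hax : CohAx C) (hsq : Sq (Fr C)) {X : Mod C} {n : ℕ}
    (a b : D C (n + 1) ⟶ X) (h : dt C n ≫ a = ds C n ≫ b) : D C (n + 1) ⟶ X :=
  (exists_cc hax hsq n).choose ≫ pairStr hsq a b h

theorem ds_compCell (hax : CohAx C) (hsq : Sq (Fr C)) {X : Mod C} {n : ℕ}
    (a b : D C (n + 1) ⟶ X) (h : dt C n ≫ a = ds C n ≫ b) :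
    ds C n ≫ compCell hax hsq a b h = ds C n ≫ a := by
  unfold compCell
  rw [← Category.assoc, (exists_cc hax hsq n).choose_spec.1, Category.assoc, strL_pairStr]

theorem dt_compCell (hax : CohAx C) (hsq : Sq (Fr C)) {X : Mod C} {n : ℕ}
    (a b : D C (n + 1) ⟶ X) (h : dt C n ≫ a = ds C n ≫ b) :
    dt C n ≫ compCell hax hsq a b h = dt C n ≫ b := by
  unfold compCell
  rw [← Category.assoc, (exists_cc hax hsq n).choose_spec.2, Category.assoc, strR_pairStr]

theorem compCell_comp (hax : CohAx C) (hsq : Sq (Fr C)) {X Y : Mod C} {n : ℕ}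
    (a b : D C (n + 1) ⟶ X) (h : dt C n ≫ a = ds C n ≫ b) (f : X ⟶ Y) :
    compCell hax hsq a b h ≫ f = compCell hax hsq (a ≫ f) (b ≫ f)
      (by rw [← Category.assoc, h, Category.assoc]) := by
  unfold compCell
  rw [Category.assoc, pairStr_comp]

theorem Step.trans (hax : CohAx C) (hsq : Sq (Fr C)) {X : Mod C} {m : ℕ} {a b c : D C m ⟶ X}
    (h : Step a b) (h' : Step b c) : Step a c := by
  obtain ⟨w, rfl, hw⟩ := h
  obtain ⟨w', hw', rfl⟩ := h'
  exact ⟨compCell hax hsq w w' (hw.trans hw'.symm), ds_compCell hax hsq _ _ _,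
    dt_compCell hax hsq _ _ _⟩

/-- The slide law: `φ⁻¹ * (φ * γ)` is equivalent to `γ`. -/
theorem slide_step (hax : CohAx C) (hsq : Sq (Fr C)) {X : Mod C} {n : ℕ}
    (φ γ : D C (n + 1) ⟶ X) (h : dt C n ≫ φ = ds C n ≫ γ)
    (h' : dt C n ≫ invc hax n ≫ φ = ds C n ≫ compCell hax hsq φ γ h) :
    Step (compCell hax hsq (invc hax n ≫ φ) (compCell hax hsq φ γ h) h') γ := by
  have h0 := str_w hsq n
  have h1 : dt C n ≫ invc hax n ≫ strL C n = ds C n ≫ compCell hax hsq (strL C n) (strR C n) h0 := by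
    rw [← Category.assoc, dt_invc, ds_compCell]
  have key : Step (compCell hax hsq (invc hax n ≫ strL C n)
      (compCell hax hsq (strL C n) (strR C n) h0) h1) (strR C n) := by
    refine hax (n + 1) (str n) (by rw [str_dim]; exact Nat.le_succ _) _ _ ⟨?_, ?_⟩
    · rw [ds_compCell, ← Category.assoc, ds_invc, h0]
    · rw [dt_compCell, dt_compCell]
  have := key.comp (pairStr hsq φ γ h)
  simpa only [compCell_comp, strL_pairStr, strR_pairStr, Category.assoc] using this

end Str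

/-! ### lifting classes -/

theorem hasLift_ds_iff {m : ℕ} {E B : Mod C} (p : E ⟶ B) :
    HasLiftingProperty (ds C m) p ↔ ∀ (a : D C m ⟶ E) (h : D C (m + 1) ⟶ B),
      ds C m ≫ h = a ≫ p → ∃ w : D C (m + 1) ⟶ E, ds C m ≫ w = a ∧ w ≫ p = h := by
  constructor
  · intro hp a h w
    have sq : CommSq a (ds C m) p h := ⟨w.symm⟩
    exact ⟨sq.lift, sq.fac_left, sq.fac_right⟩
  · intro H
    refine ⟨fun {f g} sq => ?_⟩
    obtain ⟨w, h1, h2⟩ := H f g sq.w.symm
    exact ⟨⟨⟨w, h1, h2⟩⟩⟩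

theorem TrivFib.hasLift_ds {E B : Mod C} {p : E ⟶ B} (hp : TrivFib p) (m : ℕ) :
    HasLiftingProperty (ds C m) p := by
  rw [hasLift_ds_iff]
  intro a h w
  -- choose the target
  obtain ⟨b, hb, hab⟩ : ∃ b : D C m ⟶ E, b ≫ p = dt C m ≫ h ∧ Par a b := by
    cases m with
    | zero =>
      obtain ⟨b, hb⟩ := hp.1 (dt C 0 ≫ h)
      exact ⟨b, hb, trivial⟩
    | succ m =>
      obtain ⟨b, h1, h2, h3⟩ := hp.2 m (ds C m ≫ a) (dt C m ≫ a) (par_src_tgt a)
        (dt C (m + 1) ≫ h) (by rw [← ds_ds_assoc, w, Category.assoc])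
        (by rw [← dt_ds_assoc, w, Category.assoc])
      exact ⟨b, h3, h1.symm, h2.symm⟩
  obtain ⟨c, h1, h2, h3⟩ := hp.2 m a b hab h w hb.symm
  exact ⟨c, h1, h3⟩

theorem Cof.of_anod {m : ℕ} {X Y : Mod C} {i : X ⟶ Y} (hi : Anod m i) (hX : Cof X) : Cof Y := by
  intro E B p hp f
  obtain ⟨g, hg⟩ := hX p hp (i ≫ f)
  have := hi p (hp.hasLift_ds m)
  have sq : CommSq g i p f := ⟨hg⟩
  exact ⟨sq.lift, sq.fac_right⟩

theorem anod_ds (m : ℕ) : Anod m (ds C m) := fun _ _ _ h => h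

theorem Anod.of_isPushout {m : ℕ} {X Y X' Y' : Mod C} {i : X ⟶ Y} {f : X ⟶ X'} {g : Y ⟶ Y'}
    {i' : X' ⟶ Y'} (h : IsPushout f i i' g) (hi : Anod m i) : Anod m i' := by
  intro E B p hp
  have := hi p hp
  exact h.hasLiftingProperty p

end Crest.Agent.S0382
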