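import Crest.Agent.S0382_Basic

set_option autoImplicit false

/-!
Task B for S0382: sections out of the tower.
-/

namespace Crest.Agent.S0382

open CategoryTheory CategoryTheory.Limits Opposite Crest.GeometryTopology.Coherator

universe u

variable {C : GlobTheory.{u}}

theorem TheoryMap.comp_assoc' {A B D E : GlobTheory.{u}} (F : GlobTheory.TheoryMap A B)
    (G : GlobTheory.TheoryMap B D) (H : GlobTheory.TheoryMap D E) :
    (F.comp G).comp H = F.comp (G.comp H) := rfl

theorem TheoryMap.comp_id' {A B : GlobTheory.{u}} (F : GlobTheory.TheoryMap A B) :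
    F.comp (GlobTheory.TheoryMap.id B) = F := rfl

theorem TheoryMap.opsParallel {A B : GlobTheory.{u}} (F : GlobTheory.TheoryMap A B) {S : Shape} :
    ∀ (n : ℕ) (l r : A.arr (Shape.globe n) S), A.OpsParallel n l r →
      B.OpsParallel n (F.map l) (F.map r)
  | 0, _, _, _ => trivial
  | n + 1, l, r, h => by
    refine ⟨?_, ?_⟩
    · rw [← F.map_ofShape, ← F.map_seq, ← F.map_seq, h.1]
    · rw [← F.map_ofShape, ← F.map_seq, ← F.map_seq, h.2]

theorem exists_section (hT : Nonempty C.Tower) (E : GlobTheory.{u})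
    (π : GlobTheory.TheoryMap E C)
    (hfill : ∀ (n : ℕ) (S : Shape), S.dim ≤ n + 1 →
      ∀ l r : E.arr (Shape.globe n) S, E.OpsParallel n l r →
      ∀ q : C.arr (Shape.globe (n + 1)) S,
        C.seq (C.ofShape (Shape.σ n)) q = π.map l → C.seq (C.ofShape (Shape.τ n)) q = π.map r →
        ∃ w : E.arr (Shape.globe (n + 1)) S, E.seq (E.ofShape (Shape.σ n)) w = l ∧
          E.seq (E.ofShape (Shape.τ n)) w = r ∧ π.map w = q) :
    ∃ G : GlobTheory.TheoryMap C E, G.comp π = GlobTheory.TheoryMap.id C := by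
  obtain ⟨T⟩ := hT
  -- the step
  have step : ∀ (r : ℕ) (G : GlobTheory.TheoryMap (T.stage r) E), G.comp π = T.toEnd r →
      ∃ H : GlobTheory.TheoryMap (T.stage (r + 1)) E,
        (T.next r).comp H = G ∧ H.comp π = T.toEnd (r + 1) := by
    intro r G hG
    have key : ∀ g : T.gen r, ∃ w : E.arr (Shape.globe ((T.prob r g).n + 1)) (T.prob r g).shape,
        E.seq (E.ofShape (Shape.σ (T.prob r g).n)) w = G.map (T.prob r g).lower ∧
          E.seq (E.ofShape (Shape.τ (T.prob r g).n)) w = G.map (T.prob r g).upper ∧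
          π.map w = (T.toEnd (r + 1)).map (T.fill r g) := by
      intro g
      have hf := (T.free r).1 g
      have hcomp : ∀ {S S' : Shape} (x : (T.stage r).arr S S'),
          π.map (G.map x) = (T.toEnd (r + 1)).map ((T.next r).map x) := by
        intro S S' x
        have h1 : (G.comp π).map x = (T.toEnd r).map x := by rw [hG]
        have h2 : ((T.next r).comp (T.toEnd (r + 1))).map x = (T.toEnd r).map x := by
          rw [T.toEnd_comm]
        exact h1.trans h2.symm
      apply hfill (T.prob r g).n (T.prob r g).shape (T.prob r g).dim_le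
      · exact TheoryMap.opsParallel G _ _ _ (T.prob r g).parallel
      · rw [hcomp, ← hf.1, (T.toEnd (r + 1)).map_seq, (T.toEnd (r + 1)).map_ofShape]
      · rw [hcomp, ← hf.2, (T.toEnd (r + 1)).map_seq, (T.toEnd (r + 1)).map_ofShape]
    choose w hw1 hw2 hw3 using key
    obtain ⟨H, ⟨hH1, hH2⟩, -⟩ := (T.free r).2 E G w (fun g => ⟨hw1 g, hw2 g⟩)
    refine ⟨H, hH1, ?_⟩
    have huniq := (T.free r).2 C (T.toEnd r) (fun g => (T.toEnd (r + 1)).map (T.fill r g)) ?_
    · refine huniq.unique ⟨?_, ?_⟩ ⟨T.toEnd_comm r, fun _ => rfl⟩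
      · rw [← TheoryMap.comp_assoc', hH1, hG]
      · intro g
        show π.map (H.map (T.fill r g)) = _
        rw [hH2, hw3]
    · intro g
      have hf := (T.free r).1 g
      have h2 : ∀ {S S' : Shape} (x : (T.stage r).arr S S'),
          (T.toEnd (r + 1)).map ((T.next r).map x) = (T.toEnd r).map x := by
        intro S S' x
        exact congrArg (fun K : GlobTheory.TheoryMap (T.stage r) C => K.map x) (T.toEnd_comm r)
      refine ⟨?_, ?_⟩
      · rw [← h2, ← hf.1, (T.toEnd (r + 1)).map_seq, (T.toEnd (r + 1)).map_ofShape]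
      · rw [← h2, ← hf.2, (T.toEnd (r + 1)).map_seq, (T.toEnd (r + 1)).map_ofShape]
  -- the base
  have base : ∃ G : GlobTheory.TheoryMap (T.stage 0) E, G.comp π = T.toEnd 0 := by
    obtain ⟨U⟩ := T.stage_zero E
    obtain ⟨V⟩ := T.stage_zero C
    refine ⟨U.default, ?_⟩
    rw [V.uniq (U.default.comp π), V.uniq (T.toEnd 0)]
  -- the recursion
  let Good : ℕ → Type _ := fun r => {G : GlobTheory.TheoryMap (T.stage r) E // G.comp π = T.toEnd r}
  let start : Good 0 := ⟨base.choose, base.choose_spec⟩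
  let stp : ∀ r, Good r → Good (r + 1) := fun r G =>
    ⟨(step r G.1 G.2).choose, (step r G.1 G.2).choose_spec.2⟩
  let seq : ∀ r, Good r := fun r => Nat.rec start stp r
  have hseq : ∀ r, (T.next r).comp (seq (r + 1)).1 = (seq r).1 := fun r =>
    (step r (seq r).1 (seq r).2).choose_spec.1
  obtain ⟨H, hH, -⟩ := T.colim E (fun r => (seq r).1) hseq
  refine ⟨H, ?_⟩
  have huniq := T.colim C T.toEnd T.toEnd_comm
  refine huniq.unique ?_ ?_
  · intro r
    rw [← TheoryMap.comp_assoc']
    rw [hH r]
    exact (seq r).2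
  · intro r
    rfl

end Crest.Agent.S0382
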