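import Crest.Agent.S0382_Basic
import Crest.Agent.S0382_TaskB

set_option autoImplicit false

/-!
Task G for S0382: the theory of cylinders and the path functor.
-/

namespace Crest.Agent.S0382

open CategoryTheory CategoryTheory.Limits Opposite Crest.GeometryTopology.Coherator

universe u

variable {C : GlobTheory.{u}}

namespace TaskG

/-- an operation, as a morphism of the category of the theory -/
abbrev hom {S T : Shape} (o : C.arr S T) : (⟨S⟩ : C.Ob) ⟶ (⟨T⟩ : C.Ob) := o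

/-- Yoneda for models -/
noncomputable def yo (S : Shape) (X : Mod C) :
    ((Fr C).obj S ⟶ X) ≃ X.functor.obj (op (⟨S⟩ : C.Ob)) :=
  yonedaEquiv

/-- `opMap`, with the type of its source and target in terms of `Fr`. -/
noncomputable def opM {S T : Shape} (o : C.arr S T) : (Fr C).obj S ⟶ (Fr C).obj T := opMap C o

theorem Fr_map {S T : Shape} (f : S ⟶ T) : (Fr C).map f = opM (C.ofShape f) := rfl

theorem yo_opM {S T : Shape} {X : Mod C} (o : C.arr S T) (v : (Fr C).obj T ⟶ X) :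
    yo S X (opM o ≫ v) = X.functor.map (hom o).op (yo T X v) :=
  (yonedaEquiv_naturality (F := X.functor) v (hom o)).symm

theorem yo_comp {S : Shape} {X Y : Mod C} (v : (Fr C).obj S ⟶ X) (f : X ⟶ Y) :
    yo S Y (v ≫ f) = NatTrans.app (F := X.functor) (G := Y.functor) f _ (yo S X v) :=
  yonedaEquiv_comp (G := Y.functor) v f

theorem opM_seq {S T U : Shape} (f : C.arr S T) (g : C.arr T U) :
    opM (C.seq f g) = opM f ≫ opM g :=
  yoneda.map_comp (hom f) (hom g)

theorem opM_one (S : Shape) : opM (C.one S) = 𝟙 ((Fr C).obj S) :=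
  yoneda.map_id (⟨S⟩ : C.Ob)

theorem Fr_hom_ext {X : Mod C} (S : Shape) (b h : ℕ) (hb : b < S.last) (hh : b < h)
    (f g : (Fr C).obj (S.glue b h hb hh) ⟶ X)
    (h1 : (Fr C).map (S.inLeft b h hb hh) ≫ f = (Fr C).map (S.inLeft b h hb hh) ≫ g)
    (h2 : (Fr C).map (S.inRight b h hb hh) ≫ f = (Fr C).map (S.inRight b h hb hh) ≫ g) :
    f = g := by
  apply (yo _ X).injective
  refine Types.ext_of_isPullback (X.sums S b h hb hh) ?_ ?_
  · have := congrArg (yo _ X) h1
    rw [Fr_map, yo_opM, yo_opM] at this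
    exact this
  · have := congrArg (yo _ X) h2
    rw [Fr_map, yo_opM, yo_opM] at this
    exact this

variable (A : Shape ⥤ Mod C) (ι0 ι1 : Fr C ⟶ A)

/-- operations of the theory of cylinders -/
def CylArr (S T : Shape) : Type u :=
  {p : C.arr S T × (A.obj S ⟶ A.obj T) //
    ι0.app S ≫ p.2 = opM p.1 ≫ ι0.app T ∧ ι1.app S ≫ p.2 = opM p.1 ≫ ι1.app T}

variable {A ι0 ι1}

theorem CylArr.ext {S T : Shape} {f g : CylArr A ι0 ι1 S T} (h1 : f.1.1 = g.1.1)
    (h2 : f.1.2 = g.1.2) : f = g :=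
  Subtype.ext (Prod.ext h1 h2)

variable (A ι0 ι1)

/-- the pre-theory of cylinders -/
noncomputable def cylPre : PreTheory.{u} where
  arr := CylArr A ι0 ι1
  one S := ⟨(C.one S, 𝟙 _), by
    constructor <;> rw [opM_one, Category.comp_id, Category.id_comp]⟩
  seq f g := ⟨(C.seq f.1.1 g.1.1, f.1.2 ≫ g.1.2), by
    constructor
    · show _ ≫ f.1.2 ≫ g.1.2 = opM (C.seq f.1.1 g.1.1) ≫ _
      rw [← Category.assoc, f.2.1, Category.assoc, g.2.1, opM_seq, Category.assoc]
    · show _ ≫ f.1.2 ≫ g.1.2 = opM (C.seq f.1.1 g.1.1) ≫ _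
      rw [← Category.assoc, f.2.2, Category.assoc, g.2.2, opM_seq, Category.assoc]⟩
  one_seq f := CylArr.ext (C.one_seq _) (Category.id_comp _)
  seq_one f := CylArr.ext (C.seq_one _) (Category.comp_id _)
  seq_assoc f g h := CylArr.ext (C.seq_assoc _ _ _) (Category.assoc _ _ _)
  ofShape f := ⟨(C.ofShape f, A.map f), by
    constructor
    · exact (ι0.naturality f).symm
    · exact (ι1.naturality f).symm⟩
  ofShape_id S := CylArr.ext (C.ofShape_id S) (A.map_id S)
  ofShape_comp f g := CylArr.ext (C.ofShape_comp f g) (A.map_comp f g)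

/-- morphisms of the category of the pre-theory, as `CylArr` -/
abbrev un {S T : (cylPre A ι0 ι1).Ob} (f : S ⟶ T) : CylArr A ι0 ι1 S.shape T.shape := f

theorem cyl_respectsSums (hA : Sq A) : (cylPre A ι0 ι1).RespectsSums := by
  intro S b h hb hh
  have hC := C.respectsSums S b h hb hh
  have hA' := hA S b h hb hh
  -- descent
  have key : ∀ (U : Shape) (l : CylArr A ι0 ι1 S U) (r : CylArr A ι0 ι1 (Shape.globe h) U),
      C.seq (C.ofShape (S.hinge hb)) l.1.1 = C.seq (C.ofShape (Shape.faceMap hh false)) r.1.1 →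
      A.map (S.hinge hb) ≫ l.1.2 = A.map (Shape.faceMap hh false) ≫ r.1.2 →
      ∃ m : CylArr A ι0 ι1 (S.glue b h hb hh) U,
        C.seq (C.ofShape (S.inLeft b h hb hh)) m.1.1 = l.1.1 ∧
        C.seq (C.ofShape (S.inRight b h hb hh)) m.1.1 = r.1.1 ∧
        A.map (S.inLeft b h hb hh) ≫ m.1.2 = l.1.2 ∧
        A.map (S.inRight b h hb hh) ≫ m.1.2 = r.1.2 := by
    intro U l r w1 w2
    let o : C.arr (S.glue b h hb hh) U := hC.desc (hom l.1.1) (hom r.1.1) w1
    have ho1 : C.seq (C.ofShape (S.inLeft b h hb hh)) o = l.1.1 :=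
      hC.inl_desc (hom l.1.1) (hom r.1.1) w1
    have ho2 : C.seq (C.ofShape (S.inRight b h hb hh)) o = r.1.1 :=
      hC.inr_desc (hom l.1.1) (hom r.1.1) w1
    let φ : A.obj (S.glue b h hb hh) ⟶ A.obj U := hA'.desc l.1.2 r.1.2 w2
    have hφ1 : A.map (S.inLeft b h hb hh) ≫ φ = l.1.2 := hA'.inl_desc _ _ w2
    have hφ2 : A.map (S.inRight b h hb hh) ≫ φ = r.1.2 := hA'.inr_desc _ _ w2
    have gen : ∀ (ι : Fr C ⟶ A), ι.app S ≫ l.1.2 = opM l.1.1 ≫ ι.app U →
        ι.app (Shape.globe h) ≫ r.1.2 = opM r.1.1 ≫ ι.app U →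
        ι.app (S.glue b h hb hh) ≫ φ = opM o ≫ ι.app U := by
      intro ι hl hr
      apply Fr_hom_ext
      · rw [← Category.assoc, ι.naturality, Category.assoc, hφ1, hl, Fr_map, ← Category.assoc,
          ← opM_seq, ho1]
      · rw [← Category.assoc, ι.naturality, Category.assoc, hφ2, hr, Fr_map, ← Category.assoc,
          ← opM_seq, ho2]
    exact ⟨⟨(o, φ), gen ι0 l.2.1 r.2.1, gen ι1 l.2.2 r.2.2⟩, ho1, ho2, hφ1, hφ2⟩
  refine ⟨⟨CylArr.ext hC.w hA'.w⟩, ⟨PushoutCocone.IsColimit.mk _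
    (fun s => (key s.pt.shape (un A ι0 ι1 s.inl) (un A ι0 ι1 s.inr)
      (congrArg (fun f : CylArr A ι0 ι1 _ _ => f.1.1) s.condition)
      (congrArg (fun f : CylArr A ι0 ι1 _ _ => f.1.2) s.condition)).choose) ?_ ?_ ?_⟩⟩
  · intro s
    have hs := (key s.pt.shape (un A ι0 ι1 s.inl) (un A ι0 ι1 s.inr)
      (congrArg (fun f : CylArr A ι0 ι1 _ _ => f.1.1) s.condition)
      (congrArg (fun f : CylArr A ι0 ι1 _ _ => f.1.2) s.condition)).choose_spec
    exact CylArr.ext hs.1 hs.2.2.1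
  · intro s
    have hs := (key s.pt.shape (un A ι0 ι1 s.inl) (un A ι0 ι1 s.inr)
      (congrArg (fun f : CylArr A ι0 ι1 _ _ => f.1.1) s.condition)
      (congrArg (fun f : CylArr A ι0 ι1 _ _ => f.1.2) s.condition)).choose_spec
    exact CylArr.ext hs.2.1 hs.2.2.2
  · intro s m hm1 hm2
    have hs := (key s.pt.shape (un A ι0 ι1 s.inl) (un A ι0 ι1 s.inr)
      (congrArg (fun f : CylArr A ι0 ι1 _ _ => f.1.1) s.condition)
      (congrArg (fun f : CylArr A ι0 ι1 _ _ => f.1.2) s.condition)).choose_spec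
    refine CylArr.ext ?_ ?_
    · refine hC.hom_ext (W := ⟨s.pt.shape⟩) (k := hom (un A ι0 ι1 m).1.1) ?_ ?_
      · exact (congrArg (fun f : CylArr A ι0 ι1 _ _ => f.1.1) hm1).trans hs.1.symm
      · exact (congrArg (fun f : CylArr A ι0 ι1 _ _ => f.1.1) hm2).trans hs.2.1.symm
    · refine hA'.hom_ext (k := (un A ι0 ι1 m).1.2) ?_ ?_
      · exact (congrArg (fun f : CylArr A ι0 ι1 _ _ => f.1.2) hm1).trans hs.2.2.1.symm
      · exact (congrArg (fun f : CylArr A ι0 ι1 _ _ => f.1.2) hm2).trans hs.2.2.2.symm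

/-- the theory of cylinders -/
noncomputable def cylTheory (hA : Sq A) : GlobTheory.{u} where
  toPreTheory := cylPre A ι0 ι1
  respectsSums := cyl_respectsSums A ι0 ι1 hA

/-- the projection -/
noncomputable def cylProj (hA : Sq A) : GlobTheory.TheoryMap (cylTheory A ι0 ι1 hA) C where
  map f := (show CylArr A ι0 ι1 _ _ from f).1.1
  map_one _ := rfl
  map_seq _ _ := rfl
  map_ofShape _ := rfl

/-- A functor-like extension of `A` to all operations. -/
structure Ext where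
  /-- the action -/
  ψ : ∀ {S T : Shape}, C.arr S T → (A.obj S ⟶ A.obj T)
  ψ_one : ∀ S : Shape, ψ (C.one S) = 𝟙 _
  ψ_seq : ∀ {S T U : Shape} (f : C.arr S T) (g : C.arr T U), ψ (C.seq f g) = ψ f ≫ ψ g
  ψ_ofShape : ∀ {S T : Shape} (f : S ⟶ T), ψ (C.ofShape f) = A.map f
  ι0_ψ : ∀ {S T : Shape} (o : C.arr S T), ι0.app S ≫ ψ o = opM o ≫ ι0.app T
  ι1_ψ : ∀ {S T : Shape} (o : C.arr S T), ι1.app S ≫ ψ o = opM o ≫ ι1.app T

variable {A ι0 ι1}

/-- the extension given by a section of the projection. -/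
noncomputable def extOfSection (hA : Sq A) (G : GlobTheory.TheoryMap C (cylTheory A ι0 ι1 hA))
    (hG : G.comp (cylProj A ι0 ι1 hA) = GlobTheory.TheoryMap.id C) : Ext A ι0 ι1 := by
  have h1 : ∀ {S T : Shape} (o : C.arr S T), (show CylArr A ι0 ι1 S T from G.map o).1.1 = o := by
    intro S T o
    exact congrArg (fun K : GlobTheory.TheoryMap C C => K.map o) hG
  exact
  { ψ := fun {S T} o => (show CylArr A ι0 ι1 S T from G.map o).1.2
    ψ_one := fun S => congrArg (fun f : CylArr A ι0 ι1 _ _ => f.1.2) (G.map_one S)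
    ψ_seq := fun f g => congrArg (fun f : CylArr A ι0 ι1 _ _ => f.1.2) (G.map_seq f g)
    ψ_ofShape := fun f => congrArg (fun f : CylArr A ι0 ι1 _ _ => f.1.2) (G.map_ofShape f)
    ι0_ψ := fun {S T} o => by
      have h2 := (show CylArr A ι0 ι1 S T from G.map o).2.1
      rw [h1 o] at h2
      exact h2
    ι1_ψ := fun {S T} o => by
      have h2 := (show CylArr A ι0 ι1 S T from G.map o).2.2
      rw [h1 o] at h2
      exact h2 }

/-- The presheaf of `A`-shaped diagrams. -/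
noncomputable def Ext.psh (E : Ext A ι0 ι1) (X : Mod C) : C.Obᵒᵖ ⥤ Type u where
  obj S := A.obj S.unop.shape ⟶ X
  map f := ↾(fun φ => E.ψ f.unop ≫ φ)
  map_id S := by
    ext φ
    exact (congrArg (· ≫ φ) (E.ψ_one _)).trans (Category.id_comp φ)
  map_comp f g := by
    ext φ
    exact (congrArg (· ≫ φ) (E.ψ_seq g.unop f.unop)).trans (Category.assoc _ _ _)

theorem Ext.psh_map (E : Ext A ι0 ι1) (X : Mod C) {S T : Shape} (o : C.arr S T)
    (φ : A.obj T ⟶ X) : (E.psh X).map (hom o).op φ = E.ψ o ≫ φ := rfl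

theorem Ext.psh_map_ofShape (E : Ext A ι0 ι1) (X : Mod C) {S T : Shape} (f : S ⟶ T) :
    (E.psh X).map (C.incl.map f).op = (yoneda.obj X).map (A.map f).op := by
  ext φ
  exact congrArg (· ≫ φ) (E.ψ_ofShape f)

/-- The model of `A`-shaped diagrams. -/
noncomputable def Ext.mod (E : Ext A ι0 ι1) (hA : Sq A) (X : Mod C) : Mod C where
  functor := E.psh X
  sums S b h hb hh := by
    have := ((hA S b h hb hh).op.map (yoneda.obj X)).flip
    rw [E.psh_map_ofShape, E.psh_map_ofShape, E.psh_map_ofShape, E.psh_map_ofShape]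
    exact this

/-- The path functor. -/
noncomputable def Ext.P (E : Ext A ι0 ι1) (hA : Sq A) : Mod C ⥤ Mod C where
  obj X := E.mod hA X
  map {X Y} f := ({ app := fun S => ↾(fun φ => φ ≫ f)
                    naturality := by
                      intro S T g
                      ext φ
                      exact Category.assoc _ _ _ } : E.psh X ⟶ E.psh Y)
  map_id X := by
    apply NatTrans.ext
    funext S
    ext φ
    exact Category.comp_id φ
  map_comp f g := by
    apply NatTrans.ext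
    funext S
    ext φ
    exact (Category.assoc φ f g).symm

/-- The ends. -/
noncomputable def Ext.p (E : Ext A ι0 ι1) (hA : Sq A) (ι : Fr C ⟶ A)
    (hι : ∀ {S T : Shape} (o : C.arr S T), ι.app S ≫ E.ψ o = opM o ≫ ι.app T) :
    E.P hA ⟶ 𝟭 (Mod C) where
  app X := ({ app := fun S => ↾(fun φ => yo S.unop.shape X (ι.app _ ≫ φ))
              naturality := by
                intro S T g
                ext φ
                show yo _ X (ι.app _ ≫ E.ψ g.unop ≫ φ) = X.functor.map g (yo _ X (ι.app _ ≫ φ))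
                rw [← Category.assoc, hι, Category.assoc, yo_opM]
                rfl } : E.psh X ⟶ X.functor)
  naturality X Y f := by
    apply NatTrans.ext
    funext S
    ext φ
    show yo _ Y (ι.app _ ≫ φ ≫ f) = NatTrans.app (F := X.functor) (G := Y.functor) f _
      (yo _ X (ι.app _ ≫ φ))
    rw [← Category.assoc, yo_comp]

/-- The path functor of an extension. -/
noncomputable def Ext.pathFunctor (E : Ext A ι0 ι1) (hA : Sq A) : PathFunctor A ι0 ι1 where
  P := E.P hA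
  p0 := E.p hA ι0 E.ι0_ψ
  p1 := E.p hA ι1 E.ι1_ψ
  e S X := yo S (E.mod hA X)
  e_map {S T} f X v := by
    have := yo_opM (X := E.mod hA X) (C.ofShape f) v
    refine this.trans ?_
    exact (E.psh_map X (C.ofShape f) _).trans (by rw [E.ψ_ofShape]; rfl)
  e_comp S {X Y} f v := yo_comp (X := E.mod hA X) (Y := E.mod hA Y) v ((E.P hA).map f)
  e_p0 S X v := by
    apply (yo S X).injective
    exact (yo_comp (X := E.mod hA X) (Y := X) v ((E.p hA ι0 E.ι0_ψ).app X)).symm
  e_p1 S X v := by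
    apply (yo S X).injective
    exact (yo_comp (X := E.mod hA X) (Y := X) v ((E.p hA ι1 E.ι1_ψ).app X)).symm

end TaskG

open TaskG in
theorem exists_pathFunctor (hT : Nonempty C.Tower) (A : Shape ⥤ Mod C) (ι0 ι1 : Fr C ⟶ A)
    (hA : Sq A)
    (hlift : ∀ (n : ℕ) (S : Shape), S.dim ≤ n + 1 → ∀ (q : C.arr (Shape.globe (n + 1)) S)
      (α β : A.obj (Shape.globe n) ⟶ A.obj S), ParA A α β →
      ι0.app _ ≫ α = ds C n ≫ opMap C q ≫ ι0.app S →
      ι1.app _ ≫ α = ds C n ≫ opMap C q ≫ ι1.app S →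
      ι0.app _ ≫ β = dt C n ≫ opMap C q ≫ ι0.app S →
      ι1.app _ ≫ β = dt C n ≫ opMap C q ≫ ι1.app S →
      ∃ γ : A.obj (Shape.globe (n + 1)) ⟶ A.obj S,
        A.map (Shape.σ n) ≫ γ = α ∧ A.map (Shape.τ n) ≫ γ = β ∧
        ι0.app _ ≫ γ = opMap C q ≫ ι0.app S ∧ ι1.app _ ≫ γ = opMap C q ≫ ι1.app S) :
    Nonempty (PathFunctor A ι0 ι1) := by
  obtain ⟨G, hG⟩ := exists_section hT (cylTheory A ι0 ι1 hA) (cylProj A ι0 ι1 hA) (by
    intro n S hS l r hlr q hl hr
    change CylArr A ι0 ι1 (Shape.globe n) S at l r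
    have hl' : C.seq (C.ofShape (Shape.σ n)) q = l.1.1 := hl
    have hr' : C.seq (C.ofShape (Shape.τ n)) q = r.1.1 := hr
    have hpar : ParA A l.1.2 r.1.2 := by
      cases n with
      | zero => trivial
      | succ n =>
        exact ⟨congrArg (fun f : CylArr A ι0 ι1 _ _ => f.1.2) hlr.1,
          congrArg (fun f : CylArr A ι0 ι1 _ _ => f.1.2) hlr.2⟩
    have e0 : ∀ (ι : Fr C ⟶ A) (z : CylArr A ι0 ι1 (Shape.globe n) S) (f : Shape.globe n ⟶
        Shape.globe (n + 1)), ι.app _ ≫ z.1.2 = opM z.1.1 ≫ ι.app S →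
        C.seq (C.ofShape f) q = z.1.1 →
        ι.app _ ≫ z.1.2 = (Fr C).map f ≫ opM q ≫ ι.app S := by
      intro ι z f h1 h2
      rw [h1, ← h2, opM_seq, Category.assoc]
      rfl
    obtain ⟨γ, h1, h2, h3, h4⟩ := hlift n S hS q l.1.2 r.1.2 hpar
      (e0 ι0 l _ l.2.1 hl') (e0 ι1 l _ l.2.2 hl') (e0 ι0 r _ r.2.1 hr') (e0 ι1 r _ r.2.2 hr')
    refine ⟨(show CylArr A ι0 ι1 (Shape.globe (n + 1)) S from ⟨(q, γ), h3, h4⟩), ?_, ?_, rfl⟩
    · exact CylArr.ext hl' h1
    · exact CylArr.ext hr' h2)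
  exact ⟨(extOfSection hA G hG).pathFunctor hA⟩

end Crest.Agent.S0382
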