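import Crest.Agent.S0382_Core9
import Crest.Agent.S0382_TaskG

set_option autoImplicit false

namespace Crest.Agent.S0382

open CategoryTheory CategoryTheory.Limits Opposite Crest.GeometryTopology.Coherator

universe u

variable {C : GlobTheory.{u}}

theorem exists_cyl (hax : CohAx C) {n : ℕ} {j : ℕ∞}
    (hP : ∀ i : ℕ, n ≤ i → (i : ℕ∞) ≤ j → ∀ m, n < m → Pres C i m)
    (hW : ∀ (A : Attach (Fr C) n (ds C n) (𝟙 (D C n))) (i : ℕ), n ≤ i → (i : ℕ∞) ≤ j →
      ∀ S : Shape, S.dim ≤ i + 1 → Gd i (A.T'.obj S)) :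
    ∃ K : Cyl C n j,
      (∀ i : ℕ, n ≤ i → (i : ℕ∞) ≤ j → ∀ S : Shape, S.dim ≤ i → Gd i (K.A.obj S)) ∧
      ((n : ℕ∞) ≤ j → ∃ cl : D C (n + 1) ⟶ K.A.obj (Shape.globe n), IsIso cl ∧
        ds C n ≫ cl = K.ι0.app _ ∧ dt C n ≫ cl = K.ι1.app _) := by
  obtain ⟨t⟩ := exists_twr hax (sq_Fr C) hP hW
  exact exists_cyl_of_twr hax (sq_Fr C) t

theorem Cyl.exists_path (hT : Nonempty C.Tower) {n : ℕ} {j : ℕ∞} (K : Cyl C n j) :
    Nonempty (PathFunctor K.A K.ι0 K.ι1) :=
  exists_pathFunctor hT K.A K.ι0 K.ι1 K.sq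
    (fun d S hS q α β hp h1 h2 h3 h4 => K.hlift shape_hom_ext isEmpty_cells d S hS q α β hp
      h1 h2 h3 h4)

theorem gd_Fr_all (hax : CohAx C) (i : ℕ) (hP : ∀ m, Pres C i m) (S : Shape) :
    Gd i ((Fr C).obj S) := gd_Fr' hax (sq_Fr C) i hP S

theorem Gd.mono {i j : ℕ} (h : i ≤ j) {X : Mod C} (hX : Gd j X) : Gd i X :=
  ⟨hX.1, fun k hk => hX.2 k (hk.trans h)⟩

theorem pres_of_endLift (hax : CohAx C) {j₀ n m : ℕ} (ih : ∀ i < j₀, ∀ m, Pres C i m)
    (K : Cyl C n (j₀ : ℕ∞)) (F : PathFunctor K.A K.ι0 K.ι1) (hE : EndLift K F m) :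
    Pres C j₀ m := by
  intro Γ Γ' i hi hΓ
  refine ⟨Cof.of_anod hi hΓ.1, fun k hk => ?_⟩
  rcases Nat.lt_or_eq_of_le hk with hlt | rfl
  · exact (ih k hlt m i hi (hΓ.mono hk)).2 k le_rfl
  · exact L_of_endLift K F hax le_rfl le_rfl hE hi hΓ

/-- `EndLift` in the bottom dimension. -/
theorem endLift_bot {n : ℕ} {j : ℕ∞} (hj : (n : ℕ∞) ≤ j) (K : Cyl C n j)
    (F : PathFunctor K.A K.ι0 K.ι1)
    (htop : ∃ cl : D C (n + 1) ⟶ K.A.obj (Shape.globe n), IsIso cl ∧
        ds C n ≫ cl = K.ι0.app _ ∧ dt C n ≫ cl = K.ι1.app _)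
    (hW : ∀ (A : Attach (Fr C) n (ds C n) (𝟙 (D C n))) (i : ℕ), n ≤ i → (i : ℕ∞) ≤ j →
      ∀ S : Shape, S.dim ≤ i + 1 → Gd i (A.T'.obj S)) : EndLift K F n := by
  apply endLift_of_omega K F le_rfl
  intro X v h' h e1 e2
  obtain ⟨cl, _, c1, c2⟩ := htop
  obtain ⟨W⟩ := exists_attach_of (hasColimits C) (Fr C) n (ds C n) (𝟙 (D C n))
  have hne : Shape.τ n ≠ Shape.σ n := (face_ne (Nat.lt_succ_self n)).symm
  have hw : ∀ y : Shape.globe n ⟶ Shape.globe (n + 1), ds C n ≫ W.cell ≫ W.T'.map y =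
      (Fr C).map y ≫ W.inl.app _ := by
    intro y
    rw [W.w']
    exact Category.id_comp _
  classical
  obtain ⟨f, ⟨f1, f2⟩, _⟩ := W.univ (Shape.globe (n + 1)) X (cl ≫ v)
    (fun y => if y = Shape.σ n then h' else h) (by
      intro y
      obtain ⟨b, rfl⟩ := globe_lt (Nat.lt_succ_self n) y
      cases b with
      | false =>
        rw [face_false]
        simp only [if_true]
        rw [e1, ← c1, Category.assoc]
        exact (Category.id_comp _).symm
      | true =>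
        rw [face_true]
        simp only [if_neg hne]
        rw [e2, ← c2, Category.assoc]
        exact (Category.id_comp _).symm)
  refine ⟨W.T'.obj (Shape.globe (n + 1)), inv cl ≫ W.inl.app _, W.cell ≫ W.T'.map (Shape.σ n),
    W.cell ≫ W.T'.map (Shape.τ n), f, ?_, ?_, ?_, ?_, ?_, ?_, ?_⟩
  · rw [hw, ← c1, Category.assoc, IsIso.hom_inv_id_assoc]
  · rw [hw, ← c2, Category.assoc, IsIso.hom_inv_id_assoc]
  · rw [Category.assoc, f1, IsIso.inv_hom_id_assoc]
  · have := f2 (Shape.σ n)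
    rw [Category.assoc, this]
    exact if_pos rfl
  · have := f2 (Shape.τ n)
    rw [Category.assoc, this]
    exact if_neg hne
  · exact fun _ => (hW W n le_rfl hj (Shape.globe (n + 1)) le_rfl).2 n le_rfl
  · exact fun hj' => (hW W (n + 1) (Nat.le_succ n) hj' (Shape.globe (n + 1))
      (Nat.le_succ _)).2 (n + 1) le_rfl

/-- The statement of the slide lemma. -/
def Slide (C : GlobTheory.{u}) : Prop :=
  ∀ (n j₀ : ℕ), n ≤ j₀ → ∀ (K : Cyl C (n + 1) (j₀ : ℕ∞)), PathFunctor K.A K.ι0 K.ι1 →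
    (∀ i < j₀, ∀ m, Pres C i m) → ∀ S : Shape, S.dim ≤ j₀ + 1 →
    ∀ A : Attach (Fr C) n (ds C n) (𝟙 (D C n)), L j₀ (A.T'.obj S)

/-- Anodyne extensions preserve goodness. -/
theorem pres_all (hT : Nonempty C.Tower) (hax : CohAx C) (hslide : Slide C) (j₀ : ℕ) :
    ∀ m, Pres C j₀ m := by
  induction j₀ using Nat.strong_induction_on with
  | _ j₀ ih =>
  -- whiskered free objects
  have hWlow : ∀ (n : ℕ) (A : Attach (Fr C) n (ds C n) (𝟙 (D C n))) (i : ℕ), i < j₀ →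
      ∀ S : Shape, Gd i (A.T'.obj S) := fun n A i hi S =>
    ih i hi n _ (A.anod S) (gd_Fr_all hax i (ih i hi) S)
  -- descending induction
  have main : ∀ d n : ℕ, n + d = j₀ + 1 → ∀ m, n ≤ m → Pres C j₀ m := by
    intro d
    induction d with
    | zero =>
      intro n hn m hm
      obtain rfl : n = j₀ + 1 := by omega
      have hbad : ∀ i : ℕ, j₀ + 1 ≤ i → ¬ (i : ℕ∞) ≤ (j₀ : ℕ∞) := by
        intro i hi h
        have : i ≤ j₀ := by exact_mod_cast h
        omega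
      obtain ⟨K, _⟩ := exists_cyl (C := C) hax (n := j₀ + 1) (j := (j₀ : ℕ∞))
        (fun i hi hij => absurd hij (hbad i hi)) (fun _ i hi hij => absurd hij (hbad i hi))
      obtain ⟨F⟩ := K.exists_path hT
      exact pres_of_endLift hax ih K F (endLift_of_gt K F hm (by exact_mod_cast hm))
    | succ d ihd =>
      intro n hn
      have hA : ∀ m, n + 1 ≤ m → Pres C j₀ m := ihd (n + 1) (by omega)
      have hnj : n ≤ j₀ := by omega
      have hnj' : (n : ℕ∞) ≤ (j₀ : ℕ∞) := by exact_mod_cast hnj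
      have hP : ∀ i : ℕ, (i : ℕ∞) ≤ (j₀ : ℕ∞) → ∀ m, n < m → Pres C i m := by
        intro i hi m hm
        have hi' : i ≤ j₀ := by exact_mod_cast hi
        rcases Nat.lt_or_eq_of_le hi' with hlt | rfl
        · exact ih i hlt m
        · exact hA m hm
      -- the cylinder of type (n+1, j₀)
      obtain ⟨K', _⟩ := exists_cyl (C := C) hax (n := n + 1) (j := (j₀ : ℕ∞))
        (fun i _ hij m hm => hP i hij m (by omega))
        (fun A i hi hij S hS => by
          have hi' : i ≤ j₀ := by exact_mod_cast hij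
          exact hP i hij (n + 1) (Nat.lt_succ_self n) _ (A.anod S)
            (gd_Fr hax (sq_Fr C) i (fun i' hi'' => ih i' (by omega)) S hS))
      obtain ⟨F'⟩ := K'.exists_path hT
      have hW : ∀ (A : Attach (Fr C) n (ds C n) (𝟙 (D C n))) (i : ℕ), n ≤ i →
          (i : ℕ∞) ≤ (j₀ : ℕ∞) → ∀ S : Shape, S.dim ≤ i + 1 → Gd i (A.T'.obj S) := by
        intro A i _ hij S hS
        have hi' : i ≤ j₀ := by exact_mod_cast hij
        rcases Nat.lt_or_eq_of_le hi' with hlt | rfl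
        · exact hWlow n A i hlt S
        · refine ⟨Cof.of_anod (A.anod S) (cof_Fr (sq_Fr C) S), fun k hk => ?_⟩
          rcases Nat.lt_or_eq_of_le hk with hlt | rfl
          · exact (hWlow n A k hlt S).2 k le_rfl
          · exact hslide n k hnj K' F' ih S hS A
      obtain ⟨K, _, htop⟩ := exists_cyl (C := C) hax (n := n) (j := (j₀ : ℕ∞))
        (fun i _ hij m hm => hP i hij m hm) hW
      obtain ⟨F⟩ := K.exists_path hT
      have hn' : Pres C j₀ n :=
        pres_of_endLift hax ih K F (endLift_bot hnj' K F (htop hnj') hW)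
      intro m hm
      rcases Nat.lt_or_eq_of_le hm with hlt | rfl
      · exact hA m hlt
      · exact hn'
  intro m
  exact main (j₀ + 1) 0 (by omega) m (Nat.zero_le m)

end Crest.Agent.S0382
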