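import Crest.Agent.S0382_Core1

set_option autoImplicit false

namespace Crest.Agent.S0382

open CategoryTheory CategoryTheory.Limits Opposite Crest.GeometryTopology.Coherator

universe u

variable {C : GlobTheory.{u}}

theorem face_succ {b h : ℕ} (hbh : b < h) (hbh' : b < h + 1) :
    (Fr C).map (Shape.faceMap hbh' false) = (Fr C).map (Shape.faceMap hbh false) ≫ ds C h := by
  rw [← Functor.map_comp]
  congr 1
  exact (faceMap_comp' hbh (Nat.lt_succ_self h) false false).symm

section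

variable [HasPushouts (Mod C)]

/-- A property preserved by all anodyne extensions is preserved by gluing globes. -/
theorem face_push {Q : Mod C → Prop}
    (hQ : ∀ (m : ℕ) (X Y : Mod C) (i : X ⟶ Y), Anod m i → Q X → Q Y)
    {b h : ℕ} (hbh : b < h) {X Y : Mod C} (x : D C b ⟶ X) (i : X ⟶ Y) (g : D C h ⟶ Y)
    (H : IsPushout x ((Fr C).map (Shape.faceMap hbh false)) i g) (hX : Q X) : Q Y := by
  induction h generalizing X Y with
  | zero => exact absurd hbh (Nat.not_lt_zero _)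
  | succ h ih =>
    rcases Nat.lt_succ_iff_lt_or_eq.mp hbh with hlt | heq
    · have sq1 := IsPushout.of_hasPushout x ((Fr C).map (Shape.faceMap hlt false))
      have hX1 := ih hlt x _ _ sq1 hX
      rw [face_succ hlt hbh] at H
      exact hQ h _ _ _ ((anod_ds h).of_isPushout (IsPushout.of_top' H sq1)) hX1
    · subst heq
      exact hQ b _ _ _ ((anod_ds b).of_isPushout H) hX

theorem disk_Q {Q : Mod C → Prop}
    (hQ : ∀ (m : ℕ) (X Y : Mod C) (i : X ⟶ Y), Anod m i → Q X → Q Y) (h0 : Q (D C 0)) (m : ℕ) :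
    Q (D C m) := by
  induction m with
  | zero => exact h0
  | succ m ih => exact hQ m _ _ _ (anod_ds m) ih

theorem shape_Q (hsq : Sq (Fr C)) {Q : Mod C → Prop}
    (hQ : ∀ (m : ℕ) (X Y : Mod C) (i : X ⟶ Y), Anod m i → Q X → Q Y) (h0 : Q (D C 0)) (S : Shape) :
    Q ((Fr C).obj S) := by
  obtain ⟨l, P⟩ := S
  induction P with
  | single h => exact disk_Q hQ h0 h
  | glue P b h hb hh ih =>
    exact face_push hQ hh _ _ _ (hsq ⟨_, P⟩ b h hb hh) ih

end

theorem Cof.disk0 : Cof (D C 0) := fun _ _ _ hp f => hp.1 f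

theorem cof_Fr [HasPushouts (Mod C)] (hsq : Sq (Fr C)) (S : Shape) : Cof ((Fr C).obj S) :=
  shape_Q hsq (Q := Cof) (fun _ _ _ _ hi => Cof.of_anod hi) Cof.disk0 S

theorem gd_Fr' [HasPushouts (Mod C)] (hax : CohAx C) (hsq : Sq (Fr C)) (i : ℕ)
    (hP : ∀ m, Pres C i m) (S : Shape) : Gd i ((Fr C).obj S) :=
  shape_Q hsq (Q := Gd i) (fun m _ _ f hf => hP m f hf)
    ⟨Cof.disk0, fun k _ => hax k (Shape.globe 0) (Nat.zero_le _)⟩ S

/-- Goodness of free models, in dimensions one above. -/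
theorem gd_Fr [HasPushouts (Mod C)] (hax : CohAx C) (hsq : Sq (Fr C)) (j : ℕ)
    (hP : ∀ i < j, ∀ m, Pres C i m) (S : Shape) (hS : S.dim ≤ j + 1) : Gd j ((Fr C).obj S) := by
  refine ⟨cof_Fr hsq S, fun i hi => ?_⟩
  rcases Nat.lt_or_eq_of_le hi with h | rfl
  · exact (gd_Fr' hax hsq i (hP i h) S).2 i le_rfl
  · exact hax i S hS

end Crest.Agent.S0382
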