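import Crest.Agent.S0382_Core2

set_option autoImplicit false

namespace Crest.Agent.S0382

open CategoryTheory CategoryTheory.Limits Opposite Crest.GeometryTopology.Coherator

universe u

variable {C : GlobTheory.{u}}

/-! ### Cylinders of type `(n, j)` -/

/-- Cylinders which are trivial in dimensions `< n` and coskeletal in dimensions `> j`. -/
structure Cyl (C : GlobTheory.{u}) (n : ℕ) (j : ℕ∞) where
  /-- the cylinder functor on shapes -/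
  A : Shape ⥤ Mod C
  /-- first end -/
  ι0 : Fr C ⟶ A
  /-- second end -/
  ι1 : Fr C ⟶ A
  sq : Sq A
  low_eq : ∀ i < n, ι0.app (Shape.globe i) = ι1.app (Shape.globe i)
  low_iso : ∀ i < n, IsIso (ι0.app (Shape.globe i))
  at_n : ∀ (X : Mod C) (w : D C (n + 1) ⟶ X), ∃ α : A.obj (Shape.globe n) ⟶ X,
    ι0.app _ ≫ α = ds C n ≫ w ∧ ι1.app _ ≫ α = dt C n ≫ w
  ext0 : ∀ X : Mod C, n = 0 → ((0 : ℕ∞) ≤ j → L 0 X) → ∀ z' z : D C 0 ⟶ X,
    ∃ α : A.obj (Shape.globe 0) ⟶ X, ι0.app _ ≫ α = z' ∧ ι1.app _ ≫ α = z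
  ext : ∀ (i : ℕ) (X : Mod C), n ≤ i + 1 → (((i + 1 : ℕ) : ℕ∞) ≤ j → L (i + 1) X) →
    ∀ α β : A.obj (Shape.globe i) ⟶ X, ParA A α β → ∀ z' z : D C (i + 1) ⟶ X,
    ds C i ≫ z' = ι0.app _ ≫ α → dt C i ≫ z' = ι0.app _ ≫ β →
    ds C i ≫ z = ι1.app _ ≫ α → dt C i ≫ z = ι1.app _ ≫ β →
    ∃ γ : A.obj (Shape.globe (i + 1)) ⟶ X, A.map (Shape.σ i) ≫ γ = α ∧
      A.map (Shape.τ i) ≫ γ = β ∧ ι0.app _ ≫ γ = z' ∧ ι1.app _ ≫ γ = z
  lift0 : ∀ (i : ℕ) (X : Mod C), n ≤ i + 1 → ((i + 1 : ℕ) : ℕ∞) ≤ j →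
    ∀ α β : A.obj (Shape.globe i) ⟶ X, ParA A α β → ∀ z' : D C (i + 1) ⟶ X,
    ds C i ≫ z' = ι0.app _ ≫ α → dt C i ≫ z' = ι0.app _ ≫ β →
    ∃ γ : A.obj (Shape.globe (i + 1)) ⟶ X, A.map (Shape.σ i) ≫ γ = α ∧
      A.map (Shape.τ i) ≫ γ = β ∧ ι0.app _ ≫ γ = z'
  p4 : ∀ (i : ℕ), (i : ℕ∞) ≤ j → ∀ (X : Mod C) (α β : A.obj (Shape.globe i) ⟶ X), ParA A α β →
    Step (ι0.app _ ≫ α) (ι0.app _ ≫ β) → Step (ι1.app _ ≫ α) (ι1.app _ ≫ β)
  fill : ∀ (i : ℕ), n ≤ i → (i : ℕ∞) ≤ j → ∀ S : Shape, S.dim ≤ i → L i (A.obj S)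

theorem ParA.comp {A : Shape ⥤ Mod C} {X Y : Mod C} {m : ℕ} {α β : A.obj (Shape.globe m) ⟶ X}
    (h : ParA A α β) (f : X ⟶ Y) : ParA A (α ≫ f) (β ≫ f) := by
  cases m with
  | zero => trivial
  | succ m => exact ⟨by rw [← Category.assoc, h.1, Category.assoc],
      by rw [← Category.assoc, h.2, Category.assoc]⟩

theorem parA_src_tgt {A : Shape ⥤ Mod C} {X : Mod C} {m : ℕ}
    (g : A.obj (Shape.globe (m + 1)) ⟶ X) :
    ParA A (A.map (Shape.σ m) ≫ g) (A.map (Shape.τ m) ≫ g) := by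
  cases m with
  | zero => trivial
  | succ m =>
    refine ⟨?_, ?_⟩
    · rw [← Category.assoc, ← Category.assoc, ← A.map_comp, ← A.map_comp, σσ]
    · rw [← Category.assoc, ← Category.assoc, ← A.map_comp, ← A.map_comp, τσ]

namespace Cyl

variable {n : ℕ} {j : ℕ∞} (K : Cyl C n j)

/-- If a natural transformation agrees on low dimensional globes it agrees on low dimensional
shapes. -/
theorem low_eq_shape
    (hext : ∀ {X : Mod C} {S : Shape} (f g : (Fr C).obj S ⟶ X),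
      (∀ (k : ℕ) (x : Shape.globe k ⟶ S), (Fr C).map x ≫ f = (Fr C).map x ≫ g) → f = g)
    (hemp : ∀ (n : ℕ) (S : Shape), S.dim < n → IsEmpty (Shape.globe n ⟶ S))
    (S : Shape) (hS : S.dim < n) : K.ι0.app S = K.ι1.app S := by
  apply hext
  intro k x
  have hk : k ≤ S.dim := by
    by_contra hlt
    exact (hemp k S (not_le.mp hlt)).false x
  rw [K.ι0.naturality, K.ι1.naturality, K.low_eq k (lt_of_le_of_lt hk hS)]

/-- the lifting condition for the tower argument -/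
theorem hlift
    (hext : ∀ {X : Mod C} {S : Shape} (f g : (Fr C).obj S ⟶ X),
      (∀ (k : ℕ) (x : Shape.globe k ⟶ S), (Fr C).map x ≫ f = (Fr C).map x ≫ g) → f = g)
    (hemp : ∀ (n : ℕ) (S : Shape), S.dim < n → IsEmpty (Shape.globe n ⟶ S))
    (d : ℕ) (S : Shape) (hS : S.dim ≤ d + 1) (q : C.arr (Shape.globe (d + 1)) S)
    (α β : K.A.obj (Shape.globe d) ⟶ K.A.obj S) (hp : ParA K.A α β)
    (h0α : K.ι0.app _ ≫ α = ds C d ≫ opMap C q ≫ K.ι0.app S)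
    (h1α : K.ι1.app _ ≫ α = ds C d ≫ opMap C q ≫ K.ι1.app S)
    (h0β : K.ι0.app _ ≫ β = dt C d ≫ opMap C q ≫ K.ι0.app S)
    (h1β : K.ι1.app _ ≫ β = dt C d ≫ opMap C q ≫ K.ι1.app S) :
    ∃ γ : K.A.obj (Shape.globe (d + 1)) ⟶ K.A.obj S,
      K.A.map (Shape.σ d) ≫ γ = α ∧ K.A.map (Shape.τ d) ≫ γ = β ∧
      K.ι0.app _ ≫ γ = opMap C q ≫ K.ι0.app S ∧ K.ι1.app _ ≫ γ = opMap C q ≫ K.ι1.app S := by
  by_cases hn : n ≤ d + 1
  · exact K.ext d _ hn (fun hj => K.fill (d + 1) hn hj S hS) α β hp _ _ h0α.symm h0β.symm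
      h1α.symm h1β.symm
  · have hn' : d + 1 < n := not_le.mp hn
    have hd : d < n := (Nat.lt_succ_self d).trans hn'
    have := K.low_iso (d + 1) hn'
    have := K.low_iso d hd
    have hfac : K.ι0.app (Shape.globe (d + 1)) ≫ inv (K.ι0.app (Shape.globe (d + 1))) ≫
        opMap C q ≫ K.ι0.app S = opMap C q ≫ K.ι0.app S := by
      rw [IsIso.hom_inv_id_assoc]
      rfl
    refine ⟨inv (K.ι0.app (Shape.globe (d + 1))) ≫ opMap C q ≫ K.ι0.app S, ?_, ?_, hfac, ?_⟩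
    · rw [← cancel_epi (K.ι0.app (Shape.globe d)), ← Category.assoc, ← K.ι0.naturality,
        Category.assoc, hfac, h0α]
      rfl
    · rw [← cancel_epi (K.ι0.app (Shape.globe d)), ← Category.assoc, ← K.ι0.naturality,
        Category.assoc, hfac, h0β]
      rfl
    · rw [← K.low_eq (d + 1) hn', hfac,
        K.low_eq_shape hext hemp S (lt_of_le_of_lt hS hn')]

end Cyl

/-! ### consequences for the path functor -/

section Path

variable {n : ℕ} {j : ℕ∞} (K : Cyl C n j) (F : PathFunctor K.A K.ι0 K.ι1)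

theorem par_iff {m : ℕ} {X : Mod C} (a b : D C m ⟶ F.P.obj X) :
    Par a b ↔ ParA K.A (F.e _ X a) (F.e _ X b) := by
  cases m with
  | zero => exact Iff.rfl
  | succ m =>
    show (_ ∧ _) ↔ (_ ∧ _)
    rw [← F.e_map, ← F.e_map, ← F.e_map, ← F.e_map, (F.e _ X).apply_eq_iff_eq,
      (F.e _ X).apply_eq_iff_eq]

theorem path_p4 {i : ℕ} (hi : (i : ℕ∞) ≤ j) {X : Mod C} (a b : D C i ⟶ F.P.obj X) (h : Par a b)
    (hs : Step (a ≫ F.p0.app X) (b ≫ F.p0.app X)) : Step (a ≫ F.p1.app X) (b ≫ F.p1.app X) := by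
  rw [← F.e_p1, ← F.e_p1]
  rw [← F.e_p0, ← F.e_p0] at hs
  exact K.p4 i hi X _ _ ((par_iff K F a b).mp h) hs

/-- cells of `P X` extending a given boundary with given ends -/
theorem path_ext {i : ℕ} {X : Mod C} (hn : n ≤ i + 1) (hL : ((i + 1 : ℕ) : ℕ∞) ≤ j → L (i + 1) X)
    (a b : D C i ⟶ F.P.obj X) (h : Par a b) (z' z : D C (i + 1) ⟶ X)
    (h1 : ds C i ≫ z' = a ≫ F.p0.app X) (h2 : dt C i ≫ z' = b ≫ F.p0.app X)
    (h3 : ds C i ≫ z = a ≫ F.p1.app X) (h4 : dt C i ≫ z = b ≫ F.p1.app X) :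
    ∃ c : D C (i + 1) ⟶ F.P.obj X, ds C i ≫ c = a ∧ dt C i ≫ c = b ∧
      c ≫ F.p0.app X = z' ∧ c ≫ F.p1.app X = z := by
  obtain ⟨γ, g1, g2, g3, g4⟩ := K.ext i X hn hL (F.e _ X a) (F.e _ X b) ((par_iff K F a b).mp h)
    z' z (by rw [h1, F.e_p0]) (by rw [h2, F.e_p0]) (by rw [h3, F.e_p1]) (by rw [h4, F.e_p1])
  refine ⟨(F.e _ X).symm γ, ?_, ?_, ?_, ?_⟩
  · apply (F.e _ X).injective
    rw [F.e_map, Equiv.apply_symm_apply, g1]
  · apply (F.e _ X).injective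
    rw [F.e_map, Equiv.apply_symm_apply, g2]
  · rw [← F.e_p0, Equiv.apply_symm_apply, g3]
  · rw [← F.e_p1, Equiv.apply_symm_apply, g4]

theorem path_ext0 {X : Mod C} (hn : n = 0) (hL : (0 : ℕ∞) ≤ j → L 0 X) (z' z : D C 0 ⟶ X) :
    ∃ c : D C 0 ⟶ F.P.obj X, c ≫ F.p0.app X = z' ∧ c ≫ F.p1.app X = z := by
  obtain ⟨γ, g3, g4⟩ := K.ext0 X hn hL z' z
  refine ⟨(F.e _ X).symm γ, ?_, ?_⟩
  · rw [← F.e_p0, Equiv.apply_symm_apply, g3]
  · rw [← F.e_p1, Equiv.apply_symm_apply, g4]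

theorem path_at_n {X : Mod C} (u' u : D C n ⟶ X) (h : Step u' u) :
    ∃ c : D C n ⟶ F.P.obj X, c ≫ F.p0.app X = u' ∧ c ≫ F.p1.app X = u := by
  obtain ⟨w, rfl, rfl⟩ := h
  obtain ⟨γ, g3, g4⟩ := K.at_n X w
  refine ⟨(F.e _ X).symm γ, ?_, ?_⟩
  · rw [← F.e_p0, Equiv.apply_symm_apply, g3]
  · rw [← F.e_p1, Equiv.apply_symm_apply, g4]

theorem path_low_eq {i : ℕ} (hi : i < n) {X : Mod C} (a : D C i ⟶ F.P.obj X) :
    a ≫ F.p0.app X = a ≫ F.p1.app X := by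
  rw [← F.e_p0, ← F.e_p1, K.low_eq i hi]

theorem path_low_inj {i : ℕ} (hi : i < n) {X : Mod C} (a b : D C i ⟶ F.P.obj X)
    (h : a ≫ F.p0.app X = b ≫ F.p0.app X) : a = b := by
  have := K.low_iso i hi
  rw [← F.e_p0, ← F.e_p0, cancel_epi] at h
  exact (F.e _ X).injective h

theorem path_low_surj {i : ℕ} (hi : i < n) {X : Mod C} (z : D C i ⟶ X) :
    ∃ c : D C i ⟶ F.P.obj X, c ≫ F.p0.app X = z ∧ c ≫ F.p1.app X = z := by
  have := K.low_iso i hi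
  have h : ((F.e _ X).symm (inv (K.ι0.app (Shape.globe i)) ≫ z)) ≫ F.p0.app X = z := by
    rw [← F.e_p0, Equiv.apply_symm_apply, IsIso.hom_inv_id_assoc]
  exact ⟨_, h, by rw [← path_low_eq K F hi, h]⟩

/-- cells of dimension `i + 1` of the path object with diagonal ends over a diagonal boundary -/
theorem path_diag {i : ℕ} {X : Mod C}
    (hL : n ≤ i + 1 → ((i + 1 : ℕ) : ℕ∞) ≤ j → L (i + 1) X)
    (a b : D C i ⟶ F.P.obj X) (h : Par a b) (z : D C (i + 1) ⟶ X)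
    (h1 : ds C i ≫ z = a ≫ F.p0.app X) (h2 : dt C i ≫ z = b ≫ F.p0.app X)
    (h3 : ds C i ≫ z = a ≫ F.p1.app X) (h4 : dt C i ≫ z = b ≫ F.p1.app X) :
    ∃ c : D C (i + 1) ⟶ F.P.obj X, ds C i ≫ c = a ∧ dt C i ≫ c = b ∧
      c ≫ F.p0.app X = z ∧ c ≫ F.p1.app X = z := by
  by_cases hn : n ≤ i + 1
  · exact path_ext K F hn (hL hn) a b h z z h1 h2 h3 h4
  · have hn' : i + 1 < n := not_le.mp hn
    obtain ⟨c, c1, c2⟩ := path_low_surj K F hn' z
    have hi : i < n := (Nat.lt_succ_self i).trans hn'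
    refine ⟨c, ?_, ?_, c1, c2⟩
    · apply path_low_inj K F hi
      rw [Category.assoc, c1, h1]
    · apply path_low_inj K F hi
      rw [Category.assoc, c1, h2]

variable [HasLimitsOfSize.{u, u} (Mod C)]

/-- Good cofibrant models have a diagonal homotopy. -/
theorem exists_diag {X : Mod C} (hX : Cof X)
    (hL : ∀ i : ℕ, n ≤ i → (i : ℕ∞) ≤ j → L i X) :
    ∃ H : X ⟶ F.P.obj X, H ≫ F.p0.app X = 𝟙 X ∧ H ≫ F.p1.app X = 𝟙 X := by
  have : HasLimitsOfSize.{0, 0} (Mod C) := hasLimitsOfSizeShrink.{0, 0, u, u} (Mod C)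
  let q : equalizer (F.p0.app X) (F.p1.app X) ⟶ X := equalizer.ι _ _ ≫ F.p0.app X
  have hq : TrivFib q := by
    refine ⟨fun z => ?_, fun m a b hab z h1 h2 => ?_⟩
    · obtain ⟨c, c1, c2⟩ : ∃ c : D C 0 ⟶ F.P.obj X, c ≫ F.p0.app X = z ∧ c ≫ F.p1.app X = z := by
        by_cases hn : n = 0
        · exact path_ext0 K F hn (fun h => hL 0 (by omega) h) z z
        · exact path_low_surj K F (Nat.pos_of_ne_zero hn) z
      refine ⟨equalizer.lift c (by rw [c1, c2]), ?_⟩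
      rw [← Category.assoc, equalizer.lift_ι, c1]
    · obtain ⟨c, c1, c2, c3, c4⟩ := path_diag K F (X := X) (hL (m + 1))
        (a ≫ equalizer.ι _ _) (b ≫ equalizer.ι _ _) (hab.comp _) z
        (by rw [h1, Category.assoc]) (by rw [h2, Category.assoc])
        (by rw [h1, Category.assoc, ← equalizer.condition])
        (by rw [h2, Category.assoc, ← equalizer.condition])
      refine ⟨equalizer.lift c (by rw [c3, c4]), ?_, ?_, ?_⟩
      · apply equalizer.hom_ext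
        rw [Category.assoc, equalizer.lift_ι, c1]
      · apply equalizer.hom_ext
        rw [Category.assoc, equalizer.lift_ι, c2]
      · rw [← Category.assoc, equalizer.lift_ι, c3]
  obtain ⟨g, hg⟩ := hX q hq (𝟙 X)
  refine ⟨g ≫ equalizer.ι _ _, ?_, ?_⟩
  · rw [Category.assoc, hg]
  · rw [Category.assoc, ← equalizer.condition, hg]

end Path

end Crest.Agent.S0382
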