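import Crest.Agent.S0382_Core3

set_option autoImplicit false

namespace Crest.Agent.S0382

open CategoryTheory CategoryTheory.Limits Opposite Crest.GeometryTopology.Coherator

universe u

variable {C : GlobTheory.{u}}

section

variable {n : ℕ} {j : ℕ∞} (K : Cyl C n j) (F : PathFunctor K.A K.ι0 K.ι1)

/-- The ends of the path object have the lifting property against `ds C m`, elementary form. -/
def EndLift (m : ℕ) : Prop :=
  ∀ (X : Mod C) (v : D C m ⟶ F.P.obj X) (h' h : D C (m + 1) ⟶ X),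
    ds C m ≫ h' = v ≫ F.p0.app X → ds C m ≫ h = v ≫ F.p1.app X →
    ∃ w : D C (m + 1) ⟶ F.P.obj X, ds C m ≫ w = v ∧ w ≫ F.p0.app X = h' ∧ w ≫ F.p1.app X = h

/-- Reduction of `EndLift` to the universal case. -/
theorem endLift_of_omega {m : ℕ} (hnm : n ≤ m)
    (hΩ : ∀ (X : Mod C) (v : K.A.obj (Shape.globe m) ⟶ X) (h' h : D C (m + 1) ⟶ X),
      ds C m ≫ h' = K.ι0.app _ ≫ v → ds C m ≫ h = K.ι1.app _ ≫ v →
      ∃ (Ω : Mod C) (g : K.A.obj (Shape.globe m) ⟶ Ω) (k' k : D C (m + 1) ⟶ Ω) (f : Ω ⟶ X),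
        ds C m ≫ k' = K.ι0.app _ ≫ g ∧ ds C m ≫ k = K.ι1.app _ ≫ g ∧
        g ≫ f = v ∧ k' ≫ f = h' ∧ k ≫ f = h ∧
        ((m : ℕ∞) ≤ j → L m Ω) ∧ (((m + 1 : ℕ) : ℕ∞) ≤ j → L (m + 1) Ω)) :
    EndLift K F m := by
  intro X v h' h hv0 hv1
  obtain ⟨Ω, g, k', k, f, e1, e2, e3, e4, e5, L1, L2⟩ := hΩ X (F.e _ X v) h' h
    (by rw [hv0, F.e_p0]) (by rw [hv1, F.e_p1])
  -- the target cell in Ω
  obtain ⟨β, hpar, b0, b1⟩ : ∃ β : K.A.obj (Shape.globe m) ⟶ Ω, ParA K.A g β ∧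
      K.ι0.app _ ≫ β = dt C m ≫ k' ∧ K.ι1.app _ ≫ β = dt C m ≫ k := by
    cases m with
    | zero =>
      obtain ⟨β, b0, b1⟩ := K.ext0 Ω (Nat.le_zero.mp hnm) L1 (dt C 0 ≫ k') (dt C 0 ≫ k)
      exact ⟨β, trivial, b0, b1⟩
    | succ i =>
      obtain ⟨β, p1, p2, b0, b1⟩ := K.ext i Ω hnm L1 (K.A.map (Shape.σ i) ≫ g)
        (K.A.map (Shape.τ i) ≫ g) (parA_src_tgt g) (dt C (i + 1) ≫ k') (dt C (i + 1) ≫ k)
        (by rw [← ds_ds_assoc, e1, ← Category.assoc, ← Category.assoc, K.ι0.naturality])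
        (by rw [← dt_ds_assoc, e1, ← Category.assoc, ← Category.assoc, K.ι0.naturality])
        (by rw [← ds_ds_assoc, e2, ← Category.assoc, ← Category.assoc, K.ι1.naturality])
        (by rw [← dt_ds_assoc, e2, ← Category.assoc, ← Category.assoc, K.ι1.naturality])
      exact ⟨β, ⟨p1.symm, p2.symm⟩, b0, b1⟩
  obtain ⟨γ, g1, g2, g3, g4⟩ := K.ext m Ω (hnm.trans (Nat.le_succ m)) L2 g β hpar k' k e1
    b0.symm e2 b1.symm
  refine ⟨(F.e _ X).symm (γ ≫ f), ?_, ?_, ?_⟩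
  · apply (F.e _ X).injective
    rw [F.e_map, Equiv.apply_symm_apply, ← Category.assoc, g1, e3]
  · rw [← F.e_p0, Equiv.apply_symm_apply, ← Category.assoc, g3, e4]
  · rw [← F.e_p1, Equiv.apply_symm_apply, ← Category.assoc, g4, e5]

/-- above the coskeletal dimension `EndLift` is automatic -/
theorem endLift_of_gt {m : ℕ} (hnm : n ≤ m) (hj : j < (m : ℕ∞)) : EndLift K F m := by
  apply endLift_of_omega K F hnm
  intro X v h' h e1 e2
  refine ⟨X, v, h', h, 𝟙 X, e1, e2, Category.comp_id _, Category.comp_id _, Category.comp_id _,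
    fun hm => absurd hm (not_le.mpr hj), fun hm => absurd hm (not_le.mpr (hj.trans ?_))⟩
  exact_mod_cast Nat.lt_succ_self m

variable [HasLimitsOfSize.{u, u} (Mod C)]

omit [HasLimitsOfSize.{u, u} (Mod C)] in
theorem hasLift_prod [HasBinaryProducts (Mod C)] {m : ℕ} (hE : EndLift K F m) (X : Mod C) :
    HasLiftingProperty (ds C m) (prod.lift (F.p0.app X) (F.p1.app X)) := by
  rw [hasLift_ds_iff]
  intro a h w
  have w0 : ds C m ≫ h ≫ prod.fst = a ≫ F.p0.app X := by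
    rw [← Category.assoc, w, Category.assoc, prod.lift_fst]
  have w1 : ds C m ≫ h ≫ prod.snd = a ≫ F.p1.app X := by
    rw [← Category.assoc, w, Category.assoc, prod.lift_snd]
  obtain ⟨c, c1, c2, c3⟩ := hE X a (h ≫ prod.fst) (h ≫ prod.snd) w0 w1
  refine ⟨c, c1, ?_⟩
  apply Limits.prod.hom_ext
  · rw [Category.assoc, prod.lift_fst]
    exact c2
  · rw [Category.assoc, prod.lift_snd]
    exact c3

/-- Lifting homotopies along anodyne maps. -/
theorem lift_homotopy {m : ℕ} (hE : EndLift K F m) {Γ Γ' X : Mod C} {i : Γ ⟶ Γ'}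
    (hi : Anod m i) (H : Γ ⟶ F.P.obj X) (f0 f1 : Γ' ⟶ X) (h0 : i ≫ f0 = H ≫ F.p0.app X)
    (h1 : i ≫ f1 = H ≫ F.p1.app X) :
    ∃ H' : Γ' ⟶ F.P.obj X, i ≫ H' = H ∧ H' ≫ F.p0.app X = f0 ∧ H' ≫ F.p1.app X = f1 := by
  have : HasLimitsOfSize.{0, 0} (Mod C) := hasLimitsOfSizeShrink.{0, 0, u, u} (Mod C)
  have hl := hi _ (hasLift_prod K F hE X)
  have sq : CommSq H i (prod.lift (F.p0.app X) (F.p1.app X)) (prod.lift f0 f1) := by
    refine ⟨?_⟩
    apply Limits.prod.hom_ext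
    · rw [Category.assoc, prod.lift_fst, Category.assoc, prod.lift_fst]
      exact h0.symm
    · rw [Category.assoc, prod.lift_snd, Category.assoc, prod.lift_snd]
      exact h1.symm
  refine ⟨sq.lift, sq.fac_left, ?_, ?_⟩
  · have h2 : (sq.lift ≫ prod.lift (F.p0.app X) (F.p1.app X)) ≫ prod.fst =
        prod.lift f0 f1 ≫ prod.fst := congrArg (fun t => t ≫ prod.fst) sq.fac_right
    rwa [Category.assoc, prod.lift_fst, prod.lift_fst] at h2
  · have h2 : (sq.lift ≫ prod.lift (F.p0.app X) (F.p1.app X)) ≫ prod.snd =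
        prod.lift f0 f1 ≫ prod.snd := congrArg (fun t => t ≫ prod.snd) sq.fac_right
    rwa [Category.assoc, prod.lift_snd, prod.lift_snd] at h2

omit [HasLimitsOfSize.{u, u} (Mod C)] in
/-- anodyne maps have retractions -/
theorem Anod.exists_retraction [HasTerminal (Mod C)] (hax : CohAx C) {m : ℕ} {Γ Γ' : Mod C}
    {i : Γ ⟶ Γ'} (hi : Anod m i) {X : Mod C} (f : Γ ⟶ X) : ∃ r : Γ' ⟶ X, i ≫ r = f := by
  have hl : HasLiftingProperty (ds C m) (terminal.from X) := by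
    rw [hasLift_ds_iff]
    intro a h _
    obtain ⟨v, h1, _⟩ := exists_unit hax m
    exact ⟨v ≫ a, by rw [← Category.assoc, h1, Category.id_comp], Subsingleton.elim _ _⟩
  have := hi _ hl
  have sq : CommSq f i (terminal.from X) (terminal.from Γ') := ⟨Subsingleton.elim _ _⟩
  exact ⟨sq.lift, sq.fac_left⟩

/-- The key step: cylinders with `EndLift m` show that anodyne extensions of type `m` preserve
goodness. -/
theorem L_of_endLift (hax : CohAx C) {j₀ : ℕ} (hj : (j₀ : ℕ∞) ≤ j) (hj' : j ≤ (j₀ : ℕ∞)) {m : ℕ}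
    (hE : EndLift K F m) {Γ Γ' : Mod C} {i : Γ ⟶ Γ'} (hi : Anod m i) (hΓ : Gd j₀ Γ) :
    L j₀ Γ' := by
  have : HasLimitsOfSize.{0, 0} (Mod C) := hasLimitsOfSizeShrink.{0, 0, u, u} (Mod C)
  obtain ⟨r, hr⟩ := hi.exists_retraction hax (𝟙 Γ)
  obtain ⟨H0, e0, e1⟩ := exists_diag K F hΓ.1
    (fun k _ hk => hΓ.2 k (by exact_mod_cast hk.trans hj'))
  obtain ⟨H, h0, h1, h2⟩ := lift_homotopy K F hE hi (H0 ≫ F.P.map i) (r ≫ i) (𝟙 Γ')
    (by
      have := F.p0.naturality i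
      simp only [Functor.id_map] at this
      rw [Category.assoc, this, ← Category.assoc H0, e0, ← Category.assoc, hr])
    (by
      have := F.p1.naturality i
      simp only [Functor.id_map] at this
      rw [Category.assoc, this, ← Category.assoc H0, e1, Category.comp_id, Category.id_comp])
  intro a b hab
  have hs : Step (a ≫ r) (b ≫ r) := hΓ.2 j₀ le_rfl _ _ (hab.comp r)
  have := path_p4 K F hj (a ≫ H) (b ≫ H) (hab.comp H) (by
    rw [Category.assoc, Category.assoc, h1, ← Category.assoc, ← Category.assoc]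
    exact hs.comp i)
  rw [Category.assoc, Category.assoc, h2] at this
  simpa only [Category.comp_id] using this

end

end Crest.Agent.S0382
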