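import Crest.Agent.S0382_Core4

set_option autoImplicit false

namespace Crest.Agent.S0382

open CategoryTheory CategoryTheory.Limits Opposite Crest.GeometryTopology.Coherator

universe u

variable {C : GlobTheory.{u}}

/-! ### maps between globes -/

/-- the arrow of globes underlying a map of globe shapes -/
theorem exists_arrow {k l : ℕ} (φ : Shape.globe k ⟶ Shape.globe l) :
    ∃ ψ : GlobeObj.Arrow k l, φ = (yoneda.map (show GlobeObj.mk k ⟶ GlobeObj.mk l from ψ) :
      GlobPsh.globeRep k ⟶ GlobPsh.globeRep l) :=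
  ⟨Yoneda.fullyFaithful.preimage (X := GlobeObj.mk k) (Y := GlobeObj.mk l) φ,
    (Yoneda.fullyFaithful.map_preimage (X := GlobeObj.mk k) (Y := GlobeObj.mk l) φ).symm⟩

theorem globe_endo {k : ℕ} (φ : Shape.globe k ⟶ Shape.globe k) : φ = 𝟙 _ := by
  obtain ⟨ψ, rfl⟩ := exists_arrow φ
  have : ψ = GlobeObj.Arrow.refl k := by
    cases ψ with
    | refl => rfl
    | pole h _ => exact absurd h (lt_irrefl _)
  rw [this]
  exact yoneda.map_id (GlobeObj.mk k)

theorem globe_lt {k l : ℕ} (h : k < l) (φ : Shape.globe k ⟶ Shape.globe l) :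
    ∃ b : Bool, φ = Shape.faceMap h b := by
  obtain ⟨ψ, rfl⟩ := exists_arrow φ
  cases ψ with
  | refl => exact absurd h (lt_irrefl _)
  | pole h' b => exact ⟨b, rfl⟩

theorem globe_gt {k l : ℕ} (h : l < k) : IsEmpty (Shape.globe k ⟶ Shape.globe l) := by
  refine ⟨fun φ => ?_⟩
  obtain ⟨ψ, _⟩ := exists_arrow φ
  cases ψ with
  | refl => exact absurd h (lt_irrefl _)
  | pole h' b => exact absurd (h.trans h') (lt_irrefl _)

/-- A face map factors through the last source or target. -/
theorem face_factor {k i : ℕ} (h : k < i + 1) (b : Bool) :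
    ∃ φ : Shape.globe k ⟶ Shape.globe i,
      Shape.faceMap h b = φ ≫ Shape.faceMap (Nat.lt_succ_self i) b := by
  rcases Nat.lt_succ_iff_lt_or_eq.mp h with h' | rfl
  · exact ⟨Shape.faceMap h' b, (faceMap_comp' h' _ b b).symm⟩
  · exact ⟨𝟙 _, (Category.id_comp _).symm⟩

theorem face_ne {k l : ℕ} (h : k < l) : Shape.faceMap h false ≠ Shape.faceMap h true := by
  intro e
  have := (Yoneda.fullyFaithful (C := GlobeObj)).map_injective (X := GlobeObj.mk k)
    (Y := GlobeObj.mk l) (f := GlobeObj.faceArrow h false) (g := GlobeObj.faceArrow h true) e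
  have h2 : (GlobeObj.Arrow.pole h false : GlobeObj.Arrow k l) = GlobeObj.Arrow.pole h true := this
  cases h2

theorem face_false (i : ℕ) : Shape.faceMap (Nat.lt_succ_self i) false = Shape.σ i := rfl
theorem face_true (i : ℕ) : Shape.faceMap (Nat.lt_succ_self i) true = Shape.τ i := rfl

/-- parallel maps agree on all proper faces -/
theorem ParA.face {T : Shape ⥤ Mod C} {X : Mod C} {i : ℕ} {α β : T.obj (Shape.globe i) ⟶ X}
    (h : ParA T α β) {k : ℕ} (hk : k < i) (b : Bool) :
    T.map (Shape.faceMap hk b) ≫ α = T.map (Shape.faceMap hk b) ≫ β := by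
  cases i with
  | zero => exact absurd hk (Nat.not_lt_zero _)
  | succ i =>
    obtain ⟨φ, hφ⟩ := face_factor hk b
    rw [hφ, T.map_comp, Category.assoc, Category.assoc]
    cases b with
    | false => rw [face_false, h.1]
    | true => rw [face_true, h.2]

/-! ### attaching -/

namespace Attach

variable {T : Shape ⥤ Mod C} {m : ℕ} {G G' : Mod C} {g : G ⟶ G'} {a : G ⟶ T.obj (Shape.globe m)}
  (A : Attach T m g a)

theorem w_map {S : Shape} (x : Shape.globe m ⟶ S) {X : Mod C} (f : A.T'.obj S ⟶ X) :
    g ≫ A.cell ≫ A.T'.map x ≫ f = a ≫ T.map x ≫ A.inl.app S ≫ f := by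
  rw [← Category.assoc, A.w, Category.assoc, ← Category.assoc (T.map x), A.inl.naturality,
    Category.assoc]

theorem ext' {S : Shape} {X : Mod C} {f f' : A.T'.obj S ⟶ X}
    (h1 : A.inl.app S ≫ f = A.inl.app S ≫ f')
    (h2 : ∀ x : Shape.globe m ⟶ S, A.cell ≫ A.T'.map x ≫ f = A.cell ≫ A.T'.map x ≫ f') :
    f = f' := by
  obtain ⟨_, _, hu⟩ := A.univ S X (A.inl.app S ≫ f) (fun x => A.cell ≫ A.T'.map x ≫ f)
    (fun x => A.w_map x f)
  exact (hu f ⟨rfl, fun _ => rfl⟩).trans (hu f' ⟨h1.symm, fun x => (h2 x).symm⟩).symm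

theorem isIso (S : Shape) (hS : IsEmpty (Shape.globe m ⟶ S)) : IsIso (A.inl.app S) := by
  obtain ⟨f, ⟨h1, _⟩, _⟩ := A.univ S (T.obj S) (𝟙 _) (fun x => (hS.false x).elim)
    (fun x => (hS.false x).elim)
  refine ⟨f, h1, ?_⟩
  apply A.ext'
  · rw [← Category.assoc, h1, Category.id_comp, Category.comp_id]
  · exact fun x => (hS.false x).elim

theorem hasLift {E B : Mod C} {p : E ⟶ B} (hg : HasLiftingProperty g p) (S : Shape) :
    HasLiftingProperty (A.inl.app S) p := by
  refine ⟨fun {f f'} sq => ?_⟩
  have hsq : ∀ x : Shape.globe m ⟶ S,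
      CommSq (a ≫ T.map x ≫ f) g p (A.cell ≫ A.T'.map x ≫ f') := fun x => ⟨by
    rw [A.w_map x f', ← sq.w, Category.assoc, Category.assoc]⟩
  obtain ⟨h, ⟨h1, h2⟩, _⟩ := A.univ S E f (fun x => (hsq x).lift) (fun x => (hsq x).fac_left)
  refine ⟨⟨⟨h, h1, ?_⟩⟩⟩
  apply A.ext'
  · rw [← Category.assoc, h1, sq.w]
  · intro x
    rw [← Category.assoc, ← Category.assoc, Category.assoc _ _ h, h2, (hsq x).fac_right]

end Attach

theorem Attach.anod {T : Shape ⥤ Mod C} {m : ℕ} {a : D C m ⟶ T.obj (Shape.globe m)}
    (A : Attach T m (ds C m) a) (S : Shape) : Anod m (A.inl.app S) :=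
  fun _ _ _ hp => A.hasLift hp S

/-- Latching property of `T` above dimension `i`: maps out of `T (globe (i+1))` are given by the
boundary and the cell at end zero. -/
def Lt (T : Shape ⥤ Mod C) (ι : Fr C ⟶ T) (i : ℕ) : Prop :=
  ∀ (X : Mod C) (α β : T.obj (Shape.globe i) ⟶ X), ParA T α β → ∀ z' : D C (i + 1) ⟶ X,
    ds C i ≫ z' = ι.app _ ≫ α → dt C i ≫ z' = ι.app _ ≫ β →
    ∃! f : T.obj (Shape.globe (i + 1)) ⟶ X, T.map (Shape.σ i) ≫ f = α ∧
      T.map (Shape.τ i) ≫ f = β ∧ ι.app _ ≫ f = z'

theorem Lt_Fr (i : ℕ) : Lt (Fr C) (𝟙 (Fr C)) i := by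
  intro X α β _ z' h1 h2
  refine ⟨z', ⟨?_, ?_, ?_⟩, ?_⟩
  · rw [h1]; exact Category.id_comp _
  · rw [h2]; exact Category.id_comp _
  · exact Category.id_comp _
  · rintro f ⟨_, _, h⟩
    rw [← h]; exact (Category.id_comp _).symm

theorem Attach.Lt {T : Shape ⥤ Mod C} {ι : Fr C ⟶ T} {m : ℕ} {G G' : Mod C} {g : G ⟶ G'}
    {a : G ⟶ T.obj (Shape.globe m)} (A : Attach T m g a) {i : ℕ} (hi : m ≤ i)
    (h : Lt T ι i) : Lt A.T' (ι ≫ A.inl) i := by
  intro X α β hαβ z' h1 h2
  have hpar : ParA T (A.inl.app _ ≫ α) (A.inl.app _ ≫ β) := by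
    cases i with
    | zero => trivial
    | succ i =>
      refine ⟨?_, ?_⟩
      · rw [← Category.assoc, A.inl.naturality, Category.assoc, hαβ.1, ← Category.assoc,
          ← A.inl.naturality, Category.assoc]
      · rw [← Category.assoc, A.inl.naturality, Category.assoc, hαβ.2, ← Category.assoc,
          ← A.inl.naturality, Category.assoc]
  obtain ⟨τ, ⟨t1, t2, t3⟩, tu⟩ := h X (A.inl.app _ ≫ α) (A.inl.app _ ≫ β) hpar z'
    (by rw [h1]; exact Category.assoc _ _ _) (by rw [h2]; exact Category.assoc _ _ _)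
  have hmi : m < i + 1 := Nat.lt_succ_of_le hi
  obtain ⟨φ0, hφ0⟩ := face_factor hmi false
  obtain ⟨φ1, hφ1⟩ := face_factor hmi true
  rw [face_false] at hφ0
  rw [face_true] at hφ1
  have hne : Shape.faceMap hmi false ≠ Shape.faceMap hmi true := face_ne hmi
  classical
  let γ : (Shape.globe m ⟶ Shape.globe (i + 1)) → (G' ⟶ X) := fun x =>
    if x = Shape.faceMap hmi false then A.cell ≫ A.T'.map φ0 ≫ α else A.cell ≫ A.T'.map φ1 ≫ β
  have γ0 : γ (Shape.faceMap hmi false) = A.cell ≫ A.T'.map φ0 ≫ α := if_pos rfl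
  have γ1 : γ (Shape.faceMap hmi true) = A.cell ≫ A.T'.map φ1 ≫ β := if_neg hne.symm
  obtain ⟨f, ⟨f1, f2⟩, _⟩ := A.univ _ X τ γ (by
    intro x
    obtain ⟨b, rfl⟩ := globe_lt hmi x
    cases b with
    | false => rw [γ0, A.w_map, ← t1, hφ0, T.map_comp, Category.assoc]
    | true => rw [γ1, A.w_map, ← t2, hφ1, T.map_comp, Category.assoc])
  have key0 : A.T'.map (Shape.σ i) ≫ f = α := by
    apply A.ext'
    · rw [← Category.assoc, ← A.inl.naturality, Category.assoc, f1, t1]
    · intro y
      rw [← Category.assoc (A.T'.map y), ← A.T'.map_comp, f2]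
      rcases Nat.lt_or_eq_of_le hi with hlt | heq
      · obtain ⟨b, rfl⟩ := globe_lt hlt y
        have e : Shape.faceMap hlt b ≫ Shape.σ i = Shape.faceMap hmi b :=
          faceMap_comp' hlt (Nat.lt_succ_self i) b false
        rw [e]
        cases b with
        | false =>
          rw [γ0]
          have : φ0 = Shape.faceMap hlt false := by
            obtain ⟨b, rfl⟩ := globe_lt hlt φ0
            cases b with
            | false => rfl
            | true =>
              exfalso
              rw [show Shape.faceMap hlt true ≫ Shape.σ i = Shape.faceMap hmi true from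
                faceMap_comp' hlt (Nat.lt_succ_self i) true false] at hφ0
              exact hne hφ0
          rw [this]
        | true =>
          rw [γ1, hαβ.face hlt true]
          have : φ1 = Shape.faceMap hlt true := by
            obtain ⟨b, rfl⟩ := globe_lt hlt φ1
            cases b with
            | true => rfl
            | false =>
              exfalso
              rw [show Shape.faceMap hlt false ≫ Shape.τ i = Shape.faceMap hmi false from
                faceMap_comp' hlt (Nat.lt_succ_self i) false true] at hφ1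
              exact hne hφ1.symm
          rw [this]
      · subst heq
        obtain rfl : y = 𝟙 _ := globe_endo y
        obtain rfl : φ0 = 𝟙 _ := globe_endo φ0
        rw [← hφ0, γ0]
  have key1 : A.T'.map (Shape.τ i) ≫ f = β := by
    apply A.ext'
    · rw [← Category.assoc, ← A.inl.naturality, Category.assoc, f1, t2]
    · intro y
      rw [← Category.assoc (A.T'.map y), ← A.T'.map_comp, f2]
      rcases Nat.lt_or_eq_of_le hi with hlt | heq
      · obtain ⟨b, rfl⟩ := globe_lt hlt y
        have e : Shape.faceMap hlt b ≫ Shape.τ i = Shape.faceMap hmi b :=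
          faceMap_comp' hlt (Nat.lt_succ_self i) b true
        rw [e]
        cases b with
        | false =>
          rw [γ0, ← hαβ.face hlt false]
          have : φ0 = Shape.faceMap hlt false := by
            obtain ⟨b, rfl⟩ := globe_lt hlt φ0
            cases b with
            | false => rfl
            | true =>
              exfalso
              rw [show Shape.faceMap hlt true ≫ Shape.σ i = Shape.faceMap hmi true from
                faceMap_comp' hlt (Nat.lt_succ_self i) true false] at hφ0
              exact hne hφ0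
          rw [this]
        | true =>
          rw [γ1]
          have : φ1 = Shape.faceMap hlt true := by
            obtain ⟨b, rfl⟩ := globe_lt hlt φ1
            cases b with
            | true => rfl
            | false =>
              exfalso
              rw [show Shape.faceMap hlt false ≫ Shape.τ i = Shape.faceMap hmi false from
                faceMap_comp' hlt (Nat.lt_succ_self i) false true] at hφ1
              exact hne hφ1.symm
          rw [this]
      · subst heq
        obtain rfl : y = 𝟙 _ := globe_endo y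
        obtain rfl : φ1 = 𝟙 _ := globe_endo φ1
        rw [← hφ1, γ1]
  refine ⟨f, ⟨key0, key1, ?_⟩, ?_⟩
  · rw [NatTrans.comp_app, Category.assoc, f1, t3]
  · rintro f' ⟨g1, g2, g3⟩
    apply A.ext'
    · rw [f1]
      refine tu _ ⟨?_, ?_, ?_⟩
      · rw [← Category.assoc, A.inl.naturality, Category.assoc, g1]
      · rw [← Category.assoc, A.inl.naturality, Category.assoc, g2]
      · rw [← g3, NatTrans.comp_app, Category.assoc]
    · intro x
      rw [f2]
      obtain ⟨b, rfl⟩ := globe_lt hmi x
      cases b with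
      | false => rw [γ0, hφ0, A.T'.map_comp, Category.assoc, g1]
      | true => rw [γ1, hφ1, A.T'.map_comp, Category.assoc, g2]

end Crest.Agent.S0382
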