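import Crest.Agent.S0382_Basic

set_option autoImplicit false

namespace Crest.Agent.S0382

open CategoryTheory CategoryTheory.Limits Opposite Crest.GeometryTopology.Coherator

universe u

section General

variable {K : Type} [Category.{u} K]

lemma presentable_yoneda (κ : Cardinal.{u}) [Fact κ.IsRegular] (X : K) :
    IsCardinalPresentable (yoneda.obj X : Kᵒᵖ ⥤ Type u) κ where
  preservesColimitOfShape J _ _ := by
    let e : (coyoneda.obj (op (yoneda.obj X : Kᵒᵖ ⥤ Type u))) ≅
        (evaluation Kᵒᵖ (Type u)).obj (op X) :=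
      NatIso.ofComponents (fun P ↦ Equiv.toIso yonedaEquiv) (by
        intro P Q f
        ext x
        simp [yonedaEquiv_apply])
    exact preservesColimitsOfShape_of_natIso e.symm

/-- Families of commutative squares in a category. -/
structure Squares (K : Type) [Category.{u} K] where
  /-- index -/
  ι : Type
  /-- corner -/
  A : ι → K
  /-- corner -/
  B : ι → K
  /-- corner -/
  D : ι → K
  /-- corner -/
  E : ι → K
  /-- edge -/
  t : ∀ i, A i ⟶ B i
  /-- edge -/
  l : ∀ i, A i ⟶ D i
  /-- edge -/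
  r : ∀ i, B i ⟶ E i
  /-- edge -/
  b : ∀ i, D i ⟶ E i
  w : ∀ i, t i ≫ r i = l i ≫ b i

variable (Q : Squares.{u} K)

/-- The comparison maps. -/
noncomputable def Squares.comp (i : Q.ι) :
    pushout (yoneda.map (Q.t i)) (yoneda.map (Q.l i)) ⟶ (yoneda.obj (Q.E i) : Kᵒᵖ ⥤ Type u) :=
  pushout.desc (yoneda.map (Q.r i)) (yoneda.map (Q.b i)) (by
    rw [← Functor.map_comp, ← Functor.map_comp, Q.w i])

/-- The comparison maps. -/
noncomputable def Squares.W : MorphismProperty (Kᵒᵖ ⥤ Type u) :=
  MorphismProperty.ofHoms Q.comp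

instance : MorphismProperty.IsSmall.{u} Q.W := by
  unfold Squares.W
  have : Small.{u} Q.ι := small_lift.{0, u, 0} Q.ι
  infer_instance

lemma Squares.presentable (κ : Cardinal.{u}) [Fact κ.IsRegular] (i : Q.ι) :
    IsCardinalPresentable (pushout (yoneda.map (Q.t i)) (yoneda.map (Q.l i))) κ := by
  have : ∀ k : WalkingSpan, IsCardinalPresentable
      ((span (yoneda.map (Q.t i)) (yoneda.map (Q.l i))).obj k) κ := by
    intro k
    rcases k with _ | _ | _ <;> dsimp <;> apply presentable_yoneda
  exact isCardinalPresentable_of_isColimit _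
    (colimit.isColimit (span (yoneda.map (Q.t i)) (yoneda.map (Q.l i)))) κ
      (hasCardinalLT_of_finite _ _ (Cardinal.IsRegular.aleph0_le Fact.out))

lemma Squares.inl_comp (i : Q.ι) {F : Kᵒᵖ ⥤ Type u} (g : yoneda.obj (Q.E i) ⟶ F) :
    pushout.inl _ _ ≫ Q.comp i ≫ g = yoneda.map (Q.r i) ≫ g := by
  simp only [Squares.comp, pushout.inl_desc_assoc]

lemma Squares.inr_comp (i : Q.ι) {F : Kᵒᵖ ⥤ Type u} (g : yoneda.obj (Q.E i) ⟶ F) :
    pushout.inr _ _ ≫ Q.comp i ≫ g = yoneda.map (Q.b i) ≫ g := by
  simp only [Squares.comp, pushout.inr_desc_assoc]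

lemma Squares.bijective_iff (F : Kᵒᵖ ⥤ Type u) (i : Q.ι) :
    Function.Bijective (fun (g : yoneda.obj (Q.E i) ⟶ F) ↦ Q.comp i ≫ g) ↔
      IsPullback (F.map (Q.r i).op) (F.map (Q.b i).op)
      (F.map (Q.t i).op) (F.map (Q.l i).op) := by
  rw [Types.isPullback_iff]
  constructor
  · rintro ⟨h1, h2⟩
    refine ⟨?_, ?_, ?_⟩
    · rw [← F.map_comp, ← F.map_comp, ← op_comp, ← op_comp, Q.w i]
    · rintro x y ⟨e1, e2⟩
      apply yonedaEquiv.symm.injective
      apply h1
      apply pushout.hom_ext
      · dsimp only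
        rw [Q.inl_comp, Q.inl_comp, yonedaEquiv_symm_naturality_left,
          yonedaEquiv_symm_naturality_left, e1]
      · dsimp only
        rw [Q.inr_comp, Q.inr_comp, yonedaEquiv_symm_naturality_left,
          yonedaEquiv_symm_naturality_left, e2]
    · intro x y e
      obtain ⟨g, hg⟩ := h2 (pushout.desc (yonedaEquiv.symm x) (yonedaEquiv.symm y) (by
        rw [yonedaEquiv_symm_naturality_left, yonedaEquiv_symm_naturality_left, e]))
      dsimp only at hg
      refine ⟨yonedaEquiv g, ?_, ?_⟩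
      · rw [yonedaEquiv_naturality, ← Q.inl_comp, hg, pushout.inl_desc, Equiv.apply_symm_apply]
      · rw [yonedaEquiv_naturality, ← Q.inr_comp, hg, pushout.inr_desc, Equiv.apply_symm_apply]
  · rintro ⟨-, h1, h2⟩
    constructor
    · intro g g' e
      dsimp only at e
      apply yonedaEquiv.injective
      apply h1
      rw [yonedaEquiv_naturality, yonedaEquiv_naturality, yonedaEquiv_naturality,
        yonedaEquiv_naturality, ← Q.inl_comp, ← Q.inl_comp, ← Q.inr_comp, ← Q.inr_comp, e]
      exact ⟨rfl, rfl⟩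
    · intro g
      obtain ⟨x, hx1, hx2⟩ := h2 (yonedaEquiv (pushout.inl _ _ ≫ g))
        (yonedaEquiv (pushout.inr _ _ ≫ g)) (by
        rw [yonedaEquiv_naturality, yonedaEquiv_naturality, pushout.condition_assoc])
      refine ⟨yonedaEquiv.symm x, ?_⟩
      apply pushout.hom_ext
      · dsimp only
        rw [Q.inl_comp, yonedaEquiv_symm_naturality_left, hx1, Equiv.symm_apply_apply]
      · dsimp only
        rw [Q.inr_comp, yonedaEquiv_symm_naturality_left, hx2, Equiv.symm_apply_apply]

lemma Squares.isLocal_iff (F : Kᵒᵖ ⥤ Type u) :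
    Q.W.isLocal F ↔ ∀ i, IsPullback (F.map (Q.r i).op) (F.map (Q.b i).op)
      (F.map (Q.t i).op) (F.map (Q.l i).op) := by
  constructor
  · intro h i
    exact (Q.bijective_iff F i).1 (h _ (MorphismProperty.ofHoms.mk i))
  · rintro h _ _ _ ⟨i⟩
    exact (Q.bijective_iff F i).2 (h i)

lemma Squares.isRightAdjoint : Q.W.isLocal.ι.IsRightAdjoint := by
  have : Fact (Cardinal.aleph0.{u}).IsRegular := Cardinal.fact_isRegular_aleph0
  apply MorphismProperty.isRightAdjoint_ι_isLocal Q.W Cardinal.aleph0.{u}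
  rintro _ _ _ ⟨i⟩
  exact ⟨Q.presentable _ i, presentable_yoneda _ _⟩

end General

/-- Index of designated squares. -/
structure SqIdx where
  /-- shape -/
  S : Shape
  /-- dimension -/
  b : ℕ
  /-- dimension -/
  h : ℕ
  hb : b < S.last
  hh : b < h

/-- The designated squares. -/
noncomputable def sqs (C : GlobTheory.{u}) : Squares.{u} C.Ob where
  ι := SqIdx
  A i := C.incl.obj (Shape.globe i.b)
  B i := C.incl.obj i.S
  D i := C.incl.obj (Shape.globe i.h)
  E i := C.incl.obj (i.S.glue i.b i.h i.hb i.hh)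
  t i := C.incl.map (i.S.hinge i.hb)
  l i := C.incl.map (Shape.faceMap i.hh false)
  r i := C.incl.map (i.S.inLeft i.b i.h i.hb i.hh)
  b i := C.incl.map (i.S.inRight i.b i.h i.hb i.hh)
  w i := (C.respectsSums i.S i.b i.h i.hb i.hh).w

/-- Models are the local presheaves. -/
noncomputable def toLocal (C : GlobTheory.{u}) : Mod C ⥤ (sqs C).W.isLocal.FullSubcategory where
  obj X := ⟨X.functor, ((sqs C).isLocal_iff _).2 fun i => X.sums i.S i.b i.h i.hb i.hh⟩
  map f := ObjectProperty.homMk f

/-- Models are the local presheaves. -/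
noncomputable def ofLocal (C : GlobTheory.{u}) : (sqs C).W.isLocal.FullSubcategory ⥤ Mod C where
  obj X := ⟨X.obj, fun S b h hb hh => ((sqs C).isLocal_iff _).1 X.property ⟨S, b, h, hb, hh⟩⟩
  map f := f.hom

/-- Models are the local presheaves. -/
noncomputable def equivLocal (C : GlobTheory.{u}) :
    Mod C ≌ (sqs C).W.isLocal.FullSubcategory where
  functor := toLocal C
  inverse := ofLocal C
  unitIso := Iso.refl _
  counitIso := Iso.refl _

theorem isReflective (C : GlobTheory.{u}) :
    Nonempty (Reflective (sqs C).W.isLocal.ι) := by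
  have := (sqs C).isRightAdjoint
  exact ⟨{ L := (sqs C).W.isLocal.ι.leftAdjoint, adj := Adjunction.ofIsRightAdjoint _ }⟩

theorem hasColimits (C : GlobTheory.{u}) : HasColimitsOfSize.{u, u} (Mod C) := by
  obtain ⟨_⟩ := isReflective C
  have : HasColimitsOfSize.{u, u} (sqs C).W.isLocal.FullSubcategory :=
    hasColimits_of_reflective (sqs C).W.isLocal.ι
  exact Adjunction.has_colimits_of_equivalence (equivLocal C).functor

theorem hasLimits (C : GlobTheory.{u}) : HasLimitsOfSize.{u, u} (Mod C) := by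
  obtain ⟨_⟩ := isReflective C
  have : HasLimitsOfSize.{u, u} (sqs C).W.isLocal.FullSubcategory :=
    hasLimits_of_reflective (sqs C).W.isLocal.ι
  exact Adjunction.has_limits_of_equivalence (equivLocal C).functor

end Crest.Agent.S0382
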