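import Crest.Agent.S0382_Basic

set_option autoImplicit false

/-!
Task D for S0382: basic facts on shapes.
-/

namespace Crest.Agent.S0382

open CategoryTheory CategoryTheory.Limits Opposite Crest.GeometryTopology.Coherator

universe u

variable {C : GlobTheory.{u}}

namespace TaskD

/-- The underlying globular set functor on shapes. -/
noncomputable def Psh : Shape ⥤ GlobPsh.{0} where
  obj S := S.psh
  map f := f
  map_id _ := rfl
  map_comp _ _ := rfl

/-- The gluing square is a pushout of globular sets. -/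
theorem psh_isPushout (S : Shape) (b h : ℕ) (hb : b < S.last) (hh : b < h) :
    IsPushout (Psh.map (S.hinge hb)) (Psh.map (Shape.faceMap hh false))
      (Psh.map (S.inLeft b h hb hh)) (Psh.map (S.inRight b h hb hh)) :=
  IsPushout.of_hasPushout (GlobPsh.globeRepFace hb true ≫ S.apex) (GlobPsh.globeRepFace hh false)

/-- The natural isomorphism `Hom(globe m, -) ≅ psh(-)_m`. -/
noncomputable def cellIso (m : ℕ) :
    coyoneda.obj (op (Shape.globe m)) ≅ Psh ⋙ (evaluation _ _).obj (op (GlobeObj.mk m)) :=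
  NatIso.ofComponents (fun S => Equiv.toIso (yonedaEquiv (F := S.psh) (X := GlobeObj.mk m)))
    (fun {S T} f => by
      ext x
      exact (yonedaEquiv_comp (X := GlobeObj.mk m) (F := S.psh) (G := T.psh) x f))

/-- `Hom(globe m, -)` sends gluing squares to pushouts of types. -/
theorem cells_isPushout₀ (m : ℕ) (S : Shape) (b h : ℕ) (hb : b < S.last) (hh : b < h) :
    IsPushout ((coyoneda.obj (op (Shape.globe m))).map (S.hinge hb))
      ((coyoneda.obj (op (Shape.globe m))).map (Shape.faceMap hh false))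
      ((coyoneda.obj (op (Shape.globe m))).map (S.inLeft b h hb hh))
      ((coyoneda.obj (op (Shape.globe m))).map (S.inRight b h hb hh)) := by
  have h1 := (psh_isPushout S b h hb hh).map ((evaluation _ _).obj (op (GlobeObj.mk m)))
  refine IsPushout.of_iso h1 ((cellIso m).symm.app (Shape.globe b)) ((cellIso m).symm.app S)
    ((cellIso m).symm.app (Shape.globe h)) ((cellIso m).symm.app (S.glue b h hb hh)) ?_ ?_ ?_ ?_
  · exact (cellIso m).symm.hom.naturality (S.hinge hb)
  · exact (cellIso m).symm.hom.naturality (Shape.faceMap hh false)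
  · exact (cellIso m).symm.hom.naturality (S.inLeft b h hb hh)
  · exact (cellIso m).symm.hom.naturality (S.inRight b h hb hh)

/-- A cell of a glued shape comes from the left or from the right. -/
theorem cell_cases {m : ℕ} {S : Shape} {b h : ℕ} {hb : b < S.last} {hh : b < h}
    (x : Shape.globe m ⟶ S.glue b h hb hh) :
    (∃ y : Shape.globe m ⟶ S, x = y ≫ S.inLeft b h hb hh) ∨
      ∃ y : Shape.globe m ⟶ Shape.globe h, x = y ≫ S.inRight b h hb hh := by
  rcases Types.eq_or_eq_of_isPushout (cells_isPushout₀ m S b h hb hh) x with ⟨y, hy⟩ | ⟨y, hy⟩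
  · exact Or.inl ⟨y, hy.symm⟩
  · exact Or.inr ⟨y, hy.symm⟩

/-- Induction on shapes. -/
theorem shape_induction {P : Shape → Prop} (hglobe : ∀ n, P (Shape.globe n))
    (hglue : ∀ (S : Shape) (b h : ℕ) (hb : b < S.last) (hh : b < h), P S →
      P (S.glue b h hb hh)) (S : Shape) : P S := by
  obtain ⟨l, p⟩ := S
  induction p with
  | single h => exact hglobe h
  | glue Q b h hb hh ih => exact hglue ⟨_, Q⟩ b h hb hh ih

theorem dim_globe (n : ℕ) : (Shape.globe n).dim = n := rfl

theorem dim_glue (S : Shape) (b h : ℕ) (hb : b < S.last) (hh : b < h) :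
    (S.glue b h hb hh).dim = max S.dim h := rfl

instance finite_arrow (m n : ℕ) : Finite (GlobeObj.Arrow m n) := by
  classical
  have : Function.Injective (fun a : GlobeObj.Arrow m n =>
      (match a with
        | .refl _ => (none : Option Bool)
        | .pole _ b => some b)) := by
    intro a a' haa'
    cases a with
    | refl =>
      cases a' with
      | refl => rfl
      | pole h b => simp at haa'
    | pole h b =>
      cases a' with
      | refl => simp at haa'
      | pole h' b' => simp at haa'; rw [haa']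
  exact Finite.of_injective _ this

/-- Maps between globes are arrows in the category of globes. -/
noncomputable def globeHomEquiv (k l : ℕ) :
    (Shape.globe k ⟶ Shape.globe l) ≃ GlobeObj.Arrow k l :=
  yonedaEquiv (F := GlobPsh.globeRep l) (X := GlobeObj.mk k)

theorem globeHomEquiv_faceMap {k l : ℕ} (h : k < l) (b : Bool) :
    globeHomEquiv k l (Shape.faceMap h b) = GlobeObj.Arrow.pole h b :=
  yonedaEquiv_yoneda_map (GlobeObj.faceArrow h b)

theorem globeHomEquiv_id (k : ℕ) :
    globeHomEquiv k k (𝟙 _) = GlobeObj.Arrow.refl k := by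
  have := yonedaEquiv_yoneda_map (𝟙 (GlobeObj.mk k))
  rw [yoneda.map_id] at this
  exact this

end TaskD

open TaskD

theorem cells_isPushout (m : ℕ) (S : Shape) (b h : ℕ) (hb : b < S.last) (hh : b < h) :
    IsPushout ((coyoneda.obj (op (Shape.globe m)) ⋙ uliftFunctor.{u}).map (S.hinge hb))
      ((coyoneda.obj (op (Shape.globe m)) ⋙ uliftFunctor.{u}).map (Shape.faceMap hh false))
      ((coyoneda.obj (op (Shape.globe m)) ⋙ uliftFunctor.{u}).map (S.inLeft b h hb hh))
      ((coyoneda.obj (op (Shape.globe m)) ⋙ uliftFunctor.{u}).map (S.inRight b h hb hh)) :=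
  (cells_isPushout₀ m S b h hb hh).map uliftFunctor.{u}

theorem finite_cells (n : ℕ) (S : Shape) : Finite (Shape.globe n ⟶ S) := by
  induction S using shape_induction with
  | hglobe m => exact Finite.of_equiv _ (globeHomEquiv n m).symm
  | hglue S b h hb hh ih =>
    have h2 : Finite (Shape.globe n ⟶ Shape.globe h) := Finite.of_equiv _ (globeHomEquiv n h).symm
    let f : (Shape.globe n ⟶ S) ⊕ (Shape.globe n ⟶ Shape.globe h) →
        (Shape.globe n ⟶ S.glue b h hb hh) :=
      Sum.elim (fun y => y ≫ S.inLeft b h hb hh) (fun y => y ≫ S.inRight b h hb hh)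
    apply Finite.of_surjective f
    intro x
    rcases cell_cases x with ⟨y, hy⟩ | ⟨y, hy⟩
    · exact ⟨Sum.inl y, hy.symm⟩
    · exact ⟨Sum.inr y, hy.symm⟩

theorem isEmpty_cells (n : ℕ) (S : Shape) (h : S.dim < n) : IsEmpty (Shape.globe n ⟶ S) := by
  induction S using shape_induction with
  | hglobe m =>
    rw [dim_globe] at h
    refine ⟨fun x => ?_⟩
    cases hx : globeHomEquiv n m x with
    | refl => omega
    | pole h' b => omega
  | hglue S b m hb hh ih =>
    rw [dim_glue] at h
    have h1 := ih (by omega)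
    refine ⟨fun x => ?_⟩
    rcases cell_cases x with ⟨y, hy⟩ | ⟨y, hy⟩
    · exact h1.elim y
    · cases hx : globeHomEquiv n m y with
      | refl => omega
      | pole h' b => omega

/-- every map of globes is an identity or factors through the last source or target -/
theorem globe_hom_cases {k l : ℕ} (φ : Shape.globe k ⟶ Shape.globe l) :
    (∃ h : k = l, φ = eqToHom (by rw [h])) ∨
      ∃ (hkl : k < l) (b : Bool), φ = Shape.faceMap hkl b := by
  cases hx : globeHomEquiv k l φ with
  | refl =>
    left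
    refine ⟨rfl, ?_⟩
    apply (globeHomEquiv k k).injective
    rw [hx, eqToHom_refl, globeHomEquiv_id]
  | pole h b =>
    right
    refine ⟨h, b, ?_⟩
    apply (globeHomEquiv k l).injective
    rw [hx, globeHomEquiv_faceMap]

theorem faceMap_comp {k l m : ℕ} (h : k < l) (h' : l < m) (b b' : Bool) :
    Shape.faceMap h b ≫ Shape.faceMap h' b' = Shape.faceMap (h.trans h') b :=
  (yoneda.map_comp (GlobeObj.faceArrow h b) (GlobeObj.faceArrow h' b')).symm

theorem faceMap_injective {k l : ℕ} (h : k < l) (b b' : Bool)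
    (e : Shape.faceMap h b = Shape.faceMap h b') : b = b' := by
  have := congrArg (globeHomEquiv k l) e
  rw [globeHomEquiv_faceMap, globeHomEquiv_faceMap] at this
  cases this
  rfl

namespace TaskD

/-- Maps out of a free model on a shape. -/
noncomputable def frEquiv (S : Shape) (X : Mod C) :
    ((Fr C).obj S ⟶ X) ≃ X.functor.obj (op (⟨S⟩ : C.Ob)) :=
  yonedaEquiv (F := X.functor) (X := (⟨S⟩ : C.Ob))

theorem frEquiv_opMap {S T : Shape} {X : Mod C} (o : C.arr S T) (v : (Fr C).obj T ⟶ X) :
    frEquiv S X (opMap C o ≫ v) =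
      X.functor.map (Quiver.Hom.op (X := (⟨S⟩ : C.Ob)) (Y := (⟨T⟩ : C.Ob)) o) (frEquiv T X v) :=
  (yonedaEquiv_naturality (X := (⟨T⟩ : C.Ob)) (Y := (⟨S⟩ : C.Ob)) (F := X.functor) v o).symm

theorem frEquiv_map {S T : Shape} {X : Mod C} (f : S ⟶ T) (v : (Fr C).obj T ⟶ X) :
    frEquiv S X ((Fr C).map f ≫ v) = X.functor.map (C.incl.map f).op (frEquiv T X v) :=
  frEquiv_opMap (C.ofShape f) v

theorem shape_w (S : Shape) (b h : ℕ) (hb : b < S.last) (hh : b < h) :
    S.hinge hb ≫ S.inLeft b h hb hh = Shape.faceMap hh false ≫ S.inRight b h hb hh :=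
  (psh_isPushout S b h hb hh).w

theorem exists_glue_desc (S : Shape) (b h : ℕ) (hb : b < S.last) (hh : b < h) {X : Mod C}
    (f : (Fr C).obj S ⟶ X) (g : (Fr C).obj (Shape.globe h) ⟶ X)
    (w : (Fr C).map (S.hinge hb) ≫ f = (Fr C).map (Shape.faceMap hh false) ≫ g) :
    ∃ k : (Fr C).obj (S.glue b h hb hh) ⟶ X,
      (Fr C).map (S.inLeft b h hb hh) ≫ k = f ∧ (Fr C).map (S.inRight b h hb hh) ≫ k = g := by
  obtain ⟨z, h1, h2⟩ := Types.exists_of_isPullback (X.sums S b h hb hh) (frEquiv _ _ f)
    (frEquiv _ _ g) (by rw [← frEquiv_map, ← frEquiv_map, w])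
  obtain ⟨z', hz'⟩ := (frEquiv (S.glue b h hb hh) X).surjective z
  subst hz'
  exact ⟨z', (frEquiv _ _).injective ((frEquiv_map _ _).trans h1),
    (frEquiv _ _).injective ((frEquiv_map _ _).trans h2)⟩

theorem glue_hom_ext {S : Shape} {b h : ℕ} {hb : b < S.last} {hh : b < h} {X : Mod C}
    {k k' : (Fr C).obj (S.glue b h hb hh) ⟶ X}
    (h1 : (Fr C).map (S.inLeft b h hb hh) ≫ k = (Fr C).map (S.inLeft b h hb hh) ≫ k')
    (h2 : (Fr C).map (S.inRight b h hb hh) ≫ k = (Fr C).map (S.inRight b h hb hh) ≫ k') :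
    k = k' := by
  apply (frEquiv _ _).injective
  apply Types.ext_of_isPullback (X.sums S b h hb hh)
  · rw [← frEquiv_map, ← frEquiv_map, h1]
  · rw [← frEquiv_map, ← frEquiv_map, h2]

end TaskD

theorem sq_Fr (C : GlobTheory.{u}) : Sq (Fr C) := by
  intro S b h hb hh
  refine ⟨⟨?_⟩, ⟨PushoutCocone.IsColimit.mk _
    (fun s => (exists_glue_desc S b h hb hh s.inl s.inr s.condition).choose)
    (fun s => (exists_glue_desc S b h hb hh s.inl s.inr s.condition).choose_spec.1)
    (fun s => (exists_glue_desc S b h hb hh s.inl s.inr s.condition).choose_spec.2)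
    (fun s m h1 h2 => glue_hom_ext ?_ ?_)⟩⟩
  · rw [← Functor.map_comp, ← Functor.map_comp, shape_w]
  · rw [h1, (exists_glue_desc S b h hb hh s.inl s.inr s.condition).choose_spec.1]
  · rw [h2, (exists_glue_desc S b h hb hh s.inl s.inr s.condition).choose_spec.2]

theorem shape_hom_ext {X : Mod C} {S : Shape} (f g : (Fr C).obj S ⟶ X)
    (h : ∀ (k : ℕ) (x : Shape.globe k ⟶ S), (Fr C).map x ≫ f = (Fr C).map x ≫ g) : f = g := by
  induction S using shape_induction with
  | hglobe n =>
    have := h n (𝟙 _)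
    rwa [(Fr C).map_id, Category.id_comp, Category.id_comp] at this
  | hglue S b m hb hh ih =>
    apply glue_hom_ext
    · apply ih
      intro k x
      have := h k (x ≫ S.inLeft b m hb hh)
      rwa [(Fr C).map_comp, Category.assoc, Category.assoc] at this
    · exact h m (S.inRight b m hb hh)

/-- Compatibility with sources and targets implies compatibility with all faces. -/
theorem TaskD.compat_all {X : Mod C} {S : Shape} (c : ∀ k : ℕ, (Shape.globe k ⟶ S) → (D C k ⟶ X))
    (hs : ∀ (k : ℕ) (x : Shape.globe (k + 1) ⟶ S), ds C k ≫ c (k + 1) x = c k (Shape.σ k ≫ x))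
    (ht : ∀ (k : ℕ) (x : Shape.globe (k + 1) ⟶ S), dt C k ≫ c (k + 1) x = c k (Shape.τ k ≫ x)) :
    ∀ (l k : ℕ) (φ : Shape.globe k ⟶ Shape.globe l) (x : Shape.globe l ⟶ S),
      (Fr C).map φ ≫ c l x = c k (φ ≫ x) := by
  intro l
  induction l with
  | zero =>
    intro k φ x
    rcases globe_hom_cases φ with ⟨h, hφ⟩ | ⟨h, b, hφ⟩
    · subst h
      rw [hφ, eqToHom_refl, (Fr C).map_id, Category.id_comp, Category.id_comp]
    · omega
  | succ l ih =>
    intro k φ x
    rcases globe_hom_cases φ with ⟨h, hφ⟩ | ⟨h, b, hφ⟩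
    · subst h
      rw [hφ, eqToHom_refl, (Fr C).map_id, Category.id_comp, Category.id_comp]
    · have key : ∀ (b : Bool), (Fr C).map (Shape.faceMap (Nat.lt_succ_self l) b) ≫ c (l + 1) x =
          c l (Shape.faceMap (Nat.lt_succ_self l) b ≫ x) := by
        intro b
        cases b
        · exact hs l x
        · exact ht l x
      rcases Nat.lt_succ_iff_lt_or_eq.mp h with h' | h'
      · have e : φ = Shape.faceMap h' b ≫ Shape.faceMap (Nat.lt_succ_self l) false := by
          rw [hφ, faceMap_comp]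
        rw [e, (Fr C).map_comp, Category.assoc, key, ih, Category.assoc]
      · subst h'
        rw [hφ]
        exact key b

theorem shape_desc {X : Mod C} {S : Shape} (c : ∀ k : ℕ, (Shape.globe k ⟶ S) → (D C k ⟶ X))
    (hs : ∀ (k : ℕ) (x : Shape.globe (k + 1) ⟶ S), ds C k ≫ c (k + 1) x = c k (Shape.σ k ≫ x))
    (ht : ∀ (k : ℕ) (x : Shape.globe (k + 1) ⟶ S), dt C k ≫ c (k + 1) x = c k (Shape.τ k ≫ x)) :
    ∃ f : (Fr C).obj S ⟶ X, ∀ (k : ℕ) (x : Shape.globe k ⟶ S), (Fr C).map x ≫ f = c k x := by
  induction S using shape_induction with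
  | hglobe n =>
    refine ⟨c n (𝟙 _), fun k x => ?_⟩
    rw [TaskD.compat_all c hs ht, Category.comp_id]
  | hglue S b m hb hh ih =>
    obtain ⟨f, hf⟩ := ih (fun k x => c k (x ≫ S.inLeft b m hb hh))
      (fun k x => by rw [hs, Category.assoc]) (fun k x => by rw [ht, Category.assoc])
    obtain ⟨g, hg1, hg2⟩ := exists_glue_desc S b m hb hh f (c m (S.inRight b m hb hh)) (by
      rw [hf, shape_w, TaskD.compat_all c hs ht])
    refine ⟨g, fun k x => ?_⟩
    rcases cell_cases x with ⟨y, hy⟩ | ⟨y, hy⟩
    · rw [hy, (Fr C).map_comp, Category.assoc, hg1, hf]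
    · rw [hy, (Fr C).map_comp, Category.assoc, hg2, TaskD.compat_all c hs ht]

end Crest.Agent.S0382
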