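import Crest.Agent.S0382_Basic

set_option autoImplicit false

namespace Crest.Agent.S0382

open CategoryTheory CategoryTheory.Limits Opposite Crest.GeometryTopology.Coherator

universe u

variable {C : GlobTheory.{u}}

/-! Task E: attaching cells to functors on shapes. The two final statements are stated relative to
task A (`hasColimits`) and task D (`cells_isPushout`): `exists_attach := exists_attach_of (hasColimits C)`,
`Attach.sq := Attach.sq_of cells_isPushout`. -/

section Attach

variable [HasColimitsOfSize.{0, 0} (Mod C)]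
variable (T : Shape ⥤ Mod C) (m : ℕ) {G G' : Mod C} (g : G ⟶ G') (a : G ⟶ T.obj (Shape.globe m))

/-- The attaching map on the shape `S`. -/
noncomputable def attL (S : Shape) : (∐ fun _ : (Shape.globe m ⟶ S) => G) ⟶ T.obj S :=
  Sigma.desc (fun x => a ≫ T.map x)

noncomputable def attR (S : Shape) :
    (∐ fun _ : (Shape.globe m ⟶ S) => G) ⟶ (∐ fun _ : (Shape.globe m ⟶ S) => G') :=
  Sigma.desc (fun x => g ≫ Sigma.ι (fun _ : (Shape.globe m ⟶ S) => G') x)

noncomputable def attO (S : Shape) : Mod C := pushout (attL T m a S) (attR m g S)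

noncomputable def attInl (S : Shape) : T.obj S ⟶ attO T m g a S :=
  pushout.inl (attL T m a S) (attR m g S)

noncomputable def attIn (S : Shape) (x : Shape.globe m ⟶ S) : G' ⟶ attO T m g a S :=
  Sigma.ι (fun _ : (Shape.globe m ⟶ S) => G') x ≫ pushout.inr (attL T m a S) (attR m g S)

theorem att_w (S : Shape) (x : Shape.globe m ⟶ S) :
    g ≫ attIn T m g a S x = a ≫ T.map x ≫ attInl T m g a S := by
  have h := pushout.condition (f := attL T m a S) (g := attR m g S)
  have h2 := congrArg (fun t => Sigma.ι (fun _ : (Shape.globe m ⟶ S) => G) x ≫ t) h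
  simp only [attL, attR, Sigma.ι_desc_assoc, Category.assoc] at h2
  exact h2.symm

theorem att_hom_ext (S : Shape) {X : Mod C} (f f' : attO T m g a S ⟶ X)
    (h1 : attInl T m g a S ≫ f = attInl T m g a S ≫ f')
    (h2 : ∀ x, attIn T m g a S x ≫ f = attIn T m g a S x ≫ f') : f = f' := by
  apply pushout.hom_ext
  · exact h1
  · apply Sigma.hom_ext
    intro x
    exact (Category.assoc _ _ _).symm.trans ((h2 x).trans (Category.assoc _ _ _))

noncomputable def attDesc (S : Shape) {X : Mod C} (t : T.obj S ⟶ X)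
    (γ : (Shape.globe m ⟶ S) → (G' ⟶ X)) (h : ∀ x, g ≫ γ x = a ≫ T.map x ≫ t) :
    attO T m g a S ⟶ X :=
  pushout.desc t (Sigma.desc γ) (by
    apply Sigma.hom_ext
    intro x
    simp only [attL, attR, Sigma.ι_desc_assoc, Category.assoc, Sigma.ι_desc]
    exact (h x).symm)

theorem attInl_desc (S : Shape) {X : Mod C} (t : T.obj S ⟶ X)
    (γ : (Shape.globe m ⟶ S) → (G' ⟶ X)) (h : ∀ x, g ≫ γ x = a ≫ T.map x ≫ t) :
    attInl T m g a S ≫ attDesc T m g a S t γ h = t :=
  pushout.inl_desc _ _ _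

theorem attIn_desc (S : Shape) {X : Mod C} (t : T.obj S ⟶ X)
    (γ : (Shape.globe m ⟶ S) → (G' ⟶ X)) (h : ∀ x, g ≫ γ x = a ≫ T.map x ≫ t)
    (x : Shape.globe m ⟶ S) :
    attIn T m g a S x ≫ attDesc T m g a S t γ h = γ x :=
  (Category.assoc _ _ _).trans
    ((congrArg (fun t => Sigma.ι (fun _ : (Shape.globe m ⟶ S) => G') x ≫ t)
      (pushout.inr_desc _ _ _)).trans (Sigma.ι_desc _ _))

noncomputable def attMap {S S' : Shape} (f : S ⟶ S') : attO T m g a S ⟶ attO T m g a S' :=
  attDesc T m g a S (T.map f ≫ attInl T m g a S') (fun x => attIn T m g a S' (x ≫ f))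
    (fun x => by rw [att_w, T.map_comp, Category.assoc])

theorem attInl_map {S S' : Shape} (f : S ⟶ S') :
    attInl T m g a S ≫ attMap T m g a f = T.map f ≫ attInl T m g a S' :=
  attInl_desc _ _ _ _ _ _ _ _

theorem attIn_map {S S' : Shape} (f : S ⟶ S') (x : Shape.globe m ⟶ S) :
    attIn T m g a S x ≫ attMap T m g a f = attIn T m g a S' (x ≫ f) :=
  attIn_desc _ _ _ _ _ _ _ _ _

noncomputable def attFun : Shape ⥤ Mod C where
  obj S := attO T m g a S
  map f := attMap T m g a f
  map_id S := by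
    apply att_hom_ext
    · rw [attInl_map, T.map_id, Category.id_comp, Category.comp_id]
    · intro x
      rw [attIn_map, Category.comp_id, Category.comp_id]
  map_comp f f' := by
    apply att_hom_ext
    · rw [attInl_map, T.map_comp, ← Category.assoc, attInl_map, Category.assoc, Category.assoc,
        attInl_map]
    · intro x
      rw [attIn_map, ← Category.assoc (attIn T m g a _ x), attIn_map, attIn_map, Category.assoc]

noncomputable def attach : Attach T m g a where
  T' := attFun T m g a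
  inl := { app := fun S => attInl T m g a S
           naturality := fun _ _ f => (attInl_map T m g a f).symm }
  cell := attIn T m g a (Shape.globe m) (𝟙 _)
  w := by
    refine (att_w T m g a (Shape.globe m) (𝟙 _)).trans ?_
    exact (congrArg (fun t => a ≫ t ≫ attInl T m g a (Shape.globe m)) (T.map_id _)).trans
      (congrArg (fun t => a ≫ t) (Category.id_comp _))
  univ := by
    intro S X t γ h
    have key : ∀ (x : Shape.globe m ⟶ S) (f : attO T m g a S ⟶ X),
        attIn T m g a (Shape.globe m) (𝟙 _) ≫ attMap T m g a x ≫ f = attIn T m g a S x ≫ f := by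
      intro x f
      rw [← Category.assoc, attIn_map, Category.id_comp]
    refine ⟨attDesc T m g a S t γ h, ⟨attInl_desc _ _ _ _ _ _ _ _, fun x => ?_⟩, ?_⟩
    · exact (key x _).trans (attIn_desc _ _ _ _ _ _ _ _ _)
    · rintro f ⟨hf1, hf2⟩
      apply att_hom_ext
      · exact hf1.trans (attInl_desc _ _ _ _ _ _ _ _).symm
      · intro x
        exact (key x f).symm.trans ((hf2 x).trans (attIn_desc _ _ _ _ _ _ _ _ _).symm)

end Attach

theorem exists_attach_of (hcol : HasColimitsOfSize.{u, u} (Mod C))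
    (T : Shape ⥤ Mod C) (m : ℕ) {G G' : Mod C} (g : G ⟶ G')
    (a : G ⟶ T.obj (Shape.globe m)) : Nonempty (Attach T m g a) := by
  have : HasColimitsOfSize.{0, 0} (Mod C) := hasColimitsOfSizeShrink.{0, 0, u, u} (Mod C)
  exact ⟨attach T m g a⟩

theorem Attach.w' {T : Shape ⥤ Mod C} {m : ℕ} {G G' : Mod C} {g : G ⟶ G'}
    {a : G ⟶ T.obj (Shape.globe m)} (A : Attach T m g a) {S : Shape} 
    (x : Shape.globe m ⟶ S) : g ≫ A.cell ≫ A.T'.map x = a ≫ T.map x ≫ A.inl.app S := by
  rw [← Category.assoc g, A.w, Category.assoc, ← A.inl.naturality]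

theorem Attach.hom_ext {T : Shape ⥤ Mod C} {m : ℕ} {G G' : Mod C} {g : G ⟶ G'}
    {a : G ⟶ T.obj (Shape.globe m)} (A : Attach T m g a) {S : Shape} {X : Mod C}
    (f f' : A.T'.obj S ⟶ X) (h1 : A.inl.app S ≫ f = A.inl.app S ≫ f')
    (h2 : ∀ x, A.cell ≫ A.T'.map x ≫ f = A.cell ≫ A.T'.map x ≫ f') : f = f' := by
  have hw : ∀ x : Shape.globe m ⟶ S,
      g ≫ A.cell ≫ A.T'.map x ≫ f = a ≫ T.map x ≫ A.inl.app S ≫ f := by
    intro x
    have := congrArg (fun t => t ≫ f) (A.w' x)
    simpa only [Category.assoc] using this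
  obtain ⟨q, _, hq⟩ := A.univ S X (A.inl.app S ≫ f) (fun x => A.cell ≫ A.T'.map x ≫ f) hw
  rw [hq f ⟨rfl, fun _ => rfl⟩, hq f' ⟨h1.symm, fun x => (h2 x).symm⟩]

theorem glue_comm (S : Shape) (b h : ℕ) (hb : b < S.last) (hh : b < h) :
    S.hinge hb ≫ S.inLeft b h hb hh = Shape.faceMap hh false ≫ S.inRight b h hb hh :=
  pushout.condition (f := GlobPsh.globeRepFace hb true ≫ S.apex)
    (g := GlobPsh.globeRepFace hh false)

theorem isPushout_of_exists {𝒞 : Type*} [Category 𝒞] {Z X Y P : 𝒞} {f : Z ⟶ X} {g : Z ⟶ Y}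
    {inl : X ⟶ P} {inr : Y ⟶ P} (w : f ≫ inl = g ≫ inr)
    (hex : ∀ {W : 𝒞} (h : X ⟶ W) (k : Y ⟶ W), f ≫ h = g ≫ k →
      ∃ l : P ⟶ W, inl ≫ l = h ∧ inr ≫ l = k)
    (hext : ∀ {W : 𝒞} (l l' : P ⟶ W), inl ≫ l = inl ≫ l' → inr ≫ l = inr ≫ l' → l = l') :
    IsPushout f g inl inr :=
  ⟨⟨w⟩, ⟨PushoutCocone.IsColimit.mk w
    (fun s => (hex s.inl s.inr s.condition).choose)
    (fun s => (hex s.inl s.inr s.condition).choose_spec.1)
    (fun s => (hex s.inl s.inr s.condition).choose_spec.2)
    (fun s _ h1 h2 => hext _ _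
      (h1.trans (hex s.inl s.inr s.condition).choose_spec.1.symm)
      (h2.trans (hex s.inl s.inr s.condition).choose_spec.2.symm))⟩⟩

/-- gluing families of maps indexed by cells of a glued shape -/
theorem exists_glue_family
    (cells_isPushout : ∀ (m : ℕ) (S : Shape) (b h : ℕ) (hb : b < S.last) (hh : b < h),
    IsPushout ((coyoneda.obj (op (Shape.globe m)) ⋙ uliftFunctor.{u}).map (S.hinge hb))
      ((coyoneda.obj (op (Shape.globe m)) ⋙ uliftFunctor.{u}).map (Shape.faceMap hh false))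
      ((coyoneda.obj (op (Shape.globe m)) ⋙ uliftFunctor.{u}).map (S.inLeft b h hb hh))
      ((coyoneda.obj (op (Shape.globe m)) ⋙ uliftFunctor.{u}).map (S.inRight b h hb hh)))
    (m : ℕ) (S : Shape) (b h : ℕ) (hb : b < S.last) (hh : b < h) {X : Type u}
    (α : (Shape.globe m ⟶ S) → X) (β : (Shape.globe m ⟶ Shape.globe h) → X)
    (hαβ : ∀ x : Shape.globe m ⟶ Shape.globe b, α (x ≫ S.hinge hb) = β (x ≫ Shape.faceMap hh false)) :
    ∃ γ : (Shape.globe m ⟶ S.glue b h hb hh) → X,
      (∀ x, γ (x ≫ S.inLeft b h hb hh) = α x) ∧ (∀ x, γ (x ≫ S.inRight b h hb hh) = β x) := by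
  have hQ := cells_isPushout m S b h hb hh
  let α' : (coyoneda.obj (op (Shape.globe m)) ⋙ uliftFunctor.{u}).obj S ⟶ X :=
    TypeCat.ofHom (fun x => α x.down)
  let β' : (coyoneda.obj (op (Shape.globe m)) ⋙ uliftFunctor.{u}).obj (Shape.globe h) ⟶ X :=
    TypeCat.ofHom (fun x => β x.down)
  have hc : (coyoneda.obj (op (Shape.globe m)) ⋙ uliftFunctor.{u}).map (S.hinge hb) ≫ α' =
      (coyoneda.obj (op (Shape.globe m)) ⋙ uliftFunctor.{u}).map (Shape.faceMap hh false) ≫ β' := by
    ext x
    exact hαβ x.down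
  refine ⟨fun x => hQ.desc α' β' hc (ULift.up x), fun x => ?_, fun x => ?_⟩
  · exact types_congr_hom (hQ.inl_desc α' β' hc) (ULift.up x)
  · exact types_congr_hom (hQ.inr_desc α' β' hc) (ULift.up x)

theorem cells_jointly_surj
    (cells_isPushout : ∀ (m : ℕ) (S : Shape) (b h : ℕ) (hb : b < S.last) (hh : b < h),
    IsPushout ((coyoneda.obj (op (Shape.globe m)) ⋙ uliftFunctor.{u}).map (S.hinge hb))
      ((coyoneda.obj (op (Shape.globe m)) ⋙ uliftFunctor.{u}).map (Shape.faceMap hh false))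
      ((coyoneda.obj (op (Shape.globe m)) ⋙ uliftFunctor.{u}).map (S.inLeft b h hb hh))
      ((coyoneda.obj (op (Shape.globe m)) ⋙ uliftFunctor.{u}).map (S.inRight b h hb hh)))
    (m : ℕ) (S : Shape) (b h : ℕ) (hb : b < S.last) (hh : b < h)
    (y : Shape.globe m ⟶ S.glue b h hb hh) :
    (∃ x, y = x ≫ S.inLeft b h hb hh) ∨ (∃ x, y = x ≫ S.inRight b h hb hh) := by
  have hQ := cells_isPushout m S b h hb hh
  let F := (coyoneda.obj (op (Shape.globe m)) ⋙ uliftFunctor.{u})
  let p : F.obj (S.glue b h hb hh) ⟶ (ULift.{u} Prop) := TypeCat.ofHom (fun y => ULift.up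
    ((∃ x, y.down = x ≫ S.inLeft b h hb hh) ∨ (∃ x, y.down = x ≫ S.inRight b h hb hh)))
  let q : F.obj (S.glue b h hb hh) ⟶ (ULift.{u} Prop) := TypeCat.ofHom (fun _ => ULift.up True)
  have hpq : p = q := by
    apply hQ.hom_ext
    · ext x
      exact ⟨fun _ => trivial, fun _ => Or.inl ⟨x.down, rfl⟩⟩
    · ext x
      exact ⟨fun _ => trivial, fun _ => Or.inr ⟨x.down, rfl⟩⟩
  have h1 := congrArg ULift.down (types_congr_hom hpq (ULift.up y))
  exact of_eq_true h1

theorem Attach.sq_of 
    (cells_isPushout : ∀ (m : ℕ) (S : Shape) (b h : ℕ) (hb : b < S.last) (hh : b < h),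
    IsPushout ((coyoneda.obj (op (Shape.globe m)) ⋙ uliftFunctor.{u}).map (S.hinge hb))
      ((coyoneda.obj (op (Shape.globe m)) ⋙ uliftFunctor.{u}).map (Shape.faceMap hh false))
      ((coyoneda.obj (op (Shape.globe m)) ⋙ uliftFunctor.{u}).map (S.inLeft b h hb hh))
      ((coyoneda.obj (op (Shape.globe m)) ⋙ uliftFunctor.{u}).map (S.inRight b h hb hh)))
    {T : Shape ⥤ Mod C} {m : ℕ} {G G' : Mod C} {g : G ⟶ G'}
    {a : G ⟶ T.obj (Shape.globe m)} (A : Attach T m g a) (hT : Sq T) : Sq A.T' := by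
  intro S b h hb hh
  have hw := glue_comm S b h hb hh
  have hP := hT S b h hb hh
  refine isPushout_of_exists (by rw [← A.T'.map_comp, ← A.T'.map_comp, hw]) ?_ ?_
  · intro W f k hfk
    have h1 : T.map (S.hinge hb) ≫ A.inl.app S ≫ f =
        T.map (Shape.faceMap hh false) ≫ A.inl.app (Shape.globe h) ≫ k := by
      rw [← Category.assoc, A.inl.naturality, Category.assoc, hfk, ← Category.assoc,
        ← A.inl.naturality, Category.assoc]
    obtain ⟨γ, hγ1, hγ2⟩ := exists_glue_family cells_isPushout m S b h hb hh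
      (X := (G' ⟶ W)) (fun x => A.cell ≫ A.T'.map x ≫ f) (fun x => A.cell ≫ A.T'.map x ≫ k)
      (by
        intro x
        show A.cell ≫ A.T'.map (x ≫ S.hinge hb) ≫ f =
          A.cell ≫ A.T'.map (x ≫ Shape.faceMap hh false) ≫ k
        rw [A.T'.map_comp, A.T'.map_comp, Category.assoc, Category.assoc, hfk])
    have hcomp : ∀ x, g ≫ γ x = a ≫ T.map x ≫ hP.desc _ _ h1 := by
      intro y
      rcases cells_jointly_surj cells_isPushout m S b h hb hh y with ⟨x, rfl⟩ | ⟨x, rfl⟩
      · rw [hγ1, T.map_comp, Category.assoc, hP.inl_desc]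
        have := congrArg (fun t => t ≫ f) (A.w' x)
        simpa only [Category.assoc] using this
      · rw [hγ2, T.map_comp, Category.assoc, hP.inr_desc]
        have := congrArg (fun t => t ≫ k) (A.w' x)
        simpa only [Category.assoc] using this
    obtain ⟨l, ⟨hl1, hl2⟩, _⟩ := A.univ (S.glue b h hb hh) W (hP.desc _ _ h1) γ hcomp
    refine ⟨l, ?_, ?_⟩
    · apply A.hom_ext
      · rw [← Category.assoc, ← A.inl.naturality, Category.assoc, hl1, hP.inl_desc]
      · intro x
        rw [← Category.assoc (A.T'.map x), ← A.T'.map_comp, hl2, hγ1]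
    · apply A.hom_ext
      · rw [← Category.assoc, ← A.inl.naturality, Category.assoc, hl1, hP.inr_desc]
      · intro x
        rw [← Category.assoc (A.T'.map x), ← A.T'.map_comp, hl2, hγ2]
  · intro W l l' h1 h2
    apply A.hom_ext
    · apply hP.hom_ext
      · have := congrArg (fun t => A.inl.app S ≫ t) h1
        simp only [← Category.assoc, ← A.inl.naturality] at this
        simpa only [Category.assoc] using this
      · have := congrArg (fun t => A.inl.app (Shape.globe h) ≫ t) h2
        simp only [← Category.assoc, ← A.inl.naturality] at this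
        simpa only [Category.assoc] using this
    · intro y
      rcases cells_jointly_surj cells_isPushout m S b h hb hh y with ⟨x, rfl⟩ | ⟨x, rfl⟩
      · rw [A.T'.map_comp, Category.assoc, Category.assoc, h1]
      · rw [A.T'.map_comp, Category.assoc, Category.assoc, h2]

end Crest.Agent.S0382
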