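import Crest.Agent.S0382_Core5
import Crest.Agent.S0382_TaskA
import Crest.Agent.S0382_TaskD
import Crest.Agent.S0382_TaskE

set_option autoImplicit false

namespace Crest.Agent.S0382

open CategoryTheory CategoryTheory.Limits Opposite Crest.GeometryTopology.Coherator

universe u

variable {C : GlobTheory.{u}}

instance instHasColimits (C : GlobTheory.{u}) : HasColimitsOfSize.{u, u} (Mod C) := hasColimits C
instance instHasLimits (C : GlobTheory.{u}) : HasLimitsOfSize.{u, u} (Mod C) := hasLimits C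
instance instHasColimits0 (C : GlobTheory.{u}) : HasColimitsOfSize.{0, 0} (Mod C) :=
  hasColimitsOfSizeShrink.{0, 0, u, u} (Mod C)
instance instHasLimits0 (C : GlobTheory.{u}) : HasLimitsOfSize.{0, 0} (Mod C) :=
  hasLimitsOfSizeShrink.{0, 0, u, u} (Mod C)

/-! ### more on attaching -/

theorem Attach.exists_top {T : Shape ⥤ Mod C} {m : ℕ} {G G' : Mod C} {g : G ⟶ G'}
    {a : G ⟶ T.obj (Shape.globe m)} (A : Attach T m g a) {X : Mod C}
    (θ : T.obj (Shape.globe m) ⟶ X) (γ : G' ⟶ X) (h : g ≫ γ = a ≫ θ) :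
    ∃ f : A.T'.obj (Shape.globe m) ⟶ X, A.inl.app _ ≫ f = θ ∧ A.cell ≫ f = γ := by
  obtain ⟨f, ⟨h1, h2⟩, _⟩ := A.univ _ X θ (fun _ => γ) (fun x => by
    obtain rfl : x = 𝟙 _ := globe_endo x
    rw [T.map_id, Category.id_comp, h])
  refine ⟨f, h1, ?_⟩
  have := h2 (𝟙 _)
  rwa [A.T'.map_id, Category.id_comp] at this

theorem Attach.top_ext {T : Shape ⥤ Mod C} {m : ℕ} {G G' : Mod C} {g : G ⟶ G'}
    {a : G ⟶ T.obj (Shape.globe m)} (A : Attach T m g a) {X : Mod C}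
    {f f' : A.T'.obj (Shape.globe m) ⟶ X} (h1 : A.inl.app _ ≫ f = A.inl.app _ ≫ f')
    (h2 : A.cell ≫ f = A.cell ≫ f') : f = f' := by
  apply A.ext' h1
  intro x
  obtain rfl : x = 𝟙 _ := globe_endo x
  rw [A.T'.map_id, Category.id_comp, Category.id_comp, h2]

/-! ### stages -/

/-- A stage of the construction of the cylinder. -/
structure Stg (C : GlobTheory.{u}) (n : ℕ) (j : ℕ∞) (m : ℕ) where
  /-- the functor -/
  T : Shape ⥤ Mod C
  /-- end zero -/
  ι : Fr C ⟶ T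
  /-- the cell of end one -/
  z : D C m ⟶ T.obj (Shape.globe m)
  sq : Sq T
  par : Par (z ≫ T.map (Shape.σ m)) (z ≫ T.map (Shape.τ m))
  lt : ∀ i, m ≤ i → Lt T ι i
  gd : (m : ℕ∞) ≤ j → ∀ i : ℕ, n ≤ i → (i : ℕ∞) ≤ j → ∀ S : Shape, S.dim ≤ i + 1 →
    Gd i (T.obj S)

/-- The relation between a stage and the next one. -/
structure Lnk {n : ℕ} {j : ℕ∞} {m : ℕ} (s : Stg C n j m) (s' : Stg C n j (m + 1)) where
  /-- inclusion of the previous stage -/
  inl : s.T ⟶ s'.T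
  hι : s.ι ≫ inl = s'.ι
  bs : ds C m ≫ s'.z = s.z ≫ s.T.map (Shape.σ m) ≫ inl.app _
  bt : dt C m ≫ s'.z = s.z ≫ s.T.map (Shape.τ m) ≫ inl.app _
  iso : ∀ S : Shape, S.dim ≤ m → IsIso (inl.app S)
  ext : ∀ (X : Mod C) (θ : s.T.obj (Shape.globe (m + 1)) ⟶ X) (z : D C (m + 1) ⟶ X),
    (((m + 1 : ℕ) : ℕ∞) ≤ j → L (m + 1) X) →
    ds C m ≫ z = s.z ≫ s.T.map (Shape.σ m) ≫ θ → dt C m ≫ z = s.z ≫ s.T.map (Shape.τ m) ≫ θ →
    ∃ γ : s'.T.obj (Shape.globe (m + 1)) ⟶ X, inl.app _ ≫ γ = θ ∧ s'.z ≫ γ = z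
  lift0 : ((m + 1 : ℕ) : ℕ∞) ≤ j → ∀ (X : Mod C) (θ : s.T.obj (Shape.globe (m + 1)) ⟶ X),
    ∃ γ : s'.T.obj (Shape.globe (m + 1)) ⟶ X, inl.app _ ≫ γ = θ
  p4 : ((m + 1 : ℕ) : ℕ∞) ≤ j → ∀ (X : Mod C) (α β : s'.T.obj (Shape.globe (m + 1)) ⟶ X),
    s.T.map (Shape.σ m) ≫ inl.app _ ≫ α = s.T.map (Shape.σ m) ≫ inl.app _ ≫ β →
    s.T.map (Shape.τ m) ≫ inl.app _ ≫ α = s.T.map (Shape.τ m) ≫ inl.app _ ≫ β →
    Step (s'.ι.app _ ≫ α) (s'.ι.app _ ≫ β) → Step (s'.z ≫ α) (s'.z ≫ β)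

theorem par_next {T : Shape ⥤ Mod C} {m : ℕ} {z : D C m ⟶ T.obj (Shape.globe m)}
    {z' : D C (m + 1) ⟶ T.obj (Shape.globe (m + 1))}
    (hs : ds C m ≫ z' = z ≫ T.map (Shape.σ m)) (ht : dt C m ≫ z' = z ≫ T.map (Shape.τ m)) :
    Par (z' ≫ T.map (Shape.σ (m + 1))) (z' ≫ T.map (Shape.τ (m + 1))) := by
  refine ⟨?_, ?_⟩
  · rw [← Category.assoc, hs, Category.assoc, ← T.map_comp, σσ, T.map_comp, ← Category.assoc,
      ← hs, Category.assoc]
  · rw [← Category.assoc, ht, Category.assoc, ← T.map_comp, τσ, T.map_comp, ← Category.assoc,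
      ← ht, Category.assoc]

/-- Stages of type II. -/
theorem exists_next_II (hax : CohAx C) (hsq : Sq (Fr C)) {n : ℕ} {j : ℕ∞}
    (hP : ∀ i : ℕ, n ≤ i → (i : ℕ∞) ≤ j → ∀ m, n < m → Pres C i m) {m : ℕ} (hnm : n ≤ m)
    (hj : ((m + 1 : ℕ) : ℕ∞) ≤ j) (s : Stg C n j m) :
    ∃ s' : Stg C n j (m + 1), Nonempty (Lnk s s') := by
  have hmj : (m : ℕ∞) ≤ j := le_trans (by exact_mod_cast Nat.le_succ m) hj
  obtain ⟨c, hc1, hc2⟩ := (s.gd hmj m hnm hmj (Shape.globe (m + 1)) le_rfl).2 m le_rfl _ _ s.par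
  obtain ⟨A⟩ := exists_attach_of (hasColimits C) s.T (m + 1) (ds C (m + 1)) c
  have hbs : ds C m ≫ dt C (m + 1) ≫ A.cell = s.z ≫ s.T.map (Shape.σ m) ≫ A.inl.app _ := by
    rw [← ds_ds_assoc, A.w, ← Category.assoc, hc1, Category.assoc]
  have hbt : dt C m ≫ dt C (m + 1) ≫ A.cell = s.z ≫ s.T.map (Shape.τ m) ≫ A.inl.app _ := by
    rw [← dt_ds_assoc, A.w, ← Category.assoc, hc2, Category.assoc]
  let s' : Stg C n j (m + 1) :=
    { T := A.T'
      ι := s.ι ≫ A.inl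
      z := dt C (m + 1) ≫ A.cell
      sq := A.sq_of cells_isPushout s.sq
      par := by
        apply par_next (z := s.z ≫ A.inl.app _)
        · rw [hbs, Category.assoc, ← A.inl.naturality]
        · rw [hbt, Category.assoc, ← A.inl.naturality]
      lt := fun i hi => A.Lt hi (s.lt i ((Nat.le_succ m).trans hi))
      gd := fun _ i hi hij S hS => hP i hi hij (m + 1) (Nat.lt_succ_of_le hnm) _ (A.anod S)
        (s.gd hmj i hi hij S hS) }
  refine ⟨s', ⟨?_⟩⟩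
  refine
    { inl := A.inl
      hι := rfl
      bs := hbs
      bt := hbt
      iso := fun S hS => A.isIso S (isEmpty_cells _ _ (Nat.lt_succ_of_le hS))
      ext := ?_
      lift0 := ?_
      p4 := ?_ }
  · intro X θ z hL h1 h2
    obtain ⟨w, hw1, hw2⟩ := hL hj (c ≫ θ) z ⟨by rw [h1, ← Category.assoc, hc1, Category.assoc],
      by rw [h2, ← Category.assoc, hc2, Category.assoc]⟩
    obtain ⟨f, hf1, hf2⟩ := A.exists_top θ w hw1
    refine ⟨f, hf1, ?_⟩
    show (dt C (m + 1) ≫ A.cell) ≫ f = z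
    rw [Category.assoc, hf2, hw2]
  · intro _ X θ
    obtain ⟨v, hv1, hv2⟩ := exists_unit hax (m + 1)
    obtain ⟨f, hf1, _⟩ := A.exists_top θ (v ≫ c ≫ θ) (by
      rw [← Category.assoc, hv1, Category.id_comp])
    exact ⟨f, hf1⟩
  · intro _ X α β hσ hτ hst
    have hst' : Step (s.ι.app _ ≫ A.inl.app _ ≫ α) (s.ι.app _ ≫ A.inl.app _ ≫ β) := by
      have e : ∀ f : A.T'.obj (Shape.globe (m + 1)) ⟶ X, s'.ι.app _ ≫ f =
          s.ι.app _ ≫ A.inl.app _ ≫ f := fun f => Category.assoc _ _ _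
      rw [e, e] at hst
      exact hst
    obtain ⟨h, hh1, hh2⟩ := hst'
    -- the auxiliary object
    let Λ : Mod C := pushout (s.ι.app (Shape.globe (m + 1))) (ds C (m + 1))
    let i1 : s.T.obj (Shape.globe (m + 1)) ⟶ Λ := pushout.inl _ _
    let i2 : D C (m + 2) ⟶ Λ := pushout.inr _ _
    have hΛ : IsPushout (s.ι.app (Shape.globe (m + 1))) (ds C (m + 1)) i1 i2 :=
      IsPushout.of_hasPushout _ _
    have gΛ : Gd (m + 1) Λ := by
      refine hP (m + 1) (hnm.trans (Nat.le_succ m)) hj (m + 1) (Nat.lt_succ_of_le hnm) i1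
        ((anod_ds (m + 1)).of_isPushout hΛ) ?_
      exact s.gd hmj (m + 1) (hnm.trans (Nat.le_succ m)) hj _ (Nat.le_succ _)
    obtain ⟨θ, ⟨t1, t2, t3⟩, _⟩ := s.lt m le_rfl Λ (s.T.map (Shape.σ m) ≫ i1)
      (s.T.map (Shape.τ m) ≫ i1) (parA_src_tgt i1) (dt C (m + 1) ≫ i2)
      (by rw [← ds_ds_assoc, ← hΛ.w, ← Category.assoc, s.ι.naturality, Category.assoc])
      (by rw [← dt_ds_assoc, ← hΛ.w, ← Category.assoc, s.ι.naturality, Category.assoc])
    have st : Step (c ≫ i1) (c ≫ θ) := by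
      refine gΛ.2 (m + 1) le_rfl _ _ ⟨?_, ?_⟩
      · rw [← Category.assoc, hc1, ← Category.assoc, hc1, Category.assoc, Category.assoc, t1]
      · rw [← Category.assoc, hc2, ← Category.assoc, hc2, Category.assoc, Category.assoc, t2]
    let f : Λ ⟶ X := hΛ.desc (A.inl.app _ ≫ α) h hh1.symm
    have f1 : i1 ≫ f = A.inl.app _ ≫ α := hΛ.inl_desc _ _ _
    have f2 : i2 ≫ f = h := hΛ.inr_desc _ _ _
    have f3 : θ ≫ f = A.inl.app _ ≫ β := by
      obtain ⟨_, _, hu⟩ := s.lt m le_rfl X (s.T.map (Shape.σ m) ≫ A.inl.app _ ≫ β)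
        (s.T.map (Shape.τ m) ≫ A.inl.app _ ≫ β) (parA_src_tgt _) (s.ι.app _ ≫ A.inl.app _ ≫ β)
        (by rw [← Category.assoc, s.ι.naturality, Category.assoc])
        (by rw [← Category.assoc, s.ι.naturality, Category.assoc])
      refine (hu (θ ≫ f) ⟨?_, ?_, ?_⟩).trans (hu _ ⟨rfl, rfl, rfl⟩).symm
      · rw [← Category.assoc, t1, Category.assoc, f1, hσ]
      · rw [← Category.assoc, t2, Category.assoc, f1, hτ]
      · rw [← Category.assoc, t3, Category.assoc, f2, hh2]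
    have st' := st.comp f
    rw [Category.assoc, f1, Category.assoc, f3] at st'
    have e : ∀ f : A.T'.obj (Shape.globe (m + 1)) ⟶ X,
        Step (c ≫ A.inl.app _ ≫ f) (s'.z ≫ f) := fun f => ⟨A.cell ≫ f, by
          rw [← Category.assoc, A.w, Category.assoc], by rw [← Category.assoc]⟩
    exact ((e α).symm hax).trans hax hsq (st'.trans hax hsq (e β))

/-- Stages of type III. -/
theorem exists_next_III {n : ℕ} {j : ℕ∞} {m : ℕ} (hj : ¬ ((m + 1 : ℕ) : ℕ∞) ≤ j)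
    (s : Stg C n j m) :
    ∃ s' : Stg C n j (m + 1), Nonempty (Lnk s s') := by
  obtain ⟨A⟩ := exists_attach_of (hasColimits C) s.T (m + 1) (coprod.desc (ds C m) (dt C m))
    (coprod.desc (s.z ≫ s.T.map (Shape.σ m)) (s.z ≫ s.T.map (Shape.τ m)))
  have hbs : ds C m ≫ A.cell = s.z ≫ s.T.map (Shape.σ m) ≫ A.inl.app _ := by
    have := coprod.inl ≫= A.w
    rwa [← Category.assoc, coprod.inl_desc, ← Category.assoc, coprod.inl_desc,
      Category.assoc] at this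
  have hbt : dt C m ≫ A.cell = s.z ≫ s.T.map (Shape.τ m) ≫ A.inl.app _ := by
    have := coprod.inr ≫= A.w
    rwa [← Category.assoc, coprod.inr_desc, ← Category.assoc, coprod.inr_desc,
      Category.assoc] at this
  let s' : Stg C n j (m + 1) :=
    { T := A.T'
      ι := s.ι ≫ A.inl
      z := A.cell
      sq := A.sq_of cells_isPushout s.sq
      par := by
        apply par_next (z := s.z ≫ A.inl.app _)
        · rw [hbs, Category.assoc, ← A.inl.naturality]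
        · rw [hbt, Category.assoc, ← A.inl.naturality]
      lt := fun i hi => A.Lt hi (s.lt i ((Nat.le_succ m).trans hi))
      gd := fun h => absurd h hj }
  refine ⟨s', ⟨?_⟩⟩
  refine
    { inl := A.inl
      hι := rfl
      bs := hbs
      bt := hbt
      iso := fun S hS => A.isIso S (isEmpty_cells _ _ (Nat.lt_succ_of_le hS))
      ext := ?_
      lift0 := fun h => absurd h hj
      p4 := fun h => absurd h hj }
  intro X θ z _ h1 h2
  exact A.exists_top θ z (by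
    apply coprod.hom_ext
    · rw [← Category.assoc, coprod.inl_desc, ← Category.assoc, coprod.inl_desc, h1,
        Category.assoc]
    · rw [← Category.assoc, coprod.inr_desc, ← Category.assoc, coprod.inr_desc, h2,
        Category.assoc])

theorem exists_next (hax : CohAx C) (hsq : Sq (Fr C)) {n : ℕ} {j : ℕ∞}
    (hP : ∀ i : ℕ, n ≤ i → (i : ℕ∞) ≤ j → ∀ m, n < m → Pres C i m) {m : ℕ} (hnm : n ≤ m)
    (s : Stg C n j m) : ∃ s' : Stg C n j (m + 1), Nonempty (Lnk s s') := by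
  by_cases hj : ((m + 1 : ℕ) : ℕ∞) ≤ j
  · exact exists_next_II hax hsq hP hnm hj s
  · exact exists_next_III hj s

end Crest.Agent.S0382
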