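import Crest.Agent.S0382_Core6

set_option autoImplicit false

namespace Crest.Agent.S0382

open CategoryTheory CategoryTheory.Limits Opposite Crest.GeometryTopology.Coherator

universe u

variable {C : GlobTheory.{u}}

/-- Properties of the base stage. -/
structure BaseStg (n : ℕ) (j : ℕ∞) (s : Stg C n j n) : Prop where
  iso : ∀ S : Shape, S.dim < n → IsIso (s.ι.app S)
  pz : Par s.z (s.ι.app (Shape.globe n))
  top : (n : ℕ∞) ≤ j → ∃ cl : D C (n + 1) ⟶ s.T.obj (Shape.globe n), IsIso cl ∧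
    ds C n ≫ cl = s.ι.app _ ∧ dt C n ≫ cl = s.z
  ext : ¬ (n : ℕ∞) ≤ j → ∀ (X : Mod C) (z' z : D C n ⟶ X), Par z' z →
    ∃ α : s.T.obj (Shape.globe n) ⟶ X, s.ι.app _ ≫ α = z' ∧ s.z ≫ α = z

theorem exists_base_II {n : ℕ} {j : ℕ∞} (hj : (n : ℕ∞) ≤ j)
    (hW : ∀ (A : Attach (Fr C) n (ds C n) (𝟙 (D C n))) (i : ℕ), n ≤ i → (i : ℕ∞) ≤ j →
      ∀ S : Shape, S.dim ≤ i + 1 → Gd i (A.T'.obj S)) :
    ∃ s : Stg C n j n, BaseStg n j s := by
  obtain ⟨A⟩ := exists_attach_of (hasColimits C) (Fr C) n (ds C n) (𝟙 (D C n))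
  have hw : ds C n ≫ A.cell = A.inl.app _ := by
    rw [A.w]; exact Category.id_comp _
  have hpz : Par (dt C n ≫ A.cell) (A.inl.app (Shape.globe n)) := by
    rw [← hw]; exact (par_src_tgt A.cell).symm
  let s : Stg C n j n :=
    { T := A.T'
      ι := A.inl
      z := dt C n ≫ A.cell
      sq := A.sq_of cells_isPushout (sq_Fr C)
      par := by
        cases n with
        | zero => trivial
        | succ n =>
          apply par_next (z := A.inl.app _)
          · rw [hpz.1, A.inl.naturality]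
          · rw [hpz.2, A.inl.naturality]
      lt := fun i hi => by
        have := A.Lt hi (Lt_Fr i)
        rwa [Category.id_comp] at this
      gd := fun _ i hi hij S hS => hW A i hi hij S hS }
  refine ⟨s, ?_⟩
  refine
    { iso := fun S hS => A.isIso S (isEmpty_cells _ _ hS)
      pz := hpz
      top := fun _ => ⟨A.cell, ?_, hw, rfl⟩
      ext := fun h => absurd hj h }
  obtain ⟨f, hf1, hf2⟩ := A.exists_top (ds C n) (𝟙 _) (by rw [Category.comp_id]; exact
    (Category.id_comp _).symm)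
  refine ⟨f, hf2, ?_⟩
  apply A.top_ext
  · rw [← Category.assoc, hf1, hw]
    exact (Category.comp_id _).symm
  · rw [← Category.assoc, hf2, Category.id_comp]
    exact (Category.comp_id _).symm

theorem exists_base_III {k : ℕ} {j : ℕ∞} (hj : ¬ ((k + 1 : ℕ) : ℕ∞) ≤ j) :
    ∃ s : Stg C (k + 1) j (k + 1), BaseStg (k + 1) j s := by
  obtain ⟨A⟩ := exists_attach_of (hasColimits C) (Fr C) (k + 1) (coprod.desc (ds C k) (dt C k))
    (coprod.desc (ds C k) (dt C k))
  have hbs : ds C k ≫ A.cell = ds C k ≫ A.inl.app _ := by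
    have := coprod.inl ≫= A.w
    rwa [← Category.assoc, coprod.inl_desc, ← Category.assoc, coprod.inl_desc] at this
  have hbt : dt C k ≫ A.cell = dt C k ≫ A.inl.app _ := by
    have := coprod.inr ≫= A.w
    rwa [← Category.assoc, coprod.inr_desc, ← Category.assoc, coprod.inr_desc] at this
  let s : Stg C (k + 1) j (k + 1) :=
    { T := A.T'
      ι := A.inl
      z := A.cell
      sq := A.sq_of cells_isPushout (sq_Fr C)
      par := by
        apply par_next (z := A.inl.app _)
        · rw [hbs, A.inl.naturality]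
        · rw [hbt, A.inl.naturality]
      lt := fun i hi => by
        have := A.Lt hi (Lt_Fr i)
        rwa [Category.id_comp] at this
      gd := fun h => absurd h hj }
  refine ⟨s, ?_⟩
  refine
    { iso := fun S hS => A.isIso S (isEmpty_cells _ _ hS)
      pz := ⟨hbs, hbt⟩
      top := fun h => absurd h hj
      ext := ?_ }
  intro _ X z' z hz
  exact A.exists_top z' z (by
    apply coprod.hom_ext
    · rw [← Category.assoc, coprod.inl_desc, ← Category.assoc, coprod.inl_desc, hz.1]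
    · rw [← Category.assoc, coprod.inr_desc, ← Category.assoc, coprod.inr_desc, hz.2])

theorem exists_base {n : ℕ} {j : ℕ∞} 
    (hW : ∀ (A : Attach (Fr C) n (ds C n) (𝟙 (D C n))) (i : ℕ), n ≤ i → (i : ℕ∞) ≤ j →
      ∀ S : Shape, S.dim ≤ i + 1 → Gd i (A.T'.obj S)) :
    ∃ s : Stg C n j n, BaseStg n j s := by
  by_cases hj : (n : ℕ∞) ≤ j
  · exact exists_base_II hj hW
  · cases n with
    | zero => exact absurd (by simp) hj
    | succ k => exact exists_base_III hj

/-! ### the tower -/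

/-- The tower of stages. -/
structure Twr (C : GlobTheory.{u}) (n : ℕ) (j : ℕ∞) where
  /-- stages -/
  s : ∀ k : ℕ, Stg C n j (n + k)
  /-- links -/
  l : ∀ k : ℕ, Lnk (s k) (s (k + 1))
  base : BaseStg n j (s 0)

theorem exists_twr (hax : CohAx C) (hsq : Sq (Fr C)) {n : ℕ} {j : ℕ∞}
    (hP : ∀ i : ℕ, n ≤ i → (i : ℕ∞) ≤ j → ∀ m, n < m → Pres C i m)
    (hW : ∀ (A : Attach (Fr C) n (ds C n) (𝟙 (D C n))) (i : ℕ), n ≤ i → (i : ℕ∞) ≤ j →
      ∀ S : Shape, S.dim ≤ i + 1 → Gd i (A.T'.obj S)) : Nonempty (Twr C n j) := by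
  obtain ⟨s0, hs0⟩ := exists_base hW
  have hnext : ∀ (k : ℕ) (s : Stg C n j (n + k)), ∃ s' : Stg C n j (n + (k + 1)),
      Nonempty (Lnk s s') := fun k s => exists_next hax hsq hP (Nat.le_add_right n k) s
  let s : ∀ k : ℕ, Stg C n j (n + k) := fun k => Nat.rec (motive := fun k => Stg C n j (n + k))
    s0 (fun k s => (hnext k s).choose) k
  exact ⟨⟨s, fun k => (hnext k (s k)).choose_spec.some, hs0⟩⟩

end Crest.Agent.S0382
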