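import Crest.Agent.S0382_Core7

set_option autoImplicit false

namespace Crest.Agent.S0382

open CategoryTheory CategoryTheory.Limits Opposite Crest.GeometryTopology.Coherator

universe u

variable {C : GlobTheory.{u}}

theorem L.of_iso {m : ℕ} {X Y : Mod C} (e : X ≅ Y) (h : L m X) : L m Y := by
  intro a b hab
  have := (h _ _ (hab.comp e.inv)).comp e.hom
  rwa [Category.assoc, Category.assoc, e.inv_hom_id, Category.comp_id, Category.comp_id] at this

theorem Cof.of_iso {X Y : Mod C} (e : X ≅ Y) (h : Cof X) : Cof Y := by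
  intro E B p hp f
  obtain ⟨g, hg⟩ := h p hp (e.hom ≫ f)
  exact ⟨e.inv ≫ g, by rw [Category.assoc, hg, e.inv_hom_id_assoc]⟩

theorem Gd.of_iso {m : ℕ} {X Y : Mod C} (e : X ≅ Y) (h : Gd m X) : Gd m Y :=
  ⟨h.1.of_iso e, fun i hi => (h.2 i hi).of_iso e⟩

/-- natural transformations out of `Fr C` -/
theorem exists_nt (T : Shape ⥤ Mod C) (zz : ∀ i, D C i ⟶ T.obj (Shape.globe i))
    (hs : ∀ i, ds C i ≫ zz (i + 1) = zz i ≫ T.map (Shape.σ i))
    (ht : ∀ i, dt C i ≫ zz (i + 1) = zz i ≫ T.map (Shape.τ i)) :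
    ∃ ι : Fr C ⟶ T, ∀ i, ι.app (Shape.globe i) = zz i := by
  have h : ∀ S : Shape, ∃ f : (Fr C).obj S ⟶ T.obj S, ∀ (k : ℕ) (x : Shape.globe k ⟶ S),
      (Fr C).map x ≫ f = zz k ≫ T.map x := fun S =>
    shape_desc (fun k x => zz k ≫ T.map x)
      (fun k x => by rw [← Category.assoc, hs, Category.assoc, ← T.map_comp])
      (fun k x => by rw [← Category.assoc, ht, Category.assoc, ← T.map_comp])
  choose f hf using h
  refine ⟨{ app := f, naturality := fun S S' g => ?_ }, fun i => ?_⟩
  · apply shape_hom_ext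
    intro k x
    rw [← Category.assoc, ← Functor.map_comp, hf, ← Category.assoc, hf, T.map_comp,
      Category.assoc]
  · have := hf (Shape.globe i) i (𝟙 _)
    rwa [(Fr C).map_id, T.map_id, Category.id_comp, Category.comp_id] at this

section

variable {n : ℕ} {j : ℕ∞} (t : Twr C n j)

theorem Twr.exists_colim : ∃ (A : Shape ⥤ Mod C) (κ : ∀ k, (t.s k).T ⟶ A),
    (∀ k, (t.l k).inl ≫ κ (k + 1) = κ k) ∧ (∀ k S, S.dim ≤ n + k → IsIso ((κ k).app S)) := by
  let F : ℕ ⥤ (Shape ⥤ Mod C) := Functor.ofSequence (fun k => (t.l k).inl)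
  have hF : ∀ k : ℕ, F.map (homOfLE (Nat.le_add_right k 1)) = (t.l k).inl :=
    fun k => Functor.ofSequence_map_homOfLE_succ _ k
  let c := colimit.cocone F
  refine ⟨c.pt, fun k => c.ι.app k, fun k => ?_, fun k S hS => ?_⟩
  · have := c.w (homOfLE (Nat.le_add_right k 1))
    rwa [hF] at this
  · have hG : (F ⋙ (evaluation Shape (Mod C)).obj S).IsEventuallyConstantFrom k := by
      intro k' f
      have hkk : k ≤ k' := leOfHom f
      obtain rfl : f = homOfLE hkk := Subsingleton.elim _ _
      induction k', hkk using Nat.le_induction with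
      | base =>
        have : homOfLE (le_refl k) = 𝟙 k := Subsingleton.elim _ _
        rw [this, CategoryTheory.Functor.map_id]
        infer_instance
      | succ k' hkk ih =>
        have e : homOfLE (hkk.trans (Nat.le_succ k')) =
          homOfLE hkk ≫ homOfLE (Nat.le_add_right k' 1) := Subsingleton.elim _ _
        have i1 := ih
        have i2 : IsIso ((F ⋙ (evaluation Shape (Mod C)).obj S).map
            (homOfLE (Nat.le_add_right k' 1))) := by
          show IsIso ((F.map (homOfLE (Nat.le_add_right k' 1))).app S)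
          rw [hF]
          exact (t.l k').iso S (by omega)
        rw [e, Functor.map_comp]
        infer_instance
    have hc : IsColimit (((evaluation Shape (Mod C)).obj S).mapCocone c) :=
      isColimitOfPreserves _ (colimit.isColimit F)
    exact hG.isIso_ι_of_isColimit hc

variable {A : Shape ⥤ Mod C} (κ : ∀ k, (t.s k).T ⟶ A)
  (hκ : ∀ k, (t.l k).inl ≫ κ (k + 1) = κ k)
  (hiso : ∀ k S, S.dim ≤ n + k → IsIso ((κ k).app S))

include hκ in
theorem Twr.ι_κ (k : ℕ) : (t.s k).ι ≫ κ k = (t.s 0).ι ≫ κ 0 := by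
  induction k with
  | zero => rfl
  | succ k ih => rw [← ih, ← (t.l k).hι, Category.assoc, hκ]

theorem Twr.exists_zz : ∃ zz : ∀ i, D C i ⟶ A.obj (Shape.globe i),
    (∀ i < n, zz i = ((t.s 0).ι ≫ κ 0).app (Shape.globe i)) ∧
    (∀ k, zz (n + k) = (t.s k).z ≫ (κ k).app _) := by
  have h : ∀ i, ∃ z : D C i ⟶ A.obj (Shape.globe i),
      (i < n → z = ((t.s 0).ι ≫ κ 0).app (Shape.globe i)) ∧
      (∀ k (h : n + k = i), z = h ▸ ((t.s k).z ≫ (κ k).app _)) := by
    intro i
    by_cases hi : i < n
    · exact ⟨_, fun _ => rfl, fun k h => by omega⟩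
    · obtain ⟨k, rfl⟩ := Nat.exists_eq_add_of_le (not_lt.mp hi)
      refine ⟨(t.s k).z ≫ (κ k).app _, fun h => absurd h hi, fun k' h => ?_⟩
      obtain rfl : k' = k := by omega
      rfl
  choose zz h1 h2 using h
  exact ⟨zz, h1, fun k => h2 (n + k) k rfl⟩

include hκ in
theorem Twr.exists_ι1 : ∃ ι1 : Fr C ⟶ A,
    (∀ i < n, ι1.app (Shape.globe i) = ((t.s 0).ι ≫ κ 0).app (Shape.globe i)) ∧
    (∀ k, ι1.app (Shape.globe (n + k)) = (t.s k).z ≫ (κ k).app _) := by
  obtain ⟨zz, h1, h2⟩ := t.exists_zz κ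
  have hb : ∀ i, ds C i ≫ zz (i + 1) = zz i ≫ A.map (Shape.σ i) ∧
      dt C i ≫ zz (i + 1) = zz i ≫ A.map (Shape.τ i) := by
    intro i
    rcases lt_trichotomy (i + 1) n with hi | hi | hi
    · rw [h1 _ hi, h1 i (by omega), ← NatTrans.naturality, ← NatTrans.naturality]
      exact ⟨rfl, rfl⟩
    · subst hi
      have e := h2 0
      have e' : zz (i + 1) = (t.s 0).z ≫ (κ 0).app _ := e
      have hp := t.base.pz
      rw [e', h1 i (Nat.lt_succ_self i), ← NatTrans.naturality, ← NatTrans.naturality,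
        ← Category.assoc, ← Category.assoc, hp.1, hp.2, Category.assoc, Category.assoc]
      exact ⟨rfl, rfl⟩
    · obtain ⟨k, rfl⟩ := Nat.exists_eq_add_of_le (Nat.lt_succ_iff.mp hi)
      have e' : zz (n + k + 1) = (t.s (k + 1)).z ≫ (κ (k + 1)).app _ := h2 (k + 1)
      have bs := (t.l k).bs
      have bt := (t.l k).bt
      rw [e', h2 k, Category.assoc, Category.assoc, ← NatTrans.naturality, ← NatTrans.naturality,
        ← hκ k, NatTrans.comp_app]
      constructor
      · have := bs =≫ (κ (k + 1)).app _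
        rwa [Category.assoc, Category.assoc, Category.assoc] at this
      · have := bt =≫ (κ (k + 1)).app _
        rwa [Category.assoc, Category.assoc, Category.assoc] at this
  obtain ⟨ι1, h⟩ := exists_nt A zz (fun i => (hb i).1) (fun i => (hb i).2)
  exact ⟨ι1, fun i hi => by rw [h, h1 i hi], fun k => by rw [h, h2 k]⟩

include hiso in
theorem Twr.sq : Sq A := by
  intro S b h hb hh
  have hd : (S.glue b h hb hh).dim = max S.dim h := rfl
  let N := (S.glue b h hb hh).dim
  have i1 : IsIso ((κ N).app (S.glue b h hb hh)) := hiso _ _ (Nat.le_add_left _ _)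
  have i2 : IsIso ((κ N).app S) := hiso _ _ (by rw [show N = max S.dim h from hd]; omega)
  have i3 : IsIso ((κ N).app (Shape.globe h)) := hiso _ _ (by
    rw [show N = max S.dim h from hd, show (Shape.globe h).dim = h from rfl]; omega)
  have i4 : IsIso ((κ N).app (Shape.globe b)) := hiso _ _ (by
    rw [show N = max S.dim h from hd, show (Shape.globe b).dim = b from rfl]; omega)
  exact ((t.s N).sq S b h hb hh).of_iso (asIso ((κ N).app (Shape.globe b)))
    (asIso ((κ N).app S)) (asIso ((κ N).app (Shape.globe h)))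
    (asIso ((κ N).app (S.glue b h hb hh))) ((κ N).naturality _) ((κ N).naturality _)
    ((κ N).naturality _) ((κ N).naturality _)

end

end Crest.Agent.S0382
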