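import Crest.Agent.S0382_Core8

set_option autoImplicit false

namespace Crest.Agent.S0382

open CategoryTheory CategoryTheory.Limits Opposite Crest.GeometryTopology.Coherator

universe u

variable {C : GlobTheory.{u}}

/-- The base stage has the extension property. -/
theorem BaseStg.ext' {n : ℕ} {j : ℕ∞} {s : Stg C n j n} (hs : BaseStg n j s) (X : Mod C)
    (z' z : D C n ⟶ X) (hz : Par z' z) (hL : (n : ℕ∞) ≤ j → L n X) :
    ∃ α : s.T.obj (Shape.globe n) ⟶ X, s.ι.app _ ≫ α = z' ∧ s.z ≫ α = z := by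
  by_cases hj : (n : ℕ∞) ≤ j
  · obtain ⟨cl, _, h1, h2⟩ := hs.top hj
    obtain ⟨w, hw1, hw2⟩ := hL hj z' z hz
    refine ⟨inv cl ≫ w, ?_, ?_⟩
    · rw [← h1, Category.assoc, IsIso.hom_inv_id_assoc, hw1]
    · rw [← h2, Category.assoc, IsIso.hom_inv_id_assoc, hw2]
  · exact hs.ext hj X z' z hz

theorem ParA.precomp {T A : Shape ⥤ Mod C} {X : Mod C} {m : ℕ}
    {α β : A.obj (Shape.globe m) ⟶ X} (h : ParA A α β) (κ : T ⟶ A) :
    ParA T (κ.app _ ≫ α) (κ.app _ ≫ β) := by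
  cases m with
  | zero => trivial
  | succ m =>
    refine ⟨?_, ?_⟩
    · rw [← Category.assoc, κ.naturality, Category.assoc, h.1, ← Category.assoc,
        ← κ.naturality, Category.assoc]
    · rw [← Category.assoc, κ.naturality, Category.assoc, h.2, ← Category.assoc,
        ← κ.naturality, Category.assoc]

/-- Stages of type `(n, j)` give cylinders. -/
theorem exists_cyl_of_twr (hax : CohAx C) (hsq : Sq (Fr C)) {n : ℕ} {j : ℕ∞} (t : Twr C n j) :
    ∃ K : Cyl C n j,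
      (∀ i : ℕ, n ≤ i → (i : ℕ∞) ≤ j → ∀ S : Shape, S.dim ≤ i → Gd i (K.A.obj S)) ∧
      ((n : ℕ∞) ≤ j → ∃ cl : D C (n + 1) ⟶ K.A.obj (Shape.globe n), IsIso cl ∧
        ds C n ≫ cl = K.ι0.app _ ∧ dt C n ≫ cl = K.ι1.app _) := by
  obtain ⟨A, κ, hκ, hiso⟩ := t.exists_colim
  obtain ⟨ι1, hι1, hι2⟩ := t.exists_ι1 κ hκ
  let ι0 : Fr C ⟶ A := (t.s 0).ι ≫ κ 0
  have hι0 : ∀ k, (t.s k).ι ≫ κ k = ι0 := t.ι_κ κ hκ
  have hι0' : ∀ k S, (t.s k).ι.app S ≫ (κ k).app S = ι0.app S := fun k S => by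
    rw [← NatTrans.comp_app, hι0]
  have hgl : ∀ k, (Shape.globe k).dim = k := fun k => rfl
  have hκ' : ∀ k S, (t.l k).inl.app S ≫ (κ (k + 1)).app S = (κ k).app S := fun k S => by
    rw [← NatTrans.comp_app, hκ]
  have hι10 : ι1.app (Shape.globe n) = (t.s 0).z ≫ (κ 0).app (Shape.globe n) := hι2 0
  have low_iso : ∀ i < n, IsIso (ι0.app (Shape.globe i)) := by
    intro i hi
    have := t.base.iso (Shape.globe i) hi
    have := hiso 0 (Shape.globe i) (by rw [hgl]; omega)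
    show IsIso ((t.s 0).ι.app _ ≫ (κ 0).app _)
    infer_instance
  have low_eq : ∀ i < n, ι0.app (Shape.globe i) = ι1.app (Shape.globe i) :=
    fun i hi => (hι1 i hi).symm
  have hgd : ∀ i : ℕ, n ≤ i → (i : ℕ∞) ≤ j → ∀ S : Shape, S.dim ≤ i → Gd i (A.obj S) := by
    intro i hi hij S hS
    obtain ⟨k, rfl⟩ := Nat.exists_eq_add_of_le hi
    have := hiso k S hS
    exact ((t.s k).gd hij (n + k) hi hij S (hS.trans (Nat.le_succ _))).of_iso
      (asIso ((κ k).app S))
  -- the extension property at `n`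
  have ext_n : ∀ (X : Mod C) (z' z : D C n ⟶ X), Par z' z → ((n : ℕ∞) ≤ j → L n X) →
      ∃ α : A.obj (Shape.globe n) ⟶ X, ι0.app _ ≫ α = z' ∧ ι1.app _ ≫ α = z := by
    intro X z' z hz hL
    have := hiso 0 (Shape.globe n) le_rfl
    obtain ⟨α, h1, h2⟩ := t.base.ext' X z' z hz hL
    refine ⟨inv ((κ 0).app (Shape.globe n)) ≫ α, ?_, ?_⟩
    · rw [← hι0' 0, Category.assoc, IsIso.hom_inv_id_assoc]
      exact h1
    · rw [hι10, Category.assoc, IsIso.hom_inv_id_assoc]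
      exact h2
  have htop : (n : ℕ∞) ≤ j → ∃ cl : D C (n + 1) ⟶ A.obj (Shape.globe n), IsIso cl ∧
        ds C n ≫ cl = ι0.app _ ∧ dt C n ≫ cl = ι1.app _ := by
    intro hj
    obtain ⟨cl, hcl, h1, h2⟩ := t.base.top hj
    have := hiso 0 (Shape.globe n) le_rfl
    refine ⟨cl ≫ (κ 0).app (Shape.globe n), ?_, ?_, ?_⟩
    · have := hcl
      infer_instance
    · rw [← Category.assoc, h1, ← hι0' 0]
    · rw [← Category.assoc, h2, hι10]
  -- extension in positive dimensions, from a map out of the previous stage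
  have ext_step : ∀ (k : ℕ) (X : Mod C) (α β : A.obj (Shape.globe (n + k)) ⟶ X), ParA A α β →
      ∀ z' : D C (n + k + 1) ⟶ X, ds C (n + k) ≫ z' = ι0.app _ ≫ α →
      dt C (n + k) ≫ z' = ι0.app _ ≫ β → ∀ (Q : (D C (n + k + 1) ⟶ X) → Prop),
      (∀ θ : (t.s k).T.obj (Shape.globe (n + k + 1)) ⟶ X,
        (t.s k).z ≫ (t.s k).T.map (Shape.σ (n + k)) ≫ θ = ι1.app _ ≫ α →
        (t.s k).z ≫ (t.s k).T.map (Shape.τ (n + k)) ≫ θ = ι1.app _ ≫ β →
        ∃ γ : (t.s (k + 1)).T.obj (Shape.globe (n + k + 1)) ⟶ X,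
          (t.l k).inl.app _ ≫ γ = θ ∧ Q ((t.s (k + 1)).z ≫ γ)) →
      ∃ γ : A.obj (Shape.globe (n + k + 1)) ⟶ X, A.map (Shape.σ (n + k)) ≫ γ = α ∧
        A.map (Shape.τ (n + k)) ≫ γ = β ∧ ι0.app _ ≫ γ = z' ∧ Q (ι1.app _ ≫ γ) := by
    intro k X α β hαβ z' h1 h2 Q hQ
    have i1 := hiso (k + 1) (Shape.globe (n + k + 1)) le_rfl
    have i2 := hiso k (Shape.globe (n + k)) le_rfl
    have hpar : ParA (t.s k).T ((κ k).app _ ≫ α) ((κ k).app _ ≫ β) := hαβ.precomp (κ k)
    obtain ⟨θ, ⟨t1, t2, t3⟩, _⟩ := (t.s k).lt (n + k) le_rfl X _ _ hpar z'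
      (by rw [h1, ← Category.assoc, hι0']) (by rw [h2, ← Category.assoc, hι0'])
    obtain ⟨γ, g1, g2⟩ := hQ θ (by rw [t1, hι2 k, Category.assoc])
      (by rw [t2, hι2 k, Category.assoc])
    have key : (κ k).app (Shape.globe (n + k + 1)) ≫ inv ((κ (k + 1)).app
        (Shape.globe (n + k + 1))) ≫ γ = θ := by
      rw [← hκ', Category.assoc, IsIso.hom_inv_id_assoc, g1]
    refine ⟨inv ((κ (k + 1)).app (Shape.globe (n + k + 1))) ≫ γ, ?_, ?_, ?_, ?_⟩
    · rw [← cancel_epi ((κ k).app (Shape.globe (n + k))), ← Category.assoc,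
        ← (κ k).naturality, Category.assoc, key, t1]
    · rw [← cancel_epi ((κ k).app (Shape.globe (n + k))), ← Category.assoc,
        ← (κ k).naturality, Category.assoc, key, t2]
    · rw [← hι0' k, Category.assoc, key, t3]
    · have e : ι1.app (Shape.globe (n + k + 1)) = (t.s (k + 1)).z ≫ (κ (k + 1)).app
        (Shape.globe (n + k + 1)) := hι2 (k + 1)
      rw [e, Category.assoc, IsIso.hom_inv_id_assoc]
      exact g2
  -- extension at `n = i + 1`
  have low_bd : ∀ (i : ℕ), i < n → ∀ (X : Mod C) (α : A.obj (Shape.globe i) ⟶ X)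
      (f : Shape.globe i ⟶ Shape.globe (i + 1)) (z' : D C (i + 1) ⟶ X)
      (γ : A.obj (Shape.globe (i + 1)) ⟶ X), (Fr C).map f ≫ z' = ι0.app _ ≫ α →
      ι0.app _ ≫ γ = z' → A.map f ≫ γ = α := by
    intro i hi X α f z' γ h1 h2
    have := low_iso i hi
    rw [← cancel_epi (ι0.app (Shape.globe i)), ← Category.assoc, ← ι0.naturality, Category.assoc,
      h2, h1]
  refine ⟨
    { A := A
      ι0 := ι0
      ι1 := ι1
      sq := t.sq κ hiso
      low_eq := low_eq
      low_iso := low_iso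
      at_n := ?_
      ext0 := ?_
      ext := ?_
      lift0 := ?_
      p4 := ?_
      fill := fun i hi hij S hS => (hgd i hi hij S hS).2 i le_rfl }, hgd, htop⟩
  · intro X w
    by_cases hj : (n : ℕ∞) ≤ j
    · obtain ⟨cl, _, h1, h2⟩ := htop hj
      exact ⟨inv cl ≫ w, by rw [← h1, Category.assoc, IsIso.hom_inv_id_assoc],
        by rw [← h2, Category.assoc, IsIso.hom_inv_id_assoc]⟩
    · exact ext_n X _ _ (par_src_tgt w) (fun h => absurd h hj)
  · intro X hn hL z' z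
    subst hn
    exact ext_n X z' z trivial hL
  · intro i X hn hL α β hαβ z' z h1 h2 h3 h4
    rcases Nat.lt_or_eq_of_le hn with hlt | heq
    · obtain ⟨k, rfl⟩ := Nat.exists_eq_add_of_le (Nat.lt_succ_iff.mp hlt)
      exact ext_step k X α β hαβ z' h1 h2 (fun x => x = z) (fun θ e1 e2 =>
        (t.l k).ext X θ z hL (by rw [h3, e1]) (by rw [h4, e2]))
    · subst heq
      have hi := low_eq i (Nat.lt_succ_self i)
      obtain ⟨γ, g1, g2⟩ := ext_n X z' z ⟨by rw [h1, h3, hi], by rw [h2, h4, hi]⟩ hL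
      exact ⟨γ, low_bd i (Nat.lt_succ_self i) X α _ z' γ h1 g1,
        low_bd i (Nat.lt_succ_self i) X β _ z' γ h2 g1, g1, g2⟩
  · intro i X hn hj α β hαβ z' h1 h2
    rcases Nat.lt_or_eq_of_le hn with hlt | heq
    · obtain ⟨k, rfl⟩ := Nat.exists_eq_add_of_le (Nat.lt_succ_iff.mp hlt)
      obtain ⟨γ, g1, g2, g3, _⟩ := ext_step k X α β hαβ z' h1 h2 (fun _ => True)
        (fun θ e1 e2 => by
          obtain ⟨γ, hγ⟩ := (t.l k).lift0 hj X θ
          exact ⟨γ, hγ, trivial⟩)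
      exact ⟨γ, g1, g2, g3⟩
    · subst heq
      obtain ⟨cl, _, c1, c2⟩ := htop hj
      obtain ⟨v, hv1, hv2⟩ := exists_unit hax (i + 1)
      have g1 : ι0.app _ ≫ inv cl ≫ v ≫ z' = z' := by
        rw [← c1, Category.assoc, IsIso.hom_inv_id_assoc, ← Category.assoc, hv1,
          Category.id_comp]
      exact ⟨inv cl ≫ v ≫ z', low_bd i (Nat.lt_succ_self i) X α _ z' _ h1 g1,
        low_bd i (Nat.lt_succ_self i) X β _ z' _ h2 g1, g1⟩
  · intro i hij X α β hαβ hst
    rcases lt_trichotomy i n with hi | hi | hi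
    · rw [← low_eq i hi]
      exact hst
    · subst hi
      obtain ⟨cl, _, c1, c2⟩ := htop hij
      have e : ∀ f : A.obj (Shape.globe i) ⟶ X, Step (ι0.app _ ≫ f) (ι1.app _ ≫ f) := fun f =>
        ⟨cl ≫ f, by rw [← Category.assoc, c1], by rw [← Category.assoc, c2]⟩
      exact ((e α).symm hax).trans hax hsq (hst.trans hax hsq (e β))
    · obtain ⟨k', rfl⟩ := Nat.exists_eq_add_of_lt hi
      have i1 := hiso (k' + 1) (Shape.globe (n + k' + 1)) le_rfl
      have e : ι1.app (Shape.globe (n + k' + 1)) = (t.s (k' + 1)).z ≫ (κ (k' + 1)).app _ :=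
        hι2 (k' + 1)
      rw [e, Category.assoc, Category.assoc]
      refine (t.l k').p4 hij X _ _ ?_ ?_ ?_
      · have e1 : ∀ f : A.obj (Shape.globe (n + k' + 1)) ⟶ X,
            (t.s k').T.map (Shape.σ (n + k')) ≫ (t.l k').inl.app _ ≫ (κ (k' + 1)).app _ ≫ f =
            (κ k').app _ ≫ A.map (Shape.σ (n + k')) ≫ f := by
          intro f
          rw [← Category.assoc ((t.l k').inl.app _), hκ', ← Category.assoc, (κ k').naturality,
            Category.assoc]
        exact (e1 α).trans (by rw [hαβ.1, ← e1 β]; rfl)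
      · have e1 : ∀ f : A.obj (Shape.globe (n + k' + 1)) ⟶ X,
            (t.s k').T.map (Shape.τ (n + k')) ≫ (t.l k').inl.app _ ≫ (κ (k' + 1)).app _ ≫ f =
            (κ k').app _ ≫ A.map (Shape.τ (n + k')) ≫ f := by
          intro f
          rw [← Category.assoc ((t.l k').inl.app _), hκ', ← Category.assoc, (κ k').naturality,
            Category.assoc]
        exact (e1 α).trans (by rw [hαβ.2, ← e1 β]; rfl)
      · have e2 : ∀ f : A.obj (Shape.globe (n + k' + 1)) ⟶ X,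
            (t.s (k' + 1)).ι.app (Shape.globe (n + k' + 1)) ≫ (κ (k' + 1)).app _ ≫ f =
              ι0.app _ ≫ f := by
          intro f
          rw [← Category.assoc, hι0']
        exact (e2 α).symm ▸ (e2 β).symm ▸ hst

end Crest.Agent.S0382
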