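import Crest.Statements.S0392
import Crest.Agent.LP_T1
import Crest.Agent.LP_T2b
import Crest.Agent.LP_T3c
import Crest.Agent.LP_Main

set_option autoImplicit false
open Crest.GeometryTopology
universe u v
open Crest Crest.GeometryTopology

namespace Crest.Agent.S0392

/-- There is a universal constant `Λ` such that every infinite-dimensional real Banach space contains a compact subset that is doubling with constant at most `Λ` and admits no map into any finite-dimensional real normed space that is Lipschitz with a Lipschitz inverse on its image, whatever the two Lipschitz constants. Doubling is measured with closed balls centred at points of the subset. -/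
theorem result :
    ∃ Λ : ℕ, ∀ (B : Type u) [NormedAddCommGroup B] [NormedSpace ℝ B] [CompleteSpace B],
      ¬ FiniteDimensional ℝ B →
      ∃ K : Set B, IsCompact K ∧ DoublingConstLE K Λ ∧
        ∀ (Y : Type v) [NormedAddCommGroup Y] [NormedSpace ℝ Y] [FiniteDimensional ℝ Y]
          (f : K → Y) (c C : NNReal), ¬ (LipschitzWith C f ∧ AntilipschitzWith c f) := by
  refine ⟨3 * 1841 * 1841, fun B _ _ _ hB => ?_⟩
  obtain ⟨S⟩ := Crest.Agent.LP.exists_sys B hB
  exact ⟨S.KK, Crest.Agent.LP.isCompact_KK S, Crest.Agent.LP.doubling_KK S,
    fun Y _ _ _ f c C => Crest.Agent.LP.no_embed_general S Y f c C⟩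

end Crest.Agent.S0392
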