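import Crest.Agent.S0396_Explicit2

/-!
Global generation of `S²E(-1,-1)` and `E(2,2)`, ampleness.
-/

set_option autoImplicit false
open Crest.AlgGeometry.QuadricBundle

namespace Crest.Agent.S0396

noncomputable section

open MvPolynomial

lemma quad_mem_of_three {V : Submodule ℂ (MvPolynomial (Fin 2) ℂ)} {w1 v1 w2 v2 w3 v3 u3 : ℂ}
    (h1 : quad w1 v1 0 ∈ V) (h2 : quad w2 v2 0 ∈ V) (h3 : quad w3 v3 u3 ∈ V)
    (hd : w1 * v2 - w2 * v1 ≠ 0) (hu : u3 ≠ 0) (w v u : ℂ) : quad w v u ∈ V := by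
  have key : quad w v u =
      (((w - u / u3 * w3) * v2 - (v - u / u3 * v3) * w2) / (w1 * v2 - w2 * v1)) • quad w1 v1 0 +
      ((w1 * (v - u / u3 * v3) - v1 * (w - u / u3 * w3)) / (w1 * v2 - w2 * v1)) • quad w2 v2 0 +
      (u / u3) • quad w3 v3 u3 := by
    rw [smul_quad, smul_quad, smul_quad, quad_add, quad_add]
    have hγ : u / u3 * u3 = u := div_mul_cancel₀ u hu
    generalize u / u3 = γ at *
    congr 1
    · have : ((w - γ * w3) * v2 - (v - γ * v3) * w2) / (w1 * v2 - w2 * v1) * w1 +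
          (w1 * (v - γ * v3) - v1 * (w - γ * w3)) / (w1 * v2 - w2 * v1) * w2 + γ * w3 =
          (w - γ * w3) * ((w1 * v2 - w2 * v1) / (w1 * v2 - w2 * v1)) + γ * w3 := by ring
      rw [this, div_self hd]
      ring
    · have : ((w - γ * w3) * v2 - (v - γ * v3) * w2) / (w1 * v2 - w2 * v1) * v1 +
          (w1 * (v - γ * v3) - v1 * (w - γ * w3)) / (w1 * v2 - w2 * v1) * v2 + γ * v3 =
          (v - γ * v3) * ((w1 * v2 - w2 * v1) / (w1 * v2 - w2 * v1)) + γ * v3 := by ring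
      rw [this, div_self hd]
      ring
    · rw [← hγ]
      ring
  rw [key]
  exact V.add_mem (V.add_mem (V.smul_mem _ h1) (V.smul_mem _ h2)) (V.smul_mem _ h3)

lemma gen_two (t : ℂ) (ht : t ≠ 0) : Gen (gg t) 2 (-1) (-1) := by
  apply gen_of_b0
  intro a p R hR
  obtain ⟨w, v, u, rfl⟩ := eq_quad_of_hom hR
  have hK0 := fun j => mem_values_of_isSec (isSec_K0 t j) (a, 0) p
  have hK6 := fun j => mem_values_of_isSec (isSec_K6 t j) (a, 0) p
  have hK12 := fun j => mem_values_of_isSec (isSec_K12 t j) (a, 0) p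
  have hS3 := mem_values_of_isSec (isSec_S3 t ht) (a, 0) p
  have hS5 := fun j => mem_values_of_isSec (isSec_S5 t ht j) (a, 0) p
  simp only [sec2] at hK0 hK6 hK12 hS3 hS5
  have hX1 : h0 a (p 0) = 0 → h1 a (p 0) = 1 := by
    fin_cases a <;> simp [h0, h1]
  generalize h0 a (p 0) = X0 at *
  generalize h1 a (p 0) = X1 at *
  generalize p 1 = y at *
  by_cases hX0 : X0 = 0
  · have hX1' := hX1 hX0
    subst hX0
    rw [hX1'] at *
    have e1 := hK0 1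
    have e2 := hK12 1
    have e3 := hS5 1
    simp only [K0w, K0v, K12w, K12v, nn, S5u, mm, if_true, one_ne_zero, if_false] at e1 e2 e3
    refine quad_mem_of_three e1 e2 e3 ?_ (by norm_num) w v u
    intro h
    apply ht
    linear_combination -h
  · by_cases hZ : X0 ^ 2 * y - X1 ^ 2 = 0
    · have e1 := hK0 0
      have e2 := hS3
      have e3 := hS5 0
      simp only [K0w, K0v, S3v, nn, S5u, mm, if_true] at e1 e2 e3
      have hZ' : X0 ^ 2 * y = X1 ^ 2 := by linear_combination hZ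
      refine quad_mem_of_three e1 e2 e3 ?_ hX0 w v u
      rw [hZ']
      have : X0 ^ 31 * (X0 ^ 2) ^ 17 * (X0 ^ 33 - t⁻¹ * X0 ^ 23 * ((X1 ^ 2) ^ 5 +
          X1 ^ 2 * (X1 ^ 2) ^ 4 + (X1 ^ 2) ^ 2 * (X1 ^ 2) ^ 3 + (X1 ^ 2) ^ 3 * (X1 ^ 2) ^ 2 -
          4 * (X1 ^ 2) ^ 5)) - S3w t 0 X0 X1 y * (X0 ^ 31 * (X1 ^ 2 - X1 ^ 2)) = X0 ^ 98 := by
        ring
      rw [this]
      exact pow_ne_zero _ hX0
    · have e1 := hK0 0
      have e2 := hK6 0
      have e3 := hS5 0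
      simp only [K0w, K0v, K6w, K6v, nn, S5u, mm, if_true] at e1 e2 e3
      refine quad_mem_of_three e1 e2 e3 ?_ hX0 w v u
      have : X0 ^ 31 * (X0 ^ 2) ^ 17 * (X0 ^ 31 * (X0 ^ 2 * y - X1 ^ 2) * y ^ 6) -
          X0 ^ 31 * ((X0 ^ 2) ^ 17 * y ^ 6 + t * ((X0 ^ 2) ^ 17 * y - (X0 ^ 2) ^ 16 * X1 ^ 2)) *
          (X0 ^ 31 * (X0 ^ 2 * y - X1 ^ 2)) =
          -(t * X0 ^ 94 * (X0 ^ 2 * y - X1 ^ 2) ^ 2) := by ring
      rw [this]
      exact neg_ne_zero.2 (mul_ne_zero (mul_ne_zero ht (pow_ne_zero _ hX0)) (pow_ne_zero _ hZ))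

/-! ### `E(2,2)` -/

/-- linear polynomial in the frame symbols -/
def lin (w v : ℂ) : MvPolynomial (Fin 2) ℂ := C w * X 0 + C v * X 1

lemma frame_lin (p q r w v : ℂ) : frameSubst !![p, q; 0, r] (lin w v) =
    lin (p * w + q * v) (r * v) := by
  unfold lin
  simp only [frameSubst_add, frameSubst_mul, frameSubst_C, frame_X0, frame_X1,
    C_add, C_mul]
  ring

lemma smul_lin (s w v : ℂ) : s • lin w v = lin (s * w) (s * v) := by
  unfold lin
  simp only [smul_eq_C_mul, C_mul]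
  ring

lemma lin_add (w v w' v' : ℂ) : lin w v + lin w' v' = lin (w + w') (v + v') := by
  unfold lin
  simp only [C_add]
  ring

lemma lin_hom (w v : ℂ) : (lin w v).IsHomogeneous 1 := by
  unfold lin
  have a1 : (C w * X 0 : MvPolynomial (Fin 2) ℂ).IsHomogeneous 1 := by
    simpa using (isHomogeneous_C (Fin 2) w).mul (isHomogeneous_X ℂ (0 : Fin 2))
  have a2 : (C v * X 1 : MvPolynomial (Fin 2) ℂ).IsHomogeneous 1 := by
    simpa using (isHomogeneous_C (Fin 2) v).mul (isHomogeneous_X ℂ (1 : Fin 2))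
  exact a1.add a2

lemma eq_lin_of_hom {R : MvPolynomial (Fin 2) ℂ} (hR : R.IsHomogeneous 1) :
    ∃ w v, R = lin w v := by
  have key : ∀ m : Fin 2 →₀ ℕ, ∀ c : ℂ, m 0 + m 1 = 1 →
      ∃ w v, (monomial m c : MvPolynomial (Fin 2) ℂ) = lin w v := by
    intro m c hm
    have hmon : (monomial m c : MvPolynomial (Fin 2) ℂ) = C c * (X 0 ^ m 0 * X 1 ^ m 1) := by
      rw [monomial_eq, Finsupp.prod_fintype _ _ (by simp), Fin.prod_univ_two]
    rw [hmon]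
    have : (m 0 = 1 ∧ m 1 = 0) ∨ (m 0 = 0 ∧ m 1 = 1) := by omega
    rcases this with ⟨e0, e1⟩ | ⟨e0, e1⟩ <;> rw [e0, e1]
    · exact ⟨c, 0, by simp [lin]⟩
    · exact ⟨0, c, by simp [lin]⟩
  rw [← R.support_sum_monomial_coeff]
  have hdeg : ∀ m ∈ R.support, m 0 + m 1 = 1 := by
    intro m hm
    have := hR (mem_support_iff.1 hm)
    rw [Finsupp.weight_apply] at this
    simpa [Finsupp.sum_fintype, Fin.sum_univ_two] using this
  refine Finset.sum_induction _ (fun P => ∃ w v, P = lin w v) ?_ ?_ ?_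
  · rintro _ _ ⟨w, v, rfl⟩ ⟨w', v', rfl⟩
    exact ⟨_, _, lin_add _ _ _ _⟩
  · exact ⟨0, 0, by simp [lin]⟩
  · intro m hm
    exact key m _ (hdeg m hm)

/-- section of `E(2,2)` from homogeneous data -/
def sec1 (w v : Fin 2 → ℂ → ℂ → ℂ → ℂ) (α : Chart) (p : Fin 2 → ℂ) :
    MvPolynomial (Fin 2) ℂ :=
  lin (w α.2 (h0 α.1 (p 0)) (h1 α.1 (p 0)) (p 1))
    (v α.2 (h0 α.1 (p 0)) (h1 α.1 (p 0)) (p 1))

lemma isSec_sec1 (t : ℂ) (w v : Fin 2 → ℂ → ℂ → ℂ → ℂ)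
    (dw : ∀ b, Differentiable ℂ (fun z : ℂ × ℂ × ℂ => w b z.1 z.2.1 z.2.2))
    (dv : ∀ b, Differentiable ℂ (fun z : ℂ × ℂ × ℂ => v b z.1 z.2.1 z.2.2))
    (sw : ∀ b c X0 X1 y, w b (c * X0) (c * X1) y = c ^ 35 * w b X0 X1 y)
    (sv : ∀ b c X0 X1 y, v b (c * X0) (c * X1) y = c ^ 3 * v b X0 X1 y)
    (fv : ∀ X0 X1 y, y ≠ 0 → v 0 X0 X1 y = y ^ 18 * v 1 X0 X1 y⁻¹)
    (fw : ∀ X0 X1 y, y ≠ 0 → w 0 X0 X1 y =
      -w 1 X0 X1 y⁻¹ + y ^ 2 * EE t (X0 ^ 2) (X1 ^ 2) y * v 1 X0 X1 y⁻¹) :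
    IsSec (gg t) 1 2 2 (sec1 w v) := by
  apply isSec_of_flips
  · intro α p
    exact lin_hom _ _
  · intro α m
    have hz : Differentiable ℂ (fun p : Fin 2 → ℂ =>
        ((h0 α.1 (p 0), h1 α.1 (p 0), p 1) : ℂ × ℂ × ℂ)) :=
      (differentiable_h0 _).prodMk ((differentiable_h1 _).prodMk (by fun_prop))
    have e1 := (dw α.2).comp hz
    have e2 := (dv α.2).comp hz
    simp only [sec1, lin, coeff_add, coeff_C_mul]
    exact ((e1.mul_const _).add (e2.mul_const _))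
  · intro b x y hx
    have hXX : XX ![x, y] = !![x ^ 33, 0; 0, x] := by simp [XX]
    rw [hXX]
    simp only [sec1, frame_lin, smul_lin]
    have e : ∀ f : Fin 2 → ℂ → ℂ → ℂ → ℂ, f b (x⁻¹) 1 y = f b (x⁻¹ * 1) (x⁻¹ * x) y := by
      intro f; rw [mul_one, inv_mul_cancel₀ hx]
    simp only [h0, h1, Matrix.cons_val_zero, Matrix.cons_val_one, if_true,
      one_ne_zero, if_false]
    rw [e w, e v, sw, sv]
    congr 1
    · field_simp
      ring
    · field_simp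
  · intro a x y hy
    have hYY : YY t (a, 0) ![x, y] = !![-(y⁻¹ ^ 2), EE t (h0 a x ^ 2) (h1 a x ^ 2) y;
        0, y ^ 16] := by
      simp [YY, pA_h, pB_h]
    rw [hYY]
    simp only [sec1, frame_lin, smul_lin]
    simp only [Matrix.cons_val_zero, Matrix.cons_val_one]
    rw [fv _ _ _ hy, fw _ _ _ hy]
    congr 1
    · field_simp
    · field_simp

/-- monomials `X_j^d` -/
def pj (j : Fin 2) (d : ℕ) (X0 X1 : ℂ) : ℂ := if j = 0 then X0 ^ d else X1 ^ d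

lemma pj_scale (j : Fin 2) (d : ℕ) (c X0 X1 : ℂ) :
    pj j d (c * X0) (c * X1) = c ^ d * pj j d X0 X1 := by
  unfold pj; split_ifs <;> ring

lemma pj_diff (j : Fin 2) (d : ℕ) : Differentiable ℂ (fun z : ℂ × ℂ × ℂ => pj j d z.1 z.2.1) := by
  unfold pj; split_ifs <;> fun_prop

lemma isSec_T1 (t : ℂ) (j : Fin 2) : IsSec (gg t) 1 2 2
    (sec1 (fun b X0 X1 _ => if b = 0 then pj j 35 X0 X1 else -pj j 35 X0 X1)
      (fun _ _ _ _ => 0)) := by
  have hn := pj_diff j 35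
  apply isSec_sec1
  · intro b; split_ifs <;> fun_prop
  · intro b; fun_prop
  · intro b c X0 X1 y; rw [pj_scale]; split_ifs <;> ring
  · intros; ring
  · intros; ring
  · intro X0 X1 y hy; simp

lemma isSec_T2 (t : ℂ) (j : Fin 2) : IsSec (gg t) 1 2 2
    (sec1 (fun b X0 X1 y => if b = 0 then 0 else
        pj j 3 X0 X1 * (y * GG (X0 ^ 2) (X1 ^ 2 * y) +
          t * ((X0 ^ 2) ^ 16 * y ^ 6 + (X1 ^ 2) ^ 16 * y ^ 12)))
      (fun b X0 X1 y => if b = 0 then pj j 3 X0 X1 else y ^ 18 * pj j 3 X0 X1)) := by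
  have hn := pj_diff j 3
  have hGG : Differentiable ℂ (fun z : ℂ × ℂ × ℂ => GG (z.1 ^ 2) (z.2.1 ^ 2 * z.2.2)) := by
    have := GG_diff.comp (g := fun z : ℂ × ℂ => GG z.1 z.2)
      (f := fun z : ℂ × ℂ × ℂ => ((z.1 ^ 2, z.2.1 ^ 2 * z.2.2) : ℂ × ℂ)) (by fun_prop)
    exact this
  have sc16 : ∀ c X0 X1 y : ℂ,
      GG ((c * X0) ^ 2) ((c * X1) ^ 2 * y) = c ^ 32 * GG (X0 ^ 2) (X1 ^ 2 * y) := by
    intro c X0 X1 y
    have := GG_smul (c ^ 2) (X0 ^ 2) (X1 ^ 2 * y)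
    rw [show (c * X0) ^ 2 = c ^ 2 * X0 ^ 2 by ring,
      show (c * X1) ^ 2 * y = c ^ 2 * (X1 ^ 2 * y) by ring, this]
    ring
  apply isSec_sec1
  · intro b; split_ifs <;> fun_prop
  · intro b; split_ifs <;> fun_prop
  · intro b c X0 X1 y; simp only [sc16, pj_scale]; split_ifs <;> ring
  · intro b c X0 X1 y; simp only [pj_scale]; split_ifs <;> ring
  · intro X0 X1 y hy
    simp only [if_true, one_ne_zero, if_false]
    field_simp
  · intro X0 X1 y hy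
    have hE2 := EE_eq t (X0 ^ 2) (X1 ^ 2) y hy
    simp only [if_true, one_ne_zero, if_false]
    rw [hE2]
    generalize GG (X0 ^ 2) (X1 ^ 2 * y⁻¹) = G
    field_simp
    ring

lemma gen_one (t : ℂ) : Gen (gg t) 1 2 2 := by
  apply gen_of_b0
  intro a p R hR
  obtain ⟨w, v, rfl⟩ := eq_lin_of_hom hR
  have hT1 := mem_values_of_isSec (isSec_T1 t a) (a, 0) p
  have hT2 := mem_values_of_isSec (isSec_T2 t a) (a, 0) p
  have hp : ∀ d, pj a d (h0 a (p 0)) (h1 a (p 0)) = 1 := by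
    intro d
    fin_cases a <;> simp [pj, h0, h1]
  simp only [sec1, if_true, hp] at hT1 hT2
  have : lin w v = w • lin 1 0 + v • lin 0 1 := by
    rw [smul_lin, smul_lin, lin_add]; simp
  rw [this]
  exact Submodule.add_mem _ (Submodule.smul_mem _ _ hT1) (Submodule.smul_mem _ _ hT2)

theorem gg_isAmple (t : ℂ) (ht : t ≠ 0) : IsAmple (gg t) :=
  ample_of_gen (gen_two t ht) (gen_one t)

end

end Crest.Agent.S0396
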