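import Crest.Agent.S0396_Dual

/-!
The maximum principle for Griffiths positive metrics.
-/

set_option autoImplicit false
open Crest.AlgGeometry.QuadricBundle

namespace Crest.Agent.S0396

noncomputable section

open scoped ComplexConjugate ComplexOrder Topology
open Matrix Filter

lemma deriv_deriv_nonneg {D : ℝ → ℝ} (hc : ContinuousAt D 0) (hmin : IsLocalMin D 0) :
    0 ≤ deriv (deriv D) 0 := by
  by_contra hneg
  push Not at hneg
  have hd : deriv D 0 = 0 := hmin.deriv_eq_zero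
  have hmax := isLocalMax_of_deriv_deriv_neg hneg hd hc
  have heq : D =ᶠ[𝓝 0] fun _ => D 0 := by
    filter_upwards [hmin, hmax] with x h1 h2
    exact le_antisymm h2 h1
  have h2 : deriv D =ᶠ[𝓝 0] fun _ => 0 := by
    have := heq.deriv
    simpa using this
  have h3 := h2.deriv_eq
  simp at h3
  linarith

lemma deriv_deriv_le {f g : ℝ → ℝ} (hf : ContDiffAt ℝ 2 f 0) (hg : ContDiffAt ℝ 2 g 0)
    (hle : ∀ᶠ t in 𝓝 (0 : ℝ), g t ≤ f t) (h0 : g 0 = f 0) :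
    deriv (deriv g) 0 ≤ deriv (deriv f) 0 := by
  have hD : ContDiffAt ℝ 2 (f - g) 0 := hf.sub hg
  have hmin : IsLocalMin (f - g) 0 := by
    filter_upwards [hle] with t ht
    simp [h0]
    exact ht
  have h1 := deriv_deriv_nonneg hD.continuousAt hmin
  have hf1 : ∀ᶠ t in 𝓝 (0 : ℝ), DifferentiableAt ℝ f t := by
    have := hf.eventually (by simp)
    filter_upwards [this] with t ht
    exact ht.differentiableAt (by simp)
  have hg1 : ∀ᶠ t in 𝓝 (0 : ℝ), DifferentiableAt ℝ g t := by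
    have := hg.eventually (by simp)
    filter_upwards [this] with t ht
    exact ht.differentiableAt (by simp)
  have h2 : deriv (f - g) =ᶠ[𝓝 0] deriv f - deriv g := by
    filter_upwards [hf1, hg1] with t h1 h2
    exact deriv_sub h1 h2
  rw [h2.deriv_eq] at h1
  have hf2 : DifferentiableAt ℝ (deriv f) 0 :=
    (hf.derivWithin (m := 1) (by norm_num)).differentiableAt (by simp)
  have hg2 : DifferentiableAt ℝ (deriv g) 0 :=
    (hg.derivWithin (m := 1) (by norm_num)).differentiableAt (by simp)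
  rw [deriv_sub hf2 hg2] at h1
  linarith

lemma line_tendsto (c : ℂ) : Tendsto (fun t : ℝ => (t : ℂ) * c) (𝓝 0) (𝓝 0) := by
  have : ContinuousAt (fun t : ℝ => (t : ℂ) * c) 0 := by fun_prop
  simpa [ContinuousAt] using this

lemma analyticAt_line {χ : ℂ → ℂ} (hχ : AnalyticAt ℂ χ 0) (c : ℂ) :
    AnalyticAt ℂ (fun ζ => χ (ζ * c)) ((0 : ℝ) : ℂ) := by
  have h1 : AnalyticAt ℂ (fun ζ : ℂ => ζ * c) ((0 : ℝ) : ℂ) := by fun_prop
  refine AnalyticAt.fun_comp ?_ h1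
  simpa using hχ

lemma contDiffAt_re_line {χ : ℂ → ℂ} (hχ : AnalyticAt ℂ χ 0) (c : ℂ) :
    ContDiffAt ℝ 2 (fun t : ℝ => (χ (t * c)).re) 0 :=
  (analyticAt_line hχ c).contDiffAt.real_of_complex

lemma deriv_deriv_line {χ : ℂ → ℂ} (hχ : AnalyticAt ℂ χ 0) (c : ℂ) :
    deriv (deriv (fun t : ℝ => (χ (t * c)).re)) 0 = (deriv (deriv χ) 0 * c * c).re := by
  have h1 : ∀ᶠ t : ℝ in 𝓝 0, HasDerivAt (fun t : ℝ => (χ (t * c)).re)
      ((deriv χ (t * c) * c).re) t := by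
    have hev : ∀ᶠ ζ in 𝓝 (0 : ℂ), AnalyticAt ℂ χ ζ := hχ.eventually_analyticAt
    have := (line_tendsto c).eventually hev
    filter_upwards [this] with t ht
    have e1 : HasDerivAt χ (deriv χ (t * c)) (t * c) := ht.differentiableAt.hasDerivAt
    have e2 : HasDerivAt (fun ζ : ℂ => ζ * c) c (t : ℂ) := by
      simpa using (hasDerivAt_id (t : ℂ)).mul_const c
    exact (e1.comp (t : ℂ) e2).real_of_complex
  have h2 : deriv (fun t : ℝ => (χ (t * c)).re) =ᶠ[𝓝 0] fun t : ℝ => (deriv χ (t * c) * c).re := by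
    filter_upwards [h1] with t ht
    exact ht.deriv
  rw [h2.deriv_eq]
  have e1 : HasDerivAt (deriv χ) (deriv (deriv χ) 0) (0 * c) := by
    rw [zero_mul]
    exact hχ.deriv.differentiableAt.hasDerivAt
  have e2 : HasDerivAt (fun ζ : ℂ => ζ * c) c (0 : ℂ) := by
    simpa using (hasDerivAt_id (0 : ℂ)).mul_const c
  have e3 := (e1.comp (0 : ℂ) e2).mul_const c
  have e4 : HasDerivAt (fun ζ : ℂ => deriv χ (ζ * c) * c) (deriv (deriv χ) 0 * c * c)
      ((0 : ℝ) : ℂ) := by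
    simpa using e3
  exact e4.real_of_complex.deriv

lemma harm {χ : ℂ → ℂ} (hχ : AnalyticAt ℂ χ 0) :
    deriv (deriv (fun t : ℝ => (χ (t * 1)).re)) 0 +
      deriv (deriv (fun t : ℝ => (χ (t * Complex.I)).re)) 0 = 0 := by
  rw [deriv_deriv_line hχ, deriv_deriv_line hχ, ← Complex.add_re]
  have : deriv (deriv χ) 0 * 1 * 1 + deriv (deriv χ) 0 * Complex.I * Complex.I = 0 := by
    rw [mul_assoc _ Complex.I, Complex.I_mul_I]
    ring
  rw [this]
  simp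

variable {r : ℕ}

lemma contDiffAt_hh {H : MetricData r} (hH : ∀ α (i j : Fin r), ContDiff ℝ (⊤ : ℕ∞)
    (fun p => H α p i j)) (α : Chart) (p ξ : Fin 2 → ℂ) {s : (Fin 2 → ℂ) → (Fin r → ℂ)}
    {U : Set (Fin 2 → ℂ)} (hU : IsOpen U) (hp : p ∈ U) (hs : DifferentiableOn ℂ s U) (c : ℂ) :
    ContDiffAt ℝ 2 (fun t : ℝ => hh (H α (p + (t * c : ℂ) • ξ)) (s (p + (t * c : ℂ) • ξ))) 0 := by
  have hs1 : AnalyticAt ℂ (fun ζ : ℂ => s (p + (ζ * c) • ξ)) 0 := by
    have hopen : IsOpen ((fun ζ : ℂ => p + (ζ * c) • ξ) ⁻¹' U) :=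
      hU.preimage (by fun_prop)
    have hmem : (0 : ℂ) ∈ ((fun ζ : ℂ => p + (ζ * c) • ξ) ⁻¹' U) := by
      simpa using hp
    have hd : DifferentiableOn ℂ (fun ζ : ℂ => s (p + (ζ * c) • ξ))
        ((fun ζ : ℂ => p + (ζ * c) • ξ) ⁻¹' U) := by
      refine hs.comp ?_ (Set.mapsTo_preimage _ _)
      apply Differentiable.differentiableOn
      fun_prop
    exact hd.analyticAt (hopen.mem_nhds hmem)
  have hs2 : ContDiffAt ℝ 2 (fun t : ℝ => s (p + ((t : ℂ) * c) • ξ)) 0 := by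
    have e1 : ContDiffAt ℝ 2 (fun ζ : ℂ => s (p + (ζ * c) • ξ)) ((0 : ℝ) : ℂ) := by
      simpa using hs1.contDiffAt.restrict_scalars ℝ
    have e2 : ContDiffAt ℝ 2 (fun t : ℝ => (t : ℂ)) 0 := Complex.ofRealCLM.contDiff.contDiffAt
    exact e1.comp (0 : ℝ) e2
  have hs3 : ∀ i, ContDiffAt ℝ 2 (fun t : ℝ => s (p + ((t : ℂ) * c) • ξ) i) 0 :=
    fun i => contDiffAt_pi.1 hs2 i
  have hH1 : ∀ i j, ContDiffAt ℝ 2 (fun t : ℝ => H α (p + ((t : ℂ) * c) • ξ) i j) 0 := by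
    intro i j
    have e1 : ContDiff ℝ 2 (fun p => H α p i j) := (hH α i j).of_le (WithTop.coe_le_coe.2 (le_top : (2 : ℕ∞) ≤ ⊤))
    have e2 : ContDiff ℝ 2 (fun t : ℝ => p + ((t : ℂ) * c) • ξ) := by
      have : ContDiff ℝ 2 (fun t : ℝ => (t : ℂ)) := Complex.ofRealCLM.contDiff
      fun_prop
    exact (e1.comp e2).contDiffAt
  unfold hh
  have hsum : ContDiffAt ℝ 2 (fun t : ℝ => ∑ i, ∑ j, H α (p + (t * c : ℂ) • ξ) i j *
      s (p + (t * c : ℂ) • ξ) i * conj (s (p + (t * c : ℂ) • ξ) j)) 0 := by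
    refine ContDiffAt.sum fun i _ => ContDiffAt.sum fun j _ => ?_
    refine ((hH1 i j).mul (hs3 i)).mul ?_
    exact (Complex.conjCLE.contDiff.contDiffAt).comp (0 : ℝ) (hs3 j)
  exact (Complex.reCLM.contDiff.contDiffAt).comp (0 : ℝ) hsum

/-- local form of the maximum principle -/
lemma mp_local {H : MetricData r} (hH : ∀ α (i j : Fin r), ContDiff ℝ (⊤ : ℕ∞)
    (fun p => H α p i j)) (hpos : ∀ α p, (H α p).PosDef) (hG : IsGriffithsPositive H)
    (α : Chart) (p ξ : Fin 2 → ℂ) (hξ : ξ ≠ 0) (φ : ℂ → Fin r → ℂ) (hφ : Differentiable ℂ φ)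
    (hφ0 : φ 0 ≠ 0) : ¬ IsLocalMax (fun ζ => hd (H α (p + ζ • ξ)) (φ ζ)) 0 := by
  intro hmax
  obtain ⟨U, s, hU, hpU, hs, hsp, hlevi⟩ := hG α p ξ (rv (H α p) (φ 0)) hξ
    (rv_ne_zero (hpos α p) hφ0)
  set u0 : ℝ := hd (H α p) (φ 0) with hu0
  have hu0pos : 0 < u0 := hd_pos (hpos α p) hφ0
  -- the pairing
  set ψ : ℂ → ℂ := fun ζ => φ ζ ⬝ᵥ s (p + ζ • ξ) with hψ
  have hψ0 : ψ 0 = (u0 : ℂ) := by
    simp only [hψ, zero_smul, add_zero, hsp, dot_rv (hpos α p)]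
    rfl
  set χ : ℂ → ℂ := fun ζ => 2 * ψ ζ - (u0 : ℂ) with hχ
  have hopen : IsOpen ((fun ζ : ℂ => p + ζ • ξ) ⁻¹' U) :=
    hU.preimage (by fun_prop)
  have hmem : (0 : ℂ) ∈ ((fun ζ : ℂ => p + ζ • ξ) ⁻¹' U) := by
    simpa using hpU
  have hsan : AnalyticAt ℂ (fun ζ : ℂ => s (p + ζ • ξ)) 0 := by
    have hd' : DifferentiableOn ℂ (fun ζ : ℂ => s (p + ζ • ξ))
        ((fun ζ : ℂ => p + ζ • ξ) ⁻¹' U) := by
      refine hs.comp ?_ (Set.mapsTo_preimage _ _)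
      apply Differentiable.differentiableOn
      fun_prop
    exact hd'.analyticAt (hopen.mem_nhds hmem)
  have hφan : AnalyticAt ℂ φ 0 := hφ.analyticAt 0
  have hψan : AnalyticAt ℂ ψ 0 := by
    simp only [hψ, dotProduct]
    refine Finset.analyticAt_fun_sum _ fun i _ => ?_
    exact (analyticAt_pi_iff.1 hφan i).mul (analyticAt_pi_iff.1 hsan i)
  have hχan : AnalyticAt ℂ χ 0 := by
    simp only [hχ]
    exact (analyticAt_const.mul hψan).sub analyticAt_const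
  -- the comparison
  have hcomp : ∀ᶠ ζ in 𝓝 (0 : ℂ), (χ ζ).re ≤ hh (H α (p + ζ • ξ)) (s (p + ζ • ξ)) := by
    filter_upwards [hmax] with ζ hζ
    have h1 := cs (hpos α (p + ζ • ξ)) (φ ζ) (s (p + ζ • ξ))
    have h2 := hh_nonneg (hpos α (p + ζ • ξ)) (s (p + ζ • ξ))
    have h3 : hd (H α (p + ζ • ξ)) (φ ζ) ≤ u0 := by simpa [hu0] using hζ
    have h4 : ‖ψ ζ‖ ^ 2 ≤ u0 * hh (H α (p + ζ • ξ)) (s (p + ζ • ξ)) :=
      h1.trans (mul_le_mul_of_nonneg_right h3 h2)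
    have h5 : (χ ζ).re = 2 * (ψ ζ).re - u0 := by simp [hχ]
    have h6 : (ψ ζ).re ^ 2 ≤ ‖ψ ζ‖ ^ 2 := by
      rw [← Complex.normSq_eq_norm_sq, Complex.normSq_apply]
      nlinarith [sq_nonneg (ψ ζ).im]
    rw [h5]
    have h7 : u0 * (2 * (ψ ζ).re - u0) ≤ u0 * hh (H α (p + ζ • ξ)) (s (p + ζ • ξ)) := by
      nlinarith [sq_nonneg ((ψ ζ).re - u0)]
    exact le_of_mul_le_mul_left h7 hu0pos
  have heq0 : (χ 0).re = hh (H α p) (s p) := by
    rw [hsp, hh_rv (hpos α p)]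
    simp only [hχ, hψ0]
    simp
    ring
  have key : ∀ c : ℂ, deriv (deriv (fun t : ℝ => (χ (t * c)).re)) 0 ≤
      deriv (deriv (fun t : ℝ => hh (H α (p + (t * c : ℂ) • ξ)) (s (p + (t * c : ℂ) • ξ)))) 0 := by
    intro c
    refine deriv_deriv_le (contDiffAt_hh hH α p ξ hU hpU hs c) (contDiffAt_re_line hχan c) ?_ ?_
    · exact (line_tendsto c).eventually hcomp
    · simpa using heq0
  have k1 := key 1
  have k2 := key Complex.I
  have hh0 := harm hχan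
  have hlevi' : leviAlong (fun q => hNormSq H α q (s q)) p ξ =
      deriv (deriv (fun t : ℝ => hh (H α (p + (t * 1 : ℂ) • ξ)) (s (p + (t * 1 : ℂ) • ξ)))) 0 +
      deriv (deriv (fun t : ℝ => hh (H α (p + (t * Complex.I : ℂ) • ξ))
        (s (p + (t * Complex.I : ℂ) • ξ)))) 0 := by
    unfold leviAlong secondDerivAlong
    simp only [mul_one, smul_smul]
    rfl
  rw [hlevi'] at hlevi
  linarith

lemma continuous_inv {H : MetricData r} (hH : ∀ α (i j : Fin r), ContDiff ℝ (⊤ : ℕ∞)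
    (fun p => H α p i j)) (hpos : ∀ α p, (H α p).PosDef) (α : Chart) :
    Continuous (fun p => (H α p)⁻¹) := by
  have h1 : Continuous (fun p => H α p) :=
    continuous_matrix fun i j => (hH α i j).continuous
  have h2 : ∀ p, (H α p).det ≠ 0 := fun p =>
    ((Matrix.isUnit_iff_isUnit_det _).1 (hpos α p).isUnit).ne_zero
  have h3 : (fun p => (H α p)⁻¹) = fun p => ((H α p).det)⁻¹ • (H α p).adjugate := by
    funext p
    rw [Matrix.inv_def, Ring.inverse_eq_inv']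
  rw [h3]
  exact (h1.matrix_det.inv₀ h2).smul h1.matrix_adjugate

lemma continuous_hd {H : MetricData r} (hH : ∀ α (i j : Fin r), ContDiff ℝ (⊤ : ℕ∞)
    (fun p => H α p i j)) (hpos : ∀ α p, (H α p).PosDef) (α : Chart) :
    Continuous (fun q : (Fin 2 → ℂ) × (Fin r → ℂ) => hd (H α q.1) q.2) := by
  unfold hd
  have h1 : Continuous (fun q : (Fin 2 → ℂ) × (Fin r → ℂ) => (H α q.1)⁻¹) :=
    (continuous_inv hH hpos α).comp continuous_fst
  have h2 : Continuous (fun q : (Fin 2 → ℂ) × (Fin r → ℂ) => q.2) := continuous_snd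
  have h3 := h2.star.dotProduct (h1.matrix_mulVec h2)
  exact Complex.continuous_re.comp h3

/-- the maximum principle -/
theorem mp {H : MetricData r} (hH : ∀ α (i j : Fin r), ContDiff ℝ (⊤ : ℕ∞)
    (fun p => H α p i j)) (hpos : ∀ α p, (H α p).PosDef) (hG : IsGriffithsPositive H)
    (α : Chart) (p ξ : Fin 2 → ℂ) (hξ : ξ ≠ 0) (φ : ℂ → Fin r → ℂ) (hφ : Differentiable ℂ φ)
    {ρ : ℝ} (hρ : 0 < ρ) (z₀ : ℂ) (hz₀ : ‖z₀‖ ≤ ρ) :
    ∃ z : ℂ, ‖z‖ = ρ ∧ hd (H α (p + z₀ • ξ)) (φ z₀) ≤ hd (H α (p + z • ξ)) (φ z) := by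
  set F : ℂ → ℝ := fun z => hd (H α (p + z • ξ)) (φ z) with hF
  have hFc : Continuous F := by
    have h1 : Continuous (fun z : ℂ => (p + z • ξ, φ z)) := by
      have := hφ.continuous
      fun_prop
    exact (continuous_hd hH hpos α).comp h1
  obtain ⟨zm, hzm, hmax⟩ := (isCompact_closedBall (0 : ℂ) ρ).exists_isMaxOn
    ⟨0, by simp [hρ.le]⟩ hFc.continuousOn
  have hle : ∀ z : ℂ, ‖z‖ ≤ ρ → F z ≤ F zm := fun z hz => hmax (by simpa using hz)
  by_cases hm : ‖zm‖ = ρ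
  · exact ⟨zm, hm, hle z₀ hz₀⟩
  have hlt : ‖zm‖ < ρ := lt_of_le_of_ne (by simpa using hzm) hm
  by_cases hφm : φ zm = 0
  · refine ⟨(ρ : ℂ), by simp [hρ.le], ?_⟩
    have h1 : F zm = 0 := by simp [hF, hφm, hd_zero]
    have h2 := hle z₀ hz₀
    rw [h1] at h2
    exact h2.trans (hd_nonneg (hpos _ _) _)
  · exfalso
    refine mp_local hH hpos hG α (p + zm • ξ) ξ hξ (fun ζ => φ (zm + ζ)) (by fun_prop)
      (by simpa using hφm) ?_
    have hnear : ∀ᶠ ζ in 𝓝 (0 : ℂ), ‖zm + ζ‖ < ρ := by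
      have : Continuous (fun ζ : ℂ => ‖zm + ζ‖) := by fun_prop
      have h0 : ‖zm + 0‖ < ρ := by simpa using hlt
      exact this.continuousAt.eventually_lt continuousAt_const h0
    filter_upwards [hnear] with ζ hζ
    have := hle (zm + ζ) hζ.le
    simp only [hF] at this
    simp only [add_zero, zero_smul]
    rw [add_assoc, ← add_smul]
    exact this

end

end Crest.Agent.S0396
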