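import Crest.Agent.S0396_Bundle
import Crest.Agent.S0396_Max

/-!
The bundle `E_t` has no Griffiths positive metric for small `t`.
-/

set_option autoImplicit false
open Crest.AlgGeometry.QuadricBundle

namespace Crest.Agent.S0396

noncomputable section

open scoped ComplexConjugate ComplexOrder Topology
open Matrix Filter

/-- first auxiliary functional -/
def nu (α : Chart) (x y : ℂ) : Fin 2 → ℂ := ![pA α x * y - pB α x, -(pA α x) ^ 17]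

/-- second auxiliary functional -/
def rr (α : Chart) (x y : ℂ) : Fin 2 → ℂ :=
  if α.1 = α.2 then ![1, 0] else ![y ^ 17, -∑ i ∈ Finset.range 17, (x ^ 2 * y) ^ i]

/-- determinant -/
def dt (u v : Fin 2 → ℂ) : ℂ := u 0 * v 1 - u 1 * v 0

lemma dt_nu_rr (α : Chart) (x y : ℂ) : dt (nu α x y) (rr α x y) = 1 := by
  unfold dt nu rr pA pB
  split_ifs with h
  · simp
  · have := mul_neg_geom_sum (x ^ 2 * y) 17
    simp
    linear_combination this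

lemma decomp {ν ρ : Fin 2 → ℂ} (h : dt ν ρ = 1) (φ : Fin 2 → ℂ) :
    φ = dt φ ρ • ν + dt ν φ • ρ := by
  unfold dt at *
  ext i
  fin_cases i
  · simp
    linear_combination (-φ 0) * h
  · simp
    linear_combination (-φ 1) * h

lemma nu_YY (t : ℂ) (a b : Fin 2) (x y : ℂ) (hy : y ≠ 0) :
    nu (a, b) x y ᵥ* YY t (a, b) ![x, y] = y⁻¹ • nu (a, fl b) x y⁻¹ +
      (t * ((pA (a, b) x * y - pB (a, b) x) *
        ((pA (a, b) x) ^ 16 * y ^ 10 + (pB (a, b) x) ^ 16 * y ^ 4))) • ![0, 1] := by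
  have hG := GG_mul (pA (a, b) x * y) (pB (a, b) x)
  ext i
  fin_cases i
  · simp [nu, YY, vecMul, dotProduct, Fin.sum_univ_two, pA_fly, pB_fly]
    field_simp
    ring
  · simp [nu, YY, EE, vecMul, dotProduct, Fin.sum_univ_two, pA_fly, pB_fly]
    field_simp
    linear_combination hG

lemma nu_XX (a b : Fin 2) (x y : ℂ) (hx : x ≠ 0) :
    nu (a, b) x y ᵥ* XX ![x, y] = x ^ 35 • nu (fl a, b) x⁻¹ y := by
  have h1 := pA_flx a b x hx
  have h2 := pB_flx a b x hx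
  ext i
  fin_cases i
  · simp [nu, XX, vecMul, dotProduct, Fin.sum_univ_two, h1, h2]
    field_simp
  · simp [nu, XX, vecMul, dotProduct, Fin.sum_univ_two, h1, h2]
    field_simp

lemma dt_XX (u v : Fin 2 → ℂ) (x y : ℂ) : dt (u ᵥ* XX ![x, y]) (v ᵥ* XX ![x, y]) =
    x ^ 34 * dt u v := by
  simp [dt, XX, vecMul, dotProduct, Fin.sum_univ_two]
  ring

lemma dt_smul_left (c : ℂ) (u v : Fin 2 → ℂ) : dt (c • u) v = c * dt u v := by
  simp [dt]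
  ring

lemma rr_XX (a b : Fin 2) (x y : ℂ) (hx : x ≠ 0) :
    rr (a, b) x y ᵥ* XX ![x, y] =
      dt (rr (a, b) x y ᵥ* XX ![x, y]) (rr (fl a, b) x⁻¹ y) • nu (fl a, b) x⁻¹ y +
      x⁻¹ • rr (fl a, b) x⁻¹ y := by
  have h1 := decomp (dt_nu_rr (fl a, b) x⁻¹ y) (rr (a, b) x y ᵥ* XX ![x, y])
  have h2 := dt_XX (nu (a, b) x y) (rr (a, b) x y) x y
  rw [nu_XX a b x y hx, dt_smul_left, dt_nu_rr] at h2
  have h3 : dt (nu (fl a, b) x⁻¹ y) (rr (a, b) x y ᵥ* XX ![x, y]) = x⁻¹ := by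
    have hx35 : x ^ 35 ≠ 0 := pow_ne_zero _ hx
    apply mul_left_cancel₀ hx35
    rw [h2]
    field_simp
  rw [h3] at h1
  exact h1

/-! ### change of chart -/

lemma hd_flip_y {t : ℂ} {H : MetricData 2} (hH : IsHermitianMetric (gg t) H) (a b : Fin 2)
    (x y : ℂ) (hy : y ≠ 0) (φ : Fin 2 → ℂ) :
    hd (H (a, b) ![x, y]) φ = hd (H (a, fl b) ![x, y⁻¹]) (φ ᵥ* YY t (a, b) ![x, y]) := by
  have hov : (![x, y] : Fin 2 → ℂ) ∈ overlap (a, b) (a, fl b) := by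
    simp [overlap, hy]
  have h := hH.compat (a, b) (a, fl b) ![x, y] hov
  have ht : tau (a, b) (a, fl b) ![x, y] = ![x, y⁻¹] := by
    ext i; fin_cases i <;> simp [tau, (fl_ne b).symm]
  have hg : gg t (a, b) (a, fl b) ![x, y] = YY t (a, b) ![x, y] := by
    simp [gg, (fl_ne b).symm]
  rw [ht, hg] at h
  rw [h, hd_compat]
  rw [isUnit_iff_ne_zero, YY, det_fin_two_of]
  simp [hy]

lemma hd_flip_x {t : ℂ} {H : MetricData 2} (hH : IsHermitianMetric (gg t) H) (a b : Fin 2)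
    (x y : ℂ) (hx : x ≠ 0) (φ : Fin 2 → ℂ) :
    hd (H (a, b) ![x, y]) φ = hd (H (fl a, b) ![x⁻¹, y]) (φ ᵥ* XX ![x, y]) := by
  have hov : (![x, y] : Fin 2 → ℂ) ∈ overlap (a, b) (fl a, b) := by
    simp [overlap, hx]
  have h := hH.compat (a, b) (fl a, b) ![x, y] hov
  have ht : tau (a, b) (fl a, b) ![x, y] = ![x⁻¹, y] := by
    ext i; fin_cases i <;> simp [tau, (fl_ne a).symm]
  have hg : gg t (a, b) (fl a, b) ![x, y] = XX ![x, y] := by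
    simp [gg, (fl_ne a).symm]
  rw [ht, hg] at h
  rw [h, hd_compat]
  rw [isUnit_iff_ne_zero, XX, det_fin_two_of]
  simp [hx]

/-! ### bounds -/

lemma norm_two_le {u v : ℂ} {C : ℝ} (hC : 0 ≤ C) (hu : ‖u‖ ≤ C) (hv : ‖v‖ ≤ C) :
    ‖(![u, v] : Fin 2 → ℂ)‖ ≤ C := by
  rw [pi_norm_le_iff_of_nonneg hC]
  intro i
  fin_cases i
  · exact hu
  · exact hv

lemma norm_pA_le (α : Chart) {x : ℂ} (hx : ‖x‖ ≤ 1) : ‖pA α x‖ ≤ 1 := by
  unfold pA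
  split_ifs
  · simp
  · rw [norm_pow]
    exact pow_le_one₀ (norm_nonneg _) hx

lemma norm_pB_le (α : Chart) {x : ℂ} (hx : ‖x‖ ≤ 1) : ‖pB α x‖ ≤ 1 := by
  unfold pB
  split_ifs
  · rw [norm_pow]
    exact pow_le_one₀ (norm_nonneg _) hx
  · simp

lemma norm_nu_le (α : Chart) {x y : ℂ} (hx : ‖x‖ ≤ 1) (hy : ‖y‖ ≤ 1) : ‖nu α x y‖ ≤ 2 := by
  have h1 := norm_pA_le α hx
  have h2 := norm_pB_le α hx
  refine norm_two_le (by norm_num) ?_ ?_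
  · calc ‖pA α x * y - pB α x‖ ≤ ‖pA α x * y‖ + ‖pB α x‖ := norm_sub_le _ _
      _ ≤ 1 + 1 := by
        gcongr
        rw [norm_mul]
        exact mul_le_one₀ h1 (norm_nonneg _) hy
      _ = 2 := by norm_num
  · rw [norm_neg, norm_pow]
    exact (pow_le_one₀ (norm_nonneg _) h1).trans (by norm_num)

lemma norm_rr_le (α : Chart) {x y : ℂ} {R : ℝ} (hR : 1 ≤ R) (hx : ‖x‖ ≤ R) (hy : ‖y‖ ≤ 1) :
    ‖rr α x y‖ ≤ 17 * R ^ 32 := by
  have hR32 : 1 ≤ R ^ 32 := one_le_pow₀ hR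
  have hR' : 1 ≤ 17 * R ^ 32 := by linarith
  unfold rr
  split_ifs
  · refine norm_two_le (by linarith) ?_ ?_
    · simpa using hR'
    · simp
      linarith
  · refine norm_two_le (by linarith) ?_ ?_
    · rw [norm_pow]
      exact (pow_le_one₀ (norm_nonneg _) hy).trans hR'
    · rw [norm_neg]
      calc ‖∑ i ∈ Finset.range 17, (x ^ 2 * y) ^ i‖
          ≤ ∑ i ∈ Finset.range 17, ‖(x ^ 2 * y) ^ i‖ := norm_sum_le _ _
        _ ≤ ∑ i ∈ Finset.range 17, R ^ 32 := by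
          refine Finset.sum_le_sum fun i hi => ?_
          have hi' : i ≤ 16 := by
            have := Finset.mem_range.1 hi
            omega
          have h1 : ‖x ^ 2 * y‖ ≤ R ^ 2 := by
            rw [norm_mul, norm_pow]
            calc ‖x‖ ^ 2 * ‖y‖ ≤ R ^ 2 * 1 := by gcongr
              _ = R ^ 2 := mul_one _
          have h2 : 1 ≤ R ^ 2 := one_le_pow₀ hR
          calc ‖(x ^ 2 * y) ^ i‖ = ‖x ^ 2 * y‖ ^ i := norm_pow _ _
            _ ≤ (R ^ 2) ^ i := by gcongr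
            _ ≤ (R ^ 2) ^ 16 := pow_le_pow_right₀ h2 hi'
            _ = R ^ 32 := by ring
        _ = 17 * R ^ 32 := by simp

lemma norm_dt_le {u v : Fin 2 → ℂ} {C D : ℝ} (hu : ‖u‖ ≤ C) (hv : ‖v‖ ≤ D) :
    ‖dt u v‖ ≤ 2 * (C * D) := by
  have hu0 := norm_le_pi_norm u 0
  have hu1 := norm_le_pi_norm u 1
  have hv0 := norm_le_pi_norm v 0
  have hv1 := norm_le_pi_norm v 1
  have hC : 0 ≤ C := (norm_nonneg _).trans hu
  have hD : 0 ≤ D := (norm_nonneg _).trans hv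
  unfold dt
  calc ‖u 0 * v 1 - u 1 * v 0‖ ≤ ‖u 0 * v 1‖ + ‖u 1 * v 0‖ := norm_sub_le _ _
    _ ≤ C * D + C * D := by
      rw [norm_mul, norm_mul]
      gcongr
      · exact hu0.trans hu
      · exact hv1.trans hv
      · exact hu1.trans hu
      · exact hv0.trans hv
    _ = 2 * (C * D) := by ring

lemma norm_rrXX_le (α : Chart) {x y : ℂ} {R : ℝ} (hR : 1 ≤ R) (hx : ‖x‖ ≤ R) (hy : ‖y‖ ≤ 1) :
    ‖rr α x y ᵥ* XX ![x, y]‖ ≤ 17 * R ^ 65 := by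
  have h := norm_rr_le α hR hx hy
  have h0 := (norm_le_pi_norm (rr α x y) 0).trans h
  have h1 := (norm_le_pi_norm (rr α x y) 1).trans h
  have hR0 : 0 ≤ R := by linarith
  have e : rr α x y ᵥ* XX ![x, y] = ![rr α x y 0 * x ^ 33, rr α x y 1 * x] := by
    ext i
    fin_cases i <;> simp [XX, vecMul, dotProduct, Fin.sum_univ_two]
  rw [e]
  refine norm_two_le (by positivity) ?_ ?_
  · rw [norm_mul, norm_pow]
    calc ‖rr α x y 0‖ * ‖x‖ ^ 33 ≤ (17 * R ^ 32) * R ^ 33 := by gcongr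
      _ = 17 * R ^ 65 := by ring
  · rw [norm_mul]
    calc ‖rr α x y 1‖ * ‖x‖ ≤ (17 * R ^ 32) * R := by gcongr
      _ = 17 * R ^ 33 := by ring
      _ ≤ 17 * R ^ 65 := by
        gcongr
        norm_num

lemma hd_le_scaled {H : MetricData 2} (hpos : ∀ α p, (H α p).PosDef) {m : ℝ}
    (hm : ∀ α (p φ : Fin 2 → ℂ), ‖p‖ ≤ 1 → ‖φ‖ ≤ 1 → hd (H α p) φ ≤ m)
    (α : Chart) (p φ : Fin 2 → ℂ) (hp : ‖p‖ ≤ 1) {C : ℝ} (hφ : ‖φ‖ ≤ C) :
    hd (H α p) φ ≤ m * C ^ 2 := by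
  have hm0 : 0 ≤ m := (hd_nonneg (hpos α p) 0).trans (hm α p 0 hp (by simp))
  have hC : 0 ≤ C := (norm_nonneg _).trans hφ
  by_cases h0 : C = 0
  · subst h0
    have : φ = 0 := by simpa using hφ
    subst this
    simp [hd_zero]
  · have hC' : 0 < C := lt_of_le_of_ne hC (Ne.symm h0)
    have h1 : φ = (C : ℂ) • ((C : ℂ)⁻¹ • φ) := by
      rw [smul_smul, mul_inv_cancel₀ (by exact_mod_cast h0), one_smul]
    have h2 := hm α p ((C : ℂ)⁻¹ • φ) hp (by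
      rw [norm_smul, norm_inv, Complex.norm_real, Real.norm_of_nonneg hC]
      rw [inv_mul_le_iff₀ hC']
      simpa using hφ)
    rw [h1, hd_smul, Complex.norm_real, Real.norm_of_nonneg hC]
    calc C ^ 2 * hd (H α p) ((C : ℂ)⁻¹ • φ) ≤ C ^ 2 * m := by gcongr
      _ = m * C ^ 2 := mul_comm _ _

lemma differentiable_nu (α : Chart) (x : ℂ) : Differentiable ℂ (fun y => nu α x y) := by
  rw [differentiable_pi]
  intro i
  fin_cases i
  · change Differentiable ℂ (fun y => pA α x * y - pB α x)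
    fun_prop
  · simp [nu]

lemma differentiable_rr (α : Chart) (y : ℂ) : Differentiable ℂ (fun x => rr α x y) := by
  rw [differentiable_pi]
  intro i
  unfold rr
  split_ifs
  · fun_prop
  · fin_cases i
    · simp
    · simp only [Fin.mk_one, Matrix.cons_val_one, Matrix.cons_val_fin_one]
      fun_prop

/-- estimate for the first functional -/
lemma hd_nu_le {t : ℂ} {H : MetricData 2} (hH : IsHermitianMetric (gg t) H)
    (hG : IsGriffithsPositive H) {m : ℝ}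
    (hm : ∀ α (p φ : Fin 2 → ℂ), ‖p‖ ≤ 1 → ‖φ‖ ≤ 1 → hd (H α p) φ ≤ m)
    {ρ : ℝ} (hρ : 1 ≤ ρ) (α : Chart) (x y : ℂ) (hx : ‖x‖ ≤ 1) (hy : ‖y‖ ≤ 1) :
    hd (H α ![x, y]) (nu α x y) ≤
      m * (2 / ρ + ‖t‖ * ((ρ + 1) * (ρ ^ 10 + ρ ^ 4))) ^ 2 := by
  obtain ⟨a, b⟩ := α
  have hρ0 : 0 < ρ := by linarith
  obtain ⟨z, hz, hle⟩ := mp hH.smooth hH.posDef hG (a, b) ![x, 0] ![0, 1]
    (fun h => by simpa using congrFun h 1) (fun z => nu (a, b) x z)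
    (differentiable_nu _ _) hρ0 y (hy.trans hρ)
  have e1 : ∀ z : ℂ, (![x, 0] : Fin 2 → ℂ) + z • ![0, 1] = ![x, z] := by
    intro z
    ext i; fin_cases i <;> simp
  rw [e1, e1] at hle
  refine hle.trans ?_
  have hz0 : z ≠ 0 := by
    intro h
    rw [h, norm_zero] at hz
    linarith
  rw [hd_flip_y hH a b x z hz0, nu_YY t a b x z hz0]
  have hzi : ‖z⁻¹‖ ≤ 1 := by
    rw [norm_inv, hz]
    exact inv_le_one_of_one_le₀ hρ
  have hA := norm_pA_le (a, b) hx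
  have hB := norm_pB_le (a, b) hx
  refine hd_le_scaled hH.posDef hm _ _ _ (norm_two_le (by norm_num) hx hzi) ?_
  have hn := norm_nu_le (a, fl b) hx hzi
  calc _ ≤ ‖z⁻¹ • nu (a, fl b) x z⁻¹‖ + ‖(t * ((pA (a, b) x * z - pB (a, b) x) *
        ((pA (a, b) x) ^ 16 * z ^ 10 + (pB (a, b) x) ^ 16 * z ^ 4))) •
          (![0, 1] : Fin 2 → ℂ)‖ := norm_add_le _ _
    _ ≤ 2 / ρ + ‖t‖ * ((ρ + 1) * (ρ ^ 10 + ρ ^ 4)) := by
      gcongr
      · rw [norm_smul, norm_inv, hz]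
        calc ρ⁻¹ * ‖nu (a, fl b) x z⁻¹‖ ≤ ρ⁻¹ * 2 := by gcongr
          _ = 2 / ρ := by ring
      · have h01 : ‖(![0, 1] : Fin 2 → ℂ)‖ ≤ 1 :=
          norm_two_le (by norm_num) (by simp) (by simp)
        rw [norm_smul, norm_mul, norm_mul]
        calc ‖t‖ * (‖pA (a, b) x * z - pB (a, b) x‖ *
              ‖(pA (a, b) x) ^ 16 * z ^ 10 + (pB (a, b) x) ^ 16 * z ^ 4‖) *
              ‖(![0, 1] : Fin 2 → ℂ)‖
            ≤ ‖t‖ * ((ρ + 1) * (ρ ^ 10 + ρ ^ 4)) * 1 := by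
              gcongr
              · calc ‖pA (a, b) x * z - pB (a, b) x‖ ≤ ‖pA (a, b) x * z‖ + ‖pB (a, b) x‖ :=
                      norm_sub_le _ _
                  _ ≤ 1 * ρ + 1 := by
                    rw [norm_mul, hz]
                    gcongr
                  _ = ρ + 1 := by ring
              · calc ‖(pA (a, b) x) ^ 16 * z ^ 10 + (pB (a, b) x) ^ 16 * z ^ 4‖
                    ≤ ‖(pA (a, b) x) ^ 16 * z ^ 10‖ + ‖(pB (a, b) x) ^ 16 * z ^ 4‖ :=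
                      norm_add_le _ _
                  _ ≤ 1 * ρ ^ 10 + 1 * ρ ^ 4 := by
                    rw [norm_mul, norm_mul, norm_pow, norm_pow, norm_pow, norm_pow, hz]
                    gcongr
                    · exact pow_le_one₀ (norm_nonneg _) hA
                    · exact pow_le_one₀ (norm_nonneg _) hB
                  _ = ρ ^ 10 + ρ ^ 4 := by ring
          _ = ‖t‖ * ((ρ + 1) * (ρ ^ 10 + ρ ^ 4)) := mul_one _

/-- estimate for the second functional -/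
lemma hd_rr_le {t : ℂ} {H : MetricData 2} (hH : IsHermitianMetric (gg t) H)
    (hG : IsGriffithsPositive H) {m δ : ℝ}
    (hm : ∀ α (p φ : Fin 2 → ℂ), ‖p‖ ≤ 1 → ‖φ‖ ≤ 1 → hd (H α p) φ ≤ m)
    (hδ : ∀ α (x y : ℂ), ‖x‖ ≤ 1 → ‖y‖ ≤ 1 → hd (H α ![x, y]) (nu α x y) ≤ δ)
    {R : ℝ} (hR : 1 ≤ R) (α : Chart) (x y : ℂ) (hx : ‖x‖ ≤ 1) (hy : ‖y‖ ≤ 1) :
    hd (H α ![x, y]) (rr α x y) ≤
      2 * ((578 * R ^ 65) ^ 2 * δ) + 2 * ((R⁻¹) ^ 2 * (m * 17 ^ 2)) := by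
  obtain ⟨a, b⟩ := α
  have hR0 : 0 < R := by linarith
  obtain ⟨z, hz, hle⟩ := mp hH.smooth hH.posDef hG (a, b) ![0, y] ![1, 0]
    (fun h => by simpa using congrFun h 0) (fun z => rr (a, b) z y)
    (differentiable_rr _ _) hR0 x (hx.trans hR)
  have e1 : ∀ z : ℂ, (![0, y] : Fin 2 → ℂ) + z • ![1, 0] = ![z, y] := by
    intro z
    ext i; fin_cases i <;> simp
  rw [e1, e1] at hle
  refine hle.trans ?_
  have hz0 : z ≠ 0 := by
    intro h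
    rw [h, norm_zero] at hz
    linarith
  have hzi : ‖z⁻¹‖ ≤ 1 := by
    rw [norm_inv, hz]
    exact inv_le_one_of_one_le₀ hR
  rw [hd_flip_x hH a b z y hz0, rr_XX a b z y hz0]
  refine (hd_add_le (hH.posDef _ _) _ _).trans ?_
  rw [hd_smul, hd_smul]
  have hr1 : ‖rr (fl a, b) z⁻¹ y‖ ≤ 17 := by
    have := norm_rr_le (fl a, b) (le_refl (1 : ℝ)) hzi hy
    simpa using this
  have hδ0 : 0 ≤ δ := (hd_nonneg (hH.posDef _ _) _).trans (hδ (a, b) x y hx hy)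
  have hA : ‖dt (rr (a, b) z y ᵥ* XX ![z, y]) (rr (fl a, b) z⁻¹ y)‖ ≤ 578 * R ^ 65 := by
    have := norm_dt_le (norm_rrXX_le (a, b) hR hz.le hy) hr1
    calc _ ≤ _ := this
      _ = 578 * R ^ 65 := by ring
  have h1 := hδ (fl a, b) z⁻¹ y hzi hy
  have h1' := hd_nonneg (hH.posDef (fl a, b) ![z⁻¹, y]) (nu (fl a, b) z⁻¹ y)
  have h2 := hd_le_scaled hH.posDef hm (fl a, b) ![z⁻¹, y] (rr (fl a, b) z⁻¹ y)
    (norm_two_le (by norm_num) hzi hy) hr1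
  have h3 : ‖z⁻¹‖ = R⁻¹ := by rw [norm_inv, hz]
  rw [h3]
  gcongr

/-- the contraction -/
lemma contraction {t : ℂ} {H : MetricData 2} (hH : IsHermitianMetric (gg t) H)
    (hG : IsGriffithsPositive H) {m : ℝ}
    (hm : ∀ α (p φ : Fin 2 → ℂ), ‖p‖ ≤ 1 → ‖φ‖ ≤ 1 → hd (H α p) φ ≤ m)
    {R ρ : ℝ} (hR : 1 ≤ R) (hR2 : 16 * 578 ^ 2 ≤ R ^ 2) (hρ : 1 ≤ ρ)
    (hδ : (2 * 34 ^ 2 + 4 * 34 ^ 2 * (578 * R ^ 65) ^ 2) *
      (2 / ρ + ‖t‖ * ((ρ + 1) * (ρ ^ 10 + ρ ^ 4))) ^ 2 ≤ 1 / 4)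
    (α : Chart) (p φ : Fin 2 → ℂ) (hp : ‖p‖ ≤ 1) (hφ : ‖φ‖ ≤ 1) :
    hd (H α p) φ ≤ m / 2 := by
  have hm0 : 0 ≤ m := (hd_nonneg (hH.posDef α p) 0).trans (hm α p 0 hp (by simp))
  set δ : ℝ := (2 / ρ + ‖t‖ * ((ρ + 1) * (ρ ^ 10 + ρ ^ 4))) ^ 2 with hδdef
  have hx : ‖p 0‖ ≤ 1 := (norm_le_pi_norm p 0).trans hp
  have hy : ‖p 1‖ ≤ 1 := (norm_le_pi_norm p 1).trans hp
  have hpe : p = ![p 0, p 1] := by
    ext i; fin_cases i <;> rfl
  have h1 := fun (α : Chart) (x y : ℂ) (hx : ‖x‖ ≤ 1) (hy : ‖y‖ ≤ 1) =>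
    hd_nu_le hH hG hm hρ α x y hx hy
  rw [← hδdef] at h1
  have h2 := hd_rr_le hH hG hm h1 hR α (p 0) (p 1) hx hy
  have h3 := h1 α (p 0) (p 1) hx hy
  rw [← hpe] at h2 h3
  have hn := norm_nu_le α hx hy
  have hr : ‖rr α (p 0) (p 1)‖ ≤ 17 := by
    have := norm_rr_le α (le_refl (1 : ℝ)) hx hy
    simpa using this
  have hdec := decomp (dt_nu_rr α (p 0) (p 1)) φ
  have ha : ‖dt φ (rr α (p 0) (p 1))‖ ≤ 34 := by
    calc _ ≤ _ := norm_dt_le hφ hr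
      _ = 34 := by norm_num
  have hb : ‖dt (nu α (p 0) (p 1)) φ‖ ≤ 34 := by
    calc _ ≤ _ := norm_dt_le hn hφ
      _ ≤ 34 := by norm_num
  rw [hdec]
  refine (hd_add_le (hH.posDef _ _) _ _).trans ?_
  rw [hd_smul, hd_smul]
  have hn0 := hd_nonneg (hH.posDef α p) (nu α (p 0) (p 1))
  have hr0 := hd_nonneg (hH.posDef α p) (rr α (p 0) (p 1))
  have hRi : 4 * 34 ^ 2 * ((R⁻¹) ^ 2 * 17 ^ 2) ≤ 1 / 4 := by
    rw [inv_pow]
    have hRpos : 0 < R ^ 2 := by positivity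
    rw [← div_eq_inv_mul, ← mul_div_assoc, div_le_iff₀ hRpos]
    linarith
  calc 2 * (‖dt φ (rr α (p 0) (p 1))‖ ^ 2 * hd (H α p) (nu α (p 0) (p 1))) +
        2 * (‖dt (nu α (p 0) (p 1)) φ‖ ^ 2 * hd (H α p) (rr α (p 0) (p 1)))
      ≤ 2 * (34 ^ 2 * (m * δ)) + 2 * (34 ^ 2 * (2 * ((578 * R ^ 65) ^ 2 * (m * δ)) +
          2 * ((R⁻¹) ^ 2 * (m * 17 ^ 2)))) := by gcongr
    _ = m * ((2 * 34 ^ 2 + 4 * 34 ^ 2 * (578 * R ^ 65) ^ 2) * δ) +
          m * (4 * 34 ^ 2 * ((R⁻¹) ^ 2 * 17 ^ 2)) := by ring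
    _ ≤ m * (1 / 4) + m * (1 / 4) := by gcongr
    _ = m / 2 := by ring

/-- the compactness argument: no bound can be contracted -/
lemma no_contraction {H : MetricData 2} (hH : ∀ α (i j : Fin 2), ContDiff ℝ (⊤ : ℕ∞)
    (fun p => H α p i j)) (hpos : ∀ α p, (H α p).PosDef)
    (hc : ∀ m : ℝ, (∀ α (p φ : Fin 2 → ℂ), ‖p‖ ≤ 1 → ‖φ‖ ≤ 1 → hd (H α p) φ ≤ m) →
      ∀ α (p φ : Fin 2 → ℂ), ‖p‖ ≤ 1 → ‖φ‖ ≤ 1 → hd (H α p) φ ≤ m / 2) : False := by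
  have hK : IsCompact (Metric.closedBall (0 : Fin 2 → ℂ) 1 ×ˢ
      Metric.closedBall (0 : Fin 2 → ℂ) 1) :=
    (isCompact_closedBall _ _).prod (isCompact_closedBall _ _)
  have hne : (Metric.closedBall (0 : Fin 2 → ℂ) 1 ×ˢ
      Metric.closedBall (0 : Fin 2 → ℂ) 1).Nonempty := ⟨(0, 0), by simp⟩
  have hmax : ∀ α : Chart, ∃ q ∈ (Metric.closedBall (0 : Fin 2 → ℂ) 1 ×ˢ
      Metric.closedBall (0 : Fin 2 → ℂ) 1), ∀ q' ∈ (Metric.closedBall (0 : Fin 2 → ℂ) 1 ×ˢ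
      Metric.closedBall (0 : Fin 2 → ℂ) 1), hd (H α q'.1) q'.2 ≤ hd (H α q.1) q.2 := by
    intro α
    obtain ⟨q, hq, hq'⟩ := hK.exists_isMaxOn hne (continuous_hd hH hpos α).continuousOn
    exact ⟨q, hq, fun q' hq'' => hq' hq''⟩
  choose q hq hq' using hmax
  obtain ⟨α₀, hα₀⟩ := Finite.exists_max (fun α : Chart => hd (H α (q α).1) (q α).2)
  have hb : ∀ α (p φ : Fin 2 → ℂ), ‖p‖ ≤ 1 → ‖φ‖ ≤ 1 →
      hd (H α p) φ ≤ hd (H α₀ (q α₀).1) (q α₀).2 := by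
    intro α p φ hp hφ
    exact (hq' α (p, φ) ⟨by simpa using hp, by simpa using hφ⟩).trans (hα₀ α)
  have h1 := hc _ hb α₀ (q α₀).1 (q α₀).2 (by simpa using (hq α₀).1) (by simpa using (hq α₀).2)
  have h2 := hb α₀ 0 ![1, 0] (by simp) (norm_two_le (by norm_num) (by simp) (by simp))
  have h3 : 0 < hd (H α₀ 0) ![1, 0] :=
    hd_pos (hpos _ _) (fun h => by simpa using congrFun h 0)
  linarith

theorem exists_t : ∃ t : ℂ, t ≠ 0 ∧ ∀ H : MetricData 2, IsHermitianMetric (gg t) H →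
    ¬ IsGriffithsPositive H := by
  obtain ⟨R, hR, hR2⟩ : ∃ R : ℝ, 1 ≤ R ∧ 16 * 578 ^ 2 ≤ R ^ 2 := ⟨2312, by norm_num, by norm_num⟩
  obtain ⟨M, hM⟩ : ∃ M : ℝ, M = 2 * 34 ^ 2 + 4 * 34 ^ 2 * (578 * R ^ 65) ^ 2 := ⟨_, rfl⟩
  have hM1 : 1 ≤ M := by
    rw [hM]
    have : (0 : ℝ) ≤ 4 * 34 ^ 2 * (578 * R ^ 65) ^ 2 := by positivity
    linarith
  have hM0 : 0 < M := by linarith
  set ρ : ℝ := 8 * M with hρdef
  have hρ : 1 ≤ ρ := by linarith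
  have hρ0 : 0 < ρ := by linarith
  set K : ℝ := (ρ + 1) * (ρ ^ 10 + ρ ^ 4) with hK
  have hK0 : 0 < K := by positivity
  set τ : ℝ := 1 / (4 * M * K) with hτ
  have hτ0 : 0 < τ := by positivity
  refine ⟨(τ : ℂ), by exact_mod_cast hτ0.ne', ?_⟩
  intro H hH hG
  refine no_contraction hH.smooth hH.posDef ?_
  intro m hm
  refine contraction hH hG hm hR hR2 hρ ?_
  rw [Complex.norm_real, Real.norm_of_nonneg hτ0.le, ← hM, ← hK]
  have e1 : 2 / ρ + τ * K = 1 / (2 * M) := by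
    rw [hτ, hρdef]
    field_simp
    norm_num
  rw [e1]
  have e2 : M * (1 / (2 * M)) ^ 2 = 1 / (4 * M) := by
    field_simp
    norm_num
  rw [e2, div_le_div_iff₀ (by positivity) (by norm_num)]
  linarith

end

end Crest.Agent.S0396
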