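import Crest.Agent.S0396_Sec

/-!
Ampleness of `E_t` for `t ≠ 0`, by explicit sections.
-/

set_option autoImplicit false
open Crest.AlgGeometry.QuadricBundle

namespace Crest.Agent.S0396

noncomputable section

open MvPolynomial

/-- compatibility along one ordered pair of charts -/
def Compat (g : Transition 2) (r s : ℤ) (Q : Chart → (Fin 2 → ℂ) → MvPolynomial (Fin 2) ℂ)
    (α β : Chart) : Prop :=
  ∀ p ∈ overlap α β, Q α p = lineTrans r s α β p • frameSubst (g α β p) (Q β (tau α β p))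

lemma tau_tau (α β : Chart) (p : Fin 2 → ℂ) : tau β α (tau α β p) = p := by
  ext i
  fin_cases i
  · by_cases h : α.1 = β.1
    · simp [tau, h]
    · have h' : ¬ β.1 = α.1 := fun e => h e.symm
      simp [tau, h, h']
  · by_cases h : α.2 = β.2
    · simp [tau, h]
    · have h' : ¬ β.2 = α.2 := fun e => h e.symm
      simp [tau, h, h']

lemma lineTrans_inv (r s : ℤ) (α β : Chart) (p : Fin 2 → ℂ) (hp : p ∈ overlap α β) :
    lineTrans r s α β p * lineTrans r s β α (tau α β p) = 1 := by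
  obtain ⟨h1, h2⟩ := hp
  unfold lineTrans tau
  by_cases ha : α.1 = β.1 <;> by_cases hb : α.2 = β.2
  · simp [ha, hb]
  · have hy := h2 hb
    have hb' : ¬ β.2 = α.2 := fun e => hb e.symm
    simp only [ha, hb, hb', if_true, if_false, one_mul, Matrix.cons_val_zero,
      Matrix.cons_val_one, inv_zpow]
    exact mul_inv_cancel₀ (zpow_ne_zero _ hy)
  · have hx := h1 ha
    have ha' : ¬ β.1 = α.1 := fun e => ha e.symm
    simp only [ha, ha', hb, if_true, if_false, mul_one, Matrix.cons_val_zero,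
      Matrix.cons_val_one, inv_zpow]
    exact mul_inv_cancel₀ (zpow_ne_zero _ hx)
  · have hy := h2 hb
    have hx := h1 ha
    have ha' : ¬ β.1 = α.1 := fun e => ha e.symm
    have hb' : ¬ β.2 = α.2 := fun e => hb e.symm
    simp only [ha, ha', hb, hb', if_false, Matrix.cons_val_zero,
      Matrix.cons_val_one, inv_zpow]
    have e1 := mul_inv_cancel₀ (zpow_ne_zero r hx)
    have e2 := mul_inv_cancel₀ (zpow_ne_zero s hy)
    linear_combination e1 * (p 1 ^ s * (p 1 ^ s)⁻¹) + e2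

lemma overlap_symm {α β : Chart} {p : Fin 2 → ℂ} (hp : p ∈ overlap α β) :
    tau α β p ∈ overlap β α := by
  obtain ⟨h1, h2⟩ := hp
  constructor
  · intro h
    have := h1 (Ne.symm h)
    simp [tau, Ne.symm h, this]
  · intro h
    have := h2 (Ne.symm h)
    simp [tau, Ne.symm h, this]

lemma Compat.symm {t : ℂ} {r s : ℤ} {Q : Chart → (Fin 2 → ℂ) → MvPolynomial (Fin 2) ℂ}
    {α β : Chart} (h : Compat (gg t) r s Q α β) : Compat (gg t) r s Q β α := by
  intro p hp
  have hq := overlap_symm hp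
  have h1 := h (tau β α p) hq
  rw [tau_tau] at h1
  rw [h1, frameSubst_smul, frameSubst_comp, smul_smul, lineTrans_inv _ _ _ _ _ hp, one_smul]
  have hc := (gg_isHoloCocycle t).cocycle β α β p ⟨hp, by constructor <;> intro h <;> exact absurd rfl h⟩
  rw [hc, (gg_isHoloCocycle t).refl, frameSubst_one]

lemma frameSubst_one' (t : ℂ) (α : Chart) (p : Fin 2 → ℂ) (Q : MvPolynomial (Fin 2) ℂ) :
    frameSubst (gg t α α p) Q = Q := by
  rw [(gg_isHoloCocycle t).refl, frameSubst_one]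

lemma Compat.trans {t : ℂ} {r s : ℤ} {Q : Chart → (Fin 2 → ℂ) → MvPolynomial (Fin 2) ℂ}
    {a b : Fin 2} (h : Compat (gg t) r s Q (a, b) (a, fl b))
    (h' : Compat (gg t) r s Q (a, fl b) (fl a, fl b)) :
    Compat (gg t) r s Q (a, b) (fl a, fl b) := by
  intro p hp
  obtain ⟨hx, hy⟩ := hp
  have hx' : p 0 ≠ 0 := hx (by simpa using (fl_ne a).symm)
  have hy' : p 1 ≠ 0 := hy (by simpa using (fl_ne b).symm)
  have e1 : p ∈ overlap (a, b) (a, fl b) := ⟨fun h => absurd rfl h, fun _ => hy'⟩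
  have e2 : tau (a, b) (a, fl b) p ∈ overlap (a, fl b) (fl a, fl b) := by
    constructor
    · intro _; simpa [tau] using hx'
    · intro h; exact absurd rfl h
  have h1 := h p e1
  rw [h' _ e2] at h1
  rw [frameSubst_smul, frameSubst_comp, smul_smul] at h1
  have hc := (gg_isHoloCocycle t).cocycle (a, b) (a, fl b) (fl a, fl b) p ⟨e1, ⟨hx, hy⟩⟩
  rw [hc] at h1
  have ht : tau (a, fl b) (fl a, fl b) (tau (a, b) (a, fl b) p) = tau (a, b) (fl a, fl b) p := by
    ext i; fin_cases i <;> simp [tau, (fl_ne a).symm, (fl_ne b).symm]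
  rw [ht] at h1
  rw [h1]
  congr 1
  simp [lineTrans, tau, (fl_ne a).symm, (fl_ne b).symm, mul_comm]

lemma isSec_of_flips {t : ℂ} {n : ℕ} {r s : ℤ}
    {Q : Chart → (Fin 2 → ℂ) → MvPolynomial (Fin 2) ℂ}
    (hhom : ∀ α p, (Q α p).IsHomogeneous n)
    (hdiff : ∀ α (m : Fin 2 →₀ ℕ), Differentiable ℂ (fun p => MvPolynomial.coeff m (Q α p)))
    (hx : ∀ (b : Fin 2) (x y : ℂ), x ≠ 0 →
      Q (0, b) ![x, y] = x ^ r • frameSubst (XX ![x, y]) (Q (1, b) ![x⁻¹, y]))
    (hy : ∀ (a : Fin 2) (x y : ℂ), y ≠ 0 →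
      Q (a, 0) ![x, y] = y ^ s • frameSubst (YY t (a, 0) ![x, y]) (Q (a, 1) ![x, y⁻¹])) :
    IsSec (gg t) n r s Q := by
  have hvec : ∀ p : Fin 2 → ℂ, p = ![p 0, p 1] := by
    intro p; ext i; fin_cases i <;> rfl
  have hX : ∀ b, Compat (gg t) r s Q (0, b) (1, b) := by
    intro b p hp
    have hx0 : p 0 ≠ 0 := hp.1 (by simp)
    have := hx b (p 0) (p 1) hx0
    rw [← hvec p] at this
    rw [this]
    simp [lineTrans, gg, tau]
  have hX' : ∀ b, Compat (gg t) r s Q (1, b) (0, b) := fun b => (hX b).symm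
  have hY : ∀ a, Compat (gg t) r s Q (a, 0) (a, 1) := by
    intro a p hp
    have hy0 : p 1 ≠ 0 := hp.2 (by simp)
    have := hy a (p 0) (p 1) hy0
    rw [← hvec p] at this
    rw [this]
    simp [lineTrans, gg, tau]
  have hY' : ∀ a, Compat (gg t) r s Q (a, 1) (a, 0) := fun a => (hY a).symm
  have hrefl : ∀ α, Compat (gg t) r s Q α α := by
    intro α p hp
    rw [frameSubst_one']
    have : tau α α p = p := by ext i; fin_cases i <;> simp [tau]
    rw [this]
    simp [lineTrans]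
  refine ⟨hhom, hdiff, ?_⟩
  rintro ⟨a, b⟩ ⟨a', b'⟩
  have h00 : Compat (gg t) r s Q (0, 0) (1, 1) := by
    have := Compat.trans (a := 0) (b := 0) (hY 0) (hX 1)
    simpa [fl] using this
  have h01 : Compat (gg t) r s Q (0, 1) (1, 0) := by
    have := Compat.trans (a := 0) (b := 1) (t := t) (Q := Q) (r := r) (s := s)
      (by simpa [fl] using hY' 0) (by simpa [fl] using hX 0)
    simpa [fl] using this
  fin_cases a <;> fin_cases b <;> fin_cases a' <;> fin_cases b' <;>
    first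
    | exact hrefl _
    | exact hX _
    | exact hX' _
    | exact hY _
    | exact hY' _
    | exact h00
    | exact h00.symm
    | exact h01
    | exact h01.symm

/-- The symmetry `(x,y) ↦ (1/x,1/y)`. -/
def sw (α : Chart) : Chart := (fl α.1, fl α.2)

lemma gg_sw (t : ℂ) (α β : Chart) (p : Fin 2 → ℂ) : gg t (sw α) (sw β) p = gg t α β p := by
  obtain ⟨a, b⟩ := α
  obtain ⟨a', b'⟩ := β
  fin_cases a <;> fin_cases b <;> fin_cases a' <;> fin_cases b' <;>
    simp [gg, sw, fl, YY, pA, pB]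

lemma IsSec.sw {t : ℂ} {n : ℕ} {r s : ℤ}
    {Q : Chart → (Fin 2 → ℂ) → MvPolynomial (Fin 2) ℂ} (h : IsSec (gg t) n r s Q) :
    IsSec (gg t) n r s (fun α p => Q (sw α) p) := by
  refine ⟨fun α p => h.1 _ p, fun α m => h.2.1 _ m, fun α β p hp => ?_⟩
  have hinj : ∀ u v : Fin 2, (fl u = fl v) ↔ u = v := by
    intro u v; fin_cases u <;> fin_cases v <;> simp [fl]
  have hp' : p ∈ overlap (Crest.Agent.S0396.sw α) (Crest.Agent.S0396.sw β) := by
    constructor
    · intro h; exact hp.1 (fun h' => h (by simp [Crest.Agent.S0396.sw, h']))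
    · intro h; exact hp.2 (fun h' => h (by simp [Crest.Agent.S0396.sw, h']))
  have := h.2.2 _ _ p hp'
  rw [gg_sw] at this
  show Q (Crest.Agent.S0396.sw α) p = _
  rw [this]
  simp only [lineTrans, tau, Crest.Agent.S0396.sw, hinj]

lemma gen_of_b0 {t : ℂ} {n : ℕ} {r s : ℤ}
    (h : ∀ (a : Fin 2) (p : Fin 2 → ℂ) (R : MvPolynomial (Fin 2) ℂ), R.IsHomogeneous n →
      R ∈ values (gg t) n r s (a, 0) p) : Gen (gg t) n r s := by
  rintro ⟨a, b⟩ p R hR
  fin_cases b
  · exact h a p R hR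
  · obtain ⟨Q, hQ, hQv⟩ := h (fl a) p R hR
    refine ⟨_, hQ.sw, ?_⟩
    simpa [sw, fl] using hQv

end

end Crest.Agent.S0396
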