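import Crest.Prelude.Def_QuadricBundle

/-!
The rank two bundle `E_t` on `ℙ¹ × ℙ¹`.
-/

set_option autoImplicit false
open Crest.AlgGeometry.QuadricBundle

namespace Crest.Agent.S0396

noncomputable section

/-- complete homogeneous sum of degree 16 in two variables -/
def GG (u v : ℂ) : ℂ := ∑ i ∈ Finset.range 17, u ^ i * v ^ (17 - 1 - i)

lemma GG_mul (u v : ℂ) : GG u v * (u - v) = u ^ 17 - v ^ 17 := by
  unfold GG
  exact (Commute.all u v).geom_sum₂_mul 17

lemma GG_comm (u v : ℂ) : GG u v = GG v u := by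
  unfold GG
  exact (Commute.all u v).geom_sum₂_comm 17

lemma GG_smul (c u v : ℂ) : GG (c * u) (c * v) = c ^ 16 * GG u v := by
  unfold GG
  rw [Finset.mul_sum]
  refine Finset.sum_congr rfl fun i hi => ?_
  have h : i ≤ 16 := by
    have := Finset.mem_range.1 hi
    omega
  have h2 : c ^ 16 = c ^ i * c ^ (17 - 1 - i) := by
    rw [← pow_add]; congr 1; omega
  rw [h2]; ring

/-- The off-diagonal entry of the transition in the second direction. -/
def EE (t A B y : ℂ) : ℂ := y⁻¹ * GG (A * y) B + t * (A ^ 16 * y ^ 10 + B ^ 16 * y ^ 4)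

lemma EE_flip (t A B y : ℂ) (hy : y ≠ 0) : EE t A B y = y ^ 14 * EE t B A y⁻¹ := by
  unfold EE
  have h1 : GG (B * y⁻¹) A = (y⁻¹) ^ 16 * GG (A * y) B := by
    have := GG_smul y⁻¹ B (A * y)
    rw [GG_comm (A * y) B, ← this]
    congr 1
    · ring
    · field_simp
  rw [h1]
  field_simp
  ring

lemma EE_scale (t A B y c : ℂ) : EE t (c * A) (c * B) y = c ^ 16 * EE t A B y := by
  unfold EE
  have h1 : GG (c * A * y) (c * B) = c ^ 16 * GG (A * y) B := by
    rw [mul_assoc, GG_smul]
  rw [h1]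
  ring

/-- first parameter in chart `α` -/
def pA (α : Chart) (x : ℂ) : ℂ := if α.1 = α.2 then 1 else x ^ 2
/-- second parameter in chart `α` -/
def pB (α : Chart) (x : ℂ) : ℂ := if α.1 = α.2 then x ^ 2 else 1

/-- transition in the second direction -/
def YY (t : ℂ) (α : Chart) (p : Fin 2 → ℂ) : Matrix (Fin 2) (Fin 2) ℂ :=
  !![-((p 1)⁻¹ ^ 2), EE t (pA α (p 0)) (pB α (p 0)) (p 1); 0, (p 1) ^ 16]

/-- transition in the first direction -/
def XX (p : Fin 2 → ℂ) : Matrix (Fin 2) (Fin 2) ℂ :=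
  !![(p 0) ^ 33, 0; 0, p 0]

/-- The bundle `E_t`. -/
def gg (t : ℂ) : Transition 2 := fun α β p =>
  if α.1 = β.1 then (if α.2 = β.2 then 1 else YY t α p)
  else (if α.2 = β.2 then XX p else YY t α p * XX p)

/-- the other element of `Fin 2` -/
def fl (a : Fin 2) : Fin 2 := a + 1

lemma fl_ne (a : Fin 2) : fl a ≠ a := by fin_cases a <;> simp [fl]
lemma fl_fl (a : Fin 2) : fl (fl a) = a := by fin_cases a <;> simp [fl]
lemma eq_fl_of_ne {a b : Fin 2} (h : a ≠ b) : b = fl a := by
  fin_cases a <;> fin_cases b <;> simp_all [fl]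

lemma pA_flx (a b : Fin 2) (x : ℂ) (hx : x ≠ 0) : pA (fl a, b) x⁻¹ = (x⁻¹) ^ 2 * pA (a, b) x := by
  fin_cases a <;> fin_cases b <;> simp [pA, fl] <;> field_simp
lemma pB_flx (a b : Fin 2) (x : ℂ) (hx : x ≠ 0) : pB (fl a, b) x⁻¹ = (x⁻¹) ^ 2 * pB (a, b) x := by
  fin_cases a <;> fin_cases b <;> simp [pB, fl] <;> field_simp
lemma pA_fly (a b : Fin 2) (x : ℂ) : pA (a, fl b) x = pB (a, b) x := by
  fin_cases a <;> fin_cases b <;> simp [pA, pB, fl]
lemma pB_fly (a b : Fin 2) (x : ℂ) : pB (a, fl b) x = pA (a, b) x := by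
  fin_cases a <;> fin_cases b <;> simp [pA, pB, fl]
lemma pA_flxy (a b : Fin 2) (x : ℂ) : pA (fl a, fl b) x = pA (a, b) x := by
  fin_cases a <;> fin_cases b <;> simp [pA, fl]
lemma pB_flxy (a b : Fin 2) (x : ℂ) : pB (fl a, fl b) x = pB (a, b) x := by
  fin_cases a <;> fin_cases b <;> simp [pB, fl]

lemma YY_flip (t : ℂ) (a b : Fin 2) (p : Fin 2 → ℂ) (hy : p 1 ≠ 0) :
    YY t (a, b) p * YY t (a, fl b) ![p 0, (p 1)⁻¹] = 1 := by
  have h := EE_flip t (pA (a, b) (p 0)) (pB (a, b) (p 0)) (p 1) hy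
  ext i j
  fin_cases i <;> fin_cases j
  · simp [YY, Matrix.mul_apply, Fin.sum_univ_two]
    field_simp
  · simp [YY, Matrix.mul_apply, Fin.sum_univ_two, pA_fly, pB_fly]
    rw [h]
    field_simp
    ring
  · simp [YY, Matrix.mul_apply, Fin.sum_univ_two]
  · simp [YY, Matrix.mul_apply, Fin.sum_univ_two]
    field_simp

lemma XX_flip (p : Fin 2 → ℂ) (q : Fin 2 → ℂ) (hx : p 0 ≠ 0) (hq : q 0 = (p 0)⁻¹) :
    XX p * XX q = 1 := by
  ext i j
  fin_cases i <;> fin_cases j <;> simp [XX, Matrix.mul_apply, Fin.sum_univ_two, hq] <;> field_simp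

lemma YX_comm (t : ℂ) (a b : Fin 2) (p q : Fin 2 → ℂ) (hx : p 0 ≠ 0) (hq0 : q 0 = (p 0)⁻¹)
    (hq1 : q 1 = p 1) :
    XX p * YY t (fl a, b) q = YY t (a, b) p * XX p := by
  have h := EE_scale t (pA (a, b) (p 0)) (pB (a, b) (p 0)) (p 1) ((p 0)⁻¹ ^ 2)
  ext i j
  fin_cases i <;> fin_cases j
  · simp [XX, YY, Matrix.mul_apply, Fin.sum_univ_two, hq0, hq1]
    ring
  · simp [XX, YY, Matrix.mul_apply, Fin.sum_univ_two, hq0, hq1, pA_flx _ _ _ hx, pB_flx _ _ _ hx]
    simp at h
    rw [h]
    field_simp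
  · simp [XX, YY, Matrix.mul_apply, Fin.sum_univ_two, hq0, hq1]
  · simp [XX, YY, Matrix.mul_apply, Fin.sum_univ_two, hq0, hq1]
    ring

lemma YY_congr (t : ℂ) (a b a' b' : Fin 2) (p q : Fin 2 → ℂ) (h0 : p 0 = q 0) (h1 : p 1 = q 1)
    (ha : pA (a, b) (q 0) = pA (a', b') (q 0)) (hb : pB (a, b) (q 0) = pB (a', b') (q 0)) :
    YY t (a, b) p = YY t (a', b') q := by
  unfold YY
  rw [h0, h1, ha, hb]

lemma gg_cocycle (t : ℂ) (α β γ : Chart) (p : Fin 2 → ℂ)
    (hp : p ∈ overlap α β ∩ overlap α γ) :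
    gg t α β p * gg t β γ (tau α β p) = gg t α γ p := by
  obtain ⟨a, b⟩ := α
  obtain ⟨a', b'⟩ := β
  obtain ⟨a'', b''⟩ := γ
  obtain ⟨hp1, hp2⟩ := hp
  simp only [overlap, Set.mem_ofPred_eq] at hp1 hp2
  obtain ⟨hx1, hy1⟩ := hp1
  obtain ⟨hx2, hy2⟩ := hp2
  by_cases h1 : a = a'
  · subst h1
    by_cases h2 : b = b'
    · subst h2
      -- β = α
      have : tau (a, b) (a, b) p = p := by
        ext i; fin_cases i <;> simp [tau]
      rw [this]
      simp [gg]
    · -- y flip
      obtain rfl := eq_fl_of_ne h2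
      have hy : p 1 ≠ 0 := hy1 (by simpa using (fl_ne b).symm)
      have ht : tau (a, b) (a, fl b) p = ![p 0, (p 1)⁻¹] := by
        ext i; fin_cases i <;> simp [tau, (fl_ne b).symm]
      rw [ht]
      have hYY := YY_flip t a b p hy
      by_cases h3 : a = a''
      · subst h3
        by_cases h4 : b = b''
        · subst h4
          simp [gg, (fl_ne b).symm, fl_ne b, hYY]
        · obtain rfl := eq_fl_of_ne h4
          simp [gg, (fl_ne b).symm]
      · obtain rfl := eq_fl_of_ne h3
        have hx : p 0 ≠ 0 := hx2 (by simpa using (fl_ne a).symm)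
        by_cases h4 : b = b''
        · subst h4
          simp only [gg, (fl_ne b).symm, fl_ne b, (fl_ne a).symm, if_true, if_false]
          rw [← mul_assoc, hYY, one_mul]
          simp [XX]
        · obtain rfl := eq_fl_of_ne h4
          simp only [gg, (fl_ne b).symm, (fl_ne a).symm, if_true, if_false]
          congr 1
  · -- x flip
    obtain rfl := eq_fl_of_ne h1
    have hx : p 0 ≠ 0 := hx1 (by simpa using (fl_ne a).symm)
    by_cases h2 : b = b'
    · subst h2
      have ht : tau (a, b) (fl a, b) p = ![(p 0)⁻¹, p 1] := by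
        ext i; fin_cases i <;> simp [tau, (fl_ne a).symm]
      rw [ht]
      by_cases h3 : a = a''
      · subst h3
        by_cases h4 : b = b''
        · subst h4
          simp only [gg, (fl_ne a).symm, fl_ne a, if_true, if_false]
          exact XX_flip _ _ hx (by simp)
        · obtain rfl := eq_fl_of_ne h4
          have hy : p 1 ≠ 0 := hy2 (by simpa using (fl_ne b).symm)
          simp only [gg, (fl_ne a).symm, fl_ne a, (fl_ne b).symm, if_true, if_false]
          rw [← mul_assoc, YX_comm t a b p _ hx (by simp) (by simp), mul_assoc,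
            XX_flip _ _ hx (by simp), mul_one]
      · obtain rfl := eq_fl_of_ne h3
        by_cases h4 : b = b''
        · subst h4
          simp [gg, (fl_ne a).symm]
        · obtain rfl := eq_fl_of_ne h4
          have hy : p 1 ≠ 0 := hy2 (by simpa using (fl_ne b).symm)
          simp only [gg, (fl_ne a).symm, (fl_ne b).symm, if_true, if_false]
          exact YX_comm t a b p _ hx (by simp) (by simp)
    · obtain rfl := eq_fl_of_ne h2
      have hy : p 1 ≠ 0 := hy1 (by simpa using (fl_ne b).symm)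
      have ht : tau (a, b) (fl a, fl b) p = ![(p 0)⁻¹, (p 1)⁻¹] := by
        ext i; fin_cases i <;> simp [tau, (fl_ne a).symm, (fl_ne b).symm]
      rw [ht]
      -- `Y_α X = X Y_{fx α}`
      have hc := YX_comm t a b p ![(p 0)⁻¹, p 1] hx (by simp) (by simp)
      have hfl := YY_flip t (fl a) b ![(p 0)⁻¹, p 1] (by simpa using hy)
      by_cases h3 : a = a''
      · subst h3
        by_cases h4 : b = b''
        · subst h4
          simp only [gg, (fl_ne a).symm, fl_ne a, (fl_ne b).symm, fl_ne b, if_true, if_false]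
          rw [← mul_assoc, ← hc, mul_assoc (XX p)]
          have : YY t (fl a, fl b) ![(p 0)⁻¹, (p 1)⁻¹] =
            YY t (fl a, fl b) ![![(p 0)⁻¹, p 1] 0, (![(p 0)⁻¹, p 1] 1)⁻¹] := by simp
          rw [this, hfl, mul_one]
          exact XX_flip _ _ hx (by simp)
        · obtain rfl := eq_fl_of_ne h4
          simp only [gg, (fl_ne a).symm, fl_ne a, (fl_ne b).symm, if_true, if_false]
          rw [mul_assoc, XX_flip _ _ hx (by simp), mul_one]
      · obtain rfl := eq_fl_of_ne h3
        by_cases h4 : b = b''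
        · subst h4
          simp only [gg, (fl_ne a).symm, (fl_ne b).symm, fl_ne b, if_true, if_false]
          rw [← hc, mul_assoc (XX p)]
          have : YY t (fl a, fl b) ![(p 0)⁻¹, (p 1)⁻¹] =
            YY t (fl a, fl b) ![![(p 0)⁻¹, p 1] 0, (![(p 0)⁻¹, p 1] 1)⁻¹] := by simp
          rw [this, hfl, mul_one]
        · obtain rfl := eq_fl_of_ne h4
          simp [gg, (fl_ne a).symm, (fl_ne b).symm]

lemma differentiable_GG (f g : (Fin 2 → ℂ) → ℂ) (hf : Differentiable ℂ f)
    (hg : Differentiable ℂ g) : Differentiable ℂ (fun p => GG (f p) (g p)) := by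
  unfold GG
  fun_prop

lemma differentiable_pA (α : Chart) : Differentiable ℂ (fun p : Fin 2 → ℂ => pA α (p 0)) := by
  unfold pA
  split_ifs <;> fun_prop

lemma differentiable_pB (α : Chart) : Differentiable ℂ (fun p : Fin 2 → ℂ => pB α (p 0)) := by
  unfold pB
  split_ifs <;> fun_prop

lemma differentiableOn_YY (t : ℂ) (α : Chart) (i j : Fin 2) :
    DifferentiableOn ℂ (fun p => YY t α p i j) {p | p 1 ≠ 0} := by
  have hA := differentiable_pA α
  have hB := differentiable_pB α
  have hinv : DifferentiableOn ℂ (fun p : Fin 2 → ℂ => (p 1)⁻¹) {p | p 1 ≠ 0} := by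
    apply DifferentiableOn.inv
    · fun_prop
    · intro p hp; exact hp
  have hG : Differentiable ℂ (fun p : Fin 2 → ℂ => GG (pA α (p 0) * p 1) (pB α (p 0))) :=
    differentiable_GG _ _ (by fun_prop) hB
  fin_cases i <;> fin_cases j
  · simp only [YY]
    exact (hinv.pow 2).neg
  · simp only [YY, EE]
    exact (hinv.mul hG.differentiableOn).add (by fun_prop)
  · simp [YY]
  · simp [YY]
    fun_prop

lemma differentiable_XX (i j : Fin 2) :
    Differentiable ℂ (fun p => XX p i j) := by
  fin_cases i <;> fin_cases j <;> simp [XX] <;> fun_prop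

theorem gg_isHoloCocycle (t : ℂ) : IsHoloCocycle (gg t) where
  refl := by intro α p; simp [gg]
  holo := by
    intro α β i j
    unfold gg
    split_ifs with h1 h2 h2
    · exact differentiableOn_const _
    · refine (differentiableOn_YY t α i j).mono ?_
      intro p hp
      exact hp.2 h2
    · exact (differentiable_XX i j).differentiableOn
    · have hsub : overlap α β ⊆ {p | p 1 ≠ 0} := fun p hp => hp.2 h2
      simp only [Matrix.mul_apply, Fin.sum_univ_two]
      exact (((differentiableOn_YY t α i 0).mono hsub).mul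
        (differentiable_XX 0 j).differentiableOn).add
        (((differentiableOn_YY t α i 1).mono hsub).mul (differentiable_XX 1 j).differentiableOn)
  cocycle := gg_cocycle t

end

end Crest.Agent.S0396
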