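import Crest.Prelude.Def_QuadricBundle

/-!
Dual norms and the maximum principle for Griffiths positive metrics.
-/

set_option autoImplicit false
open Crest.AlgGeometry.QuadricBundle

namespace Crest.Agent.S0396

noncomputable section

open scoped ComplexConjugate ComplexOrder
open Matrix

variable {r : ℕ}

/-- squared norm of a vector -/
def hh (M : Matrix (Fin r) (Fin r) ℂ) (v : Fin r → ℂ) : ℝ :=
  (∑ i, ∑ j, M i j * v i * conj (v j)).re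

lemma hh_eq (M : Matrix (Fin r) (Fin r) ℂ) (v : Fin r → ℂ) :
    hh M v = (v ⬝ᵥ (M *ᵥ star v)).re := by
  unfold hh
  congr 1
  simp only [dotProduct, mulVec, Finset.mul_sum, Pi.star_apply]
  refine Finset.sum_congr rfl fun i _ => Finset.sum_congr rfl fun j _ => ?_
  simp only [RCLike.star_def]
  ring

/-- squared dual norm of a functional -/
def hd (M : Matrix (Fin r) (Fin r) ℂ) (φ : Fin r → ℂ) : ℝ :=
  (star φ ⬝ᵥ (M⁻¹ *ᵥ φ)).re

lemma hh_nonneg {M : Matrix (Fin r) (Fin r) ℂ} (hM : M.PosDef) (v : Fin r → ℂ) : 0 ≤ hh M v := by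
  rw [hh_eq]
  have := hM.posSemidef.dotProduct_mulVec_nonneg (star v)
  rw [star_star] at this
  exact (Complex.le_def.1 this).1

lemma hd_nonneg {M : Matrix (Fin r) (Fin r) ℂ} (hM : M.PosDef) (φ : Fin r → ℂ) : 0 ≤ hd M φ := by
  unfold hd
  exact (Complex.le_def.1 (hM.inv.posSemidef.dotProduct_mulVec_nonneg φ)).1

lemma hd_pos {M : Matrix (Fin r) (Fin r) ℂ} (hM : M.PosDef) {φ : Fin r → ℂ} (hφ : φ ≠ 0) :
    0 < hd M φ := by
  unfold hd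
  exact (Complex.lt_def.1 (hM.inv.dotProduct_mulVec_pos hφ)).1

lemma hd_ofReal {M : Matrix (Fin r) (Fin r) ℂ} (hM : M.PosDef) (φ : Fin r → ℂ) :
    star φ ⬝ᵥ (M⁻¹ *ᵥ φ) = (hd M φ : ℂ) := by
  have := (Complex.le_def.1 (hM.inv.posSemidef.dotProduct_mulVec_nonneg φ)).2
  apply Complex.ext
  · simp [hd]
  · simp only [Complex.ofReal_im]
    exact this.symm

lemma hd_zero (M : Matrix (Fin r) (Fin r) ℂ) : hd M 0 = 0 := by
  simp [hd]

lemma hd_smul (M : Matrix (Fin r) (Fin r) ℂ) (a : ℂ) (φ : Fin r → ℂ) :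
    hd M (a • φ) = ‖a‖ ^ 2 * hd M φ := by
  unfold hd
  rw [mulVec_smul, dotProduct_smul, star_smul, smul_dotProduct, smul_eq_mul, smul_eq_mul,
    ← mul_assoc, RCLike.star_def, Complex.mul_conj, Complex.normSq_eq_norm_sq, Complex.re_ofReal_mul]

lemma hd_add_sub (M : Matrix (Fin r) (Fin r) ℂ) (φ ψ : Fin r → ℂ) :
    hd M (φ + ψ) + hd M (φ - ψ) = 2 * hd M φ + 2 * hd M ψ := by
  unfold hd
  rw [← Complex.add_re]
  have : star (φ + ψ) ⬝ᵥ M⁻¹ *ᵥ (φ + ψ) + star (φ - ψ) ⬝ᵥ M⁻¹ *ᵥ (φ - ψ) =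
      2 * (star φ ⬝ᵥ M⁻¹ *ᵥ φ) + 2 * (star ψ ⬝ᵥ M⁻¹ *ᵥ ψ) := by
    simp only [star_add, star_sub, mulVec_add, mulVec_sub, add_dotProduct, sub_dotProduct,
      dotProduct_add, dotProduct_sub]
    ring
  rw [this]
  simp

lemma hd_add_le {M : Matrix (Fin r) (Fin r) ℂ} (hM : M.PosDef) (φ ψ : Fin r → ℂ) :
    hd M (φ + ψ) ≤ 2 * hd M φ + 2 * hd M ψ := by
  have := hd_add_sub M φ ψ
  have := hd_nonneg hM (φ - ψ)
  linarith

/-- Riesz vector of a functional -/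
def rv (M : Matrix (Fin r) (Fin r) ℂ) (φ : Fin r → ℂ) : Fin r → ℂ := star (M⁻¹ *ᵥ φ)

lemma dot_rv {M : Matrix (Fin r) (Fin r) ℂ} (hM : M.PosDef) (φ : Fin r → ℂ) :
    φ ⬝ᵥ rv M φ = (hd M φ : ℂ) := by
  have h := hd_ofReal hM φ
  have h2 : star (star φ ⬝ᵥ (M⁻¹ *ᵥ φ)) = φ ⬝ᵥ rv M φ := by
    rw [← star_dotProduct_star, star_star, rv, dotProduct_comm]
  rw [← h2, h]
  simp

lemma mul_rv {M : Matrix (Fin r) (Fin r) ℂ} (hM : M.PosDef) (φ v : Fin r → ℂ) :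
    v ⬝ᵥ (M *ᵥ star (rv M φ)) = φ ⬝ᵥ v := by
  have hdet : IsUnit M.det := (Matrix.isUnit_iff_isUnit_det _).1 hM.isUnit
  rw [rv, star_star, mulVec_mulVec, Matrix.mul_nonsing_inv _ hdet, one_mulVec, dotProduct_comm]

lemma hh_rv {M : Matrix (Fin r) (Fin r) ℂ} (hM : M.PosDef) (φ : Fin r → ℂ) :
    hh M (rv M φ) = hd M φ := by
  rw [hh_eq, mul_rv hM, dot_rv hM]
  simp

lemma rv_mul {M : Matrix (Fin r) (Fin r) ℂ} (hM : M.PosDef) (φ v : Fin r → ℂ) :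
    rv M φ ⬝ᵥ (M *ᵥ star v) = star (φ ⬝ᵥ v) := by
  rw [← mul_rv hM φ v]
  have hH : Mᴴ = M := hM.isHermitian
  rw [← star_dotProduct_star, star_mulVec, hH, star_star, ← dotProduct_mulVec]

lemma hh_ofReal {M : Matrix (Fin r) (Fin r) ℂ} (hM : M.PosDef) (v : Fin r → ℂ) :
    v ⬝ᵥ (M *ᵥ star v) = (hh M v : ℂ) := by
  have := hM.posSemidef.dotProduct_mulVec_nonneg (star v)
  rw [star_star] at this
  have := (Complex.le_def.1 this).2
  apply Complex.ext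
  · simp [hh_eq]
  · simp only [Complex.ofReal_im]
    exact this.symm

/-- Cauchy-Schwarz -/
lemma cs {M : Matrix (Fin r) (Fin r) ℂ} (hM : M.PosDef) (φ v : Fin r → ℂ) :
    ‖φ ⬝ᵥ v‖ ^ 2 ≤ hd M φ * hh M v := by
  by_cases hφ : φ = 0
  · subst hφ
    simp [hd_zero]
  have hs := hd_pos hM hφ
  have h1 := hh_ofReal hM ((hd M φ : ℂ) • v - (φ ⬝ᵥ v) • rv M φ)
  have h2 : ((hd M φ : ℂ) • v - (φ ⬝ᵥ v) • rv M φ) ⬝ᵥ
      (M *ᵥ star ((hd M φ : ℂ) • v - (φ ⬝ᵥ v) • rv M φ)) =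
      ((hd M φ * (hd M φ * hh M v - ‖φ ⬝ᵥ v‖ ^ 2) : ℝ) : ℂ) := by
    have e1 := hh_ofReal hM v
    have e2 := mul_rv hM φ v
    have e3 := rv_mul hM φ v
    have e4 := hh_ofReal hM (rv M φ)
    rw [hh_rv hM] at e4
    simp only [star_sub, star_smul, mulVec_sub, mulVec_smul, sub_dotProduct, dotProduct_sub,
      smul_dotProduct, dotProduct_smul, smul_eq_mul, e1, e2, e3, e4]
    have e5 : (φ ⬝ᵥ v) * star (φ ⬝ᵥ v) = ((‖φ ⬝ᵥ v‖ ^ 2 : ℝ) : ℂ) := by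
      rw [RCLike.star_def, Complex.mul_conj, Complex.normSq_eq_norm_sq]
    have e6 : star (hd M φ : ℂ) = (hd M φ : ℂ) := by simp
    rw [e6]
    push_cast at e5 ⊢
    linear_combination (-(hd M φ : ℂ)) * e5
  have h3 := hh_nonneg hM ((hd M φ : ℂ) • v - (φ ⬝ᵥ v) • rv M φ)
  rw [h2, Complex.ofReal_inj] at h1
  rw [← h1] at h3
  have := nonneg_of_mul_nonneg_right h3 hs
  linarith

lemma rv_ne_zero {M : Matrix (Fin r) (Fin r) ℂ} (hM : M.PosDef) {φ : Fin r → ℂ} (hφ : φ ≠ 0) :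
    rv M φ ≠ 0 := by
  intro h
  have := hh_rv hM φ
  rw [h] at this
  have h2 := hd_pos hM hφ
  simp [hh] at this
  linarith

lemma hd_compat {M g : Matrix (Fin r) (Fin r) ℂ} (hg : IsUnit g.det) (φ : Fin r → ℂ) :
    hd (g.transpose * M * g.map conj) (φ ᵥ* g) = hd M φ := by
  unfold hd
  have hg' : IsUnit (g.transpose).det := by rwa [det_transpose]
  have e1 : star (φ ᵥ* g) = (g.map conj)ᵀ *ᵥ star φ := by
    rw [star_vecMul]
    congr 1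
  have hgc : IsUnit (g.map conj).det := by
    have : g.map conj = gᵀᴴ := by
      ext i j; simp
    rw [this, det_conjTranspose, det_transpose]
    exact hg.star
  have e2 : φ ᵥ* g = gᵀ *ᵥ φ := (mulVec_transpose g φ).symm
  rw [e1, e2, Matrix.mul_inv_rev, Matrix.mul_inv_rev, ← mulVec_mulVec, ← mulVec_mulVec,
    mulVec_mulVec φ (gᵀ)⁻¹ gᵀ, Matrix.nonsing_inv_mul _ hg', one_mulVec, dotProduct_mulVec,
    mulVec_transpose, vecMul_vecMul, Matrix.mul_nonsing_inv _ hgc, vecMul_one]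

end

end Crest.Agent.S0396
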