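import Crest.Agent.S0396_Ample

/-!
Explicit sections.
-/

set_option autoImplicit false
open Crest.AlgGeometry.QuadricBundle

namespace Crest.Agent.S0396

noncomputable section

open MvPolynomial

/-- homogeneous coordinates in the first direction -/
def h0 (a : Fin 2) (x : ℂ) : ℂ := if a = 0 then 1 else x
def h1 (a : Fin 2) (x : ℂ) : ℂ := if a = 0 then x else 1

lemma pA_h (a : Fin 2) (x : ℂ) : pA (a, 0) x = h0 a x ^ 2 := by
  fin_cases a <;> simp [pA, h0]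
lemma pB_h (a : Fin 2) (x : ℂ) : pB (a, 0) x = h1 a x ^ 2 := by
  fin_cases a <;> simp [pB, h1]

lemma differentiable_h0 (a : Fin 2) : Differentiable ℂ (fun p : Fin 2 → ℂ => h0 a (p 0)) := by
  unfold h0; split_ifs <;> fun_prop
lemma differentiable_h1 (a : Fin 2) : Differentiable ℂ (fun p : Fin 2 → ℂ => h1 a (p 0)) := by
  unfold h1; split_ifs <;> fun_prop

lemma frame_X0 (p q r : ℂ) : frameSubst !![p, q; 0, r] (X 0) = C p * X 0 := by
  simp [frameSubst, Fin.sum_univ_two]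
lemma frame_X1 (p q r : ℂ) : frameSubst !![p, q; 0, r] (X 1) = C q * X 0 + C r * X 1 := by
  simp [frameSubst, Fin.sum_univ_two]

/-- quadratic polynomial in the frame symbols -/
def quad (w v u : ℂ) : MvPolynomial (Fin 2) ℂ :=
  C w * X 0 ^ 2 + C v * (X 0 * X 1) + C u * X 1 ^ 2

lemma frame_quad (p q r w v u : ℂ) : frameSubst !![p, q; 0, r] (quad w v u) =
    quad (p ^ 2 * w + p * q * v + q ^ 2 * u) (p * r * v + 2 * q * r * u) (r ^ 2 * u) := by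
  unfold quad
  simp only [frameSubst_add, frameSubst_mul, frameSubst_C, pow_two, frame_X0, frame_X1,
    C_add, C_mul]
  have : (C (2 : ℂ) : MvPolynomial (Fin 2) ℂ) = 2 := by
    exact map_ofNat C 2
  rw [this]
  ring

lemma smul_quad (s w v u : ℂ) : s • quad w v u = quad (s * w) (s * v) (s * u) := by
  unfold quad
  simp only [smul_eq_C_mul, C_mul]
  ring

lemma quad_add (w v u w' v' u' : ℂ) :
    quad w v u + quad w' v' u' = quad (w + w') (v + v') (u + u') := by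
  unfold quad
  simp only [C_add]
  ring

lemma quad_hom (w v u : ℂ) : (quad w v u).IsHomogeneous 2 := by
  unfold quad
  have e0 := isHomogeneous_X ℂ (0 : Fin 2)
  have e1 := isHomogeneous_X ℂ (1 : Fin 2)
  have hC := fun c : ℂ => isHomogeneous_C (Fin 2) c
  have a1 : (C w * X 0 ^ 2 : MvPolynomial (Fin 2) ℂ).IsHomogeneous 2 := by
    simpa using (hC w).mul (e0.pow 2)
  have a2 : (C v * (X 0 * X 1) : MvPolynomial (Fin 2) ℂ).IsHomogeneous 2 := by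
    simpa using (hC v).mul (e0.mul e1)
  have a3 : (C u * X 1 ^ 2 : MvPolynomial (Fin 2) ℂ).IsHomogeneous 2 := by
    simpa using (hC u).mul (e1.pow 2)
  exact (a1.add a2).add a3

lemma eq_quad_of_hom {R : MvPolynomial (Fin 2) ℂ} (hR : R.IsHomogeneous 2) :
    ∃ w v u, R = quad w v u := by
  have key : ∀ m : Fin 2 →₀ ℕ, ∀ c : ℂ, m 0 + m 1 = 2 →
      ∃ w v u, (monomial m c : MvPolynomial (Fin 2) ℂ) = quad w v u := by
    intro m c hm
    have hmon : (monomial m c : MvPolynomial (Fin 2) ℂ) = C c * (X 0 ^ m 0 * X 1 ^ m 1) := by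
      rw [monomial_eq, Finsupp.prod_fintype _ _ (by simp), Fin.prod_univ_two]
    rw [hmon]
    have : (m 0 = 2 ∧ m 1 = 0) ∨ (m 0 = 1 ∧ m 1 = 1) ∨ (m 0 = 0 ∧ m 1 = 2) := by omega
    rcases this with ⟨e0, e1⟩ | ⟨e0, e1⟩ | ⟨e0, e1⟩ <;> rw [e0, e1]
    · exact ⟨c, 0, 0, by simp [quad]⟩
    · exact ⟨0, c, 0, by simp [quad]⟩
    · exact ⟨0, 0, c, by simp [quad]⟩
  rw [← R.support_sum_monomial_coeff]
  have hdeg : ∀ m ∈ R.support, m 0 + m 1 = 2 := by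
    intro m hm
    have := hR (mem_support_iff.1 hm)
    rw [Finsupp.weight_apply] at this
    simpa [Finsupp.sum_fintype, Fin.sum_univ_two] using this
  refine Finset.sum_induction _ (fun P => ∃ w v u, P = quad w v u) ?_ ?_ ?_
  · rintro _ _ ⟨w, v, u, rfl⟩ ⟨w', v', u', rfl⟩
    exact ⟨_, _, _, quad_add _ _ _ _ _ _⟩
  · exact ⟨0, 0, 0, by simp [quad]⟩
  · intro m hm
    exact key m _ (hdeg m hm)

/-- section of `S²E(-1,-1)` from homogeneous data -/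
def sec2 (w v u : Fin 2 → ℂ → ℂ → ℂ → ℂ) (α : Chart) (p : Fin 2 → ℂ) :
    MvPolynomial (Fin 2) ℂ :=
  quad (w α.2 (h0 α.1 (p 0)) (h1 α.1 (p 0)) (p 1))
    (v α.2 (h0 α.1 (p 0)) (h1 α.1 (p 0)) (p 1))
    (u α.2 (h0 α.1 (p 0)) (h1 α.1 (p 0)) (p 1))

lemma isSec_sec2 (t : ℂ) (w v u : Fin 2 → ℂ → ℂ → ℂ → ℂ)
    (dw : ∀ b, Differentiable ℂ (fun z : ℂ × ℂ × ℂ => w b z.1 z.2.1 z.2.2))
    (dv : ∀ b, Differentiable ℂ (fun z : ℂ × ℂ × ℂ => v b z.1 z.2.1 z.2.2))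
    (du : ∀ b, Differentiable ℂ (fun z : ℂ × ℂ × ℂ => u b z.1 z.2.1 z.2.2))
    (sw : ∀ b c X0 X1 y, w b (c * X0) (c * X1) y = c ^ 65 * w b X0 X1 y)
    (sv : ∀ b c X0 X1 y, v b (c * X0) (c * X1) y = c ^ 33 * v b X0 X1 y)
    (su : ∀ b c X0 X1 y, u b (c * X0) (c * X1) y = c * u b X0 X1 y)
    (fu : ∀ X0 X1 y, y ≠ 0 → u 0 X0 X1 y = y ^ 31 * u 1 X0 X1 y⁻¹)
    (fv : ∀ X0 X1 y, y ≠ 0 → v 0 X0 X1 y =
      -y ^ 13 * v 1 X0 X1 y⁻¹ + 2 * EE t (X0 ^ 2) (X1 ^ 2) y * y ^ 15 * u 1 X0 X1 y⁻¹)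
    (fw : ∀ X0 X1 y, y ≠ 0 → w 0 X0 X1 y =
      y⁻¹ ^ 5 * w 1 X0 X1 y⁻¹ - y⁻¹ ^ 3 * EE t (X0 ^ 2) (X1 ^ 2) y * v 1 X0 X1 y⁻¹ +
        y⁻¹ * EE t (X0 ^ 2) (X1 ^ 2) y ^ 2 * u 1 X0 X1 y⁻¹) :
    IsSec (gg t) 2 (-1) (-1) (sec2 w v u) := by
  apply isSec_of_flips
  · intro α p
    exact quad_hom _ _ _
  · intro α m
    have hz : Differentiable ℂ (fun p : Fin 2 → ℂ =>
        ((h0 α.1 (p 0), h1 α.1 (p 0), p 1) : ℂ × ℂ × ℂ)) :=
      (differentiable_h0 _).prodMk ((differentiable_h1 _).prodMk (by fun_prop))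
    have e1 := (dw α.2).comp hz
    have e2 := (dv α.2).comp hz
    have e3 := (du α.2).comp hz
    simp only [sec2, quad, coeff_add, coeff_C_mul]
    exact ((e1.mul_const _).add (e2.mul_const _)).add (e3.mul_const _)
  · intro b x y hx
    have hXX : XX ![x, y] = !![x ^ 33, 0; 0, x] := by simp [XX]
    rw [hXX]
    simp only [sec2, frame_quad, smul_quad]
    have e : ∀ f : Fin 2 → ℂ → ℂ → ℂ → ℂ, f b (x⁻¹) 1 y = f b (x⁻¹ * 1) (x⁻¹ * x) y := by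
      intro f; rw [mul_one, inv_mul_cancel₀ hx]
    simp only [h0, h1, Matrix.cons_val_zero, Matrix.cons_val_one, if_true,
      one_ne_zero, if_false]
    rw [e w, e v, e u, sw, sv, su]
    congr 1
    · field_simp
      ring
    · field_simp
      ring
    · field_simp
  · intro a x y hy
    have hYY : YY t (a, 0) ![x, y] = !![-(y⁻¹ ^ 2), EE t (h0 a x ^ 2) (h1 a x ^ 2) y;
        0, y ^ 16] := by
      simp [YY, pA_h, pB_h]
    rw [hYY]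
    simp only [sec2, frame_quad, smul_quad]
    simp only [Matrix.cons_val_zero, Matrix.cons_val_one]
    rw [fu _ _ _ hy, fv _ _ _ hy, fw _ _ _ hy]
    congr 1
    · field_simp
      ring
    · field_simp
    · field_simp

lemma EE_mul (t A B y : ℂ) : EE t A B y * (A * y - B) =
    y⁻¹ * ((A * y) ^ 17 - B ^ 17) + t * (A ^ 16 * y ^ 10 + B ^ 16 * y ^ 4) * (A * y - B) := by
  unfold EE
  linear_combination y⁻¹ * GG_mul (A * y) B

/-- the monomial `X0^31` or `X1^31` -/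
def nn (j : Fin 2) (X0 X1 : ℂ) : ℂ := if j = 0 then X0 ^ 31 else X1 ^ 31

lemma nn_scale (j : Fin 2) (c X0 X1 : ℂ) : nn j (c * X0) (c * X1) = c ^ 31 * nn j X0 X1 := by
  unfold nn; split_ifs <;> ring

lemma nn_diff (j : Fin 2) : Differentiable ℂ (fun z : ℂ × ℂ × ℂ => nn j z.1 z.2.1) := by
  unfold nn; split_ifs <;> fun_prop

/-! ### the sections `K_0`, `K_6`, `K_12` -/

def K0w (t : ℂ) (j : Fin 2) (b : Fin 2) (X0 X1 y : ℂ) : ℂ :=
  if b = 0 then nn j X0 X1 * (X0 ^ 2) ^ 17 else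
    -nn j X0 X1 * (-(X1 ^ 2) ^ 17 * y ^ 12 + t * ((X0 ^ 2) ^ 17 - (X0 ^ 2) ^ 16 * X1 ^ 2 * y +
      X0 ^ 2 * (X1 ^ 2) ^ 16 * y ^ 6 - (X1 ^ 2) ^ 17 * y ^ 7))
def K0v (j : Fin 2) (b : Fin 2) (X0 X1 y : ℂ) : ℂ :=
  if b = 0 then nn j X0 X1 * (X0 ^ 2 * y - X1 ^ 2) else
    -nn j X0 X1 * (X0 ^ 2 - X1 ^ 2 * y) * y ^ 12

def K6w (t : ℂ) (j : Fin 2) (b : Fin 2) (X0 X1 y : ℂ) : ℂ :=
  if b = 0 then nn j X0 X1 * ((X0 ^ 2) ^ 17 * y ^ 6 +
      t * ((X0 ^ 2) ^ 17 * y - (X0 ^ 2) ^ 16 * X1 ^ 2)) else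
    -nn j X0 X1 * (-(X1 ^ 2) ^ 17 * y ^ 6 + t * (X0 ^ 2 * (X1 ^ 2) ^ 16 - (X1 ^ 2) ^ 17 * y))
def K6v (j : Fin 2) (b : Fin 2) (X0 X1 y : ℂ) : ℂ :=
  if b = 0 then nn j X0 X1 * (X0 ^ 2 * y - X1 ^ 2) * y ^ 6 else
    -nn j X0 X1 * (X0 ^ 2 - X1 ^ 2 * y) * y ^ 6

def K12w (t : ℂ) (j : Fin 2) (b : Fin 2) (X0 X1 y : ℂ) : ℂ :=
  if b = 0 then nn j X0 X1 * ((X0 ^ 2) ^ 17 * y ^ 12 +
      t * ((X0 ^ 2) ^ 17 * y ^ 7 - (X0 ^ 2) ^ 16 * X1 ^ 2 * y ^ 6 +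
        X0 ^ 2 * (X1 ^ 2) ^ 16 * y - (X1 ^ 2) ^ 17)) else
    nn j X0 X1 * (X1 ^ 2) ^ 17
def K12v (j : Fin 2) (b : Fin 2) (X0 X1 y : ℂ) : ℂ :=
  if b = 0 then nn j X0 X1 * (X0 ^ 2 * y - X1 ^ 2) * y ^ 12 else
    -nn j X0 X1 * (X0 ^ 2 - X1 ^ 2 * y)

lemma isSec_K0 (t : ℂ) (j : Fin 2) :
    IsSec (gg t) 2 (-1) (-1) (sec2 (K0w t j) (K0v j) (fun _ _ _ _ => 0)) := by
  have hn := nn_diff j
  apply isSec_sec2
  · intro b; unfold K0w; split_ifs <;> fun_prop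
  · intro b; unfold K0v; split_ifs <;> fun_prop
  · intro b; fun_prop
  · intro b c X0 X1 y; unfold K0w; rw [nn_scale]; split_ifs <;> ring
  · intro b c X0 X1 y; unfold K0v; rw [nn_scale]; split_ifs <;> ring
  · intros; ring
  · intros; ring
  · intro X0 X1 y hy; simp [K0v]; field_simp
  · intro X0 X1 y hy
    have hE := EE_mul t (X0 ^ 2) (X1 ^ 2) y
    simp only [K0v, K0w, if_true, one_ne_zero, if_false]
    linear_combination (norm := (field_simp; ring)) (-(nn j X0 X1 * y⁻¹ ^ 16)) * hE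

lemma isSec_K6 (t : ℂ) (j : Fin 2) :
    IsSec (gg t) 2 (-1) (-1) (sec2 (K6w t j) (K6v j) (fun _ _ _ _ => 0)) := by
  have hn := nn_diff j
  apply isSec_sec2
  · intro b; unfold K6w; split_ifs <;> fun_prop
  · intro b; unfold K6v; split_ifs <;> fun_prop
  · intro b; fun_prop
  · intro b c X0 X1 y; unfold K6w; rw [nn_scale]; split_ifs <;> ring
  · intro b c X0 X1 y; unfold K6v; rw [nn_scale]; split_ifs <;> ring
  · intros; ring
  · intros; ring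
  · intro X0 X1 y hy; simp [K6v]; field_simp
  · intro X0 X1 y hy
    have hE := EE_mul t (X0 ^ 2) (X1 ^ 2) y
    simp only [K6v, K6w, if_true, one_ne_zero, if_false]
    linear_combination (norm := (field_simp; ring)) (-(nn j X0 X1 * y⁻¹ ^ 10)) * hE

lemma isSec_K12 (t : ℂ) (j : Fin 2) :
    IsSec (gg t) 2 (-1) (-1) (sec2 (K12w t j) (K12v j) (fun _ _ _ _ => 0)) := by
  have hn := nn_diff j
  apply isSec_sec2
  · intro b; unfold K12w; split_ifs <;> fun_prop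
  · intro b; unfold K12v; split_ifs <;> fun_prop
  · intro b; fun_prop
  · intro b c X0 X1 y; unfold K12w; rw [nn_scale]; split_ifs <;> ring
  · intro b c X0 X1 y; unfold K12v; rw [nn_scale]; split_ifs <;> ring
  · intros; ring
  · intros; ring
  · intro X0 X1 y hy; simp [K12v]; field_simp
  · intro X0 X1 y hy
    have hE := EE_mul t (X0 ^ 2) (X1 ^ 2) y
    simp only [K12v, K12w, if_true, one_ne_zero, if_false]
    linear_combination (norm := (field_simp; ring)) (-(nn j X0 X1 * y⁻¹ ^ 4)) * hE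

end

end Crest.Agent.S0396
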