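import Crest.Agent.S0396_Explicit

/-!
More explicit sections, global generation, ampleness.
-/

set_option autoImplicit false
open Crest.AlgGeometry.QuadricBundle

namespace Crest.Agent.S0396

noncomputable section

open MvPolynomial

/-- tail of the geometric sum -/
def G12 (u v : ℂ) : ℂ := ∑ i ∈ Finset.range 13, u ^ i * v ^ (12 - i)

lemma GG_expand (u v : ℂ) :
    GG u v = u ^ 16 + u ^ 15 * v + u ^ 14 * v ^ 2 + v ^ 3 * (u ^ 13 + v * G12 u v) := by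
  unfold GG G12
  simp only [Finset.sum_range_succ, Finset.sum_range_zero]
  ring

lemma G12_scale (c u v : ℂ) : G12 (c * u) (c * v) = c ^ 12 * G12 u v := by
  unfold G12
  simp only [Finset.sum_range_succ, Finset.sum_range_zero]
  ring

lemma G12_diff : Differentiable ℂ (fun z : ℂ × ℂ => G12 z.1 z.2) := by
  unfold G12; fun_prop

lemma GG_diff : Differentiable ℂ (fun z : ℂ × ℂ => GG z.1 z.2) := by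
  unfold GG; fun_prop

lemma EE_eq (t A B y : ℂ) (hy : y ≠ 0) :
    EE t A B y = y ^ 15 * GG A (B * y⁻¹) + t * (A ^ 16 * y ^ 10 + B ^ 16 * y ^ 4) := by
  unfold EE
  have h : GG (A * y) B = y ^ 16 * GG A (B * y⁻¹) := by
    rw [← GG_smul]
    congr 1
    · ring
    · field_simp
  rw [h]
  field_simp

/-! ### the section `S3` -/

def S3w (t : ℂ) (b : Fin 2) (X0 X1 y : ℂ) : ℂ :=
  if b = 0 then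
    -t⁻¹ * X0 ^ 23 * (X0 ^ 2) ^ 17 * ((X0 ^ 2 * y) ^ 4 + 2 * X1 ^ 2 * (X0 ^ 2 * y) ^ 3 +
      3 * (X1 ^ 2) ^ 2 * (X0 ^ 2 * y) ^ 2 + 4 * (X1 ^ 2) ^ 3 * (X0 ^ 2 * y) + 4 * (X1 ^ 2) ^ 4)
  else
    -X0 ^ 33 * (X1 ^ 2) ^ 4 * G12 (X0 ^ 2) (X1 ^ 2 * y) -
      t⁻¹ * X0 ^ 23 * (X1 ^ 2) ^ 17 * ((X0 ^ 2) ^ 4 * y ^ 8 + 2 * X1 ^ 2 * (X0 ^ 2) ^ 3 * y ^ 9 +
        3 * (X1 ^ 2) ^ 2 * (X0 ^ 2) ^ 2 * y ^ 10 + 4 * (X1 ^ 2) ^ 3 * X0 ^ 2 * y ^ 11 +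
        4 * (X1 ^ 2) ^ 4 * y ^ 12) -
      t * X0 ^ 33 * ((X0 ^ 2) ^ 16 * y + (X1 ^ 2) ^ 16 * y ^ 7) -
      4 * X0 ^ 23 * (X0 ^ 2) ^ 16 * (X1 ^ 2) ^ 5 * y +
      (X1 ^ 2) ^ 16 * X0 ^ 23 * ((X0 ^ 2) ^ 5 * y ^ 2 + X1 ^ 2 * (X0 ^ 2) ^ 4 * y ^ 3 +
        (X1 ^ 2) ^ 2 * (X0 ^ 2) ^ 3 * y ^ 4 + (X1 ^ 2) ^ 3 * (X0 ^ 2) ^ 2 * y ^ 5 -
        4 * (X1 ^ 2) ^ 5 * y ^ 7)

def S3v (t : ℂ) (b : Fin 2) (X0 X1 y : ℂ) : ℂ :=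
  if b = 0 then
    X0 ^ 33 - t⁻¹ * X0 ^ 23 * ((X0 ^ 2 * y) ^ 5 + X1 ^ 2 * (X0 ^ 2 * y) ^ 4 +
      (X1 ^ 2) ^ 2 * (X0 ^ 2 * y) ^ 3 + (X1 ^ 2) ^ 3 * (X0 ^ 2 * y) ^ 2 - 4 * (X1 ^ 2) ^ 5)
  else
    -X0 ^ 33 * y ^ 13 + t⁻¹ * X0 ^ 23 * ((X0 ^ 2) ^ 5 * y ^ 8 + X1 ^ 2 * (X0 ^ 2) ^ 4 * y ^ 9 +
      (X1 ^ 2) ^ 2 * (X0 ^ 2) ^ 3 * y ^ 10 + (X1 ^ 2) ^ 3 * (X0 ^ 2) ^ 2 * y ^ 11 -
      4 * (X1 ^ 2) ^ 5 * y ^ 13)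

lemma isSec_S3 (t : ℂ) (ht : t ≠ 0) :
    IsSec (gg t) 2 (-1) (-1) (sec2 (S3w t) (S3v t) (fun _ _ _ _ => 0)) := by
  have hG : Differentiable ℂ (fun z : ℂ × ℂ × ℂ => G12 (z.1 ^ 2) (z.2.1 ^ 2 * z.2.2)) := by
    have := G12_diff.comp (g := fun z : ℂ × ℂ => G12 z.1 z.2)
      (f := fun z : ℂ × ℂ × ℂ => ((z.1 ^ 2, z.2.1 ^ 2 * z.2.2) : ℂ × ℂ)) (by fun_prop)
    exact this
  apply isSec_sec2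
  · intro b; unfold S3w; split_ifs <;> fun_prop
  · intro b; unfold S3v; split_ifs <;> fun_prop
  · intro b; fun_prop
  · intro b c X0 X1 y; unfold S3w
    have h : G12 ((c * X0) ^ 2) ((c * X1) ^ 2 * y) = c ^ 24 * G12 (X0 ^ 2) (X1 ^ 2 * y) := by
      have := G12_scale (c ^ 2) (X0 ^ 2) (X1 ^ 2 * y)
      rw [show (c * X0) ^ 2 = c ^ 2 * X0 ^ 2 by ring,
        show (c * X1) ^ 2 * y = c ^ 2 * (X1 ^ 2 * y) by ring, this]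
      ring
    rw [h]
    split_ifs <;> ring
  · intro b c X0 X1 y; unfold S3v; split_ifs <;> ring
  · intros; ring
  · intros; ring
  · intro X0 X1 y hy
    simp only [S3v, if_true, one_ne_zero, if_false]
    field_simp
    ring
  · intro X0 X1 y hy
    have hE := EE_mul t (X0 ^ 2) (X1 ^ 2) y
    have hE2 := EE_eq t (X0 ^ 2) (X1 ^ 2) y hy
    rw [GG_expand] at hE2
    simp only [S3v, S3w, if_true, one_ne_zero, if_false]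
    generalize G12 (X0 ^ 2) (X1 ^ 2 * y⁻¹) = G at hE2 ⊢
    generalize EE t (X0 ^ 2) (X1 ^ 2) y = E at hE hE2 ⊢
    linear_combination (norm := (field_simp; ring)) (-(X0 ^ 33 * y⁻¹ ^ 16)) * hE2 +
      (t⁻¹ * X0 ^ 23 * y⁻¹ ^ 16 * ((X0 ^ 2 * y) ^ 4 + 2 * X1 ^ 2 * (X0 ^ 2 * y) ^ 3 +
      3 * (X1 ^ 2) ^ 2 * (X0 ^ 2 * y) ^ 2 + 4 * (X1 ^ 2) ^ 3 * (X0 ^ 2 * y) +
      4 * (X1 ^ 2) ^ 4)) * hE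

/-! ### the sections `S5` -/

/-- `X0` or `X1` -/
def mm (j : Fin 2) (X0 X1 : ℂ) : ℂ := if j = 0 then X0 else X1

lemma mm_scale (j : Fin 2) (c X0 X1 : ℂ) : mm j (c * X0) (c * X1) = c * mm j X0 X1 := by
  unfold mm; split_ifs <;> ring

lemma mm_diff (j : Fin 2) : Differentiable ℂ (fun z : ℂ × ℂ × ℂ => mm j z.1 z.2.1) := by
  unfold mm; split_ifs <;> fun_prop

def S5u (j : Fin 2) (b : Fin 2) (X0 X1 y : ℂ) : ℂ :=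
  if b = 0 then mm j X0 X1 else y ^ 31 * mm j X0 X1

def S5v (t : ℂ) (j : Fin 2) (b : Fin 2) (X0 X1 y : ℂ) : ℂ :=
  if b = 0 then
    t⁻¹ * (X0 ^ 2) ^ 12 * mm j X0 X1 * ((X0 ^ 2 * y) ^ 4 + 2 * X1 ^ 2 * (X0 ^ 2 * y) ^ 3 +
      3 * (X1 ^ 2) ^ 2 * (X0 ^ 2 * y) ^ 2 - 6 * (X1 ^ 2) ^ 4)
  else
    2 * mm j X0 X1 * y ^ 13 * (y * GG (X0 ^ 2) (X1 ^ 2 * y) +
      t * ((X0 ^ 2) ^ 16 * y ^ 6 + (X1 ^ 2) ^ 16 * y ^ 12)) -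
    t⁻¹ * (X0 ^ 2) ^ 12 * mm j X0 X1 * ((X0 ^ 2) ^ 4 * y ^ 9 + 2 * X1 ^ 2 * (X0 ^ 2) ^ 3 * y ^ 10 +
      3 * (X1 ^ 2) ^ 2 * (X0 ^ 2) ^ 2 * y ^ 11 - 6 * (X1 ^ 2) ^ 4 * y ^ 13)

def R3 (a v G : ℂ) : ℂ := 2 * a ^ 29 + a ^ 28 * v +
  2 * (a ^ 16 + a ^ 15 * v + a ^ 14 * v ^ 2) * (a ^ 13 + v * G) + v ^ 3 * (a ^ 13 + v * G) ^ 2

def S5w (t : ℂ) (j : Fin 2) (b : Fin 2) (X0 X1 y : ℂ) : ℂ :=
  if b = 0 then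
    t⁻¹ * (X0 ^ 2) ^ 29 * mm j X0 X1 * ((X0 ^ 2 * y) ^ 3 + 3 * X1 ^ 2 * (X0 ^ 2 * y) ^ 2 +
      6 * (X1 ^ 2) ^ 2 * (X0 ^ 2 * y) + 6 * (X1 ^ 2) ^ 3)
  else
    mm j X0 X1 * (t⁻¹ * (X0 ^ 2) ^ 12 * (X1 ^ 2) ^ 17 * ((X0 ^ 2) ^ 3 * y ^ 9 +
        3 * X1 ^ 2 * (X0 ^ 2) ^ 2 * y ^ 10 + 6 * (X1 ^ 2) ^ 2 * X0 ^ 2 * y ^ 11 +
        6 * (X1 ^ 2) ^ 3 * y ^ 12) +
      6 * (X0 ^ 2) ^ 28 * (X1 ^ 2) ^ 4 * y -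
      (X0 ^ 2) ^ 12 * (X1 ^ 2) ^ 16 * ((X0 ^ 2) ^ 4 * y ^ 3 + 2 * X1 ^ 2 * (X0 ^ 2) ^ 3 * y ^ 4 +
        3 * (X1 ^ 2) ^ 2 * (X0 ^ 2) ^ 2 * y ^ 5 - 6 * (X1 ^ 2) ^ 4 * y ^ 7) +
      (X1 ^ 2) ^ 3 * R3 (X0 ^ 2) (X1 ^ 2 * y) (G12 (X0 ^ 2) (X1 ^ 2 * y)) +
      2 * t * ((X0 ^ 2) ^ 16 * y ^ 2 + (X1 ^ 2) ^ 16 * y ^ 8) * GG (X0 ^ 2) (X1 ^ 2 * y) +
      t ^ 2 * y ^ 7 * ((X0 ^ 2) ^ 16 + (X1 ^ 2) ^ 16 * y ^ 6) ^ 2)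

lemma isSec_S5 (t : ℂ) (ht : t ≠ 0) (j : Fin 2) :
    IsSec (gg t) 2 (-1) (-1) (sec2 (S5w t j) (S5v t j) (S5u j)) := by
  have hG : Differentiable ℂ (fun z : ℂ × ℂ × ℂ => G12 (z.1 ^ 2) (z.2.1 ^ 2 * z.2.2)) := by
    have := G12_diff.comp (g := fun z : ℂ × ℂ => G12 z.1 z.2)
      (f := fun z : ℂ × ℂ × ℂ => ((z.1 ^ 2, z.2.1 ^ 2 * z.2.2) : ℂ × ℂ)) (by fun_prop)
    exact this
  have hGG : Differentiable ℂ (fun z : ℂ × ℂ × ℂ => GG (z.1 ^ 2) (z.2.1 ^ 2 * z.2.2)) := by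
    have := GG_diff.comp (g := fun z : ℂ × ℂ => GG z.1 z.2)
      (f := fun z : ℂ × ℂ × ℂ => ((z.1 ^ 2, z.2.1 ^ 2 * z.2.2) : ℂ × ℂ)) (by fun_prop)
    exact this
  have hm := mm_diff j
  have sc12 : ∀ c X0 X1 y : ℂ,
      G12 ((c * X0) ^ 2) ((c * X1) ^ 2 * y) = c ^ 24 * G12 (X0 ^ 2) (X1 ^ 2 * y) := by
    intro c X0 X1 y
    have := G12_scale (c ^ 2) (X0 ^ 2) (X1 ^ 2 * y)
    rw [show (c * X0) ^ 2 = c ^ 2 * X0 ^ 2 by ring,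
      show (c * X1) ^ 2 * y = c ^ 2 * (X1 ^ 2 * y) by ring, this]
    ring
  have sc16 : ∀ c X0 X1 y : ℂ,
      GG ((c * X0) ^ 2) ((c * X1) ^ 2 * y) = c ^ 32 * GG (X0 ^ 2) (X1 ^ 2 * y) := by
    intro c X0 X1 y
    have := GG_smul (c ^ 2) (X0 ^ 2) (X1 ^ 2 * y)
    rw [show (c * X0) ^ 2 = c ^ 2 * X0 ^ 2 by ring,
      show (c * X1) ^ 2 * y = c ^ 2 * (X1 ^ 2 * y) by ring, this]
    ring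
  apply isSec_sec2
  · intro b; unfold S5w R3; split_ifs <;> fun_prop
  · intro b; unfold S5v; split_ifs <;> fun_prop
  · intro b; unfold S5u; split_ifs <;> fun_prop
  · intro b c X0 X1 y; unfold S5w R3
    rw [sc12, sc16, mm_scale]
    split_ifs <;> ring
  · intro b c X0 X1 y; unfold S5v
    rw [sc16, mm_scale]
    split_ifs <;> ring
  · intro b c X0 X1 y; unfold S5u
    rw [mm_scale]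
    split_ifs <;> ring
  · intro X0 X1 y hy
    simp only [S5u, if_true, one_ne_zero, if_false]
    field_simp
  · intro X0 X1 y hy
    have hE2 := EE_eq t (X0 ^ 2) (X1 ^ 2) y hy
    simp only [S5u, S5v, if_true, one_ne_zero, if_false]
    rw [hE2]
    generalize GG (X0 ^ 2) (X1 ^ 2 * y⁻¹) = G
    generalize mm j X0 X1 = m
    field_simp
    ring
  · intro X0 X1 y hy
    have hE2 := EE_eq t (X0 ^ 2) (X1 ^ 2) y hy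
    have h17 := GG_mul (X0 ^ 2) (X1 ^ 2 * y⁻¹)
    have hexp := GG_expand (X0 ^ 2) (X1 ^ 2 * y⁻¹)
    simp only [S5u, S5v, S5w, R3, if_true, one_ne_zero, if_false]
    rw [hE2]
    generalize GG (X0 ^ 2) (X1 ^ 2 * y⁻¹) = G at h17 hexp ⊢
    generalize G12 (X0 ^ 2) (X1 ^ 2 * y⁻¹) = H at hexp ⊢
    generalize mm j X0 X1 = m
    linear_combination (norm := (field_simp; ring))
      (-(t⁻¹ * (X0 ^ 2) ^ 12 * m * ((X0 ^ 2 * y) ^ 3 + 3 * X1 ^ 2 * (X0 ^ 2 * y) ^ 2 +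
      6 * (X1 ^ 2) ^ 2 * (X0 ^ 2 * y) + 6 * (X1 ^ 2) ^ 3))) * h17 +
      (y⁻¹ ^ 2 * m * (G + ((X0 ^ 2) ^ 16 + (X0 ^ 2) ^ 15 * (X1 ^ 2 * y⁻¹) +
        (X0 ^ 2) ^ 14 * (X1 ^ 2 * y⁻¹) ^ 2 + (X1 ^ 2 * y⁻¹) ^ 3 * ((X0 ^ 2) ^ 13 +
        (X1 ^ 2 * y⁻¹) * H)))) * hexp

end

end Crest.Agent.S0396
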