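import Crest.Agent.S0396_Bundle

/-!
Sections of symmetric powers: general machinery.
-/

set_option autoImplicit false
open Crest.AlgGeometry.QuadricBundle

namespace Crest.Agent.S0396

noncomputable section

open MvPolynomial

/-- sections of `Sym^n E ⊗ O(r,s)` -/
def IsSec (g : Transition 2) (n : ℕ) (r s : ℤ)
    (Q : Chart → (Fin 2 → ℂ) → MvPolynomial (Fin 2) ℂ) : Prop :=
  (∀ α p, (Q α p).IsHomogeneous n) ∧
  (∀ α (m : Fin 2 →₀ ℕ), Differentiable ℂ (fun p => MvPolynomial.coeff m (Q α p))) ∧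
  ∀ α β, ∀ p ∈ overlap α β,
    Q α p = lineTrans r s α β p • frameSubst (g α β p) (Q β (tau α β p))

/-- global generation -/
def Gen (g : Transition 2) (n : ℕ) (r s : ℤ) : Prop :=
  ∀ (α : Chart) (p : Fin 2 → ℂ) (R : MvPolynomial (Fin 2) ℂ), R.IsHomogeneous n →
    ∃ Q, IsSec g n r s Q ∧ Q α p = R

lemma frameSubst_mul (M : Matrix (Fin 2) (Fin 2) ℂ) (P Q : MvPolynomial (Fin 2) ℂ) :
    frameSubst M (P * Q) = frameSubst M P * frameSubst M Q := by
  simp [frameSubst]

lemma frameSubst_add (M : Matrix (Fin 2) (Fin 2) ℂ) (P Q : MvPolynomial (Fin 2) ℂ) :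
    frameSubst M (P + Q) = frameSubst M P + frameSubst M Q := by
  simp [frameSubst]

lemma frameSubst_smul (M : Matrix (Fin 2) (Fin 2) ℂ) (c : ℂ) (Q : MvPolynomial (Fin 2) ℂ) :
    frameSubst M (c • Q) = c • frameSubst M Q := by
  simp [frameSubst]

lemma frameSubst_C (M : Matrix (Fin 2) (Fin 2) ℂ) (c : ℂ) :
    frameSubst M (C c) = C c := by
  simp [frameSubst]

lemma frameSubst_zero (M : Matrix (Fin 2) (Fin 2) ℂ) :
    frameSubst M 0 = 0 := by
  simp [frameSubst]

lemma frameSubst_one (Q : MvPolynomial (Fin 2) ℂ) : frameSubst 1 Q = Q := by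
  unfold frameSubst
  have : (fun j => ∑ i, C ((1 : Matrix (Fin 2) (Fin 2) ℂ) i j) * X i) =
      (X : Fin 2 → MvPolynomial (Fin 2) ℂ) := by
    ext1 j
    rcases (by fin_cases j <;> simp : j = 0 ∨ j = 1) with rfl | rfl <;>
      simp [Fin.sum_univ_two]
  rw [this, bind₁_X_left]
  rfl

lemma frameSubst_comp (M M' : Matrix (Fin 2) (Fin 2) ℂ) (Q : MvPolynomial (Fin 2) ℂ) :
    frameSubst M (frameSubst M' Q) = frameSubst (M * M') Q := by
  unfold frameSubst
  rw [bind₁_bind₁]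
  congr 2
  ext1 j
  simp only [Fin.sum_univ_two, map_add, map_mul, bind₁_X_right, Matrix.mul_apply]
  simp only [algHom_C, algebraMap_eq]
  ring

lemma lineTrans_mul (r s r' s' : ℤ) (α β : Chart) (p : Fin 2 → ℂ) (hp : p ∈ overlap α β) :
    lineTrans (r + r') (s + s') α β p = lineTrans r s α β p * lineTrans r' s' α β p := by
  unfold lineTrans
  obtain ⟨h1, h2⟩ := hp
  by_cases ha : α.1 = β.1 <;> by_cases hb : α.2 = β.2
  · simp [ha, hb]
  · have hy := h2 hb
    simp [ha, hb, zpow_add₀ hy]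
  · have hx := h1 ha
    simp [ha, hb, zpow_add₀ hx]
  · have hy := h2 hb
    have hx := h1 ha
    simp [ha, hb, zpow_add₀ hx, zpow_add₀ hy]
    ring

lemma IsSec.mul {g : Transition 2} {n n' : ℕ} {r s r' s' : ℤ}
    {Q Q' : Chart → (Fin 2 → ℂ) → MvPolynomial (Fin 2) ℂ}
    (h : IsSec g n r s Q) (h' : IsSec g n' r' s' Q') :
    IsSec g (n + n') (r + r') (s + s') (fun α p => Q α p * Q' α p) := by
  refine ⟨fun α p => (h.1 α p).mul (h'.1 α p), fun α m => ?_, fun α β p hp => ?_⟩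
  · simp only [coeff_mul]
    apply Differentiable.fun_sum
    intro i _
    exact (h.2.1 α i.1).mul (h'.2.1 α i.2)
  · rw [lineTrans_mul _ _ _ _ _ _ _ hp]
    simp only
    rw [frameSubst_mul]
    conv_lhs => rw [h.2.2 α β p hp, h'.2.2 α β p hp]
    rw [smul_mul_smul_comm]

lemma IsSec.add {g : Transition 2} {n : ℕ} {r s : ℤ}
    {Q Q' : Chart → (Fin 2 → ℂ) → MvPolynomial (Fin 2) ℂ}
    (h : IsSec g n r s Q) (h' : IsSec g n r s Q') :
    IsSec g n r s (fun α p => Q α p + Q' α p) := by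
  refine ⟨fun α p => (h.1 α p).add (h'.1 α p), fun α m => ?_, fun α β p hp => ?_⟩
  · simp only [coeff_add]
    exact (h.2.1 α m).add (h'.2.1 α m)
  · simp only
    rw [frameSubst_add, smul_add, ← h.2.2 α β p hp, ← h'.2.2 α β p hp]

lemma IsSec.smul {g : Transition 2} {n : ℕ} {r s : ℤ}
    {Q : Chart → (Fin 2 → ℂ) → MvPolynomial (Fin 2) ℂ}
    (h : IsSec g n r s Q) (c : ℂ) :
    IsSec g n r s (fun α p => c • Q α p) := by
  refine ⟨fun α p => ?_, fun α m => ?_, fun α β p hp => ?_⟩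
  · show (c • Q α p).IsHomogeneous n
    rw [smul_eq_C_mul]
    simpa using (isHomogeneous_C (Fin 2) c).mul (h.1 α p)
  · simp only [coeff_smul]
    exact (h.2.1 α m).const_smul c
  · simp only
    rw [frameSubst_smul, smul_comm, ← h.2.2 α β p hp]

lemma IsSec.zero (g : Transition 2) (n : ℕ) (r s : ℤ) :
    IsSec g n r s (fun _ _ => 0) := by
  refine ⟨fun α p => isHomogeneous_zero _ _ _, fun α m => ?_, fun α β p hp => ?_⟩
  · simp
  · simp [frameSubst_zero]

lemma IsSec.sum {g : Transition 2} {n : ℕ} {r s : ℤ} {ι : Type*} (S : Finset ι)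
    (Q : ι → Chart → (Fin 2 → ℂ) → MvPolynomial (Fin 2) ℂ)
    (h : ∀ i ∈ S, IsSec g n r s (Q i)) :
    IsSec g n r s (fun α p => ∑ i ∈ S, Q i α p) := by
  classical
  induction S using Finset.induction_on with
  | empty => simpa using IsSec.zero g n r s
  | insert a S ha ih =>
    simp only [Finset.sum_insert ha]
    exact (h a (Finset.mem_insert_self _ _)).add
      (ih fun i hi => h i (Finset.mem_insert_of_mem hi))

/-- the set of values of sections at a point is a submodule -/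
def values (g : Transition 2) (n : ℕ) (r s : ℤ) (α : Chart) (p : Fin 2 → ℂ) :
    Submodule ℂ (MvPolynomial (Fin 2) ℂ) where
  carrier := {R | ∃ Q, IsSec g n r s Q ∧ Q α p = R}
  add_mem' := by
    rintro _ _ ⟨Q, hQ, rfl⟩ ⟨Q', hQ', rfl⟩
    exact ⟨_, hQ.add hQ', rfl⟩
  zero_mem' := ⟨_, IsSec.zero g n r s, rfl⟩
  smul_mem' := by
    rintro c _ ⟨Q, hQ, rfl⟩
    exact ⟨_, hQ.smul c, rfl⟩

lemma mem_values_of_isSec {g : Transition 2} {n : ℕ} {r s : ℤ}
    {Q : Chart → (Fin 2 → ℂ) → MvPolynomial (Fin 2) ℂ}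
    (h : IsSec g n r s Q) (α : Chart) (p : Fin 2 → ℂ) : Q α p ∈ values g n r s α p :=
  ⟨Q, h, rfl⟩

lemma gen_of_monomials {g : Transition 2} {n : ℕ} {r s : ℤ}
    (h : ∀ (α : Chart) (p : Fin 2 → ℂ) (i j : ℕ), i + j = n →
      (X 0 ^ i * X 1 ^ j : MvPolynomial (Fin 2) ℂ) ∈ values g n r s α p) : Gen g n r s := by
  intro α p R hR
  change R ∈ values g n r s α p
  rw [← R.support_sum_monomial_coeff]
  apply Submodule.sum_mem
  intro m hm
  have hdeg : m 0 + m 1 = n := by
    have := hR (mem_support_iff.1 hm)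
    rw [Finsupp.weight_apply] at this
    simpa [Finsupp.sum_fintype, Fin.sum_univ_two] using this
  have : (monomial m (coeff m R) : MvPolynomial (Fin 2) ℂ) =
      coeff m R • (X 0 ^ m 0 * X 1 ^ m 1) := by
    rw [monomial_eq, Finsupp.prod_fintype _ _ (by simp), Fin.prod_univ_two, smul_eq_C_mul]
  rw [this]
  exact Submodule.smul_mem _ _ (h α p _ _ hdeg)

lemma Gen.mul {g : Transition 2} {n n' : ℕ} {r s r' s' : ℤ}
    (h : Gen g n r s) (h' : Gen g n' r' s') : Gen g (n + n') (r + r') (s + s') := by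
  apply gen_of_monomials
  intro α p i j hij
  have hX : ∀ (k : ℕ) (l : ℕ),
      (X 0 ^ k * X 1 ^ l : MvPolynomial (Fin 2) ℂ).IsHomogeneous (k + l) := by
    intro k l
    have h0 := (isHomogeneous_X ℂ (0 : Fin 2)).pow k
    have h1 := (isHomogeneous_X ℂ (1 : Fin 2)).pow l
    simpa using h0.mul h1
  obtain ⟨i1, i2, j1, j2, hi, hj, h1, h2⟩ : ∃ i1 i2 j1 j2 : ℕ, i = i1 + i2 ∧ j = j1 + j2 ∧
      i1 + j1 = n ∧ i2 + j2 = n' := by
    refine ⟨min i n, i - min i n, n - min i n, j - (n - min i n), ?_, ?_, ?_, ?_⟩ <;> omega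
  subst hi hj
  obtain ⟨Q, hQ, hQv⟩ := h α p (X 0 ^ i1 * X 1 ^ j1) (by rw [← h1]; exact hX _ _)
  obtain ⟨Q', hQ', hQv'⟩ := h' α p (X 0 ^ i2 * X 1 ^ j2) (by rw [← h2]; exact hX _ _)
  refine ⟨_, hQ.mul hQ', ?_⟩
  simp only [hQv, hQv']
  ring

lemma Gen.line (g : Transition 2) (r s : ℕ) : Gen g 0 (r : ℤ) (s : ℤ) := by
  apply gen_of_monomials
  rintro α₀ p₀ i j hij
  obtain ⟨rfl, rfl⟩ : i = 0 ∧ j = 0 := by omega
  refine ⟨fun α p => C ((if α.1 = α₀.1 then 1 else (p 0) ^ r) *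
    (if α.2 = α₀.2 then 1 else (p 1) ^ s)), ⟨?_, ?_, ?_⟩, ?_⟩
  · intro α p
    exact isHomogeneous_C _ _
  · intro α m
    simp only [coeff_C]
    split_ifs <;> fun_prop
  · intro α β p hp
    rw [frameSubst_C, smul_eq_C_mul, ← C_mul]
    refine congrArg C ?_
    obtain ⟨h1, h2⟩ := hp
    obtain ⟨a0, b0⟩ := α₀
    obtain ⟨a, b⟩ := α
    obtain ⟨a', b'⟩ := β
    simp only [lineTrans, tau]
    have key : ∀ (u v w : Fin 2) (x : ℂ) (k : ℕ), (u ≠ v → x ≠ 0) →
        (if u = w then (1 : ℂ) else x ^ k) = (if u = v then 1 else x ^ (k : ℤ)) *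
          (if v = w then 1 else (if u = v then x else x⁻¹) ^ k) := by
      intro u v w x k hx
      by_cases huv : u = v
      · subst huv; simp
      · have hx' := hx huv
        by_cases hvw : v = w
        · subst hvw
          simp [huv]
        · have : u = w := by
            fin_cases u <;> fin_cases v <;> fin_cases w <;> simp_all
          subst this
          simp [huv, hvw, hx']
    have hk1 := key a a' a0 (p 0) r h1
    have hk2 := key b b' b0 (p 1) s h2
    rw [hk1, hk2]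
    simp only [Matrix.cons_val_zero, Matrix.cons_val_one]
    ring
  · simp

/-- the ampleness criterion -/
lemma ample_of_gen {g : Transition 2} (h2 : Gen g 2 (-1) (-1)) (h1 : Gen g 1 2 2) :
    IsAmple g := by
  have hpow : ∀ j : ℕ, Gen g (2 * j) (-(j : ℤ)) (-(j : ℤ)) := by
    intro j
    induction j with
    | zero => simpa using Gen.line g 0 0
    | succ j ih =>
      have := ih.mul h2
      convert this using 1 <;> push_cast <;> ring
  intro k
  refine ⟨2 * (k + 2), fun n hn α p R hR => ?_⟩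
  suffices hG : Gen g n (-(k : ℤ)) (-(k : ℤ)) from hG α p R hR
  rcases Nat.even_or_odd' n with ⟨j, rfl | rfl⟩
  · have := (hpow j).mul (Gen.line g (j - k) (j - k))
    have hjk : k ≤ j := by omega
    convert this using 1 <;> push_cast [Nat.cast_sub hjk] <;> ring
  · have := ((hpow j).mul h1).mul (Gen.line g (j - (k + 2)) (j - (k + 2)))
    have hjk : k + 2 ≤ j := by omega
    convert this using 1 <;> push_cast [Nat.cast_sub hjk] <;> ring

end

end Crest.Agent.S0396
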