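import Crest.Statements.S0423
-- import your own Crest.Agent.* helpers here

set_option autoImplicit false
open Crest Crest.AlgGeometry

namespace Crest.Agent.S0423

open MeasureTheory Set Filter Topology

/-! ### The exponential law -/

noncomputable def dens (x : ℝ) : ENNReal := ENNReal.ofReal (Real.exp (-x))

lemma measurable_dens : Measurable dens := by unfold dens; fun_prop

noncomputable def nu : Measure ℝ := (volume.restrict (Ioi (0:ℝ))).withDensity dens

lemma integral_nu (f : ℝ → ℝ) :
    ∫ x, f x ∂nu = ∫ x in Ioi (0:ℝ), Real.exp (-x) * f x := by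
  unfold nu
  rw [integral_withDensity_eq_integral_toReal_smul measurable_dens]
  · simp [dens, ENNReal.toReal_ofReal (Real.exp_pos _).le]
  · filter_upwards with x; exact ENNReal.ofReal_lt_top

lemma integrable_nu {f : ℝ → ℝ} :
    Integrable f nu ↔ IntegrableOn (fun x => f x * Real.exp (-x)) (Ioi 0) := by
  unfold nu
  rw [integrable_withDensity_iff measurable_dens]
  · simp [dens, ENNReal.toReal_ofReal (Real.exp_pos _).le, IntegrableOn]
  · filter_upwards with x; exact ENNReal.ofReal_lt_top

lemma integrableOn_exp_neg : IntegrableOn (fun x : ℝ => Real.exp (-x)) (Ioi 0) := by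
  have := Real.GammaIntegral_convergent (s := 1) one_pos
  simpa using this

instance : IsProbabilityMeasure nu := by
  constructor
  unfold nu dens
  rw [withDensity_apply _ MeasurableSet.univ, Measure.restrict_univ,
    ← ofReal_integral_eq_lintegral_ofReal]
  · rw [integral_exp_neg_Ioi_zero]; simp
  · exact integrableOn_exp_neg
  · filter_upwards with x; exact (Real.exp_pos _).le

lemma integrable_id_nu : Integrable (fun x : ℝ => x) nu := by
  rw [integrable_nu]
  have := Real.GammaIntegral_convergent (s := 2) two_pos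
  refine this.congr_fun ?_ measurableSet_Ioi
  intro x hx
  simp only
  rw [show (2:ℝ) - 1 = 1 by norm_num, Real.rpow_one, mul_comm]

lemma integrable_sq_nu : Integrable (fun x : ℝ => x ^ 2) nu := by
  rw [integrable_nu]
  have := Real.GammaIntegral_convergent (s := 3) three_pos
  refine this.congr_fun ?_ measurableSet_Ioi
  intro x hx
  simp only
  rw [show (3:ℝ) - 1 = (2:ℕ) by norm_num, Real.rpow_natCast, mul_comm]

lemma integral_id_nu : ∫ x, x ∂nu = 1 := by
  rw [integral_nu]
  have h := Real.Gamma_eq_integral (s := 2) two_pos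
  rw [Real.Gamma_two] at h
  rw [h]
  refine setIntegral_congr_fun measurableSet_Ioi ?_
  intro x hx
  simp only
  rw [show (2:ℝ) - 1 = 1 by norm_num, Real.rpow_one]

lemma integral_sq_nu : ∫ x, x ^ 2 ∂nu = 2 := by
  rw [integral_nu]
  have h := Real.Gamma_eq_integral (s := 3) three_pos
  have h3 : Real.Gamma 3 = 2 := by
    rw [show (3:ℝ) = ((2:ℕ):ℝ) + 1 by norm_num, Real.Gamma_nat_eq_factorial]
    norm_num [Nat.factorial]
  rw [h3] at h
  rw [h]
  refine setIntegral_congr_fun measurableSet_Ioi ?_
  intro x hx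
  simp only
  rw [show (3:ℝ) - 1 = (2:ℕ) by norm_num, Real.rpow_natCast]

lemma ae_pos_nu : ∀ᵐ x ∂nu, 0 < x := by
  unfold nu
  have h : ∀ᵐ x ∂(volume.restrict (Ioi (0:ℝ))), 0 < x := ae_restrict_mem measurableSet_Ioi
  exact (withDensity_absolutelyContinuous _ _).ae_le h

/-- memorylessness -/
lemma nu_shift (f : ℝ → ℝ) {c : ℝ} (hc : 0 ≤ c) :
    ∫ t in Ioi c, f t ∂nu = Real.exp (-c) * ∫ t, f (t + c) ∂nu := by
  rw [← integral_indicator measurableSet_Ioi, integral_nu, integral_nu, ← integral_const_mul,
    ← integral_indicator measurableSet_Ioi, ← integral_indicator measurableSet_Ioi,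
    ← integral_add_right_eq_self _ c]
  congr 1
  ext t
  by_cases ht : 0 < t
  · have h1 : t + c ∈ Ioi (0:ℝ) := by simp only [mem_Ioi]; linarith
    have h2 : t + c ∈ Ioi c := by simp only [mem_Ioi]; linarith
    rw [indicator_of_mem h1, indicator_of_mem h2, indicator_of_mem (show t ∈ Ioi (0:ℝ) from ht)]
    rw [show -(t+c) = -c + -t by ring, Real.exp_add]; ring
  · have h2 : t + c ∉ Ioi c := by simp only [mem_Ioi]; linarith
    rw [indicator_of_notMem (show t ∉ Ioi (0:ℝ) from ht)]
    by_cases h1 : t + c ∈ Ioi (0:ℝ)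
    · rw [indicator_of_mem h1, indicator_of_notMem h2, mul_zero]
    · rw [indicator_of_notMem h1]


/-! ### product measure -/

noncomputable def PN (N : ℕ) : Measure (Fin N → ℝ) := Measure.pi (fun _ => nu)

instance (N : ℕ) : IsProbabilityMeasure (PN N) := by unfold PN; infer_instance

lemma lintegral_fin_prod (m : Measure ℝ) [SigmaFinite m] (n : ℕ) (f : Fin n → ℝ → ENNReal)
    (hf : ∀ i, Measurable (f i)) :
    ∫⁻ x : Fin n → ℝ, ∏ i, f i (x i) ∂(Measure.pi (fun _ => m)) = ∏ i, ∫⁻ x, f i x ∂m := by
  induction n with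
  | zero => simp
  | succ n ih =>
    have hmp := (measurePreserving_piFinSuccAbove (fun _ : Fin (n+1) => m) 0).symm
    rw [← hmp.lintegral_comp_emb (MeasurableEquiv.measurableEmbedding _)]
    simp_rw [MeasurableEquiv.piFinSuccAbove_symm_apply, Fin.insertNthEquiv,
            Fin.prod_univ_succ, Fin.insertNth_zero, Equiv.coe_fn_mk, Fin.cons_succ, Fin.cons_zero]
    rw [← ih (fun i => f i.succ) (fun i => hf _)]
    have hm : Measurable (fun x : Fin n → ℝ => ∏ i, f i.succ (x i)) :=
      Finset.measurable_prod _ (fun (i : Fin n) _ => (hf i.succ).comp (measurable_pi_apply i))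
    exact lintegral_prod_mul (hf 0).aemeasurable hm.aemeasurable

lemma PN_eq (N : ℕ) : PN N =
    (volume.restrict (Set.pi Set.univ (fun _ : Fin N => Set.Ioi (0 : ℝ)))).withDensity
      (fun x => ENNReal.ofReal (Real.exp (-∑ i, x i))) := by
  unfold PN
  apply Measure.pi_eq
  intro s hs
  rw [volume_pi, Measure.restrict_pi_pi, withDensity_apply _ (MeasurableSet.univ_pi hs),
    ← lintegral_indicator (MeasurableSet.univ_pi hs)]
  have : ∀ x : Fin N → ℝ, (univ.pi s).indicator (fun x => ENNReal.ofReal (Real.exp (-∑ i, x i))) x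
      = ∏ i, (s i).indicator dens (x i) := by
    intro x
    by_cases hx : x ∈ univ.pi s
    · rw [indicator_of_mem hx]
      have : ∀ i, (s i).indicator dens (x i) = dens (x i) := fun i =>
        indicator_of_mem (hx i (mem_univ i)) _
      simp_rw [this, dens]
      rw [← ENNReal.ofReal_prod_of_nonneg (fun i _ => (Real.exp_pos _).le), ← Real.exp_sum,
        Finset.sum_neg_distrib]
    · rw [indicator_of_notMem hx]
      simp only [mem_univ_pi, not_forall] at hx
      obtain ⟨i, hi⟩ := hx
      symm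
      apply Finset.prod_eq_zero (Finset.mem_univ i)
      exact indicator_of_notMem hi _
  simp_rw [this]
  rw [lintegral_fin_prod _ _ _ (fun i => measurable_dens.indicator (hs i))]
  refine Finset.prod_congr rfl fun i _ => ?_
  rw [lintegral_indicator (hs i)]
  unfold nu
  rw [withDensity_apply _ (hs i)]

lemma integral_PN (N : ℕ) (f : (Fin N → ℝ) → ℝ) :
    ∫ x in Set.pi Set.univ (fun _ : Fin N => Set.Ioi (0 : ℝ)), f x * Real.exp (-∑ i, x i)
      = ∫ x, f x ∂(PN N) := by
  rw [PN_eq, integral_withDensity_eq_integral_toReal_smul]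
  · refine integral_congr_ae ?_
    filter_upwards with x
    rw [ENNReal.toReal_ofReal (Real.exp_pos _).le, smul_eq_mul, mul_comm]
  · fun_prop
  · filter_upwards with x; exact ENNReal.ofReal_lt_top

lemma integral_PN_succ (N : ℕ) (f : (Fin (N+1) → ℝ) → ℝ) (hf : Integrable f (PN (N+1))) :
    ∫ x, f x ∂(PN (N+1)) = ∫ t, ∫ y, f (Fin.cons t y) ∂(PN N) ∂nu := by
  have hmp := (measurePreserving_piFinSuccAbove (fun _ : Fin (N+1) => nu) 0).symm
  have h1 : ∫ x, f x ∂(PN (N+1)) = ∫ z : ℝ × (Fin N → ℝ), f (Fin.cons z.1 z.2) ∂(nu.prod (PN N)) := by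
    unfold PN
    rw [← hmp.integral_comp']
    simp_rw [MeasurableEquiv.piFinSuccAbove_symm_apply, Fin.insertNthEquiv, Fin.insertNth_zero,
      Equiv.coe_fn_mk]
    rfl
  rw [h1, integral_prod]
  have h2 := (hmp.integrable_comp_emb (MeasurableEquiv.measurableEmbedding _) (g := f)).2 hf
  simp_rw [MeasurableEquiv.piFinSuccAbove_symm_apply, Fin.insertNthEquiv, Fin.insertNth_zero,
      Equiv.coe_fn_mk] at h2
  exact h2

lemma integrable_eval (N : ℕ) (i : Fin N) : Integrable (fun x : Fin N → ℝ => x i) (PN N) := by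
  have := (measurePreserving_eval (fun _ : Fin N => nu) i).integrable_comp
    (g := fun x : ℝ => x) measurable_id.aestronglyMeasurable
  exact this.2 integrable_id_nu

lemma integral_eval (N : ℕ) (i : Fin N) : ∫ x, x i ∂(PN N) = 1 := by
  have hmp := (measurePreserving_eval (fun _ : Fin N => nu) i)
  have h := integral_map (μ := PN N) (φ := fun x : Fin N → ℝ => x i) (f := fun y : ℝ => y)
    (measurable_pi_apply i).aemeasurable measurable_id.aestronglyMeasurable
  rw [← h]
  have h2 : Measure.map (fun x : Fin N → ℝ => x i) (PN N) = nu := hmp.map_eq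
  rw [h2]
  exact integral_id_nu

/-- the linear form -/
noncomputable def lin {N : ℕ} (a : Fin N → ℝ) (x : Fin N → ℝ) : ℝ := ∑ i, a i * x i

lemma integrable_lin {N : ℕ} (a : Fin N → ℝ) : Integrable (lin a) (PN N) := by
  unfold lin
  exact integrable_finsetSum _ (fun i _ => (integrable_eval N i).const_mul _)

lemma integral_lin {N : ℕ} (a : Fin N → ℝ) : ∫ x, lin a x ∂(PN N) = ∑ i, a i := by
  unfold lin
  rw [integral_finsetSum _ (fun i _ => (integrable_eval N i).const_mul _)]
  refine Finset.sum_congr rfl fun i _ => ?_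
  rw [integral_const_mul, integral_eval, mul_one]

lemma measurable_lin {N : ℕ} (a : Fin N → ℝ) : Measurable (lin a) := by
  unfold lin; fun_prop

lemma lin_cons {N : ℕ} (a : Fin (N+1) → ℝ) (t : ℝ) (y : Fin N → ℝ) :
    lin a (Fin.cons t y) = a 0 * t + lin (fun i => a i.succ) y := by
  unfold lin
  rw [Fin.sum_univ_succ]
  simp

/-- stop-loss transform -/
noncomputable def H {N : ℕ} (a : Fin N → ℝ) (s : ℝ) : ℝ := ∫ x, max (lin a x - s) 0 ∂(PN N)

lemma integrable_H {N : ℕ} (a : Fin N → ℝ) (s : ℝ) :
    Integrable (fun x => max (lin a x - s) 0) (PN N) := by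
  have h : Integrable (fun x => lin a x - s) (PN N) := (integrable_lin a).sub (integrable_const s)
  exact h.pos_part

lemma H_nonneg {N : ℕ} (a : Fin N → ℝ) (s : ℝ) : 0 ≤ H a s :=
  integral_nonneg (fun _ => le_max_right _ _)

lemma H_anti {N : ℕ} (a : Fin N → ℝ) {s t : ℝ} (h : s ≤ t) : H a t ≤ H a s := by
  refine integral_mono (integrable_H a t) (integrable_H a s) (fun x => ?_)
  simp only
  exact max_le_max (by linarith) le_rfl

lemma H_lip {N : ℕ} (a : Fin N → ℝ) {s t : ℝ} (h : s ≤ t) : H a s ≤ H a t + (t - s) := by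
  have : H a t + (t - s) = ∫ x, (max (lin a x - t) 0 + (t - s)) ∂(PN N) := by
    rw [integral_add (integrable_H a t) (integrable_const _)]
    simp [H]
  rw [this]
  refine integral_mono (integrable_H a s) ((integrable_H a t).add (integrable_const _)) (fun x => ?_)
  simp only
  apply max_le
  · have := le_max_left (lin a x - t) 0; linarith
  · have := le_max_right (lin a x - t) 0; linarith

lemma H_continuous {N : ℕ} (a : Fin N → ℝ) : Continuous (H a) := by
  have : LipschitzWith 1 (H a) := by
    apply LipschitzWith.of_dist_le_mul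
    intro s t
    rw [Real.dist_eq, Real.dist_eq, NNReal.coe_one, one_mul]
    rcases le_total s t with h | h
    · have h1 := H_anti a h
      have h2 := H_lip a h
      rw [abs_of_nonneg (by linarith), abs_of_nonpos (by linarith)]
      linarith
    · have h1 := H_anti a h
      have h2 := H_lip a h
      rw [abs_of_nonpos (by linarith), abs_of_nonneg (by linarith)]
      linarith
  exact this.continuous

lemma H_ge {N : ℕ} (a : Fin N → ℝ) (ha : ∑ i, a i = 0) (s : ℝ) : -s ≤ H a s := by
  have : -s = ∫ x, (lin a x - s) ∂(PN N) := by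
    rw [integral_sub (integrable_lin a) (integrable_const _), integral_lin, ha]
    simp
  rw [this]
  exact integral_mono ((integrable_lin a).sub (integrable_const _)) (integrable_H a s)
    (fun x => le_max_left _ _)

lemma H_zero (a : Fin 0 → ℝ) (s : ℝ) : H a s = max (-s) 0 := by
  unfold H lin
  simp

lemma H_succ {N : ℕ} (a : Fin (N+1) → ℝ) (s : ℝ) :
    H a s = ∫ t, H (fun i => a i.succ) (s - a 0 * t) ∂nu := by
  unfold H
  rw [integral_PN_succ N _ (integrable_H a s)]
  refine integral_congr_ae (Eventually.of_forall fun t => ?_)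
  refine integral_congr_ae (Eventually.of_forall fun y => ?_)
  simp only [lin_cons]
  congr 1
  ring

/-- discrete log-concavity -/
def LC (h : ℝ → ℝ) : Prop :=
  ∀ p q δ : ℝ, p ≤ q → 0 ≤ δ → h p * h (q + δ) ≤ h (p + δ) * h q

lemma LC.mul_le {h : ℝ → ℝ} (hl : LC h) {p q r s : ℝ} (h1 : p ≤ q) (h2 : p ≤ r)
    (h3 : p + s = q + r) : h p * h s ≤ h q * h r := by
  have := hl p r (q - p) h2 (by linarith)
  have e1 : r + (q - p) = s := by linarith
  have e2 : p + (q - p) = q := by ring
  rw [e1, e2] at this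
  exact this

lemma LC.reflect {h : ℝ → ℝ} (hl : LC h) : LC (fun x => h (-x)) := by
  intro p q δ hpq hδ
  simp only
  have := hl.mul_le (p := -(q+δ)) (s := -p) (q := -q) (r := -(p+δ)) (by linarith) (by linarith)
    (by ring)
  linarith

/-- conditions on the functions we convolve -/
structure Good (h : ℝ → ℝ) : Prop where
  cont : Continuous h
  nonneg : ∀ x, 0 ≤ h x
  growth : ∃ C : ℝ, ∀ x, h x ≤ C + |x|
  lc : LC h

lemma Good.integrable {h : ℝ → ℝ} (hg : Good h) (s a : ℝ) :
    Integrable (fun t => h (s - a * t)) nu := by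
  obtain ⟨C, hC⟩ := hg.growth
  have h1 : Integrable (fun t : ℝ => C + |s| + |a| * |t|) nu :=
    (integrable_const _).add ((integrable_id_nu.abs).const_mul _)
  refine h1.mono' ?_ ?_
  · have := hg.cont
    exact (by fun_prop : Continuous fun t => h (s - a * t)).aestronglyMeasurable
  · refine Eventually.of_forall fun t => ?_
    rw [Real.norm_eq_abs, abs_of_nonneg (hg.nonneg _)]
    have := hC (s - a * t)
    have h2 : |s - a * t| ≤ |s| + |a * t| := abs_sub _ _
    rw [abs_mul] at h2
    linarith

lemma lc_conv_pos {h : ℝ → ℝ} (hg : Good h) {a : ℝ} (ha : 0 < a) :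
    LC (fun s => ∫ t, h (s - a * t) ∂nu) := by
  intro x y δ hxy hδ
  simp only
  set c := δ / a with hc
  have hc0 : 0 ≤ c := by positivity
  have hac : a * c = δ := by rw [hc]; field_simp
  -- decomposition
  have dec : ∀ z : ℝ, ∫ t, h (z + δ - a * t) ∂nu
      = (∫ t in Iic c, h (z + δ - a * t) ∂nu) + Real.exp (-c) * ∫ t, h (z - a * t) ∂nu := by
    intro z
    have h1 : ∫ t in Ioi c, h (z + δ - a * t) ∂nu = Real.exp (-c) * ∫ t, h (z - a * t) ∂nu := by
      rw [nu_shift _ hc0]
      congr 1
      refine integral_congr_ae (Eventually.of_forall fun t => ?_)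
      simp only
      congr 1
      rw [mul_add, hac]; ring
    rw [← h1, ← integral_add_compl (measurableSet_Iic (a := c)) (hg.integrable (z + δ) a), compl_Iic]
  rw [dec x, dec y]
  set u := ∫ t, h (x - a * t) ∂nu
  set w := ∫ t, h (y - a * t) ∂nu
  have key : u * (∫ t in Iic c, h (y + δ - a * t) ∂nu) ≤ (∫ t in Iic c, h (x + δ - a * t) ∂nu) * w := by
    rw [← integral_const_mul, ← integral_mul_const]
    refine setIntegral_mono_on ?_ ?_ measurableSet_Iic ?_
    · exact ((hg.integrable (y + δ) a).const_mul u).integrableOn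
    · exact ((hg.integrable (x + δ) a).mul_const w).integrableOn
    · intro r hr
      have hr' : a * r ≤ δ := by rw [← hac]; exact mul_le_mul_of_nonneg_left hr ha.le
      rw [← integral_mul_const, ← integral_const_mul]
      refine integral_mono_ae ?_ ?_ ?_
      · exact (hg.integrable x a).mul_const _
      · exact (hg.integrable y a).const_mul _
      · filter_upwards [ae_pos_nu] with t ht
        have hat : 0 ≤ a * t := by positivity
        have := hg.lc.mul_le (p := x - a * t) (s := y + δ - a * r) (q := x + δ - a * r)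
          (r := y - a * t) (by linarith) (by linarith) (by ring)
        exact this
  nlinarith [key]

lemma lc_conv {h : ℝ → ℝ} (hg : Good h) (a : ℝ) :
    LC (fun s => ∫ t, h (s - a * t) ∂nu) := by
  rcases lt_trichotomy a 0 with ha | ha | ha
  · have hg' : Good (fun x => h (-x)) := by
      refine ⟨hg.cont.comp continuous_neg, fun x => hg.nonneg _, ?_, hg.lc.reflect⟩
      obtain ⟨C, hC⟩ := hg.growth
      exact ⟨C, fun x => by simpa using hC (-x)⟩
    have h1 := (lc_conv_pos hg' (neg_pos.2 ha)).reflect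
    convert h1 using 3 with s t
    ext t
    congr 1
    ring
  · subst ha
    intro p q δ h1 h2
    simp only [zero_mul, sub_zero, integral_const, probReal_univ, one_smul]
    exact hg.lc p q δ h1 h2
  · exact lc_conv_pos hg ha

lemma H_good {N : ℕ} (a : Fin N → ℝ) : Good (H a) := by
  refine ⟨H_continuous a, H_nonneg a, ?_, ?_⟩
  · refine ⟨H a 0, fun x => ?_⟩
    rcases le_total x 0 with h | h
    · have := H_lip a h
      rw [abs_of_nonpos h]; linarith
    · have := H_anti a h
      have := abs_nonneg x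
      linarith
  · induction N with
    | zero =>
      intro p q δ h1 h2
      simp only [H_zero]
      rcases le_or_gt 0 (q + δ) with h3 | h3
      · rw [max_eq_right (by linarith : -(q+δ) ≤ 0), mul_zero]
        exact mul_nonneg (le_max_right _ _) (le_max_right _ _)
      · rw [max_eq_left (by linarith : 0 ≤ -(q+δ)), max_eq_left (by linarith : 0 ≤ -p),
          max_eq_left (by linarith : 0 ≤ -(p+δ)), max_eq_left (by linarith : 0 ≤ -q)]
        nlinarith
    | succ N ih =>
      have hg : Good (H (fun i => a i.succ)) := by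
        refine ⟨H_continuous _, H_nonneg _, ?_, ih _⟩
        refine ⟨H (fun i => a i.succ) 0, fun x => ?_⟩
        rcases le_total x 0 with h | h
        · have := H_lip (fun i => a i.succ) h
          rw [abs_of_nonpos h]; linarith
        · have := H_anti (fun i => a i.succ) h
          have := abs_nonneg x
          linarith
      have := lc_conv hg (a 0)
      have e : H a = (fun s => ∫ t, H (fun i => a i.succ) (s - a 0 * t) ∂nu) := by
        ext s; exact H_succ a s
      rw [e]; exact this

/-- minimum principle: a continuous positive discretely log-concave function lies above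
an exponential on an interval when it does so at the endpoints. -/
lemma three_point {h : ℝ → ℝ} (hc : Continuous h) (hl : LC h) {x z K b : ℝ} (hxz : x ≤ z)
    (hpos : ∀ y ∈ Icc x z, 0 < h y)
    (hx : Real.exp (K + b * x) ≤ h x) (hz : Real.exp (K + b * z) ≤ h z) :
    ∀ y ∈ Icc x z, Real.exp (K + b * y) ≤ h y := by
  set r : ℝ → ℝ := fun y => h y * Real.exp (-(K + b * y)) with hr
  have hrc : Continuous r := by
    rw [hr]; fun_prop
  have key : ∀ y, Real.exp (K + b * y) ≤ h y ↔ 1 ≤ r y := by
    intro y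
    rw [hr]
    simp only
    rw [Real.exp_neg, ← div_eq_mul_inv, le_div_iff₀ (Real.exp_pos _), one_mul]
  have hne : (Icc x z).Nonempty := nonempty_Icc.2 hxz
  obtain ⟨m0, hm0, hmin⟩ := isCompact_Icc.exists_isMinOn hne hrc.continuousOn
  intro y hy
  rw [key]
  by_contra hlt
  push Not at hlt
  have hm : r m0 < 1 := lt_of_le_of_lt (hmin hy) hlt
  -- set of minimisers
  have hScl : IsCompact (Icc x z ∩ r ⁻¹' {r m0}) :=
    isCompact_Icc.inter_right (isClosed_singleton.preimage hrc)
  obtain ⟨y0, hy0, hy0least⟩ := hScl.exists_isLeast ⟨m0, hm0, rfl⟩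
  have hry0 : r y0 = r m0 := hy0.2
  have hx1 : 1 ≤ r x := (key x).1 hx
  have hz1 : 1 ≤ r z := (key z).1 hz
  have hxy0 : x < y0 := by
    rcases lt_or_eq_of_le hy0.1.1 with h | h
    · exact h
    · rw [h] at hx1; linarith
  have hzy0 : y0 < z := by
    rcases lt_or_eq_of_le hy0.1.2 with h | h
    · exact h
    · rw [← h] at hz1; linarith
  set δ := min (y0 - x) (z - y0) with hδ
  have hδ0 : 0 < δ := lt_min (by linarith) (by linarith)
  have hδ1 : δ ≤ y0 - x := min_le_left _ _
  have hδ2 : δ ≤ z - y0 := min_le_right _ _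
  have hm0pos : 0 < r m0 := by
    rw [hr]; exact mul_pos (hpos _ hm0) (Real.exp_pos _)
  have h1 : r m0 < r (y0 - δ) := by
    have hmem : y0 - δ ∈ Icc x z := ⟨by linarith, by linarith⟩
    have hle : r m0 ≤ r (y0 - δ) := hmin hmem
    rcases lt_or_eq_of_le hle with h | h
    · exact h
    · have := hy0least ⟨hmem, h.symm⟩
      linarith
  have h2 : r m0 ≤ r (y0 + δ) := hmin ⟨by linarith, by linarith⟩
  have h3 : r (y0 - δ) * r (y0 + δ) ≤ r y0 * r y0 := by
    have h4 := hl.mul_le (p := y0 - δ) (s := y0 + δ) (q := y0) (r := y0) (by linarith)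
      (by linarith) (by ring)
    rw [hr]
    simp only
    have e1 : h (y0 - δ) * Real.exp (-(K + b * (y0 - δ))) * (h (y0 + δ) * Real.exp (-(K + b * (y0 + δ))))
      = (h (y0 - δ) * h (y0 + δ)) * (Real.exp (-(K + b * y0)) * Real.exp (-(K + b * y0))) := by
      rw [← Real.exp_add (-(K + b * y0)), mul_mul_mul_comm, ← Real.exp_add]
      congr 2; ring
    rw [e1]
    have e2 : h y0 * Real.exp (-(K + b * y0)) * (h y0 * Real.exp (-(K + b * y0)))
      = (h y0 * h y0) * (Real.exp (-(K + b * y0)) * Real.exp (-(K + b * y0))) := by ring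
    rw [e2]
    exact mul_le_mul_of_nonneg_right h4 (by positivity)
  rw [hry0] at h3
  have : r m0 * r m0 < r (y0 - δ) * r (y0 + δ) := by
    calc r m0 * r m0 < r (y0 - δ) * r m0 := mul_lt_mul_of_pos_right h1 hm0pos
      _ ≤ r (y0 - δ) * r (y0 + δ) := mul_le_mul_of_nonneg_left h2 (by linarith)
  linarith

/-- the exponential comparison function -/
noncomputable def E (β s : ℝ) : ℝ := β * Real.exp (-(s + β) / β)

lemma E_eq {β : ℝ} (hβ : 0 < β) (s : ℝ) :
    E β s = Real.exp ((Real.log β - 1) + (-(1/β)) * s) := by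
  unfold E
  rw [show (Real.log β - 1) + (-(1/β)) * s = Real.log β + (-(s + β) / β) by field_simp; ring,
    Real.exp_add, Real.exp_log hβ]

section compare

variable {N : ℕ} (a : Fin N → ℝ) (ha : ∑ i, a i = 0)
include ha

lemma H_pos_of_neg {s : ℝ} (hs : s < 0) : 0 < H a s := by
  have := H_ge a ha s; linarith

/-- left comparison -/
lemma left_compare {β s0 s : ℝ} (hβ : 0 < β) (h0 : s0 < 0) (hs0 : E β s0 ≤ H a s0)
    (hs1 : -β ≤ s) (hs2 : s ≤ s0) : E β s ≤ H a s := by
  rw [E_eq hβ]
  refine three_point (H_continuous a) (H_good a).lc (x := -β) (z := s0) (by linarith) ?_ ?_ ?_ s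
    ⟨hs1, hs2⟩
  · intro y hy
    exact H_pos_of_neg a ha (lt_of_le_of_lt hy.2 h0)
  · rw [← E_eq hβ]
    have : E β (-β) = β := by unfold E; simp
    rw [this]
    have := H_ge a ha (-β)
    linarith
  · rw [← E_eq hβ]; exact hs0

/-- right comparison -/
lemma right_compare {β s0 s : ℝ} (hβ : 0 < β) (hβ0 : -β < s0)
    (hs0 : H a s0 ≤ E β s0) (hs2 : s0 ≤ s) : H a s ≤ E β s := by
  by_contra hcon
  push Not at hcon
  have hEpos : 0 < E β s := by unfold E; positivity
  have hHpos : 0 < H a s := lt_trans hEpos hcon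
  -- tilt
  set L := Real.log (H a s) - Real.log β with hL
  have hsβ : 0 < s + β := by linarith
  set b := L / (s + β) with hb
  have hx : Real.exp ((Real.log β + b * β) + b * (-β)) ≤ H a (-β) := by
    rw [show (Real.log β + b * β) + b * (-β) = Real.log β by ring, Real.exp_log hβ]
    have := H_ge a ha (-β)
    linarith
  have hz : Real.exp ((Real.log β + b * β) + b * s) ≤ H a s := by
    rw [show (Real.log β + b * β) + b * s = Real.log β + b * (s + β) by ring, hb,
      div_mul_cancel₀ _ hsβ.ne', hL]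
    rw [show Real.log β + (Real.log (H a s) - Real.log β) = Real.log (H a s) by ring,
      Real.exp_log hHpos]
  have h3 := three_point (H_continuous a) (H_good a).lc (x := -β) (z := s) (by linarith)
    (fun y hy => lt_of_lt_of_le hHpos (H_anti a hy.2)) hx hz s0 ⟨hβ0.le, hs2⟩
  have hEs : Real.log (E β s) = Real.log β + (-(s + β) / β) := by
    unfold E
    rw [Real.log_mul hβ.ne' (Real.exp_pos _).ne', Real.log_exp]
  have hlog : Real.log (E β s) < Real.log (H a s) := Real.log_lt_log hEpos hcon
  have hbgt : -(1/β) < b := by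
    rw [hb, lt_div_iff₀ hsβ, hL]
    rw [hEs] at hlog
    have : -(1/β) * (s + β) = (-(s + β) / β) := by ring
    linarith
  have h4 : E β s0 < Real.exp (Real.log β + b * β + b * s0) := by
    rw [E_eq hβ]
    apply Real.exp_lt_exp.2
    have h5 : 0 < s0 + β := by linarith
    have h6 : -(1/β) * (s0 + β) < b * (s0 + β) := mul_lt_mul_of_pos_right hbgt h5
    have h7 : -(1/β) * (s0 + β) = -(1/β) * s0 - 1 := by field_simp; ring
    nlinarith
  linarith

end compare

/-! ### explicit integrals -/

lemma intA (z c : ℝ) : ∫ y in (0:ℝ)..c, Real.exp (-y) * ((y - 1) * (z - y))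
    = Real.exp (-c) * (c ^ 2 + (1 - z) * c + 1) - 1 := by
  have hd : ∀ y ∈ uIcc 0 c, HasDerivAt (fun y => Real.exp (-y) * (y ^ 2 + (1 - z) * y + 1))
      (Real.exp (-y) * ((y - 1) * (z - y))) y := by
    intro y _
    have h1 : HasDerivAt (fun y : ℝ => Real.exp (-y)) (Real.exp (-y) * (-1)) y :=
      (hasDerivAt_neg y).exp
    have h2 : HasDerivAt (fun y : ℝ => y ^ 2 + (1 - z) * y + 1) (2 * y + (1 - z)) y := by
      simpa using ((hasDerivAt_pow 2 y).add ((hasDerivAt_id' y).const_mul (1 - z))).add_const 1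
    exact (h1.mul h2).congr_deriv (by ring)
  rw [intervalIntegral.integral_eq_sub_of_hasDerivAt hd]
  · simp
  · apply Continuous.intervalIntegrable
    fun_prop

lemma trunc_formula (z : ℝ) :
    truncExpWeight z = 1 + ∫ y, (y - 1) * max (z - y) 0 ∂nu := by
  unfold truncExpWeight
  split_ifs with hz
  · have : ∫ y, (y - 1) * max (z - y) 0 ∂nu = 0 := by
      rw [integral_eq_zero_of_ae]
      filter_upwards [ae_pos_nu] with y hy
      rw [max_eq_right (by linarith), mul_zero]
      rfl
    rw [this, add_zero]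
  · push Not at hz
    rw [integral_nu, setIntegral_eq_of_subset_of_forall_sdiff_eq_zero (s := Ioc 0 z)
      measurableSet_Ioi Ioc_subset_Ioi_self]
    · rw [← intervalIntegral.integral_of_le hz.le]
      have : ∫ y in (0:ℝ)..z, Real.exp (-y) * ((y - 1) * max (z - y) 0)
        = ∫ y in (0:ℝ)..z, Real.exp (-y) * ((y - 1) * (z - y)) := by
        apply intervalIntegral.integral_congr
        intro y hy
        rw [uIcc_of_le hz.le] at hy
        simp only
        rw [max_eq_left (by linarith [hy.2])]
      rw [this, intA]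
      ring
    · intro y hy
      have h1 : ¬ (y ≤ z) := fun h => hy.2 ⟨hy.1, h⟩
      rw [max_eq_right (by linarith), mul_zero, mul_zero]

lemma E_phi_formula {N : ℕ} (a : Fin N → ℝ) :
    ∫ x, truncExpWeight (4/3 + lin a x) ∂(PN N) = 1 + ∫ y, (y - 1) * H a (y - 4/3) ∂nu := by
  have hint : Integrable (Function.uncurry fun (x : Fin N → ℝ) (y : ℝ) =>
      (y - 1) * max (4/3 + lin a x - y) 0) ((PN N).prod nu) := by
    have h1 : Integrable (fun x : Fin N → ℝ => 4/3 + |lin a x|) (PN N) :=
      (integrable_const _).add (integrable_lin a).abs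
    have h2 : Integrable (fun y : ℝ => |y - 1|) nu :=
      (integrable_id_nu.sub (integrable_const 1)).abs
    have h3 := h1.mul_prod h2
    refine h3.mono' ?_ ?_
    · have := measurable_lin a
      apply Measurable.aestronglyMeasurable
      unfold Function.uncurry
      fun_prop
    · have hae : ∀ᵐ z ∂((PN N).prod nu), 0 < z.2 := by
        have := (Measure.quasiMeasurePreserving_snd (μ := PN N) (ν := nu)).ae ae_pos_nu
        exact this
      filter_upwards [hae] with z hz
      simp only [Function.uncurry]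
      rw [Real.norm_eq_abs, abs_mul, mul_comm]
      apply mul_le_mul_of_nonneg_right _ (abs_nonneg _)
      rw [abs_of_nonneg (le_max_right _ _)]
      apply max_le
      · have := le_abs_self (lin a z.1); linarith
      · have := abs_nonneg (lin a z.1); linarith
  have h1 : ∫ x, truncExpWeight (4/3 + lin a x) ∂(PN N)
      = ∫ x, (1 + ∫ y, (y - 1) * max (4/3 + lin a x - y) 0 ∂nu) ∂(PN N) := by
    refine integral_congr_ae (Eventually.of_forall fun x => ?_)
    exact trunc_formula _
  rw [h1, integral_add (integrable_const _)]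
  · rw [integral_integral_swap hint]
    congr 1
    · simp
    · refine integral_congr_ae (Eventually.of_forall fun y => ?_)
      simp only
      unfold H
      rw [← integral_const_mul]
      refine integral_congr_ae (Eventually.of_forall fun x => ?_)
      simp only
      congr 2
      ring
  · exact hint.integral_prod_left

lemma integrable_exp_mul {κ : ℝ} (hκ : 0 < κ) {c : ℝ} (hc : 0 ≤ c) :
    IntegrableOn (fun y : ℝ => (y - 1) * Real.exp (-κ * y)) (Ioi c) := by
  have h1 : IntegrableOn (fun y : ℝ => Real.exp (-κ * y)) (Ioi c) := by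
    have := integrableOn_exp_mul_Ioi (a := -κ) (by linarith) c
    exact this
  have h1' : IntegrableOn (fun y : ℝ => (2/κ) * Real.exp (-(κ/2) * y)) (Ioi c) := by
    have := integrableOn_exp_mul_Ioi (a := -(κ/2)) (by linarith) c
    exact this.const_mul _
  have h2 : IntegrableOn (fun y : ℝ => y * Real.exp (-κ * y)) (Ioi c) := by
    refine h1'.mono' ?_ ?_
    · exact (by fun_prop : Continuous fun y : ℝ => y * Real.exp (-κ * y)).aestronglyMeasurable
    · filter_upwards [ae_restrict_mem measurableSet_Ioi] with y hy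
      have hy0 : 0 < y := lt_of_le_of_lt hc hy
      rw [Real.norm_eq_abs, abs_of_nonneg (by positivity)]
      have h3 : κ / 2 * y ≤ Real.exp (κ / 2 * y) := by
        have := Real.add_one_le_exp (κ / 2 * y); linarith
      have h4 : y ≤ (2/κ) * Real.exp (κ / 2 * y) := by
        have : y = (2/κ) * (κ / 2 * y) := by field_simp
        calc y = (2/κ) * (κ / 2 * y) := this
          _ ≤ _ := by gcongr
      calc y * Real.exp (-κ * y) ≤ ((2/κ) * Real.exp (κ / 2 * y)) * Real.exp (-κ * y) := by gcongr
        _ = (2/κ) * Real.exp (-(κ/2) * y) := by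
          rw [mul_assoc, ← Real.exp_add]; congr 2; ring
  have := h2.sub h1
  refine this.congr_fun ?_ measurableSet_Ioi
  intro y _
  simp only [Pi.sub_apply]
  ring

lemma intB {κ : ℝ} (hκ : 0 < κ) {c : ℝ} (hc : 0 ≤ c) :
    ∫ y in Ioi c, (y - 1) * Real.exp (-κ * y) = Real.exp (-κ * c) * ((c - 1) / κ + 1 / κ ^ 2) := by
  have hd : ∀ y : ℝ, HasDerivAt (fun y => -(Real.exp (-κ * y) * ((y - 1) / κ + 1 / κ ^ 2)))
      ((y - 1) * Real.exp (-κ * y)) y := by
    intro y
    have h1 : HasDerivAt (fun y : ℝ => Real.exp (-κ * y)) (Real.exp (-κ * y) * (-κ)) y := by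
      have := ((hasDerivAt_id y).const_mul (-κ)).exp
      simpa using this
    have h2 : HasDerivAt (fun y : ℝ => (y - 1) / κ + 1 / κ ^ 2) (1 / κ) y := by
      have := (((hasDerivAt_id y).sub_const 1).div_const κ).add_const (1 / κ ^ 2)
      simpa using this
    exact (h1.mul h2).neg.congr_deriv (by field_simp; ring)
  have ht : Tendsto (fun y : ℝ => -(Real.exp (-κ * y) * ((y - 1) / κ + 1 / κ ^ 2))) atTop (𝓝 0) := by
    have hk : Tendsto (fun y : ℝ => κ * y) atTop atTop := tendsto_id.const_mul_atTop hκ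
    have h1 := (Real.tendsto_pow_mul_exp_neg_atTop_nhds_zero 1).comp hk
    have h0 := (Real.tendsto_pow_mul_exp_neg_atTop_nhds_zero 0).comp hk
    have h2 := ((h1.const_mul (1 / κ ^ 2)).add (h0.const_mul (1 / κ ^ 2 - 1 / κ))).neg
    have e : (fun y : ℝ => -(Real.exp (-κ * y) * ((y - 1) / κ + 1 / κ ^ 2)))
      = (fun x => -((1 / κ ^ 2) * ((fun x : ℝ => x ^ 1 * Real.exp (-x)) ∘ fun y => κ * y) x
        + (1 / κ ^ 2 - 1 / κ) * ((fun x : ℝ => x ^ 0 * Real.exp (-x)) ∘ fun y => κ * y) x)) := by
      ext y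
      simp only [Function.comp]
      rw [show -κ * y = -(κ * y) by ring]
      field_simp
      ring
    rw [e]
    simpa using h2
  rw [integral_Ioi_of_hasDerivAt_of_tendsto (hd c).continuousAt.continuousWithinAt
    (fun y _ => hd y) (integrable_exp_mul hκ hc) ht]
  ring

noncomputable def Kfun (c β y : ℝ) : ℝ := if y ≤ c then 4/3 - y else E β (y - 4/3)

lemma E_mul_exp {β : ℝ} (hβ : 0 < β) (y : ℝ) :
    (y - 1) * E β (y - 4/3) * Real.exp (-y)
      = (β * Real.exp (-1 + 4/(3*β))) * ((y - 1) * Real.exp (-(1 + 1/β) * y)) := by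
  unfold E
  have : Real.exp (-(y - 4/3 + β) / β) * Real.exp (-y)
      = Real.exp (-1 + 4/(3*β)) * Real.exp (-(1 + 1/β) * y) := by
    rw [← Real.exp_add, ← Real.exp_add]
    congr 1
    field_simp
    ring
  calc _ = β * (y - 1) * (Real.exp (-(y - 4/3 + β) / β) * Real.exp (-y)) := by ring
    _ = _ := by rw [this]; ring

lemma K_integrable {c β : ℝ} (hβ : 0 < β) :
    Integrable (fun y => (Iic c).indicator (fun y => (y - 1) * (4/3 - y)) y) nu ∧
    Integrable (fun y => (Ioi c).indicator (fun y => (y - 1) * E β (y - 4/3)) y) nu := by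
  constructor
  · apply Integrable.indicator _ measurableSet_Iic
    have := ((integrable_sq_nu.neg).add (integrable_id_nu.const_mul (7/3))).sub
      (integrable_const (4/3 : ℝ))
    refine this.congr (Eventually.of_forall fun y => ?_)
    simp only [Pi.neg_apply, Pi.add_apply, Pi.sub_apply]
    ring
  · apply Integrable.indicator _ measurableSet_Ioi
    rw [integrable_nu]
    have hκ : 0 < 1 + 1/β := by positivity
    have : IntegrableOn (fun y : ℝ => (β * Real.exp (-1 + 4/(3*β))) *
        ((y - 1) * Real.exp (-(1 + 1/β) * y))) (Ioi 0) :=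
      (integrable_exp_mul hκ (le_refl 0)).const_mul (β * Real.exp (-1 + 4/(3*β)))
    refine this.congr_fun (fun y _ => ?_) measurableSet_Ioi
    simp only
    rw [E_mul_exp hβ]

lemma K_integral {c β : ℝ} (hc : 0 ≤ c) (hβ : 0 < β) :
    Integrable (fun y => (y - 1) * Kfun c β y) nu ∧
    ∫ y, (y - 1) * Kfun c β y ∂nu
      = (Real.exp (-c) * (c ^ 2 - c / 3 + 1) - 1)
        + (β * Real.exp (-1 + 4/(3*β))) * (Real.exp (-(1 + 1/β) * c) *
          ((c - 1) / (1 + 1/β) + 1 / (1 + 1/β) ^ 2)) := by
  obtain ⟨h1, h2⟩ := K_integrable (c := c) hβ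
  have e : (fun y => (y - 1) * Kfun c β y) = fun y =>
      (Iic c).indicator (fun y => (y - 1) * (4/3 - y)) y
      + (Ioi c).indicator (fun y => (y - 1) * E β (y - 4/3)) y := by
    ext y
    unfold Kfun
    by_cases hy : y ≤ c
    · rw [if_pos hy, indicator_of_mem (show y ∈ Iic c from hy),
        indicator_of_notMem (show y ∉ Ioi c from not_lt.2 hy), add_zero]
    · rw [if_neg hy, indicator_of_notMem (show y ∉ Iic c from hy),
        indicator_of_mem (show y ∈ Ioi c from not_le.1 hy), zero_add]
  rw [e]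
  refine ⟨h1.add h2, ?_⟩
  rw [integral_add h1 h2]
  congr 1
  · rw [integral_nu, setIntegral_eq_of_subset_of_forall_sdiff_eq_zero (s := Ioc 0 c)
      measurableSet_Ioi Ioc_subset_Ioi_self]
    · rw [← intervalIntegral.integral_of_le hc]
      have : ∫ y in (0:ℝ)..c, Real.exp (-y) * (Iic c).indicator (fun y => (y - 1) * (4/3 - y)) y
        = ∫ y in (0:ℝ)..c, Real.exp (-y) * ((y - 1) * (4/3 - y)) := by
        apply intervalIntegral.integral_congr
        intro y hy
        rw [uIcc_of_le hc] at hy
        simp only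
        rw [indicator_of_mem (show y ∈ Iic c from hy.2)]
      rw [this, intA]
      ring
    · intro y hy
      have h1 : y ∉ Iic c := fun h => hy.2 ⟨hy.1, h⟩
      rw [indicator_of_notMem h1, mul_zero]
  · rw [integral_nu, setIntegral_eq_of_subset_of_forall_sdiff_eq_zero (s := Ioi c)
      measurableSet_Ioi (Ioi_subset_Ioi hc)]
    · have hκ : 0 < 1 + 1/β := by positivity
      rw [← intB hκ hc, ← integral_const_mul]
      refine setIntegral_congr_fun measurableSet_Ioi (fun y hy => ?_)
      rw [indicator_of_mem hy, ← E_mul_exp hβ]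
      ring
    · intro y hy
      rw [indicator_of_notMem hy.2, mul_zero]

lemma integrable_mul_H {N : ℕ} (a : Fin N → ℝ) :
    Integrable (fun y => (y - 1) * H a (y - 4/3)) nu := by
  have h2 : Integrable (fun y : ℝ => |y - 1| * H a (-4/3)) nu :=
    ((integrable_id_nu.sub (integrable_const 1)).abs).mul_const _
  refine h2.mono' ?_ ?_
  · have := H_continuous a
    exact (by fun_prop : Continuous fun y => (y - 1) * H a (y - 4/3)).aestronglyMeasurable
  · filter_upwards [ae_pos_nu] with y hy
    rw [Real.norm_eq_abs, abs_mul, abs_of_nonneg (H_nonneg _ _)]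
    exact mul_le_mul_of_nonneg_left (H_anti a (by linarith)) (abs_nonneg _)

lemma bound_of {N : ℕ} (a : Fin N → ℝ) {c β : ℝ} (hc : 0 ≤ c) (hβ : 0 < β)
    (h : ∀ y, 0 < y → (y - 1) * H a (y - 4/3) ≤ (y - 1) * Kfun c β y) :
    ∫ x, truncExpWeight (4/3 + lin a x) ∂(PN N) ≤
      1 + ((Real.exp (-c) * (c ^ 2 - c / 3 + 1) - 1)
        + (β * Real.exp (-1 + 4/(3*β))) * (Real.exp (-(1 + 1/β) * c) *
          ((c - 1) / (1 + 1/β) + 1 / (1 + 1/β) ^ 2))) := by
  rw [E_phi_formula]
  obtain ⟨h1, h2⟩ := K_integral hc hβ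
  rw [← h2]
  have : ∫ y, (y - 1) * H a (y - 4/3) ∂nu ≤ ∫ y, (y - 1) * Kfun c β y ∂nu := by
    refine integral_mono_ae (integrable_mul_H a) h1 ?_
    filter_upwards [ae_pos_nu] with y hy
    exact h y hy
  linarith

lemma exp_third : Real.exp (-(1/3)) ≤ 18/25 := by
  rw [Real.exp_neg]
  have := Real.quadratic_le_exp_of_nonneg (x := 1/3) (by norm_num)
  rw [inv_le_comm₀ (Real.exp_pos _) (by norm_num)]
  norm_num at this ⊢
  linarith

theorem upper {N : ℕ} (a : Fin N → ℝ) (ha : ∑ i, a i = 0) :
    ∫ x, truncExpWeight (4/3 + lin a x) ∂(PN N) ≤ 1 - 4/9 * Real.exp (-(1/3)) := by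
  have hthird := exp_third
  rcases le_or_gt (H a (-(1/3))) (E 1 (-(1/3))) with hA | hB
  · -- case A
    refine le_trans (bound_of a (c := 1) (β := 1) zero_le_one one_pos ?_) ?_
    · intro y hy
      unfold Kfun
      split_ifs with h1
      · have := H_ge a ha (y - 4/3)
        nlinarith
      · push Not at h1
        have := right_compare a ha (β := 1) (s0 := -(1/3)) (s := y - 4/3) one_pos (by norm_num)
          hA (by linarith)
        exact mul_le_mul_of_nonneg_left this (by linarith)
    · have e1 : Real.exp (-1 + 4 / (3 * 1)) * Real.exp (-(1 + 1 / 1) * 1)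
          = Real.exp (-1) * (Real.exp (-(1/3)) * Real.exp (-(1/3))) := by
        rw [← Real.exp_add, ← Real.exp_add, ← Real.exp_add]; norm_num
      have e2 : Real.exp (-1) < 0.3678794412 := Real.exp_neg_one_lt_d9.trans_le (by norm_num)
      have e3 : 0 < Real.exp (-1) := Real.exp_pos _
      have e4 : 0 < Real.exp (-(1/3)) := Real.exp_pos _
      have e5 : 1 * Real.exp (-1 + 4 / (3 * 1)) * (Real.exp (-(1 + 1 / 1) * 1) *
          ((1 - 1) / (1 + 1 / 1) + 1 / (1 + 1 / 1) ^ 2))
          = Real.exp (-1) * (Real.exp (-(1/3)) * Real.exp (-(1/3))) / 4 := by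
        rw [← e1]; ring
      rw [e5]
      have e6 : Real.exp (-(1/3)) * Real.exp (-(1/3)) ≤ 18/25 * (18/25) :=
        mul_le_mul hthird hthird e4.le (by norm_num)
      have e7 : Real.exp (-1) * (Real.exp (-(1/3)) * Real.exp (-(1/3))) ≤ 
          0.3678794412 * (18/25 * (18/25)) :=
        mul_le_mul e2.le e6 (by positivity) (by norm_num)
      nlinarith
  · -- case B
    obtain ⟨β, hβ1, hβE⟩ : ∃ β : ℝ, 1 ≤ β ∧ E β (-(1/3)) = H a (-(1/3)) := by
      set h := H a (-(1/3)) with hh
      have hhpos : 0 < h := lt_trans (by unfold E; positivity) hB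
      set B := max 1 (h * Real.exp 1) with hBdef
      have hcont : ContinuousOn (fun β => E β (-(1/3))) (Icc 1 B) := by
        unfold E
        intro β hβ
        have : β ≠ 0 := by have := hβ.1; positivity
        apply ContinuousAt.continuousWithinAt
        fun_prop (disch := assumption)
      have hBge : h ≤ E B (-(1/3)) := by
        have hB1 : 1 ≤ B := le_max_left _ _
        have hB2 : h * Real.exp 1 ≤ B := le_max_right _ _
        unfold E
        calc h = (h * Real.exp 1) * Real.exp (-1) := by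
              rw [mul_assoc, ← Real.exp_add]; simp
          _ ≤ B * Real.exp (-(-(1/3) + B) / B) := by
              apply mul_le_mul hB2 _ (Real.exp_pos _).le (by linarith)
              apply Real.exp_le_exp.2
              have : (0:ℝ) < B := by linarith
              rw [le_div_iff₀ this]; linarith
      obtain ⟨β, hβ, hβ2⟩ := intermediate_value_Icc (le_max_left _ _ : 1 ≤ B) hcont ⟨hB.le, hBge⟩
      exact ⟨β, hβ.1, hβ2⟩
    have hβ : 0 < β := by linarith
    have hright : ∀ y, 1 < y → H a (y - 4/3) ≤ E β (y - 4/3) := fun y hy =>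
      right_compare a ha (s0 := -(1/3)) hβ (by linarith) hβE.ge (by linarith)
    have hleft : ∀ y, 4/3 - β ≤ y → y ≤ 1 → E β (y - 4/3) ≤ H a (y - 4/3) := fun y hy hy1 =>
      left_compare a ha (s0 := -(1/3)) hβ (by norm_num) hβE.le (by linarith) (by linarith)
    rcases le_or_gt β (4/3) with hB1 | hB2
    · refine le_trans (bound_of a (c := 4/3 - β) (β := β) (by linarith) hβ ?_) ?_
      · intro y hy
        unfold Kfun
        split_ifs with h1
        · have := H_ge a ha (y - 4/3)
          nlinarith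
        · push Not at h1
          rcases le_or_gt y 1 with h2 | h2
          · have := hleft y h1.le h2
            nlinarith
          · exact mul_le_mul_of_nonneg_left (hright y h2) (by linarith)
      · have hβ' : β ≠ 0 := hβ.ne'
        have hβ1' : β + 1 ≠ 0 := by linarith
        have e1 : β * Real.exp (-1 + 4 / (3 * β)) * (Real.exp (-(1 + 1 / β) * (4/3 - β)) *
            ((4/3 - β - 1) / (1 + 1 / β) + 1 / (1 + 1 / β) ^ 2))
            = Real.exp (-(4/3 - β)) * (β * ((4/3 - β - 1) / (1 + 1 / β) + 1 / (1 + 1 / β) ^ 2)) := by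
          have : Real.exp (-1 + 4 / (3 * β)) * Real.exp (-(1 + 1 / β) * (4/3 - β))
              = Real.exp (-(4/3 - β)) := by
            rw [← Real.exp_add]
            congr 1
            field_simp
            ring
          rw [← this]; ring
        rw [e1]
        have h3 : 1 + 1 / β = (β + 1) / β := by field_simp
        have e2 : ((4/3 - β) ^ 2 - (4/3 - β) / 3 + 1) +
            β * ((4/3 - β - 1) / (1 + 1 / β) + 1 / (1 + 1 / β) ^ 2)
            = (11/3 + (4/3 - β)/3 - (4/3 - β)^2) / (β + 1)^2 := by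
          rw [h3]
          field_simp
          ring
        have e3 : Real.exp (-(4/3 - β)) * ((4/3 - β) ^ 2 - (4/3 - β) / 3 + 1) +
          Real.exp (-(4/3 - β)) * (β * ((4/3 - β - 1) / (1 + 1 / β) + 1 / (1 + 1 / β) ^ 2))
          = Real.exp (-(4/3 - β)) * ((11/3 + (4/3 - β)/3 - (4/3 - β)^2) / (β + 1)^2) := by
          rw [← mul_add, e2]
        have e4 : Real.exp (-(4/3 - β)) * ((11/3 + (4/3 - β)/3 - (4/3 - β)^2) / (β + 1)^2) ≤ 17/25 := by
          obtain ⟨c, hc⟩ : ∃ c, c = 4/3 - β := ⟨_, rfl⟩
          have hβc : β + 1 = 7/3 - c := by linarith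
          rw [← hc, hβc]
          have hc0 : 0 ≤ c := by linarith
          have hc1 : c ≤ 1/3 := by linarith
          have hq := Real.quadratic_le_exp_of_nonneg hc0
          have h7 : 0 < 7/3 - c := by linarith
          rw [Real.exp_neg, ← div_eq_inv_mul, div_div, div_le_iff₀ (by positivity)]
          have : (11/3 + c/3 - c^2) ≤ 17/25 * ((7/3 - c)^2 * (1 + c + c^2/2)) := by
            nlinarith [mul_nonneg hc0 (by linarith : 0 ≤ 1/3 - c), mul_nonneg (mul_nonneg hc0 hc0) (by linarith : 0 ≤ 1/3 - c), mul_nonneg hc0 hc0, mul_nonneg (mul_nonneg hc0 hc0) hc0, mul_nonneg (mul_nonneg hc0 hc0) (mul_nonneg hc0 hc0)]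
          have h8 : (7/3 - c)^2 * (1 + c + c^2/2) ≤ (7/3 - c)^2 * Real.exp c :=
            mul_le_mul_of_nonneg_left hq (by positivity)
          linarith
        linarith
    · refine le_trans (bound_of a (c := 0) (β := β) le_rfl hβ ?_) ?_
      · intro y hy
        unfold Kfun
        rw [if_neg (by linarith)]
        rcases le_or_gt y 1 with h2 | h2
        · have := hleft y (by linarith) h2
          nlinarith
        · exact mul_le_mul_of_nonneg_left (hright y h2) (by linarith)
      · have e1 : 1 + (Real.exp (-0) * (0 ^ 2 - 0 / 3 + 1) - 1 + β * Real.exp (-1 + 4 / (3 * β)) *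
          (Real.exp (-(1 + 1 / β) * 0) * ((0 - 1) / (1 + 1 / β) + 1 / (1 + 1 / β) ^ 2)))
          = 1 - (β / (β + 1)) ^ 2 * Real.exp (-1 + 4 / (3 * β)) := by
          have h3 : 1 + 1 / β = (β + 1) / β := by field_simp
          rw [h3]
          simp only [neg_zero, Real.exp_zero, mul_zero]
          have : β + 1 ≠ 0 := by linarith
          field_simp
          ring
        rw [e1]
        have e2 : 4/9 * Real.exp (-(1/3)) ≤ (β / (β + 1)) ^ 2 * Real.exp (-1 + 4 / (3 * β)) := by
          set x := 3 * β / (2 * (β + 1)) with hx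
          have hxpos : 0 < x := by positivity
          have h4 : 1 - x⁻¹ ≤ Real.log x := Real.one_sub_inv_le_log_of_pos hxpos
          have h5 : (β / (β + 1)) ^ 2 = 4/9 * Real.exp (2 * Real.log x) := by
            rw [two_mul, Real.exp_add, Real.exp_log hxpos, hx]
            field_simp
            ring
          rw [h5, mul_assoc, ← Real.exp_add]
          apply mul_le_mul_of_nonneg_left _ (by norm_num)
          apply Real.exp_le_exp.2
          have h6 : 1 - x⁻¹ = 1/3 - 2 / (3 * β) := by
            rw [hx]; field_simp; ring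
          rw [h6] at h4
          have h7 : 4 / (3 * β) = 2 * (2 / (3 * β)) := by ring
          linarith
        linarith

/-! ### sharpness -/

lemma memLp_id_nu : MemLp (fun x : ℝ => x) 2 nu := by
  exact (memLp_two_iff_integrable_sq (f := fun x : ℝ => x)
    measurable_id.aestronglyMeasurable).2 integrable_sq_nu

lemma memLp_lin {N : ℕ} (b : Fin N → ℝ) : MemLp (lin b) 2 (PN N) := by
  have : lin b = ∑ i, (fun x : Fin N → ℝ => b i * x i) := by
    ext x; unfold lin; simp
  rw [this]
  apply memLp_finsetSum'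
  intro i _
  have h1 : MemLp (fun x : Fin N → ℝ => x i) 2 (PN N) :=
    memLp_id_nu.comp_measurePreserving (measurePreserving_eval (fun _ : Fin N => nu) i)
  exact h1.const_mul (b i)

lemma var_nu : ProbabilityTheory.variance (fun x : ℝ => x) nu = 1 := by
  rw [ProbabilityTheory.variance_eq_sub memLp_id_nu]
  have h1 : ∫ x, ((fun x : ℝ => x) ^ 2) x ∂nu = 2 := by
    simp only [Pi.pow_apply]; exact integral_sq_nu
  rw [h1, integral_id_nu]; norm_num

lemma var_lin {N : ℕ} (b : Fin N → ℝ) :
    ∫ x, (lin b x - ∑ i, b i) ^ 2 ∂(PN N) = ∑ i, b i ^ 2 := by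
  have h1 : ProbabilityTheory.variance (lin b) (PN N) = ∑ i, b i ^ 2 := by
    have h2 : lin b = ∑ i, (fun x : Fin N → ℝ => (fun i (t : ℝ) => b i * t) i (x i)) := by
      ext x; unfold lin; simp
    rw [h2]
    unfold PN
    rw [ProbabilityTheory.variance_sum_pi (fun i => memLp_id_nu.const_mul (b i))]
    refine Finset.sum_congr rfl fun i _ => ?_
    rw [ProbabilityTheory.variance_const_mul, var_nu, mul_one]
  rw [← h1, ProbabilityTheory.variance_eq_integral (measurable_lin b).aemeasurable, integral_lin]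

noncomputable def Cst : ℝ := ∫ y, |y - 1| ∂nu

lemma Cst_nonneg : 0 ≤ Cst := integral_nonneg (fun _ => abs_nonneg _)

lemma trunc_integrable (z : ℝ) : Integrable (fun y => (y - 1) * max (z - y) 0) nu := by
  have h2 : Integrable (fun y : ℝ => |y - 1| * |z|) nu :=
    ((integrable_id_nu.sub (integrable_const 1)).abs).mul_const _
  refine h2.mono' (by fun_prop : Continuous fun y => (y - 1) * max (z - y) 0).aestronglyMeasurable ?_
  filter_upwards [ae_pos_nu] with y hy
  rw [Real.norm_eq_abs, abs_mul, abs_of_nonneg (le_max_right (z - y) 0)]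
  apply mul_le_mul_of_nonneg_left _ (abs_nonneg _)
  apply max_le
  · have := le_abs_self z; linarith
  · exact abs_nonneg _

lemma trunc_lip (u v : ℝ) : |truncExpWeight u - truncExpWeight v| ≤ Cst * |u - v| := by
  rw [trunc_formula u, trunc_formula v]
  have : (1 + ∫ y, (y - 1) * max (u - y) 0 ∂nu) - (1 + ∫ y, (y - 1) * max (v - y) 0 ∂nu)
      = ∫ y, ((y - 1) * max (u - y) 0 - (y - 1) * max (v - y) 0) ∂nu := by
    rw [integral_sub (trunc_integrable u) (trunc_integrable v)]; ring
  rw [this]
  unfold Cst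
  rw [← integral_mul_const, ← Real.norm_eq_abs]
  refine norm_integral_le_of_norm_le ?_ ?_
  · exact ((integrable_id_nu.sub (integrable_const 1)).abs).mul_const _
  · refine Eventually.of_forall fun y => ?_
    rw [← mul_sub, norm_mul, Real.norm_eq_abs, Real.norm_eq_abs]
    apply mul_le_mul_of_nonneg_left _ (abs_nonneg _)
    have := abs_max_sub_max_le_max (u - y) 0 (v - y) 0
    simpa using this

lemma trunc_continuous : Continuous truncExpWeight := by
  have : LipschitzWith ⟨Cst, Cst_nonneg⟩ truncExpWeight := by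
    apply LipschitzWith.of_dist_le_mul
    intro u v
    rw [Real.dist_eq, Real.dist_eq]
    exact trunc_lip u v
  exact this.continuous

lemma trunc_nonneg (z : ℝ) : 0 ≤ truncExpWeight z := by
  unfold truncExpWeight
  split_ifs with h
  · exact zero_le_one
  · push Not at h; positivity

lemma trunc_le_one (z : ℝ) : truncExpWeight z ≤ 1 := by
  unfold truncExpWeight
  split_ifs with h
  · exact le_rfl
  · rw [Real.exp_neg, ← div_eq_mul_inv, div_le_one (Real.exp_pos _)]
    have := Real.add_one_le_exp z; linarith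

lemma integrable_trunc {α : Type*} [MeasurableSpace α] (μ : Measure α) [IsProbabilityMeasure μ]
    {f : α → ℝ} (hf : Measurable f) : Integrable (fun x => truncExpWeight (f x)) μ := by
  refine (integrable_const (1:ℝ)).mono' (trunc_continuous.measurable.comp hf).aestronglyMeasurable ?_
  refine Eventually.of_forall fun x => ?_
  rw [Real.norm_eq_abs, abs_of_nonneg (trunc_nonneg _)]
  exact trunc_le_one _

/-- value at the extremal law -/
lemma value_extremal : ∫ t, truncExpWeight (4/3 + (2 * t - 2)) ∂nu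
    = 1 - 4/9 * Real.exp (-(1/3)) := by
  -- split at 1/3
  have hint : Integrable (fun t => truncExpWeight (4/3 + (2 * t - 2))) nu :=
    integrable_trunc nu (by fun_prop)
  rw [← integral_add_compl (measurableSet_Iic (a := (1/3:ℝ))) hint, compl_Iic]
  have h1 : ∫ t in Iic (1/3:ℝ), truncExpWeight (4/3 + (2 * t - 2)) ∂nu = 1 - Real.exp (-(1/3)) := by
    have e1 : ∫ t in Iic (1/3:ℝ), truncExpWeight (4/3 + (2 * t - 2)) ∂nu
        = ∫ t in Iic (1/3:ℝ), (1:ℝ) ∂nu := by
      refine setIntegral_congr_fun measurableSet_Iic (fun t ht => ?_)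
      unfold truncExpWeight
      rw [if_pos]
      have : t ≤ 1/3 := ht
      linarith
    have e2 : (∫ t in Iic (1/3:ℝ), (1:ℝ) ∂nu) + ∫ t in Ioi (1/3:ℝ), (1:ℝ) ∂nu = 1 := by
      rw [← compl_Iic, integral_add_compl measurableSet_Iic (integrable_const _)]
      simp
    have e3 : ∫ t in Ioi (1/3:ℝ), (1:ℝ) ∂nu = Real.exp (-(1/3)) := by
      rw [nu_shift _ (by norm_num)]; simp
    rw [e1]; linarith
  have h2 : ∫ t in Ioi (1/3:ℝ), truncExpWeight (4/3 + (2 * t - 2)) ∂nu
      = 5/9 * Real.exp (-(1/3)) := by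
    have e1 : ∫ t in Ioi (1/3:ℝ), truncExpWeight (4/3 + (2 * t - 2)) ∂nu
        = ∫ t in Ioi (1/3:ℝ), (1/3 + 2 * t) * Real.exp (2/3 - 2 * t) ∂nu := by
      refine setIntegral_congr_fun measurableSet_Ioi (fun t ht => ?_)
      unfold truncExpWeight
      have : 1/3 < t := ht
      rw [if_neg (by linarith)]
      congr 1
      · ring
      · congr 1; ring
    rw [e1, nu_shift _ (by norm_num), integral_nu]
    have e2 : ∫ x in Ioi (0:ℝ), Real.exp (-x) * ((1/3 + 2 * (x + 1/3)) * Real.exp (2/3 - 2 * (x + 1/3)))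
        = ∫ x in Ioi (0:ℝ), (2 * ((x - 1) * Real.exp (-3 * x)) + 3 * Real.exp (-3 * x)) := by
      refine setIntegral_congr_fun measurableSet_Ioi (fun t ht => ?_)
      have : Real.exp (-t) * Real.exp (2/3 - 2 * (t + 1/3)) = Real.exp (-3 * t) := by
        rw [← Real.exp_add]; congr 1; ring
      calc _ = (1/3 + 2 * (t + 1/3)) * (Real.exp (-t) * Real.exp (2/3 - 2 * (t + 1/3))) := by ring
        _ = _ := by rw [this]; ring
    have i1 : IntegrableOn (fun x : ℝ => 2 * ((x - 1) * Real.exp (-3 * x))) (Ioi 0) :=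
      (integrable_exp_mul (κ := 3) (by norm_num) le_rfl).const_mul 2
    have i2 : IntegrableOn (fun x : ℝ => 3 * Real.exp (-3 * x)) (Ioi 0) :=
      (integrableOn_exp_mul_Ioi (a := -3) (by norm_num) 0).const_mul 3
    have e3 : ∫ x in Ioi (0:ℝ), Real.exp (-3 * x) = 1/3 := by
      rw [integral_exp_mul_Ioi (by norm_num)]; norm_num
    rw [e2, integral_add i1 i2, integral_const_mul, integral_const_mul, e3,
      intB (κ := 3) (by norm_num) le_rfl]
    norm_num
    ring
  rw [h1, h2]; ring

lemma lower_aux (k : ℕ) (hk : 1 ≤ k) :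
    ∃ a : Fin (k ^ 2 + 1) → ℝ, ∑ i, a i = 0 ∧
      1 - 4/9 * Real.exp (-(1/3)) - Cst * (2 / k) ≤
        ∫ x, truncExpWeight (4/3 + lin a x) ∂(PN (k ^ 2 + 1)) := by
  have hk0 : (0:ℝ) < k := by exact_mod_cast hk
  set b : Fin (k ^ 2) → ℝ := fun _ => -2 / (k:ℝ) ^ 2 with hb
  have hbsum : ∑ i, b i = -2 := by
    rw [hb]; simp; field_simp
  have hbsq : ∑ i, b i ^ 2 = 4 / (k:ℝ) ^ 2 := by
    rw [hb]; simp; field_simp; norm_num
  refine ⟨Fin.cons 2 b, ?_, ?_⟩
  · rw [Fin.sum_univ_succ]; simp only [Fin.cons_zero, Fin.cons_succ]; rw [hbsum]; norm_num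
  · rw [integral_PN_succ _ _ (integrable_trunc _ (by have := measurable_lin (Fin.cons 2 b : Fin (k ^ 2 + 1) → ℝ); fun_prop))]
    simp_rw [lin_cons]
    simp only [Fin.cons_zero, Fin.cons_succ]
    -- L1 bound
    have hL1 : ∫ y, |lin b y + 2| ∂(PN (k ^ 2)) ≤ 2 / k := by
      have hv := var_lin b
      rw [hbsum, hbsq] at hv
      have hmem : Integrable (fun y => (lin b y - -2) ^ 2) (PN (k^2)) := by
        have := ((memLp_lin b).sub (memLp_const (-2))).integrable_sq
        exact this
      have h1 : ∫ y, |lin b y + 2| ∂(PN (k ^ 2)) ≤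
          ∫ y, ((k:ℝ)/4 * (lin b y - -2) ^ 2 + 1 / k) ∂(PN (k ^ 2)) := by
        refine integral_mono ((integrable_lin b).add (integrable_const _)).abs
          ((hmem.const_mul _).add (integrable_const _)) (fun y => ?_)
        simp only
        rw [show lin b y - -2 = lin b y + 2 by ring]
        set w := lin b y + 2
        have h2 : 0 ≤ (k:ℝ)/4 * (|w| - 2 / k) ^ 2 := by positivity
        have h3 : (k:ℝ)/4 * (|w| - 2 / k) ^ 2 = (k:ℝ)/4 * w ^ 2 - |w| + 1 / k := by
          rw [sub_sq, sq_abs]; field_simp; ring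
        linarith
      rw [integral_add (hmem.const_mul _) (integrable_const _), integral_const_mul, hv] at h1
      simp only [integral_const, probReal_univ, one_smul] at h1
      have : (k:ℝ)/4 * (4 / (k:ℝ)^2) + 1 / k = 2 / k := by field_simp; norm_num
      linarith
    have hpt : ∀ t : ℝ, truncExpWeight (4/3 + (2 * t - 2)) - Cst * (2 / k) ≤
        ∫ y, truncExpWeight (4/3 + (2 * t + lin b y)) ∂(PN (k ^ 2)) := by
      intro t
      have h1 : ∫ y, (truncExpWeight (4/3 + (2 * t - 2)) - Cst * |lin b y + 2|) ∂(PN (k ^ 2)) ≤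
          ∫ y, truncExpWeight (4/3 + (2 * t + lin b y)) ∂(PN (k ^ 2)) := by
        refine integral_mono ?_ (integrable_trunc _ (by have := measurable_lin b; fun_prop)) (fun y => ?_)
        · exact (integrable_const _).sub
            (((integrable_lin b).add (integrable_const _)).abs.const_mul _)
        · simp only
          have := trunc_lip (4/3 + (2 * t - 2)) (4/3 + (2 * t + lin b y))
          have h2 : |4/3 + (2 * t - 2) - (4/3 + (2 * t + lin b y))| = |lin b y + 2| := by
            rw [← abs_neg]; congr 1; ring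
          rw [h2] at this
          have := (abs_le.1 this).2
          linarith
      have hi : Integrable (fun y => Cst * |lin b y + 2|) (PN (k^2)) :=
        ((integrable_lin b).add (integrable_const (2:ℝ))).abs.const_mul _
      rw [integral_sub (integrable_const _) hi, integral_const_mul] at h1
      simp only [integral_const, probReal_univ, one_smul] at h1
      have := mul_le_mul_of_nonneg_left hL1 Cst_nonneg
      linarith
    have hfin : ∫ t, (truncExpWeight (4/3 + (2 * t - 2)) - Cst * (2 / k)) ∂nu ≤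
        ∫ t, ∫ y, truncExpWeight (4/3 + (2 * t + lin b y)) ∂(PN (k ^ 2)) ∂nu := by
      refine integral_mono ((integrable_trunc nu (by fun_prop)).sub (integrable_const _)) ?_ hpt
      have := integrable_trunc (nu.prod (PN (k^2))) (f := fun z : ℝ × (Fin (k^2) → ℝ) =>
        4/3 + (2 * z.1 + lin b z.2)) (by have := measurable_lin b; fun_prop)
      exact this.integral_prod_left
    rw [integral_sub (integrable_trunc nu (by fun_prop)) (integrable_const _), value_extremal] at hfin
    simpa using hfin


lemma const_eq (I : ℝ) : Real.exp (4 / 3) / (4 / 3) * I - (3 / 4 * Real.exp (4 / 3) - Real.exp 1 / 3)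
    = 3/4 * Real.exp (4/3) * (I - (1 - 4/9 * Real.exp (-(1/3)))) := by
  have : Real.exp (4/3) * Real.exp (-(1/3)) = Real.exp 1 := by
    rw [← Real.exp_add]; norm_num
  rw [← this]; ring

/-- For independent mean-one exponential random variables `X_1, …, X_N` (written as an integral over the positive orthant against the density `exp (-(x_1 + ⋯ + x_N))`), real coefficients `a_1, …, a_N` summing to zero, and the weight `g = truncExpWeight`, the quantity `(e^{4/3} / (4/3)) · E[g(4/3 + a_1 X_1 + ⋯ + a_N X_N)]` has supremum over all `N ≥ 1` and all such `a` exactly `(3/4) e^{4/3} − e/3`: it never exceeds this value, and comes within any `ε > 0` of it for some `N` and `a`. -/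
theorem result :
    (∀ (N : ℕ) (a : Fin N → ℝ), 1 ≤ N → ∑ i, a i = 0 →
      Real.exp (4 / 3) / (4 / 3) *
          ∫ x in Set.pi Set.univ (fun _ : Fin N => Set.Ioi (0 : ℝ)),
            Crest.AlgGeometry.truncExpWeight (4 / 3 + ∑ i, a i * x i) * Real.exp (-∑ i, x i)
        ≤ 3 / 4 * Real.exp (4 / 3) - Real.exp 1 / 3) ∧
    (∀ ε : ℝ, 0 < ε → ∃ (N : ℕ) (a : Fin N → ℝ), 1 ≤ N ∧ ∑ i, a i = 0 ∧
      3 / 4 * Real.exp (4 / 3) - Real.exp 1 / 3 - ε <
        Real.exp (4 / 3) / (4 / 3) *
          ∫ x in Set.pi Set.univ (fun _ : Fin N => Set.Ioi (0 : ℝ)),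
            Crest.AlgGeometry.truncExpWeight (4 / 3 + ∑ i, a i * x i) * Real.exp (-∑ i, x i)) := by
  refine ⟨?_, ?_⟩
  · intro N a _ ha
    rw [integral_PN N (fun x => truncExpWeight (4 / 3 + ∑ i, a i * x i))]
    have h := upper a ha
    unfold lin at h
    have h2 := const_eq (∫ x, truncExpWeight (4 / 3 + ∑ i, a i * x i) ∂(PN N))
    have h3 : 3/4 * Real.exp (4/3) * ((∫ x, truncExpWeight (4 / 3 + ∑ i, a i * x i) ∂(PN N))
      - (1 - 4/9 * Real.exp (-(1/3)))) ≤ 0 := by
      apply mul_nonpos_of_nonneg_of_nonpos (by positivity)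
      linarith
    linarith
  · intro ε hε
    set D := 3/4 * Real.exp (4/3) * Cst * 2 with hD
    have hD0 : 0 ≤ D := by have := Cst_nonneg; positivity
    obtain ⟨k, hk⟩ := exists_nat_gt (D / ε)
    have hk1 : 1 ≤ k + 1 := by omega
    obtain ⟨a, ha, hb⟩ := lower_aux (k + 1) hk1
    refine ⟨(k + 1) ^ 2 + 1, a, by omega, ha, ?_⟩
    rw [integral_PN _ (fun x => truncExpWeight (4 / 3 + ∑ i, a i * x i))]
    unfold lin at hb
    have h2 := const_eq (∫ x, truncExpWeight (4 / 3 + ∑ i, a i * x i) ∂(PN ((k + 1) ^ 2 + 1)))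
    have hk' : (0:ℝ) < ((k + 1 : ℕ) : ℝ) := by positivity
    have h3 : 3/4 * Real.exp (4/3) * (- (Cst * (2 / ((k + 1 : ℕ) : ℝ)))) ≤ 
      3/4 * Real.exp (4/3) * ((∫ x, truncExpWeight (4 / 3 + ∑ i, a i * x i) ∂(PN ((k + 1) ^ 2 + 1)))
      - (1 - 4/9 * Real.exp (-(1/3)))) := by
      apply mul_le_mul_of_nonneg_left _ (by positivity)
      linarith
    have h4 : 3/4 * Real.exp (4/3) * (- (Cst * (2 / ((k + 1 : ℕ) : ℝ)))) = - (D / ((k + 1 : ℕ) : ℝ)) := by
      rw [hD]; ring
    have h5 : D / ((k + 1 : ℕ) : ℝ) < ε := by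
      rw [div_lt_iff₀ hk']
      rw [div_lt_iff₀ hε] at hk
      push_cast
      nlinarith
    linarith

end Crest.Agent.S0423
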