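import Crest.Agent.SwC_Kern

/-!
S0453, task 10: kernel form versus switch form.
-/

set_option autoImplicit false
set_option linter.unusedSectionVars false

open Finset

namespace Crest.Agent.SwC

section Kernel

open Crest.SwitchChain

variable {n : ℕ}

/-- the pair of edges `ab`, `cd` -/
def prs (a b c d : Fin n) : Finset (Edge n) :=
  univ.filter fun e => e.1 = s(a, b) ∨ e.1 = s(c, d)

theorem mem_prs {a b c d : Fin n} {e : Edge n} :
    e ∈ prs a b c d ↔ e.1 = s(a, b) ∨ e.1 = s(c, d) := by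
  simp [prs]

theorem prs_swapR (a b c d : Fin n) : prs a b c d = prs a b d c := by
  unfold prs; rw [Sym2.eq_swap (a := c)]

/-- the edge `ab` -/
def mkE (a b : Fin n) (h : a ≠ b) : Edge n := ⟨s(a, b), by simpa using h⟩

theorem prs_eq {a b c d : Fin n} (h : a ≠ b) (h' : c ≠ d) :
    prs a b c d = {mkE a b h, mkE c d h'} := by
  ext e
  rw [mem_prs, mem_insert, mem_singleton, Subtype.ext_iff, Subtype.ext_iff]
  rfl

theorem prs_pm {S : Finset (Fin n)} {a b c d : Fin n} (h : Dist4 a b c d)
    (hS : S = {a, b, c, d}) : prs a c b d ∈ pmSet S := by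
  obtain ⟨hab, hcd, hac, had, hbc, hbd⟩ := h
  have hne : mkE a c hac ≠ mkE b d hbd := by
    intro h
    have := congrArg Subtype.val h
    rcases Sym2.eq_iff.1 this with ⟨h, _⟩ | ⟨h, _⟩
    · exact hab h
    · exact had h
  unfold pmSet
  rw [mem_filter, mem_powersetCard]
  refine ⟨⟨subset_univ _, ?_⟩, ?_, ?_⟩
  · rw [prs_eq hac hbd, card_pair hne]
  · intro e he v hv
    rw [hS]
    rcases mem_prs.1 he with h | h <;> rw [h, Sym2.mem_iff] at hv <;> rcases hv with hv | hv <;>
      simp [hv]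
  · intro v hv
    rw [hS] at hv
    have key : v ∈ s(a, c) ∨ v ∈ s(b, d) := by
      simp only [mem_insert, mem_singleton] at hv
      rcases hv with hv | hv | hv | hv <;> simp [hv]
    rw [card_eq_one]
    rcases key with hk | hk
    · refine ⟨mkE a c hac, ?_⟩
      ext e
      rw [mem_filter, mem_prs, mem_singleton, Subtype.ext_iff]
      constructor
      · rintro ⟨h | h, h'⟩
        · exact h
        · exfalso
          rw [h] at h'
          rw [Sym2.mem_iff] at hk h'
          rcases hk with rfl | rfl <;> rcases h' with h' | h'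
          · exact hab h'
          · exact had h'
          · exact hbc h'.symm
          · exact hcd h'
      · intro h
        exact ⟨Or.inl h, by rw [h]; exact hk⟩
    · refine ⟨mkE b d hbd, ?_⟩
      ext e
      rw [mem_filter, mem_prs, mem_singleton, Subtype.ext_iff]
      constructor
      · rintro ⟨h | h, h'⟩
        · exfalso
          rw [h] at h'
          rw [Sym2.mem_iff] at hk h'
          rcases hk with rfl | rfl <;> rcases h' with h' | h'
          · exact hab h'.symm
          · exact hbc h'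
          · exact had h'.symm
          · exact hcd h'.symm
        · exact h
      · intro h
        exact ⟨Or.inr h, by rw [h]; exact hk⟩

/-- structure of perfect matchings of a four-element set -/
theorem pm_struct {S : Finset (Fin n)} (hS : S.card = 4) {F : Finset (Edge n)}
    (hF : F ∈ pmSet S) {u : Fin n} (hu : u ∈ S) :
    ∃ x a b, u ≠ x ∧ u ≠ a ∧ u ≠ b ∧ x ≠ a ∧ x ≠ b ∧ a ≠ b ∧ S = {u, x, a, b} ∧
      F = prs u x a b := by
  unfold pmSet at hF
  rw [mem_filter, mem_powersetCard] at hF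
  obtain ⟨⟨-, hc⟩, h1, h2⟩ := hF
  have uniq : ∀ v ∈ S, ∀ e ∈ F, ∀ g ∈ F, v ∈ e.1 → v ∈ g.1 → e = g := by
    intro v hv e he g hg hve hvg
    exact (card_le_one.1 (h2 v hv).le) e (mem_filter.2 ⟨he, hve⟩) g (mem_filter.2 ⟨hg, hvg⟩)
  have hpos : 0 < (F.filter fun e => u ∈ e.1).card := by rw [h2 u hu]; exact one_pos
  obtain ⟨e0, he0⟩ := card_pos.1 hpos
  obtain ⟨he0F, hue0⟩ := mem_filter.1 he0
  obtain ⟨x, hx⟩ : ∃ x, e0.1 = s(u, x) := ⟨Sym2.Mem.other hue0, (Sym2.other_spec hue0).symm⟩
  have hux : u ≠ x := by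
    rintro rfl
    apply e0.2; rw [hx]; simp
  have hxS : x ∈ S := h1 e0 he0F x (by rw [hx]; exact Sym2.mem_mk_right u x)
  obtain ⟨g, hg, hgF⟩ : ∃ g, g ≠ e0 ∧ F = {e0, g} := by
    obtain ⟨e1, e2, h12, hF⟩ := card_eq_two.1 hc
    rw [hF, mem_insert, mem_singleton] at he0F
    rcases he0F with rfl | rfl
    · exact ⟨e2, h12.symm, hF⟩
    · exact ⟨e1, h12, by rw [hF, pair_comm]⟩
  have hgm : g ∈ F := by rw [hgF]; simp
  obtain ⟨⟨a, b⟩, hab'⟩ := Sym2.mk_surjective g.1
  have hab' : g.1 = s(a, b) := hab'.symm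
  have hab : a ≠ b := by
    rintro rfl
    apply g.2; rw [hab']; simp
  have hag : a ∈ g.1 := by rw [hab']; exact Sym2.mem_mk_left a b
  have hbg : b ∈ g.1 := by rw [hab']; exact Sym2.mem_mk_right a b
  have haS : a ∈ S := h1 g hgm a hag
  have hbS : b ∈ S := h1 g hgm b hbg
  have hxe : x ∈ e0.1 := by rw [hx]; exact Sym2.mem_mk_right u x
  have hua : u ≠ a := by
    rintro rfl
    exact hg (uniq u hu g hgm e0 he0F hag hue0)
  have hub : u ≠ b := by
    rintro rfl
    exact hg (uniq u hu g hgm e0 he0F hbg hue0)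
  have hxa : x ≠ a := by
    rintro rfl
    exact hg (uniq x hxS g hgm e0 he0F hag hxe)
  have hxb : x ≠ b := by
    rintro rfl
    exact hg (uniq x hxS g hgm e0 he0F hbg hxe)
  refine ⟨x, a, b, hux, hua, hub, hxa, hxb, hab, ?_, ?_⟩
  · symm
    apply Finset.eq_of_subset_of_card_le
    · intro v hv
      simp only [mem_insert, mem_singleton] at hv
      rcases hv with rfl | rfl | rfl | rfl <;> assumption
    · rw [hS]
      rw [card_insert_of_notMem, card_insert_of_notMem, card_pair hab]
      · simp [hxa, hxb]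
      · simp [hux, hua, hub]
  · rw [prs_eq hux hab, hgF]
    congr 1
    · exact Subtype.ext hx
    · congr 1
      exact Subtype.ext hab'

/-- two distinct perfect matchings -/
theorem pm_two {S : Finset (Fin n)} (hS : S.card = 4) {F F' : Finset (Edge n)}
    (hF : F ∈ pmSet S) (hF' : F' ∈ pmSet S) (hne : F' ≠ F) {u : Fin n} (hu : u ∈ S) :
    ∃ w x y, Dist4 u w x y ∧ S = {u, w, x, y} ∧ F = prs u x w y ∧ F' = prs u y w x := by
  obtain ⟨x, a, b, hux, hua, hub, hxa, hxb, hab, hS1, hF1⟩ := pm_struct hS hF hu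
  obtain ⟨y, a', b', huy, hua', hub', hya', hyb', hab', hS2, hF2⟩ := pm_struct hS hF' hu
  have m1 : ∀ v ∈ S, v = u ∨ v = x ∨ v = a ∨ v = b := by
    intro v hv; rw [hS1] at hv; simpa using hv
  have m2 : ∀ v ∈ S, v = u ∨ v = y ∨ v = a' ∨ v = b' := by
    intro v hv; rw [hS2] at hv; simpa using hv
  have hyS : y ∈ S := by rw [hS2]; simp
  have hxS : x ∈ S := by rw [hS1]; simp
  have haS : a ∈ S := by rw [hS1]; simp
  have hbS : b ∈ S := by rw [hS1]; simp
  have hx' := m2 x hxS
  have ha' := m2 a haS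
  have hb' := m2 b hbS
  have hy' := m1 y hyS
  have key : ∀ c : Fin n, (a = y ∧ b = c) ∨ (b = y ∧ a = c) → y ≠ x → c ≠ u → c ≠ x → c ≠ y →
      ∃ w x y, Dist4 u w x y ∧ S = {u, w, x, y} ∧ F = prs u x w y ∧ F' = prs u y w x := by
    intro c hc hyx hcu hcx hcy
    refine ⟨c, x, y, ⟨hcu.symm, hyx.symm, hux, huy, hcx, hcy⟩, ?_, ?_, ?_⟩
    · rw [hS1]
      ext v
      simp only [mem_insert, mem_singleton]
      rcases hc with ⟨rfl, rfl⟩ | ⟨rfl, rfl⟩
      · constructor
        · rintro (h | h | h | h) <;> simp only [h, true_or, or_true]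
        · rintro (h | h | h | h) <;> simp only [h, true_or, or_true]
      · constructor
        · rintro (h | h | h | h) <;> simp only [h, true_or, or_true]
        · rintro (h | h | h | h) <;> simp only [h, true_or, or_true]
    · rw [hF1]
      rcases hc with ⟨rfl, rfl⟩ | ⟨rfl, rfl⟩
      · rw [prs_swapR]
      · rfl
    · rw [hF2]
      have h1 : x = a' ∨ x = b' := by
        rcases hx' with h | h | h | h
        · exact absurd h.symm hux
        · exact absurd h.symm hyx
        · exact Or.inl h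
        · exact Or.inr h
      have hcS : c ∈ S := by rcases hc with ⟨-, rfl⟩ | ⟨-, rfl⟩ <;> assumption
      have h2 : c = a' ∨ c = b' := by
        rcases m2 c hcS with h | h | h | h
        · exact absurd h hcu
        · exact absurd h hcy
        · exact Or.inl h
        · exact Or.inr h
      rcases h1 with h1 | h1 <;> rcases h2 with h2 | h2
      · exact absurd (h2.trans h1.symm) hcx
      · rw [← h1, ← h2, prs_swapR]
      · rw [← h1, ← h2]
      · exact absurd (h2.trans h1.symm) hcx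
  rcases hy' with h | h | h | h
  · exact absurd h.symm huy
  · exfalso
    subst h
    apply hne
    rw [hF1, hF2]
    rcases ha' with h | h | h | h
    · exact absurd h.symm hua
    · exact absurd h.symm hxa
    · rcases hb' with h' | h' | h' | h'
      · exact absurd h'.symm hub
      · exact absurd h'.symm hxb
      · exact absurd (h.trans h'.symm) hab
      · rw [h, h']
    · rcases hb' with h' | h' | h' | h'
      · exact absurd h'.symm hub
      · exact absurd h'.symm hxb
      · rw [h, h', prs_swapR]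
      · exact absurd (h.trans h'.symm) hab
  · exact key b (Or.inl ⟨h.symm, rfl⟩) (h ▸ hxa.symm) hub.symm hxb.symm (h ▸ hab.symm)
  · exact key a (Or.inr ⟨h.symm, rfl⟩) (h ▸ hxb.symm) hua.symm hxa.symm (h ▸ hab)

theorem prs_ne {u w x y : Fin n} (h : Dist4 u w x y) : prs u y w x ≠ prs u x w y := by
  obtain ⟨huw, hxy, hux, huy, hwx, hwy⟩ := h
  intro h
  have h1 : mkE u y huy ∈ prs u x w y := by rw [← h]; exact mem_prs.2 (Or.inl rfl)
  rcases mem_prs.1 h1 with h | h
  · rcases Sym2.eq_iff.1 h with ⟨_, h⟩ | ⟨h, _⟩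
    · exact hxy h.symm
    · exact hux h
  · rcases Sym2.eq_iff.1 h with ⟨h, _⟩ | ⟨h, _⟩
    · exact huw h
    · exact huy h

theorem prs_inj {u w x y w' x' y' : Fin n} (h : Dist4 u w x y) (h' : Dist4 u w' x' y')
    (h1 : prs u x w y = prs u x' w' y') : x = x' := by
  obtain ⟨huw, hxy, hux, huy, hwx, hwy⟩ := h
  obtain ⟨huw', hxy', hux', huy', hwx', hwy'⟩ := h'
  have h2 : mkE u x hux ∈ prs u x' w' y' := by rw [← h1]; exact mem_prs.2 (Or.inl rfl)
  rcases mem_prs.1 h2 with h | h
  · rcases Sym2.eq_iff.1 h with ⟨_, h⟩ | ⟨h, _⟩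
    · exact h
    · exact absurd h hux'
  · rcases Sym2.eq_iff.1 h with ⟨h, _⟩ | ⟨h, _⟩
    · exact absurd h huw'
    · exact absurd h huy'

theorem prs_inj' {u w x y w' : Fin n} (h : Dist4 u w x y)
    (h1 : prs u x w y = prs u x w' y) : w = w' := by
  obtain ⟨huw, hxy, hux, huy, hwx, hwy⟩ := h
  have h2 : mkE w y hwy ∈ prs u x w' y := by rw [← h1]; exact mem_prs.2 (Or.inr rfl)
  rcases mem_prs.1 h2 with h | h
  · rcases Sym2.eq_iff.1 h with ⟨h, _⟩ | ⟨h, _⟩
    · exact absurd h.symm huw
    · exact absurd h hwx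
  · rcases Sym2.eq_iff.1 h with ⟨h, _⟩ | ⟨h, _⟩
    · exact h
    · exact absurd h hwy

/-- change of variables between proposals and 4-tuples -/
theorem sum_prop (Φ : Finset (Edge n) → Finset (Edge n) → ℝ) :
    ∑ S ∈ (univ : Finset (Fin n)).powersetCard 4,
      ∑ F ∈ pmSet S, ∑ F' ∈ (pmSet S).erase F, 4 * Φ F F' =
    ∑ u : Fin n, ∑ w, ∑ x, ∑ y, (open scoped Classical in
      if Dist4 u w x y then Φ (prs u x w y) (prs u y w x) else 0) := by
  classical
  have L : ∑ S ∈ (univ : Finset (Fin n)).powersetCard 4,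
      ∑ F ∈ pmSet S, ∑ F' ∈ (pmSet S).erase F, 4 * Φ F F' =
      ∑ p : Finset (Fin n) × Finset (Edge n) × Finset (Edge n) × Fin n,
        if p.1 ∈ (univ : Finset (Fin n)).powersetCard 4 ∧ p.2.1 ∈ pmSet p.1 ∧
          p.2.2.1 ∈ (pmSet p.1).erase p.2.1 ∧ p.2.2.2 ∈ p.1 then Φ p.2.1 p.2.2.1 else 0 := by
    rw [Fintype.sum_prod_type]
    rw [← Finset.sum_subset (subset_univ ((univ : Finset (Fin n)).powersetCard 4))]
    · refine Finset.sum_congr rfl fun S hS => ?_
      rw [Fintype.sum_prod_type, ← Finset.sum_subset (subset_univ (pmSet S))]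
      · refine Finset.sum_congr rfl fun F hF => ?_
        rw [Fintype.sum_prod_type, ← Finset.sum_subset (subset_univ ((pmSet S).erase F))]
        · refine Finset.sum_congr rfl fun F' hF' => ?_
          rw [← Finset.sum_subset (subset_univ S)]
          · rw [Finset.sum_congr rfl (g := fun _ => Φ F F')]
            · rw [sum_const, (mem_powersetCard.1 hS).2, nsmul_eq_mul]; norm_num
            · intro u hu
              rw [if_pos ⟨hS, hF, hF', hu⟩]
          · intro u _ hu
            rw [if_neg]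
            exact fun h => hu h.2.2.2
        · intro F' _ hF'
          apply Finset.sum_eq_zero
          intro u _
          rw [if_neg]
          exact fun h => hF' h.2.2.1
      · intro F _ hF
        apply Finset.sum_eq_zero
        intro p _
        rw [if_neg]
        exact fun h => hF h.2.1
    · intro S _ hS
      apply Finset.sum_eq_zero
      intro p _
      rw [if_neg]
      exact fun h => hS h.1
  have R : ∑ u : Fin n, ∑ w, ∑ x, ∑ y, (
      if Dist4 u w x y then Φ (prs u x w y) (prs u y w x) else 0) =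
      ∑ t : Fin n × Fin n × Fin n × Fin n,
        if Dist4 t.1 t.2.1 t.2.2.1 t.2.2.2 then
          Φ (prs t.1 t.2.2.1 t.2.1 t.2.2.2) (prs t.1 t.2.2.2 t.2.1 t.2.2.1) else 0 := by
    simp_rw [Fintype.sum_prod_type]
  rw [L]
  refine Eq.trans ?_ R.symm
  rw [← Finset.sum_filter, ← Finset.sum_filter]
  symm
  refine Finset.sum_bij (fun t _ => (({t.1, t.2.1, t.2.2.1, t.2.2.2} : Finset (Fin n)),
    prs t.1 t.2.2.1 t.2.1 t.2.2.2, prs t.1 t.2.2.2 t.2.1 t.2.2.1, t.1)) ?_ ?_ ?_ ?_
  · rintro ⟨u, w, x, y⟩ ht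
    have h : Dist4 u w x y := (mem_filter.1 ht).2
    refine mem_filter.2 ⟨mem_univ _, ?_, ?_, ?_, ?_⟩
    · obtain ⟨huw, hxy, hux, huy, hwx, hwy⟩ := h
      refine mem_powersetCard.2 ⟨subset_univ _, ?_⟩
      show Finset.card ({u, w, x, y} : Finset (Fin n)) = 4
      rw [card_insert_of_notMem, card_insert_of_notMem, card_pair hxy]
      · simp [hwx, hwy]
      · simp [huw, hux, huy]
    · exact prs_pm h rfl
    · refine mem_erase.2 ⟨prs_ne h, ?_⟩
      refine prs_pm h.swap2 ?_
      show ({u, w, x, y} : Finset (Fin n)) = {u, w, y, x}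
      rw [pair_comm x y]
    · simp
  · rintro ⟨u, w, x, y⟩ ht ⟨u', w', x', y'⟩ ht' heq
    have h : Dist4 u w x y := (mem_filter.1 ht).2
    have h' : Dist4 u' w' x' y' := (mem_filter.1 ht').2
    simp only [Prod.mk.injEq] at heq
    obtain ⟨-, h1, h2, rfl⟩ := heq
    have hx : x = x' := prs_inj h h' h1
    have hy : y = y' := prs_inj h.swap2 h'.swap2 h2
    subst hx hy
    have hw : w = w' := prs_inj' h h1
    subst hw
    rfl
  · rintro ⟨S, F, F', u⟩ hp
    obtain ⟨-, hS, hF, hF', hu⟩ := mem_filter.1 hp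
    obtain ⟨w, x, y, hd, hS', hF1, hF2⟩ :=
      pm_two (mem_powersetCard.1 hS).2 hF (mem_erase.1 hF').2 (mem_erase.1 hF').1 hu
    refine ⟨(u, w, x, y), mem_filter.2 ⟨mem_univ _, hd⟩, ?_⟩
    show (_, _, _, _) = (_, _, _, _)
    simp only at hS' hF1 hF2 ⊢
    rw [← hS', ← hF1, ← hF2]
  · rintro ⟨u, w, x, y⟩ _
    rfl

theorem ex_prs {a b c d p q : Fin n} (h : a ≠ b) (h' : c ≠ d) :
    (∃ e ∈ prs a b c d, e.1 = s(p, q)) ↔ s(p, q) = s(a, b) ∨ s(p, q) = s(c, d) := by
  constructor
  · rintro ⟨e, he, hpq⟩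
    rw [← hpq]; exact mem_prs.1 he
  · rintro (hh | hh)
    · exact ⟨mkE a b h, mem_prs.2 (Or.inl rfl), hh.symm⟩
    · exact ⟨mkE c d h', mem_prs.2 (Or.inr rfl), hh.symm⟩

theorem slot4_iff {u w x y p q : Fin n} :
    slot4 u w x y p q ↔ (s(p, q) = s(u, x) ∨ s(p, q) = s(w, y)) ∨
      (s(p, q) = s(u, y) ∨ s(p, q) = s(w, x)) := by
  unfold slot4
  simp only [Sym2.eq_iff]
  constructor
  · rintro (⟨h1 | h1, h2 | h2⟩ | ⟨h1 | h1, h2 | h2⟩) <;>
      simp only [h1, h2, true_or, or_true, and_self]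
  · rintro (((⟨h1, h2⟩ | ⟨h1, h2⟩) | (⟨h1, h2⟩ | ⟨h1, h2⟩)) |
      ((⟨h1, h2⟩ | ⟨h1, h2⟩) | (⟨h1, h2⟩ | ⟨h1, h2⟩))) <;>
      simp only [h1, h2, true_or, or_true, and_self]

theorem matOf_switch (E F F' : Finset (Edge n)) (p q : Fin n) :
    matOf (E \ F ∪ F') p q = open scoped Classical in
      if ∃ e ∈ F', e.1 = s(p, q) then 1 else
        if ∃ e ∈ F, e.1 = s(p, q) then 0 else matOf E p q := by
  classical
  split_ifs with h1 h2
  · rw [matOf_eq_one]
    obtain ⟨e, he, h⟩ := h1
    exact ⟨e, mem_union_right _ he, h⟩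
  · rw [matOf_eq_zero]
    rintro ⟨e, he, h⟩
    rcases mem_union.1 he with he | he
    · obtain ⟨e', he', h'⟩ := h2
      have : e' = e := Subtype.ext (h'.trans h.symm)
      exact (mem_sdiff.1 he).2 (this ▸ he')
    · exact h1 ⟨e, he, h⟩
  · rcases matOf_zo E p q with h | h
    · rw [h, matOf_eq_zero]
      rintro ⟨e, he, h'⟩
      rcases mem_union.1 he with he | he
      · exact matOf_eq_zero.1 h ⟨e, (mem_sdiff.1 he).1, h'⟩
      · exact h1 ⟨e, he, h'⟩
    · rw [h, matOf_eq_one]
      obtain ⟨e, he, h'⟩ := matOf_eq_one.1 h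
      exact ⟨e, mem_union_left _ (mem_sdiff.2 ⟨he, fun h3 => h2 ⟨e, h3, h'⟩⟩), h'⟩

section Main

variable {d : Fin n → ℕ}
  (e : {E : Finset (Edge n) // E ∈ realizations d} ≃ Rz (fun v => (d v : ℤ)))
  (he : ∀ E x y, (e E) x y = matOf E.1 x y)

/-- positive orientation -/
def pos4 (u w x y : Fin n) (G : Rz (fun v => (d v : ℤ))) : Prop :=
  Dist4 u w x y ∧ G u x = 1 ∧ G w y = 1 ∧ G u y = 0 ∧ G w x = 0

include he

theorem pos4_iff {u w x y : Fin n} (h : Dist4 u w x y)
    (E : {E : Finset (Edge n) // E ∈ realizations d}) :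
    (prs u x w y ⊆ E.1 ∧ Disjoint (prs u y w x) E.1) ↔ pos4 u w x y (e E) := by
  obtain ⟨huw, hxy, hux, huy, hwx, hwy⟩ := h
  unfold pos4
  rw [he, he, he, he, matOf_eq_one, matOf_eq_one, matOf_eq_zero, matOf_eq_zero,
    prs_eq hux hwy, prs_eq huy hwx, insert_subset_iff, singleton_subset_iff]
  have hex : ∀ (a b : Fin n) (h : a ≠ b), (∃ g ∈ E.1, g.1 = s(a, b)) ↔ mkE a b h ∈ E.1 := by
    intro a b h
    constructor
    · rintro ⟨g, hg, h'⟩
      have : g = mkE a b h := Subtype.ext h'
      exact this ▸ hg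
    · intro h'
      exact ⟨_, h', rfl⟩
  rw [hex u x hux, hex w y hwy, hex u y huy, hex w x hwx]
  rw [Finset.disjoint_insert_left, Finset.disjoint_singleton_left]
  constructor
  · rintro ⟨⟨h1, h2⟩, h3, h4⟩
    exact ⟨⟨huw, hxy, hux, huy, hwx, hwy⟩, h1, h2, h3, h4⟩
  · rintro ⟨-, h1, h2, h3, h4⟩
    exact ⟨⟨h1, h2⟩, h3, h4⟩

theorem switch_eq {u w x y : Fin n} (E : {E : Finset (Edge n) // E ∈ realizations d})
    (h : pos4 u w x y (e E)) :
    (e.symm (swt u w x y (e E))).1 = E.1 \ prs u x w y ∪ prs u y w x := by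
  classical
  obtain ⟨hd, h1, h2, h3, h4⟩ := h
  have hs : split u w x y (e E) := ⟨hd, Or.inl ⟨h1, h2, h3, h4⟩⟩
  obtain ⟨huw, hxy, hux, huy, hwx, hwy⟩ := hd
  apply matOf_inj
  intro p q
  rw [← he, Equiv.apply_symm_apply, matOf_switch]
  have hG : ∀ {p q a b : Fin n}, s(p, q) = s(a, b) → (e E) p q = (e E) a b := by
    intro p q a b h
    rcases Sym2.eq_iff.1 h with ⟨rfl, rfl⟩ | ⟨rfl, rfl⟩
    · rfl
    · exact (e E).symm _ _
  split_ifs with hF' hF
  · rw [ex_prs huy hwx] at hF'
    rw [swt_apply_pos hs (slot4_iff.2 (Or.inr hF'))]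
    rcases hF' with h | h
    · rw [hG h, h3]; rfl
    · rw [hG h, h4]; rfl
  · rw [ex_prs hux hwy] at hF
    rw [swt_apply_pos hs (slot4_iff.2 (Or.inl hF))]
    rcases hF with h | h
    · rw [hG h, h1]; rfl
    · rw [hG h, h2]; rfl
  · rw [ex_prs huy hwx] at hF'
    rw [ex_prs hux hwy] at hF
    rw [swt_apply_neg hs, he]
    intro h
    rcases slot4_iff.1 h with h | h
    · exact hF h
    · exact hF' h

theorem result_eq {u w x y : Fin n} (hd : Dist4 u w x y)
    (E : {E : Finset (Edge n) // E ∈ realizations d}) :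
    switchResult E.1 (prs u x w y) (prs u y w x) = open scoped Classical in
      if pos4 u w x y (e E) then (e.symm (swt u w x y (e E))).1 else E.1 := by
  classical
  unfold switchResult
  by_cases h : pos4 u w x y (e E)
  · rw [if_pos h, if_pos ((pos4_iff e he hd E).2 h), switch_eq e he E h]
  · rw [if_neg h, if_neg (fun h' => h ((pos4_iff e he hd E).1 h'))]

theorem res_mem {F F' : Finset (Edge n)} {S : Finset (Fin n)}
    (hS : S ∈ (univ : Finset (Fin n)).powersetCard 4) (hF : F ∈ pmSet S)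
    (hF' : F' ∈ (pmSet S).erase F) (E : Finset (Edge n)) (hE : E ∈ realizations d) :
    switchResult E F F' ∈ realizations d := by
  classical
  have hc := (mem_powersetCard.1 hS).2
  have hne : S.Nonempty := by rw [← card_pos, hc]; norm_num
  obtain ⟨u, hu⟩ := hne
  obtain ⟨w, x, y, hd, -, h1, h2⟩ := pm_two hc hF (mem_erase.1 hF').2 (mem_erase.1 hF').1 hu
  rw [h1, h2, result_eq e he hd ⟨E, hE⟩]
  split_ifs
  · exact (e.symm _).2
  · exact hE

theorem kernel_sum (f : Finset (Edge n) → ℝ) (E : Finset (Edge n)) (hE : E ∈ realizations d) :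
    ∑ E' ∈ realizations d, kernel n E E' * f E' = f E / 2 + (1 / (12 * (n.choose 4 : ℝ))) *
      ∑ S ∈ (univ : Finset (Fin n)).powersetCard 4,
        ∑ F ∈ pmSet S, ∑ F' ∈ (pmSet S).erase F, f (switchResult E F F') := by
  unfold kernel
  simp_rw [add_mul]
  rw [Finset.sum_add_distrib]
  congr 1
  · rw [Finset.sum_eq_single E]
    · rw [if_pos rfl]; ring
    · intro b _ hb
      rw [if_neg (Ne.symm hb)]; ring
    · intro h; exact absurd hE h
  · unfold proposalCount
    push_cast
    rw [Finset.mul_sum]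
    have : ∀ E' ∈ realizations d, ((∑ S ∈ (univ : Finset (Fin n)).powersetCard 4,
        ∑ F ∈ pmSet S, ∑ F' ∈ (pmSet S).erase F, if switchResult E F F' = E' then (1 : ℝ) else 0) /
          (12 * (n.choose 4 : ℝ))) * f E' =
        ∑ S ∈ (univ : Finset (Fin n)).powersetCard 4, ∑ F ∈ pmSet S, ∑ F' ∈ (pmSet S).erase F,
          (1 / (12 * (n.choose 4 : ℝ))) * (if switchResult E F F' = E' then f E' else 0) := by
      intro E' _
      rw [div_mul_eq_mul_div, Finset.sum_mul, Finset.sum_div]
      refine Finset.sum_congr rfl fun S _ => ?_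
      rw [Finset.sum_mul, Finset.sum_div]
      refine Finset.sum_congr rfl fun F _ => ?_
      rw [Finset.sum_mul, Finset.sum_div]
      refine Finset.sum_congr rfl fun F' _ => ?_
      split_ifs <;> ring
    rw [Finset.sum_congr rfl this, Finset.sum_comm]
    refine Finset.sum_congr rfl fun S hS => ?_
    rw [Finset.sum_comm, Finset.mul_sum]
    refine Finset.sum_congr rfl fun F hF => ?_
    rw [Finset.sum_comm, Finset.mul_sum]
    refine Finset.sum_congr rfl fun F' hF' => ?_
    rw [← Finset.mul_sum, Finset.sum_ite_eq, if_pos (res_mem e he hS hF hF' E hE)]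

omit e he in
theorem count_dist4 : ∑ u : Fin n, ∑ w, ∑ x, ∑ y, (open scoped Classical in
      if Dist4 u w x y then (1 : ℝ) else 0) = 24 * (n.choose 4 : ℝ) := by
  classical
  have h1 : ∑ u : Fin n, ∑ w : Fin n, ∑ x : Fin n, ∑ y : Fin n,
      (if Dist4 u w x y then (1 : ℝ) else 0) =
      (((univ : Finset (Fin n × Fin n × Fin n × Fin n)).filter
        fun t => Dist4 t.1 t.2.1 t.2.2.1 t.2.2.2).card : ℝ) := by
    rw [← Finset.sum_boole]
    simp_rw [Fintype.sum_prod_type]
  rw [h1]
  have h2 : ((univ : Finset (Fin n × Fin n × Fin n × Fin n)).filter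
        fun t => Dist4 t.1 t.2.1 t.2.2.1 t.2.2.2).card = Fintype.card (Fin 4 ↪ Fin n) := by
    rw [← Finset.card_univ]
    symm
    refine Finset.card_bij (fun φ _ => (φ 0, φ 1, φ 2, φ 3)) ?_ ?_ ?_
    · intro φ _
      refine mem_filter.2 ⟨mem_univ _, ?_⟩
      refine ⟨?_, ?_, ?_, ?_, ?_, ?_⟩ <;> exact φ.injective.ne (by decide)
    · intro φ _ ψ _ h
      simp only [Prod.mk.injEq] at h
      ext i
      fin_cases i
      · exact congrArg _ h.1
      · exact congrArg _ h.2.1
      · exact congrArg _ h.2.2.1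
      · exact congrArg _ h.2.2.2
    · rintro ⟨u, w, x, y⟩ ht
      obtain ⟨-, huw, hxy, hux, huy, hwx, hwy⟩ := mem_filter.1 ht
      simp only at huw hxy hux huy hwx hwy
      refine ⟨⟨![u, w, x, y], ?_⟩, mem_univ _, rfl⟩
      intro i j hij
      fin_cases i <;> fin_cases j <;>
        first
          | rfl
          | exact absurd hij huw
          | exact absurd hij.symm huw
          | exact absurd hij hxy
          | exact absurd hij.symm hxy
          | exact absurd hij hux
          | exact absurd hij.symm hux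
          | exact absurd hij huy
          | exact absurd hij.symm huy
          | exact absurd hij hwx
          | exact absurd hij.symm hwx
          | exact absurd hij hwy
          | exact absurd hij.symm hwy
  rw [h2, Fintype.card_embedding_eq, Fintype.card_fin, Fintype.card_fin,
    Nat.descFactorial_eq_factorial_mul_choose]
  push_cast
  norm_num [Nat.factorial]

omit e he in
theorem sum_split_sq (u w x y : Fin n) (g : Rz (fun v => (d v : ℤ)) → ℝ) :
    (open scoped Classical in
    ∑ G, (if pos4 u w x y G then g G * (g G - g (swt u w x y G)) else 0) +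
      ∑ G, (if pos4 u w y x G then g G * (g G - g (swt u w y x G)) else 0)) =
    (1 / 2 : ℝ) * ∑ G, (open scoped Classical in
      if split u w x y G then (g G - g (swt u w x y G)) ^ 2 else 0) := by
  classical
  have h1 : ∀ G : Rz (fun v => (d v : ℤ)),
      (if pos4 u w x y G then g G * (g G - g (swt u w x y G)) else 0) +
        (if pos4 u w y x G then g G * (g G - g (swt u w y x G)) else 0) =
      if split u w x y G then g G * (g G - g (swt u w x y G)) else 0 := by
    intro G
    rw [← swt_swap2 u w x y G]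
    by_cases hs : split u w x y G
    · rw [if_pos hs]
      obtain ⟨hd, ⟨a, b, c, c'⟩ | ⟨a, b, c, c'⟩⟩ := hs
      · have hp : pos4 u w x y G := ⟨hd, a, b, c, c'⟩
        have hn : ¬ pos4 u w y x G := fun h => by
          have := h.2.1; rw [c] at this; exact zero_ne_one this
        rw [if_pos hp, if_neg hn, add_zero]
      · have hp : pos4 u w y x G := ⟨hd.swap2, c, c', a, b⟩
        have hn : ¬ pos4 u w x y G := fun h => by
          have := h.2.1; rw [a] at this; exact zero_ne_one this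
        rw [if_pos hp, if_neg hn, zero_add]
    · have hn1 : ¬ pos4 u w x y G := fun h =>
        hs ⟨h.1, Or.inl ⟨h.2.1, h.2.2.1, h.2.2.2.1, h.2.2.2.2⟩⟩
      have hn2 : ¬ pos4 u w y x G := fun h =>
        hs ⟨h.1.swap2, Or.inr ⟨h.2.2.2.1, h.2.2.2.2, h.2.1, h.2.2.1⟩⟩
      rw [if_neg hn1, if_neg hn2, if_neg hs, add_zero]
  rw [← Finset.sum_add_distrib, Finset.sum_congr rfl fun G _ => h1 G]
  have h2 : ∑ G : Rz (fun v => (d v : ℤ)),
      (if split u w x y G then g G * (g G - g (swt u w x y G)) else 0) =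
      ∑ G : Rz (fun v => (d v : ℤ)),
      (if split u w x y G then g (swt u w x y G) * (g (swt u w x y G) - g G) else 0) := by
    rw [← Equiv.sum_comp (swtE u w x y)]
    refine Finset.sum_congr rfl fun G _ => ?_
    simp only [swtE_apply, swt_swt]
    by_cases hs : split u w x y G
    · rw [if_pos hs, if_pos (split_swt_iff.2 hs)]
    · rw [if_neg hs, if_neg (fun h => hs (split_swt_iff.1 h))]
  have h3 : ∑ G : Rz (fun v => (d v : ℤ)),
      (if split u w x y G then g G * (g G - g (swt u w x y G)) else 0) +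
      ∑ G : Rz (fun v => (d v : ℤ)),
      (if split u w x y G then g (swt u w x y G) * (g (swt u w x y G) - g G) else 0) =
      ∑ G : Rz (fun v => (d v : ℤ)),
      (if split u w x y G then (g G - g (swt u w x y G)) ^ 2 else 0) := by
    rw [← Finset.sum_add_distrib]
    refine Finset.sum_congr rfl fun G _ => ?_
    split_ifs <;> ring
  linarith

/-- TASK 10. The Dirichlet form of the kernel dominates (in fact equals) the switch form. -/
theorem kernel_form_eq (hn : 4 ≤ n) (f : Finset (Edge n) → ℝ) :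
    (1 / (192 * (n.choose 4 : ℝ))) *
        ∑ u, ∑ w, ∑ x, ∑ y, ∑ G : Rz (fun v => (d v : ℤ)), (open scoped Classical in
          if split u w x y G then (f (e.symm G).1 - f (e.symm (swt u w x y G)).1) ^ 2 else 0)
      = ∑ G ∈ realizations d, f G * (f G - ∑ G' ∈ realizations d, kernel n G G' * f G') := by
  classical
  have hC : 0 < (n.choose 4 : ℝ) := by exact_mod_cast Nat.choose_pos hn
  set C : ℝ := (n.choose 4 : ℝ) with hCdef
  -- number of proposals
  have hcount : ∑ S ∈ (univ : Finset (Fin n)).powersetCard 4,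
      ∑ F ∈ pmSet S, ∑ F' ∈ (pmSet S).erase F, (1 : ℝ) = 6 * C := by
    have h := sum_prop (n := n) (fun _ _ => 1)
    rw [count_dist4] at h
    simp only [← Finset.mul_sum] at h
    linarith
  have h1 : ∀ E ∈ realizations d, f E * (f E - ∑ G' ∈ realizations d, kernel n E G' * f G') =
      (1 / (48 * C)) * ∑ u : Fin n, ∑ w, ∑ x, ∑ y,
        if Dist4 u w x y then
          f E * (f E - f (switchResult E (prs u x w y) (prs u y w x))) else 0 := by
    intro E hE
    rw [kernel_sum e he f E hE]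
    have h := sum_prop (n := n) (fun F F' => f E * (f E - f (switchResult E F F')))
    have h' : ∑ u : Fin n, ∑ w, ∑ x, ∑ y, (
        if Dist4 u w x y then
          f E * (f E - f (switchResult E (prs u x w y) (prs u y w x))) else 0) =
        ∑ S ∈ (univ : Finset (Fin n)).powersetCard 4,
      ∑ F ∈ pmSet S, ∑ F' ∈ (pmSet S).erase F, 4 * (f E * (f E - f (switchResult E F F'))) := by
      rw [h]
    rw [h']
    have h'' : ∑ S ∈ (univ : Finset (Fin n)).powersetCard 4,
      ∑ F ∈ pmSet S, ∑ F' ∈ (pmSet S).erase F, 4 * (f E * (f E - f (switchResult E F F'))) =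
      4 * (f E * (f E * ∑ S ∈ (univ : Finset (Fin n)).powersetCard 4,
      ∑ F ∈ pmSet S, ∑ F' ∈ (pmSet S).erase F, (1 : ℝ) -
        ∑ S ∈ (univ : Finset (Fin n)).powersetCard 4,
      ∑ F ∈ pmSet S, ∑ F' ∈ (pmSet S).erase F, f (switchResult E F F'))) := by
      simp only [Finset.mul_sum, ← Finset.sum_sub_distrib, mul_one]
    rw [h'', hcount, ← hCdef]
    field_simp
    ring
  rw [Finset.sum_congr rfl h1, ← Finset.mul_sum]
  have h2 : ∑ E ∈ realizations d, ∑ u : Fin n, ∑ w, ∑ x, ∑ y,
        (if Dist4 u w x y then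
          f E * (f E - f (switchResult E (prs u x w y) (prs u y w x))) else 0) =
      ∑ u : Fin n, ∑ w, ∑ x, ∑ y, ∑ G : Rz (fun v => (d v : ℤ)),
        if pos4 u w x y G then
          f (e.symm G).1 * (f (e.symm G).1 - f (e.symm (swt u w x y G)).1) else 0 := by
    rw [Finset.sum_comm]
    refine Finset.sum_congr rfl fun u _ => ?_
    rw [Finset.sum_comm]
    refine Finset.sum_congr rfl fun w _ => ?_
    rw [Finset.sum_comm]
    refine Finset.sum_congr rfl fun x _ => ?_
    rw [Finset.sum_comm]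
    refine Finset.sum_congr rfl fun y _ => ?_
    rw [← Finset.sum_coe_sort, ← Equiv.sum_comp e]
    refine Finset.sum_congr rfl fun E _ => ?_
    rw [Equiv.symm_apply_apply]
    by_cases hd : Dist4 u w x y
    · rw [if_pos hd, result_eq e he hd E]
      split_ifs
      · rfl
      · ring
    · rw [if_neg hd, if_neg (fun h => hd h.1)]
  rw [h2]
  have h3 : ∑ u : Fin n, ∑ w, ∑ x, ∑ y, ∑ G : Rz (fun v => (d v : ℤ)),
        (if pos4 u w x y G then
          f (e.symm G).1 * (f (e.symm G).1 - f (e.symm (swt u w x y G)).1) else 0) =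
      ∑ u : Fin n, ∑ w, ∑ x, ∑ y, ∑ G : Rz (fun v => (d v : ℤ)),
        if pos4 u w y x G then
          f (e.symm G).1 * (f (e.symm G).1 - f (e.symm (swt u w y x G)).1) else 0 := by
    refine Finset.sum_congr rfl fun u _ => ?_
    refine Finset.sum_congr rfl fun w _ => ?_
    rw [Finset.sum_comm]
  have h4 : ∑ u : Fin n, ∑ w, ∑ x, ∑ y, ∑ G : Rz (fun v => (d v : ℤ)),
        (if pos4 u w x y G then
          f (e.symm G).1 * (f (e.symm G).1 - f (e.symm (swt u w x y G)).1) else 0) +
      ∑ u : Fin n, ∑ w, ∑ x, ∑ y, ∑ G : Rz (fun v => (d v : ℤ)),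
        (if pos4 u w y x G then
          f (e.symm G).1 * (f (e.symm G).1 - f (e.symm (swt u w y x G)).1) else 0) =
      (1 / 2 : ℝ) * ∑ u : Fin n, ∑ w, ∑ x, ∑ y, ∑ G : Rz (fun v => (d v : ℤ)), (
          if split u w x y G then (f (e.symm G).1 - f (e.symm (swt u w x y G)).1) ^ 2 else 0) := by
    simp only [← Finset.sum_add_distrib, Finset.mul_sum]
    refine Finset.sum_congr rfl fun u _ => ?_
    refine Finset.sum_congr rfl fun w _ => ?_
    refine Finset.sum_congr rfl fun x _ => ?_
    refine Finset.sum_congr rfl fun y _ => ?_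
    rw [Finset.sum_add_distrib, sum_split_sq u w x y (fun G => f (e.symm G).1), Finset.mul_sum]
  rw [← h3] at h4
  field_simp
  linarith

end Main

/-- TASK 10. The Dirichlet form of the kernel dominates (in fact equals) the switch form. -/
theorem kernel_form (hn : 4 ≤ n) (d : Fin n → ℕ)
    (e : {E : Finset (Edge n) // E ∈ realizations d} ≃ Rz (fun v => (d v : ℤ)))
    (he : ∀ E x y, (e E) x y = matOf E.1 x y) (f : Finset (Edge n) → ℝ) :
    (1 / (192 * (n.choose 4 : ℝ))) *
        ∑ u, ∑ w, ∑ x, ∑ y, ∑ G : Rz (fun v => (d v : ℤ)), (open scoped Classical in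
          if split u w x y G then (f (e.symm G).1 - f (e.symm (swt u w x y G)).1) ^ 2 else 0)
      ≤ ∑ G ∈ realizations d, f G * (f G - ∑ G' ∈ realizations d, kernel n G G' * f G') :=
  (kernel_form_eq e he hn f).le

end Kernel

end Crest.Agent.SwC
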