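import Crest.Agent.SwC_Basic

/-!
Connectivity of the realizations by switches.
-/

set_option autoImplicit false
set_option linter.unusedSectionVars false

open Finset

namespace Crest.Agent.SwC

variable {V : Type*} [Fintype V] {d : V → ℤ}

theorem exists_dis {a b : V → ℤ} (ha : ∀ x, a x = 0 ∨ a x = 1) (hb : ∀ x, b x = 0 ∨ b x = 1)
    (hs : ∑ x, a x = ∑ x, b x) (hne : ∃ x, a x ≠ b x) : ∃ x, a x = 1 ∧ b x = 0 := by
  by_contra hn
  push Not at hn
  have hle : ∀ x ∈ (univ : Finset V), a x ≤ b x := by
    intro x _
    rcases ha x with h | h <;> rcases hb x with h' | h'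
    · omega
    · omega
    · exact absurd h' (hn x h)
    · omega
  have := (Finset.sum_eq_sum_iff_of_le hle).1 hs
  obtain ⟨x, hx⟩ := hne
  exact hx (this x (mem_univ x))

theorem le_of_zo {a b : ℤ} (ha : a = 0 ∨ a = 1) (hb : b = 0 ∨ b = 1) (h : a = 1 → b ≠ 0) :
    a ≤ b := by
  rcases ha with ha | ha
  · rcases hb with hb | hb <;> omega
  · have := h ha
    omega

theorem conn_step (f : Rz d → ℝ) (h : ∀ (u w x y : V) (G : Rz d), f (swt u w x y G) = f G)
    (P : Finset V) (v : V) (hv : v ∉ P)
    (IH : ∀ G H : Rz d, (∀ p, (p = v ∨ p ∈ P) → ∀ x, G p x = H p x) → f G = f H) :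
    ∀ (m : ℕ) (G H : Rz d), (∀ p ∈ P, ∀ x, G p x = H p x) →
      (univ.filter (fun x => G v x ≠ H v x)).card = m → f G = f H := by
  classical
  intro m
  induction m using Nat.strong_induction_on with
  | _ m ih =>
    intro G H hP hm
    by_cases hdis : ∃ x, G v x ≠ H v x
    swap
    · push Not at hdis
      exact IH G H (fun p hp x => by
        rcases hp with hp | hp
        · subst hp; exact hdis x
        · exact hP p hp x)
    obtain ⟨x, hGx, hHx⟩ := exists_dis (fun x => G.zo v x) (fun x => H.zo v x)
      ((G.deg v).trans (H.deg v).symm) hdis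
    obtain ⟨y, hHy, hGy⟩ := exists_dis (fun x => H.zo v x) (fun x => G.zo v x)
      ((H.deg v).trans (G.deg v).symm) ⟨x, by omega⟩
    have hvx : v ≠ x := by rintro rfl; rw [G.diag] at hGx; omega
    have hvy : v ≠ y := by rintro rfl; rw [H.diag] at hHy; omega
    have hxy : x ≠ y := by rintro rfl; omega
    have hxP : x ∉ P := by
      intro hx
      have := hP x hx v
      rw [G.symm, H.symm] at this; omega
    have hyP : y ∉ P := by
      intro hy
      have := hP y hy v
      rw [G.symm, H.symm] at this; omega
    by_cases hA : ∃ z, z ∉ P ∧ z ≠ v ∧ z ≠ x ∧ z ≠ y ∧ G z y = 1 ∧ G z x = 0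
    · obtain ⟨z, hzP, hzv, hzx, hzy, h1, h2⟩ := hA
      have hs : split v z x y G := ⟨⟨hzv.symm, hxy, hvx, hvy, hzx, hzy⟩, Or.inl ⟨hGx, h1, hGy, h2⟩⟩
      rw [← h v z x y G]
      obtain ⟨e1, e2, e3, e4⟩ := swt_vals hs
      have hother : ∀ q, q ≠ x → q ≠ y → (swt v z x y G) v q = G v q := by
        intro q hqx hqy
        apply swt_apply_neg hs
        unfold slot4
        rintro (⟨-, h | h⟩ | ⟨h | h, -⟩)
        · exact hqx h
        · exact hqy h
        · exact hvx h
        · exact hvy h
      refine ih _ ?_ (swt v z x y G) H ?_ rfl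
      · rw [← hm]
        apply Finset.card_lt_card
        rw [Finset.ssubset_iff_of_subset]
        · refine ⟨x, ?_, ?_⟩
          · simp [hGx, hHx]
          · simp [e1, hGx, hHx]
        · intro q hq
          simp only [Finset.mem_filter, Finset.mem_univ, true_and] at hq ⊢
          by_cases hqx : q = x
          · subst hqx; omega
          · by_cases hqy : q = y
            · subst hqy; omega
            · rwa [hother q hqx hqy] at hq
      · intro p hp q
        rw [← hP p hp q]
        apply swt_apply_neg hs
        have a1 : p ≠ v := fun h => hv (h ▸ hp)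
        have a2 : p ≠ z := fun h => hzP (h ▸ hp)
        have a3 : p ≠ x := fun h => hxP (h ▸ hp)
        have a4 : p ≠ y := fun h => hyP (h ▸ hp)
        unfold slot4; tauto
    · by_cases hB : ∃ z, z ∉ P ∧ z ≠ v ∧ z ≠ x ∧ z ≠ y ∧ H z x = 1 ∧ H z y = 0
      · obtain ⟨z, hzP, hzv, hzx, hzy, h1, h2⟩ := hB
        have hs : split v z x y H := ⟨⟨hzv.symm, hxy, hvx, hvy, hzx, hzy⟩, Or.inr ⟨hHx, h2, hHy, h1⟩⟩
        rw [← h v z x y H]
        obtain ⟨e1, e2, e3, e4⟩ := swt_vals hs
        have hother : ∀ q, q ≠ x → q ≠ y → (swt v z x y H) v q = H v q := by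
          intro q hqx hqy
          apply swt_apply_neg hs
          unfold slot4
          rintro (⟨-, h | h⟩ | ⟨h | h, -⟩)
          · exact hqx h
          · exact hqy h
          · exact hvx h
          · exact hvy h
        refine ih _ ?_ G (swt v z x y H) ?_ rfl
        · rw [← hm]
          apply Finset.card_lt_card
          rw [Finset.ssubset_iff_of_subset]
          · refine ⟨x, ?_, ?_⟩
            · simp [hGx, hHx]
            · simp [e1, hGx, hHx]
          · intro q hq
            simp only [Finset.mem_filter, Finset.mem_univ, true_and] at hq ⊢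
            by_cases hqx : q = x
            · subst hqx; omega
            · by_cases hqy : q = y
              · subst hqy; omega
              · rwa [hother q hqx hqy] at hq
        · intro p hp q
          rw [hP p hp q]
          symm
          apply swt_apply_neg hs
          have a1 : p ≠ v := fun h => hv (h ▸ hp)
          have a2 : p ≠ z := fun h => hzP (h ▸ hp)
          have a3 : p ≠ x := fun h => hxP (h ▸ hp)
          have a4 : p ≠ y := fun h => hyP (h ▸ hp)
          unfold slot4; tauto
      · exfalso
        push Not at hA hB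
        set t : V → ℤ := fun z => (G z x - G z y) - (H z x - H z y) with ht
        have hsum : ∑ z, t z = 0 := by
          simp only [ht, Finset.sum_sub_distrib]
          have g1 : ∀ a, ∑ z, G z a = d a := fun a => by
            rw [← G.deg a]; exact Finset.sum_congr rfl fun z _ => G.symm z a
          have g2 : ∀ a, ∑ z, H z a = d a := fun a => by
            rw [← H.deg a]; exact Finset.sum_congr rfl fun z _ => H.symm z a
          rw [g1, g1, g2, g2]; ring
        have e1 := Finset.add_sum_erase univ t (mem_univ x)
        have e2 := Finset.add_sum_erase (univ.erase x) t (a := y)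
          (by simp [hxy.symm])
        have e3 := Finset.add_sum_erase ((univ.erase x).erase y) t (a := v)
          (by simp [hvx, hvy])
        have htx : t x = - G x y + H x y := by simp only [ht, G.diag, H.diag]; ring
        have hty : t y = G x y - H x y := by
          simp only [ht, G.diag, H.diag, G.symm y x, H.symm y x]; ring
        have htv : t v = 2 := by simp only [ht]; omega
        have hrest : 0 ≤ ∑ z ∈ ((univ.erase x).erase y).erase v, t z := by
          refine Finset.sum_nonneg fun z hz => ?_
          simp only [Finset.mem_erase, Finset.mem_univ, and_true] at hz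
          obtain ⟨hzv, hzy, hzx⟩ := hz
          by_cases hzP : z ∈ P
          · simp only [ht]
            rw [hP z hzP x, hP z hzP y]; omega
          · have a1 := hA z hzP hzv hzx hzy
            have a2 := hB z hzP hzv hzx hzy
            have b1 := le_of_zo (G.zo z y) (G.zo z x) a1
            have b2 := le_of_zo (H.zo z x) (H.zo z y) a2
            show 0 ≤ (G z x - G z y) - (H z x - H z y)
            linarith
        omega

theorem conn_aux (f : Rz d → ℝ) (h : ∀ (u w x y : V) (G : Rz d), f (swt u w x y G) = f G) :
    ∀ (k : ℕ) (P : Finset V), Fintype.card V - P.card = k → ∀ G H : Rz d,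
      (∀ p ∈ P, ∀ x, G p x = H p x) → f G = f H := by
  classical
  intro k
  induction k with
  | zero =>
    intro P hk G H hP
    have : P = univ := by
      apply (Finset.card_eq_iff_eq_univ P).1
      have := Finset.card_le_univ P
      omega
    have : G = H := Rz.ext fun x y => hP x (by rw [this]; exact mem_univ x) y
    rw [this]
  | succ k ih =>
    intro P hk G H hP
    have hlt : P.card < Fintype.card V := by omega
    have : ∃ v, v ∉ P := by
      by_contra hn
      push Not at hn
      have : P = univ := by ext v; simp [hn v]
      rw [this, Finset.card_univ] at hlt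
      omega
    obtain ⟨v, hv⟩ := this
    refine conn_step f h P v hv ?_ _ G H hP rfl
    intro G H hGH
    refine ih (insert v P) ?_ G H ?_
    · rw [Finset.card_insert_of_notMem hv]; omega
    · intro p hp
      exact hGH p (by simpa using hp)

theorem connected (f : Rz d → ℝ) (h : ∀ (u w x y : V) (G : Rz d), f (swt u w x y G) = f G)
    (G H : Rz d) : f G = f H :=
  conn_aux f h _ ∅ rfl G H (by simp)

end Crest.Agent.SwC
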