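import Crest.Agent.SwC_Avg

/-!
Abstract operator algebra for the disjoint pair inequality (S0453, task SwC-5).
-/

set_option autoImplicit false
set_option linter.unusedSectionVars false

open Finset

namespace Crest.Agent.SwC

section Abs

variable {X : Type*} [Fintype X]

/-- self-adjointness -/
def SA (P Q : Module.End ℝ (X → ℝ)) : Prop :=
  ∀ g h : X → ℝ, ∑ x, P g x * h x = ∑ x, g x * Q h x

theorem SA.one : SA (1 : Module.End ℝ (X → ℝ)) 1 := fun _ _ => rfl

theorem SA.sub {P Q P' Q' : Module.End ℝ (X → ℝ)} (h1 : SA P P') (h2 : SA Q Q') :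
    SA (P - Q) (P' - Q') := by
  intro g h
  simp only [LinearMap.sub_apply, Pi.sub_apply, sub_mul, mul_sub, Finset.sum_sub_distrib,
    h1 g h, h2 g h]

theorem SA.mul {P Q P' Q' : Module.End ℝ (X → ℝ)} (h1 : SA P P') (h2 : SA Q Q') :
    SA (P * Q) (Q' * P') := by
  intro g h
  simp only [Module.End.mul_apply]
  rw [h1, h2]

theorem SA.ip {P Q P' : Module.End ℝ (X → ℝ)} (h1 : SA P P') (f : X → ℝ) :
    ∑ x, P f x * Q f x = ∑ x, f x * (P' * Q) f x := by
  rw [h1]; rfl

theorem abs_core (E E' A A' T : Module.End ℝ (X → ℝ))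
    (sE : SA E E) (sE' : SA E' E') (sA : SA A A) (sA' : SA A' A')
    (EE : E * E = E) (EE' : E' * E' = E') (AA : A * A = A) (AA' : A' * A' = A')
    (AE : A * E = E) (EA : E * A = E) (AE' : A' * E' = E') (EA' : E' * A' = E')
    (cAA : A' * A = A * A') (cEA : A' * E = E * A') (cAE : E' * A = A * E')
    (cTA : A * T = T * A) (cTA' : A' * T = T * A') (TE : T * E = 0) (TE' : T * E' = 0)
    (hT : ∀ g : X → ℝ, ∑ x, T g x * T g x ≤ 4 * ∑ x, g x * g x) (f : X → ℝ) :
    (1 / 4 : ℝ) * (∑ x, T f x * T f x - ∑ x, T (A (A' f)) x * T (A (A' f)) x)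
      + ∑ x, (1 - E) (A (A' f)) x * (1 - E') (A (A' f)) x
      ≤ ∑ x, (1 - E) f x * (1 - E') f x := by
  have EEz : ∀ z : Module.End ℝ (X → ℝ), E * (E * z) = E * z := fun z => by rw [← mul_assoc, EE]
  have EE'z : ∀ z : Module.End ℝ (X → ℝ), E' * (E' * z) = E' * z := fun z => by rw [← mul_assoc, EE']
  have AAz : ∀ z : Module.End ℝ (X → ℝ), A * (A * z) = A * z := fun z => by rw [← mul_assoc, AA]
  have AA'z : ∀ z : Module.End ℝ (X → ℝ), A' * (A' * z) = A' * z := fun z => by rw [← mul_assoc, AA']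
  have AEz : ∀ z : Module.End ℝ (X → ℝ), A * (E * z) = E * z := fun z => by rw [← mul_assoc, AE]
  have EAz : ∀ z : Module.End ℝ (X → ℝ), E * (A * z) = E * z := fun z => by rw [← mul_assoc, EA]
  have AE'z : ∀ z : Module.End ℝ (X → ℝ), A' * (E' * z) = E' * z := fun z => by rw [← mul_assoc, AE']
  have EA'z : ∀ z : Module.End ℝ (X → ℝ), E' * (A' * z) = E' * z := fun z => by rw [← mul_assoc, EA']
  have cAAz : ∀ z : Module.End ℝ (X → ℝ), A' * (A * z) = A * (A' * z) := fun z => by
    rw [← mul_assoc, cAA, mul_assoc]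
  have cEAz : ∀ z : Module.End ℝ (X → ℝ), A' * (E * z) = E * (A' * z) := fun z => by
    rw [← mul_assoc, cEA, mul_assoc]
  have cAEz : ∀ z : Module.End ℝ (X → ℝ), E' * (A * z) = A * (E' * z) := fun z => by
    rw [← mul_assoc, cAE, mul_assoc]
  -- the main identity
  have id1 : ∑ x, (1 - E) f x * (1 - E') f x =
      ∑ x, ((1 - A) * (1 - A')) f x * ((1 - A) * (1 - A')) f x
      + ∑ x, ((1 - A) * (A' - E')) f x * ((1 - A) * (A' - E')) f x
      + ∑ x, ((A - E) * (1 - A')) f x * ((A - E) * (1 - A')) f x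
      + ∑ x, (1 - E) (A (A' f)) x * (1 - E') (A (A' f)) x := by
    have e4 : ∑ x, (1 - E) (A (A' f)) x * (1 - E') (A (A' f)) x =
        ∑ x, ((1 - E) * (A * A')) f x * ((1 - E') * (A * A')) f x := rfl
    rw [e4, (SA.one.sub sE).ip, ((SA.one.sub sA).mul (SA.one.sub sA')).ip,
      ((SA.one.sub sA).mul (sA'.sub sE')).ip, ((sA.sub sE).mul (SA.one.sub sA')).ip,
      ((SA.one.sub sE).mul (sA.mul sA')).ip]
    rw [← Finset.sum_add_distrib, ← Finset.sum_add_distrib, ← Finset.sum_add_distrib]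
    refine Finset.sum_congr rfl fun x _ => ?_
    rw [← mul_add, ← mul_add, ← mul_add]
    congr 1
    rw [← Pi.add_apply, ← Pi.add_apply, ← Pi.add_apply, ← LinearMap.add_apply,
      ← LinearMap.add_apply, ← LinearMap.add_apply]
    have : (1 - E) * (1 - E') = (1 - A') * (1 - A) * ((1 - A) * (1 - A'))
        + (A' - E') * (1 - A) * ((1 - A) * (A' - E'))
        + (1 - A') * (A - E) * ((A - E) * (1 - A'))
        + A' * A * (1 - E) * ((1 - E') * (A * A')) := by
      simp only [mul_sub, sub_mul, mul_assoc, one_mul, mul_one, EE, EE', AA, AA', AE, EA, AE', EA',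
        cAA, cEA, cAE, EEz, AAz, AEz, EAz, cAAz, cEAz, cAEz]
      abel
    rw [this]
  have id2 : ∀ h : X → ℝ, ∑ x, h x * h x =
      ∑ x, ((1 - A) * (1 - A')) h x * ((1 - A) * (1 - A')) h x
      + ∑ x, ((1 - A) * A') h x * ((1 - A) * A') h x
      + ∑ x, (A * (1 - A')) h x * (A * (1 - A')) h x
      + ∑ x, (A * A') h x * (A * A') h x := by
    intro h
    rw [((SA.one.sub sA).mul (SA.one.sub sA')).ip,
      ((SA.one.sub sA).mul sA').ip, (sA.mul (SA.one.sub sA')).ip,
      (sA.mul sA').ip]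
    rw [← Finset.sum_add_distrib, ← Finset.sum_add_distrib, ← Finset.sum_add_distrib]
    refine Finset.sum_congr rfl fun x _ => ?_
    rw [← mul_add, ← mul_add, ← mul_add]
    congr 1
    rw [← Pi.add_apply, ← Pi.add_apply, ← Pi.add_apply, ← LinearMap.add_apply,
      ← LinearMap.add_apply, ← LinearMap.add_apply]
    have : (1 - A') * (1 - A) * ((1 - A) * (1 - A')) + A' * (1 - A) * ((1 - A) * A')
        + (1 - A') * A * (A * (1 - A')) + A' * A * (A * A') = 1 := by
      simp only [mul_sub, sub_mul, mul_assoc, one_mul, mul_one, AA, AA',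
        cAA, AAz, cAAz]
      abel
    rw [this]; rfl
  have t1 : ((1 - A) * (1 - A')) * T = T * ((1 - A) * (1 - A')) := by
    have h1 : (1 - A) * T = T * (1 - A) := by rw [sub_mul, mul_sub, cTA, one_mul, mul_one]
    have h2 : (1 - A') * T = T * (1 - A') := by rw [sub_mul, mul_sub, cTA', one_mul, mul_one]
    rw [mul_assoc, h2, ← mul_assoc, h1, mul_assoc]
  have t2 : ((1 - A) * A') * T = T * ((1 - A) * (A' - E')) := by
    have h1 : (1 - A) * T = T * (1 - A) := by rw [sub_mul, mul_sub, cTA, one_mul, mul_one]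
    have h3 : T * ((1 - A) * E') = 0 := by
      rw [← mul_assoc, ← h1, mul_assoc, TE', mul_zero]
    rw [mul_sub, mul_sub, h3, sub_zero, mul_assoc, cTA', ← mul_assoc, h1, mul_assoc]
  have t3 : (A * (1 - A')) * T = T * ((A - E) * (1 - A')) := by
    have h2 : (1 - A') * T = T * (1 - A') := by rw [sub_mul, mul_sub, cTA', one_mul, mul_one]
    have h3 : T * (E * (1 - A')) = 0 := by rw [← mul_assoc, TE, zero_mul]
    rw [sub_mul A E, mul_sub T, h3, sub_zero, mul_assoc, h2, ← mul_assoc,
      cTA, mul_assoc]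
  have t4 : (A * A') * T = T * (A * A') := by
    rw [mul_assoc, cTA', ← mul_assoc, cTA, mul_assoc]
  have id3 := id2 (T f)
  have conv : ∀ P Q : Module.End ℝ (X → ℝ), P * T = T * Q → P (T f) = T (Q f) := by
    intro P Q hPQ
    have := congrArg (fun L : Module.End ℝ (X → ℝ) => L f) hPQ
    simpa [Module.End.mul_apply] using this
  rw [conv _ _ t1, conv _ _ t2, conv _ _ t3, conv _ _ t4] at id3
  have b1 := hT (((1 - A) * (1 - A')) f)
  have b2 := hT (((1 - A) * (A' - E')) f)
  have b3 := hT (((A - E) * (1 - A')) f)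
  have e5 : ∑ x, T ((A * A') f) x * T ((A * A') f) x = ∑ x, T (A (A' f)) x * T (A (A' f)) x := rfl
  rw [e5] at id3
  rw [id1]
  linarith

/-- commuting projections have nonnegative product form -/
theorem abs_comm (E E' : Module.End ℝ (X → ℝ))
    (sE : SA E E) (sE' : SA E' E')
    (EE : E * E = E) (EE' : E' * E' = E') (f : X → ℝ) (hc : E (E' f) = E' (E f)) :
    0 ≤ ∑ x, (1 - E) f x * (1 - E') f x := by
  have hP : (1 - E) * (1 - E) = 1 - E := by
    simp only [mul_sub, sub_mul, one_mul, mul_one, EE]; abel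
  have hP' : (1 - E') * (1 - E') = 1 - E' := by
    simp only [mul_sub, sub_mul, one_mul, mul_one, EE']; abel
  have sP : SA (1 - E) (1 - E) := SA.one.sub sE
  have sP' : SA (1 - E') (1 - E') := SA.one.sub sE'
  have hc' : (1 - E) ((1 - E') f) = (1 - E') ((1 - E) f) := by
    simp only [LinearMap.sub_apply, Module.End.one_apply, map_sub, hc]
    abel
  have hPP : ∀ g, (1 - E) ((1 - E) g) = (1 - E) g := fun g =>
    congrArg (fun L : Module.End ℝ (X → ℝ) => L g) hP
  have hPP' : ∀ g, (1 - E') ((1 - E') g) = (1 - E') g := fun g =>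
    congrArg (fun L : Module.End ℝ (X → ℝ) => L g) hP'
  have : ∑ x, (1 - E) f x * (1 - E') f x =
      ∑ x, (1 - E') ((1 - E) f) x * (1 - E') ((1 - E) f) x := by
    calc ∑ x, (1 - E) f x * (1 - E') f x
        = ∑ x, (1 - E) ((1 - E) f) x * (1 - E') f x := by rw [hPP]
      _ = ∑ x, (1 - E) f x * (1 - E) ((1 - E') f) x := sP _ _
      _ = ∑ x, (1 - E) f x * (1 - E') ((1 - E') ((1 - E) f)) x := by rw [hc', hPP']
      _ = _ := (sP' _ _).symm
  rw [this]
  exact Finset.sum_nonneg fun x _ => mul_self_nonneg _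

/-- the averaging operator as a linear map -/
noncomputable def avgL (r : X → X → Prop) : Module.End ℝ (X → ℝ) where
  toFun f := avg r f
  map_add' f g := by
    have := avg_add (r := r) f g
    exact this
  map_smul' c f := by
    have := avg_smul (r := r) c f
    exact this

@[simp] theorem avgL_apply (r : X → X → Prop) (f : X → ℝ) : avgL r f = avg r f := rfl

theorem avgL_SA {r : X → X → Prop} (hr : Equivalence r) : SA (avgL r) (avgL r) := by
  intro g h
  exact sum_avg_mul hr g h

theorem avgL_mul_self {r : X → X → Prop} (hr : Equivalence r) : avgL r * avgL r = avgL r := by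
  apply LinearMap.ext
  intro f
  exact avg_idem hr f

end Abs

end Crest.Agent.SwC
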