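import Crest.Agent.SwC_Comm
import Crest.Agent.SwC_DisjAbs

/-!
The inequality for disjoint pairs (S0453, task SwC-5).
-/

set_option autoImplicit false
set_option linter.unusedSectionVars false

open Finset

namespace Crest.Agent.SwC

section Graph

variable {V : Type*} [Fintype V] {d : V → ℤ}

theorem relF_split {u w x y : V} {G H : Rz d} (h : relF u w x y G H) :
    split u w x y G ↔ split u w x y H := by
  obtain ⟨-, h1, h2, h3, h4⟩ := h
  unfold split
  rw [h1, h2, h3, h4]

theorem relF_split' {u w x y : V} {G H : Rz d} (h : relF x y u w G H) :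
    split u w x y G ↔ split u w x y H := by
  rw [split_flip u w x y G, split_flip u w x y H]
  exact relF_split h

theorem relF_swt {u w x y : V} {G H : Rz d} (h : relF u w x y G H) :
    relF u w x y (swt u w x y G) (swt u w x y H) := by
  by_cases hG : split u w x y G
  · have hH := (relF_split h).1 hG
    refine ⟨?_, ?_⟩
    · exact (rel_equiv u w).trans ((rel_equiv u w).symm (rel_swt u w x y G))
        ((rel_equiv u w).trans h.1 (rel_swt u w x y H))
    · obtain ⟨e1, e2, e3, e4⟩ := swt_vals hG
      obtain ⟨f1, f2, f3, f4⟩ := swt_vals hH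
      obtain ⟨-, h1, h2, h3, h4⟩ := h
      rw [e1, e2, e3, e4, f1, f2, f3, f4, h1, h2, h3, h4]
      exact ⟨rfl, rfl, rfl, rfl⟩
  · have hH : ¬ split u w x y H := fun h' => hG ((relF_split h).2 h')
    rw [swt_of_not hG, swt_of_not hH]
    exact h

theorem relF_swt_iff {u w x y : V} {G H : Rz d} :
    relF u w x y G H ↔ relF u w x y (swt u w x y G) (swt u w x y H) := by
  refine ⟨relF_swt, fun h => ?_⟩
  have := relF_swt h
  rwa [swt_swt, swt_swt] at this

theorem relF_swt_iff' {u w x y : V} {G H : Rz d} :
    relF x y u w G H ↔ relF x y u w (swt u w x y G) (swt u w x y H) := by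
  rw [swt_flip u w x y G, swt_flip u w x y H]
  exact relF_swt_iff

theorem avg_swt (u w x y : V) (f : Rz d → ℝ) (G : Rz d) :
    avg (relF u w x y) (fun H => f (swt u w x y H)) G = avg (relF u w x y) f (swt u w x y G) :=
  avg_comp_equiv (swtE u w x y) (fun _ _ => relF_swt_iff) f G

theorem avg_swt' (u w x y : V) (f : Rz d → ℝ) (G : Rz d) :
    avg (relF x y u w) (fun H => f (swt u w x y H)) G = avg (relF x y u w) f (swt u w x y G) :=
  avg_comp_equiv (swtE u w x y) (fun _ _ => relF_swt_iff') f G

theorem avg_rel_swt (u w x y : V) (f : Rz d → ℝ) (G : Rz d) :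
    avg (rel u w) f (swt u w x y G) = avg (rel u w) f G :=
  (avg_eq (rel_equiv u w) f (rel_swt u w x y G)).symm

theorem avg_rel_swt' (u w x y : V) (f : Rz d → ℝ) (G : Rz d) :
    avg (rel x y) f (swt u w x y G) = avg (rel x y) f G :=
  (avg_eq (rel_equiv x y) f (rel_swt' u w x y G)).symm

/-- `avg (relS u w x y)` at split states. -/
theorem avg_relS {u w x y : V} (f : Rz d → ℝ) {G : Rz d} (hG : split u w x y G) :
    avg (relS u w x y) f G =
      (avg (relF u w x y) f G + avg (relF u w x y) f (swt u w x y G)) / 2 := by
  classical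
  have hb : blk (relS u w x y) G =
      blk (relF u w x y) G ∪ blk (relF u w x y) (swt u w x y G) := by
    ext H
    simp only [Finset.mem_union, mem_blk]
    constructor
    · rintro ⟨h1, h2⟩
      have hH := h2.1 hG
      obtain ⟨e1, e2, e3, e4⟩ := swt_vals hG
      have hr := (rel_equiv u w).trans ((rel_equiv u w).symm (rel_swt u w x y G)) h1
      rcases hG.2 with ⟨a1, a2, a3, a4⟩ | ⟨a1, a2, a3, a4⟩ <;>
      rcases hH.2 with ⟨b1, b2, b3, b4⟩ | ⟨b1, b2, b3, b4⟩
      · left; exact ⟨h1, by omega, by omega, by omega, by omega⟩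
      · right; exact ⟨hr, by omega, by omega, by omega, by omega⟩
      · right; exact ⟨hr, by omega, by omega, by omega, by omega⟩
      · left; exact ⟨h1, by omega, by omega, by omega, by omega⟩
    · rintro (h | h)
      · exact ⟨h.1, relF_split h⟩
      · refine ⟨(rel_equiv u w).trans (rel_swt u w x y G) h.1, ?_⟩
        rw [← relF_split h]
        exact split_swt_iff.symm
  have hd : Disjoint (blk (relF u w x y) G) (blk (relF u w x y) (swt u w x y G)) := by
    rw [Finset.disjoint_left]
    intro H h1 h2
    rw [mem_blk] at h1 h2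
    obtain ⟨e1, e2, e3, e4⟩ := swt_vals hG
    have := h1.2.1
    have := h2.2.1
    rcases hG.2 with ⟨a1, a2, a3, a4⟩ | ⟨a1, a2, a3, a4⟩ <;> omega
  have hc : (blk (relF u w x y) (swt u w x y G)).card = (blk (relF u w x y) G).card := by
    have : blk (relF u w x y) (swt u w x y G) =
        (blk (relF u w x y) G).map (swtE u w x y).toEmbedding := by
      ext H
      simp only [mem_blk, Finset.mem_map_equiv]
      rw [relF_swt_iff (G := G)]
      show _ ↔ relF u w x y _ (swt u w x y (swt u w x y H))
      rw [swt_swt]
    rw [this, Finset.card_map]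
  unfold avg
  rw [hb, Finset.sum_union hd, Finset.card_union_of_disjoint hd, hc]
  have h0 := blk_card_pos' (relF_equiv (d := d) u w x y) G
  push_cast
  field_simp
  ring

/-- the antisymmetrisation over the switch, on split states -/
noncomputable def swT (u w x y : V) : Module.End ℝ (Rz d → ℝ) where
  toFun g := fun G => open scoped Classical in
    if split u w x y G then g G - g (swt u w x y G) else 0
  map_add' f g := by
    funext G
    by_cases h : split u w x y G
    · simp only [h, if_true, Pi.add_apply]; ring
    · simp [h]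
  map_smul' c f := by
    funext G
    by_cases h : split u w x y G
    · simp only [h, if_true, Pi.smul_apply, smul_eq_mul, RingHom.id_apply]; ring
    · simp [h]

theorem swT_pos {u w x y : V} (g : Rz d → ℝ) {G : Rz d} (h : split u w x y G) :
    swT u w x y g G = g G - g (swt u w x y G) := by
  classical
  show (if split u w x y G then g G - g (swt u w x y G) else 0) = _
  rw [if_pos h]

theorem swT_neg {u w x y : V} (g : Rz d → ℝ) {G : Rz d} (h : ¬ split u w x y G) :
    swT u w x y g G = 0 := by
  classical
  show (if split u w x y G then g G - g (swt u w x y G) else 0) = _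
  rw [if_neg h]

theorem swT_eq {u w x y : V} (g : Rz d → ℝ) (G : Rz d) :
    swT u w x y g G = g G - g (swt u w x y G) := by
  by_cases h : split u w x y G
  · exact swT_pos g h
  · rw [swT_neg g h, swt_of_not h, sub_self]

theorem swT_comm {u w x y : V} : avgL (relF u w x y) * swT (d := d) u w x y =
    swT u w x y * avgL (relF u w x y) := by
  apply LinearMap.ext
  intro g
  funext G
  show avg (relF u w x y) (swT u w x y g) G = swT u w x y (avg (relF u w x y) g) G
  rw [swT_eq, ← avg_swt]
  have : swT u w x y g = fun H => g H - g (swt u w x y H) := funext fun H => swT_eq g H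
  rw [this, avg_sub]

theorem swT_comm' {u w x y : V} : avgL (relF x y u w) * swT (d := d) u w x y =
    swT u w x y * avgL (relF x y u w) := by
  apply LinearMap.ext
  intro g
  funext G
  show avg (relF x y u w) (swT u w x y g) G = swT u w x y (avg (relF x y u w) g) G
  rw [swT_eq, ← avg_swt']
  have : swT u w x y g = fun H => g H - g (swt u w x y H) := funext fun H => swT_eq g H
  rw [this, avg_sub]

theorem swT_avg {u w x y : V} : swT (d := d) u w x y * avgL (rel u w) = 0 := by
  apply LinearMap.ext
  intro g
  funext G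
  show swT u w x y (avg (rel u w) g) G = 0
  rw [swT_eq, avg_rel_swt, sub_self]

theorem swT_avg' {u w x y : V} : swT (d := d) u w x y * avgL (rel x y) = 0 := by
  apply LinearMap.ext
  intro g
  funext G
  show swT u w x y (avg (rel x y) g) G = 0
  rw [swT_eq, avg_rel_swt', sub_self]

theorem swT_le {u w x y : V} (g : Rz d → ℝ) :
    ∑ G, swT u w x y g G * swT u w x y g G ≤ 4 * ∑ G, g G * g G := by
  have h1 : ∑ G, g (swt u w x y G) * g (swt u w x y G) = ∑ G, g G * g G :=
    Equiv.sum_comp (swtE u w x y) (fun G => g G * g G)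
  have h2 : ∑ G, swT u w x y g G * swT u w x y g G ≤
      ∑ G, (2 * (g G * g G) + 2 * (g (swt u w x y G) * g (swt u w x y G))) := by
    refine Finset.sum_le_sum fun G _ => ?_
    rw [swT_eq]
    nlinarith [sq_nonneg (g G + g (swt u w x y G))]
  rw [Finset.sum_add_distrib, ← Finset.mul_sum, ← Finset.mul_sum, h1] at h2
  linarith

/-- number of edges in the square `{u,w} × {x,y}` -/
def sqn (u w x y : V) (G : Rz d) : ℤ := G u x + G u y + G w x + G w y

theorem sqn_rel {u w x y : V} (hd : Dist4 u w x y) {G H : Rz d} (h : rel u w G H) :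
    sqn u w x y H = sqn u w x y G := by
  obtain ⟨huw, hxy, hux, huy, hwx, hwy⟩ := hd
  have h1 := h.2.2 x hux.symm hwx.symm
  have h2 := h.2.2 y huy.symm hwy.symm
  unfold sqn; omega

theorem sqn_rel' {u w x y : V} (hd : Dist4 u w x y) {G H : Rz d} (h : rel x y G H) :
    sqn u w x y H = sqn u w x y G := by
  have := sqn_rel hd.flip h
  unfold sqn at *
  rw [G.symm x u, G.symm x w, G.symm y u, G.symm y w, H.symm x u, H.symm x w, H.symm y u,
    H.symm y w] at this
  omega

theorem sqn_split {u w x y : V} {G : Rz d} (h : split u w x y G) : sqn u w x y G = 2 := by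
  unfold sqn
  rcases h.2 with h | h <;> omega

/-- part 1: the states with number of edges of the square `≠ 2` -/
theorem part_ne {u w x y : V} (hd : Dist4 u w x y) (g : Rz d → ℝ) :
    0 ≤ ∑ G, (open scoped Classical in
      if sqn u w x y G ≠ 2 then dif (rel u w) g G * dif (rel x y) g G else 0) := by
  classical
  set c : Rz d → ℝ := fun G => if sqn u w x y G ≠ 2 then 1 else 0 with hc
  have cr : ∀ G H : Rz d, rel u w G H → c H = c G := by
    intro G H h; simp only [hc, sqn_rel hd h]
  have cr' : ∀ G H : Rz d, rel x y G H → c H = c G := by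
    intro G H h; simp only [hc, sqn_rel' hd h]
  have e1 : ∀ f : Rz d → ℝ, avg (rel u w) (fun G => c G * f G) =
      fun G => c G * avg (rel u w) f G := fun f =>
    funext fun G => avg_mul_inv (rel_equiv u w) (fun H hH => cr G H hH)
  have e2 : ∀ f : Rz d → ℝ, avg (rel x y) (fun G => c G * f G) =
      fun G => c G * avg (rel x y) f G := fun f =>
    funext fun G => avg_mul_inv (rel_equiv x y) (fun H hH => cr' G H hH)
  have key := abs_comm (avgL (rel (d := d) u w)) (avgL (rel x y)) (avgL_SA (rel_equiv u w))
    (avgL_SA (rel_equiv x y)) (avgL_mul_self (rel_equiv u w)) (avgL_mul_self (rel_equiv x y))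
    (fun G => c G * g G) (by
      simp only [avgL_apply]
      rw [e2, e1, e1, e2]
      funext G
      by_cases h : sqn u w x y G ≠ 2
      · rw [comm_RR hd g G h]
      · have : c G = 0 := by simp only [hc]; rw [if_neg h]
        simp only [this, zero_mul])
  refine key.trans_eq (Finset.sum_congr rfl fun G _ => ?_)
  show ((fun G => c G * g G) G - avg (rel u w) (fun G => c G * g G) G) *
    ((fun G => c G * g G) G - avg (rel x y) (fun G => c G * g G) G) = _
  rw [e1, e2]
  simp only [dif]
  by_cases h : sqn u w x y G ≠ 2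
  · have : c G = 1 := by simp only [hc]; rw [if_pos h]
    rw [this, if_pos h]; ring
  · have : c G = 0 := by simp only [hc]; rw [if_neg h]
    rw [this, if_neg h]; ring

/-- part 2: nonsplit states with 2 edges -/
theorem part_two {u w x y : V} (hd : Dist4 u w x y) (g : Rz d → ℝ)
    (h1 : avg (relF u w x y) g = g) (h2 : avg (relF x y u w) g = g) {G : Rz d}
    (hG : sqn u w x y G = 2) (hs : ¬ split u w x y G) :
    dif (rel u w) g G * dif (rel x y) g G = 0 := by
  obtain ⟨huw, hxy, hux, huy, hwx, hwy⟩ := hd
  have hd : Dist4 u w x y := ⟨huw, hxy, hux, huy, hwx, hwy⟩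
  unfold sqn at hG
  have hs' : ¬ ((G u x = 1 ∧ G w y = 1 ∧ G u y = 0 ∧ G w x = 0) ∨
      (G u x = 0 ∧ G w y = 0 ∧ G u y = 1 ∧ G w x = 1)) := fun h => hs ⟨hd, h⟩
  have inv1 : ∀ H, relF u w x y G H → g H = g G := by
    intro H hH
    rw [← h1]
    exact (avg_eq (relF_equiv u w x y) g hH).symm
  have inv2 : ∀ H, relF x y u w G H → g H = g G := by
    intro H hH
    rw [← h2]
    exact (avg_eq (relF_equiv x y u w) g hH).symm
  -- either the columns are constant or the rows are constant
  by_cases hcol : G u x = G w x
  · -- columns constant: `D g = 0`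
    have : dif (rel u w) g G = 0 := by
      unfold dif
      rw [avg_of_inv (rel_equiv u w), sub_self]
      intro H hH
      apply inv1
      refine ⟨hH, ?_⟩
      have a1 := hH.2.2 x hux.symm hwx.symm
      have a2 := hH.2.2 y huy.symm hwy.symm
      have b1 := G.zo u x
      have b2 := G.zo u y
      have b3 := G.zo w x
      have b4 := G.zo w y
      have c1 := H.zo u x
      have c2 := H.zo u y
      have c3 := H.zo w x
      have c4 := H.zo w y
      refine ⟨?_, ?_, ?_, ?_⟩ <;> omega
    rw [this, zero_mul]
  · have : dif (rel x y) g G = 0 := by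
      unfold dif
      rw [avg_of_inv (rel_equiv x y), sub_self]
      intro H hH
      apply inv2
      refine ⟨hH, ?_⟩
      have a1 := hH.2.2 u hux huy
      have a2 := hH.2.2 w hwx hwy
      rw [G.symm x u, G.symm y u, H.symm x u, H.symm y u] at a1
      rw [G.symm x w, G.symm y w, H.symm x w, H.symm y w] at a2
      rw [G.symm x u, G.symm y u, H.symm x u, H.symm y u, G.symm x w, G.symm y w, H.symm x w,
        H.symm y w]
      have b1 := G.zo u x
      have b2 := G.zo u y
      have b3 := G.zo w x
      have b4 := G.zo w y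
      have c1 := H.zo u x
      have c2 := H.zo u y
      have c3 := H.zo w x
      have c4 := H.zo w y
      refine ⟨?_, ?_, ?_, ?_⟩ <;> omega
    rw [this, mul_zero]

/-- `fb - m = A' (tt)` at split states -/
theorem fb_sub {u w x y : V} (hd : Dist4 u w x y) (f : Rz d → ℝ) {G : Rz d}
    (hG : split u w x y G) :
    (avg (relF u w x y) (avg (relF x y u w) f) G +
      avg (relF u w x y) (avg (relF x y u w) f) (swt u w x y G)) / 2 -
      avg (rel u w) (avg (relF u w x y) (avg (relF x y u w) f)) G =
    avg (relF x y u w) (tt u w x y f) G := by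
  have e1 : avg (rel u w) (avg (relF u w x y) (avg (relF x y u w) f)) =
      avg (relF x y u w) (avg (rel u w) f) := by
    rw [avg_avg_of_le (relF_equiv u w x y) (rel_equiv u w) (fun _ _ h => h.1)]
    exact comm_RF hd f
  rw [e1, comm_FF hd, ← avg_swt']
  have e2 : avg (relF x y u w) (tt u w x y f) G =
      avg (relF x y u w) (fun H => (1 / 2 : ℝ) * (avg (relF u w x y) f H +
        avg (relF u w x y) f (swt u w x y H)) - avg (rel u w) f H) G := by
    apply avg_congr
    intro H hH
    have hs := (relF_split' hH).1 hG
    unfold tt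
    rw [avg_relS f hs]
    ring
  rw [e2, avg_sub, avg_smul, avg_add]
  ring

theorem fb_sub' {u w x y : V} (hd : Dist4 u w x y) (f : Rz d → ℝ) {G : Rz d}
    (hG : split u w x y G) :
    (avg (relF u w x y) (avg (relF x y u w) f) G +
      avg (relF u w x y) (avg (relF x y u w) f) (swt u w x y G)) / 2 -
      avg (rel x y) (avg (relF u w x y) (avg (relF x y u w) f)) G =
    avg (relF u w x y) (tt x y u w f) G := by
  rw [comm_FF hd, swt_flip]
  exact fb_sub hd.flip f ((split_flip _ _ _ _ _).1 hG)

theorem jensen_split {u w x y : V} (r : Rz d → Rz d → Prop) (hr : Equivalence r)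
    (hs : ∀ G H, r G H → (split u w x y G ↔ split u w x y H)) (t : Rz d → ℝ) :
    ∑ G, (open scoped Classical in if split u w x y G then (avg r t G) ^ 2 else 0) ≤
      ∑ G, (open scoped Classical in if split u w x y G then (t G) ^ 2 else 0) := by
  classical
  set c : Rz d → ℝ := fun G => if split u w x y G then 1 else 0 with hc
  have cr : ∀ G H : Rz d, r G H → c H = c G := by
    intro G H h
    simp only [hc]
    by_cases hG : split u w x y G
    · rw [if_pos hG, if_pos ((hs G H h).1 hG)]
    · rw [if_neg hG, if_neg (fun h' => hG ((hs G H h).2 h'))]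
  have e1 : avg r (fun G => c G * t G) = fun G => c G * avg r t G :=
    funext fun G => avg_mul_inv hr (fun H hH => cr G H hH)
  have := sum_avg_sq_le hr (fun G => c G * t G)
  rw [e1] at this
  have l1 : ∀ s : Rz d → ℝ, ∑ G, (c G * s G) ^ 2 =
      ∑ G, (if split u w x y G then (s G) ^ 2 else 0) := by
    intro s
    refine Finset.sum_congr rfl fun G _ => ?_
    simp only [hc]
    split_ifs <;> simp
  rw [l1, l1] at this
  exact this

theorem part_split {u w x y : V} (hd : Dist4 u w x y) (f : Rz d → ℝ) (g : Rz d → ℝ)
    (hg : g = avg (relF u w x y) (avg (relF x y u w) f)) :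
    (1 / 4 : ℝ) * ∑ G, swT u w x y g G * swT u w x y g G
      - (1 / 2 : ℝ) * ∑ G, (open scoped Classical in
        if split u w x y G then (tt u w x y f G) ^ 2 + (tt x y u w f G) ^ 2 else 0)
      ≤ ∑ G, (open scoped Classical in
        if split u w x y G then dif (rel u w) g G * dif (rel x y) g G else 0) := by
  classical
  have j1 := jensen_split (u := u) (w := w) (x := x) (y := y) (relF x y u w)
    (relF_equiv x y u w) (fun G H h => relF_split' h) (tt u w x y f)
  have j2 := jensen_split (u := u) (w := w) (x := x) (y := y) (relF u w x y)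
    (relF_equiv u w x y) (fun G H h => relF_split h) (tt x y u w f)
  have sym : ∀ F : Rz d → ℝ, ∑ G, F G = (1 / 2 : ℝ) * ∑ G, (F G + F (swt u w x y G)) := by
    intro F
    have : ∑ G, F (swt u w x y G) = ∑ G, F G := Equiv.sum_comp (swtE u w x y) F
    rw [Finset.sum_add_distrib, this]; ring
  have e1 : ∑ G, (if split u w x y G then (tt u w x y f G) ^ 2 + (tt x y u w f G) ^ 2 else 0) =
      ∑ G, (if split u w x y G then (tt u w x y f G) ^ 2 else 0) +
      ∑ G, (if split u w x y G then (tt x y u w f G) ^ 2 else 0) := by
    rw [← Finset.sum_add_distrib]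
    refine Finset.sum_congr rfl fun G _ => ?_
    split_ifs <;> simp
  rw [e1, sym (fun G => if split u w x y G then dif (rel u w) g G * dif (rel x y) g G else 0)]
  have key : (1 / 4 : ℝ) * ∑ G, swT u w x y g G * swT u w x y g G
      - (1 / 2 : ℝ) * (∑ G, (if split u w x y G then
          (avg (relF x y u w) (tt u w x y f) G) ^ 2 else 0) +
        ∑ G, (if split u w x y G then (avg (relF u w x y) (tt x y u w f) G) ^ 2 else 0))
      ≤ (1 / 2 : ℝ) * ∑ G, ((if split u w x y G then dif (rel u w) g G * dif (rel x y) g G else 0)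
        + (if split u w x y (swt u w x y G) then dif (rel u w) g (swt u w x y G) *
          dif (rel x y) g (swt u w x y G) else 0)) := by
    rw [← Finset.sum_add_distrib, Finset.mul_sum, Finset.mul_sum, Finset.mul_sum,
      ← Finset.sum_sub_distrib]
    refine Finset.sum_le_sum fun G _ => ?_
    by_cases h : split u w x y G
    · rw [if_pos h, if_pos h, if_pos h, if_pos (split_swt h), swT_pos g h]
      have f1 := fb_sub hd f h
      have f2 := fb_sub' hd f h
      rw [← hg] at f1 f2
      rw [← f1, ← f2]
      simp only [dif, avg_rel_swt, avg_rel_swt']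
      set p := g G
      set q := g (swt u w x y G)
      set m := avg (rel u w) g G
      set m' := avg (rel x y) g G
      nlinarith [sq_nonneg (((p + q) / 2 - m) + ((p + q) / 2 - m'))]
    · have h' : ¬ split u w x y (swt u w x y G) := fun h' => h (split_swt_iff.1 h')
      rw [if_neg h, if_neg h, if_neg h, if_neg h', swT_neg g h]
      simp
  linarith

/-- TASK 5. -/
theorem disj_lower {u w x y : V} (h : Dist4 u w x y) (f : Rz d → ℝ) :
    (1 / 4 : ℝ) * ∑ G, (open scoped Classical in
        if split u w x y G then (f G - f (swt u w x y G)) ^ 2 else 0)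
      - (1 / 2 : ℝ) * ∑ G, (open scoped Classical in
        if split u w x y G then (tt u w x y f G) ^ 2 + (tt x y u w f G) ^ 2 else 0)
      ≤ ∑ G, dif (rel u w) f G * dif (rel x y) f G := by
  classical
  have rE := rel_equiv (d := d) u w
  have rE' := rel_equiv (d := d) x y
  have rA := relF_equiv (d := d) u w x y
  have rA' := relF_equiv (d := d) x y u w
  set g := avg (relF u w x y) (avg (relF x y u w) f) with hg
  have core := abs_core (avgL (rel (d := d) u w)) (avgL (rel x y)) (avgL (relF u w x y))
    (avgL (relF x y u w)) (swT u w x y) (avgL_SA rE) (avgL_SA rE') (avgL_SA rA) (avgL_SA rA')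
    (avgL_mul_self rE) (avgL_mul_self rE') (avgL_mul_self rA) (avgL_mul_self rA')
    (LinearMap.ext fun f => avg_avg_of_le' rA rE (fun _ _ h => h.1) f)
    (LinearMap.ext fun f => avg_avg_of_le rA rE (fun _ _ h => h.1) f)
    (LinearMap.ext fun f => avg_avg_of_le' rA' rE' (fun _ _ h => h.1) f)
    (LinearMap.ext fun f => avg_avg_of_le rA' rE' (fun _ _ h => h.1) f)
    (LinearMap.ext fun f => (comm_FF h f).symm)
    (LinearMap.ext fun f => (comm_RF h f).symm)
    (LinearMap.ext fun f => comm_RF h.flip f)
    swT_comm swT_comm' swT_avg swT_avg' swT_le f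
  have e0 : ∀ k : Rz d → ℝ, ∑ G, (1 - avgL (rel u w)) k G * (1 - avgL (rel x y)) k G =
      ∑ G, dif (rel u w) k G * dif (rel x y) k G := fun k => rfl
  simp only [avgL_apply] at core
  rw [← hg, e0, e0] at core
  have e1 : ∑ G, (if split u w x y G then (f G - f (swt u w x y G)) ^ 2 else 0) =
      ∑ G, swT u w x y f G * swT u w x y f G := by
    refine Finset.sum_congr rfl fun G _ => ?_
    by_cases hs : split u w x y G
    · rw [if_pos hs, swT_pos f hs, sq]
    · rw [if_neg hs, swT_neg f hs, zero_mul]
  rw [e1]
  have hg1 : avg (relF u w x y) g = g := avg_idem rA _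
  have hg2 : avg (relF x y u w) g = g := by
    rw [hg, comm_FF h]; exact avg_idem rA' _
  have p1 := part_ne h g
  have p2 := part_split h f g hg
  have e2 : ∑ G, dif (rel u w) g G * dif (rel x y) g G =
      ∑ G, (if sqn u w x y G ≠ 2 then dif (rel u w) g G * dif (rel x y) g G else 0) +
      ∑ G, (if split u w x y G then dif (rel u w) g G * dif (rel x y) g G else 0) := by
    rw [← Finset.sum_add_distrib]
    refine Finset.sum_congr rfl fun G _ => ?_
    by_cases hs : split u w x y G
    · rw [if_pos hs, if_neg (not_not.2 (sqn_split hs)), zero_add]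
    · rw [if_neg hs, add_zero]
      by_cases h2 : sqn u w x y G ≠ 2
      · rw [if_pos h2]
      · rw [if_neg h2]
        exact part_two h g hg1 hg2 (not_not.1 h2) hs
  rw [e2] at core
  linarith

end Graph

end Crest.Agent.SwC
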