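import Mathlib

/-!
Spectral lemmas for symmetric operators on `X → ℝ`.
-/

set_option autoImplicit false

open Finset

namespace Crest.Agent.SwC

section Spec

variable {X : Type*} [Fintype X]

/-- If every eigenvalue `s` of the symmetric operator `T` satisfies `0 ≤ a s² + b s + c`, then
`0 ≤ a ‖T f‖² + b ⟨f, T f⟩ + c ‖f‖²` for all `f`. -/
theorem eig_quad (T : (X → ℝ) →ₗ[ℝ] (X → ℝ))
    (hT : ∀ f g : X → ℝ, ∑ x, T f x * g x = ∑ x, f x * T g x) (a b c : ℝ)
    (h : ∀ (f : X → ℝ) (s : ℝ), f ≠ 0 → T f = s • f → 0 ≤ a * s ^ 2 + b * s + c)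
    (f : X → ℝ) :
    0 ≤ a * ∑ x, (T f x) ^ 2 + b * ∑ x, f x * T f x + c * ∑ x, f x ^ 2 := by
  classical
  let e : EuclideanSpace ℝ X ≃ₗ[ℝ] (X → ℝ) := (WithLp.linearEquiv 2 ℝ (X → ℝ))
  let T' : EuclideanSpace ℝ X →ₗ[ℝ] EuclideanSpace ℝ X := e.symm.toLinearMap ∘ₗ T ∘ₗ e.toLinearMap
  have hin : ∀ u v : EuclideanSpace ℝ X, inner ℝ u v = ∑ x, e u x * e v x := by
    intro u v
    rw [PiLp.inner_apply]
    refine Finset.sum_congr rfl fun x _ => ?_
    simp [e, mul_comm]
  have heT : ∀ u, e (T' u) = T (e u) := by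
    intro u
    simp [T']
  have hsym : T'.IsSymmetric := by
    intro u v
    rw [hin, hin, heT, heT]
    exact hT _ _
  have hn : Module.finrank ℝ (EuclideanSpace ℝ X) = Fintype.card X := by simp
  set bs := hsym.eigenvectorBasis hn with hbs
  set ev := hsym.eigenvalues hn with hev
  have happ : ∀ i, T' (bs i) = ev i • bs i := fun i =>
    hsym.apply_eigenvectorBasis hn i
  have hev0 : ∀ i, 0 ≤ a * (ev i) ^ 2 + b * (ev i) + c := by
    intro i
    apply h (e (bs i)) (ev i)
    · intro h0
      have : bs i = 0 := by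
        apply e.injective; rw [h0, map_zero]
      have h1 := bs.orthonormal.1 i
      rw [this] at h1
      simp at h1
    · rw [← heT, happ, map_smul]
  set u := e.symm f with hu
  have hf : e u = f := by simp [hu]
  have hTu : e (T' u) = T f := by rw [heT, hf]
  have c1 : ∀ i, inner ℝ (bs i) (T' u) = ev i * inner ℝ (bs i) u := by
    intro i
    rw [← hsym, happ, inner_smul_left]
    simp
  have s1 : ∑ x, f x ^ 2 = ∑ i, (inner ℝ (bs i) u) ^ 2 := by
    have := bs.sum_inner_mul_inner u u
    rw [hin, hf] at this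
    simp_rw [sq]
    rw [← this]
    refine Finset.sum_congr rfl fun i _ => ?_
    rw [real_inner_comm]
  have s2 : ∑ x, f x * T f x = ∑ i, ev i * (inner ℝ (bs i) u) ^ 2 := by
    have := bs.sum_inner_mul_inner u (T' u)
    rw [hin, hf, hTu] at this
    rw [← this]
    refine Finset.sum_congr rfl fun i _ => ?_
    rw [c1, real_inner_comm]; ring
  have s3 : ∑ x, (T f x) ^ 2 = ∑ i, (ev i) ^ 2 * (inner ℝ (bs i) u) ^ 2 := by
    have := bs.sum_inner_mul_inner (T' u) (T' u)
    rw [hin, hTu] at this
    simp_rw [sq] at this ⊢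
    rw [← this]
    refine Finset.sum_congr rfl fun i _ => ?_
    rw [real_inner_comm, c1]; ring
  rw [s1, s2, s3, Finset.mul_sum, Finset.mul_sum, Finset.mul_sum, ← Finset.sum_add_distrib,
    ← Finset.sum_add_distrib]
  apply Finset.sum_nonneg
  intro i _
  have := mul_nonneg (hev0 i) (sq_nonneg (inner ℝ (bs i) u))
  linarith

/-- all eigenvalues nonnegative implies positive semidefinite. -/
theorem eig_psd (T : (X → ℝ) →ₗ[ℝ] (X → ℝ))
    (hT : ∀ f g : X → ℝ, ∑ x, T f x * g x = ∑ x, f x * T g x)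
    (h : ∀ (f : X → ℝ) (s : ℝ), f ≠ 0 → T f = s • f → 0 ≤ s) (f : X → ℝ) :
    0 ≤ ∑ x, f x * T f x := by
  have := eig_quad T hT 0 1 0 (fun f s hf hs => by simpa using h f s hf hs) f
  simpa using this

/-- all eigenvalues satisfy `c s ≤ s²` implies `c ⟨f, T f⟩ ≤ ‖T f‖²`. -/
theorem eig_sq (T : (X → ℝ) →ₗ[ℝ] (X → ℝ))
    (hT : ∀ f g : X → ℝ, ∑ x, T f x * g x = ∑ x, f x * T g x) (c : ℝ)
    (h : ∀ (f : X → ℝ) (s : ℝ), f ≠ 0 → T f = s • f → c * s ≤ s ^ 2) (f : X → ℝ) :
    c * ∑ x, f x * T f x ≤ ∑ x, (T f x) ^ 2 := by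
  have := eig_quad T hT 1 (-c) 0 (fun f s hf hs => by nlinarith [h f s hf hs]) f
  linarith

/-- Poincaré inequality from `c K ≤ K²`. -/
theorem poincare_of_sq (T : (X → ℝ) →ₗ[ℝ] (X → ℝ))
    (hT : ∀ f g : X → ℝ, ∑ x, T f x * g x = ∑ x, f x * T g x) (c : ℝ) (hc : 0 < c)
    (hpos : ∀ f : X → ℝ, 0 ≤ ∑ x, f x * T f x)
    (hsq : ∀ f : X → ℝ, c * ∑ x, f x * T f x ≤ ∑ x, (T f x) ^ 2)
    (hconst : ∀ k : ℝ, T (fun _ => k) = 0)
    (hker : ∀ f : X → ℝ, T f = 0 → ∀ x y, f x = f y) (f : X → ℝ) :
    c * ((Fintype.card X : ℝ) * ∑ x, f x ^ 2 - (∑ x, f x) ^ 2) ≤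
      (Fintype.card X : ℝ) * ∑ x, f x * T f x := by
  classical
  rcases isEmpty_or_nonempty X with hX | hX
  · simp
  set N : ℝ := (Fintype.card X : ℝ) with hN
  have hNpos : 0 < N := by
    rw [hN]; exact_mod_cast Fintype.card_pos
  -- T'' = N • T + c • (sum)
  let S : (X → ℝ) →ₗ[ℝ] (X → ℝ) :=
    { toFun := fun g => fun _ => ∑ x, g x
      map_add' := by intro g h; funext x; simp [Finset.sum_add_distrib]
      map_smul' := by intro k g; funext x; simp [Finset.mul_sum] }
  have hS : ∀ g x, S g x = ∑ y, g y := fun _ _ => rfl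
  have hTS : ∀ g, T (S g) = 0 := fun g => hconst _
  have hST : ∀ g, ∑ x, T g x = 0 := by
    intro g
    have := hT g (fun _ => 1)
    rw [hconst] at this
    simpa using this
  have key := eig_quad (N • T + c • S) (by
      intro f g
      simp only [LinearMap.add_apply, LinearMap.smul_apply, Pi.add_apply, Pi.smul_apply,
        smul_eq_mul, add_mul, mul_add, Finset.sum_add_distrib, hS]
      congr 1
      · simp_rw [mul_assoc, mul_left_comm _ N]
        rw [← Finset.mul_sum, ← Finset.mul_sum, hT]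
      · rw [← Finset.mul_sum, ← Finset.sum_mul]; ring) 0 1 (-(c * N)) (by
      intro g s hg hs
      -- ⟨g, T'' g⟩ ≥ 0 and ‖T'' g‖² ≥ cN ⟨g, T'' g⟩
      have hgpos : 0 < ∑ x, g x ^ 2 := by
        obtain ⟨x, hx⟩ := Function.ne_iff.1 hg
        have h1 : 0 < g x ^ 2 := by
          have : g x ≠ 0 := hx
          positivity
        exact lt_of_lt_of_le h1 (Finset.single_le_sum (f := fun x => g x ^ 2)
          (fun _ _ => sq_nonneg _) (Finset.mem_univ x))
      have e1 : ∀ x, N * T g x + c * ∑ y, g y = s * g x := by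
        intro x
        have := congrFun hs x
        simpa [hS] using this
      have q1 : N * ∑ x, g x * T g x + c * (∑ x, g x) ^ 2 = s * ∑ x, g x ^ 2 := by
        have : ∑ x, g x * (N * T g x + c * ∑ y, g y) = ∑ x, g x * (s * g x) :=
          Finset.sum_congr rfl fun x _ => by rw [e1 x]
        have l1 : ∑ x, g x * (N * T g x + c * ∑ y, g y) =
            N * ∑ x, g x * T g x + c * (∑ x, g x) ^ 2 := by
          simp_rw [mul_add, Finset.sum_add_distrib]
          congr 1
          · rw [Finset.mul_sum]; exact Finset.sum_congr rfl fun x _ => by ring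
          · rw [← Finset.sum_mul]; ring
        have l2 : ∑ x, g x * (s * g x) = s * ∑ x, g x ^ 2 := by
          rw [Finset.mul_sum]; exact Finset.sum_congr rfl fun x _ => by ring
        rw [← l1, ← l2, this]
      have q2 : N ^ 2 * ∑ x, (T g x) ^ 2 + N * (c * ∑ x, g x) ^ 2 = s ^ 2 * ∑ x, g x ^ 2 := by
        have : ∑ x, (N * T g x + c * ∑ y, g y) ^ 2 = ∑ x, (s * g x) ^ 2 :=
          Finset.sum_congr rfl fun x _ => by rw [e1 x]
        have l1 : ∑ x, (N * T g x + c * ∑ y, g y) ^ 2 =
            N ^ 2 * ∑ x, (T g x) ^ 2 + N * (c * ∑ x, g x) ^ 2 := by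
          have : ∀ x, (N * T g x + c * ∑ y, g y) ^ 2 = N ^ 2 * (T g x) ^ 2 +
              (2 * N * c * ∑ y, g y) * T g x + (c * ∑ y, g y) ^ 2 := fun x => by ring
          simp_rw [this, Finset.sum_add_distrib, ← Finset.mul_sum, hST]
          simp [hN]
        have l2 : ∑ x, (s * g x) ^ 2 = s ^ 2 * ∑ x, g x ^ 2 := by
          rw [Finset.mul_sum]; exact Finset.sum_congr rfl fun x _ => by ring
        rw [← l1, ← l2, this]
      have hA := hpos g
      have hB := hsq g
      set A := ∑ x, g x * T g x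
      set B := ∑ x, (T g x) ^ 2
      set Q := ∑ x, g x ^ 2
      set M := ∑ x, g x
      have hs0 : 0 ≤ s := by
        have : 0 ≤ s * Q := by rw [← q1]; positivity
        exact nonneg_of_mul_nonneg_left this hgpos
      have hs1 : (c * N) * (s * Q) ≤ s ^ 2 * Q := by
        rw [← q1, ← q2]
        nlinarith [mul_le_mul_of_nonneg_left hB (sq_nonneg N)]
      have hs2 : (c * N) * s ≤ s * s := by
        have : (c * N * s) * Q ≤ (s * s) * Q := by nlinarith
        exact le_of_mul_le_mul_right this hgpos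
      rcases hs0.eq_or_lt with h0 | h0
      · -- s = 0 : contradiction
        exfalso
        rw [← h0, zero_mul] at q1
        have hM : M = 0 := by
          have h1 : 0 ≤ N * A := by positivity
          have h2 : c * M ^ 2 ≤ 0 := by nlinarith
          have h3 : M ^ 2 ≤ 0 := by
            by_contra h
            push Not at h
            nlinarith [mul_pos hc h]
          nlinarith [sq_nonneg M, pow_eq_zero_iff (two_ne_zero) |>.1 (le_antisymm h3 (sq_nonneg M))]
        have hTg : T g = 0 := by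
          funext x
          have := e1 x
          rw [← h0] at this
          rw [hM] at this
          have : N * T g x = 0 := by linarith
          rcases mul_eq_zero.1 this with h | h
          · exact absurd h hNpos.ne'
          · simpa using h
        have hc' := hker g hTg
        apply hg
        funext x
        have : M = N * g x := by
          show ∑ y, g y = _
          rw [Finset.sum_congr rfl (fun y _ => hc' y x)]
          simp [hN]
        rw [hM] at this
        rcases mul_eq_zero.1 this.symm with h | h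
        · exact absurd h hNpos.ne'
        · simpa using h
      · have := le_of_mul_le_mul_right hs2 h0
        linarith) f
  simp only [LinearMap.add_apply, LinearMap.smul_apply, Pi.add_apply, Pi.smul_apply,
        smul_eq_mul, mul_add, Finset.sum_add_distrib, hS] at key
  have l1 : ∑ x, f x * (N * T f x) = N * ∑ x, f x * T f x := by
    rw [Finset.mul_sum]; exact Finset.sum_congr rfl fun x _ => by ring
  have l2 : ∑ x, f x * (c * ∑ y, f y) = c * (∑ x, f x) ^ 2 := by
    rw [← Finset.sum_mul]; ring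
  rw [l1, l2] at key
  nlinarith

end Spec

end Crest.Agent.SwC
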