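import Crest.Agent.SwC_Basic
import Crest.Agent.SwC_Spec

/-!
TASK 6: the Johnson inequality for one block `{u,w}` (maximum principle).
-/

set_option autoImplicit false
set_option linter.unusedSectionVars false

open Finset

namespace Crest.Agent.SwC

section John

variable {V : Type*} [Fintype V] {d : V → ℤ}

/-- ambiguous column of the block `{u,w}` -/
def amb (u w z : V) (G : Rz d) : Prop := z ≠ u ∧ z ≠ w ∧ G u z + G w z = 1

theorem amb_rel {u w z : V} {G H : Rz d} (h : rel u w G H) : amb u w z G ↔ amb u w z H := by
  unfold amb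
  constructor
  · rintro ⟨h1, h2, h3⟩; exact ⟨h1, h2, by rw [← h.2.2 z h1 h2]; exact h3⟩
  · rintro ⟨h1, h2, h3⟩; exact ⟨h1, h2, by rw [h.2.2 z h1 h2]; exact h3⟩

theorem split_iff {u w x y : V} (huw : u ≠ w) {G : Rz d} :
    split u w x y G ↔ amb u w x G ∧ amb u w y G ∧ G u x ≠ G u y := by
  constructor
  · rintro ⟨⟨_, hxy, hux, huy, hwx, hwy⟩, h⟩
    refine ⟨⟨hux.symm, hwx.symm, ?_⟩, ⟨huy.symm, hwy.symm, ?_⟩, ?_⟩ <;>
      rcases h with h | h <;> omega
  · rintro ⟨⟨h1, h2, h3⟩, ⟨h4, h5, h6⟩, h7⟩
    refine ⟨⟨huw, ?_, h1.symm, h4.symm, h2.symm, h5.symm⟩, ?_⟩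
    · rintro rfl; exact h7 rfl
    · rcases G.zo u x with a | a <;> rcases G.zo u y with b | b
      · exact absurd (a.trans b.symm) h7
      · right; omega
      · left; omega
      · exact absurd (a.trans b.symm) h7

theorem ext_rel {u w : V} {G H : Rz d} (h : rel u w G H) (hu : ∀ z, G u z = H u z) : G = H := by
  have hw : ∀ z, G w z = H w z := by
    intro z
    by_cases h1 : z = u
    · subst h1; rw [G.symm, H.symm]; exact hu w
    · by_cases h2 : z = w
      · subst h2; rw [G.diag, H.diag]
      · have := h.2.2 z h1 h2
        rw [hu z] at this; linarith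
  apply Rz.ext
  intro p q
  by_cases h1 : p = u
  · subst h1; exact hu q
  by_cases h2 : p = w
  · subst h2; exact hw q
  by_cases h3 : q = u
  · subst h3; rw [G.symm, H.symm]; exact hu p
  by_cases h4 : q = w
  · subst h4; rw [G.symm, H.symm]; exact hw p
  exact h.1 p q h1 h2 h3 h4

theorem swt_uw [DecidableEq V] {u w x y : V} (huw : u ≠ w) {G : Rz d} (hx : amb u w x G)
    (hy : amb u w y G) (z : V) :
    (swt u w x y G) u z = G u (Equiv.swap x y z) ∧
      (swt u w x y G) w z = G w (Equiv.swap x y z) := by
  obtain ⟨hx1, hx2, hx3⟩ := hx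
  obtain ⟨hy1, hy2, hy3⟩ := hy
  by_cases h : split u w x y G
  · obtain ⟨e1, e2, e3, e4⟩ := swt_vals h
    have hs : G u x + G u y = 1 := by rcases h.2 with h | h <;> omega
    by_cases hzx : z = x
    · subst hzx
      rw [Equiv.swap_apply_left, e1, e3]
      constructor <;> omega
    · by_cases hzy : z = y
      · subst hzy
        rw [Equiv.swap_apply_right, e2, e4]
        constructor <;> omega
      · rw [Equiv.swap_apply_of_ne_of_ne hzx hzy, swt_apply_neg h, swt_apply_neg h]
        · exact ⟨rfl, rfl⟩
        · unfold slot4
          rintro (⟨-, h1 | h1⟩ | ⟨h1 | h1, -⟩)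
          · exact hzx h1
          · exact hzy h1
          · exact hx2 h1.symm
          · exact hy2 h1.symm
        · unfold slot4
          rintro (⟨-, h1 | h1⟩ | ⟨h1 | h1, -⟩)
          · exact hzx h1
          · exact hzy h1
          · exact hx1 h1.symm
          · exact hy1 h1.symm
  · rw [swt_of_not h]
    have hxy : G u x = G u y := by
      by_contra hne
      exact h ((split_iff huw).2 ⟨⟨hx1, hx2, hx3⟩, ⟨hy1, hy2, hy3⟩, hne⟩)
    by_cases hzx : z = x
    · subst hzx
      rw [Equiv.swap_apply_left]
      constructor <;> omega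
    · by_cases hzy : z = y
      · subst hzy
        rw [Equiv.swap_apply_right]
        constructor <;> omega
      · rw [Equiv.swap_apply_of_ne_of_ne hzx hzy]
        exact ⟨rfl, rfl⟩

/-- connectivity of a block by switches -/
theorem blk_conn {u w : V} (huw : u ≠ w) (f : Rz d → ℝ)
    (hf : ∀ x y G, f (swt u w x y G) = f G) :
    ∀ (n : ℕ) (G H : Rz d), rel u w G H →
      (open scoped Classical in (univ.filter fun z => G u z ≠ H u z).card) = n → f G = f H := by
  classical
  intro n
  induction n using Nat.strong_induction_on with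
  | _ n ih =>
    intro G H hGH hn
    by_cases hall : ∀ z, G u z = H u z
    · rw [ext_rel hGH hall]
    · push Not at hall
      -- there are x with G u x = 1, H u x = 0 and y the other way round
      have hdeg : ∑ z, (G u z - H u z) = 0 := by
        rw [Finset.sum_sub_distrib, G.deg, H.deg, sub_self]
      have hex : ∃ x, G u x = 1 ∧ H u x = 0 := by
        by_contra hno
        push Not at hno
        obtain ⟨z, hz⟩ := hall
        have : ∑ z, (G u z - H u z) < 0 := by
          apply Finset.sum_neg'
          · intro i _
            rcases G.zo u i with a | a <;> rcases H.zo u i with b | b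
            · omega
            · omega
            · exact absurd b (hno i a)
            · omega
          · refine ⟨z, mem_univ _, ?_⟩
            rcases G.zo u z with a | a <;> rcases H.zo u z with b | b
            · omega
            · omega
            · exact absurd b (hno z a)
            · omega
        omega
      have hey : ∃ y, G u y = 0 ∧ H u y = 1 := by
        by_contra hno
        push Not at hno
        obtain ⟨z, hz⟩ := hall
        have : 0 < ∑ z, (G u z - H u z) := by
          apply Finset.sum_pos'
          · intro i _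
            rcases G.zo u i with a | a <;> rcases H.zo u i with b | b
            · omega
            · exact absurd b (hno i a)
            · omega
            · omega
          · refine ⟨z, mem_univ _, ?_⟩
            rcases G.zo u z with a | a <;> rcases H.zo u z with b | b
            · omega
            · exact absurd b (hno z a)
            · omega
            · omega
        omega
      obtain ⟨x, hx1, hx0⟩ := hex
      obtain ⟨y, hy0, hy1⟩ := hey
      have hxu : x ≠ u := by rintro rfl; rw [G.diag] at hx1; omega
      have hyu : y ≠ u := by rintro rfl; rw [H.diag] at hy1; omega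
      have hxw : x ≠ w := by rintro rfl; rw [hGH.2.1] at hx1; omega
      have hyw : y ≠ w := by rintro rfl; rw [hGH.2.1] at hy0; omega
      have hxs := hGH.2.2 x hxu hxw
      have hys := hGH.2.2 y hyu hyw
      have ax : amb u w x G := by
        refine ⟨hxu, hxw, ?_⟩
        rcases G.zo w x with a | a <;> rcases H.zo w x with b | b <;> omega
      have ay : amb u w y G := by
        refine ⟨hyu, hyw, ?_⟩
        rcases G.zo w y with a | a <;> rcases H.zo w y with b | b <;> omega
      have hstep : rel u w (swt u w x y G) H :=
        (rel_equiv u w).trans ((rel_equiv u w).symm (rel_swt u w x y G)) hGH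
      have hlt : (univ.filter fun z => (swt u w x y G) u z ≠ H u z).card < n := by
        rw [← hn]
        apply Finset.card_lt_card
        rw [Finset.ssubset_iff_of_subset]
        · refine ⟨x, by simp; omega, ?_⟩
          simp only [mem_filter, mem_univ, true_and, not_not]
          rw [(swt_uw huw ax ay x).1, Equiv.swap_apply_left]
          omega
        · intro z hz
          simp only [mem_filter, mem_univ, true_and] at hz ⊢
          rw [(swt_uw huw ax ay z).1] at hz
          by_cases hzx : z = x
          · subst hzx; omega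
          · by_cases hzy : z = y
            · subst hzy; omega
            · rwa [Equiv.swap_apply_of_ne_of_ne hzx hzy] at hz
      rw [← hf x y G]
      exact ih _ hlt _ _ hstep rfl

theorem relS_swt (u w x b : V) (H : Rz d) : relS u w x b H (swt u w x b H) :=
  ⟨rel_swt u w x b H, split_swt_iff.symm⟩

theorem relS_swap (u w x y : V) : relS (d := d) u w x y = relS u w y x := by
  funext G H
  unfold relS
  rw [split_swap2 u w x y G, split_swap2 u w x y H]

/-- transposition lemma for the averages over split parts -/
theorem avg_transp {u w x y b : V} (huw : u ≠ w) (f : Rz d → ℝ) {G : Rz d}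
    (hxy : split u w x y G) (hxb : split u w x b G) (hby : b ≠ y) :
    avg (relS u w y b) f (swt u w x y G) = avg (relS u w x b) (fun H => f (swt u w x y H)) G := by
  classical
  have ax := ((split_iff huw).1 hxy).1
  have ay := ((split_iff huw).1 hxy).2.1
  have ab := ((split_iff huw).1 hxb).2.1
  have hbx : b ≠ x := hxb.1.2.1.symm
  -- split y b (swt H) ↔ split x b H in the class of G
  have key : ∀ H, rel u w G H → (split u w y b (swt u w x y H) ↔ split u w x b H) := by
    intro H hH
    have ax' := (amb_rel hH).1 ax
    have ay' := (amb_rel hH).1 ay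
    have ab' := (amb_rel hH).1 ab
    have hs := rel_swt u w x y H
    rw [split_iff huw, split_iff huw, (swt_uw huw ax' ay' y).1, (swt_uw huw ax' ay' b).1,
      Equiv.swap_apply_right, Equiv.swap_apply_of_ne_of_ne hbx hby]
    rw [← amb_rel hs, ← amb_rel hs]
    tauto
  have hG : split u w y b (swt u w x y G) := (key G ((rel_equiv u w).refl G)).2 hxb
  have hb : blk (relS u w y b) (swt u w x y G) =
      (blk (relS u w x b) G).map (swtE u w x y).toEmbedding := by
    ext H
    simp only [mem_blk, Finset.mem_map_equiv]
    have hsymm : (swtE u w x y).symm H = swt u w x y H := rfl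
    rw [hsymm]
    have e1 : rel u w (swt u w x y G) H ↔ rel u w G (swt u w x y H) := by
      constructor
      · intro h
        exact (rel_equiv u w).trans (rel_swt u w x y G) ((rel_equiv u w).trans h
          (rel_swt u w x y H))
      · intro h
        exact (rel_equiv u w).trans ((rel_equiv u w).symm (rel_swt u w x y G))
          ((rel_equiv u w).trans h ((rel_equiv u w).symm (rel_swt u w x y H)))
    unfold relS
    constructor
    · rintro ⟨h1, h2⟩
      refine ⟨e1.1 h1, ?_⟩
      have := key _ (e1.1 h1)
      rw [swt_swt] at this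
      tauto
    · rintro ⟨h1, h2⟩
      refine ⟨e1.2 h1, ?_⟩
      have := key _ h1
      rw [swt_swt] at this
      tauto
  unfold avg
  rw [hb, Finset.sum_map, Finset.card_map]
  rfl

/-- the `K/2` bound -/
theorem avg_half {u w x y b : V} (huw : u ≠ w) (f : Rz d → ℝ) {G : Rz d} (K : ℝ)
    (hK : ∀ H, |f H - f (swt u w x y H)| ≤ K)
    (hxy : split u w x y G) (hxb : split u w x b G) (hby : b ≠ y) :
    |avg (relS u w x b) f G - avg (relS u w y b) f (swt u w x y G)| ≤ K / 2 := by
  classical
  have ax := ((split_iff huw).1 hxy).1
  have ay := ((split_iff huw).1 hxy).2.1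
  have ab := ((split_iff huw).1 hxb).2.1
  have hbx : b ≠ x := hxb.1.2.1.symm
  have hK0 : 0 ≤ K := (abs_nonneg _).trans (hK G)
  rw [avg_transp huw f hxy hxb hby]
  set g : Rz d → ℝ := fun H => f H - f (swt u w x y H) with hg
  have e1 : avg (relS u w x b) f G - avg (relS u w x b) (fun H => f (swt u w x y H)) G =
      avg (relS u w x b) g G := by
    rw [hg, avg_sub]
  rw [e1]
  have hr := relS_equiv (d := d) u w x b
  have e2 : avg (relS u w x b) (fun H => g (swt u w x b H)) G = avg (relS u w x b) g G := by
    have h1 := avg_comp_equiv (r := relS (d := d) u w x b) (s := relS (d := d) u w x b)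
      (swtE u w x b) (fun H H' => by
        simp only [swtE_apply]
        constructor
        · intro h
          exact hr.trans (hr.symm (relS_swt u w x b H)) (hr.trans h (relS_swt u w x b H'))
        · intro h
          exact hr.trans (relS_swt u w x b H) (hr.trans h (hr.symm (relS_swt u w x b H')))) g G
    simp only [swtE_apply] at h1
    rw [h1]
    exact (avg_eq hr g (relS_swt u w x b G)).symm
  have e3 : avg (relS u w x b) g G =
      avg (relS u w x b) (fun H => (1 / 2 : ℝ) * (g H + g (swt u w x b H))) G := by
    rw [avg_smul, avg_add]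
    simp only [e2]
    ring
  rw [e3]
  apply abs_avg_le hr
  intro H hH
  have ax' := (amb_rel hH.1).1 ax
  have ay' := (amb_rel hH.1).1 ay
  have ab' := (amb_rel hH.1).1 ab
  have hs : split u w x b H := hH.2.1 hxb
  have hne := ((split_iff huw).1 hs).2.2
  set H₂ := swt u w x b H with hH₂
  have hs2 := rel_swt u w x b H
  rw [← hH₂] at hs2
  have bx := (amb_rel hs2).1 ax'
  have by' := (amb_rel hs2).1 ay'
  rw [abs_mul, abs_of_pos (by norm_num : (0 : ℝ) < 1 / 2)]
  have hmain : |g H + g H₂| ≤ K := by
    by_cases hc : split u w x y H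
    · -- then H₂ is not split for x y
      have hn : ¬ split u w x y H₂ := by
        rw [split_iff huw, hH₂, (swt_uw huw ax' ab' x).1, (swt_uw huw ax' ab' y).1,
          Equiv.swap_apply_left]
        by_cases hyx : y = x
        · exact absurd hyx.symm hc.1.2.1
        rw [Equiv.swap_apply_of_ne_of_ne hyx (Ne.symm hby)]
        have h3 := ((split_iff huw).1 hc).2.2
        rcases H.zo u x with a | a <;> rcases H.zo u y with b' | b' <;>
          rcases H.zo u b with c | c <;> simp_all
      have : g H₂ = 0 := by
        simp only [hg]; rw [swt_of_not hn, sub_self]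
      rw [this, add_zero]
      exact hK H
    · have : g H = 0 := by
        simp only [hg]; rw [swt_of_not hc, sub_self]
      rw [this, zero_add]
      exact hK H₂
  linarith

open scoped Classical in
/-- summand of the operator -/
noncomputable def jterm (u w : V) (g : Rz d → ℝ) (a b : V) (G : Rz d) : ℝ :=
  if split u w a b G then (1 / 2 : ℝ) * (g G - g (swt u w a b G)) - avg (relS u w a b) g G else 0

/-- the operator `L - τ - 2` -/
noncomputable def Mop (u w : V) : (Rz d → ℝ) →ₗ[ℝ] (Rz d → ℝ) where
  toFun g := fun G => (∑ a, ∑ b, jterm u w g a b G) - 2 * g G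
  map_add' g h := by
    funext G
    have : ∀ a b, jterm u w (g + h) a b G = jterm u w g a b G + jterm u w h a b G := by
      intro a b
      unfold jterm
      split_ifs
      · have := congrFun (avg_add (r := relS (d := d) u w a b) g h) G
        have e : (g + h) = fun x => g x + h x := rfl
        rw [e, this]
        ring
      · ring
    simp only [this, Finset.sum_add_distrib, Pi.add_apply]
    ring
  map_smul' c g := by
    funext G
    have : ∀ a b, jterm u w (c • g) a b G = c * jterm u w g a b G := by
      intro a b
      unfold jterm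
      split_ifs
      · have := congrFun (avg_smul (r := relS (d := d) u w a b) c g) G
        have e : (c • g) = fun x => c * g x := rfl
        rw [e, this]
        ring
      · ring
    simp only [this, ← Finset.mul_sum, Pi.smul_apply, smul_eq_mul, RingHom.id_apply]
    ring

theorem Mop_apply (u w : V) (g : Rz d → ℝ) (G : Rz d) :
    Mop u w g G = (∑ a, ∑ b, jterm u w g a b G) - 2 * g G := rfl

/-- the projection `D` as a linear map -/
noncomputable def Dop (u w : V) : (Rz d → ℝ) →ₗ[ℝ] (Rz d → ℝ) where
  toFun g := dif (rel u w) g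
  map_add' g h := by
    funext G
    have := congrFun (avg_add (r := rel (d := d) u w) g h) G
    have e : (g + h) = fun x => g x + h x := rfl
    show (g + h) G - avg (rel u w) (g + h) G = _
    rw [e, this]
    simp only [dif, Pi.add_apply]
    ring
  map_smul' c g := by
    funext G
    have := congrFun (avg_smul (r := rel (d := d) u w) c g) G
    have e : (c • g) = fun x => c * g x := rfl
    show (c • g) G - avg (rel u w) (c • g) G = _
    rw [e, this]
    simp only [dif, Pi.smul_apply, smul_eq_mul, RingHom.id_apply]
    ring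

theorem Dop_apply (u w : V) (g : Rz d → ℝ) : Dop u w g = dif (rel u w) g := rfl

open scoped Classical in
theorem jform (u w a b : V) (g h : Rz d → ℝ) :
    ∑ G, jterm u w g a b G * h G = ∑ G, (if split u w a b G then
      (1 / 4 : ℝ) * ((g G - g (swt u w a b G)) * (h G - h (swt u w a b G)))
        - avg (relS u w a b) g G * avg (relS u w a b) h G else 0) := by
  set o : Rz d → ℝ := fun G => if split u w a b G then 1 else 0 with ho
  have hos : ∀ G, o (swt u w a b G) = o G := by
    intro G; simp only [ho]
    by_cases h : split u w a b G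
    · rw [if_pos h, if_pos (split_swt h)]
    · rw [if_neg h, if_neg (fun h' => h (split_swt_iff.1 h'))]
  have hr := relS_equiv (d := d) u w a b
  have hoi : ∀ G H, relS u w a b G H → o H = o G := by
    intro G H hGH
    simp only [ho]
    by_cases h : split u w a b G
    · rw [if_pos h, if_pos (hGH.2.1 h)]
    · rw [if_neg h, if_neg (fun h' => h (hGH.2.2 h'))]
  have h1 : ∀ G, jterm u w g a b G * h G =
      (1 / 2 : ℝ) * (o G * (g G - g (swt u w a b G)) * h G) -
        avg (relS u w a b) g G * (o G * h G) := by
    intro G
    unfold jterm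
    simp only [ho]
    split_ifs <;> ring
  have h2 : ∀ G, (if split u w a b G then
      (1 / 4 : ℝ) * ((g G - g (swt u w a b G)) * (h G - h (swt u w a b G)))
        - avg (relS u w a b) g G * avg (relS u w a b) h G else 0) =
      (1 / 4 : ℝ) * (o G * (g G - g (swt u w a b G)) * h G) -
      (1 / 4 : ℝ) * (o G * (g G - g (swt u w a b G)) * h (swt u w a b G)) -
        avg (relS u w a b) g G * (o G * avg (relS u w a b) h G) := by
    intro G
    simp only [ho]
    split_ifs <;> ring
  simp_rw [h1, h2]
  rw [Finset.sum_sub_distrib, Finset.sum_sub_distrib, Finset.sum_sub_distrib, ← Finset.mul_sum,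
    ← Finset.mul_sum, ← Finset.mul_sum]
  have h3 : ∑ G, o G * (g G - g (swt u w a b G)) * h G =
      - ∑ G, o G * (g G - g (swt u w a b G)) * h (swt u w a b G) := by
    rw [← Finset.sum_neg_distrib]
    rw [← Equiv.sum_comp (swtE (d := d) u w a b)]
    refine Finset.sum_congr rfl fun G _ => ?_
    simp only [swtE_apply]
    rw [hos, swt_swt]
    ring
  have h4 : ∑ G, avg (relS u w a b) g G * (o G * h G) =
      ∑ G, avg (relS u w a b) g G * (o G * avg (relS u w a b) h G) := by
    have e1 := sum_avg_mul hr (avg (relS u w a b) g) (fun G => o G * h G)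
    rw [avg_idem hr] at e1
    rw [e1]
    refine Finset.sum_congr rfl fun G _ => ?_
    rw [avg_mul_inv hr (fun H hH => hoi G H hH)]
  rw [h4]
  linarith

open scoped Classical in
theorem Mop_form (u w : V) (g h : Rz d → ℝ) :
    ∑ G, Mop u w g G * h G = (∑ a, ∑ b, ∑ G, (if split u w a b G then
      (1 / 4 : ℝ) * ((g G - g (swt u w a b G)) * (h G - h (swt u w a b G)))
        - avg (relS u w a b) g G * avg (relS u w a b) h G else 0)) - 2 * ∑ G, g G * h G := by
  have h0 : ∀ G, Mop u w g G * h G =
      (∑ a, ∑ b, jterm u w g a b G * h G) - 2 * (g G * h G) := by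
    intro G
    rw [Mop_apply, sub_mul, Finset.sum_mul]
    simp only [Finset.sum_mul]
    ring
  rw [Finset.sum_congr rfl (fun G _ => h0 G), Finset.sum_sub_distrib, ← Finset.mul_sum]
  congr 1
  rw [Finset.sum_comm]
  refine Finset.sum_congr rfl fun a _ => ?_
  rw [Finset.sum_comm]
  refine Finset.sum_congr rfl fun b _ => ?_
  exact jform u w a b g h

theorem Mop_symm (u w : V) (g h : Rz d → ℝ) :
    ∑ G, Mop u w g G * h G = ∑ G, g G * Mop u w h G := by
  have : ∑ G, g G * Mop u w h G = ∑ G, Mop u w h G * g G :=
    Finset.sum_congr rfl fun G _ => mul_comm _ _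
  rw [this, Mop_form, Mop_form]
  congr 1
  · refine Finset.sum_congr rfl fun a _ => Finset.sum_congr rfl fun b _ =>
      Finset.sum_congr rfl fun G _ => ?_
    split_ifs <;> ring
  · congr 1
    exact Finset.sum_congr rfl fun G _ => mul_comm _ _

/-- the key pointwise inequality -/
theorem Mop_diff {u w x y : V} (huw : u ≠ w) (f : Rz d → ℝ) {G : Rz d} (K : ℝ)
    (hK : ∀ a b H, |f H - f (swt u w a b H)| ≤ K)
    (hxy : split u w x y G) (hfG : f G - f (swt u w x y G) = K) :
    0 ≤ Mop u w f G - Mop u w f (swt u w x y G) := by
  classical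
  have ax := ((split_iff huw).1 hxy).1
  have ay := ((split_iff huw).1 hxy).2.1
  have hne := ((split_iff huw).1 hxy).2.2
  have hxney : x ≠ y := hxy.1.2.1
  have hK0 : 0 ≤ K := (abs_nonneg _).trans (hK x y G)
  set G' := swt u w x y G with hG'
  set σ := Equiv.swap x y with hσ
  have hrel : rel u w G G' := rel_swt u w x y G
  have hu : ∀ z, G' u z = G u (σ z) := fun z => (swt_uw huw ax ay z).1
  have hw : ∀ z, G' w z = G w (σ z) := fun z => (swt_uw huw ax ay z).2
  have hamb : ∀ z, amb u w (σ z) G' ↔ amb u w z G := by
    intro z
    by_cases hzx : z = x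
    · subst hzx
      rw [hσ, Equiv.swap_apply_left]
      rw [← amb_rel hrel]
      exact ⟨fun _ => ax, fun _ => ay⟩
    · by_cases hzy : z = y
      · subst hzy
        rw [hσ, Equiv.swap_apply_right]
        rw [← amb_rel hrel]
        exact ⟨fun _ => ay, fun _ => ax⟩
      · rw [hσ, Equiv.swap_apply_of_ne_of_ne hzx hzy, ← amb_rel hrel]
  have hsplit : ∀ a b, split u w (σ a) (σ b) G' ↔ split u w a b G := by
    intro a b
    rw [split_iff huw, split_iff huw, hamb, hamb, hu, hu, hσ, Equiv.swap_apply_self,
      Equiv.swap_apply_self]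
  -- reindexing
  have hre : ∑ a, ∑ b, jterm u w f a b G' = ∑ a, ∑ b, jterm u w f (σ a) (σ b) G' := by
    rw [← Equiv.sum_comp σ]
    refine Finset.sum_congr rfl fun a _ => ?_
    rw [← Equiv.sum_comp σ]
  rw [Mop_apply, Mop_apply, hre]
  set Δ : V → V → ℝ := fun a b => jterm u w f a b G - jterm u w f (σ a) (σ b) G' +
    (if split u w a b G then (1 / 2 : ℝ) * 0 else 0) with hΔ
  have hΔ' : ∀ a b, split u w a b G → Δ a b =
      (1 / 2 : ℝ) * (K - f (swt u w a b G) + f (swt u w (σ a) (σ b) G')) -
        (avg (relS u w a b) f G - avg (relS u w (σ a) (σ b)) f G') := by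
    intro a b h
    simp only [hΔ]
    unfold jterm
    rw [if_pos h, if_pos ((hsplit a b).2 h), if_pos h, ← hfG]
    ring
  have hΔ0 : ∀ a b, ¬ split u w a b G → Δ a b = 0 := by
    intro a b h
    simp only [hΔ]
    unfold jterm
    rw [if_neg h, if_neg (fun h' => h ((hsplit a b).1 h')), if_neg h]
    ring
  have hsum : (∑ a, ∑ b, jterm u w f a b G) - ∑ a, ∑ b, jterm u w f (σ a) (σ b) G' =
      ∑ a, ∑ b, Δ a b := by
    rw [← Finset.sum_sub_distrib]
    refine Finset.sum_congr rfl fun a _ => ?_
    rw [← Finset.sum_sub_distrib]
    refine Finset.sum_congr rfl fun b _ => ?_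
    simp only [hΔ]
    split_ifs <;> ring
  have hback : swt u w y x G' = G := by
    rw [swt_swap2, hG', swt_swt]
  have hback' : swt u w x y G' = G := by
    rw [hG', swt_swt]
  -- the special pairs
  have hΔxy : Δ x y = K := by
    rw [hΔ' x y hxy, hσ, Equiv.swap_apply_left, Equiv.swap_apply_right, ← hG', hback,
      ← relS_swap u w x y, avg_eq (relS_equiv u w x y) f (relS_swt u w x y G), ← hG', ← hfG]
    ring
  have hΔyx : Δ y x = K := by
    have hyx : split u w y x G := (split_swap2 _ _ _ _ _).1 hxy
    rw [hΔ' y x hyx, hσ, Equiv.swap_apply_left, Equiv.swap_apply_right, ← swt_swap2, ← hG', hback',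
      ← relS_swap u w x y, avg_eq (relS_equiv u w x y) f (relS_swt u w x y G), ← hG', ← hfG]
    ring
  -- the general nonnegativity
  have hcase : ∀ p q : V, (p = x ∧ q = y) ∨ (p = y ∧ q = x) → ∀ b, b ≠ x → b ≠ y →
      split u w p b G → swt u w p b G = swt u w q b G' ∧
      |avg (relS u w p b) f G - avg (relS u w q b) f G'| ≤ K / 2 := by
    intro p q hpq b hbx hby hpb
    have hpqs : split u w p q G := by
      rcases hpq with ⟨rfl, rfl⟩ | ⟨rfl, rfl⟩
      · exact hxy
      · exact (split_swap2 _ _ _ _ _).1 hxy
    have hG'' : G' = swt u w p q G := by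
      rcases hpq with ⟨rfl, rfl⟩ | ⟨rfl, rfl⟩
      · rfl
      · rw [hG', swt_swap2]
    have hbp : b ≠ p := by rcases hpq with ⟨rfl, rfl⟩ | ⟨rfl, rfl⟩ <;> assumption
    have hbq : b ≠ q := by rcases hpq with ⟨rfl, rfl⟩ | ⟨rfl, rfl⟩ <;> assumption
    have hpneq : p ≠ q := hpqs.1.2.1
    have ap := ((split_iff huw).1 hpqs).1
    have aq := ((split_iff huw).1 hpqs).2.1
    have ab := ((split_iff huw).1 hpb).2.1
    have n1 := ((split_iff huw).1 hpqs).2.2
    have n2 := ((split_iff huw).1 hpb).2.2
    constructor
    · have r1 : rel u w (swt u w p b G) (swt u w q b G') := by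
        refine (rel_equiv u w).trans ((rel_equiv u w).symm (rel_swt u w p b G)) ?_
        exact (rel_equiv u w).trans hrel (rel_swt u w q b G')
      apply ext_rel r1
      intro z
      have aq' := (amb_rel hrel).1 aq
      have ab' := (amb_rel hrel).1 ab
      rw [(swt_uw huw ap ab z).1, (swt_uw huw aq' ab' z).1, hG'', (swt_uw huw ap aq _).1]
      have hval : G u b = G u q := by
        rcases G.zo u b with h1 | h1 <;> rcases G.zo u q with h2 | h2 <;>
          rcases G.zo u p with h3 | h3 <;> omega
      by_cases hzp : z = p
      · subst hzp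
        rw [Equiv.swap_apply_left, Equiv.swap_apply_of_ne_of_ne hpneq (Ne.symm hbp),
          Equiv.swap_apply_left]
        exact hval
      · by_cases hzq : z = q
        · subst hzq
          rw [Equiv.swap_apply_left, Equiv.swap_apply_of_ne_of_ne hzp (Ne.symm hbq),
            Equiv.swap_apply_of_ne_of_ne hbp hbq]
          exact hval.symm
        · by_cases hzb : z = b
          · subst hzb
            rw [Equiv.swap_apply_right, Equiv.swap_apply_right, Equiv.swap_apply_right]
          · rw [Equiv.swap_apply_of_ne_of_ne hzp hzb, Equiv.swap_apply_of_ne_of_ne hzq hzb,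
              Equiv.swap_apply_of_ne_of_ne hzp hzq]
    · rw [hG'']
      exact avg_half huw f K (fun H => hK p q H) hpqs hpb hbq
  have hΔnn : ∀ a b, 0 ≤ Δ a b := by
    intro a b
    by_cases hs : split u w a b G
    swap
    · rw [hΔ0 a b hs]
    by_cases hax : a = x
    · subst hax
      by_cases hby : b = y
      · subst hby; rw [hΔxy]; exact hK0
      · have hba : b ≠ a := hs.1.2.1.symm
        obtain ⟨e1, e2⟩ := hcase a y (Or.inl ⟨rfl, rfl⟩) b hba hby hs
        rw [hΔ' a b hs, hσ, Equiv.swap_apply_left, Equiv.swap_apply_of_ne_of_ne hba hby, e1]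
        have := (abs_le.1 e2).2
        linarith
    by_cases hay : a = y
    · subst hay
      by_cases hbx : b = x
      · subst hbx; rw [hΔyx]; exact hK0
      · have hba : b ≠ a := hs.1.2.1.symm
        obtain ⟨e1, e2⟩ := hcase a x (Or.inr ⟨rfl, rfl⟩) b hbx hba hs
        rw [hΔ' a b hs, hσ, Equiv.swap_apply_right, Equiv.swap_apply_of_ne_of_ne hbx hba, e1]
        have := (abs_le.1 e2).2
        linarith
    have hs' : split u w b a G := (split_swap2 _ _ _ _ _).1 hs
    by_cases hbx : b = x
    · subst hbx
      obtain ⟨e1, e2⟩ := hcase b y (Or.inl ⟨rfl, rfl⟩) a hax hay hs'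
      rw [hΔ' a b hs, hσ, Equiv.swap_apply_left, Equiv.swap_apply_of_ne_of_ne hax hay,
        swt_swap2 u w a b, e1, relS_swap u w a b, relS_swap u w a y, swt_swap2 u w a y]
      have := (abs_le.1 e2).2
      linarith
    by_cases hby : b = y
    · subst hby
      obtain ⟨e1, e2⟩ := hcase b x (Or.inr ⟨rfl, rfl⟩) a hax hay hs'
      rw [hΔ' a b hs, hσ, Equiv.swap_apply_right, Equiv.swap_apply_of_ne_of_ne hax hay,
        swt_swap2 u w a b, e1, relS_swap u w a b, relS_swap u w a x, swt_swap2 u w a x]
      have := (abs_le.1 e2).2
      linarith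
    -- disjoint case
    have aa := ((split_iff huw).1 hs).1
    have ab := ((split_iff huw).1 hs).2.1
    have hs2 : split u w a b G' := by
      have := (hsplit a b).2 hs
      rwa [hσ, Equiv.swap_apply_of_ne_of_ne hax hay, Equiv.swap_apply_of_ne_of_ne hbx hby] at this
    have e1 : avg (relS u w a b) f G = avg (relS u w a b) f G' :=
      avg_eq (relS_equiv u w a b) f ⟨hrel, ⟨fun _ => hs2, fun _ => hs⟩⟩
    have e2 : swt u w a b G' = swt u w x y (swt u w a b G) := by
      have r1 : rel u w (swt u w a b G') (swt u w x y (swt u w a b G)) := by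
        refine (rel_equiv u w).trans ((rel_equiv u w).symm (rel_swt u w a b G')) ?_
        refine (rel_equiv u w).trans ((rel_equiv u w).symm hrel) ?_
        exact (rel_equiv u w).trans (rel_swt u w a b G) (rel_swt u w x y _)
      apply ext_rel r1
      intro z
      have ax2 := (amb_rel (rel_swt u w a b G)).1 ax
      have ay2 := (amb_rel (rel_swt u w a b G)).1 ay
      have aa2 := (amb_rel hrel).1 aa
      have ab2 := (amb_rel hrel).1 ab
      rw [(swt_uw huw ax2 ay2 z).1, (swt_uw huw aa2 ab2 z).1, hu, (swt_uw huw aa ab _).1]
      rw [hσ]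
      by_cases h1 : z = x
      · subst h1
        rw [Equiv.swap_apply_of_ne_of_ne (Ne.symm hax) (Ne.symm hbx), Equiv.swap_apply_left,
          Equiv.swap_apply_of_ne_of_ne (Ne.symm hay) (Ne.symm hby)]
      · by_cases h2 : z = y
        · subst h2
          rw [Equiv.swap_apply_of_ne_of_ne (Ne.symm hay) (Ne.symm hby), Equiv.swap_apply_right,
            Equiv.swap_apply_of_ne_of_ne (Ne.symm hax) (Ne.symm hbx)]
        · rw [Equiv.swap_apply_of_ne_of_ne h1 h2]
          by_cases h3 : z = a
          · subst h3
            rw [Equiv.swap_apply_left, Equiv.swap_apply_of_ne_of_ne hbx hby]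
          · by_cases h4 : z = b
            · subst h4
              rw [Equiv.swap_apply_right, Equiv.swap_apply_of_ne_of_ne hax hay]
            · rw [Equiv.swap_apply_of_ne_of_ne h3 h4, Equiv.swap_apply_of_ne_of_ne h1 h2]
    rw [hΔ' a b hs, hσ, Equiv.swap_apply_of_ne_of_ne hax hay,
      Equiv.swap_apply_of_ne_of_ne hbx hby, e1, e2]
    have := (abs_le.1 (hK x y (swt u w a b G))).2
    linarith
  -- conclusion
  have h2K : 2 * K ≤ ∑ a, ∑ b, Δ a b := by
    have h1 : ∑ a ∈ ({x, y} : Finset V), ∑ b, Δ a b ≤ ∑ a, ∑ b, Δ a b :=
      Finset.sum_le_sum_of_subset_of_nonneg (Finset.subset_univ _)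
        (fun a _ _ => Finset.sum_nonneg fun b _ => hΔnn a b)
    rw [Finset.sum_pair hxney] at h1
    have h3 : Δ x y ≤ ∑ b, Δ x b :=
      Finset.single_le_sum (f := fun b => Δ x b) (fun b _ => hΔnn x b) (mem_univ y)
    have h4 : Δ y x ≤ ∑ b, Δ y b :=
      Finset.single_le_sum (f := fun b => Δ y b) (fun b _ => hΔnn y b) (mem_univ x)
    linarith
  have : (∑ a, ∑ b, jterm u w f a b G) - 2 * f G -
      ((∑ a, ∑ b, jterm u w f (σ a) (σ b) G') - 2 * f G') =
      (∑ a, ∑ b, Δ a b) - 2 * (f G - f G') := by
    rw [← hsum]; ring
  rw [this, hfG]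
  linarith

/-- TASK 6. The Johnson inequality for one block `{u,w}`. -/
theorem johnson {u w : V} (huw : u ≠ w) (f : Rz d → ℝ) :
    2 * ∑ G, f G * dif (rel u w) f G
      + ∑ x, ∑ y, ∑ G, (open scoped Classical in
          if split u w x y G then (tt u w x y f G) ^ 2 else 0)
      ≤ (1 / 4 : ℝ) * ∑ x, ∑ y, ∑ G, (open scoped Classical in
          if split u w x y G then (f G - f (swt u w x y G)) ^ 2 else 0) := by
  classical
  have hr := rel_equiv (d := d) u w
  have key := eig_psd (Dop (d := d) u w ∘ₗ Mop u w ∘ₗ Dop u w) (by
      intro g h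
      simp only [LinearMap.comp_apply, Dop_apply]
      rw [sum_dif_mul hr, Mop_symm, ← sum_dif_mul hr]
      ) (by
      intro g s hg hs
      by_contra hneg
      push Not at hneg
      simp only [LinearMap.comp_apply, Dop_apply] at hs
      -- D g = g
      have hDg : dif (rel u w) g = g := by
        have h1 : dif (rel u w) (s • g) = s • g := by
          rw [← hs, dif_idem hr]
        have h2 : dif (rel u w) (s • g) = s • dif (rel u w) g := by
          have := (Dop (d := d) u w).map_smul s g
          simpa only [Dop_apply] using this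
        rw [h2] at h1
        have hs0 : s ≠ 0 := hneg.ne
        funext G
        have := congrFun h1 G
        simp only [Pi.smul_apply, smul_eq_mul] at this
        exact mul_left_cancel₀ hs0 this
      rw [hDg] at hs
      have hne : Nonempty (Rz d) := by
        by_contra hemp
        rw [not_nonempty_iff] at hemp
        exact hg (funext fun x => (hemp.false x).elim)
      have hneV : Nonempty V := ⟨u⟩
      obtain ⟨⟨x, y, G⟩, -, hmax⟩ := Finset.exists_max_image
        (univ : Finset (V × V × Rz d)) (fun t => g t.2.2 - g (swt u w t.1 t.2.1 t.2.2))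
        Finset.univ_nonempty
      set K := g G - g (swt u w x y G) with hK
      have hb : ∀ a b H, g H - g (swt u w a b H) ≤ K := fun a b H =>
        hmax (a, b, H) (mem_univ _)
      have hb' : ∀ a b H, |g H - g (swt u w a b H)| ≤ K := by
        intro a b H
        rw [abs_le]
        refine ⟨?_, hb a b H⟩
        have := hb a b (swt u w a b H)
        rw [swt_swt] at this
        linarith
      rcases le_or_gt K 0 with hK0 | hK0
      · -- constant on blocks
        have hinv : ∀ a b H, g (swt u w a b H) = g H := by
          intro a b H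
          have := hb' a b H
          have h0 := abs_nonneg (g H - g (swt u w a b H))
          have : |g H - g (swt u w a b H)| = 0 := le_antisymm (this.trans hK0) h0
          have := abs_eq_zero.1 this
          linarith
        apply hg
        rw [← hDg]
        funext H
        show g H - avg (rel u w) g H = 0
        rw [avg_of_inv hr, sub_self]
        intro y hy
        exact (blk_conn huw g hinv _ H y hy rfl).symm
      · have hsp : split u w x y G := by
          by_contra hn
          rw [swt_of_not hn] at hK
          rw [sub_self] at hK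
          exact absurd hK hK0.ne'
        have h1 := Mop_diff huw g K hb' hsp hK.symm
        have h2 : dif (rel u w) (Mop u w g) G - dif (rel u w) (Mop u w g) (swt u w x y G) =
            Mop u w g G - Mop u w g (swt u w x y G) := by
          simp only [dif]
          rw [avg_eq hr (Mop u w g) (rel_swt u w x y G)]
          ring
        rw [← h2, hs] at h1
        simp only [Pi.smul_apply, smul_eq_mul] at h1
        rw [← mul_sub, ← hK] at h1
        nlinarith) f
  simp only [LinearMap.comp_apply, Dop_apply] at key
  rw [← sum_dif_mul hr] at key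
  have e0 : ∑ G, dif (rel u w) f G * Mop u w (dif (rel u w) f) G =
      ∑ G, Mop u w (dif (rel u w) f) G * dif (rel u w) f G :=
    Finset.sum_congr rfl fun G _ => mul_comm _ _
  rw [e0, Mop_form] at key
  have e1 : ∀ a b G, (if split u w a b G then
      (1 / 4 : ℝ) * ((dif (rel u w) f G - dif (rel u w) f (swt u w a b G)) *
        (dif (rel u w) f G - dif (rel u w) f (swt u w a b G)))
        - avg (relS u w a b) (dif (rel u w) f) G * avg (relS u w a b) (dif (rel u w) f) G else 0) =
      (1 / 4 : ℝ) * (if split u w a b G then (f G - f (swt u w a b G)) ^ 2 else 0) -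
        (if split u w a b G then (tt u w a b f G) ^ 2 else 0) := by
    intro a b G
    have h1 : dif (rel u w) f G - dif (rel u w) f (swt u w a b G) = f G - f (swt u w a b G) := by
      simp only [dif]
      rw [avg_eq hr f (rel_swt u w a b G)]
      ring
    have h2 : avg (relS u w a b) (dif (rel u w) f) G = tt u w a b f G := by
      unfold tt
      rw [dif_eq, avg_sub]
      show _ - avg (relS u w a b) (avg (rel u w) f) G = _
      rw [avg_avg_of_le' (relS_equiv u w a b) hr (fun _ _ h => h.1)]
    rw [h1, h2]
    split_ifs <;> ring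
  simp only [e1] at key
  simp only [Finset.sum_sub_distrib, ← Finset.mul_sum] at key
  have e2 : ∑ G, dif (rel u w) f G * dif (rel u w) f G = ∑ G, f G * dif (rel u w) f G := by
    rw [sum_dif_mul hr, dif_idem hr]
  rw [e2] at key
  linarith

end John

end Crest.Agent.SwC
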