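import Mathlib

/-!
S0453, task SwC-1: Finset-level coupling of two averages over `powersetCard`.
-/

set_option autoImplicit false

open Finset

namespace Crest.Agent.SwC

section Coupling

variable {C : Type*} [DecidableEq C]

theorem coup_sum_insert {s : Finset C} {x : C} (hx : x ∉ s) (n : ℕ) (F : Finset C → ℝ) :
    ∑ A ∈ (insert x s).powersetCard (n + 1), F A =
      ∑ A ∈ s.powersetCard (n + 1), F A + ∑ B ∈ s.powersetCard n, F (insert x B) := by
  rw [Finset.powersetCard_succ_insert hx, Finset.sum_union, Finset.sum_image]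
  · intro A hA B hB h
    have hA' : x ∉ A := fun h' => hx ((Finset.mem_powersetCard.1 hA).1 h')
    have hB' : x ∉ B := fun h' => hx ((Finset.mem_powersetCard.1 hB).1 h')
    rw [← Finset.erase_insert hA', ← Finset.erase_insert hB', h]
  · rw [Finset.disjoint_left]
    intro A hA hA'
    obtain ⟨B, _, rfl⟩ := Finset.mem_image.1 hA'
    exact hx ((Finset.mem_powersetCard.1 hA).1 (Finset.mem_insert_self x B))

theorem coup_double (Z : Finset C) (p : ℕ) (G : Finset C → C → ℝ) :
    ∑ B ∈ Z.powersetCard p, ∑ z ∈ Z \ B, G B z =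
      ∑ D ∈ Z.powersetCard (p + 1), ∑ z ∈ D, G (D.erase z) z := by
  rw [Finset.sum_sigma', Finset.sum_sigma']
  refine Finset.sum_bij' (fun a _ => ⟨insert a.2 a.1, a.2⟩) (fun a _ => ⟨a.1.erase a.2, a.2⟩)
    ?_ ?_ ?_ ?_ ?_
  · rintro ⟨B, z⟩ h
    rw [Finset.mem_sigma, Finset.mem_powersetCard, Finset.mem_sdiff] at h
    obtain ⟨⟨h1, h2⟩, h3, h4⟩ := h
    rw [Finset.mem_sigma, Finset.mem_powersetCard]
    refine ⟨⟨?_, ?_⟩, ?_⟩
    · exact Finset.insert_subset h3 h1
    · rw [Finset.card_insert_of_notMem h4, h2]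
    · exact Finset.mem_insert_self _ _
  · rintro ⟨D, z⟩ h
    rw [Finset.mem_sigma, Finset.mem_powersetCard] at h
    obtain ⟨⟨h1, h2⟩, h3⟩ := h
    dsimp only at h1 h2 h3
    rw [Finset.mem_sigma, Finset.mem_powersetCard, Finset.mem_sdiff]
    refine ⟨⟨?_, ?_⟩, ?_, ?_⟩
    · exact (Finset.erase_subset _ _).trans h1
    · dsimp only
      rw [Finset.card_erase_of_mem h3, h2]
      rfl
    · exact h1 h3
    · exact Finset.notMem_erase _ _
  · rintro ⟨B, z⟩ h
    rw [Finset.mem_sigma, Finset.mem_powersetCard, Finset.mem_sdiff] at h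
    obtain ⟨⟨h1, h2⟩, h3, h4⟩ := h
    dsimp only at h4
    simp only [Finset.erase_insert h4]
  · rintro ⟨D, z⟩ h
    rw [Finset.mem_sigma, Finset.mem_powersetCard] at h
    obtain ⟨⟨h1, h2⟩, h3⟩ := h
    dsimp only at h3
    simp only [Finset.insert_erase h3]
  · rintro ⟨B, z⟩ h
    rw [Finset.mem_sigma, Finset.mem_powersetCard, Finset.mem_sdiff] at h
    obtain ⟨⟨h1, h2⟩, h3, h4⟩ := h
    dsimp only at h4
    simp only [Finset.erase_insert h4]

/-- The bracket. -/
noncomputable def brk (Z : Finset C) (c c' : C) (p : ℕ) (F : Finset C → ℝ) (B : Finset C) : ℝ :=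
  F (insert c B) + F (insert c' B) +
    (1 / ((Z.card : ℝ) - p + 1)) * ∑ z ∈ B, F (insert c (insert c' (B.erase z))) +
    (1 / ((p : ℝ) + 1)) * ∑ z ∈ Z \ B, F (insert z B)

theorem coup_sum (Z : Finset C) (c c' : C) (hc : c ∉ Z) (hc' : c' ∉ Z)
    (hcc : c ≠ c') (p : ℕ) (hp : p ≤ Z.card) (F : Finset C → ℝ) :
    ∑ A ∈ (insert c (insert c' Z)).powersetCard (p + 1), F A =
      ∑ B ∈ Z.powersetCard p, brk Z c c' p F B := by
  have hc1 : c ∉ insert c' Z := by
    rw [Finset.mem_insert]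
    rintro (h | h)
    · exact hcc h
    · exact hc h
  rw [coup_sum_insert hc1, coup_sum_insert hc']
  unfold brk
  rw [Finset.sum_add_distrib, Finset.sum_add_distrib, Finset.sum_add_distrib]
  rw [← Finset.mul_sum, ← Finset.mul_sum]
  -- the `Z \ B` term
  have h4 : ∑ B ∈ Z.powersetCard p, ∑ z ∈ Z \ B, F (insert z B) =
      ((p : ℝ) + 1) * ∑ D ∈ Z.powersetCard (p + 1), F D := by
    rw [coup_double Z p (fun B z => F (insert z B)), Finset.mul_sum]
    refine Finset.sum_congr rfl fun D hD => ?_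
    have hD2 := (Finset.mem_powersetCard.1 hD).2
    calc ∑ z ∈ D, F (insert z (D.erase z)) = ∑ z ∈ D, F D :=
          Finset.sum_congr rfl fun z hz => by rw [Finset.insert_erase hz]
      _ = ((p : ℝ) + 1) * F D := by
          rw [Finset.sum_const, hD2, nsmul_eq_mul]
          push_cast
          ring
  have hp1 : (0 : ℝ) < (p : ℝ) + 1 := by positivity
  have hq : (0 : ℝ) < (Z.card : ℝ) - p + 1 := by
    have : (p : ℝ) ≤ Z.card := by exact_mod_cast hp
    linarith
  rw [h4]
  have h5 : 1 / ((p : ℝ) + 1) * (((p : ℝ) + 1) * ∑ D ∈ Z.powersetCard (p + 1), F D) =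
      ∑ D ∈ Z.powersetCard (p + 1), F D := by
    field_simp
  rw [h5]
  rcases Nat.eq_zero_or_pos p with h0 | h0
  · subst h0
    simp [Finset.powersetCard_zero]
    ring
  · obtain ⟨r, rfl⟩ : ∃ r, p = r + 1 := ⟨p - 1, by omega⟩
    rw [coup_sum_insert hc']
    have h3 : ∑ B ∈ Z.powersetCard (r + 1), ∑ z ∈ B, F (insert c (insert c' (B.erase z))) =
        ((Z.card : ℝ) - (r + 1 : ℕ) + 1) *
          ∑ E ∈ Z.powersetCard r, F (insert c (insert c' E)) := by
      rw [← coup_double Z r (fun E _ => F (insert c (insert c' E))), Finset.mul_sum]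
      refine Finset.sum_congr rfl fun E hE => ?_
      have hE1 := (Finset.mem_powersetCard.1 hE).1
      have hE2 := (Finset.mem_powersetCard.1 hE).2
      rw [Finset.sum_const, Finset.card_sdiff_of_subset hE1, hE2, nsmul_eq_mul,
        Nat.cast_sub (by omega)]
      push_cast
      ring
    rw [h3]
    have h6 : 1 / ((Z.card : ℝ) - (r + 1 : ℕ) + 1) * (((Z.card : ℝ) - (r + 1 : ℕ) + 1) *
        ∑ E ∈ Z.powersetCard r, F (insert c (insert c' E))) =
        ∑ E ∈ Z.powersetCard r, F (insert c (insert c' E)) := by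
      field_simp
    rw [h6]
    ring

/-- Finset-level coupling. -/
theorem coupling {C : Type*} [DecidableEq C] (Z : Finset C) (c c' : C) (hc : c ∉ Z) (hc' : c' ∉ Z)
    (hcc : c ≠ c') (p : ℕ) (hp : p ≤ Z.card) (h g : Finset C → ℝ) (K : ℝ)
    (h1 : ∀ B ∈ Z.powersetCard p, |h (insert c B) - g B| ≤ K)
    (h2 : ∀ B ∈ Z.powersetCard p, |h (insert c' B) - g B| ≤ K)
    (h3 : ∀ B ∈ Z.powersetCard p, ∀ z ∈ B, |h (insert c (insert c' (B.erase z))) - g B| ≤ K)
    (h4 : ∀ B ∈ Z.powersetCard p, ∀ z ∈ Z \ B, |h (insert z B) - g B| ≤ K) :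
    |(∑ A ∈ (insert c (insert c' Z)).powersetCard (p + 1), h A) /
        (((insert c (insert c' Z)).powersetCard (p + 1)).card : ℝ) -
      (∑ B ∈ Z.powersetCard p, g B) / ((Z.powersetCard p).card : ℝ)| ≤ K := by
  have hp1 : (0 : ℝ) < (p : ℝ) + 1 := by positivity
  have hpz : (p : ℝ) ≤ Z.card := by exact_mod_cast hp
  have hq : (0 : ℝ) < (Z.card : ℝ) - p + 1 := by linarith
  set q : ℝ := (Z.card : ℝ) - p + 1 with hqdef
  set κ : ℝ := 2 + p / q + ((Z.card : ℝ) - p) / (p + 1) with hκdef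
  have hκ : 0 < κ := by
    have e1 : 0 ≤ (p : ℝ) / q := by positivity
    have e2 : 0 ≤ ((Z.card : ℝ) - p) / (p + 1) := div_nonneg (by linarith) hp1.le
    rw [hκdef]
    linarith
  have hcardB : ∀ B ∈ Z.powersetCard p, (B.card : ℝ) = p := fun B hB => by
    rw [(Finset.mem_powersetCard.1 hB).2]
  have hcardZB : ∀ B ∈ Z.powersetCard p, ((Z \ B).card : ℝ) = (Z.card : ℝ) - p := fun B hB => by
    rw [Finset.card_sdiff_of_subset (Finset.mem_powersetCard.1 hB).1,
      (Finset.mem_powersetCard.1 hB).2, Nat.cast_sub hp]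
  have hcard : (((insert c (insert c' Z)).powersetCard (p + 1)).card : ℝ) =
      κ * ((Z.powersetCard p).card : ℝ) := by
    have := coup_sum Z c c' hc hc' hcc p hp (fun _ => 1)
    rw [Finset.sum_const, nsmul_eq_mul, mul_one] at this
    rw [this]
    have e : ∀ B ∈ Z.powersetCard p, brk Z c c' p (fun _ => (1 : ℝ)) B = κ := by
      intro B hB
      unfold brk
      rw [Finset.sum_const, Finset.sum_const, nsmul_eq_mul, nsmul_eq_mul, hcardB B hB,
        hcardZB B hB, hκdef, ← hqdef]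
      ring
    rw [Finset.sum_congr rfl e, Finset.sum_const, nsmul_eq_mul]
    ring
  have hNB : (0 : ℝ) < ((Z.powersetCard p).card : ℝ) := by
    rw [Finset.card_powersetCard]
    exact_mod_cast Nat.choose_pos hp
  have hdev : ∀ B ∈ Z.powersetCard p, |brk Z c c' p h B - κ * g B| ≤ κ * K := by
    intro B hB
    have e3 : |(1 / q) * ∑ z ∈ B, (h (insert c (insert c' (B.erase z))) - g B)| ≤ (p / q) * K := by
      rw [abs_mul, abs_of_pos (by positivity : 0 < 1 / q)]
      calc 1 / q * |∑ z ∈ B, (h (insert c (insert c' (B.erase z))) - g B)|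
          ≤ 1 / q * ∑ z ∈ B, |h (insert c (insert c' (B.erase z))) - g B| :=
            mul_le_mul_of_nonneg_left (Finset.abs_sum_le_sum_abs _ _) (by positivity)
        _ ≤ 1 / q * ∑ z ∈ B, K :=
            mul_le_mul_of_nonneg_left (Finset.sum_le_sum fun z hz => h3 B hB z hz)
              (by positivity)
        _ = (p / q) * K := by
            rw [Finset.sum_const, nsmul_eq_mul, hcardB B hB]
            ring
    have e4 : |(1 / ((p : ℝ) + 1)) * ∑ z ∈ Z \ B, (h (insert z B) - g B)| ≤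
        (((Z.card : ℝ) - p) / (p + 1)) * K := by
      rw [abs_mul, abs_of_pos (by positivity : 0 < 1 / ((p : ℝ) + 1))]
      calc 1 / ((p : ℝ) + 1) * |∑ z ∈ Z \ B, (h (insert z B) - g B)|
          ≤ 1 / ((p : ℝ) + 1) * ∑ z ∈ Z \ B, |h (insert z B) - g B| :=
            mul_le_mul_of_nonneg_left (Finset.abs_sum_le_sum_abs _ _) (by positivity)
        _ ≤ 1 / ((p : ℝ) + 1) * ∑ z ∈ Z \ B, K :=
            mul_le_mul_of_nonneg_left (Finset.sum_le_sum fun z hz => h4 B hB z hz)
              (by positivity)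
        _ = (((Z.card : ℝ) - p) / (p + 1)) * K := by
            rw [Finset.sum_const, nsmul_eq_mul, hcardZB B hB]
            ring
    have e5 : brk Z c c' p h B - κ * g B = (h (insert c B) - g B) + (h (insert c' B) - g B) +
        (1 / q) * ∑ z ∈ B, (h (insert c (insert c' (B.erase z))) - g B) +
        (1 / ((p : ℝ) + 1)) * ∑ z ∈ Z \ B, (h (insert z B) - g B) := by
      unfold brk
      rw [Finset.sum_sub_distrib, Finset.sum_sub_distrib, Finset.sum_const, Finset.sum_const,
        nsmul_eq_mul, nsmul_eq_mul, hcardB B hB, hcardZB B hB, hκdef, ← hqdef]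
      ring
    rw [e5]
    calc _ ≤ |h (insert c B) - g B| + |h (insert c' B) - g B| +
          |(1 / q) * ∑ z ∈ B, (h (insert c (insert c' (B.erase z))) - g B)| +
          |(1 / ((p : ℝ) + 1)) * ∑ z ∈ Z \ B, (h (insert z B) - g B)| := by
            refine (abs_add_le _ _).trans (add_le_add_left ?_ _)
            refine (abs_add_le _ _).trans (add_le_add_left ?_ _)
            exact abs_add_le _ _
      _ ≤ K + K + (p / q) * K + (((Z.card : ℝ) - p) / (p + 1)) * K :=
          add_le_add (add_le_add (add_le_add (h1 B hB) (h2 B hB)) e3) e4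
      _ = κ * K := by
          rw [hκdef]
          ring
  rw [hcard, coup_sum Z c c' hc hc' hcc p hp h]
  have e6 : (∑ B ∈ Z.powersetCard p, brk Z c c' p h B) / (κ * ((Z.powersetCard p).card : ℝ)) -
      (∑ B ∈ Z.powersetCard p, g B) / ((Z.powersetCard p).card : ℝ) =
      (∑ B ∈ Z.powersetCard p, (brk Z c c' p h B - κ * g B)) /
        (κ * ((Z.powersetCard p).card : ℝ)) := by
    rw [Finset.sum_sub_distrib, ← Finset.mul_sum]
    field_simp
  rw [e6, abs_div, abs_of_pos (mul_pos hκ hNB), div_le_iff₀ (mul_pos hκ hNB)]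
  calc |∑ B ∈ Z.powersetCard p, (brk Z c c' p h B - κ * g B)|
      ≤ ∑ B ∈ Z.powersetCard p, |brk Z c c' p h B - κ * g B| := Finset.abs_sum_le_sum_abs _ _
    _ ≤ ∑ B ∈ Z.powersetCard p, κ * K := Finset.sum_le_sum hdev
    _ = K * (κ * ((Z.powersetCard p).card : ℝ)) := by
        rw [Finset.sum_const, nsmul_eq_mul]
        ring

end Coupling

end Crest.Agent.SwC
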