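import Crest.Agent.SwC_M3
import Crest.Agent.SwC_Coupling

/-!
The three-row inequality `b3`.
-/

set_option autoImplicit false
set_option linter.unusedSectionVars false

open Finset

namespace Crest.Agent.SwC

section B3

variable {C : Type*} [Fintype C] {R : Fin 3 → ℤ} {S : C → ℤ}

theorem M3.ext {M N : M3 R S} (h : ∀ c i, M c i = N c i) : M = N :=
  Subtype.ext (funext fun c => funext fun i => h c i)

theorem M3.zo (M : M3 R S) (c : C) (i : Fin 3) : M c i = 0 ∨ M c i = 1 := M.2.1 c i
theorem M3.col (M : M3 R S) (c : C) : ∑ i, M c i = S c := M.2.2.1 c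
theorem M3.row (M : M3 R S) (i : Fin 3) : ∑ c, M c i = R i := M.2.2.2 i

theorem fin3_sum {α : Type*} [AddCommMonoid α] {l j k : Fin 3} (hlj : l ≠ j) (hlk : l ≠ k)
    (hjk : j ≠ k) (F : Fin 3 → α) : ∑ i, F i = F l + F j + F k := by
  have h : (univ : Finset (Fin 3)) = {l, j, k} := by
    revert l j k; decide
  rw [h, sum_insert, sum_insert, sum_singleton, add_assoc]
  · simpa using hjk
  · simp [hlj, hlk]

theorem fin3_cases {l j k : Fin 3} (hlj : l ≠ j) (hlk : l ≠ k) (hjk : j ≠ k) (i : Fin 3) :
    i = l ∨ i = j ∨ i = k := by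
  revert l j k i; decide

theorem fin3_third {l j : Fin 3} (hlj : l ≠ j) : ∃ k, l ≠ k ∧ j ≠ k := by
  revert l j; decide

theorem fin3_others (l : Fin 3) : ∃ j k, l ≠ j ∧ l ≠ k ∧ j ≠ k := by
  revert l; decide

theorem M3.col3 (M : M3 R S) {l j k : Fin 3} (hlj : l ≠ j) (hlk : l ≠ k) (hjk : j ≠ k) (c : C) :
    M c l + M c j + M c k = S c := by
  rw [← M.col c, fin3_sum hlj hlk hjk]

open scoped Classical in
/-- exchange two columns of the same type -/
noncomputable def csw (c c' : C) (h : S c = S c') (M : M3 R S) : M3 R S :=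
  ⟨fun x => M (Equiv.swap c c' x), by
    refine ⟨fun x i => M.zo _ _, fun x => ?_, fun i => ?_⟩
    · rw [M.col]
      by_cases h1 : x = c
      · subst h1; rw [Equiv.swap_apply_left, h]
      · by_cases h2 : x = c'
        · subst h2; rw [Equiv.swap_apply_right, h]
        · rw [Equiv.swap_apply_of_ne_of_ne h1 h2]
    · rw [← M.row i]
      exact Equiv.sum_comp (Equiv.swap c c') (fun x => M x i)⟩

open scoped Classical in
theorem csw_apply (c c' : C) (h : S c = S c') (M : M3 R S) (x : C) (i : Fin 3) :
    (csw c c' h M) x i = M (Equiv.swap c c' x) i := rfl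

theorem csw_csw (c c' : C) (h : S c = S c') (M : M3 R S) : csw c c' h (csw c c' h M) = M := by
  classical
  apply M3.ext
  intro x i
  rw [csw_apply, csw_apply, Equiv.swap_apply_self]

/-- as a permutation -/
noncomputable def cswE (c c' : C) (h : S c = S c') : M3 R S ≃ M3 R S where
  toFun := csw c c' h
  invFun := csw c c' h
  left_inv := csw_csw c c' h
  right_inv := csw_csw c c' h

theorem csw_rowRel (c c' : C) (h : S c = S c') (i : Fin 3) (M N : M3 R S) :
    rowRel i M N ↔ rowRel i (csw c c' h M) (csw c c' h N) := by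
  classical
  constructor
  · intro hr x
    rw [csw_apply, csw_apply]; exact hr _
  · intro hr x
    have := hr (Equiv.swap c c' x)
    rwa [csw_apply, csw_apply, Equiv.swap_apply_self] at this

/-- Step 1. -/
theorem b3_step1 {f : M3 R S → ℝ} {lam : ℝ} (hl : 2 < lam)
    (hE : ∀ M, ∑ i, avg (rowRel i) f M = lam * f M) (c c' : C) (h : S c = S c') (M : M3 R S) :
    f (csw c c' h M) = f M := by
  classical
  set g : M3 R S → ℝ := fun N => f N - f (csw c c' h N) with hg
  have hav : ∀ i N, avg (rowRel i) g N = avg (rowRel i) f N - avg (rowRel i) f (csw c c' h N) := by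
    intro i N
    have h1 := congrFun (avg_sub (r := rowRel i) f (fun N => f (csw c c' h N))) N
    have h2 := avg_comp_equiv (r := rowRel i) (s := rowRel i) (cswE c c' h)
      (fun x y => csw_rowRel c c' h i x y) f N
    rw [hg, h1]
    congr 1
  have hgE : ∀ N, ∑ i, avg (rowRel i) g N = lam * g N := by
    intro N
    simp_rw [hav]
    rw [Finset.sum_sub_distrib, hE, hE, hg]; ring
  obtain ⟨N, -, hN⟩ := exists_max_image (univ : Finset (M3 R S)) (fun N => |g N|) ⟨M, mem_univ _⟩
  have hmax : ∀ N', |g N'| ≤ |g N| := fun N' => hN N' (mem_univ _)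
  -- a row where the columns agree
  have hk : ∃ k, N c k = N c' k := by
    by_contra hcon
    push Not at hcon
    have h0 := hcon 0
    have h1 := hcon 1
    have h2 := hcon 2
    have e1 := N.col c
    have e2 := N.col c'
    rw [Fin.sum_univ_three] at e1 e2
    have a0 := N.zo c 0
    have a1 := N.zo c 1
    have a2 := N.zo c 2
    have b0 := N.zo c' 0
    have b1 := N.zo c' 1
    have b2 := N.zo c' 2
    omega
  obtain ⟨k, hk⟩ := hk
  have hrel : rowRel k N (csw c c' h N) := by
    intro x
    rw [csw_apply]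
    by_cases h1 : x = c
    · subst h1; rw [Equiv.swap_apply_left, hk]
    · by_cases h2 : x = c'
      · subst h2; rw [Equiv.swap_apply_right, hk]
      · rw [Equiv.swap_apply_of_ne_of_ne h1 h2]
  have hk0 : avg (rowRel k) g N = 0 := by
    rw [hav, avg_eq (rowRel_equiv k) f hrel, sub_self]
  obtain ⟨i, j, h1, h2, h3⟩ := fin3_others k
  have hs := hgE N
  rw [fin3_sum h1 h2 h3, hk0, zero_add] at hs
  have hi : |avg (rowRel i) g N| ≤ |g N| := abs_avg_le (rowRel_equiv i) fun y _ => hmax y
  have hj : |avg (rowRel j) g N| ≤ |g N| := abs_avg_le (rowRel_equiv j) fun y _ => hmax y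
  have : lam * |g N| ≤ 2 * |g N| := by
    calc lam * |g N| = |lam * g N| := by rw [abs_mul, abs_of_pos (show 0 < lam by linarith)]
      _ = |avg (rowRel i) g N + avg (rowRel j) g N| := by rw [hs]
      _ ≤ |avg (rowRel i) g N| + |avg (rowRel j) g N| := abs_add_le _ _
      _ ≤ 2 * |g N| := by linarith
  have h0 : |g N| ≤ 0 := by nlinarith
  have h00 : |g M| ≤ 0 := (hmax M).trans h0
  have : g M = 0 := abs_nonpos_iff.1 h00
  rw [hg] at this
  simp only at this
  linarith

/-! ### Parametrisation of a class -/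

/-- ambiguous columns -/
noncomputable def Zs (P : M3 R S) (l : Fin 3) : Finset C := by
  classical exact univ.filter fun x => S x - P x l = 1

theorem mem_Zs {P : M3 R S} {l : Fin 3} {x : C} : x ∈ Zs P l ↔ S x - P x l = 1 := by
  classical
  simp [Zs]

/-- ambiguous columns with a one in row `j` -/
noncomputable def Bs (P : M3 R S) (l j : Fin 3) (N : M3 R S) : Finset C := by
  classical exact (Zs P l).filter fun x => N x j = 1

theorem mem_Bs {P N : M3 R S} {l j : Fin 3} {x : C} :
    x ∈ Bs P l j N ↔ S x - P x l = 1 ∧ N x j = 1 := by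
  classical
  simp [Bs, mem_Zs]

open scoped Classical in
noncomputable def mkF (P : M3 R S) (l j : Fin 3) (B : Finset C) : C → Fin 3 → ℤ := fun x i =>
  if i = l then P x l else if S x - P x l = 1 then
    (if i = j then (if x ∈ B then 1 else 0) else (if x ∈ B then 0 else 1)) else P x i

theorem row_third {P : M3 R S} {A : C → Fin 3 → ℤ} {l j k : Fin 3} (hlj : l ≠ j) (hlk : l ≠ k)
    (hjk : j ≠ k) (hcol : ∀ c, A c l + A c j + A c k = S c) (h1 : ∑ c, A c l = R l)
    (h2 : ∑ c, A c j = R j) : ∑ c, A c k = R k := by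
  have e1 : ∑ c, (A c l + A c j + A c k) = ∑ c, S c := Finset.sum_congr rfl fun c _ => hcol c
  have e2 : ∑ c, (P c l + P c j + P c k) = ∑ c, S c :=
    Finset.sum_congr rfl fun c _ => P.col3 hlj hlk hjk c
  rw [Finset.sum_add_distrib, Finset.sum_add_distrib] at e1 e2
  have := P.row l
  have := P.row j
  have := P.row k
  linarith

theorem mkF_isM3 {P : M3 R S} {l j k : Fin 3} (hlj : l ≠ j) (hlk : l ≠ k) (hjk : j ≠ k)
    {B : Finset C} (hB : B ∈ (Zs P l).powersetCard (Bs P l j P).card) :
    IsM3 R S (mkF P l j B) := by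
  classical
  rw [mem_powersetCard] at hB
  obtain ⟨hB, hcard⟩ := hB
  have hcol3 : ∀ c, mkF P l j B c l + mkF P l j B c j + mkF P l j B c k = S c := by
    intro c
    have := P.col3 hlj hlk hjk c
    unfold mkF
    rw [if_pos rfl, if_neg hlj.symm, if_neg hlk.symm, if_pos rfl, if_neg hjk.symm]
    by_cases h1 : S c - P c l = 1
    · rw [if_pos h1, if_pos h1]
      split_ifs <;> omega
    · rw [if_neg h1, if_neg h1]; exact this
  have hrow_l : ∑ c, mkF P l j B c l = R l := by
    rw [← P.row l]
    refine Finset.sum_congr rfl fun c _ => ?_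
    unfold mkF; rw [if_pos rfl]
  have hrow_j : ∑ c, mkF P l j B c j = R j := by
    have e : ∀ c, mkF P l j B c j = P c j + ((if c ∈ B then (1 : ℤ) else 0) -
        (if c ∈ Bs P l j P then (1 : ℤ) else 0)) := by
      intro c
      unfold mkF
      rw [if_neg hlj.symm]
      by_cases h1 : S c - P c l = 1
      · rw [if_pos h1, if_pos rfl]
        have : (if c ∈ Bs P l j P then (1 : ℤ) else 0) = P c j := by
          rcases P.zo c j with h | h
          · rw [h, if_neg]; rw [mem_Bs]; omega
          · rw [h, if_pos]; rw [mem_Bs]; exact ⟨h1, h⟩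
        rw [this]; ring
      · rw [if_neg h1, if_neg (fun h => h1 (mem_Zs.1 (hB h))), if_neg (fun h => h1 (mem_Bs.1 h).1)]
        ring
    simp_rw [e]
    rw [Finset.sum_add_distrib, Finset.sum_sub_distrib, P.row j]
    simp [hcard]
  refine ⟨?_, ?_, ?_⟩
  · intro c i
    unfold mkF
    have h1 := P.zo c i
    have h2 := P.zo c l
    split_ifs <;> simp_all
  · intro c
    rw [fin3_sum hlj hlk hjk]; exact hcol3 c
  · intro i
    rcases fin3_cases hlj hlk hjk i with h | h | h
    · rw [h]; exact hrow_l
    · rw [h]; exact hrow_j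
    · rw [h]; exact row_third (P := P) hlj hlk hjk hcol3 hrow_l hrow_j

/-- constructor -/
def M3.of (A : C → Fin 3 → ℤ) (h : IsM3 R S A) : M3 R S := ⟨A, h⟩

theorem M3.of_apply (A : C → Fin 3 → ℤ) (h : IsM3 R S A) (x : C) (i : Fin 3) :
    (M3.of A h) x i = A x i := rfl

open scoped Classical in
/-- the element of the class of `P` with given set -/
noncomputable def mk (P : M3 R S) (l j : Fin 3) (B : Finset C) : M3 R S :=
  if h : IsM3 R S (mkF P l j B) then M3.of (mkF P l j B) h else P

theorem mk_apply {P : M3 R S} {l j k : Fin 3} (hlj : l ≠ j) (hlk : l ≠ k) (hjk : j ≠ k)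
    {B : Finset C} (hB : B ∈ (Zs P l).powersetCard (Bs P l j P).card) (x : C) (i : Fin 3) :
    (mk P l j B) x i = mkF P l j B x i := by
  unfold mk
  rw [dif_pos (mkF_isM3 hlj hlk hjk hB), M3.of_apply]

theorem mk_l {P : M3 R S} {l j k : Fin 3} (hlj : l ≠ j) (hlk : l ≠ k) (hjk : j ≠ k)
    {B : Finset C} (hB : B ∈ (Zs P l).powersetCard (Bs P l j P).card) (x : C) :
    (mk P l j B) x l = P x l := by
  rw [mk_apply hlj hlk hjk hB]; unfold mkF; rw [if_pos rfl]

theorem mk_nZ {P : M3 R S} {l j k : Fin 3} (hlj : l ≠ j) (hlk : l ≠ k) (hjk : j ≠ k)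
    {B : Finset C} (hB : B ∈ (Zs P l).powersetCard (Bs P l j P).card) {x : C}
    (hx : S x - P x l ≠ 1) (i : Fin 3) :
    (mk P l j B) x i = P x i := by
  rw [mk_apply hlj hlk hjk hB]; unfold mkF
  split_ifs with h1
  · rw [h1]
  · rfl

theorem mk_jin {P : M3 R S} {l j k : Fin 3} (hlj : l ≠ j) (hlk : l ≠ k) (hjk : j ≠ k)
    {B : Finset C} (hB : B ∈ (Zs P l).powersetCard (Bs P l j P).card) {x : C}
    (hx : S x - P x l = 1) (hx' : x ∈ B) :
    (mk P l j B) x j = 1 := by
  rw [mk_apply hlj hlk hjk hB]; unfold mkF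
  rw [if_neg hlj.symm, if_pos hx, if_pos rfl, if_pos hx']

theorem mk_jout {P : M3 R S} {l j k : Fin 3} (hlj : l ≠ j) (hlk : l ≠ k) (hjk : j ≠ k)
    {B : Finset C} (hB : B ∈ (Zs P l).powersetCard (Bs P l j P).card) {x : C}
    (hx : S x - P x l = 1) (hx' : x ∉ B) :
    (mk P l j B) x j = 0 := by
  rw [mk_apply hlj hlk hjk hB]; unfold mkF
  rw [if_neg hlj.symm, if_pos hx, if_pos rfl, if_neg hx']

theorem mk_kin {P : M3 R S} {l j k : Fin 3} (hlj : l ≠ j) (hlk : l ≠ k) (hjk : j ≠ k)
    {B : Finset C} (hB : B ∈ (Zs P l).powersetCard (Bs P l j P).card) {x : C}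
    (hx : S x - P x l = 1) (hx' : x ∈ B) :
    (mk P l j B) x k = 0 := by
  rw [mk_apply hlj hlk hjk hB]; unfold mkF
  rw [if_neg hlk.symm, if_pos hx, if_neg hjk.symm, if_pos hx']

theorem mk_kout {P : M3 R S} {l j k : Fin 3} (hlj : l ≠ j) (hlk : l ≠ k) (hjk : j ≠ k)
    {B : Finset C} (hB : B ∈ (Zs P l).powersetCard (Bs P l j P).card) {x : C}
    (hx : S x - P x l = 1) (hx' : x ∉ B) :
    (mk P l j B) x k = 1 := by
  rw [mk_apply hlj hlk hjk hB]; unfold mkF
  rw [if_neg hlk.symm, if_pos hx, if_neg hjk.symm, if_neg hx']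

theorem Bs_mem {P N : M3 R S} {l j k : Fin 3} (hlj : l ≠ j) (hlk : l ≠ k) (hjk : j ≠ k)
    (hN : rowRel l P N) : Bs P l j N ∈ (Zs P l).powersetCard (Bs P l j P).card := by
  classical
  rw [mem_powersetCard]
  refine ⟨fun x hx => mem_Zs.2 (mem_Bs.1 hx).1, ?_⟩
  have e : ∀ c, N c j = P c j + ((if c ∈ Bs P l j N then (1 : ℤ) else 0) -
      (if c ∈ Bs P l j P then (1 : ℤ) else 0)) := by
    intro c
    have h1 := P.col3 hlj hlk hjk c
    have h2 := N.col3 hlj hlk hjk c
    have h3 := hN c
    have a1 := P.zo c j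
    have a2 := P.zo c k
    have b1 := N.zo c j
    have b2 := N.zo c k
    by_cases hZ : S c - P c l = 1
    · have t1 : (if c ∈ Bs P l j P then (1 : ℤ) else 0) = P c j := by
        rcases P.zo c j with h | h
        · rw [h, if_neg]; rw [mem_Bs]; omega
        · rw [h, if_pos]; rw [mem_Bs]; exact ⟨hZ, h⟩
      have t2 : (if c ∈ Bs P l j N then (1 : ℤ) else 0) = N c j := by
        rcases N.zo c j with h | h
        · rw [h, if_neg]; rw [mem_Bs]; omega
        · rw [h, if_pos]; rw [mem_Bs]; exact ⟨hZ, h⟩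
      rw [t1, t2]; ring
    · rw [if_neg (fun h => hZ (mem_Bs.1 h).1), if_neg (fun h => hZ (mem_Bs.1 h).1)]
      omega
  have h1 := N.row j
  simp_rw [e] at h1
  rw [Finset.sum_add_distrib, Finset.sum_sub_distrib, P.row j] at h1
  simp at h1
  omega

theorem sum_blk_param {P : M3 R S} {l j k : Fin 3} (hlj : l ≠ j) (hlk : l ≠ k) (hjk : j ≠ k)
    (F : M3 R S → ℝ) :
    ∑ N ∈ blk (rowRel l) P, F N =
      ∑ B ∈ (Zs P l).powersetCard (Bs P l j P).card, F (mk P l j B) := by
  classical
  have hmk : ∀ N ∈ blk (rowRel l) P, mk P l j (Bs P l j N) = N := by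
    intro N hN
    rw [mem_blk] at hN
    have hB := Bs_mem hlj hlk hjk hN
    apply M3.ext
    intro x i
    have h1 := P.col3 hlj hlk hjk x
    have h2 := N.col3 hlj hlk hjk x
    have h3 := hN x
    have a1 := P.zo x j
    have a2 := P.zo x k
    have b1 := N.zo x j
    have b2 := N.zo x k
    by_cases hZ : S x - P x l = 1
    · rcases fin3_cases hlj hlk hjk i with h | h | h
      · rw [h, mk_l hlj hlk hjk hB, h3]
      · rw [h]
        by_cases hx : x ∈ Bs P l j N
        · rw [mk_jin hlj hlk hjk hB hZ hx, (mem_Bs.1 hx).2]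
        · rw [mk_jout hlj hlk hjk hB hZ hx]
          rw [mem_Bs] at hx
          omega
      · rw [h]
        by_cases hx : x ∈ Bs P l j N
        · rw [mk_kin hlj hlk hjk hB hZ hx]
          rw [mem_Bs] at hx
          omega
        · rw [mk_kout hlj hlk hjk hB hZ hx]
          rw [mem_Bs] at hx
          omega
    · rw [mk_nZ hlj hlk hjk hB hZ]
      rcases fin3_cases hlj hlk hjk i with h | h | h
      · rw [h, h3]
      · rw [h]; omega
      · rw [h]; omega
  refine Finset.sum_nbij' (fun N => Bs P l j N) (fun B => mk P l j B) ?_ ?_ ?_ ?_ ?_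
  · intro N hN
    exact Bs_mem hlj hlk hjk (mem_blk.1 hN)
  · intro B hB
    rw [mem_blk]
    intro x
    rw [mk_l hlj hlk hjk hB]
  · exact hmk
  · intro B hB
    ext x
    rw [mem_Bs]
    have hBZ := (mem_powersetCard.1 hB).1
    constructor
    · rintro ⟨hZ, h1⟩
      by_contra hx
      rw [mk_jout hlj hlk hjk hB hZ hx] at h1
      omega
    · intro hx
      have hZ := mem_Zs.1 (hBZ hx)
      exact ⟨hZ, mk_jin hlj hlk hjk hB hZ hx⟩
  · intro N hN
    rw [hmk N hN]

theorem avg_param {P : M3 R S} {l j k : Fin 3} (hlj : l ≠ j) (hlk : l ≠ k) (hjk : j ≠ k)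
    (F : M3 R S → ℝ) :
    avg (rowRel l) F P = (∑ B ∈ (Zs P l).powersetCard (Bs P l j P).card, F (mk P l j B)) /
      (((Zs P l).powersetCard (Bs P l j P).card).card : ℝ) := by
  have h1 := sum_blk_param (P := P) hlj hlk hjk F
  have h2 := sum_blk_param (P := P) hlj hlk hjk (fun _ => 1)
  rw [Finset.sum_const, Finset.sum_const, nsmul_eq_mul, nsmul_eq_mul, mul_one, mul_one] at h2
  unfold avg
  rw [h1, h2]

theorem mk_swap {P : M3 R S} {l j k : Fin 3} (hlj : l ≠ j) (hlk : l ≠ k) (hjk : j ≠ k)
    {A A' : Finset C} (hA : A ∈ (Zs P l).powersetCard (Bs P l j P).card)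
    (hA' : A' ∈ (Zs P l).powersetCard (Bs P l j P).card) {u v : C} (huv : u ≠ v)
    (hu : S u - P u l = 1) (hv : S v - P v l = 1) (hS : S u = S v)
    (h1 : u ∈ A ↔ v ∈ A') (h2 : v ∈ A ↔ u ∈ A')
    (h3 : ∀ x, x ≠ u → x ≠ v → (x ∈ A ↔ x ∈ A')) :
    csw u v hS (mk P l j A) = mk P l j A' := by
  classical
  apply M3.ext
  intro x i
  rw [csw_apply]
  have key : ∀ y, S y - P y l = 1 → S x - P x l = 1 → P y l = P x l → (y ∈ A ↔ x ∈ A') →
      (mk P l j A) y i = (mk P l j A') x i := by
    intro y hy hx hyx hyA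
    rw [mk_apply hlj hlk hjk hA, mk_apply hlj hlk hjk hA']
    unfold mkF
    rw [if_pos hy, if_pos hx]
    by_cases hx' : x ∈ A'
    · rw [if_pos hx', if_pos hx', if_pos (hyA.2 hx'), if_pos (hyA.2 hx'), hyx]
    · rw [if_neg hx', if_neg hx', if_neg (fun h => hx' (hyA.1 h)),
        if_neg (fun h => hx' (hyA.1 h)), hyx]
  by_cases hxu : x = u
  · rw [hxu, Equiv.swap_apply_left]
    rw [hxu] at key
    exact key v hv hu (by omega) h2
  · by_cases hxv : x = v
    · rw [hxv, Equiv.swap_apply_right]
      rw [hxv] at key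
      exact key u hu hv (by omega) h1
    · rw [Equiv.swap_apply_of_ne_of_ne hxu hxv]
      by_cases hZ : S x - P x l = 1
      · exact key x hZ hZ rfl (h3 x hxu hxv)
      · rw [mk_nZ hlj hlk hjk hA hZ, mk_nZ hlj hlk hjk hA' hZ]

/-- unequal switch -/
def USw (c c' : C) (i j : Fin 3) (M M' : M3 R S) : Prop :=
  S c = 1 ∧ S c' = 2 ∧ i ≠ j ∧ M c i = 1 ∧ M c' i = 0 ∧ M' c j = 1 ∧ M' c' j = 0 ∧
    ∀ x, x ≠ c → x ≠ c' → ∀ l, M x l = M' x l

theorem USw.symm {c c' : C} {i j : Fin 3} {M M' : M3 R S} (h : USw c c' i j M M') :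
    USw c c' j i M' M := by
  obtain ⟨h1, h2, h3, h4, h5, h6, h7, h8⟩ := h
  exact ⟨h1, h2, h3.symm, h6, h7, h4, h5, fun x hx hx' l => (h8 x hx hx' l).symm⟩

theorem USw.ne {c c' : C} {i j : Fin 3} {M M' : M3 R S} (h : USw c c' i j M M') : c ≠ c' := by
  rintro rfl
  have := h.1
  have := h.2.1
  omega

/-- values of an unequal switch -/
theorem USw.vals {c c' : C} {i j k : Fin 3} {M M' : M3 R S} (h : USw c c' i j M M')
    (hik : i ≠ k) (hjk : j ≠ k) :
    M c i = 1 ∧ M c j = 0 ∧ M c k = 0 ∧ M c' i = 0 ∧ M c' j = 1 ∧ M c' k = 1 ∧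
    M' c i = 0 ∧ M' c j = 1 ∧ M' c k = 0 ∧ M' c' i = 1 ∧ M' c' j = 0 ∧ M' c' k = 1 := by
  obtain ⟨h1, h2, h3, h4, h5, h6, h7, h8⟩ := h
  have a1 := M.col3 h3 hik hjk c
  have a2 := M.col3 h3 hik hjk c'
  have a3 := M'.col3 h3 hik hjk c
  have a4 := M'.col3 h3 hik hjk c'
  have := M.zo c j
  have := M.zo c k
  have := M.zo c' j
  have := M.zo c' k
  have := M'.zo c i
  have := M'.zo c k
  have := M'.zo c' i
  have := M'.zo c' k
  omega

/-- Coupling for one row. -/
theorem b3_couple {f : M3 R S → ℝ} {K : ℝ}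
    (hsw : ∀ (c c' : C) (h : S c = S c') (M : M3 R S), f (csw c c' h M) = f M)
    (hK : ∀ (c c' : C) (i j : Fin 3) (M M' : M3 R S), USw c c' i j M M' → |f M' - f M| ≤ K)
    {c c' : C} {l j : Fin 3} {P Q : M3 R S} (h : USw c c' l j P Q) :
    |avg (rowRel l) f Q - avg (rowRel l) f P| ≤ K := by
  classical
  have hlj : l ≠ j := h.2.2.1
  obtain ⟨k, hlk, hjk⟩ := fin3_third hlj
  obtain ⟨v1, v2, v3, v4, v5, v6, v7, v8, v9, v10, v11, v12⟩ := h.vals hlk hjk
  have hcc := h.ne
  obtain ⟨hS1, hS2, -, -, -, -, -, hoth⟩ := h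
  have hcZ : c ∉ Zs P l := by rw [mem_Zs]; omega
  have hc'Z : c' ∉ Zs P l := by rw [mem_Zs]; omega
  have hZQ : Zs Q l = insert c (insert c' (Zs P l)) := by
    ext x
    rw [mem_insert, mem_insert, mem_Zs, mem_Zs]
    by_cases h1 : x = c
    · subst h1
      constructor
      · intro _; exact Or.inl rfl
      · intro _; omega
    · by_cases h2 : x = c'
      · subst h2
        constructor
        · intro _; exact Or.inr (Or.inl rfl)
        · intro _; omega
      · rw [hoth x h1 h2 l]
        constructor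
        · intro h3; exact Or.inr (Or.inr h3)
        · rintro (h3 | h3 | h3)
          · exact absurd h3 h1
          · exact absurd h3 h2
          · exact h3
  have hBQ : Bs Q l j Q = insert c (Bs P l j P) := by
    ext x
    rw [mem_insert, mem_Bs, mem_Bs]
    by_cases h1 : x = c
    · subst h1
      constructor
      · intro _; exact Or.inl rfl
      · intro _; exact ⟨by omega, v8⟩
    · by_cases h2 : x = c'
      · subst h2
        constructor
        · rintro ⟨-, h3⟩; omega
        · rintro (h3 | ⟨h3, h4⟩)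
          · exact absurd h3 h1
          · omega
      · rw [hoth x h1 h2 l, hoth x h1 h2 j]
        constructor
        · intro h3; exact Or.inr h3
        · rintro (h3 | h3)
          · exact absurd h3 h1
          · exact h3
  have hcB : c ∉ Bs P l j P := fun h => hcZ (mem_Zs.2 (mem_Bs.1 h).1)
  have hcard : (Bs Q l j Q).card = (Bs P l j P).card + 1 := by
    rw [hBQ, card_insert_of_notMem hcB]
  have hsub : Bs P l j P ⊆ Zs P l := fun x hx => mem_Zs.2 (mem_Bs.1 hx).1
  rw [avg_param (P := Q) hlj hlk hjk f, avg_param (P := P) hlj hlk hjk f, hZQ, hcard]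
  -- validity of sets for Q
  have hval : ∀ A : Finset C, A ⊆ insert c (insert c' (Zs P l)) →
      A.card = (Bs P l j P).card + 1 →
      A ∈ (Zs Q l).powersetCard (Bs Q l j Q).card := by
    intro A h1 h2
    rw [hZQ, hcard, mem_powersetCard]; exact ⟨h1, h2⟩
  have notin : ∀ B ∈ (Zs P l).powersetCard (Bs P l j P).card, c ∉ B ∧ c' ∉ B := fun B hB =>
    ⟨fun h => hcZ ((mem_powersetCard.1 hB).1 h), fun h => hc'Z ((mem_powersetCard.1 hB).1 h)⟩
  have val1 : ∀ B ∈ (Zs P l).powersetCard (Bs P l j P).card,
      insert c B ∈ (Zs Q l).powersetCard (Bs Q l j Q).card := by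
    intro B hB
    obtain ⟨n1, n2⟩ := notin B hB
    rw [mem_powersetCard] at hB
    apply hval
    · intro x hx
      rw [mem_insert] at hx ⊢
      rcases hx with hx | hx
      · exact Or.inl hx
      · exact Or.inr (mem_insert_of_mem (hB.1 hx))
    · rw [card_insert_of_notMem n1, hB.2]
  have val2 : ∀ B ∈ (Zs P l).powersetCard (Bs P l j P).card,
      insert c' B ∈ (Zs Q l).powersetCard (Bs Q l j Q).card := by
    intro B hB
    obtain ⟨n1, n2⟩ := notin B hB
    rw [mem_powersetCard] at hB
    apply hval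
    · intro x hx
      rw [mem_insert] at hx
      rw [mem_insert, mem_insert]
      rcases hx with hx | hx
      · exact Or.inr (Or.inl hx)
      · exact Or.inr (Or.inr (hB.1 hx))
    · rw [card_insert_of_notMem n2, hB.2]
  have hQc : S c - Q c l = 1 := by omega
  have hQc' : S c' - Q c' l = 1 := by omega
  have hZQ' : ∀ z ∈ Zs P l, S z - Q z l = 1 := by
    intro z hz
    have : z ∈ Zs Q l := by rw [hZQ]; exact mem_insert_of_mem (mem_insert_of_mem hz)
    exact mem_Zs.1 this
  -- the two basic comparisons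
  have hcomp : ∀ B ∈ (Zs P l).powersetCard (Bs P l j P).card, ∀ A ∈ (Zs Q l).powersetCard
      (Bs Q l j Q).card, (∀ x, x ≠ c → x ≠ c' → (x ∈ A ↔ x ∈ B)) →
      ∀ x, x ≠ c → x ≠ c' → ∀ i, (mk P l j B) x i = (mk Q l j A) x i := by
    intro B hB A hA hAB x hx hx' i
    rw [mk_apply hlj hlk hjk hB, mk_apply hlj hlk hjk hA]
    unfold mkF
    rw [hoth x hx hx' l, hoth x hx hx' i]
    have := hAB x hx hx'
    by_cases hxB : x ∈ B
    · rw [if_pos hxB, if_pos hxB, if_pos (this.2 hxB), if_pos (this.2 hxB)]
    · rw [if_neg hxB, if_neg hxB, if_neg (fun h => hxB (this.1 h)),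
        if_neg (fun h => hxB (this.1 h))]
  have H1 : ∀ B ∈ (Zs P l).powersetCard (Bs P l j P).card,
      |f (mk Q l j (insert c B)) - f (mk P l j B)| ≤ K := by
    intro B hB
    obtain ⟨n1, n2⟩ := notin B hB
    have hA := val1 B hB
    apply hK c c' l j
    refine ⟨hS1, hS2, hlj, ?_, ?_, ?_, ?_, ?_⟩
    · rw [mk_l hlj hlk hjk hB]; exact v1
    · rw [mk_l hlj hlk hjk hB]; exact v4
    · exact mk_jin hlj hlk hjk hA hQc (mem_insert_self _ _)
    · apply mk_jout hlj hlk hjk hA hQc'
      rw [mem_insert]; rintro (h | h)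
      · exact hcc h.symm
      · exact n2 h
    · apply hcomp B hB _ hA
      intro x hx hx'
      rw [mem_insert]
      exact ⟨fun h => h.resolve_left hx, fun h => Or.inr h⟩
  have H2 : ∀ B ∈ (Zs P l).powersetCard (Bs P l j P).card,
      |f (mk Q l j (insert c' B)) - f (mk P l j B)| ≤ K := by
    intro B hB
    obtain ⟨n1, n2⟩ := notin B hB
    have hA := val2 B hB
    apply hK c c' l k
    refine ⟨hS1, hS2, hlk, ?_, ?_, ?_, ?_, ?_⟩
    · rw [mk_l hlj hlk hjk hB]; exact v1
    · rw [mk_l hlj hlk hjk hB]; exact v4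
    · apply mk_kout hlj hlk hjk hA hQc
      rw [mem_insert]; rintro (h | h)
      · exact hcc h
      · exact n1 h
    · exact mk_kin hlj hlk hjk hA hQc' (mem_insert_self _ _)
    · apply hcomp B hB _ hA
      intro x hx hx'
      rw [mem_insert]
      exact ⟨fun h => h.resolve_left hx', fun h => Or.inr h⟩
  refine coupling (Zs P l) c c' hcZ hc'Z hcc (Bs P l j P).card (card_le_card hsub)
    (fun A => f (mk Q l j A)) (fun B => f (mk P l j B)) K H1 H2 ?_ ?_
  · -- A = B - z + c + c'
    intro B hB z hz
    obtain ⟨n1, n2⟩ := notin B hB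
    have hB' := mem_powersetCard.1 hB
    have hzZ := hB'.1 hz
    have hzQ := hZQ' z hzZ
    have hzc : z ≠ c := fun h => n1 (h ▸ hz)
    have hzc' : z ≠ c' := fun h => n2 (h ▸ hz)
    have hA : insert c (insert c' (B.erase z)) ∈ (Zs Q l).powersetCard (Bs Q l j Q).card := by
      apply hval
      · intro x hx
        rw [mem_insert, mem_insert] at hx ⊢
        rcases hx with hx | hx | hx
        · exact Or.inl hx
        · exact Or.inr (Or.inl hx)
        · exact Or.inr (Or.inr (hB'.1 (mem_of_mem_erase hx)))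
      · rw [card_insert_of_notMem, card_insert_of_notMem, card_erase_of_mem hz, hB'.2]
        · have : 0 < B.card := card_pos.2 ⟨z, hz⟩
          omega
        · intro h; exact n2 (mem_of_mem_erase h)
        · rw [mem_insert]; rintro (h | h)
          · exact hcc h
          · exact n1 (mem_of_mem_erase h)
    have hcol := Q.col3 hlj hlk hjk z
    have hzl := Q.zo z l
    rcases hzl with hzl | hzl
    · have hSz : S z = S c := by omega
      have := mk_swap hlj hlk hjk hA (val2 B hB) hzc hzQ hQc hSz
        (by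
          simp only [mem_insert, mem_erase]
          tauto)
        (by
          simp only [mem_insert, mem_erase]
          tauto)
        (by
          intro x hx1 hx2
          simp only [mem_insert, mem_erase]
          tauto)
      have e := hsw z c hSz (mk Q l j (insert c (insert c' (B.erase z))))
      rw [this] at e
      show |f (mk Q l j (insert c (insert c' (B.erase z)))) - f (mk P l j B)| ≤ K
      rw [← e]; exact H2 B hB
    · have hSz : S z = S c' := by omega
      have := mk_swap hlj hlk hjk hA (val1 B hB) hzc' hzQ hQc' hSz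
        (by
          simp only [mem_insert, mem_erase]
          constructor
          · rintro (h | h | h)
            · exact absurd h hzc
            · exact absurd h hzc'
            · exact absurd rfl h.1
          · rintro (h | h)
            · exact absurd h.symm hcc
            · exact absurd h n2)
        (by
          simp only [mem_insert, mem_erase]
          tauto)
        (by
          intro x hx1 hx2
          simp only [mem_insert, mem_erase]
          tauto)
      have e := hsw z c' hSz (mk Q l j (insert c (insert c' (B.erase z))))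
      rw [this] at e
      show |f (mk Q l j (insert c (insert c' (B.erase z)))) - f (mk P l j B)| ≤ K
      rw [← e]; exact H1 B hB
  · -- A = B + z
    intro B hB z hz
    obtain ⟨n1, n2⟩ := notin B hB
    have hB' := mem_powersetCard.1 hB
    rw [mem_sdiff] at hz
    obtain ⟨hzZ, hzB⟩ := hz
    have hzQ := hZQ' z hzZ
    have hzc : z ≠ c := fun h => hcZ (h ▸ hzZ)
    have hzc' : z ≠ c' := fun h => hc'Z (h ▸ hzZ)
    have hA : insert z B ∈ (Zs Q l).powersetCard (Bs Q l j Q).card := by
      apply hval
      · intro x hx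
        rw [mem_insert] at hx
        rw [mem_insert, mem_insert]
        rcases hx with hx | hx
        · rw [hx]; exact Or.inr (Or.inr hzZ)
        · exact Or.inr (Or.inr (hB'.1 hx))
      · rw [card_insert_of_notMem hzB, hB'.2]
    have hzl := Q.zo z l
    rcases hzl with hzl | hzl
    · have hSz : S z = S c := by omega
      have := mk_swap hlj hlk hjk hA (val1 B hB) hzc hzQ hQc hSz
        (by
          simp only [mem_insert]
          tauto)
        (by
          simp only [mem_insert]
          constructor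
          · rintro (h | h)
            · exact absurd h.symm hzc
            · exact absurd h n1
          · rintro (h | h)
            · exact absurd h hzc
            · exact absurd h hzB)
        (by
          intro x hx1 hx2
          simp only [mem_insert]
          tauto)
      have e := hsw z c hSz (mk Q l j (insert z B))
      rw [this] at e
      show |f (mk Q l j (insert z B)) - f (mk P l j B)| ≤ K
      rw [← e]; exact H1 B hB
    · have hSz : S z = S c' := by omega
      have := mk_swap hlj hlk hjk hA (val2 B hB) hzc' hzQ hQc' hSz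
        (by
          simp only [mem_insert]
          tauto)
        (by
          simp only [mem_insert]
          constructor
          · rintro (h | h)
            · exact absurd h.symm hzc'
            · exact absurd h n2
          · rintro (h | h)
            · exact absurd h hzc'
            · exact absurd h hzB)
        (by
          intro x hx1 hx2
          simp only [mem_insert]
          tauto)
      have e := hsw z c' hSz (mk Q l j (insert z B))
      rw [this] at e
      show |f (mk Q l j (insert z B)) - f (mk P l j B)| ≤ K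
      rw [← e]; exact H2 B hB

/-- Step 2. -/
theorem b3_step2 {f : M3 R S → ℝ} {lam : ℝ} (hl : 2 < lam)
    (hE : ∀ M, ∑ i, avg (rowRel i) f M = lam * f M)
    {c c' : C} {i j : Fin 3} {M M' : M3 R S} (h : USw c c' i j M M') : f M = f M' := by
  classical
  have hsw := b3_step1 hl hE
  set Tp := (univ : Finset ((C × C) × (Fin 3 × Fin 3) × (M3 R S × M3 R S))).filter
    (fun t => USw t.1.1 t.1.2 t.2.1.1 t.2.1.2 t.2.2.1 t.2.2.2) with hTp
  have hmem : ((c, c'), (i, j), (M, M')) ∈ Tp := by
    rw [hTp, mem_filter]; exact ⟨mem_univ _, h⟩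
  obtain ⟨t, ht, hmax⟩ := exists_max_image Tp (fun t => |f t.2.2.2 - f t.2.2.1|) ⟨_, hmem⟩
  obtain ⟨⟨a, a'⟩, ⟨p, q⟩, ⟨P, Q⟩⟩ := t
  rw [hTp, mem_filter] at ht
  have hPQ : USw a a' p q P Q := ht.2
  set K := |f Q - f P| with hKdef
  have hK : ∀ (c c' : C) (i j : Fin 3) (M M' : M3 R S), USw c c' i j M M' → |f M' - f M| ≤ K := by
    intro c c' i j M M' hM
    have : ((c, c'), (i, j), (M, M')) ∈ Tp := by
      rw [hTp, mem_filter]; exact ⟨mem_univ _, hM⟩
    exact hmax _ this
  have hpq : p ≠ q := hPQ.2.2.1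
  obtain ⟨r, hpr, hqr⟩ := fin3_third hpq
  have c1 := b3_couple hsw hK hPQ
  have c2 := b3_couple hsw hK hPQ.symm
  obtain ⟨v1, v2, v3, v4, v5, v6, v7, v8, v9, v10, v11, v12⟩ := hPQ.vals hpr hqr
  have hr : rowRel r P Q := by
    intro x
    by_cases h1 : x = a
    · subst h1; rw [v3, v9]
    · by_cases h2 : x = a'
      · subst h2; rw [v6, v12]
      · exact hPQ.2.2.2.2.2.2.2 x h1 h2 r
  have e1 := hE P
  have e2 := hE Q
  rw [fin3_sum hpq hpr hqr] at e1 e2
  rw [avg_eq (rowRel_equiv r) f hr] at e1
  have hlamK : lam * K ≤ 2 * K := by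
    calc lam * K = |lam * (f Q - f P)| := by
          rw [abs_mul, abs_of_pos (show 0 < lam by linarith)]
      _ = |(avg (rowRel p) f Q - avg (rowRel p) f P) -
            (avg (rowRel q) f P - avg (rowRel q) f Q)| := by
          congr 1; linarith
      _ ≤ |avg (rowRel p) f Q - avg (rowRel p) f P| +
            |avg (rowRel q) f P - avg (rowRel q) f Q| := abs_sub _ _
      _ ≤ 2 * K := by linarith
  have hK0 : K ≤ 0 := by
    have : 0 ≤ K := abs_nonneg _
    nlinarith
  have h1 := (hK c c' i j M M' h).trans hK0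
  have h2 : f M' - f M = 0 := abs_nonpos_iff.1 h1
  linarith

open scoped Classical in
/-- exchange rows `i, j` in columns `x, y` -/
noncomputable def rsF (x y : C) (i j : Fin 3) (M : M3 R S) : C → Fin 3 → ℤ := fun z l =>
  if z = x ∨ z = y then M z (Equiv.swap i j l) else M z l

theorem rsF_isM3 {x y : C} {i j k : Fin 3} (hxy : x ≠ y) (hij : i ≠ j) (hik : i ≠ k) (hjk : j ≠ k)
    {M : M3 R S} (h : M x i + M y i = M x j + M y j) : IsM3 R S (rsF x y i j M) := by
  classical
  have hcol : ∀ c, ∑ l, rsF x y i j M c l = S c := by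
    intro c
    rw [← M.col c]
    unfold rsF
    by_cases hc : c = x ∨ c = y
    · simp only [hc, if_true]
      exact Equiv.sum_comp (Equiv.swap i j) (fun l => M c l)
    · simp only [hc, if_false]
  refine ⟨?_, hcol, ?_⟩
  · intro c l
    unfold rsF
    split_ifs
    · exact M.zo _ _
    · exact M.zo _ _
  · intro l
    rw [← M.row l]
    have key : ∀ c, rsF x y i j M c l = M c l +
        ((if c = x then M c (Equiv.swap i j l) - M c l else 0) +
         (if c = y then M c (Equiv.swap i j l) - M c l else 0)) := by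
      intro c
      unfold rsF
      by_cases h1 : c = x
      · subst h1
        rw [if_pos (Or.inl rfl), if_pos rfl, if_neg hxy]; ring
      · by_cases h2 : c = y
        · subst h2
          rw [if_pos (Or.inr rfl), if_neg h1, if_pos rfl]; ring
        · rw [if_neg (by tauto), if_neg h1, if_neg h2]; ring
    simp_rw [key]
    rw [Finset.sum_add_distrib, Finset.sum_add_distrib, Finset.sum_ite_eq', Finset.sum_ite_eq',
      if_pos (mem_univ _), if_pos (mem_univ _)]
    rcases fin3_cases hij hik hjk l with hl | hl | hl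
    · rw [hl, Equiv.swap_apply_left]; linarith
    · rw [hl, Equiv.swap_apply_right]; linarith
    · rw [hl, Equiv.swap_apply_of_ne_of_ne hik.symm hjk.symm]; ring

/-- Step 3. -/
theorem b3_step3 {f : M3 R S → ℝ}
    (hsw : ∀ (c c' : C) (h : S c = S c') (M : M3 R S), f (csw c c' h M) = f M)
    (husw : ∀ (c c' : C) (i j : Fin 3) (M M' : M3 R S), USw c c' i j M M' → f M = f M')
    {i j k : Fin 3} (hij : i ≠ j) (hik : i ≠ k) (hjk : j ≠ k) :
    ∀ (n : ℕ) (M N : M3 R S), rowRel k M N → (∑ x, |M x j - N x j|) ≤ n → f M = f N := by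
  classical
  intro n
  induction n with
  | zero =>
    intro M N h hn
    have h0 : ∀ x, M x j = N x j := by
      intro x
      have h1 : |M x j - N x j| ≤ ∑ x, |M x j - N x j| :=
        Finset.single_le_sum (f := fun x => |M x j - N x j|) (fun _ _ => abs_nonneg _)
          (mem_univ x)
      have h2 : |M x j - N x j| ≤ 0 := by
        refine h1.trans (hn.trans ?_)
        simp
      have h3 := abs_nonpos_iff.1 h2
      omega
    have : M = N := by
      apply M3.ext
      intro x l
      have h1 := M.col3 hij hik hjk x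
      have h2 := N.col3 hij hik hjk x
      have h3 := h x
      have h4 := h0 x
      rcases fin3_cases hij hik hjk l with hl | hl | hl
      · rw [hl]; omega
      · rw [hl]; exact h4
      · rw [hl]; exact h3
    rw [this]
  | succ n ih =>
    intro M N h hn
    by_cases hall : ∀ x, M x j = N x j
    · apply ih M N h
      have : ∑ x, |M x j - N x j| = 0 := by
        apply Finset.sum_eq_zero
        intro x _
        rw [hall x, sub_self, abs_zero]
      rw [this]; positivity
    -- there are x, y
    have hsum : ∑ x, (M x j - N x j) = 0 := by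
      rw [Finset.sum_sub_distrib, M.row, N.row, sub_self]
    have hx : ∃ x, M x j = 1 ∧ N x j = 0 := by
      by_contra hcon
      push Not at hcon
      have hle : ∀ x ∈ univ, M x j - N x j ≤ 0 := by
        intro x _
        have h1 := M.zo x j
        have h2 := N.zo x j
        have h3 := hcon x
        omega
      have := (Finset.sum_eq_zero_iff_of_nonpos hle).1 hsum
      exact hall fun x => by have := this x (mem_univ _); omega
    have hy : ∃ y, M y j = 0 ∧ N y j = 1 := by
      by_contra hcon
      push Not at hcon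
      have hle : ∀ x ∈ univ, 0 ≤ M x j - N x j := by
        intro x _
        have h1 := M.zo x j
        have h2 := N.zo x j
        have h3 := hcon x
        omega
      have := (Finset.sum_eq_zero_iff_of_nonneg hle).1 hsum
      exact hall fun x => by have := this x (mem_univ _); omega
    obtain ⟨x, hx1, hx2⟩ := hx
    obtain ⟨y, hy1, hy2⟩ := hy
    have hxy : x ≠ y := by rintro rfl; omega
    have a1 := M.col3 hij hik hjk x
    have a2 := M.col3 hij hik hjk y
    have a3 := N.col3 hij hik hjk x
    have a4 := N.col3 hij hik hjk y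
    have b1 := h x
    have b2 := h y
    have z1 := M.zo x i
    have z2 := M.zo y i
    have z3 := N.zo x i
    have z4 := N.zo y i
    have z5 := M.zo x k
    have z6 := M.zo y k
    have hMxi : M x i = 0 := by omega
    have hMyi : M y i = 1 := by omega
    have hval : M x i + M y i = M x j + M y j := by omega
    set M' : M3 R S := ⟨rsF x y i j M, rsF_isM3 hxy hij hik hjk hval⟩ with hM'
    have hM'a : ∀ z l, M' z l = rsF x y i j M z l := fun z l => rfl
    have m_xi : M' x i = 1 := by
      rw [hM'a]; unfold rsF; rw [if_pos (Or.inl rfl), Equiv.swap_apply_left]; exact hx1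
    have m_xj : M' x j = 0 := by
      rw [hM'a]; unfold rsF; rw [if_pos (Or.inl rfl), Equiv.swap_apply_right]; exact hMxi
    have m_xk : M' x k = M x k := by
      rw [hM'a]; unfold rsF
      rw [if_pos (Or.inl rfl), Equiv.swap_apply_of_ne_of_ne hik.symm hjk.symm]
    have m_yi : M' y i = 0 := by
      rw [hM'a]; unfold rsF; rw [if_pos (Or.inr rfl), Equiv.swap_apply_left]; exact hy1
    have m_yj : M' y j = 1 := by
      rw [hM'a]; unfold rsF; rw [if_pos (Or.inr rfl), Equiv.swap_apply_right]; exact hMyi
    have m_yk : M' y k = M y k := by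
      rw [hM'a]; unfold rsF
      rw [if_pos (Or.inr rfl), Equiv.swap_apply_of_ne_of_ne hik.symm hjk.symm]
    have m_o : ∀ z, z ≠ x → z ≠ y → ∀ l, M' z l = M z l := by
      intro z h1 h2 l
      rw [hM'a]; unfold rsF; rw [if_neg (by tauto)]
    -- f M = f M'
    have hfM : f M = f M' := by
      by_cases hS : S x = S y
      · have : csw x y hS M = M' := by
          apply M3.ext
          intro z l
          rw [csw_apply]
          by_cases h1 : z = x
          · subst h1
            rw [Equiv.swap_apply_left]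
            rcases fin3_cases hij hik hjk l with hl | hl | hl
            · rw [hl]; omega
            · rw [hl]; omega
            · rw [hl]; omega
          · by_cases h2 : z = y
            · subst h2
              rw [Equiv.swap_apply_right]
              rcases fin3_cases hij hik hjk l with hl | hl | hl
              · rw [hl]; omega
              · rw [hl]; omega
              · rw [hl]; omega
            · rw [Equiv.swap_apply_of_ne_of_ne h1 h2, m_o z h1 h2]
        rw [← this, hsw]
      · -- different types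
        have hcase : (S x = 1 ∧ S y = 2) ∨ (S x = 2 ∧ S y = 1) := by omega
        rcases hcase with ⟨s1, s2⟩ | ⟨s1, s2⟩
        · exact husw x y j i M M' ⟨s1, s2, hij.symm, hx1, hy1, m_xi, m_yi,
            fun z h1 h2 l => (m_o z h1 h2 l).symm⟩
        · exact husw y x i j M M' ⟨s2, s1, hij, hMyi, hMxi, m_yj, m_xj,
            fun z h1 h2 l => (m_o z h2 h1 l).symm⟩
    rw [hfM]
    apply ih M' N
    · intro z
      by_cases h1 : z = x
      · subst h1; rw [m_xk, b1]
      · by_cases h2 : z = y
        · subst h2; rw [m_yk, b2]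
        · rw [m_o z h1 h2, h z]
    · have hlt : ∑ z, |M' z j - N z j| < ∑ z, |M z j - N z j| := by
        apply Finset.sum_lt_sum
        · intro z _
          by_cases h1 : z = x
          · subst h1; rw [m_xj, hx2, sub_self, abs_zero]; exact abs_nonneg _
          · by_cases h2 : z = y
            · subst h2; rw [m_yj, hy2, sub_self, abs_zero]; exact abs_nonneg _
            · rw [m_o z h1 h2]
        · refine ⟨x, mem_univ _, ?_⟩
          rw [m_xj, hx2, hx1]; norm_num
      have := hlt.trans_le hn
      push_cast at this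
      omega

theorem b3_inv {f : M3 R S → ℝ} {lam : ℝ} (hl : 2 < lam)
    (hE : ∀ M, ∑ i, avg (rowRel i) f M = lam * f M) (k : Fin 3) {M N : M3 R S}
    (h : rowRel k M N) : f M = f N := by
  obtain ⟨i, j, h1, h2, h3⟩ := fin3_others k
  obtain ⟨n, hn⟩ : ∃ n : ℕ, (∑ x, |M x j - N x j|) ≤ n := by
    refine ⟨(∑ x, |M x j - N x j|).toNat, ?_⟩
    exact Int.self_le_toNat _
  exact b3_step3 (b3_step1 hl hE) (fun c c' i j M M' h => b3_step2 hl hE h) h3 h1.symm h2.symm
    n M N h hn

/-- `dif r` as a linear map -/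
noncomputable def difL {X : Type*} [Fintype X] (r : X → X → Prop) : (X → ℝ) →ₗ[ℝ] (X → ℝ) where
  toFun := dif r
  map_add' f g := by
    funext x
    have := congrFun (avg_add (r := r) f g) x
    show f x + g x - avg r (fun x => f x + g x) x = (f x - avg r f x) + (g x - avg r g x)
    rw [this]; ring
  map_smul' c f := by
    funext x
    have := congrFun (avg_smul (r := r) c f) x
    show c * f x - avg r (fun x => c * f x) x = c * (f x - avg r f x)
    rw [this]; ring

theorem difL_apply {X : Type*} [Fintype X] (r : X → X → Prop) (f : X → ℝ) :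
    difL r f = dif r f := rfl

/-- The three-row inequality. -/
theorem b3 (f : M3 R S → ℝ) :
    0 ≤ ∑ M, (dif (rowRel 0) f M * dif (rowRel 1) f M + dif (rowRel 0) f M * dif (rowRel 2) f M +
      dif (rowRel 1) f M * dif (rowRel 2) f M) := by
  classical
  set T : (M3 R S → ℝ) →ₗ[ℝ] (M3 R S → ℝ) :=
    difL (rowRel 0) + difL (rowRel 1) + difL (rowRel 2) with hTdef
  have hTa : ∀ g M, T g M = dif (rowRel 0) g M + dif (rowRel 1) g M + dif (rowRel 2) g M := by
    intro g M; rfl
  have hsym : ∀ f g : M3 R S → ℝ, ∑ x, T f x * g x = ∑ x, f x * T g x := by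
    intro f g
    simp only [hTa, add_mul, mul_add, Finset.sum_add_distrib]
    rw [sum_dif_mul (rowRel_equiv 0), sum_dif_mul (rowRel_equiv 1), sum_dif_mul (rowRel_equiv 2)]
  have key := eig_sq T hsym 1 (by
    intro g s hg hs
    rw [one_mul]
    by_cases h0 : s ≤ 0
    · exact h0.trans (sq_nonneg s)
    by_cases h1 : 1 ≤ s
    · nlinarith
    exfalso
    push Not at h0 h1
    have hE : ∀ M, ∑ i, avg (rowRel i) g M = (3 - s) * g M := by
      intro M
      have := congrFun hs M
      rw [hTa] at this
      simp only [dif, Pi.smul_apply, smul_eq_mul] at this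
      rw [Fin.sum_univ_three]
      linarith
    have hl : 2 < 3 - s := by linarith
    have hdif : ∀ i M, dif (rowRel i) g M = 0 := by
      intro i M
      unfold dif
      rw [avg_of_inv (rowRel_equiv i) (fun y hy => (b3_inv hl hE i hy).symm), sub_self]
    apply hg
    funext M
    have := congrFun hs M
    rw [hTa, hdif, hdif, hdif] at this
    simp only [Pi.smul_apply, smul_eq_mul] at this
    have h2 : s * g M = 0 := by linarith
    rcases mul_eq_zero.1 h2 with h | h
    · linarith
    · simpa using h) f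
  rw [one_mul] at key
  have e1 : ∑ x, f x * T f x = ∑ x, ((dif (rowRel 0) f x) ^ 2 + (dif (rowRel 1) f x) ^ 2 +
      (dif (rowRel 2) f x) ^ 2) := by
    simp only [hTa, mul_add, Finset.sum_add_distrib]
    rw [sum_dif_sq (rowRel_equiv 0), sum_dif_sq (rowRel_equiv 1), sum_dif_sq (rowRel_equiv 2)]
  have e2 : ∑ x, (T f x) ^ 2 = ∑ x, ((dif (rowRel 0) f x) ^ 2 + (dif (rowRel 1) f x) ^ 2 +
      (dif (rowRel 2) f x) ^ 2) +
      2 * ∑ M, (dif (rowRel 0) f M * dif (rowRel 1) f M + dif (rowRel 0) f M * dif (rowRel 2) f M +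
      dif (rowRel 1) f M * dif (rowRel 2) f M) := by
    rw [Finset.mul_sum, ← Finset.sum_add_distrib]
    refine Finset.sum_congr rfl fun M _ => ?_
    rw [hTa]; ring
  rw [e1, e2] at key
  linarith

end B3

end Crest.Agent.SwC
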