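import Crest.Agent.SwC_Avg
import Crest.Agent.SwC_Spec

/-!
Definitions for the abstract three-row systems.
-/

set_option autoImplicit false

open Finset

namespace Crest.Agent.SwC

/-- 0/1 matrices with columns indexed by `C`, three rows, row sums `R` and column sums `S`. -/
def IsM3 {C : Type*} [Fintype C] (R : Fin 3 → ℤ) (S : C → ℤ) (M : C → Fin 3 → ℤ) : Prop :=
  (∀ c i, M c i = 0 ∨ M c i = 1) ∧ (∀ c, ∑ i, M c i = S c) ∧ ∀ i, ∑ c, M c i = R i

/-- the type of 0/1 matrices with given margins. -/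
def M3 {C : Type*} [Fintype C] (R : Fin 3 → ℤ) (S : C → ℤ) : Type _ :=
  {M : C → Fin 3 → ℤ // IsM3 R S M}

variable {C : Type*} [Fintype C] {R : Fin 3 → ℤ} {S : C → ℤ}

instance : CoeFun (M3 R S) (fun _ => C → Fin 3 → ℤ) := ⟨fun G => G.1⟩

instance : Finite (M3 R S) := by
  have h : (Set.univ.pi fun _ : C => Set.univ.pi fun _ : Fin 3 => ({0, 1} : Set ℤ)).Finite :=
    Set.Finite.pi fun _ => Set.Finite.pi fun _ => Set.toFinite _
  refine (h.subset ?_).to_subtype
  intro A hA x _ y _
  rcases hA.1 x y with h | h <;> simp [h]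

noncomputable instance : Fintype (M3 R S) := Fintype.ofFinite _

/-- same row `i` -/
def rowRel (i : Fin 3) (M N : M3 R S) : Prop := ∀ c, M c i = N c i

theorem rowRel_equiv (i : Fin 3) : Equivalence (rowRel (R := R) (S := S) i) where
  refl _ := fun _ => rfl
  symm h := fun c => (h c).symm
  trans h h' := fun c => (h c).trans (h' c)

end Crest.Agent.SwC
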