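import Crest.Agent.SwC_Basic
import Crest.Agent.SwC_M3
import Crest.Agent.SwC_B3

/-!
S0453, task SwC-3: transfer of the three-row inequality to a triple of vertices.
-/

set_option autoImplicit false
set_option linter.unusedSectionVars false

open Finset

namespace Crest.Agent.SwC

namespace Share

variable {V : Type*} [Fintype V] {d : V → ℤ}

theorem fin3_facts : ∀ a b c : Fin 3, a ≠ b → a ≠ c → b ≠ c →
    -(b + c) = a ∧ -(a + b) = c ∧ -(a + c) = b ∧ ∀ x, x = a ∨ x = b ∨ x = c := by
  decide

theorem fin3_sum (F : Fin 3 → ℤ) (a b c : Fin 3) (h1 : a ≠ b) (h2 : a ≠ c) (h3 : b ≠ c) :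
    ∑ i, F i = F a + F b + F c := by
  rw [Fin.sum_univ_three]
  fin_cases a <;> fin_cases b <;> fin_cases c <;> simp_all <;> ring

theorem sumV (v : Fin 3 → V) (hv : Function.Injective v) (F : V → ℤ) :
    ∑ y, F y = ∑ a, F (v a) +
      ∑ y, (open scoped Classical in if (∃ a, v a = y) then 0 else F y) := by
  classical
  have h1 : ∑ y, F y = ∑ y, ((if (∃ a, v a = y) then F y else 0) +
      (if (∃ a, v a = y) then 0 else F y)) := by
    refine Finset.sum_congr rfl fun y _ => ?_
    split_ifs <;> simp
  rw [h1, Finset.sum_add_distrib]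
  congr 1
  · rw [← Finset.sum_filter]
    have h2 : (univ.filter fun y => ∃ a, v a = y) = univ.image v := by
      ext y
      simp
    rw [h2, Finset.sum_image (fun a _ b _ h => hv h)]

open scoped Classical in
/-- The matrix built from a three-row system. -/
noncomputable def phi (v : Fin 3 → V) (G : V → V → ℤ) (M : Option V → Fin 3 → ℤ) (x y : V) : ℤ :=
  if hx : ∃ a, v a = x then
    if hy : ∃ b, v b = y then
      (if hx.choose = hy.choose then 0 else 1 - M none (-(hx.choose + hy.choose)))
    else M (some y) hx.choose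
  else if hy : ∃ b, v b = y then M (some x) hy.choose else G x y

variable {v : Fin 3 → V}

theorem choose_eq (hv : Function.Injective v) (a : Fin 3) (h : ∃ b, v b = v a) :
    h.choose = a := hv h.choose_spec

theorem phi_vv (hv : Function.Injective v) (G : V → V → ℤ) (M : Option V → Fin 3 → ℤ)
    (a b : Fin 3) : phi v G M (v a) (v b) = if a = b then 0 else 1 - M none (-(a + b)) := by
  unfold phi
  have hx : ∃ a', v a' = v a := ⟨a, rfl⟩
  have hy : ∃ b', v b' = v b := ⟨b, rfl⟩
  rw [dif_pos hx, dif_pos hy, choose_eq hv a hx, choose_eq hv b hy]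

theorem phi_vn (hv : Function.Injective v) (G : V → V → ℤ) (M : Option V → Fin 3 → ℤ)
    (a : Fin 3) {y : V} (hy : ¬ ∃ b, v b = y) : phi v G M (v a) y = M (some y) a := by
  unfold phi
  have hx : ∃ a', v a' = v a := ⟨a, rfl⟩
  rw [dif_pos hx, dif_neg hy, choose_eq hv a hx]

theorem phi_nv (hv : Function.Injective v) (G : V → V → ℤ) (M : Option V → Fin 3 → ℤ)
    {x : V} (b : Fin 3) (hx : ¬ ∃ a, v a = x) : phi v G M x (v b) = M (some x) b := by
  unfold phi
  have hy : ∃ b', v b' = v b := ⟨b, rfl⟩
  rw [dif_neg hx, dif_pos hy, choose_eq hv b hy]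

theorem phi_nn (G : V → V → ℤ) (M : Option V → Fin 3 → ℤ)
    {x y : V} (hx : ¬ ∃ a, v a = x) (hy : ¬ ∃ a, v a = y) : phi v G M x y = G x y := by
  unfold phi
  rw [dif_neg hx, dif_neg hy]

/-- number of edges in the triangle -/
def ee (v : Fin 3 → V) (G : Rz d) : ℤ := G (v 0) (v 1) + G (v 0) (v 2) + G (v 1) (v 2)

open scoped Classical in
/-- column sums -/
noncomputable def SS (v : Fin 3 → V) (G : Rz d) : Option V → ℤ
  | none => 3 - ee v G
  | some x => if (∃ a, v a = x) then 0 else ∑ a, G (v a) x

/-- row sums -/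
def RR (v : Fin 3 → V) (G : Rz d) (a : Fin 3) : ℤ := d (v a) - ee v G + 1

/-- the triple relation -/
def relT (v : Fin 3 → V) (G H : Rz d) : Prop :=
  (∀ x y, (¬ ∃ a, v a = x) → (¬ ∃ a, v a = y) → G x y = H x y) ∧
    (∀ x, (¬ ∃ a, v a = x) → ∑ a, G (v a) x = ∑ a, H (v a) x) ∧ ee v G = ee v H

theorem relT_equiv (v : Fin 3 → V) : Equivalence (relT (d := d) v) where
  refl G := ⟨fun _ _ _ _ => rfl, fun _ _ => rfl, rfl⟩
  symm h := ⟨fun x y h1 h2 => (h.1 x y h1 h2).symm, fun x h1 => (h.2.1 x h1).symm, h.2.2.symm⟩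
  trans h h' := ⟨fun x y h1 h2 => (h.1 x y h1 h2).trans (h'.1 x y h1 h2),
    fun x h1 => (h.2.1 x h1).trans (h'.2.1 x h1), h.2.2.trans h'.2.2⟩

theorem SS_zero {G : Rz d} (M : M3 (RR v G) (SS v G)) {x : V} (hx : ∃ a, v a = x) (a : Fin 3) :
    M (some x) a = 0 := by
  have h1 := M.2.2.1 (some x)
  have h2 : SS v G (some x) = 0 := by
    simp only [SS]
    rw [if_pos hx]
  rw [h2, Fin.sum_univ_three] at h1
  have h0 := M.2.1 (some x) 0
  have h1' := M.2.1 (some x) 1
  have h2' := M.2.1 (some x) 2
  fin_cases a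
  · show M.1 (some x) 0 = 0
    omega
  · show M.1 (some x) 1 = 0
    omega
  · show M.1 (some x) 2 = 0
    omega

theorem SS_none {G : Rz d} (M : M3 (RR v G) (SS v G)) :
    M none 0 + M none 1 + M none 2 = 3 - ee v G := by
  have h1 := M.2.2.1 none
  rw [Fin.sum_univ_three] at h1
  exact h1

theorem RR_sum {G : Rz d} (M : M3 (RR v G) (SS v G)) (a : Fin 3) :
    ∑ y, (open scoped Classical in if (∃ b, v b = y) then 0 else M (some y) a) =
      d (v a) - ee v G + 1 - M none a := by
  classical
  have h1 := M.2.2.2 a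
  rw [Fintype.sum_option] at h1
  have h2 : ∑ y, (if (∃ b, v b = y) then 0 else M (some y) a) = ∑ y, M (some y) a := by
    refine Finset.sum_congr rfl fun y _ => ?_
    by_cases h : ∃ b, v b = y
    · rw [if_pos h, SS_zero M h]
    · rw [if_neg h]
  have h3 : ∑ y, (open scoped Classical in if (∃ b, v b = y) then 0 else M (some y) a) =
      ∑ y, (if (∃ b, v b = y) then 0 else M (some y) a) := by
    refine Finset.sum_congr rfl fun y _ => ?_
    by_cases h : ∃ b, v b = y
    · simp [h]
    · simp [h]
  rw [h3, h2]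
  simp only [RR] at h1
  have h4 : M none a + ∑ y, M (some y) a = d (v a) - ee v G + 1 := h1
  linarith

theorem phi_isRz (hv : Function.Injective v) (G : Rz d) (M : M3 (RR v G) (SS v G)) :
    IsRz d (phi v G.1 M.1) := by
  classical
  refine ⟨?_, ?_, ?_, ?_⟩
  · intro x y
    by_cases hx : ∃ a, v a = x
    · obtain ⟨a, rfl⟩ := hx
      by_cases hy : ∃ b, v b = y
      · obtain ⟨b, rfl⟩ := hy
        rw [phi_vv hv]
        split_ifs
        · left; rfl
        · rcases M.2.1 none (-(a + b)) with h | h
          · right; rw [h]; rfl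
          · left; rw [h]; rfl
      · rw [phi_vn hv _ _ _ hy]
        exact M.2.1 _ _
    · by_cases hy : ∃ b, v b = y
      · obtain ⟨b, rfl⟩ := hy
        rw [phi_nv hv _ _ _ hx]
        exact M.2.1 _ _
      · rw [phi_nn _ _ hx hy]
        exact G.zo x y
  · intro x y
    by_cases hx : ∃ a, v a = x
    · obtain ⟨a, rfl⟩ := hx
      by_cases hy : ∃ b, v b = y
      · obtain ⟨b, rfl⟩ := hy
        rw [phi_vv hv, phi_vv hv]
        by_cases hab : a = b
        · rw [if_pos hab, if_pos hab.symm]
        · rw [if_neg hab, if_neg (fun h => hab h.symm), add_comm]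
      · rw [phi_vn hv _ _ _ hy, phi_nv hv _ _ _ hy]
    · by_cases hy : ∃ b, v b = y
      · obtain ⟨b, rfl⟩ := hy
        rw [phi_nv hv _ _ _ hx, phi_vn hv _ _ _ hx]
      · rw [phi_nn _ _ hx hy, phi_nn _ _ hy hx]
        exact G.symm x y
  · intro x
    by_cases hx : ∃ a, v a = x
    · obtain ⟨a, rfl⟩ := hx
      rw [phi_vv hv, if_pos rfl]
    · rw [phi_nn _ _ hx hx]
      exact G.diag x
  · intro x
    rw [sumV v hv]
    by_cases hx : ∃ a, v a = x
    · obtain ⟨a, rfl⟩ := hx
      have h1 : ∑ y, (open scoped Classical in if (∃ b, v b = y) then 0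
          else phi v G.1 M.1 (v a) y) =
          ∑ y, (open scoped Classical in if (∃ b, v b = y) then 0 else M (some y) a) := by
        refine Finset.sum_congr rfl fun y _ => ?_
        by_cases h : ∃ b, v b = y
        · rw [if_pos h, if_pos h]
        · rw [if_neg h, if_neg h, phi_vn hv _ _ _ h]
      rw [h1, RR_sum M a, Fin.sum_univ_three]
      rw [phi_vv hv, phi_vv hv, phi_vv hv]
      have h2 := SS_none M
      fin_cases a
      · show (if (0 : Fin 3) = 0 then (0 : ℤ) else 1 - M none (-(0 + 0))) +
          (if (0 : Fin 3) = 1 then 0 else 1 - M none (-(0 + 1))) +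
          (if (0 : Fin 3) = 2 then 0 else 1 - M none (-(0 + 2))) +
          (d (v 0) - ee v G + 1 - M none 0) = d (v 0)
        have e1 : (-(0 + 1) : Fin 3) = 2 := by decide
        have e2 : (-(0 + 2) : Fin 3) = 1 := by decide
        rw [if_pos rfl, if_neg (by decide), if_neg (by decide), e1, e2]
        linarith
      · show (if (1 : Fin 3) = 0 then (0 : ℤ) else 1 - M none (-(1 + 0))) +
          (if (1 : Fin 3) = 1 then 0 else 1 - M none (-(1 + 1))) +
          (if (1 : Fin 3) = 2 then 0 else 1 - M none (-(1 + 2))) +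
          (d (v 1) - ee v G + 1 - M none 1) = d (v 1)
        have e1 : (-(1 + 0) : Fin 3) = 2 := by decide
        have e2 : (-(1 + 2) : Fin 3) = 0 := by decide
        rw [if_neg (by decide), if_pos rfl, if_neg (by decide), e1, e2]
        linarith
      · show (if (2 : Fin 3) = 0 then (0 : ℤ) else 1 - M none (-(2 + 0))) +
          (if (2 : Fin 3) = 1 then 0 else 1 - M none (-(2 + 1))) +
          (if (2 : Fin 3) = 2 then 0 else 1 - M none (-(2 + 2))) +
          (d (v 2) - ee v G + 1 - M none 2) = d (v 2)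
        have e1 : (-(2 + 0) : Fin 3) = 1 := by decide
        have e2 : (-(2 + 1) : Fin 3) = 0 := by decide
        rw [if_neg (by decide), if_neg (by decide), if_pos rfl, e1, e2]
        linarith
    · have h1 : ∑ y, (open scoped Classical in if (∃ b, v b = y) then 0
          else phi v G.1 M.1 x y) =
          ∑ y, (open scoped Classical in if (∃ b, v b = y) then 0 else G x y) := by
        refine Finset.sum_congr rfl fun y _ => ?_
        by_cases h : ∃ b, v b = y
        · rw [if_pos h, if_pos h]
        · rw [if_neg h, if_neg h, phi_nn _ _ hx h]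
      have h2 : ∑ a, phi v G.1 M.1 x (v a) = ∑ a, G x (v a) := by
        have h3 : ∑ a, phi v G.1 M.1 x (v a) = ∑ a, M (some x) a :=
          Finset.sum_congr rfl fun a _ => phi_nv hv _ _ _ hx
        rw [h3]
        have h4 := M.2.2.1 (some x)
        have h5 : SS v G (some x) = ∑ a, G (v a) x := by
          simp only [SS]
          rw [if_neg hx]
        rw [h5] at h4
        rw [h4]
        exact Finset.sum_congr rfl fun a _ => G.symm _ _
      rw [h1, h2, ← sumV v hv (fun y => G x y)]
      exact G.deg x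

/-- the embedding of the three-row system -/
noncomputable def Phi (hv : Function.Injective v) (G : Rz d) (M : M3 (RR v G) (SS v G)) : Rz d :=
  ⟨phi v G.1 M.1, phi_isRz hv G M⟩

theorem Phi_vv (hv : Function.Injective v) (G : Rz d) (M : M3 (RR v G) (SS v G)) (a b : Fin 3) :
    (Phi hv G M) (v a) (v b) = if a = b then 0 else 1 - M none (-(a + b)) :=
  phi_vv hv _ _ a b

theorem Phi_vn (hv : Function.Injective v) (G : Rz d) (M : M3 (RR v G) (SS v G)) (a : Fin 3)
    {y : V} (hy : ¬ ∃ b, v b = y) : (Phi hv G M) (v a) y = M (some y) a :=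
  phi_vn hv _ _ a hy

theorem Phi_nn (hv : Function.Injective v) (G : Rz d) (M : M3 (RR v G) (SS v G))
    {x y : V} (hx : ¬ ∃ a, v a = x) (hy : ¬ ∃ b, v b = y) : (Phi hv G M) x y = G x y :=
  phi_nn _ _ hx hy

theorem Phi_inj (hv : Function.Injective v) (G : Rz d) : Function.Injective (Phi hv G) := by
  intro M N h
  have h' : ∀ x y, (Phi hv G M) x y = (Phi hv G N) x y := fun x y => by rw [h]
  apply Subtype.ext
  funext c a
  cases c with
  | none =>
    have key : ∀ b c : Fin 3, b ≠ c → M none (-(b + c)) = N none (-(b + c)) := by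
      intro b c hbc
      have := h' (v b) (v c)
      rw [Phi_vv, Phi_vv, if_neg hbc, if_neg hbc] at this
      linarith
    fin_cases a
    · exact key 1 2 (by decide)
    · exact key 0 2 (by decide)
    · exact key 0 1 (by decide)
  | some y =>
    by_cases hy : ∃ b, v b = y
    · have h1 := SS_zero M hy a
      have h2 := SS_zero N hy a
      exact h1.trans h2.symm
    · have := h' (v a) y
      rw [Phi_vn hv G M a hy, Phi_vn hv G N a hy] at this
      exact this

theorem relT_Phi (hv : Function.Injective v) (G : Rz d) (M : M3 (RR v G) (SS v G)) :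
    relT v G (Phi hv G M) := by
  refine ⟨?_, ?_, ?_⟩
  · intro x y hx hy
    exact (Phi_nn hv G M hx hy).symm
  · intro x hx
    have h4 := M.2.2.1 (some x)
    have h5 : SS v G (some x) = ∑ a, G (v a) x := by
      simp only [SS]
      rw [if_neg hx]
    rw [h5] at h4
    rw [← h4]
    exact Finset.sum_congr rfl fun a _ => (Phi_vn hv G M a hx).symm
  · have h1 := SS_none M
    have h2 : ee v (Phi hv G M) = (1 - M none 2) + (1 - M none 1) + (1 - M none 0) := by
      unfold ee
      rw [Phi_vv, Phi_vv, Phi_vv]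
      rfl
    rw [h2]
    linarith

open scoped Classical in
/-- the three-row system of a graph -/
noncomputable def mat (v : Fin 3 → V) (H : Rz d) : Option V → Fin 3 → ℤ
  | none, a => 1 - H (v (a + 1)) (v (a + 2))
  | some x, a => if (∃ b, v b = x) then 0 else H (v a) x

theorem ee_eq (H : Rz d) (a : Fin 3) :
    ee v H = H (v a) (v (a + 1)) + H (v a) (v (a + 2)) + H (v (a + 1)) (v (a + 2)) := by
  unfold ee
  fin_cases a
  · rfl
  · show _ = H (v 1) (v 2) + H (v 1) (v 0) + H (v 2) (v 0)
    rw [H.symm (v 1) (v 0), H.symm (v 2) (v 0)]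
    ring
  · show _ = H (v 2) (v 0) + H (v 2) (v 1) + H (v 0) (v 1)
    rw [H.symm (v 2) (v 0), H.symm (v 2) (v 1)]
    ring

theorem sum_vv (H : Rz d) (a : Fin 3) :
    ∑ b, H (v a) (v b) = H (v a) (v (a + 1)) + H (v a) (v (a + 2)) := by
  rw [Fin.sum_univ_three]
  fin_cases a
  · show H (v 0) (v 0) + H (v 0) (v 1) + H (v 0) (v 2) = H (v 0) (v 1) + H (v 0) (v 2)
    rw [H.diag]; ring
  · show H (v 1) (v 0) + H (v 1) (v 1) + H (v 1) (v 2) = H (v 1) (v 2) + H (v 1) (v 0)
    rw [H.diag]; ring
  · show H (v 2) (v 0) + H (v 2) (v 1) + H (v 2) (v 2) = H (v 2) (v 0) + H (v 2) (v 1)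
    rw [H.diag]; ring

theorem mat_isM3 (hv : Function.Injective v) (G H : Rz d) (h : relT v G H) :
    IsM3 (RR v G) (SS v G) (mat v H) := by
  classical
  refine ⟨?_, ?_, ?_⟩
  · intro c a
    cases c with
    | none =>
      simp only [mat]
      rcases H.zo (v (a + 1)) (v (a + 2)) with h | h
      · right; rw [h]; rfl
      · left; rw [h]; rfl
    | some x =>
      simp only [mat]
      split_ifs
      · left; rfl
      · exact H.zo _ _
  · intro c
    cases c with
    | none =>
      simp only [mat, SS]
      rw [h.2.2, Fin.sum_univ_three]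
      unfold ee
      show (1 - H (v 1) (v 2)) + (1 - H (v 2) (v 0)) + (1 - H (v 0) (v 1)) = _
      rw [H.symm (v 2) (v 0)]
      ring
    | some x =>
      simp only [mat, SS]
      by_cases hx : ∃ b, v b = x
      · simp only [if_pos hx]
        simp
      · simp only [if_neg hx]
        exact (h.2.1 x hx).symm
  · intro a
    rw [Fintype.sum_option]
    simp only [mat, RR]
    have h1 := H.deg (v a)
    rw [sumV v hv, sum_vv] at h1
    have h2 := ee_eq (v := v) H a
    rw [h.2.2]
    linarith

theorem Phi_mat (hv : Function.Injective v) (G H : Rz d) (h : relT v G H) :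
    Phi hv G ⟨mat v H, mat_isM3 hv G H h⟩ = H := by
  classical
  apply Rz.ext
  intro x y
  by_cases hx : ∃ a, v a = x
  · obtain ⟨a, rfl⟩ := hx
    by_cases hy : ∃ b, v b = y
    · obtain ⟨b, rfl⟩ := hy
      rw [Phi_vv]
      by_cases hab : a = b
      · rw [if_pos hab, hab, H.diag]
      · rw [if_neg hab]
        show 1 - (1 - H (v (-(a + b) + 1)) (v (-(a + b) + 2))) = H (v a) (v b)
        rw [sub_sub_cancel]
        have : (-(a + b) + 1 = a ∧ -(a + b) + 2 = b) ∨ (-(a + b) + 1 = b ∧ -(a + b) + 2 = a) := by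
          revert a b
          decide
        rcases this with ⟨h1, h2⟩ | ⟨h1, h2⟩
        · rw [h1, h2]
        · rw [h1, h2, H.symm]
    · rw [Phi_vn hv G _ a hy]
      show (if (∃ b, v b = y) then 0 else H (v a) y) = _
      rw [if_neg hy]
  · by_cases hy : ∃ b, v b = y
    · obtain ⟨b, rfl⟩ := hy
      rw [Rz.symm, Phi_vn hv G _ b hx, H.symm x (v b)]
      show (if (∃ b, v b = x) then 0 else H (v b) x) = _
      rw [if_neg hx]
    · rw [Phi_nn hv G _ hx hy]
      exact h.1 x y hx hy

theorem sum_blk (hv : Function.Injective v) (G : Rz d) (ψ : Rz d → ℝ) :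
    ∑ H ∈ blk (relT v) G, ψ H = ∑ M, ψ (Phi hv G M) := by
  classical
  have hb : blk (relT v) G = univ.image (Phi hv G) := by
    ext H
    simp only [mem_blk, Finset.mem_image, Finset.mem_univ, true_and]
    constructor
    · intro h
      exact ⟨_, Phi_mat hv G H h⟩
    · rintro ⟨M, rfl⟩
      exact relT_Phi hv G M
  rw [hb, Finset.sum_image (fun a _ b _ h => Phi_inj hv G h)]

theorem rel_Phi (hv : Function.Injective v) (G : Rz d) (M : M3 (RR v G) (SS v G))
    (a b c : Fin 3) (hab : a ≠ b) (hac : a ≠ c) (hbc : b ≠ c) (z : Rz d) :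
    rel (v b) (v c) (Phi hv G M) z ↔ ∃ N, z = Phi hv G N ∧ rowRel a M N := by
  obtain ⟨e1, e2, e3, e4⟩ := fin3_facts a b c hab hac hbc
  have hvb : v a ≠ v b := fun h => hab (hv h)
  have hvc : v a ≠ v c := fun h => hac (hv h)
  constructor
  · rintro ⟨h1, h2, h3⟩
    have hrel : relT v (Phi hv G M) z := by
      refine ⟨?_, ?_, ?_⟩
      · intro x y hx hy
        exact h1 x y (fun h => hx ⟨b, h.symm⟩) (fun h => hx ⟨c, h.symm⟩)
          (fun h => hy ⟨b, h.symm⟩) (fun h => hy ⟨c, h.symm⟩)
      · intro x hx
        have hxb : x ≠ v b := fun h => hx ⟨b, h.symm⟩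
        have hxc : x ≠ v c := fun h => hx ⟨c, h.symm⟩
        rw [fin3_sum _ a b c hab hac hbc, fin3_sum _ a b c hab hac hbc]
        have := h3 x hxb hxc
        have h4 := h1 (v a) x hvb hvc hxb hxc
        linarith
      · have h4 := h3 (v a) hvb hvc
        have key : ∀ H : Rz d, ee v H = H (v b) (v c) + (H (v b) (v a) + H (v c) (v a)) := by
          intro H
          unfold ee
          have s01 := H.symm (v 0) (v 1)
          have s02 := H.symm (v 0) (v 2)
          have s12 := H.symm (v 1) (v 2)
          fin_cases a <;> fin_cases b <;> fin_cases c <;>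
            first
              | exact absurd rfl hab
              | exact absurd rfl hac
              | exact absurd rfl hbc
              | (simp only [Fin.zero_eta, Fin.mk_one, Fin.reduceFinMk]; linarith)
        rw [key, key, h2, h4]
    have hrel' : relT v G z := (relT_equiv v).trans (relT_Phi hv G M) hrel
    refine ⟨⟨mat v z, mat_isM3 hv G z hrel'⟩, (Phi_mat hv G z hrel').symm, ?_⟩
    set N : M3 (RR v G) (SS v G) := ⟨mat v z, mat_isM3 hv G z hrel'⟩ with hN
    have hz : z = Phi hv G N := (Phi_mat hv G z hrel').symm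
    intro y
    cases y with
    | none =>
      have := h2
      rw [hz, Phi_vv, Phi_vv, if_neg hbc, if_neg hbc, e1] at this
      linarith
    | some y =>
      by_cases hy : ∃ b, v b = y
      · rw [SS_zero M hy a, SS_zero N hy a]
      · have hyb : y ≠ v b := fun h => hy ⟨b, h.symm⟩
        have hyc : y ≠ v c := fun h => hy ⟨c, h.symm⟩
        have := h1 (v a) y hvb hvc hyb hyc
        rw [hz, Phi_vn hv G M a hy, Phi_vn hv G N a hy] at this
        exact this
  · rintro ⟨N, rfl, hrow⟩
    refine ⟨?_, ?_, ?_⟩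
    · intro x y hxb hxc hyb hyc
      by_cases hx : ∃ a', v a' = x
      · obtain ⟨a', rfl⟩ := hx
        have ha' : a' = a := by
          rcases e4 a' with h | h | h
          · exact h
          · exact absurd (by rw [h]) hxb
          · exact absurd (by rw [h]) hxc
        subst ha'
        by_cases hy : ∃ b', v b' = y
        · obtain ⟨b', rfl⟩ := hy
          have hb' : b' = a' := by
            rcases e4 b' with h | h | h
            · exact h
            · exact absurd (by rw [h]) hyb
            · exact absurd (by rw [h]) hyc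
          subst hb'
          rw [Rz.diag, Rz.diag]
        · rw [Phi_vn hv G M _ hy, Phi_vn hv G N _ hy]
          exact hrow (some y)
      · by_cases hy : ∃ b', v b' = y
        · obtain ⟨b', rfl⟩ := hy
          have hb' : b' = a := by
            rcases e4 b' with h | h | h
            · exact h
            · exact absurd (by rw [h]) hyb
            · exact absurd (by rw [h]) hyc
          subst hb'
          rw [Rz.symm, Rz.symm (Phi hv G N), Phi_vn hv G M _ hx, Phi_vn hv G N _ hx]
          exact hrow (some x)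
        · rw [Phi_nn hv G M hx hy, Phi_nn hv G N hx hy]
    · rw [Phi_vv, Phi_vv, if_neg hbc, if_neg hbc, e1, hrow none]
    · intro x hxb hxc
      by_cases hx : ∃ a', v a' = x
      · obtain ⟨a', rfl⟩ := hx
        have ha' : a' = a := by
          rcases e4 a' with h | h | h
          · exact h
          · exact absurd (by rw [h]) hxb
          · exact absurd (by rw [h]) hxc
        subst ha'
        rw [Phi_vv, Phi_vv, Phi_vv, Phi_vv, if_neg hab.symm, if_neg hac.symm, if_neg hab.symm,
          if_neg hac.symm, add_comm b, add_comm c, e2, e3]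
        have hM := M.2.2.1 none
        have hN := N.2.2.1 none
        rw [fin3_sum _ a' b c hab hac hbc] at hM hN
        have := hrow none
        have h1 : M.1 none a' = N.1 none a' := this
        show 1 - M.1 none c + (1 - M.1 none b) = 1 - N.1 none c + (1 - N.1 none b)
        linarith
      · rw [Phi_vn hv G M _ hx, Phi_vn hv G M _ hx, Phi_vn hv G N _ hx, Phi_vn hv G N _ hx]
        have hM := M.2.2.1 (some x)
        have hN := N.2.2.1 (some x)
        rw [fin3_sum _ a b c hab hac hbc] at hM hN
        have h1 : M.1 (some x) a = N.1 (some x) a := hrow (some x)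
        show M.1 (some x) b + M.1 (some x) c = N.1 (some x) b + N.1 (some x) c
        linarith

theorem dif_Phi (hv : Function.Injective v) (G : Rz d) (M : M3 (RR v G) (SS v G))
    (a b c : Fin 3) (hab : a ≠ b) (hac : a ≠ c) (hbc : b ≠ c) (f : Rz d → ℝ) :
    dif (rel (v b) (v c)) f (Phi hv G M) = dif (rowRel a) (fun N => f (Phi hv G N)) M := by
  unfold dif
  rw [avg_comp_inj (r := rowRel a) (s := rel (v b) (v c)) (Phi hv G) (Phi_inj hv G)
    (fun x z => rel_Phi hv G x a b c hab hac hbc z) f M]

end Share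

open Share in
theorem share_nonneg {V : Type*} [Fintype V] {d : V → ℤ} {i j k : V} (hij : i ≠ j) (hik : i ≠ k)
    (hjk : j ≠ k) (f : Rz d → ℝ) :
    0 ≤ ∑ G, (dif (rel j k) f G * dif (rel i k) f G + dif (rel j k) f G * dif (rel i j) f G +
      dif (rel i k) f G * dif (rel i j) f G) := by
  have hv : Function.Injective ![i, j, k] := by
    intro a b h
    fin_cases a <;> fin_cases b <;> simp_all
  apply sum_nonneg_of_class (relT_equiv ![i, j, k])
  intro G
  rw [sum_blk hv]
  have h := b3 (fun M => f (Phi hv G M))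
  refine le_of_le_of_eq h ?_
  refine Finset.sum_congr rfl fun M _ => ?_
  rw [← dif_Phi hv G M 0 1 2 (by decide) (by decide) (by decide) f,
    ← dif_Phi hv G M 1 0 2 (by decide) (by decide) (by decide) f,
    ← dif_Phi hv G M 2 0 1 (by decide) (by decide) (by decide) f]
  rfl

end Crest.Agent.SwC
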