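import Crest.Agent.SwC_Basic
import Crest.Agent.SwC_Spec
import Crest.Agent.SwC_Share
import Crest.Agent.SwC_Disj
import Crest.Agent.SwC_John
import Crest.Agent.SwC_Conn

/-!
Assembly of the Poincaré inequality of the switch graph.
-/

set_option autoImplicit false
set_option linter.unusedSectionVars false

open Finset

namespace Crest.Agent.SwC

section Lin

variable {X : Type*} [Fintype X]

/-- `dif r` as a linear map -/
noncomputable def difLm (r : X → X → Prop) : (X → ℝ) →ₗ[ℝ] (X → ℝ) where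
  toFun := dif r
  map_add' f g := by
    funext x
    have := congrFun (avg_add (r := r) f g) x
    simp only [dif, Pi.add_apply] at *
    have h2 : avg r (f + g) x = avg r (fun x => f x + g x) x := rfl
    rw [h2, this]; ring
  map_smul' c f := by
    funext x
    have := congrFun (avg_smul (r := r) c f) x
    simp only [dif, Pi.smul_apply, smul_eq_mul, RingHom.id_apply] at *
    have h2 : avg r (c • f) x = avg r (fun x => c * f x) x := rfl
    rw [h2, this]; ring

@[simp] theorem difLm_apply (r : X → X → Prop) (f : X → ℝ) (x : X) : difLm r f x = dif r f x := rfl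

end Lin

section Comb

variable {V : Type*} [Fintype V]

open scoped Classical in
/-- partition of a sum over pairs of pairs according to the intersection pattern. -/
theorem sum_pairs (B : V → V → V → V → ℝ)
    (h0 : ∀ u x y, B u u x y = 0) (h1 : ∀ u w x y, B u w x y = B w u x y)
    (h2 : ∀ u w x y, B u w x y = B u w y x) (h3 : ∀ u w x y, B u w x y = B x y u w) :
    ∑ u, ∑ w, ∑ x, ∑ y, B u w x y =
      2 * ∑ u, ∑ w, B u w u w
      + 4 * ∑ i, ∑ j, ∑ k, (if i ≠ j ∧ i ≠ k ∧ j ≠ k then B i j i k else 0)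
      + ∑ u, ∑ w, ∑ x, ∑ y, (if Dist4 u w x y then B u w x y else 0) := by
  have h0' : ∀ u w x, B u w x x = 0 := fun u w x => by rw [h3, h0]
  have key : ∀ u w, ∑ x, ∑ y, B u w x y =
      2 * B u w u w + 2 * ∑ k, (if u ≠ w ∧ u ≠ k ∧ w ≠ k then B u w u k else 0)
      + 2 * ∑ k, (if u ≠ w ∧ u ≠ k ∧ w ≠ k then B u w w k else 0)
      + ∑ x, ∑ y, (if Dist4 u w x y then B u w x y else 0) := by
    intro u w
    by_cases huw : u = w
    · subst huw
      have : ∀ x y, ¬ Dist4 u u x y := fun x y h => h.1 rfl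
      simp [h0]
    have hp : ∀ x y, B u w x y =
        (if x = u then (if y = w then B u w u w else 0) else 0)
        + (if x = w then (if y = u then B u w u w else 0) else 0)
        + (if x = u then (if u ≠ w ∧ u ≠ y ∧ w ≠ y then B u w u y else 0) else 0)
        + (if y = u then (if u ≠ w ∧ u ≠ x ∧ w ≠ x then B u w u x else 0) else 0)
        + (if x = w then (if u ≠ w ∧ u ≠ y ∧ w ≠ y then B u w w y else 0) else 0)
        + (if y = w then (if u ≠ w ∧ u ≠ x ∧ w ≠ x then B u w w x else 0) else 0)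
        + (if Dist4 u w x y then B u w x y else 0) := by
      intro x y
      have huw' : w ≠ u := fun h => huw h.symm
      by_cases hxu : x = u
      · subst hxu
        by_cases hyx : y = x
        · subst hyx; simp [h0', huw, huw', Dist4]
        · by_cases hyw : y = w
          · subst hyw; simp [huw, huw', Dist4]
          · have a1 : x ≠ y := fun h => hyx h.symm
            have a2 : w ≠ y := fun h => hyw h.symm
            simp [huw, hyx, hyw, a1, a2, Dist4]
      · by_cases hxw : x = w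
        · subst hxw
          by_cases hyx : y = x
          · subst hyx; simp [h0', huw, huw', Dist4]
          · by_cases hyu : y = u
            · subst hyu; simp [huw, huw', Dist4]; exact h2 _ _ _ _
            · have a1 : x ≠ y := fun h => hyx h.symm
              have a2 : u ≠ y := fun h => hyu h.symm
              simp [huw, huw', hyx, hyu, a1, a2, Dist4]
        · have b1 : u ≠ x := fun h => hxu h.symm
          have b2 : w ≠ x := fun h => hxw h.symm
          by_cases hyu : y = u
          · subst hyu; simp [huw, hxu, hxw, b1, b2, Dist4]; exact h2 _ _ _ _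
          · by_cases hyw : y = w
            · subst hyw; simp [huw, huw', hxu, hxw, b1, b2, Dist4]; exact h2 _ _ _ _
            · have a1 : u ≠ y := fun h => hyu h.symm
              have a2 : w ≠ y := fun h => hyw h.symm
              by_cases hxy : x = y
              · subst hxy; simp [h0', hxu, hxw, Dist4]
              · simp [huw, hxu, hxw, hyu, hyw, hxy, a1, a2, b1, b2, Dist4]
    calc ∑ x, ∑ y, B u w x y = ∑ x, ∑ y, (
        (if x = u then (if y = w then B u w u w else 0) else 0)
        + (if x = w then (if y = u then B u w u w else 0) else 0)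
        + (if x = u then (if u ≠ w ∧ u ≠ y ∧ w ≠ y then B u w u y else 0) else 0)
        + (if y = u then (if u ≠ w ∧ u ≠ x ∧ w ≠ x then B u w u x else 0) else 0)
        + (if x = w then (if u ≠ w ∧ u ≠ y ∧ w ≠ y then B u w w y else 0) else 0)
        + (if y = w then (if u ≠ w ∧ u ≠ x ∧ w ≠ x then B u w w x else 0) else 0)
        + (if Dist4 u w x y then B u w x y else 0)) :=
          Finset.sum_congr rfl fun x _ => Finset.sum_congr rfl fun y _ => hp x y
      _ = _ := by
        simp only [Finset.sum_add_distrib]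
        have e1 : ∑ x, ∑ y, (if x = u then (if y = w then B u w u w else 0) else 0) = B u w u w := by
          simp
        have e2 : ∑ x, ∑ y, (if x = w then (if y = u then B u w u w else 0) else 0) = B u w u w := by
          simp
        have e3 : ∑ x, ∑ y, (if x = u then (if u ≠ w ∧ u ≠ y ∧ w ≠ y then B u w u y else 0) else 0)
            = ∑ y, (if u ≠ w ∧ u ≠ y ∧ w ≠ y then B u w u y else 0) := by
          rw [Finset.sum_comm]
          exact Finset.sum_congr rfl fun y _ => by rw [Finset.sum_ite_eq' univ u]; simp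
        have e4 : ∑ x, ∑ y, (if y = u then (if u ≠ w ∧ u ≠ x ∧ w ≠ x then B u w u x else 0) else 0)
            = ∑ y, (if u ≠ w ∧ u ≠ y ∧ w ≠ y then B u w u y else 0) := by
          exact Finset.sum_congr rfl fun y _ => by rw [Finset.sum_ite_eq' univ u]; simp
        have e5 : ∑ x, ∑ y, (if x = w then (if u ≠ w ∧ u ≠ y ∧ w ≠ y then B u w w y else 0) else 0)
            = ∑ y, (if u ≠ w ∧ u ≠ y ∧ w ≠ y then B u w w y else 0) := by
          rw [Finset.sum_comm]
          exact Finset.sum_congr rfl fun y _ => by rw [Finset.sum_ite_eq' univ w]; simp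
        have e6 : ∑ x, ∑ y, (if y = w then (if u ≠ w ∧ u ≠ x ∧ w ≠ x then B u w w x else 0) else 0)
            = ∑ y, (if u ≠ w ∧ u ≠ y ∧ w ≠ y then B u w w y else 0) := by
          exact Finset.sum_congr rfl fun y _ => by rw [Finset.sum_ite_eq' univ w]; simp
        rw [e1, e2, e3, e4, e5, e6]; ring
  simp_rw [key, Finset.sum_add_distrib, ← Finset.mul_sum]
  have e7 : ∑ u, ∑ w, ∑ k, (if u ≠ w ∧ u ≠ k ∧ w ≠ k then B u w w k else 0) =
      ∑ i, ∑ j, ∑ k, (if i ≠ j ∧ i ≠ k ∧ j ≠ k then B i j i k else 0) := by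
    rw [Finset.sum_comm]
    refine Finset.sum_congr rfl fun u _ => Finset.sum_congr rfl fun w _ =>
      Finset.sum_congr rfl fun k _ => ?_
    have : (w ≠ u ∧ w ≠ k ∧ u ≠ k) ↔ (u ≠ w ∧ u ≠ k ∧ w ≠ k) :=
      ⟨fun ⟨a, b, c⟩ => ⟨a.symm, c, b⟩, fun ⟨a, b, c⟩ => ⟨a.symm, c, b⟩⟩
    simp only [this, h1 w u]
  rw [e7]; ring

end Comb

section Graph

variable {V : Type*} [Fintype V] {d : V → ℤ}

open scoped Classical in
/-- The operator `K = ∑_{u ≠ w} D_{uw}` (ordered pairs). -/
noncomputable def Kop (d : V → ℤ) : (Rz d → ℝ) →ₗ[ℝ] (Rz d → ℝ) :=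
  ∑ u, ∑ w, if u ≠ w then difLm (rel u w) else 0

open scoped Classical in
theorem Kop_apply (f : Rz d → ℝ) (G : Rz d) :
    Kop d f G = ∑ u, ∑ w, (if u ≠ w then dif (rel u w) f G else 0) := by
  unfold Kop
  simp only [LinearMap.sum_apply, Finset.sum_apply]
  refine Finset.sum_congr rfl fun u _ => Finset.sum_congr rfl fun w _ => ?_
  split_ifs <;> simp

open scoped Classical in
theorem Kop_form (f g : Rz d → ℝ) :
    ∑ G, f G * Kop d g G = ∑ u, ∑ w, (if u ≠ w then ∑ G, f G * dif (rel u w) g G else 0) := by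
  simp_rw [Kop_apply, Finset.mul_sum]
  rw [Finset.sum_comm]
  refine Finset.sum_congr rfl fun u _ => ?_
  rw [Finset.sum_comm]
  refine Finset.sum_congr rfl fun w _ => ?_
  split_ifs <;> simp

open scoped Classical in
theorem Kop_sq (f : Rz d → ℝ) :
    4 * ∑ G, f G * Kop d f G ≤ ∑ G, (Kop d f G) ^ 2 := by
  set B : V → V → V → V → ℝ := fun u w x y =>
    if u ≠ w ∧ x ≠ y then ∑ G : Rz d, dif (rel u w) f G * dif (rel x y) f G else 0 with hB
  have hsq : ∑ G, (Kop d f G) ^ 2 = ∑ u, ∑ w, ∑ x, ∑ y, B u w x y := by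
    have : ∀ G : Rz d, (Kop d f G) ^ 2 = ∑ u, ∑ w, ∑ x, ∑ y,
        (if u ≠ w ∧ x ≠ y then dif (rel u w) f G * dif (rel x y) f G else 0) := by
      intro G
      rw [Kop_apply, sq, Finset.sum_mul]
      refine Finset.sum_congr rfl fun u _ => ?_
      rw [Finset.sum_mul]
      refine Finset.sum_congr rfl fun w _ => ?_
      rw [Finset.mul_sum]
      refine Finset.sum_congr rfl fun x _ => ?_
      rw [Finset.mul_sum]
      refine Finset.sum_congr rfl fun y _ => ?_
      by_cases h1 : u = w <;> by_cases h2 : x = y <;> simp [h1, h2]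
    simp_rw [this]
    rw [Finset.sum_comm]
    refine Finset.sum_congr rfl fun u _ => ?_
    rw [Finset.sum_comm]
    refine Finset.sum_congr rfl fun w _ => ?_
    rw [Finset.sum_comm]
    refine Finset.sum_congr rfl fun x _ => ?_
    rw [Finset.sum_comm]
    refine Finset.sum_congr rfl fun y _ => ?_
    rw [hB]
    by_cases h : u ≠ w ∧ x ≠ y
    · simp only [if_pos h]
    · simp only [if_neg h, Finset.sum_const_zero]
  have b0 : ∀ u x y, B u u x y = 0 := fun u x y => by simp [hB]
  have b1 : ∀ u w x y, B u w x y = B w u x y := by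
    intro u w x y
    simp only [hB, rel_swap u w]
    have : (u ≠ w ∧ x ≠ y) ↔ (w ≠ u ∧ x ≠ y) := by rw [ne_comm]
    simp only [this]
  have b3 : ∀ u w x y, B u w x y = B x y u w := by
    intro u w x y
    simp only [hB]
    have : (u ≠ w ∧ x ≠ y) ↔ (x ≠ y ∧ u ≠ w) := and_comm
    simp only [this]
    congr 1
    exact Finset.sum_congr rfl fun G _ => mul_comm _ _
  have b2 : ∀ u w x y, B u w x y = B u w y x := by
    intro u w x y; rw [b3, b1, b3]
  rw [hsq, sum_pairs B b0 b1 b2 b3]
  -- diagonal part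
  have hdiag : ∑ u, ∑ w, B u w u w = ∑ G, f G * Kop d f G := by
    rw [Kop_form]
    refine Finset.sum_congr rfl fun u _ => Finset.sum_congr rfl fun w _ => ?_
    simp only [hB, and_self]
    by_cases h : u ≠ w
    · simp only [if_pos h]
      rw [← sum_dif_sq (rel_equiv u w)]
      exact Finset.sum_congr rfl fun G _ => (sq _).symm
    · simp only [if_neg h]
  -- share part
  have hshare : 0 ≤ ∑ i, ∑ j, ∑ k, (if i ≠ j ∧ i ≠ k ∧ j ≠ k then B i j i k else 0) := by
    have h3 : 0 ≤ ∑ i, ∑ j, ∑ k, (if i ≠ j ∧ i ≠ k ∧ j ≠ k then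
        B j k i k + B j k i j + B i k i j else 0) := by
      refine Finset.sum_nonneg fun i _ => Finset.sum_nonneg fun j _ =>
        Finset.sum_nonneg fun k _ => ?_
      split_ifs with h
      · obtain ⟨hij, hik, hjk⟩ := h
        have := share_nonneg hij hik hjk f
        simp only [Finset.sum_add_distrib] at this
        simp only [hB]
        rw [if_pos ⟨hjk, hik⟩, if_pos ⟨hjk, hij⟩, if_pos ⟨hik, hij⟩]
        exact this
      · exact le_rfl
    have e1 : ∑ i, ∑ j, ∑ k, (if i ≠ j ∧ i ≠ k ∧ j ≠ k then B i k i j else 0) =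
        ∑ i, ∑ j, ∑ k, (if i ≠ j ∧ i ≠ k ∧ j ≠ k then B i j i k else 0) := by
      refine Finset.sum_congr rfl fun i _ => Finset.sum_congr rfl fun j _ =>
        Finset.sum_congr rfl fun k _ => ?_
      rw [b3]
    have e2 : ∑ i, ∑ j, ∑ k, (if i ≠ j ∧ i ≠ k ∧ j ≠ k then B j k i j else 0) =
        ∑ i, ∑ j, ∑ k, (if i ≠ j ∧ i ≠ k ∧ j ≠ k then B i j i k else 0) := by
      rw [Finset.sum_comm]
      refine Finset.sum_congr rfl fun j _ => Finset.sum_congr rfl fun i _ =>
        Finset.sum_congr rfl fun k _ => ?_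
      have : (i ≠ j ∧ i ≠ k ∧ j ≠ k) ↔ (j ≠ i ∧ j ≠ k ∧ i ≠ k) :=
        ⟨fun ⟨a, b, c⟩ => ⟨a.symm, c, b⟩, fun ⟨a, b, c⟩ => ⟨a.symm, c, b⟩⟩
      simp only [this]
      rw [b2, b3]
    have e3 : ∑ i, ∑ j, ∑ k, (if i ≠ j ∧ i ≠ k ∧ j ≠ k then B j k i k else 0) =
        ∑ i, ∑ j, ∑ k, (if i ≠ j ∧ i ≠ k ∧ j ≠ k then B i j i k else 0) := by
      have : ∀ i j k, (if i ≠ j ∧ i ≠ k ∧ j ≠ k then B j k i k else 0) =
          (if i ≠ j ∧ i ≠ k ∧ j ≠ k then B k i k j else 0) := by
        intro i j k
        rw [b3, b1, b2]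
      calc ∑ i, ∑ j, ∑ k, (if i ≠ j ∧ i ≠ k ∧ j ≠ k then B j k i k else 0)
          = ∑ i, ∑ j, ∑ k, (if i ≠ j ∧ i ≠ k ∧ j ≠ k then B k i k j else 0) :=
            Finset.sum_congr rfl fun i _ => Finset.sum_congr rfl fun j _ =>
              Finset.sum_congr rfl fun k _ => this i j k
        _ = ∑ i, ∑ k, ∑ j, (if i ≠ j ∧ i ≠ k ∧ j ≠ k then B k i k j else 0) :=
            Finset.sum_congr rfl fun i _ => Finset.sum_comm
        _ = ∑ k, ∑ i, ∑ j, (if i ≠ j ∧ i ≠ k ∧ j ≠ k then B k i k j else 0) := Finset.sum_comm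
        _ = _ := by
          refine Finset.sum_congr rfl fun k _ => Finset.sum_congr rfl fun i _ =>
            Finset.sum_congr rfl fun j _ => ?_
          have : (i ≠ j ∧ i ≠ k ∧ j ≠ k) ↔ (k ≠ i ∧ k ≠ j ∧ i ≠ j) :=
            ⟨fun ⟨a, b, c⟩ => ⟨b.symm, c.symm, a⟩, fun ⟨a, b, c⟩ => ⟨c, a.symm, b.symm⟩⟩
          simp only [this]
    have e0 : ∀ i j k, (if i ≠ j ∧ i ≠ k ∧ j ≠ k then B j k i k + B j k i j + B i k i j else 0) =
        (if i ≠ j ∧ i ≠ k ∧ j ≠ k then B j k i k else 0) +
        (if i ≠ j ∧ i ≠ k ∧ j ≠ k then B j k i j else 0) +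
        (if i ≠ j ∧ i ≠ k ∧ j ≠ k then B i k i j else 0) := by
      intro i j k; split_ifs <;> simp
    simp_rw [e0, Finset.sum_add_distrib] at h3
    rw [e1, e2, e3] at h3
    linarith
  -- disjoint part
  set En : ℝ := ∑ u, ∑ w, ∑ x, ∑ y, ∑ G : Rz d,
    (if split u w x y G then (f G - f (swt u w x y G)) ^ 2 else 0) with hEn
  set Tn : ℝ := ∑ u, ∑ w, ∑ x, ∑ y, ∑ G : Rz d,
    (if split u w x y G then (tt u w x y f G) ^ 2 else 0) with hTn
  have hdisj : (1 / 4 : ℝ) * En - Tn ≤
      ∑ u, ∑ w, ∑ x, ∑ y, (if Dist4 u w x y then B u w x y else 0) := by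
    have hT' : ∑ u, ∑ w, ∑ x, ∑ y, ∑ G : Rz d,
        (if split u w x y G then (tt x y u w f G) ^ 2 else 0) = Tn := by
      rw [hTn]
      calc ∑ u, ∑ w, ∑ x, ∑ y, ∑ G : Rz d, (if split u w x y G then (tt x y u w f G) ^ 2 else 0)
          = ∑ u, ∑ w, ∑ x, ∑ y, ∑ G : Rz d,
              (if split x y u w G then (tt x y u w f G) ^ 2 else 0) := by
            refine Finset.sum_congr rfl fun u _ => Finset.sum_congr rfl fun w _ =>
              Finset.sum_congr rfl fun x _ => Finset.sum_congr rfl fun y _ =>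
              Finset.sum_congr rfl fun G _ => ?_
            simp only [split_flip u w x y G]
        _ = ∑ u, ∑ x, ∑ w, ∑ y, ∑ G : Rz d,
              (if split x y u w G then (tt x y u w f G) ^ 2 else 0) :=
            Finset.sum_congr rfl fun u _ => Finset.sum_comm
        _ = ∑ x, ∑ u, ∑ w, ∑ y, ∑ G : Rz d,
              (if split x y u w G then (tt x y u w f G) ^ 2 else 0) := Finset.sum_comm
        _ = ∑ x, ∑ u, ∑ y, ∑ w, ∑ G : Rz d,
              (if split x y u w G then (tt x y u w f G) ^ 2 else 0) :=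
            Finset.sum_congr rfl fun u _ => Finset.sum_congr rfl fun u _ => Finset.sum_comm
        _ = ∑ x, ∑ y, ∑ u, ∑ w, ∑ G : Rz d,
              (if split x y u w G then (tt x y u w f G) ^ 2 else 0) :=
            Finset.sum_congr rfl fun u _ => Finset.sum_comm
    have hterm : ∀ u w x y, (1 / 4 : ℝ) * ∑ G : Rz d,
          (if split u w x y G then (f G - f (swt u w x y G)) ^ 2 else 0)
        - (1 / 2 : ℝ) * (∑ G : Rz d, (if split u w x y G then (tt u w x y f G) ^ 2 else 0)
          + ∑ G : Rz d, (if split u w x y G then (tt x y u w f G) ^ 2 else 0))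
        ≤ (if Dist4 u w x y then B u w x y else 0) := by
      intro u w x y
      by_cases h : Dist4 u w x y
      · rw [if_pos h]
        have := disj_lower h f
        simp only [hB]
        rw [if_pos ⟨h.1, h.2.1⟩]
        refine le_trans (le_of_eq ?_) this
        congr 2
        rw [← Finset.sum_add_distrib]
        exact Finset.sum_congr rfl fun G _ => by split_ifs <;> simp
      · rw [if_neg h]
        have hs : ∀ G : Rz d, ¬ split u w x y G := fun G hG => h hG.1
        simp [hs]
    calc (1 / 4 : ℝ) * En - Tn = (1 / 4 : ℝ) * En - (1 / 2 : ℝ) * (Tn + Tn) := by ring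
      _ = ∑ u, ∑ w, ∑ x, ∑ y, ((1 / 4 : ℝ) * ∑ G : Rz d,
          (if split u w x y G then (f G - f (swt u w x y G)) ^ 2 else 0)
        - (1 / 2 : ℝ) * (∑ G : Rz d, (if split u w x y G then (tt u w x y f G) ^ 2 else 0)
          + ∑ G : Rz d, (if split u w x y G then (tt x y u w f G) ^ 2 else 0))) := by
          simp only [Finset.sum_sub_distrib, ← Finset.mul_sum, Finset.sum_add_distrib]
          rw [hT', ← hTn, ← hEn]
      _ ≤ _ := Finset.sum_le_sum fun u _ => Finset.sum_le_sum fun w _ =>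
          Finset.sum_le_sum fun x _ => Finset.sum_le_sum fun y _ => hterm u w x y
  have hjohn : 2 * ∑ G, f G * Kop d f G + Tn ≤ (1 / 4 : ℝ) * En := by
    rw [Kop_form, hTn, hEn, Finset.mul_sum, Finset.mul_sum, ← Finset.sum_add_distrib]
    refine Finset.sum_le_sum fun u _ => ?_
    rw [Finset.mul_sum, Finset.mul_sum, ← Finset.sum_add_distrib]
    refine Finset.sum_le_sum fun w _ => ?_
    by_cases h : u ≠ w
    · rw [if_pos h]; exact johnson h f
    · rw [if_neg h]
      have hs : ∀ (x y : V) (G : Rz d), ¬ split u w x y G := fun x y G hG => h hG.1.1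
      simp [hs]
  rw [hdiag]
  linarith

open scoped Classical in
theorem Kop_le (f : Rz d → ℝ) :
    ∑ G, f G * Kop d f G ≤ (1 / 8 : ℝ) * ∑ u, ∑ w, ∑ x, ∑ y, ∑ G : Rz d,
      (if split u w x y G then (f G - f (swt u w x y G)) ^ 2 else 0) := by
  rw [Kop_form, Finset.mul_sum]
  refine Finset.sum_le_sum fun u _ => ?_
  rw [Finset.mul_sum]
  refine Finset.sum_le_sum fun w _ => ?_
  by_cases h : u ≠ w
  · rw [if_pos h]
    have := johnson h f
    have h2 : 0 ≤ ∑ x, ∑ y, ∑ G : Rz d, (if split u w x y G then (tt u w x y f G) ^ 2 else 0) :=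
      Finset.sum_nonneg fun x _ => Finset.sum_nonneg fun y _ => Finset.sum_nonneg fun G _ => by
        split_ifs
        · positivity
        · exact le_rfl
    linarith
  · rw [if_neg h]
    have hs : ∀ (x y : V) (G : Rz d), ¬ split u w x y G := fun x y G hG => h hG.1.1
    simp [hs]

open scoped Classical in
theorem Kop_pos (f : Rz d → ℝ) : 0 ≤ ∑ G, f G * Kop d f G := by
  rw [Kop_form]
  refine Finset.sum_nonneg fun u _ => Finset.sum_nonneg fun w _ => ?_
  split_ifs
  · rw [← sum_dif_sq (rel_equiv u w)]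
    exact Finset.sum_nonneg fun G _ => sq_nonneg _
  · exact le_rfl

open scoped Classical in
theorem Kop_ker (f : Rz d → ℝ) (h : Kop d f = 0) (G H : Rz d) : f G = f H := by
  have h0 : ∑ G, f G * Kop d f G = 0 := by rw [h]; simp
  rw [Kop_form] at h0
  have hn : ∀ u w : V, 0 ≤ (if u ≠ w then ∑ G : Rz d, f G * dif (rel u w) f G else 0) := by
    intro u w
    split_ifs
    · rw [← sum_dif_sq (rel_equiv u w)]
      exact Finset.sum_nonneg fun G _ => sq_nonneg _
    · exact le_rfl
  have h1 : ∀ u w : V, u ≠ w → ∀ G : Rz d, dif (rel u w) f G = 0 := by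
    intro u w huw G
    have a1 := (Finset.sum_eq_zero_iff_of_nonneg
      (fun u _ => Finset.sum_nonneg fun w _ => hn u w)).1 h0 u (Finset.mem_univ u)
    have a2 := (Finset.sum_eq_zero_iff_of_nonneg (fun w _ => hn u w)).1 a1 w (Finset.mem_univ w)
    rw [if_pos huw, ← sum_dif_sq (rel_equiv u w)] at a2
    have a3 := (Finset.sum_eq_zero_iff_of_nonneg (fun G _ => sq_nonneg _)).1 a2 G
      (Finset.mem_univ G)
    exact pow_eq_zero_iff (two_ne_zero) |>.1 a3
  apply connected f
  intro u w x y G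
  by_cases hs : split u w x y G
  · have huw := hs.1.1
    have e1 := h1 u w huw G
    have e2 := h1 u w huw (swt u w x y G)
    have e3 := avg_eq (rel_equiv u w) f (rel_swt u w x y G)
    unfold dif at e1 e2
    linarith
  · rw [swt_of_not hs]

open scoped Classical in
theorem poincare_switch' (f : Rz d → ℝ) :
    (Fintype.card (Rz d) : ℝ) * ∑ G, f G ^ 2 - (∑ G, f G) ^ 2 ≤
      (1 / 32 : ℝ) * (Fintype.card (Rz d) : ℝ) *
        ∑ u, ∑ w, ∑ x, ∑ y, ∑ G, (
          if split u w x y G then (f G - f (swt u w x y G)) ^ 2 else 0) := by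
  have hsym : ∀ f g : Rz d → ℝ, ∑ G, Kop d f G * g G = ∑ G, f G * Kop d g G := by
    intro f g
    rw [Kop_form]
    have : ∑ G, Kop d f G * g G = ∑ G, g G * Kop d f G :=
      Finset.sum_congr rfl fun G _ => mul_comm _ _
    rw [this, Kop_form]
    refine Finset.sum_congr rfl fun u _ => Finset.sum_congr rfl fun w _ => ?_
    split_ifs
    · rw [← sum_dif_mul (rel_equiv u w)]
      exact Finset.sum_congr rfl fun G _ => mul_comm _ _
    · rfl
  have := poincare_of_sq (Kop d) hsym 4 (by norm_num) Kop_pos Kop_sq (by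
    intro k
    funext G
    rw [Kop_apply]
    have : ∀ u w : V, dif (rel (d := d) u w) (fun _ => k) G = 0 := by
      intro u w
      unfold dif
      rw [avg_const (rel_equiv u w)]; simp
    simp [this]) (fun f h G H => Kop_ker f h G H) f
  have h2 := Kop_le f
  have hN : (0 : ℝ) ≤ (Fintype.card (Rz d) : ℝ) := Nat.cast_nonneg _
  have h3 := mul_le_mul_of_nonneg_left h2 hN
  linarith

end Graph

end Crest.Agent.SwC
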