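import Mathlib
import Crest.Prelude.Def_SwitchChain

set_option autoImplicit false
set_option linter.unusedSectionVars false

open Finset

namespace Crest.Agent.SwC

section TVGeneral

variable {ι : Type*} [Fintype ι] [DecidableEq ι]

/-- A symmetric, doubly stochastic matrix is an `L²` contraction. -/
theorem tv_contract (Q : Matrix ι ι ℝ) (hs : ∀ i j, Q i j = Q j i) (h0 : ∀ i j, 0 ≤ Q i j)
    (h1 : ∀ i, ∑ j, Q i j = 1) (g : ι → ℝ) :
    ∑ i, (∑ j, Q i j * g j) ^ 2 ≤ ∑ i, g i ^ 2 := by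
  have key : ∀ i, (∑ j, Q i j * g j) ^ 2 ≤ ∑ j, Q i j * g j ^ 2 := by
    intro i
    have := Finset.sum_mul_sq_le_sq_mul_sq (s := (univ : Finset ι))
      (f := fun j => Real.sqrt (Q i j)) (g := fun j => Real.sqrt (Q i j) * g j)
    have e1 : ∑ j, Real.sqrt (Q i j) * (Real.sqrt (Q i j) * g j) = ∑ j, Q i j * g j := by
      refine sum_congr rfl fun j _ => ?_
      rw [← mul_assoc, Real.mul_self_sqrt (h0 i j)]
    have e2 : ∑ j, Real.sqrt (Q i j) ^ 2 = 1 := by
      rw [← h1 i]
      refine sum_congr rfl fun j _ => Real.sq_sqrt (h0 i j)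
    have e3 : ∑ j, (Real.sqrt (Q i j) * g j) ^ 2 = ∑ j, Q i j * g j ^ 2 := by
      refine sum_congr rfl fun j _ => ?_
      rw [mul_pow, Real.sq_sqrt (h0 i j)]
    rw [e1, e2, e3, one_mul] at this
    exact this
  calc ∑ i, (∑ j, Q i j * g j) ^ 2 ≤ ∑ i, ∑ j, Q i j * g j ^ 2 := sum_le_sum fun i _ => key i
    _ = ∑ j, ∑ i, Q i j * g j ^ 2 := sum_comm
    _ = ∑ j, g j ^ 2 := by
        refine sum_congr rfl fun j _ => ?_
        rw [← Finset.sum_mul]
        have : ∑ i, Q i j = 1 := by rw [← h1 j]; exact sum_congr rfl fun i _ => hs i j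
        rw [this, one_mul]

/-- Lazy chains: `‖P g‖² ≤ ⟨g, P g⟩`. -/
theorem tv_lazy (Q P : Matrix ι ι ℝ) (hs : ∀ i j, Q i j = Q j i) (h0 : ∀ i j, 0 ≤ Q i j)
    (h1 : ∀ i, ∑ j, Q i j = 1) (hPQ : ∀ i j, P i j = (if i = j then 1 / 2 else 0) + Q i j / 2)
    (g : ι → ℝ) :
    ∑ i, (∑ j, P i j * g j) ^ 2 ≤ ∑ i, g i * ∑ j, P i j * g j := by
  have hP : ∀ i, ∑ j, P i j * g j = g i / 2 + (∑ j, Q i j * g j) / 2 := by
    intro i
    have : ∀ j, P i j * g j = (if i = j then g j / 2 else 0) + (Q i j * g j) / 2 := by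
      intro j; rw [hPQ]; split_ifs <;> ring
    simp_rw [this]
    rw [sum_add_distrib, ← Finset.sum_div]
    simp
  have hc := tv_contract Q hs h0 h1 g
  simp_rw [hP]
  have e1 : ∑ i, (g i / 2 + (∑ j, Q i j * g j) / 2) ^ 2 =
      (∑ i, g i ^ 2) / 4 + (∑ i, g i * ∑ j, Q i j * g j) / 2 +
        (∑ i, (∑ j, Q i j * g j) ^ 2) / 4 := by
    rw [Finset.sum_div, Finset.sum_div, Finset.sum_div, ← sum_add_distrib, ← sum_add_distrib]
    refine sum_congr rfl fun i _ => ?_
    ring
  have e2 : ∑ i, g i * (g i / 2 + (∑ j, Q i j * g j) / 2) =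
      (∑ i, g i ^ 2) / 2 + (∑ i, g i * ∑ j, Q i j * g j) / 2 := by
    rw [Finset.sum_div, Finset.sum_div, ← sum_add_distrib]
    refine sum_congr rfl fun i _ => ?_
    ring
  rw [e1, e2]
  linarith

theorem tv_general (X : Finset ι) (hX : X.Nonempty) (Q P : Matrix ι ι ℝ)
    (hs : ∀ i j, Q i j = Q j i) (h0 : ∀ i j, 0 ≤ Q i j)
    (h1 : ∀ i, ∑ j, Q i j = 1) (hPQ : ∀ i j, P i j = (if i = j then 1 / 2 else 0) + Q i j / 2)
    (hcl : ∀ i ∈ X, ∀ j, j ∉ X → Q i j = 0) (c : ℝ) (hc : 1 ≤ c)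
    (hP : ∀ f : ι → ℝ, (X.card : ℝ) * (∑ G ∈ X, f G ^ 2) - (∑ G ∈ X, f G) ^ 2 ≤
      c * X.card * ∑ G ∈ X, f G * (f G - ∑ G' ∈ X, P G G' * f G'))
    (t : ℕ) (i : ι) (hi : i ∈ X) :
    Crest.SwitchChain.tvDist (fun j => (P ^ t) i j) (Crest.SwitchChain.unifOn X) ≤
      Real.sqrt (X.card * (1 - 1 / c) ^ t) / 2 := by
  have hXc : (0 : ℝ) < X.card := by exact_mod_cast hX.card_pos
  have hPs : ∀ i j, P i j = P j i := by
    intro i j
    rw [hPQ, hPQ, hs i j]
    simp only [eq_comm]
  have hPcl : ∀ i ∈ X, ∀ j, j ∉ X → P i j = 0 := by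
    intro i hi j hj
    rw [hPQ, hcl i hi j hj, if_neg (by rintro rfl; exact hj hi)]; simp
  have hP1 : ∀ i, ∑ j, P i j = 1 := by
    intro i
    simp_rw [hPQ]
    rw [sum_add_distrib, ← Finset.sum_div, h1]
    simp; norm_num
  -- the difference
  set u : ι → ℝ := Crest.SwitchChain.unifOn X with hu
  have hu1 : ∑ j, u j = 1 := by
    rw [hu]
    unfold Crest.SwitchChain.unifOn
    rw [Finset.sum_ite_mem, univ_inter, sum_const, nsmul_eq_mul]
    field_simp
  have hstat : ∀ j, ∑ k, u k * P k j = u j := by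
    intro j
    have e : ∀ k, u k * P k j = if k ∈ X then (1 / (X.card : ℝ)) * P j k else 0 := by
      intro k
      rw [hu]; unfold Crest.SwitchChain.unifOn
      split_ifs
      · rw [hPs k j]
      · simp
    simp_rw [e]
    rw [Finset.sum_ite_mem, univ_inter, ← Finset.mul_sum]
    rw [hu]; unfold Crest.SwitchChain.unifOn
    split_ifs with hj
    · have : ∑ k ∈ X, P j k = 1 := by
        rw [← hP1 j]
        refine Finset.sum_subset (subset_univ _) fun k _ hk => hPcl j hj k hk
      rw [this, mul_one]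
    · have : ∑ k ∈ X, P j k = 0 := by
        refine Finset.sum_eq_zero fun k hk => ?_
        rw [hPs]; exact hPcl k hk j hj
      rw [this, mul_zero]
  let g : ℕ → ι → ℝ := fun t j => (P ^ t) i j - u j
  have hgstep : ∀ t j, g (t + 1) j = ∑ k, P j k * g t k := by
    intro t j
    have : (P ^ (t + 1)) i j = ∑ k, (P ^ t) i k * P k j := by
      rw [pow_succ, Matrix.mul_apply]
    simp only [g]
    rw [this]
    conv_lhs => rw [← hstat j]
    rw [← sum_sub_distrib]
    refine sum_congr rfl fun k _ => ?_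
    rw [hPs k j]; ring
  have hgsupp : ∀ t j, j ∉ X → g t j = 0 := by
    intro t
    induction t with
    | zero =>
      intro j hj
      simp only [g, pow_zero]
      rw [Matrix.one_apply_ne (by rintro rfl; exact hj hi), hu]
      unfold Crest.SwitchChain.unifOn
      rw [if_neg hj]; simp
    | succ t ih =>
      intro j hj
      rw [hgstep]
      refine Finset.sum_eq_zero fun k _ => ?_
      by_cases hk : k ∈ X
      · rw [hPs, hPcl k hk j hj, zero_mul]
      · rw [ih k hk, mul_zero]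
  have hgsum : ∀ t, ∑ j, g t j = 0 := by
    intro t
    induction t with
    | zero =>
      simp only [g, pow_zero]
      rw [sum_sub_distrib, hu1]
      simp [Matrix.one_apply]
    | succ t ih =>
      simp_rw [hgstep]
      rw [sum_comm, ← ih]
      refine sum_congr rfl fun k _ => ?_
      rw [← Finset.sum_mul]
      have : ∑ j, P j k = 1 := by rw [← hP1 k]; exact sum_congr rfl fun j _ => hPs j k
      rw [this, one_mul]
  have hgX : ∀ t (h : ι → ℝ), ∑ j ∈ X, g t j * h j = ∑ j, g t j * h j := by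
    intro t h
    refine Finset.sum_subset (subset_univ _) fun j _ hj => ?_
    rw [hgsupp t j hj, zero_mul]
  have hdecay : ∀ t, ∑ j, g (t + 1) j ^ 2 ≤ (1 - 1 / c) * ∑ j, g t j ^ 2 := by
    intro t
    have h2 := tv_lazy Q P hs h0 h1 hPQ (g t)
    have h3 := hP (g t)
    have e1 : ∑ G ∈ X, g t G ^ 2 = ∑ G, g t G ^ 2 := by
      have := hgX t (g t)
      simp_rw [pow_two]; exact this
    have e2 : ∑ G ∈ X, g t G = 0 := by
      have := hgX t (fun _ => 1)
      simp only [mul_one] at this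
      rw [this, hgsum]
    have e3 : ∑ G ∈ X, g t G * (g t G - ∑ G' ∈ X, P G G' * g t G') =
        ∑ j, g t j ^ 2 - ∑ j, g t j * ∑ k, P j k * g t k := by
      rw [← sum_sub_distrib, hgX t (fun G => g t G - ∑ G' ∈ X, P G G' * g t G')]
      refine sum_congr rfl fun j _ => ?_
      have : ∑ G' ∈ X, P j G' * g t G' = ∑ k, P j k * g t k := by
        have := hgX t (fun k => P j k)
        simp_rw [mul_comm (P j _)]; exact this
      rw [this]; ring
    rw [e1, e2, e3] at h3
    have h4 : ∑ G, g t G ^ 2 ≤ c * (∑ j, g t j ^ 2 - ∑ j, g t j * ∑ k, P j k * g t k) := by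
      have : (X.card : ℝ) * ∑ G, g t G ^ 2 ≤
          X.card * (c * (∑ j, g t j ^ 2 - ∑ j, g t j * ∑ k, P j k * g t k)) := by
        nlinarith [h3]
      exact le_of_mul_le_mul_left this hXc
    have h5 : ∑ j, g t j * ∑ k, P j k * g t k ≤ (1 - 1 / c) * ∑ j, g t j ^ 2 := by
      have hc0 : 0 < c := by linarith
      have h6 : (∑ G, g t G ^ 2) / c ≤ ∑ j, g t j ^ 2 - ∑ j, g t j * ∑ k, P j k * g t k := by
        rw [div_le_iff₀ hc0]; linarith
      have h7 : (1 - 1 / c) * ∑ j, g t j ^ 2 = ∑ j, g t j ^ 2 - (∑ G, g t G ^ 2) / c := by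
        field_simp
      rw [h7]; linarith
    calc ∑ j, g (t + 1) j ^ 2 = ∑ j, (∑ k, P j k * g t k) ^ 2 := by simp_rw [hgstep]
      _ ≤ _ := h2
      _ ≤ _ := h5
  have hc' : 0 ≤ 1 - 1 / c := by
    have : 1 / c ≤ 1 := by rw [div_le_one (by linarith)]; exact hc
    linarith
  have hS : ∀ t, ∑ j, g t j ^ 2 ≤ (1 - 1 / c) ^ t := by
    intro t
    induction t with
    | zero =>
      simp only [g, pow_zero]
      have hmono : ∑ j, ((1 : Matrix ι ι ℝ) i j - u j) ^ 2 =
          1 - 2 * u i + ∑ j, u j ^ 2 := by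
        have : ∀ j, ((1 : Matrix ι ι ℝ) i j - u j) ^ 2 =
            (if i = j then 1 - 2 * u j else 0) + u j ^ 2 := by
          intro j
          rw [Matrix.one_apply]
          split_ifs <;> ring
        simp_rw [this]
        rw [sum_add_distrib]; simp
      rw [hmono]
      have hui : u i = 1 / X.card := by
        rw [hu]; unfold Crest.SwitchChain.unifOn; rw [if_pos hi]
      have hu2 : ∑ j, u j ^ 2 = 1 / X.card := by
        have : ∀ j, u j ^ 2 = if j ∈ X then (1 / (X.card : ℝ)) ^ 2 else 0 := by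
          intro j; rw [hu]; unfold Crest.SwitchChain.unifOn; split_ifs <;> simp
        simp_rw [this]
        rw [Finset.sum_ite_mem, univ_inter, sum_const, nsmul_eq_mul]
        field_simp
      rw [hui, hu2]
      have : 0 < 1 / (X.card : ℝ) := by positivity
      linarith
    | succ t ih =>
      calc _ ≤ (1 - 1 / c) * ∑ j, g t j ^ 2 := hdecay t
        _ ≤ (1 - 1 / c) * (1 - 1 / c) ^ t := mul_le_mul_of_nonneg_left ih hc'
        _ = _ := by ring
  -- conclude
  unfold Crest.SwitchChain.tvDist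
  have habs : ∑ a, |(P ^ t) i a - u a| = ∑ a ∈ X, |g t a| := by
    symm
    refine Finset.sum_subset (subset_univ _) fun j _ hj => ?_
    rw [hgsupp t j hj, abs_zero]
  have hle : (∑ a ∈ X, |g t a|) ^ 2 ≤ X.card * (1 - 1 / c) ^ t := by
    have := sq_sum_le_card_mul_sum_sq (s := X) (f := fun a => |g t a|)
    refine this.trans ?_
    refine mul_le_mul_of_nonneg_left ?_ hXc.le
    simp_rw [sq_abs]
    refine le_trans ?_ (hS t)
    exact Finset.sum_le_sum_of_subset_of_nonneg (subset_univ _) fun _ _ _ => sq_nonneg _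
  have hfin : ∑ a, |(P ^ t) i a - u a| ≤ Real.sqrt (X.card * (1 - 1 / c) ^ t) := by
    rw [habs]
    exact Real.le_sqrt_of_sq_le hle
  linarith

end TVGeneral

section TVKernel

open Crest.SwitchChain

variable {n : ℕ}

theorem tv_switch_rev (E F F' : Finset (Edge n)) (hE : switchResult E F F' ≠ E) :
    switchResult (switchResult E F F') F' F = E := by
  unfold switchResult at hE ⊢
  by_cases h : F ⊆ E ∧ Disjoint F' E
  · rw [if_pos h]
    obtain ⟨h1, h2⟩ := h
    rw [Finset.disjoint_left] at h2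
    rw [if_pos]
    · ext e
      simp only [mem_union, mem_sdiff]
      constructor
      · rintro (⟨(⟨he, _⟩ | he), hF'⟩ | he)
        · exact he
        · exact absurd he hF'
        · exact h1 he
      · intro he
        by_cases hF : e ∈ F
        · exact Or.inr hF
        · exact Or.inl ⟨Or.inl ⟨he, hF⟩, fun h => h2 h he⟩
    · refine ⟨subset_union_right, ?_⟩
      rw [Finset.disjoint_left]
      intro e he
      simp only [mem_union, mem_sdiff, not_or, not_and, not_not]
      exact ⟨fun _ => he, fun h => h2 h (h1 he)⟩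
  · rw [if_neg h] at hE
    exact absurd rfl hE

theorem tv_switch_symm {E E' : Finset (Edge n)} (hne : E ≠ E') (F F' : Finset (Edge n)) :
    switchResult E F F' = E' ↔ switchResult E' F' F = E := by
  constructor
  · rintro rfl
    exact tv_switch_rev E F F' hne.symm
  · rintro rfl
    exact tv_switch_rev E' F' F hne

theorem tv_count_symm (E E' : Finset (Edge n)) : proposalCount E E' = proposalCount E' E := by
  by_cases hne : E = E'
  · rw [hne]
  unfold proposalCount
  refine sum_congr rfl fun S _ => ?_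
  have hswap : ∀ f : Finset (Edge n) → Finset (Edge n) → ℕ,
      ∑ F ∈ pmSet S, ∑ F' ∈ (pmSet S).erase F, f F F' =
        ∑ F ∈ pmSet S, ∑ F' ∈ (pmSet S).erase F, f F' F := by
    intro f
    refine Finset.sum_comm' ?_
    intro x y
    simp only [mem_erase]
    constructor
    · rintro ⟨h1, h2, h3⟩; exact ⟨⟨fun h => h2 h.symm, h1⟩, h3⟩
    · rintro ⟨⟨h1, h2⟩, h3⟩; exact ⟨h2, fun h => h1 h.symm, h3⟩
  rw [hswap]
  refine sum_congr rfl fun F _ => sum_congr rfl fun F' _ => ?_
  by_cases h : switchResult E F' F = E'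
  · rw [if_pos h, if_pos ((tv_switch_symm hne F' F).1 h)]
  · rw [if_neg h, if_neg (fun h' => h ((tv_switch_symm hne F' F).2 h'))]

theorem tv_deg_switch {S : Finset (Fin n)} (E F F' : Finset (Edge n)) (hF : F ∈ pmSet S)
    (hF' : F' ∈ pmSet S) (v : Fin n) : deg (switchResult E F F') v = deg E v := by
  unfold switchResult
  split_ifs with h
  · obtain ⟨h1, h2⟩ := h
    unfold deg
    have hfs : filter (fun e : Edge n => v ∈ e.1) (E \ F) =
        filter (fun e : Edge n => v ∈ e.1) E \ filter (fun e : Edge n => v ∈ e.1) F := by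
      ext e; simp only [mem_filter, mem_sdiff]; tauto
    rw [filter_union, card_union_of_disjoint, hfs]
    · rw [card_sdiff_of_subset (filter_subset_filter _ h1)]
      have hle := card_le_card (filter_subset_filter (fun e : Edge n => v ∈ e.1) h1)
      have heq : (filter (fun e : Edge n => v ∈ e.1) F).card =
          (filter (fun e : Edge n => v ∈ e.1) F').card := by
        unfold pmSet at hF hF'
        simp only [mem_filter] at hF hF'
        by_cases hv : v ∈ S
        · rw [hF.2.2 v hv, hF'.2.2 v hv]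
        · rw [filter_eq_empty_iff.2, filter_eq_empty_iff.2]
          · intro e he hve; exact hv (hF'.2.1 e he v hve)
          · intro e he hve; exact hv (hF.2.1 e he v hve)
      omega
    · refine disjoint_filter_filter ?_
      exact (h2.mono_right sdiff_subset).symm
  · rfl

/-- the edge `{a,b}` -/
def tvE (a b : Fin n) (h : a ≠ b) : Edge n := ⟨s(a, b), by simpa using h⟩

theorem tv_mem_tvE {a b v : Fin n} {h : a ≠ b} : v ∈ (tvE a b h).1 ↔ v = a ∨ v = b := by
  simp [tvE]

theorem tv_edge_ext {a b : Fin n} (h : a ≠ b) {e : Edge n} (ha : a ∈ e.1) (hb : b ∈ e.1) :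
    e = tvE a b h := by
  apply Subtype.ext
  exact ((Sym2.mem_and_mem_iff h).1 ⟨ha, hb⟩)

theorem tv_edge_other {a : Fin n} {e : Edge n} (ha : a ∈ e.1) : ∃ y, y ≠ a ∧ y ∈ e.1 := by
  obtain ⟨y, hy⟩ := Sym2.mem_iff_exists.1 ha
  refine ⟨y, ?_, ?_⟩
  · rintro rfl
    exact e.2 (by rw [hy]; simp)
  · rw [hy]; simp

theorem tv_pm_uniq {S : Finset (Fin n)} {F : Finset (Edge n)} (hF : F ∈ pmSet S) {v : Fin n}
    (hv : v ∈ S) {e e' : Edge n} (he : e ∈ F) (he' : e' ∈ F) (hve : v ∈ e.1) (hve' : v ∈ e'.1) :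
    e = e' := by
  unfold pmSet at hF
  simp only [mem_filter] at hF
  obtain ⟨x, hx⟩ := card_eq_one.1 (hF.2.2 v hv)
  have h1 : e ∈ ({x} : Finset (Edge n)) := by rw [← hx]; exact mem_filter.2 ⟨he, hve⟩
  have h2 : e' ∈ ({x} : Finset (Edge n)) := by rw [← hx]; exact mem_filter.2 ⟨he', hve'⟩
  rw [mem_singleton] at h1 h2
  rw [h1, h2]

theorem tv_pm_exists {S : Finset (Fin n)} {F : Finset (Edge n)} (hF : F ∈ pmSet S) {v : Fin n}
    (hv : v ∈ S) : ∃ e ∈ F, v ∈ e.1 := by
  unfold pmSet at hF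
  simp only [mem_filter] at hF
  obtain ⟨x, hx⟩ := card_eq_one.1 (hF.2.2 v hv)
  have h1 : x ∈ filter (fun e : Edge n => v ∈ e.1) F := by rw [hx]; exact mem_singleton_self _
  rw [mem_filter] at h1
  exact ⟨x, h1.1, h1.2⟩

theorem tv_pm_card {S : Finset (Fin n)} {F : Finset (Edge n)} (hF : F ∈ pmSet S) :
    F.card = 2 := by
  unfold pmSet at hF
  simp only [mem_filter, mem_powersetCard] at hF
  exact hF.1.2

theorem tv_pm_sub {S : Finset (Fin n)} {F : Finset (Edge n)} (hF : F ∈ pmSet S) {e : Edge n}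
    (he : e ∈ F) {v : Fin n} (hv : v ∈ e.1) : v ∈ S := by
  unfold pmSet at hF
  simp only [mem_filter, mem_powersetCard] at hF
  exact hF.2.1 e he v hv

theorem tv_pm_aux {S : Finset (Fin n)} {a b c d : Fin n} (hab : a ≠ b) (hac : a ≠ c)
    (had : a ≠ d) (hbc : b ≠ c) (hbd : b ≠ d) (hcd : c ≠ d)
    (hS : ∀ x, x ∈ S ↔ x = a ∨ x = b ∨ x = c ∨ x = d) {F : Finset (Edge n)} (hF : F ∈ pmSet S)
    (he : tvE a b hab ∈ F) : F = {tvE a b hab, tvE c d hcd} := by
  obtain ⟨e', he', hce'⟩ := tv_pm_exists hF ((hS c).2 (Or.inr (Or.inr (Or.inl rfl))))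
  obtain ⟨z, hzc, hz⟩ := tv_edge_other hce'
  have hzS := (hS z).1 (tv_pm_sub hF he' hz)
  have hzd : z = d := by
    rcases hzS with rfl | rfl | rfl | rfl
    · exfalso
      have := tv_pm_uniq hF ((hS z).2 (Or.inl rfl)) he he' (tv_mem_tvE.2 (Or.inl rfl)) hz
      rw [← this, tv_mem_tvE] at hce'
      rcases hce' with h | h
      · exact hac h.symm
      · exact hbc h.symm
    · exfalso
      have := tv_pm_uniq hF ((hS z).2 (Or.inr (Or.inl rfl))) he he' (tv_mem_tvE.2 (Or.inr rfl)) hz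
      rw [← this, tv_mem_tvE] at hce'
      rcases hce' with h | h
      · exact hac h.symm
      · exact hbc h.symm
    · exact absurd rfl hzc
    · rfl
  subst hzd
  have hee : e' = tvE c z hcd := tv_edge_ext hcd hce' hz
  subst hee
  have hsub : ({tvE a b hab, tvE c z hcd} : Finset (Edge n)) ⊆ F := by
    intro x hx
    rw [mem_insert, mem_singleton] at hx
    rcases hx with rfl | rfl
    · exact he
    · exact he'
  have hne : tvE a b hab ≠ tvE c z hcd := by
    intro h
    have : c ∈ (tvE a b hab).1 := by rw [h]; exact hce'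
    rw [tv_mem_tvE] at this
    rcases this with h | h
    · exact hac h.symm
    · exact hbc h.symm
  symm
  apply eq_of_subset_of_card_le hsub
  rw [tv_pm_card hF, card_pair hne]

theorem tv_pm_mem {S : Finset (Fin n)} {a b c d : Fin n} (hab : a ≠ b) (hac : a ≠ c)
    (had : a ≠ d) (hbc : b ≠ c) (hbd : b ≠ d) (hcd : c ≠ d)
    (hS : ∀ x, x ∈ S ↔ x = a ∨ x = b ∨ x = c ∨ x = d) :
    ({tvE a b hab, tvE c d hcd} : Finset (Edge n)) ∈ pmSet S := by
  have hne : tvE a b hab ≠ tvE c d hcd := by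
    intro h
    have : c ∈ (tvE a b hab).1 := by rw [h]; exact tv_mem_tvE.2 (Or.inl rfl)
    rw [tv_mem_tvE] at this
    rcases this with h | h
    · exact hac h.symm
    · exact hbc h.symm
  unfold pmSet
  rw [mem_filter, mem_powersetCard]
  refine ⟨⟨subset_univ _, card_pair hne⟩, ?_, ?_⟩
  · intro e he v hv
    rw [mem_insert, mem_singleton] at he
    rw [hS]
    rcases he with rfl | rfl
    · rw [tv_mem_tvE] at hv; tauto
    · rw [tv_mem_tvE] at hv; tauto
  · intro v hv
    rw [hS] at hv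
    rw [card_eq_one]
    rcases hv with rfl | rfl | rfl | rfl
    · refine ⟨tvE v b hab, ?_⟩
      ext e
      simp only [mem_filter, mem_insert, mem_singleton]
      constructor
      · rintro ⟨rfl | rfl, h⟩
        · rfl
        · rw [tv_mem_tvE] at h; tauto
      · rintro rfl
        exact ⟨Or.inl rfl, tv_mem_tvE.2 (Or.inl rfl)⟩
    · refine ⟨tvE a v hab, ?_⟩
      ext e
      simp only [mem_filter, mem_insert, mem_singleton]
      constructor
      · rintro ⟨rfl | rfl, h⟩
        · rfl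
        · rw [tv_mem_tvE] at h; tauto
      · rintro rfl
        exact ⟨Or.inl rfl, tv_mem_tvE.2 (Or.inr rfl)⟩
    · refine ⟨tvE v d hcd, ?_⟩
      ext e
      simp only [mem_filter, mem_insert, mem_singleton]
      constructor
      · rintro ⟨rfl | rfl, h⟩
        · rw [tv_mem_tvE] at h
          rcases h with h | h
          · exact absurd h.symm hac
          · exact absurd h.symm hbc
        · rfl
      · rintro rfl
        exact ⟨Or.inr rfl, tv_mem_tvE.2 (Or.inl rfl)⟩
    · refine ⟨tvE c v hcd, ?_⟩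
      ext e
      simp only [mem_filter, mem_insert, mem_singleton]
      constructor
      · rintro ⟨rfl | rfl, h⟩
        · rw [tv_mem_tvE] at h
          rcases h with h | h
          · exact absurd h.symm had
          · exact absurd h.symm hbd
        · rfl
      · rintro rfl
        exact ⟨Or.inr rfl, tv_mem_tvE.2 (Or.inr rfl)⟩

theorem tv_pm_ne {a b c d x y z w : Fin n} (hab : a ≠ b) (hcd : c ≠ d) (hxy : x ≠ y)
    (hzw : z ≠ w) (h1 : a ≠ z) (h2 : a ≠ w) (h3 : b ≠ y) (h4 : b ≠ x) :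
    ({tvE a b hab, tvE c d hcd} : Finset (Edge n)) ≠ {tvE x y hxy, tvE z w hzw} := by
  intro h
  have : tvE a b hab ∈ ({tvE x y hxy, tvE z w hzw} : Finset (Edge n)) := by
    rw [← h]; exact mem_insert_self _ _
  rw [mem_insert, mem_singleton] at this
  rcases this with h | h
  · have : b ∈ (tvE x y hxy).1 := by rw [← h]; exact tv_mem_tvE.2 (Or.inr rfl)
    rw [tv_mem_tvE] at this; tauto
  · have : a ∈ (tvE z w hzw).1 := by rw [← h]; exact tv_mem_tvE.2 (Or.inl rfl)
    rw [tv_mem_tvE] at this; tauto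

theorem tv_card_pmSet {S : Finset (Fin n)} (hS4 : S.card = 4) : (pmSet S).card = 3 := by
  obtain ⟨a, T, haT, rfl, hT⟩ := card_eq_succ.1 hS4
  obtain ⟨b, c, d, hbc, hbd, hcd, rfl⟩ := card_eq_three.1 hT
  simp only [mem_insert, mem_singleton, not_or] at haT
  obtain ⟨hab, hac, had⟩ := haT
  have hS : ∀ x, x ∈ insert a ({b, c, d} : Finset (Fin n)) ↔ x = a ∨ x = b ∨ x = c ∨ x = d := by
    intro x; simp
  rw [card_eq_three]
  refine ⟨{tvE a b hab, tvE c d hcd}, {tvE a c hac, tvE b d hbd}, {tvE a d had, tvE b c hbc},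
    ?_, ?_, ?_, ?_⟩
  · exact tv_pm_ne hab hcd hac hbd hab had hbc (Ne.symm hab)
  · exact tv_pm_ne hab hcd had hbc hab hac hbd (Ne.symm hab)
  · exact tv_pm_ne hac hbd had hbc hab hac hcd (Ne.symm hac)
  · ext F
    simp only [mem_insert, mem_singleton]
    constructor
    · intro hF
      obtain ⟨e, he, hae⟩ := tv_pm_exists hF ((hS a).2 (Or.inl rfl))
      obtain ⟨y, hya, hy⟩ := tv_edge_other hae
      have hyS := (hS y).1 (tv_pm_sub hF he hy)
      rcases hyS with rfl | rfl | rfl | rfl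
      · exact absurd rfl hya
      · left
        rw [tv_edge_ext hab hae hy] at he
        exact tv_pm_aux hab hac had hbc hbd hcd hS hF he
      · right; left
        rw [tv_edge_ext hac hae hy] at he
        refine tv_pm_aux hac hab had (Ne.symm hbc) hcd hbd (fun x => ?_) hF he
        rw [hS]; tauto
      · right; right
        rw [tv_edge_ext had hae hy] at he
        refine tv_pm_aux had hab hac (Ne.symm hbd) (Ne.symm hcd) hbc (fun x => ?_) hF he
        rw [hS]; tauto
    · rintro (rfl | rfl | rfl)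
      · exact tv_pm_mem hab hac had hbc hbd hcd hS
      · refine tv_pm_mem hac hab had (Ne.symm hbc) hcd hbd (fun x => ?_)
        rw [hS]; tauto
      · refine tv_pm_mem had hab hac (Ne.symm hbd) (Ne.symm hcd) hbc (fun x => ?_)
        rw [hS]; tauto

theorem tv_row_sum (E : Finset (Edge n)) : ∑ E', proposalCount E E' = 6 * n.choose 4 := by
  unfold proposalCount
  rw [sum_comm]
  have : ∀ S ∈ (univ : Finset (Fin n)).powersetCard 4,
      ∑ E' : Finset (Edge n), ∑ F ∈ pmSet S, ∑ F' ∈ (pmSet S).erase F,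
        (if switchResult E F F' = E' then 1 else 0) = 6 := by
    intro S hS
    rw [mem_powersetCard] at hS
    rw [sum_comm]
    have h3 := tv_card_pmSet hS.2
    calc ∑ F ∈ pmSet S, ∑ E' : Finset (Edge n), ∑ F' ∈ (pmSet S).erase F,
        (if switchResult E F F' = E' then 1 else 0) = ∑ F ∈ pmSet S, 2 := by
          refine sum_congr rfl fun F hF => ?_
          rw [sum_comm]
          simp only [sum_ite_eq, mem_univ, if_true, sum_const, smul_eq_mul, mul_one]
          rw [card_erase_of_mem hF, h3]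
      _ = 6 := by rw [sum_const, h3]; rfl
  rw [sum_congr rfl this, sum_const, card_powersetCard, card_univ, Fintype.card_fin]
  simp [mul_comm]

theorem tv_count_zero {d : Fin n → ℕ} {E E' : Finset (Edge n)} (hE : E ∈ realizations d)
    (hE' : E' ∉ realizations d) : proposalCount E E' = 0 := by
  unfold proposalCount
  refine sum_eq_zero fun S _ => sum_eq_zero fun F hF => sum_eq_zero fun F' hF' => ?_
  rw [if_neg]
  rintro rfl
  apply hE'
  unfold realizations at hE ⊢
  simp only [mem_filter, mem_univ, true_and] at hE ⊢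
  intro v
  rw [tv_deg_switch E F F' hF (mem_of_mem_erase hF'), hE]

theorem tv_card_edge_le : Fintype.card (Edge n) ≤ n ^ 2 := by
  have h1 : Fintype.card (Edge n) ≤ Fintype.card (Sym2 (Fin n)) :=
    Fintype.card_subtype_le _
  have h2 : Fintype.card (Sym2 (Fin n)) ≤ Fintype.card (Fin n × Fin n) := by
    refine Fintype.card_le_of_surjective (fun p : Fin n × Fin n => s(p.1, p.2)) ?_
    intro z
    induction z using Sym2.ind with
    | _ x y => exact ⟨(x, y), rfl⟩
  rw [Fintype.card_prod, Fintype.card_fin] at h2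
  rw [pow_two]
  exact h1.trans h2

theorem tv_numeric (hn : 4 ≤ n) (N : ℕ) (hN : N ≤ 2 ^ (n ^ 2)) :
    Real.sqrt (N * (1 - 1 / (24 * (n : ℝ) ^ 2 * (n.choose 4 : ℝ))) ^ (2 * n ^ 8)) / 2 ≤ 1 / 4 := by
  set c : ℝ := 24 * (n : ℝ) ^ 2 * (n.choose 4 : ℝ) with hc
  have hn' : (4 : ℝ) ≤ n := by exact_mod_cast hn
  have hch1 : (1 : ℝ) ≤ (n.choose 4 : ℝ) := by
    have : 0 < n.choose 4 := Nat.choose_pos hn
    exact_mod_cast this
  have hc1 : 1 ≤ c := by
    have : (1 : ℝ) ≤ (n : ℝ) ^ 2 := one_le_pow₀ (by linarith)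
    nlinarith
  have hc0 : 0 < c := by linarith
  have hcle : c ≤ (n : ℝ) ^ 6 := by
    have h : (n.choose 4 : ℝ) ≤ (n : ℝ) ^ 4 / (Nat.factorial 4 : ℕ) := Nat.choose_le_pow_div 4 n
    have h24 : ((Nat.factorial 4 : ℕ) : ℝ) = 24 := by norm_num [Nat.factorial]
    rw [h24] at h
    have hp : (0 : ℝ) ≤ 24 * (n : ℝ) ^ 2 := by positivity
    calc c ≤ 24 * (n : ℝ) ^ 2 * ((n : ℝ) ^ 4 / 24) := mul_le_mul_of_nonneg_left h hp
      _ = (n : ℝ) ^ 6 := by ring
  have h0 : 0 ≤ 1 - 1 / c := by
    have : 1 / c ≤ 1 := by rw [div_le_one hc0]; exact hc1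
    linarith
  have h1 : (1 - 1 / c) ^ (2 * n ^ 8) ≤ Real.exp (-(2 * (n : ℝ) ^ 2)) := by
    have ha : 1 - 1 / c ≤ Real.exp (-(1 / c)) := by
      have := Real.add_one_le_exp (-(1 / c)); linarith
    calc (1 - 1 / c) ^ (2 * n ^ 8) ≤ (Real.exp (-(1 / c))) ^ (2 * n ^ 8) :=
          pow_le_pow_left₀ h0 ha _
      _ = Real.exp ((2 * n ^ 8 : ℕ) * (-(1 / c))) := by rw [← Real.exp_nat_mul]
      _ ≤ Real.exp (-(2 * (n : ℝ) ^ 2)) := by
          apply Real.exp_le_exp.2
          push_cast
          have : 2 * (n : ℝ) ^ 2 ≤ 2 * (n : ℝ) ^ 8 * (1 / c) := by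
            rw [mul_one_div, le_div_iff₀ hc0]
            have hp : (0 : ℝ) ≤ 2 * (n : ℝ) ^ 2 := by positivity
            calc 2 * (n : ℝ) ^ 2 * c ≤ 2 * (n : ℝ) ^ 2 * (n : ℝ) ^ 6 :=
                  mul_le_mul_of_nonneg_left hcle hp
              _ = _ := by ring
          linarith
  have h2 : Real.exp (-(2 * (n : ℝ) ^ 2)) ≤ (1 / 4 : ℝ) ^ (n ^ 2) := by
    have he : Real.exp (-2) ≤ 1 / 4 := by
      rw [Real.exp_neg, ← one_div]
      apply one_div_le_one_div_of_le (by norm_num)
      have : (2 : ℝ) ≤ Real.exp 1 := by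
        have := Real.add_one_le_exp (1 : ℝ); linarith
      have h2' : Real.exp 2 = Real.exp 1 * Real.exp 1 := by rw [← Real.exp_add]; norm_num
      rw [h2']; nlinarith
    calc Real.exp (-(2 * (n : ℝ) ^ 2)) = (Real.exp (-2)) ^ (n ^ 2) := by
          rw [← Real.exp_nat_mul]; congr 1; push_cast; ring
      _ ≤ _ := pow_le_pow_left₀ (Real.exp_pos _).le he _
  have h3 : (N : ℝ) * (1 - 1 / c) ^ (2 * n ^ 8) ≤ (1 / 2) ^ 2 := by
    have hN' : (N : ℝ) ≤ 2 ^ (n ^ 2) := by exact_mod_cast hN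
    calc (N : ℝ) * (1 - 1 / c) ^ (2 * n ^ 8) ≤ 2 ^ (n ^ 2) * (1 / 4 : ℝ) ^ (n ^ 2) := by
          apply mul_le_mul hN' (h1.trans h2) (pow_nonneg h0 _) (by positivity)
      _ = (1 / 2 : ℝ) ^ (n ^ 2) := by rw [← mul_pow]; norm_num
      _ ≤ (1 / 2) ^ 2 := by
          apply pow_le_pow_of_le_one (by norm_num) (by norm_num)
          nlinarith
  have h4 : Real.sqrt (N * (1 - 1 / c) ^ (2 * n ^ 8)) ≤ 1 / 2 := by
    rw [Real.sqrt_le_left (by norm_num)]
    exact h3
  linarith

/-- TASK 11. The total variation statement from the Poincaré inequality. -/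
theorem tv_of_poincare (hn : 4 ≤ n) (d : Fin n → ℕ) (hd : (realizations d).Nonempty)
    (hP : ∀ f : Finset (Edge n) → ℝ,
        ((realizations d).card : ℝ) * (∑ G ∈ realizations d, f G ^ 2) -
            (∑ G ∈ realizations d, f G) ^ 2 ≤
          24 * (n : ℝ) ^ 2 * (n.choose 4 : ℝ) * (realizations d).card *
            ∑ G ∈ realizations d,
              f G * (f G - ∑ G' ∈ realizations d, kernel n G G' * f G')) :
    ∃ t : ℕ, t ≤ 2 * n ^ 8 ∧ ∀ G ∈ realizations d,
        tvDist (fun G' => (kernel n ^ t) G G') (unifOn (realizations d)) ≤ 1 / 4 := by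
  refine ⟨2 * n ^ 8, le_rfl, fun G hG => ?_⟩
  have hch : (0 : ℝ) < (n.choose 4 : ℝ) := by exact_mod_cast Nat.choose_pos hn
  let Q : Matrix (Finset (Edge n)) (Finset (Edge n)) ℝ :=
    fun E E' => (proposalCount E E' : ℝ) / (6 * (n.choose 4 : ℝ))
  refine le_trans (tv_general (realizations d) hd Q (kernel n) ?_ ?_ ?_ ?_ ?_
    (24 * (n : ℝ) ^ 2 * (n.choose 4 : ℝ)) ?_ hP (2 * n ^ 8) G hG) (tv_numeric hn _ ?_)
  · intro E E'
    simp only [Q]
    rw [tv_count_symm]
  · intro E E'
    simp only [Q]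
    positivity
  · intro E
    simp only [Q]
    rw [← Finset.sum_div]
    have := tv_row_sum E
    have h' : (∑ E', (proposalCount E E' : ℝ)) = 6 * (n.choose 4 : ℝ) := by
      exact_mod_cast this
    rw [h', div_self (by positivity)]
  · intro E E'
    simp only [Q]
    unfold kernel
    congr 1
    rw [div_div]
    congr 1
    ring
  · intro E hE E' hE'
    simp only [Q]
    rw [tv_count_zero hE hE']
    simp
  · have hn' : (4 : ℝ) ≤ n := by exact_mod_cast hn
    have hch1 : (1 : ℝ) ≤ (n.choose 4 : ℝ) := by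
      have : 0 < n.choose 4 := Nat.choose_pos hn
      exact_mod_cast this
    have : (1 : ℝ) ≤ (n : ℝ) ^ 2 := one_le_pow₀ (by linarith)
    nlinarith
  · calc (realizations d).card ≤ Fintype.card (Finset (Edge n)) := card_le_univ _
      _ = 2 ^ Fintype.card (Edge n) := Fintype.card_finset
      _ ≤ 2 ^ (n ^ 2) := Nat.pow_le_pow_right (by norm_num) tv_card_edge_le

end TVKernel


end Crest.Agent.SwC
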