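import Crest.Statements.S0453
import Crest.Agent.SwC_Main
import Crest.Agent.SwC_Kern2
import Crest.Agent.SwC_TV

set_option autoImplicit false
open Finset
open Crest Crest.LogicCS

namespace Crest.Agent.S0453

open Crest.Agent.SwC in
/-- the Poincaré part -/
theorem poinc (n : ℕ) (hn : 4 ≤ n) (d : Fin n → ℕ)
    (f : Finset (Crest.SwitchChain.Edge n) → ℝ) :
    ((Crest.SwitchChain.realizations d).card : ℝ) *
              (∑ G ∈ Crest.SwitchChain.realizations d, f G ^ 2) -
            (∑ G ∈ Crest.SwitchChain.realizations d, f G) ^ 2 ≤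
          24 * (n : ℝ) ^ 2 * (n.choose 4 : ℝ) * (Crest.SwitchChain.realizations d).card *
            ∑ G ∈ Crest.SwitchChain.realizations d,
              f G * (f G - ∑ G' ∈ Crest.SwitchChain.realizations d,
                Crest.SwitchChain.kernel n G G' * f G') := by
  classical
  obtain ⟨e, he⟩ := exists_equiv d
  have h1 := kernel_form hn d e he f
  have h2 := poincare_switch' (d := fun v => (d v : ℤ)) (fun G => f (e.symm G).1)
  have hcard : (Fintype.card (Rz (fun v => (d v : ℤ)))) =
      (Crest.SwitchChain.realizations d).card := by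
    rw [← Fintype.card_congr e]
    simp
  have hsum : ∀ F : Finset (Crest.SwitchChain.Edge n) → ℝ,
      ∑ G : Rz (fun v => (d v : ℤ)), F (e.symm G).1 =
        ∑ G ∈ Crest.SwitchChain.realizations d, F G := by
    intro F
    rw [← Finset.sum_coe_sort (Crest.SwitchChain.realizations d)]
    exact Equiv.sum_comp e.symm (fun E => F E.1)
  rw [hcard, hsum (fun G => f G ^ 2), hsum f] at h2
  refine h2.trans ?_
  set En : ℝ := ∑ u, ∑ w, ∑ x, ∑ y, ∑ G : Rz (fun v => (d v : ℤ)), (
          if split u w x y G then (f (e.symm G).1 - f (e.symm (swt u w x y G)).1) ^ 2 else 0)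
    with hEn
  have hEn0 : 0 ≤ En := by
    refine Finset.sum_nonneg fun u _ => Finset.sum_nonneg fun w _ => Finset.sum_nonneg fun x _ =>
      Finset.sum_nonneg fun y _ => Finset.sum_nonneg fun G _ => ?_
    split_ifs
    · positivity
    · exact le_rfl
  set K : ℝ := ∑ G ∈ Crest.SwitchChain.realizations d,
              f G * (f G - ∑ G' ∈ Crest.SwitchChain.realizations d,
                Crest.SwitchChain.kernel n G G' * f G') with hK
  have hc : (0 : ℝ) < (n.choose 4 : ℝ) := by
    exact_mod_cast Nat.choose_pos hn
  have h1' : En ≤ 192 * (n.choose 4 : ℝ) * K := by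
    have h3 := mul_le_mul_of_nonneg_left h1 (show (0 : ℝ) ≤ 192 * (n.choose 4 : ℝ) by positivity)
    have h4 : 192 * (n.choose 4 : ℝ) * (1 / (192 * (n.choose 4 : ℝ)) * En) = En := by
      field_simp
    rw [h4] at h3
    exact h3
  have hK0 : 0 ≤ K := by
    have : 0 ≤ 192 * (n.choose 4 : ℝ) * K := hEn0.trans h1'
    by_contra hneg
    push Not at hneg
    have : 192 * (n.choose 4 : ℝ) * K < 0 := mul_neg_of_pos_of_neg (by positivity) hneg
    linarith
  have hn2 : (16 : ℝ) ≤ (n : ℝ) ^ 2 := by
    have : (4 : ℝ) ≤ (n : ℝ) := by exact_mod_cast hn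
    nlinarith
  set N : ℝ := ((Crest.SwitchChain.realizations d).card : ℝ) with hN
  have hN0 : 0 ≤ N := Nat.cast_nonneg _
  calc 1 / 32 * N * En ≤ 1 / 32 * N * (192 * (n.choose 4 : ℝ) * K) :=
        mul_le_mul_of_nonneg_left h1' (by positivity)
    _ = 6 * (n.choose 4 : ℝ) * N * K := by ring
    _ ≤ 24 * (n : ℝ) ^ 2 * (n.choose 4 : ℝ) * N * K := by
        have : 0 ≤ (n.choose 4 : ℝ) * N * K := by positivity
        nlinarith

/-- For every n ≥ 4 and every labeled degree vector on n vertices with a simple realization: the lazy switch chain (hold with probability 1/2, else take a uniform four-vertex set and a uniform ordered pair of distinct perfect matchings on it, swapping the first for the second when the first is present and the second absent) is, from every realization, within total variation 1/4 of uniform on the realizations after some t ≤ 2n^8 steps; and Var(f) ≤ 24 n² C(n,4) ⟨f, (I − P) f⟩ for the uniform law. -/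
theorem result (n : ℕ) (hn : 4 ≤ n)
    (d : Fin n → ℕ) (hd : (Crest.SwitchChain.realizations d).Nonempty) :
    (∃ t : ℕ, t ≤ 2 * n ^ 8 ∧ ∀ G ∈ Crest.SwitchChain.realizations d,
        Crest.SwitchChain.tvDist (fun G' => (Crest.SwitchChain.kernel n ^ t) G G')
          (Crest.SwitchChain.unifOn (Crest.SwitchChain.realizations d)) ≤ 1 / 4) ∧
      ∀ f : Finset (Crest.SwitchChain.Edge n) → ℝ,
        ((Crest.SwitchChain.realizations d).card : ℝ) *
              (∑ G ∈ Crest.SwitchChain.realizations d, f G ^ 2) -
            (∑ G ∈ Crest.SwitchChain.realizations d, f G) ^ 2 ≤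
          24 * (n : ℝ) ^ 2 * (n.choose 4 : ℝ) * (Crest.SwitchChain.realizations d).card *
            ∑ G ∈ Crest.SwitchChain.realizations d,
              f G * (f G - ∑ G' ∈ Crest.SwitchChain.realizations d,
                Crest.SwitchChain.kernel n G G' * f G') :=
  ⟨Crest.Agent.SwC.tv_of_poincare hn d hd (poinc n hn d), poinc n hn d⟩

end Crest.Agent.S0453
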