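import Mathlib

set_option autoImplicit false

/-!
Averaging operators on a finite type and the abstract operator inequalities for S0453.
-/
namespace Crest.Agent.S0453
open Finset

variable {X : Type*} [Fintype X]

/-- the inner product on functions -/
def ip (f g : X → ℝ) : ℝ := ∑ x, f x * g x

lemma ip_comm (f g : X → ℝ) : ip f g = ip g f := by
  unfold ip; exact sum_congr rfl (fun x _ => mul_comm _ _)

lemma ip_add_left (f f' g : X → ℝ) : ip (f + f') g = ip f g + ip f' g := by
  unfold ip; rw [← sum_add_distrib]; exact sum_congr rfl (fun x _ => by simp; ring)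

lemma ip_add_right (f g g' : X → ℝ) : ip f (g + g') = ip f g + ip f g' := by
  unfold ip; rw [← sum_add_distrib]; exact sum_congr rfl (fun x _ => by simp; ring)

lemma ip_sub_left (f f' g : X → ℝ) : ip (f - f') g = ip f g - ip f' g := by
  unfold ip; rw [← sum_sub_distrib]; exact sum_congr rfl (fun x _ => by simp; ring)

lemma ip_sub_right (f g g' : X → ℝ) : ip f (g - g') = ip f g - ip f g' := by
  unfold ip; rw [← sum_sub_distrib]; exact sum_congr rfl (fun x _ => by simp; ring)

lemma ip_smul_left (t : ℝ) (f g : X → ℝ) : ip (t • f) g = t * ip f g := by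
  unfold ip; rw [mul_sum]; exact sum_congr rfl (fun x _ => by simp; ring)

lemma ip_smul_right (t : ℝ) (f g : X → ℝ) : ip f (t • g) = t * ip f g := by
  unfold ip; rw [mul_sum]; exact sum_congr rfl (fun x _ => by simp; ring)

lemma ip_sum_left {ι : Type*} (s : Finset ι) (f : ι → X → ℝ) (g : X → ℝ) :
    ip (∑ i ∈ s, f i) g = ∑ i ∈ s, ip (f i) g := by
  unfold ip
  rw [sum_comm]
  refine sum_congr rfl (fun x _ => ?_)
  rw [Finset.sum_apply, sum_mul]

lemma ip_sum_right {ι : Type*} (s : Finset ι) (f : ι → X → ℝ) (g : X → ℝ) :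
    ip g (∑ i ∈ s, f i) = ∑ i ∈ s, ip g (f i) := by
  rw [ip_comm, ip_sum_left]; exact sum_congr rfl (fun i _ => ip_comm _ _)

lemma ip_self_nonneg (f : X → ℝ) : 0 ≤ ip f f := by
  unfold ip; exact sum_nonneg (fun x _ => mul_self_nonneg _)

lemma ip_self (f : X → ℝ) : ip f f = ∑ x, f x ^ 2 := by
  unfold ip; exact sum_congr rfl (fun x _ => by ring)

lemma ip_self_eq_zero {f : X → ℝ} (h : ip f f = 0) : f = 0 := by
  funext x
  unfold ip at h
  have := (sum_eq_zero_iff_of_nonneg (fun x _ => mul_self_nonneg (f x))).1 h x (mem_univ x)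
  simpa using this

lemma ip_ext {f f' : X → ℝ} (h : ∀ g, ip f g = ip f' g) : f = f' := by
  have : ip (f - f') (f - f') = 0 := by
    rw [ip_sub_left, h, sub_self]
  have h2 := ip_self_eq_zero this
  exact sub_eq_zero.1 h2

/-- symmetric operator -/
def Symm (A : Module.End ℝ (X → ℝ)) : Prop := ∀ f g, ip (A f) g = ip f (A g)

lemma Symm.one : Symm (1 : Module.End ℝ (X → ℝ)) := fun _ _ => rfl

lemma Symm.sub {A B : Module.End ℝ (X → ℝ)} (hA : Symm A) (hB : Symm B) : Symm (A - B) := by
  intro f g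
  simp only [LinearMap.sub_apply]
  rw [ip_sub_left, ip_sub_right, hA, hB]

lemma Symm.add {A B : Module.End ℝ (X → ℝ)} (hA : Symm A) (hB : Symm B) : Symm (A + B) := by
  intro f g
  simp only [LinearMap.add_apply]
  rw [ip_add_left, ip_add_right, hA, hB]

lemma Symm.sum {ι : Type*} (s : Finset ι) {A : ι → Module.End ℝ (X → ℝ)}
    (hA : ∀ i ∈ s, Symm (A i)) : Symm (∑ i ∈ s, A i) := by
  intro f g
  rw [LinearMap.sum_apply, LinearMap.sum_apply, ip_sum_left, ip_sum_right]
  exact sum_congr rfl (fun i hi => hA i hi f g)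

/-- product of commuting symmetric idempotents -/
lemma ip_proj_mul {A B : Module.End ℝ (X → ℝ)} (hA : Symm A) (hB : Symm B)
    (hA2 : A * A = A) (hB2 : B * B = B) (hAB : A * B = B * A) (f : X → ℝ) :
    ip (A f) (B f) = ip ((A * B) f) ((A * B) f) := by
  have e1 : ip ((A * B) f) ((A * B) f) = ip (B f) (A ((A * B) f)) := by
    change ip (A (B f)) ((A * B) f) = _
    rw [hA]
  have e2 : A ((A * B) f) = (A * B) f := by
    change (A * (A * B)) f = _
    rw [← mul_assoc, hA2]
  have e3 : ip (B f) ((A * B) f) = ip f (B ((A * B) f)) := by rw [hB]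
  have e4 : B ((A * B) f) = (A * B) f := by
    change (B * (A * B)) f = _
    rw [hAB, ← mul_assoc, hB2]
  have e5 : ip (A f) (B f) = ip f ((A * B) f) := by rw [hA]; rfl
  rw [e5, e1, e2, e3, e4]

lemma ip_proj_mul_nonneg {A B : Module.End ℝ (X → ℝ)} (hA : Symm A) (hB : Symm B)
    (hA2 : A * A = A) (hB2 : B * B = B) (hAB : A * B = B * A) (f : X → ℝ) :
    0 ≤ ip (A f) (B f) := by
  rw [ip_proj_mul hA hB hA2 hB2 hAB]; exact ip_self_nonneg _

section avg
variable {K K' : Type*} [DecidableEq K] [DecidableEq K']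

/-- the average over the fibre of `κ`. -/
noncomputable def avgF (κ : X → K) (f : X → ℝ) (x : X) : ℝ :=
  (∑ y ∈ univ.filter (fun y => κ y = κ x), f y) / ((univ.filter (fun y => κ y = κ x)).card : ℝ)

/-- the averaging operator -/
noncomputable def avg (κ : X → K) : Module.End ℝ (X → ℝ) where
  toFun f := avgF κ f
  map_add' f g := by
    funext x
    simp only [avgF, Pi.add_apply, sum_add_distrib, add_div]
  map_smul' t f := by
    funext x
    simp only [avgF, Pi.smul_apply, smul_eq_mul, RingHom.id_apply, ← mul_sum, mul_div_assoc]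

lemma avg_apply (κ : X → K) (f : X → ℝ) (x : X) :
    avg κ f x = (∑ y ∈ univ.filter (fun y => κ y = κ x), f y) /
      ((univ.filter (fun y => κ y = κ x)).card : ℝ) := rfl

lemma fiber_card_pos (κ : X → K) (x : X) :
    (0 : ℝ) < ((univ.filter (fun y => κ y = κ x)).card : ℝ) := by
  have : x ∈ univ.filter (fun y => κ y = κ x) := by simp
  exact_mod_cast card_pos.2 ⟨x, this⟩

lemma avg_congr (κ : X → K) (f : X → ℝ) {x y : X} (h : κ x = κ y) :
    avg κ f x = avg κ f y := by
  rw [avg_apply, avg_apply, h]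

lemma avg_of_const (κ : X → K) (f : X → ℝ) (x : X) (h : ∀ y, κ y = κ x → f y = f x) :
    avg κ f x = f x := by
  rw [avg_apply]
  have : ∑ y ∈ univ.filter (fun y => κ y = κ x), f y
      = ∑ y ∈ univ.filter (fun y => κ y = κ x), f x :=
    sum_congr rfl (fun y hy => h y (by simpa using hy))
  rw [this, sum_const, nsmul_eq_mul]
  have := fiber_card_pos κ x
  field_simp

lemma avg_of_inv (κ : X → K) (f : X → ℝ) (h : ∀ x y, κ x = κ y → f x = f y) :
    avg κ f = f := funext (fun x => avg_of_const κ f x (fun y hy => h y x hy))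

lemma avg_symm (κ : X → K) : Symm (avg κ) := by
  intro f g
  unfold ip
  have h1 : ∀ x, avg κ f x * g x = ∑ y, (if κ y = κ x then
      f y * g x / ((univ.filter (fun z => κ z = κ x)).card : ℝ) else 0) := by
    intro x
    rw [avg_apply, div_mul_eq_mul_div, sum_mul, sum_div, sum_filter]
  have h2 : ∀ x, f x * avg κ g x = ∑ y, (if κ y = κ x then
      f x * g y / ((univ.filter (fun z => κ z = κ x)).card : ℝ) else 0) := by
    intro x
    rw [avg_apply, mul_div_assoc', mul_sum, sum_div, sum_filter]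
  simp_rw [h1, h2]
  rw [sum_comm]
  refine sum_congr rfl (fun x _ => sum_congr rfl (fun y _ => ?_))
  by_cases h : κ x = κ y
  · rw [if_pos h, if_pos h.symm, h]
  · rw [if_neg h, if_neg (fun h' => h h'.symm)]

lemma avg_idem (κ : X → K) : avg κ * avg κ = avg κ := by
  ext1 f
  exact avg_of_inv κ _ (fun x y h => avg_congr κ f h)

/-- if `κ'` refines `κ` -/
lemma avg_fine_mul (κ : X → K) (κ' : X → K') (h : ∀ x y, κ' x = κ' y → κ x = κ y) :
    avg κ' * avg κ = avg κ := by
  ext1 f
  exact avg_of_inv κ' _ (fun x y hxy => avg_congr κ f (h x y hxy))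

lemma avg_mul_fine (κ : X → K) (κ' : X → K') (h : ∀ x y, κ' x = κ' y → κ x = κ y) :
    avg κ * avg κ' = avg κ := by
  ext1 f
  apply ip_ext
  intro g
  change ip (avg κ (avg κ' f)) g = ip (avg κ f) g
  rw [avg_symm, avg_symm, avg_symm κ f g]
  congr 1
  have := congrArg (fun T : Module.End ℝ (X → ℝ) => T g) (avg_fine_mul κ κ' h)
  exact this

/-- commutation criterion -/
lemma avg_comm_of_inv (κ : X → K) (κ' : X → K')
    (h : ∀ f : X → ℝ, (∀ x y, κ' x = κ' y → f x = f y) →
      ∀ x y, κ' x = κ' y → avg κ f x = avg κ f y) :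
    avg κ * avg κ' = avg κ' * avg κ := by
  -- P R is R-invariant
  have h1 : avg κ' * (avg κ * avg κ') = avg κ * avg κ' := by
    ext1 f
    exact avg_of_inv κ' _ (h _ (fun x y hxy => avg_congr κ' f hxy))
  ext1 f
  apply ip_ext
  intro g
  change ip (avg κ (avg κ' f)) g = ip (avg κ' (avg κ f)) g
  have e1 : avg κ (avg κ' f) = avg κ' (avg κ (avg κ' f)) :=
    (congrArg (fun T : Module.End ℝ (X → ℝ) => T f) h1).symm
  have e2 : avg κ (avg κ' g) = avg κ' (avg κ (avg κ' g)) :=
    (congrArg (fun T : Module.End ℝ (X → ℝ) => T g) h1).symm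
  rw [e1, avg_symm, avg_symm, avg_symm κ' f, ← e2, avg_symm κ' (avg κ f), avg_symm κ f]

end avg

/-- **Cross bound (II')**. -/
theorem cross_bound {Ka Ka' Kb Kb' : Type*} [DecidableEq Ka] [DecidableEq Ka'] [DecidableEq Kb]
    [DecidableEq Kb'] (κa : X → Ka) (κa' : X → Ka') (κb : X → Kb) (κb' : X → Kb')
    (ha : ∀ x y, κa' x = κa' y → κa x = κa y) (hb : ∀ x y, κb' x = κb' y → κb x = κb y)
    (c1 : avg κa * avg κb' = avg κb' * avg κa)
    (c2 : avg κa' * avg κb' = avg κb' * avg κa')
    (c3 : avg κb * avg κa' = avg κa' * avg κb)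
    (τ : X → X) (hτ : ∀ x, τ (τ x) = x) (hτa : ∀ x, κa' (τ x) = κa' x)
    (hτb : ∀ x, κb' (τ x) = κb' x) (f : X → ℝ) :
    (1/4) * ∑ x, (f x - f (τ x)) ^ 2 - (1/2) * ∑ x, (avg κa' f x - avg κa f x) ^ 2
      - (1/2) * ∑ x, (avg κb' f x - avg κb f x) ^ 2
      ≤ ip (f - avg κa f) (f - avg κb f) := by
  set P := avg κa with hP
  set P' := avg κa' with hP'
  set R := avg κb with hR
  set R' := avg κb' with hR'
  have sP : Symm P := avg_symm _
  have sP' : Symm P' := avg_symm _
  have sR : Symm R := avg_symm _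
  have sR' : Symm R' := avg_symm _
  have iP : P * P = P := avg_idem _
  have iP' : P' * P' = P' := avg_idem _
  have iR : R * R = R := avg_idem _
  have iR' : R' * R' = R' := avg_idem _
  have r1 : P' * P = P := avg_fine_mul _ _ ha
  have r2 : P * P' = P := avg_mul_fine _ _ ha
  have r3 : R' * R = R := avg_fine_mul _ _ hb
  have r4 : R * R' = R := avg_mul_fine _ _ hb
  -- decomposition
  have d1 : f - P f = (1 - P') f + (P' - P) f := by
    simp [LinearMap.sub_apply]
  have d2 : f - R f = (1 - R') f + (R' - R) f := by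
    simp [LinearMap.sub_apply]
  have idA : (1 - P') * (1 - P') = 1 - P' := by
    rw [sub_mul, mul_sub, mul_sub, one_mul, mul_one, one_mul, iP']; abel
  have idC : (1 - R') * (1 - R') = 1 - R' := by
    rw [sub_mul, mul_sub, mul_sub, one_mul, mul_one, one_mul, iR']; abel
  have idB : (P' - P) * (P' - P) = P' - P := by
    rw [sub_mul, mul_sub, mul_sub, iP', r1, r2, iP]; abel
  have idD : (R' - R) * (R' - R) = R' - R := by
    rw [sub_mul, mul_sub, mul_sub, iR', r3, r4, iR]; abel
  have cAC : (1 - P') * (1 - R') = (1 - R') * (1 - P') := by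
    simp only [sub_mul, mul_sub, one_mul, mul_one]; rw [c2]; abel
  have cAD : (1 - P') * (R' - R) = (R' - R) * (1 - P') := by
    simp only [sub_mul, mul_sub, one_mul, mul_one]; rw [c2, c3]; abel
  have cBC : (P' - P) * (1 - R') = (1 - R') * (P' - P) := by
    simp only [sub_mul, mul_sub, one_mul, mul_one]; rw [c2, c1]; abel
  have n2 := ip_proj_mul_nonneg (Symm.one.sub sP') (sR'.sub sR) idA idD cAD f
  have n3 := ip_proj_mul_nonneg (sP'.sub sP) (Symm.one.sub sR') idB idC cBC f
  have e1 := ip_proj_mul (Symm.one.sub sP') (Symm.one.sub sR') idA idC cAC f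
  -- the main square term
  set h := ((1 - P') * (1 - R')) f with hh
  have hdiff : ∀ x, h x - h (τ x) = f x - f (τ x) := by
    intro x
    have t1 : ∀ g : X → ℝ, P' g (τ x) = P' g x := fun g => avg_congr κa' g (hτa x)
    have t2 : ∀ g : X → ℝ, R' g (τ x) = R' g x := fun g => avg_congr κb' g (hτb x)
    have hx : ∀ y, h y = f y - R' f y - P' (f - R' f) y := by
      intro y
      rw [hh]
      change ((1 - P') ((1 - R') f)) y = _
      simp [LinearMap.sub_apply]
    rw [hx, hx, t1, t2]; ring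
  have hτinv : Function.Involutive τ := hτ
  have n1 : (1/4) * ∑ x, (f x - f (τ x)) ^ 2 ≤ ip h h := by
    have s1 : ∑ x, (h (τ x)) ^ 2 = ∑ x, (h x) ^ 2 := by
      exact Equiv.sum_comp (hτinv.toPerm τ) (fun x => (h x) ^ 2)
    have s2 : ∑ x, (f x - f (τ x)) ^ 2 ≤ ∑ x, (2 * (h x) ^ 2 + 2 * (h (τ x)) ^ 2) := by
      refine sum_le_sum (fun x _ => ?_)
      rw [← hdiff x]
      nlinarith [sq_nonneg (h x + h (τ x))]
    rw [sum_add_distrib, ← mul_sum, ← mul_sum, s1] at s2
    rw [ip_self]
    linarith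
  have n4 : - (1/2) * ∑ x, (P' f x - P f x) ^ 2 - (1/2) * ∑ x, (R' f x - R f x) ^ 2
      ≤ ip ((P' - P) f) ((R' - R) f) := by
    unfold ip
    rw [mul_sum, mul_sum, ← sum_sub_distrib]
    refine sum_le_sum (fun x _ => ?_)
    simp only [LinearMap.sub_apply, Pi.sub_apply]
    nlinarith [sq_nonneg ((P' f x - P f x) + (R' f x - R f x))]
  rw [d1, d2, ip_add_left, ip_add_right, ip_add_right, e1]
  linarith

/-- eigen-expansion of a symmetric operator -/
theorem eigen_expansion (L : Module.End ℝ (X → ℝ)) (hL : Symm L) (f : X → ℝ) :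
    ∃ (n : ℕ) (e : Fin n → X → ℝ) (μ c : Fin n → ℝ), (∀ i, e i ≠ 0) ∧
      (∀ i, L (e i) = μ i • e i) ∧ (∀ i, c i = ip (e i) f) ∧
      ip f f = ∑ i, c i ^ 2 ∧ ip f (L f) = ∑ i, μ i * c i ^ 2 ∧
      ip (L f) (L f) = ∑ i, μ i ^ 2 * c i ^ 2 := by
  classical
  let E := EuclideanSpace ℝ X
  let eq : E ≃ₗ[ℝ] (X → ℝ) := WithLp.linearEquiv 2 ℝ (X → ℝ)
  have hip : ∀ u v : E, inner ℝ u v = ip (eq u) (eq v) := by
    intro u v
    simp only [ip]
    refine sum_congr rfl (fun x _ => ?_)
    exact mul_comm _ _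
  let T : E →ₗ[ℝ] E := eq.symm.toLinearMap ∘ₗ L ∘ₗ eq.toLinearMap
  have hT : T.IsSymmetric := by
    intro u v
    rw [hip, hip]
    simp only [T, LinearMap.comp_apply, LinearEquiv.coe_coe, LinearEquiv.apply_symm_apply]
    exact hL _ _
  let b := hT.eigenvectorBasis rfl
  let n := Module.finrank ℝ E
  let ev : Fin n → ℝ := hT.eigenvalues rfl
  have hb : ∀ i, T (b i) = (ev i) • b i := fun i => hT.apply_eigenvectorBasis rfl i
  refine ⟨n, fun i => eq (b i), ev, fun i => ip (eq (b i)) f, ?_, ?_, fun i => rfl, ?_, ?_, ?_⟩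
  · intro i h0
    have : b i = 0 := by
      apply eq.injective
      have h0' : eq (b i) = 0 := h0
      rw [h0', map_zero]
    have h1 := b.orthonormal.1 i
    rw [this, norm_zero] at h1
    exact zero_ne_one h1
  · intro i
    have := congrArg eq (hb i)
    simpa [T] using this
  · have h1 := b.sum_inner_mul_inner (eq.symm f) (eq.symm f)
    rw [hip] at h1
    simp only [LinearEquiv.apply_symm_apply] at h1
    rw [← h1]
    refine sum_congr rfl (fun i _ => ?_)
    rw [hip, hip]
    simp only [LinearEquiv.apply_symm_apply]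
    rw [ip_comm f]; ring
  · have h1 := b.sum_inner_mul_inner (eq.symm f) (T (eq.symm f))
    rw [hip] at h1
    simp only [LinearEquiv.apply_symm_apply, T, LinearMap.comp_apply, LinearEquiv.coe_coe] at h1
    rw [← h1]
    refine sum_congr rfl (fun i _ => ?_)
    rw [hip, hip]
    simp only [LinearEquiv.apply_symm_apply]
    have h2 : L (eq (b i)) = ev i • eq (b i) := by
      have := congrArg eq (hb i)
      simpa [T] using this
    rw [← hL, h2, ip_smul_left, ip_comm f]; ring
  · have h1 := b.sum_inner_mul_inner (T (eq.symm f)) (T (eq.symm f))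
    rw [hip] at h1
    simp only [LinearEquiv.apply_symm_apply, T, LinearMap.comp_apply, LinearEquiv.coe_coe] at h1
    rw [← h1]
    refine sum_congr rfl (fun i _ => ?_)
    rw [hip, hip]
    simp only [LinearEquiv.apply_symm_apply]
    have h2 : L (eq (b i)) = ev i • eq (b i) := by
      have := congrArg eq (hb i)
      simpa [T] using this
    rw [ip_comm (L f), ← hL, h2, ip_smul_left]; ring

/-- three averaging operators whose sum has no eigenvalue in `(2,3)`. -/
theorem block_nonneg (P₁ P₂ P₃ : Module.End ℝ (X → ℝ)) (s₁ : Symm P₁) (s₂ : Symm P₂)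
    (s₃ : Symm P₃) (i₁ : P₁ * P₁ = P₁) (i₂ : P₂ * P₂ = P₂) (i₃ : P₃ * P₃ = P₃)
    (hev : ∀ (f : X → ℝ) (μ : ℝ), 2 < μ → P₁ f + P₂ f + P₃ f = μ • f →
      P₁ f = f ∧ P₂ f = f ∧ P₃ f = f) (f : X → ℝ) :
    0 ≤ ip (f - P₁ f) (f - P₂ f) + ip (f - P₁ f) (f - P₃ f) + ip (f - P₂ f) (f - P₃ f) := by
  set L : Module.End ℝ (X → ℝ) := (1 - P₁) + (1 - P₂) + (1 - P₃) with hLdef
  have sL : Symm L := ((Symm.one.sub s₁).add (Symm.one.sub s₂)).add (Symm.one.sub s₃)
  have hLf : ∀ g : X → ℝ, L g = (g - P₁ g) + (g - P₂ g) + (g - P₃ g) := by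
    intro g; simp [hLdef, LinearMap.add_apply, LinearMap.sub_apply]
  obtain ⟨n, e, μ, c, he0, heL, hc, h1, h2, h3⟩ := eigen_expansion L sL f
  have key : ip f (L f) ≤ ip (L f) (L f) := by
    rw [h2, h3]
    refine sum_le_sum (fun i _ => ?_)
    have hμ : μ i ≤ μ i ^ 2 := by
      by_cases hlt : μ i < 1
      · have h4 : P₁ (e i) + P₂ (e i) + P₃ (e i) = (3 - μ i) • e i := by
          have h5 := heL i
          rw [hLf] at h5
          have h6 : P₁ (e i) + P₂ (e i) + P₃ (e i) = (3 : ℝ) • e i - μ i • e i := by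
            rw [← h5]
            have : (3 : ℝ) • e i = e i + e i + e i := by
              rw [show (3 : ℝ) = 1 + 1 + 1 by norm_num, add_smul, add_smul, one_smul]
            rw [this]; abel
          rw [h6, sub_smul]
        obtain ⟨a1, a2, a3⟩ := hev (e i) (3 - μ i) (by linarith) h4
        have h7 : L (e i) = 0 := by rw [hLf, a1, a2, a3]; simp
        rw [heL i] at h7
        have h8 : μ i = 0 := by
          rcases smul_eq_zero.1 h7 with h | h
          · exact h
          · exact absurd h (he0 i)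
        rw [h8]; norm_num
      · push Not at hlt
        nlinarith
    exact mul_le_mul_of_nonneg_right hμ (sq_nonneg _)
  have p1 : ip f (f - P₁ f) = ip (f - P₁ f) (f - P₁ f) := by
    have := ip_proj_mul (Symm.one.sub s₁) (Symm.one.sub s₁)
      (by rw [sub_mul, mul_sub, mul_sub, one_mul, mul_one, one_mul, i₁]; abel)
      (by rw [sub_mul, mul_sub, mul_sub, one_mul, mul_one, one_mul, i₁]; abel) rfl f
    rw [ip_sub_left f (P₁ f), s₁, ip_sub_right f, map_sub]
    have : P₁ (P₁ f) = P₁ f := congrArg (fun T : Module.End ℝ (X → ℝ) => T f) i₁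
    rw [this]; simp [ip]
  have p2 : ip f (f - P₂ f) = ip (f - P₂ f) (f - P₂ f) := by
    rw [ip_sub_left f (P₂ f), s₂, ip_sub_right f, map_sub]
    have : P₂ (P₂ f) = P₂ f := congrArg (fun T : Module.End ℝ (X → ℝ) => T f) i₂
    rw [this]; simp [ip]
  have p3 : ip f (f - P₃ f) = ip (f - P₃ f) (f - P₃ f) := by
    rw [ip_sub_left f (P₃ f), s₃, ip_sub_right f, map_sub]
    have : P₃ (P₃ f) = P₃ f := congrArg (fun T : Module.End ℝ (X → ℝ) => T f) i₃
    rw [this]; simp [ip]
  rw [hLf] at key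
  simp only [ip_add_left, ip_add_right] at key
  rw [p1, p2, p3] at key
  have q1 := ip_comm (f - P₂ f) (f - P₁ f)
  have q2 := ip_comm (f - P₃ f) (f - P₁ f)
  have q3 := ip_comm (f - P₃ f) (f - P₂ f)
  linarith

/-- from `H² ≥ H` to the Poincaré inequality -/
theorem poincare_of_sq (H : Module.End ℝ (X → ℝ)) (sH : Symm H)
    (hpos : ∀ f, 0 ≤ ip f (H f)) (hsq : ∀ f, ip f (H f) ≤ ip (H f) (H f))
    (hker : ∀ f, H f = 0 → ∀ x y, f x = f y) (f : X → ℝ) (hf : ∑ x, f x = 0) :
    ∑ x, f x ^ 2 ≤ ip f (H f) := by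
  obtain ⟨n, e, μ, c, he0, heL, hc, h1, h2, h3⟩ := eigen_expansion H sH f
  rw [← ip_self, h1, h2]
  refine sum_le_sum (fun i _ => ?_)
  have hee : 0 < ip (e i) (e i) := by
    rcases (ip_self_nonneg (e i)).lt_or_eq with h | h
    · exact h
    · exact absurd (ip_self_eq_zero h.symm) (he0 i)
  have a1 := hpos (e i)
  have a2 := hsq (e i)
  rw [heL i] at a1 a2
  rw [ip_smul_right] at a1
  rw [ip_smul_right, ip_smul_right, ip_smul_left] at a2
  have b1 : 0 ≤ μ i := by
    by_contra hneg
    push Not at hneg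
    nlinarith
  rcases b1.lt_or_eq with hp | hz
  · have b2 : 1 ≤ μ i := by
      by_contra hlt
      push Not at hlt
      have : μ i * (μ i * ip (e i) (e i)) < μ i * ip (e i) (e i) := by
        have : 0 < μ i * ip (e i) (e i) := mul_pos hp hee
        nlinarith
      linarith
    nlinarith [sq_nonneg (c i)]
  · have h0 : H (e i) = 0 := by rw [heL i, ← hz, zero_smul]
    have hconst := hker _ h0
    have hci : c i = 0 := by
      rw [hc i]
      unfold ip
      by_cases hX : Nonempty X
      · obtain ⟨x0⟩ := hX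
        have : ∀ x, e i x * f x = e i x0 * f x := fun x => by rw [hconst x x0]
        simp_rw [this]
        rw [← mul_sum, hf, mul_zero]
      · rw [not_nonempty_iff] at hX
        simp
    rw [hci]; simp

end Crest.Agent.S0453
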