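import Crest.Agent.S0453_Defs
import Crest.Prelude.Def_SwitchChain
set_option autoImplicit false
namespace Crest.Agent.S0453
open Finset

section johnson
variable {α : Type*} [DecidableEq α]

/-- Task J1 -/
theorem johnson_poincare (D : Finset α) (k : ℕ) (u : Finset α → ℝ)
    (h0 : ∑ A ∈ D.powersetCard k, u A = 0) :
    ∑ A ∈ D.powersetCard k, u A ^ 2 ≤
      (1/2) * ∑ A ∈ D.powersetCard k, ∑ x ∈ D, ∑ y ∈ D, (u A - u (swapIn x y A)) ^ 2 := by
  sorry

/-- Task J2 -/
theorem johnson_K (D : Finset α) (k : ℕ) (u : Finset α → ℝ)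
    (h0 : ∑ A ∈ D.powersetCard k, u A = 0) :
    ∑ c ∈ D, ∑ d ∈ D.erase c,
      ((∑ A ∈ (D.powersetCard k).filter (fun A => ¬ (c ∈ A ↔ d ∈ A)), u A) ^ 2 /
          ((D.powersetCard k).filter (fun A => ¬ (c ∈ A ↔ d ∈ A))).card +
       (∑ A ∈ (D.powersetCard k).filter (fun A => (c ∈ A ↔ d ∈ A)), u A) ^ 2 /
          ((D.powersetCard k).filter (fun A => (c ∈ A ↔ d ∈ A))).card)
    ≤ (1/4) * ∑ c ∈ D, ∑ d ∈ D.erase c, ∑ A ∈ D.powersetCard k,
        (u A - u (swapIn c d A)) ^ 2 := by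
  sorry
end johnson

section three
variable {C : Type*} [Fintype C] [DecidableEq C]

/-- 3-row 0/1 matrices with prescribed row sums `r` and column sums `c`. -/
abbrev Mat3 (r : Fin 3 → ℕ) (c : C → ℕ) : Type _ :=
  {M : Fin 3 → C → Bool // (∀ i, (univ.filter (fun z => M i z = true)).card = r i) ∧
     (∀ z, (univ.filter (fun i => M i z = true)).card = c z)}

/-- average of `f` over the matrices with the same row `i` -/
noncomputable def rowAvg {r : Fin 3 → ℕ} {c : C → ℕ} (i : Fin 3) (f : Mat3 r c → ℝ)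
    (M : Mat3 r c) : ℝ :=
  (∑ N ∈ univ.filter (fun N : Mat3 r c => N.1 i = M.1 i), f N) /
    ((univ.filter (fun N : Mat3 r c => N.1 i = M.1 i)).card : ℝ)

/-- Task T -/
theorem three_row (r : Fin 3 → ℕ) (c : C → ℕ) (f : Mat3 r c → ℝ) (μ : ℝ) (hμ : 2 < μ)
    (hf : ∀ M, ∑ i, rowAvg i f M = μ * f M) : ∀ i M, rowAvg i f M = f M := by
  sorry
end three

section conn
variable {V : Type*} [Fintype V] [DecidableEq V]

/-- Task C -/
theorem real_connected {β : Type*} (d : V → ℕ) (f : (V → V → Bool) → β)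
    (hf : ∀ a b G G', IsReal d G → IsReal d G' →
      (∀ x y, x ≠ a → x ≠ b → y ≠ a → y ≠ b → G x y = G' x y) → f G = f G') :
    ∀ G G', IsReal d G → IsReal d G' → f G = f G' := by
  sorry
end conn

section kernel
open Crest.SwitchChain
/-- the edge set of a Boolean matrix -/
def toE {n : ℕ} (G : Fin n → Fin n → Bool) : Finset (Edge n) :=
  univ.filter (fun e => ∃ x y, G x y = true ∧ e.1 = s(x, y))

/-- Task E1 -/
theorem sum_toE {n : ℕ} (d : Fin n → ℕ) (g : Finset (Edge n) → ℝ) :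
    ∑ E ∈ realizations d, g E = ∑ G ∈ univ.filter (fun G => IsReal d G), g (toE G) := by
  sorry

/-- Task E2 -/
theorem kernel_energy {n : ℕ} (hn : 4 ≤ n) (d : Fin n → ℕ) (f : Finset (Edge n) → ℝ)
    (a b : Fin n) (hab : a ≠ b) :
    ∑ G ∈ univ.filter (fun G => IsReal d G), ∑ x, ∑ y,
      (if x ≠ a ∧ x ≠ b ∧ y ≠ a ∧ y ≠ b ∧ G a x = true ∧ G b x = false ∧
          G b y = true ∧ G a y = false
        then (f (toE G) - f (toE (flipG a b {x, y} G))) ^ 2 else 0)
    ≤ 24 * (n.choose 4 : ℝ) * ∑ E ∈ realizations d,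
        f E * (f E - ∑ E' ∈ realizations d, kernel n E E' * f E') := by
  sorry

/-- Task M -/
theorem mixing_of_poincare (n : ℕ) (hn : 4 ≤ n) (d : Fin n → ℕ)
    (hd : (realizations d).Nonempty)
    (hP : ∀ f : Finset (Edge n) → ℝ,
        ((realizations d).card : ℝ) * (∑ G ∈ realizations d, f G ^ 2) -
            (∑ G ∈ realizations d, f G) ^ 2 ≤
          24 * (n : ℝ) ^ 2 * (n.choose 4 : ℝ) * (realizations d).card *
            ∑ G ∈ realizations d,
              f G * (f G - ∑ G' ∈ realizations d, kernel n G G' * f G')) :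
    ∃ t : ℕ, t ≤ 2 * n ^ 8 ∧ ∀ G ∈ realizations d,
        tvDist (fun G' => (kernel n ^ t) G G') (unifOn (realizations d)) ≤ 1 / 4 := by
  sorry
end kernel
end Crest.Agent.S0453
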