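import Mathlib

set_option autoImplicit false

/-!
Shared definitions for S0453 (switch chain), helper48.

Graphs are Boolean matrices `G : V → V → Bool`.
-/
namespace Crest.Agent.S0453
open Finset

variable {V : Type*} [Fintype V] [DecidableEq V]

/-- `G` is (the adjacency matrix of) a simple graph with degree vector `d`. -/
def IsReal (d : V → ℕ) (G : V → V → Bool) : Prop :=
  (∀ x, G x x = false) ∧ (∀ x y, G x y = G y x) ∧
    ∀ x, (univ.filter (fun y => G x y = true)).card = d x

instance (d : V → ℕ) : DecidablePred (IsReal (V := V) d) := by
  intro G; unfold IsReal; infer_instance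

/-- realizations of `d` as a type -/
abbrev XG (d : V → ℕ) : Type _ := {G : V → V → Bool // IsReal d G}

/-- exchange the edges `az` and `bz` for all `z ∈ W` (used with `a, b ∉ W`). -/
def flipG (a b : V) (W : Finset V) (G : V → V → Bool) : V → V → Bool :=
  fun p q => G (if q ∈ W then Equiv.swap a b p else p) (if p ∈ W then Equiv.swap a b q else q)

/-- exchange the roles of `c` and `d` in the finite set `A` -/
def swapIn {α : Type*} [DecidableEq α] (c d : α) (A : Finset α) : Finset α :=
  A.image (Equiv.swap c d)

end Crest.Agent.S0453
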