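import Crest.Agent.SL_Defs

set_option autoImplicit false
set_option linter.style.haveILetI false

namespace Crest.Agent.SL

open MeasureTheory ProbabilityTheory Crest.StreamLearn Metric
open scoped ENNReal

theorem brun_measurable' {d : ℕ} {Q : Type} [Finite Q] (tr : ℕ → Q → E d → ℝ → Q)
    (htr : TrMeas tr) (k : ℕ) : ∀ (t : ℕ) (q q' : Q),
    MeasurableSet {p : (Fin k → E d) × (Fin k → ℝ) | brun tr k t q p.1 p.2 = q'} := by
  induction k with
  | zero =>
    intro t q q'
    simp only [brun]
    exact MeasurableSet.const _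
  | succ k ih =>
    intro t q q'
    have h : {p : (Fin (k + 1) → E d) × (Fin (k + 1) → ℝ) | brun tr (k + 1) t q p.1 p.2 = q'} =
        ⋃ q'' : Q, ((fun p : (Fin (k + 1) → E d) × (Fin (k + 1) → ℝ) => (p.1 0, p.2 0)) ⁻¹'
            {p : E d × ℝ | tr t q p.1 p.2 = q''}) ∩
          ((fun p : (Fin (k + 1) → E d) × (Fin (k + 1) → ℝ) => (Fin.tail p.1, Fin.tail p.2)) ⁻¹'
            {p : (Fin k → E d) × (Fin k → ℝ) | brun tr k (t + 1) q'' p.1 p.2 = q'}) := by
      ext p
      rw [Set.mem_iUnion]
      constructor
      · intro hp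
        exact ⟨tr t q (p.1 0) (p.2 0), rfl, hp⟩
      · rintro ⟨q'', h1, h2⟩
        change tr t q (p.1 0) (p.2 0) = q'' at h1
        change brun tr k (t + 1) q'' (Fin.tail p.1) (Fin.tail p.2) = q' at h2
        rw [← h1] at h2
        exact h2
    rw [h]
    refine MeasurableSet.iUnion fun q'' => ?_
    refine MeasurableSet.inter ?_ ?_
    · apply measurableSet_preimage _ (htr t q q'')
      exact ((measurable_pi_apply 0).comp measurable_fst).prodMk
        ((measurable_pi_apply 0).comp measurable_snd)
    · apply measurableSet_preimage _ (ih (t + 1) q'' q')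
      have h1 : Measurable (fun a : Fin (k + 1) → E d => (Fin.tail a : Fin k → E d)) :=
        measurable_pi_lambda _ fun i => measurable_pi_apply _
      have h2 : Measurable (fun a : Fin (k + 1) → ℝ => (Fin.tail a : Fin k → ℝ)) :=
        measurable_pi_lambda _ fun i => measurable_pi_apply _
      exact (h1.comp measurable_fst).prodMk (h2.comp measurable_snd)

theorem brun_value_measurable {d : ℕ} {Q : Type} [Finite Q] (tr : ℕ → Q → E d → ℝ → Q)
    (htr : TrMeas tr) (g : Q → E d → ℝ≥0∞) (k t : ℕ) (q : Q) (s : E d) :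
    Measurable (fun a : Fin k → E d => g (brun tr k t q a (meas a s)) s) := by
  letI : MeasurableSpace Q := ⊤
  have h1 : Measurable (fun a : Fin k → E d => brun tr k t q a (meas a s)) := by
    apply measurable_to_countable'
    intro q'
    have h2 : Measurable (fun a : Fin k → E d => (a, meas a s)) := by
      refine measurable_id.prodMk (measurable_pi_lambda _ fun j => ?_)
      exact (measurable_pi_apply j).inner measurable_const
    exact h2 (brun_measurable' tr htr k t q q')
  exact (measurable_from_top (f := fun q' : Q => g q' s)).comp h1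

theorem vf_eq_lintegral' {d : ℕ} {Q : Type} [Finite Q] (tr : ℕ → Q → E d → ℝ → Q)
    (htr : TrMeas tr) (g : Q → E d → ℝ≥0∞) (k : ℕ) : ∀ (t : ℕ)
    (q : Q) (s : E d),
    vf tr g k t q s = ∫⁻ a, g (brun tr k t q a (meas a s)) s ∂(gamk d k) := by
  induction k with
  | zero =>
    intro t q s
    simp only [vf, brun]
    simp
  | succ k ih =>
    intro t q s
    rw [vf]
    have hmp := measurePreserving_piFinSuccAbove (fun _ : Fin (k + 1) => stdGaussian (E d)) 0
    have hmeas := brun_value_measurable tr htr g (k + 1) t q s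
    have h1 : ∫⁻ a, g (brun tr (k + 1) t q a (meas a s)) s ∂(gamk d (k + 1)) =
        ∫⁻ p : E d × (Fin k → E d), g (brun tr (k + 1) t q
          ((MeasurableEquiv.piFinSuccAbove (fun _ : Fin (k + 1) => E d) 0).symm p)
          (meas ((MeasurableEquiv.piFinSuccAbove (fun _ : Fin (k + 1) => E d) 0).symm p) s)) s
          ∂((stdGaussian (E d)).prod (gamk d k)) := by
      have h2 := hmp.symm.lintegral_comp hmeas
      exact h2.symm
    rw [h1, lintegral_prod]
    · apply lintegral_congr
      intro x
      rw [ih]
      apply lintegral_congr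
      intro a
      rfl
    · exact (hmeas.comp (MeasurableEquiv.measurable _)).aemeasurable

section learner
variable {d T M : ℕ} (L : RLearner d T M)

/-- one step of the run -/
noncomputable def stepL (ω : L.Ω) (s : E d) (xs : Fin T → E d) :
    L.St × Option ℕ → Fin T → L.St × Option ℕ :=
  fun st t => if st.2.isSome then st else
      if (L.trans t ω st.1 (xs t) (inner ℝ (xs t) s)).2
      then ((L.trans t ω st.1 (xs t) (inner ℝ (xs t) s)).1, some (t.val + 1))
      else ((L.trans t ω st.1 (xs t) (inner ℝ (xs t) s)).1, none)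

theorem run_eq_foldl (ω : L.Ω) (s : E d) (xs : Fin T → E d) :
    L.run ω s xs = (List.finRange T).foldl (stepL L ω s xs)
      (L.init ω, if L.stopFirst ω then some 0 else none) := rfl

theorem measurable_of_countable_sel {X C Y : Type} [MeasurableSpace X] [MeasurableSpace Y]
    [Countable C] (F : X → C) (hF : @Measurable X C _ ⊤ F) (G : C → X → Y)
    (hG : ∀ c, Measurable (G c)) : Measurable (fun x => G (F x) x) := by
  letI : MeasurableSpace C := ⊤
  haveI : DiscreteMeasurableSpace C := ⟨fun s => trivial⟩
  have h1 : Measurable (fun p : C × X => G p.1 p.2) := measurable_from_prod_countable_right hG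
  exact h1.comp (hF.prodMk measurable_id)

theorem step_measurable {X : Type} [MeasurableSpace X] (om : X → L.Ω)
    (hom : @Measurable X L.Ω _ L.mΩ om) (s : X → E d) (hs : Measurable s)
    (xs : X → Fin T → E d) (hxs : Measurable xs) (t : Fin T) (q : L.St × Option ℕ) :
    @Measurable X (L.St × Option ℕ) _ ⊤ (fun x => stepL L (om x) (s x) (xs x) q t) := by
  letI := L.mΩ
  letI : MeasurableSpace L.St := ⊤
  by_cases h : q.2.isSome = true
  · simp only [stepL, h, if_true]
    exact @measurable_const _ _ ⊤ _ _
  · have h' : q.2.isSome = false := by simpa using h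
    simp only [stepL, h', Bool.false_eq_true, if_false]
    have hcoord : Measurable (fun x => (om x, (xs x t, (inner ℝ (xs x t) (s x) : ℝ)))) := by
      have h1 : Measurable (fun x => xs x t) := (measurable_pi_apply t).comp hxs
      exact hom.prodMk (h1.prodMk (h1.inner hs))
    have h1 : Measurable (fun x => (L.trans t (om x) q.1 (xs x t) (inner ℝ (xs x t) (s x))).1) :=
      (L.trans_measurable t q.1).1.comp hcoord
    have h2 : Measurable (fun x => (L.trans t (om x) q.1 (xs x t) (inner ℝ (xs x t) (s x))).2) :=
      (L.trans_measurable t q.1).2.comp hcoord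
    refine @Measurable.ite _ _ _ _ _ ⊤ _ _ ?_ ?_ ?_
    · exact h2 (measurableSet_singleton true)
    · exact (@measurable_from_top L.St _ ⊤ (fun a => (a, some (t.val + 1)))).comp h1
    · exact (@measurable_from_top L.St _ ⊤ (fun a => (a, (none : Option ℕ)))).comp h1

theorem foldl_measurable {X : Type} [MeasurableSpace X] (om : X → L.Ω)
    (hom : @Measurable X L.Ω _ L.mΩ om) (s : X → E d) (hs : Measurable s)
    (xs : X → Fin T → E d) (hxs : Measurable xs) (l : List (Fin T)) :
    ∀ (F : X → L.St × Option ℕ), @Measurable X (L.St × Option ℕ) _ ⊤ F →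
    @Measurable X (L.St × Option ℕ) _ ⊤
      (fun x => l.foldl (stepL L (om x) (s x) (xs x)) (F x)) := by
  letI := L.fin
  induction l with
  | nil => intro F hF; simpa using hF
  | cons t l ih =>
    intro F hF
    simp only [List.foldl_cons]
    apply ih
    letI : MeasurableSpace (L.St × Option ℕ) := ⊤
    exact measurable_of_countable_sel F hF
      (fun q x => stepL L (om x) (s x) (xs x) q t)
      (fun q => step_measurable L om hom s hs xs hxs t q)

theorem run_measurable {X : Type} [MeasurableSpace X] (om : X → L.Ω)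
    (hom : @Measurable X L.Ω _ L.mΩ om) (s : X → E d) (hs : Measurable s)
    (xs : X → Fin T → E d) (hxs : Measurable xs) :
    @Measurable X (L.St × Option ℕ) _ ⊤ (fun x => L.run (om x) (s x) (xs x)) := by
  letI := L.mΩ
  letI : MeasurableSpace L.St := ⊤
  simp only [run_eq_foldl]
  apply foldl_measurable L om hom s hs xs hxs
  have h1 : Measurable (fun x => L.init (om x)) := L.init_measurable.comp hom
  have h2 : Measurable (fun x => L.stopFirst (om x)) := L.stopFirst_measurable.comp hom
  have h3 : (fun x => (L.init (om x), if L.stopFirst (om x) then some 0 else none)) =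
      fun x => if L.stopFirst (om x) = true then (L.init (om x), (some 0 : Option ℕ))
        else (L.init (om x), (none : Option ℕ)) := by
    funext x; split_ifs <;> rfl
  rw [h3]
  refine @Measurable.ite _ _ _ _ _ ⊤ _ _ ?_ ?_ ?_
  · exact h2 (measurableSet_singleton true)
  · exact (@measurable_from_top L.St _ ⊤ (fun a => (a, some 0))).comp h1
  · exact (@measurable_from_top L.St _ ⊤ (fun a => (a, (none : Option ℕ)))).comp h1

theorem output_measurable {X : Type} [MeasurableSpace X] (om : X → L.Ω)
    (hom : @Measurable X L.Ω _ L.mΩ om) (s : X → E d) (hs : Measurable s)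
    (xs : X → Fin T → E d) (hxs : Measurable xs) :
    Measurable (fun x => L.output (om x) (s x) (xs x)) := by
  letI := L.fin
  letI := L.mΩ
  exact measurable_of_countable_sel _ (run_measurable L om hom s hs xs hxs)
    (fun q x => L.out (q.2.getD T) (om x) q.1)
    (fun q => (L.out_measurable _ _).comp hom)

theorem success_measurable {X : Type} [MeasurableSpace X] (om : X → L.Ω)
    (hom : @Measurable X L.Ω _ L.mΩ om) (s : X → E d) (hs : Measurable s)
    (xs : X → Fin T → E d) (hxs : Measurable xs) (ε : ℝ) :
    MeasurableSet {x | Real.arccos (inner ℝ (L.output (om x) (s x) (xs x)) (s x)) ≤ ε} := by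
  have h1 := output_measurable L om hom s hs xs hxs
  exact measurableSet_le (Real.continuous_arccos.measurable.comp (h1.inner hs)) measurable_const

theorem success_measurableSet (ε : ℝ) :
    letI : MeasurableSpace L.Ω := L.mΩ
    MeasurableSet {p : Sphere d × (L.Ω × (Fin T → E d)) |
      Real.arccos (inner ℝ (L.output p.2.1 p.1 p.2.2) (p.1 : E d)) ≤ ε} := by
  letI : MeasurableSpace L.Ω := L.mΩ
  exact success_measurable L (fun p : Sphere d × (L.Ω × (Fin T → E d)) => p.2.1)
    (measurable_fst.comp measurable_snd) (fun p => (p.1 : E d))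
    (measurable_subtype_coe.comp measurable_fst) (fun p => p.2.2)
    (measurable_snd.comp measurable_snd) ε

theorem success_section_measurableSet (ε : ℝ) (ω : L.Ω) :
    MeasurableSet {p : E d × (Fin T → E d) |
      Real.arccos (inner ℝ (L.output ω p.1 p.2) p.1) ≤ ε} := by
  letI : MeasurableSpace L.Ω := L.mΩ
  exact success_measurable L (fun p : E d × (Fin T → E d) => ω)
    measurable_const (fun p => p.1) measurable_fst (fun p => p.2) measurable_snd ε

theorem trL_meas (ω : L.Ω) : TrMeas (trL L ω) := by
  letI := L.mΩ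
  letI : MeasurableSpace L.St := ⊤
  intro t q q'
  by_cases ht : t < T
  · by_cases hq : q.2.isSome = true
    · simp only [trL, ht, hq, dif_pos, if_true]
      exact MeasurableSet.const _
    · have hq' : q.2.isSome = false := by simpa using hq
      simp only [trL, ht, hq', dif_pos, Bool.false_eq_true, if_false]
      have hcoord : Measurable (fun p : E d × ℝ => (ω, p)) := measurable_const.prodMk measurable_id
      have h1 : Measurable (fun p : E d × ℝ => (L.trans ⟨t, ht⟩ ω q.1 p.1 p.2).1) :=
        (L.trans_measurable ⟨t, ht⟩ q.1).1.comp hcoord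
      have h2 : Measurable (fun p : E d × ℝ => (L.trans ⟨t, ht⟩ ω q.1 p.1 p.2).2) :=
        (L.trans_measurable ⟨t, ht⟩ q.1).2.comp hcoord
      have h3 : @Measurable (E d × ℝ) (L.St × Option (Fin (T + 1))) _ ⊤
          (fun p => ((L.trans ⟨t, ht⟩ ω q.1 p.1 p.2).1,
            if (L.trans ⟨t, ht⟩ ω q.1 p.1 p.2).2 = true
            then some ⟨t + 1, Nat.succ_lt_succ ht⟩ else none)) := by
        have h3 : (fun p : E d × ℝ => ((L.trans ⟨t, ht⟩ ω q.1 p.1 p.2).1,
            if (L.trans ⟨t, ht⟩ ω q.1 p.1 p.2).2 = true
            then some (⟨t + 1, Nat.succ_lt_succ ht⟩ : Fin (T + 1)) else none)) =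
          fun p => if (L.trans ⟨t, ht⟩ ω q.1 p.1 p.2).2 = true then
            ((L.trans ⟨t, ht⟩ ω q.1 p.1 p.2).1,
              some (⟨t + 1, Nat.succ_lt_succ ht⟩ : Fin (T + 1)))
            else ((L.trans ⟨t, ht⟩ ω q.1 p.1 p.2).1, none) := by
          funext p; split_ifs <;> rfl
        rw [h3]
        refine @Measurable.ite _ _ _ _ _ ⊤ _ _ ?_ ?_ ?_
        · exact h2 (measurableSet_singleton true)
        · exact (@measurable_from_top L.St _ ⊤
            (fun a => (a, some (⟨t + 1, Nat.succ_lt_succ ht⟩ : Fin (T + 1))))).comp h1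
        · exact (@measurable_from_top L.St _ ⊤
            (fun a => (a, (none : Option (Fin (T + 1)))))).comp h1
      exact @h3 {q'} trivial
  · simp only [trL, ht, dif_neg, not_false_eq_true]
    exact MeasurableSet.const _

theorem gL_meas (ω : L.Ω) (ε : ℝ) (q : QL L) : Measurable (gL L ω ε q) := by
  unfold gL
  apply measurable_const.indicator
  exact measurableSet_le (Real.continuous_arccos.measurable.comp
    (measurable_const.inner measurable_id)) measurable_const

/-- forgetting the bound on the stopping index -/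
def toRun (q : QL L) : L.St × Option ℕ := (q.1, q.2.map Fin.val)

theorem foldl_eq_brun (ω : L.Ω) (s : E d) (xs : Fin T → E d) (k : ℕ) :
    ∀ (t : ℕ) (h : t + k = T) (q : QL L) (a : Fin k → E d) (b : Fin k → ℝ),
      (∀ i : Fin k, a i = xs ⟨t + i, by omega⟩) →
      (∀ i : Fin k, b i = inner ℝ (xs ⟨t + i, by omega⟩) s) →
      ((List.finRange T).drop t).foldl (stepL L ω s xs) (toRun L q) =
        toRun L (brun (trL L ω) k t q a b) := by
  induction k with
  | zero =>
    intro t h q a b _ _
    have : (List.finRange T).drop t = [] := by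
      apply List.drop_eq_nil_of_le
      simp; omega
    rw [this]; rfl
  | succ k ih =>
    intro t h q a b ha hb
    have ht : t < T := by omega
    have hlen : t < (List.finRange T).length := by simpa using ht
    rw [List.drop_eq_getElem_cons hlen, List.foldl_cons]
    have hget : (List.finRange T)[t] = ⟨t, ht⟩ := by simp
    rw [hget]
    have hstep : stepL L ω s xs (toRun L q) ⟨t, ht⟩ = toRun L (trL L ω t q (a 0) (b 0)) := by
      have ha0 : a 0 = xs ⟨t, ht⟩ := by rw [ha 0]; simp
      have hb0 : b 0 = inner ℝ (xs ⟨t, ht⟩) s := by rw [hb 0]; simp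
      rw [ha0, hb0]
      unfold stepL trL toRun
      rw [dif_pos ht]
      by_cases hq : q.2.isSome = true
      · simp [hq]
      · have hq' : q.2.isSome = false := by simpa using hq
        by_cases h2 : (L.trans ⟨t, ht⟩ ω q.1 (xs ⟨t, ht⟩) (inner ℝ (xs ⟨t, ht⟩) s)).2 = true
        · simp [hq', h2]
        · simp [hq', h2]
    rw [hstep]
    rw [ih (t + 1) (by omega) (trL L ω t q (a 0) (b 0)) (Fin.tail a) (Fin.tail b)
      (by
        intro i
        rw [Fin.tail, ha i.succ]
        congr 1
        apply Fin.ext
        simp; omega)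
      (by
        intro i
        rw [Fin.tail, hb i.succ]
        congr 2
        apply Fin.ext
        simp; omega)]
    rfl

theorem output_eq (ω : L.Ω) (s : E d) (xs : Fin T → E d) :
    L.output ω s xs = outL L ω (brun (trL L ω) T 0 (initL L ω) xs (meas xs s)) := by
  have h := foldl_eq_brun L ω s xs T 0 (by omega) (initL L ω) xs (meas xs s)
    (by intro i; simp) (by intro i; simp [meas])
  rw [List.drop_zero] at h
  have hinit : toRun L (initL L ω) = (L.init ω, if L.stopFirst ω then some 0 else none) := by
    unfold toRun initL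
    by_cases hs : L.stopFirst ω = true
    · simp [hs]
    · simp [hs]
  rw [hinit, ← run_eq_foldl] at h
  unfold RLearner.output
  rw [h]
  rfl

theorem vf_pad_end (ω : L.Ω) (ε : ℝ) (m : ℕ) :
    ∀ (t : ℕ) (_ : T ≤ t) (q : QL L) (s : E d),
      vf (trL L ω) (gL L ω ε) m t q s = gL L ω ε q s := by
  induction m with
  | zero => intro t _ q s; rfl
  | succ m ih =>
    intro t ht q s
    rw [vf]
    have h1 : ∀ x : E d, trL L ω t q x (inner ℝ x s) = q := by
      intro x
      unfold trL
      rw [dif_neg (by omega)]
    simp only [h1, ih (t + 1) (by omega)]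
    simp

theorem vf_pad_aux (ω : L.Ω) (ε : ℝ) (m k : ℕ) :
    ∀ (t : ℕ) (_ : t + k = T) (q : QL L) (s : E d),
      vf (trL L ω) (gL L ω ε) (k + m) t q s = vf (trL L ω) (gL L ω ε) k t q s := by
  induction k with
  | zero =>
    intro t ht q s
    rw [Nat.zero_add, vf_pad_end L ω ε m t (by omega)]
    rfl
  | succ k ih =>
    intro t ht q s
    rw [show k + 1 + m = (k + m) + 1 by ring, vf, vf]
    apply lintegral_congr
    intro x
    exact ih (t + 1) (by omega) _ s

theorem vf_pad (ω : L.Ω) (ε : ℝ) (m : ℕ) (q : QL L) (s : E d) :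
    vf (trL L ω) (gL L ω ε) (T + m) 0 q s = vf (trL L ω) (gL L ω ε) T 0 q s :=
  vf_pad_aux L ω ε m T 0 (by omega) q s

theorem successProb_le (hd : 1 ≤ d) (ε : ℝ) (B : ℝ≥0∞)
    (h : ∀ ω : L.Ω, ((sig d).prod (gamk d T)) {p : E d × (Fin T → E d) |
      Real.arccos (inner ℝ (L.output ω p.1 p.2) p.1) ≤ ε} ≤ B) :
    ENNReal.ofReal (L.successProb ε) ≤ B := by
  letI : MeasurableSpace L.Ω := L.mΩ
  haveI : IsProbabilityMeasure L.ρ := L.prob
  haveI : SFinite (sphereUniform d) := by unfold sphereUniform; infer_instance
  haveI : SFinite (sig d) := by unfold sig; infer_instance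
  set S : Set (Sphere d × (L.Ω × (Fin T → E d))) := {p |
    Real.arccos (inner ℝ (L.output p.2.1 p.1 p.2.2) (p.1 : E d)) ≤ ε} with hS
  have hSm : MeasurableSet S := success_measurableSet L ε
  have h1 : ENNReal.ofReal (L.successProb ε) ≤
      ((sphereUniform d).prod (L.ρ.prod (gamk d T))) S := by
    unfold RLearner.successProb
    exact ENNReal.ofReal_toReal_le
  refine h1.trans ?_
  have h2 : ((sphereUniform d).prod (L.ρ.prod (gamk d T))) S =
      ∫⁻ s, ∫⁻ ω, gamk d T {xs | Real.arccos (inner ℝ (L.output ω (s : E d) xs) (s : E d)) ≤ ε}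
        ∂L.ρ ∂(sphereUniform d) := by
    rw [Measure.prod_apply hSm]
    apply lintegral_congr
    intro s
    have hm : MeasurableSet (Prod.mk s ⁻¹' S) := measurable_prodMk_left hSm
    rw [Measure.prod_apply hm]
    rfl
  have hmeas2 : Measurable (Function.uncurry fun (s : Sphere d) (ω : L.Ω) =>
      gamk d T {xs | Real.arccos (inner ℝ (L.output ω (s : E d) xs) (s : E d)) ≤ ε}) := by
    have hm : MeasurableSet {p : (Sphere d × L.Ω) × (Fin T → E d) |
        Real.arccos (inner ℝ (L.output p.1.2 p.1.1 p.2) (p.1.1 : E d)) ≤ ε} :=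
      success_measurable L (fun p : (Sphere d × L.Ω) × (Fin T → E d) => p.1.2)
        (measurable_snd.comp measurable_fst) (fun p => (p.1.1 : E d))
        (measurable_subtype_coe.comp (measurable_fst.comp measurable_fst)) (fun p => p.2)
        measurable_snd ε
    exact measurable_measure_prodMk_left hm
  rw [h2, lintegral_lintegral_swap hmeas2.aemeasurable]
  calc ∫⁻ ω, ∫⁻ s, gamk d T {xs | Real.arccos (inner ℝ (L.output ω (s : E d) xs) (s : E d)) ≤ ε}
        ∂(sphereUniform d) ∂L.ρ
      = ∫⁻ ω, ((sig d).prod (gamk d T)) {p : E d × (Fin T → E d) |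
      Real.arccos (inner ℝ (L.output ω p.1 p.2) p.1) ≤ ε} ∂L.ρ := by
        apply lintegral_congr
        intro ω
        have hm := success_section_measurableSet L ε ω
        rw [Measure.prod_apply hm]
        unfold sig
        rw [lintegral_map (measurable_measure_prodMk_left hm) measurable_subtype_coe]
        rfl
    _ ≤ ∫⁻ ω, B ∂L.ρ := lintegral_mono h
    _ = B := by simp

theorem section_eq_vf (ω : L.Ω) (ε : ℝ) (m : ℕ) (hd : 1 ≤ d) :
    ((sig d).prod (gamk d T)) {p : E d × (Fin T → E d) |
      Real.arccos (inner ℝ (L.output ω p.1 p.2) p.1) ≤ ε} =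
    ∫⁻ s, vf (trL L ω) (gL L ω ε) (T + m) 0 (initL L ω) s ∂(sig d) := by
  letI := L.fin
  have hm := success_section_measurableSet L ε ω
  rw [Measure.prod_apply hm]
  apply lintegral_congr
  intro s
  rw [vf_pad, vf_eq_lintegral' (trL L ω) (trL_meas L ω) (gL L ω ε) T 0 (initL L ω) s]
  have hm2 : MeasurableSet (Prod.mk s ⁻¹' {p : E d × (Fin T → E d) |
      Real.arccos (inner ℝ (L.output ω p.1 p.2) p.1) ≤ ε}) := measurable_prodMk_left hm
  rw [← lintegral_indicator_one hm2]
  apply lintegral_congr
  intro a
  by_cases hs : Real.arccos (inner ℝ (L.output ω s a) s) ≤ ε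
  · rw [Set.indicator_of_mem (by exact hs)]
    unfold gL
    rw [Set.indicator_of_mem (by
      show Real.arccos (inner ℝ (outL L ω _) s) ≤ ε
      rw [← output_eq]; exact hs)]
    rfl
  · rw [Set.indicator_of_notMem (by exact hs)]
    unfold gL
    rw [Set.indicator_of_notMem (by
      show ¬ Real.arccos (inner ℝ (outL L ω _) s) ≤ ε
      rw [← output_eq]; exact hs)]

theorem card_QL {d T M : ℕ} (L : RLearner d T M) [Fintype (QL L)] :
    Fintype.card (QL L) ≤ 2 ^ M * (T + 2) := by
  letI i1 : Fintype L.St := L.fin
  have h1 : Fintype.card (QL L) = @Fintype.card (L.St × Option (Fin (T + 1)))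
      (@instFintypeProd _ _ i1 _) :=
    @Fintype.card_congr _ _ _ (@instFintypeProd _ _ i1 _) (Equiv.refl _)
  rw [h1, @Fintype.card_prod _ _ i1 _, Fintype.card_option, Fintype.card_fin]
  exact Nat.mul_le_mul_right _ L.card_le

end learner

end Crest.Agent.SL
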