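import Mathlib
import Crest.Prelude.Def_StreamLearn

/-!
Definitions for the streaming lower bound S0499.
-/

set_option autoImplicit false

namespace Crest.Agent.SL

open MeasureTheory ProbabilityTheory Crest.StreamLearn Metric
open scoped ENNReal

/-- Frostman condition: every closed ball of radius `τ` has mass at most `β τ^s0`. -/
def Frost {d : ℕ} (μ : Measure (E d)) (β : ℝ≥0∞) (s0 : ℕ) : Prop :=
  ∀ (z : E d) (τ : ℝ), 0 < τ → μ (closedBall z τ) ≤ β * ENNReal.ofReal (τ ^ s0)

/-- The uniform law of the sphere as a measure on `ℝ^d`. -/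
noncomputable def sig (d : ℕ) : Measure (E d) := (sphereUniform d).map Subtype.val

/-- Law of `k` independent standard Gaussian vectors of `ℝ^d`. -/
noncomputable def gamk (d k : ℕ) : Measure (Fin k → E d) :=
  Measure.pi fun _ : Fin k => stdGaussian (E d)

instance (d k : ℕ) : IsProbabilityMeasure (gamk d k) := by
  unfold gamk; infer_instance

/-- Distance of `v` to the subspace `V`. -/
noncomputable def dsub {d : ℕ} (V : Submodule ℝ (E d)) (v : E d) : ℝ :=
  ‖v - V.starProjection v‖

/-- Small-ball bound for a list of vectors: product of `η / dist(v, span of the tail)`. -/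
noncomputable def sb {d : ℕ} (η : ℝ) : List (E d) → ℝ≥0∞
  | [] => 1
  | v :: l => ENNReal.ofReal η / ENNReal.ofReal (dsub (Submodule.span ℝ {w | w ∈ l}) v) * sb η l

/-- The measurement vector of `s` for the rows `a`. -/
noncomputable def meas {d k : ℕ} (a : Fin k → E d) (s : E d) : Fin k → ℝ :=
  fun j => inner ℝ (a j) s

/-- Backward value functions: `vf tr g n t q s` is the expectation of `g` at the state reached
from `q` at time `t` after `n` further samples. -/
noncomputable def vf {d : ℕ} {Q : Type} (tr : ℕ → Q → E d → ℝ → Q) (g : Q → E d → ℝ≥0∞) :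
    ℕ → ℕ → Q → E d → ℝ≥0∞
  | 0, _, q, s => g q s
  | n + 1, t, q, s =>
      ∫⁻ x, vf tr g n (t + 1) (tr t q x (inner ℝ x s)) s ∂(stdGaussian (E d))

/-- Run of `k` transitions started at time `t` in state `q` on samples `a` and measurements `b`. -/
def brun {d : ℕ} {Q : Type} (tr : ℕ → Q → E d → ℝ → Q) :
    (k : ℕ) → ℕ → Q → (Fin k → E d) → (Fin k → ℝ) → Q
  | 0, _, q, _, _ => q
  | k + 1, t, q, a, b => brun tr k (t + 1) (tr t q (a 0) (b 0)) (Fin.tail a) (Fin.tail b)

/-- Measurability of all transitions (as a family of level sets). -/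
def TrMeas {d : ℕ} {Q : Type} (tr : ℕ → Q → E d → ℝ → Q) : Prop :=
  ∀ t q q', MeasurableSet {p : E d × ℝ | tr t q p.1 p.2 = q'}

/-- Finite state space of a randomized learner: state and stopping index. -/
abbrev QL {d T M : ℕ} (L : RLearner d T M) : Type := L.St × Option (Fin (T + 1))

/-- The transitions of a randomized learner for a fixed seed, padded by the identity after the
horizon. -/
noncomputable def trL {d T M : ℕ} (L : RLearner d T M) (ω : L.Ω) :
    ℕ → QL L → E d → ℝ → QL L :=
  fun t q x b =>
    if h : t < T then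
      if q.2.isSome then q
      else ((L.trans ⟨t, h⟩ ω q.1 x b).1,
        if (L.trans ⟨t, h⟩ ω q.1 x b).2 then some ⟨t + 1, Nat.succ_lt_succ h⟩ else none)
    else q

/-- The initial extended state. -/
noncomputable def initL {d T M : ℕ} (L : RLearner d T M) (ω : L.Ω) : QL L :=
  (L.init ω, if L.stopFirst ω then some 0 else none)

/-- The output attached to an extended state. -/
noncomputable def outL {d T M : ℕ} (L : RLearner d T M) (ω : L.Ω) (q : QL L) : E d :=
  L.out ((q.2.map Fin.val).getD T) ω q.1

/-- The terminal value function: indicator of success. -/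
noncomputable def gL {d T M : ℕ} (L : RLearner d T M) (ω : L.Ω) (ε : ℝ) (q : QL L) :
    E d → ℝ≥0∞ :=
  Set.indicator {s : E d | Real.arccos (inner ℝ (outL L ω q) s) ≤ ε} (fun _ => 1)

/-- The loss constant of one block of `2n` samples (`λ = 2n`, `s0 = 4n`). -/
noncomputable def Qc (d n : ℕ) : ℝ :=
  max 1 (Real.pi ^ n / n.factorial * ((d : ℝ) + 1) ^ n * 2 ^ (10 * n))

end Crest.Agent.SL
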