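import Mathlib
import Crest.Agent.SL_Defs

/-!
T8a: invariance of the uniform law of the sphere under linear isometries; it is carried by the
unit sphere.
-/

set_option autoImplicit false

namespace Crest.Agent.SL

open MeasureTheory ProbabilityTheory Crest.StreamLearn Metric Set
open scoped ENNReal Pointwise

theorem sig_map_isometry (d : ℕ) (R : E d ≃ₗᵢ[ℝ] E d) : (sig d).map R = sig d := by
  have hRm : Measurable (R : E d → E d) := R.continuous.measurable
  have hval : Measurable (Subtype.val : Sphere d → E d) := measurable_subtype_coe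
  ext A hA
  have hRA : MeasurableSet ((R : E d → E d) ⁻¹' A) := hRm hA
  rw [Measure.map_apply hRm hA]
  unfold sig
  rw [Measure.map_apply hval hRA, Measure.map_apply hval hA]
  unfold sphereUniform
  rw [Measure.smul_apply, Measure.smul_apply]
  congr 1
  rw [Measure.toSphere_apply' _ (hval hRA), Measure.toSphere_apply' _ (hval hA)]
  congr 1
  have key : Ioo (0 : ℝ) 1 • ((↑) '' ((Subtype.val : Sphere d → E d) ⁻¹' ((R : E d → E d) ⁻¹' A)))
      = (R : E d → E d) ⁻¹' (Ioo (0 : ℝ) 1 • ((↑) '' ((Subtype.val : Sphere d → E d) ⁻¹' A))) := by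
    ext z
    simp only [Set.mem_smul, Set.mem_image, Set.mem_preimage, Subtype.exists]
    constructor
    · rintro ⟨r, hr, y, ⟨s, hs, hsA, rfl⟩, rfl⟩
      refine ⟨r, hr, R s, ⟨R s, ?_, ?_, rfl⟩, ?_⟩
      · rw [mem_sphere_zero_iff_norm] at hs ⊢
        rw [R.norm_map]; exact hs
      · exact hsA
      · exact (R.map_smul r s).symm
    · rintro ⟨r, hr, y, ⟨s, hs, hsA, rfl⟩, hz⟩
      refine ⟨r, hr, R.symm s, ⟨R.symm s, ?_, ?_, rfl⟩, ?_⟩
      · rw [mem_sphere_zero_iff_norm] at hs ⊢
        rw [R.symm.norm_map]; exact hs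
      · simpa using hsA
      · apply R.injective
        rw [map_smul]
        simpa using hz
  rw [key]
  exact (LinearIsometryEquiv.measurePreserving R).measure_preimage_equiv _
    (f := R.toHomeomorph.toMeasurableEquiv)

theorem sig_sphere (d : ℕ) (hd : 1 ≤ d) : ∀ᵐ s ∂(sig d), ‖s‖ = 1 := by
  have hval : Measurable (Subtype.val : Sphere d → E d) := measurable_subtype_coe
  unfold sig
  rw [ae_map_iff hval.aemeasurable (measurableSet_eq_fun measurable_norm measurable_const)]
  exact Filter.Eventually.of_forall fun s => by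
    simp

end Crest.Agent.SL
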