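import Crest.Agent.SL_Defs

set_option autoImplicit false

namespace Crest.Agent.SL

open MeasureTheory ProbabilityTheory Crest.StreamLearn Metric Pointwise
open scoped ENNReal

theorem sphereUniform_prob (d : ℕ) (hd : 1 ≤ d) : IsProbabilityMeasure (sphereUniform d) := by
  haveI : Nonempty (Fin d) := ⟨⟨0, hd⟩⟩
  haveI : Nontrivial (E d) := by infer_instance
  constructor
  unfold sphereUniform
  rw [Measure.smul_apply, smul_eq_mul]
  apply ENNReal.inv_mul_cancel
  · rw [Measure.measure_univ_ne_zero]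
    exact Measure.toSphere_ne_zero _
  · exact measure_ne_top _ _

theorem sig_prob (d : ℕ) (hd : 1 ≤ d) : IsProbabilityMeasure (sig d) := by
  haveI := sphereUniform_prob d hd
  unfold sig
  exact Measure.isProbabilityMeasure_map (by fun_prop)

theorem frost_sig (d : ℕ) (hd : 1 ≤ d) : Frost (sig d) (2 * 4 ^ d) (d - 1) := by
  haveI : Nonempty (Fin d) := ⟨⟨0, hd⟩⟩
  haveI : Nontrivial (E d) := by infer_instance
  haveI := sphereUniform_prob d hd
  haveI := sig_prob d hd
  intro z τ hτ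
  by_cases hτ1 : 1 ≤ τ
  · calc sig d (closedBall z τ) ≤ 1 := prob_le_one
      _ ≤ 2 * 4 ^ d * ENNReal.ofReal (τ ^ (d - 1)) := by
        have h1 : (1 : ℝ≥0∞) ≤ ENNReal.ofReal (τ ^ (d - 1)) := by
          rw [← ENNReal.ofReal_one]
          exact ENNReal.ofReal_le_ofReal (one_le_pow₀ hτ1)
        have h2 : (1 : ℝ≥0∞) ≤ 2 * 4 ^ d := by
          calc (1 : ℝ≥0∞) = 1 * 1 := by simp
            _ ≤ 2 * 4 ^ d := mul_le_mul' (by norm_num) (one_le_pow₀ (by norm_num))
        calc (1 : ℝ≥0∞) = 1 * 1 := by simp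
          _ ≤ _ := mul_le_mul' h2 h1
  push Not at hτ1
  -- measure of the ball
  set S : Set (Sphere d) := Subtype.val ⁻¹' (closedBall z τ) with hS
  have hSm : MeasurableSet S := measurable_subtype_coe measurableSet_closedBall
  have hsig : sig d (closedBall z τ) = sphereUniform d S := by
    unfold sig
    rw [Measure.map_apply measurable_subtype_coe measurableSet_closedBall]
  rcases S.eq_empty_or_nonempty with hSe | ⟨z', hz'⟩
  · rw [hsig, hSe]; simp
  have hz'n : ‖(z' : E d)‖ = 1 := by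
    have := z'.2
    simpa using this
  have hfin : Module.finrank ℝ (E d) = d := by simp
  -- the cone
  have hcone : (Set.Ioo (0 : ℝ) 1 • ((fun x : Sphere d => (x : E d)) '' S) : Set (E d)) ⊆
      ⋃ j ∈ Finset.range (⌊1 / τ⌋₊ + 1), closedBall (((j : ℝ) * τ) • (z' : E d)) (3 * τ) := by
    rintro x hx
    rw [Set.mem_smul] at hx
    obtain ⟨r, hr, y, hy, rfl⟩ := hx
    obtain ⟨θ, hθ, rfl⟩ := hy
    have hθn : ‖(θ : E d)‖ = 1 := by
      have := θ.2
      simpa using this
    simp only [Set.mem_iUnion, Finset.mem_range]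
    refine ⟨⌊r / τ⌋₊, ?_, ?_⟩
    · apply Nat.lt_succ_of_le
      apply Nat.floor_le_floor
      exact div_le_div_of_nonneg_right hr.2.le hτ.le
    · rw [mem_closedBall, dist_eq_norm]
      have h1 : r • (θ : E d) - ((⌊r / τ⌋₊ : ℝ) * τ) • (z' : E d) =
          r • ((θ : E d) - z') + (r - (⌊r / τ⌋₊ : ℝ) * τ) • (z' : E d) := by
        rw [smul_sub, sub_smul]; abel
      rw [h1]
      have h2 : ‖(θ : E d) - z'‖ ≤ 2 * τ := by
        have ha : dist (θ : E d) z ≤ τ := hθ
        have hb : dist (z' : E d) z ≤ τ := hz'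
        rw [← dist_eq_norm]
        calc dist (θ : E d) z' ≤ dist (θ : E d) z + dist z (z' : E d) := dist_triangle _ _ _
          _ ≤ 2 * τ := by rw [dist_comm z]; linarith
      have h3 : |r - (⌊r / τ⌋₊ : ℝ) * τ| ≤ τ := by
        have hq : 0 ≤ r / τ := div_nonneg hr.1.le hτ.le
        have ha := Nat.floor_le hq
        have hb := Nat.lt_floor_add_one (r / τ)
        rw [le_div_iff₀ hτ] at ha
        rw [div_lt_iff₀ hτ] at hb
        rw [abs_le]; constructor <;> nlinarith
      calc ‖r • ((θ : E d) - z') + (r - (⌊r / τ⌋₊ : ℝ) * τ) • (z' : E d)‖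
          ≤ ‖r • ((θ : E d) - z')‖ + ‖(r - (⌊r / τ⌋₊ : ℝ) * τ) • (z' : E d)‖ := norm_add_le _ _
        _ = r * ‖(θ : E d) - z'‖ + |r - (⌊r / τ⌋₊ : ℝ) * τ| := by
          rw [norm_smul, norm_smul, hz'n, mul_one, Real.norm_eq_abs, Real.norm_eq_abs,
            abs_of_pos hr.1]
        _ ≤ 1 * (2 * τ) + τ := by
          apply add_le_add _ h3
          apply mul_le_mul hr.2.le h2 (norm_nonneg _) zero_le_one
        _ = 3 * τ := by ring
  have hvol : (volume : Measure (E d)) (Set.Ioo (0 : ℝ) 1 • ((fun x : Sphere d => (x : E d)) '' S))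
      ≤ ENNReal.ofReal (2 / τ * (3 * τ) ^ d) * (volume : Measure (E d)) (ball 0 1) := by
    calc (volume : Measure (E d)) (Set.Ioo (0 : ℝ) 1 • ((fun x : Sphere d => (x : E d)) '' S))
        ≤ (volume : Measure (E d)) (⋃ j ∈ Finset.range (⌊1 / τ⌋₊ + 1),
            closedBall (((j : ℝ) * τ) • (z' : E d)) (3 * τ)) := measure_mono hcone
      _ ≤ ∑ j ∈ Finset.range (⌊1 / τ⌋₊ + 1),
            (volume : Measure (E d)) (closedBall (((j : ℝ) * τ) • (z' : E d)) (3 * τ)) :=
          measure_biUnion_finset_le _ _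
      _ = ∑ j ∈ Finset.range (⌊1 / τ⌋₊ + 1),
            ENNReal.ofReal ((3 * τ) ^ d) * (volume : Measure (E d)) (ball 0 1) := by
          apply Finset.sum_congr rfl
          intro j _
          rw [Measure.addHaar_closedBall _ _ (by positivity), hfin]
      _ = ENNReal.ofReal ((⌊1 / τ⌋₊ + 1 : ℝ) * (3 * τ) ^ d) *
            (volume : Measure (E d)) (ball 0 1) := by
          rw [Finset.sum_const, Finset.card_range, nsmul_eq_mul, ← mul_assoc,
            ENNReal.ofReal_mul (by positivity)]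
          congr 2
          rw [← Nat.cast_add_one, ENNReal.ofReal_natCast]
      _ ≤ _ := by
          gcongr
          have ha := Nat.floor_le (show 0 ≤ 1 / τ by positivity)
          have hb : 1 ≤ 1 / τ := by rw [le_div_iff₀ hτ]; linarith
          have hc : 2 / τ = 1 / τ + 1 / τ := by ring
          rw [hc]; linarith
  have hb0 : (volume : Measure (E d)) (ball 0 1) ≠ 0 :=
    (measure_ball_pos _ _ one_pos).ne'
  have hbt : (volume : Measure (E d)) (ball 0 1) ≠ ⊤ := measure_ball_lt_top.ne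
  rw [hsig]
  unfold sphereUniform
  rw [Measure.smul_apply, smul_eq_mul, Measure.toSphere_apply_univ, Measure.toSphere_apply' _ hSm,
    hfin]
  have hd0 : (d : ℝ≥0∞) ≠ 0 := by
    simp; omega
  calc ((d : ℝ≥0∞) * (volume : Measure (E d)) (ball 0 1))⁻¹ *
        ((d : ℝ≥0∞) * (volume : Measure (E d)) (Set.Ioo (0 : ℝ) 1 • (Subtype.val '' S)))
      ≤ ((d : ℝ≥0∞) * (volume : Measure (E d)) (ball 0 1))⁻¹ *
        ((d : ℝ≥0∞) * (ENNReal.ofReal (2 / τ * (3 * τ) ^ d) *
          (volume : Measure (E d)) (ball 0 1))) := by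
        gcongr
    _ = (((d : ℝ≥0∞) * (volume : Measure (E d)) (ball 0 1))⁻¹ *
        ((d : ℝ≥0∞) * (volume : Measure (E d)) (ball 0 1))) *
          ENNReal.ofReal (2 / τ * (3 * τ) ^ d) := by ring
    _ = ENNReal.ofReal (2 / τ * (3 * τ) ^ d) := by
        rw [ENNReal.inv_mul_cancel (mul_ne_zero hd0 hb0)
          (ENNReal.mul_ne_top (ENNReal.natCast_ne_top d) hbt), one_mul]
    _ ≤ ENNReal.ofReal (2 * 4 ^ d * τ ^ (d - 1)) := by
        apply ENNReal.ofReal_le_ofReal
        obtain ⟨m, rfl⟩ : ∃ m, d = m + 1 := ⟨d - 1, by omega⟩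
        have : 2 / τ * (3 * τ) ^ (m + 1) = 2 * 3 ^ (m + 1) * τ ^ m := by
          rw [mul_pow, pow_succ τ]; field_simp
        rw [this]
        simp only [Nat.add_sub_cancel]
        gcongr
        norm_num
    _ = 2 * 4 ^ d * ENNReal.ofReal (τ ^ (d - 1)) := by
        rw [ENNReal.ofReal_mul (by positivity), ENNReal.ofReal_mul (by positivity)]
        congr 2
        · norm_num
        · rw [ENNReal.ofReal_pow (by norm_num)]; norm_num

end Crest.Agent.SL
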