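import Crest.Agent.SL_Defs
import Crest.Agent.SL_T1
import Crest.Agent.SL_T8a
import Crest.Agent.SL_T7b

set_option autoImplicit false

namespace Crest.Agent.SL

open MeasureTheory ProbabilityTheory Crest.StreamLearn Metric
open scoped ENNReal

/-! ### T8b -/

theorem lint_inner_sq_eq (d : ℕ) (u v : E d) (h : ‖u‖ = ‖v‖) :
    ∫⁻ s, ENNReal.ofReal ((inner ℝ u s : ℝ) ^ 2) ∂(sig d) =
      ∫⁻ s, ENNReal.ofReal ((inner ℝ v s : ℝ) ^ 2) ∂(sig d) := by
  set R := Submodule.reflection (ℝ ∙ (u - v))ᗮ with hRdef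
  have hR : R u = v := Submodule.reflection_sub h
  conv_lhs => rw [← sig_map_isometry d R]
  rw [lintegral_map (by fun_prop) R.continuous.measurable]
  refine lintegral_congr fun s => ?_
  have h1 : (inner ℝ u (R s) : ℝ) = inner ℝ v s := by
    rw [← R.inner_map_map u (R s), hR, hRdef, Submodule.reflection_reflection]
  rw [h1]

theorem lint_inner_sq (d : ℕ) (hd : 1 ≤ d) (u : E d) (hu : ‖u‖ = 1) :
    ∫⁻ s, ENNReal.ofReal ((inner ℝ u s : ℝ) ^ 2) ∂(sig d) = ENNReal.ofReal (1 / d) := by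
  have := sig_prob d hd
  have hsum : ∑ i : Fin d, ∫⁻ s, ENNReal.ofReal
      ((inner ℝ (EuclideanSpace.basisFun (Fin d) ℝ i) s : ℝ) ^ 2) ∂(sig d) = 1 := by
    rw [← lintegral_finsetSum _ (fun i _ => by fun_prop)]
    have h1 : ∀ᵐ s ∂(sig d), ∑ i : Fin d, ENNReal.ofReal
        ((inner ℝ (EuclideanSpace.basisFun (Fin d) ℝ i) s : ℝ) ^ 2) = 1 := by
      filter_upwards [sig_sphere d hd] with s hs
      rw [← ENNReal.ofReal_sum_of_nonneg (fun i _ => sq_nonneg _)]
      have h2 : ∑ i : Fin d, ((inner ℝ (EuclideanSpace.basisFun (Fin d) ℝ i) s : ℝ) ^ 2) = 1 := by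
        have := (EuclideanSpace.basisFun (Fin d) ℝ).sum_sq_norm_inner_right s
        simp only [Real.norm_eq_abs, sq_abs] at this
        rw [this, hs, one_pow]
      rw [h2, ENNReal.ofReal_one]
    rw [lintegral_congr_ae h1]
    simp
  have hall : ∀ i : Fin d, ∫⁻ s, ENNReal.ofReal
      ((inner ℝ (EuclideanSpace.basisFun (Fin d) ℝ i) s : ℝ) ^ 2) ∂(sig d) =
      ∫⁻ s, ENNReal.ofReal ((inner ℝ u s : ℝ) ^ 2) ∂(sig d) := fun i =>
    lint_inner_sq_eq d _ _ (by rw [hu, (EuclideanSpace.basisFun (Fin d) ℝ).norm_eq_one])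
  rw [Finset.sum_congr rfl (fun i _ => hall i), Finset.sum_const, Finset.card_univ,
    Fintype.card_fin, nsmul_eq_mul] at hsum
  have hd0 : (0 : ℝ) < d := by exact_mod_cast hd
  rw [one_div, ENNReal.ofReal_inv_of_pos hd0, ENNReal.ofReal_natCast]
  exact ENNReal.eq_inv_of_mul_eq_one_left (by rw [mul_comm]; exact hsum)

theorem second_moment (d : ℕ) (hd : 1 ≤ d) (V : Submodule ℝ (E d)) :
    ∫⁻ s, ENNReal.ofReal (‖V.starProjection s‖ ^ 2) ∂(sig d) =
      ENNReal.ofReal ((Module.finrank ℝ V : ℝ) / d) := by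
  set b := stdOrthonormalBasis ℝ V with hb
  have h1 : ∀ s : E d, ENNReal.ofReal (‖V.starProjection s‖ ^ 2) =
      ∑ i, ENNReal.ofReal ((inner ℝ (b i : E d) s : ℝ) ^ 2) := by
    intro s
    rw [← ENNReal.ofReal_sum_of_nonneg (fun i _ => sq_nonneg _)]
    congr 1
    have h2 := b.sum_sq_norm_inner_right (V.orthogonalProjectionOnto s)
    simp only [Real.norm_eq_abs, sq_abs] at h2
    have h3 : ‖V.starProjection s‖ = ‖V.orthogonalProjectionOnto s‖ := rfl
    rw [h3, ← h2]
    refine Finset.sum_congr rfl fun i _ => ?_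
    rw [Submodule.inner_orthogonalProjectionOnto_eq_of_mem_left]
  simp_rw [h1]
  rw [lintegral_finsetSum _ (fun i _ => by fun_prop)]
  rw [Finset.sum_congr rfl (fun i _ => lint_inner_sq d hd (b i : E d) (b.norm_eq_one i))]
  rw [Finset.sum_const, Finset.card_univ, Fintype.card_fin, nsmul_eq_mul]
  rw [← ENNReal.ofReal_natCast, ← ENNReal.ofReal_mul (by positivity)]
  congr 1
  ring

theorem output_reflect {d T M : ℕ} (L : RLearner d T M) (ω : L.Ω) (xs : Fin T → E d)
    (R : E d ≃ₗᵢ[ℝ] E d) (hR : ∀ t, R (xs t) = xs t) (s : E d) :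
    L.output ω (R s) xs = L.output ω s xs := by
  have h : ∀ t, (inner ℝ (xs t) (R s) : ℝ) = inner ℝ (xs t) s := by
    intro t
    conv_lhs => rw [← hR t]
    rw [R.inner_map_map]
  unfold RLearner.output RLearner.run
  simp only [h]

theorem overlap_ge {d : ℕ} (V : Submodule ℝ (E d)) (o s : E d) (ho : ‖o‖ = 1) (hs : ‖s‖ = 1)
    (ε : ℝ) (hε : ε ≤ 1 / 10) (h1 : Real.arccos (inner ℝ o s) ≤ ε)
    (h2 : Real.arccos (inner ℝ o (V.reflection s)) ≤ ε) :
    (99 / 100 : ℝ) ≤ ‖V.starProjection s‖ ^ 2 := by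
  have key : ∀ z : E d, ‖z‖ = 1 → Real.arccos (inner ℝ o z) ≤ ε → (995 / 1000 : ℝ) ≤ inner ℝ o z := by
    intro z hz hle
    have hle' : Real.arccos (inner ℝ o z) ≤ 1 / 10 := hle.trans hε
    have hab : |(inner ℝ o z : ℝ)| ≤ 1 := by
      have := abs_real_inner_le_norm o z
      rwa [ho, hz, one_mul] at this
    have hcos : Real.cos (1 / 10) ≤ inner ℝ o z := by
      have h3 : Real.cos (1 / 10) ≤ Real.cos (Real.arccos (inner ℝ o z)) :=
        Real.cos_le_cos_of_nonneg_of_le_pi (Real.arccos_nonneg _) (by linarith [Real.pi_gt_three]) hle'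
      rwa [Real.cos_arccos (abs_le.1 hab).1 (abs_le.1 hab).2] at h3
    have h4 := Real.one_sub_sq_div_two_le_cos (x := 1 / 10)
    linarith [h4, hcos]
  have hRs : ‖V.reflection s‖ = 1 := by rw [LinearIsometryEquiv.norm_map, hs]
  have e1 := key s hs h1
  have e2 := key _ hRs h2
  -- ⟪o, s + R s⟫ ≥ 1.99, s + R s = 2 P s
  have h5 : s + V.reflection s = (2 : ℝ) • V.starProjection s := by
    rw [Submodule.reflection_apply, two_smul, two_smul]; abel
  have h6 : (199 / 100 : ℝ) ≤ inner ℝ o ((2 : ℝ) • V.starProjection s) := by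
    rw [← h5, inner_add_right]; linarith
  have h7 : (inner ℝ o ((2 : ℝ) • V.starProjection s) : ℝ) ≤ 2 * ‖V.starProjection s‖ := by
    refine (real_inner_le_norm _ _).trans ?_
    rw [ho, one_mul, norm_smul, Real.norm_eq_abs, abs_two]
  have h8 : (995 / 1000 : ℝ) ≤ ‖V.starProjection s‖ := by linarith
  nlinarith [h8, norm_nonneg (V.starProjection s)]

theorem section_le {d T M : ℕ} (L : RLearner d T M) (hd : 1 ≤ d) (hT : 4 * T ≤ d) (ε : ℝ)
    (hε : ε ≤ 1 / 10) (ω : L.Ω) (xs : Fin T → E d)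
    (hsm : MeasurableSet {p : E d × (Fin T → E d) |
      Real.arccos (inner ℝ (L.output ω p.1 p.2) p.1) ≤ ε}) :
    sig d {s : E d | Real.arccos (inner ℝ (L.output ω s xs) s) ≤ ε} ≤ ENNReal.ofReal (64 / 100) := by
  have := sig_prob d hd
  set V := Submodule.span ℝ (Set.range xs) with hV
  set R := V.reflection with hR
  set A : Set (E d) := {s : E d | Real.arccos (inner ℝ (L.output ω s xs) s) ≤ ε} with hA
  have hmeasA : MeasurableSet A := by
    exact (measurable_id.prodMk (measurable_const (a := xs))) hsm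
  have hfix : ∀ t, R (xs t) = xs t := fun t =>
    Submodule.reflection_mem_subspace_eq_self (Submodule.subset_span ⟨t, rfl⟩)
  have hRA : sig d (R ⁻¹' A) = sig d A := by
    conv_rhs => rw [← sig_map_isometry d R]
    rw [Measure.map_apply R.continuous.measurable hmeasA]
  have hfr : Module.finrank ℝ V ≤ T := by
    have := finrank_range_le_card (R := ℝ) xs
    simpa [Set.finrank] using this
  -- the overlap event
  set P : Set (E d) := {s | ENNReal.ofReal (99 / 100) ≤ ENNReal.ofReal (‖V.starProjection s‖ ^ 2)} with hP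
  have hint : sig d (A ∩ R ⁻¹' A) ≤ sig d P := by
    have hae := sig_sphere d hd
    refine measure_mono_ae ?_
    filter_upwards [hae] with s hs hmem
    have h1 : Real.arccos (inner ℝ (L.output ω s xs) s) ≤ ε := hmem.1
    have h2 : Real.arccos (inner ℝ (L.output ω (R s) xs) (R s)) ≤ ε := hmem.2
    rw [output_reflect L ω xs R hfix] at h2
    have hou : ‖L.output ω s xs‖ = 1 := L.out_unit _ _ _
    exact ENNReal.ofReal_le_ofReal (overlap_ge V _ s hou hs ε hε h1 h2)
  have hmark : ENNReal.ofReal (99 / 100) * sig d P ≤ ENNReal.ofReal (1 / 4) := by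
    refine (mul_meas_ge_le_lintegral (by fun_prop) _).trans ?_
    rw [second_moment d hd V]
    refine ENNReal.ofReal_le_ofReal ?_
    have hd0 : (0 : ℝ) < d := by exact_mod_cast hd
    rw [div_le_div_iff₀ hd0 (by norm_num)]
    have h1 : (Module.finrank ℝ V : ℝ) ≤ T := by exact_mod_cast hfr
    have h2 : (4 : ℝ) * T ≤ d := by exact_mod_cast hT
    linarith
  have hsum : sig d A + sig d A ≤ 1 + sig d P := by
    calc sig d A + sig d A = sig d A + sig d (R ⁻¹' A) := by rw [hRA]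
      _ = sig d (A ∪ R ⁻¹' A) + sig d (A ∩ R ⁻¹' A) :=
        (measure_union_add_inter _ (R.continuous.measurable hmeasA)).symm
      _ ≤ 1 + sig d P := add_le_add prob_le_one hint
  -- pass to reals
  have ha : sig d A ≠ ⊤ := measure_ne_top _ _
  have hp : sig d P ≠ ⊤ := measure_ne_top _ _
  have hsumR : (sig d).real A + (sig d).real A ≤ 1 + (sig d).real P := by
    have := ENNReal.toReal_mono (by finiteness) hsum
    rwa [ENNReal.toReal_add ha ha, ENNReal.toReal_add ENNReal.one_ne_top hp, ENNReal.toReal_one] at this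
  have hmarkR : 99 / 100 * (sig d).real P ≤ 1 / 4 := by
    have := ENNReal.toReal_mono (by finiteness) hmark
    rwa [ENNReal.toReal_mul, ENNReal.toReal_ofReal (by norm_num), ENNReal.toReal_ofReal (by norm_num)] at this
  have hfin : (sig d).real A ≤ 64 / 100 := by linarith
  rw [← ENNReal.ofReal_toReal ha]
  exact ENNReal.ofReal_le_ofReal hfin

theorem small_T_aux {d T M : ℕ} (L : RLearner d T M) (hd : 1 ≤ d) (hT : 4 * T ≤ d) (ε : ℝ)
    (hε : ε ≤ 1 / 10)
    (hsm : ∀ ω : L.Ω, MeasurableSet {p : E d × (Fin T → E d) |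
      Real.arccos (inner ℝ (L.output ω p.1 p.2) p.1) ≤ ε})
    (hsp : ∀ B : ℝ≥0∞, (∀ ω : L.Ω, ((sig d).prod (gamk d T)) {p : E d × (Fin T → E d) |
      Real.arccos (inner ℝ (L.output ω p.1 p.2) p.1) ≤ ε} ≤ B) →
      ENNReal.ofReal (L.successProb ε) ≤ B) : L.successProb ε < 2 / 3 := by
  have := sig_prob d hd
  have h : ENNReal.ofReal (L.successProb ε) ≤ ENNReal.ofReal (64 / 100) := by
    refine hsp _ fun ω => ?_
    rw [Measure.prod_apply_symm (hsm ω)]
    calc ∫⁻ xs, sig d ((fun s => (s, xs)) ⁻¹' {p : E d × (Fin T → E d) |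
          Real.arccos (inner ℝ (L.output ω p.1 p.2) p.1) ≤ ε}) ∂(gamk d T)
        ≤ ∫⁻ _xs, ENNReal.ofReal (64 / 100) ∂(gamk d T) :=
          lintegral_mono fun xs => section_le L hd hT ε hε ω xs (hsm ω)
      _ = ENNReal.ofReal (64 / 100) := by simp
  have h2 := (ENNReal.ofReal_le_ofReal_iff (by norm_num)).1 h
  linarith

theorem small_T {d T M : ℕ} (L : RLearner d T M) (hd : 1 ≤ d) (hT : 4 * T ≤ d) (ε : ℝ)
    (_hε0 : 0 < ε) (hε : ε ≤ 1 / 10) : L.successProb ε < 2 / 3 :=
  small_T_aux L hd hT ε hε (fun ω => success_section_measurableSet L ε ω)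
    (fun B h => successProb_le L hd ε B h)

end Crest.Agent.SL
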