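import Crest.Agent.SL_T9a
import Crest.Agent.SL_T7b

set_option autoImplicit false

namespace Crest.Agent.SL

open MeasureTheory ProbabilityTheory Crest.StreamLearn Metric
open scoped ENNReal

theorem counting {d T M : ℕ} (L : RLearner d T M) (hd : 1 ≤ d) (ε : ℝ) (hε : 0 < ε) :
    L.successProb ε ≤ ((T : ℝ) + 2) * 2 ^ M * (2 * 4 ^ d * ε ^ (d - 1)) := by
  have := sig_prob d hd
  let _ : Fintype L.St := L.fin
  have hnn : 0 ≤ ((T : ℝ) + 2) * 2 ^ M * (2 * 4 ^ d * ε ^ (d - 1)) := by positivity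
  rw [← ENNReal.ofReal_le_ofReal_iff hnn]
  apply successProb_le L hd ε
  intro ω
  have hsub : {p : E d × (Fin T → E d) |
      Real.arccos (inner ℝ (L.output ω p.1 p.2) p.1) ≤ ε} ⊆
      ⋃ q : QL L, {s : E d | Real.arccos (inner ℝ (outL L ω q) s) ≤ ε} ×ˢ
        (Set.univ : Set (Fin T → E d)) := by
    intro p hp
    have hp' : Real.arccos (inner ℝ (L.output ω p.1 p.2) p.1) ≤ ε := hp
    rw [output_eq] at hp'
    simp only [Set.mem_iUnion]
    exact ⟨_, hp', trivial⟩
  refine (measure_mono hsub).trans ?_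
  refine (measure_iUnion_fintype_le _ _).trans ?_
  have hterm : ∀ q : QL L, ((sig d).prod (gamk d T)) ({s : E d | Real.arccos (inner ℝ (outL L ω q) s) ≤ ε} ×ˢ
        (Set.univ : Set (Fin T → E d))) ≤ ENNReal.ofReal (2 * 4 ^ d * ε ^ (d - 1)) := by
    intro q
    rw [Measure.prod_prod, measure_univ, mul_one]
    refine (sig_cap_le hd _ (outL_norm L ω q) ε hε).trans (le_of_eq ?_)
    rw [ENNReal.ofReal_mul (by positivity), ENNReal.ofReal_mul (by positivity),
      ENNReal.ofReal_pow (by positivity)]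
    simp
  refine (Finset.sum_le_sum fun q _ => hterm q).trans ?_
  rw [Finset.sum_const, nsmul_eq_mul, Finset.card_univ,
    ENNReal.ofReal_mul (p := ((T : ℝ) + 2) * 2 ^ M) (by positivity)]
  gcongr
  have h1 : (Fintype.card (QL L) : ℝ) ≤ ((T : ℝ) + 2) * 2 ^ M := by
    have := card_QL L
    have h2 : ((Fintype.card (QL L) : ℕ) : ℝ) ≤ ((2 ^ M * (T + 2) : ℕ) : ℝ) := by
      exact_mod_cast this
    refine h2.trans (le_of_eq ?_)
    push_cast
    ring
  calc ((Fintype.card (QL L) : ℕ) : ℝ≥0∞) = ENNReal.ofReal (Fintype.card (QL L) : ℝ) := by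
        rw [ENNReal.ofReal_natCast]
    _ ≤ _ := ENNReal.ofReal_le_ofReal h1

end Crest.Agent.SL
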