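import Crest.Agent.SL_T7
import Crest.Agent.SL_T7b
import Crest.Agent.SL_T8a
import Crest.Agent.SL_T8b
import Crest.Agent.SL_T9

set_option autoImplicit false

namespace Crest.Agent.SL

open MeasureTheory ProbabilityTheory Crest.StreamLearn Metric
open scoped ENNReal

theorem pow_div_factorial_le_exp (x : ℝ) (hx : 0 ≤ x) (n : ℕ) :
    x ^ n / n.factorial ≤ Real.exp x := by
  exact Real.pow_div_factorial_le_exp x hx n

theorem Qc_le (d n : ℕ) (hnd : 4 * n + 1 ≤ d) : Qc d n ≤ Real.exp (20 * d) := by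
  have hd : (1 : ℝ) ≤ d := by
    have : 1 ≤ d := by omega
    exact_mod_cast this
  have hn : 4 * (n : ℝ) + 1 ≤ d := by exact_mod_cast hnd
  unfold Qc
  refine max_le (Real.one_le_exp (by positivity)) ?_
  have h1 : Real.pi ^ n / n.factorial * ((d : ℝ) + 1) ^ n * 2 ^ (10 * n) =
      (Real.pi * ((d : ℝ) + 1)) ^ n / n.factorial * 2 ^ (10 * n) := by
    rw [mul_pow]; ring
  rw [h1]
  have hpi : Real.pi ≤ 4 := Real.pi_le_four
  have hpi0 := Real.pi_pos
  have h2 : (Real.pi * ((d : ℝ) + 1)) ^ n / n.factorial ≤ Real.exp (Real.pi * ((d : ℝ) + 1)) :=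
    Real.pow_div_factorial_le_exp _ (by positivity) n
  have h3 : (2 : ℝ) ^ (10 * n) ≤ Real.exp (10 * n) := by
    have h2e : (2 : ℝ) ≤ Real.exp 1 := by
      have := Real.add_one_le_exp (1 : ℝ)
      linarith
    calc (2 : ℝ) ^ (10 * n) ≤ (Real.exp 1) ^ (10 * n) := by gcongr
      _ = Real.exp (10 * n) := by rw [← Real.exp_nat_mul]; push_cast; ring_nf
  calc (Real.pi * ((d : ℝ) + 1)) ^ n / n.factorial * 2 ^ (10 * n)
      ≤ Real.exp (Real.pi * ((d : ℝ) + 1)) * Real.exp (10 * n) := by gcongr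
    _ = Real.exp (Real.pi * ((d : ℝ) + 1) + 10 * n) := by rw [Real.exp_add]
    _ ≤ Real.exp (20 * d) := by
        apply Real.exp_le_exp.mpr
        nlinarith

theorem blocks_bound {d T M : ℕ} (L : RLearner d T M) (n J : ℕ) (hn : 1 ≤ n)
    (hnd : 4 * n + 1 ≤ d) (hJ : T ≤ J * (2 * n)) (ε : ℝ) (hε : 0 < ε) (P : ℝ) (hP0 : 0 ≤ P)
    (hP : (2 : ℝ) ^ M * ((T : ℝ) + 2) ≤ P ^ (2 * n)) :
    L.successProb ε ≤ (P * Qc d n) ^ J * (2 * 4 ^ d * ε ^ (d - 1 - 4 * n)) := by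
  classical
  have hd : 1 ≤ d := by omega
  have hQ1 : 1 ≤ Qc d n := le_max_left _ _
  have hQ0 : 0 ≤ Qc d n := by linarith
  have hRHS0 : 0 ≤ (P * Qc d n) ^ J * (2 * 4 ^ d * ε ^ (d - 1 - 4 * n)) := by positivity
  let _ : Fintype L.St := L.fin
  set β : ℝ≥0∞ := 2 * 4 ^ d * ENNReal.ofReal (ε ^ (d - 1 - 4 * n)) with hβdef
  have hβ : β ≠ ⊤ := by
    rw [hβdef]
    exact ENNReal.mul_ne_top (ENNReal.mul_ne_top (by simp) (by simp)) ENNReal.ofReal_ne_top
  have hkey : ∀ ω : L.Ω, ((sig d).prod (gamk d T)) {p : E d × (Fin T → E d) |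
      Real.arccos (inner ℝ (L.output ω p.1 p.2) p.1) ≤ ε} ≤
      (ENNReal.ofReal P * ENNReal.ofReal (Qc d n)) ^ J * β := by
    intro ω
    obtain ⟨m, hm⟩ := Nat.exists_eq_add_of_le hJ
    rw [section_eq_vf L ω ε m hd, ← hm]
    have hF : Frost ((sig d).withDensity (vf (trL L ω) (gL L ω ε) (J * (2 * n)) 0 (initL L ω)))
        ((ENNReal.ofReal P * ENNReal.ofReal (Qc d n)) ^ J * β) (4 * n) := by
      refine vf_frost_iter hd hn (trL L ω) (trL_meas L ω) (gL L ω ε) (gL_meas L ω ε) ?_ β hβ ?_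
        (ENNReal.ofReal P) ENNReal.ofReal_ne_top ?_ J 0 (initL L ω)
      · intro q s
        unfold gL
        by_cases hs : s ∈ {s : E d | Real.arccos (inner ℝ (outL L ω q) s) ≤ ε}
        · rw [Set.indicator_of_mem hs]
        · rw [Set.indicator_of_notMem hs]; exact zero_le_one
      · intro q
        exact frost_gL L ω q ε hε (4 * n) hnd
      · have hc : Fintype.card (QL L) ≤ 2 ^ M * (T + 2) := card_QL L
        rw [← ENNReal.ofReal_pow hP0]
        refine le_trans ?_ (ENNReal.ofReal_le_ofReal hP)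
        rw [← ENNReal.ofReal_natCast]
        apply ENNReal.ofReal_le_ofReal
        have : ((Fintype.card (QL L) : ℕ) : ℝ) ≤ ((2 ^ M * (T + 2) : ℕ) : ℝ) := by
          exact_mod_cast hc
        refine le_trans this ?_
        push_cast
        exact le_refl _
    have h1 := hF 0 1 one_pos
    rw [withDensity_apply _ isClosed_closedBall.measurableSet] at h1
    have hfull : (sig d).restrict (closedBall (0 : E d) 1) = sig d := by
      rw [Measure.restrict_eq_self_of_ae_mem]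
      filter_upwards [sig_sphere d hd] with s hs
      rw [mem_closedBall_zero_iff, hs]
    rw [hfull] at h1
    simpa using h1
  have hB := successProb_le L hd ε _ hkey
  have hBeq : (ENNReal.ofReal P * ENNReal.ofReal (Qc d n)) ^ J * β =
      ENNReal.ofReal ((P * Qc d n) ^ J * (2 * 4 ^ d * ε ^ (d - 1 - 4 * n))) := by
    have e1 : ENNReal.ofReal ((P * Qc d n) ^ J * (2 * 4 ^ d * ε ^ (d - 1 - 4 * n))) =
        ENNReal.ofReal ((P * Qc d n) ^ J) * ENNReal.ofReal (2 * 4 ^ d * ε ^ (d - 1 - 4 * n)) :=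
      ENNReal.ofReal_mul (by positivity)
    have e2 : ENNReal.ofReal ((P * Qc d n) ^ J) =
        (ENNReal.ofReal P * ENNReal.ofReal (Qc d n)) ^ J := by
      rw [ENNReal.ofReal_pow (by positivity), ENNReal.ofReal_mul hP0]
    have e3 : ENNReal.ofReal (2 * 4 ^ d * ε ^ (d - 1 - 4 * n)) =
        2 * 4 ^ d * ENNReal.ofReal (ε ^ (d - 1 - 4 * n)) := by
      rw [ENNReal.ofReal_mul (by positivity), ENNReal.ofReal_mul (by positivity),
        ENNReal.ofReal_pow (by positivity)]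
      norm_num
    rw [hβdef, e1, e2, e3]
  rw [hBeq] at hB
  exact (ENNReal.ofReal_le_ofReal_iff hRHS0).mp hB

theorem two_le_exp_one : (2 : ℝ) ≤ Real.exp 1 := by
  have := Real.add_one_le_exp (1 : ℝ)
  linarith

theorem exp_neg_two_le : Real.exp (-2 : ℝ) ≤ 1 / 4 := by
  have he2 := two_le_exp_one
  rw [Real.exp_neg, show (2 : ℝ) = 1 + 1 by norm_num, Real.exp_add, one_div]
  apply inv_anti₀ (by norm_num)
  nlinarith

theorem T10_aux1 (d ℓ T : ℝ) (hd : 64 ≤ d) (hℓ : 1 ≤ ℓ) (hT : T ≤ d * ℓ) :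
    T + 2 ≤ Real.exp (d + ℓ) := by
  have he2 := two_le_exp_one
  have hd' : d ≤ Real.exp (d - 1) := by
    have := Real.add_one_le_exp (d - 1); linarith
  have hℓ' : ℓ ≤ Real.exp (ℓ - 1) := by
    have := Real.add_one_le_exp (ℓ - 1); linarith
  have h2 : d * ℓ ≤ Real.exp (d + ℓ - 2) := by
    calc d * ℓ ≤ Real.exp (d - 1) * Real.exp (ℓ - 1) := by gcongr
      _ = Real.exp (d + ℓ - 2) := by rw [← Real.exp_add]; ring_nf
  have h3 : Real.exp (d + ℓ) = Real.exp (d + ℓ - 2) * (Real.exp 1 * Real.exp 1) := by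
    rw [← Real.exp_add, ← Real.exp_add]; ring_nf
  have h4 : (4 : ℝ) ≤ Real.exp 1 * Real.exp 1 := by nlinarith
  have h5 : (1 : ℝ) ≤ Real.exp (d + ℓ - 2) := Real.one_le_exp (by linarith)
  rw [h3]
  nlinarith

theorem T10_aux2 (d CA T ℓ : ℝ) (hd : 64 ≤ d) (hCA : 2 * CA ≤ d) (hℓ : ℓ ≤ CA * d)
    (hT : T ≤ d * ℓ) : T + 2 ≤ Real.exp (d ^ 2) := by
  have h2 := Real.quadratic_le_exp_of_nonneg (x := d ^ 2) (by positivity)
  have h3 : T ≤ CA * d ^ 2 := by
    calc T ≤ d * ℓ := hT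
      _ ≤ d * (CA * d) := by gcongr
      _ = CA * d ^ 2 := by ring
  have h4 : CA * d ^ 2 ≤ d / 2 * d ^ 2 := by
    apply mul_le_mul_of_nonneg_right _ (by positivity)
    linarith
  have h5 : d ≤ d ^ 2 := by nlinarith
  have h6 : d / 2 * d ^ 2 ≤ (d ^ 2) ^ 2 / 2 := by
    have : d * d ^ 2 ≤ d ^ 2 * d ^ 2 := mul_le_mul_of_nonneg_right h5 (by positivity)
    nlinarith
  linarith

theorem T10_aux3 (T n : ℕ) (hn : 1 ≤ n) : T ≤ (T / (2 * n) + 1) * (2 * n) := by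
  have h1 := Nat.div_add_mod T (2 * n)
  have h2 := Nat.mod_lt T (show 0 < 2 * n by omega)
  nlinarith

theorem T10_aux4 (T n d : ℕ) (hn64 : d ≤ 64 * n) :
    (((T / (2 * n) + 1 : ℕ)) : ℝ) * d ≤ 32 * T + d := by
  have h1 : T / (2 * n) * (2 * n) ≤ T := Nat.div_mul_le_self _ _
  have h4 : (T / (2 * n) + 1) * d ≤ 32 * T + d := by
    have h5 : T / (2 * n) * d ≤ T / (2 * n) * (64 * n) := Nat.mul_le_mul_left _ hn64
    have h6 : T / (2 * n) * (64 * n) = 32 * (T / (2 * n) * (2 * n)) := by ring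
    have h7 : (T / (2 * n) + 1) * d = T / (2 * n) * d + d := by ring
    omega
  exact_mod_cast h4

theorem T10_aux5 (x : ℝ) (h : (1 : ℝ) / 3 ≤ Real.exp x) : -2 < x := by
  by_contra hle
  push Not at hle
  have h9 : Real.exp x ≤ Real.exp (-2) := Real.exp_le_exp.mpr hle
  have h10 := exp_neg_two_le
  linarith

set_option maxHeartbeats 1000000 in
theorem main :
    ∀ A : ℝ, 0 < A → ∃ c : ℝ, 0 < c ∧ ∃ d₀ : ℕ, ∀ d ≥ d₀, ∀ (M T : ℕ),
      (M : ℝ) ≤ A * (d : ℝ) ^ 2 → ∀ ε : ℝ, 0 < ε → ε ≤ 1 / 10 →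
        ∀ L : Crest.StreamLearn.RLearner d T M,
          2 / 3 ≤ L.successProb ε → c * d * Real.log (1 / ε) ≤ T := by
  intro A hA
  -- constants
  set K : ℝ := 32 * A + 55 with hK
  set CA : ℝ := 2 * (A + 4) with hCA
  refine ⟨1 / (128 * K), by positivity, 64 + ⌈2 * CA⌉₊, ?_⟩
  intro d hd M T hM ε hε0 hε1 L hsucc
  by_contra hcon
  push Not at hcon
  set ℓ : ℝ := Real.log (1 / ε) with hℓ
  have hd64 : 64 ≤ d := by omega
  have hdR : (64 : ℝ) ≤ d := by exact_mod_cast hd64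
  have hdCA : 2 * CA ≤ d := by
    have h1 : ⌈2 * CA⌉₊ ≤ d := by omega
    exact le_trans (Nat.le_ceil _) (by exact_mod_cast h1)
  have hd1 : 1 ≤ d := by omega
  have hK55 : 55 ≤ K := by rw [hK]; linarith
  have he2 : (2 : ℝ) ≤ Real.exp 1 := two_le_exp_one
  have hεexp : ε = Real.exp (-ℓ) := by
    rw [hℓ, one_div, Real.log_inv, neg_neg, Real.exp_log hε0]
  have hℓ1 : 1 ≤ ℓ := by
    rw [hℓ, Real.le_log_iff_exp_le (by positivity)]
    have h10 : (10 : ℝ) ≤ 1 / ε := by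
      rw [le_div_iff₀ hε0]; linarith
    have := Real.exp_one_lt_d9
    linarith
  have hT0 : (0 : ℝ) ≤ T := Nat.cast_nonneg T
  have hTd : (T : ℝ) < d * ℓ := by
    refine lt_of_lt_of_le hcon ?_
    have : 1 / (128 * K) ≤ 1 := by
      rw [div_le_one (by positivity)]; linarith
    calc 1 / (128 * K) * d * ℓ ≤ 1 * d * ℓ := by gcongr
      _ = d * ℓ := by ring
  have h2M : (2 : ℝ) ^ M ≤ Real.exp (A * d ^ 2) := by
    calc (2 : ℝ) ^ M ≤ (Real.exp 1) ^ M := by gcongr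
      _ = Real.exp M := by rw [← Real.exp_nat_mul]; ring_nf
      _ ≤ _ := Real.exp_le_exp.mpr hM
  have h4d : (4 : ℝ) ^ d ≤ Real.exp (2 * d) := by
    calc (4 : ℝ) ^ d = 2 ^ (2 * d) := by rw [pow_mul]; norm_num
      _ ≤ (Real.exp 1) ^ (2 * d) := by gcongr
      _ = Real.exp (2 * d) := by rw [← Real.exp_nat_mul]; push_cast; ring_nf
  have hexpneg : ∀ m : ℕ, ε ^ m = Real.exp (-(ℓ * m)) := by
    intro m
    rw [hεexp, ← Real.exp_nat_mul]
    ring_nf
  -- step 1: `ℓ ≤ CA d`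
  have hℓCA : ℓ ≤ CA * d := by
    by_contra hlt
    push Not at hlt
    have hc := counting L hd1 ε hε0
    have h1 : ((T : ℝ) + 2) ≤ Real.exp (d + ℓ) := T10_aux1 d ℓ T hdR hℓ1 hTd.le
    have h6 : (2 : ℝ) / 3 ≤ Real.exp (d + ℓ) * Real.exp (A * d ^ 2) *
        (2 * Real.exp (2 * d) * Real.exp (-(ℓ * (d - 1)))) := by
      refine le_trans hsucc (le_trans hc ?_)
      have : ε ^ (d - 1) = Real.exp (-(ℓ * (d - 1))) := by
        rw [hexpneg, Nat.cast_sub hd1]; norm_num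
      rw [this]
      gcongr
    have h7 : (1 : ℝ) / 3 ≤ Real.exp (d + ℓ + A * d ^ 2 + 2 * d - ℓ * (d - 1)) := by
      have : Real.exp (d + ℓ) * Real.exp (A * d ^ 2) *
        (2 * Real.exp (2 * d) * Real.exp (-(ℓ * (d - 1)))) =
          2 * Real.exp (d + ℓ + A * d ^ 2 + 2 * d - ℓ * (d - 1)) := by
        rw [show d + ℓ + A * d ^ 2 + 2 * d - ℓ * (d - 1) =
          (d + ℓ) + A * d ^ 2 + 2 * d + (-(ℓ * (d - 1))) by ring]
        rw [Real.exp_add (d + ℓ + A * d ^ 2 + 2 * d) (-(ℓ * (d - 1))),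
          Real.exp_add (d + ℓ + A * d ^ 2) (2 * d), Real.exp_add (d + ℓ) (A * d ^ 2)]
        ring
      rw [this] at h6
      linarith
    have h8 : (-2 : ℝ) < d + ℓ + A * d ^ 2 + 2 * d - ℓ * (d - 1) := T10_aux5 _ h7
    -- `ℓ (d - 2) < 3 d + A d² + 2`, while `ℓ > 2 (A + 4) d`
    have h9 : ℓ * (d - 2) < 3 * d + A * d ^ 2 + 2 := by linarith
    have h10 : CA * d * (d - 2) < 3 * d + A * d ^ 2 + 2 :=
      lt_trans (mul_lt_mul_of_pos_right hlt (by linarith)) h9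
    have h11 : (d : ℝ) / 2 ≤ d - 2 := by linarith
    have h12 : CA * d * (d / 2) ≤ CA * d * (d - 2) :=
      mul_le_mul_of_nonneg_left h11 (by positivity)
    have h13 : CA * d * (d / 2) = A * d ^ 2 + 4 * d ^ 2 := by rw [hCA]; ring
    have h14 : (64 : ℝ) * d ≤ d ^ 2 := by
      rw [pow_two]; exact mul_le_mul_of_nonneg_right hdR (by linarith)
    linarith
  -- step 2
  have hcard : (2 : ℝ) ^ M * ((T : ℝ) + 2) ≤ Real.exp ((A + 1) * d ^ 2) := by
    have h1 : (T : ℝ) + 2 ≤ Real.exp (d ^ 2) := T10_aux2 d CA T ℓ hdR hdCA hℓCA hTd.le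
    calc (2 : ℝ) ^ M * ((T : ℝ) + 2) ≤ Real.exp (A * d ^ 2) * Real.exp (d ^ 2) := by gcongr
      _ = Real.exp ((A + 1) * d ^ 2) := by rw [← Real.exp_add]; ring_nf
  -- step 3
  have hTbig : (d : ℝ) < 4 * T := by
    by_contra hle
    push Not at hle
    have h1 : 4 * T ≤ d := by exact_mod_cast hle
    have := small_T L hd1 h1 ε hε0 hε1
    linarith
  -- step 4
  obtain ⟨n, hn⟩ : ∃ n, n = d / 32 := ⟨_, rfl⟩
  have hn1 : 1 ≤ n := by omega
  have hnd : 4 * n + 1 ≤ d := by omega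
  have hn64 : d ≤ 64 * n := by omega
  have hn64R : (d : ℝ) ≤ 64 * n := by exact_mod_cast hn64
  obtain ⟨J, hJ⟩ : ∃ J, J = T / (2 * n) + 1 := ⟨_, rfl⟩
  have hTJ : T ≤ J * (2 * n) := by rw [hJ]; exact T10_aux3 T n hn1
  have hJd : (J : ℝ) * d ≤ 32 * T + d := by rw [hJ]; exact T10_aux4 T n d hn64
  set κ : ℝ := 32 * (A + 1) with hκ
  have hP : (2 : ℝ) ^ M * ((T : ℝ) + 2) ≤ (Real.exp (κ * d)) ^ (2 * n) := by
    refine le_trans hcard ?_
    rw [← Real.exp_nat_mul]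
    apply Real.exp_le_exp.mpr
    have e1 : (((2 * n : ℕ) : ℝ)) * (κ * d) = (A + 1) * d * (64 * n) := by
      rw [hκ]; push_cast; ring
    rw [e1]
    calc (A + 1) * (d : ℝ) ^ 2 = (A + 1) * d * d := by ring
      _ ≤ (A + 1) * d * (64 * n) :=
        mul_le_mul_of_nonneg_left hn64R (by positivity)
  have hb := blocks_bound L n J hn1 hnd hTJ ε hε0 (Real.exp (κ * d)) (Real.exp_pos _).le hP
  have hQ := Qc_le d n hnd
  have hQ0 : 0 ≤ Qc d n := le_trans zero_le_one (le_max_left _ _)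
  have h1 : (Real.exp (κ * d) * Qc d n) ^ J ≤ Real.exp ((κ + 20) * (32 * T + d)) := by
    calc (Real.exp (κ * d) * Qc d n) ^ J ≤ (Real.exp (κ * d) * Real.exp (20 * d)) ^ J := by gcongr
      _ = Real.exp ((κ + 20) * (J * d)) := by
          rw [← Real.exp_add, ← Real.exp_nat_mul]; ring_nf
      _ ≤ _ := by
          apply Real.exp_le_exp.mpr
          have : 0 ≤ κ + 20 := by rw [hκ]; linarith
          gcongr
  have h2 : ε ^ (d - 1 - 4 * n) ≤ Real.exp (-(ℓ * (d / 2))) := by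
    rw [hexpneg]
    apply Real.exp_le_exp.mpr
    have h3 : d ≤ 2 * (d - 1 - 4 * n) := by omega
    have h3R : (d : ℝ) ≤ 2 * ((d - 1 - 4 * n : ℕ) : ℝ) := by exact_mod_cast h3
    have h3' : (d : ℝ) / 2 ≤ ((d - 1 - 4 * n : ℕ) : ℝ) := by linarith
    exact neg_le_neg (mul_le_mul_of_nonneg_left h3' (by linarith))
  have h3 : (2 : ℝ) / 3 ≤ Real.exp ((κ + 20) * (32 * T + d)) *
      (2 * Real.exp (2 * d) * Real.exp (-(ℓ * (d / 2)))) := by
    refine le_trans hsucc (le_trans hb ?_)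
    gcongr
  have h4 : (1 : ℝ) / 3 ≤ Real.exp ((κ + 20) * (32 * T + d) + 2 * d - ℓ * (d / 2)) := by
    have : Real.exp ((κ + 20) * (32 * T + d)) *
      (2 * Real.exp (2 * d) * Real.exp (-(ℓ * (d / 2)))) =
        2 * Real.exp ((κ + 20) * (32 * T + d) + 2 * d - ℓ * (d / 2)) := by
      rw [show (κ + 20) * (32 * T + d) + 2 * d - ℓ * (d / 2) =
        (κ + 20) * (32 * T + d) + 2 * d + (-(ℓ * (d / 2))) by ring]
      rw [Real.exp_add ((κ + 20) * (32 * T + d) + 2 * d) (-(ℓ * (d / 2))),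
        Real.exp_add ((κ + 20) * (32 * T + d)) (2 * d)]
      ring
    rw [this] at h3
    linarith
  have h5 : (-2 : ℝ) < (κ + 20) * (32 * T + d) + 2 * d - ℓ * (d / 2) := T10_aux5 _ h4
  -- `ℓ d / 2 < K d + 32 K T`
  have hK0 : 0 < K := by linarith
  have h6 : ℓ * (d / 2) < K * d + 32 * K * T := by
    have e1 : K * d + 32 * K * T - ((κ + 20) * (32 * T + d) + 2 * d) = 3 * (32 * T) + d := by
      rw [hK, hκ]; ring
    linarith
  have h7 : 128 * K * T < d * ℓ := by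
    have h8 : 1 / (128 * K) * d * ℓ = d * ℓ / (128 * K) := by ring
    rw [h8, lt_div_iff₀ (by positivity)] at hcon
    linarith
  have h8 : ℓ < 4 * K := by
    have : ℓ * d < 4 * K * d := by linarith
    exact lt_of_mul_lt_mul_right this (by positivity)
  have h9 : 128 * K * T < d * (4 * K) := lt_trans h7 (mul_lt_mul_of_pos_left h8 (by linarith))
  have h10 : K * d < K * (4 * T) := mul_lt_mul_of_pos_left hTbig hK0
  have h11 : 0 ≤ K * T := by positivity
  linarith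

end Crest.Agent.SL
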