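import Crest.Agent.S0534_Add
/-!
Tensor powers of the damping channel.
-/
set_option autoImplicit false
set_option linter.unusedSimpArgs false
set_option linter.unusedSectionVars false
open Matrix
open scoped ComplexOrder Kronecker
open Crest.Quantum Crest.MathPhysics.AmpDamp

namespace Crest.Agent.GAD

/-- split off the first qubit -/
def sE (n : ℕ) : (Fin (n + 1) → Bool) ≃ Bool × (Fin n → Bool) := (Fin.consEquiv (fun _ => Bool)).symm

lemma sE_apply (n : ℕ) (σ : Fin (n + 1) → Bool) : sE n σ = (σ 0, fun i => σ i.succ) := rfl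
lemma sE_symm_zero (n : ℕ) (p : Bool × (Fin n → Bool)) : (sE n).symm p 0 = p.1 := rfl
lemma sE_symm_succ (n : ℕ) (p : Bool × (Fin n → Bool)) (i : Fin n) : (sE n).symm p i.succ = p.2 i := rfl

lemma qubitPower_succ (n : ℕ) (Φ : Matrix Bool Bool ℂ → Matrix Bool Bool ℂ)
    (M : Matrix (Fin (n + 1) → Bool) (Fin (n + 1) → Bool) ℂ) :
    qubitPower (n + 1) Φ M =
      (qubitTensor Φ (qubitPower n Φ) (M.submatrix (sE n).symm (sE n).symm)).submatrix (sE n) (sE n) := by
  ext σ τ
  simp only [qubitPower, qubitTensor, of_apply, submatrix_apply, sE_apply, block]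
  rw [← Equiv.sum_comp (sE n).symm, Fintype.sum_prod_type]
  have e1 : ∀ (s : Bool) (σ' : Fin n → Bool),
      ∑ τ' : Fin (n + 1) → Bool, (∏ i, qubitCoeff Φ (σ i) (τ i) ((sE n).symm (s, σ') i) (τ' i)) * M ((sE n).symm (s, σ')) τ' =
      ∑ t : Bool, ∑ τ' : Fin n → Bool, (∏ i, qubitCoeff Φ (σ i) (τ i) ((sE n).symm (s, σ') i) ((sE n).symm (t, τ') i)) *
        M ((sE n).symm (s, σ')) ((sE n).symm (t, τ')) := by
    intro s σ'
    rw [← Equiv.sum_comp (sE n).symm, Fintype.sum_prod_type]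
  simp only [e1]
  refine Finset.sum_congr rfl fun s _ => ?_
  rw [Finset.sum_comm]
  refine Finset.sum_congr rfl fun t _ => ?_
  rw [Finset.mul_sum]
  refine Finset.sum_congr rfl fun σ' _ => ?_
  rw [Finset.mul_sum]
  refine Finset.sum_congr rfl fun τ' _ => ?_
  rw [Fin.prod_univ_succ]
  simp only [sE_symm_zero, sE_symm_succ]
  ring

lemma qubitPower_zero (Φ : Matrix Bool Bool ℂ → Matrix Bool Bool ℂ) (M : Matrix (Fin 0 → Bool) (Fin 0 → Bool) ℂ) :
    qubitPower 0 Φ M = M := by
  ext σ τ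
  simp only [qubitPower, of_apply, Finset.univ_eq_empty, Finset.prod_empty, one_mul]
  rw [Fintype.sum_unique, Fintype.sum_unique]
  congr 1 <;> exact Subsingleton.elim _ _

section
variable {d e d' e' : Type*} [Fintype d] [Fintype e] [DecidableEq d] [DecidableEq e]
  [Fintype d'] [Fintype e'] [DecidableEq d'] [DecidableEq e']

lemma isChannel_reindex {Ψ : Matrix d d ℂ → Matrix e e ℂ} (hΨ : IsChannel Ψ) (f : d' ≃ d) (g : e' ≃ e) :
    IsChannel (fun M : Matrix d' d' ℂ => (Ψ (M.submatrix f.symm f.symm)).submatrix g g) := by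
  obtain ⟨hlin, hcp, htp⟩ := hΨ
  refine ⟨⟨?_, ?_⟩, ?_, ?_⟩
  · intro M N
    show (Ψ ((M + N).submatrix f.symm f.symm)).submatrix g g = _
    have : (M + N).submatrix f.symm f.symm = M.submatrix f.symm f.symm + N.submatrix f.symm f.symm := rfl
    rw [this, hlin.map_add]
    rfl
  · intro c M
    show (Ψ ((c • M).submatrix f.symm f.symm)).submatrix g g = _
    have : (c • M).submatrix f.symm f.symm = c • M.submatrix f.symm f.symm := rfl
    rw [this, hlin.map_smul]
    rfl
  · intro k M hM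
    have h1 := hcp k (M.submatrix (Prod.map id f.symm) (Prod.map id f.symm)) (hM.submatrix _)
    exact h1.submatrix (Prod.map id g : Fin k × e' → Fin k × e)
  · intro M
    show ((Ψ (M.submatrix f.symm f.symm)).submatrix g g).trace = _
    rw [trace_submatrix_equiv, htp, trace_submatrix_equiv]

lemma isChannel_id : IsChannel (fun M : Matrix d d ℂ => M) :=
  ⟨⟨fun _ _ => rfl, fun _ _ => rfl⟩, fun _ _ hM => hM, fun _ => rfl⟩

end

section
variable {γ ν : ℝ} (hγ : γ ∈ Set.Icc (0 : ℝ) 1) (hν : ν ∈ Set.Icc (0 : ℝ) 1)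
include hγ hν

theorem isChannel_qubitPower (n : ℕ) : IsChannel (qubitPower n (gadMap γ ν)) := by
  induction n with
  | zero =>
    have : qubitPower 0 (gadMap γ ν) = fun M => M := by
      funext M; exact qubitPower_zero _ M
    rw [this]
    exact isChannel_id
  | succ n ih =>
    have : qubitPower (n + 1) (gadMap γ ν) = fun M =>
        (qubitTensor (gadMap γ ν) (qubitPower n (gadMap γ ν)) (M.submatrix (sE n).symm (sE n).symm)).submatrix (sE n) (sE n) := by
      funext M; exact qubitPower_succ n _ M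
    rw [this]
    exact isChannel_reindex (isChannel_qubitTensor hγ hν ih) (sE n) (sE n)

omit hγ hν in
lemma density_submatrix {d d' : Type*} [Fintype d] [Fintype d'] [DecidableEq d] [DecidableEq d'] (f : d' ≃ d)
    {M : Matrix d d ℂ} (hM : IsDensity M) : IsDensity (M.submatrix f f) :=
  ⟨hM.1.submatrix f, by rw [trace_submatrix_equiv, hM.2]⟩

lemma holevo_succ (n : ℕ) {m : ℕ} {q : Fin m → ℝ} {ρ : Fin m → Matrix (Fin (n + 1) → Bool) (Fin (n + 1) → Bool) ℂ}
    (hE : IsEnsemble q ρ) :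
    IsEnsemble q (fun a => (ρ a).submatrix (sE n).symm (sE n).symm) ∧
    holevoInfo (qubitPower (n + 1) (gadMap γ ν)) q ρ =
      holevoInfo (qubitTensor (gadMap γ ν) (qubitPower n (gadMap γ ν))) q
        (fun a => (ρ a).submatrix (sE n).symm (sE n).symm) := by
  obtain ⟨hq, hs, hρ⟩ := hE
  have hch := isChannel_qubitTensor hγ hν (isChannel_qubitPower hγ hν n)
  have hρ' : ∀ a, IsDensity ((ρ a).submatrix (sE n).symm (sE n).symm) := fun a => density_submatrix _ (hρ a)
  have hout : ∀ a, IsDensity (qubitTensor (gadMap γ ν) (qubitPower n (gadMap γ ν))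
      ((ρ a).submatrix (sE n).symm (sE n).symm)) := fun a => channel_density hch (hρ' a)
  refine ⟨⟨hq, hs, hρ'⟩, ?_⟩
  unfold holevoInfo
  have e1 : ∑ a, (q a : ℂ) • qubitPower (n + 1) (gadMap γ ν) (ρ a) =
      (∑ a, (q a : ℂ) • qubitTensor (gadMap γ ν) (qubitPower n (gadMap γ ν))
        ((ρ a).submatrix (sE n).symm (sE n).symm)).submatrix (sE n) (sE n) := by
    ext i j
    simp only [Matrix.sum_apply, submatrix_apply, Matrix.smul_apply, qubitPower_succ]
  rw [e1, entropy_submatrix (density_avg hq hs hout).1]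
  congr 1
  refine Finset.sum_congr rfl fun a _ => ?_
  rw [qubitPower_succ, entropy_submatrix (hout a).1]

/-- single-use bound -/
theorem single_upper {m : ℕ} {q : Fin m → ℝ} {ρ : Fin m → Matrix Bool Bool ℂ} (hE : IsEnsemble q ρ) :
    ∃ p ∈ Set.Icc (0 : ℝ) 1, holevoInfo (gadMap γ ν) q ρ ≤ gadRate γ ν p := by
  obtain ⟨hq, hs, hρ⟩ := hE
  set x : Fin m → ℝ := fun a => (ρ a false false).re with hx
  set z : Fin m → ℝ := fun a => (ρ a true true).re with hz
  have hx0 : ∀ a, 0 ≤ x a := fun a => psd_re_diag (hρ a).1 _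
  have hz0 : ∀ a, 0 ≤ z a := fun a => psd_re_diag (hρ a).1 _
  have hxz : ∀ a, x a + z a = 1 := by
    intro a
    have := density_trace_re (hρ a)
    rw [trace_re_sum, Fintype.sum_bool] at this
    simp only [hx, hz]
    linarith
  set xb := ∑ a, q a * x a with hxb
  set zb := ∑ a, q a * z a with hzb
  have hxb0 : 0 ≤ xb := Finset.sum_nonneg fun a _ => mul_nonneg (hq a) (hx0 a)
  have hzb0 : 0 ≤ zb := Finset.sum_nonneg fun a _ => mul_nonneg (hq a) (hz0 a)
  have hxzb : xb + zb = 1 := by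
    rw [hxb, hzb, ← Finset.sum_add_distrib, ← hs]
    exact Finset.sum_congr rfl fun a _ => by rw [← mul_add, hxz a, mul_one]
  refine ⟨zb, ⟨hzb0, by linarith⟩, ?_⟩
  rw [gadRate_eq]
  unfold holevoInfo
  have hR := density_avg hq hs hρ
  rw [← linear_sum (gadMap_linear γ ν)]
  have up := gadMap_upper hγ hν hR.1
  have r1 : ((∑ a, (q a : ℂ) • ρ a) false false).re = xb := by
    rw [Matrix.sum_apply, Complex.re_sum]
    refine Finset.sum_congr rfl fun a _ => ?_
    rw [Matrix.smul_apply, smul_eq_mul, Complex.re_ofReal_mul]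
  have r2 : ((∑ a, (q a : ℂ) • ρ a) true true).re = zb := by
    rw [Matrix.sum_apply, Complex.re_sum]
    refine Finset.sum_congr rfl fun a _ => ?_
    rw [Matrix.smul_apply, smul_eq_mul, Complex.re_ofReal_mul]
  rw [r1, r2, hxzb, Real.negMulLog_one, zero_add] at up
  have hf := fhat_sum (ca_nonneg hγ hν) (cb_nonneg hγ hν) (cc_nonneg hγ hν) (cd_nonneg hγ hν)
    (by linarith [hγ.2] : 0 ≤ 1 - γ) (ca_cc γ ν) (cb_cd γ ν) (c_det γ ν) (fun a => q a * x a) (fun a => q a * z a)
    (fun a => mul_nonneg (hq a) (hx0 a)) (fun a => mul_nonneg (hq a) (hz0 a))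
  simp only [← hxb, ← hzb, hxzb, Real.negMulLog_one, sub_zero] at hf
  have ht : ∀ a, ent2 (q a * x a + q a * z a) (vdet (ca γ ν) (cb γ ν) (cc γ ν) (cd γ ν) (q a * x a) (q a * z a)) -
      Real.negMulLog (q a * x a + q a * z a) = q a * ent2 (x a + z a) (vdet (ca γ ν) (cb γ ν) (cc γ ν) (cd γ ν) (x a) (z a)) := by
    intro a
    have e1 : q a * x a + q a * z a = q a * 1 := by rw [← mul_add, hxz a]
    have e2 : vdet (ca γ ν) (cb γ ν) (cc γ ν) (cd γ ν) (q a * x a) (q a * z a) =
        (q a) ^ 2 * vdet (ca γ ν) (cb γ ν) (cc γ ν) (cd γ ν) (x a) (z a) := by unfold vdet; ring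
    rw [e1, e2, ent2_smul (hq a), hxz a]
    ring_nf
  rw [Finset.sum_congr rfl fun a _ => ht a] at hf
  have hlow : ∑ a, q a * ent2 (x a + z a) (vdet (ca γ ν) (cb γ ν) (cc γ ν) (cd γ ν) (x a) (z a)) ≤
      ∑ a, q a * vnEntropy (gadMap γ ν (ρ a)) :=
    Finset.sum_le_sum fun a _ => mul_le_mul_of_nonneg_left (gadMap_lower hγ hν (hρ a).1) (hq a)
  have hx1 : 1 - zb = xb := by linarith
  unfold fout
  rw [hx1]
  linarith

/-- single-use achievability -/
theorem single_lower {p : ℝ} (hp : p ∈ Set.Icc (0 : ℝ) 1) :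
    ∃ (m : ℕ) (q : Fin m → ℝ) (ρ : Fin m → Matrix Bool Bool ℂ), IsEnsemble q ρ ∧
      gadRate γ ν p ≤ holevoInfo (gadMap γ ν) q ρ := by
  obtain ⟨m, q, ρ, hE, hH⟩ := exists_fin_ensemble (α := Bool)
    (q := fun _ => 1 / 2) (ρ := fun b => psi p (if b then 1 else -1))
    (fun _ => by norm_num) (by simp) (by
      intro b; cases b
      · exact psi_density hp (by norm_num)
      · exact psi_density hp (by norm_num)) (gadMap γ ν)
  refine ⟨m, q, ρ, hE, ?_⟩
  rw [hH, gadRate_eq, ← linear_sum (gadMap_linear γ ν)]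
  rw [entropy_gad_diag hγ hν (x := 1 - p) (z := p) (by linarith [hp.2]) hp.1 (by ring)]
  · simp only [Fintype.sum_bool, if_true, Bool.false_eq_true, if_false]
    rw [entropy_psi hγ hν hp (by norm_num), entropy_psi hγ hν hp (by norm_num)]
    linarith
  · simp only [Fintype.sum_bool, if_true, Bool.false_eq_true, if_false, Matrix.add_apply, Matrix.smul_apply,
      smul_eq_mul]
    rw [psi_ff hp, psi_ff hp]
    push_cast; ring
  · simp only [Fintype.sum_bool, if_true, Bool.false_eq_true, if_false, Matrix.add_apply, Matrix.smul_apply,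
      smul_eq_mul]
    rw [psi_tt hp (by norm_num), psi_tt hp (by norm_num)]
    push_cast; ring
  · simp only [Fintype.sum_bool, if_true, Bool.false_eq_true, if_false, Matrix.add_apply, Matrix.smul_apply,
      smul_eq_mul]
    rw [psi_ft, psi_ft]
    push_cast; ring
  · simp only [Fintype.sum_bool, if_true, Bool.false_eq_true, if_false, Matrix.add_apply, Matrix.smul_apply,
      smul_eq_mul]
    rw [psi_tf, psi_tf]
    push_cast; ring

omit hγ hν in
lemma continuous_gadRate : Continuous (gadRate γ ν) := by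
  unfold gadRate
  have h1 : Continuous fun p : ℝ => (1 - γ) * p + γ * ν := by fun_prop
  have h2 : Continuous fun p : ℝ => (1 + √(1 - 4 * (γ * ν * (1 - ν) + γ * (1 - γ) * (p - ν) ^ 2))) / 2 := by fun_prop
  exact (Real.binEntropy_continuous.comp h1).sub (Real.binEntropy_continuous.comp h2)

theorem power_upper : ∃ p ∈ Set.Icc (0 : ℝ) 1, ∀ (n m : ℕ) (q : Fin m → ℝ)
    (ρ : Fin m → Matrix (Fin n → Bool) (Fin n → Bool) ℂ), IsEnsemble q ρ →
      holevoInfo (qubitPower n (gadMap γ ν)) q ρ ≤ n * gadRate γ ν p := by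
  obtain ⟨p, hp, hmax⟩ := (isCompact_Icc (a := (0 : ℝ)) (b := 1)).exists_isMaxOn ⟨0, by simp⟩
    (continuous_gadRate (γ := γ) (ν := ν)).continuousOn
  refine ⟨p, hp, ?_⟩
  intro n
  induction n with
  | zero =>
    intro m q ρ hE
    obtain ⟨hq, hs, hρ⟩ := hE
    have h1 : ∀ {N : Matrix (Fin 0 → Bool) (Fin 0 → Bool) ℂ}, IsDensity N → vnEntropy N = 0 := by
      intro N hN
      have e : N = diagonal (fun _ => ((1 : ℝ) : ℂ)) := by
        ext i j
        have h2 := hN.2
        rw [trace, Fintype.sum_unique, diag_apply] at h2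
        have hij : i = j := Subsingleton.elim _ _
        subst hij
        have h3 : N i i = 1 := by
          rw [← h2]; congr 1 <;> exact Subsingleton.elim _ _
        rw [h3, diagonal_apply_eq]
        simp
      rw [e, entropy_diagonal _ (fun _ => zero_le_one)]
      simp
    unfold holevoInfo
    have h0 : ∀ a, qubitPower 0 (gadMap γ ν) (ρ a) = ρ a := fun a => qubitPower_zero _ _
    simp only [h0]
    rw [h1 (density_avg hq hs hρ), Finset.sum_congr rfl fun a _ => by rw [h1 (hρ a), mul_zero]]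
    simp
  | succ n ih =>
    intro m q ρ hE
    obtain ⟨hE', hH⟩ := holevo_succ hγ hν n hE
    rw [hH]
    obtain ⟨m₁, q₁, ρ₁, m₂, q₂, ρ₂, hE₁, hE₂, h⟩ := add_holevo_upper hγ hν (isChannel_qubitPower hγ hν n) hE'
    obtain ⟨p', hp', h1⟩ := single_upper hγ hν hE₁
    have h2 := ih m₂ q₂ ρ₂ hE₂
    have h3 : gadRate γ ν p' ≤ gadRate γ ν p := hmax hp'
    push_cast
    linarith

theorem power_lower {p : ℝ} (hp : p ∈ Set.Icc (0 : ℝ) 1) (n : ℕ) : ∃ (m : ℕ) (q : Fin m → ℝ)
    (ρ : Fin m → Matrix (Fin n → Bool) (Fin n → Bool) ℂ), IsEnsemble q ρ ∧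
      n * gadRate γ ν p ≤ holevoInfo (qubitPower n (gadMap γ ν)) q ρ := by
  induction n with
  | zero =>
    refine ⟨1, fun _ => 1, fun _ => 1, ⟨fun _ => zero_le_one, by simp, fun _ => ⟨PosSemidef.one, by simp⟩⟩, ?_⟩
    unfold holevoInfo
    simp
  | succ n ih =>
    obtain ⟨m₂, q₂, ρ₂, hE₂, h₂⟩ := ih
    obtain ⟨m₁, q₁, ρ₁, hE₁, h₁⟩ := single_lower hγ hν hp
    obtain ⟨m, q, ρ, hE, h⟩ := add_holevo_lower hγ hν (isChannel_qubitPower hγ hν n) hE₁ hE₂
    have hE' : IsEnsemble q (fun a => (ρ a).submatrix (sE n) (sE n)) :=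
      ⟨hE.1, hE.2.1, fun a => density_submatrix _ (hE.2.2 a)⟩
    refine ⟨m, q, fun a => (ρ a).submatrix (sE n) (sE n), hE', ?_⟩
    rw [(holevo_succ hγ hν n hE').2]
    have e : (fun a => ((ρ a).submatrix (sE n) (sE n)).submatrix (sE n).symm (sE n).symm) = ρ := by
      funext a
      ext i j
      simp
    rw [e]
    push_cast
    linarith

end

end Crest.Agent.GAD
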