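import Crest.Agent.S0534_Main
/-!
Additivity of the Holevo information and of the minimum output entropy.
-/
set_option autoImplicit false
set_option linter.unusedSimpArgs false
set_option linter.unusedSectionVars false
open Matrix
open scoped ComplexOrder Kronecker
open Crest.Quantum Crest.MathPhysics.AmpDamp

namespace Crest.Agent.GAD

section
variable {γ ν : ℝ} (hγ : γ ∈ Set.Icc (0 : ℝ) 1) (hν : ν ∈ Set.Icc (0 : ℝ) 1)
variable {d e : Type*} [Fintype d] [Fintype e] [DecidableEq d] [DecidableEq e] [Nonempty d]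
  {Ψ : Matrix d d ℂ → Matrix e e ℂ}

omit [Fintype e] [DecidableEq e] [Nonempty d] [Fintype d] [DecidableEq d] in
lemma block_psd [Fintype d] {M : Matrix (Bool × d) (Bool × d) ℂ} (hM : M.PosSemidef) (s : Bool) :
    (block M s s).PosSemidef :=
  hM.submatrix (fun i => (s, i))

include hγ hν

omit [Nonempty d] in
/-- lower bound for a single output -/
lemma tensor_lower (hΨ : IsChannel Ψ) {M : Matrix (Bool × d) (Bool × d) ℂ} (hM : IsDensity M) {x z : ℝ}
    {σ τ : Matrix d d ℂ} (hσ : IsDensity σ) (hτ : IsDensity τ) (hx : x = (block M false false).trace.re)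
    (hz : z = (block M true true).trace.re)
    (hX : block M false false = (x : ℂ) • σ) (hZ : block M true true = (z : ℂ) • τ) :
    0 ≤ x ∧ 0 ≤ z ∧ x + z = 1 ∧
    x * vnEntropy (Ψ σ) + z * vnEntropy (Ψ τ) + fout γ ν z ≤ vnEntropy (qubitTensor (gadMap γ ν) Ψ M) := by
  obtain ⟨hlin, hcp, htp⟩ := hΨ
  have hx0 : 0 ≤ x := hx ▸ psd_trace_nonneg (block_psd hM.1 false)
  have hz0 : 0 ≤ z := hz ▸ psd_trace_nonneg (block_psd hM.1 true)
  have hxz : x + z = 1 := by
    rw [hx, hz, ← Complex.add_re, trace_blocks, hM.2, Complex.one_re]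
  refine ⟨hx0, hz0, hxz, ?_⟩
  have hblk := blk_psd hcp hM.1
  unfold blk at hblk
  have hG := gad_psd hγ hν hblk
  have key := gad_lower hγ hν hblk
  rw [qubitTensor_entropy γ ν hG]
  have hΨX : Ψ (block M false false) = (x : ℂ) • Ψ σ := by rw [hX, hlin.map_smul]
  have hΨZ : Ψ (block M true true) = (z : ℂ) • Ψ τ := by rw [hZ, hlin.map_smul]
  have hdΨ : ∀ {s : Matrix d d ℂ}, IsDensity s → IsDensity (Ψ s) := by
    intro s hs
    refine ⟨?_, by rw [htp, hs.2]⟩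
    have h1 : (s.submatrix (Prod.snd : Unit × d → d) Prod.snd).PosSemidef := hs.1.submatrix _
    have h2 := (cp_any hcp h1).submatrix (fun i : e => ((), i))
    exact h2
  have e1 : vnEntropy (Ψ (block M false false)) - Real.negMulLog (Ψ (block M false false)).trace.re =
      x * vnEntropy (Ψ σ) := by
    rw [htp, ← hx, hΨX, entropy_scaled (hdΨ hσ) hx0]; ring
  have e2 : vnEntropy (Ψ (block M true true)) - Real.negMulLog (Ψ (block M true true)).trace.re =
      z * vnEntropy (Ψ τ) := by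
    rw [htp, ← hz, hΨZ, entropy_scaled (hdΨ hτ) hz0]; ring
  rw [e1, e2, htp, htp, ← hx, ← hz, hxz] at key
  have e3 : fout γ ν z = ent2 1 (vdet (ca γ ν) (cb γ ν) (cc γ ν) (cd γ ν) x z) := by
    unfold fout
    rw [show 1 - z = x by linarith]
  rw [e3]
  exact key

omit [Nonempty d] hγ hν in
lemma channel_density (hΨ : IsChannel Ψ) {s : Matrix d d ℂ} (hs : IsDensity s) : IsDensity (Ψ s) := by
  obtain ⟨hlin, hcp, htp⟩ := hΨ
  refine ⟨?_, by rw [htp, hs.2]⟩
  have h1 : (s.submatrix (Prod.snd : Unit × d → d) Prod.snd).PosSemidef := hs.1.submatrix _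
  have h2 := (cp_any hcp h1).submatrix (fun i : e => ((), i))
  exact h2

omit hγ hν [Nonempty d] [DecidableEq d] [DecidableEq e] [Fintype d] [Fintype e] in
lemma linear_sum {Φ : Matrix d d ℂ → Matrix e e ℂ} (h : IsLinearMap ℂ Φ) {α : Type*} (s : Finset α) (q : α → ℂ)
    (ρ : α → Matrix d d ℂ) : Φ (∑ a ∈ s, q a • ρ a) = ∑ a ∈ s, q a • Φ (ρ a) := by
  have := map_sum (IsLinearMap.mk' Φ h) (fun a => q a • ρ a) s
  simp only [IsLinearMap.mk'_apply] at this
  rw [this]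
  exact Finset.sum_congr rfl fun a _ => h.map_smul _ _

theorem add_holevo_upper (hΨ : IsChannel Ψ) {m : ℕ} {q : Fin m → ℝ}
    {ρ : Fin m → Matrix (Bool × d) (Bool × d) ℂ} (hE : IsEnsemble q ρ) :
    ∃ (m₁ : ℕ) (q₁ : Fin m₁ → ℝ) (ρ₁ : Fin m₁ → Matrix Bool Bool ℂ)
        (m₂ : ℕ) (q₂ : Fin m₂ → ℝ) (ρ₂ : Fin m₂ → Matrix d d ℂ),
        IsEnsemble q₁ ρ₁ ∧ IsEnsemble q₂ ρ₂ ∧
          holevoInfo (qubitTensor (gadMap γ ν) Ψ) q ρ ≤
            holevoInfo (gadMap γ ν) q₁ ρ₁ + holevoInfo Ψ q₂ ρ₂ := by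
  obtain ⟨hq, hs, hρ⟩ := hE
  have hlin := hΨ.1
  have hcp := hΨ.2.1
  have htp := hΨ.2.2
  -- normalized blocks
  choose σ hσ hσe using fun a => exists_density_scale (block_psd (hρ a).1 false)
  choose τ hτ hτe using fun a => exists_density_scale (block_psd (hρ a).1 true)
  set x : Fin m → ℝ := fun a => (block (ρ a) false false).trace.re with hx
  set z : Fin m → ℝ := fun a => (block (ρ a) true true).trace.re with hz
  have low := fun a => tensor_lower hγ hν hΨ (hρ a) (x := x a) (z := z a) (hσ a) (hτ a) rfl rfl (hσe a) (hτe a)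
  have hx0 : ∀ a, 0 ≤ x a := fun a => (low a).1
  have hz0 : ∀ a, 0 ≤ z a := fun a => (low a).2.1
  have hxz : ∀ a, x a + z a = 1 := fun a => (low a).2.2.1
  have hzI : ∀ a, z a ∈ Set.Icc (0 : ℝ) 1 := fun a => ⟨hz0 a, by linarith [hxz a, hx0 a]⟩
  -- second ensemble
  obtain ⟨m₂, q₂, ρ₂, hE₂, hH₂⟩ := exists_fin_ensemble (α := Fin m × Bool)
    (q := fun p => q p.1 * (if p.2 then z p.1 else x p.1)) (ρ := fun p => if p.2 then τ p.1 else σ p.1)
    (by rintro ⟨a, b⟩; cases b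
        · simpa using mul_nonneg (hq a) (hx0 a)
        · simpa using mul_nonneg (hq a) (hz0 a))
    (by rw [Fintype.sum_prod_type]
        simp only [Fintype.sum_bool, if_true, Bool.false_eq_true, if_false, ← mul_add]
        rw [← hs]
        refine Finset.sum_congr rfl fun a _ => by rw [add_comm (z a), hxz a, mul_one])
    (by rintro ⟨a, b⟩; cases b
        · simpa using hσ a
        · simpa using hτ a) Ψ
  -- first ensemble
  obtain ⟨m₁, q₁, ρ₁, hE₁, hH₁⟩ := exists_fin_ensemble (α := Fin m × Bool)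
    (q := fun p => q p.1 / 2) (ρ := fun p => psi (z p.1) (if p.2 then 1 else -1))
    (by rintro ⟨a, b⟩; exact div_nonneg (hq a) (by norm_num))
    (by rw [Fintype.sum_prod_type]
        simp only [Fintype.sum_bool]
        rw [← hs]
        refine Finset.sum_congr rfl fun a _ => by ring)
    (by rintro ⟨a, b⟩; cases b
        · exact psi_density (hzI a) (by norm_num)
        · exact psi_density (hzI a) (by norm_num)) (gadMap γ ν)
  refine ⟨m₁, q₁, ρ₁, m₂, q₂, ρ₂, hE₁, hE₂, ?_⟩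
  rw [hH₁, hH₂]
  -- average input state
  set R : Matrix (Bool × d) (Bool × d) ℂ := ∑ a, (q a : ℂ) • ρ a with hR
  have hRd : IsDensity R := density_avg hq hs hρ
  have hqT := isChannel_qubitTensor hγ hν hΨ
  have hblk := blk_psd hcp hRd.1
  unfold blk at hblk
  have hG := gad_psd hγ hν hblk
  have up := gad_upper hγ hν hblk
  have hout : ∑ a, (q a : ℂ) • qubitTensor (gadMap γ ν) Ψ (ρ a) = qubitTensor (gadMap γ ν) Ψ R := by
    rw [hR, linear_sum hqT.1]
  have hbR : ∀ s, block R s s = ∑ a, (q a : ℂ) • block (ρ a) s s := by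
    intro s
    ext i j
    rw [hR]
    simp only [block, of_apply, Matrix.sum_apply, Matrix.smul_apply]
  have hX : (Ψ (block R false false)) = ∑ a, (q a : ℂ) • ((x a : ℂ) • Ψ (σ a)) := by
    rw [hbR, linear_sum hlin]
    refine Finset.sum_congr rfl fun a _ => ?_
    rw [hσe a, hlin.map_smul]
  have hZ : (Ψ (block R true true)) = ∑ a, (q a : ℂ) • ((z a : ℂ) • Ψ (τ a)) := by
    rw [hbR, linear_sum hlin]
    refine Finset.sum_congr rfl fun a _ => ?_
    rw [hτe a, hlin.map_smul]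
  have htX : (Ψ (block R false false)).trace.re = ∑ a, q a * x a := by
    rw [htp, hbR, trace_sum, Complex.re_sum]
    refine Finset.sum_congr rfl fun a _ => ?_
    rw [trace_smul, smul_eq_mul, Complex.re_ofReal_mul]
  have htZ : (Ψ (block R true true)).trace.re = ∑ a, q a * z a := by
    rw [htp, hbR, trace_sum, Complex.re_sum]
    refine Finset.sum_congr rfl fun a _ => ?_
    rw [trace_smul, smul_eq_mul, Complex.re_ofReal_mul]
  set xb := ∑ a, q a * x a with hxb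
  set zb := ∑ a, q a * z a with hzb
  have hxb0 : 0 ≤ xb := Finset.sum_nonneg fun a _ => mul_nonneg (hq a) (hx0 a)
  have hzb0 : 0 ≤ zb := Finset.sum_nonneg fun a _ => mul_nonneg (hq a) (hz0 a)
  have hxzb : xb + zb = 1 := by
    rw [hxb, hzb, ← Finset.sum_add_distrib, ← hs]
    exact Finset.sum_congr rfl fun a _ => by rw [← mul_add, hxz a, mul_one]
  -- entropy of average of first ensemble
  have hA1 : vnEntropy (∑ p : Fin m × Bool, ((q p.1 / 2 : ℝ) : ℂ) • gadMap γ ν (psi (z p.1) (if p.2 then 1 else -1))) =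
      H2 (ca γ ν * xb + cb γ ν * zb) (cc γ ν * xb + cd γ ν * zb) := by
    rw [← linear_sum (gadMap_linear γ ν)]
    refine entropy_gad_diag hγ hν hxb0 hzb0 hxzb ?_ ?_ ?_ ?_
    · rw [Matrix.sum_apply, Fintype.sum_prod_type]
      simp only [Fintype.sum_bool, Matrix.smul_apply, smul_eq_mul, if_true, Bool.false_eq_true, if_false]
      rw [hxb, Complex.ofReal_sum]
      refine Finset.sum_congr rfl fun a _ => ?_
      rw [psi_ff (hzI a), psi_ff (hzI a), show x a = 1 - z a by linarith [hxz a]]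
      push_cast; ring
    · rw [Matrix.sum_apply, Fintype.sum_prod_type]
      simp only [Fintype.sum_bool, Matrix.smul_apply, smul_eq_mul, if_true, Bool.false_eq_true, if_false]
      rw [hzb, Complex.ofReal_sum]
      refine Finset.sum_congr rfl fun a _ => ?_
      rw [psi_tt (hzI a) (by norm_num), psi_tt (hzI a) (by norm_num)]
      push_cast; ring
    · rw [Matrix.sum_apply, Fintype.sum_prod_type]
      simp only [Fintype.sum_bool, Matrix.smul_apply, smul_eq_mul, if_true, Bool.false_eq_true, if_false]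
      refine Finset.sum_eq_zero fun a _ => ?_
      rw [psi_ft, psi_ft]
      push_cast; ring
    · rw [Matrix.sum_apply, Fintype.sum_prod_type]
      simp only [Fintype.sum_bool, Matrix.smul_apply, smul_eq_mul, if_true, Bool.false_eq_true, if_false]
      refine Finset.sum_eq_zero fun a _ => ?_
      rw [psi_tf, psi_tf]
      push_cast; ring
  have hB1 : ∑ p : Fin m × Bool, q p.1 / 2 * vnEntropy (gadMap γ ν (psi (z p.1) (if p.2 then 1 else -1))) =
      ∑ a, q a * fout γ ν (z a) := by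
    rw [Fintype.sum_prod_type]
    simp only [Fintype.sum_bool, if_true, Bool.false_eq_true, if_false]
    refine Finset.sum_congr rfl fun a _ => ?_
    rw [entropy_psi hγ hν (hzI a) (by norm_num), entropy_psi hγ hν (hzI a) (by norm_num)]
    ring
  have hA2 : ∑ p : Fin m × Bool, ((q p.1 * (if p.2 then z p.1 else x p.1) : ℝ) : ℂ) • Ψ (if p.2 then τ p.1 else σ p.1) =
      Ψ (block R false false) + Ψ (block R true true) := by
    rw [Fintype.sum_prod_type, hX, hZ, ← Finset.sum_add_distrib]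
    refine Finset.sum_congr rfl fun a _ => ?_
    simp only [Fintype.sum_bool, if_true, Bool.false_eq_true, if_false, Complex.ofReal_mul, mul_smul]
    rw [add_comm]
  have hB2 : ∑ p : Fin m × Bool, q p.1 * (if p.2 then z p.1 else x p.1) * vnEntropy (Ψ (if p.2 then τ p.1 else σ p.1)) =
      ∑ a, q a * (x a * vnEntropy (Ψ (σ a)) + z a * vnEntropy (Ψ (τ a))) := by
    rw [Fintype.sum_prod_type]
    refine Finset.sum_congr rfl fun a _ => ?_
    simp only [Fintype.sum_bool, if_true, Bool.false_eq_true, if_false]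
    ring
  rw [hA1, hB1, hA2, hB2]
  unfold holevoInfo
  rw [hout, qubitTensor_entropy γ ν hG]
  rw [htX, htZ] at up
  have hsum : ∑ a, q a * (x a * vnEntropy (Ψ (σ a)) + z a * vnEntropy (Ψ (τ a))) + ∑ a, q a * fout γ ν (z a) ≤
      ∑ a, q a * vnEntropy (qubitTensor (gadMap γ ν) Ψ (ρ a)) := by
    rw [← Finset.sum_add_distrib]
    refine Finset.sum_le_sum fun a _ => ?_
    rw [← mul_add]
    exact mul_le_mul_of_nonneg_left (low a).2.2.2 (hq a)
  linarith

omit [Nonempty d] in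
theorem add_min_upper [Nonempty d] (hΨ : IsChannel Ψ) {ρ : Matrix (Bool × d) (Bool × d) ℂ} (hρ : IsDensity ρ) :
    ∃ (ρ₁ : Matrix Bool Bool ℂ) (ρ₂ : Matrix d d ℂ), IsDensity ρ₁ ∧ IsDensity ρ₂ ∧
        vnEntropy (gadMap γ ν ρ₁) + vnEntropy (Ψ ρ₂) ≤ vnEntropy (qubitTensor (gadMap γ ν) Ψ ρ) := by
  obtain ⟨σ, hσ, hσe⟩ := exists_density_scale (block_psd hρ.1 false)
  obtain ⟨τ, hτ, hτe⟩ := exists_density_scale (block_psd hρ.1 true)
  have low := tensor_lower hγ hν hΨ hρ hσ hτ rfl rfl hσe hτe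
  set x := (block ρ false false).trace.re
  set z := (block ρ true true).trace.re
  obtain ⟨hx0, hz0, hxz, hlow⟩ := low
  have hzI : z ∈ Set.Icc (0 : ℝ) 1 := ⟨hz0, by linarith⟩
  have hfz : vnEntropy (gadMap γ ν (psi z 1)) = fout γ ν z := entropy_psi hγ hν hzI (by norm_num)
  rcases le_total (vnEntropy (Ψ σ)) (vnEntropy (Ψ τ)) with h | h
  · refine ⟨psi z 1, σ, psi_density hzI (by norm_num), hσ, ?_⟩
    rw [hfz]
    have : z * vnEntropy (Ψ σ) ≤ z * vnEntropy (Ψ τ) := mul_le_mul_of_nonneg_left h hz0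
    have e : vnEntropy (Ψ σ) = x * vnEntropy (Ψ σ) + z * vnEntropy (Ψ σ) := by rw [← add_mul, hxz, one_mul]
    linarith
  · refine ⟨psi z 1, τ, psi_density hzI (by norm_num), hτ, ?_⟩
    rw [hfz]
    have : x * vnEntropy (Ψ τ) ≤ x * vnEntropy (Ψ σ) := mul_le_mul_of_nonneg_left h hx0
    have e : vnEntropy (Ψ τ) = x * vnEntropy (Ψ τ) + z * vnEntropy (Ψ τ) := by rw [← add_mul, hxz, one_mul]
    linarith

omit [Nonempty d] hγ hν in
lemma qubitTensor_kronecker {Φ : Matrix Bool Bool ℂ → Matrix Bool Bool ℂ} (hΦ : IsLinearMap ℂ Φ)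
    (hΨ : IsLinearMap ℂ Ψ) (A : Matrix Bool Bool ℂ) (B : Matrix d d ℂ) :
    qubitTensor Φ Ψ (A ⊗ₖ B) = Φ A ⊗ₖ Ψ B := by
  have hA : Φ A = ∑ s' : Bool, ∑ t' : Bool, A s' t' • Φ (Matrix.single s' t' 1) := by
    have e : A = ∑ s' : Bool, ∑ t' : Bool, A s' t' • Matrix.single s' t' (1 : ℂ) := by
      ext s t
      cases s <;> cases t <;> simp [Matrix.single_apply]
    conv_lhs => rw [e]
    simp only [Fintype.sum_bool, hΦ.map_add, hΦ.map_smul]
  have hb : ∀ s t, block (A ⊗ₖ B) s t = A s t • B := fun s t => rfl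
  ext ⟨s, i⟩ ⟨t, j⟩
  rw [kronecker_apply, hA]
  simp only [qubitTensor, of_apply, hb, hΨ.map_smul, qubitCoeff, Matrix.sum_apply, Matrix.smul_apply, smul_eq_mul,
    Finset.sum_mul]
  refine Finset.sum_congr rfl fun s' _ => Finset.sum_congr rfl fun t' _ => by ring

omit [Nonempty d] in
theorem add_min_lower (hΨ : IsChannel Ψ) {ρ₁ : Matrix Bool Bool ℂ} {ρ₂ : Matrix d d ℂ} (h₁ : IsDensity ρ₁)
    (h₂ : IsDensity ρ₂) : IsDensity (ρ₁ ⊗ₖ ρ₂) ∧
      vnEntropy (qubitTensor (gadMap γ ν) Ψ (ρ₁ ⊗ₖ ρ₂)) = vnEntropy (gadMap γ ν ρ₁) + vnEntropy (Ψ ρ₂) := by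
  refine ⟨density_kronecker h₁ h₂, ?_⟩
  rw [qubitTensor_kronecker (gadMap_linear γ ν) hΨ.1, entropy_kronecker_density (gadMap_density hγ hν h₁)
    (channel_density hΨ h₂)]

omit [Nonempty d] in
theorem add_holevo_lower (hΨ : IsChannel Ψ) {m₁ : ℕ} {q₁ : Fin m₁ → ℝ} {ρ₁ : Fin m₁ → Matrix Bool Bool ℂ}
    {m₂ : ℕ} {q₂ : Fin m₂ → ℝ} {ρ₂ : Fin m₂ → Matrix d d ℂ} (hE₁ : IsEnsemble q₁ ρ₁) (hE₂ : IsEnsemble q₂ ρ₂) :
    ∃ (m : ℕ) (q : Fin m → ℝ) (ρ : Fin m → Matrix (Bool × d) (Bool × d) ℂ), IsEnsemble q ρ ∧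
        holevoInfo (gadMap γ ν) q₁ ρ₁ + holevoInfo Ψ q₂ ρ₂ ≤
          holevoInfo (qubitTensor (gadMap γ ν) Ψ) q ρ := by
  obtain ⟨hq₁, hs₁, hρ₁⟩ := hE₁
  obtain ⟨hq₂, hs₂, hρ₂⟩ := hE₂
  obtain ⟨m, q, ρ, hE, hH⟩ := exists_fin_ensemble (α := Fin m₁ × Fin m₂)
    (q := fun p => q₁ p.1 * q₂ p.2) (ρ := fun p => ρ₁ p.1 ⊗ₖ ρ₂ p.2)
    (fun p => mul_nonneg (hq₁ _) (hq₂ _))
    (by rw [Fintype.sum_prod_type]
        simp only [← Finset.mul_sum, hs₂, mul_one, hs₁])
    (fun p => density_kronecker (hρ₁ _) (hρ₂ _)) (qubitTensor (gadMap γ ν) Ψ)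
  refine ⟨m, q, ρ, hE, ?_⟩
  rw [hH]
  have hout : ∑ p : Fin m₁ × Fin m₂, ((q₁ p.1 * q₂ p.2 : ℝ) : ℂ) • qubitTensor (gadMap γ ν) Ψ (ρ₁ p.1 ⊗ₖ ρ₂ p.2) =
      (∑ a, (q₁ a : ℂ) • gadMap γ ν (ρ₁ a)) ⊗ₖ (∑ b, (q₂ b : ℂ) • Ψ (ρ₂ b)) := by
    ext ⟨s, i⟩ ⟨t, j⟩
    rw [kronecker_apply]
    simp only [Matrix.sum_apply, Matrix.smul_apply, smul_eq_mul, Finset.sum_mul_sum, Fintype.sum_prod_type,
      qubitTensor_kronecker (gadMap_linear γ ν) hΨ.1, kronecker_apply]
    refine Finset.sum_congr rfl fun a _ => Finset.sum_congr rfl fun b _ => by push_cast; ring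
  have hd₁ : IsDensity (∑ a, (q₁ a : ℂ) • gadMap γ ν (ρ₁ a)) :=
    density_avg hq₁ hs₁ fun a => gadMap_density hγ hν (hρ₁ a)
  have hd₂ : IsDensity (∑ b, (q₂ b : ℂ) • Ψ (ρ₂ b)) := density_avg hq₂ hs₂ fun b => channel_density hΨ (hρ₂ b)
  rw [hout, entropy_kronecker_density hd₁ hd₂]
  have hterm : ∑ p : Fin m₁ × Fin m₂, q₁ p.1 * q₂ p.2 * vnEntropy (qubitTensor (gadMap γ ν) Ψ (ρ₁ p.1 ⊗ₖ ρ₂ p.2)) =
      ∑ a, q₁ a * vnEntropy (gadMap γ ν (ρ₁ a)) + ∑ b, q₂ b * vnEntropy (Ψ (ρ₂ b)) := by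
    rw [Fintype.sum_prod_type]
    have e : ∀ a b, q₁ a * q₂ b * vnEntropy (qubitTensor (gadMap γ ν) Ψ (ρ₁ a ⊗ₖ ρ₂ b)) =
        q₂ b * (q₁ a * vnEntropy (gadMap γ ν (ρ₁ a))) + q₁ a * (q₂ b * vnEntropy (Ψ (ρ₂ b))) := by
      intro a b
      rw [(add_min_lower hγ hν hΨ (hρ₁ a) (hρ₂ b)).2]
      ring
    simp only [e, Finset.sum_add_distrib]
    congr 1
    · simp only [← Finset.sum_mul, hs₂, one_mul]
    · simp only [← Finset.mul_sum, ← Finset.sum_mul, hs₁, one_mul]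
  rw [hterm]
  unfold holevoInfo
  linarith

end

end Crest.Agent.GAD
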