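import Crest.Agent.S0534_P3
/-!
The three-block entropy inequality (amplitude damping case), integrated form.
-/
set_option autoImplicit false
set_option linter.unusedSimpArgs false
set_option linter.unusedSectionVars false
open Matrix MeasureTheory Filter Topology
open Set (Ioi)
open scoped ComplexOrder
open Crest.Quantum

namespace Crest.Agent.GAD

section
variable {ι κ : Type*} [Fintype ι] [DecidableEq ι] [Fintype κ] [DecidableEq κ]

/-- scaling the two blocks -/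
lemma psd_scale {X Y Z : Matrix ι ι ℂ} (h : (fromBlocks X Y Yᴴ Z).PosSemidef) (p q : ℝ) :
    (fromBlocks (((p * p : ℝ) : ℂ) • X) (((p * q : ℝ) : ℂ) • Y) (((p * q : ℝ) : ℂ) • Yᴴ)
      (((q * q : ℝ) : ℂ) • Z)).PosSemidef := by
  have h1 := h.mul_mul_conjTranspose_same (fromBlocks ((p : ℂ) • (1 : Matrix ι ι ℂ)) 0 0 ((q : ℂ) • (1 : Matrix ι ι ℂ)))
  have e : fromBlocks ((p : ℂ) • (1 : Matrix ι ι ℂ)) 0 0 ((q : ℂ) • (1 : Matrix ι ι ℂ)) * fromBlocks X Y Yᴴ Z *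
      (fromBlocks ((p : ℂ) • (1 : Matrix ι ι ℂ)) 0 0 ((q : ℂ) • (1 : Matrix ι ι ℂ)))ᴴ =
      (fromBlocks (((p * p : ℝ) : ℂ) • X) (((p * q : ℝ) : ℂ) • Y) (((p * q : ℝ) : ℂ) • Yᴴ)
      (((q * q : ℝ) : ℂ) • Z)) := by
    rw [fromBlocks_conjTranspose, fromBlocks_multiply, fromBlocks_multiply]
    simp only [conjTranspose_smul, conjTranspose_one, conjTranspose_zero, Matrix.mul_zero, Matrix.zero_mul,
      add_zero, zero_add, Matrix.smul_mul, Matrix.mul_smul, Matrix.one_mul, Matrix.mul_one, smul_smul,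
      Complex.star_def, Complex.conj_ofReal]
    congr 1 <;> · congr 1; push_cast; ring
  rw [e] at h1
  exact h1

lemma psd_diag_blocks {X Z : Matrix ι ι ℂ} (hX : X.PosSemidef) (hZ : Z.PosSemidef) :
    (fromBlocks X 0 0 Z).PosSemidef := by
  rw [posSemidef_iff_dotProduct_mulVec]
  constructor
  · rw [IsHermitian, fromBlocks_conjTranspose, hX.1.eq, hZ.1.eq]; simp
  · intro v
    have e : v = Sum.elim (v ∘ Sum.inl) (v ∘ Sum.inr) := by
      funext i; rcases i with i | i <;> rfl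
    rw [e, fromBlocks_mulVec]
    simp only [Matrix.zero_mulVec, add_zero, zero_add]
    have e2 : star (Sum.elim (v ∘ Sum.inl) (v ∘ Sum.inr)) ⬝ᵥ Sum.elim (X *ᵥ (v ∘ Sum.inl)) (Z *ᵥ (v ∘ Sum.inr)) =
      star (v ∘ Sum.inl) ⬝ᵥ (X *ᵥ (v ∘ Sum.inl)) + star (v ∘ Sum.inr) ⬝ᵥ (Z *ᵥ (v ∘ Sum.inr)) := by
      simp [dotProduct, Fintype.sum_sum_type]
    simp only [Function.comp_def, Sum.elim_inl, Sum.elim_inr] at e2 ⊢
    rw [e2]
    exact add_nonneg (hX.dotProduct_mulVec_nonneg _) (hZ.dotProduct_mulVec_nonneg _)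

/-- the output of the damping map is PSD -/
lemma psd_P3 {X Y Z : Matrix ι ι ℂ} (h : (fromBlocks X Y Yᴴ Z).PosSemidef) {a b d : ℝ} (ha : 0 ≤ a) (hb : 0 ≤ b)
    (hd : 0 ≤ d) :
    (fromBlocks ((a : ℂ) • X + (b : ℂ) • Z) (((√(a * d) : ℝ) : ℂ) • Y)
      (((√(a * d) : ℝ) : ℂ) • Yᴴ) ((d : ℂ) • Z)).PosSemidef := by
  have h1 := psd_scale h (√a) (√d)
  rw [Real.mul_self_sqrt ha, Real.mul_self_sqrt hd, ← Real.sqrt_mul ha] at h1
  have hZ := posSemidef_toBlocks₂₂ h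
  have h2 : (fromBlocks ((b : ℂ) • Z) 0 0 (0 : Matrix ι ι ℂ)).PosSemidef :=
    psd_diag_blocks (hZ.smul (by exact_mod_cast hb)) PosSemidef.zero
  have h3 := h1.add h2
  rw [fromBlocks_add] at h3
  simpa using h3

lemma psd_re_diag {N : Matrix ι ι ℂ} (h : N.PosSemidef) (i : ι) : 0 ≤ (N i i).re :=
  (Complex.le_def.1 (h.diag_nonneg (i := i))).1

lemma trace_re_sum (N : Matrix ι ι ℂ) : N.trace.re = ∑ i, (N i i).re := by
  simp [trace]

lemma psd_trace_nonneg {N : Matrix ι ι ℂ} (h : N.PosSemidef) : 0 ≤ N.trace.re := by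
  rw [trace_re_sum]
  exact Finset.sum_nonneg fun i _ => psd_re_diag h i

theorem P3_diag (x : ι → ℝ) (hx : ∀ i, 0 ≤ x i) (Y Z : Matrix ι ι ℂ)
    (hτ : (fromBlocks (diagonal (fun i => (x i : ℂ))) Y Yᴴ Z).PosSemidef) {a b d : ℝ} (ha : 0 ≤ a) (hb : 0 ≤ b)
    (hd : 0 ≤ d) :
    vnEntropy ((a : ℂ) • diagonal (fun i => (x i : ℂ))) + vnEntropy ((b : ℂ) • Z) + vnEntropy ((d : ℂ) • Z) +
      (Jf (a * ∑ i, x i) (b * Z.trace.re) (d * Z.trace.re) - Real.negMulLog (a * ∑ i, x i)) ≤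
    vnEntropy (fromBlocks ((a : ℂ) • diagonal (fun i => (x i : ℂ)) + (b : ℂ) • Z) (((√(a * d) : ℝ) : ℂ) • Y)
      (((√(a * d) : ℝ) : ℂ) • Yᴴ) ((d : ℂ) • Z)) := by
  obtain ⟨V0, V1, hY, hZ⟩ := exists_factor x hx Y Z hτ
  have hZpsd := posSemidef_toBlocks₂₂ hτ
  have hbZ : ((b : ℂ) • Z).PosSemidef := hZpsd.smul (by exact_mod_cast hb)
  have hdZ : ((d : ℂ) • Z).PosSemidef := hZpsd.smul (by exact_mod_cast hd)
  have hN := psd_P3 hτ ha hb hd
  set N := fromBlocks ((a : ℂ) • diagonal (fun i => (x i : ℂ)) + (b : ℂ) • Z) (((√(a * d) : ℝ) : ℂ) • Y)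
      (((√(a * d) : ℝ) : ℂ) • Yᴴ) ((d : ℂ) • Z) with hNdef
  have hWpsd : (V0ᴴ * V0).PosSemidef := posSemidef_conjTranspose_mul_self V0
  set w : ι → ℝ := fun i => ((V0ᴴ * V0) i i).re with hw
  have hw0 : ∀ i, 0 ≤ w i := fun i => psd_re_diag hWpsd i
  set z : ι → ℝ := fun i => (Z i i).re with hz
  have hz0 : ∀ i, 0 ≤ z i := fun i => psd_re_diag hZpsd i
  have htrZ : Z.trace.re = ∑ i, z i := trace_re_sum Z
  have htrN : N.trace.re = a * ∑ i, x i + b * Z.trace.re + d * Z.trace.re := by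
    have e : N.trace = ((a : ℂ) • diagonal (fun i => (x i : ℂ)) + (b : ℂ) • Z).trace + ((d : ℂ) • Z).trace := by
      rw [hNdef]
      simp only [trace, diag_apply, Fintype.sum_sum_type, fromBlocks_apply₁₁, fromBlocks_apply₂₂]
    rw [e, trace_add, trace_smul, trace_smul, trace_smul]
    simp only [Complex.add_re, smul_eq_mul, Complex.re_ofReal_mul, trace_diagonal, Complex.re_sum, Complex.ofReal_re]
  have htrb : ((b : ℂ) • Z).trace.re = b * Z.trace.re := by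
    rw [trace_smul, smul_eq_mul, Complex.re_ofReal_mul]
  have htrd : ((d : ℂ) • Z).trace.re = d * Z.trace.re := by
    rw [trace_smul, smul_eq_mul, Complex.re_ofReal_mul]
  have hax : ∀ i, 0 ≤ a * x i := fun i => mul_nonneg ha (hx i)
  have hbz : ∀ i, 0 ≤ b * z i := fun i => mul_nonneg hb (hz0 i)
  have hdw : ∀ i, 0 ≤ d * w i := fun i => mul_nonneg hd (hw0 i)
  have ij : ∀ i ∈ (Finset.univ : Finset ι), Integrable (jfun (a * x i) (b * z i) (d * w i)) (volume.restrict (Ioi 0)) :=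
    fun i _ => integrable_jfun (hax i) (hbz i) (hdw i)
  have i2 : Integrable (fun t => (LD ((b : ℂ) • Z) t - ((b : ℂ) • Z).trace.re * Real.log (1 + 1 / t)) +
      (LD ((d : ℂ) • Z) t - ((d : ℂ) • Z).trace.re * Real.log (1 + 1 / t))) (volume.restrict (Ioi 0)) :=
    (integrable_entropy hbZ).add (integrable_entropy hdZ)
  have step : vnEntropy ((b : ℂ) • Z) + vnEntropy ((d : ℂ) • Z) + ∑ i, Jf (a * x i) (b * z i) (d * w i) ≤ vnEntropy N := by
    rw [entropy_integral hbZ, entropy_integral hdZ, entropy_integral hN,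
      ← Finset.sum_congr rfl fun i _ => integral_jfun (hax i) (hbz i) (hdw i),
      ← integral_finsetSum _ ij, ← integral_add (integrable_entropy hbZ) (integrable_entropy hdZ),
      ← integral_add i2 (integrable_finsetSum _ ij)]
    refine setIntegral_mono_on (i2.add (integrable_finsetSum _ ij))
      (integrable_entropy hN) measurableSet_Ioi ?_
    intro t ht
    have ht' : 0 < t := ht
    have key := stepA_log x hx V0 V1 ha hb hd ht' Y Z hY hZ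
    rw [← hNdef] at key
    simp only [jfun]
    rw [Finset.sum_sub_distrib, ← Finset.sum_mul, ← Finset.mul_sum, htrN, htrb, htrd]
    have e : ∀ i, a * x i / t / ((1 + b * z i / t) * (1 + d * w i / t)) =
      (a * x i / t) / ((1 + (b * (Z i i).re) / t) * (1 + (d * ((V0ᴴ * V0) i i).re) / t)) := fun i => rfl
    rw [Finset.sum_congr rfl fun i _ => by rw [e i]]
    linarith
  have jens := Jf_jensen (fun i => a * x i) (fun i => b * z i) (fun i => d * w i) hax hbz hdw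
  have hwz : ∑ i, w i ≤ ∑ i, z i := by
    have h1 : (V0ᴴ * V0).trace.re = ∑ i, w i := trace_re_sum _
    have h2 : Z.trace.re = (V0 * V0ᴴ).trace.re + (V1 * V1ᴴ).trace.re := by
      rw [hZ, trace_add, Complex.add_re]
    have h3 : (V0ᴴ * V0).trace = (V0 * V0ᴴ).trace := trace_mul_comm _ _
    have h4 := psd_trace_nonneg (posSemidef_self_mul_conjTranspose V1)
    rw [← h1, ← htrZ, h2, h3]
    linarith
  have anti := Jf_anti (x := a * ∑ i, x i) (y := b * ∑ i, z i) (z := d * ∑ i, w i) (z' := d * ∑ i, z i)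
    (mul_nonneg ha (Finset.sum_nonneg fun i _ => hx i)) (mul_nonneg hb (Finset.sum_nonneg fun i _ => hz0 i))
    (mul_nonneg hd (Finset.sum_nonneg fun i _ => hw0 i)) (mul_le_mul_of_nonneg_left hwz hd)
  have hSX : vnEntropy ((a : ℂ) • diagonal (fun i => (x i : ℂ))) = ∑ i, Real.negMulLog (a * x i) := by
    have e : (a : ℂ) • diagonal (fun i => (x i : ℂ)) = diagonal (fun i => ((a * x i : ℝ) : ℂ)) := by
      rw [← diagonal_smul]
      congr 1
      funext i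
      simp
    rw [e, entropy_diagonal _ hax]
  simp only [← Finset.mul_sum] at jens
  rw [Finset.sum_sub_distrib] at jens
  rw [hSX, htrZ]
  linarith

/-- conjugation of a block matrix by `W ⊕ W` -/
lemma fromBlocks_conj (W X Y Y' Z : Matrix ι ι ℂ) :
    fromBlocks W 0 0 W * fromBlocks X Y Y' Z * (fromBlocks W 0 0 W)ᴴ =
      fromBlocks (W * X * Wᴴ) (W * Y * Wᴴ) (W * Y' * Wᴴ) (W * Z * Wᴴ) := by
  rw [fromBlocks_conjTranspose, fromBlocks_multiply, fromBlocks_multiply]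
  simp only [conjTranspose_zero, Matrix.mul_zero, Matrix.zero_mul, add_zero, zero_add]

lemma fromBlocks_unitary {W : Matrix ι ι ℂ} (hW : W * Wᴴ = 1) :
    fromBlocks W 0 0 W * (fromBlocks W 0 0 W)ᴴ = 1 := by
  rw [fromBlocks_conjTranspose, fromBlocks_multiply]
  simp only [conjTranspose_zero, Matrix.mul_zero, Matrix.zero_mul, add_zero, zero_add, hW, fromBlocks_one]

theorem P3 {X Y Z : Matrix ι ι ℂ} (hτ : (fromBlocks X Y Yᴴ Z).PosSemidef) {a b d : ℝ} (ha : 0 ≤ a) (hb : 0 ≤ b)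
    (hd : 0 ≤ d) :
    vnEntropy ((a : ℂ) • X) + vnEntropy ((b : ℂ) • Z) + vnEntropy ((d : ℂ) • Z) +
      (Jf (a * X.trace.re) (b * Z.trace.re) (d * Z.trace.re) - Real.negMulLog (a * X.trace.re)) ≤
    vnEntropy (fromBlocks ((a : ℂ) • X + (b : ℂ) • Z) (((√(a * d) : ℝ) : ℂ) • Y)
      (((√(a * d) : ℝ) : ℂ) • Yᴴ) ((d : ℂ) • Z)) := by
  have hX := posSemidef_toBlocks₁₁ hτ
  have hZ := posSemidef_toBlocks₂₂ hτ
  have hs := hX.1.spectral_theorem
  rw [Unitary.conjStarAlgAut_apply] at hs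
  set U := (hX.1.eigenvectorUnitary : Matrix ι ι ℂ) with hU
  have hUU : U * Uᴴ = 1 := Unitary.coe_mul_star_self hX.1.eigenvectorUnitary
  have hUU' : Uᴴ * U = 1 := Unitary.coe_star_mul_self hX.1.eigenvectorUnitary
  set x := hX.1.eigenvalues with hx
  have hx0 : ∀ i, 0 ≤ x i := hX.eigenvalues_nonneg
  have hdiag : Uᴴ * X * Uᴴᴴ = diagonal (fun i => (x i : ℂ)) := by
    rw [conjTranspose_conjTranspose]
    conv_lhs => rw [hs]
    rw [star_eq_conjTranspose]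
    calc Uᴴ * (U * diagonal (RCLike.ofReal ∘ x) * Uᴴ) * U = (Uᴴ * U) * diagonal (RCLike.ofReal ∘ x) * (Uᴴ * U) := by
          simp only [Matrix.mul_assoc]
      _ = _ := by rw [hUU', Matrix.one_mul, Matrix.mul_one]; rfl
  have hWW : Uᴴ * Uᴴᴴ = 1 := by rw [conjTranspose_conjTranspose]; exact hUU'
  have hτ' : (fromBlocks (diagonal (fun i => (x i : ℂ))) (Uᴴ * Y * Uᴴᴴ) (Uᴴ * Y * Uᴴᴴ)ᴴ (Uᴴ * Z * Uᴴᴴ)).PosSemidef := by
    have := hτ.mul_mul_conjTranspose_same (fromBlocks Uᴴ 0 0 Uᴴ)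
    rw [fromBlocks_conj, hdiag] at this
    have e : (Uᴴ * Y * Uᴴᴴ)ᴴ = Uᴴ * Yᴴ * Uᴴᴴ := by
      rw [conjTranspose_mul, conjTranspose_mul, conjTranspose_conjTranspose, Matrix.mul_assoc]
    rw [e]
    exact this
  have key := P3_diag x hx0 _ _ hτ' ha hb hd
  have htrZ : (Uᴴ * Z * Uᴴᴴ).trace.re = Z.trace.re := by
    rw [trace_mul_comm, ← Matrix.mul_assoc, mul_eq_one_comm.1 hWW, Matrix.one_mul]
  have htrX : ∑ i, x i = X.trace.re := (trace_re_eq hX.1).symm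
  have eZ : ∀ c : ℝ, (c : ℂ) • (Uᴴ * Z * Uᴴᴴ) = Uᴴ * ((c : ℂ) • Z) * Uᴴᴴ := by
    intro c; rw [Matrix.mul_smul, Matrix.smul_mul]
  have eX : (a : ℂ) • diagonal (fun i => (x i : ℂ)) = Uᴴ * ((a : ℂ) • X) * Uᴴᴴ := by
    rw [← hdiag, Matrix.mul_smul, Matrix.smul_mul]
  have hNpsd := psd_P3 hτ ha hb hd
  have eN : fromBlocks ((a : ℂ) • diagonal (fun i => (x i : ℂ)) + (b : ℂ) • (Uᴴ * Z * Uᴴᴴ))
      (((√(a * d) : ℝ) : ℂ) • (Uᴴ * Y * Uᴴᴴ))
      (((√(a * d) : ℝ) : ℂ) • (Uᴴ * Y * Uᴴᴴ)ᴴ) ((d : ℂ) • (Uᴴ * Z * Uᴴᴴ)) =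
      fromBlocks Uᴴ 0 0 Uᴴ * (fromBlocks ((a : ℂ) • X + (b : ℂ) • Z) (((√(a * d) : ℝ) : ℂ) • Y)
      (((√(a * d) : ℝ) : ℂ) • Yᴴ) ((d : ℂ) • Z)) * (fromBlocks Uᴴ 0 0 Uᴴ)ᴴ := by
    rw [fromBlocks_conj]
    have e : (Uᴴ * Y * Uᴴᴴ)ᴴ = Uᴴ * Yᴴ * Uᴴᴴ := by
      rw [conjTranspose_mul, conjTranspose_mul, conjTranspose_conjTranspose, Matrix.mul_assoc]
    rw [eX, eZ, eZ, e]
    congr 1
    · rw [Matrix.mul_add, Matrix.add_mul]
    · rw [Matrix.mul_smul, Matrix.smul_mul]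
    · rw [Matrix.mul_smul, Matrix.smul_mul]
  have haX : ((a : ℂ) • X).PosSemidef := hX.smul (by exact_mod_cast ha)
  have hbZ : ((b : ℂ) • Z).PosSemidef := hZ.smul (by exact_mod_cast hb)
  have hdZ : ((d : ℂ) • Z).PosSemidef := hZ.smul (by exact_mod_cast hd)
  rw [eN, eX, eZ, eZ, entropy_unitary hNpsd (fromBlocks_unitary hWW), entropy_unitary haX hWW,
    entropy_unitary hbZ hWW, entropy_unitary hdZ hWW, htrZ, htrX] at key
  exact key

end

end Crest.Agent.GAD
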