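import Crest.Agent.S0534_Star
import Crest.Prelude.Def_QChannel
import Crest.Prelude.Def_AmpDamp
/-!
Channel bookkeeping for the generalized amplitude damping channel.
-/
set_option autoImplicit false
set_option linter.unusedSimpArgs false
set_option linter.unusedSectionVars false
open Matrix
open scoped ComplexOrder Kronecker
open Crest.Quantum Crest.MathPhysics.AmpDamp

namespace Crest.Agent.GAD

section kron
variable {ι κ : Type*} [Fintype ι] [DecidableEq ι] [Fintype κ] [DecidableEq κ]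

lemma entropy_kronecker {A : Matrix ι ι ℂ} {B : Matrix κ κ ℂ} (hA : A.PosSemidef) (hB : B.PosSemidef) :
    vnEntropy (A ⊗ₖ B) = B.trace.re * vnEntropy A + A.trace.re * vnEntropy B := by
  have hsA := hA.1.spectral_theorem
  have hsB := hB.1.spectral_theorem
  rw [Unitary.conjStarAlgAut_apply, star_eq_conjTranspose] at hsA hsB
  have hUA : (hA.1.eigenvectorUnitary : Matrix ι ι ℂ) * (hA.1.eigenvectorUnitary : Matrix ι ι ℂ)ᴴ = 1 :=
    Unitary.coe_mul_star_self hA.1.eigenvectorUnitary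
  have hUB : (hB.1.eigenvectorUnitary : Matrix κ κ ℂ) * (hB.1.eigenvectorUnitary : Matrix κ κ ℂ)ᴴ = 1 :=
    Unitary.coe_mul_star_self hB.1.eigenvectorUnitary
  have e : A ⊗ₖ B = ((hA.1.eigenvectorUnitary : Matrix ι ι ℂ) ⊗ₖ (hB.1.eigenvectorUnitary : Matrix κ κ ℂ)) *
      diagonal (fun p : ι × κ => ((hA.1.eigenvalues p.1 * hB.1.eigenvalues p.2 : ℝ) : ℂ)) *
      ((hA.1.eigenvectorUnitary : Matrix ι ι ℂ) ⊗ₖ (hB.1.eigenvectorUnitary : Matrix κ κ ℂ))ᴴ := by
    conv_lhs => rw [hsA, hsB]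
    rw [mul_kronecker_mul, mul_kronecker_mul, conjTranspose_kronecker, diagonal_kronecker_diagonal]
    congr 3
    funext p
    simp
  have hμ : ∀ p : ι × κ, 0 ≤ hA.1.eigenvalues p.1 * hB.1.eigenvalues p.2 := fun p =>
    mul_nonneg (hA.eigenvalues_nonneg _) (hB.eigenvalues_nonneg _)
  have hD : (diagonal (fun p : ι × κ => ((hA.1.eigenvalues p.1 * hB.1.eigenvalues p.2 : ℝ) : ℂ))).PosSemidef := by
    apply PosSemidef.diagonal
    intro p
    show (0 : ℂ) ≤ ((hA.1.eigenvalues p.1 * hB.1.eigenvalues p.2 : ℝ) : ℂ)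
    exact_mod_cast hμ p
  rw [e, entropy_unitary hD, entropy_diagonal _ hμ, vnEntropy_eq_sum hA.1, vnEntropy_eq_sum hB.1,
    trace_re_eq hA.1, trace_re_eq hB.1, Fintype.sum_prod_type]
  · have h1 : ∀ i j, Real.negMulLog (hA.1.eigenvalues i * hB.1.eigenvalues j) =
        hB.1.eigenvalues j * Real.negMulLog (hA.1.eigenvalues i) +
        hA.1.eigenvalues i * Real.negMulLog (hB.1.eigenvalues j) := fun i j => Real.negMulLog_mul _ _
    simp only [h1, Finset.sum_add_distrib, ← Finset.sum_mul, ← Finset.mul_sum]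
  · rw [conjTranspose_kronecker, ← mul_kronecker_mul, hUA, hUB, one_kronecker_one]

lemma density_kronecker {A : Matrix ι ι ℂ} {B : Matrix κ κ ℂ} (hA : IsDensity A) (hB : IsDensity B) :
    IsDensity (A ⊗ₖ B) :=
  ⟨hA.1.kronecker hB.1, by rw [trace_kronecker, hA.2, hB.2, one_mul]⟩

lemma entropy_kronecker_density {A : Matrix ι ι ℂ} {B : Matrix κ κ ℂ} (hA : IsDensity A) (hB : IsDensity B) :
    vnEntropy (A ⊗ₖ B) = vnEntropy A + vnEntropy B := by
  rw [entropy_kronecker hA.1 hB.1, hA.2, hB.2]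
  simp

end kron

section chan
variable {d e : Type*} [Fintype d] [Fintype e] [DecidableEq d] [DecidableEq e]

/-- complete positivity with an arbitrary finite spectator -/
lemma cp_any {Ψ : Matrix d d ℂ → Matrix e e ℂ} (hΨ : IsCompletelyPositive Ψ) {K : Type*} [Fintype K]
    {M : Matrix (K × d) (K × d) ℂ} (hM : M.PosSemidef) : (blockwise (k := K) Ψ M).PosSemidef := by
  classical
  set f := Fintype.equivFin K with hf
  have h1 : (M.submatrix (Prod.map f.symm id : Fin (Fintype.card K) × d → K × d)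
      (Prod.map f.symm id)).PosSemidef := hM.submatrix _
  have h2 := (hΨ _ _ h1).submatrix (Prod.map f id : K × e → Fin (Fintype.card K) × e)
  have e1 : (blockwise (k := Fin (Fintype.card K)) Ψ (M.submatrix (Prod.map f.symm id) (Prod.map f.symm id))).submatrix
      (Prod.map f id : K × e → Fin (Fintype.card K) × e) (Prod.map f id) = blockwise (k := K) Ψ M := by
    ext ⟨s, i⟩ ⟨t, j⟩
    simp only [submatrix_apply, blockwise, of_apply, Prod.map_apply, id_eq]
    have : block (M.submatrix (Prod.map f.symm id) (Prod.map f.symm id)) (f s) (f t) = block M s t := by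
      ext i j
      simp [block]
    rw [this]
  rw [e1] at h2
  exact h2

/-- the four output blocks of `id ⊗ Ψ` -/
noncomputable def blk (Ψ : Matrix d d ℂ → Matrix e e ℂ) (M : Matrix (Bool × d) (Bool × d) ℂ) :
    Matrix (e ⊕ e) (e ⊕ e) ℂ :=
  fromBlocks (Ψ (block M false false)) (Ψ (block M false true)) (Ψ (block M true false)) (Ψ (block M true true))

lemma blk_psd {Ψ : Matrix d d ℂ → Matrix e e ℂ} (hΨ : IsCompletelyPositive Ψ) {M : Matrix (Bool × d) (Bool × d) ℂ}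
    (hM : M.PosSemidef) : (blk Ψ M).PosSemidef := by
  have h := (cp_any hΨ hM).submatrix (Equiv.boolProdEquivSum e).symm
  have e1 : (blockwise (k := Bool) Ψ M).submatrix (Equiv.boolProdEquivSum e).symm (Equiv.boolProdEquivSum e).symm =
      blk Ψ M := by
    ext i j
    rcases i with i | i <;> rcases j with j | j <;> rfl
  rw [e1] at h
  exact h

lemma blk_offdiag {Ψ : Matrix d d ℂ → Matrix e e ℂ} (hΨ : IsCompletelyPositive Ψ) {M : Matrix (Bool × d) (Bool × d) ℂ}
    (hM : M.PosSemidef) : Ψ (block M true false) = (Ψ (block M false true))ᴴ := by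
  have h := (blk_psd hΨ hM).1
  unfold blk at h
  exact (isHermitian_fromBlocks_iff.1 h).2.1.symm

/-- the four coefficients -/
noncomputable def ca (γ ν : ℝ) : ℝ := 1 - γ * ν
noncomputable def cb (γ ν : ℝ) : ℝ := γ * (1 - ν)
noncomputable def cc (γ ν : ℝ) : ℝ := γ * ν
noncomputable def cd (γ ν : ℝ) : ℝ := 1 - γ + γ * ν

section coeff
variable {γ ν : ℝ} (hγ : γ ∈ Set.Icc (0 : ℝ) 1) (hν : ν ∈ Set.Icc (0 : ℝ) 1)
include hγ hν
lemma ca_nonneg : 0 ≤ ca γ ν := by
  unfold ca; nlinarith [hγ.1, hγ.2, hν.1, hν.2, mul_nonneg hγ.1 hν.1, mul_le_one₀ hγ.2 hν.1 hν.2]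
lemma cb_nonneg : 0 ≤ cb γ ν := mul_nonneg hγ.1 (by linarith [hν.2])
lemma cc_nonneg : 0 ≤ cc γ ν := mul_nonneg hγ.1 hν.1
lemma cd_nonneg : 0 ≤ cd γ ν := by
  unfold cd
  have := mul_nonneg hγ.1 hν.1
  linarith [hγ.2]
end coeff

lemma ca_cc (γ ν : ℝ) : ca γ ν + cc γ ν = 1 := by unfold ca cc; ring
lemma cb_cd (γ ν : ℝ) : cb γ ν + cd γ ν = 1 := by unfold cb cd; ring
lemma c_det (γ ν : ℝ) : ca γ ν * cd γ ν - cb γ ν * cc γ ν = 1 - γ := by unfold ca cb cc cd; ring

/-- the product map in block form -/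
lemma qubitTensor_gad (γ ν : ℝ) (Ψ : Matrix d d ℂ → Matrix e e ℂ) (M : Matrix (Bool × d) (Bool × d) ℂ) :
    qubitTensor (gadMap γ ν) Ψ M = (gadBlocks (ca γ ν) (cb γ ν) (cc γ ν) (cd γ ν) (1 - γ)
      (Ψ (block M false false)) (Ψ (block M false true)) (Ψ (block M true false))
      (Ψ (block M true true))).submatrix (Equiv.boolProdEquivSum e) (Equiv.boolProdEquivSum e) := by
  ext ⟨s, i⟩ ⟨t, j⟩
  cases s <;> cases t <;>
    simp [qubitTensor, qubitCoeff, gadMap, gadBlocks, ca, cb, cc, cd, Matrix.single_apply] <;> ring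

lemma qubitTensor_entropy (γ ν : ℝ) {Ψ : Matrix d d ℂ → Matrix e e ℂ} {M : Matrix (Bool × d) (Bool × d) ℂ}
    (h : (gadBlocks (ca γ ν) (cb γ ν) (cc γ ν) (cd γ ν) (1 - γ)
      (Ψ (block M false false)) (Ψ (block M false true)) (Ψ (block M true false))
      (Ψ (block M true true))).PosSemidef) :
    vnEntropy (qubitTensor (gadMap γ ν) Ψ M) = vnEntropy (gadBlocks (ca γ ν) (cb γ ν) (cc γ ν) (cd γ ν) (1 - γ)
      (Ψ (block M false false)) (Ψ (block M false true)) (Ψ (block M true false))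
      (Ψ (block M true true))) := by
  rw [qubitTensor_gad, entropy_submatrix h]

lemma trace_fromBlocks' {ι : Type*} [Fintype ι] (A B C D : Matrix ι ι ℂ) :
    (fromBlocks A B C D).trace = A.trace + D.trace := by
  simp only [trace, diag_apply, Fintype.sum_sum_type, fromBlocks_apply₁₁, fromBlocks_apply₂₂]

lemma trace_submatrix_equiv {ι κ : Type*} [Fintype ι] [Fintype κ] (N : Matrix ι ι ℂ) (f : κ ≃ ι) :
    (N.submatrix f f).trace = N.trace := by
  simp only [trace, diag_apply, submatrix_apply]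
  rw [Equiv.sum_comp f (fun i => N i i)]

lemma trace_gadBlocks {ι : Type*} [Fintype ι] [DecidableEq ι] {a b c d l : ℝ} (hac : a + c = 1) (hbd : b + d = 1)
    (X Y Y' Z : Matrix ι ι ℂ) : (gadBlocks a b c d l X Y Y' Z).trace = X.trace + Z.trace := by
  unfold gadBlocks
  rw [trace_fromBlocks', trace_add, trace_add, trace_smul, trace_smul, trace_smul, trace_smul]
  simp only [smul_eq_mul]
  have h1 : (a : ℂ) + c = 1 := by exact_mod_cast hac
  have h2 : (b : ℂ) + d = 1 := by exact_mod_cast hbd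
  linear_combination X.trace * h1 + Z.trace * h2

lemma trace_blocks (M : Matrix (Bool × d) (Bool × d) ℂ) :
    (block M false false).trace + (block M true true).trace = M.trace := by
  simp only [trace, diag_apply, block, of_apply, Fintype.sum_prod_type, Fintype.sum_bool]
  rw [add_comm]

lemma gad_psd {γ ν : ℝ} (hγ : γ ∈ Set.Icc (0 : ℝ) 1) (hν : ν ∈ Set.Icc (0 : ℝ) 1) {ι : Type*} [Fintype ι]
    [DecidableEq ι] {X Y Y' Z : Matrix ι ι ℂ} (h : (fromBlocks X Y Y' Z).PosSemidef) :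
    (gadBlocks (ca γ ν) (cb γ ν) (cc γ ν) (cd γ ν) (1 - γ) X Y Y' Z).PosSemidef := by
  have hY : Y' = Yᴴ := (isHermitian_fromBlocks_iff.1 h.1).2.1.symm
  subst hY
  exact (gad_star h (ca_nonneg hγ hν) (cb_nonneg hγ hν) (cc_nonneg hγ hν) (cd_nonneg hγ hν)
    (by linarith [hγ.2]) (ca_cc γ ν) (cb_cd γ ν) (c_det γ ν)).1

lemma gad_lower {γ ν : ℝ} (hγ : γ ∈ Set.Icc (0 : ℝ) 1) (hν : ν ∈ Set.Icc (0 : ℝ) 1) {ι : Type*} [Fintype ι]
    [DecidableEq ι] {X Y Y' Z : Matrix ι ι ℂ} (h : (fromBlocks X Y Y' Z).PosSemidef) :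
    (vnEntropy X - Real.negMulLog X.trace.re) + (vnEntropy Z - Real.negMulLog Z.trace.re) +
      ent2 (X.trace.re + Z.trace.re) (vdet (ca γ ν) (cb γ ν) (cc γ ν) (cd γ ν) X.trace.re Z.trace.re) ≤
    vnEntropy (gadBlocks (ca γ ν) (cb γ ν) (cc γ ν) (cd γ ν) (1 - γ) X Y Y' Z) := by
  have hY : Y' = Yᴴ := (isHermitian_fromBlocks_iff.1 h.1).2.1.symm
  subst hY
  exact (gad_star h (ca_nonneg hγ hν) (cb_nonneg hγ hν) (cc_nonneg hγ hν) (cd_nonneg hγ hν)
    (by linarith [hγ.2]) (ca_cc γ ν) (cb_cd γ ν) (c_det γ ν)).2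

lemma gad_upper {γ ν : ℝ} (hγ : γ ∈ Set.Icc (0 : ℝ) 1) (hν : ν ∈ Set.Icc (0 : ℝ) 1) {ι : Type*} [Fintype ι]
    [DecidableEq ι] {X Y Y' Z : Matrix ι ι ℂ} (h : (fromBlocks X Y Y' Z).PosSemidef) :
    vnEntropy (gadBlocks (ca γ ν) (cb γ ν) (cc γ ν) (cd γ ν) (1 - γ) X Y Y' Z) ≤ vnEntropy (X + Z) +
      H2 (ca γ ν * X.trace.re + cb γ ν * Z.trace.re) (cc γ ν * X.trace.re + cd γ ν * Z.trace.re) := by
  have hp := gad_psd hγ hν h
  have hY : Y' = Yᴴ := (isHermitian_fromBlocks_iff.1 h.1).2.1.symm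
  have e1 : gadBlocks (ca γ ν) (cb γ ν) (cc γ ν) (cd γ ν) (1 - γ) X Y Y' Z =
      fromBlocks ((ca γ ν : ℂ) • X + (cb γ ν : ℂ) • Z) (((√(1 - γ) : ℝ) : ℂ) • Y) (((√(1 - γ) : ℝ) : ℂ) • Y)ᴴ
        ((cc γ ν : ℂ) • X + (cd γ ν : ℂ) • Z) := by
    unfold gadBlocks
    rw [hY, conjTranspose_smul, Complex.star_def, Complex.conj_ofReal]
  rw [e1] at hp ⊢
  have key := entropy_sub hp
  have e2 : (ca γ ν : ℂ) • X + (cb γ ν : ℂ) • Z + ((cc γ ν : ℂ) • X + (cd γ ν : ℂ) • Z) = X + Z := by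
    have h1 : (ca γ ν : ℂ) + cc γ ν = 1 := by exact_mod_cast ca_cc γ ν
    have h2 : (cb γ ν : ℂ) + cd γ ν = 1 := by exact_mod_cast cb_cd γ ν
    calc _ = ((ca γ ν : ℂ) + cc γ ν) • X + ((cb γ ν : ℂ) + cd γ ν) • Z := by rw [add_smul, add_smul]; abel
      _ = _ := by rw [h1, h2, one_smul, one_smul]
  have e3 : ((ca γ ν : ℂ) • X + (cb γ ν : ℂ) • Z).trace.re = ca γ ν * X.trace.re + cb γ ν * Z.trace.re := by
    rw [trace_add, trace_smul, trace_smul]
    simp only [Complex.add_re, smul_eq_mul, Complex.re_ofReal_mul]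
  have e4 : ((cc γ ν : ℂ) • X + (cd γ ν : ℂ) • Z).trace.re = cc γ ν * X.trace.re + cd γ ν * Z.trace.re := by
    rw [trace_add, trace_smul, trace_smul]
    simp only [Complex.add_re, smul_eq_mul, Complex.re_ofReal_mul]
  rw [e2, e3, e4] at key
  exact key

/-- tensoring with the damping channel preserves channels -/
theorem isChannel_qubitTensor {γ ν : ℝ} (hγ : γ ∈ Set.Icc (0 : ℝ) 1) (hν : ν ∈ Set.Icc (0 : ℝ) 1)
    {Ψ : Matrix d d ℂ → Matrix e e ℂ} (hΨ : IsChannel Ψ) : IsChannel (qubitTensor (gadMap γ ν) Ψ) := by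
  obtain ⟨hlin, hcp, htp⟩ := hΨ
  refine ⟨⟨?_, ?_⟩, ?_, ?_⟩
  · intro M N
    have hb : ∀ s t, block (M + N) s t = block M s t + block N s t := fun s t => rfl
    ext p q
    simp only [qubitTensor, of_apply, Matrix.add_apply, hb, hlin.map_add, mul_add, Finset.sum_add_distrib]
  · intro c M
    have hb : ∀ s t, block (c • M) s t = c • block M s t := fun s t => rfl
    ext p q
    simp only [qubitTensor, of_apply, Matrix.smul_apply, hb, hlin.map_smul, smul_eq_mul, Finset.mul_sum]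
    refine Finset.sum_congr rfl fun s' _ => Finset.sum_congr rfl fun t' _ => by ring
  · intro k M hM
    -- reorder to `Bool × (Fin k × d)`
    set M' : Matrix ((Fin k × Bool) × d) ((Fin k × Bool) × d) ℂ :=
      M.submatrix (Equiv.prodAssoc (Fin k) Bool d) (Equiv.prodAssoc (Fin k) Bool d) with hM'
    have hN := cp_any hcp (hM.submatrix (Equiv.prodAssoc (Fin k) Bool d))
    rw [← hM'] at hN
    set g : (Fin k × e) ⊕ (Fin k × e) → (Fin k × Bool) × e :=
      Sum.elim (fun p => ((p.1, false), p.2)) (fun p => ((p.1, true), p.2)) with hg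
    have hN' := hN.submatrix g
    set N := blockwise (k := Fin k × Bool) Ψ M' with hNdef
    have e1 : N.submatrix g g = fromBlocks (N.submatrix (g ∘ Sum.inl) (g ∘ Sum.inl)) (N.submatrix (g ∘ Sum.inl) (g ∘ Sum.inr))
      (N.submatrix (g ∘ Sum.inr) (g ∘ Sum.inl)) (N.submatrix (g ∘ Sum.inr) (g ∘ Sum.inr)) := by
      ext i j
      rcases i with i | i <;> rcases j with j | j <;> rfl
    rw [e1] at hN'
    have hG := (gad_psd hγ hν hN').submatrix (fun p : Fin k × (Bool × e) =>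
      (Equiv.boolProdEquivSum (Fin k × e)) (p.2.1, (p.1, p.2.2)))
    convert hG using 1
    ext ⟨r, s, i⟩ ⟨r', t, j⟩
    have hb : ∀ s' t', block (block M r r') s' t' = block M' (r, s') (r', t') := fun s' t' => rfl
    have hq := congrFun (congrFun (qubitTensor_gad γ ν Ψ (block M r r')) (s, i)) (t, j)
    simp only [blockwise, of_apply, submatrix_apply]
    rw [hq]
    simp only [submatrix_apply, hb]
    cases s <;> cases t <;> rfl
  · intro M
    rw [qubitTensor_gad, trace_submatrix_equiv, trace_gadBlocks (ca_cc γ ν) (cb_cd γ ν), htp, htp, trace_blocks]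

end chan

end Crest.Agent.GAD
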