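import Crest.Agent.S0534_Block
/-!
Schur's lemma for the entropy, concavity and subadditivity; the inequality for the generalized
amplitude damping channel.
-/
set_option autoImplicit false
set_option linter.unusedSimpArgs false
set_option linter.unusedSectionVars false
open Matrix
open scoped ComplexOrder
open Crest.Quantum

namespace Crest.Agent.GAD

/-- two-point entropy functional `η p + η r - η (p + r)` -/
noncomputable def H2 (p r : ℝ) : ℝ := Real.negMulLog p + Real.negMulLog r - Real.negMulLog (p + r)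

lemma H2_zero_left (r : ℝ) : H2 0 r = 0 := by simp [H2]
lemma H2_zero_right (p : ℝ) : H2 p 0 = 0 := by simp [H2]

lemma H2_le {p r t1 t2 : ℝ} (hp : 0 ≤ p) (hr : 0 ≤ r) (h1 : 0 < t1) (h2 : 0 < t2) (h : t1 + t2 = 1) :
    H2 p r ≤ -(p * Real.log t1) - r * Real.log t2 := by
  have hc := Real.concaveOn_negMulLog.2 (x := p / t1) (by simp; positivity) (y := r / t2) (by simp; positivity)
    h1.le h2.le h
  simp only [smul_eq_mul] at hc
  rw [mul_div_cancel₀ _ h1.ne', mul_div_cancel₀ _ h2.ne'] at hc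
  have e : ∀ q t : ℝ, 0 ≤ q → 0 < t → t * Real.negMulLog (q / t) = Real.negMulLog q + q * Real.log t := by
    intro q t hq ht
    rcases eq_or_lt_of_le hq with h0 | hpos
    · rw [← h0]; simp
    · unfold Real.negMulLog
      rw [Real.log_div hpos.ne' ht.ne']
      field_simp
      ring
  rw [e p t1 hp h1, e r t2 hr h2] at hc
  unfold H2
  linarith

lemma H2_eq {p r : ℝ} (hp : 0 < p) (hr : 0 < r) :
    H2 p r = -(p * Real.log (p / (p + r))) - r * Real.log (r / (p + r)) := by
  unfold H2 Real.negMulLog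
  rw [Real.log_div hp.ne' (by positivity), Real.log_div hr.ne' (by positivity)]
  ring

lemma H2_super {ι : Type*} [Fintype ι] (p r : ι → ℝ) (hp : ∀ i, 0 ≤ p i) (hr : ∀ i, 0 ≤ r i) :
    ∑ i, H2 (p i) (r i) ≤ H2 (∑ i, p i) (∑ i, r i) := by
  have hP : 0 ≤ ∑ i, p i := Finset.sum_nonneg fun i _ => hp i
  have hR : 0 ≤ ∑ i, r i := Finset.sum_nonneg fun i _ => hr i
  rcases eq_or_lt_of_le hP with h0 | hP'
  · have : ∀ i, p i = 0 := fun i =>
      (Finset.sum_eq_zero_iff_of_nonneg (fun i _ => hp i)).1 h0.symm i (Finset.mem_univ i)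
    rw [← h0]
    simp [this, H2_zero_left]
  rcases eq_or_lt_of_le hR with h0 | hR'
  · have : ∀ i, r i = 0 := fun i =>
      (Finset.sum_eq_zero_iff_of_nonneg (fun i _ => hr i)).1 h0.symm i (Finset.mem_univ i)
    rw [← h0]
    simp [this, H2_zero_right]
  rw [H2_eq hP' hR']
  have hs : (∑ i, p i) / (∑ i, p i + ∑ i, r i) + (∑ i, r i) / (∑ i, p i + ∑ i, r i) = 1 := by
    rw [← add_div, div_self (by positivity)]
  refine (Finset.sum_le_sum fun i _ => H2_le (hp i) (hr i) (t1 := (∑ i, p i) / (∑ i, p i + ∑ i, r i))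
    (t2 := (∑ i, r i) / (∑ i, p i + ∑ i, r i)) (by positivity) (by positivity) hs).trans ?_
  rw [Finset.sum_sub_distrib, Finset.sum_neg_distrib, ← Finset.sum_mul, ← Finset.sum_mul]

section
variable {ι κ : Type*} [Fintype ι] [DecidableEq ι] [Fintype κ] [DecidableEq κ]

/-- Schur: the entropy is at most the entropy of the diagonal in any orthonormal basis. -/
lemma schur_entropy {N U : Matrix ι ι ℂ} (hN : N.PosSemidef) (hU : Uᴴ * U = 1) :
    vnEntropy N ≤ ∑ k, Real.negMulLog ((Uᴴ * N * U) k k).re := by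
  have hs := hN.1.spectral_theorem
  rw [Unitary.conjStarAlgAut_apply] at hs
  set V := (hN.1.eigenvectorUnitary : Matrix ι ι ℂ) with hV
  have hVV : V * Vᴴ = 1 := Unitary.coe_mul_star_self hN.1.eigenvectorUnitary
  have hVV' : Vᴴ * V = 1 := Unitary.coe_star_mul_self hN.1.eigenvectorUnitary
  have hUU' : U * Uᴴ = 1 := mul_eq_one_comm.1 hU
  set W := Uᴴ * V with hW
  have hWh : Wᴴ = Vᴴ * U := by rw [hW, conjTranspose_mul, conjTranspose_conjTranspose]
  have hWW : W * Wᴴ = 1 := by
    rw [hWh, hW]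
    calc Uᴴ * V * (Vᴴ * U) = Uᴴ * (V * Vᴴ) * U := by simp only [Matrix.mul_assoc]
      _ = 1 := by rw [hVV, Matrix.mul_one, hU]
  have hWW' : Wᴴ * W = 1 := mul_eq_one_comm.1 hWW
  have hNW : Uᴴ * N * U = W * diagonal (RCLike.ofReal ∘ hN.1.eigenvalues) * Wᴴ := by
    rw [hWh, hW]
    conv_lhs => rw [hs]
    rw [star_eq_conjTranspose]
    simp only [Matrix.mul_assoc]
  have key : ∀ (w : ℂ) (m : ℝ), (w * (m : ℂ) * star w).re = Complex.normSq w * m := by
    intro w m
    have : w * (m : ℂ) * star w = ((Complex.normSq w * m : ℝ) : ℂ) := by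
      rw [Complex.ofReal_mul, ← Complex.mul_conj, Complex.star_def]
      ring
    rw [this, Complex.ofReal_re]
  have hkk : ∀ k, ((Uᴴ * N * U) k k).re = ∑ j, Complex.normSq (W k j) * hN.1.eigenvalues j := by
    intro k
    rw [hNW, mul_apply, Complex.re_sum]
    refine Finset.sum_congr rfl fun j _ => ?_
    rw [mul_diagonal, conjTranspose_apply]
    exact key (W k j) (hN.1.eigenvalues j)
  have hrow : ∀ k, ∑ j, Complex.normSq (W k j) = 1 := by
    intro k
    have := congrFun (congrFun hWW k) k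
    rw [one_apply_eq, mul_apply] at this
    simp only [conjTranspose_apply, Complex.star_def, Complex.mul_conj] at this
    exact_mod_cast this
  have hcol : ∀ j, ∑ k, Complex.normSq (W k j) = 1 := by
    intro j
    have := congrFun (congrFun hWW' j) j
    rw [one_apply_eq, mul_apply] at this
    have e : ∀ k, Wᴴ j k * W k j = (Complex.normSq (W k j) : ℂ) := by
      intro k
      rw [conjTranspose_apply, Complex.star_def, mul_comm, Complex.mul_conj]
    rw [Finset.sum_congr rfl fun k _ => e k] at this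
    exact_mod_cast this
  have hj : ∀ k, ∑ j, Complex.normSq (W k j) * Real.negMulLog (hN.1.eigenvalues j) ≤
      Real.negMulLog ((Uᴴ * N * U) k k).re := by
    intro k
    rw [hkk]
    have := Real.concaveOn_negMulLog.le_map_sum (t := Finset.univ) (w := fun j => Complex.normSq (W k j))
      (p := hN.1.eigenvalues) (fun j _ => Complex.normSq_nonneg _) (hrow k)
      (fun j _ => Set.mem_Ici.2 (hN.eigenvalues_nonneg j))
    simpa only [smul_eq_mul] using this
  rw [vnEntropy_eq_sum hN.1]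
  calc ∑ j, Real.negMulLog (hN.1.eigenvalues j) = ∑ j, (∑ k, Complex.normSq (W k j)) * Real.negMulLog (hN.1.eigenvalues j) := by
        refine Finset.sum_congr rfl fun j _ => by rw [hcol, one_mul]
    _ = ∑ k, ∑ j, Complex.normSq (W k j) * Real.negMulLog (hN.1.eigenvalues j) := by
        rw [Finset.sum_comm]
        exact Finset.sum_congr rfl fun j _ => by rw [Finset.sum_mul]
    _ ≤ _ := Finset.sum_le_sum fun k _ => hj k

lemma diag_eigen {N : Matrix ι ι ℂ} (hN : N.IsHermitian) (k : ι) :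
    (((hN.eigenvectorUnitary : Matrix ι ι ℂ)ᴴ * N * (hN.eigenvectorUnitary : Matrix ι ι ℂ)) k k).re =
      hN.eigenvalues k := by
  have hs := hN.spectral_theorem
  rw [Unitary.conjStarAlgAut_apply] at hs
  set V := (hN.eigenvectorUnitary : Matrix ι ι ℂ) with hV
  have hVV' : Vᴴ * V = 1 := Unitary.coe_star_mul_self hN.eigenvectorUnitary
  have : Vᴴ * N * V = diagonal (RCLike.ofReal ∘ hN.eigenvalues) := by
    conv_lhs => rw [hs]
    rw [star_eq_conjTranspose]
    calc Vᴴ * (V * diagonal (RCLike.ofReal ∘ hN.eigenvalues) * Vᴴ) * V =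
      (Vᴴ * V) * diagonal (RCLike.ofReal ∘ hN.eigenvalues) * (Vᴴ * V) := by simp only [Matrix.mul_assoc]
      _ = _ := by rw [hVV', Matrix.one_mul, Matrix.mul_one]
  rw [this, diagonal_apply_eq]
  rfl

lemma psd_conj_diag {N : Matrix ι ι ℂ} (hN : N.PosSemidef) (U : Matrix ι ι ℂ) (k : ι) :
    0 ≤ ((Uᴴ * N * U) k k).re :=
  psd_re_diag (hN.conjTranspose_mul_mul_same U) k

lemma sum_conj_diag {N U : Matrix ι ι ℂ} (hU : U * Uᴴ = 1) :
    ∑ k, ((Uᴴ * N * U) k k).re = N.trace.re := by
  rw [← trace_re_sum, trace_mul_comm, ← Matrix.mul_assoc, hU, Matrix.one_mul]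

/-- concavity of entropy in homogeneous form -/
theorem entropy_super {M1 M2 : Matrix ι ι ℂ} (h1 : M1.PosSemidef) (h2 : M2.PosSemidef) :
    vnEntropy M1 - Real.negMulLog M1.trace.re + (vnEntropy M2 - Real.negMulLog M2.trace.re) ≤
      vnEntropy (M1 + M2) - Real.negMulLog (M1.trace.re + M2.trace.re) := by
  have h := h1.add h2
  set U := (h.1.eigenvectorUnitary : Matrix ι ι ℂ) with hU
  have hUU : U * Uᴴ = 1 := Unitary.coe_mul_star_self h.1.eigenvectorUnitary
  have hUU' : Uᴴ * U = 1 := Unitary.coe_star_mul_self h.1.eigenvectorUnitary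
  have s1 := schur_entropy h1 hUU'
  have s2 := schur_entropy h2 hUU'
  have sup := H2_super (fun k => ((Uᴴ * M1 * U) k k).re) (fun k => ((Uᴴ * M2 * U) k k).re)
    (fun k => psd_conj_diag h1 U k) (fun k => psd_conj_diag h2 U k)
  rw [sum_conj_diag hUU, sum_conj_diag hUU] at sup
  simp only [H2] at sup
  rw [Finset.sum_sub_distrib, Finset.sum_add_distrib] at sup
  have e : ∑ k, Real.negMulLog (((Uᴴ * M1 * U) k k).re + ((Uᴴ * M2 * U) k k).re) = vnEntropy (M1 + M2) := by
    rw [vnEntropy_eq_sum h.1]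
    refine Finset.sum_congr rfl fun k _ => ?_
    rw [← diag_eigen h.1 k, ← hU, Matrix.mul_add, Matrix.add_mul, Matrix.add_apply, Complex.add_re]
  rw [e] at sup
  linarith

/-- subadditivity for a two-block matrix -/
theorem entropy_sub {A B D : Matrix ι ι ℂ} (h : (fromBlocks A B Bᴴ D).PosSemidef) :
    vnEntropy (fromBlocks A B Bᴴ D) ≤ vnEntropy (A + D) + H2 A.trace.re D.trace.re := by
  have hA := posSemidef_toBlocks₁₁ h
  have hD := posSemidef_toBlocks₂₂ h
  have hAD := hA.add hD
  set W := (hAD.1.eigenvectorUnitary : Matrix ι ι ℂ) with hW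
  have hWW : W * Wᴴ = 1 := Unitary.coe_mul_star_self hAD.1.eigenvectorUnitary
  have hWW' : Wᴴ * W = 1 := Unitary.coe_star_mul_self hAD.1.eigenvectorUnitary
  have hU : (fromBlocks W 0 0 W)ᴴ * fromBlocks W 0 0 W = 1 := by
    rw [fromBlocks_conjTranspose, fromBlocks_multiply]
    simp only [conjTranspose_zero, Matrix.mul_zero, Matrix.zero_mul, add_zero, zero_add, hWW', fromBlocks_one]
  have s := schur_entropy h hU
  have e1 : (fromBlocks W 0 0 W)ᴴ * fromBlocks A B Bᴴ D * fromBlocks W 0 0 W =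
      fromBlocks (Wᴴ * A * W) (Wᴴ * B * W) (Wᴴ * Bᴴ * W) (Wᴴ * D * W) := by
    rw [fromBlocks_conjTranspose, fromBlocks_multiply, fromBlocks_multiply]
    simp only [conjTranspose_zero, Matrix.mul_zero, Matrix.zero_mul, add_zero, zero_add]
  rw [e1, Fintype.sum_sum_type] at s
  simp only [fromBlocks_apply₁₁, fromBlocks_apply₂₂] at s
  have sup := H2_super (fun k => ((Wᴴ * A * W) k k).re) (fun k => ((Wᴴ * D * W) k k).re)
    (fun k => psd_conj_diag hA W k) (fun k => psd_conj_diag hD W k)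
  rw [sum_conj_diag hWW, sum_conj_diag hWW] at sup
  have e : ∑ k, Real.negMulLog (((Wᴴ * A * W) k k).re + ((Wᴴ * D * W) k k).re) = vnEntropy (A + D) := by
    rw [vnEntropy_eq_sum hAD.1]
    refine Finset.sum_congr rfl fun k _ => ?_
    rw [← diag_eigen hAD.1 k, ← hW, Matrix.mul_add, Matrix.add_mul, Matrix.add_apply, Complex.add_re]
  have e2 : ∑ k, H2 ((Wᴴ * A * W) k k).re ((Wᴴ * D * W) k k).re =
      ∑ k, Real.negMulLog ((Wᴴ * A * W) k k).re + ∑ k, Real.negMulLog ((Wᴴ * D * W) k k).re - vnEntropy (A + D) := by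
    rw [← e, ← Finset.sum_add_distrib, ← Finset.sum_sub_distrib]
    rfl
  rw [e2] at sup
  linarith

end

end Crest.Agent.GAD
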