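import Mathlib
/-!
Determinant inequalities behind the additivity theorem for the generalized amplitude-damping channel.
-/
set_option autoImplicit false
set_option linter.unusedSimpArgs false
set_option linter.unusedSectionVars false
open Matrix
open scoped ComplexOrder

namespace Crest.Agent.GAD


lemma scalar_ineq (h Q u p κ : ℝ) (hh : 0 < h) (hQ : Q < h) (hu : 0 ≤ u) (huQ : u ≤ Q)
    (hp : u ^ 2 + p ^ 2 ≤ Q * u) :
    (h - Q) ^ 2 * (h ^ 2 + κ ^ 2) ≤ ((h - u) ^ 2 + (κ - p) ^ 2) * h ^ 2 := by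
  have hQ0 : 0 ≤ Q := le_trans hu huQ
  rcases eq_or_lt_of_le hQ0 with hQ0' | hQpos
  · have hu0 : u = 0 := le_antisymm (by rw [hQ0']; exact huQ) hu
    have hp0 : p = 0 := by
      have : p ^ 2 ≤ 0 := by nlinarith
      have := le_antisymm this (sq_nonneg p)
      exact pow_eq_zero_iff (two_ne_zero) |>.1 this
    rw [← hQ0', hu0, hp0]; nlinarith
  · -- w = h - Q
    set w := h - Q with hw
    have hwpos : 0 < w := by linarith
    have hs : 0 < h ^ 2 - w ^ 2 := by
      have : h ^ 2 - w ^ 2 = Q * (h + w) := by rw [hw]; ring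
      rw [this]; positivity
    -- want: 0 ≤ (h^2 - w^2) κ^2 - 2 p h^2 κ + h^2 p^2 + h^2 (h-u)^2 - w^2 h^2
    have key : w ^ 2 * (h^2 * p ^ 2) ≤ (h ^ 2 - w ^ 2) * (h^2 * (h - u) ^ 2 - w ^ 2 * h ^ 2) := by
      have h1 : p ^ 2 ≤ u * (Q - u) := by nlinarith
      have h2 : w ^ 2 * p ^ 2 ≤ (h ^ 2 - w ^ 2) * ((h - u) ^ 2 - w ^ 2) := by
        have e1 : h ^ 2 - w ^ 2 = Q * (h + w) := by rw [hw]; ring
        have e2 : (h - u) ^ 2 - w ^ 2 = (Q - u) * (h - u + w) := by rw [hw]; ring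
        rw [e1, e2]
        have hQu : 0 ≤ Q - u := by linarith
        have a1 : w ^ 2 * p ^ 2 ≤ w ^ 2 * (u * (Q - u)) := mul_le_mul_of_nonneg_left h1 (sq_nonneg _)
        have a2 : w ^ 2 * (u * (Q - u)) ≤ Q * (h + w) * ((Q - u) * (h - u + w)) := by
          have b1 : w ^ 2 * u ≤ Q * (h + w) * (h - u + w) := by
            have c1 : w ≤ h + w := by linarith
            have c2 : w ≤ h - u + w := by linarith
            have c3 : w * w ≤ (h + w) * (h - u + w) := mul_le_mul c1 c2 hwpos.le (by linarith)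
            calc w ^ 2 * u = (w * w) * u := by ring
              _ ≤ ((h + w) * (h - u + w)) * Q := mul_le_mul c3 huQ hu (mul_nonneg (by linarith) (by linarith))
              _ = Q * (h + w) * (h - u + w) := by ring
          calc w ^ 2 * (u * (Q - u)) = (w ^ 2 * u) * (Q - u) := by ring
            _ ≤ (Q * (h + w) * (h - u + w)) * (Q - u) := mul_le_mul_of_nonneg_right b1 hQu
            _ = _ := by ring
        linarith
      have : 0 ≤ h ^ 2 := sq_nonneg h
      nlinarith [mul_le_mul_of_nonneg_left h2 this]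
    have sq : 0 ≤ ((h ^ 2 - w ^ 2) * κ - p * h ^ 2) ^ 2 := sq_nonneg _
    have : 0 ≤ (h ^ 2 - w ^ 2) * (((h - u) ^ 2 + (κ - p) ^ 2) * h ^ 2 - w ^ 2 * (h ^ 2 + κ ^ 2)) := by
      have e : (h ^ 2 - w ^ 2) * (((h - u) ^ 2 + (κ - p) ^ 2) * h ^ 2 - w ^ 2 * (h ^ 2 + κ ^ 2)) =
        ((h ^ 2 - w ^ 2) * κ - p * h ^ 2) ^ 2 + ((h ^ 2 - w ^ 2) * (h^2 * (h - u) ^ 2 - w ^ 2 * h ^ 2)
          - w ^ 2 * (h^2 * p ^ 2)) := by ring
      rw [e]; linarith
    have := nonneg_of_mul_nonneg_right this hs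
    linarith


section core
variable {ι : Type*} [Fintype ι] [DecidableEq ι]

/-- Cauchy-Schwarz type facts for the Schur complement. -/
lemma schur_facts (H : Matrix ι ι ℂ) (hH : H.PosDef) (κ : ι → ℝ) (e v : ι → ℂ)
    (hv : (H + Complex.I • diagonal (fun j => (κ j : ℂ))) *ᵥ v = e) :
    ∃ Q u p : ℝ, star e ⬝ᵥ (H⁻¹ *ᵥ e) = (Q : ℂ) ∧ star e ⬝ᵥ v = (u : ℂ) + Complex.I * (p : ℂ) ∧
      0 ≤ u ∧ u ≤ Q ∧ u ^ 2 + p ^ 2 ≤ Q * u := by
  set w := H⁻¹ *ᵥ e with hw
  have hdet : IsUnit H.det := (Matrix.isUnit_iff_isUnit_det H).1 hH.isUnit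
  have hHw : H *ᵥ w = e := by
    rw [hw, mulVec_mulVec, mul_nonsing_inv _ hdet, one_mulVec]
  have hHH : Hᴴ = H := hH.isHermitian
  have hself : ∀ x y : ι → ℂ, star (H *ᵥ x) ⬝ᵥ y = star x ⬝ᵥ (H *ᵥ y) := by
    intro x y
    rw [star_mulVec, hHH, dotProduct_mulVec]
  have hQ0 : 0 ≤ star w ⬝ᵥ (H *ᵥ w) := hH.posSemidef.dotProduct_mulVec_nonneg w
  have hu0 : 0 ≤ star v ⬝ᵥ (H *ᵥ v) := hH.posSemidef.dotProduct_mulVec_nonneg v
  obtain ⟨Q, hQ⟩ : ∃ Q : ℝ, star w ⬝ᵥ (H *ᵥ w) = (Q : ℂ) := ⟨_, (Complex.eq_re_of_ofReal_le hQ0)⟩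
  obtain ⟨u, hu⟩ : ∃ u : ℝ, star v ⬝ᵥ (H *ᵥ v) = (u : ℂ) := ⟨_, (Complex.eq_re_of_ofReal_le hu0)⟩
  have hQn : 0 ≤ Q := by rw [hQ] at hQ0; exact_mod_cast hQ0
  have hun : 0 ≤ u := by rw [hu] at hu0; exact_mod_cast hu0
  -- P
  have hP : star e ⬝ᵥ v = star w ⬝ᵥ (H *ᵥ v) := by rw [← hHw, hself]
  have hPc : star v ⬝ᵥ e = star (star e ⬝ᵥ v) := by
    rw [star_dotProduct]
  -- diag part real
  obtain ⟨k, hk⟩ : ∃ k : ℝ, star v ⬝ᵥ (diagonal (fun j => (κ j : ℂ)) *ᵥ v) = (k : ℂ) := by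
    refine ⟨∑ j, κ j * Complex.normSq (v j), ?_⟩
    rw [dotProduct, Complex.ofReal_sum]
    refine Finset.sum_congr rfl fun j _ => ?_
    rw [mulVec_diagonal, Pi.star_apply, Complex.ofReal_mul, ← Complex.mul_conj, Complex.star_def]
    ring
  have h1 : star v ⬝ᵥ e = (u : ℂ) + Complex.I * k := by
    rw [← hv, add_mulVec, dotProduct_add, hu, smul_mulVec, dotProduct_smul, hk, smul_eq_mul]
  have h2 : star e ⬝ᵥ v = (u : ℂ) + Complex.I * ((-k : ℝ) : ℂ) := by
    have := congrArg star (hPc.symm.trans h1)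
    rw [star_star] at this
    rw [this]
    simp [Complex.conj_ofReal]
  have h3 : star e ⬝ᵥ (H⁻¹ *ᵥ e) = (Q : ℂ) := by
    rw [← hw, ← hQ]
    conv_lhs => rw [← hHw]
    rw [hself]
  -- Cauchy Schwarz
  have hCS : u ^ 2 + (-k) ^ 2 ≤ Q * u := by
    set P := star e ⬝ᵥ v with hPdef
    have hx := hH.posSemidef.dotProduct_mulVec_nonneg ((Q : ℂ) • v - P • w)
    have hexp : star ((Q : ℂ) • v - P • w) ⬝ᵥ (H *ᵥ ((Q : ℂ) • v - P • w)) =
        ((Q * (Q * u - (u ^ 2 + (-k) ^ 2)) : ℝ) : ℂ) := by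
      have a1 : star v ⬝ᵥ (H *ᵥ w) = star P := by rw [hHw, hPc]
      have a2 : star w ⬝ᵥ (H *ᵥ v) = P := hP.symm
      rw [mulVec_sub, mulVec_smul, mulVec_smul, star_sub, star_smul, star_smul, sub_dotProduct,
        dotProduct_sub, dotProduct_sub, smul_dotProduct, smul_dotProduct, smul_dotProduct,
        smul_dotProduct, dotProduct_smul, dotProduct_smul, dotProduct_smul, dotProduct_smul,
        hu, hQ, a1, a2]
      simp only [smul_eq_mul]
      rw [h2]
      simp only [Complex.star_def, map_add, map_mul, Complex.conj_ofReal, Complex.conj_I]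
      push_cast
      ring_nf
      simp only [Complex.I_sq]
      ring
    rw [hexp] at hx
    have hx' : 0 ≤ Q * (Q * u - (u ^ 2 + (-k) ^ 2)) := by exact_mod_cast hx
    rcases eq_or_lt_of_le hQn with h0 | hpos
    · -- Q = 0: w = 0
      have hw0 : w = 0 := by
        by_contra hne
        have := hH.dotProduct_mulVec_pos hne
        rw [hQ, ← h0] at this
        exact lt_irrefl _ (by exact_mod_cast this)
      have he0 : e = 0 := by rw [← hHw, hw0, mulVec_zero]
      have hP0 : P = 0 := by rw [hPdef, he0]; simp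
      have := h2.symm.trans hP0
      have hre := congrArg Complex.re this
      have him := congrArg Complex.im this
      simp at hre him
      rw [hre, him]; simp
    · have := nonneg_of_mul_nonneg_right hx' hpos
      linarith
  refine ⟨Q, u, -k, h3, h2, hun, ?_, hCS⟩
  by_contra hlt
  rw [not_le] at hlt
  have : 0 < u := lt_of_le_of_lt hQn hlt
  nlinarith [sq_nonneg k]


/-- Step: adding one index. -/
lemma core_step (H : Matrix (ι ⊕ Unit) (ι ⊕ Unit) ℂ) (hH : H.PosDef) (κ : ι ⊕ Unit → ℝ)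
    (ih : ∀ (H' : Matrix ι ι ℂ), H'.PosDef → ∀ κ' : ι → ℝ,
      H'.det.re * ∏ j, ‖H' j j + Complex.I * (κ' j : ℂ)‖ ≤
        ‖(H' + Complex.I • diagonal (fun j => (κ' j : ℂ))).det‖ * ∏ j, (H' j j).re) :
    H.det.re * ∏ j, ‖H j j + Complex.I * (κ j : ℂ)‖ ≤
      ‖(H + Complex.I • diagonal (fun j => (κ j : ℂ))).det‖ * ∏ j, (H j j).re := by
  set A := H.toBlocks₁₁ with hA
  set E := H.toBlocks₁₂ with hE
  set h := (H (Sum.inr ()) (Sum.inr ())).re with hh
  have hHH : Hᴴ = H := hH.isHermitian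
  have hApd : A.PosDef := hH.submatrix Sum.inl_injective
  have hpos : 0 < H (Sum.inr ()) (Sum.inr ()) := hH.diag_pos
  have hhc : H (Sum.inr ()) (Sum.inr ()) = (h : ℂ) := Complex.eq_re_of_ofReal_le hpos.le
  have hhpos : 0 < h := by rw [hhc] at hpos; exact_mod_cast hpos
  set κ' : ι → ℝ := fun j => κ (Sum.inl j) with hκ'
  set k := κ (Sum.inr ()) with hk
  set e : ι → ℂ := fun j => H (Sum.inl j) (Sum.inr ()) with he
  set G := A + Complex.I • diagonal (fun j => (κ' j : ℂ)) with hG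
  have ihA := ih A hApd κ'
  have hAdetpos : 0 < A.det := hApd.det_pos
  have hAdetc : A.det = (A.det.re : ℂ) := Complex.eq_re_of_ofReal_le hAdetpos.le
  have hAdet : 0 < A.det.re := by rw [hAdetc] at hAdetpos; exact_mod_cast hAdetpos
  have hAdiag : ∀ j, 0 < (A j j).re := fun j => by
    have := hApd.diag_pos (i := j)
    exact (Complex.lt_def.1 this).1
  have hprodpos : 0 < ∏ j, (A j j).re := Finset.prod_pos fun j _ => hAdiag j
  have hnormpos : 0 < ∏ j, ‖A j j + Complex.I * (κ' j : ℂ)‖ := by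
    refine Finset.prod_pos fun j _ => ?_
    rw [norm_pos_iff]
    intro h0
    have := congrArg Complex.re h0
    simp at this
    exact absurd this (hAdiag j).ne'
  have hGne : G.det ≠ 0 := by
    intro h0
    rw [h0, norm_zero, zero_mul] at ihA
    have := mul_pos hAdet hnormpos
    linarith
  have hGu : IsUnit G.det := isUnit_iff_ne_zero.2 hGne
  obtain ⟨Q, u, p, hQ, hP, hu0, huQ, hup⟩ := schur_facts A hApd κ' e (G⁻¹ *ᵥ e) (by
    rw [← hG, mulVec_mulVec, mul_nonsing_inv _ hGu, one_mulVec])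
  -- block forms
  have hHb : H = fromBlocks A E Eᴴ (Matrix.of fun _ _ => (h : ℂ)) := by
    conv_lhs => rw [← fromBlocks_toBlocks H]
    congr 1
    · ext i j
      have := congrFun (congrFun hHH (Sum.inr i)) (Sum.inl j)
      rw [conjTranspose_apply] at this
      simp only [toBlocks₂₁, toBlocks₁₂, hE, conjTranspose_apply, of_apply]
      exact this.symm
    · ext i j
      cases i; cases j
      simp only [toBlocks₂₂, of_apply]
      exact hhc
  have hGb : H + Complex.I • diagonal (fun j => (κ j : ℂ)) =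
      fromBlocks G E Eᴴ (Matrix.of fun _ _ => (h : ℂ) + Complex.I * (k : ℂ)) := by
    conv_lhs => rw [hHb]
    ext i j
    rcases i with i | i <;> rcases j with j | j
    · simp [hG, hκ', diagonal_apply, Sum.inl.injEq, fromBlocks_apply₁₁]
    · simp [fromBlocks_apply₁₂]
    · simp [fromBlocks_apply₂₁]
    · simp [hk, fromBlocks_apply₂₂]
  have : Invertible A := A.invertibleOfIsUnitDet (isUnit_iff_ne_zero.2 hAdetpos.ne')
  have : Invertible G := G.invertibleOfIsUnitDet hGu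
  have hdetH : H.det = A.det * ((h : ℂ) - Q) := by
    conv_lhs => rw [hHb]
    rw [det_fromBlocks₁₁, invOf_eq_nonsing_inv]
    congr 1
    rw [det_unique, Matrix.sub_apply]
    congr 1
    rw [← hQ, Matrix.mul_assoc, mul_apply]
    simp only [dotProduct, conjTranspose_apply, mul_apply, mulVec, Pi.star_apply]
    rfl
  have hdetG : (H + Complex.I • diagonal (fun j => (κ j : ℂ))).det =
      G.det * ((h : ℂ) + Complex.I * k - (u + Complex.I * p)) := by
    rw [hGb, det_fromBlocks₁₁, invOf_eq_nonsing_inv]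
    congr 1
    rw [det_unique, Matrix.sub_apply]
    congr 1
    rw [← hP, Matrix.mul_assoc, mul_apply]
    simp only [dotProduct, conjTranspose_apply, mul_apply, mulVec, Pi.star_apply]
    rfl
  have hQlt : Q < h := by
    have h1 : 0 < H.det := hH.det_pos
    rw [hdetH, hAdetc, ← Complex.ofReal_sub, ← Complex.ofReal_mul] at h1
    have h2 : 0 < A.det.re * (h - Q) := by exact_mod_cast h1
    have := (mul_pos_iff_of_pos_left hAdet).1 h2
    linarith
  rw [Fintype.prod_sum_type, Fintype.prod_sum_type]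
  simp only [Finset.univ_unique, Finset.prod_singleton]
  have hre : H.det.re = A.det.re * (h - Q) := by
    rw [hdetH, hAdetc, ← Complex.ofReal_sub, ← Complex.ofReal_mul, Complex.ofReal_re]
    simp
  have hsc := scalar_ineq h Q u p k hhpos hQlt hu0 huQ hup
  have hnorm : (h - Q) * ‖(h : ℂ) + Complex.I * (k : ℂ)‖ ≤
      ‖(h : ℂ) + Complex.I * k - (u + Complex.I * p)‖ * h := by
    apply le_of_sq_le_sq
    · rw [mul_pow, mul_pow, ← Complex.normSq_eq_norm_sq, ← Complex.normSq_eq_norm_sq]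
      have e1 : Complex.normSq ((h : ℂ) + Complex.I * (k : ℂ)) = h ^ 2 + k ^ 2 := by
        simp [Complex.normSq_apply]; ring
      have e2 : Complex.normSq ((h : ℂ) + Complex.I * k - (u + Complex.I * p)) = (h - u) ^ 2 + (k - p) ^ 2 := by
        simp [Complex.normSq_apply]; ring
      rw [e1, e2]; exact hsc
    · positivity
  rw [hre, hdetG, norm_mul, hhc]
  have e3 : ∀ j, H (Sum.inl j) (Sum.inl j) = A j j := fun j => rfl
  simp only [e3]
  have e4 : ((h : ℂ)).re = h := Complex.ofReal_re h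
  rw [e4]
  calc A.det.re * (h - Q) * ((∏ j, ‖A j j + Complex.I * (κ' j : ℂ)‖) * ‖(h : ℂ) + Complex.I * (k : ℂ)‖)
      = (A.det.re * ∏ j, ‖A j j + Complex.I * (κ' j : ℂ)‖) * ((h - Q) * ‖(h : ℂ) + Complex.I * (k : ℂ)‖) := by ring
    _ ≤ (‖G.det‖ * ∏ j, (A j j).re) * (‖(h : ℂ) + Complex.I * k - (u + Complex.I * p)‖ * h) := by
        apply mul_le_mul ihA hnorm
        · have : 0 ≤ h - Q := by linarith
          positivity
        · positivity
    _ = _ := by ring


end core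

theorem core_det_fin (n : ℕ) : ∀ (H : Matrix (Fin n) (Fin n) ℂ), H.PosDef → ∀ κ : Fin n → ℝ,
    H.det.re * ∏ j, ‖H j j + Complex.I * (κ j : ℂ)‖ ≤
      ‖(H + Complex.I • diagonal (fun j => (κ j : ℂ))).det‖ * ∏ j, (H j j).re := by
  induction n with
  | zero => intro H _ κ; simp
  | succ n ih =>
    intro H hH κ
    let e : Fin n ⊕ Unit ≃ Fin (n + 1) :=
      (Equiv.sumCongr (Equiv.refl _) (Equiv.ofUnique Unit (Fin 1))).trans finSumFinEquiv
    have := core_step (H.submatrix e e) (hH.submatrix e.injective) (fun j => κ (e j)) ih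
    rw [det_submatrix_equiv_self] at this
    have e2 : H.submatrix e e + Complex.I • diagonal (fun j => (κ (e j) : ℂ)) =
        (H + Complex.I • diagonal (fun j => (κ j : ℂ))).submatrix e e := by
      ext i j
      simp [diagonal_apply]
    rw [e2, det_submatrix_equiv_self] at this
    simp only [submatrix_apply] at this
    rw [Equiv.prod_comp e (fun j => ‖H j j + Complex.I * (κ j : ℂ)‖),
      Equiv.prod_comp e (fun j => (H j j).re)] at this
    exact this

/-- (R'): for `H` positive definite and a real diagonal `κ`,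
`det H * ∏ |H_jj + i κ_j| ≤ |det (H + i κ)| * ∏ H_jj`. -/
theorem core_det {ι : Type*} [Fintype ι] [DecidableEq ι] (H : Matrix ι ι ℂ) (hH : H.PosDef) (κ : ι → ℝ) :
    H.det.re * ∏ j, ‖H j j + Complex.I * (κ j : ℂ)‖ ≤
      ‖(H + Complex.I • diagonal (fun j => (κ j : ℂ))).det‖ * ∏ j, (H j j).re := by
  let e : Fin (Fintype.card ι) ≃ ι := (Fintype.equivFin ι).symm
  have := core_det_fin (Fintype.card ι) (H.submatrix e e) (hH.submatrix e.injective) (fun j => κ (e j))
  rw [det_submatrix_equiv_self] at this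
  have e2 : H.submatrix e e + Complex.I • diagonal (fun j => (κ (e j) : ℂ)) =
      (H + Complex.I • diagonal (fun j => (κ j : ℂ))).submatrix e e := by
    ext i j
    simp [diagonal_apply]
  rw [e2, det_submatrix_equiv_self] at this
  simp only [submatrix_apply] at this
  rw [Equiv.prod_comp e (fun j => ‖H j j + Complex.I * (κ j : ℂ)‖),
    Equiv.prod_comp e (fun j => (H j j).re)] at this
  exact this



/-- basis-free version -/
theorem core_det_unitary {m : Type*} [Fintype m] [DecidableEq m] (H K U : Matrix m m ℂ) (hH : H.PosDef)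
    (hU : Uᴴ * U = 1) (κ : m → ℝ) (hK : Uᴴ * K * U = diagonal (fun j => (κ j : ℂ))) :
    H.det.re * ∏ j, ‖(Uᴴ * H * U) j j + Complex.I * (κ j : ℂ)‖ ≤
      ‖(H + Complex.I • K).det‖ * ∏ j, ((Uᴴ * H * U) j j).re := by
  have hUU : U * Uᴴ = 1 := mul_eq_one_comm.1 hU
  have hinj : Function.Injective U.mulVec := by
    intro v w hvw
    have := congrArg (fun z => Uᴴ *ᵥ z) hvw
    simpa [mulVec_mulVec, hU] using this
  have h1 := core_det (Uᴴ * H * U) (hH.conjTranspose_mul_mul_same hinj) κ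
  have hd : U.det * Uᴴ.det = 1 := by rw [← det_mul, hUU, det_one]
  have e1 : (Uᴴ * H * U).det = H.det := by
    rw [det_mul, det_mul, mul_comm Uᴴ.det, mul_assoc, mul_comm Uᴴ.det, hd, mul_one]
  have e2 : Uᴴ * H * U + Complex.I • diagonal (fun j => (κ j : ℂ)) = Uᴴ * (H + Complex.I • K) * U := by
    rw [← hK, Matrix.mul_add, Matrix.add_mul, Matrix.mul_smul, Matrix.smul_mul]
  have e3 : (Uᴴ * (H + Complex.I • K) * U).det = (H + Complex.I • K).det := by
    rw [det_mul, det_mul, mul_comm Uᴴ.det, mul_assoc, mul_comm Uᴴ.det, hd, mul_one]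
  rw [e1, e2, e3] at h1
  exact h1

section
variable {ι g : Type*} [Fintype ι] [DecidableEq ι] [Fintype g] [DecidableEq g]

/-- The Hadamard rotation on `ι ⊕ ι`. -/
noncomputable def hadU (ι : Type*) [DecidableEq ι] : Matrix (ι ⊕ ι) (ι ⊕ ι) ℂ :=
  fromBlocks (((√2)⁻¹ : ℝ) • (1 : Matrix ι ι ℂ)) (((√2)⁻¹ : ℝ) • 1) (((√2)⁻¹ : ℝ) • 1) (-((√2)⁻¹ : ℝ) • 1)

lemma hadU_conjTranspose : (hadU ι)ᴴ = hadU ι := by
  unfold hadU
  rw [fromBlocks_conjTranspose]
  simp

lemma inv_sqrt_two_sq : ((√2)⁻¹ : ℝ) * (√2)⁻¹ = 1 / 2 := by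
  rw [← mul_inv, Real.mul_self_sqrt (by norm_num)]; norm_num

lemma hadU_mul_self : hadU ι * hadU ι = 1 := by
  unfold hadU
  rw [fromBlocks_multiply]
  have h2 : ((√2)⁻¹ : ℝ) * (√2)⁻¹ = 1 / 2 := inv_sqrt_two_sq
  simp only [smul_mul_smul_comm, one_mul, h2, mul_neg, neg_mul, neg_neg]
  rw [← fromBlocks_one]
  congr 1
  · rw [← add_smul]; norm_num
  · rw [← add_smul]; norm_num
  · rw [← add_smul]; norm_num
  · rw [← add_smul]; norm_num

/-- rotation of the matching matrix -/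
lemma hadU_conj (k : ι → ℂ) :
    hadU ι * fromBlocks 0 (diagonal k) (diagonal k) 0 * hadU ι =
      fromBlocks (diagonal k) 0 0 (-diagonal k) := by
  unfold hadU
  have h2 : ((√2)⁻¹ : ℝ) * (√2)⁻¹ = 1 / 2 := inv_sqrt_two_sq
  rw [fromBlocks_multiply, fromBlocks_multiply]
  simp only [smul_mul_assoc, Matrix.mul_smul, one_mul, mul_one, smul_zero, zero_add, add_zero, Matrix.mul_zero, Matrix.zero_mul]
  simp only [smul_smul, h2, mul_neg, neg_mul, neg_neg]
  congr 1
  · rw [← add_smul]; norm_num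
  · rw [← add_smul]; norm_num
  · rw [← add_smul]; norm_num
  · rw [← add_smul]; norm_num


lemma hadU_conj_diag (P R : Matrix ι ι ℂ) :
    hadU ι * fromBlocks P 0 0 R * hadU ι =
      fromBlocks ((1 / 2 : ℝ) • (P + R)) ((1 / 2 : ℝ) • (P - R)) ((1 / 2 : ℝ) • (P - R)) ((1 / 2 : ℝ) • (P + R)) := by
  unfold hadU
  have h2 : ((√2)⁻¹ : ℝ) * (√2)⁻¹ = 1 / 2 := inv_sqrt_two_sq
  rw [fromBlocks_multiply, fromBlocks_multiply]
  simp only [smul_mul_assoc, Matrix.mul_smul, one_mul, mul_one, smul_zero, zero_add, add_zero, Matrix.mul_zero, Matrix.zero_mul]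
  simp only [smul_smul, h2, mul_neg, neg_mul, neg_neg]
  congr 1
  · rw [smul_add]
  · rw [smul_sub, neg_smul, sub_eq_add_neg]
  · rw [smul_sub, neg_smul, sub_eq_add_neg]
  · rw [smul_add]

lemma posDef_fromBlocks_diag {b : Matrix ι ι ℂ} {c : Matrix g g ℂ} (hb : b.PosDef) (hc : c.PosDef) :
    (fromBlocks b 0 0 c).PosDef := by
  have hherm : (fromBlocks b 0 0 c).IsHermitian :=
    Matrix.IsHermitian.fromBlocks hb.isHermitian (by simp) hc.isHermitian
  refine PosDef.of_dotProduct_mulVec_pos hherm fun x hx => ?_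
  rw [fromBlocks_mulVec]
  simp only [zero_mulVec, add_zero, zero_add]
  have e : star x ⬝ᵥ Sum.elim (b *ᵥ (x ∘ Sum.inl)) (c *ᵥ (x ∘ Sum.inr)) =
      star (x ∘ Sum.inl) ⬝ᵥ (b *ᵥ (x ∘ Sum.inl)) + star (x ∘ Sum.inr) ⬝ᵥ (c *ᵥ (x ∘ Sum.inr)) := by
    simp [dotProduct, Fintype.sum_sum_type]
  rw [e]
  by_cases h1 : x ∘ Sum.inl = 0
  · have h2 : x ∘ Sum.inr ≠ 0 := by
      intro h2
      apply hx
      funext z
      rcases z with z | z
      · exact congrFun h1 z
      · exact congrFun h2 z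
    rw [h1]
    simpa using hc.dotProduct_mulVec_pos h2
  · exact add_pos_of_pos_of_nonneg (hb.dotProduct_mulVec_pos h1)
      (hc.posSemidef.dotProduct_mulVec_nonneg _)

theorem det_ineq_R (b : Matrix ι ι ℂ) (c : Matrix (ι ⊕ g) (ι ⊕ g) ℂ) (hb : b.PosDef) (hc : c.PosDef)
    (k : ι → ℝ) :
    (b.det.re * c.det.re) * ∏ i, ((b i i).re * (c (Sum.inl i) (Sum.inl i)).re + k i ^ 2) ≤
      ‖(fromBlocks b (Complex.I • fromCols (diagonal (fun i => (k i : ℂ))) 0)
        (Complex.I • fromRows (diagonal (fun i => (k i : ℂ))) 0) c).det‖ *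
        ∏ i, ((b i i).re * (c (Sum.inl i) (Sum.inl i)).re) := by
  set e := Equiv.sumAssoc ι ι g with he
  have hbp : ∀ i, 0 < (b i i).re := fun i => (Complex.lt_def.1 (hb.diag_pos (i := i))).1
  have hcp : ∀ i, 0 < (c i i).re := fun i => (Complex.lt_def.1 (hc.diag_pos (i := i))).1
  have hbc : ∀ i, b i i = ((b i i).re : ℂ) := fun i => Complex.eq_re_of_ofReal_le (hb.diag_pos (i := i)).le
  have hcc : ∀ i, c i i = ((c i i).re : ℂ) := fun i => Complex.eq_re_of_ofReal_le (hc.diag_pos (i := i)).le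
  set θ : ι → ℝ := fun i => √(√((c (Sum.inl i) (Sum.inl i)).re / (b i i).re)) with hθ
  have hθpos : ∀ i, 0 < θ i := fun i => Real.sqrt_pos.2 (Real.sqrt_pos.2 (div_pos (hcp _) (hbp _)))
  set σ : (ι ⊕ ι) ⊕ g → ℂ := Sum.elim (Sum.elim (fun i => (θ i : ℂ)) (fun i => ((θ i)⁻¹ : ℝ))) (fun _ => 1) with hσ
  set H0 : Matrix ((ι ⊕ ι) ⊕ g) ((ι ⊕ ι) ⊕ g) ℂ := (fromBlocks b 0 0 c).submatrix e e with hH0
  set K0 : Matrix ((ι ⊕ ι) ⊕ g) ((ι ⊕ ι) ⊕ g) ℂ :=
    fromBlocks (fromBlocks 0 (diagonal (fun i => (k i : ℂ))) (diagonal (fun i => (k i : ℂ))) 0) 0 0 0 with hK0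
  set S : Matrix ((ι ⊕ ι) ⊕ g) ((ι ⊕ ι) ⊕ g) ℂ := diagonal σ with hS
  set U : Matrix ((ι ⊕ ι) ⊕ g) ((ι ⊕ ι) ⊕ g) ℂ := fromBlocks (hadU ι) 0 0 1 with hU
  have hH0pd : H0.PosDef := (posDef_fromBlocks_diag hb hc).submatrix e.injective
  have hSh : Sᴴ = S := by
    rw [hS, diagonal_conjTranspose]
    congr 1
    funext z
    rcases z with (z | z) | z <;> simp [hσ]
  have hSdet : S.det = 1 := by
    rw [hS, det_diagonal, Fintype.prod_sum_type, Fintype.prod_sum_type]
    simp only [hσ, Sum.elim_inl, Sum.elim_inr, Finset.prod_const_one, mul_one]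
    rw [← Finset.prod_mul_distrib]
    apply Finset.prod_eq_one
    intro i _
    rw [← Complex.ofReal_mul, mul_inv_cancel₀ (hθpos i).ne', Complex.ofReal_one]
  have hSinj : Function.Injective S.mulVec := by
    have hu : IsUnit S.det := by rw [hSdet]; exact isUnit_one
    exact (Matrix.mulVec_injective_iff_isUnit).2 ((Matrix.isUnit_iff_isUnit_det S).2 hu)
  have hH1pd : (S * H0 * S).PosDef := by
    have := hH0pd.conjTranspose_mul_mul_same hSinj
    rwa [hSh] at this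
  have hUh : Uᴴ = U := by
    rw [hU, fromBlocks_conjTranspose, hadU_conjTranspose]; simp
  have hUU : Uᴴ * U = 1 := by
    rw [hUh, hU, fromBlocks_multiply, hadU_mul_self]; simp
  set κ : (ι ⊕ ι) ⊕ g → ℝ := Sum.elim (Sum.elim k (fun i => - k i)) (fun _ => 0) with hκ
  have hKU : Uᴴ * K0 * U = diagonal (fun j => (κ j : ℂ)) := by
    rw [hUh, hU, hK0, fromBlocks_multiply, fromBlocks_multiply]
    simp only [Matrix.mul_zero, Matrix.zero_mul, add_zero, zero_add, hadU_conj]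
    ext i j
    rcases i with (i | i) | i <;> rcases j with (j | j) | j <;> simp [hκ, diagonal_apply]
  have hSK : S * K0 * S = K0 := by
    ext i j
    rw [hS, mul_diagonal, diagonal_mul]
    rcases i with (i | i) | i <;> rcases j with (j | j) | j <;> simp [hσ, hK0, diagonal_apply]
    · split_ifs with hij
      · subst hij
        have : (θ i : ℂ) ≠ 0 := by exact_mod_cast (hθpos i).ne'
        field_simp
      · rfl
    · split_ifs with hij
      · subst hij
        have : (θ i : ℂ) ≠ 0 := by exact_mod_cast (hθpos i).ne'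
        field_simp
      · rfl
  have main := core_det_unitary (S * H0 * S) K0 U hH1pd hUU κ hKU
  set D := S * H0 * S with hD
  -- determinants
  have hdet1 : D.det = b.det * c.det := by
    rw [hD, det_mul, det_mul, hSdet, one_mul, mul_one, hH0, det_submatrix_equiv_self,
      det_fromBlocks_zero₂₁]
  have hdet2 : (D + Complex.I • K0).det = (fromBlocks b (Complex.I • fromCols (diagonal (fun i => (k i : ℂ))) 0)
        (Complex.I • fromRows (diagonal (fun i => (k i : ℂ))) 0) c).det := by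
    have e1 : D + Complex.I • K0 = S * (H0 + Complex.I • K0) * S := by
      rw [Matrix.mul_add, Matrix.add_mul, Matrix.mul_smul, Matrix.smul_mul, hSK]
    rw [e1, det_mul, det_mul, hSdet, one_mul, mul_one]
    have e2 : H0 + Complex.I • K0 = (fromBlocks b (Complex.I • fromCols (diagonal (fun i => (k i : ℂ))) 0)
        (Complex.I • fromRows (diagonal (fun i => (k i : ℂ))) 0) c).submatrix e e := by
      ext i j
      rcases i with (i | i) | i <;> rcases j with (j | j) | j <;> simp [hH0, hK0, he]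
    rw [e2, det_submatrix_equiv_self]
  have hbdet : b.det = (b.det.re : ℂ) := Complex.eq_re_of_ofReal_le hb.det_pos.le
  have hcdet : c.det = (c.det.re : ℂ) := Complex.eq_re_of_ofReal_le hc.det_pos.le
  have hdet1' : D.det.re = b.det.re * c.det.re := by
    rw [hdet1, hbdet, hcdet, ← Complex.ofReal_mul, Complex.ofReal_re]; simp
  -- diagonal entries
  set P : Matrix ι ι ℂ := Matrix.of fun i j => (θ i : ℂ) * b i j * θ j with hP
  set R : Matrix ι ι ℂ := Matrix.of fun i j => ((θ i)⁻¹ : ℝ) * c (Sum.inl i) (Sum.inl j) * ((θ j)⁻¹ : ℝ) with hR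
  have hD11 : D.toBlocks₁₁ = fromBlocks P 0 0 R := by
    ext i j
    rcases i with i | i <;> rcases j with j | j <;>
      simp [toBlocks₁₁, hD, hS, mul_diagonal, diagonal_mul, hσ, hH0, he, hP, hR]
  have hconj : Uᴴ * D * U = fromBlocks (hadU ι * fromBlocks P 0 0 R * hadU ι) (hadU ι * D.toBlocks₁₂)
      (D.toBlocks₂₁ * hadU ι) D.toBlocks₂₂ := by
    conv_lhs => rw [hUh, ← fromBlocks_toBlocks D, hD11, hU]
    rw [fromBlocks_multiply, fromBlocks_multiply]
    simp
  have hhsq : ∀ i, (θ i) ^ 2 * (b i i).re + ((θ i)⁻¹) ^ 2 * (c (Sum.inl i) (Sum.inl i)).re =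
      2 * √((b i i).re * (c (Sum.inl i) (Sum.inl i)).re) := by
    intro i
    have hb' := hbp i
    have hc' := hcp (Sum.inl i)
    set x := (b i i).re
    set y := (c (Sum.inl i) (Sum.inl i)).re
    have h1 : θ i ^ 2 = √(y / x) := by
      simp only [hθ]; rw [Real.sq_sqrt (Real.sqrt_nonneg _)]
    rw [inv_pow, h1, Real.sqrt_div' _ hb'.le, Real.sqrt_mul hb'.le]
    have sx : 0 < √x := Real.sqrt_pos.2 hb'
    have sy : 0 < √y := Real.sqrt_pos.2 hc'
    have ex : x = √x * √x := (Real.mul_self_sqrt hb'.le).symm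
    have ey : y = √y * √y := (Real.mul_self_sqrt hc'.le).symm
    have : √y / √x * x + (√y / √x)⁻¹ * y = √y / √x * (√x * √x) + (√y / √x)⁻¹ * (√y * √y) := by
      rw [← ex, ← ey]
    rw [this]
    field_simp
    ring
  have hd1 : ∀ i, (Uᴴ * D * U) (Sum.inl (Sum.inl i)) (Sum.inl (Sum.inl i)) =
      ((√((b i i).re * (c (Sum.inl i) (Sum.inl i)).re) : ℝ) : ℂ) := by
    intro i
    rw [hconj, hadU_conj_diag, fromBlocks_apply₁₁, fromBlocks_apply₁₁]
    have := hhsq i
    simp only [Matrix.smul_apply, Matrix.add_apply, hP, hR, Matrix.of_apply]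
    rw [hbc i, hcc (Sum.inl i)]
    rw [Complex.real_smul, ← Complex.ofReal_mul, ← Complex.ofReal_mul, ← Complex.ofReal_mul,
      ← Complex.ofReal_mul, ← Complex.ofReal_add, ← Complex.ofReal_mul]
    congr 1
    simp only [Complex.ofReal_re]
    linarith
  have hd2 : ∀ i, (Uᴴ * D * U) (Sum.inl (Sum.inr i)) (Sum.inl (Sum.inr i)) =
      ((√((b i i).re * (c (Sum.inl i) (Sum.inl i)).re) : ℝ) : ℂ) := by
    intro i
    have h1 := hd1 i
    rw [hconj, hadU_conj_diag, fromBlocks_apply₁₁, fromBlocks_apply₁₁] at h1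
    rw [hconj, hadU_conj_diag, fromBlocks_apply₁₁, fromBlocks_apply₂₂]
    exact h1
  have hd3 : ∀ y, (Uᴴ * D * U) (Sum.inr y) (Sum.inr y) = ((c (Sum.inr y) (Sum.inr y)).re : ℂ) := by
    intro y
    rw [hconj, fromBlocks_apply₂₂]
    simp only [toBlocks₂₂, Matrix.of_apply, hD, hS, mul_diagonal, diagonal_mul, hσ, Sum.elim_inr, one_mul, mul_one,
      hH0, submatrix_apply, he, Equiv.sumAssoc_apply_inr, fromBlocks_apply₂₂]
    exact hcc _
  rw [hdet1', hdet2] at main
  rw [Fintype.prod_sum_type, Fintype.prod_sum_type, Fintype.prod_sum_type, Fintype.prod_sum_type] at main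
  simp only [hd1, hd2, hd3, hκ, Sum.elim_inl, Sum.elim_inr, Complex.ofReal_re, Complex.ofReal_zero, mul_zero, add_zero] at main
  set h : ι → ℝ := fun i => √((b i i).re * (c (Sum.inl i) (Sum.inl i)).re) with hh
  have hh2 : ∀ i, h i * h i = (b i i).re * (c (Sum.inl i) (Sum.inl i)).re := fun i =>
    Real.mul_self_sqrt (mul_nonneg (hbp i).le (hcp _).le)
  have hgpos : 0 < ∏ y : g, (c (Sum.inr y) (Sum.inr y)).re := Finset.prod_pos fun y _ => hcp _
  have hgn : ∏ y : g, ‖((c (Sum.inr y) (Sum.inr y)).re : ℂ)‖ = ∏ y : g, (c (Sum.inr y) (Sum.inr y)).re := by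
    refine Finset.prod_congr rfl fun y _ => ?_
    rw [Complex.norm_real, Real.norm_of_nonneg (hcp _).le]
  have hprod1 : (∏ i, ‖(h i : ℂ) + Complex.I * (k i : ℂ)‖) * (∏ i, ‖(h i : ℂ) + Complex.I * ((-k i : ℝ) : ℂ)‖) =
      ∏ i, ((b i i).re * (c (Sum.inl i) (Sum.inl i)).re + k i ^ 2) := by
    rw [← Finset.prod_mul_distrib]
    refine Finset.prod_congr rfl fun i _ => ?_
    rw [← hh2 i]
    have e1 : ‖(h i : ℂ) + Complex.I * ((-k i : ℝ) : ℂ)‖ = ‖(h i : ℂ) + Complex.I * (k i : ℂ)‖ := by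
      rw [← Complex.norm_conj]
      congr 1
      simp
    rw [e1, ← sq, ← Complex.normSq_eq_norm_sq]
    simp [Complex.normSq_apply]; ring
  have hprod2 : (∏ i, h i) * (∏ i, h i) = ∏ i, ((b i i).re * (c (Sum.inl i) (Sum.inl i)).re) := by
    rw [← Finset.prod_mul_distrib]
    exact Finset.prod_congr rfl fun i _ => hh2 i
  rw [hgn, hprod1, hprod2, ← mul_assoc, ← mul_assoc] at main
  exact le_of_mul_le_mul_right main hgpos

end

section
variable {ι g : Type*} [Fintype ι] [DecidableEq ι] [Fintype g] [DecidableEq g]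

lemma woodbury (C : Matrix ι g ℂ) (c' : Matrix ι ι ℂ) (hc' : (1 + C * Cᴴ) * c' = 1) :
    (1 + Cᴴ * C) * (1 - Cᴴ * c' * C) = 1 := by
  have h : c' + C * Cᴴ * c' = 1 := by rw [← hc', Matrix.add_mul, Matrix.one_mul]
  calc (1 + Cᴴ * C) * (1 - Cᴴ * c' * C) = 1 + Cᴴ * C - Cᴴ * (c' + C * Cᴴ * c') * C := by
        simp only [Matrix.add_mul, Matrix.mul_add, Matrix.mul_sub, Matrix.one_mul, Matrix.mul_one, Matrix.mul_assoc]
    _ = 1 := by rw [h, Matrix.mul_one, add_sub_cancel_right]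

theorem stepA_core (k : ι → ℝ) (β : Matrix ι ι ℂ) (hβ : β.PosSemidef) (C0 : Matrix ι ι ℂ) (C1 : Matrix ι g ℂ) :
    ((1 + β).det.re * (1 + (C0 * C0ᴴ + C1 * C1ᴴ)).det.re) *
      ∏ i, (((1 + β) i i).re * ((1 + C0ᴴ * C0) i i).re + k i ^ 2) ≤
    (1 + fromBlocks (diagonal (fun i => ((k i ^ 2 : ℝ) : ℂ)) + β) (diagonal (fun i => (k i : ℂ)) * C0ᴴ)
      (C0 * diagonal (fun i => (k i : ℂ))) (C0 * C0ᴴ + C1 * C1ᴴ)).det.re *
      ∏ i, (((1 + β) i i).re * ((1 + C0ᴴ * C0) i i).re) := by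
  set b := 1 + β with hb
  set C : Matrix ι (ι ⊕ g) ℂ := fromCols C0 C1 with hC
  set c := 1 + Cᴴ * C with hc
  set dk : Matrix ι ι ℂ := diagonal (fun i => (k i : ℂ)) with hdk
  set A : Matrix ι (ι ⊕ g) ℂ := fromCols dk 0 with hA
  have hdkH : dkᴴ = dk := by
    rw [hdk, diagonal_conjTranspose]; congr 1; funext i; simp
  have hbpd : b.PosDef := PosDef.one.add_posSemidef hβ
  have hcpd : c.PosDef := PosDef.one.add_posSemidef (posSemidef_conjTranspose_mul_self C)
  have hCC : C * Cᴴ = C0 * C0ᴴ + C1 * C1ᴴ := by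
    rw [hC, conjTranspose_fromCols_eq_fromRows_conjTranspose, fromCols_mul_fromRows]
  have hAC : A * Cᴴ = dk * C0ᴴ := by
    rw [hC, hA, conjTranspose_fromCols_eq_fromRows_conjTranspose, fromCols_mul_fromRows]; simp
  have hAA : A * Aᴴ = diagonal (fun i => ((k i ^ 2 : ℝ) : ℂ)) := by
    rw [hA, conjTranspose_fromCols_eq_fromRows_conjTranspose, fromCols_mul_fromRows]
    simp [hdk, diagonal_conjTranspose, diagonal_mul_diagonal, sq]
  have hCA : C * Aᴴ = C0 * dk := by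
    have := congrArg conjTranspose hAC
    rw [conjTranspose_mul, conjTranspose_conjTranspose, conjTranspose_mul, conjTranspose_conjTranspose, hdkH] at this
    exact this
  have hAH : Aᴴ = fromRows dk 0 := by
    rw [hA, conjTranspose_fromCols_eq_fromRows_conjTranspose, hdkH]; simp
  set Zd := 1 + C * Cᴴ with hZd
  have hZpd : Zd.PosDef := PosDef.one.add_posSemidef (posSemidef_self_mul_conjTranspose C)
  have hZu : IsUnit Zd.det := (Matrix.isUnit_iff_isUnit_det Zd).1 hZpd.isUnit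
  have hcu : IsUnit c.det := (Matrix.isUnit_iff_isUnit_det c).1 hcpd.isUnit
  -- Woodbury
  have hw : c * (1 - Cᴴ * Zd⁻¹ * C) = 1 := woodbury C Zd⁻¹ (mul_nonsing_inv _ hZu)
  have hcinv : c⁻¹ = 1 - Cᴴ * Zd⁻¹ * C := inv_eq_right_inv hw
  have : Invertible Zd := Zd.invertibleOfIsUnitDet hZu
  have : Invertible c := c.invertibleOfIsUnitDet hcu
  have hdetc : c.det = Zd.det := by rw [hc, hZd, det_one_add_mul_comm]
  have hN : (1 : Matrix (ι ⊕ ι) (ι ⊕ ι) ℂ) + fromBlocks (diagonal (fun i => ((k i ^ 2 : ℝ) : ℂ)) + β) (dk * C0ᴴ)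
      (C0 * dk) (C0 * C0ᴴ + C1 * C1ᴴ) = fromBlocks (b + A * Aᴴ) (A * Cᴴ) (C * Aᴴ) Zd := by
    rw [← fromBlocks_one, fromBlocks_add, hAA, hAC, hCA, hZd, hCC, hb]
    congr 1
    · abel
    · simp
    · simp
  have hdet1 : (fromBlocks (b + A * Aᴴ) (A * Cᴴ) (C * Aᴴ) Zd).det = Zd.det * (b + A * c⁻¹ * Aᴴ).det := by
    rw [det_fromBlocks₂₂, invOf_eq_nonsing_inv, hcinv]
    congr 2
    simp only [Matrix.mul_sub, Matrix.sub_mul, Matrix.mul_one, Matrix.mul_assoc]
    abel
  have hdet2 : (fromBlocks b (Complex.I • A) (Complex.I • Aᴴ) c).det = Zd.det * (b + A * c⁻¹ * Aᴴ).det := by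
    rw [det_fromBlocks₂₂, invOf_eq_nonsing_inv, hdetc]
    congr 2
    rw [Matrix.smul_mul, Matrix.mul_smul, Matrix.smul_mul, smul_smul, Complex.I_mul_I]
    simp
  have hNpsd : (fromBlocks (diagonal (fun i => ((k i ^ 2 : ℝ) : ℂ)) + β) (dk * C0ᴴ)
      (C0 * dk) (C0 * C0ᴴ + C1 * C1ᴴ)).PosSemidef := by
    have e1 : fromBlocks (diagonal (fun i => ((k i ^ 2 : ℝ) : ℂ)) + β) (dk * C0ᴴ)
      (C0 * dk) (C0 * C0ᴴ + C1 * C1ᴴ) = fromRows A C * (fromRows A C)ᴴ + fromBlocks β 0 0 0 := by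
      rw [conjTranspose_fromRows_eq_fromCols_conjTranspose, fromRows_mul_fromCols, fromBlocks_add, hAA, hAC, hCA, hCC]
      simp
    rw [e1]
    refine (posSemidef_self_mul_conjTranspose _).add ?_
    have : fromBlocks β 0 0 (0 : Matrix ι ι ℂ) = (fromRows (1 : Matrix ι ι ℂ) (0 : Matrix ι ι ℂ)) * β * (fromRows (1 : Matrix ι ι ℂ) (0 : Matrix ι ι ℂ))ᴴ := by
      rw [conjTranspose_fromRows_eq_fromCols_conjTranspose, fromRows_mul, fromRows_mul_fromCols]
      simp
    rw [this]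
    exact hβ.mul_mul_conjTranspose_same _
  have h1Npd := PosDef.one.add_posSemidef hNpsd
  have hdetpos := h1Npd.det_pos
  have hnorm : ‖(fromBlocks b (Complex.I • A) (Complex.I • Aᴴ) c).det‖ =
      (1 + fromBlocks (diagonal (fun i => ((k i ^ 2 : ℝ) : ℂ)) + β) (dk * C0ᴴ)
      (C0 * dk) (C0 * C0ᴴ + C1 * C1ᴴ)).det.re := by
    rw [hdet2, ← hdet1, ← hN]
    rw [Complex.eq_re_of_ofReal_le hdetpos.le, Complex.norm_real, Real.norm_of_nonneg, Complex.ofReal_re]
    exact (Complex.le_def.1 hdetpos.le).1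
  have main := det_ineq_R b c hbpd hcpd k
  rw [← hdk, ← hA, ← hAH, hnorm, hdetc, hZd, hCC] at main
  have hcd : ∀ i, c (Sum.inl i) (Sum.inl i) = (1 + C0ᴴ * C0) i i := by
    intro i
    rw [hc, hC, conjTranspose_fromCols_eq_fromRows_conjTranspose, fromRows_mul_fromCols]
    simp [Matrix.one_apply]
  simp only [hcd] at main
  exact main

end

end Crest.Agent.GAD
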