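import Mathlib
import Crest.Prelude.Def_QState
/-!
Integral representation of the von Neumann entropy of a positive semidefinite matrix.
-/
set_option autoImplicit false
set_option linter.unusedSimpArgs false
set_option linter.unusedSectionVars false
open Matrix MeasureTheory Filter Topology
open Set (Ioi)
open scoped ComplexOrder
open Crest.Quantum

namespace Crest.Agent.GAD


/-- integrand whose integral over `t > 0` is `negMulLog x` -/
noncomputable def hfun (x t : ℝ) : ℝ := Real.log (1 + x / t) - x * Real.log (1 + 1 / t)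

noncomputable def Gfun (x t : ℝ) : ℝ :=
  (t + x) * Real.log (t + x) - t * Real.log t - x * ((t + 1) * Real.log (t + 1) - t * Real.log t)

lemma hasDerivAt_Gfun {x : ℝ} (hx : 0 ≤ x) {t : ℝ} (ht : 0 < t) : HasDerivAt (Gfun x) (hfun x t) t := by
  have h1 : HasDerivAt (fun t : ℝ => (t + x) * Real.log (t + x)) (Real.log (t + x) + 1) t := by
    have := (Real.hasDerivAt_mul_log (x := t + x) (by positivity)).comp_add_const t x
    exact this
  have h2 : HasDerivAt (fun t : ℝ => (t + 1) * Real.log (t + 1)) (Real.log (t + 1) + 1) t := by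
    have := (Real.hasDerivAt_mul_log (x := t + 1) (by positivity)).comp_add_const t 1
    exact this
  have h3 : HasDerivAt (fun t : ℝ => t * Real.log t) (Real.log t + 1) t :=
    Real.hasDerivAt_mul_log ht.ne'
  have h4 := (h1.sub h3).sub ((h2.sub h3).const_mul x)
  refine h4.congr_deriv ?_
  unfold hfun
  have e1 : 1 + x / t = (t + x) / t := by field_simp
  have e2 : 1 + 1 / t = (t + 1) / t := by field_simp
  rw [e1, e2, Real.log_div (by positivity) ht.ne', Real.log_div (by positivity) ht.ne']
  ring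

lemma continuous_Gfun (x : ℝ) : Continuous (Gfun x) := by
  unfold Gfun
  have h1 : Continuous (fun t : ℝ => (t + x) * Real.log (t + x)) :=
    Real.continuous_mul_log.comp (continuous_id.add continuous_const)
  have h2 : Continuous (fun t : ℝ => (t + 1) * Real.log (t + 1)) :=
    Real.continuous_mul_log.comp (continuous_id.add continuous_const)
  exact (h1.sub Real.continuous_mul_log).sub (continuous_const.mul (h2.sub Real.continuous_mul_log))

lemma tendsto_Gfun {x : ℝ} (hx : 0 ≤ x) : Tendsto (Gfun x) atTop (𝓝 0) := by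
  have l1 : Tendsto (fun t : ℝ => t * Real.log (1 + x / t)) atTop (𝓝 x) :=
    Real.tendsto_mul_log_one_add_div_atTop x
  have l2 : Tendsto (fun t : ℝ => t * Real.log (1 + 1 / t)) atTop (𝓝 1) :=
    Real.tendsto_mul_log_one_add_div_atTop 1
  have l3 : ∀ y : ℝ, Tendsto (fun t : ℝ => Real.log (1 + y / t)) atTop (𝓝 0) := by
    intro y
    have : Tendsto (fun t : ℝ => 1 + y / t) atTop (𝓝 1) := by
      have := (tendsto_const_nhds (x := (1 : ℝ))).add ((tendsto_const_nhds (x := y)).div_atTop tendsto_id)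
      simpa using this
    have h := (Real.continuousAt_log (by norm_num : (1 : ℝ) ≠ 0)).tendsto.comp this
    rw [Real.log_one] at h
    exact h
  have l4 : Tendsto (fun t : ℝ => t * Real.log (1 + x / t) + x * Real.log (1 + x / t)
      - x * (t * Real.log (1 + 1 / t)) - x * Real.log (1 + 1 / t)) atTop (𝓝 (x + x * 0 - x * 1 - x * 0)) :=
    ((l1.add ((l3 x).const_mul x)).sub (l2.const_mul x)).sub ((l3 1).const_mul x)
  have e : x + x * 0 - x * 1 - x * 0 = 0 := by ring
  rw [e] at l4
  refine l4.congr' ?_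
  filter_upwards [eventually_gt_atTop 0] with t ht
  unfold Gfun
  have e1 : 1 + x / t = (t + x) / t := by field_simp
  have e2 : 1 + 1 / t = (t + 1) / t := by field_simp
  rw [e1, e2, Real.log_div (by positivity) ht.ne', Real.log_div (by positivity) ht.ne']
  ring

lemma hfun_nonneg {x : ℝ} (hx : 0 ≤ x) (hx1 : x ≤ 1) {t : ℝ} (ht : 0 < t) : 0 ≤ hfun x t := by
  unfold hfun
  have h1 : (1 + 1 / t) ^ x ≤ 1 + x * (1 / t) :=
    rpow_one_add_le_one_add_mul_self (by have := one_div_pos.2 ht; linarith) hx hx1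
  have h2 : 0 < 1 + 1 / t := by positivity
  have h3 := Real.log_le_log (Real.rpow_pos_of_pos h2 x) h1
  rw [Real.log_rpow h2] at h3
  have : 1 + x * (1 / t) = 1 + x / t := by ring
  rw [this] at h3
  linarith

lemma hfun_nonpos {x : ℝ} (hx1 : 1 ≤ x) {t : ℝ} (ht : 0 < t) : hfun x t ≤ 0 := by
  unfold hfun
  have h1 : 1 + x * (1 / t) ≤ (1 + 1 / t) ^ x :=
    one_add_mul_self_le_rpow_one_add (by have := one_div_pos.2 ht; linarith) hx1
  have h2 : 0 < 1 + 1 / t := by positivity
  have h3 := Real.log_le_log (by positivity) h1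
  rw [Real.log_rpow h2] at h3
  have : 1 + x * (1 / t) = 1 + x / t := by ring
  rw [this] at h3
  linarith

lemma integrable_hfun {x : ℝ} (hx : 0 ≤ x) : IntegrableOn (hfun x) (Ioi 0) := by
  rcases le_total x 1 with h | h
  · exact integrableOn_Ioi_deriv_of_nonneg (continuous_Gfun x).continuousWithinAt
      (fun t ht => hasDerivAt_Gfun hx ht) (fun t ht => hfun_nonneg hx h ht) (tendsto_Gfun hx)
  · exact integrableOn_Ioi_deriv_of_nonpos (continuous_Gfun x).continuousWithinAt
      (fun t ht => hasDerivAt_Gfun hx ht) (fun t ht => hfun_nonpos h ht) (tendsto_Gfun hx)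

lemma integral_hfun {x : ℝ} (hx : 0 ≤ x) : ∫ t in Ioi (0 : ℝ), hfun x t = Real.negMulLog x := by
  rw [integral_Ioi_of_hasDerivAt_of_tendsto (continuous_Gfun x).continuousWithinAt
    (fun t ht => hasDerivAt_Gfun hx ht) (integrable_hfun hx) (tendsto_Gfun hx)]
  simp [Gfun, Real.negMulLog]

section
variable {ι : Type*} [Fintype ι] [DecidableEq ι]

lemma vnEntropy_eq_sum {N : Matrix ι ι ℂ} (hN : N.IsHermitian) :
    vnEntropy N = ∑ i, Real.negMulLog (hN.eigenvalues i) := by
  unfold vnEntropy
  rw [dif_pos hN, ← Finset.sum_neg_distrib]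
  exact Finset.sum_congr rfl fun i _ => by simp [Real.negMulLog]

/-- log-determinant function -/
noncomputable def LD (N : Matrix ι ι ℂ) (t : ℝ) : ℝ := Real.log (1 + ((t⁻¹ : ℝ) : ℂ) • N).det.re

lemma det_one_add_smul {N : Matrix ι ι ℂ} (hN : N.IsHermitian) (u : ℝ) :
    (1 + (u : ℂ) • N).det = ((∏ i, (1 + u * hN.eigenvalues i) : ℝ) : ℂ) := by
  have hs := hN.spectral_theorem
  rw [Unitary.conjStarAlgAut_apply] at hs
  set U := (hN.eigenvectorUnitary : Matrix ι ι ℂ) with hU
  have hUU : U * star U = 1 := Unitary.coe_mul_star_self hN.eigenvectorUnitary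
  have hUU' : star U * U = 1 := Unitary.coe_star_mul_self hN.eigenvectorUnitary
  have e : 1 + (u : ℂ) • N = U * (1 + (u : ℂ) • diagonal (RCLike.ofReal ∘ hN.eigenvalues)) * star U := by
    conv_lhs => rw [hs]
    rw [Matrix.mul_add, Matrix.add_mul, Matrix.mul_one, hUU, Matrix.mul_smul, Matrix.smul_mul]
  rw [e, det_mul, det_mul, mul_comm U.det, mul_assoc, ← det_mul, hUU, det_one, mul_one]
  have e2 : (1 : Matrix ι ι ℂ) + (u : ℂ) • diagonal (RCLike.ofReal ∘ hN.eigenvalues) =
      diagonal (fun i => (1 : ℂ) + u * (hN.eigenvalues i : ℂ)) := by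
    rw [← diagonal_one, ← diagonal_smul, diagonal_add]
    rfl
  rw [e2, det_diagonal]
  push_cast
  rfl

lemma LD_eq {N : Matrix ι ι ℂ} (hN : N.PosSemidef) {t : ℝ} (ht : 0 < t) :
    LD N t = ∑ i, Real.log (1 + hN.1.eigenvalues i / t) := by
  unfold LD
  rw [det_one_add_smul hN.1, Complex.ofReal_re, Real.log_prod]
  · refine Finset.sum_congr rfl fun i _ => ?_
    congr 1; ring
  · intro i _
    have := hN.eigenvalues_nonneg i
    positivity

lemma trace_re_eq {N : Matrix ι ι ℂ} (hN : N.IsHermitian) : N.trace.re = ∑ i, hN.eigenvalues i := by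
  rw [hN.trace_eq_sum_eigenvalues]
  simp

lemma entropy_integrand_eq {N : Matrix ι ι ℂ} (hN : N.PosSemidef) {t : ℝ} (ht : 0 < t) :
    LD N t - N.trace.re * Real.log (1 + 1 / t) = ∑ i, hfun (hN.1.eigenvalues i) t := by
  rw [LD_eq hN ht, trace_re_eq hN.1]
  unfold hfun
  rw [Finset.sum_sub_distrib, Finset.sum_mul]

lemma integrable_entropy {N : Matrix ι ι ℂ} (hN : N.PosSemidef) :
    IntegrableOn (fun t => LD N t - N.trace.re * Real.log (1 + 1 / t)) (Ioi 0) := by
  have : IntegrableOn (fun t => ∑ i, hfun (hN.1.eigenvalues i) t) (Ioi 0) :=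
    integrable_finsetSum _ fun i _ => integrable_hfun (hN.eigenvalues_nonneg i)
  refine this.congr_fun (fun t ht => (entropy_integrand_eq hN ht).symm) measurableSet_Ioi

lemma entropy_integral {N : Matrix ι ι ℂ} (hN : N.PosSemidef) :
    vnEntropy N = ∫ t in Ioi (0 : ℝ), (LD N t - N.trace.re * Real.log (1 + 1 / t)) := by
  rw [setIntegral_congr_fun measurableSet_Ioi (fun t ht => entropy_integrand_eq hN ht),
    integral_finsetSum _ fun i _ => integrable_hfun (hN.eigenvalues_nonneg i), vnEntropy_eq_sum hN.1]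
  exact Finset.sum_congr rfl fun i _ => (integral_hfun (hN.eigenvalues_nonneg i)).symm

end


end Crest.Agent.GAD
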