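import Crest.Agent.S0534_Star
import Crest.Prelude.Def_AmpDamp
/-!
Convexity of the output entropy of the damping channel on pure states, and the rate function.
-/
set_option autoImplicit false
set_option linter.unusedSimpArgs false
set_option linter.unusedSectionVars false
open MeasureTheory Filter Topology
open Set (Ioi)

namespace Crest.Agent.GAD

/-- `K T u = ent2 T (u^2) - η T`. -/
noncomputable def Kf (T u : ℝ) : ℝ := ent2 T (u ^ 2) - Real.negMulLog T
noncomputable def kfun (T u t : ℝ) : ℝ := Real.log (1 + u ^ 2 / (t ^ 2 + T * t))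

lemma kdisc {T u : ℝ} (hu : 0 ≤ u) (hTu : 2 * u ≤ T) : 0 ≤ T ^ 2 - 4 * u ^ 2 := by nlinarith

lemma kfun_eq {T u t : ℝ} (hu : 0 ≤ u) (hTu : 2 * u ≤ T) (ht : 0 < t) :
    kfun T u t = hfun (rootP T (u ^ 2)) t + hfun (rootM T (u ^ 2)) t - hfun T t := by
  have hT : 0 ≤ T := by linarith
  have hD : 0 ≤ u ^ 2 := sq_nonneg u
  have h1 := rootP_add_rootM T (u ^ 2)
  have h2 := rootP_mul_rootM (kdisc hu hTu)
  have hp := rootP_nonneg (D := u ^ 2) hT
  have hm := rootM_nonneg hT hD
  set P := rootP T (u ^ 2)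
  set M := rootM T (u ^ 2)
  have e1 : 1 + u ^ 2 / (t ^ 2 + T * t) = ((1 + P / t) * (1 + M / t)) / (1 + T / t) := by
    rw [eq_div_iff (by positivity)]
    have : (1 + P / t) * (1 + M / t) = 1 + (P + M) / t + (P * M) / t ^ 2 := by field_simp; ring
    rw [this, h1, h2]
    have h3 : t ^ 2 + T * t = t * (t + T) := by ring
    rw [h3]
    have h4 : 0 < t + T := by positivity
    field_simp
  unfold kfun hfun
  rw [e1, Real.log_div (by positivity) (by positivity), Real.log_mul (by positivity) (by positivity)]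
  rw [← h1]
  ring

lemma integrable_kfun {T u : ℝ} (hu : 0 ≤ u) (hTu : 2 * u ≤ T) : IntegrableOn (kfun T u) (Ioi 0) := by
  have hT : 0 ≤ T := by linarith
  have := ((integrable_hfun (rootP_nonneg (D := u ^ 2) hT)).add (integrable_hfun (rootM_nonneg hT (sq_nonneg u)))).sub
    (integrable_hfun hT)
  exact IntegrableOn.congr_fun this (fun t ht => (kfun_eq hu hTu ht).symm) measurableSet_Ioi

lemma integral_kfun {T u : ℝ} (hu : 0 ≤ u) (hTu : 2 * u ≤ T) : ∫ t in Ioi (0 : ℝ), kfun T u t = Kf T u := by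
  have hT : 0 ≤ T := by linarith
  have i1 := integrable_hfun (rootP_nonneg (D := u ^ 2) hT)
  have i2 := integrable_hfun (rootM_nonneg hT (sq_nonneg u))
  rw [setIntegral_congr_fun measurableSet_Ioi (fun t ht => kfun_eq hu hTu ht)]
  have i12 : Integrable (fun t => hfun (rootP T (u ^ 2)) t + hfun (rootM T (u ^ 2)) t)
    (volume.restrict (Ioi 0)) := i1.add i2
  rw [integral_sub i12 (integrable_hfun hT), integral_add i1 i2,
    integral_hfun (rootP_nonneg hT), integral_hfun (rootM_nonneg hT (sq_nonneg u)), integral_hfun hT]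
  rfl

lemma Kf_smul {c : ℝ} (hc : 0 ≤ c) (T u : ℝ) : Kf (c * T) (c * u) = c * Kf T u := by
  unfold Kf
  rw [mul_pow, ent2_smul hc, negMulLog_smul']
  ring

lemma Kf_zero_right {T : ℝ} (hT : 0 ≤ T) : Kf T 0 = 0 := by
  rw [← integral_kfun le_rfl (by linarith : 2 * (0 : ℝ) ≤ T)]
  simp [kfun]

lemma Kf_mono {T u u' : ℝ} (hu : 0 ≤ u) (huu : u ≤ u') (hT : 2 * u' ≤ T) : Kf T u ≤ Kf T u' := by
  have hT0 : 0 ≤ T := by linarith
  rw [← integral_kfun hu (by linarith), ← integral_kfun (hu.trans huu) hT]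
  refine setIntegral_mono_on (integrable_kfun hu (by linarith)) (integrable_kfun (hu.trans huu) hT) measurableSet_Ioi ?_
  intro t ht
  have ht' : 0 < t := ht
  unfold kfun
  have : 0 < t ^ 2 + T * t := by positivity
  apply Real.log_le_log (by positivity)
  gcongr

/-- subadditivity of `K` -/
theorem Kf_sum {ι : Type*} [Fintype ι] (T u : ι → ℝ) (hu : ∀ i, 0 ≤ u i) (hTu : ∀ i, 2 * u i ≤ T i) :
    Kf (∑ i, T i) (∑ i, u i) ≤ ∑ i, Kf (T i) (u i) := by
  have hT : ∀ i, 0 ≤ T i := fun i => by linarith [hu i, hTu i]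
  set TT := ∑ i, T i with hTT
  set U := ∑ i, u i with hU
  have hTT0 : 0 ≤ TT := Finset.sum_nonneg fun i _ => hT i
  have hU0 : 0 ≤ U := Finset.sum_nonneg fun i _ => hu i
  have hUT : 2 * U ≤ TT := by
    rw [hU, hTT, Finset.mul_sum]
    exact Finset.sum_le_sum fun i _ => hTu i
  rcases eq_or_lt_of_le hU0 with h0 | hUpos
  · have hui : ∀ i, u i = 0 := fun i =>
      (Finset.sum_eq_zero_iff_of_nonneg (fun i _ => hu i)).1 h0.symm i (Finset.mem_univ i)
    rw [← h0, Kf_zero_right hTT0, Finset.sum_congr rfl fun i _ => by rw [hui i, Kf_zero_right (hT i)]]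
    simp
  set α : ι → ℝ := fun i => u i / U with hα
  have hα0 : ∀ i, 0 ≤ α i := fun i => div_nonneg (hu i) hU0
  have hα1 : ∑ i, α i = 1 := by rw [hα, ← Finset.sum_div, ← hU, div_self hUpos.ne']
  -- normalized T
  set S : ι → ℝ := fun i => if u i = 0 then TT else T i / α i with hS
  have hS2 : ∀ i, 2 * U ≤ S i := by
    intro i
    simp only [hS]
    split_ifs with h
    · exact hUT
    · have hui : 0 < u i := lt_of_le_of_ne (hu i) (Ne.symm h)
      rw [hα, div_div_eq_mul_div, le_div_iff₀ hui]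
      nlinarith [hTu i]
  have hterm : ∀ i, Kf (T i) (u i) = α i * Kf (S i) U := by
    intro i
    simp only [hS]
    split_ifs with h
    · rw [h, Kf_zero_right (hT i)]
      simp [hα, h]
    · have hui : 0 < u i := lt_of_le_of_ne (hu i) (Ne.symm h)
      have hαi : 0 < α i := div_pos hui hUpos
      rw [← Kf_smul (hα0 i), mul_div_cancel₀ _ hαi.ne']
      congr 1
      simp only [hα]
      field_simp
  rw [Finset.sum_congr rfl fun i _ => hterm i]
  have e1 : ∀ i, α i * Kf (S i) U = ∫ t in Ioi (0 : ℝ), α i * kfun (S i) U t := by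
    intro i
    rw [integral_const_mul, integral_kfun hU0 (hS2 i)]
  rw [Finset.sum_congr rfl fun i _ => e1 i, ← integral_kfun hU0 hUT, ← integral_finsetSum _ (fun i _ =>
      (integrable_kfun hU0 (hS2 i)).const_mul (α i))]
  refine setIntegral_mono_on (integrable_kfun hU0 hUT)
      (integrable_finsetSum _ (fun i _ => (integrable_kfun hU0 (hS2 i)).const_mul (α i)))
      measurableSet_Ioi ?_
  intro t ht
  have ht' : 0 < t := ht
  have hs0 : 0 < t ^ 2 + TT * t := by positivity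
  have hsi : ∀ i, 0 < t ^ 2 + S i * t := by
    intro i
    have : 0 ≤ S i := by linarith [hS2 i]
    positivity
  have tang : ∀ i, _ := fun i => log_tangent (k := U ^ 2) (b := t ^ 2 + S i * t) (c := 1) (b0 := t ^ 2 + TT * t) (c0 := 1)
    (by positivity) (hsi i) one_pos hs0 one_pos
  simp only [mul_one, sub_self, zero_div, add_zero] at tang
  set θ := U ^ 2 / (U ^ 2 + (t ^ 2 + TT * t)) with hθ
  have hθ0 : 0 ≤ θ := by positivity
  have hsum : ∑ i, α i * (Real.log (1 + U ^ 2 / (t ^ 2 + TT * t)) -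
      θ * ((t ^ 2 + S i * t - (t ^ 2 + TT * t)) / (t ^ 2 + TT * t))) ≤
      ∑ i, α i * Real.log (1 + U ^ 2 / (t ^ 2 + S i * t)) :=
    Finset.sum_le_sum fun i _ => mul_le_mul_of_nonneg_left (tang i) (hα0 i)
  refine le_trans ?_ hsum
  have e : ∀ i, α i * (Real.log (1 + U ^ 2 / (t ^ 2 + TT * t)) -
      θ * ((t ^ 2 + S i * t - (t ^ 2 + TT * t)) / (t ^ 2 + TT * t))) =
      α i * Real.log (1 + U ^ 2 / (t ^ 2 + TT * t)) - (θ * t / (t ^ 2 + TT * t)) * (α i * (S i) - α i * TT) := by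
    intro i; ring
  rw [Finset.sum_congr rfl fun i _ => e i, Finset.sum_sub_distrib, ← Finset.sum_mul, hα1, one_mul, ← Finset.mul_sum,
    Finset.sum_sub_distrib, ← Finset.sum_mul, hα1, one_mul]
  have hle : ∑ i, α i * S i ≤ TT := by
    rw [hTT]
    refine Finset.sum_le_sum fun i _ => ?_
    simp only [hS]
    split_ifs with h
    · simp only [hα, h]
      simpa using hT i
    · have hui : 0 < u i := lt_of_le_of_ne (hu i) (Ne.symm h)
      have hαi : 0 < α i := div_pos hui hUpos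
      rw [mul_div_cancel₀ _ hαi.ne']
  have : (θ * t / (t ^ 2 + TT * t)) * (∑ i, α i * S i - TT) ≤ 0 :=
    mul_nonpos_of_nonneg_of_nonpos (by positivity) (by linarith)
  unfold kfun
  linarith

section vd
variable {a b c d l : ℝ} (ha : 0 ≤ a) (hb : 0 ≤ b) (hc : 0 ≤ c) (hd : 0 ≤ d) (hl : 0 ≤ l) (hac : a + c = 1)
  (hbd : b + d = 1) (hdet : a * d - b * c = l)
include ha hb hc hd

lemma vdet_nonneg {x z : ℝ} (hx : 0 ≤ x) (hz : 0 ≤ z) : 0 ≤ vdet a b c d x z := by
  unfold vdet; positivity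

include hl hac hbd hdet

lemma vdet_disc {x z : ℝ} (hx : 0 ≤ x) (hz : 0 ≤ z) : 2 * √(vdet a b c d x z) ≤ x + z := by
  have h4 : 4 * vdet a b c d x z ≤ (x + z) ^ 2 := by
    have h3 : (a * x + b * z) + (c * x + d * z) = x + z := by linear_combination x * hac + z * hbd
    have h5 : vdet a b c d x z = (a * x + b * z) * (c * x + d * z) - l * (x * z) := by
      unfold vdet; rw [← hdet]; ring
    rw [h5, ← h3]
    nlinarith [sq_nonneg ((a * x + b * z) - (c * x + d * z)), mul_nonneg hl (mul_nonneg hx hz)]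
  have h6 : 2 * √(vdet a b c d x z) = √(4 * vdet a b c d x z) := by
    rw [Real.sqrt_mul (by norm_num), show (4 : ℝ) = 2 ^ 2 by norm_num, Real.sqrt_sq (by norm_num)]
  rw [h6]
  exact Real.sqrt_le_iff.2 ⟨by positivity, h4⟩

lemma vdet_add {x z x' z' : ℝ} (hx : 0 ≤ x) (hz : 0 ≤ z) (hx' : 0 ≤ x') (hz' : 0 ≤ z') :
    √(vdet a b c d (x + x') (z + z')) ≤ √(vdet a b c d x z) + √(vdet a b c d x' z') := by
  have hv := vdet_nonneg ha hb hc hd hx hz
  have hv' := vdet_nonneg ha hb hc hd hx' hz'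
  rw [Real.sqrt_le_iff]
  refine ⟨by positivity, ?_⟩
  have hB : a * c * (x * x') + b * c * (x * z' + x' * z) + b * d * (z * z') ≤
      √(vdet a b c d x z) * √(vdet a b c d x' z') := by
    rw [← Real.sqrt_mul hv]
    apply Real.le_sqrt_of_sq_le
    have : vdet a b c d x z * vdet a b c d x' z' -
        (a * c * (x * x') + b * c * (x * z' + x' * z) + b * d * (z * z')) ^ 2 = b * c * l * (x * z' - x' * z) ^ 2 := by
      unfold vdet; rw [← hdet]; ring
    have h0 : 0 ≤ b * c * l * (x * z' - x' * z) ^ 2 := by positivity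
    linarith
  have e : vdet a b c d (x + x') (z + z') = vdet a b c d x z + vdet a b c d x' z' +
      2 * (a * c * (x * x') + b * c * (x * z' + x' * z) + b * d * (z * z')) := by
    unfold vdet; ring
  rw [e]
  nlinarith [Real.sq_sqrt hv, Real.sq_sqrt hv']

lemma vdet_sum {ι : Type*} (s : Finset ι) (x z : ι → ℝ) (hx : ∀ i, 0 ≤ x i) (hz : ∀ i, 0 ≤ z i) :
    √(vdet a b c d (∑ i ∈ s, x i) (∑ i ∈ s, z i)) ≤ ∑ i ∈ s, √(vdet a b c d (x i) (z i)) := by
  classical
  induction s using Finset.induction_on with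
  | empty => simp [vdet]
  | insert j s hj ih =>
    rw [Finset.sum_insert hj, Finset.sum_insert hj, Finset.sum_insert hj]
    refine (vdet_add ha hb hc hd hl hac hbd hdet (hx j) (hz j) (Finset.sum_nonneg fun i _ => hx i)
      (Finset.sum_nonneg fun i _ => hz i)).trans ?_
    linarith

/-- the normalized pure output entropy is subadditive -/
theorem fhat_sum {ι : Type*} [Fintype ι] (x z : ι → ℝ) (hx : ∀ i, 0 ≤ x i) (hz : ∀ i, 0 ≤ z i) :
    ent2 (∑ i, x i + ∑ i, z i) (vdet a b c d (∑ i, x i) (∑ i, z i)) - Real.negMulLog (∑ i, x i + ∑ i, z i) ≤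
      ∑ i, (ent2 (x i + z i) (vdet a b c d (x i) (z i)) - Real.negMulLog (x i + z i)) := by
  have e : ∀ x z : ℝ, 0 ≤ x → 0 ≤ z → ent2 (x + z) (vdet a b c d x z) - Real.negMulLog (x + z) =
      Kf (x + z) (√(vdet a b c d x z)) := by
    intro x z hx hz
    unfold Kf
    rw [Real.sq_sqrt (vdet_nonneg ha hb hc hd hx hz)]
  have hX : 0 ≤ ∑ i, x i := Finset.sum_nonneg fun i _ => hx i
  have hZ : 0 ≤ ∑ i, z i := Finset.sum_nonneg fun i _ => hz i
  rw [e _ _ hX hZ, Finset.sum_congr rfl fun i _ => e _ _ (hx i) (hz i)]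
  have h1 := vdet_sum ha hb hc hd hl hac hbd hdet Finset.univ x z hx hz
  have h2 := Kf_sum (fun i => x i + z i) (fun i => √(vdet a b c d (x i) (z i))) (fun i => Real.sqrt_nonneg _)
    (fun i => vdet_disc ha hb hc hd hl hac hbd hdet (hx i) (hz i))
  have h3 : 2 * ∑ i, √(vdet a b c d (x i) (z i)) ≤ ∑ i, x i + ∑ i, z i := by
    rw [Finset.mul_sum, ← Finset.sum_add_distrib]
    exact Finset.sum_le_sum fun i _ => vdet_disc ha hb hc hd hl hac hbd hdet (hx i) (hz i)
  rw [Finset.sum_add_distrib] at h2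
  exact (Kf_mono (Real.sqrt_nonneg _) h1 h3).trans h2

end vd

end Crest.Agent.GAD
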