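import Crest.Agent.S0534_Chan
import Crest.Agent.S0534_Scalar2
/-!
Additivity theorem for the damping channel.
-/
set_option autoImplicit false
set_option linter.unusedSimpArgs false
set_option linter.unusedSectionVars false
open Matrix
open scoped ComplexOrder Kronecker
open Crest.Quantum Crest.MathPhysics.AmpDamp

namespace Crest.Agent.GAD

/-- the pure output entropy -/
noncomputable def fout (γ ν p : ℝ) : ℝ := ent2 1 (vdet (ca γ ν) (cb γ ν) (cc γ ν) (cd γ ν) (1 - p) p)

lemma H2_binEntropy {u w : ℝ} (h : u + w = 1) : H2 u w = Real.binEntropy w := by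
  unfold H2
  rw [h, Real.negMulLog_one, sub_zero, Real.binEntropy_eq_negMulLog_add_negMulLog_one_sub]
  have : u = 1 - w := by linarith
  rw [this]; ring

lemma gadRate_eq (γ ν p : ℝ) : gadRate γ ν p =
    H2 (ca γ ν * (1 - p) + cb γ ν * p) (cc γ ν * (1 - p) + cd γ ν * p) - fout γ ν p := by
  unfold gadRate
  have h1 : (ca γ ν * (1 - p) + cb γ ν * p) + (cc γ ν * (1 - p) + cd γ ν * p) = 1 := by
    unfold ca cb cc cd; ring
  have h2 : cc γ ν * (1 - p) + cd γ ν * p = (1 - γ) * p + γ * ν := by unfold cc cd; ring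
  rw [H2_binEntropy h1, h2]
  congr 1
  have h3 : vdet (ca γ ν) (cb γ ν) (cc γ ν) (cd γ ν) (1 - p) p =
      γ * ν * (1 - ν) + γ * (1 - γ) * (p - ν) ^ 2 := by
    unfold vdet ca cb cc cd; ring
  unfold fout ent2
  rw [h3, Real.binEntropy_eq_negMulLog_add_negMulLog_one_sub]
  unfold rootP rootM
  rw [one_pow]
  congr 2
  ring

section density
variable {d : Type*} [Fintype d] [DecidableEq d]

lemma psd_trace_ofReal {N : Matrix d d ℂ} (h : N.PosSemidef) : N.trace = ((N.trace.re : ℝ) : ℂ) := by
  have : N.trace = star N.trace := by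
    conv_lhs => rw [← h.1.eq]
    rw [trace_conjTranspose]
  have h2 := congrArg Complex.im this
  rw [Complex.star_def, Complex.conj_im] at h2
  exact Complex.ext (by simp) (by simp; linarith)

lemma exists_density_scale [Nonempty d] {N : Matrix d d ℂ} (h : N.PosSemidef) :
    ∃ σ : Matrix d d ℂ, IsDensity σ ∧ N = ((N.trace.re : ℝ) : ℂ) • σ := by
  rcases eq_or_ne N.trace.re 0 with h0 | h0
  · have hN := psd_trace_re_zero h h0
    obtain ⟨i⟩ := ‹Nonempty d›
    refine ⟨diagonal (Pi.single i 1), ⟨PosSemidef.diagonal ?_, ?_⟩, ?_⟩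
    · intro j
      rcases eq_or_ne j i with hj | hj
      · subst hj; simp
      · simp [Pi.single_eq_of_ne hj]
    · rw [trace_diagonal]
      simp
    · rw [h0, hN]; simp
  · refine ⟨((N.trace.re⁻¹ : ℝ) : ℂ) • N, ⟨h.smul ?_, ?_⟩, ?_⟩
    · have := psd_trace_nonneg h
      have h2 : 0 ≤ N.trace.re⁻¹ := inv_nonneg.2 this
      exact_mod_cast h2
    · rw [trace_smul, smul_eq_mul, psd_trace_ofReal h, ← Complex.ofReal_mul]
      simp only [Complex.ofReal_re]
      rw [inv_mul_cancel₀ h0]
      simp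
    · rw [smul_smul, ← Complex.ofReal_mul, mul_inv_cancel₀ h0, Complex.ofReal_one, one_smul]

lemma density_trace_re {N : Matrix d d ℂ} (h : IsDensity N) : N.trace.re = 1 := by rw [h.2]; simp

lemma entropy_scaled {σ : Matrix d d ℂ} (h : IsDensity σ) {x : ℝ} (hx : 0 ≤ x) :
    vnEntropy ((x : ℂ) • σ) = x * vnEntropy σ + Real.negMulLog x := by
  rw [entropy_smul h.1 hx, density_trace_re h, one_mul]

lemma density_avg {m : Type*} [Fintype m] {q : m → ℝ} {ρ : m → Matrix d d ℂ} (hq : ∀ a, 0 ≤ q a) (hs : ∑ a, q a = 1)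
    (hρ : ∀ a, IsDensity (ρ a)) : IsDensity (∑ a, (q a : ℂ) • ρ a) := by
  refine ⟨posSemidef_sum _ fun a _ => (hρ a).1.smul (by exact_mod_cast hq a), ?_⟩
  rw [trace_sum]
  simp only [trace_smul, (hρ _).2, smul_eq_mul, mul_one]
  exact_mod_cast hs

end density

section qubit
variable {γ ν : ℝ}

/-- constant `1 × 1` matrix -/
def cst (z : ℂ) : Matrix Unit Unit ℂ := of fun _ _ => z

def gB : Bool ≃ Unit ⊕ Unit where
  toFun b := if b then Sum.inr () else Sum.inl ()
  invFun := Sum.elim (fun _ => false) (fun _ => true)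
  left_inv := by rintro (_ | _) <;> rfl
  right_inv := by rintro (_ | _) <;> rfl

lemma gadMap_blocks (γ ν : ℝ) (M : Matrix Bool Bool ℂ) :
    gadMap γ ν M = (gadBlocks (ca γ ν) (cb γ ν) (cc γ ν) (cd γ ν) (1 - γ) (cst (M false false)) (cst (M false true))
      (cst (M true false)) (cst (M true true))).submatrix gB gB := by
  ext s t
  cases s <;> cases t <;> simp [gadMap, gadBlocks, ca, cb, cc, cd, cst, gB]

lemma cst_psd {M : Matrix Bool Bool ℂ} (hM : M.PosSemidef) :
    (fromBlocks (cst (M false false)) (cst (M false true)) (cst (M true false)) (cst (M true true))).PosSemidef := by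
  have h := hM.submatrix gB.symm
  convert h using 1
  ext i j
  rcases i with i | i <;> rcases j with j | j <;> rfl

lemma entropy_cst {z : ℂ} (hz : 0 ≤ z.re) (him : z.im = 0) : vnEntropy (cst z) = Real.negMulLog z.re := by
  have e : cst z = diagonal (fun _ : Unit => ((z.re : ℝ) : ℂ)) := by
    ext i j
    simp only [cst, of_apply, diagonal_apply, if_true]
    exact Complex.ext (by simp) (by simp [him])
  rw [e, entropy_diagonal _ (fun _ => hz)]
  simp

lemma trace_cst (z : ℂ) : (cst z).trace = z := by simp [cst, trace]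

section
variable (hγ : γ ∈ Set.Icc (0 : ℝ) 1) (hν : ν ∈ Set.Icc (0 : ℝ) 1)
include hγ hν

lemma gadMap_psd {M : Matrix Bool Bool ℂ} (hM : M.PosSemidef) : (gadMap γ ν M).PosSemidef := by
  rw [gadMap_blocks]
  exact (gad_psd hγ hν (cst_psd hM)).submatrix gB

lemma gadMap_entropy {M : Matrix Bool Bool ℂ} (hM : M.PosSemidef) :
    vnEntropy (gadMap γ ν M) = vnEntropy (gadBlocks (ca γ ν) (cb γ ν) (cc γ ν) (cd γ ν) (1 - γ) (cst (M false false))
      (cst (M false true)) (cst (M true false)) (cst (M true true))) := by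
  rw [gadMap_blocks, entropy_submatrix (gad_psd hγ hν (cst_psd hM))]

end

lemma gadMap_trace (M : Matrix Bool Bool ℂ) : (gadMap γ ν M).trace = M.trace := by
  rw [gadMap_blocks, trace_submatrix_equiv, trace_gadBlocks (ca_cc γ ν) (cb_cd γ ν), trace_cst, trace_cst]
  simp only [trace, diag_apply, Fintype.sum_bool]
  rw [add_comm]

lemma gadMap_linear (γ ν : ℝ) : IsLinearMap ℂ (gadMap γ ν) := by
  constructor
  · intro M N
    ext s t
    cases s <;> cases t <;> simp [gadMap] <;> ring
  · intro c M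
    ext s t
    cases s <;> cases t <;> simp [gadMap] <;> ring

lemma diag_im {M : Matrix Bool Bool ℂ} (hM : M.PosSemidef) (i : Bool) : (M i i).im = 0 := by
  have := congrFun (congrFun hM.1 i) i
  rw [conjTranspose_apply] at this
  have h2 := congrArg Complex.im this
  rw [Complex.star_def, Complex.conj_im] at h2
  linarith

section
variable (hγ : γ ∈ Set.Icc (0 : ℝ) 1) (hν : ν ∈ Set.Icc (0 : ℝ) 1)
include hγ hν

lemma gadMap_density {M : Matrix Bool Bool ℂ} (hM : IsDensity M) : IsDensity (gadMap γ ν M) :=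
  ⟨gadMap_psd hγ hν hM.1, by rw [gadMap_trace, hM.2]⟩

lemma gadMap_lower {M : Matrix Bool Bool ℂ} (hM : M.PosSemidef) :
    ent2 ((M false false).re + (M true true).re) (vdet (ca γ ν) (cb γ ν) (cc γ ν) (cd γ ν) (M false false).re
      (M true true).re) ≤ vnEntropy (gadMap γ ν M) := by
  rw [gadMap_entropy hγ hν hM]
  have key := gad_lower hγ hν (cst_psd hM)
  rw [entropy_cst (psd_re_diag hM _) (diag_im hM _), entropy_cst (psd_re_diag hM _) (diag_im hM _), trace_cst,
    trace_cst] at key
  linarith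

lemma gadMap_upper {M : Matrix Bool Bool ℂ} (hM : M.PosSemidef) :
    vnEntropy (gadMap γ ν M) ≤ Real.negMulLog ((M false false).re + (M true true).re) +
      H2 (ca γ ν * (M false false).re + cb γ ν * (M true true).re)
        (cc γ ν * (M false false).re + cd γ ν * (M true true).re) := by
  rw [gadMap_entropy hγ hν hM]
  have key := gad_upper hγ hν (cst_psd hM)
  rw [trace_cst, trace_cst] at key
  have e : cst (M false false) + cst (M true true) = cst (M false false + M true true) := rfl
  rw [e, entropy_cst, Complex.add_re] at key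
  · exact key
  · rw [Complex.add_re]
    exact add_nonneg (psd_re_diag hM _) (psd_re_diag hM _)
  · rw [Complex.add_im, diag_im hM, diag_im hM, add_zero]

end

/-- pure input states -/
noncomputable def psi (p s : ℝ) : Matrix Bool Bool ℂ :=
  vecMulVec (fun b : Bool => if b then ((s * √p : ℝ) : ℂ) else ((√(1 - p) : ℝ) : ℂ))
    (star (fun b : Bool => if b then ((s * √p : ℝ) : ℂ) else ((√(1 - p) : ℝ) : ℂ)))

lemma psi_ff {p s : ℝ} (hp : p ∈ Set.Icc (0 : ℝ) 1) : psi p s false false = ((1 - p : ℝ) : ℂ) := by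
  unfold psi
  rw [vecMulVec_apply]
  simp only [Bool.false_eq_true, if_false, Pi.star_apply, Complex.star_def, Complex.conj_ofReal]
  rw [← Complex.ofReal_mul, Real.mul_self_sqrt (by linarith [hp.2])]

lemma psi_tt {p s : ℝ} (hp : p ∈ Set.Icc (0 : ℝ) 1) (hs : s * s = 1) : psi p s true true = (p : ℂ) := by
  unfold psi
  rw [vecMulVec_apply]
  simp only [if_true, Pi.star_apply, Complex.star_def, Complex.conj_ofReal]
  rw [← Complex.ofReal_mul]
  congr 1
  calc s * √p * (s * √p) = (s * s) * (√p * √p) := by ring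
    _ = p := by rw [hs, Real.mul_self_sqrt hp.1, one_mul]

lemma psi_ft (p s : ℝ) : psi p s false true = ((s * (√(1 - p) * √p) : ℝ) : ℂ) := by
  unfold psi
  rw [vecMulVec_apply]
  simp only [if_true, Bool.false_eq_true, if_false, Pi.star_apply, Complex.star_def, Complex.conj_ofReal]
  rw [← Complex.ofReal_mul]
  congr 1
  ring

lemma psi_tf (p s : ℝ) : psi p s true false = ((s * (√(1 - p) * √p) : ℝ) : ℂ) := by
  unfold psi
  rw [vecMulVec_apply]
  simp only [if_true, Bool.false_eq_true, if_false, Pi.star_apply, Complex.star_def, Complex.conj_ofReal]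
  rw [← Complex.ofReal_mul]
  congr 1
  ring

lemma psi_psd (p s : ℝ) : (psi p s).PosSemidef := posSemidef_vecMulVec_self_star _

lemma psi_density {p s : ℝ} (hp : p ∈ Set.Icc (0 : ℝ) 1) (hs : s * s = 1) : IsDensity (psi p s) := by
  refine ⟨psi_psd p s, ?_⟩
  simp only [trace, diag_apply, Fintype.sum_bool, psi_ff hp, psi_tt hp hs]
  rw [← Complex.ofReal_add]
  simp

lemma det_bool (N : Matrix Bool Bool ℂ) : N.det = N false false * N true true - N false true * N true false := by
  rw [← det_submatrix_equiv_self finTwoEquiv N, det_fin_two]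
  rfl

lemma entropy_bool {N : Matrix Bool Bool ℂ} (hN : N.PosSemidef) {T D : ℝ} (hT : 0 ≤ T) (hD : 0 ≤ D)
    (hdisc : 0 ≤ T ^ 2 - 4 * D) (htr : N false false + N true true = (T : ℂ))
    (hdet : N false false * N true true - N false true * N true false = (D : ℂ)) : vnEntropy N = ent2 T D := by
  have h := entropy_of_det hN (fun b : Bool => if b then rootM T D else rootP T D) ?_ ?_ ?_
  · rw [h]
    simp only [Fintype.sum_bool, if_true, Bool.false_eq_true, if_false]
    unfold ent2
    ring
  · intro b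
    cases b
    · exact rootP_nonneg hT
    · exact rootM_nonneg hT hD
  · intro u _
    rw [det_bool]
    simp only [Matrix.add_apply, Matrix.smul_apply, smul_eq_mul, Matrix.one_apply_eq, Fintype.prod_bool, if_true,
      Bool.false_eq_true, if_false, Matrix.one_apply, reduceCtorEq]
    have e : (1 + (u : ℂ) * N false false) * (1 + (u : ℂ) * N true true) - (0 + (u : ℂ) * N false true) * (0 + (u : ℂ) * N true false)
      = ((1 + u * T + u ^ 2 * D : ℝ) : ℂ) := by
      push_cast
      rw [← htr, ← hdet]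
      ring
    rw [e, Complex.ofReal_re]
    have h1 := rootP_add_rootM T D
    have h2 := rootP_mul_rootM hdisc
    linear_combination (-u) * h1 - (u ^ 2) * h2
  · simp only [trace, diag_apply, Fintype.sum_bool, if_true, Bool.false_eq_true, if_false]
    rw [add_comm (N true true), htr, Complex.ofReal_re, add_comm, rootP_add_rootM]

section
variable (hγ : γ ∈ Set.Icc (0 : ℝ) 1) (hν : ν ∈ Set.Icc (0 : ℝ) 1)
include hγ hν

lemma entropy_psi {p s : ℝ} (hp : p ∈ Set.Icc (0 : ℝ) 1) (hs : s * s = 1) :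
    vnEntropy (gadMap γ ν (psi p s)) = fout γ ν p := by
  unfold fout
  have hp' : 0 ≤ 1 - p := by linarith [hp.2]
  have hv := vdet_nonneg (ca_nonneg hγ hν) (cb_nonneg hγ hν) (cc_nonneg hγ hν) (cd_nonneg hγ hν) hp' hp.1
  have hdisc := vdet_disc (ca_nonneg hγ hν) (cb_nonneg hγ hν) (cc_nonneg hγ hν) (cd_nonneg hγ hν)
    (by linarith [hγ.2] : 0 ≤ 1 - γ) (ca_cc γ ν) (cb_cd γ ν) (c_det γ ν) hp' hp.1
  rw [sub_add_cancel] at hdisc
  refine entropy_bool (gadMap_psd hγ hν (psi_psd p s)) zero_le_one hv ?_ ?_ ?_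
  · have h1 := Real.sq_sqrt hv
    have h2 := Real.sqrt_nonneg (vdet (ca γ ν) (cb γ ν) (cc γ ν) (cd γ ν) (1 - p) p)
    nlinarith
  · simp only [gadMap, of_apply, psi_ff hp, psi_tt hp hs, and_self, if_true, Bool.false_eq_true, if_false,
      reduceCtorEq, Bool.true_eq_false]
    push_cast
    ring
  · simp only [gadMap, of_apply, psi_ff hp, psi_tt hp hs, psi_ft, psi_tf, and_self, if_true, Bool.false_eq_true, if_false,
      reduceCtorEq, Bool.true_eq_false, and_false, false_and, and_true, true_and]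
    simp only [← Complex.ofReal_mul, ← Complex.ofReal_add, ← Complex.ofReal_sub]
    congr 1
    have e1 : √(1 - γ) * √(1 - γ) = 1 - γ := Real.mul_self_sqrt (by linarith [hγ.2])
    have e2 : √p * √p = p := Real.mul_self_sqrt hp.1
    have e3 : √(1 - p) * √(1 - p) = 1 - p := Real.mul_self_sqrt hp'
    have e4 : √(1 - γ) * (s * (√(1 - p) * √p)) * (√(1 - γ) * (s * (√(1 - p) * √p))) = (1 - γ) * ((1 - p) * p) := by
      calc _ = (√(1 - γ) * √(1 - γ)) * ((s * s) * ((√(1 - p) * √(1 - p)) * (√p * √p))) := by ring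
        _ = _ := by rw [e1, e2, e3, hs, one_mul]
    rw [e4]
    unfold vdet ca cb cc cd
    ring

lemma entropy_gad_diag {x z : ℝ} (hx : 0 ≤ x) (hz : 0 ≤ z) (hxz : x + z = 1) {M : Matrix Bool Bool ℂ}
    (h1 : M false false = (x : ℂ)) (h2 : M true true = (z : ℂ)) (h3 : M false true = 0) (h4 : M true false = 0) :
    vnEntropy (gadMap γ ν M) = H2 (ca γ ν * x + cb γ ν * z) (cc γ ν * x + cd γ ν * z) := by
  have e : gadMap γ ν M = diagonal (fun b : Bool => ((if b then cc γ ν * x + cd γ ν * z else ca γ ν * x + cb γ ν * z : ℝ) : ℂ)) := by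
    ext s t
    cases s <;> cases t <;> simp [gadMap, h1, h2, h3, h4, ca, cb, cc, cd]
  have ha := ca_nonneg hγ hν
  have hb := cb_nonneg hγ hν
  have hc := cc_nonneg hγ hν
  have hd := cd_nonneg hγ hν
  rw [e, entropy_diagonal]
  · simp only [Fintype.sum_bool, if_true, Bool.false_eq_true, if_false]
    unfold H2
    have : ca γ ν * x + cb γ ν * z + (cc γ ν * x + cd γ ν * z) = 1 := by
      have e1 := ca_cc γ ν
      have e2 := cb_cd γ ν
      linear_combination x * e1 + z * e2 + hxz
    rw [this, Real.negMulLog_one]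
    ring
  · intro b
    cases b
    · simp only [Bool.false_eq_true, if_false]; positivity
    · simp only [if_true]; positivity

end

end qubit

/-- an ensemble over an arbitrary finite index type gives one over `Fin m`. -/
lemma exists_fin_ensemble {α d e : Type*} [Fintype α] [Fintype d] [DecidableEq d] [Fintype e] [DecidableEq e] {q : α → ℝ}
    {ρ : α → Matrix d d ℂ} (hq : ∀ a, 0 ≤ q a) (hs : ∑ a, q a = 1) (hρ : ∀ a, IsDensity (ρ a))
    (Φ : Matrix d d ℂ → Matrix e e ℂ) : ∃ (m : ℕ) (q' : Fin m → ℝ) (ρ' : Fin m → Matrix d d ℂ), IsEnsemble q' ρ' ∧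
      holevoInfo Φ q' ρ' = vnEntropy (∑ a, (q a : ℂ) • Φ (ρ a)) - ∑ a, q a * vnEntropy (Φ (ρ a)) := by
  classical
  set f := Fintype.equivFin α
  refine ⟨Fintype.card α, fun i => q (f.symm i), fun i => ρ (f.symm i), ⟨fun i => hq _, ?_, fun i => hρ _⟩, ?_⟩
  · rw [Equiv.sum_comp f.symm q]; exact hs
  · unfold holevoInfo
    rw [Equiv.sum_comp f.symm (fun a => (q a : ℂ) • Φ (ρ a)), Equiv.sum_comp f.symm (fun a => q a * vnEntropy (Φ (ρ a)))]

end Crest.Agent.GAD
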