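import Crest.Agent.S0534_Scalar
import Crest.Agent.S0534_Core
/-!
The three-block entropy inequality (amplitude damping case).
-/
set_option autoImplicit false
set_option linter.unusedSimpArgs false
set_option linter.unusedSectionVars false
open Matrix MeasureTheory Filter Topology
open Set (Ioi)
open scoped ComplexOrder
open Crest.Quantum

namespace Crest.Agent.GAD

section
variable {ι κ : Type*} [Fintype ι] [DecidableEq ι] [Fintype κ] [DecidableEq κ]

lemma entropy_of_det {κ : Type*} [Fintype κ] {N : Matrix ι ι ℂ} (hN : N.PosSemidef) (μ : κ → ℝ)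
    (hμ : ∀ j, 0 ≤ μ j)
    (hdet : ∀ u : ℝ, 0 < u → (1 + (u : ℂ) • N).det.re = ∏ j, (1 + u * μ j))
    (htr : N.trace.re = ∑ j, μ j) : vnEntropy N = ∑ j, Real.negMulLog (μ j) := by
  rw [entropy_integral hN]
  have e : ∀ t ∈ Ioi (0 : ℝ), LD N t - N.trace.re * Real.log (1 + 1 / t) = ∑ j, hfun (μ j) t := by
    intro t ht
    have ht' : 0 < t := ht
    unfold LD hfun
    rw [hdet t⁻¹ (inv_pos.2 ht'), Real.log_prod, htr, Finset.sum_mul, Finset.sum_sub_distrib]
    · congr 1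
      refine Finset.sum_congr rfl fun j _ => ?_
      congr 1; ring
    · intro j _
      have := hμ j
      positivity
  rw [setIntegral_congr_fun measurableSet_Ioi e, integral_finsetSum _ fun j _ => integrable_hfun (hμ j)]
  exact Finset.sum_congr rfl fun j _ => integral_hfun (hμ j)

lemma entropy_congr {N : Matrix ι ι ℂ} {N' : Matrix κ κ ℂ} (hN : N.PosSemidef) (hN' : N'.PosSemidef)
    (hdet : ∀ u : ℝ, 0 < u → (1 + (u : ℂ) • N).det.re = (1 + (u : ℂ) • N').det.re)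
    (htr : N.trace.re = N'.trace.re) : vnEntropy N = vnEntropy N' := by
  rw [entropy_integral hN, entropy_integral hN']
  refine setIntegral_congr_fun measurableSet_Ioi fun t ht => ?_
  have ht' : 0 < t := ht
  simp only [LD]
  rw [hdet t⁻¹ (inv_pos.2 ht'), htr]

lemma entropy_unitary {N U : Matrix ι ι ℂ} (hN : N.PosSemidef) (hU : U * Uᴴ = 1) :
    vnEntropy (U * N * Uᴴ) = vnEntropy N := by
  refine entropy_congr (hN.mul_mul_conjTranspose_same U) hN ?_ ?_
  · intro u _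
    have e : 1 + (u : ℂ) • (U * N * Uᴴ) = U * (1 + (u : ℂ) • N) * Uᴴ := by
      rw [Matrix.mul_add, Matrix.add_mul, Matrix.mul_one, hU, Matrix.mul_smul, Matrix.smul_mul]
    rw [e, det_mul, det_mul, mul_comm U.det, mul_assoc, ← det_mul, hU, det_one, mul_one]
  · rw [trace_mul_comm, ← Matrix.mul_assoc, mul_eq_one_comm.1 hU, Matrix.one_mul]

lemma entropy_submatrix {N : Matrix ι ι ℂ} (hN : N.PosSemidef) (e : κ ≃ ι) :
    vnEntropy (N.submatrix e e) = vnEntropy N := by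
  refine entropy_congr (hN.submatrix e) hN ?_ ?_
  · intro u _
    have e1 : 1 + (u : ℂ) • N.submatrix e e = (1 + (u : ℂ) • N).submatrix e e := by
      ext i j; simp [Matrix.one_apply]
    rw [e1, det_submatrix_equiv_self]
  · simp only [trace, diag_apply, submatrix_apply]
    rw [Equiv.sum_comp e (fun i => N i i)]

lemma entropy_diagonal (μ : ι → ℝ) (hμ : ∀ i, 0 ≤ μ i) :
    vnEntropy (diagonal (fun i => (μ i : ℂ))) = ∑ i, Real.negMulLog (μ i) := by
  have hN : (diagonal (fun i => (μ i : ℂ))).PosSemidef := by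
    apply PosSemidef.diagonal
    intro i
    show (0 : ℂ) ≤ (μ i : ℂ)
    exact_mod_cast hμ i
  refine entropy_of_det hN μ hμ ?_ ?_
  · intro u _
    rw [← diagonal_one, ← diagonal_smul, diagonal_add, det_diagonal]
    rw [← Complex.ofReal_re (∏ j, (1 + u * μ j))]
    push_cast
    rfl
  · simp [trace_diagonal]

lemma entropy_smul {N : Matrix ι ι ℂ} (hN : N.PosSemidef) {c : ℝ} (hc : 0 ≤ c) :
    vnEntropy ((c : ℂ) • N) = c * vnEntropy N + N.trace.re * Real.negMulLog c := by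
  have hcN : ((c : ℂ) • N).PosSemidef := hN.smul (by exact_mod_cast hc)
  rw [entropy_of_det hcN (fun i => c * hN.1.eigenvalues i) (fun i => mul_nonneg hc (hN.eigenvalues_nonneg i)),
    vnEntropy_eq_sum hN.1, trace_re_eq hN.1, Finset.mul_sum, Finset.sum_mul, ← Finset.sum_add_distrib]
  · refine Finset.sum_congr rfl fun i _ => ?_
    rw [Real.negMulLog_mul]; ring
  · intro u _
    rw [smul_smul, ← Complex.ofReal_mul, det_one_add_smul hN.1, Complex.ofReal_re]
    refine Finset.prod_congr rfl fun i _ => by ring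
  · rw [trace_smul, smul_eq_mul, Complex.re_ofReal_mul, trace_re_eq hN.1, Finset.mul_sum]

/-- factorization of a PSD block matrix with diagonal first block -/
lemma exists_factor (x : ι → ℝ) (hx : ∀ i, 0 ≤ x i) (Y Z : Matrix ι ι ℂ)
    (hτ : (fromBlocks (diagonal (fun i => (x i : ℂ))) Y Yᴴ Z).PosSemidef) :
    ∃ (V0 : Matrix ι ι ℂ) (V1 : Matrix ι (ι ⊕ ι) ℂ),
      Y = diagonal (fun i => ((√(x i) : ℝ) : ℂ)) * V0ᴴ ∧ Z = V0 * V0ᴴ + V1 * V1ᴴ := by
  classical
  obtain ⟨B, hBh, hBB⟩ : ∃ B : Matrix (ι ⊕ ι) (ι ⊕ ι) ℂ, Bᴴ = B ∧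
      B * B = fromBlocks (diagonal (fun i => (x i : ℂ))) Y Yᴴ Z := by
    open scoped MatrixOrder in
    refine ⟨CFC.sqrt (fromBlocks (diagonal (fun i => (x i : ℂ))) Y Yᴴ Z), ?_, ?_⟩
    · exact (CFC.sqrt_nonneg _).posSemidef.isHermitian
    · exact CFC.sqrt_mul_sqrt_self _ hτ.nonneg
  set R0 : Matrix ι (ι ⊕ ι) ℂ := B.submatrix Sum.inl id with hR0
  set R1 : Matrix ι (ι ⊕ ι) ℂ := B.submatrix Sum.inr id with hR1
  have hB : B = fromRows R0 R1 := by
    ext i j; rcases i with i | i <;> rfl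
  have hBB' : fromBlocks (R0 * R0ᴴ) (R0 * R1ᴴ) (R1 * R0ᴴ) (R1 * R1ᴴ) =
      fromBlocks (diagonal (fun i => (x i : ℂ))) Y Yᴴ Z := by
    rw [← hBB]
    conv_rhs => rw [← hBh]; arg 1; rw [hBh]
    conv_rhs => rw [hB, conjTranspose_fromRows_eq_fromCols_conjTranspose, fromRows_mul_fromCols]
  obtain ⟨h00, h01, h10, h11⟩ := (fromBlocks_inj).1 hBB'
  set D : Matrix ι ι ℂ := diagonal (fun i => (((√(x i))⁻¹ : ℝ) : ℂ)) with hD
  have hDh : Dᴴ = D := by rw [hD, diagonal_conjTranspose]; congr 1; funext i; simp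
  set Q : Matrix (ι ⊕ ι) ι ℂ := R0ᴴ * D with hQ
  have hQh : Qᴴ = D * R0 := by rw [hQ, conjTranspose_mul, conjTranspose_conjTranspose, hDh]
  -- rows of R0 vanish where x vanishes
  have hrow : ∀ i, x i = 0 → ∀ j, R0 i j = 0 := by
    intro i hi j
    have := congrFun (congrFun h00 i) i
    rw [diagonal_apply_eq, hi, mul_apply] at this
    simp only [conjTranspose_apply, Complex.star_def, Complex.mul_conj, Complex.ofReal_zero] at this
    have h2 : ∑ k, Complex.normSq (R0 i k) = 0 := by exact_mod_cast this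
    have h3 := (Finset.sum_eq_zero_iff_of_nonneg (fun k _ => Complex.normSq_nonneg _)).1 h2 j (Finset.mem_univ j)
    exact Complex.normSq_eq_zero.1 h3
  -- sqrt(x) * D * R0 = R0
  have hE : diagonal (fun i => ((√(x i) : ℝ) : ℂ)) * (D * R0) = R0 := by
    ext i j
    rw [diagonal_mul, hD, diagonal_mul]
    rcases eq_or_ne (x i) 0 with h0 | hne
    · rw [hrow i h0 j]; simp
    · have : (√(x i) : ℝ) ≠ 0 := by
        rw [Real.sqrt_ne_zero']
        exact lt_of_le_of_ne (hx i) (Ne.symm hne)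
      rw [← mul_assoc, ← Complex.ofReal_mul, mul_inv_cancel₀ this, Complex.ofReal_one, one_mul]
  have hQQ : Q * Qᴴ * (Q * Qᴴ) = Q * Qᴴ := by
    -- Qᴴ Q = D X D, and D X D D = D
    have h1 : Qᴴ * Q = diagonal (fun i => ((((√(x i))⁻¹ * x i * (√(x i))⁻¹ : ℝ)) : ℂ)) := by
      rw [hQh, hQ, Matrix.mul_assoc, ← Matrix.mul_assoc R0, h00, hD, diagonal_mul_diagonal, diagonal_mul_diagonal]
      congr 1; funext i; push_cast; ring
    have h2 : Q * (Qᴴ * Q) = Q := by
      rw [h1, hQ, hD, Matrix.mul_assoc, diagonal_mul_diagonal]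
      congr 2
      funext i
      rw [← Complex.ofReal_mul]
      congr 1
      rcases eq_or_ne (x i) 0 with h0 | hne
      · rw [h0]; simp
      · have hs : (√(x i) : ℝ) ≠ 0 := by
          rw [Real.sqrt_ne_zero']
          exact lt_of_le_of_ne (hx i) (Ne.symm hne)
        have hxx : x i = √(x i) * √(x i) := (Real.mul_self_sqrt (hx i)).symm
        field_simp
        rw [sq]
        exact hxx
    calc Q * Qᴴ * (Q * Qᴴ) = (Q * (Qᴴ * Q)) * Qᴴ := by simp only [Matrix.mul_assoc]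
      _ = Q * Qᴴ := by rw [h2]
  refine ⟨R1 * Q, R1 * (1 - Q * Qᴴ), ?_, ?_⟩
  · rw [conjTranspose_mul, hQh, ← h01]
    rw [← Matrix.mul_assoc, hE]
  · rw [← h11]
    have hPh : (1 - Q * Qᴴ)ᴴ = 1 - Q * Qᴴ := by
      rw [conjTranspose_sub, conjTranspose_one, conjTranspose_mul, conjTranspose_conjTranspose]
    have hPP : (1 - Q * Qᴴ) * (1 - Q * Qᴴ) = 1 - Q * Qᴴ := by
      rw [Matrix.sub_mul, Matrix.one_mul, Matrix.mul_sub, Matrix.mul_one, hQQ, sub_self, sub_zero]
    rw [conjTranspose_mul R1 Q, conjTranspose_mul R1 (1 - Q * Qᴴ), hPh, Matrix.mul_assoc R1 (1 - Q * Qᴴ),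
      ← Matrix.mul_assoc (1 - Q * Qᴴ), hPP]
    simp only [Matrix.sub_mul, Matrix.mul_sub, Matrix.one_mul, Matrix.mul_one, Matrix.mul_assoc]
    abel


lemma posSemidef_toBlocks₂₂ {X Y Z : Matrix ι ι ℂ} (h : (fromBlocks X Y Yᴴ Z).PosSemidef) : Z.PosSemidef :=
  h.submatrix Sum.inr

lemma posSemidef_toBlocks₁₁ {X Y Z : Matrix ι ι ℂ} (h : (fromBlocks X Y Yᴴ Z).PosSemidef) : X.PosSemidef :=
  h.submatrix Sum.inl

lemma LD_pos {N : Matrix ι ι ℂ} (hN : N.PosSemidef) {u : ℝ} (hu : 0 ≤ u) :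
    0 < (1 + (u : ℂ) • N).det.re := by
  rw [det_one_add_smul hN.1, Complex.ofReal_re]
  refine Finset.prod_pos fun i _ => ?_
  have := hN.eigenvalues_nonneg i
  positivity

/-- scaled form of `stepA_core` in logarithmic form -/
lemma stepA_log {g : Type*} [Fintype g] [DecidableEq g] (x : ι → ℝ) (hx : ∀ i, 0 ≤ x i) (V0 : Matrix ι ι ℂ)
    (V1 : Matrix ι g ℂ) {a b d t : ℝ} (ha : 0 ≤ a) (hb : 0 ≤ b) (hd : 0 ≤ d) (ht : 0 < t)
    (Y Z : Matrix ι ι ℂ) (hY : Y = diagonal (fun i => ((√(x i) : ℝ) : ℂ)) * V0ᴴ)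
    (hZ : Z = V0 * V0ᴴ + V1 * V1ᴴ) :
    LD ((b : ℂ) • Z) t + LD ((d : ℂ) • Z) t +
      ∑ i, Real.log (1 + (a * x i / t) / ((1 + (b * (Z i i).re) / t) * (1 + (d * ((V0ᴴ * V0) i i).re) / t))) ≤
    LD (fromBlocks ((a : ℂ) • diagonal (fun i => (x i : ℂ)) + (b : ℂ) • Z) (((√(a * d) : ℝ) : ℂ) • Y)
      (((√(a * d) : ℝ) : ℂ) • Yᴴ) ((d : ℂ) • Z)) t := by
  have hZpsd : Z.PosSemidef := by
    rw [hZ]
    exact (posSemidef_self_mul_conjTranspose V0).add (posSemidef_self_mul_conjTranspose V1)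
  have hbt : 0 ≤ b / t := by positivity
  have hdt : 0 ≤ d / t := by positivity
  have hβ : (((b / t : ℝ) : ℂ) • Z).PosSemidef := hZpsd.smul (by exact_mod_cast hbt)
  set s : ℂ := ((√(d / t) : ℝ) : ℂ) with hs
  have hss : s * star s = ((d / t : ℝ) : ℂ) := by
    rw [hs, Complex.star_def, Complex.conj_ofReal, ← Complex.ofReal_mul, Real.mul_self_sqrt hdt]
  have key := stepA_core (fun i => √(a * x i / t)) (((b / t : ℝ) : ℂ) • Z) hβ (s • V0) (s • V1)
  have e1 : s • V0 * (s • V0)ᴴ + s • V1 * (s • V1)ᴴ = ((d / t : ℝ) : ℂ) • Z := by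
    rw [conjTranspose_smul, conjTranspose_smul, Matrix.smul_mul, Matrix.mul_smul, Matrix.smul_mul, Matrix.mul_smul,
      smul_smul, smul_smul, hss, hZ, smul_add]
  have e2 : (s • V0)ᴴ * (s • V0) = ((d / t : ℝ) : ℂ) • (V0ᴴ * V0) := by
    rw [conjTranspose_smul, Matrix.smul_mul, Matrix.mul_smul, smul_smul, mul_comm (star s), hss]
  have ksq : ∀ i, √(a * x i / t) ^ 2 = a * x i / t := fun i =>
    Real.sq_sqrt (div_nonneg (mul_nonneg ha (hx i)) ht.le)
  have hk : ∀ i, √(a * x i / t) * √(d / t) = t⁻¹ * √(a * d) * √(x i) := by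
    intro i
    rw [← Real.sqrt_mul (div_nonneg (mul_nonneg ha (hx i)) ht.le)]
    have : a * x i / t * (d / t) = (t⁻¹) ^ 2 * (a * d) * x i := by field_simp
    rw [this, Real.sqrt_mul (by positivity), Real.sqrt_mul (by positivity), Real.sqrt_sq (by positivity)]
  have e3 : (fromBlocks (diagonal (fun i => ((√(a * x i / t) ^ 2 : ℝ) : ℂ)) + ((b / t : ℝ) : ℂ) • Z)
      (diagonal (fun i => ((√(a * x i / t) : ℝ) : ℂ)) * (s • V0)ᴴ)
      (s • V0 * diagonal (fun i => ((√(a * x i / t) : ℝ) : ℂ))) (s • V0 * (s • V0)ᴴ + s • V1 * (s • V1)ᴴ)) =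
      ((t⁻¹ : ℝ) : ℂ) • fromBlocks ((a : ℂ) • diagonal (fun i => (x i : ℂ)) + (b : ℂ) • Z) (((√(a * d) : ℝ) : ℂ) • Y)
      (((√(a * d) : ℝ) : ℂ) • Yᴴ) ((d : ℂ) • Z) := by
    rw [e1, fromBlocks_smul]
    congr 1
    · ext i j
      simp only [Matrix.add_apply, Matrix.smul_apply, smul_eq_mul, diagonal_apply, ksq]
      split_ifs with h
      · push_cast; field_simp
      · push_cast; field_simp; ring
    · ext i j
      rw [hY]
      simp only [Matrix.smul_apply, smul_eq_mul, diagonal_mul, conjTranspose_smul]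
      have := hk i
      rw [hs, Complex.star_def, Complex.conj_ofReal]
      calc ((√(a * x i / t) : ℝ) : ℂ) * (((√(d / t) : ℝ) : ℂ) * V0ᴴ i j) = ((√(a * x i / t) * √(d / t) : ℝ) : ℂ) * V0ᴴ i j := by
            push_cast; ring
        _ = _ := by rw [this]; push_cast; ring
    · ext i j
      rw [hY, conjTranspose_mul, conjTranspose_conjTranspose, diagonal_conjTranspose]
      simp only [Matrix.smul_apply, smul_eq_mul, mul_diagonal, Pi.star_apply, Complex.star_def, Complex.conj_ofReal]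
      have := hk j
      rw [hs]
      calc ((√(d / t) : ℝ) : ℂ) * V0 i j * ((√(a * x j / t) : ℝ) : ℂ) = ((√(a * x j / t) * √(d / t) : ℝ) : ℂ) * V0 i j := by
            push_cast; ring
        _ = _ := by rw [this]; push_cast; ring
    · rw [smul_smul]
      congr 1
      push_cast; field_simp
  rw [e3, e1, e2] at key
  have hB : ∀ i, ((1 + ((b / t : ℝ) : ℂ) • Z) i i).re = 1 + (b * (Z i i).re) / t := by
    intro i
    rw [Matrix.add_apply, Matrix.one_apply_eq, Matrix.smul_apply, smul_eq_mul, Complex.add_re, Complex.one_re,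
      Complex.re_ofReal_mul]
    ring
  have hC : ∀ i, ((1 + ((d / t : ℝ) : ℂ) • (V0ᴴ * V0)) i i).re = 1 + (d * ((V0ᴴ * V0) i i).re) / t := by
    intro i
    rw [Matrix.add_apply, Matrix.one_apply_eq, Matrix.smul_apply, smul_eq_mul, Complex.add_re, Complex.one_re,
      Complex.re_ofReal_mul]
    ring
  simp only [hB, hC, ksq] at key
  have hZd : ∀ i, 0 ≤ (Z i i).re := fun i => (Complex.le_def.1 (hZpsd.diag_nonneg (i := i))).1
  have hVd : ∀ i, 0 ≤ ((V0ᴴ * V0) i i).re := fun i =>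
    (Complex.le_def.1 ((posSemidef_conjTranspose_mul_self V0).diag_nonneg (i := i))).1
  have hBp : ∀ i, 0 < 1 + (b * (Z i i).re) / t := fun i => by have := hZd i; positivity
  have hCp : ∀ i, 0 < 1 + (d * ((V0ᴴ * V0) i i).re) / t := fun i => by have := hVd i; positivity
  have hbl : ((b / t : ℝ) : ℂ) • Z = ((t⁻¹ : ℝ) : ℂ) • ((b : ℂ) • Z) := by
    rw [smul_smul]; congr 1; push_cast; field_simp
  have hdl : ((d / t : ℝ) : ℂ) • Z = ((t⁻¹ : ℝ) : ℂ) • ((d : ℂ) • Z) := by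
    rw [smul_smul]; congr 1; push_cast; field_simp
  have p1 : 0 < (1 + ((b / t : ℝ) : ℂ) • Z).det.re := LD_pos hZpsd hbt
  have p2 : 0 < (1 + ((d / t : ℝ) : ℂ) • Z).det.re := LD_pos hZpsd hdt
  have hprod : 0 < ∏ i, ((1 + (b * (Z i i).re) / t) * (1 + (d * ((V0ᴴ * V0) i i).re) / t)) :=
    Finset.prod_pos fun i _ => mul_pos (hBp i) (hCp i)
  have hnum : 0 < ∏ i, ((1 + (b * (Z i i).re) / t) * (1 + (d * ((V0ᴴ * V0) i i).re) / t) + a * x i / t) :=
    Finset.prod_pos fun i _ => by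
      have := mul_pos (hBp i) (hCp i)
      have h2 : 0 ≤ a * x i / t := div_nonneg (mul_nonneg ha (hx i)) ht.le
      linarith
  have hlog : ∑ i, Real.log (1 + (a * x i / t) / ((1 + (b * (Z i i).re) / t) * (1 + (d * ((V0ᴴ * V0) i i).re) / t))) =
      Real.log (∏ i, ((1 + (b * (Z i i).re) / t) * (1 + (d * ((V0ᴴ * V0) i i).re) / t) + a * x i / t)) -
      Real.log (∏ i, ((1 + (b * (Z i i).re) / t) * (1 + (d * ((V0ᴴ * V0) i i).re) / t))) := by
    rw [← Real.log_div hnum.ne' hprod.ne', ← Finset.prod_div_distrib, Real.log_prod]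
    · refine Finset.sum_congr rfl fun i _ => ?_
      congr 1
      have := mul_pos (hBp i) (hCp i)
      rw [add_div, div_self this.ne']
    · intro i _
      have h1 := mul_pos (hBp i) (hCp i)
      have h2 : 0 ≤ a * x i / t := div_nonneg (mul_nonneg ha (hx i)) ht.le
      have h3 := div_pos (add_pos_of_pos_of_nonneg h1 h2) h1
      exact h3.ne'
  have hfinal := Real.log_le_log (mul_pos (mul_pos p1 p2) hnum) key
  rw [hlog]
  unfold LD
  rw [← hbl, ← hdl]
  rw [Real.log_mul (mul_pos p1 p2).ne' hnum.ne', Real.log_mul p1.ne' p2.ne'] at hfinal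
  have hNne : (1 + ((t⁻¹ : ℝ) : ℂ) • fromBlocks ((a : ℂ) • diagonal (fun i => (x i : ℂ)) + (b : ℂ) • Z)
      (((√(a * d) : ℝ) : ℂ) • Y) (((√(a * d) : ℝ) : ℂ) • Yᴴ) ((d : ℂ) • Z)).det.re ≠ 0 := by
    intro h0
    rw [h0, zero_mul] at key
    have := mul_pos (mul_pos p1 p2) hnum
    linarith
  rw [Real.log_mul hNne hprod.ne'] at hfinal
  linarith

end

end Crest.Agent.GAD
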