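import Crest.Agent.S0534_Ent
/-!
Scalar entropy functions: the function `J x y z` and its convexity.
-/
set_option autoImplicit false
set_option linter.unusedSimpArgs false
set_option linter.unusedSectionVars false
open MeasureTheory Filter Topology
open Set (Ioi)

namespace Crest.Agent.GAD

/-- larger root of `μ² - T μ + D` -/
noncomputable def rootP (T D : ℝ) : ℝ := (T + √(T ^ 2 - 4 * D)) / 2
/-- smaller root -/
noncomputable def rootM (T D : ℝ) : ℝ := (T - √(T ^ 2 - 4 * D)) / 2

lemma rootP_add_rootM (T D : ℝ) : rootP T D + rootM T D = T := by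
  unfold rootP rootM; ring

lemma rootP_mul_rootM {T D : ℝ} (h : 0 ≤ T ^ 2 - 4 * D) : rootP T D * rootM T D = D := by
  unfold rootP rootM
  have := Real.mul_self_sqrt h
  nlinarith

lemma rootP_nonneg {T D : ℝ} (hT : 0 ≤ T) : 0 ≤ rootP T D := by
  unfold rootP
  have := Real.sqrt_nonneg (T ^ 2 - 4 * D)
  linarith

lemma rootM_nonneg {T D : ℝ} (hT : 0 ≤ T) (hD : 0 ≤ D) : 0 ≤ rootM T D := by
  unfold rootM
  have : √(T ^ 2 - 4 * D) ≤ T := by
    rw [← Real.sqrt_sq hT]
    apply Real.sqrt_le_sqrt
    rw [Real.sqrt_sq hT]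
    linarith
  linarith

lemma rootP_smul {c : ℝ} (hc : 0 ≤ c) (T D : ℝ) : rootP (c * T) (c ^ 2 * D) = c * rootP T D := by
  unfold rootP
  have : (c * T) ^ 2 - 4 * (c ^ 2 * D) = c ^ 2 * (T ^ 2 - 4 * D) := by ring
  rw [this, Real.sqrt_mul (sq_nonneg c), Real.sqrt_sq hc]
  ring

lemma rootM_smul {c : ℝ} (hc : 0 ≤ c) (T D : ℝ) : rootM (c * T) (c ^ 2 * D) = c * rootM T D := by
  unfold rootM
  have : (c * T) ^ 2 - 4 * (c ^ 2 * D) = c ^ 2 * (T ^ 2 - 4 * D) := by ring
  rw [this, Real.sqrt_mul (sq_nonneg c), Real.sqrt_sq hc]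
  ring

/-- entropy of a 2x2 PSD matrix with trace `T` and determinant `D` -/
noncomputable def ent2 (T D : ℝ) : ℝ := Real.negMulLog (rootP T D) + Real.negMulLog (rootM T D)

lemma ent2_smul {c : ℝ} (hc : 0 ≤ c) (T D : ℝ) :
    ent2 (c * T) (c ^ 2 * D) = c * ent2 T D + T * Real.negMulLog c := by
  unfold ent2
  rw [rootP_smul hc, rootM_smul hc, Real.negMulLog_mul, Real.negMulLog_mul]
  have h := rootP_add_rootM T D
  linear_combination (Real.negMulLog c) * h

/-- `J x y z = S(m) - η(y) - η(z)` with `m` of trace `x+y+z` and determinant `yz`. -/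
noncomputable def Jf (x y z : ℝ) : ℝ :=
  ent2 (x + y + z) (y * z) - Real.negMulLog y - Real.negMulLog z

/-- the integrand of `J` -/
noncomputable def jfun (x y z t : ℝ) : ℝ :=
  Real.log (1 + (x / t) / ((1 + y / t) * (1 + z / t))) - x * Real.log (1 + 1 / t)

lemma disc_nonneg {x y z : ℝ} (hx : 0 ≤ x) (hy : 0 ≤ y) (hz : 0 ≤ z) :
    0 ≤ (x + y + z) ^ 2 - 4 * (y * z) := by
  nlinarith [sq_nonneg (y - z), mul_nonneg hx hy, mul_nonneg hx hz, sq_nonneg x]

lemma jfun_eq {x y z t : ℝ} (hx : 0 ≤ x) (hy : 0 ≤ y) (hz : 0 ≤ z) (ht : 0 < t) :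
    jfun x y z t = hfun (rootP (x + y + z) (y * z)) t + hfun (rootM (x + y + z) (y * z)) t
      - hfun y t - hfun z t := by
  have hT : 0 ≤ x + y + z := by positivity
  have hD : 0 ≤ y * z := by positivity
  have h1 := rootP_add_rootM (x + y + z) (y * z)
  have h2 := rootP_mul_rootM (disc_nonneg hx hy hz)
  have hp := rootP_nonneg (D := y * z) hT
  have hm := rootM_nonneg hT hD
  set P := rootP (x + y + z) (y * z)
  set M := rootM (x + y + z) (y * z)
  have e1 : 1 + (x / t) / ((1 + y / t) * (1 + z / t)) = ((1 + P / t) * (1 + M / t)) / ((1 + y / t) * (1 + z / t)) := by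
    rw [eq_div_iff (by positivity), add_mul, one_mul, div_mul_cancel₀ _ (by positivity)]
    have : (1 + P / t) * (1 + M / t) = 1 + (P + M) / t + (P * M) / t ^ 2 := by field_simp; ring
    rw [this, h1, h2]
    field_simp
    ring
  unfold jfun hfun
  rw [e1, Real.log_div (by positivity) (by positivity), Real.log_mul (by positivity) (by positivity),
    Real.log_mul (by positivity) (by positivity)]
  have : x = P + M - y - z := by linarith
  rw [this]
  ring

lemma integrable_jfun {x y z : ℝ} (hx : 0 ≤ x) (hy : 0 ≤ y) (hz : 0 ≤ z) :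
    IntegrableOn (jfun x y z) (Ioi 0) := by
  have hT : 0 ≤ x + y + z := by positivity
  have hD : 0 ≤ y * z := by positivity
  have := (((integrable_hfun (rootP_nonneg (D := y * z) hT)).add (integrable_hfun (rootM_nonneg hT hD))).sub
    (integrable_hfun hy)).sub (integrable_hfun hz)
  exact IntegrableOn.congr_fun this (fun t ht => (jfun_eq hx hy hz ht).symm) measurableSet_Ioi

lemma integral_jfun {x y z : ℝ} (hx : 0 ≤ x) (hy : 0 ≤ y) (hz : 0 ≤ z) :
    ∫ t in Ioi (0 : ℝ), jfun x y z t = Jf x y z := by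
  have hT : 0 ≤ x + y + z := by positivity
  have hD : 0 ≤ y * z := by positivity
  have i1 := integrable_hfun (rootP_nonneg (D := y * z) hT)
  have i2 := integrable_hfun (rootM_nonneg hT hD)
  rw [setIntegral_congr_fun measurableSet_Ioi (fun t ht => jfun_eq hx hy hz ht)]
  have i12 : Integrable (fun t => hfun (rootP (x + y + z) (y * z)) t + hfun (rootM (x + y + z) (y * z)) t)
    (volume.restrict (Ioi 0)) := i1.add i2
  have i12y : Integrable (fun t => hfun (rootP (x + y + z) (y * z)) t + hfun (rootM (x + y + z) (y * z)) t - hfun y t)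
    (volume.restrict (Ioi 0)) := i12.sub (integrable_hfun hy)
  rw [integral_sub i12y (integrable_hfun hz),
    integral_sub i12 (integrable_hfun hy), integral_add i1 i2,
    integral_hfun (rootP_nonneg hT), integral_hfun (rootM_nonneg hT hD), integral_hfun hy, integral_hfun hz]
  rfl

/-- tangent inequality -/
lemma log_tangent {k b c b0 c0 : ℝ} (hk : 0 ≤ k) (hb : 0 < b) (hc : 0 < c) (hb0 : 0 < b0) (hc0 : 0 < c0) :
    Real.log (1 + k / (b0 * c0)) - (k / (k + b0 * c0)) * ((b - b0) / b0 + (c - c0) / c0) ≤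
      Real.log (1 + k / (b * c)) := by
  rcases eq_or_lt_of_le hk with h0 | hkpos
  · rw [← h0]; simp
  set θ := k / (k + b0 * c0) with hθ
  have hbc0 : 0 < b0 * c0 := mul_pos hb0 hc0
  have hbc : 0 < b * c := mul_pos hb hc
  have hden : 0 < k + b0 * c0 := by positivity
  have hθ0 : 0 ≤ θ := by positivity
  have hθ1 : θ ≤ 1 := by rw [hθ, div_le_one hden]; linarith
  -- ρ = (b0 c0)/(b c)
  have hρ : 0 < (b0 * c0) / (b * c) := by positivity
  have hconc : θ * Real.log ((b0 * c0) / (b * c)) ≤ Real.log ((1 - θ) + θ * ((b0 * c0) / (b * c))) := by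
    have := strictConcaveOn_log_Ioi.concaveOn.2 (x := 1) (by simp) (y := (b0 * c0) / (b * c)) hρ
      (by linarith : (0 : ℝ) ≤ 1 - θ) hθ0 (by ring)
    simp only [smul_eq_mul, mul_one, Real.log_one, mul_zero, zero_add] at this
    exact this
  have hratio : (1 - θ) + θ * ((b0 * c0) / (b * c)) = (1 + k / (b * c)) / (1 + k / (b0 * c0)) := by
    rw [hθ]
    field_simp
    ring
  have hl : Real.log ((1 + k / (b * c)) / (1 + k / (b0 * c0))) =
      Real.log (1 + k / (b * c)) - Real.log (1 + k / (b0 * c0)) :=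
    Real.log_div (by positivity) (by positivity)
  have hlog : Real.log ((b0 * c0) / (b * c)) = -(Real.log (b / b0) + Real.log (c / c0)) := by
    rw [Real.log_div hbc0.ne' hbc.ne', Real.log_mul hb0.ne' hc0.ne', Real.log_mul hb.ne' hc.ne',
      Real.log_div hb.ne' hb0.ne', Real.log_div hc.ne' hc0.ne']
    ring
  rw [hratio, hl, hlog] at hconc
  have l1 : Real.log (b / b0) ≤ (b - b0) / b0 := by
    have := Real.log_le_sub_one_of_pos (div_pos hb hb0)
    have e : b / b0 - 1 = (b - b0) / b0 := by field_simp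
    linarith
  have l2 : Real.log (c / c0) ≤ (c - c0) / c0 := by
    have := Real.log_le_sub_one_of_pos (div_pos hc hc0)
    have e : c / c0 - 1 = (c - c0) / c0 := by field_simp
    linarith
  have : θ * (Real.log (b / b0) + Real.log (c / c0)) ≤ θ * ((b - b0) / b0 + (c - c0) / c0) :=
    mul_le_mul_of_nonneg_left (by linarith) hθ0
  linarith

/-- homogeneity of `J x y z - η x` -/
lemma Jf_smul {x y z : ℝ} (hx : 0 < x) :
    Jf x y z - Real.negMulLog x = x * Jf 1 (y / x) (z / x) := by
  unfold Jf
  have e1 : x + y + z = x * (1 + y / x + z / x) := by field_simp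
  have e2 : y * z = x ^ 2 * (y / x * (z / x)) := by field_simp
  rw [e1, e2, ent2_smul hx.le]
  have e3 : Real.negMulLog y = (y / x) * Real.negMulLog x + x * Real.negMulLog (y / x) := by
    conv_lhs => rw [show y = x * (y / x) by field_simp]
    rw [Real.negMulLog_mul]
  have e4 : Real.negMulLog z = (z / x) * Real.negMulLog x + x * Real.negMulLog (z / x) := by
    conv_lhs => rw [show z = x * (z / x) by field_simp]
    rw [Real.negMulLog_mul]
  rw [e3, e4]
  ring

lemma Jf_zero {y z : ℝ} (hy : 0 ≤ y) (hz : 0 ≤ z) : Jf 0 y z = 0 := by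
  rw [← integral_jfun le_rfl hy hz]
  simp [jfun]

lemma Jf_anti {x y z z' : ℝ} (hx : 0 ≤ x) (hy : 0 ≤ y) (hz : 0 ≤ z) (hzz : z ≤ z') :
    Jf x y z' ≤ Jf x y z := by
  rw [← integral_jfun hx hy hz, ← integral_jfun hx hy (hz.trans hzz)]
  refine setIntegral_mono_on (integrable_jfun hx hy (hz.trans hzz)) (integrable_jfun hx hy hz) measurableSet_Ioi ?_
  intro t ht
  have ht' : 0 < t := ht
  unfold jfun
  have hz' := hz.trans hzz
  have : Real.log (1 + (x / t) / ((1 + y / t) * (1 + z' / t))) ≤ Real.log (1 + (x / t) / ((1 + y / t) * (1 + z / t))) := by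
    apply Real.log_le_log (by positivity)
    gcongr
  linarith

/-- Jensen inequality for `J x y z - η x`. -/
theorem Jf_jensen {ι : Type*} [Fintype ι] (x y z : ι → ℝ) (hx : ∀ i, 0 ≤ x i) (hy : ∀ i, 0 ≤ y i)
    (hz : ∀ i, 0 ≤ z i) :
    Jf (∑ i, x i) (∑ i, y i) (∑ i, z i) - Real.negMulLog (∑ i, x i) ≤
      ∑ i, (Jf (x i) (y i) (z i) - Real.negMulLog (x i)) := by
  set X := ∑ i, x i with hX
  set Y := ∑ i, y i with hY
  set Z := ∑ i, z i with hZ
  have hX0 : 0 ≤ X := Finset.sum_nonneg fun i _ => hx i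
  have hY0 : 0 ≤ Y := Finset.sum_nonneg fun i _ => hy i
  have hZ0 : 0 ≤ Z := Finset.sum_nonneg fun i _ => hz i
  rcases eq_or_lt_of_le hX0 with h0 | hXpos
  · have hxi : ∀ i, x i = 0 := by
      intro i
      have := (Finset.sum_eq_zero_iff_of_nonneg (fun i _ => hx i)).1 h0.symm
      exact this i (Finset.mem_univ i)
    rw [← h0, Jf_zero hY0 hZ0]
    simp only [hxi]
    rw [Finset.sum_congr rfl fun i _ => by rw [Jf_zero (hy i) (hz i)]]
    simp
  · rw [Jf_smul hXpos]
    have hterm : ∀ i, Jf (x i) (y i) (z i) - Real.negMulLog (x i) = x i * Jf 1 (y i / x i) (z i / x i) := by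
      intro i
      rcases eq_or_lt_of_le (hx i) with h0 | hpos
      · rw [← h0, Jf_zero (hy i) (hz i)]; simp
      · exact Jf_smul hpos
    rw [Finset.sum_congr rfl fun i _ => hterm i]
    have hyx : ∀ i, 0 ≤ y i / x i := fun i => div_nonneg (hy i) (hx i)
    have hzx : ∀ i, 0 ≤ z i / x i := fun i => div_nonneg (hz i) (hx i)
    have e1 : ∀ i, x i * Jf 1 (y i / x i) (z i / x i) = ∫ t in Ioi (0 : ℝ), x i * jfun 1 (y i / x i) (z i / x i) t := by
      intro i
      rw [integral_const_mul, integral_jfun zero_le_one (hyx i) (hzx i)]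
    have e2 : X * Jf 1 (Y / X) (Z / X) = ∫ t in Ioi (0 : ℝ), X * jfun 1 (Y / X) (Z / X) t := by
      rw [integral_const_mul, integral_jfun zero_le_one (div_nonneg hY0 hX0) (div_nonneg hZ0 hX0)]
    rw [Finset.sum_congr rfl fun i _ => e1 i, e2, ← integral_finsetSum _ (fun i _ =>
      (integrable_jfun zero_le_one (hyx i) (hzx i)).const_mul (x i))]
    refine setIntegral_mono_on ((integrable_jfun zero_le_one (div_nonneg hY0 hX0) (div_nonneg hZ0 hX0)).const_mul X)
      (integrable_finsetSum _ (fun i _ => (integrable_jfun zero_le_one (hyx i) (hzx i)).const_mul (x i)))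
      measurableSet_Ioi ?_
    intro t ht
    have ht' : 0 < t := ht
    have hb0 : 0 < 1 + (Y / X) / t := by positivity
    have hc0 : 0 < 1 + (Z / X) / t := by positivity
    have tang : ∀ i, _ := fun i => log_tangent (k := 1 / t) (b := 1 + (y i / x i) / t) (c := 1 + (z i / x i) / t)
      (by positivity) (by have := hyx i; positivity) (by have := hzx i; positivity) hb0 hc0
    set θ := (1 / t) / (1 / t + (1 + (Y / X) / t) * (1 + (Z / X) / t)) with hθ
    have hθ0 : 0 ≤ θ := by positivity
    have hsum : ∑ i, x i * (Real.log (1 + (1 / t) / ((1 + (Y / X) / t) * (1 + (Z / X) / t))) -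
        θ * (((1 + (y i / x i) / t) - (1 + (Y / X) / t)) / (1 + (Y / X) / t) +
          ((1 + (z i / x i) / t) - (1 + (Z / X) / t)) / (1 + (Z / X) / t))) ≤
        ∑ i, x i * Real.log (1 + (1 / t) / ((1 + (y i / x i) / t) * (1 + (z i / x i) / t))) :=
      Finset.sum_le_sum fun i _ => mul_le_mul_of_nonneg_left (tang i) (hx i)
    have hlow : X * Real.log (1 + (1 / t) / ((1 + (Y / X) / t) * (1 + (Z / X) / t))) ≤
        ∑ i, x i * (Real.log (1 + (1 / t) / ((1 + (Y / X) / t) * (1 + (Z / X) / t))) -
        θ * (((1 + (y i / x i) / t) - (1 + (Y / X) / t)) / (1 + (Y / X) / t) +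
          ((1 + (z i / x i) / t) - (1 + (Z / X) / t)) / (1 + (Z / X) / t))) := by
      have hy' : ∑ i, x i * (((1 + (y i / x i) / t) - (1 + (Y / X) / t)) / (1 + (Y / X) / t)) ≤ 0 := by
        have : ∀ i, x i * (((1 + (y i / x i) / t) - (1 + (Y / X) / t)) / (1 + (Y / X) / t)) ≤
            (y i - x i * (Y / X)) / t / (1 + (Y / X) / t) := by
          intro i
          rw [mul_div_assoc']
          apply div_le_div_of_nonneg_right _ hb0.le
          have : x i * (y i / x i) ≤ y i := by
            rcases eq_or_lt_of_le (hx i) with h0 | hpos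
            · rw [← h0]; simpa using hy i
            · rw [mul_div_cancel₀ _ hpos.ne']
          have e : x i * (1 + y i / x i / t - (1 + Y / X / t)) = (x i * (y i / x i) - x i * (Y / X)) / t := by
            generalize y i / x i = u
            generalize Y / X = v
            field_simp
            ring
          rw [e]
          gcongr
        refine (Finset.sum_le_sum fun i _ => this i).trans ?_
        rw [← Finset.sum_div, ← Finset.sum_div, Finset.sum_sub_distrib, ← Finset.sum_mul, ← hX, ← hY,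
          mul_div_cancel₀ _ hXpos.ne', sub_self, zero_div, zero_div]
      have hz' : ∑ i, x i * (((1 + (z i / x i) / t) - (1 + (Z / X) / t)) / (1 + (Z / X) / t)) ≤ 0 := by
        have : ∀ i, x i * (((1 + (z i / x i) / t) - (1 + (Z / X) / t)) / (1 + (Z / X) / t)) ≤
            (z i - x i * (Z / X)) / t / (1 + (Z / X) / t) := by
          intro i
          rw [mul_div_assoc']
          apply div_le_div_of_nonneg_right _ hc0.le
          have : x i * (z i / x i) ≤ z i := by
            rcases eq_or_lt_of_le (hx i) with h0 | hpos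
            · rw [← h0]; simpa using hz i
            · rw [mul_div_cancel₀ _ hpos.ne']
          have e : x i * (1 + z i / x i / t - (1 + Z / X / t)) = (x i * (z i / x i) - x i * (Z / X)) / t := by
            generalize z i / x i = u
            generalize Z / X = v
            field_simp
            ring
          rw [e]
          gcongr
        refine (Finset.sum_le_sum fun i _ => this i).trans ?_
        rw [← Finset.sum_div, ← Finset.sum_div, Finset.sum_sub_distrib, ← Finset.sum_mul, ← hX, ← hZ,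
          mul_div_cancel₀ _ hXpos.ne', sub_self, zero_div, zero_div]
      have e : ∀ i, x i * (Real.log (1 + (1 / t) / ((1 + (Y / X) / t) * (1 + (Z / X) / t))) -
        θ * (((1 + (y i / x i) / t) - (1 + (Y / X) / t)) / (1 + (Y / X) / t) +
          ((1 + (z i / x i) / t) - (1 + (Z / X) / t)) / (1 + (Z / X) / t))) =
          x i * Real.log (1 + (1 / t) / ((1 + (Y / X) / t) * (1 + (Z / X) / t))) -
          θ * (x i * (((1 + (y i / x i) / t) - (1 + (Y / X) / t)) / (1 + (Y / X) / t)) +
          x i * (((1 + (z i / x i) / t) - (1 + (Z / X) / t)) / (1 + (Z / X) / t))) := by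
        intro i; ring
      rw [Finset.sum_congr rfl fun i _ => e i, Finset.sum_sub_distrib, ← Finset.sum_mul, ← Finset.mul_sum,
        Finset.sum_add_distrib, ← hX]
      nlinarith
    unfold jfun
    simp only [mul_sub]
    rw [Finset.sum_sub_distrib]
    have e5 : ∑ i, x i * (1 * Real.log (1 + 1 / t)) = X * (1 * Real.log (1 + 1 / t)) := by
      rw [← Finset.sum_mul]
    rw [e5]
    linarith

end Crest.Agent.GAD
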