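import Crest.Agent.S0534_Conc
/-!
The entropy inequality for the generalized amplitude damping channel tensored with anything.
-/
set_option autoImplicit false
set_option linter.unusedSimpArgs false
set_option linter.unusedSectionVars false
open Matrix
open scoped ComplexOrder
open Crest.Quantum

namespace Crest.Agent.GAD

section
variable {ι κ : Type*} [Fintype ι] [DecidableEq ι] [Fintype κ] [DecidableEq κ]

lemma fromBlocks_swap (A B C D : Matrix ι ι ℂ) :
    (fromBlocks A B C D).submatrix (Equiv.sumComm ι ι) (Equiv.sumComm ι ι) = fromBlocks D C B A := by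
  ext i j
  rcases i with i | i <;> rcases j with j | j <;> rfl

/-- flipped version of `P3` -/
theorem P3_flip {X Y Z : Matrix ι ι ℂ} (hτ : (fromBlocks X Y Yᴴ Z).PosSemidef) {a c d : ℝ} (ha : 0 ≤ a)
    (hc : 0 ≤ c) (hd : 0 ≤ d) :
    (fromBlocks ((a : ℂ) • X) (((√(a * d) : ℝ) : ℂ) • Y)
      (((√(a * d) : ℝ) : ℂ) • Yᴴ) ((c : ℂ) • X + (d : ℂ) • Z)).PosSemidef ∧
    vnEntropy ((d : ℂ) • Z) + vnEntropy ((c : ℂ) • X) + vnEntropy ((a : ℂ) • X) +
      (Jf (d * Z.trace.re) (c * X.trace.re) (a * X.trace.re) - Real.negMulLog (d * Z.trace.re)) ≤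
    vnEntropy (fromBlocks ((a : ℂ) • X) (((√(a * d) : ℝ) : ℂ) • Y)
      (((√(a * d) : ℝ) : ℂ) • Yᴴ) ((c : ℂ) • X + (d : ℂ) • Z)) := by
  have hτ' : (fromBlocks Z Yᴴ Yᴴᴴ X).PosSemidef := by
    have := hτ.submatrix (Equiv.sumComm ι ι)
    rw [fromBlocks_swap] at this
    rw [conjTranspose_conjTranspose]
    exact this
  have hp := psd_P3 hτ' hd hc ha
  have key := P3 hτ' hd hc ha
  have hs := entropy_submatrix hp (Equiv.sumComm ι ι)
  rw [fromBlocks_swap] at hs
  have hp' := hp.submatrix (Equiv.sumComm ι ι)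
  rw [fromBlocks_swap] at hp'
  rw [← hs] at key
  rw [conjTranspose_conjTranspose, mul_comm d a, add_comm ((d : ℂ) • Z) ((c : ℂ) • X)] at key hp'
  exact ⟨hp', key⟩

/-- determinant of the scalar output -/
def vdet (a b c d x z : ℝ) : ℝ := a * c * x ^ 2 + 2 * b * c * x * z + b * d * z ^ 2

lemma psd_trace_re_zero {N : Matrix ι ι ℂ} (h : N.PosSemidef) (h0 : N.trace.re = 0) : N = 0 := by
  have him : N.trace.im = 0 := by
    have h1 := h.1
    have : N.trace = star N.trace := by
      conv_lhs => rw [← h1.eq]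
      rw [trace_conjTranspose]
    have h2 := congrArg Complex.im this
    rw [Complex.star_def, Complex.conj_im] at h2
    linarith
  exact h.trace_eq_zero_iff.1 (Complex.ext h0 him)

lemma negMulLog_smul' (k x : ℝ) : Real.negMulLog (k * x) = k * Real.negMulLog x + x * Real.negMulLog k := by
  rw [Real.negMulLog_mul]; ring

lemma entropy_smul_sub {N : Matrix ι ι ℂ} (hN : N.PosSemidef) {k : ℝ} (hk : 0 ≤ k) :
    vnEntropy ((k : ℂ) • N) - Real.negMulLog (k * N.trace.re) = k * (vnEntropy N - Real.negMulLog N.trace.re) := by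
  rw [entropy_smul hN hk, negMulLog_smul']
  ring

/-- `P3` in normalized form -/
theorem P3' {X Y Z : Matrix ι ι ℂ} (hτ : (fromBlocks X Y Yᴴ Z).PosSemidef) {a b d : ℝ} (ha : 0 ≤ a) (hb : 0 ≤ b)
    (hd : 0 ≤ d) :
    a * (vnEntropy X - Real.negMulLog X.trace.re) + (b + d) * (vnEntropy Z - Real.negMulLog Z.trace.re) +
      ent2 (a * X.trace.re + b * Z.trace.re + d * Z.trace.re) (b * Z.trace.re * (d * Z.trace.re)) ≤
    vnEntropy (fromBlocks ((a : ℂ) • X + (b : ℂ) • Z) (((√(a * d) : ℝ) : ℂ) • Y)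
      (((√(a * d) : ℝ) : ℂ) • Yᴴ) ((d : ℂ) • Z)) := by
  have hX := posSemidef_toBlocks₁₁ hτ
  have hZ := posSemidef_toBlocks₂₂ hτ
  have key := P3 hτ ha hb hd
  have e1 := entropy_smul_sub hX ha
  have e2 := entropy_smul_sub hZ hb
  have e3 := entropy_smul_sub hZ hd
  unfold Jf at key
  linarith

theorem P3_flip' {X Y Z : Matrix ι ι ℂ} (hτ : (fromBlocks X Y Yᴴ Z).PosSemidef) {a c d : ℝ} (ha : 0 ≤ a)
    (hc : 0 ≤ c) (hd : 0 ≤ d) :
    (a + c) * (vnEntropy X - Real.negMulLog X.trace.re) + d * (vnEntropy Z - Real.negMulLog Z.trace.re) +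
      ent2 (d * Z.trace.re + c * X.trace.re + a * X.trace.re) (c * X.trace.re * (a * X.trace.re)) ≤
    vnEntropy (fromBlocks ((a : ℂ) • X) (((√(a * d) : ℝ) : ℂ) • Y)
      (((√(a * d) : ℝ) : ℂ) • Yᴴ) ((c : ℂ) • X + (d : ℂ) • Z)) := by
  have hX := posSemidef_toBlocks₁₁ hτ
  have hZ := posSemidef_toBlocks₂₂ hτ
  have key := (P3_flip hτ ha hc hd).2
  have e1 := entropy_smul_sub hX ha
  have e2 := entropy_smul_sub hX hc
  have e3 := entropy_smul_sub hZ hd
  unfold Jf at key
  linarith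

/-- output blocks -/
noncomputable def gadBlocks (a b c d l : ℝ) (X Y Y' Z : Matrix ι ι ℂ) : Matrix (ι ⊕ ι) (ι ⊕ ι) ℂ :=
  fromBlocks ((a : ℂ) • X + (b : ℂ) • Z) (((√l : ℝ) : ℂ) • Y) (((√l : ℝ) : ℂ) • Y') ((c : ℂ) • X + (d : ℂ) • Z)

theorem gad_star {X Y Z : Matrix ι ι ℂ} (hτ : (fromBlocks X Y Yᴴ Z).PosSemidef) {a b c d l : ℝ} (ha : 0 ≤ a)
    (hb : 0 ≤ b) (hc : 0 ≤ c) (hd : 0 ≤ d) (hl : 0 ≤ l) (hac : a + c = 1) (hbd : b + d = 1)
    (hdet : a * d - b * c = l) :
    (gadBlocks a b c d l X Y Yᴴ Z).PosSemidef ∧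
    (vnEntropy X - Real.negMulLog X.trace.re) + (vnEntropy Z - Real.negMulLog Z.trace.re) +
      ent2 (X.trace.re + Z.trace.re) (vdet a b c d X.trace.re Z.trace.re) ≤
    vnEntropy (gadBlocks a b c d l X Y Yᴴ Z) := by
  have hX := posSemidef_toBlocks₁₁ hτ
  have hZ := posSemidef_toBlocks₂₂ hτ
  have hx := psd_trace_nonneg hX
  have hz := psd_trace_nonneg hZ
  set x := X.trace.re with hxdef
  set z := Z.trace.re with hzdef
  rcases eq_or_lt_of_le hc with hc0 | hcpos
  · -- c = 0
    subst hc0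
    have ha1 : a = 1 := by linarith
    subst ha1
    have hld : l = 1 * d := by linarith
    subst hld
    have hp := psd_P3 hτ ha hb hd
    have key := P3' hτ ha hb hd
    unfold gadBlocks
    have e0 : ((0 : ℝ) : ℂ) • X = 0 := by simp
    rw [e0, zero_add]
    refine ⟨hp, ?_⟩
    have e1 : vdet 1 b 0 d x z = b * z * (d * z) := by unfold vdet; ring
    have e2 : 1 * x + b * z + d * z = x + z := by
      have : b * z + d * z = z := by rw [← add_mul, hbd, one_mul]
      linarith
    rw [← hxdef, ← hzdef, e2, hbd] at key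
    rw [e1]
    linarith
  rcases eq_or_lt_of_le hb with hb0 | hbpos
  · -- b = 0
    subst hb0
    have hd1 : d = 1 := by linarith
    subst hd1
    have hla : l = a * 1 := by linarith
    subst hla
    obtain ⟨hp, -⟩ := P3_flip hτ ha hc hd
    have key := P3_flip' hτ ha hc hd
    unfold gadBlocks
    have e0 : ((0 : ℝ) : ℂ) • Z = 0 := by simp
    rw [e0, add_zero]
    refine ⟨hp, ?_⟩
    have e1 : vdet a 0 c 1 x z = c * x * (a * x) := by unfold vdet; ring
    have e2 : 1 * z + c * x + a * x = x + z := by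
      have : c * x + a * x = x := by rw [← add_mul, add_comm c a, hac, one_mul]
      linarith
    rw [← hxdef, ← hzdef, e2, hac] at key
    rw [e1]
    linarith
  -- general case
  have hv0 : 0 ≤ vdet a b c d x z := by unfold vdet; positivity
  rcases eq_or_lt_of_le hv0 with hv | hv
  · -- v = 0 forces x = 0 and z = 0 unless a = 0 or d = 0 …
    have had : 0 < a * d := by
      have := mul_pos hbpos hcpos
      linarith
    have ha' : 0 < a := by
      rcases eq_or_lt_of_le ha with h | h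
      · rw [← h] at had; simp at had
      · exact h
    have hd' : 0 < d := by
      rcases eq_or_lt_of_le hd with h | h
      · rw [← h] at had; simp at had
      · exact h
    have hx0 : x = 0 := by
      by_contra hne
      have hxp : 0 < x := lt_of_le_of_ne hx (Ne.symm hne)
      have : 0 < vdet a b c d x z := by unfold vdet; positivity
      linarith
    have hz0 : z = 0 := by
      by_contra hne
      have hzp : 0 < z := lt_of_le_of_ne hz (Ne.symm hne)
      have : 0 < vdet a b c d x z := by unfold vdet; positivity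
      linarith
    have hXz : X = 0 := psd_trace_re_zero hX hx0
    have hZz : Z = 0 := psd_trace_re_zero hZ hz0
    have hτ0 : fromBlocks X Y Yᴴ Z = 0 := by
      apply psd_trace_re_zero hτ
      have e : (fromBlocks X Y Yᴴ Z).trace = X.trace + Z.trace := by
        simp only [trace, diag_apply, Fintype.sum_sum_type, fromBlocks_apply₁₁, fromBlocks_apply₂₂]
      rw [e, Complex.add_re]
      linarith
    have hY : Y = 0 := by
      have h1 : fromBlocks X Y Yᴴ Z = fromBlocks 0 0 0 0 := by rw [hτ0, fromBlocks_zero]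
      exact ((fromBlocks_inj).1 h1).2.1
    have hG : gadBlocks a b c d l X Y Yᴴ Z = 0 := by
      unfold gadBlocks
      rw [hXz, hZz, hY]
      simp
    rw [hG, hx0, hz0, hXz, hZz]
    have h00 : vnEntropy (0 : Matrix ι ι ℂ) = 0 := by
      have := entropy_diagonal (ι := ι) (fun _ => 0) (fun _ => le_rfl)
      simpa using this
    have h01 : vnEntropy (0 : Matrix (ι ⊕ ι) (ι ⊕ ι) ℂ) = 0 := by
      have := entropy_diagonal (ι := ι ⊕ ι) (fun _ => 0) (fun _ => le_rfl)
      simpa using this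
    rw [h00, h01]
    refine ⟨PosSemidef.zero, ?_⟩
    simp [ent2, rootP, rootM, vdet]
  -- v > 0
  set v := vdet a b c d x z with hvdef
  have hveq : v = a * c * x ^ 2 + 2 * b * c * x * z + b * d * z ^ 2 := rfl
  have hvne : v ≠ 0 := hv.ne'
  set m0 := a * x + b * z with hm0
  set m1 := c * x + d * z with hm1
  have hm0' : 0 ≤ m0 := by positivity
  have hm1' : 0 ≤ m1 := by positivity
  have hmm : m0 * m1 = v + l * x * z := by rw [hveq, hm0, hm1, ← hdet]; ring
  set t1 := b * z * m1 / v with ht1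
  set t2 := c * x * m0 / v with ht2
  have ht1' : 0 ≤ t1 := by positivity
  have ht2' : 0 ≤ t2 := by positivity
  have ht : t1 + t2 = 1 := by
    rw [ht1, ht2, ← add_div, div_eq_one_iff_eq hvne, hveq, hm0, hm1]; ring
  set a1 := b * l * z ^ 2 / v with ha1
  set d1 := b * m1 ^ 2 / v with hd1
  set a2 := c * m0 ^ 2 / v with ha2
  set d2 := c * l * x ^ 2 / v with hd2
  have ha1' : 0 ≤ a1 := by positivity
  have hd1' : 0 ≤ d1 := by positivity
  have ha2' : 0 ≤ a2 := by positivity
  have hd2' : 0 ≤ d2 := by positivity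
  have hasum : a1 + a2 = a := by
    rw [ha1, ha2, ← add_div, div_eq_iff hvne, hveq, hm0, ← hdet]; ring
  have hdsum : d1 + d2 = d := by
    rw [hd1, hd2, ← add_div, div_eq_iff hvne, hveq, hm1, ← hdet]; ring
  have hs1 : √(a1 * d1) = t1 * √l := by
    have : a1 * d1 = t1 ^ 2 * l := by rw [ha1, hd1, ht1]; field_simp
    rw [this, Real.sqrt_mul (sq_nonneg _), Real.sqrt_sq ht1']
  have hs2 : √(a2 * d2) = t2 * √l := by
    have : a2 * d2 = t2 ^ 2 * l := by rw [ha2, hd2, ht2]; field_simp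
    rw [this, Real.sqrt_mul (sq_nonneg _), Real.sqrt_sq ht2']
  have tr1 : a1 * x + b * z + d1 * z = t1 * (x + z) := by
    have h1 : (a1 * x + b * z) * v = t1 * m0 * v := by
      have e1 : a1 * v = b * l * z ^ 2 := div_mul_cancel₀ _ hvne
      have e2 : t1 * v = b * z * m1 := div_mul_cancel₀ _ hvne
      linear_combination x * e1 - m0 * e2 - (b * z) * hmm
    have h2 : d1 * z * v = t1 * m1 * v := by
      rw [hd1, ht1]; field_simp
    have h3 : m0 + m1 = x + z := by
      rw [hm0, hm1]; linear_combination x * hac + z * hbd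
    have h1' := mul_right_cancel₀ hvne h1
    have h2' := mul_right_cancel₀ hvne h2
    rw [h1', h2', ← h3]; ring
  have tr2 : d2 * z + c * x + a2 * x = t2 * (x + z) := by
    have h1 : (d2 * z + c * x) * v = t2 * m1 * v := by
      have e1 : d2 * v = c * l * x ^ 2 := div_mul_cancel₀ _ hvne
      have e2 : t2 * v = c * x * m0 := div_mul_cancel₀ _ hvne
      linear_combination z * e1 - m1 * e2 - (c * x) * hmm
    have h2 : a2 * x * v = t2 * m0 * v := by
      rw [ha2, ht2]; field_simp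
    have h3 : m0 + m1 = x + z := by
      rw [hm0, hm1]; linear_combination x * hac + z * hbd
    have h1' := mul_right_cancel₀ hvne h1
    have h2' := mul_right_cancel₀ hvne h2
    rw [h1', h2', ← h3]; ring
  have det1 : b * z * (d1 * z) = t1 ^ 2 * v := by
    rw [hd1, ht1]; field_simp
  have det2 : c * x * (a2 * x) = t2 ^ 2 * v := by
    rw [ha2, ht2]; field_simp
  have hp1 := psd_P3 hτ ha1' hb hd1'
  have k1 := P3' hτ ha1' hb hd1'
  obtain ⟨hp2, -⟩ := P3_flip hτ ha2' hc hd2'
  have k2 := P3_flip' hτ ha2' hc hd2'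
  rw [← hxdef, ← hzdef, tr1, det1, ent2_smul ht1'] at k1
  rw [← hxdef, ← hzdef, tr2, det2, ent2_smul ht2'] at k2
  have hsum : (fromBlocks ((a1 : ℂ) • X + (b : ℂ) • Z) (((√(a1 * d1) : ℝ) : ℂ) • Y)
      (((√(a1 * d1) : ℝ) : ℂ) • Yᴴ) ((d1 : ℂ) • Z)) +
      (fromBlocks ((a2 : ℂ) • X) (((√(a2 * d2) : ℝ) : ℂ) • Y)
      (((√(a2 * d2) : ℝ) : ℂ) • Yᴴ) ((c : ℂ) • X + (d2 : ℂ) • Z)) = gadBlocks a b c d l X Y Yᴴ Z := by
    unfold gadBlocks
    rw [fromBlocks_add, hs1, hs2]
    have e : ∀ W : Matrix ι ι ℂ, ((t1 * √l : ℝ) : ℂ) • W + ((t2 * √l : ℝ) : ℂ) • W = ((√l : ℝ) : ℂ) • W := by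
      intro W
      rw [← add_smul, ← Complex.ofReal_add, ← add_mul, ht, one_mul]
    rw [e, e]
    congr 1
    · rw [← hasum, Complex.ofReal_add, add_smul]; abel
    · rw [← hdsum, Complex.ofReal_add, add_smul]; abel
  have hsup := entropy_super hp1 hp2
  rw [hsum] at hsup
  have trM1 : (fromBlocks ((a1 : ℂ) • X + (b : ℂ) • Z) (((√(a1 * d1) : ℝ) : ℂ) • Y)
      (((√(a1 * d1) : ℝ) : ℂ) • Yᴴ) ((d1 : ℂ) • Z)).trace.re = t1 * (x + z) := by
    have e : ∀ A B C D : Matrix ι ι ℂ, (fromBlocks A B C D).trace = A.trace + D.trace := by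
      intro A B C D
      simp only [trace, diag_apply, Fintype.sum_sum_type, fromBlocks_apply₁₁, fromBlocks_apply₂₂]
    rw [e, trace_add, trace_smul, trace_smul, trace_smul, ← tr1]
    simp only [Complex.add_re, smul_eq_mul, Complex.re_ofReal_mul]
    rfl
  have trM2 : (fromBlocks ((a2 : ℂ) • X) (((√(a2 * d2) : ℝ) : ℂ) • Y)
      (((√(a2 * d2) : ℝ) : ℂ) • Yᴴ) ((c : ℂ) • X + (d2 : ℂ) • Z)).trace.re = t2 * (x + z) := by
    have e : ∀ A B C D : Matrix ι ι ℂ, (fromBlocks A B C D).trace = A.trace + D.trace := by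
      intro A B C D
      simp only [trace, diag_apply, Fintype.sum_sum_type, fromBlocks_apply₁₁, fromBlocks_apply₂₂]
    rw [e, trace_add, trace_smul, trace_smul, trace_smul, ← tr2]
    simp only [Complex.add_re, smul_eq_mul, Complex.re_ofReal_mul]
    rw [← hxdef, ← hzdef]
    ring
  rw [trM1, trM2, ← add_mul, ht, one_mul, negMulLog_smul', negMulLog_smul'] at hsup
  refine ⟨by rw [← hsum]; exact hp1.add hp2, ?_⟩
  have f1 : a1 * (vnEntropy X - Real.negMulLog x) + (a2 + c) * (vnEntropy X - Real.negMulLog x) =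
      vnEntropy X - Real.negMulLog x := by
    rw [← add_mul, ← add_assoc, hasum, hac, one_mul]
  have f2 : (b + d1) * (vnEntropy Z - Real.negMulLog z) + d2 * (vnEntropy Z - Real.negMulLog z) =
      vnEntropy Z - Real.negMulLog z := by
    rw [← add_mul, add_assoc, hdsum, hbd, one_mul]
  have f3 : t1 * ent2 (x + z) v + t2 * ent2 (x + z) v = ent2 (x + z) v := by
    rw [← add_mul, ht, one_mul]
  have f4 : t1 * Real.negMulLog (x + z) + t2 * Real.negMulLog (x + z) = Real.negMulLog (x + z) := by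
    rw [← add_mul, ht, one_mul]
  linarith

end

end Crest.Agent.GAD
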