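import Crest.Agent.SEC_Reg

/-!
SEC-App. `app K kp kq u = ∑_{m<K} ∑_{m≤k<K} (wnd (kq-m) * wnd (kp-k)) • ins m (pw (2^(k-m)) (slot k u) u)`.
If `wnd (kp-k) ≠ 0` then `|kp-k| < 5/8`, so `|κ-k| < 41/64 < 21/32`, so `slot k u = A k * dir θ k` and by `pw_of_dir`, `dir_pow`
the term is `(nrm u * rho (A k^2/nrm u^2)) * dir θ m`. Put `S m = ∑_{k ∈ Ico m K} wnd (kp-k) * rho (A k^2/nrm u^2)` (in `[0,2]`: at most
two `k` with `|kp-k|<5/8`), and `A' m = wnd (kq-m) * S m * nrm u` (0 for m ≥ K). For `|κ'-m| < 21/32` the other levels of the same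
parity have `wnd (kq-m') = 0`, so `slot m (app ..) = A' m * dir θ m`. If all levels of a parity are `≥ 21/32` away from `κ'`, their
`wnd (kq-·)` vanish (`21/32-1/64 > 5/8`), so that slot is `0`.
Lower bounds: let `|κ'-m| ≤ 17/32`. Then `wnd (kq-m) = 1` (`17/32+1/64 ≤ 9/16`). There is `k ≥ m`, `k < K` with `|κ-k| ≤ 17/32`: if
`m ≥ κ - 17/32` take `k = m` (note `m ≤ κ'+17/32 ≤ κ+17/32`), otherwise the natural number nearest to `κ`. For this `k`:
`nrm u ≤ 3 A k`, so `rho = 1` (if `nrm u ≠ 0`), and `wnd (kp-k) = 1`. So `S m ≥ 1`, `nrm u ≤ A' m`, and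
`nrm (app ..) ≤ sqrt (S m ^2 + 4) * nrm u ≤ 3 * S m * nrm u = 3 * A' m` (each slot is at most `2 nrm u`). (If `nrm u = 0` all is `0`.)
-/

set_option autoImplicit false
open scoped ContDiff Manifold Topology
open Filter

namespace SEC

noncomputable section

/-- the coefficient sums of the application operator. -/
private def appS (A : ℕ → ℝ) (K : ℕ) (kp : ℝ) (u : V) (m : ℕ) : ℝ :=
  ∑ k ∈ Finset.Ico m K, wnd (kp - k) * rho (A k ^ 2 / nrm u ^ 2)

private theorem appS_nonneg (A : ℕ → ℝ) (K : ℕ) (kp : ℝ) (u : V) (m : ℕ) :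
    0 ≤ appS A K kp u m :=
  Finset.sum_nonneg fun _ _ => mul_nonneg (wnd_nonneg _) (rho_nonneg _)

private theorem appS_le_two (A : ℕ → ℝ) (K : ℕ) (kp : ℝ) (u : V) (m : ℕ) :
    appS A K kp u m ≤ 2 := by
  unfold appS
  set k₀ : ℕ := ⌈kp - 5/8⌉₊ with hk₀
  have h1 : ∀ k : ℕ, k ≠ k₀ → k ≠ k₀ + 1 → wnd (kp - k) = 0 := by
    intro k hk hk'
    apply wnd_eq_zero
    rcases lt_or_ge k k₀ with hlt | hge
    · have : (k : ℝ) < kp - 5/8 := by
        by_contra hcon
        push Not at hcon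
        exact absurd (Nat.ceil_le.mpr hcon) (by omega)
      rw [abs_of_nonneg (by linarith)]
      linarith
    · have h2 : k₀ + 2 ≤ k := by omega
      have h3 : kp - 5/8 ≤ (k₀ : ℝ) := Nat.le_ceil _
      have h4 : (k₀ : ℝ) + 2 ≤ k := by exact_mod_cast h2
      rw [abs_of_nonpos (by linarith)]
      linarith
  have h2 : ∑ k ∈ Finset.Ico m K, wnd (kp - k) * rho (A k ^ 2 / nrm u ^ 2) ≤
      ∑ k ∈ Finset.Ico m K, (if k = k₀ then (1:ℝ) else 0) +
      ∑ k ∈ Finset.Ico m K, (if k = k₀ + 1 then (1:ℝ) else 0) := by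
    rw [← Finset.sum_add_distrib]
    apply Finset.sum_le_sum
    intro k _
    have hw := wnd_le_one (kp - k)
    have hw0 := wnd_nonneg (kp - k)
    have hr := rho_le_one (A k ^ 2 / nrm u ^ 2)
    have hr0 := rho_nonneg (A k ^ 2 / nrm u ^ 2)
    by_cases hk : k = k₀
    · rw [if_pos hk, if_neg (by omega)]
      nlinarith
    · by_cases hk' : k = k₀ + 1
      · rw [if_neg hk, if_pos hk']
        nlinarith
      · rw [if_neg hk, if_neg hk', h1 k hk hk']
        simp
  refine h2.trans ?_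
  rw [Finset.sum_ite_eq', Finset.sum_ite_eq']
  split_ifs <;> norm_num

private theorem app_eq {κ kp kq θ : ℝ} {u : V} {K : ℕ} (A : ℕ → ℝ) (hA : ∀ k, 0 ≤ A k)
    (h1 : ∀ k : ℕ, |κ - k| < 21/32 → slot k u = (A k : ℂ) * dir θ k)
    (hp : |kp - κ| ≤ 1/64) :
    app K kp kq u = ∑ m ∈ Finset.range K,
      ins m (((wnd (kq - m) * (appS A K kp u m * nrm u) : ℝ) : ℂ) * dir θ m) := by
  unfold app
  apply Finset.sum_congr rfl
  intro m _
  have key : ∀ k ∈ Finset.Ico m K,
      (wnd (kq - m) * wnd (kp - k)) • ins m (pw (2^(k-m)) (slot k u) u) =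
      (wnd (kq - m) * (wnd (kp - k) * rho (A k ^ 2 / nrm u ^ 2) * nrm u)) • ins m (dir θ m) := by
    intro k hk
    rw [Finset.mem_Ico] at hk
    by_cases hw : wnd (kp - k) = 0
    · rw [hw]; simp
    · have h2 : |kp - k| < 5/8 := by
        by_contra hcon
        push Not at hcon
        exact hw (wnd_eq_zero hcon)
      have h3 : |κ - k| < 21/32 := by
        have : |κ - k| ≤ |kp - κ| + |kp - k| := by
          have := abs_sub_le κ kp k
          rw [abs_sub_comm κ kp] at this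
          exact this
        linarith
      rw [h1 k h3, pw_of_dir _ (hA k) (norm_dir θ k), dir_pow θ hk.1, ← ins_smul, smul_smul]
      congr 1
      ring
  rw [Finset.sum_congr rfl key, ← Finset.sum_smul, ← Finset.mul_sum, ← Finset.sum_mul, ins_smul]
  rfl

theorem RegW.app {κ κ' kp kq θ : ℝ} {u : V} {K : ℕ} (h : RegW κ θ (nrm u) u) (hκ : 0 ≤ κ)
    (hκ' : 0 ≤ κ') (hle : κ' ≤ κ) (hp : |kp - κ| ≤ 1/64) (hq : |kq - κ'| ≤ 1/64)
    (hK : kp + 1 ≤ K) : RegW κ' θ (nrm u) (app K kp kq u) := by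
  obtain ⟨A, hA, h1, -, h3⟩ := h
  have happ := app_eq (kq := kq) (K := K) A hA h1 hp
  set S := appS A K kp u with hS
  set A' : ℕ → ℝ := fun m => wnd (kq - m) * (S m * nrm u) with hA'
  have hn := nrm_nonneg u
  have hS0 : ∀ m, 0 ≤ S m := fun m => appS_nonneg _ _ _ _ _
  have hS2 : ∀ m, S m ≤ 2 := fun m => appS_le_two _ _ _ _ _
  have hA'0 : ∀ m, 0 ≤ A' m := fun m =>
    mul_nonneg (wnd_nonneg _) (mul_nonneg (hS0 m) hn)
  have hA'2 : ∀ m, A' m ≤ 2 * nrm u := by
    intro m
    have h5 : S m * nrm u ≤ 2 * nrm u := mul_le_mul_of_nonneg_right (hS2 m) hn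
    have h6 : 0 ≤ S m * nrm u := mul_nonneg (hS0 m) hn
    calc A' m = wnd (kq - m) * (S m * nrm u) := rfl
      _ ≤ 1 * (S m * nrm u) := mul_le_mul_of_nonneg_right (wnd_le_one _) h6
      _ ≤ 2 * nrm u := by linarith
  have hK0 : ∀ m, K ≤ m → A' m = 0 := by
    intro m hm
    have : S m = 0 := by
      rw [hS]; unfold appS
      rw [Finset.Ico_eq_empty (by omega)]; simp
    simp [hA', this]
  have hfar : ∀ m : ℕ, 41/64 ≤ |κ' - m| → A' m = 0 := by
    intro m hm
    have : wnd (kq - m) = 0 := by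
      apply wnd_eq_zero
      have h4 := abs_sub_le κ' kq m
      rw [abs_sub_comm κ' kq] at h4
      linarith
    simp [hA', this]
  have hslot : ∀ σ : ℕ, slot σ (SEC.app K kp kq u) =
      ∑ m ∈ Finset.range K, slot σ (ins m ((A' m : ℂ) * dir θ m)) := by
    intro σ
    rw [happ, slot_sum]
  -- slot of a close level
  have hclose : ∀ m₀ : ℕ, |κ' - m₀| < 21/32 →
      slot m₀ (SEC.app K kp kq u) = (A' m₀ : ℂ) * dir θ m₀ := by
    intro m₀ hm₀
    rw [hslot, Finset.sum_eq_single m₀]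
    · exact slot_ins_same rfl _
    · intro m _ hne
      by_cases hpar : m₀ % 2 = m % 2
      · have : A' m = 0 := by
          apply hfar
          rcases lt_or_gt_of_ne hne with hlt | hgt
          · have h5 : m + 2 ≤ m₀ := by omega
            have h6 : (m:ℝ) + 2 ≤ m₀ := by exact_mod_cast h5
            rw [abs_lt] at hm₀
            rw [abs_of_nonneg (by linarith)]
            linarith
          · have h5 : m₀ + 2 ≤ m := by omega
            have h6 : (m₀:ℝ) + 2 ≤ m := by exact_mod_cast h5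
            rw [abs_lt] at hm₀
            rw [abs_of_nonpos (by linarith)]
            linarith
        rw [this]; simp [ins_zero, slot_zero]
      · exact slot_ins_ne hpar _
    · intro hnot
      rw [Finset.mem_range, not_lt] at hnot
      rw [hK0 m₀ hnot]; simp [ins_zero, slot_zero]
  have hvanish : ∀ σ : ℕ, (∀ k : ℕ, k % 2 = σ % 2 → 21/32 ≤ |κ' - k|) →
      slot σ (SEC.app K kp kq u) = 0 := by
    intro σ hσ
    rw [hslot]
    apply Finset.sum_eq_zero
    intro m _
    by_cases hpar : σ % 2 = m % 2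
    · have : A' m = 0 := hfar m (by have := hσ m hpar.symm; linarith)
      rw [this]; simp [ins_zero, slot_zero]
    · exact slot_ins_ne hpar _
  have hslotle : ∀ σ : ℕ, ‖slot σ (SEC.app K kp kq u)‖ ≤ 2 * nrm u := by
    intro σ
    by_cases hσ : ∀ k : ℕ, k % 2 = σ % 2 → 21/32 ≤ |κ' - k|
    · rw [hvanish σ hσ, norm_zero]; positivity
    · push Not at hσ
      obtain ⟨k, hk, hk'⟩ := hσ
      rw [slot_congr hk.symm, hclose k hk', norm_mul, norm_dir, mul_one, Complex.norm_real,
        Real.norm_eq_abs, abs_of_nonneg (hA'0 k)]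
      exact hA'2 k
  refine ⟨A', hA'0, hclose, hvanish, ?_⟩
  intro m hm
  have hwq : wnd (kq - m) = 1 := by
    apply wnd_eq_one
    have h4 := abs_sub_le kq κ' m
    linarith
  -- the level k
  have hex : ∃ k : ℕ, m ≤ k ∧ k < K ∧ |κ - k| ≤ 17/32 := by
    rw [abs_le] at hp
    rw [abs_le] at hm
    rcases le_or_gt (κ - 17/32) m with hcase | hcase
    · refine ⟨m, le_rfl, ?_, ?_⟩
      · have : (m:ℝ) < K := by linarith
        exact_mod_cast this
      · rw [abs_le]; constructor <;> linarith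
    · have hf1 : ((⌊κ + 1/2⌋₊ : ℕ) : ℝ) ≤ κ + 1/2 := Nat.floor_le (by linarith)
      have hf2 : κ + 1/2 < (⌊κ + 1/2⌋₊ : ℕ) + 1 := Nat.lt_floor_add_one _
      refine ⟨⌊κ + 1/2⌋₊, ?_, ?_, ?_⟩
      · have : (m:ℝ) < (⌊κ + 1/2⌋₊ : ℕ) := by linarith
        exact_mod_cast this.le
      · have : ((⌊κ + 1/2⌋₊ : ℕ) : ℝ) < K := by linarith
        exact_mod_cast this
      · rw [abs_le]; constructor <;> linarith
  have hA'm : A' m = S m * nrm u := by simp [hA', hwq]
  have hmain : nrm u ≤ A' m ∧ nrm (SEC.app K kp kq u) ≤ 3 * A' m := by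
    rcases eq_or_lt_of_le hn with h0 | hpos
    · have hz : A' m = 0 := by rw [hA'm, ← h0, mul_zero]
      refine ⟨by rw [hz, ← h0], ?_⟩
      have h5 := nrm_le_add (SEC.app K kp kq u)
      have h6 := hslotle 0
      have h7 := hslotle 1
      have e0 : slot 0 (SEC.app K kp kq u) = (SEC.app K kp kq u).1 := by simp [slot]
      have e1 : slot 1 (SEC.app K kp kq u) = (SEC.app K kp kq u).2 := by simp [slot]
      rw [e0] at h6
      rw [e1] at h7
      rw [hz]
      rw [← h0] at h6 h7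
      linarith
    · obtain ⟨k, hmk, hkK, hk⟩ := hex
      have hAk := (h3 k hk).1
      have hrho : rho (A k ^ 2 / nrm u ^ 2) = 1 := by
        apply rho_eq_one
        rw [le_div_iff₀ (by positivity)]
        nlinarith [hA k]
      have hwp : wnd (kp - k) = 1 := by
        apply wnd_eq_one
        have h4 := abs_sub_le kp κ k
        linarith
      have hS1 : 1 ≤ S m := by
        have h5 : wnd (kp - k) * rho (A k ^ 2 / nrm u ^ 2) ≤ S m := by
          rw [hS]; unfold appS
          exact Finset.single_le_sum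
            (f := fun k : ℕ => wnd (kp - k) * rho (A k ^ 2 / nrm u ^ 2))
            (fun _ _ => mul_nonneg (wnd_nonneg _) (rho_nonneg _))
            (Finset.mem_Ico.mpr ⟨hmk, hkK⟩)
        rw [hwp, hrho] at h5
        linarith
      refine ⟨by rw [hA'm]; nlinarith, ?_⟩
      have hsq : nrm (SEC.app K kp kq u) ^ 2 =
          ‖slot m (SEC.app K kp kq u)‖^2 + ‖slot (m+1) (SEC.app K kp kq u)‖^2 := by
        rw [nrm_sq]
        unfold slot
        by_cases hev : Even m
        · rw [if_pos hev, if_neg (by simpa [Nat.even_add_one] using hev)]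
        · rw [if_neg hev, if_pos (by simpa [Nat.even_add_one] using hev), add_comm]
      have hs1 : ‖slot m (SEC.app K kp kq u)‖ = A' m := by
        rw [hclose m (by linarith), norm_mul, norm_dir, mul_one, Complex.norm_real,
          Real.norm_eq_abs, abs_of_nonneg (hA'0 m)]
      have hs2 := hslotle (m+1)
      rw [hs1] at hsq
      have hA'ge : nrm u ≤ A' m := by rw [hA'm]; nlinarith
      apply abs_le_of_sq_le_sq' _ (by linarith [hA'0 m]) |>.2
      rw [hsq]
      have h8 : ‖slot (m+1) (SEC.app K kp kq u)‖^2 ≤ (2 * nrm u)^2 :=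
        pow_le_pow_left₀ (norm_nonneg _) hs2 2
      nlinarith
  exact ⟨hmain.2, by linarith [hmain.1, hA'0 m]⟩

end

end SEC
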