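import Crest.Agent.SEC_Layers

/-!
SEC-B. Take `δ` from `exists_layers`, `m i` = number of `l` with `δ l ≥ 6 η i` (`δ` is strictly decreasing, so these are
`l < m i`; `m 0 = 0` since `δ ≤ 1 < 18`; `m` monotone, tends to infinity), `b i x = ∏_{l < m i} lay (δ l) x`.
`(1/2)^(n+m)` product bound = `lay_prod`. On `‖x-1‖ < 3 η i ≤ δ l / 2` all factors are `1/2`: `b i x = (1/2)^(m i)`.
`bb` = uniform limit: for `j ≥ i`, `b j x ≠ b i x` only if `‖x-1‖ < δ (m i) < 6 η i`; there the layers `l < m i - 1`
(`δ l ≥ 2 δ (m i - 1) ≥ 12 η i`) give factor `1/2`, so `|b i x - b j x| ≤ b i x ≤ (1/2)^(m i - 1)`. Take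
`bb = lim b i` (infimum/antitone limit), continuous by uniform convergence, `ε i = (1/2)^(m i - 1)` (natural subtraction),
or `2*(1/2)^(m i)`.
-/

set_option autoImplicit false
open scoped ContDiff Manifold Topology
open Filter

namespace SEC

noncomputable section

theorem exists_b (η : ℕ → ℝ) (hpos : ∀ i, 0 < η i) (hanti : ∀ i, η (i+1) ≤ η i)
    (h0 : η 0 = 3) (hlim : Tendsto η atTop (𝓝 0)) :
    ∃ (b : ℕ → ℂ → ℝ) (bb : ℂ → ℝ) (ε : ℕ → ℝ),
      (∀ x, b 0 x = 1) ∧ (∀ i x, 0 < b i x) ∧ (∀ i x, b i x ≤ 1) ∧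
      (∀ i x, b (i+1) x ≤ b i x) ∧
      (∀ i, ∃ N : ℕ, ∀ x : ℂ, ‖x‖ = 1 → ∀ n : ℕ,
        (1/2 : ℝ)^(n+N) ≤ ∏ l ∈ Finset.range n, b i (rot^(l+1) * x)) ∧
      (∀ i, ContDiff ℝ ∞ (b i)) ∧ Continuous bb ∧ Tendsto ε atTop (𝓝 0) ∧
      (∀ i x, |b i x - bb x| ≤ ε i) ∧ (∀ i x, ‖x - 1‖ < 3 * η i → b i x ≤ ε i) := by
  classical
  obtain ⟨δ, hδ0, hδ1, hδh, hδg⟩ := exists_layers
  have hδanti : Antitone δ := antitone_nat_of_succ_le fun l => by
    have h1 := hδh l
    have h2 := hδ0 l
    linarith
  have hδpow : ∀ l, δ l ≤ (1/2 : ℝ)^l := by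
    intro l
    induction l with
    | zero => simpa using hδ1 0
    | succ l ih =>
      have h1 := hδh l
      rw [pow_succ]
      linarith
  have hδlim : Tendsto δ atTop (𝓝 0) :=
    squeeze_zero (fun l => (hδ0 l).le) hδpow
      (tendsto_pow_atTop_nhds_zero_of_lt_one (by norm_num) (by norm_num))
  have hex : ∀ i, ∃ l, δ l < 6 * η i := by
    intro i
    have h6 : (0:ℝ) < 6 * η i := by have := hpos i; positivity
    exact (hδlim.eventually_lt_const h6).exists
  have hηanti : Antitone η := antitone_nat_of_succ_le hanti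
  let m : ℕ → ℕ := fun i => Nat.find (hex i)
  have hm_lt : ∀ i, δ (m i) < 6 * η i := fun i => Nat.find_spec (hex i)
  have hm_ge : ∀ i l, l < m i → 6 * η i ≤ δ l := fun i l hl => not_lt.mp (Nat.find_min (hex i) hl)
  have hm0 : m 0 = 0 := by
    have : δ 0 < 6 * η 0 := by
      rw [h0]
      have := hδ1 0
      linarith
    exact (Nat.find_eq_zero (hex 0)).mpr this
  have hmmono : Monotone m := by
    intro i j hij
    apply Nat.find_mono
    intro l hl
    have := hηanti hij
    linarith
  have hmlim : Tendsto m atTop atTop := by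
    rw [tendsto_atTop]
    intro M
    have h1 : (0:ℝ) < δ M / 6 := by have := hδ0 M; positivity
    filter_upwards [hlim.eventually_lt_const h1] with i hi
    by_contra hcon
    have h2 : m i ≤ M := by omega
    have h3 := hδanti h2
    have h4 := hm_lt i
    linarith
  have lge : ∀ l x, 1/2 ≤ lay (δ l) x := by
    intro l x
    unfold lay
    have := stp_nonneg ((δ l/2)^2) ((δ l)^2) (‖x - 1‖^2)
    linarith
  have lle : ∀ l x, lay (δ l) x ≤ 1 := by
    intro l x
    unfold lay
    have := stp_le_one ((δ l/2)^2) ((δ l)^2) (‖x - 1‖^2)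
    linarith
  have lone : ∀ l x, δ l ≤ ‖x - 1‖ → lay (δ l) x = 1 := by
    intro l x h
    have hp := hδ0 l
    unfold lay
    rw [stp_eq_one (by nlinarith [mul_pos hp hp]) (pow_le_pow_left₀ hp.le h 2)]
    ring
  have lhalf : ∀ l x, ‖x - 1‖ ≤ δ l / 2 → lay (δ l) x = 1/2 := by
    intro l x h
    have hp := hδ0 l
    unfold lay
    rw [stp_eq_zero (by nlinarith [mul_pos hp hp]) (pow_le_pow_left₀ (norm_nonneg _) h 2)]
    ring
  let b : ℕ → ℂ → ℝ := fun i x => ∏ l ∈ Finset.range (m i), lay (δ l) x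
  have hb_pos : ∀ i x, 0 < b i x := fun i x =>
    Finset.prod_pos fun l _ => by have := lge l x; linarith
  have hb_le : ∀ i x, b i x ≤ 1 := fun i x =>
    Finset.prod_le_one (fun l _ => by have := lge l x; linarith) (fun l _ => lle l x)
  have hb_split : ∀ i j, i ≤ j → ∀ x, b j x = b i x * ∏ l ∈ Finset.Ico (m i) (m j), lay (δ l) x := by
    intro i j hij x
    exact (Finset.prod_range_mul_prod_Ico (fun l => lay (δ l) x) (hmmono hij)).symm
  have hb_anti : ∀ i j, i ≤ j → ∀ x, b j x ≤ b i x := by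
    intro i j hij x
    rw [hb_split i j hij x]
    have h1 : ∏ l ∈ Finset.Ico (m i) (m j), lay (δ l) x ≤ 1 :=
      Finset.prod_le_one (fun l _ => by have := lge l x; linarith) (fun l _ => lle l x)
    exact mul_le_of_le_one_right (hb_pos i x).le h1
  have hb_half : ∀ i x, (∀ l, l < m i → ‖x - 1‖ ≤ δ l / 2) → b i x = (1/2)^(m i) := by
    intro i x h
    show ∏ l ∈ Finset.range (m i), lay (δ l) x = (1/2)^(m i)
    rw [Finset.prod_congr rfl (fun l hl => lhalf l x (h l (Finset.mem_range.mp hl)))]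
    simp
  have hclose : ∀ i j, i ≤ j → ∀ x, b i x - b j x ≤ (1/2)^(m i) := by
    intro i j hij x
    rcases le_or_gt (δ (m i)) (‖x - 1‖) with h | h
    · have : b j x = b i x := by
        rw [hb_split i j hij x, Finset.prod_congr rfl (fun l hl => lone l x
          ((hδanti (Finset.mem_Ico.mp hl).1).trans h))]
        simp
      rw [this, sub_self]
      positivity
    · have h1 : b i x = (1/2)^(m i) := by
        apply hb_half
        intro l hl
        have h2 : δ (m i) ≤ δ (l+1) := hδanti hl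
        have h3 := hδh l
        linarith
      have := hb_pos j x
      rw [h1] at *
      linarith
  let bb : ℂ → ℝ := fun x => ⨅ i, b i x
  have hbdd : ∀ x, BddBelow (Set.range fun i => b i x) := fun x =>
    ⟨0, by rintro _ ⟨i, rfl⟩; exact (hb_pos i x).le⟩
  have hbb_le : ∀ i x, bb x ≤ b i x := fun i x => ciInf_le (hbdd x) i
  have hbb_close : ∀ i x, |b i x - bb x| ≤ (1/2)^(m i) := by
    intro i x
    rw [abs_of_nonneg (by have := hbb_le i x; linarith)]
    have : b i x - (1/2)^(m i) ≤ bb x := by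
      apply le_ciInf
      intro j
      rcases le_total i j with h | h
      · have := hclose i j h x
        linarith
      · have h1 := hb_anti j i h x
        have h2 : (0:ℝ) ≤ (1/2)^(m i) := by positivity
        linarith
    linarith
  have heps : Tendsto (fun i => ((1/2 : ℝ))^(m i)) atTop (𝓝 0) :=
    (tendsto_pow_atTop_nhds_zero_of_lt_one (by norm_num) (by norm_num)).comp hmlim
  have hsmooth : ∀ i, ContDiff ℝ ∞ (b i) := by
    intro i
    refine contDiff_prod fun l _ => ?_
    unfold lay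
    exact contDiff_const.sub (contDiff_const.mul (contDiff_const.sub
      ((contDiff_stp _ _).comp contDiff_normsq_sub_one)))
  have hcont : Continuous bb := by
    have hu : TendstoUniformly b bb atTop := by
      rw [Metric.tendstoUniformly_iff]
      intro e he
      filter_upwards [heps.eventually_lt_const he] with i hi x
      rw [dist_comm, Real.dist_eq]
      exact lt_of_le_of_lt (hbb_close i x) hi
    exact hu.continuous (Frequently.of_forall fun i => (hsmooth i).continuous)
  refine ⟨b, bb, fun i => (1/2)^(m i), ?_, hb_pos, hb_le, fun i x => hb_anti i (i+1) (Nat.le_succ i) x,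
    ?_, hsmooth, hcont, heps, hbb_close, ?_⟩
  · intro x
    show ∏ l ∈ Finset.range (m 0), lay (δ l) x = 1
    rw [hm0]; simp
  · intro i
    exact ⟨m i, fun x hx n => lay_prod δ hδ0 hδg (m i) n x hx⟩
  · intro i x hx
    rw [hb_half i x]
    intro l hl
    have := hm_ge i l hl
    linarith

end

end SEC
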