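import Crest.Agent.SEC_Defs

/-!
# SEC: basic lemmas
-/

set_option autoImplicit false
open scoped ContDiff Topology
open Filter

namespace SEC

/-! ### the step function -/

theorem stp_nonneg (lo hi s : ℝ) : 0 ≤ stp lo hi s := Real.smoothTransition.nonneg _

theorem stp_le_one (lo hi s : ℝ) : stp lo hi s ≤ 1 := Real.smoothTransition.le_one _

theorem stp_eq_zero {lo hi s : ℝ} (h : lo < hi) (hs : s ≤ lo) : stp lo hi s = 0 :=
  Real.smoothTransition.zero_of_nonpos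
    (div_nonpos_of_nonpos_of_nonneg (by linarith) (by linarith))

theorem stp_eq_one {lo hi s : ℝ} (h : lo < hi) (hs : hi ≤ s) : stp lo hi s = 1 := by
  apply Real.smoothTransition.one_of_one_le
  rw [le_div_iff₀ (by linarith)]; linarith

theorem contDiff_stp (lo hi : ℝ) {n : ℕ∞} : ContDiff ℝ n (stp lo hi) := by
  unfold stp
  exact Real.smoothTransition.contDiff.comp ((contDiff_id.sub contDiff_const).div_const _)

theorem continuous_stp (lo hi : ℝ) : Continuous (stp lo hi) :=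
  (contDiff_stp lo hi (n := 0)).continuous

/-! ### wnd, rho, tau, chi -/

theorem wnd_nonneg (y : ℝ) : 0 ≤ wnd y := by
  unfold wnd; linarith [stp_le_one ((9/16)^2) ((5/8)^2) (y^2)]

theorem wnd_le_one (y : ℝ) : wnd y ≤ 1 := by
  unfold wnd; linarith [stp_nonneg ((9/16)^2) ((5/8)^2) (y^2)]

theorem wnd_eq_one {y : ℝ} (h : |y| ≤ 9/16) : wnd y = 1 := by
  unfold wnd
  rw [stp_eq_zero (by norm_num)]
  · ring
  · rw [← sq_abs]; exact pow_le_pow_left₀ (abs_nonneg _) h 2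

theorem wnd_eq_zero {y : ℝ} (h : 5/8 ≤ |y|) : wnd y = 0 := by
  unfold wnd
  rw [stp_eq_one (by norm_num)]
  · ring
  · rw [← sq_abs y]; exact pow_le_pow_left₀ (by norm_num) h 2

theorem contDiff_wnd {n : ℕ∞} : ContDiff ℝ n wnd := by
  unfold wnd
  exact contDiff_const.sub ((contDiff_stp _ _).comp (contDiff_id.pow 2))

theorem rho_nonneg (s : ℝ) : 0 ≤ rho s := stp_nonneg _ _ _

theorem rho_le_one (s : ℝ) : rho s ≤ 1 := stp_le_one _ _ _

theorem rho_eq_zero {s : ℝ} (h : s ≤ 1/36) : rho s = 0 := stp_eq_zero (by norm_num) h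

theorem rho_eq_one {s : ℝ} (h : 1/9 ≤ s) : rho s = 1 := stp_eq_one (by norm_num) h

theorem contDiff_rho {n : ℕ∞} : ContDiff ℝ n rho := contDiff_stp _ _

theorem tau_nonneg (η : ℝ) (x : ℂ) : 0 ≤ tau η x := stp_nonneg _ _ _

theorem tau_le_one (η : ℝ) (x : ℂ) : tau η x ≤ 1 := stp_le_one _ _ _

theorem tau_eq_zero {η : ℝ} (hη : 0 < η) {x : ℂ} (h : ‖x - 1‖ ≤ η) : tau η x = 0 := by
  unfold tau
  exact stp_eq_zero (by nlinarith [mul_pos hη hη]) (pow_le_pow_left₀ (norm_nonneg _) h 2)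

theorem tau_eq_one {η : ℝ} (hη : 0 < η) {x : ℂ} (h : 3/2 * η ≤ ‖x - 1‖) : tau η x = 1 := by
  unfold tau
  exact stp_eq_one (by nlinarith [mul_pos hη hη]) (pow_le_pow_left₀ (by positivity) h 2)

theorem contDiff_normsq_sub_one {n : ℕ∞} : ContDiff ℝ n (fun x : ℂ => ‖x - 1‖^2) :=
  (contDiff_norm_sq ℝ).comp (contDiff_id.sub contDiff_const)

theorem contDiff_tau (η : ℝ) {n : ℕ∞} : ContDiff ℝ n (tau η) := by
  unfold tau
  exact (contDiff_stp _ _).comp contDiff_normsq_sub_one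

theorem chi_nonneg (η : ℝ) (x : ℂ) : 0 ≤ chi η x := by
  unfold chi; linarith [stp_le_one ((2*η)^2) ((3*η)^2) (‖x-1‖^2)]

theorem chi_le_one (η : ℝ) (x : ℂ) : chi η x ≤ 1 := by
  unfold chi; linarith [stp_nonneg ((2*η)^2) ((3*η)^2) (‖x-1‖^2)]

theorem chi_eq_one {η : ℝ} (hη : 0 < η) {x : ℂ} (h : ‖x - 1‖ ≤ 2 * η) : chi η x = 1 := by
  unfold chi
  rw [stp_eq_zero (by nlinarith [mul_pos hη hη]) (pow_le_pow_left₀ (norm_nonneg _) h 2)]; ring

theorem chi_eq_zero {η : ℝ} (hη : 0 < η) {x : ℂ} (h : 3 * η ≤ ‖x - 1‖) : chi η x = 0 := by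
  unfold chi
  rw [stp_eq_one (by nlinarith [mul_pos hη hη]) (pow_le_pow_left₀ (by positivity) h 2)]; ring

theorem contDiff_chi (η : ℝ) {n : ℕ∞} : ContDiff ℝ n (chi η) := by
  unfold chi
  exact contDiff_const.sub ((contDiff_stp _ _).comp contDiff_normsq_sub_one)

/-! ### rot -/

theorem rot_norm : ‖rot‖ = 1 := by
  have := Complex.norm_exp_ofReal_mul_I 1
  simpa [rot] using this

theorem rot_ne_zero : rot ≠ 0 := by
  intro h; have := rot_norm; rw [h, norm_zero] at this; norm_num at this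

theorem rot_pow_norm (n : ℕ) : ‖rot^n‖ = 1 := by rw [norm_pow, rot_norm, one_pow]

theorem rot_mul_norm {x : ℂ} (hx : ‖x‖ = 1) : ‖rot * x‖ = 1 := by
  rw [norm_mul, rot_norm, hx, one_mul]

theorem div_rot_pow_norm {x : ℂ} (hx : ‖x‖ = 1) (n : ℕ) : ‖x / rot^n‖ = 1 := by
  rw [norm_div, rot_pow_norm, hx, div_one]

/-! ### the pending function -/

theorem pend_nonneg (η : ℝ) (L : ℕ) (x : ℂ) : 0 ≤ pend η L x :=
  Finset.sum_nonneg fun _ _ => Finset.prod_nonneg fun _ _ => tau_nonneg _ _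

theorem pend_le (η : ℝ) (L : ℕ) (x : ℂ) : pend η L x ≤ L := by
  unfold pend
  calc _ ≤ ∑ t ∈ Finset.range L, (1:ℝ) := Finset.sum_le_sum fun _ _ =>
        Finset.prod_le_one (fun _ _ => tau_nonneg _ _) (fun _ _ => tau_le_one _ _)
    _ = L := by simp

theorem contDiff_pend (η : ℝ) (L : ℕ) {n : ℕ∞} : ContDiff ℝ n (pend η L) := by
  unfold pend
  refine ContDiff.sum fun t _ => contDiff_prod fun s _ => ?_
  exact (contDiff_tau η).comp (contDiff_id.div_const _)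

theorem Era.P_nonneg (E : Era) (x : ℂ) : 0 ≤ E.P x := pend_nonneg _ _ _

theorem Era.P_le (E : Era) (x : ℂ) : E.P x ≤ E.L := pend_le _ _ _

/-! ### nrm, slot, ins, swp -/

theorem nrm_nonneg (v : V) : 0 ≤ nrm v := Real.sqrt_nonneg _

theorem nrm_sq (v : V) : nrm v ^ 2 = ‖v.1‖^2 + ‖v.2‖^2 := Real.sq_sqrt (by positivity)

theorem nrm_zero : nrm (0 : V) = 0 := by simp [nrm]

theorem nrm_eq_zero {v : V} : nrm v = 0 ↔ v = 0 := by
  constructor
  · intro h
    have h2 := nrm_sq v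
    rw [h] at h2
    have h1 : ‖v.1‖ = 0 := by nlinarith [norm_nonneg v.1, norm_nonneg v.2, sq_nonneg ‖v.2‖, sq_nonneg ‖v.1‖]
    have h3 : ‖v.2‖ = 0 := by nlinarith [norm_nonneg v.1, norm_nonneg v.2, sq_nonneg ‖v.2‖, sq_nonneg ‖v.1‖]
    exact Prod.ext (norm_eq_zero.mp h1) (norm_eq_zero.mp h3)
  · rintro rfl; exact nrm_zero

theorem nrm_pos {v : V} (h : v ≠ 0) : 0 < nrm v :=
  lt_of_le_of_ne (nrm_nonneg v) fun h' => h (nrm_eq_zero.mp h'.symm)

theorem nrm_smul (c : ℝ) (v : V) : nrm (c • v) = |c| * nrm v := by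
  have : ‖(c • v).1‖^2 + ‖(c • v).2‖^2 = c^2 * (‖v.1‖^2 + ‖v.2‖^2) := by
    simp only [Prod.smul_fst, Prod.smul_snd, norm_smul, Real.norm_eq_abs, mul_pow, sq_abs]; ring
  unfold nrm
  rw [this, Real.sqrt_mul (sq_nonneg c), Real.sqrt_sq_eq_abs]

theorem norm_fst_le_nrm (v : V) : ‖v.1‖ ≤ nrm v :=
  Real.le_sqrt_of_sq_le (by nlinarith [sq_nonneg ‖v.2‖])

theorem norm_snd_le_nrm (v : V) : ‖v.2‖ ≤ nrm v :=
  Real.le_sqrt_of_sq_le (by nlinarith [sq_nonneg ‖v.1‖])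

theorem norm_le_nrm (v : V) : ‖v‖ ≤ nrm v := by
  rw [Prod.norm_def]; exact max_le (norm_fst_le_nrm v) (norm_snd_le_nrm v)

theorem nrm_le_add (v : V) : nrm v ≤ ‖v.1‖ + ‖v.2‖ := by
  unfold nrm
  rw [Real.sqrt_le_left (by positivity)]
  nlinarith [mul_nonneg (norm_nonneg v.1) (norm_nonneg v.2)]

theorem nrm_le_two_norm (v : V) : nrm v ≤ 2 * ‖v‖ := by
  have h := nrm_le_add v
  have h1 : ‖v.1‖ ≤ ‖v‖ := norm_fst_le v
  have h2 : ‖v.2‖ ≤ ‖v‖ := norm_snd_le v
  linarith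

theorem nrm_eq_withLp (v : V) : nrm v = ‖(WithLp.toLp 2 v : WithLp 2 V)‖ := by
  rw [WithLp.prod_norm_eq_of_L2]; rfl

theorem nrm_add_le (v w : V) : nrm (v + w) ≤ nrm v + nrm w := by
  rw [nrm_eq_withLp, nrm_eq_withLp, nrm_eq_withLp, WithLp.toLp_add]
  exact norm_add_le _ _

theorem nrm_sum_le {ι : Type*} (s : Finset ι) (f : ι → V) :
    nrm (∑ i ∈ s, f i) ≤ ∑ i ∈ s, nrm (f i) := by
  classical
  induction s using Finset.induction_on with
  | empty => simp [nrm_zero]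
  | insert a s ha ih =>
    rw [Finset.sum_insert ha, Finset.sum_insert ha]
    exact (nrm_add_le _ _).trans (by linarith)

theorem continuous_nrm : Continuous nrm := by unfold nrm; fun_prop

theorem contDiffOn_nrm {n : ℕ∞} : ContDiffOn ℝ n nrm {v : V | v ≠ 0} := by
  unfold nrm
  have h : ContDiff ℝ n (fun v : V => ‖v.1‖^2 + ‖v.2‖^2) :=
    ((contDiff_norm_sq ℝ).comp contDiff_fst).add ((contDiff_norm_sq ℝ).comp contDiff_snd)
  refine h.contDiffOn.sqrt ?_
  intro v hv h0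
  exact hv (nrm_eq_zero.mp (by unfold nrm; rw [h0, Real.sqrt_zero]))

theorem contDiff_nrm_sq {n : ℕ∞} : ContDiff ℝ n (fun v : V => nrm v ^ 2) := by
  simp only [nrm_sq]
  exact ((contDiff_norm_sq ℝ).comp contDiff_fst).add ((contDiff_norm_sq ℝ).comp contDiff_snd)

@[simp] theorem swp_fst (v : V) : (swp v).1 = v.2 := rfl
@[simp] theorem swp_snd (v : V) : (swp v).2 = v.1 := rfl
@[simp] theorem swp_swp (v : V) : swp (swp v) = v := rfl
theorem swp_add (v w : V) : swp (v + w) = swp v + swp w := rfl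
theorem swp_smul (c : ℝ) (v : V) : swp (c • v) = c • swp v := rfl
theorem swp_zero : swp (0 : V) = 0 := rfl

theorem nrm_swp (v : V) : nrm (swp v) = nrm v := by
  unfold nrm swp; rw [add_comm]

theorem slot_add (k : ℕ) (v w : V) : slot k (v + w) = slot k v + slot k w := by
  unfold slot; split_ifs <;> rfl

theorem slot_smul (k : ℕ) (c : ℝ) (v : V) : slot k (c • v) = (c : ℂ) * slot k v := by
  unfold slot; split_ifs <;> simp

theorem slot_zero (k : ℕ) : slot k (0 : V) = 0 := by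
  unfold slot; split_ifs <;> rfl

theorem slot_sum (k : ℕ) {ι : Type*} (s : Finset ι) (f : ι → V) :
    slot k (∑ i ∈ s, f i) = ∑ i ∈ s, slot k (f i) := by
  classical
  induction s using Finset.induction_on with
  | empty => simp [slot_zero]
  | insert a s ha ih => rw [Finset.sum_insert ha, Finset.sum_insert ha, slot_add, ih]

theorem slot_succ_swp (k : ℕ) (v : V) : slot (k+1) (swp v) = slot k v := by
  unfold slot
  by_cases h : Even k
  · rw [if_neg (by simpa [Nat.even_add_one] using h), if_pos h]; rfl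
  · rw [if_pos (by simpa [Nat.even_add_one] using h), if_neg h]; rfl

theorem slot_congr {k l : ℕ} (h : k % 2 = l % 2) (v : V) : slot k v = slot l v := by
  unfold slot
  have : Even k ↔ Even l := by rw [Nat.even_iff, Nat.even_iff, h]
  by_cases hk : Even k
  · rw [if_pos hk, if_pos (this.mp hk)]
  · rw [if_neg hk, if_neg (fun h' => hk (this.mpr h'))]

theorem norm_slot_le_nrm (k : ℕ) (v : V) : ‖slot k v‖ ≤ nrm v := by
  unfold slot; split_ifs
  · exact norm_fst_le_nrm v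
  · exact norm_snd_le_nrm v

theorem slot_ins_same {k l : ℕ} (h : k % 2 = l % 2) (z : ℂ) : slot k (ins l z) = z := by
  unfold slot ins
  have : Even k ↔ Even l := by rw [Nat.even_iff, Nat.even_iff, h]
  by_cases hk : Even k
  · rw [if_pos hk, if_pos (this.mp hk)]
  · rw [if_neg hk, if_neg (fun h' => hk (this.mpr h'))]

theorem slot_ins_ne {k l : ℕ} (h : k % 2 ≠ l % 2) (z : ℂ) : slot k (ins l z) = 0 := by
  unfold slot ins
  have h1 : k % 2 = 0 ∨ k % 2 = 1 := Nat.mod_two_eq_zero_or_one k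
  have h2 : l % 2 = 0 ∨ l % 2 = 1 := Nat.mod_two_eq_zero_or_one l
  by_cases hk : Even k
  · have hl : ¬ Even l := by rw [Nat.even_iff] at hk ⊢; omega
    rw [if_pos hk, if_neg hl]
  · have hl : Even l := by rw [Nat.even_iff] at hk ⊢; omega
    rw [if_neg hk, if_pos hl]

theorem nrm_ins (k : ℕ) (z : ℂ) : nrm (ins k z) = ‖z‖ := by
  unfold nrm ins
  split_ifs <;> simp [Real.sqrt_sq (norm_nonneg z)]

theorem ins_zero (k : ℕ) : ins k 0 = 0 := by unfold ins; split_ifs <;> rfl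

theorem ins_smul (k : ℕ) (c : ℝ) (z : ℂ) : c • ins k z = ins k ((c : ℂ) * z) := by
  unfold ins; split_ifs <;> simp [Prod.smul_mk]

/-! ### pw -/

theorem pw_zero_left (n : ℕ) (v : V) : pw n 0 v = 0 := by
  unfold pw
  rw [norm_zero]
  rw [show ((0:ℝ)^2 / nrm v^2) = 0 by simp, rho_eq_zero (by norm_num)]
  simp

theorem norm_pw_le (n : ℕ) (z : ℂ) (v : V) : ‖pw n z v‖ ≤ nrm v := by
  unfold pw
  rw [norm_mul, norm_pow, Complex.norm_real, Real.norm_eq_abs, abs_mul,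
    abs_of_nonneg (nrm_nonneg v), abs_of_nonneg (rho_nonneg _), norm_div, Complex.norm_real,
    norm_norm]
  have h1 : ‖z‖ / ‖z‖ ≤ 1 := div_self_le_one _
  have h2 : (‖z‖ / ‖z‖)^n ≤ 1 := pow_le_one₀ (by positivity) h1
  have h3 := rho_le_one (‖z‖^2 / nrm v^2)
  have h4 := rho_nonneg (‖z‖^2 / nrm v^2)
  have h5 := nrm_nonneg v
  calc nrm v * rho (‖z‖^2 / nrm v^2) * (‖z‖ / ‖z‖)^n
      ≤ nrm v * 1 * 1 := by gcongr
    _ = nrm v := by ring

/-- power map on a vector with known direction. -/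
theorem pw_of_dir (n : ℕ) {a : ℝ} (ha : 0 ≤ a) {e : ℂ} (he : ‖e‖ = 1) (v : V) :
    pw n ((a : ℂ) * e) v = ((nrm v * rho (a^2 / nrm v^2) : ℝ) : ℂ) * e^n := by
  rcases eq_or_lt_of_le ha with h | h
  · subst h
    rw [Complex.ofReal_zero, zero_mul, pw_zero_left, rho_eq_zero (by simp)]; simp
  · unfold pw
    have h1 : ‖(a:ℂ) * e‖ = a := by rw [norm_mul, he, mul_one, Complex.norm_real, Real.norm_eq_abs, abs_of_pos h]
    rw [h1]
    congr 2
    have : (a:ℂ) ≠ 0 := by exact_mod_cast h.ne'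
    field_simp

/-! ### dir -/

theorem norm_dir (θ : ℝ) (k : ℕ) : ‖dir θ k‖ = 1 := by
  unfold dir; exact Complex.norm_exp_ofReal_mul_I _

theorem dir_pow (θ : ℝ) {m k : ℕ} (h : m ≤ k) : dir θ k ^ (2^(k-m)) = dir θ m := by
  unfold dir
  rw [← Complex.exp_nat_mul]
  congr 1
  have : (2:ℂ)^k = 2^(k-m) * 2^m := by rw [← pow_add, Nat.sub_add_cancel h]
  push_cast
  rw [this]
  field_simp

theorem dir_two_mul (θ : ℝ) (k : ℕ) : dir (2*θ) (k+1) = dir θ k := by
  unfold dir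
  congr 3
  rw [pow_succ]
  field_simp

theorem dir_arg_zero (z : ℂ) : (‖z‖ : ℂ) * dir (Complex.arg z) 0 = z := by
  unfold dir
  simp [Complex.norm_mul_exp_arg_mul_I]

end SEC
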