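import Crest.Agent.SEC_Basic

/-!
SEC-C1Crit.
1. `contDiff_one_of_off_zero`: the candidate derivative `D (x,v) = fderiv F (x,v)` (v ≠ 0), `D (x,0) = (A x) ∘ snd` is continuous (by `hlim`, `hA`; use
`contDiff_one_iff_fderiv` or `contDiff_one_iff_hasFDerivAt`-like lemmas), and `F` is differentiable at `(x,0)` (`F (x,0) = 0` by `hbd`): for `w ≠ 0` the mean value
inequality for `t ↦ F (y, t w) - t • A y w` on `[0,1]` (continuous at `0` by `hbd`, small derivative on `(0,1]`) gives `‖F (y,w) - A y w‖ ≤ ε ‖w‖`; and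
`‖A y w - A x w‖ ≤ ε ‖w‖` for `y` near `x`.
2. `exists_cut`: `S v = 1 - stp (b^2) (a^2) (nrm v ^2)`; `K` from the bound on the derivative of `Real.smoothTransition` (continuous, zero outside `[0,1]`),
`nrm v * ‖D(nrm v^2)‖ ≤ C a^2` on the support, `a^2 - b^2 ≥ 3/4 a^2`.
-/

set_option autoImplicit false
open scoped ContDiff Manifold Topology
open Filter

namespace SEC

noncomputable section

/-- mean value estimate. -/
private theorem C1C_mv (F : ℂ × V → V) (y : ℂ) (w : V) (T : V →L[ℝ] V) (e K : ℝ) (he : 0 ≤ e)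
    (hbd : ∀ v, ‖F (y, v)‖ ≤ K * ‖v‖)
    (hd : ∀ t : ℝ, 0 < t → t ≤ 1 → DifferentiableAt ℝ F (y, t • w))
    (hb : ∀ t : ℝ, 0 < t → t ≤ 1 →
      ‖fderiv ℝ F (y, t • w) - T.comp (ContinuousLinearMap.snd ℝ ℂ V)‖ ≤ e) :
    ‖F (y, w) - T w‖ ≤ e * ‖w‖ := by
  set g : ℝ → V := fun t => F (y, t • w) - t • T w with hg
  have hder : ∀ t : ℝ, 0 < t → t ≤ 1 →
      HasDerivAt g ((fderiv ℝ F (y, t • w) - T.comp (ContinuousLinearMap.snd ℝ ℂ V)) ((0:ℂ), w)) t := by
    intro t h0 h1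
    have h2 : HasDerivAt (fun t : ℝ => ((y, t • w) : ℂ × V)) ((0:ℂ), w) t := by
      have h3 : HasDerivAt (fun t : ℝ => t • w) ((1:ℝ) • w) t := (hasDerivAt_id t).smul_const w
      rw [one_smul] at h3
      exact (hasDerivAt_const t y).prodMk h3
    have h4 := (hd t h0 h1).hasFDerivAt.comp_hasDerivAt t h2
    have h5 : HasDerivAt (fun t : ℝ => t • T w) ((1:ℝ) • T w) t := (hasDerivAt_id t).smul_const _
    rw [one_smul] at h5
    exact h4.sub h5
  have hbound : ∀ t : ℝ, 0 < t → t ≤ 1 →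
      ‖(fderiv ℝ F (y, t • w) - T.comp (ContinuousLinearMap.snd ℝ ℂ V)) ((0:ℂ), w)‖ ≤ e * ‖w‖ := by
    intro t h0 h1
    refine (ContinuousLinearMap.le_opNorm _ _).trans ?_
    have h2 : ‖(((0:ℂ), w) : ℂ × V)‖ ≤ ‖w‖ := by
      rw [Prod.norm_def]; simp
    exact mul_le_mul (hb t h0 h1) h2 (norm_nonneg _) he
  have hseg : ∀ δ : ℝ, 0 < δ → δ ≤ 1 → ‖F (y, w) - T w‖ ≤ e * ‖w‖ + δ * (K * ‖w‖ + ‖T w‖) := by
    intro δ h0 h1
    have h2 := norm_image_sub_le_of_norm_deriv_le_segment' (f := g) (a := δ) (b := 1) (C := e * ‖w‖)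
      (f' := fun t => (fderiv ℝ F (y, t • w) - T.comp (ContinuousLinearMap.snd ℝ ℂ V)) ((0:ℂ), w))
      (fun t ht => (hder t (lt_of_lt_of_le h0 ht.1) ht.2).hasDerivWithinAt)
      (fun t ht => hbound t (lt_of_lt_of_le h0 ht.1) ht.2.le) 1 ⟨h1, le_rfl⟩
    have h3 : g 1 = F (y, w) - T w := by simp [hg]
    have h4 : ‖g δ‖ ≤ δ * (K * ‖w‖ + ‖T w‖) := by
      have h5 := hbd (δ • w)
      rw [norm_smul, Real.norm_eq_abs, abs_of_pos h0] at h5
      calc ‖g δ‖ ≤ ‖F (y, δ • w)‖ + ‖δ • T w‖ := norm_sub_le _ _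
        _ ≤ K * (δ * ‖w‖) + δ * ‖T w‖ := by
          rw [norm_smul δ, Real.norm_eq_abs, abs_of_pos h0]; linarith
        _ = _ := by ring
    have h6 : ‖g 1‖ ≤ ‖g 1 - g δ‖ + ‖g δ‖ := by
      have := norm_add_le (g 1 - g δ) (g δ)
      rwa [sub_add_cancel] at this
    rw [← h3]
    have h7 : e * ‖w‖ * (1 - δ) ≤ e * ‖w‖ := by
      have : 0 ≤ e * ‖w‖ := by positivity
      nlinarith
    linarith
  refine le_of_tendsto_of_tendsto (b := 𝓝[>] (0:ℝ)) (f := fun _ : ℝ => ‖F (y, w) - T w‖)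
    (g := fun δ : ℝ => e * ‖w‖ + δ * (K * ‖w‖ + ‖T w‖)) tendsto_const_nhds ?_ ?_
  · have : Tendsto (fun δ : ℝ => e * ‖w‖ + δ * (K * ‖w‖ + ‖T w‖)) (𝓝 0)
        (𝓝 (e * ‖w‖ + 0 * (K * ‖w‖ + ‖T w‖))) := by
      apply Continuous.tendsto (by fun_prop)
    rw [zero_mul, add_zero] at this
    exact this.mono_left nhdsWithin_le_nhds
  · have h8 : ∀ᶠ δ : ℝ in 𝓝[>] 0, δ ∈ Set.Ioc (0:ℝ) 1 := Ioc_mem_nhdsGT one_pos
    filter_upwards [h8] with δ hδ
    exact hseg δ hδ.1 hδ.2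

/-- C¹ criterion on the zero section. -/
theorem contDiff_one_of_off_zero (F : ℂ × V → V) (A : ℂ → V →L[ℝ] V) (hA : Continuous A)
    (hbd : ∀ R : ℝ, ∃ K : ℝ, ∀ x v, ‖x‖ ≤ R → ‖F (x, v)‖ ≤ K * ‖v‖)
    (hsm : ContDiffOn ℝ 1 F {p : ℂ × V | p.2 ≠ 0})
    (hlim : ∀ R ε : ℝ, 0 < ε → ∃ r > 0, ∀ x v, ‖x‖ ≤ R → v ≠ 0 → nrm v < r →
      ‖fderiv ℝ F (x, v) - (A x).comp (ContinuousLinearMap.snd ℝ ℂ V)‖ ≤ ε) :
    ContDiff ℝ 1 F := by
  classical
  have hopen : IsOpen {p : ℂ × V | p.2 ≠ 0} := isOpen_ne.preimage continuous_snd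
  have hat : ∀ p : ℂ × V, p.2 ≠ 0 → ContDiffAt ℝ 1 F p := fun p hp =>
    hsm.contDiffAt (hopen.mem_nhds hp)
  have hdiff : ∀ p : ℂ × V, p.2 ≠ 0 → DifferentiableAt ℝ F p := fun p hp =>
    (hat p hp).differentiableAt (by simp)
  have hF0 : ∀ x, F (x, 0) = 0 := by
    intro x
    obtain ⟨K, hK⟩ := hbd ‖x‖
    have := hK x 0 le_rfl
    rw [norm_zero, mul_zero] at this
    exact norm_le_zero_iff.mp this
  rw [contDiff_one_iff_hasFDerivAt]
  set D : ℂ × V → (ℂ × V →L[ℝ] V) := fun p =>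
    if p.2 = 0 then (A p.1).comp (ContinuousLinearMap.snd ℝ ℂ V) else fderiv ℝ F p with hD
  have hD0 : ∀ x, D (x, 0) = (A x).comp (ContinuousLinearMap.snd ℝ ℂ V) := fun x => by simp [hD]
  have hD1 : ∀ p : ℂ × V, p.2 ≠ 0 → D p = fderiv ℝ F p := fun p hp => by simp [hD, hp]
  -- closeness
  have hclose : ∀ x : ℂ, ∀ ε : ℝ, 0 < ε → ∃ δ > 0, ∀ p : ℂ × V, dist p (x, 0) < δ →
      ‖p.1‖ ≤ ‖x‖ + 1 ∧ ‖A p.1 - A x‖ ≤ ε ∧
      (∀ t : ℝ, 0 < t → t ≤ 1 → p.2 ≠ 0 →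
        ‖fderiv ℝ F (p.1, t • p.2) - (A p.1).comp (ContinuousLinearMap.snd ℝ ℂ V)‖ ≤ ε) := by
    intro x ε hε
    obtain ⟨r, hr, hr2⟩ := hlim (‖x‖ + 1) ε hε
    obtain ⟨δ1, hδ1, hδ2⟩ := Metric.continuousAt_iff.mp (hA.continuousAt (x := x)) ε hε
    refine ⟨min (min 1 δ1) (r/2), by positivity, fun p hp => ?_⟩
    rw [lt_min_iff, lt_min_iff, Prod.dist_eq] at hp
    obtain ⟨⟨hp1, hp2⟩, hp3⟩ := hp
    have h1 : dist p.1 x < 1 := lt_of_le_of_lt (le_max_left _ _) hp1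
    have h2 : dist p.1 x < δ1 := lt_of_le_of_lt (le_max_left _ _) hp2
    have h3 : dist p.2 0 < r/2 := lt_of_le_of_lt (le_max_right _ _) hp3
    rw [dist_zero_right] at h3
    have h4 : ‖p.1‖ ≤ ‖x‖ + 1 := by
      have : ‖p.1‖ ≤ ‖p.1 - x‖ + ‖x‖ := by
        have := norm_add_le (p.1 - x) x
        rwa [sub_add_cancel] at this
      rw [dist_eq_norm] at h1
      linarith
    refine ⟨h4, ?_, ?_⟩
    · have := hδ2 h2
      rw [dist_eq_norm] at this
      exact this.le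
    · intro t ht0 ht1 hne
      refine hr2 _ _ h4 (smul_ne_zero ht0.ne' hne) ?_
      rw [nrm_smul, abs_of_pos ht0]
      have h5 := nrm_le_two_norm p.2
      have h6 := nrm_nonneg p.2
      nlinarith
  refine ⟨D, ?_, ?_⟩
  · rw [continuous_iff_continuousAt]
    rintro ⟨x, v⟩
    by_cases hv : v = 0
    · subst hv
      rw [Metric.continuousAt_iff]
      intro ε hε
      obtain ⟨δ, hδ, hδ2⟩ := hclose x (ε/3) (by positivity)
      refine ⟨δ, hδ, fun p hp => ?_⟩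
      obtain ⟨h1, h2, h3⟩ := hδ2 p hp
      rw [hD0, dist_eq_norm]
      have h4 : ‖D p - (A p.1).comp (ContinuousLinearMap.snd ℝ ℂ V)‖ ≤ ε/3 := by
        by_cases hp0 : p.2 = 0
        · have : D p = (A p.1).comp (ContinuousLinearMap.snd ℝ ℂ V) := by simp [hD, hp0]
          rw [this, sub_self, norm_zero]; positivity
        · rw [hD1 p hp0]
          have := h3 1 one_pos le_rfl hp0
          simpa using this
      have h5 : ‖(A p.1).comp (ContinuousLinearMap.snd ℝ ℂ V) -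
          (A x).comp (ContinuousLinearMap.snd ℝ ℂ V)‖ ≤ ε/3 := by
        rw [← ContinuousLinearMap.sub_comp]
        refine (ContinuousLinearMap.opNorm_comp_le _ _).trans ?_
        have h6 := ContinuousLinearMap.norm_snd_le (𝕜 := ℝ) (E := ℂ) (F := V)
        calc ‖A p.1 - A x‖ * ‖ContinuousLinearMap.snd ℝ ℂ V‖ ≤ (ε/3) * 1 :=
              mul_le_mul h2 h6 (norm_nonneg _) (by positivity)
          _ = ε/3 := by ring
      have h7 := norm_sub_le_norm_sub_add_norm_sub (D p)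
        ((A p.1).comp (ContinuousLinearMap.snd ℝ ℂ V)) ((A x).comp (ContinuousLinearMap.snd ℝ ℂ V))
      linarith
    · have h1 : ContinuousAt (fderiv ℝ F) (x, v) :=
        ((hat (x, v) hv).fderiv_right (m := 0) (by simp)).continuousAt
      refine h1.congr ?_
      filter_upwards [hopen.mem_nhds (show ((x, v) : ℂ × V) ∈ {p : ℂ × V | p.2 ≠ 0} from hv)] with p hp
      exact (hD1 p hp).symm
  · rintro ⟨x, v⟩
    by_cases hv : v = 0
    · subst hv
      rw [hD0, hasFDerivAt_iff_isLittleO_nhds_zero, Asymptotics.isLittleO_iff]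
      intro c hc
      obtain ⟨δ, hδ, hδ2⟩ := hclose x (c/2) (by positivity)
      filter_upwards [Metric.ball_mem_nhds (0 : ℂ × V) hδ] with h hh
      have hdist : dist ((x, (0:V)) + h) (x, 0) < δ := by
        rw [dist_eq_norm, add_sub_cancel_left]; simpa using hh
      obtain ⟨h1, h2, h3⟩ := hδ2 _ hdist
      obtain ⟨a, w⟩ := h
      have he : ((x, (0:V)) + (a, w) : ℂ × V) = (x + a, w) := by
        rw [Prod.mk_add_mk, zero_add]
      rw [he] at h1 h2 h3 ⊢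
      rw [hF0, sub_zero]
      have h4 : ‖F (x + a, w) - A (x + a) w‖ ≤ c/2 * ‖w‖ := by
        by_cases hw : w = 0
        · subst hw; rw [hF0]; simp
        · obtain ⟨K, hK⟩ := hbd ‖x + a‖
          exact C1C_mv F (x + a) w (A (x + a)) (c/2) K (by positivity) (fun v => hK _ _ le_rfl)
            (fun t ht0 _ => hdiff _ (smul_ne_zero ht0.ne' hw))
            (fun t ht0 ht1 => h3 t ht0 ht1 hw)
      have h5 : ‖A (x + a) w - A x w‖ ≤ c/2 * ‖w‖ := by
        rw [← ContinuousLinearMap.sub_apply]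
        refine (ContinuousLinearMap.le_opNorm _ _).trans ?_
        exact mul_le_mul_of_nonneg_right h2 (norm_nonneg _)
      have h6 : ‖w‖ ≤ ‖((a, w) : ℂ × V)‖ := norm_snd_le ((a, w) : ℂ × V)
      have h7 : ((A x).comp (ContinuousLinearMap.snd ℝ ℂ V)) (a, w) = A x w := rfl
      rw [h7]
      have h8 := norm_sub_le_norm_sub_add_norm_sub (F (x + a, w)) (A (x + a) w) (A x w)
      nlinarith
    · rw [hD1 _ hv]
      exact (hdiff _ hv).hasFDerivAt

private theorem C1C_bd : ∃ C : ℝ, 0 ≤ C ∧ (∀ s, |deriv Real.smoothTransition s| ≤ C) ∧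
    (∀ s, 1 < s → deriv Real.smoothTransition s = 0) := by
  have hcont : Continuous (deriv Real.smoothTransition) :=
    (Real.smoothTransition.contDiff (n := 1)).continuous_deriv (by simp)
  obtain ⟨C, hC⟩ := (isCompact_Icc (a := (0:ℝ)) (b := 1)).exists_bound_of_continuousOn
    hcont.continuousOn
  have h1 : ∀ s : ℝ, 1 < s → deriv Real.smoothTransition s = 0 := by
    intro s hs
    have : Real.smoothTransition =ᶠ[𝓝 s] fun _ => (1:ℝ) := by
      filter_upwards [Ioi_mem_nhds hs] with t ht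
      exact Real.smoothTransition.one_of_one_le (le_of_lt ht)
    rw [this.deriv_eq]; simp
  have h0 : ∀ s : ℝ, s < 0 → deriv Real.smoothTransition s = 0 := by
    intro s hs
    have : Real.smoothTransition =ᶠ[𝓝 s] fun _ => (0:ℝ) := by
      filter_upwards [Iio_mem_nhds hs] with t ht
      exact Real.smoothTransition.zero_of_nonpos (le_of_lt ht)
    rw [this.deriv_eq]; simp
  have hC0 : 0 ≤ C := (norm_nonneg _).trans (hC 0 ⟨le_rfl, zero_le_one⟩)
  refine ⟨C, hC0, fun s => ?_, h1⟩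
  rcases lt_or_ge s 0 with hs | hs
  · rw [h0 s hs, abs_zero]; exact hC0
  rcases lt_or_ge 1 s with hs1 | hs1
  · rw [h1 s hs1, abs_zero]; exact hC0
  · exact hC s ⟨hs, hs1⟩

private theorem C1C_fderiv_nrm (v : V) : ‖fderiv ℝ (fun v : V => nrm v ^ 2) v‖ ≤ 4 * nrm v := by
  have h1 : HasFDerivAt (fun v : V => nrm v ^ 2)
      ((2 • (innerSL ℝ v.1)).comp (ContinuousLinearMap.fst ℝ ℂ ℂ) +
        (2 • (innerSL ℝ v.2)).comp (ContinuousLinearMap.snd ℝ ℂ ℂ)) v := by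
    simp only [nrm_sq]
    have ha : HasFDerivAt (fun v : V => ‖v.1‖^2)
        ((2 • (innerSL ℝ v.1)).comp (ContinuousLinearMap.fst ℝ ℂ ℂ)) v :=
      (hasStrictFDerivAt_norm_sq v.1).hasFDerivAt.comp v (hasFDerivAt_fst)
    have hb : HasFDerivAt (fun v : V => ‖v.2‖^2)
        ((2 • (innerSL ℝ v.2)).comp (ContinuousLinearMap.snd ℝ ℂ ℂ)) v :=
      (hasStrictFDerivAt_norm_sq v.2).hasFDerivAt.comp v (hasFDerivAt_snd)
    exact ha.add hb
  rw [h1.fderiv]
  refine ContinuousLinearMap.opNorm_le_bound _ (by have := nrm_nonneg v; positivity) fun w => ?_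
  simp only [ContinuousLinearMap.add_apply, ContinuousLinearMap.comp_apply,
    ContinuousLinearMap.smul_apply, ContinuousLinearMap.coe_fst', ContinuousLinearMap.coe_snd',
    innerSL_apply_apply]
  have h2 := abs_real_inner_le_norm v.1 w.1
  have h3 := abs_real_inner_le_norm v.2 w.2
  have h4 := norm_fst_le_nrm v
  have h5 := norm_snd_le_nrm v
  have h6 : ‖w.1‖ ≤ ‖w‖ := norm_fst_le w
  have h7 : ‖w.2‖ ≤ ‖w‖ := norm_snd_le w
  have h8 : ‖v.1‖ * ‖w.1‖ ≤ nrm v * ‖w‖ := mul_le_mul h4 h6 (norm_nonneg _) (nrm_nonneg _)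
  have h9 : ‖v.2‖ * ‖w.2‖ ≤ nrm v * ‖w‖ := mul_le_mul h5 h7 (norm_nonneg _) (nrm_nonneg _)
  rw [Real.norm_eq_abs]
  rw [nsmul_eq_mul, nsmul_eq_mul, abs_le]
  rw [abs_le] at h2 h3
  constructor
  · push_cast; nlinarith
  · push_cast; nlinarith

/-- cut-off functions with scale invariant derivative bound. -/
theorem exists_cut : ∃ K : ℝ, 0 < K ∧ ∀ a b : ℝ, 0 < b → b ≤ a / 2 →
    ∃ S : V → ℝ, ContDiff ℝ ∞ S ∧ (∀ v, 0 ≤ S v) ∧ (∀ v, S v ≤ 1) ∧
      (∀ v, a ≤ nrm v → S v = 0) ∧ (∀ v, nrm v ≤ b → S v = 1) ∧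
      (∀ v, ‖fderiv ℝ S v‖ * nrm v ≤ K) := by
  obtain ⟨C, hC0, hC, hC1⟩ := C1C_bd
  refine ⟨6 * C + 1, by positivity, fun a b hb hba => ?_⟩
  have ha : 0 < a := by linarith
  have hab : b^2 < a^2 := by nlinarith
  have hden : 3/4 * a^2 ≤ a^2 - b^2 := by nlinarith
  refine ⟨fun v => 1 - stp (b^2) (a^2) (nrm v ^ 2), ?_, ?_, ?_, ?_, ?_, ?_⟩
  · exact contDiff_const.sub ((contDiff_stp _ _).comp contDiff_nrm_sq)
  · intro v; linarith [stp_le_one (b^2) (a^2) (nrm v ^2)]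
  · intro v; linarith [stp_nonneg (b^2) (a^2) (nrm v ^2)]
  · intro v hv
    show 1 - stp (b^2) (a^2) (nrm v ^ 2) = 0
    rw [stp_eq_one hab (pow_le_pow_left₀ ha.le hv 2)]; ring
  · intro v hv
    show 1 - stp (b^2) (a^2) (nrm v ^ 2) = 1
    rw [stp_eq_zero hab (pow_le_pow_left₀ (nrm_nonneg v) hv 2)]; ring
  · intro v
    set s : ℝ := (nrm v ^ 2 - b^2)/(a^2 - b^2) with hs
    have hd0 : 0 < a^2 - b^2 := by linarith
    have h1 : HasFDerivAt (fun v : V => 1 - stp (b^2) (a^2) (nrm v ^ 2))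
        (-((deriv Real.smoothTransition s * (1/(a^2 - b^2))) •
          fderiv ℝ (fun v : V => nrm v ^ 2) v)) v := by
      have h2 : HasFDerivAt (fun v : V => nrm v ^ 2) (fderiv ℝ (fun v : V => nrm v ^ 2) v) v :=
        ((contDiff_nrm_sq (n := 1)).differentiable (by simp) v).hasFDerivAt
      have h3 : HasDerivAt (stp (b^2) (a^2)) (deriv Real.smoothTransition s * (1/(a^2 - b^2)))
          (nrm v ^ 2) := by
        have h4 : HasDerivAt Real.smoothTransition (deriv Real.smoothTransition s) s :=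
          ((Real.smoothTransition.contDiff (n := 1)).differentiable (by simp) s).hasDerivAt
        have h5 : HasDerivAt (fun t : ℝ => (t - b^2)/(a^2 - b^2)) (1/(a^2 - b^2)) (nrm v ^ 2) :=
          ((hasDerivAt_id _).sub_const _).div_const _
        exact h4.comp (nrm v ^ 2) h5
      have h6 := h3.comp_hasFDerivAt v h2
      exact h6.const_sub 1
    rw [h1.fderiv, norm_neg, norm_smul, Real.norm_eq_abs, abs_mul, abs_of_pos (by positivity : 0 < 1/(a^2 - b^2))]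
    have h7 := C1C_fderiv_nrm v
    have hn := nrm_nonneg v
    rcases le_or_gt (nrm v) a with hle | hgt
    · calc |deriv Real.smoothTransition s| * (1/(a^2-b^2)) * ‖fderiv ℝ (fun v : V => nrm v ^ 2) v‖ * nrm v
          ≤ C * (1/(3/4 * a^2)) * (4 * a) * a := by
            gcongr
            · exact hC s
            · linarith
        _ = 16/3 * C := by field_simp; norm_num
        _ ≤ 6 * C + 1 := by linarith
    · have h8 : 1 < s := by
        rw [hs, lt_div_iff₀ hd0]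
        nlinarith
      rw [hC1 s h8]
      simp
      positivity

end

end SEC
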