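import Crest.Agent.SEC_GDefs

/-!
SEC-Cls (hard-ish, category API). The singular chain complex of `X` with coefficients `ModuleCat.of ℝ ℝ` in degree `n` is the coproduct over `(toSSet.obj X) _⦋n⦌` of
copies of `ℝ`; generators `SSet.ιChainComplex`, with `ιChainComplex_d`, `ι_chainComplexMap_f`, `chainComplex_hom_ext` (Mathlib/AlgebraicTopology/SimplicialSet/Homology/Basic.lean) and
`TopCat.toSSetObjEquiv X (op ⦋n⦌) : (toSSet.obj X) _⦋n⦌ ≃ C(stdSimplex ℝ (Fin (n+1)), X)`, `toSSetObjEquiv_δ_apply` etc. (…/SimplicialSet/TopAdj.lean). Build linear isomorphisms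
`Φ n : Ch n X ≃ₗ (chain complex).X n` sending `single σ 1` to `ιChainComplex (equiv.symm σ) 1`, compatible with `d` and push forward (for the inverse use the universal property:
`Sigma.desc`/`Cofan.IsColimit.desc`), and then the homology of a complex of modules (`HomologicalComplex.cyclesMk`, `homologyπ`, `ShortComplex.moduleCat...`, concrete category lemmas).
-/

set_option autoImplicit false
open scoped ContDiff Manifold Topology
open Filter

namespace SEC

noncomputable section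

open CategoryTheory Opposite Limits
open scoped Simplicial

/-- the singular chain complex -/
abbrev cCC (X : TopCat.{0}) : ChainComplex (ModuleCat.{0} ℝ) ℕ :=
  SSet.chainComplex (TopCat.toSSet.obj X) (ModuleCat.of ℝ ℝ)

/-- the chain map -/
abbrev cCCmap {X Y : TopCat.{0}} (f : X ⟶ Y) : cCC X ⟶ cCC Y :=
  SSet.chainComplexMap (TopCat.toSSet.map f) (ModuleCat.of ℝ ℝ)

/-- the simplex -/
def cSx {n : ℕ} {X : TopCat.{0}} (σ : Spx n X) : (TopCat.toSSet.obj X) _⦋n⦌ :=
  (TopCat.toSSetObjEquiv X (op ⦋n⦌)).symm σ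

/-- inclusion of a generator -/
abbrev cInc {n : ℕ} {X : TopCat.{0}} (x : (TopCat.toSSet.obj X) _⦋n⦌) :
    ModuleCat.of ℝ ℝ ⟶ (cCC X).X n :=
  SSet.ιChainComplex (TopCat.toSSet.obj X) (R := ModuleCat.of ℝ ℝ) x

/-- generator of the chain complex -/
def cGen {n : ℕ} {X : TopCat.{0}} (x : (TopCat.toSSet.obj X) _⦋n⦌) : (cCC X).X n :=
  (cInc x).hom (1:ℝ)

/-- comparison map -/
def cPhi (n : ℕ) (X : TopCat.{0}) : Ch n X →ₗ[ℝ] (cCC X).X n :=
  Finsupp.linearCombination ℝ (fun σ : Spx n X => cGen (cSx σ))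

theorem cPhi_single {n : ℕ} {X : TopCat.{0}} (σ : Spx n X) :
    cPhi n X (Finsupp.single σ 1) = cGen (cSx σ) := by
  simp [cPhi]

/-- inverse comparison map -/
def cPsi (n : ℕ) (X : TopCat.{0}) : (cCC X).X n ⟶ ModuleCat.of ℝ (Ch n X) :=
  ((TopCat.toSSet.obj X).isColimitChainComplexXCofan (ModuleCat.of ℝ ℝ) n).desc
    (Cofan.mk _ (fun x => ModuleCat.ofHom
      (LinearMap.toSpanSingleton ℝ (Ch n X)
        (Finsupp.single ((TopCat.toSSetObjEquiv X (op ⦋n⦌)) x) 1))))

theorem cPsi_gen {n : ℕ} {X : TopCat.{0}} (x : (TopCat.toSSet.obj X) _⦋n⦌) :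
    cInc x ≫ cPsi n X = ModuleCat.ofHom
      (LinearMap.toSpanSingleton ℝ (Ch n X)
        (Finsupp.single ((TopCat.toSSetObjEquiv X (op ⦋n⦌)) x) 1)) := by
  exact ((TopCat.toSSet.obj X).isColimitChainComplexXCofan (ModuleCat.of ℝ ℝ) n).fac _ ⟨x⟩

theorem cPsi_cGen {n : ℕ} {X : TopCat.{0}} (x : (TopCat.toSSet.obj X) _⦋n⦌) :
    (cPsi n X).hom (cGen x) = Finsupp.single ((TopCat.toSSetObjEquiv X (op ⦋n⦌)) x) 1 := by
  have h := congrArg (fun g => g.hom (1:ℝ)) (cPsi_gen x)
  simpa [cGen] using h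

theorem cPsi_cPhi {n : ℕ} {X : TopCat.{0}} (c : Ch n X) : (cPsi n X).hom (cPhi n X c) = c := by
  induction c using Finsupp.induction_linear with
  | zero => simp
  | add a b ha hb => rw [map_add, map_add, ha, hb]
  | single σ r =>
    have h1 : (Finsupp.single σ r : Ch n X) = r • Finsupp.single σ (1:ℝ) := by simp
    rw [h1, map_smul, map_smul, cPhi_single, cPsi_cGen]
    congr 2

theorem cPhi_cPsi {n : ℕ} {X : TopCat.{0}} (w : (cCC X).X n) :
    cPhi n X ((cPsi n X).hom w) = w := by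
  have h : cPsi n X ≫ ModuleCat.ofHom (cPhi n X) = 𝟙 _ := by
    refine SSet.chainComplex_hom_ext fun x => ?_
    ext
    change cPhi n X ((cPsi n X).hom (cGen x)) = cGen x
    rw [cPsi_cGen, cPhi_single]
    congr 1
  exact congrArg (fun g => g.hom w) h

theorem cSx_face {n : ℕ} {X : TopCat.{0}} (σ : Spx (n+1) X) (i : Fin (n+2)) :
    (TopCat.toSSet.obj X).δ i (cSx σ) = cSx (σ.comp (fc i)) := by
  rfl

theorem cSx_map {n : ℕ} {X Y : TopCat.{0}} (f : X ⟶ Y) (σ : Spx n X) :
    (TopCat.toSSet.map f).app _ (cSx σ) = cSx (f.hom.comp σ) := by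
  rfl

theorem cPhi_bd {n : ℕ} {X : TopCat.{0}} (c : Ch (n+1) X) :
    cPhi n X (bd n X c) = ((cCC X).d (n+1) n).hom (cPhi (n+1) X c) := by
  induction c using Finsupp.induction_linear with
  | zero => simp
  | add a b ha hb => rw [map_add, map_add, map_add, map_add, ha, hb]
  | single σ r =>
    have h1 : (Finsupp.single σ r : Ch (n+1) X) = r • Finsupp.single σ (1:ℝ) := by simp
    rw [h1, map_smul, map_smul, map_smul, map_smul, cPhi_single]
    congr 1
    have h2 := congrArg (fun g => g.hom (1:ℝ))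
      (SSet.ιChainComplex_d (TopCat.toSSet.obj X) (ModuleCat.of ℝ ℝ) (cSx σ))
    have h3 : ((cCC X).d (n+1) n).hom (cGen (cSx σ)) =
      ∑ i : Fin (n+2), ((-1:ℤ)^(i:ℕ)) • cGen ((TopCat.toSSet.obj X).δ i (cSx σ)) := by
      refine h2.trans ?_
      simp [cGen, ModuleCat.hom_sum, LinearMap.sum_apply]
    rw [h3]
    simp only [bd, Finsupp.linearCombination_single, one_smul, map_sum, map_smul, cPhi_single,
      cSx_face]
    refine Finset.sum_congr rfl fun i _ => ?_
    rw [← Int.cast_smul_eq_zsmul ℝ]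
    push_cast
    rfl

theorem cPhi_push {n : ℕ} {X Y : TopCat.{0}} (f : X ⟶ Y) (c : Ch n X) :
    cPhi n Y (push n f.hom c) = ((cCCmap f).f n).hom (cPhi n X c) := by
  induction c using Finsupp.induction_linear with
  | zero => simp
  | add a b ha hb => rw [map_add, map_add, map_add, map_add, ha, hb]
  | single σ r =>
    have h1 : (Finsupp.single σ r : Ch n X) = r • Finsupp.single σ (1:ℝ) := by simp
    rw [h1, map_smul, map_smul, map_smul, map_smul, cPhi_single]
    congr 1
    have h2 := congrArg (fun g => g.hom (1:ℝ))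
      (SSet.ι_chainComplexMap_f (f := TopCat.toSSet.map f) (R := ModuleCat.of ℝ ℝ) (x := cSx σ))
    have h3 : ((cCCmap f).f n).hom (cGen (cSx σ)) = cGen (cSx (f.hom.comp σ)) := h2
    rw [h3]
    simp only [push, Finsupp.lmapDomain_apply, Finsupp.mapDomain_single, cPhi_single]

theorem cnext : (ComplexShape.down ℕ).next 2 = 1 := by simp

theorem cprev : (ComplexShape.down ℕ).prev 2 = 3 := by simp

/-- the cycle map -/
def cCyc (X : TopCat.{0}) : ModuleCat.of ℝ (LinearMap.ker (bd 1 X)) ⟶ (cCC X).cycles 2 :=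
  (cCC X).liftCycles (ModuleCat.ofHom ((cPhi 2 X).comp (LinearMap.ker (bd 1 X)).subtype)) 1 cnext
    (by
      ext z
      have h := cPhi_bd (n := 1) (X := X) (z : Ch 2 X)
      rw [LinearMap.mem_ker.1 z.2, map_zero] at h
      exact h.symm)

theorem cCyc_i {X : TopCat.{0}} (z : LinearMap.ker (bd 1 X)) :
    ((cCC X).iCycles 2).hom ((cCyc X).hom z) = cPhi 2 X z :=
  congrArg (fun g => g.hom z) ((cCC X).liftCycles_i
    (ModuleCat.ofHom ((cPhi 2 X).comp (LinearMap.ker (bd 1 X)).subtype)) 1 cnext _)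

theorem cInj (X : TopCat.{0}) : Function.Injective ((cCC X).iCycles 2).hom :=
  (ModuleCat.mono_iff_injective _).1 inferInstance

theorem exists_cls : ∃ cls : ∀ X : TopCat.{0}, LinearMap.ker (bd 1 X) →ₗ[ℝ] HH2 X,
    (∀ X z, cls X z = 0 ↔ ∃ c, bd 2 X c = (z : Ch 2 X)) ∧
    (∀ (X Y : TopCat.{0}) (f : X ⟶ Y) (z : LinearMap.ker (bd 1 X))
      (w : LinearMap.ker (bd 1 Y)), (w : Ch 2 Y) = push 2 f.hom z →
      (HH2map f).hom (cls X z) = cls Y w) := by
  refine ⟨fun X => (cCyc X ≫ (cCC X).homologyπ 2).hom, fun X z => ?_, fun X Y f z w hw => ?_⟩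
  · constructor
    · intro h
      have hex : (ShortComplex.mk ((cCC X).toCycles 3 2) ((cCC X).homologyπ 2)
          ((cCC X).toCycles_comp_homologyπ 3 2)).Exact :=
        ShortComplex.exact_of_g_is_cokernel _ ((cCC X).homologyIsCokernel 3 2 cprev)
      obtain ⟨x, hx⟩ := (ShortComplex.moduleCat_exact_iff _).1 hex ((cCyc X).hom z) h
      have h1 := congrArg ((cCC X).iCycles 2).hom hx
      have h2 : ((cCC X).iCycles 2).hom (((cCC X).toCycles 3 2).hom x)
          = ((cCC X).d 3 2).hom x :=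
        congrArg (fun g => g.hom x) ((cCC X).toCycles_i 3 2)
      have h3 : ((cCC X).d 3 2).hom x = cPhi 2 X z := (h2.symm.trans h1).trans (cCyc_i z)
      refine ⟨(cPsi 3 X).hom x, ?_⟩
      have h4 := cPhi_bd ((cPsi 3 X).hom x)
      rw [cPhi_cPsi, h3] at h4
      have h5 := congrArg (cPsi 2 X).hom h4
      rwa [cPsi_cPhi, cPsi_cPhi] at h5
    · rintro ⟨c, hc⟩
      have h1 : (cCyc X).hom z = ((cCC X).toCycles 3 2).hom (cPhi 3 X c) := by
        apply cInj X
        rw [cCyc_i, ← hc, cPhi_bd]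
        exact (congrArg (fun g => g.hom (cPhi 3 X c)) ((cCC X).toCycles_i 3 2)).symm
      have h2 : ((cCC X).homologyπ 2).hom (((cCC X).toCycles 3 2).hom (cPhi 3 X c)) = 0 :=
        congrArg (fun g => g.hom (cPhi 3 X c)) ((cCC X).toCycles_comp_homologyπ 3 2)
      change ((cCC X).homologyπ 2).hom ((cCyc X).hom z) = 0
      rw [h1, h2]
  · have h1 : (HomologicalComplex.cyclesMap (cCCmap f) 2).hom ((cCyc X).hom z)
        = (cCyc Y).hom w := by
      apply cInj Y
      rw [cCyc_i, hw, cPhi_push]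
      have h2 := congrArg (fun g => g.hom ((cCyc X).hom z))
        (HomologicalComplex.cyclesMap_i (cCCmap f) 2)
      refine h2.trans ?_
      change ((cCCmap f).f 2).hom (((cCC X).iCycles 2).hom ((cCyc X).hom z)) = _
      rw [cCyc_i]
    have h3 := congrArg (fun g => g.hom ((cCyc X).hom z))
      (HomologicalComplex.homologyπ_naturality (cCCmap f) 2)
    refine h3.trans ?_
    change ((cCC Y).homologyπ 2).hom ((HomologicalComplex.cyclesMap (cCCmap f) 2).hom
      ((cCyc X).hom z)) = ((cCC Y).homologyπ 2).hom ((cCyc Y).hom w)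
    rw [h1]

end

end SEC
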