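import Mathlib

/-!
# SEC: definitions for S0163

C¹ self-map with zero entropy and eigenvalue two on second homology.
Local part: pending-power skew product over the rotation by `exp I`.
-/

set_option autoImplicit false
open scoped ContDiff

namespace SEC

noncomputable section

/-- smooth step from `0` (for `s ≤ lo`) to `1` (for `s ≥ hi`). -/
def stp (lo hi s : ℝ) : ℝ := Real.smoothTransition ((s - lo) / (hi - lo))

/-- window function: `1` for `|y| ≤ 9/16`, `0` for `|y| ≥ 5/8`. -/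
def wnd (y : ℝ) : ℝ := 1 - stp ((9/16)^2) ((5/8)^2) (y^2)

/-- cut-off: `0` for `s ≤ 1/36`, `1` for `s ≥ 1/9`. -/
def rho (s : ℝ) : ℝ := stp (1/36) (1/9) s

/-- the rotation number `exp I` (angle one radian). -/
def rot : ℂ := Complex.exp Complex.I

/-- `0` for `‖x-1‖ ≤ η`, `1` for `‖x-1‖ ≥ 3/2 η`. -/
def tau (η : ℝ) (x : ℂ) : ℝ := stp (η^2) ((3/2*η)^2) (‖x - 1‖^2)

/-- `1` for `‖x-1‖ ≤ 2η`, `0` for `‖x-1‖ ≥ 3η`. -/
def chi (η : ℝ) (x : ℂ) : ℝ := 1 - stp ((2*η)^2) ((3*η)^2) (‖x - 1‖^2)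

/-- the pending function. -/
def pend (η : ℝ) (L : ℕ) (x : ℂ) : ℝ :=
  ∑ t ∈ Finset.range L, ∏ s ∈ Finset.range (t+1), tau η (x / rot^s)

abbrev V := ℂ × ℂ

/-- Euclidean norm on `V`. -/
def nrm (v : V) : ℝ := Real.sqrt (‖v.1‖^2 + ‖v.2‖^2)

/-- the slot of level `k`: parity of `k`. -/
def slot (k : ℕ) (v : V) : ℂ := if Even k then v.1 else v.2

/-- insertion in the slot of level `k`. -/
def ins (k : ℕ) (z : ℂ) : V := if Even k then (z, 0) else (0, z)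

/-- swap of the two slots. -/
def swp (v : V) : V := (v.2, v.1)

/-- power map: `nrm v * rho(‖z‖²/nrm v²) * (z/‖z‖)^n`. -/
def pw (n : ℕ) (z : ℂ) (v : V) : ℂ :=
  ((nrm v * rho (‖z‖^2 / nrm v^2) : ℝ) : ℂ) * (z / ((‖z‖ : ℝ) : ℂ))^n

/-- the application operator from pending level `kp` to pending level `kq`. -/
def app (K : ℕ) (kp kq : ℝ) (u : V) : V :=
  ∑ m ∈ Finset.range K, ∑ k ∈ Finset.Ico m K,
    (wnd (kq - m) * wnd (kp - k)) • ins m (pw (2^(k-m)) (slot k u) u)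

/-- the data of an era. -/
structure Era where
  η : ℝ
  L : ℕ
  b : ℂ → ℝ

/-- pending function of an era. -/
def Era.P (E : Era) (x : ℂ) : ℝ := pend E.η E.L x

/-- the homogeneous map of an era. -/
def Era.F (E : Era) (x : ℂ) (v : V) : V :=
  (100 * E.b (rot * x)) • ((1 - chi E.η (rot * x)) • swp v +
    (chi E.η (rot * x) * (2:ℝ)^(tau E.η (rot * x) * (1 + E.P x) - (1 + E.P x))) •
      app (E.L + 3) (1 + E.P x) (tau E.η (rot * x) * (1 + E.P x)) (swp v))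

/-- direction of level `k` for the angle `θ`. -/
def dir (θ : ℝ) (k : ℕ) : ℂ := Complex.exp (((θ / 2^k : ℝ) : ℂ) * Complex.I)

/-- regularity of a vector at pending level `κ`, angle `θ`, size at least `c`. -/
def RegW (κ θ c : ℝ) (v : V) : Prop :=
  ∃ A : ℕ → ℝ, (∀ k, 0 ≤ A k) ∧
    (∀ k : ℕ, |κ - k| < 21/32 → slot k v = (A k : ℂ) * dir θ k) ∧
    (∀ σ : ℕ, (∀ k : ℕ, k % 2 = σ % 2 → 21/32 ≤ |κ - k|) → slot σ v = 0) ∧
    (∀ k : ℕ, |κ - k| ≤ 17/32 → nrm v ≤ 3 * A k ∧ c ≤ 3 * A k)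

/-- the properties of the sequence of eras (dynamics on the unit circle). -/
structure EraSys (E : ℕ → Era) : Prop where
  eta_pos : ∀ i, 0 < (E i).η
  eta_anti : ∀ i, (E (i+1)).η ≤ (E i).η
  eta_ratio : ∀ i, 7/8 * (E i).η ≤ (E (i+1)).η
  eta_zero : (E 0).η = 3
  P_rec : ∀ i x, ‖x‖ = 1 → (E i).P (rot * x) = tau (E i).η (rot * x) * (1 + (E i).P x)
  P_close : ∀ i x, ‖x‖ = 1 → |(E i).P x - (E (i+1)).P x| ≤ 1/256
  full : ∀ i, ∃ W : ℕ, ∀ x : ℂ, ‖x‖ = 1 → ∃ t < W, ‖x / rot^t - 1‖ ≤ (E i).η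
  b_zero : ∀ x, (E 0).b x = 1
  b_pos : ∀ i x, ‖x‖ = 1 → 0 < (E i).b x
  b_le_one : ∀ i x, (E i).b x ≤ 1
  b_nonneg : ∀ i x, 0 ≤ (E i).b x
  b_anti : ∀ i x, (E (i+1)).b x ≤ (E i).b x
  b_prod : ∀ i, ∃ N : ℕ, ∀ x : ℂ, ‖x‖ = 1 → ∀ n : ℕ,
    (1/2 : ℝ)^(n+N) ≤ ∏ l ∈ Finset.range n, (E i).b (rot^(l+1) * x)

/-- the smoothness properties of the sequence of eras. -/
structure EraSmooth (E : ℕ → Era) (bb : ℂ → ℝ) (ε : ℕ → ℝ) : Prop where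
  eta_pos : ∀ i, 0 < (E i).η
  b_smooth : ∀ i, ContDiff ℝ ∞ (E i).b
  b_nonneg : ∀ i x, 0 ≤ (E i).b x
  b_le_one : ∀ i x, (E i).b x ≤ 1
  bb_cont : Continuous bb
  eps_tendsto : Filter.Tendsto ε Filter.atTop (nhds 0)
  b_close : ∀ i x, |(E i).b x - bb x| ≤ ε i
  b_small : ∀ i x, ‖x - 1‖ < 3 * (E i).η → (E i).b x ≤ ε i

/-- `(ρ,F)` is glued from the maps `G i`. -/
structure Glued (G : ℕ → ℂ → V → V) (ρ : ℕ → ℝ) (F : ℂ → V → V) : Prop where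
  pos : ∀ i, 0 < ρ i
  anti : ∀ i, ρ (i+1) ≤ ρ i
  tendsto : Filter.Tendsto ρ Filter.atTop (nhds 0)
  zero : ∀ x, F x 0 = 0
  outer : ∀ x v, ρ 0 ≤ nrm v → F x v = G 0 x v
  inner : ∀ i x v, ρ (i+1) ≤ nrm v → nrm v ≤ ρ i →
    ∃ s : ℝ, 0 ≤ s ∧ s ≤ 1 ∧ F x v = (1 - s) • G i x v + s • G (i+1) x v

end

end SEC
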