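import Crest.Agent.SEC_Basic

/-!
SEC-Pw: the power map `pw n (slot k v) v = nrm v * rho (‖z‖²/nrm v²) * (z/‖z‖)^n`, `z = slot k v` (`slot k` is `fst` or `snd`).
1. smooth off `v = 0`: where `z ≠ 0` it is a product of smooth functions; where `‖z‖² < nrm v²/36` it vanishes (open set).
2. homogeneity for `c > 0`.
3. derivative bound: `h v = nrm v * rho (‖z‖²/nrm v²)` and `g v = z/‖z‖` : `D(h g^n) = g^n Dh + n h g^(n-1) Dg` where `z ≠ 0`. `Dh` is
bounded (homogeneous of degree 0 and continuous on the compact unit sphere), `‖Dg‖ ≤ 2/‖z‖` and `h ≤ nrm v`, and `h, Dh = 0` where `‖z‖ < nrm v/6`; so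
`‖D‖ ≤ C0 + 12 n`. (Alternative: prove a local Lipschitz bound.)
-/

set_option autoImplicit false
open scoped ContDiff Manifold Topology
open Filter

namespace SEC

noncomputable section

private def pwH (k : ℕ) (v : V) : ℝ := nrm v * rho (‖slot k v‖^2 / nrm v^2)

private def pwG (k : ℕ) (v : V) : ℂ := ((‖slot k v‖⁻¹ : ℝ) : ℂ) * slot k v

private theorem pw_eq (n k : ℕ) (v : V) :
    pw n (slot k v) v = (pwH k v : ℂ) * pwG k v ^ n := by
  unfold pw pwH pwG
  congr 2
  rw [div_eq_inv_mul]; push_cast; rfl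

private theorem contDiff_slot (k : ℕ) {n : WithTop ℕ∞} : ContDiff ℝ n (fun v : V => slot k v) := by
  unfold slot
  split_ifs
  · exact contDiff_fst
  · exact contDiff_snd

private theorem continuous_slot (k : ℕ) : Continuous (fun v : V => slot k v) :=
  (contDiff_slot k (n := 0)).continuous

private theorem isOpen_ne0 : IsOpen {v : V | v ≠ 0} := isOpen_ne

private theorem isOpen_slot (k : ℕ) : IsOpen {v : V | slot k v ≠ 0} :=
  (isOpen_ne (x := (0:ℂ))).preimage (continuous_slot k)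

private theorem contDiffOn_pwH (k : ℕ) {n : ℕ∞} : ContDiffOn ℝ n (pwH k) {v : V | v ≠ 0} := by
  unfold pwH
  refine contDiffOn_nrm.mul (contDiff_rho.comp_contDiffOn ?_)
  refine ContDiffOn.div ?_ ?_ ?_
  · exact ((contDiff_norm_sq ℝ).comp (contDiff_slot k)).contDiffOn
  · exact contDiff_nrm_sq.contDiffOn
  · intro v hv
    exact pow_ne_zero 2 (nrm_pos hv).ne'

private theorem contDiffOn_pwG (k : ℕ) {n : ℕ∞} : ContDiffOn ℝ n (pwG k) {v : V | slot k v ≠ 0} := by
  intro v hv
  refine ContDiffAt.contDiffWithinAt ?_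
  unfold pwG
  have h1 : ContDiffAt ℝ n (fun v : V => ‖slot k v‖⁻¹) v := by
    refine ContDiffAt.inv ?_ (norm_ne_zero_iff.mpr hv)
    exact (contDiffAt_norm ℝ hv).comp v (contDiff_slot k).contDiffAt
  have h2 : ContDiffAt ℝ n (fun v : V => ((‖slot k v‖⁻¹ : ℝ) : ℂ)) v :=
    (Complex.ofRealCLM.contDiff.contDiffAt).comp v h1
  exact h2.mul (contDiff_slot k).contDiffAt

private theorem pwH_zero (k : ℕ) {v : V} (h : ‖slot k v‖^2 / nrm v^2 < 1/36) :
    ∀ᶠ w in 𝓝 v, v ≠ 0 → pwH k w = 0 := by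
  rcases eq_or_ne v 0 with hv | hv
  · exact Eventually.of_forall fun w h' => absurd hv h'
  · have hc : ContinuousAt (fun v : V => ‖slot k v‖^2 / nrm v^2) v := by
      refine ContinuousAt.div ?_ ?_ (pow_ne_zero 2 (nrm_pos hv).ne')
      · exact ((continuous_slot k).norm.pow 2).continuousAt
      · exact (continuous_nrm.pow 2).continuousAt
    filter_upwards [hc.eventually (gt_mem_nhds h)] with w hw _
    unfold pwH
    rw [rho_eq_zero hw.le, mul_zero]

private theorem pw_eventually_zero (n k : ℕ) {v : V} (hv : v ≠ 0)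
    (h : ‖slot k v‖^2 / nrm v^2 < 1/36) :
    (fun w : V => pw n (slot k w) w) =ᶠ[𝓝 v] fun _ => 0 := by
  filter_upwards [pwH_zero k h] with w hw
  rw [pw_eq, hw hv]; simp

theorem pw_smooth (n k : ℕ) : ContDiffOn ℝ ∞ (fun v : V => pw n (slot k v) v) {v | v ≠ 0} := by
  intro v hv
  refine ContDiffAt.contDiffWithinAt ?_
  by_cases h : slot k v = 0
  · have h0 : ‖slot k v‖^2 / nrm v^2 < 1/36 := by rw [h]; simp
    exact (contDiffAt_const (c := (0:ℂ))).congr_of_eventuallyEq (pw_eventually_zero n k hv h0)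
  · have h1 : ContDiffAt ℝ ∞ (pwH k) v := (contDiffOn_pwH k).contDiffAt (isOpen_ne0.mem_nhds hv)
    have h2 : ContDiffAt ℝ ∞ (pwG k) v := (contDiffOn_pwG k).contDiffAt ((isOpen_slot k).mem_nhds h)
    have h3 : ContDiffAt ℝ ∞ (fun v : V => (pwH k v : ℂ)) v :=
      (Complex.ofRealCLM.contDiff.contDiffAt).comp v h1
    have h4 := h3.mul (h2.pow n)
    refine h4.congr_of_eventuallyEq (Eventually.of_forall fun w => ?_)
    exact pw_eq n k w

theorem pw_homog (n k : ℕ) (v : V) (c : ℝ) (hc : 0 < c) :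
    pw n (slot k (c • v)) (c • v) = (c : ℂ) * pw n (slot k v) v := by
  rw [pw_eq, pw_eq]
  have h1 : pwH k (c • v) = c * pwH k v := by
    unfold pwH
    rw [nrm_smul, slot_smul, norm_mul, Complex.norm_real, Real.norm_eq_abs, abs_of_pos hc]
    rw [mul_pow, mul_pow, mul_div_mul_left _ _ (pow_ne_zero 2 hc.ne')]
    ring
  have h2 : pwG k (c • v) = pwG k v := by
    unfold pwG
    rw [slot_smul, norm_mul, Complex.norm_real, Real.norm_eq_abs, abs_of_pos hc, mul_inv]
    have : (c:ℂ) ≠ 0 := by exact_mod_cast hc.ne'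
    push_cast
    field_simp
  rw [h1, h2]; push_cast; ring

private theorem norm_pwG_le (k : ℕ) (v : V) : ‖pwG k v‖ ≤ 1 := by
  unfold pwG
  rw [norm_mul, Complex.norm_real, norm_inv, norm_norm, inv_mul_eq_div]
  exact div_self_le_one _

private theorem isCompact_nsphere : IsCompact {v : V | nrm v = 1} := by
  refine Metric.isCompact_of_isClosed_isBounded ?_ ?_
  · exact isClosed_eq continuous_nrm continuous_const
  · refine (Metric.isBounded_closedBall (x := (0:V)) (r := 1)).subset ?_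
    intro v hv
    rw [Metric.mem_closedBall, dist_zero_right]
    have h1 := norm_le_nrm v
    have h2 : nrm v = 1 := hv
    linarith

private theorem pw_deriv_bound_k (k : ℕ) : ∃ C : ℝ, 0 < C ∧ ∀ (n : ℕ) (v : V), 1 ≤ n → v ≠ 0 →
    ‖fderiv ℝ (fun v : V => pw n (slot k v) v) v‖ ≤ C * n := by
  -- bound of Dh on the sphere
  have hK : IsCompact {v : V | nrm v = 1} := isCompact_nsphere
  have hK0 : {v : V | nrm v = 1} ⊆ {v : V | v ≠ 0} := by
    intro v hv h
    have h' : nrm v = 1 := hv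
    rw [h, nrm_zero] at h'; norm_num at h'
  have hcH : ContinuousOn (fun v => fderiv ℝ (pwH k) v) {v : V | v ≠ 0} :=
    (contDiffOn_pwH k (n := ⊤)).continuousOn_fderiv_of_isOpen isOpen_ne0 (by simp)
  obtain ⟨C0, hC0⟩ := hK.exists_bound_of_continuousOn (hcH.mono hK0)
  have hK' : IsCompact ({v : V | nrm v = 1} ∩ {v : V | 1/36 ≤ ‖slot k v‖^2}) :=
    hK.inter_right (isClosed_le continuous_const ((continuous_slot k).norm.pow 2))
  have hK1 : ({v : V | nrm v = 1} ∩ {v : V | 1/36 ≤ ‖slot k v‖^2}) ⊆ {v : V | slot k v ≠ 0} := by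
    rintro v ⟨_, hv⟩ h
    have h' : 1/36 ≤ ‖slot k v‖^2 := hv
    rw [h] at h'; norm_num at h'
  have hcG : ContinuousOn (fun v => fderiv ℝ (pwG k) v) {v : V | slot k v ≠ 0} :=
    (contDiffOn_pwG k (n := ⊤)).continuousOn_fderiv_of_isOpen (isOpen_slot k) (by simp)
  obtain ⟨C1, hC1⟩ := hK'.exists_bound_of_continuousOn (hcG.mono hK1)
  -- bound on the sphere
  have hS : ∀ (n : ℕ) (v : V), 1 ≤ n → nrm v = 1 →
      ‖fderiv ℝ (fun v : V => pw n (slot k v) v) v‖ ≤ (|C0| + |C1| + 1) * n := by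
    intro n v hn hv
    have hn1 : (1:ℝ) ≤ n := by exact_mod_cast hn
    have hv0 : v ≠ 0 := hK0 hv
    by_cases hs : ‖slot k v‖^2 / nrm v^2 < 1/36
    · rw [(pw_eventually_zero n k hv0 hs).fderiv_eq]
      simp only [fderiv_fun_const, Pi.zero_apply, norm_zero]
      positivity
    · have hs' : 1/36 ≤ ‖slot k v‖^2 := by
        rw [hv] at hs; simpa using hs
      have hv1 : v ∈ ({v : V | nrm v = 1} ∩ {v : V | 1/36 ≤ ‖slot k v‖^2}) := ⟨hv, hs'⟩
      have hsl : slot k v ≠ 0 := hK1 hv1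
      have dH : HasFDerivAt (pwH k) (fderiv ℝ (pwH k) v) v := by
        have : ContDiffAt ℝ 1 (pwH k) v := (contDiffOn_pwH k).contDiffAt (isOpen_ne0.mem_nhds hv0)
        exact (this.differentiableAt (by simp)).hasFDerivAt
      have dG : HasFDerivAt (pwG k) (fderiv ℝ (pwG k) v) v := by
        have : ContDiffAt ℝ 1 (pwG k) v := (contDiffOn_pwG k).contDiffAt ((isOpen_slot k).mem_nhds hsl)
        exact (this.differentiableAt (by simp)).hasFDerivAt
      have dH' : HasFDerivAt (fun v : V => (pwH k v : ℂ)) (Complex.ofRealCLM.comp (fderiv ℝ (pwH k) v)) v :=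
        Complex.ofRealCLM.hasFDerivAt.comp v dH
      have dF := dH'.mul (dG.pow n)
      have hfun : (fun v : V => pw n (slot k v) v) =
          (fun v : V => (pwH k v : ℂ)) * fun v : V => pwG k v ^ n := by
        funext w; exact pw_eq n k w
      rw [hfun, dF.fderiv]
      have hH1 : ‖(pwH k v : ℂ)‖ ≤ 1 := by
        rw [Complex.norm_real, Real.norm_eq_abs]
        unfold pwH
        rw [hv, abs_mul, abs_one, one_mul, abs_of_nonneg (rho_nonneg _)]
        exact rho_le_one _
      have hG1 := norm_pwG_le k v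
      have hb0 : ‖fderiv ℝ (pwH k) v‖ ≤ |C0| := (hC0 v hv).trans (le_abs_self _)
      have hb1 : ‖fderiv ℝ (pwG k) v‖ ≤ |C1| := (hC1 v hv1).trans (le_abs_self _)
      refine (norm_add_le _ _).trans ?_
      have e1 : ‖(pwH k v : ℂ) • ((n • pwG k v ^ (n-1)) • fderiv ℝ (pwG k) v)‖ ≤ n * |C1| := by
        rw [norm_smul, norm_smul]
        have : ‖n • pwG k v ^ (n-1)‖ ≤ n := by
          rw [nsmul_eq_mul, norm_mul, norm_pow, Complex.norm_natCast]
          have := pow_le_one₀ (n := n-1) (norm_nonneg (pwG k v)) hG1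
          nlinarith
        calc ‖(pwH k v : ℂ)‖ * (‖n • pwG k v ^ (n-1)‖ * ‖fderiv ℝ (pwG k) v‖)
            ≤ 1 * (n * |C1|) := by gcongr
          _ = n * |C1| := one_mul _
      have e2 : ‖pwG k v ^ n • Complex.ofRealCLM.comp (fderiv ℝ (pwH k) v)‖ ≤ |C0| := by
        rw [norm_smul, norm_pow]
        have h1 : ‖Complex.ofRealCLM.comp (fderiv ℝ (pwH k) v)‖ ≤ |C0| := by
          refine (ContinuousLinearMap.opNorm_comp_le _ _).trans ?_
          rw [Complex.ofRealCLM_norm, one_mul]; exact hb0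
        have h2 := pow_le_one₀ (n := n) (norm_nonneg (pwG k v)) hG1
        calc ‖pwG k v‖ ^ n * ‖Complex.ofRealCLM.comp (fderiv ℝ (pwH k) v)‖ ≤ 1 * |C0| := by gcongr
          _ = |C0| := one_mul _
      refine (add_le_add e1 e2).trans ?_
      nlinarith [abs_nonneg C0, abs_nonneg C1]
  refine ⟨|C0| + |C1| + 1, by positivity, ?_⟩
  intro n v hn hv
  set c : ℝ := (nrm v)⁻¹ with hc
  have hcpos : 0 < c := inv_pos.mpr (nrm_pos hv)
  have hcv : nrm (c • v) = 1 := by
    rw [nrm_smul, abs_of_pos hcpos, hc]; exact inv_mul_cancel₀ (nrm_pos hv).ne'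
  have hcv0 : c • v ≠ 0 := hK0 hcv
  have hmain : fderiv ℝ (fun v : V => pw n (slot k v) v) v
      = fderiv ℝ (fun v : V => pw n (slot k v) v) (c • v) := by
    have hd : HasFDerivAt (fun v : V => pw n (slot k v) v)
        (fderiv ℝ (fun v : V => pw n (slot k v) v) (c • v)) (c • v) :=
      (((pw_smooth n k).contDiffAt (isOpen_ne0.mem_nhds hcv0)).differentiableAt (by simp)).hasFDerivAt
    have hl : HasFDerivAt (fun w : V => c • w) (c • ContinuousLinearMap.id ℝ V) v :=
      (c • ContinuousLinearMap.id ℝ V).hasFDerivAt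
    have h2 := (hd.comp v hl).const_smul c⁻¹
    have h3 : (fun v : V => pw n (slot k v) v)
        = c⁻¹ • ((fun v : V => pw n (slot k v) v) ∘ fun w : V => c • w) := by
      funext w
      simp only [Pi.smul_apply, Function.comp]
      rw [pw_homog n k w c hcpos, Complex.real_smul, ← mul_assoc]
      push_cast
      rw [inv_mul_cancel₀ (by exact_mod_cast hcpos.ne'), one_mul]
    rw [← h3] at h2
    rw [h2.fderiv]
    ext w
    · simp [smul_smul, hcpos.ne']
    · simp [smul_smul, hcpos.ne']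
  rw [hmain]
  exact hS n (c • v) hn hcv

theorem pw_deriv_bound : ∃ C : ℝ, 0 < C ∧ ∀ (n k : ℕ) (v : V), 1 ≤ n → v ≠ 0 →
    ‖fderiv ℝ (fun v : V => pw n (slot k v) v) v‖ ≤ C * n := by
  obtain ⟨C0, h0, H0⟩ := pw_deriv_bound_k 0
  obtain ⟨C1, h1, H1⟩ := pw_deriv_bound_k 1
  refine ⟨C0 + C1, by positivity, ?_⟩
  intro n k v hn hv
  have hn0 : (0:ℝ) ≤ n := Nat.cast_nonneg n
  rcases Nat.mod_two_eq_zero_or_one k with hk | hk
  · have : (fun v : V => pw n (slot k v) v) = (fun v : V => pw n (slot 0 v) v) := by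
      funext w; rw [slot_congr (k := k) (l := 0) (by simpa using hk)]
    rw [this]
    exact (H0 n v hn hv).trans (by nlinarith)
  · have : (fun v : V => pw n (slot k v) v) = (fun v : V => pw n (slot 1 v) v) := by
      funext w; rw [slot_congr (k := k) (l := 1) (by simpa using hk)]
    rw [this]
    exact (H1 n v hn hv).trans (by nlinarith)

end

end SEC
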