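import Crest.Agent.SEC_GlueDefs
import Crest.Agent.SEC_Pw

/-!
SEC-EraGlue. `A x = (100 * bb (rot x)) • swpL`, `ε' i = C' * ε i`. `smooth`: `contDiff_tau`, `contDiff_chi`, `contDiff_pend`, `contDiff_wnd`,
`pw_smooth`, `2^(..)` smooth. `homog`: `pw_homog`. `close`: `D_v F = 100 b ((1-chi) swpL + chi 2^(kq-kp) D(app)∘swpL)` at `x' = rot x`.
Where `chi x' = 0`: `‖D_v F - A‖ ≤ 100 |b - bb| ≤ 100 ε i`. Where `chi x' ≠ 0`: `‖x'-1‖ < 3η`, so `0 ≤ b ≤ ε i`, `|bb| ≤ 2 ε i`, and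
`2^(kq-kp) ‖D app‖ ≤ 4 * C * 2^(5/4)`: for an active pair `(m,k)` (`|kq-m| < 5/8`, `|kp-k| < 5/8`) the derivative of the term is at most `C 2^(k-m)`
(`pw_deriv_bound`) and `2^(k-m) ≤ 2^(kp-kq+5/4)`; at most 4 active pairs.
-/

set_option autoImplicit false
open scoped ContDiff Manifold Topology
open Filter

namespace SEC

noncomputable section

/-- the swap as a continuous linear map. -/
private def egSwpL : V →L[ℝ] V :=
  (ContinuousLinearMap.snd ℝ ℂ ℂ).prod (ContinuousLinearMap.fst ℝ ℂ ℂ)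

private theorem egSwpL_apply (v : V) : egSwpL v = swp v := rfl

private theorem egSwpL_norm : ‖egSwpL‖ ≤ 1 := by
  refine ContinuousLinearMap.opNorm_le_bound _ zero_le_one fun v => ?_
  rw [egSwpL_apply, one_mul, Prod.norm_def, Prod.norm_def]
  simp only [swp_fst, swp_snd]
  rw [max_comm]

/-- the insertion as a continuous linear map. -/
private def egInsL (m : ℕ) : ℂ →L[ℝ] V :=
  if Even m then ContinuousLinearMap.inl ℝ ℂ ℂ else ContinuousLinearMap.inr ℝ ℂ ℂ

private theorem egInsL_apply (m : ℕ) (z : ℂ) : egInsL m z = ins m z := by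
  unfold egInsL ins
  split_ifs <;> rfl

private theorem egInsL_norm (m : ℕ) : ‖egInsL m‖ ≤ 1 := by
  refine ContinuousLinearMap.opNorm_le_bound _ zero_le_one fun z => ?_
  rw [egInsL_apply, one_mul]
  unfold ins
  split_ifs <;> simp

private theorem eg_wnd_sum (y : ℝ) (s : Finset ℕ) : ∑ m ∈ s, wnd (y - (m : ℝ)) ≤ 2 := by
  classical
  have h1 : ∑ m ∈ s, wnd (y - (m : ℝ)) ≤ ∑ m ∈ ({⌊y⌋₊, ⌊y⌋₊ + 1} : Finset ℕ), (1:ℝ) := by
    calc ∑ m ∈ s, wnd (y - (m : ℝ))
        = ∑ m ∈ s.filter (fun m : ℕ => |y - (m : ℝ)| < 5/8), wnd (y - (m : ℝ)) := by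
          rw [Finset.sum_filter_of_ne]
          intro m _ hm
          by_contra h
          exact hm (wnd_eq_zero (not_lt.mp h))
      _ ≤ ∑ m ∈ s.filter (fun m : ℕ => |y - (m : ℝ)| < 5/8), (1:ℝ) :=
          Finset.sum_le_sum fun m _ => wnd_le_one _
      _ ≤ ∑ m ∈ ({⌊y⌋₊, ⌊y⌋₊ + 1} : Finset ℕ), (1:ℝ) := by
          refine Finset.sum_le_sum_of_subset_of_nonneg ?_ (fun _ _ _ => zero_le_one)
          intro m hm
          rw [Finset.mem_filter] at hm
          have hm2 := abs_lt.mp hm.2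
          rw [Finset.mem_insert, Finset.mem_singleton]
          by_cases hy : 0 ≤ y
          · have hf1 := Nat.floor_le hy
            have hf2 := Nat.lt_floor_add_one y
            have h3 : (m : ℝ) < (⌊y⌋₊ + 2 : ℕ) := by push_cast; linarith
            have h4 : ((⌊y⌋₊ : ℕ) : ℝ) < ((m + 1 : ℕ) : ℝ) := by push_cast; linarith
            have h3' : m < ⌊y⌋₊ + 2 := by exact_mod_cast h3
            have h4' : ⌊y⌋₊ < m + 1 := by exact_mod_cast h4
            omega
          · have hy' : y < 0 := not_le.mp hy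
            have hf : ⌊y⌋₊ = 0 := Nat.floor_of_nonpos hy'.le
            have h3 : (m : ℝ) < (1 : ℕ) := by push_cast; linarith
            have h3' : m < 1 := by exact_mod_cast h3
            left; omega
  refine h1.trans ?_
  rw [Finset.sum_pair (by omega)]
  norm_num

/-- the derivative of the application operator. -/
private def egDApp (K : ℕ) (kp kq : ℝ) (u : V) : V →L[ℝ] V :=
  ∑ m ∈ Finset.range K, ∑ k ∈ Finset.Ico m K,
    (wnd (kq - m) * wnd (kp - k)) •
      (egInsL m).comp (fderiv ℝ (fun v : V => pw (2^(k-m)) (slot k v) v) u)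

private theorem eg_pw_diff (n k : ℕ) {u : V} (hu : u ≠ 0) :
    DifferentiableAt ℝ (fun v : V => pw n (slot k v) v) u := by
  have h := pw_smooth n k
  have ho : IsOpen {v : V | v ≠ 0} := isOpen_ne
  exact (h.contDiffAt (ho.mem_nhds hu)).differentiableAt (by simp)

private theorem eg_hasFDerivAt_app (K : ℕ) (kp kq : ℝ) {u : V} (hu : u ≠ 0) :
    HasFDerivAt (app K kp kq) (egDApp K kp kq u) u := by
  unfold app egDApp
  refine HasFDerivAt.fun_sum fun m _ => HasFDerivAt.fun_sum fun k _ => ?_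
  have h1 := (eg_pw_diff (2^(k-m)) k hu).hasFDerivAt
  have h2 : HasFDerivAt (fun v : V => egInsL m (pw (2^(k-m)) (slot k v) v))
      ((egInsL m).comp (fderiv ℝ (fun v : V => pw (2^(k-m)) (slot k v) v) u)) u :=
    HasFDerivAt.comp (f := fun v : V => pw (2^(k-m)) (slot k v) v) (g := egInsL m) u
      ((egInsL m).hasFDerivAt) h1
  have h3 := HasFDerivAt.const_smul (R := ℝ) h2 (wnd (kq - m) * wnd (kp - k))
  refine h3.congr_of_eventuallyEq (Eventually.of_forall fun v => ?_)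
  simp only [Pi.smul_apply, egInsL_apply]

private theorem eg_dapp_bound {C : ℝ} (hC : 0 < C)
    (hb : ∀ (n k : ℕ) (v : V), 1 ≤ n → v ≠ 0 →
      ‖fderiv ℝ (fun v : V => pw n (slot k v) v) v‖ ≤ C * n)
    (K : ℕ) (kp kq : ℝ) {u : V} (hu : u ≠ 0) :
    (2:ℝ)^(kq - kp) * ‖egDApp K kp kq u‖ ≤ 16 * C := by
  have h2 : (0:ℝ) < (2:ℝ)^(kq - kp) := Real.rpow_pos_of_pos (by norm_num) _
  have hterm : ∀ m ∈ Finset.range K, ∀ k ∈ Finset.Ico m K,
      (2:ℝ)^(kq - kp) * ((wnd (kq - m) * wnd (kp - k)) * (C * (2:ℝ)^(k-m)))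
        ≤ 4 * C * (wnd (kq - m) * wnd (kp - k)) := by
    intro m _ k hk
    rw [Finset.mem_Ico] at hk
    by_cases h1 : 5/8 ≤ |kq - m|
    · rw [wnd_eq_zero h1]; simp
    by_cases h3 : 5/8 ≤ |kp - k|
    · rw [wnd_eq_zero h3]; simp
    have h1' := abs_lt.mp (not_le.mp h1)
    have h3' := abs_lt.mp (not_le.mp h3)
    have hw : 0 ≤ wnd (kq - m) * wnd (kp - k) := mul_nonneg (wnd_nonneg _) (wnd_nonneg _)
    have hp : (2:ℝ)^(kq - kp) * (2:ℝ)^(k-m) ≤ 4 := by
      rw [← Real.rpow_natCast, ← Real.rpow_add (by norm_num)]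
      calc (2:ℝ)^(kq - kp + ((k - m : ℕ) : ℝ)) ≤ (2:ℝ)^(2:ℝ) := by
            refine Real.rpow_le_rpow_of_exponent_le (by norm_num) ?_
            rw [Nat.cast_sub hk.1]
            linarith [h1'.1, h1'.2, h3'.1, h3'.2]
        _ = 4 := by norm_num
    calc (2:ℝ)^(kq - kp) * ((wnd (kq - m) * wnd (kp - k)) * (C * (2:ℝ)^(k-m)))
        = ((2:ℝ)^(kq - kp) * (2:ℝ)^(k-m)) * (C * (wnd (kq - m) * wnd (kp - k))) := by ring
      _ ≤ 4 * (C * (wnd (kq - m) * wnd (kp - k))) :=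
          mul_le_mul_of_nonneg_right hp (mul_nonneg hC.le hw)
      _ = _ := by ring
  have hn : ‖egDApp K kp kq u‖ ≤ ∑ m ∈ Finset.range K, ∑ k ∈ Finset.Ico m K,
      (wnd (kq - m) * wnd (kp - k)) * (C * (2:ℝ)^(k-m)) := by
    unfold egDApp
    refine (norm_sum_le _ _).trans (Finset.sum_le_sum fun m _ => ?_)
    refine (norm_sum_le _ _).trans (Finset.sum_le_sum fun k _ => ?_)
    rw [norm_smul, Real.norm_eq_abs,
      abs_of_nonneg (mul_nonneg (wnd_nonneg _) (wnd_nonneg _))]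
    refine mul_le_mul_of_nonneg_left ?_ (mul_nonneg (wnd_nonneg _) (wnd_nonneg _))
    refine (ContinuousLinearMap.opNorm_comp_le _ _).trans ?_
    have h5 := hb (2^(k-m)) k u Nat.one_le_two_pow hu
    push_cast at h5
    calc ‖egInsL m‖ * ‖fderiv ℝ (fun v : V => pw (2^(k-m)) (slot k v) v) u‖
        ≤ 1 * (C * (2:ℝ)^(k-m)) :=
          mul_le_mul (egInsL_norm m) h5 (norm_nonneg _) zero_le_one
      _ = _ := one_mul _
  calc (2:ℝ)^(kq - kp) * ‖egDApp K kp kq u‖
      ≤ (2:ℝ)^(kq - kp) * ∑ m ∈ Finset.range K, ∑ k ∈ Finset.Ico m K,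
      (wnd (kq - m) * wnd (kp - k)) * (C * (2:ℝ)^(k-m)) := mul_le_mul_of_nonneg_left hn h2.le
    _ = ∑ m ∈ Finset.range K, ∑ k ∈ Finset.Ico m K,
      (2:ℝ)^(kq - kp) * ((wnd (kq - m) * wnd (kp - k)) * (C * (2:ℝ)^(k-m))) := by
        rw [Finset.mul_sum]
        refine Finset.sum_congr rfl fun m _ => ?_
        rw [Finset.mul_sum]
    _ ≤ ∑ m ∈ Finset.range K, ∑ k ∈ Finset.Ico m K,
      4 * C * (wnd (kq - m) * wnd (kp - k)) :=
        Finset.sum_le_sum fun m hm => Finset.sum_le_sum fun k hk => hterm m hm k hk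
    _ = 4 * C * ∑ m ∈ Finset.range K, wnd (kq - m) * ∑ k ∈ Finset.Ico m K, wnd (kp - k) := by
        rw [Finset.mul_sum]
        refine Finset.sum_congr rfl fun m _ => ?_
        rw [Finset.mul_sum, Finset.mul_sum]
    _ ≤ 4 * C * ∑ m ∈ Finset.range K, wnd (kq - m) * 2 := by
        refine mul_le_mul_of_nonneg_left ?_ (by positivity)
        exact Finset.sum_le_sum fun m _ => mul_le_mul_of_nonneg_left (eg_wnd_sum _ _) (wnd_nonneg _)
    _ = 8 * C * ∑ m ∈ Finset.range K, wnd (kq - m) := by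
        rw [← Finset.sum_mul]; ring
    _ ≤ 8 * C * 2 := mul_le_mul_of_nonneg_left (eg_wnd_sum _ _) (by positivity)
    _ = 16 * C := by ring

private theorem eg_swp_ne {v : V} (hv : v ≠ 0) : swp v ≠ 0 := by
  intro h
  apply hv
  have := congrArg swp h
  rwa [swp_swp, swp_zero] at this

/-- derivative of the era map. -/
private theorem eg_hasFDerivAt_F (E : Era) (x : ℂ) {v : V} (hv : v ≠ 0) :
    HasFDerivAt (fun w => E.F x w)
      ((100 * E.b (rot * x)) • ((1 - chi E.η (rot * x)) • egSwpL +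
    (chi E.η (rot * x) * (2:ℝ)^(tau E.η (rot * x) * (1 + E.P x) - (1 + E.P x))) •
      (egDApp (E.L + 3) (1 + E.P x) (tau E.η (rot * x) * (1 + E.P x)) (swp v)).comp egSwpL)) v := by
  have h1 : HasFDerivAt (fun w : V => swp w) egSwpL v := egSwpL.hasFDerivAt
  have h2 := (eg_hasFDerivAt_app (E.L + 3) (1 + E.P x) (tau E.η (rot * x) * (1 + E.P x))
    (eg_swp_ne hv)).comp v h1
  have h3 := HasFDerivAt.const_smul (R := ℝ) h1 (1 - chi E.η (rot * x))
  have h4 := HasFDerivAt.const_smul (R := ℝ) h2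
    (chi E.η (rot * x) * (2:ℝ)^(tau E.η (rot * x) * (1 + E.P x) - (1 + E.P x)))
  have h5 := HasFDerivAt.const_smul (R := ℝ) (h3.add h4) (100 * E.b (rot * x))
  exact h5

private theorem eg_app_homog (K : ℕ) (kp kq : ℝ) (u : V) {c : ℝ} (hc : 0 < c) :
    app K kp kq (c • u) = c • app K kp kq u := by
  unfold app
  rw [Finset.smul_sum]
  refine Finset.sum_congr rfl fun m _ => ?_
  rw [Finset.smul_sum]
  refine Finset.sum_congr rfl fun k _ => ?_
  rw [pw_homog _ _ _ _ hc, ← ins_smul, smul_comm]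

private theorem eg_app_zero (K : ℕ) (kp kq : ℝ) : app K kp kq 0 = 0 := by
  unfold app
  refine Finset.sum_eq_zero fun m _ => Finset.sum_eq_zero fun k _ => ?_
  rw [slot_zero, pw_zero_left, ins_zero, smul_zero]

private theorem eg_smooth (E : Era) (hb : ContDiff ℝ ∞ E.b) :
    ContDiffOn ℝ 1 (fun p : ℂ × V => E.F p.1 p.2) {p | p.2 ≠ 0} := by
  have hx : ContDiff ℝ 1 (fun p : ℂ × V => rot * p.1) := contDiff_const.mul contDiff_fst
  have hbx : ContDiff ℝ 1 (fun p : ℂ × V => E.b (rot * p.1)) :=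
    (hb.of_le (by exact_mod_cast le_top)).comp hx
  have hchi : ContDiff ℝ 1 (fun p : ℂ × V => chi E.η (rot * p.1)) :=
    (contDiff_chi E.η (n := 1)).comp hx
  have htau : ContDiff ℝ 1 (fun p : ℂ × V => tau E.η (rot * p.1)) :=
    (contDiff_tau E.η (n := 1)).comp hx
  have hP : ContDiff ℝ 1 (fun p : ℂ × V => 1 + E.P p.1) :=
    contDiff_const.add ((contDiff_pend E.η E.L (n := 1)).comp contDiff_fst)
  have hq : ContDiff ℝ 1 (fun p : ℂ × V => tau E.η (rot * p.1) * (1 + E.P p.1)) := htau.mul hP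
  have hswp : ContDiff ℝ 1 (fun p : ℂ × V => swp p.2) := egSwpL.contDiff.comp contDiff_snd
  have hpow : ContDiff ℝ 1 (fun p : ℂ × V =>
      (2:ℝ)^(tau E.η (rot * p.1) * (1 + E.P p.1) - (1 + E.P p.1))) :=
    contDiff_const.rpow (hq.sub hP) (fun _ => by norm_num)
  have happ : ContDiffOn ℝ 1 (fun p : ℂ × V =>
      app (E.L + 3) (1 + E.P p.1) (tau E.η (rot * p.1) * (1 + E.P p.1)) (swp p.2))
      {p | p.2 ≠ 0} := by
    unfold app
    refine ContDiffOn.sum fun m _ => ContDiffOn.sum fun k _ => ?_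
    have hw1 : ContDiff ℝ 1 (fun p : ℂ × V =>
        wnd (tau E.η (rot * p.1) * (1 + E.P p.1) - (m:ℝ))) :=
      (contDiff_wnd (n := 1)).comp (hq.sub contDiff_const)
    have hw2 : ContDiff ℝ 1 (fun p : ℂ × V => wnd (1 + E.P p.1 - (k:ℝ))) :=
      (contDiff_wnd (n := 1)).comp (hP.sub contDiff_const)
    refine (hw1.mul hw2).contDiffOn.smul ?_
    · have h1 : ContDiffOn ℝ 1 (fun p : ℂ × V => pw (2^(k-m)) (slot k (swp p.2)) (swp p.2))
          {p | p.2 ≠ 0} := by
        have h2 := ((pw_smooth (2^(k-m)) k).of_le (m := 1) (by exact_mod_cast le_top))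
        exact h2.comp hswp.contDiffOn (fun p hp => eg_swp_ne hp)
      have h3 := (egInsL m).contDiff.comp_contDiffOn h1
      refine h3.congr fun p _ => ?_
      simp only [Function.comp, egInsL_apply]
  unfold Era.F
  have hc1 : ContDiff ℝ 1 (fun p : ℂ × V => 100 * E.b (rot * p.1)) := contDiff_const.mul hbx
  have hc2 : ContDiff ℝ 1 (fun p : ℂ × V => 1 - chi E.η (rot * p.1)) := contDiff_const.sub hchi
  refine hc1.contDiffOn.smul ?_
  refine ContDiffOn.add ?_ ?_
  · exact (ContDiff.smul hc2 hswp).contDiffOn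
  · exact (hchi.mul hpow).contDiffOn.smul happ

theorem era_glueHyp (E : ℕ → Era) (bb : ℂ → ℝ) (ε : ℕ → ℝ) (h : EraSmooth E bb ε) :
    ∃ (A : ℂ → V →L[ℝ] V) (ε' : ℕ → ℝ), GlueHyp (fun i => (E i).F) A ε' := by
  obtain ⟨C, hC, hCb⟩ := pw_deriv_bound
  refine ⟨fun x => (100 * bb (rot * x)) • egSwpL, fun i => (200 + 1600 * C) * ε i, ?_⟩
  refine ⟨fun i => eg_smooth (E i) (h.b_smooth i), ?_, ?_, ?_, ?_, ?_⟩
  · intro i x v c hc
    unfold Era.F
    rw [swp_smul, eg_app_homog _ _ _ _ hc]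
    module
  · intro i x
    unfold Era.F
    rw [swp_zero, eg_app_zero]
    simp
  · have h1 : Continuous (fun x : ℂ => bb (rot * x)) :=
      h.bb_cont.comp (continuous_const.mul continuous_id)
    exact (continuous_const.mul h1).smul continuous_const
  · have h1 := h.eps_tendsto.const_mul (200 + 1600 * C)
    simpa using h1
  · intro i x v hv
    rw [(eg_hasFDerivAt_F (E i) x hv).fderiv]
    set b := (E i).b (rot * x) with hbdef
    set χ := chi (E i).η (rot * x) with hχdef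
    set kp := 1 + (E i).P x with hkp
    set kq := tau (E i).η (rot * x) * kp with hkq
    set D := egDApp ((E i).L + 3) kp kq (swp v) with hD
    have hb0 : 0 ≤ b := h.b_nonneg i _
    have hclose : |b - bb (rot * x)| ≤ ε i := h.b_close i _
    have hε : 0 ≤ ε i := (abs_nonneg _).trans hclose
    have hχ0 : 0 ≤ χ := chi_nonneg _ _
    have hχ1 : χ ≤ 1 := chi_le_one _ _
    have hp0 : (0:ℝ) < (2:ℝ)^(kq - kp) := Real.rpow_pos_of_pos (by norm_num) _
    have hDb : (2:ℝ)^(kq - kp) * ‖D‖ ≤ 16 * C := eg_dapp_bound hC hCb _ _ _ (eg_swp_ne hv)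
    have hbχ : b * χ ≤ ε i := by
      by_cases hx : 3 * (E i).η ≤ ‖rot * x - 1‖
      · rw [hχdef, chi_eq_zero (h.eta_pos i) hx, mul_zero]; exact hε
      · have h3 : b ≤ ε i := h.b_small i _ (not_le.mp hx)
        calc b * χ ≤ b * 1 := mul_le_mul_of_nonneg_left hχ1 hb0
          _ ≤ ε i := by linarith
    have hbχ0 : 0 ≤ b * χ := mul_nonneg hb0 hχ0
    have heq : (100 * b) • ((1 - χ) • egSwpL + (χ * (2:ℝ)^(kq - kp)) • D.comp egSwpL) -
        (100 * bb (rot * x)) • egSwpL =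
        (100 * (b - bb (rot * x))) • egSwpL + (-(100 * (b * χ))) • egSwpL +
          (100 * (b * χ) * (2:ℝ)^(kq - kp)) • D.comp egSwpL := by
      module
    rw [heq]
    have hn1 : ‖(100 * (b - bb (rot * x))) • egSwpL‖ ≤ 100 * ε i := by
      rw [norm_smul, Real.norm_eq_abs, abs_mul, abs_of_nonneg (by norm_num : (0:ℝ) ≤ 100)]
      calc 100 * |b - bb (rot * x)| * ‖egSwpL‖ ≤ 100 * ε i * 1 :=
            mul_le_mul (by linarith) egSwpL_norm (norm_nonneg _) (by linarith)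
        _ = _ := mul_one _
    have hn2 : ‖(-(100 * (b * χ))) • egSwpL‖ ≤ 100 * ε i := by
      rw [norm_smul, Real.norm_eq_abs, abs_neg, abs_of_nonneg (by linarith)]
      calc 100 * (b * χ) * ‖egSwpL‖ ≤ 100 * ε i * 1 :=
            mul_le_mul (by linarith) egSwpL_norm (norm_nonneg _) (by linarith)
        _ = _ := mul_one _
    have hn3 : ‖(100 * (b * χ) * (2:ℝ)^(kq - kp)) • D.comp egSwpL‖ ≤ 1600 * C * ε i := by
      rw [norm_smul, Real.norm_eq_abs, abs_of_nonneg (mul_nonneg (by linarith) hp0.le)]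
      have h5 : ‖D.comp egSwpL‖ ≤ ‖D‖ := by
        refine (ContinuousLinearMap.opNorm_comp_le _ _).trans ?_
        calc ‖D‖ * ‖egSwpL‖ ≤ ‖D‖ * 1 := mul_le_mul_of_nonneg_left egSwpL_norm (norm_nonneg _)
          _ = ‖D‖ := mul_one _
      calc 100 * (b * χ) * (2:ℝ)^(kq - kp) * ‖D.comp egSwpL‖
          ≤ 100 * (b * χ) * (2:ℝ)^(kq - kp) * ‖D‖ :=
            mul_le_mul_of_nonneg_left h5 (mul_nonneg (by linarith) hp0.le)
        _ = 100 * (b * χ) * ((2:ℝ)^(kq - kp) * ‖D‖) := by ring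
        _ ≤ 100 * (b * χ) * (16 * C) := mul_le_mul_of_nonneg_left hDb (by linarith)
        _ ≤ 100 * ε i * (16 * C) := mul_le_mul_of_nonneg_right (by linarith) (by positivity)
        _ = 1600 * C * ε i := by ring
    calc _ ≤ ‖(100 * (b - bb (rot * x))) • egSwpL‖ + ‖(-(100 * (b * χ))) • egSwpL‖ +
          ‖(100 * (b * χ) * (2:ℝ)^(kq - kp)) • D.comp egSwpL‖ :=
            (norm_add_le _ _).trans (add_le_add (norm_add_le _ _) le_rfl)
      _ ≤ 100 * ε i + 100 * ε i + 1600 * C * ε i := by linarith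
      _ = (200 + 1600 * C) * ε i := by ring

end

end SEC
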