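import Mathlib

/-!
SEC-EtaSeq. Choose `d n > 0` good for `a = 3/2^n`, made antitone (running minimum). Define
`η (i+1) = max (7/8 * η i) (η i - g (η i))`, with `g y = d (n y)`, `n y` the least `n` with `3/2^n ≤ y/2`
(so `3/2^n ≤ 7/8 y ≤ η (i+1)`). If `η i → c > 0` then all steps are `≥ min (c/8) (d (n c))`-ish > 0, contradiction.
-/

set_option autoImplicit false
open scoped ContDiff Manifold Topology
open Filter

namespace SEC

noncomputable section

theorem exists_eta_seq (Q : ℝ → ℝ → Prop)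
    (hQ : ∀ a : ℝ, 0 < a → ∃ δ > 0, ∀ η η' : ℝ, a ≤ η' → η' ≤ η → η ≤ 3 → η - η' ≤ δ → Q η η') :
    ∃ η : ℕ → ℝ, η 0 = 3 ∧ (∀ i, 0 < η i) ∧ (∀ i, η (i+1) ≤ η i) ∧
      (∀ i, 7/8 * η i ≤ η (i+1)) ∧ Tendsto η atTop (𝓝 0) ∧ ∀ i, Q (η i) (η (i+1)) := by
  classical
  have hpos : ∀ n : ℕ, (0:ℝ) < 1 / ((n:ℝ) + 1) := fun n => by positivity
  choose! δ hδ hδQ using hQ
  -- running minimum
  let e : ℕ → ℝ := fun n => Nat.rec (δ (1 / (((0:ℕ):ℝ) + 1)))
    (fun k r => min r (δ (1 / (((k+1:ℕ):ℝ) + 1)))) n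
  have e0 : e 0 = δ (1 / (((0:ℕ):ℝ) + 1)) := rfl
  have es : ∀ k, e (k+1) = min (e k) (δ (1 / (((k+1:ℕ):ℝ) + 1))) := fun k => rfl
  have epos : ∀ n, 0 < e n := by
    intro n
    induction n with
    | zero => rw [e0]; exact hδ _ (hpos 0)
    | succ k ih => rw [es]; exact lt_min ih (hδ _ (hpos (k+1)))
  have eanti : Antitone e := antitone_nat_of_succ_le (fun k => by rw [es]; exact min_le_left _ _)
  have ele : ∀ n, e n ≤ δ (1 / ((n:ℝ) + 1)) := by
    intro n
    cases n with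
    | zero => rw [e0]
    | succ k => rw [es]; exact min_le_right _ _
  let step : ℝ → ℝ := fun y => y - min (y/8) (e ⌈2/y⌉₊)
  let η : ℕ → ℝ := fun n => Nat.rec 3 (fun _ y => step y) n
  have h0 : η 0 = 3 := rfl
  have hs : ∀ i, η (i+1) = η i - min (η i/8) (e ⌈2/(η i)⌉₊) := fun i => rfl
  have hηpos : ∀ i, 0 < η i := by
    intro i
    induction i with
    | zero => rw [h0]; norm_num
    | succ k ih =>
      rw [hs]
      have := min_le_left (η k/8) (e ⌈2/(η k)⌉₊)
      linarith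
  have hanti : ∀ i, η (i+1) ≤ η i := by
    intro i
    rw [hs]
    have : 0 < min (η i/8) (e ⌈2/(η i)⌉₊) := lt_min (by have := hηpos i; linarith) (epos _)
    linarith
  have h78 : ∀ i, 7/8 * η i ≤ η (i+1) := by
    intro i
    rw [hs]
    have := min_le_left (η i/8) (e ⌈2/(η i)⌉₊)
    linarith
  have hA : Antitone η := antitone_nat_of_succ_le hanti
  have h3 : ∀ i, η i ≤ 3 := fun i => by rw [← h0]; exact hA (Nat.zero_le i)
  have hbdd : BddBelow (Set.range η) := ⟨0, by rintro _ ⟨i, rfl⟩; exact (hηpos i).le⟩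
  have hlim := tendsto_atTop_ciInf hA hbdd
  set c := ⨅ i, η i with hc
  have hc0 : 0 ≤ c := ge_of_tendsto' hlim (fun i => (hηpos i).le)
  have hcle : ∀ i, c ≤ η i := fun i => ciInf_le hbdd i
  refine ⟨η, h0, hηpos, hanti, h78, ?_, ?_⟩
  · rcases hc0.eq_or_lt with h | h
    · rw [← h] at hlim; exact hlim
    · exfalso
      have hm : 0 < min (c/8) (e ⌈2/c⌉₊) := lt_min (by linarith) (epos _)
      have hstep : ∀ i, η (i+1) ≤ η i - min (c/8) (e ⌈2/c⌉₊) := by
        intro i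
        rw [hs]
        have h1 : c/8 ≤ η i/8 := by have := hcle i; linarith
        have h2 : e ⌈2/c⌉₊ ≤ e ⌈2/(η i)⌉₊ := by
          apply eanti
          apply Nat.ceil_mono
          exact div_le_div_of_nonneg_left (by norm_num) h (hcle i)
        have := min_le_min h1 h2
        linarith
      have hlim' : Tendsto (fun i => η i - η (i+1)) atTop (𝓝 (c - c)) :=
        hlim.sub ((tendsto_add_atTop_iff_nat 1).2 hlim)
      rw [sub_self] at hlim'
      have : min (c/8) (e ⌈2/c⌉₊) ≤ 0 := ge_of_tendsto' hlim' (fun i => by have := hstep i; linarith)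
      linarith
  · intro i
    have hy := hηpos i
    have hN : 1 / (((⌈2/(η i)⌉₊ : ℕ) : ℝ) + 1) ≤ η i / 2 := by
      have h1 : 2 / η i ≤ (⌈2/(η i)⌉₊ : ℝ) := Nat.le_ceil _
      rw [div_le_iff₀ (by positivity)]
      have h2 : 2 / η i * η i = 2 := by field_simp
      nlinarith
    apply hδQ (1 / (((⌈2/(η i)⌉₊ : ℕ) : ℝ) + 1)) (hpos _)
    · have := h78 i; linarith
    · exact hanti i
    · exact h3 i
    · have h1 := ele ⌈2/(η i)⌉₊
      have h2 := min_le_right (η i/8) (e ⌈2/(η i)⌉₊)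
      rw [hs]
      linarith

end

end SEC
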