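import Crest.Agent.SEC_Basic

/-!
SEC-Rot. `rot = exp I`.
1. `rot_pow_ne_one`: exp(nI) = 1 gives n = 2 pi k, so pi rational unless k = 0 (`irrational_pi`).
2. `rot_window`: pigeonhole/compactness: two powers of `rot` with index in `[0,M]` are within `η` of each other,
so some `ζ = rot^k`, `k>0`, has `0 < ‖ζ-1‖ ≤ η`; the multiples of `ζ` step around the circle with steps `≤ η`.
Alternative: density of the two-sided orbit (Mathlib: `AddCircle` dense multiples / `dense_zmultiples`...),
compactness gives `|t| ≤ T`, apply it to `x / rot^T` and shift.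
-/

set_option autoImplicit false
open scoped ContDiff Manifold Topology
open Filter

namespace SEC

noncomputable section

theorem rot_pow_ne_one (n : ℕ) (hn : 0 < n) : rot^n ≠ 1 := by
  intro h
  unfold rot at h
  rw [← Complex.exp_nat_mul, Complex.exp_eq_one_iff] at h
  obtain ⟨k, hk⟩ := h
  have h1 : (n : ℂ) = k * (2 * Real.pi) := by
    have h2 : (n : ℂ) * Complex.I = (k * (2 * Real.pi)) * Complex.I := by rw [hk]; ring
    exact mul_right_cancel₀ Complex.I_ne_zero h2
  have h3 : (n : ℝ) = k * (2 * Real.pi) := by exact_mod_cast h1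
  have hk0 : (k : ℝ) ≠ 0 := by
    intro h4
    rw [h4, zero_mul] at h3
    have : (0:ℝ) < n := by exact_mod_cast hn
    linarith
  refine irrational_pi ⟨(n : ℚ) / (k * 2), ?_⟩
  push_cast
  rw [h3]
  field_simp

theorem rot_dense : DenseRange (fun n : ℕ => n • (((1:ℝ) : AddCircle (2 * Real.pi)))) := by
  haveI : Fact (0 < 2 * Real.pi) := ⟨by positivity⟩
  have h : Irrational (1 / (2 * Real.pi)) := by
    have h1 : Irrational (2 * Real.pi) := by
      have := irrational_pi.ratCast_mul (q := 2) (by norm_num)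
      simpa using this
    rw [one_div]
    exact h1.inv
  exact denseRange_zsmul_iff_nsmul.1 (AddCircle.denseRange_zsmul_coe_iff.2 h)

theorem rot_near (η : ℝ) (hη : 0 < η) (x : ℂ) (hx : ‖x‖ = 1) : ∃ t : ℕ, ‖x / rot^t - 1‖ < η := by
  haveI : Fact (0 < 2 * Real.pi) := ⟨by positivity⟩
  have hpi : (2 * Real.pi) ≠ 0 := by positivity
  let g : AddCircle (2 * Real.pi) → ℂ := fun z => x / (AddCircle.toCircle z : ℂ) - 1
  have hg : Continuous g := by
    refine (Continuous.div continuous_const ?_ fun z => Circle.coe_ne_zero _).sub continuous_const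
    exact continuous_subtype_val.comp AddCircle.continuous_toCircle
  have hopen : IsOpen {z | ‖g z‖ < η} := isOpen_lt hg.norm continuous_const
  have hne : ({z | ‖g z‖ < η} : Set _).Nonempty := by
    refine ⟨((Complex.arg x : ℝ) : AddCircle (2 * Real.pi)), ?_⟩
    simp only [Set.mem_setOf_eq, g]
    rw [AddCircle.toCircle_apply_mk, div_self hpi, one_mul, Circle.coe_exp]
    have h1 : x = Complex.exp (Complex.arg x * Complex.I) := by
      conv_lhs => rw [← Complex.norm_mul_exp_arg_mul_I x, hx]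
      simp
    rw [← h1, div_self, sub_self, norm_zero]
    · exact hη
    · intro h0; rw [h0, norm_zero] at hx; norm_num at hx
  obtain ⟨n, hn⟩ := rot_dense.exists_mem_open hopen hne
  refine ⟨n, ?_⟩
  simp only [Set.mem_setOf_eq, g] at hn
  rw [AddCircle.toCircle_nsmul, AddCircle.toCircle_apply_mk, div_self hpi, one_mul,
    Circle.coe_pow, Circle.coe_exp] at hn
  simpa [rot] using hn

theorem rot_window (η : ℝ) (hη : 0 < η) :
    ∃ L : ℕ, ∀ x : ℂ, ‖x‖ = 1 → ∃ t < L, ‖x / rot^t - 1‖ ≤ η := by
  have hcomp : IsCompact (Metric.sphere (0:ℂ) 1) := isCompact_sphere _ _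
  have hopen : ∀ t : ℕ, IsOpen {x : ℂ | ‖x / rot^t - 1‖ < η} := fun t =>
    isOpen_lt (by fun_prop) continuous_const
  obtain ⟨s, hs⟩ := hcomp.elim_finite_subcover (fun t : ℕ => {x : ℂ | ‖x / rot^t - 1‖ < η}) hopen
    (by
      intro x hx
      rw [mem_sphere_zero_iff_norm] at hx
      obtain ⟨t, ht⟩ := rot_near η hη x hx
      exact Set.mem_iUnion.2 ⟨t, ht⟩)
  refine ⟨s.sup id + 1, fun x hx => ?_⟩
  have := hs (mem_sphere_zero_iff_norm.2 hx)
  simp only [Set.mem_iUnion, exists_prop] at this
  obtain ⟨t, hts, ht⟩ := this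
  exact ⟨t, Nat.lt_succ_of_le (Finset.le_sup (f := id) hts), le_of_lt ht⟩

end

end SEC
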