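import Crest.Agent.SEC_Pend
import Crest.Agent.SEC_Rot

/-!
SEC-PClose. Take `L0` from `rot_window a` (import Crest.Agent.SEC_Rot if you like); it is a valid window length for all
`η ≥ a`, so by `pend_congr` all `pend η L x` equal `pend η L0 x`. The function `(η,x) ↦ pend η L0 x` is continuous on the
compact set `[a,3] × sphere 0 1` (`tau` is `smoothTransition` of a quotient with positive denominator), hence uniformly
continuous.
-/

set_option autoImplicit false
open scoped ContDiff Manifold Topology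
open Filter

namespace SEC

noncomputable section

theorem pend_continuousOn (a : ℝ) (ha : 0 < a) (L : ℕ) :
    ContinuousOn (fun p : ℝ × ℂ => pend p.1 L p.2) (Set.Icc a 3 ×ˢ Metric.sphere (0:ℂ) 1) := by
  unfold pend
  refine continuousOn_finset_sum _ fun t _ => continuousOn_finset_prod _ fun s _ => ?_
  unfold tau stp
  refine Real.smoothTransition.continuous.comp_continuousOn ?_
  refine ContinuousOn.div (by fun_prop) (by fun_prop) ?_
  rintro ⟨η, x⟩ ⟨hη, -⟩
  have h1 : 0 < η := lt_of_lt_of_le ha hη.1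
  simp only
  nlinarith [mul_pos h1 h1]

theorem pend_close (a : ℝ) (ha : 0 < a) : ∃ δ > 0, ∀ η η' : ℝ, a ≤ η' → η' ≤ η → η ≤ 3 →
    η - η' ≤ δ → ∀ L L' : ℕ,
    (∀ x : ℂ, ‖x‖ = 1 → ∃ t < L, ‖x / rot^t - 1‖ ≤ η) →
    (∀ x : ℂ, ‖x‖ = 1 → ∃ t < L', ‖x / rot^t - 1‖ ≤ η') →
    ∀ x : ℂ, ‖x‖ = 1 → |pend η L x - pend η' L' x| ≤ 1/256 := by
  obtain ⟨L0, hL0⟩ := rot_window a ha
  have hK : IsCompact (Set.Icc a 3 ×ˢ Metric.sphere (0:ℂ) 1) :=
    isCompact_Icc.prod (isCompact_sphere _ _)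
  have hu := hK.uniformContinuousOn_of_continuous (pend_continuousOn a ha L0)
  rw [Metric.uniformContinuousOn_iff] at hu
  obtain ⟨δ, hδ, hu⟩ := hu (1/256) (by norm_num)
  refine ⟨δ/2, by positivity, fun η η' h1 h2 h3 h4 L L' hL hL' x hx => ?_⟩
  have hη' : 0 < η' := lt_of_lt_of_le ha h1
  have hη : 0 < η := lt_of_lt_of_le hη' h2
  have e1 : pend η L x = pend η L0 x := pend_congr hη hL (fun y hy => by
    obtain ⟨t, ht, h⟩ := hL0 y hy
    exact ⟨t, ht, h.trans (h1.trans h2)⟩) x hx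
  have e2 : pend η' L' x = pend η' L0 x := pend_congr hη' hL' (fun y hy => by
    obtain ⟨t, ht, h⟩ := hL0 y hy
    exact ⟨t, ht, h.trans h1⟩) x hx
  rw [e1, e2]
  have hm : x ∈ Metric.sphere (0:ℂ) 1 := mem_sphere_zero_iff_norm.2 hx
  have := hu (η, x) ⟨⟨h1.trans h2, h3⟩, hm⟩ (η', x) ⟨⟨h1, h2.trans h3⟩, hm⟩ (by
    rw [Prod.dist_eq, dist_self, Real.dist_eq, abs_of_nonneg (by linarith)]
    exact max_lt (by linarith) hδ)
  rw [Real.dist_eq] at this
  exact this.le

end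

end SEC
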