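import Crest.Agent.SEC_B
import Crest.Agent.SEC_PClose
import Crest.Agent.SEC_EtaSeq

/-!
SEC-Eras (assembly).
-/

set_option autoImplicit false
open scoped ContDiff Manifold Topology
open Filter

namespace SEC

noncomputable section

theorem exists_eras : ∃ (E : ℕ → Era) (bb : ℂ → ℝ) (ε : ℕ → ℝ),
    EraSys E ∧ EraSmooth E bb ε := by
  obtain ⟨η, h0, hpos, hanti, hratio, hlim, hQ⟩ := exists_eta_seq
    (fun η η' => ∀ L L' : ℕ,
      (∀ x : ℂ, ‖x‖ = 1 → ∃ t < L, ‖x / rot^t - 1‖ ≤ η) →
      (∀ x : ℂ, ‖x‖ = 1 → ∃ t < L', ‖x / rot^t - 1‖ ≤ η') →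
      ∀ x : ℂ, ‖x‖ = 1 → |pend η L x - pend η' L' x| ≤ 1/256) pend_close
  have hwin : ∀ i, ∃ L : ℕ, ∀ x : ℂ, ‖x‖ = 1 → ∃ t < L, ‖x / rot^t - 1‖ ≤ η i :=
    fun i => rot_window (η i) (hpos i)
  choose L hL using hwin
  obtain ⟨b, bb, ε, b0, bpos, b1, banti, bprod, bsm, bbc, hε, bclose, bsmall⟩ :=
    exists_b η hpos hanti h0 hlim
  refine ⟨fun i => ⟨η i, L i, b i⟩, bb, ε, ?_, ?_⟩
  · exact
      { eta_pos := hpos
        eta_anti := hanti
        eta_ratio := hratio
        eta_zero := h0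
        P_rec := fun i x hx => pend_rec (hpos i) (hL i) x hx
        P_close := fun i x hx => hQ i (L i) (L (i+1)) (hL i) (hL (i+1)) x hx
        full := fun i => ⟨L i, hL i⟩
        b_zero := b0
        b_pos := fun i x _ => bpos i x
        b_le_one := b1
        b_nonneg := fun i x => (bpos i x).le
        b_anti := banti
        b_prod := bprod }
  · exact
      { eta_pos := hpos
        b_smooth := bsm
        b_nonneg := fun i x => (bpos i x).le
        b_le_one := b1
        bb_cont := bbc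
        eps_tendsto := hε
        b_close := bclose
        b_small := bsmall }

end

end SEC
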