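import Crest.Agent.SEC_Basic

/-!
SEC-FProps: properties of `Era.F`.
1. `F_snd_zero`: `kq = 0`, `wnd (0-m) = 0` for `m ≥ 1`, only `ins 0`.
2. `F_zero`: `swp 0 = 0`, `pw n 0 0 = 0`.
3. `F_bound`: `norm_pw_le`; at most two `m` (of different parity) and two `k` are active, so `nrm (app ..) ≤ 3 nrm u` (each slot `≤ 2 nrm u`);
`2^(kq-kp) ≤ 1` since `0 ≤ kq ≤ kp`.
4. `F_zero_era`: on the unit circle `‖x-1‖ ≤ 2`, so `tau 3 = 0`, `chi 3 = 1`, `P x = 0` (each product contains `s = 0`), `kp = 1`, `kq = 0`,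
only `m = 0, k = 1` is active in `app`.
-/

set_option autoImplicit false
open scoped ContDiff Manifold Topology
open Filter

namespace SEC

noncomputable section

theorem fprops_sum_wnd_le (y : ℝ) (K : ℕ) : ∑ m ∈ Finset.range K, wnd (y - m) ≤ 2 := by
  classical
  have h1 : ∑ m ∈ Finset.range K, wnd (y - m) =
      ∑ m ∈ (Finset.range K).filter (fun m : ℕ => |y - m| < 5/8), wnd (y - m) := by
    rw [Finset.sum_filter]
    refine Finset.sum_congr rfl fun m _ => ?_
    split_ifs with h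
    · rfl
    · exact wnd_eq_zero (not_lt.1 h)
  have h2 : (Finset.range K).filter (fun m : ℕ => |y - m| < 5/8) ⊆
      {⌊y⌋.toNat, (⌊y⌋ + 1).toNat} := by
    intro m hm
    rw [Finset.mem_filter] at hm
    have h3 := abs_lt.1 hm.2
    have h4 : (⌊y⌋ : ℝ) ≤ y := Int.floor_le y
    have h5 : y < ⌊y⌋ + 1 := Int.lt_floor_add_one y
    have h6 : (⌊y⌋ : ℝ) - 1 < (m : ℤ) := by push_cast; linarith
    have h7 : ((m : ℤ) : ℝ) < ⌊y⌋ + 2 := by push_cast; linarith
    have h8 : ⌊y⌋ - 1 < (m : ℤ) := by exact_mod_cast h6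
    have h9 : (m : ℤ) < ⌊y⌋ + 2 := by exact_mod_cast h7
    simp only [Finset.mem_insert, Finset.mem_singleton]
    omega
  rw [h1]
  calc ∑ m ∈ (Finset.range K).filter (fun m : ℕ => |y - m| < 5/8), wnd (y - m)
      ≤ ∑ m ∈ (Finset.range K).filter (fun m : ℕ => |y - m| < 5/8), (1:ℝ) :=
        Finset.sum_le_sum fun _ _ => wnd_le_one _
    _ = ((Finset.range K).filter (fun m : ℕ => |y - m| < 5/8)).card := by simp
    _ ≤ 2 := by exact_mod_cast (Finset.card_le_card h2).trans Finset.card_le_two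

theorem fprops_nrm_app_le (K : ℕ) (kp kq : ℝ) (u : V) : nrm (app K kp kq u) ≤ 4 * nrm u := by
  unfold app
  have hu := nrm_nonneg u
  calc _ ≤ ∑ m ∈ Finset.range K, ∑ k ∈ Finset.Ico m K, wnd (kq - m) * wnd (kp - k) * nrm u := by
        refine (nrm_sum_le _ _).trans (Finset.sum_le_sum fun m _ => ?_)
        refine (nrm_sum_le _ _).trans (Finset.sum_le_sum fun k _ => ?_)
        rw [nrm_smul, nrm_ins, abs_of_nonneg (mul_nonneg (wnd_nonneg _) (wnd_nonneg _))]
        exact mul_le_mul_of_nonneg_left (norm_pw_le _ _ _)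
          (mul_nonneg (wnd_nonneg _) (wnd_nonneg _))
    _ ≤ ∑ m ∈ Finset.range K, ∑ k ∈ Finset.range K, wnd (kq - m) * wnd (kp - k) * nrm u := by
        refine Finset.sum_le_sum fun m _ => ?_
        refine Finset.sum_le_sum_of_subset_of_nonneg ?_ fun k _ _ =>
          mul_nonneg (mul_nonneg (wnd_nonneg _) (wnd_nonneg _)) hu
        intro k hk
        rw [Finset.mem_Ico] at hk
        exact Finset.mem_range.2 hk.2
    _ = (∑ m ∈ Finset.range K, wnd (kq - m)) * (∑ k ∈ Finset.range K, wnd (kp - k)) * nrm u := by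
        rw [Finset.sum_mul_sum, Finset.sum_mul]
        refine Finset.sum_congr rfl fun m _ => ?_
        rw [Finset.sum_mul]
    _ ≤ 2 * 2 * nrm u := by
        gcongr
        · exact Finset.sum_nonneg fun _ _ => wnd_nonneg _
        · exact fprops_sum_wnd_le _ _
        · exact fprops_sum_wnd_le _ _
    _ = 4 * nrm u := by ring

theorem fprops_app_snd_zero (K : ℕ) (kp : ℝ) (u : V) : (app K kp 0 u).2 = 0 := by
  unfold app
  rw [Prod.snd_sum]
  refine Finset.sum_eq_zero fun m _ => ?_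
  rw [Prod.snd_sum]
  refine Finset.sum_eq_zero fun k _ => ?_
  rcases Nat.eq_zero_or_pos m with rfl | hm
  · simp [ins]
  · have h1 : (1:ℝ) ≤ m := by exact_mod_cast hm
    have : wnd (0 - (m:ℝ)) = 0 := wnd_eq_zero (by
      rw [abs_sub_comm, sub_zero, abs_of_nonneg (by linarith)]; linarith)
    rw [this]; simp

theorem Era.F_snd_zero (E : Era) {x : ℂ} {v : V} (h : tau E.η (rot * x) = 0)
    (h' : chi E.η (rot * x) = 1) : (E.F x v).2 = 0 := by
  unfold Era.F
  rw [h, h', zero_mul, sub_self, zero_smul, zero_add, Prod.smul_snd, Prod.smul_snd,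
    fprops_app_snd_zero, smul_zero, smul_zero]

theorem fprops_app_zero (K : ℕ) (kp kq : ℝ) : app K kp kq 0 = 0 := by
  unfold app
  refine Finset.sum_eq_zero fun m _ => Finset.sum_eq_zero fun k _ => ?_
  rw [slot_zero, pw_zero_left, ins_zero, smul_zero]

theorem Era.F_zero (E : Era) (x : ℂ) : E.F x 0 = 0 := by
  unfold Era.F
  rw [swp_zero, fprops_app_zero, smul_zero, smul_zero, add_zero, smul_zero]

theorem Era.F_bound (E : Era) (x : ℂ) (v : V) (hb : 0 ≤ E.b (rot * x)) (hb1 : E.b (rot * x) ≤ 1) :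
    nrm (E.F x v) ≤ 400 * nrm v := by
  unfold Era.F
  have hv := nrm_nonneg v
  have hc0 := chi_nonneg E.η (rot * x)
  have hc1 := chi_le_one E.η (rot * x)
  have ht0 := tau_nonneg E.η (rot * x)
  have ht1 := tau_le_one E.η (rot * x)
  have hP := E.P_nonneg x
  set c := chi E.η (rot * x) with hc
  set t := tau E.η (rot * x) with ht
  set P := E.P x with hPdef
  have hpow : (2:ℝ)^(t * (1 + P) - (1 + P)) ≤ 1 := by
    apply Real.rpow_le_one_of_one_le_of_nonpos (by norm_num)
    nlinarith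
  have hpow0 : 0 ≤ (2:ℝ)^(t * (1 + P) - (1 + P)) := by positivity
  rw [nrm_smul, abs_of_nonneg (by positivity)]
  have h1 : nrm ((1 - c) • swp v + (c * (2:ℝ)^(t * (1 + P) - (1 + P))) •
      app (E.L + 3) (1 + P) (t * (1 + P)) (swp v)) ≤ 4 * nrm v := by
    refine (nrm_add_le _ _).trans ?_
    rw [nrm_smul, nrm_smul, nrm_swp, abs_of_nonneg (by linarith), abs_of_nonneg (by positivity)]
    have h2 := fprops_nrm_app_le (E.L + 3) (1 + P) (t * (1 + P)) (swp v)
    rw [nrm_swp] at h2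
    have h3 := nrm_nonneg (app (E.L + 3) (1 + P) (t * (1 + P)) (swp v))
    have h4 : c * (2:ℝ)^(t * (1 + P) - (1 + P)) ≤ c * 1 := mul_le_mul_of_nonneg_left hpow hc0
    have h5 : c * (2:ℝ)^(t * (1 + P) - (1 + P)) * nrm (app (E.L + 3) (1 + P) (t * (1 + P)) (swp v))
        ≤ c * (4 * nrm v) := by
      calc _ ≤ (c * 1) * nrm (app (E.L + 3) (1 + P) (t * (1 + P)) (swp v)) :=
            mul_le_mul_of_nonneg_right h4 h3
        _ ≤ c * (4 * nrm v) := by rw [mul_one]; exact mul_le_mul_of_nonneg_left h2 hc0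
    nlinarith
  have h6 := nrm_nonneg ((1 - c) • swp v + (c * (2:ℝ)^(t * (1 + P) - (1 + P))) •
      app (E.L + 3) (1 + P) (t * (1 + P)) (swp v))
  calc _ ≤ 100 * 1 * (4 * nrm v) := by gcongr
    _ = 400 * nrm v := by ring

theorem fprops_app_one_zero (K : ℕ) (u : V) :
    app (K + 3) 1 0 u = ins 0 (pw 2 (slot 1 u) u) := by
  unfold app
  rw [Finset.sum_eq_single 0]
  · rw [Finset.sum_eq_single 1]
    · have h0 : wnd (0 - ((0:ℕ):ℝ)) = 1 := wnd_eq_one (by norm_num)
      have h1 : wnd (1 - ((1:ℕ):ℝ)) = 1 := wnd_eq_one (by norm_num)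
      rw [h0, h1, mul_one, one_smul]
      norm_num
    · intro k _ hk
      have : wnd (1 - (k:ℝ)) = 0 := by
        apply wnd_eq_zero
        rcases Nat.eq_zero_or_pos k with rfl | hk0
        · norm_num
        · have h2 : (2:ℝ) ≤ k := by
            have : 2 ≤ k := by omega
            exact_mod_cast this
          rw [abs_sub_comm, abs_of_nonneg (by linarith)]; linarith
      rw [this, mul_zero, zero_smul]
    · intro h
      exact absurd (Finset.mem_Ico.2 ⟨Nat.zero_le 1, by omega⟩) h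
  · intro m _ hm
    have h1 : (1:ℝ) ≤ m := by
      have : 1 ≤ m := Nat.one_le_iff_ne_zero.2 hm
      exact_mod_cast this
    have : wnd (0 - (m:ℝ)) = 0 := wnd_eq_zero (by
      rw [abs_sub_comm, sub_zero, abs_of_nonneg (by linarith)]; linarith)
    refine Finset.sum_eq_zero fun k _ => ?_
    rw [this, zero_mul, zero_smul]
  · intro h
    exact absurd (Finset.mem_range.2 (by omega)) h

theorem Era.F_zero_era (E : Era) (hη : E.η = 3) (hb : ∀ x, E.b x = 1) (x : ℂ) (hx : ‖x‖ = 1)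
    (v : V) :
    E.F x v = (((50 * (nrm v * rho (‖v.1‖^2 / nrm v^2)) : ℝ) : ℂ) *
      (v.1 / ((‖v.1‖ : ℝ) : ℂ))^2, 0) := by
  have hn : ∀ y : ℂ, ‖y‖ = 1 → ‖y - 1‖ ≤ 2 := by
    intro y hy
    calc ‖y - 1‖ ≤ ‖y‖ + ‖(1:ℂ)‖ := norm_sub_le _ _
      _ = 2 := by rw [hy, norm_one]; norm_num
  have h1 := hn _ (rot_mul_norm hx)
  have h2 := hn _ hx
  have ht : tau E.η (rot * x) = 0 := by
    rw [hη]; exact tau_eq_zero (by norm_num) (by linarith)
  have hc : chi E.η (rot * x) = 1 := by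
    rw [hη]; exact chi_eq_one (by norm_num) (by linarith)
  have hP : E.P x = 0 := by
    unfold Era.P pend
    refine Finset.sum_eq_zero fun t _ => ?_
    refine Finset.prod_eq_zero (i := 0) (Finset.mem_range.2 (by omega)) ?_
    rw [pow_zero, div_one, hη]
    exact tau_eq_zero (by norm_num) (by linarith)
  unfold Era.F
  rw [ht, hc, hP, hb, sub_self, zero_smul, zero_add, zero_mul, add_zero, zero_sub,
    fprops_app_one_zero, Real.rpow_neg_one]
  have hs : slot 1 (swp v) = v.1 := by simp [slot, swp]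
  rw [hs]
  unfold pw ins
  rw [nrm_swp, if_pos (by decide), smul_smul, Prod.smul_mk, smul_zero]
  congr 1
  rw [Complex.real_smul]
  push_cast
  ring

end

end SEC
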