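import Crest.Agent.SEC_Defs

/-!
# SEC: global and homological definitions for S0163
-/

set_option autoImplicit false
open scoped ContDiff Manifold

namespace SEC

noncomputable section

/-- the properties of the local map. -/
structure LocalMap (F : ℂ → V → V) : Prop where
  smooth : ContDiff ℝ 1 (fun p : ℂ × V => F p.1 p.2)
  zero : ∀ x, F x 0 = 0
  bound : ∀ x v, nrm (F x v) ≤ 400 * nrm v
  outer_snd : ∀ x v, ‖x‖ = 1 → 1/3200 ≤ nrm v → (F x v).2 = 0
  outer_fst : ∀ x v, ‖x‖ = 1 → 1/3200 ≤ nrm v → nrm v ≤ 3 * ‖v.1‖ →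
    (F x v).1 = ((50 * nrm v : ℝ) : ℂ) * (v.1 / ((‖v.1‖ : ℝ) : ℂ))^2
  complete : ∀ (x : ℤ → ℂ) (v : ℤ → V), (∀ j, ‖x j‖ = 1) → (∀ j, x (j+1) = rot * x j) →
    (∀ j, v (j+1) = F (x j) (v j)) → (∃ R : ℝ, ∀ j, nrm (v j) ≤ R) → ∀ j, v j = 0

abbrev E3 := EuclideanSpace ℝ (Fin 3)

/-- the two-sphere. -/
abbrev S2 := Metric.sphere (0 : E3) 1

instance : Fact (Module.finrank ℝ E3 = 2 + 1) := ⟨by simp⟩

abbrev MM := Circle × (S2 × S2)

/-- height of a point. -/
def ht (p : S2) : ℝ := p.1 2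

/-- horizontal part of a point. -/
def hz (p : S2) : ℂ := ⟨p.1 0, p.1 1⟩

def northv : E3 := !₂[(0:ℝ), 0, 1]

def southv : E3 := !₂[(0:ℝ), 0, -1]

lemma northv_mem : northv ∈ Metric.sphere (0 : E3) 1 := by
  simp [northv, EuclideanSpace.norm_eq, Fin.sum_univ_three]

lemma southv_mem : southv ∈ Metric.sphere (0 : E3) 1 := by
  simp [southv, EuclideanSpace.norm_eq, Fin.sum_univ_three]

def north : S2 := ⟨northv, northv_mem⟩

def south : S2 := ⟨southv, southv_mem⟩

/-- normalization to the sphere. -/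
def nz (w : E3) : S2 :=
  if h : w = 0 then north else ⟨‖w‖⁻¹ • w, by
    simp [norm_smul, inv_mul_cancel₀ (norm_ne_zero_iff.mpr h)]⟩

/-- inverse stereographic projection, as a vector. -/
def stv (Z : ℂ) : E3 := !₂[2 * Z.re / (‖Z‖^2 + 1), 2 * Z.im / (‖Z‖^2 + 1),
  (‖Z‖^2 - 1) / (‖Z‖^2 + 1)]

/-- first (local) coordinate. -/
def vc0 (p : S2) : ℂ := (((1 - stp (3/5) (4/5) (ht p)) / (1 - ht p) : ℝ) : ℂ) * hz p

/-- second (local) coordinate. -/
def vc1 (q : S2) : ℂ := (((1 - stp (-63/65) (-15/17) (ht q)) / (1 - ht q) : ℝ) : ℂ) * hz q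

/-- cut-off in the first sphere. -/
def th (p : S2) : ℝ := stp 0 (3/5) (ht p)

def rotC : Circle := Circle.exp 1

/-- the global map attached to a local map `F`. -/
def fM (F : ℂ → V → V) (m : MM) : MM :=
  (rotC * m.1,
    (nz ((1 - th m.2.1) • stv (F (m.1 : ℂ) (vc0 m.2.1, vc1 m.2.2)).1 + th m.2.1 • northv),
     nz (stv (((1 - th m.2.1 : ℝ) : ℂ) * (F (m.1 : ℂ) (vc0 m.2.1, vc1 m.2.2)).2))))

/-- the squaring map of the suspension: same height, double angle. -/
def g0 (p : S2) : S2 :=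
  nz (!₂[((hz p)^2 / ((‖hz p‖ : ℝ) : ℂ)).re, ((hz p)^2 / ((‖hz p‖ : ℝ) : ℂ)).im, ht p])

/-- inclusion of the first sphere. -/
def iotaM (p : S2) : MM := (1, (p, south))

/-! ### singular chains -/

/-- singular `n`-simplices. -/
abbrev Spx (n : ℕ) (X : Type) [TopologicalSpace X] := C(stdSimplex ℝ (Fin (n+1)), X)

/-- face inclusions. -/
def fc {n : ℕ} (i : Fin (n+2)) : C(stdSimplex ℝ (Fin (n+1)), stdSimplex ℝ (Fin (n+2))) :=
  ⟨stdSimplex.map i.succAbove, stdSimplex.continuous_map _⟩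

/-- real singular chains. -/
abbrev Ch (n : ℕ) (X : Type) [TopologicalSpace X] := Spx n X →₀ ℝ

/-- boundary. -/
def bd (n : ℕ) (X : Type) [TopologicalSpace X] : Ch (n+1) X →ₗ[ℝ] Ch n X :=
  Finsupp.linearCombination ℝ (fun σ : Spx (n+1) X =>
    ∑ i : Fin (n+2), ((-1:ℝ)^(i:ℕ)) • Finsupp.single (σ.comp (fc i)) (1:ℝ))

/-- push forward of chains. -/
def push (n : ℕ) {X Y : Type} [TopologicalSpace X] [TopologicalSpace Y] (f : C(X, Y)) :
    Ch n X →ₗ[ℝ] Ch n Y :=
  Finsupp.lmapDomain ℝ ℝ (fun σ : Spx n X => f.comp σ)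

/-- second singular homology with real coefficients. -/
abbrev HH2 (X : TopCat.{0}) : ModuleCat.{0} ℝ :=
  ((AlgebraicTopology.singularHomologyFunctor (ModuleCat.{0} ℝ) 2).obj
    (ModuleCat.of ℝ ℝ)).obj X

/-- induced map. -/
abbrev HH2map {X Y : TopCat.{0}} (f : X ⟶ Y) : HH2 X ⟶ HH2 Y :=
  ((AlgebraicTopology.singularHomologyFunctor (ModuleCat.{0} ℝ) 2).obj
    (ModuleCat.of ℝ ℝ)).map f

/-- affine triangle in the plane. -/
def aff3 (P0 P1 P2 : ℝ × ℝ) : Spx 2 (ℝ × ℝ) :=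
  ⟨fun t => t 0 • P0 + t 1 • P1 + t 2 • P2, by
    have h : ∀ i : Fin 3, Continuous fun t : stdSimplex ℝ (Fin 3) => t i := fun i =>
      (continuous_apply i).comp continuous_subtype_val
    exact (((h 0).smul continuous_const).add ((h 1).smul continuous_const)).add
      ((h 2).smul continuous_const)⟩

/-- the wrapping map of the plane to the sphere (vector form). -/
def qtv (p : ℝ × ℝ) : E3 :=
  !₂[Real.sin (Real.pi * p.2) * Real.cos (2 * Real.pi * p.1),
     Real.sin (Real.pi * p.2) * Real.sin (2 * Real.pi * p.1),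
     - Real.cos (Real.pi * p.2)]

lemma qtv_mem (p : ℝ × ℝ) : qtv p ∈ Metric.sphere (0 : E3) 1 := by
  simp only [qtv, mem_sphere_iff_norm, sub_zero, EuclideanSpace.norm_eq, Fin.sum_univ_three]
  rw [Real.sqrt_eq_one]
  simp only [Matrix.cons_val, Real.norm_eq_abs, sq_abs]
  nlinarith [Real.sin_sq_add_cos_sq (Real.pi * p.2), Real.sin_sq_add_cos_sq (2 * Real.pi * p.1)]

/-- the wrapping map of the plane to the sphere. -/
def qt : C(ℝ × ℝ, S2) :=
  ⟨fun p => ⟨qtv p, qtv_mem p⟩, by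
    refine Continuous.subtype_mk ?_ _
    unfold qtv
    fun_prop⟩

/-- square chain `[a,b]×[0,1]`. -/
def sqch (a b : ℝ) : Ch 2 (ℝ × ℝ) :=
  Finsupp.single (aff3 (a,0) (b,0) (b,1)) 1 - Finsupp.single (aff3 (a,0) (a,1) (b,1)) 1

/-- the fundamental cycle of the sphere. -/
def zz : Ch 2 S2 :=
  push 2 qt (sqch 0 1) - Finsupp.single (ContinuousMap.const _ south) 1
    + Finsupp.single (ContinuousMap.const _ north) 1

/-! ### Berry phase cochain -/

/-- entry `(i,j)` of the projector of `p`: `P = s s^*` with `s` a spinor lift. -/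
def prj (p : S2) : Matrix (Fin 2) (Fin 2) ℂ :=
  !![(((1 + ht p)/2 : ℝ) : ℂ), hz p / 2; (starRingEnd ℂ) (hz p) / 2, (((1 - ht p)/2 : ℝ) : ℂ)]

/-- four-point Bargmann invariant. -/
def Bq (x0 x1 x2 x3 : S2) : ℂ := (prj x0 * prj x1 * prj x2 * prj x3).trace

/-- grid points of the unit interval. -/
def gr (N i : ℕ) : unitInterval := Set.projIcc (0:ℝ) 1 zero_le_one ((i:ℝ) / N)

/-- parametrisation of the 2-simplex by the square. -/
def pt2 (s t : unitInterval) : stdSimplex ℝ (Fin 3) :=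
  ⟨![1 - (s:ℝ), s * (1 - t), s * t], by
    have hs := s.2.1; have hs' := s.2.2; have ht := t.2.1; have ht' := t.2.2
    refine ⟨fun i => ?_, ?_⟩
    · fin_cases i
      · simpa using hs'
      · simpa using mul_nonneg hs (sub_nonneg.mpr ht')
      · simpa using mul_nonneg hs ht
    · simp [Fin.sum_univ_three]; ring⟩

/-- parametrisation of the 3-simplex by the cube. -/
def pt3 (s t u : unitInterval) : stdSimplex ℝ (Fin 4) :=
  ⟨![1 - (s:ℝ), s * (1 - t), s * t * (1 - u), s * t * u], by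
    have hs := s.2.1; have hs' := s.2.2; have ht := t.2.1; have ht' := t.2.2
    have hu := u.2.1; have hu' := u.2.2
    refine ⟨fun i => ?_, ?_⟩
    · fin_cases i
      · simpa using hs'
      · simpa using mul_nonneg hs (sub_nonneg.mpr ht')
      · simpa using mul_nonneg (mul_nonneg hs ht) (sub_nonneg.mpr hu')
      · simpa using mul_nonneg (mul_nonneg hs ht) hu
    · simp [Fin.sum_univ_four]; ring⟩

/-- discrete Berry flux of a singular 2-simplex of the sphere, on the `N × N` grid. -/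
def Om (N : ℕ) (σ : Spx 2 S2) : ℝ :=
  ∑ i ∈ Finset.range N, ∑ j ∈ Finset.range N,
    Complex.arg (Bq (σ (pt2 (gr N i) (gr N j))) (σ (pt2 (gr N (i+1)) (gr N j)))
      (σ (pt2 (gr N (i+1)) (gr N (j+1)))) (σ (pt2 (gr N i) (gr N (j+1)))))

end

end SEC
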