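import Crest.Agent.SEC_GDefs
import Crest.Agent.SEC_Basic

/-!
SEC-GSmooth. `‖hz p‖² = (1+ht p)(1-ht p)`.
1. `norm_vc1_le`: zero for `ht q ≥ -15/17`, otherwise `‖vc1‖ ≤ sqrt((1+ht)/(1-ht)) ≤ 1/4`.
2. `fM_vec_ne_zero`: if `(1-θ) stv Z + θ north = 0` (`‖stv Z‖ = 1`) then `θ = 1/2` and `stv Z = south`, so `Z = 0`, and `0 < ht p < 3/5`. Then `vc0 p = hz p/(1 - ht p)`
has norm `> 1`, so `nrm (vc0,vc1) ≥ 1`, `nrm ≤ 3 ‖vc0‖`, and `outer_fst` gives `‖Z‖ = 50 nrm ≠ 0`.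
3. smoothness: `ContMDiff.prodMk`, group operation on `Circle`, `ContMDiff.codRestrict_sphere` for the two sphere components (`coe (nz w) = ‖w‖⁻¹ • w` for `w ≠ 0`),
`contMDiff_coe_sphere`, `contDiff_stp`; `vc0` is smooth since it is `0` for `ht p > 4/5` (near the north pole), `F` is C¹ (LocalMap.smooth), the coercion `Circle → ℂ` is smooth
(see Mathlib.Geometry.Manifold.Instances.Sphere).
-/

set_option autoImplicit false
open scoped ContDiff Manifold Topology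
open Filter

namespace SEC

noncomputable section

abbrev IM := (𝓡 1).prod ((𝓡 2).prod (𝓡 2))

namespace GSm

theorem sum_sq (p : S2) : (p.1 0)^2 + (p.1 1)^2 + (p.1 2)^2 = 1 := by
  have h : ‖p.1‖ = 1 := by simp
  rw [EuclideanSpace.norm_eq, Real.sqrt_eq_one, Fin.sum_univ_three] at h
  simpa using h

theorem norm_hz_sq (p : S2) : ‖hz p‖^2 = (1 + ht p) * (1 - ht p) := by
  have h := sum_sq p
  rw [← Complex.normSq_eq_norm_sq, Complex.normSq_apply]
  unfold hz ht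
  simp only
  nlinarith

theorem ht_bounds (p : S2) : -1 ≤ ht p ∧ ht p ≤ 1 := by
  have h := sum_sq p
  unfold ht
  constructor <;> nlinarith [sq_nonneg (p.1 0), sq_nonneg (p.1 1)]

theorem norm_stv (Z : ℂ) : ‖stv Z‖ = 1 := by
  have hp : (0:ℝ) < ‖Z‖^2 + 1 := by positivity
  have h : ‖Z‖^2 = Z.re^2 + Z.im^2 := by
    rw [← Complex.normSq_eq_norm_sq, Complex.normSq_apply]; ring
  rw [EuclideanSpace.norm_eq, Real.sqrt_eq_one, Fin.sum_univ_three]
  simp only [stv, Matrix.cons_val, Real.norm_eq_abs, sq_abs]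
  rw [h] at hp ⊢
  field_simp
  ring

theorem norm_northv : ‖northv‖ = 1 := by
  have := northv_mem
  simpa using this

end GSm

open GSm

theorem norm_vc1_le (q : S2) : ‖vc1 q‖ ≤ 1/4 := by
  unfold vc1
  rcases le_or_gt (-15/17) (ht q) with h | h
  · rw [stp_eq_one (by norm_num) h]
    simp
  · have h1 : 0 < 1 - ht q := by linarith
    have h2 := norm_hz_sq q
    obtain ⟨hb1, hb2⟩ := ht_bounds q
    rw [norm_mul, Complex.norm_real, Real.norm_eq_abs, abs_div, abs_of_pos h1]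
    have h3 : |1 - stp (-63/65) (-15/17) (ht q)| ≤ 1 := by
      rw [abs_le]
      constructor
      · linarith [stp_le_one (-63/65) (-15/17) (ht q)]
      · linarith [stp_nonneg (-63/65) (-15/17) (ht q)]
    have h4 : ‖hz q‖ ≤ 1/4 * (1 - ht q) := by
      apply (pow_le_pow_iff_left₀ (norm_nonneg _) (by positivity) two_ne_zero).1
      rw [h2]
      nlinarith
    calc |1 - stp (-63/65) (-15/17) (ht q)| / (1 - ht q) * ‖hz q‖
        ≤ 1 / (1 - ht q) * (1/4 * (1 - ht q)) := by gcongr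
      _ = 1/4 := by field_simp

/-- the vector normalized in `fM` does not vanish. -/
theorem fM_vec_ne_zero (F : ℂ → V → V) (hF : LocalMap F) (m : MM) :
    (1 - th m.2.1) • stv (F (m.1 : ℂ) (vc0 m.2.1, vc1 m.2.2)).1 + th m.2.1 • northv ≠ 0 := by
  intro h0
  set Z := (F (m.1 : ℂ) (vc0 m.2.1, vc1 m.2.2)).1 with hZ
  set θ := th m.2.1 with hθ
  have hθ0 : 0 ≤ θ := stp_nonneg _ _ _
  have hθ1 : θ ≤ 1 := stp_le_one _ _ _
  have h1 : (1 - θ) • stv Z = - (θ • northv) := eq_neg_of_add_eq_zero_left h0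
  have h2 : ‖(1 - θ) • stv Z‖ = ‖- (θ • northv)‖ := by rw [h1]
  rw [norm_neg, norm_smul, norm_smul, norm_stv, norm_northv, mul_one, mul_one, Real.norm_eq_abs,
    Real.norm_eq_abs, abs_of_nonneg hθ0, abs_of_nonneg (by linarith)] at h2
  have h3 : θ = 1/2 := by linarith
  have h4 : (((1 - θ) • stv Z) : E3) 2 = (- (θ • northv) : E3) 2 := by rw [h1]
  have h5 : ‖Z‖^2 = 0 := by
    have hp : (0:ℝ) < ‖Z‖^2 + 1 := by positivity
    rw [h3] at h4
    simp only [stv, northv, PiLp.smul_apply, PiLp.neg_apply, Matrix.cons_val, smul_eq_mul] at h4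
    field_simp at h4
    nlinarith
  have h6 : Z = 0 := by
    rw [← norm_eq_zero]
    exact pow_eq_zero_iff (two_ne_zero) |>.1 h5
  -- bounds on the height
  have h7 : 0 < ht m.2.1 := by
    by_contra hc
    push Not at hc
    have : θ = 0 := stp_eq_zero (by norm_num) hc
    linarith
  have h8 : ht m.2.1 < 3/5 := by
    by_contra hc
    push Not at hc
    have : θ = 1 := stp_eq_one (by norm_num) hc
    linarith
  have h9 : vc0 m.2.1 = ((1 / (1 - ht m.2.1) : ℝ) : ℂ) * hz m.2.1 := by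
    unfold vc0
    rw [stp_eq_zero (by norm_num) h8.le, sub_zero]
  have h10 : 1 ≤ ‖vc0 m.2.1‖ := by
    have hq : 0 < 1 - ht m.2.1 := by linarith
    rw [h9, norm_mul, Complex.norm_real, Real.norm_eq_abs, abs_of_pos (by positivity)]
    have : 1 - ht m.2.1 ≤ ‖hz m.2.1‖ := by
      apply (pow_le_pow_iff_left₀ hq.le (norm_nonneg _) two_ne_zero).1
      rw [norm_hz_sq]
      nlinarith
    rw [one_div, inv_mul_eq_div, le_div_iff₀ hq]
    linarith
  have h11 := norm_vc1_le m.2.2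
  have h12 : ‖vc0 m.2.1‖ ≤ nrm (vc0 m.2.1, vc1 m.2.2) := norm_fst_le_nrm (vc0 m.2.1, vc1 m.2.2)
  have h13 : nrm (vc0 m.2.1, vc1 m.2.2) ≤ ‖vc0 m.2.1‖ + ‖vc1 m.2.2‖ :=
    nrm_le_add (vc0 m.2.1, vc1 m.2.2)
  have h14 := hF.outer_fst (m.1 : ℂ) (vc0 m.2.1, vc1 m.2.2) (Circle.norm_coe _)
    (by linarith) (by show nrm (vc0 m.2.1, vc1 m.2.2) ≤ 3 * ‖vc0 m.2.1‖; linarith)
  rw [← hZ, h6] at h14
  have h15 : vc0 m.2.1 ≠ 0 := by
    intro h; rw [h, norm_zero] at h10; linarith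
  have h16 : ((50 * nrm (vc0 m.2.1, vc1 m.2.2) : ℝ) : ℂ) ≠ 0 := by
    have : 50 * nrm (vc0 m.2.1, vc1 m.2.2) ≠ 0 := by
      have : 0 < nrm (vc0 m.2.1, vc1 m.2.2) := by linarith
      positivity
    exact_mod_cast this
  have h17 : (((‖vc0 m.2.1‖ : ℝ) : ℂ)) ≠ 0 := by
    exact_mod_cast (norm_ne_zero_iff.2 h15)
  exact (mul_ne_zero h16 (pow_ne_zero 2 (div_ne_zero h15 h17))) h14.symm

namespace GSm

theorem contDiff_phi (lo hi : ℝ) (h : lo < hi) (h1 : hi < 1) :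
    ContDiff ℝ 1 (fun s : ℝ => (1 - stp lo hi s) / (1 - s)) := by
  rw [contDiff_iff_contDiffAt]
  intro s
  rcases lt_or_ge s 1 with hs | hs
  · apply ContDiffAt.div
    · exact contDiffAt_const.sub (contDiff_stp lo hi (n := 1)).contDiffAt
    · exact contDiffAt_const.sub contDiffAt_id
    · linarith
  · have : (fun s : ℝ => (1 - stp lo hi s) / (1 - s)) =ᶠ[𝓝 s] fun _ => 0 := by
      filter_upwards [Ioi_mem_nhds (show hi < s by linarith)] with y hy
      rw [stp_eq_one h (le_of_lt hy)]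
      simp
    exact contDiffAt_const.congr_of_eventuallyEq this

theorem contMDiff_ht : ContMDiff (𝓡 2) 𝓘(ℝ, ℝ) 1 ht := by
  have h1 : ContDiff ℝ 1 (fun w : E3 => w 2) := by fun_prop
  exact h1.contMDiff.comp (contMDiff_coe_sphere (n := 2) (E := E3))

theorem contMDiff_hz : ContMDiff (𝓡 2) 𝓘(ℝ, ℂ) 1 hz := by
  have h1 : ContDiff ℝ 1 (fun w : E3 => ((w 0 : ℝ) : ℂ) + ((w 1 : ℝ) : ℂ) * Complex.I) := by
    apply ContDiff.add
    · exact Complex.ofRealCLM.contDiff.comp (by fun_prop)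
    · exact (Complex.ofRealCLM.contDiff.comp (by fun_prop)).mul contDiff_const
  have h2 := h1.contMDiff.comp (contMDiff_coe_sphere (n := 2) (E := E3))
  refine h2.congr ?_
  intro p
  unfold hz
  apply Complex.ext <;> simp

theorem contMDiff_vc (lo hi : ℝ) (h : lo < hi) (h1 : hi < 1) :
    ContMDiff (𝓡 2) 𝓘(ℝ, ℂ) 1
      (fun p : S2 => (((1 - stp lo hi (ht p)) / (1 - ht p) : ℝ) : ℂ) * hz p) := by
  have h2 : ContMDiff (𝓡 2) 𝓘(ℝ, ℂ) 1
      (fun p : S2 => (((1 - stp lo hi (ht p)) / (1 - ht p) : ℝ) : ℂ)) :=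
    (Complex.ofRealCLM.contDiff.comp (contDiff_phi lo hi h h1)).contMDiff.comp contMDiff_ht
  have h3 : ContDiff ℝ 1 (fun z : ℂ × ℂ => z.1 * z.2) := contDiff_fst.mul contDiff_snd
  exact h3.contMDiff.comp (h2.prodMk_space contMDiff_hz)

theorem contDiff_stv : ContDiff ℝ 1 stv := by
  rw [contDiff_euclidean]
  have h0 : ContDiff ℝ 1 (fun Z : ℂ => ‖Z‖^2) := contDiff_norm_sq ℝ
  have hre : ContDiff ℝ 1 (fun Z : ℂ => Z.re) := Complex.reCLM.contDiff
  have him : ContDiff ℝ 1 (fun Z : ℂ => Z.im) := Complex.imCLM.contDiff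
  have hne : ∀ Z : ℂ, ‖Z‖^2 + 1 ≠ 0 := fun Z => by positivity
  intro i
  fin_cases i
  · exact (contDiff_const.mul hre).div (h0.add contDiff_const) hne
  · exact (contDiff_const.mul him).div (h0.add contDiff_const) hne
  · exact (h0.sub contDiff_const).div (h0.add contDiff_const) hne

theorem nz_contMDiff {w : MM → E3} (hw : ContMDiff IM 𝓘(ℝ, E3) 1 w) (h0 : ∀ m, w m ≠ 0) :
    ContMDiff IM (𝓡 2) 1 (fun m => nz (w m)) := by
  have h1 : ∀ m, ‖w m‖⁻¹ • w m ∈ Metric.sphere (0 : E3) 1 := by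
    intro m
    simp [norm_smul, inv_mul_cancel₀ (norm_ne_zero_iff.mpr (h0 m))]
  have h2 : ContMDiff IM 𝓘(ℝ, E3) 1 (fun m => ‖w m‖⁻¹ • w m) := by
    intro m
    have h3 : ContDiffAt ℝ 1 (fun v : E3 => ‖v‖⁻¹ • v) (w m) :=
      ((contDiffAt_norm ℝ (h0 m)).inv (norm_ne_zero_iff.mpr (h0 m))).smul contDiffAt_id
    exact h3.contMDiffAt.comp m (hw m)
  have h4 := h2.codRestrict_sphere (n := 2) h1
  refine h4.congr ?_
  intro m
  apply Subtype.ext
  simp [nz, h0 m]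

theorem vec1_contMDiff {t : MM → ℝ} {g : MM → V} (ht : ContMDiff IM 𝓘(ℝ, ℝ) 1 t)
    (hg : ContMDiff IM 𝓘(ℝ, V) 1 g) :
    ContMDiff IM 𝓘(ℝ, E3) 1 (fun m : MM => (1 - t m) • stv (g m).1 + t m • northv) := by
  have h : ContDiff ℝ 1 (fun q : ℝ × V => (1 - q.1) • stv q.2.1 + q.1 • northv) := by
    apply ContDiff.add
    · exact (contDiff_const.sub contDiff_fst).smul
        (contDiff_stv.comp (contDiff_fst.comp contDiff_snd))
    · exact contDiff_fst.smul contDiff_const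
  exact h.contMDiff.comp (ht.prodMk_space hg)

theorem vec2_contMDiff {t : MM → ℝ} {g : MM → V} (ht : ContMDiff IM 𝓘(ℝ, ℝ) 1 t)
    (hg : ContMDiff IM 𝓘(ℝ, V) 1 g) :
    ContMDiff IM 𝓘(ℝ, E3) 1 (fun m : MM => stv (((1 - t m : ℝ) : ℂ) * (g m).2)) := by
  have h1 : ContDiff ℝ 1 (fun q : ℝ × V => ((1 - q.1 : ℝ) : ℂ)) :=
    Complex.ofRealCLM.contDiff.comp (contDiff_const.sub contDiff_fst)
  have h2 : ContDiff ℝ 1 (fun q : ℝ × V => q.2.2) := contDiff_snd.comp contDiff_snd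
  have h3 : ContDiff ℝ 1 (fun q : ℝ × V => ((1 - q.1 : ℝ) : ℂ) * q.2.2) := h1.mul h2
  have h4 := (contDiff_stv.comp h3).contMDiff.comp (ht.prodMk_space hg)
  exact h4

end GSm

theorem fM_contMDiff (F : ℂ → V → V) (hF : LocalMap F) : ContMDiff IM IM 1 (fM F) := by
  have c1 : ContMDiff IM (𝓡 1) 1 (fun m : MM => m.1) := contMDiff_fst
  have c2 : ContMDiff IM (𝓡 2) 1 (fun m : MM => m.2.1) := contMDiff_fst.comp contMDiff_snd
  have c3 : ContMDiff IM (𝓡 2) 1 (fun m : MM => m.2.2) := contMDiff_snd.comp contMDiff_snd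
  have d1 : ContMDiff IM 𝓘(ℝ, ℂ) 1 (fun m : MM => (m.1 : ℂ)) := by
    have h : ContMDiff (𝓡 1) 𝓘(ℝ, ℂ) 1 (fun z : Circle => (z : ℂ)) := by
      have : Fact (Module.finrank ℝ ℂ = 1 + 1) := finrank_real_complex_fact'
      exact contMDiff_coe_sphere (n := 1) (E := ℂ)
    exact h.comp c1
  have d2 : ContMDiff IM 𝓘(ℝ, ℂ) 1 (fun m : MM => vc0 m.2.1) :=
    (contMDiff_vc (3/5) (4/5) (by norm_num) (by norm_num)).comp c2
  have d3 : ContMDiff IM 𝓘(ℝ, ℂ) 1 (fun m : MM => vc1 m.2.2) :=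
    (contMDiff_vc (-63/65) (-15/17) (by norm_num) (by norm_num)).comp c3
  have d4 : ContMDiff IM 𝓘(ℝ, V) 1 (fun m : MM => F (m.1 : ℂ) (vc0 m.2.1, vc1 m.2.2)) :=
    hF.smooth.contMDiff.comp (d1.prodMk_space (d2.prodMk_space d3))
  have d5 : ContMDiff IM 𝓘(ℝ, ℝ) 1 (fun m : MM => th m.2.1) := by
    have : ContMDiff (𝓡 2) 𝓘(ℝ, ℝ) 1 th :=
      (contDiff_stp 0 (3/5) (n := 1)).contMDiff.comp contMDiff_ht
    exact this.comp c2
  have e1 := vec1_contMDiff d5 d4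
  have e2 := vec2_contMDiff d5 d4
  have f1 : ContMDiff IM (𝓡 1) 1 (fun m : MM => rotC * m.1) := contMDiff_mul_left.comp c1
  have f2 := nz_contMDiff e1 (fM_vec_ne_zero F hF)
  have f3 := nz_contMDiff e2 (by
    intro m h
    have h' := norm_stv (((1 - th m.2.1 : ℝ) : ℂ) * (F (m.1 : ℂ) (vc0 m.2.1, vc1 m.2.2)).2)
    rw [h, norm_zero] at h'
    norm_num at h')
  exact f1.prodMk (f2.prodMk f3)

end

end SEC
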