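import Crest.Agent.SEC_Step
import Crest.Agent.SEC_FProps

/-!
SEC-GStep: one step of the glued map with reference era `i`.
1. `glued_cases`: if `ρ 0 ≤ nrm v` then (for `i ≥ 2` or so: `nrm v ≤ ρ (i-1) ≤ ρ 0` ...) `F x v = G 0 x v` or an inner case; find the `j` with
`ρ (j+1) ≤ nrm v ≤ ρ j`, `j ≤ i+1`, `j ≥ i-1` (`ρ` antitone). For `ρ 0 < nrm v` necessarily `i = 0` and `j = 0, s = 0`. (Take care of equalities.)
2. `glued_step`: for `j' ∈ {i-1,…,i+2}`: `|P_j' - P_i| ≤ 3/256 ≤ 1/64` by `P_close`; `κ = P_i x`, `κ' = P_i (rot x) = tau_i (rot x) (1 + P_i x) ≤ κ+1`;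
`tau_j' (rot x)(1+P_j' x) = P_j' (rot x)`. If `chi_j' (rot x) ≠ 1` then `‖rot x - 1‖ > 2 η_j' ≥ 2 (7/8)^2 η_i ≥ 3/2 η_i`, so `tau_i (rot x) = 1` and
`κ' = κ + 1`. So `RegW.step` applies to both eras; combine by `RegW.add/smul/mono` using `b_{j'} ≥ b_{i+2}` (`b_anti`), get
`RegW κ' (2θ) (96 b_{i+2} 2^(κ'-κ-1) nrm v) (F x v)`, then `RegW.lower` and `RegW.self`.
3. `glued_full`: `tau_j' (rot x) = 0`, `chi_j' = 1` for all active `j'` (η antitone), `Era.F_snd_zero`.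
4. `glued_bound`: `Era.F_bound` and convexity; for `v ≠ 0` either `ρ 0 ≤ nrm v` or there is `i` with `ρ (i+1) ≤ nrm v ≤ ρ i` (`ρ → 0`).
-/

set_option autoImplicit false
open scoped ContDiff Manifold Topology
open Filter

namespace SEC

noncomputable section

/-- `nrm v` is in the range where the eras `i-1, …, i+2` are the active ones. -/
def InRange (ρ : ℕ → ℝ) (i : ℕ) (v : V) : Prop :=
  ρ (i+2) ≤ nrm v ∧ (1 ≤ i → nrm v ≤ ρ (i-1))

/-- on the range, `F` is a convex combination of two active eras. -/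
theorem glued_cases {G : ℕ → ℂ → V → V} {ρ : ℕ → ℝ} {F : ℂ → V → V} (hG : Glued G ρ F) {i : ℕ}
    (x : ℂ) {v : V} (hv : InRange ρ i v) :
    ∃ (j : ℕ) (s : ℝ), i ≤ j + 1 ∧ j + 1 ≤ i + 2 ∧ 0 ≤ s ∧ s ≤ 1 ∧
      F x v = (1 - s) • G j x v + s • G (j+1) x v := by
  obtain ⟨hlo, hhi⟩ := hv
  rcases Nat.eq_zero_or_pos i with rfl | hi
  · by_cases h0 : ρ 0 ≤ nrm v
    · refine ⟨0, 0, by omega, by omega, le_rfl, zero_le_one, ?_⟩
      rw [hG.outer x v h0]; simp
    · rw [not_le] at h0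
      by_cases h1 : ρ 1 ≤ nrm v
      · obtain ⟨s, hs0, hs1, h⟩ := hG.inner 0 x v h1 h0.le
        exact ⟨0, s, by omega, by omega, hs0, hs1, h⟩
      · rw [not_le] at h1
        obtain ⟨s, hs0, hs1, h⟩ := hG.inner 1 x v hlo h1.le
        exact ⟨1, s, by omega, by omega, hs0, hs1, h⟩
  · have h' := hhi hi
    obtain ⟨k, rfl⟩ : ∃ k, i = k + 1 := ⟨i - 1, by omega⟩
    rw [Nat.add_sub_cancel] at h'
    by_cases h0 : ρ (k+1) ≤ nrm v
    · obtain ⟨s, hs0, hs1, h⟩ := hG.inner k x v h0 h'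
      exact ⟨k, s, by omega, by omega, hs0, hs1, h⟩
    · rw [not_le] at h0
      by_cases h1 : ρ (k+1+1) ≤ nrm v
      · obtain ⟨s, hs0, hs1, h⟩ := hG.inner (k+1) x v h1 h0.le
        exact ⟨k+1, s, by omega, by omega, hs0, hs1, h⟩
      · rw [not_le] at h1
        obtain ⟨s, hs0, hs1, h⟩ := hG.inner (k+1+1) x v hlo h1.le
        exact ⟨k+1+1, s, by omega, by omega, hs0, hs1, h⟩

theorem gstep_P_close (E : ℕ → Era) (hE : EraSys E) {i j : ℕ} (h1 : i ≤ j + 1) (h2 : j ≤ i + 2)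
    {x : ℂ} (hx : ‖x‖ = 1) : |(E j).P x - (E i).P x| ≤ 1/64 := by
  have h := fun k => abs_le.1 (hE.P_close k x hx)
  rw [abs_le]
  have hj : j + 1 = i ∨ j = i ∨ j = i + 1 ∨ j = i + 2 := by omega
  rcases hj with hj | rfl | rfl | rfl
  · subst hj
    have := h j
    constructor <;> linarith [this.1, this.2]
  · rw [sub_self]; constructor <;> norm_num
  · have := h i
    constructor <;> linarith [this.1, this.2]
  · have a1 := h i
    have a2 := h (i+1)
    rw [show i + 1 + 1 = i + 2 from rfl] at a2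
    constructor <;> linarith [a1.1, a1.2, a2.1, a2.2]

theorem gstep_eta_anti (E : ℕ → Era) (hE : EraSys E) {i j : ℕ} (h : i ≤ j) :
    (E j).η ≤ (E i).η :=
  antitone_nat_of_succ_le (f := fun k => (E k).η) hE.eta_anti h

theorem gstep_b_anti (E : ℕ → Era) (hE : EraSys E) {i j : ℕ} (h : i ≤ j) (x : ℂ) :
    (E j).b x ≤ (E i).b x :=
  antitone_nat_of_succ_le (f := fun k => (E k).b x) (fun k => hE.b_anti k x) h

theorem gstep_eta_ratio (E : ℕ → Era) (hE : EraSys E) {i j : ℕ} (h : j ≤ i + 2) :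
    3/2 * (E i).η ≤ 2 * (E j).η := by
  have h1 := gstep_eta_anti E hE h
  have h2 := hE.eta_ratio i
  have h3 := hE.eta_ratio (i+1)
  rw [show i + 1 + 1 = i + 2 from rfl] at h3
  have h4 := hE.eta_pos i
  linarith

theorem gstep_one (E : ℕ → Era) (hE : EraSys E) {i j : ℕ} (h1 : i ≤ j + 1) (h2 : j ≤ i + 2)
    {x : ℂ} (hx : ‖x‖ = 1) {v : V} {θ : ℝ} (h : RegW ((E i).P x) θ (nrm v) v) :
    RegW ((E i).P (rot * x)) (2 * θ)
      (96 * (E (i+2)).b (rot * x) * (2:ℝ)^((E i).P (rot * x) - (E i).P x - 1) * nrm v)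
      ((E j).F x v) := by
  have hx' := rot_mul_norm hx
  have hrec := hE.P_rec i x hx
  have hP0 := (E i).P_nonneg x
  have ht1 := tau_le_one (E i).η (rot * x)
  have ht0 := tau_nonneg (E i).η (rot * x)
  have hstep := RegW.step (E j) (κ := (E i).P x) (κ' := (E i).P (rot * x)) (θ := θ) (x := x)
    (v := v) (hE.b_nonneg j _) h hP0 ((E i).P_nonneg _)
    (by rw [hrec]; nlinarith)
    (gstep_P_close E hE h1 h2 hx)
    (by rw [← hE.P_rec j x hx]; exact gstep_P_close E hE h1 h2 hx')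
    (by
      intro hchi
      have hη := hE.eta_pos j
      have h3 : 2 * (E j).η < ‖rot * x - 1‖ := by
        by_contra hcon
        exact hchi (chi_eq_one hη (not_lt.1 hcon))
      have h4 := gstep_eta_ratio E hE h2
      rw [hrec, tau_eq_one (hE.eta_pos i) (by linarith)]; ring)
  refine hstep.mono ?_
  have hb := gstep_b_anti E hE h2 (rot * x)
  have hn := nrm_nonneg v
  have hp : 0 ≤ (2:ℝ)^((E i).P (rot * x) - (E i).P x - 1) := by positivity
  gcongr

theorem glued_step (E : ℕ → Era) (hE : EraSys E) {ρ : ℕ → ℝ} {F : ℂ → V → V}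
    (hG : Glued (fun i => (E i).F) ρ F) {i : ℕ} {x : ℂ} (hx : ‖x‖ = 1) {v : V}
    (hv : InRange ρ i v) {θ : ℝ} (h : RegW ((E i).P x) θ (nrm v) v) :
    RegW ((E i).P (rot * x)) (2 * θ) (nrm (F x v)) (F x v) ∧
      32 * (E (i+2)).b (rot * x) * (2:ℝ)^((E i).P (rot * x) - (E i).P x - 1) * nrm v ≤
        nrm (F x v) := by
  obtain ⟨j, s, h1, h2, hs0, hs1, hF⟩ := glued_cases hG x hv
  have a1 := gstep_one E hE (j := j) h1 (by omega) hx h
  have a2 := gstep_one E hE (j := j+1) (by omega) h2 hx h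
  have a3 := (a1.smul (s := 1 - s) (by linarith)).add (a2.smul (s := s) hs0)
  have a4 : RegW ((E i).P (rot * x)) (2 * θ)
      (96 * (E (i+2)).b (rot * x) * (2:ℝ)^((E i).P (rot * x) - (E i).P x - 1) * nrm v)
      (F x v) := by
    rw [hF]
    exact a3.mono (le_of_eq (by ring))
  refine ⟨a4.self, ?_⟩
  have a5 := a4.lower ((E i).P_nonneg _)
  linarith

theorem glued_full (E : ℕ → Era) (hE : EraSys E) {ρ : ℕ → ℝ} {F : ℂ → V → V}
    (hG : Glued (fun i => (E i).F) ρ F) {i : ℕ} {x : ℂ} {v : V}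
    (hv : InRange ρ i v) (hfull : ‖rot * x - 1‖ ≤ (E (i+2)).η) : (F x v).2 = 0 := by
  obtain ⟨j, s, h1, h2, hs0, hs1, hF⟩ := glued_cases hG x hv
  have key : ∀ j' ≤ i + 2, ((E j').F x v).2 = 0 := by
    intro j' hj'
    have h3 := gstep_eta_anti E hE hj'
    have h4 := hE.eta_pos j'
    exact (E j').F_snd_zero (tau_eq_zero h4 (by linarith)) (chi_eq_one h4 (by linarith))
  rw [hF, Prod.snd_add, Prod.smul_snd, Prod.smul_snd]
  rw [key j (by omega), key (j+1) h2, smul_zero, smul_zero, add_zero]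

theorem glued_bound (E : ℕ → Era) (hE : EraSys E) {ρ : ℕ → ℝ} {F : ℂ → V → V}
    (hG : Glued (fun i => (E i).F) ρ F) (x : ℂ) (v : V) : nrm (F x v) ≤ 400 * nrm v := by
  classical
  have hb : ∀ j, nrm ((E j).F x v) ≤ 400 * nrm v := fun j =>
    (E j).F_bound x v (hE.b_nonneg j _) (hE.b_le_one j _)
  by_cases hv : v = 0
  · subst hv
    rw [hG.zero, nrm_zero]; norm_num
  by_cases h0 : ρ 0 ≤ nrm v
  · rw [hG.outer x v h0]; exact hb 0
  · rw [not_le] at h0
    have hpos := nrm_pos hv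
    have hex : ∃ i, ρ i ≤ nrm v := by
      obtain ⟨i, hi⟩ := (hG.tendsto.eventually (gt_mem_nhds hpos)).exists
      exact ⟨i, hi.le⟩
    have hf := Nat.find_spec hex
    have hm := fun k => @Nat.find_min _ _ hex k
    set i := Nat.find hex with hi
    obtain ⟨k, hk⟩ : ∃ k, i = k + 1 := by
      refine ⟨i - 1, ?_⟩
      have : i ≠ 0 := by
        intro h; rw [h] at hf; linarith
      omega
    rw [hk] at hf
    have h1 : nrm v ≤ ρ k := (not_le.1 (hm k (by omega))).le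
    obtain ⟨s, hs0, hs1, h⟩ := hG.inner k x v hf h1
    rw [h]
    refine (nrm_add_le _ _).trans ?_
    rw [nrm_smul, nrm_smul, abs_of_nonneg (by linarith), abs_of_nonneg hs0]
    have h2 := hb k
    have h3 := hb (k+1)
    have h4 : (1 - s) * nrm ((E k).F x v) ≤ (1 - s) * (400 * nrm v) :=
      mul_le_mul_of_nonneg_left h2 (by linarith)
    have h5 : s * nrm ((E (k+1)).F x v) ≤ s * (400 * nrm v) := mul_le_mul_of_nonneg_left h3 hs0
    calc _ ≤ (1 - s) * (400 * nrm v) + s * (400 * nrm v) := add_le_add h4 h5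
      _ = 400 * nrm v := by ring

end

end SEC
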