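import Crest.Agent.SEC_GlueDefs
import Crest.Agent.SEC_C1Crit

/-!
SEC-Glue (hard). `euler`: `G i x (t v) = t G i x v`, so `fderiv (G i x) v v = G i x v`.
`deriv_bound`: the partial derivative in `x` is homogeneous of degree 1 in `v`, so bounded by `K nrm v` (compactness of `{‖x‖≤R, nrm v = 1}` and
continuity of `fderiv` on the open set `v ≠ 0`); the `v`-part is `close`.
`glue`: let `K i` be the constant of `deriv_bound` for `(i, R = i)` (or `R = i+1`), enlarged so as to work for `i` and `i+1`: choose `ρ 0 = ρ0`,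
`ρ (i+1) = min (C i * ρ i) (min (ρ i / 2) (1/((i+1) * (1 + K (i+1,R=i+1) + K (i+2,R=i+1)))))`.
Cut-offs `S j` from `exists_cut` with `a = ρ j`, `b = ρ (j+1)`. `F x v = G 0 x v + ∑_j S j v • (G (j+1) x v - G j x v)` (for `v ≠ 0` only finitely many terms,
locally uniformly; `F x 0 = 0`). For `ρ (i+1) ≤ nrm v ≤ ρ i`: `S j = 1` for `j < i`, `S j = 0` for `j > i`, so `F x v = (1 - S i v) G i x v + S i v G (i+1) x v`.
Where `S j v ∈ {0,1}` the derivative of `S j` vanishes (local extremum), so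
`DF = (1-S i) DG i + S i DG (i+1) + DS i ⊗ (G (i+1) - G i)` at such points, and with `euler`
`‖DS i ⊗ (G (i+1) - G i)‖ ≤ (K/nrm v) (ε i + ε (i+1)) ‖v‖`. Hence `‖DF (x,v) - A x ∘ snd‖ → 0` as `v → 0` uniformly on `‖x‖ ≤ R`, and
`contDiff_one_of_off_zero` applies (`hbd` from `euler`: `‖F x v‖ ≤ (sup_{‖x‖≤R} ‖A x‖ + ε i + ε (i+1)) ‖v‖`, ε bounded).
-/

set_option autoImplicit false
open scoped ContDiff Manifold Topology
open Filter

namespace SEC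

noncomputable section

theorem isOpen_offZero : IsOpen {p : ℂ × V | p.2 ≠ 0} :=
  isOpen_compl_singleton.preimage continuous_snd

theorem GlueHyp.hasFDerivAt {G : ℕ → ℂ → V → V} {A : ℂ → V →L[ℝ] V} {ε : ℕ → ℝ}
    (h : GlueHyp G A ε) (i : ℕ) (x : ℂ) {v : V} (hv : v ≠ 0) :
    HasFDerivAt (fun p : ℂ × V => G i p.1 p.2)
      (fderiv ℝ (fun p : ℂ × V => G i p.1 p.2) (x, v)) (x, v) := by
  have h1 := (h.smooth i).contDiffAt (isOpen_offZero.mem_nhds (show (x, v).2 ≠ 0 from hv))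
  exact (h1.differentiableAt (by norm_num)).hasFDerivAt

theorem GlueHyp.hasFDerivAt_right {G : ℕ → ℂ → V → V} {A : ℂ → V →L[ℝ] V} {ε : ℕ → ℝ}
    (h : GlueHyp G A ε) (i : ℕ) (x : ℂ) {v : V} (hv : v ≠ 0) :
    HasFDerivAt (fun w : V => G i x w)
      ((fderiv ℝ (fun p : ℂ × V => G i p.1 p.2) (x, v)).comp
        (ContinuousLinearMap.inr ℝ ℂ V)) v :=
  (h.hasFDerivAt i x hv).comp v (hasFDerivAt_prodMk_right x v)

theorem GlueHyp.hasFDerivAt_left {G : ℕ → ℂ → V → V} {A : ℂ → V →L[ℝ] V} {ε : ℕ → ℝ}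
    (h : GlueHyp G A ε) (i : ℕ) (x : ℂ) {v : V} (hv : v ≠ 0) :
    HasFDerivAt (fun y : ℂ => G i y v)
      ((fderiv ℝ (fun p : ℂ × V => G i p.1 p.2) (x, v)).comp
        (ContinuousLinearMap.inl ℝ ℂ V)) x :=
  HasFDerivAt.comp (g := fun p : ℂ × V => G i p.1 p.2) (f := fun y : ℂ => (y, v)) x
    (h.hasFDerivAt i x hv) (hasFDerivAt_prodMk_left x v)

theorem GlueHyp.eps_nonneg {G : ℕ → ℂ → V → V} {A : ℂ → V →L[ℝ] V} {ε : ℕ → ℝ}
    (h : GlueHyp G A ε) (i : ℕ) : 0 ≤ ε i :=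
  (norm_nonneg _).trans (h.close i 0 ((1, 0) : V) (by simp [Prod.ext_iff]))

/-- Euler: `G i x v` is close to `A x v`. -/
theorem GlueHyp.euler {G : ℕ → ℂ → V → V} {A : ℂ → V →L[ℝ] V} {ε : ℕ → ℝ} (h : GlueHyp G A ε)
    (i : ℕ) (x : ℂ) (v : V) : ‖G i x v - A x v‖ ≤ ε i * ‖v‖ := by
  rcases eq_or_ne v 0 with rfl | hv
  · simp [h.zero]
  · have hD := h.hasFDerivAt_right i x hv
    have h1 : HasDerivAt (fun t : ℝ => G i x (t • v)) (fderiv ℝ (fun w => G i x w) v v) 1 := by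
      have h2 : HasDerivAt (fun t : ℝ => t • v) v 1 := by
        simpa using (hasDerivAt_id (1:ℝ)).smul_const v
      have h3 : HasFDerivAt (fun w => G i x w) (fderiv ℝ (fun w => G i x w) v) ((1:ℝ) • v) := by
        rw [one_smul]; exact hD.differentiableAt.hasFDerivAt
      exact h3.comp_hasDerivAt (1:ℝ) h2
    have h4 : HasDerivAt (fun t : ℝ => G i x (t • v)) (G i x v) 1 := by
      have h2 : HasDerivAt (fun t : ℝ => t • G i x v) (G i x v) 1 := by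
        simpa using (hasDerivAt_id (1:ℝ)).smul_const (G i x v)
      refine h2.congr_of_eventuallyEq ?_
      filter_upwards [lt_mem_nhds (show (0:ℝ) < 1 by norm_num)] with t ht
      exact h.homog i x v t ht
    have h5 := h4.unique h1
    rw [h5]
    have h6 : fderiv ℝ (fun w => G i x w) v v - A x v = (fderiv ℝ (fun w => G i x w) v - A x) v := by
      simp
    rw [h6]
    exact (ContinuousLinearMap.le_opNorm _ _).trans
      (mul_le_mul_of_nonneg_right (h.close i x v hv) (norm_nonneg _))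

theorem GlueHyp.left_homog {G : ℕ → ℂ → V → V} {A : ℂ → V →L[ℝ] V} {ε : ℕ → ℝ}
    (h : GlueHyp G A ε) (i : ℕ) (x : ℂ) {v : V} (hv : v ≠ 0) {c : ℝ} (hc : 0 < c) :
    (fderiv ℝ (fun p : ℂ × V => G i p.1 p.2) (x, c • v)).comp
        (ContinuousLinearMap.inl ℝ ℂ V) = c • (fderiv ℝ (fun p : ℂ × V => G i p.1 p.2) (x, v)).comp
        (ContinuousLinearMap.inl ℝ ℂ V) := by
  have h1 := h.hasFDerivAt_left i x (v := c • v) (smul_ne_zero hc.ne' hv)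
  have h2 := (h.hasFDerivAt_left i x hv).const_smul c
  have h3 : (fun y : ℂ => G i y (c • v)) = c • (fun y : ℂ => G i y v) := by
    funext y; exact h.homog i y v c hc
  rw [h3] at h1
  exact h1.unique h2

theorem isCompact_sphere_nrm (R : ℝ) :
    IsCompact (Metric.closedBall (0:ℂ) R ×ˢ {v : V | nrm v = 1}) := by
  refine (isCompact_closedBall _ _).prod ?_
  refine Metric.isCompact_of_isClosed_isBounded (isClosed_eq continuous_nrm continuous_const) ?_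
  refine (Metric.isBounded_closedBall (x := (0:V)) (r := 1)).subset ?_
  intro v hv
  rw [mem_closedBall_zero_iff]
  exact (norm_le_nrm v).trans (le_of_eq hv)

/-- bound on the full derivative (from smoothness, homogeneity and compactness). -/
theorem GlueHyp.deriv_bound {G : ℕ → ℂ → V → V} {A : ℂ → V →L[ℝ] V} {ε : ℕ → ℝ}
    (h : GlueHyp G A ε) (i : ℕ) (R : ℝ) :
    ∃ K : ℝ, 0 < K ∧ ∀ x v, ‖x‖ ≤ R → v ≠ 0 →
      ‖fderiv ℝ (fun p : ℂ × V => G i p.1 p.2) (x, v) -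
        (A x).comp (ContinuousLinearMap.snd ℝ ℂ V)‖ ≤ ε i + K * nrm v := by
  have hcont : ContinuousOn (fun p : ℂ × V => fderiv ℝ (fun p : ℂ × V => G i p.1 p.2) p)
      {p : ℂ × V | p.2 ≠ 0} :=
    (h.smooth i).continuousOn_fderiv_of_isOpen isOpen_offZero (by norm_num)
  have hcont2 : ContinuousOn (fun p : ℂ × V => ‖fderiv ℝ (fun p : ℂ × V => G i p.1 p.2) p‖)
      (Metric.closedBall (0:ℂ) R ×ˢ {v : V | nrm v = 1}) := by
    refine (hcont.mono ?_).norm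
    rintro ⟨x, v⟩ ⟨_, hv⟩ h0
    change v = 0 at h0
    change nrm v = 1 at hv
    rw [h0, nrm_zero] at hv
    norm_num at hv
  obtain ⟨K, hK⟩ := (isCompact_sphere_nrm R).exists_bound_of_continuousOn hcont2
  refine ⟨max K 1, lt_max_of_lt_right one_pos, ?_⟩
  intro x v hx hv
  have hn := nrm_pos hv
  set D := fderiv ℝ (fun p : ℂ × V => G i p.1 p.2) (x, v) with hDdef
  have hsplit : D - (A x).comp (ContinuousLinearMap.snd ℝ ℂ V) =
      (D.comp (ContinuousLinearMap.inl ℝ ℂ V)).comp (ContinuousLinearMap.fst ℝ ℂ V) +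
      (D.comp (ContinuousLinearMap.inr ℝ ℂ V) - A x).comp (ContinuousLinearMap.snd ℝ ℂ V) := by
    refine ContinuousLinearMap.ext fun p => ?_
    have hp : D p = D (p.1, 0) + D (0, p.2) := by
      rw [← map_add]; simp
    simp only [sub_apply, ContinuousLinearMap.comp_apply,
      ContinuousLinearMap.coe_snd', add_apply, ContinuousLinearMap.coe_fst',
      ContinuousLinearMap.inl_apply, ContinuousLinearMap.inr_apply]
    rw [hp]; abel
  have h1 : ‖D.comp (ContinuousLinearMap.inr ℝ ℂ V) - A x‖ ≤ ε i := by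
    rw [← (h.hasFDerivAt_right i x hv).fderiv]
    exact h.close i x v hv
  have h2 : ‖D.comp (ContinuousLinearMap.inl ℝ ℂ V)‖ ≤ max K 1 * nrm v := by
    have hw : ((nrm v)⁻¹ • v) ≠ 0 := smul_ne_zero (inv_ne_zero hn.ne') hv
    have hwn : nrm ((nrm v)⁻¹ • v) = 1 := by
      rw [nrm_smul, abs_of_pos (inv_pos.2 hn), inv_mul_cancel₀ hn.ne']
    have h3 := h.left_homog i x hw hn
    have h4 : nrm v • ((nrm v)⁻¹ • v) = v := by rw [smul_smul, mul_inv_cancel₀ hn.ne', one_smul]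
    rw [h4] at h3
    rw [hDdef, h3, norm_smul, Real.norm_eq_abs, abs_of_pos hn, mul_comm]
    refine mul_le_mul_of_nonneg_right ?_ hn.le
    have h5 := hK (x, (nrm v)⁻¹ • v) ⟨by simpa using hx, hwn⟩
    rw [norm_norm] at h5
    calc _ ≤ ‖fderiv ℝ (fun p : ℂ × V => G i p.1 p.2) (x, (nrm v)⁻¹ • v)‖ *
          ‖ContinuousLinearMap.inl ℝ ℂ V‖ := ContinuousLinearMap.opNorm_comp_le _ _
      _ ≤ K * 1 := mul_le_mul h5 (ContinuousLinearMap.norm_inl_le_one ℝ ℂ V) (norm_nonneg _)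
          ((norm_nonneg _).trans h5)
      _ ≤ max K 1 := by rw [mul_one]; exact le_max_left _ _
  rw [hsplit]
  calc _ ≤ ‖(D.comp (ContinuousLinearMap.inl ℝ ℂ V)).comp (ContinuousLinearMap.fst ℝ ℂ V)‖ +
      ‖(D.comp (ContinuousLinearMap.inr ℝ ℂ V) - A x).comp (ContinuousLinearMap.snd ℝ ℂ V)‖ :=
        norm_add_le _ _
    _ ≤ ‖D.comp (ContinuousLinearMap.inl ℝ ℂ V)‖ * ‖ContinuousLinearMap.fst ℝ ℂ V‖ +
      ‖D.comp (ContinuousLinearMap.inr ℝ ℂ V) - A x‖ * ‖ContinuousLinearMap.snd ℝ ℂ V‖ :=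
        add_le_add (ContinuousLinearMap.opNorm_comp_le _ _)
          (ContinuousLinearMap.opNorm_comp_le _ _)
    _ ≤ (max K 1 * nrm v) * 1 + ε i * 1 := by
        refine add_le_add ?_ ?_
        · exact mul_le_mul h2 (ContinuousLinearMap.norm_fst_le ℝ ℂ V) (norm_nonneg _)
            ((norm_nonneg _).trans h2)
        · exact mul_le_mul h1 (ContinuousLinearMap.norm_snd_le ℝ ℂ V) (norm_nonneg _)
            ((norm_nonneg _).trans h1)
    _ = ε i + max K 1 * nrm v := by ring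

/-- a system of cut-off functions for the radii `ρ`. -/
structure CutSys (ρ : ℕ → ℝ) (S : ℕ → V → ℝ) (K : ℝ) : Prop where
  pos : ∀ i, 0 < ρ i
  half : ∀ i, ρ (i+1) ≤ ρ i / 2
  smooth : ∀ i, ContDiff ℝ ∞ (S i)
  nonneg : ∀ i v, 0 ≤ S i v
  le_one : ∀ i v, S i v ≤ 1
  zero : ∀ i v, ρ i ≤ nrm v → S i v = 0
  one : ∀ i v, nrm v ≤ ρ (i+1) → S i v = 1
  bd : ∀ i v, ‖fderiv ℝ (S i) v‖ * nrm v ≤ K

theorem CutSys.anti {ρ : ℕ → ℝ} {S : ℕ → V → ℝ} {K : ℝ} (h : CutSys ρ S K) : Antitone ρ :=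
  antitone_nat_of_succ_le fun i => by linarith [h.half i, h.pos i]

theorem CutSys.le_geom {ρ : ℕ → ℝ} {S : ℕ → V → ℝ} {K : ℝ} (h : CutSys ρ S K) (i : ℕ) :
    ρ i ≤ ρ 0 * (1/2)^i := by
  induction i with
  | zero => simp
  | succ i ih =>
    calc ρ (i+1) ≤ ρ i / 2 := h.half i
      _ ≤ (ρ 0 * (1/2)^i)/2 := by linarith
      _ = _ := by ring

theorem CutSys.tendsto {ρ : ℕ → ℝ} {S : ℕ → V → ℝ} {K : ℝ} (h : CutSys ρ S K) :
    Tendsto ρ atTop (𝓝 0) := by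
  refine squeeze_zero (fun i => (h.pos i).le) h.le_geom ?_
  have := (tendsto_pow_atTop_nhds_zero_of_lt_one (r := (1/2:ℝ)) (by norm_num)
    (by norm_num)).const_mul (ρ 0)
  simpa using this

theorem CutSys.fderiv_zero {ρ : ℕ → ℝ} {S : ℕ → V → ℝ} {K : ℝ} (h : CutSys ρ S K) {i : ℕ} {v : V}
    (hv : ρ i ≤ nrm v) : fderiv ℝ (S i) v = 0 := by
  refine IsLocalMin.fderiv_eq_zero ?_
  exact Filter.Eventually.of_forall fun w => by
    show S i v ≤ S i w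
    rw [h.zero i v hv]; exact h.nonneg i w

theorem CutSys.fderiv_one {ρ : ℕ → ℝ} {S : ℕ → V → ℝ} {K : ℝ} (h : CutSys ρ S K) {i : ℕ} {v : V}
    (hv : nrm v ≤ ρ (i+1)) : fderiv ℝ (S i) v = 0 := by
  refine IsLocalMax.fderiv_eq_zero ?_
  exact Filter.Eventually.of_forall fun w => by
    show S i w ≤ S i v
    rw [h.one i v hv]; exact h.le_one i w

/-- partial sums of the glueing. -/
def glueT (G : ℕ → ℂ → V → V) (S : ℕ → V → ℝ) : ℕ → ℂ → V → V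
  | 0, x, v => G 0 x v
  | (n+1), x, v => glueT G S n x v + S n v • (G (n+1) x v - G n x v)

theorem glueT_zero (G : ℕ → ℂ → V → V) (S : ℕ → V → ℝ) (x : ℂ) (v : V) :
    glueT G S 0 x v = G 0 x v := rfl

theorem glueT_succ (G : ℕ → ℂ → V → V) (S : ℕ → V → ℝ) (n : ℕ) (x : ℂ) (v : V) :
    glueT G S (n+1) x v = glueT G S n x v + S n v • (G (n+1) x v - G n x v) := rfl

theorem CutSys.T_eq {ρ : ℕ → ℝ} {S : ℕ → V → ℝ} {K : ℝ} (h : CutSys ρ S K)
    (G : ℕ → ℂ → V → V) {n m : ℕ} (hnm : n ≤ m) (x : ℂ) {v : V} (hv : ρ n ≤ nrm v) :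
    glueT G S m x v = glueT G S n x v := by
  induction m, hnm using Nat.le_induction with
  | base => rfl
  | succ m hm ih =>
    rw [glueT_succ, ih, h.zero m v ((h.anti hm).trans hv), zero_smul, add_zero]

theorem CutSys.T_inner {ρ : ℕ → ℝ} {S : ℕ → V → ℝ} {K : ℝ} (h : CutSys ρ S K)
    (G : ℕ → ℂ → V → V) (n : ℕ) (x : ℂ) {v : V} (hv : nrm v ≤ ρ n) :
    glueT G S n x v = G n x v := by
  induction n with
  | zero => rfl
  | succ n ih =>
    rw [glueT_succ, ih (hv.trans (h.anti (Nat.le_succ n))), h.one n v hv, one_smul]; abel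

theorem glueT_step {ρ : ℕ → ℝ} {S : ℕ → V → ℝ} {K : ℝ} (hS : CutSys ρ S K)
    {G : ℕ → ℂ → V → V} {A : ℂ → V →L[ℝ] V} {ε : ℕ → ℝ} (h : GlueHyp G A ε)
    (n : ℕ) (x : ℂ) {v : V} (hv : v ≠ 0) {T' : ℂ × V →L[ℝ] V}
    (hT : HasFDerivAt (fun p : ℂ × V => glueT G S n p.1 p.2) T' (x, v)) :
    HasFDerivAt (fun p : ℂ × V => glueT G S (n+1) p.1 p.2)
      (T' + (S n v • (fderiv ℝ (fun p : ℂ × V => G (n+1) p.1 p.2) (x, v) -
          fderiv ℝ (fun p : ℂ × V => G n p.1 p.2) (x, v)) +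
        ((fderiv ℝ (S n) v).comp (ContinuousLinearMap.snd ℝ ℂ V)).smulRight
          (G (n+1) x v - G n x v))) (x, v) := by
  have h1 : HasFDerivAt (fun p : ℂ × V => S n p.2)
      ((fderiv ℝ (S n) v).comp (ContinuousLinearMap.snd ℝ ℂ V)) (x, v) := by
    have h2 : HasFDerivAt (S n) (fderiv ℝ (S n) v) v :=
      ((hS.smooth n).differentiable (by simp) v).hasFDerivAt
    exact HasFDerivAt.comp (g := S n) (f := fun p : ℂ × V => p.2) (x, v) h2 hasFDerivAt_snd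
  have h3 : HasFDerivAt (fun p : ℂ × V => G (n+1) p.1 p.2 - G n p.1 p.2)
      (fderiv ℝ (fun p : ℂ × V => G (n+1) p.1 p.2) (x, v) -
          fderiv ℝ (fun p : ℂ × V => G n p.1 p.2) (x, v)) (x, v) :=
    (h.hasFDerivAt (n+1) x hv).sub (h.hasFDerivAt n x hv)
  exact hT.add (h1.smul h3)

theorem glueT_inner {ρ : ℕ → ℝ} {S : ℕ → V → ℝ} {K : ℝ} (hS : CutSys ρ S K)
    {G : ℕ → ℂ → V → V} {A : ℂ → V →L[ℝ] V} {ε : ℕ → ℝ} (h : GlueHyp G A ε)
    (n : ℕ) (x : ℂ) {v : V} (hv : v ≠ 0) (hn : nrm v ≤ ρ n) :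
    HasFDerivAt (fun p : ℂ × V => glueT G S n p.1 p.2)
      (fderiv ℝ (fun p : ℂ × V => G n p.1 p.2) (x, v)) (x, v) := by
  induction n with
  | zero => exact h.hasFDerivAt 0 x hv
  | succ n ih =>
    have h1 := glueT_step hS h n x hv (ih (hn.trans (hS.anti (Nat.le_succ n))))
    rw [hS.one n v hn, hS.fderiv_one hn] at h1
    convert h1 using 1
    simp

theorem glueT_annulus {ρ : ℕ → ℝ} {S : ℕ → V → ℝ} {K : ℝ} (hS : CutSys ρ S K)
    {G : ℕ → ℂ → V → V} {A : ℂ → V →L[ℝ] V} {ε : ℕ → ℝ} (h : GlueHyp G A ε)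
    (n : ℕ) (x : ℂ) {v : V} (hv : v ≠ 0) (hn : nrm v ≤ ρ n) (hn1 : ρ (n+1) ≤ nrm v) :
    HasFDerivAt (fun p : ℂ × V => glueT G S (n+2) p.1 p.2)
      (fderiv ℝ (fun p : ℂ × V => G n p.1 p.2) (x, v) +
        (S n v • (fderiv ℝ (fun p : ℂ × V => G (n+1) p.1 p.2) (x, v) -
          fderiv ℝ (fun p : ℂ × V => G n p.1 p.2) (x, v)) +
        ((fderiv ℝ (S n) v).comp (ContinuousLinearMap.snd ℝ ℂ V)).smulRight
          (G (n+1) x v - G n x v))) (x, v) := by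
  have h1 := glueT_step hS h (n+1) x hv (glueT_step hS h n x hv (glueT_inner hS h n x hv hn))
  rw [hS.zero (n+1) v hn1, hS.fderiv_zero hn1] at h1
  convert h1 using 1
  refine ContinuousLinearMap.ext fun p => ?_
  simp

theorem exists_rho (C B : ℕ → ℝ) (hC : ∀ i, 0 < C i) (hB : ∀ i, 0 < B i) (ρ0 : ℝ)
    (hρ0 : 0 < ρ0) :
    ∃ ρ : ℕ → ℝ, ρ 0 = ρ0 ∧ (∀ i, 0 < ρ i) ∧
      ∀ i, ρ (i+1) ≤ C i * ρ i ∧ ρ (i+1) ≤ ρ i / 2 ∧ ρ (i+1) ≤ B i := by
  let ρ : ℕ → ℝ := fun n => Nat.rec ρ0 (fun i r => min (C i * r) (min (r / 2) (B i))) n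
  have hs : ∀ i, ρ (i+1) = min (C i * ρ i) (min (ρ i / 2) (B i)) := fun i => rfl
  refine ⟨ρ, rfl, ?_, fun i => ⟨?_, ?_, ?_⟩⟩
  · intro i
    induction i with
    | zero => exact hρ0
    | succ i ih => rw [hs]; exact lt_min (mul_pos (hC i) ih) (lt_min (half_pos ih) (hB i))
  · rw [hs]; exact min_le_left _ _
  · rw [hs]; exact (min_le_right _ _).trans (min_le_left _ _)
  · rw [hs]; exact (min_le_right _ _).trans (min_le_right _ _)

/-- the glued map. -/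
def glueF (G : ℕ → ℂ → V → V) (S : ℕ → V → ℝ) (ρ : ℕ → ℝ) (x : ℂ) (v : V) : V :=
  open scoped Classical in
  if h : v ≠ 0 ∧ ∃ n, ρ n ≤ nrm v then glueT G S (Nat.find h.2) x v else 0

theorem glueF_zero (G : ℕ → ℂ → V → V) (S : ℕ → V → ℝ) (ρ : ℕ → ℝ) (x : ℂ) :
    glueF G S ρ x 0 = 0 := by
  unfold glueF
  rw [dif_neg]
  simp

theorem CutSys.F_eq {ρ : ℕ → ℝ} {S : ℕ → V → ℝ} {K : ℝ} (h : CutSys ρ S K)
    (G : ℕ → ℂ → V → V) (n : ℕ) (x : ℂ) {v : V} (hv : v ≠ 0) (hn : ρ n ≤ nrm v) :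
    glueF G S ρ x v = glueT G S n x v := by
  classical
  unfold glueF
  rw [dif_pos ⟨hv, n, hn⟩]
  have hex : ∃ n, ρ n ≤ nrm v := ⟨n, hn⟩
  have h1 : ρ (Nat.find hex) ≤ nrm v := Nat.find_spec hex
  have h2 : Nat.find hex ≤ n := Nat.find_min' hex hn
  convert (h.T_eq G h2 x h1).symm using 1

theorem CutSys.F_eventually {ρ : ℕ → ℝ} {S : ℕ → V → ℝ} {K : ℝ} (h : CutSys ρ S K)
    (G : ℕ → ℂ → V → V) (n : ℕ) (x : ℂ) {v : V} (hn : ρ n < nrm v) :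
    (fun p : ℂ × V => glueF G S ρ p.1 p.2) =ᶠ[𝓝 (x, v)]
      (fun p : ℂ × V => glueT G S n p.1 p.2) := by
  have h1 : Tendsto (fun p : ℂ × V => nrm p.2) (𝓝 (x, v)) (𝓝 (nrm v)) :=
    (continuous_nrm.comp continuous_snd).tendsto (x, v)
  filter_upwards [h1 (lt_mem_nhds hn)] with p hp
  have hp' : ρ n < nrm p.2 := hp
  refine h.F_eq G n p.1 ?_ hp'.le
  intro h0
  rw [h0, nrm_zero] at hp'
  linarith [h.pos n]

theorem glueT_contDiffOn {ρ : ℕ → ℝ} {S : ℕ → V → ℝ} {K : ℝ} (hS : CutSys ρ S K)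
    {G : ℕ → ℂ → V → V} {A : ℂ → V →L[ℝ] V} {ε : ℕ → ℝ} (h : GlueHyp G A ε) (n : ℕ) :
    ContDiffOn ℝ 1 (fun p : ℂ × V => glueT G S n p.1 p.2) {p : ℂ × V | p.2 ≠ 0} := by
  induction n with
  | zero => exact h.smooth 0
  | succ n ih =>
    have h1 : ContDiff ℝ 1 (fun p : ℂ × V => S n p.2) :=
      ((hS.smooth n).of_le (by exact_mod_cast le_top)).comp contDiff_snd
    exact ih.add (h1.contDiffOn.smul ((h.smooth (n+1)).sub (h.smooth n)))

theorem CutSys.exists_lt {ρ : ℕ → ℝ} {S : ℕ → V → ℝ} {K : ℝ} (h : CutSys ρ S K)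
    {v : V} (hv : v ≠ 0) : ∃ n, ρ n < nrm v :=
  (h.tendsto.eventually (gt_mem_nhds (nrm_pos hv))).exists

theorem CutSys.exists_annulus {ρ : ℕ → ℝ} {S : ℕ → V → ℝ} {K : ℝ} (h : CutSys ρ S K)
    {v : V} (hv : v ≠ 0) (i0 : ℕ) (hi : nrm v < ρ i0) :
    ∃ i, i0 ≤ i ∧ ρ (i+1) ≤ nrm v ∧ nrm v ≤ ρ i := by
  classical
  have hex : ∃ n, ρ n ≤ nrm v := (h.exists_lt hv).imp fun n hn => hn.le
  have h1 : ρ (Nat.find hex) ≤ nrm v := Nat.find_spec hex
  have h2 : i0 < Nat.find hex := by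
    by_contra hcon
    push Not at hcon
    have := h.anti hcon
    linarith
  obtain ⟨i, hi'⟩ : ∃ i, Nat.find hex = i + 1 := ⟨Nat.find hex - 1, by omega⟩
  refine ⟨i, by omega, by rwa [hi'] at h1, ?_⟩
  have h3 := Nat.find_min hex (m := i) (by omega)
  push Not at h3
  exact h3.le

theorem glueF_contDiffOn {ρ : ℕ → ℝ} {S : ℕ → V → ℝ} {K : ℝ} (hS : CutSys ρ S K)
    {G : ℕ → ℂ → V → V} {A : ℂ → V →L[ℝ] V} {ε : ℕ → ℝ} (h : GlueHyp G A ε) :
    ContDiffOn ℝ 1 (fun p : ℂ × V => glueF G S ρ p.1 p.2) {p : ℂ × V | p.2 ≠ 0} := by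
  rintro ⟨x, v⟩ hv
  obtain ⟨n, hn⟩ := hS.exists_lt hv
  refine ContDiffAt.contDiffWithinAt ?_
  exact ((glueT_contDiffOn hS h n).contDiffAt (isOpen_offZero.mem_nhds hv)).congr_of_eventuallyEq
    (hS.F_eventually G n x hn)

theorem glueF_fderiv {ρ : ℕ → ℝ} {S : ℕ → V → ℝ} {K : ℝ} (hS : CutSys ρ S K)
    {G : ℕ → ℂ → V → V} {A : ℂ → V →L[ℝ] V} {ε : ℕ → ℝ} (h : GlueHyp G A ε)
    (n : ℕ) (x : ℂ) {v : V} (hv : v ≠ 0) (hn : nrm v ≤ ρ n) (hn1 : ρ (n+1) ≤ nrm v) :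
    fderiv ℝ (fun p : ℂ × V => glueF G S ρ p.1 p.2) (x, v) =
      fderiv ℝ (fun p : ℂ × V => G n p.1 p.2) (x, v) +
        (S n v • (fderiv ℝ (fun p : ℂ × V => G (n+1) p.1 p.2) (x, v) -
          fderiv ℝ (fun p : ℂ × V => G n p.1 p.2) (x, v)) +
        ((fderiv ℝ (S n) v).comp (ContinuousLinearMap.snd ℝ ℂ V)).smulRight
          (G (n+1) x v - G n x v)) := by
  have h1 : ρ (n+2) < nrm v := by
    have := hS.half (n+1)
    have h2 := hS.pos (n+1)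
    have h3 : ρ (n+2) ≤ ρ (n+1) / 2 := this
    linarith
  rw [(hS.F_eventually G (n+2) x h1).fderiv_eq]
  exact (glueT_annulus hS h n x hv hn hn1).fderiv

theorem glueF_fderiv_bound {ρ : ℕ → ℝ} {S : ℕ → V → ℝ} {K : ℝ} (hS : CutSys ρ S K)
    {G : ℕ → ℂ → V → V} {A : ℂ → V →L[ℝ] V} {ε : ℕ → ℝ} (h : GlueHyp G A ε)
    (n : ℕ) (x : ℂ) {v : V} (hv : v ≠ 0) (hn : nrm v ≤ ρ n) (hn1 : ρ (n+1) ≤ nrm v)
    (K1 K2 : ℝ)
    (h1 : ‖fderiv ℝ (fun p : ℂ × V => G n p.1 p.2) (x, v) -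
        (A x).comp (ContinuousLinearMap.snd ℝ ℂ V)‖ ≤ ε n + K1 * nrm v)
    (h2 : ‖fderiv ℝ (fun p : ℂ × V => G (n+1) p.1 p.2) (x, v) -
        (A x).comp (ContinuousLinearMap.snd ℝ ℂ V)‖ ≤ ε (n+1) + K2 * nrm v) :
    ‖fderiv ℝ (fun p : ℂ × V => glueF G S ρ p.1 p.2) (x, v) -
        (A x).comp (ContinuousLinearMap.snd ℝ ℂ V)‖ ≤
      (ε n + ε (n+1)) * (1 + K) + (K1 + K2) * nrm v := by
  rw [glueF_fderiv hS h n x hv hn hn1]
  set D1 := fderiv ℝ (fun p : ℂ × V => G n p.1 p.2) (x, v)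
  set D2 := fderiv ℝ (fun p : ℂ × V => G (n+1) p.1 p.2) (x, v)
  set A' := (A x).comp (ContinuousLinearMap.snd ℝ ℂ V)
  set Q := ((fderiv ℝ (S n) v).comp (ContinuousLinearMap.snd ℝ ℂ V)).smulRight
          (G (n+1) x v - G n x v) with hQ
  have e1 : D1 + (S n v • (D2 - D1) + Q) - A' =
      (1 - S n v) • (D1 - A') + S n v • (D2 - A') + Q := by
    module
  have hs0 := hS.nonneg n v
  have hs1 := hS.le_one n v
  have he1 := h.eps_nonneg n
  have he2 := h.eps_nonneg (n+1)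
  have hnv := nrm_pos hv
  have hK0 : 0 ≤ K := (by positivity : 0 ≤ ‖fderiv ℝ (S n) v‖ * nrm v).trans (hS.bd n v)
  have hQ1 : ‖Q‖ ≤ (ε n + ε (n+1)) * K := by
    rw [hQ, ContinuousLinearMap.norm_smulRight_apply]
    have g1 : ‖(fderiv ℝ (S n) v).comp (ContinuousLinearMap.snd ℝ ℂ V)‖ ≤ ‖fderiv ℝ (S n) v‖ := by
      refine (ContinuousLinearMap.opNorm_comp_le _ _).trans ?_
      exact (mul_le_mul_of_nonneg_left (ContinuousLinearMap.norm_snd_le ℝ ℂ V)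
        (norm_nonneg _)).trans (by rw [mul_one])
    have g2 : ‖G (n+1) x v - G n x v‖ ≤ (ε n + ε (n+1)) * nrm v := by
      have g3 := h.euler n x v
      have g4 := h.euler (n+1) x v
      have g5 : G (n+1) x v - G n x v = (G (n+1) x v - A x v) - (G n x v - A x v) := by abel
      rw [g5]
      have g6 := norm_sub_le (G (n+1) x v - A x v) (G n x v - A x v)
      have g7 := norm_le_nrm v
      have g8 : ε n * ‖v‖ ≤ ε n * nrm v := mul_le_mul_of_nonneg_left g7 he1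
      have g9 : ε (n+1) * ‖v‖ ≤ ε (n+1) * nrm v := mul_le_mul_of_nonneg_left g7 he2
      linarith
    calc _ ≤ ‖fderiv ℝ (S n) v‖ * ((ε n + ε (n+1)) * nrm v) :=
          mul_le_mul g1 g2 (norm_nonneg _) (norm_nonneg _)
      _ = (ε n + ε (n+1)) * (‖fderiv ℝ (S n) v‖ * nrm v) := by ring
      _ ≤ (ε n + ε (n+1)) * K := mul_le_mul_of_nonneg_left (hS.bd n v) (by linarith)
  rw [e1]
  have f1 : ‖(1 - S n v) • (D1 - A')‖ ≤ ε n + K1 * nrm v := by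
    rw [norm_smul, Real.norm_eq_abs, abs_of_nonneg (by linarith)]
    calc _ ≤ 1 * ‖D1 - A'‖ := mul_le_mul_of_nonneg_right (by linarith) (norm_nonneg _)
      _ ≤ _ := by rw [one_mul]; exact h1
  have f2 : ‖S n v • (D2 - A')‖ ≤ ε (n+1) + K2 * nrm v := by
    rw [norm_smul, Real.norm_eq_abs, abs_of_nonneg hs0]
    calc _ ≤ 1 * ‖D2 - A'‖ := mul_le_mul_of_nonneg_right hs1 (norm_nonneg _)
      _ ≤ _ := by rw [one_mul]; exact h2
  have f3 := norm_add₃_le (a := (1 - S n v) • (D1 - A')) (b := S n v • (D2 - A')) (c := Q)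
  linarith

theorem glueF_inner {ρ : ℕ → ℝ} {S : ℕ → V → ℝ} {K : ℝ} (hS : CutSys ρ S K)
    (G : ℕ → ℂ → V → V) (i : ℕ) (x : ℂ) (v : V) (h1 : ρ (i+1) ≤ nrm v) (h2 : nrm v ≤ ρ i) :
    glueF G S ρ x v = (1 - S i v) • G i x v + S i v • G (i+1) x v := by
  have hv : v ≠ 0 := by
    rintro rfl
    rw [nrm_zero] at h1
    linarith [hS.pos (i+1)]
  rw [hS.F_eq G (i+1) x hv h1, glueT_succ, hS.T_inner G i x h2, sub_smul, one_smul, smul_sub]
  abel

theorem glueF_glued {ρ : ℕ → ℝ} {S : ℕ → V → ℝ} {K : ℝ} (hS : CutSys ρ S K)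
    (G : ℕ → ℂ → V → V) : Glued G ρ (glueF G S ρ) where
  pos := hS.pos
  anti := fun i => hS.anti (Nat.le_succ i)
  tendsto := hS.tendsto
  zero := fun x => glueF_zero G S ρ x
  outer := fun x v hv => by
    have hv0 : v ≠ 0 := by
      rintro rfl
      rw [nrm_zero] at hv
      linarith [hS.pos 0]
    rw [hS.F_eq G 0 x hv0 hv, glueT_zero]
  inner := fun i x v h1 h2 =>
    ⟨S i v, hS.nonneg i v, hS.le_one i v, glueF_inner hS G i x v h1 h2⟩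

theorem glueF_norm_bound {ρ : ℕ → ℝ} {S : ℕ → V → ℝ} {K : ℝ} (hS : CutSys ρ S K)
    {G : ℕ → ℂ → V → V} {A : ℂ → V →L[ℝ] V} {ε : ℕ → ℝ} (h : GlueHyp G A ε) (R : ℝ) :
    ∃ K' : ℝ, ∀ x v, ‖x‖ ≤ R → ‖glueF G S ρ x v‖ ≤ K' * ‖v‖ := by
  obtain ⟨MA, hMA⟩ := (isCompact_closedBall (0:ℂ) R).exists_bound_of_continuousOn
    h.cont.continuousOn
  obtain ⟨E, hE⟩ := h.eps.bddAbove_range
  have hE' : ∀ i, ε i ≤ E := fun i => hE ⟨i, rfl⟩
  have hG : ∀ i x v, ‖x‖ ≤ R → ‖G i x v‖ ≤ (MA + E) * ‖v‖ := by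
    intro i x v hx
    have h1 := h.euler i x v
    have h2 : ‖A x v‖ ≤ MA * ‖v‖ := (ContinuousLinearMap.le_opNorm _ _).trans
      (mul_le_mul_of_nonneg_right (hMA x (by simpa using hx)) (norm_nonneg _))
    have h3 : ε i * ‖v‖ ≤ E * ‖v‖ := mul_le_mul_of_nonneg_right (hE' i) (norm_nonneg _)
    have h4 : ‖G i x v‖ ≤ ‖G i x v - A x v‖ + ‖A x v‖ := by
      have := norm_add_le (G i x v - A x v) (A x v)
      rwa [sub_add_cancel] at this
    linarith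
  refine ⟨MA + E, fun x v hx => ?_⟩
  rcases eq_or_ne v 0 with rfl | hv
  · rw [glueF_zero]; simp
  rcases le_or_gt (ρ 0) (nrm v) with h0 | h0
  · rw [(glueF_glued hS G).outer x v h0]; exact hG 0 x v hx
  · obtain ⟨i, _, h1, h2⟩ := hS.exists_annulus hv 0 h0
    rw [glueF_inner hS G i x v h1 h2]
    have hs0 := hS.nonneg i v
    have hs1 := hS.le_one i v
    calc _ ≤ ‖(1 - S i v) • G i x v‖ + ‖S i v • G (i+1) x v‖ := norm_add_le _ _
      _ = (1 - S i v) * ‖G i x v‖ + S i v * ‖G (i+1) x v‖ := by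
          rw [norm_smul, norm_smul, Real.norm_eq_abs, Real.norm_eq_abs, abs_of_nonneg hs0,
            abs_of_nonneg (by linarith)]
      _ ≤ (1 - S i v) * ((MA + E) * ‖v‖) + S i v * ((MA + E) * ‖v‖) :=
          add_le_add (mul_le_mul_of_nonneg_left (hG i x v hx) (by linarith))
            (mul_le_mul_of_nonneg_left (hG (i+1) x v hx) hs0)
      _ = _ := by ring

theorem glue (G : ℕ → ℂ → V → V) (A : ℂ → V →L[ℝ] V) (ε : ℕ → ℝ) (h : GlueHyp G A ε)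
    (C : ℕ → ℝ) (hC : ∀ i, 0 < C i) (ρ0 : ℝ) (hρ0 : 0 < ρ0) :
    ∃ (ρ : ℕ → ℝ) (F : ℂ → V → V), ρ 0 = ρ0 ∧ (∀ i, ρ (i+1) ≤ C i * ρ i) ∧ Glued G ρ F ∧
      ContDiff ℝ 1 (fun p : ℂ × V => F p.1 p.2) := by
  obtain ⟨KS, hKS, hcut⟩ := exists_cut
  choose Kc hKc0 hKc using fun (i : ℕ) (R : ℕ) => h.deriv_bound i (R : ℝ)
  obtain ⟨ρ, hρ00, hρpos, hρ⟩ := exists_rho C
    (fun i => 1 / (((i:ℝ)+1) * (1 + Kc (i+1) (i+1) + Kc (i+2) (i+1)))) hC
    (fun i => by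
      have := hKc0 (i+1) (i+1)
      have := hKc0 (i+2) (i+1)
      positivity) ρ0 hρ0
  choose S hS1 hS2 hS3 hS4 hS5 hS6 using fun i => hcut (ρ i) (ρ (i+1)) (hρpos (i+1)) (hρ i).2.1
  have hS : CutSys ρ S KS := ⟨hρpos, fun i => (hρ i).2.1, hS1, hS2, hS3, hS4, hS5, hS6⟩
  refine ⟨ρ, glueF G S ρ, hρ00, fun i => (hρ i).1, glueF_glued hS G, ?_⟩
  refine contDiff_one_of_off_zero _ A h.cont ?_ (glueF_contDiffOn hS h) ?_
  · intro R; exact glueF_norm_bound hS h R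
  · intro R δ hδ
    have t1 : Tendsto (fun n : ℕ => (ε n + ε (n+1)) * (1 + KS) + 1 / (n:ℝ)) atTop (𝓝 0) := by
      have a1 := h.eps
      have a2 : Tendsto (fun n => ε (n+1)) atTop (𝓝 0) := h.eps.comp (tendsto_add_atTop_nat 1)
      have a3 : Tendsto (fun n : ℕ => 1 / (n:ℝ)) atTop (𝓝 0) :=
        tendsto_const_div_atTop_nhds_zero_nat 1
      simpa using ((a1.add a2).mul_const (1 + KS)).add a3
    have t2 := t1.eventually (gt_mem_nhds hδ)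
    have t3 : ∀ᶠ n : ℕ in atTop, R ≤ n := by
      filter_upwards [Filter.eventually_ge_atTop ⌈R⌉₊] with n hn
      exact Nat.ceil_le.1 hn
    obtain ⟨i0, hi0⟩ := Filter.eventually_atTop.1 ((t2.and t3).and (Filter.eventually_ge_atTop 1))
    refine ⟨ρ i0, hρpos i0, fun x v hx hv hvr => ?_⟩
    obtain ⟨i, hi, h1, h2⟩ := hS.exists_annulus hv i0 hvr
    obtain ⟨⟨b1, b2⟩, b3⟩ := hi0 i hi
    have c1 := hKc i i x v (hx.trans b2) hv
    have c2 := hKc (i+1) i x v (hx.trans b2) hv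
    refine (glueF_fderiv_bound hS h i x hv h2 h1 _ _ c1 c2).trans ?_
    have d1 : (Kc i i + Kc (i+1) i) * nrm v ≤ 1 / (i:ℝ) := by
      obtain ⟨j, rfl⟩ : ∃ j, i = j + 1 := ⟨i - 1, by omega⟩
      have e1 := (hρ j).2.2
      have e2 : nrm v ≤ 1 / (((j:ℝ)+1) * (1 + Kc (j+1) (j+1) + Kc (j+2) (j+1))) := h2.trans e1
      have k1 := hKc0 (j+1) (j+1)
      have k2 := hKc0 (j+2) (j+1)
      have e3 : (0:ℝ) < 1 + Kc (j+1) (j+1) + Kc (j+2) (j+1) := by positivity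
      calc (Kc (j+1) (j+1) + Kc (j+1+1) (j+1)) * nrm v
          ≤ (1 + Kc (j+1) (j+1) + Kc (j+2) (j+1)) * nrm v :=
            mul_le_mul_of_nonneg_right (by
              show Kc (j+1) (j+1) + Kc (j+2) (j+1) ≤ _
              linarith) (nrm_nonneg v)
        _ ≤ (1 + Kc (j+1) (j+1) + Kc (j+2) (j+1)) *
            (1 / (((j:ℝ)+1) * (1 + Kc (j+1) (j+1) + Kc (j+2) (j+1)))) :=
            mul_le_mul_of_nonneg_left e2 e3.le
        _ = 1 / (((j+1 : ℕ)):ℝ) := by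
            push_cast
            field_simp
    have := b1.le
    linarith

end

end SEC
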