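import Crest.Agent.SEC_Basic

/-!
SEC-GlueDefs: hypotheses of the glueing lemma (no sorry here).
-/

set_option autoImplicit false
open scoped ContDiff Manifold Topology
open Filter

namespace SEC

noncomputable section

/-- the hypotheses of the glueing lemma. -/
structure GlueHyp (G : ℕ → ℂ → V → V) (A : ℂ → V →L[ℝ] V) (ε : ℕ → ℝ) : Prop where
  smooth : ∀ i, ContDiffOn ℝ 1 (fun p : ℂ × V => G i p.1 p.2) {p | p.2 ≠ 0}
  homog : ∀ i x v (c : ℝ), 0 < c → G i x (c • v) = c • G i x v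
  zero : ∀ i x, G i x 0 = 0
  cont : Continuous A
  eps : Tendsto ε atTop (𝓝 0)
  close : ∀ i x v, v ≠ 0 → ‖fderiv ℝ (fun w => G i x w) v - A x‖ ≤ ε i

end

end SEC
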