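import Crest.Agent.SEC_GStep

/-!
SEC-Growth: the key dynamical theorem (helper62).
-/

set_option autoImplicit false
open scoped ContDiff Manifold Topology
open Filter

namespace SEC

noncomputable section

variable {E : ℕ → Era} {ρ : ℕ → ℝ} {F : ℂ → V → V}

theorem rot_pow_mul_norm {x : ℂ} (hx : ‖x‖ = 1) (n : ℕ) : ‖rot^n * x‖ = 1 := by
  rw [norm_mul, rot_pow_norm, hx, one_mul]

/-- chain of steps with reference era `i`. -/
theorem glued_chain (hE : EraSys E) (hG : Glued (fun i => (E i).F) ρ F) {i : ℕ} {x : ℂ}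
    (hx : ‖x‖ = 1) (w : ℕ → V) (hw : ∀ k, w (k+1) = F (rot^k * x) (w k)) (n : ℕ)
    (hr : ∀ k < n, InRange ρ i (w k)) {θ : ℝ} (h : RegW ((E i).P x) θ (nrm (w 0)) (w 0)) :
    ∃ θ', RegW ((E i).P (rot^n * x)) θ' (nrm (w n)) (w n) ∧
      32^n * (∏ l ∈ Finset.range n, (E (i+2)).b (rot^(l+1) * x)) *
        (2:ℝ)^((E i).P (rot^n * x) - (E i).P x - n) * nrm (w 0) ≤ nrm (w n) := by
  induction n with
  | zero =>
    refine ⟨θ, by simpa using h, ?_⟩
    simp
  | succ n ih =>
    obtain ⟨θ', h1, h2⟩ := ih (fun k hk => hr k (by omega))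
    have h3 := glued_step E hE hG (rot_pow_mul_norm hx n) (hr n (by omega)) h1
    have he : rot * (rot^n * x) = rot^(n+1) * x := by rw [pow_succ]; ring
    rw [he, ← hw n] at h3
    refine ⟨2 * θ', h3.1, le_trans ?_ h3.2⟩
    rw [Finset.prod_range_succ]
    have hb : 0 ≤ (E (i+2)).b (rot^(n+1) * x) := hE.b_nonneg _ _
    have hpow : (2:ℝ)^((E i).P (rot^(n+1) * x) - (E i).P x - ((n+1:ℕ):ℝ)) =
        (2:ℝ)^((E i).P (rot^(n+1) * x) - (E i).P (rot^n * x) - 1) *
        (2:ℝ)^((E i).P (rot^n * x) - (E i).P x - n) := by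
      rw [← Real.rpow_add (by norm_num)]
      congr 1
      push_cast; ring
    rw [hpow]
    have hpos : 0 ≤ 32 * (E (i+2)).b (rot^(n+1) * x) *
        (2:ℝ)^((E i).P (rot^(n+1) * x) - (E i).P (rot^n * x) - 1) := by positivity
    calc _ = (32 * (E (i+2)).b (rot^(n+1) * x) *
        (2:ℝ)^((E i).P (rot^(n+1) * x) - (E i).P (rot^n * x) - 1)) *
        (32^n * (∏ l ∈ Finset.range n, (E (i+2)).b (rot^(l+1) * x)) *
        (2:ℝ)^((E i).P (rot^n * x) - (E i).P x - n) * nrm (w 0)) := by rw [pow_succ]; ring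
      _ ≤ _ := mul_le_mul_of_nonneg_left h2 hpos

/-- growth along a chain. -/
theorem glued_chain_growth (hE : EraSys E) (hG : Glued (fun i => (E i).F) ρ F) {i : ℕ} {x : ℂ}
    (hx : ‖x‖ = 1) (w : ℕ → V) (hw : ∀ k, w (k+1) = F (rot^k * x) (w k)) (n : ℕ)
    (hr : ∀ k < n, InRange ρ i (w k)) {θ : ℝ} (h : RegW ((E i).P x) θ (nrm (w 0)) (w 0))
    (N : ℕ) (hN : ∀ x : ℂ, ‖x‖ = 1 → ∀ n : ℕ,
      (1/2 : ℝ)^(n+N) ≤ ∏ l ∈ Finset.range n, (E (i+2)).b (rot^(l+1) * x)) :
    8^n * (1/2:ℝ)^((E i).L + N) * nrm (w 0) ≤ nrm (w n) := by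
  obtain ⟨θ', -, h2⟩ := glued_chain hE hG hx w hw n hr h
  refine le_trans ?_ h2
  have hP0 : 0 ≤ (E i).P (rot^n * x) := Era.P_nonneg _ _
  have hP1 : (E i).P x ≤ (E i).L := Era.P_le _ _
  have h3 : (1/2:ℝ)^((E i).L + n) ≤ (2:ℝ)^((E i).P (rot^n * x) - (E i).P x - n) := by
    have : (1/2:ℝ)^((E i).L + n) = (2:ℝ)^(-(((E i).L:ℝ) + n)) := by
      rw [Real.rpow_neg (by norm_num), ← Nat.cast_add, Real.rpow_natCast, one_div, inv_pow]
    rw [this]
    exact Real.rpow_le_rpow_of_exponent_le (by norm_num) (by linarith)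
  have h4 := hN x hx n
  have h5 : (8:ℝ)^n * (1/2:ℝ)^((E i).L + N) = 32^n * (1/2:ℝ)^(n+N) * (1/2:ℝ)^((E i).L + n) := by
    have e1 : (8:ℝ)^n = 32^n * (1/2)^n * (1/2)^n := by
      rw [← mul_pow, ← mul_pow]; norm_num
    rw [e1, pow_add, pow_add, pow_add]; ring
  rw [h5]
  have h6 : (0:ℝ) ≤ ∏ l ∈ Finset.range n, (E (i+2)).b (rot^(l+1) * x) :=
    le_trans (by positivity) h4
  refine mul_le_mul_of_nonneg_right ?_ (nrm_nonneg _)
  refine mul_le_mul (mul_le_mul_of_nonneg_left h4 (by positivity)) h3 (by positivity) ?_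
  positivity

/-- regularity after a full application. -/
theorem glued_reg_of_full (hE : EraSys E) (hG : Glued (fun i => (E i).F) ρ F) {i : ℕ} {x : ℂ}
    (hx : ‖x‖ = 1) (w : ℕ → V) (hw : ∀ k, w (k+1) = F (rot^k * x) (w k)) (n : ℕ)
    (hr : ∀ k < n, InRange ρ i (w k)) (t : ℕ) (ht : t < n)
    (hfull : ‖rot^(t+1) * x - 1‖ ≤ (E (i+2)).η) :
    ∃ θ, RegW ((E i).P (rot^n * x)) θ (nrm (w n)) (w n) := by
  have he : rot * (rot^t * x) = rot^(t+1) * x := by rw [pow_succ]; ring
  have h1 : (w (t+1)).2 = 0 := by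
    rw [hw t]
    exact glued_full E hE hG (hr t ht) (by rw [he]; exact hfull)
  have hη : (E (i+2)).η ≤ (E i).η := (hE.eta_anti (i+1)).trans (hE.eta_anti i)
  have hP : (E i).P (rot^(t+1) * x) = 0 := by
    rw [← he, hE.P_rec i _ (rot_pow_mul_norm hx t), he, tau_eq_zero (hE.eta_pos i) (hfull.trans hη),
      zero_mul]
  have h2 : RegW ((E i).P (rot^(t+1) * x)) (Complex.arg (w (t+1)).1) (nrm (w (t+1))) (w (t+1)) := by
    rw [hP]; exact RegW.of_snd_zero _ h1
  obtain ⟨θ', h3, -⟩ := glued_chain hE hG (rot_pow_mul_norm hx (t+1)) (fun k => w (t+1+k))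
    (fun k => by
      have := hw (t+1+k)
      rw [show t + 1 + (k+1) = t+1+k+1 by omega, this]
      congr 1
      rw [pow_add]; ring) (n - (t+1)) (fun k hk => hr (t+1+k) (by omega)) h2
  refine ⟨θ', ?_⟩
  have e1 : t + 1 + (n - (t+1)) = n := by omega
  simp only [e1] at h3
  rwa [← mul_assoc, ← pow_add, show n - (t+1) + (t+1) = n by omega] at h3

/-- growth constant of era `i`. -/
theorem growth_consts_aux (a : ℕ → ℝ) (ha : ∀ i, 0 < a i) (ha1 : ∀ i, a i ≤ 1) (W : ℕ → ℕ) :
    ∃ C A : ℕ → ℝ, (∀ i, 0 < C i) ∧ (∀ i, 0 < A i) ∧ (∀ i, A i ≤ 1) ∧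
      (∀ i e, e ≤ i → A i ≤ a e) ∧
      (∀ i, C (i+1) ≤ (1/400)^(W i)) ∧ (∀ i, C i ≤ 1/2 * A (i+1)^(W (i+1))) ∧
      (∀ i, C (i+1) ≤ a i) ∧ (∀ i, C i ≤ 1/2) := by
  set A : ℕ → ℝ := fun i => ∏ e ∈ Finset.range (i+1), a e with hA
  set WW : ℕ → ℕ := fun i => ∑ e ∈ Finset.range (i+2), W e with hWW
  have hA0 : ∀ i, 0 < A i := fun i => Finset.prod_pos fun e _ => ha e
  have hA1 : ∀ i, A i ≤ 1 := fun i => Finset.prod_le_one (fun e _ => (ha e).le) (fun e _ => ha1 e)
  have hAa : ∀ i e, e ≤ i → A i ≤ a e := by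
    intro i e he
    have hmem : e ∈ Finset.range (i+1) := Finset.mem_range.mpr (by omega)
    simp only [hA]
    rw [← Finset.mul_prod_erase _ _ hmem]
    exact mul_le_of_le_one_right (ha e).le
      (Finset.prod_le_one (fun e _ => (ha e).le) (fun e _ => ha1 e))
  have hWe : ∀ i e, e ≤ i + 1 → W e ≤ WW i := by
    intro i e he
    exact Finset.single_le_sum (f := W) (fun _ _ => Nat.zero_le _) (Finset.mem_range.mpr (by omega))
  refine ⟨fun i => 1/2 * A (i+1)^(WW i + 1) * (1/400)^(WW i), A, fun i => ?_, hA0, hA1, hAa,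
    fun i => ?_, fun i => ?_, fun i => ?_, fun i => ?_⟩
  · have := hA0 (i+1); positivity
  · have h1 : A (i+1+1)^(WW (i+1) + 1) ≤ 1 := pow_le_one₀ (hA0 _).le (hA1 _)
    have h2 : (1/400:ℝ)^(WW (i+1)) ≤ (1/400)^(W i) :=
      pow_le_pow_of_le_one (by norm_num) (by norm_num) (hWe _ _ (by omega))
    have h3 : (0:ℝ) < (1/400)^(WW (i+1)) := by positivity
    have h4 := hA0 (i+1+1)
    have h5 : 0 < A (i+1+1)^(WW (i+1) + 1) := by positivity
    simp only
    nlinarith
  · have h1 : A (i+1)^(WW i + 1) ≤ A (i+1)^(W (i+1)) :=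
      pow_le_pow_of_le_one (hA0 _).le (hA1 _) (by have := hWe i (i+1) le_rfl; omega)
    have h2 : (1/400:ℝ)^(WW i) ≤ 1 := pow_le_one₀ (by norm_num) (by norm_num)
    have h3 : (0:ℝ) < (1/400)^(WW i) := by positivity
    have h4 := hA0 (i+1)
    have h5 : 0 < A (i+1)^(WW i + 1) := by positivity
    simp only
    nlinarith
  · have h1 : A (i+1+1)^(WW (i+1) + 1) ≤ A (i+1+1) := by
      calc A (i+1+1)^(WW (i+1) + 1) ≤ A (i+1+1)^1 :=
            pow_le_pow_of_le_one (hA0 _).le (hA1 _) (by omega)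
        _ = _ := pow_one _
    have h2 : (1/400:ℝ)^(WW (i+1)) ≤ 1 := pow_le_one₀ (by norm_num) (by norm_num)
    have h3 : (0:ℝ) < (1/400)^(WW (i+1)) := by positivity
    have h4 := hA0 (i+1+1)
    have h5 : 0 < A (i+1+1)^(WW (i+1) + 1) := by positivity
    have h6 := hAa (i+1+1) i (by omega)
    simp only
    nlinarith
  · have h1 : A (i+1)^(WW i + 1) ≤ 1 := pow_le_one₀ (hA0 _).le (hA1 _)
    have h2 : (1/400:ℝ)^(WW i) ≤ 1 := pow_le_one₀ (by norm_num) (by norm_num)
    have h3 : (0:ℝ) < (1/400)^(WW i) := by positivity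
    have h4 := hA0 (i+1)
    have h5 : 0 < A (i+1)^(WW i + 1) := by positivity
    simp only
    nlinarith

/-- the key dynamical theorem -/
theorem exists_growth_consts (E : ℕ → Era) (hE : EraSys E) :
    ∃ C : ℕ → ℝ, (∀ i, 0 < C i) ∧ ∀ (ρ : ℕ → ℝ) (F : ℂ → V → V),
      Glued (fun i => (E i).F) ρ F → (∀ i, ρ (i+1) ≤ C i * ρ i) →
      ∀ (x : ℤ → ℂ) (v : ℤ → V), (∀ j, ‖x j‖ = 1) → (∀ j, x (j+1) = rot * x j) →
        (∀ j, v (j+1) = F (x j) (v j)) → (∃ R : ℝ, ∀ j, nrm (v j) ≤ R) → ∀ j, v j = 0 := by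
  choose W hW using hE.full
  choose N hN using hE.b_prod
  set a : ℕ → ℝ := fun i => (1/2:ℝ)^((E i).L + N (i+2)) with ha
  have ha0 : ∀ i, 0 < a i := fun i => by positivity
  have ha1 : ∀ i, a i ≤ 1 := fun i => pow_le_one₀ (by norm_num) (by norm_num)
  obtain ⟨C, A, hC0, hA0, hA1, hAa, hC1, hC2, hC3, hC4⟩ :=
    growth_consts_aux a ha0 ha1 (fun i => W (i+2))
  refine ⟨C, hC0, fun ρ F hG hρ x v hx hrot hv ⟨R, hR⟩ => ?_⟩
  have hρ0 := hG.pos
  have hanti : Antitone ρ := antitone_nat_of_succ_le hG.anti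
  -- base sequences
  have hxn : ∀ (j : ℤ) (k : ℕ), x (j + k) = rot^k * x j := by
    intro j k
    induction k with
    | zero => simp
    | succ k ih =>
      have := hrot (j + k)
      rw [Nat.cast_succ, ← add_assoc, this, ih, pow_succ]; ring
  have hseq : ∀ (j : ℤ) (k : ℕ), v (j + (k+1 : ℕ)) = F (rot^k * x j) (v (j + k)) := by
    intro j k
    rw [← hxn j k, ← hv (j+k)]
    congr 1
    push_cast; ring
  -- vectors do not vanish backwards
  have hback : ∀ (j : ℤ) (k : ℕ), v (j + k) ≠ 0 → v j ≠ 0 := by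
    intro j k hk h0
    apply hk
    induction k with
    | zero => simpa using h0
    | succ k ih =>
      rw [hseq]
      by_cases h : v (j + k) = 0
      · rw [h]; exact hG.zero _
      · exact absurd (ih h) h
  -- existence of the era
  have hera : ∀ r : ℝ, 0 < r → ∃ e : ℕ, ρ (e+1) ≤ r ∧ (1 ≤ e → r < ρ e) := by
    intro r hr
    have hex : ∃ e : ℕ, ρ (e+1) ≤ r := by
      have h1 : ∀ᶠ n in atTop, ρ n < r := hG.tendsto.eventually_lt_const hr
      obtain ⟨n, hn⟩ := h1.exists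
      exact ⟨n, (hG.anti n).trans hn.le⟩
    classical
    refine ⟨Nat.find hex, Nat.find_spec hex, fun h => ?_⟩
    have := Nat.find_min hex (m := Nat.find hex - 1) (by omega)
    rw [show Nat.find hex - 1 + 1 = Nat.find hex by omega] at this
    exact not_le.mp this
  -- one step lower bound on regular states
  have hone : ∀ (e : ℕ) (j : ℤ) (θ : ℝ), ρ (e+1) ≤ nrm (v j) → (1 ≤ e → nrm (v j) < ρ e) →
      RegW ((E e).P (x j)) θ (nrm (v j)) (v j) → a e * nrm (v j) ≤ nrm (v (j+1)) := by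
    intro e j θ h1 h2 h3
    have hr : InRange ρ e (v j) := ⟨(hG.anti (e+1)).trans h1, fun he =>
      (h2 he).le.trans (hanti (by omega))⟩
    have h4 := glued_chain_growth hE hG (i := e) (hx j) (fun k => v (j + k)) (hseq j) 1
      (fun k hk => by
        have : k = 0 := by omega
        subst this; simpa using hr)
      (θ := θ) (by simpa using h3) (N (e+2)) (hN (e+2))
    simp only [Nat.cast_zero, add_zero, Nat.cast_one] at h4
    have h5 : a e * nrm (v j) ≤ 8^1 * a e * nrm (v j) := by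
      have := mul_nonneg (ha0 e).le (nrm_nonneg (v j))
      nlinarith
    exact h5.trans h4
  -- regularity of all states
  have hreg : ∀ (i : ℕ) (j : ℤ), v j ≠ 0 → ρ (i+1) ≤ nrm (v j) → (1 ≤ i → nrm (v j) < ρ i) →
      ∃ θ, RegW ((E i).P (x j)) θ (nrm (v j)) (v j) := by
    intro i
    induction i using Nat.strong_induction_on with
    | _ i ih =>
    intro j hj h1 h2
    set n := W (i+2) with hn
    obtain ⟨t, ht, hfull⟩ := hW (i+2) (x j) (hx j)
    -- the base point
    set j0 : ℤ := j - n with hj0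
    have hjn : j0 + (n:ℕ) = j := by simp [hj0]
    -- lower bound
    have hbound : ∀ k : ℕ, k ≤ n → nrm (v j) ≤ 400^k * nrm (v (j - k)) := by
      intro k
      induction k with
      | zero => intro _; simp
      | succ k ihk =>
        intro hk
        have h3 := ihk (by omega)
        have h4 : nrm (v (j - k)) ≤ 400 * nrm (v (j - (k+1:ℕ))) := by
          have h5 := hv (j - (k+1:ℕ))
          rw [show j - ((k+1:ℕ):ℤ) + 1 = j - k by push_cast; ring] at h5
          rw [h5]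
          exact glued_bound E hE hG _ _
        calc nrm (v j) ≤ 400^k * nrm (v (j - k)) := h3
          _ ≤ 400^k * (400 * nrm (v (j - (k+1:ℕ)))) := by gcongr
          _ = _ := by rw [pow_succ]; ring
    have hlow : ∀ k : ℕ, k ≤ n → ρ (i+2) ≤ nrm (v (j - k)) := by
      intro k hk
      have h3 := hbound k hk
      have h4 := hρ (i+1)
      have h5 : C (i+1) * ρ (i+1) ≤ (1/400)^n * ρ (i+1) :=
        mul_le_mul_of_nonneg_right (hC1 i) (hρ0 _).le
      have h6 : (1/400:ℝ)^n * ρ (i+1) ≤ (1/400)^k * ρ (i+1) :=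
        mul_le_mul_of_nonneg_right
          (pow_le_pow_of_le_one (by norm_num) (by norm_num) hk) (hρ0 _).le
      have h7 : (1/400:ℝ)^k * ρ (i+1) ≤ (1/400)^k * (400^k * nrm (v (j - k))) :=
        mul_le_mul_of_nonneg_left (h1.trans h3) (by positivity)
      have h8 : (1/400:ℝ)^k * (400^k * nrm (v (j - k))) = nrm (v (j - k)) := by
        rw [← mul_assoc, ← mul_pow]; norm_num
      linarith
    have hnz : ∀ k : ℕ, v (j - k) ≠ 0 := by
      intro k
      apply hback (j - k) k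
      rwa [sub_add_cancel]
    -- upper bound
    have hup : ∀ k : ℕ, k ≤ n → 1 ≤ i → nrm (v (j - k)) ≤ ρ (i-1) := by
      intro k hk hi
      by_contra hcon
      push Not at hcon
      have hAn : ρ i < A i^n * ρ (i-1) := by
        have h3 := hρ (i-1)
        rw [show i - 1 + 1 = i by omega] at h3
        have h4 := hC2 (i-1)
        simp only [show i - 1 + 1 = i by omega] at h4
        have h5 : 0 < A i^n * ρ (i-1) := mul_pos (pow_pos (hA0 i) n) (hρ0 _)
        have h6 : C (i-1) * ρ (i-1) ≤ 1/2 * A i^n * ρ (i-1) :=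
          mul_le_mul_of_nonneg_right h4 (hρ0 _).le
        nlinarith
      have hmono : ∀ m : ℕ, m ≤ n → A i^n * ρ (i-1) ≤ A i^m * ρ (i-1) := fun m hm =>
        mul_le_mul_of_nonneg_right (pow_le_pow_of_le_one (hA0 i).le (hA1 i) hm) (hρ0 _).le
      have key : ∀ m : ℕ, m ≤ k → A i^m * ρ (i-1) ≤ nrm (v (j - k + m)) := by
        intro m
        induction m with
        | zero => intro _; simpa using hcon.le
        | succ m ihm =>
          intro hm
          have h3 := ihm (by omega)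
          have h4 : ρ i < nrm (v (j - k + m)) := by
            have := hmono m (by omega)
            linarith
          have hnz' : v (j - k + m) ≠ 0 := by
            have := hnz (k - m)
            rwa [show j - ((k - m : ℕ):ℤ) = j - k + m by rw [Nat.cast_sub (by omega)]; ring] at this
          obtain ⟨e, he1, he2⟩ := hera _ (nrm_pos hnz')
          have hei : e < i := by
            by_contra hge
            push Not at hge
            have h5 := he2 (by omega)
            have h6 : ρ e ≤ ρ i := hanti hge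
            linarith
          obtain ⟨θ, hθ⟩ := ih e hei (j - k + m) hnz' he1 he2
          have h7 := hone e _ θ he1 he2 hθ
          have h8 : A i * (A i^m * ρ (i-1)) ≤ a e * nrm (v (j - k + m)) := by
            apply mul_le_mul (hAa i e hei.le) h3 _ (ha0 e).le
            exact mul_nonneg (pow_nonneg (hA0 i).le _) (hρ0 _).le
          rw [show j - k + ((m+1:ℕ):ℤ) = j - k + m + 1 by push_cast; ring, pow_succ]
          calc A i^m * A i * ρ (i-1) = A i * (A i^m * ρ (i-1)) := by ring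
            _ ≤ _ := h8
            _ ≤ _ := h7
      have h3 := key k le_rfl
      rw [sub_add_cancel] at h3
      have h4 := hmono k hk
      have h5 := h2 hi
      linarith
    -- apply the full application
    have hr : ∀ k < n, InRange ρ i (v (j0 + k)) := by
      intro k hk
      have e1 : j0 + (k:ℤ) = j - ((n - k : ℕ):ℤ) := by
        rw [Nat.cast_sub hk.le, hj0]; ring
      rw [e1]
      exact ⟨hlow _ (by omega), fun hi => hup _ (by omega) hi⟩
    have hxt : rot^(n - t - 1 + 1) * x j0 = x j / rot^t := by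
      have h3 := hxn j0 n
      rw [hjn] at h3
      rw [h3, show n - t - 1 + 1 = n - t by omega]
      have h4 : rot^n = rot^(n-t) * rot^t := by rw [← pow_add]; congr 1; omega
      rw [h4]
      have h5 : rot^t ≠ 0 := pow_ne_zero _ rot_ne_zero
      field_simp
    obtain ⟨θ, hθ⟩ := glued_reg_of_full hE hG (i := i) (hx j0) (fun k => v (j0 + k)) (hseq j0) n hr
      (n - t - 1) (by omega) (by rw [hxt]; exact hfull)
    refine ⟨θ, ?_⟩
    rw [hjn, ← hxn j0 n, hjn] at hθ
    exact hθ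
  -- doubling
  have hdouble : ∀ j : ℤ, v j ≠ 0 → ∃ n : ℕ, 2 * nrm (v j) ≤ nrm (v (j + n)) := by
    intro j hj
    obtain ⟨i, h1, h2⟩ := hera _ (nrm_pos hj)
    obtain ⟨θ, hθ⟩ := hreg i j hj h1 h2
    by_cases hesc : ∃ k : ℕ, 1 ≤ i ∧ ρ (i-1) < nrm (v (j + k))
    · obtain ⟨k, hi, hk⟩ := hesc
      refine ⟨k, ?_⟩
      have h3 := hρ (i-1)
      rw [show i - 1 + 1 = i by omega] at h3
      have h4 : C (i-1) * ρ (i-1) ≤ 1/2 * ρ (i-1) :=
        mul_le_mul_of_nonneg_right (hC4 _) (hρ0 _).le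
      have h5 := h2 hi
      linarith
    · push Not at hesc
      have hr : ∀ k : ℕ, InRange ρ i (v (j + k)) := by
        intro k
        induction k using Nat.strong_induction_on with
        | _ k ihk =>
        refine ⟨?_, fun hi => hesc k hi⟩
        have h3 := glued_chain_growth hE hG (i := i) (hx j) (fun k => v (j + k)) (hseq j) k
          (fun l hl => ihk l hl) (θ := θ) (by simpa using hθ) (N (i+2)) (hN (i+2))
        simp only [Nat.cast_zero, add_zero] at h3
        have h4 : a i * nrm (v j) ≤ 8^k * a i * nrm (v j) := by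
          have h5 : (1:ℝ) ≤ 8^k := one_le_pow₀ (by norm_num)
          have h6 := mul_nonneg (ha0 i).le (nrm_nonneg (v j))
          nlinarith
        have h5 := hρ (i+1)
        have h6 : C (i+1) * ρ (i+1) ≤ a i * ρ (i+1) :=
          mul_le_mul_of_nonneg_right (hC3 i) (hρ0 _).le
        have h7 : a i * ρ (i+1) ≤ a i * nrm (v j) := mul_le_mul_of_nonneg_left h1 (ha0 i).le
        exact h5.trans (h6.trans (h7.trans (h4.trans h3)))
      obtain ⟨n, hn⟩ := pow_unbounded_of_one_lt (2 / a i) (by norm_num : (1:ℝ) < 8)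
      refine ⟨n, ?_⟩
      have h3 := glued_chain_growth hE hG (i := i) (hx j) (fun k => v (j + k)) (hseq j) n
        (fun l _ => hr l) (θ := θ) (by simpa using hθ) (N (i+2)) (hN (i+2))
      simp only [Nat.cast_zero, add_zero] at h3
      rw [div_lt_iff₀ (ha0 i)] at hn
      have h4 : 2 * nrm (v j) ≤ 8^n * a i * nrm (v j) :=
        mul_le_mul_of_nonneg_right hn.le (nrm_nonneg _)
      exact h4.trans h3
  -- conclusion
  intro j
  by_contra hj
  have hiter : ∀ m : ℕ, ∃ n : ℕ, 2^m * nrm (v j) ≤ nrm (v (j + n)) := by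
    intro m
    induction m with
    | zero => exact ⟨0, by simp⟩
    | succ m ihm =>
      obtain ⟨n, hn⟩ := ihm
      have hnz : v (j + n) ≠ 0 := by
        intro h0
        rw [h0, nrm_zero] at hn
        have := mul_pos (pow_pos (by norm_num : (0:ℝ) < 2) m) (nrm_pos hj)
        linarith
      obtain ⟨n', hn'⟩ := hdouble _ hnz
      refine ⟨n + n', ?_⟩
      rw [Nat.cast_add, ← add_assoc, pow_succ]
      nlinarith
  obtain ⟨m, hm⟩ := pow_unbounded_of_one_lt (R / nrm (v j)) (by norm_num : (1:ℝ) < 2)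
  obtain ⟨n, hn⟩ := hiter m
  rw [div_lt_iff₀ (nrm_pos hj)] at hm
  have := hR (j + n)
  linarith

end

end SEC
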