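import Crest.Agent.SEC_Cls

/-!
SEC-HH2. `HH2map_homotopic`: Mathlib has homotopy invariance of singular chains: `TopCat.Homotopy.congr_homologyMap_singularChainComplexFunctor` (search for it).
`plane_acyclic`: `id` of `ℝ × ℝ` is homotopic to a constant map, which factors through a point; `H₂(point) = 0`
(`isZero_singularHomologyFunctor_of_totallyDisconnectedSpace`), so `H₂(ℝ×ℝ) = 0`, and `exists_cls` gives `cls z = 0 ↔ ∃ c, bd c = z`.
-/

set_option autoImplicit false
open scoped ContDiff Manifold Topology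
open Filter

namespace SEC

noncomputable section

theorem HH2map_homotopic {X Y : Type} [TopologicalSpace X] [TopologicalSpace Y]
    (f g : C(X, Y)) (h : ContinuousMap.Homotopic f g) :
    HH2map (TopCat.ofHom f) = HH2map (TopCat.ofHom g) := by
  obtain ⟨H⟩ := h
  have H' : TopCat.Homotopy (TopCat.ofHom f) (TopCat.ofHom g) := H
  exact H'.congr_homologyMap_singularChainComplexFunctor (ModuleCat.of ℝ ℝ) 2

theorem HH2_unit_zero : CategoryTheory.Limits.IsZero (HH2 (TopCat.of PUnit.{1})) :=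
  AlgebraicTopology.isZero_singularHomologyFunctor_of_totallyDisconnectedSpace
    (ModuleCat.{0} ℝ) 2 (ModuleCat.of ℝ ℝ) (TopCat.of PUnit.{1}) (by norm_num)

theorem HH2_plane_zero : CategoryTheory.Limits.IsZero (HH2 (TopCat.of (ℝ × ℝ))) := by
  obtain ⟨y, hy⟩ := id_nullhomotopic (ℝ × ℝ)
  have hid : HH2map (TopCat.ofHom (ContinuousMap.id (ℝ × ℝ))) =
      HH2map (TopCat.ofHom (ContinuousMap.const (ℝ × ℝ) y)) := HH2map_homotopic _ _ hy
  have h1 : HH2map (TopCat.ofHom (ContinuousMap.id (ℝ × ℝ))) =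
      CategoryTheory.CategoryStruct.id (HH2 (TopCat.of (ℝ × ℝ))) :=
    CategoryTheory.Functor.map_id _ _
  have h2 : TopCat.ofHom (ContinuousMap.const (ℝ × ℝ) y) =
      CategoryTheory.CategoryStruct.comp
        (TopCat.ofHom (ContinuousMap.const (ℝ × ℝ) PUnit.unit))
        (TopCat.ofHom (ContinuousMap.const PUnit.{1} y)) := rfl
  have h3 : HH2map (TopCat.ofHom (ContinuousMap.const (ℝ × ℝ) y)) =
      CategoryTheory.CategoryStruct.comp
        (HH2map (TopCat.ofHom (ContinuousMap.const (ℝ × ℝ) PUnit.unit)))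
        (HH2map (TopCat.ofHom (ContinuousMap.const PUnit.{1} y))) := by
    rw [h2]; exact CategoryTheory.Functor.map_comp _ _ _
  rw [CategoryTheory.Limits.IsZero.iff_id_eq_zero, ← h1, hid, h3,
    HH2_unit_zero.eq_zero_of_tgt (HH2map (TopCat.ofHom (ContinuousMap.const (ℝ × ℝ) PUnit.unit))),
    CategoryTheory.Limits.zero_comp]

theorem plane_acyclic (z : Ch 2 (ℝ × ℝ)) (hz : bd 1 (ℝ × ℝ) z = 0) :
    ∃ c, bd 2 (ℝ × ℝ) c = z := by
  obtain ⟨cls, hcls, -⟩ := exists_cls
  have := (hcls (TopCat.of (ℝ × ℝ)) ⟨z, hz⟩).mp ?_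
  · exact this
  · have hz0 := HH2_plane_zero
    rw [ModuleCat.isZero_iff_subsingleton] at hz0
    exact Subsingleton.elim _ _

end

end SEC
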