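import Crest.Agent.SEC_Rot

/-!
SEC-Layers.
1. `exists_layers`: recursion, `δ (l+1) = min (δ l / 2) (half the minimum of ‖rot^n-1‖ over 0<n<2^(l+2))`
(positive by `rot_pow_ne_one`).
2. `lay_prod`: `lay ≥ 1/2` always and `lay (δ l) y = 1` if `‖y-1‖ ≥ δ l`. For fixed `l` the indices `k` with
`‖rot^(k+1) x - 1‖ < δ l` are pairwise at distance `≥ 2^(l+1)` (two of them at distance n give
`‖rot^n-1‖ < 2 δ l`), so there are at most `n / 2^(l+1) + 1` of them below `n`. Swap the products; the exponent of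
`1/2` is at most `∑_{l<m} (n/2^(l+1) + 1) ≤ n + m`. (Natural number division: the number of visits is
`≤ (n-1)/2^(l+1)+1`.)
-/

set_option autoImplicit false
open scoped ContDiff Manifold Topology
open Filter

namespace SEC

noncomputable section

private theorem layers_gap (N : ℕ) : ∃ c : ℝ, 0 < c ∧ ∀ n : ℕ, 0 < n → n < N → 2 * c ≤ ‖rot^n - 1‖ := by
  induction N with
  | zero => exact ⟨1, one_pos, fun n _ h => absurd h (Nat.not_lt_zero n)⟩
  | succ N ih =>
    obtain ⟨c, hc, h⟩ := ih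
    rcases Nat.eq_zero_or_pos N with hN | hN
    · subst hN
      exact ⟨1, one_pos, fun n h0 h1 => by omega⟩
    · have hpos : 0 < ‖rot^N - 1‖ := norm_pos_iff.mpr (sub_ne_zero.mpr (rot_pow_ne_one N hN))
      refine ⟨min c (‖rot^N - 1‖ / 2), lt_min hc (by positivity), fun n h0 h1 => ?_⟩
      rcases Nat.lt_or_ge n N with h2 | h2
      · have := min_le_left c (‖rot^N - 1‖ / 2)
        linarith [h n h0 h2]
      · have h3 : n = N := by omega
        subst h3
        have := min_le_right c (‖rot^n - 1‖ / 2)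
        linarith

private def layC (l : ℕ) : ℝ := (layers_gap (2^(l+1))).choose

private theorem layC_pos (l : ℕ) : 0 < layC l := (layers_gap (2^(l+1))).choose_spec.1

private theorem layC_gap (l n : ℕ) (h0 : 0 < n) (h1 : n < 2^(l+1)) : 2 * layC l ≤ ‖rot^n - 1‖ :=
  (layers_gap (2^(l+1))).choose_spec.2 n h0 h1

private def layD : ℕ → ℝ
  | 0 => min 1 (layC 0)
  | l+1 => min (layD l / 2) (layC (l+1))

private theorem layD_pos : ∀ l, 0 < layD l
  | 0 => lt_min one_pos (layC_pos 0)
  | l+1 => lt_min (half_pos (layD_pos l)) (layC_pos (l+1))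

private theorem layD_le (l : ℕ) : layD l ≤ layC l := by
  cases l with
  | zero => exact min_le_right _ _
  | succ l => exact min_le_right _ _

private theorem layD_half (l : ℕ) : layD (l+1) ≤ layD l / 2 := min_le_left _ _

private theorem layD_le_one : ∀ l, layD l ≤ 1
  | 0 => min_le_left _ _
  | l+1 => by
      have h1 := layD_half l
      have h2 := layD_le_one l
      have h3 := layD_pos l
      linarith

theorem exists_layers : ∃ δ : ℕ → ℝ, (∀ l, 0 < δ l) ∧ (∀ l, δ l ≤ 1) ∧
    (∀ l, δ (l+1) ≤ δ l / 2) ∧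
    (∀ l n : ℕ, 0 < n → n < 2^(l+1) → 2 * δ l ≤ ‖rot^n - 1‖) :=
  ⟨layD, layD_pos, layD_le_one, layD_half, fun l n h0 h1 => by
    have h2 := layD_le l
    have h3 := layC_gap l n h0 h1
    linarith⟩

/-- a layer: `1/2` for `‖x-1‖ ≤ δ/2`, `1` for `‖x-1‖ ≥ δ`. -/
def lay (δ : ℝ) (x : ℂ) : ℝ := 1 - 1/2 * (1 - stp ((δ/2)^2) (δ^2) (‖x - 1‖^2))

private theorem lay_ge (δ : ℝ) (x : ℂ) : 1/2 ≤ lay δ x := by
  unfold lay
  have := stp_nonneg ((δ/2)^2) (δ^2) (‖x - 1‖^2)
  linarith

private theorem lay_eq_one {δ : ℝ} (hδ : 0 < δ) {x : ℂ} (h : δ ≤ ‖x - 1‖) : lay δ x = 1 := by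
  unfold lay
  rw [stp_eq_one (by nlinarith [mul_pos hδ hδ]) (pow_le_pow_left₀ hδ.le h 2)]
  ring

private theorem lay_sum_div (n m : ℕ) :
    (∑ l ∈ Finset.range m, n / 2^(l+1)) + n / 2^m ≤ n := by
  induction m with
  | zero => simp
  | succ m ih =>
    rw [Finset.sum_range_succ]
    have h : n / 2^(m+1) = n / 2^m / 2 := by
      rw [pow_succ, Nat.div_div_eq_div_mul]
    have h2 : n / 2^(m+1) + n / 2^(m+1) ≤ n / 2^m := by
      rw [h]; omega
    omega

private theorem lay_card (δ : ℝ) (M : ℕ) (hM : 0 < M)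
    (hgap : ∀ n : ℕ, 0 < n → n < M → 2 * δ ≤ ‖rot^n - 1‖) (n : ℕ)
    (x : ℂ) (hx : ‖x‖ = 1) :
    ((Finset.range n).filter (fun k => ‖rot^(k+1) * x - 1‖ < δ)).card ≤ n / M + 1 := by
  classical
  have key : ∀ a b : ℕ, a < b → a / M = b / M → ‖rot^(a+1) * x - 1‖ < δ →
      ‖rot^(b+1) * x - 1‖ < δ → False := by
    intro a b hab hq ha hb
    have hlt : b - a < M := by
      have h1 := Nat.div_add_mod a M
      have h2 := Nat.div_add_mod b M
      have h3 := Nat.mod_lt b hM
      rw [hq] at h1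
      omega
    have h1 := hgap (b - a) (by omega) hlt
    have h2 : rot^(b-a) - 1 = (rot^(b+1) * x - rot^(a+1) * x) / (rot^(a+1) * x) := by
      have hx0 : x ≠ 0 := by
        intro h; rw [h, norm_zero] at hx; norm_num at hx
      have hr : rot^(a+1) * x ≠ 0 := mul_ne_zero (pow_ne_zero _ rot_ne_zero) hx0
      rw [eq_div_iff hr]
      have : rot^(b+1) = rot^(b-a) * rot^(a+1) := by
        rw [← pow_add]; congr 1; omega
      rw [this]; ring
    have h3 : ‖rot^(b-a) - 1‖ = ‖rot^(b+1) * x - rot^(a+1) * x‖ := by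
      rw [h2, norm_div, norm_mul, norm_pow, rot_norm, hx]; simp
    have h4 : ‖rot^(b+1) * x - rot^(a+1) * x‖ ≤ ‖rot^(b+1) * x - 1‖ + ‖rot^(a+1) * x - 1‖ := by
      have : rot^(b+1) * x - rot^(a+1) * x = (rot^(b+1) * x - 1) - (rot^(a+1) * x - 1) := by ring
      rw [this]; exact norm_sub_le _ _
    rw [h3] at h1
    linarith
  have hcard : ((Finset.range n).filter (fun k => ‖rot^(k+1) * x - 1‖ < δ)).card
      ≤ (Finset.range (n / M + 1)).card := by
    apply Finset.card_le_card_of_injOn (fun k => k / M)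
    · intro k hk
      simp only [Finset.coe_filter, Finset.mem_range, Set.mem_ofPred_eq] at hk
      simp only [Finset.coe_range, Set.mem_Iio]
      have : k / M ≤ n / M := Nat.div_le_div_right hk.1.le
      omega
    · intro a ha b hb hab
      simp only [Finset.coe_filter, Finset.mem_range, Set.mem_ofPred_eq] at ha hb
      rcases lt_trichotomy a b with h | h | h
      · exact (key a b h hab ha.2 hb.2).elim
      · exact h
      · exact (key b a h hab.symm hb.2 ha.2).elim
  rwa [Finset.card_range] at hcard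

theorem lay_prod (δ : ℕ → ℝ) (h0 : ∀ l, 0 < δ l)
    (hgap : ∀ l n : ℕ, 0 < n → n < 2^(l+1) → 2 * δ l ≤ ‖rot^n - 1‖) (m n : ℕ)
    (x : ℂ) (hx : ‖x‖ = 1) :
    (1/2 : ℝ)^(n+m) ≤ ∏ k ∈ Finset.range n, ∏ l ∈ Finset.range m, lay (δ l) (rot^(k+1) * x) := by
  classical
  rw [Finset.prod_comm]
  have h1 : ∀ l : ℕ, (1/2 : ℝ)^(n / 2^(l+1) + 1) ≤ ∏ k ∈ Finset.range n, lay (δ l) (rot^(k+1) * x) := by
    intro l
    have hc := lay_card (δ l) (2^(l+1)) (by positivity) (hgap l) n x hx
    have hle : ∏ k ∈ Finset.range n, (if ‖rot^(k+1) * x - 1‖ < δ l then (1/2:ℝ) else 1) ≤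
        ∏ k ∈ Finset.range n, lay (δ l) (rot^(k+1) * x) := by
      apply Finset.prod_le_prod
      · intro k _; split_ifs <;> norm_num
      · intro k _
        split_ifs with hk
        · exact lay_ge _ _
        · exact (lay_eq_one (h0 l) (not_lt.mp hk)).ge
    refine le_trans ?_ hle
    rw [Finset.prod_ite, Finset.prod_const_one, mul_one, Finset.prod_const]
    exact pow_le_pow_of_le_one (by norm_num) (by norm_num) hc
  have h2 : (1/2 : ℝ)^(n+m) ≤ ∏ l ∈ Finset.range m, (1/2 : ℝ)^(n / 2^(l+1) + 1) := by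
    rw [Finset.prod_pow_eq_pow_sum]
    apply pow_le_pow_of_le_one (by norm_num) (by norm_num)
    rw [Finset.sum_add_distrib]
    have := le_trans (Nat.le_add_right _ _) (lay_sum_div n m)
    simp only [Finset.sum_const, Finset.card_range, smul_eq_mul, mul_one]
    omega
  refine h2.trans ?_
  apply Finset.prod_le_prod
  · intro l _; positivity
  · intro l _; exact h1 l

end

end SEC
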