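import Crest.Agent.SEC_GDefs
import Crest.Agent.SEC_Eras
import Crest.Agent.SEC_Growth
import Crest.Agent.SEC_EraGlue
import Crest.Agent.SEC_Glue

/-!
SEC-Local (assembly): the local map.
-/

set_option autoImplicit false
open scoped ContDiff Manifold Topology
open Filter

namespace SEC

noncomputable section

theorem exists_localMap : ∃ F : ℂ → V → V, LocalMap F := by
  obtain ⟨E, bb, ε, hE, hS⟩ := exists_eras
  obtain ⟨A, ε', hGH⟩ := era_glueHyp E bb ε hS
  obtain ⟨C, hC, hD⟩ := exists_growth_consts E hE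
  obtain ⟨ρ, F, hρ0, hρC, hG, hsm⟩ := glue _ A ε' hGH C hC (1/3200) (by norm_num)
  have hF0 : ∀ x v, ‖x‖ = 1 → 1/3200 ≤ nrm v → F x v =
      (((50 * (nrm v * rho (‖v.1‖^2 / nrm v^2)) : ℝ) : ℂ) *
      (v.1 / ((‖v.1‖ : ℝ) : ℂ))^2, 0) := by
    intro x v hx hv
    rw [hG.outer x v (by rw [hρ0]; exact hv)]
    exact Era.F_zero_era (E 0) hE.eta_zero hE.b_zero x hx v
  refine ⟨F, ⟨hsm, hG.zero, fun x v => glued_bound E hE hG x v, fun x v hx hv => ?_,
    fun x v hx hv hv' => ?_, fun x v hx hrot hv hR => hD ρ F hG hρC x v hx hrot hv hR⟩⟩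
  · rw [hF0 x v hx hv]
  · rw [hF0 x v hx hv]
    have hpos : 0 < nrm v := lt_of_lt_of_le (by norm_num) hv
    have hr : rho (‖v.1‖^2 / nrm v^2) = 1 := by
      apply rho_eq_one
      rw [le_div_iff₀ (by positivity)]
      nlinarith [norm_nonneg v.1]
    rw [hr, mul_one]

end

end SEC
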