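import Crest.Agent.SEC_GDefs

/-!
SEC-OmBd. Spinor lift: `s p = (hz p, 1 - ht p)/sqrt(2(1 - ht p))` for `p ≠ north`, `(1,0)` for north; `prj p = s s^*`; so
`Bq x0 x1 x2 x3 = <s0,s1><s1,s2><s2,s3><s3,s0>` with `<a,b> = conj a.1 * b.1 + conj a.2 * b.2`. `Bq` is continuous and `Bq x x x x = 1`, so by compactness `|arg| < 1` for nearby points.
`cube_sum`: the product over the six faces (with orientation; reversing a face conjugates) contains each edge twice in opposite directions, so it is a positive real: the signed sum of the six args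
is a multiple of `2π` of absolute value `< 6 < 2π`, so `0`.
`Om_boundary`: for the map `X i j k = τ (pt3 (gr N i) (gr N j) (gr N k))`, `N` large (uniform continuity of `τ ∘ pt3`), sum `cube_sum` over all `N^3` small cubes and telescope: only the faces of the
big cube remain: `s=0`: constant (arg 0); `s=1`: face `fc 0` with parameters `(t,u)`; `t=0`: depends only on `s` (squares `(x,y,y,x)`: `Bq` real positive, arg 0); `t=1`: face `fc 1` with `(s,u)`; `u=1`: face `fc 2`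
with `(s,t)`; `u=0`: face `fc 3` with `(s,t)`. [`pt3 1 t u = fc 0 (pt2 t u)`, `pt3 s 1 u = fc 1 (pt2 s u)`, `pt3 s t 1 = fc 2 (pt2 s t)`, `pt3 s t 0 = fc 3 (pt2 s t)`; `fc` is `stdSimplex.map succAbove`.]
-/

set_option autoImplicit false
open scoped ContDiff Manifold Topology
open Filter

namespace SEC

noncomputable section

local notation "cj" => starRingEnd ℂ

theorem OmBd_norm (p : S2) : (p.1 0)^2 + (p.1 1)^2 + (p.1 2)^2 = 1 := by
  have h := p.2
  rw [mem_sphere_zero_iff_norm] at h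
  have h2 := EuclideanSpace.norm_sq_eq p.1
  rw [h, Fin.sum_univ_three] at h2
  simp only [Real.norm_eq_abs, sq_abs, one_pow] at h2
  exact h2.symm

theorem OmBd_spinor (p : S2) : ∃ a b : ℂ, prj p = !![a * cj a, a * cj b; b * cj a, b * cj b] := by
  have hn := OmBd_norm p
  set x := p.1 0 with hx
  set y := p.1 1 with hy
  set h := p.1 2 with hh
  have hz' : hz p = ⟨x, y⟩ := rfl
  have ht' : ht p = h := rfl
  unfold prj
  rw [hz', ht']
  by_cases h1 : h = 1
  · have hx0 : x = 0 := by nlinarith [sq_nonneg x, sq_nonneg y]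
    have hy0 : y = 0 := by nlinarith [sq_nonneg x, sq_nonneg y]
    refine ⟨1, 0, ?_⟩
    rw [h1, hx0, hy0]
    have : (⟨0, 0⟩ : ℂ) = 0 := rfl
    rw [this]
    ext i j
    fin_cases i <;> fin_cases j <;> simp
  · have hlt : h < 1 := by
      have : h ≤ 1 := by nlinarith [sq_nonneg x, sq_nonneg y]
      exact lt_of_le_of_ne this h1
    set r := √(2 * (1 - h)) with hr
    have hr0 : 0 < r := Real.sqrt_pos.mpr (by linarith)
    have hr2 : r * r = 2 * (1 - h) := Real.mul_self_sqrt (by linarith)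
    have hrne : r ≠ 0 := hr0.ne'
    have h1' : 1 - h ≠ 0 := by linarith [hlt]
    refine ⟨⟨x / r, y / r⟩, ⟨(1 - h) / r, 0⟩, ?_⟩
    have e1 : x / r * (x / r) + y / r * (y / r) = (1 + h) / 2 := by
      field_simp
      nlinarith
    have hr2' : r ^ 2 = 2 * (1 - h) := by rw [sq]; exact hr2
    have e2 : x / r * ((1 - h) / r) = x / 2 := by
      field_simp
      rw [hr2']; ring
    have e3 : y / r * ((1 - h) / r) = y / 2 := by
      field_simp
      rw [hr2']; ring
    have e4 : (1 - h) / r * ((1 - h) / r) = (1 - h) / 2 := by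
      field_simp
      rw [hr2']; ring
    have e5 : ((1 - h) / r) * (x / r) = x / 2 := by rw [mul_comm]; exact e2
    have e6 : ((1 - h) / r) * (y / r) = y / 2 := by rw [mul_comm]; exact e3
    ext i j
    fin_cases i <;> fin_cases j
    · apply Complex.ext
      · simp; linarith
      · simp; ring
    · apply Complex.ext
      · simp; linarith
      · simp; linarith
    · apply Complex.ext
      · simp; linarith
      · simp; linarith
    · apply Complex.ext
      · simp; linarith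
      · simp

theorem OmBd_exists_ip : ∃ ip : S2 → S2 → ℂ, (∀ p q, ip q p = cj (ip p q)) ∧
    (∀ p, ip p p = 1) ∧
    ∀ x0 x1 x2 x3, Bq x0 x1 x2 x3 = ip x0 x1 * ip x1 x2 * ip x2 x3 * ip x3 x0 := by
  choose a b hab using OmBd_spinor
  refine ⟨fun p q => cj (a p) * a q + cj (b p) * b q, ?_, ?_, ?_⟩
  · intro p q
    simp only [map_add, map_mul, Complex.conj_conj]
    ring
  · intro p
    have h := congrArg Matrix.trace (hab p)
    simp only [prj, Matrix.trace_fin_two_of] at h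
    have h2 : (((1 + ht p)/2 : ℝ) : ℂ) + (((1 - ht p)/2 : ℝ) : ℂ) = 1 := by
      push_cast; ring
    rw [h2] at h
    rw [h]
    ring
  · intro x0 x1 x2 x3
    unfold Bq
    rw [hab x0, hab x1, hab x2, hab x3]
    simp only [Matrix.mul_fin_two, Matrix.trace_fin_two_of]
    ring

/-- the Bargmann invariant is multiplicative with cancellation on a cube. -/
theorem Bq_conj (x0 x1 x2 x3 : S2) : Bq x0 x3 x2 x1 = (starRingEnd ℂ) (Bq x0 x1 x2 x3) := by
  obtain ⟨ip, hc, -, hB⟩ := OmBd_exists_ip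
  rw [hB, hB, map_mul, map_mul, map_mul, ← hc, ← hc, ← hc, ← hc]
  ring

theorem OmBd_Bq_self (x : S2) : Bq x x x x = 1 := by
  obtain ⟨ip, hc, h1, hB⟩ := OmBd_exists_ip
  rw [hB, h1]; ring

theorem OmBd_arg_pal (x y : S2) : Complex.arg (Bq x y y x) = 0 := by
  obtain ⟨ip, hc, h1, hB⟩ := OmBd_exists_ip
  have : Bq x y y x = ((Complex.normSq (ip x y) : ℝ) : ℂ) := by
    rw [hB, h1, h1, hc x y, ← Complex.mul_conj]; ring
  rw [this]
  exact Complex.arg_ofReal_of_nonneg (Complex.normSq_nonneg _)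

theorem OmBd_cont_hz : Continuous hz := by
  have : hz = fun p : S2 => ((p.1 0 : ℝ) : ℂ) + ((p.1 1 : ℝ) : ℂ) * Complex.I := by
    funext p
    apply Complex.ext <;> simp [hz]
  rw [this]
  fun_prop

theorem OmBd_cont_ht : Continuous ht := by
  unfold ht
  fun_prop

theorem OmBd_cont_prj : Continuous prj := by
  have h1 := OmBd_cont_hz
  have h2 := OmBd_cont_ht
  refine continuous_pi fun i => continuous_pi fun j => ?_
  fin_cases i <;> fin_cases j
  · show Continuous fun p => (((1 + ht p)/2 : ℝ) : ℂ)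
    fun_prop
  · show Continuous fun p => hz p / 2
    fun_prop
  · show Continuous fun p => (starRingEnd ℂ) (hz p) / 2
    exact (Complex.continuous_conj.comp h1).div_const _
  · show Continuous fun p => (((1 - ht p)/2 : ℝ) : ℂ)
    fun_prop

theorem OmBd_cont_Bq : Continuous (fun q : S2 × S2 × S2 × S2 => Bq q.1 q.2.1 q.2.2.1 q.2.2.2) := by
  unfold Bq
  have h := OmBd_cont_prj
  refine Continuous.matrix_trace ?_
  exact (((h.comp continuous_fst).matrix_mul (h.comp (continuous_fst.comp continuous_snd))).matrix_mul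
    (h.comp (continuous_fst.comp (continuous_snd.comp continuous_snd)))).matrix_mul
    (h.comp (continuous_snd.comp (continuous_snd.comp continuous_snd)))

theorem exists_delta : ∃ δ > 0, ∀ x0 x1 x2 x3 : S2, dist x0 x1 < δ → dist x0 x2 < δ →
    dist x0 x3 < δ → |Complex.arg (Bq x0 x1 x2 x3)| < 1 ∧ Bq x0 x1 x2 x3 ≠ 0 := by
  obtain ⟨ε, hε, h1⟩ : ∃ ε > 0, ∀ z : ℂ, dist z 1 < ε → |Complex.arg z| < 1 ∧ z ≠ 0 := by
    have hc : ContinuousAt Complex.arg 1 := Complex.continuousAt_arg (by simp)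
    obtain ⟨e1, he1, h1⟩ := Metric.continuousAt_iff.mp hc 1 one_pos
    refine ⟨min e1 1, lt_min he1 one_pos, fun z hz => ⟨?_, ?_⟩⟩
    · have := h1 (lt_of_lt_of_le hz (min_le_left _ _))
      rw [Complex.arg_one, Real.dist_eq, sub_zero] at this
      exact this
    · rintro rfl
      have := lt_of_lt_of_le hz (min_le_right _ _)
      simp at this
  have hu := CompactSpace.uniformContinuous_of_continuous OmBd_cont_Bq
  obtain ⟨δ, hδ, h2⟩ := Metric.uniformContinuous_iff.mp hu ε hε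
  refine ⟨δ, hδ, fun x0 x1 x2 x3 d1 d2 d3 => h1 _ ?_⟩
  have h3 := @h2 (x0, x1, x2, x3) (x0, x0, x0, x0) ?_
  · simp only [OmBd_Bq_self] at h3
    exact h3
  · simp only [Prod.dist_eq, dist_self]
    rw [dist_comm x1, dist_comm x2, dist_comm x3]
    simp only [max_lt_iff]
    exact ⟨hδ, d1, d2, d3⟩

private theorem OmBd_args (z1 z2 z3 z4 z5 z6 : ℂ) (h1 : z1 ≠ 0) (h2 : z2 ≠ 0) (h3 : z3 ≠ 0)
    (h4 : z4 ≠ 0) (h5 : z5 ≠ 0) (h6 : z6 ≠ 0) (a1 : |z1.arg| < 1) (a2 : |z2.arg| < 1)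
    (a3 : |z3.arg| < 1) (a4 : |z4.arg| < 1) (a5 : |z5.arg| < 1) (a6 : |z6.arg| < 1)
    (R : ℝ) (hR : 0 ≤ R) (hP : z1 * cj z2 * (cj z3 * z4) * (z5 * cj z6) = (R : ℂ)) :
    (z1.arg - z2.arg) - (z3.arg - z4.arg) + (z5.arg - z6.arg) = 0 := by
  set S : ℝ := (z1.arg - z2.arg) - (z3.arg - z4.arg) + (z5.arg - z6.arg) with hS
  have hz : ∀ z : ℂ, z = (‖z‖ : ℂ) * Complex.exp (z.arg * Complex.I) := fun z =>
    (Complex.norm_mul_exp_arg_mul_I z).symm
  have hcz : ∀ z : ℂ, cj z = (‖z‖ : ℂ) * Complex.exp (-(z.arg * Complex.I)) := by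
    intro z
    conv_lhs => rw [hz z]
    rw [map_mul, Complex.conj_ofReal, ← Complex.exp_conj, map_mul, Complex.conj_ofReal,
      Complex.conj_I, mul_neg]
  have hprod : (R : ℂ) = ((‖z1‖ * ‖z2‖ * (‖z3‖ * ‖z4‖) * (‖z5‖ * ‖z6‖) : ℝ) : ℂ) *
      Complex.exp (S * Complex.I) := by
    have hexp : Complex.exp (S * Complex.I) = Complex.exp (z1.arg * Complex.I) *
        Complex.exp (-(z2.arg * Complex.I)) * (Complex.exp (-(z3.arg * Complex.I)) *
        Complex.exp (z4.arg * Complex.I)) * (Complex.exp (z5.arg * Complex.I) *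
        Complex.exp (-(z6.arg * Complex.I))) := by
      rw [← Complex.exp_add, ← Complex.exp_add, ← Complex.exp_add, ← Complex.exp_add,
        ← Complex.exp_add]
      congr 1
      rw [hS]
      push_cast
      ring
    rw [← hP, hexp, hcz z2, hcz z3, hcz z6]
    conv_lhs => rw [hz z1, hz z4, hz z5]
    push_cast
    ring
  set Q : ℝ := ‖z1‖ * ‖z2‖ * (‖z3‖ * ‖z4‖) * (‖z5‖ * ‖z6‖) with hQ
  have hQ0 : 0 < Q := by
    have := norm_pos_iff.mpr h1
    have := norm_pos_iff.mpr h2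
    have := norm_pos_iff.mpr h3
    have := norm_pos_iff.mpr h4
    have := norm_pos_iff.mpr h5
    have := norm_pos_iff.mpr h6
    positivity
  have hRQ : R = Q := by
    have := congrArg norm hprod
    rw [norm_mul, Complex.norm_exp_ofReal_mul_I, mul_one, Complex.norm_real, Complex.norm_real,
      Real.norm_of_nonneg hR, Real.norm_of_nonneg hQ0.le] at this
    exact this
  have hone : Complex.exp (S * Complex.I) = 1 := by
    rw [hRQ] at hprod
    have hQc : (Q : ℂ) ≠ 0 := by exact_mod_cast hQ0.ne'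
    have h7 : (Q : ℂ) * Complex.exp (S * Complex.I) = (Q : ℂ) * 1 := by
      rw [mul_one]; exact hprod.symm
    exact mul_left_cancel₀ hQc h7
  obtain ⟨n, hn⟩ := Complex.exp_eq_one_iff.mp hone
  have hSn : S = n * (2 * Real.pi) := by
    have h7 : (S : ℂ) * Complex.I = ((n * (2 * Real.pi) : ℝ) : ℂ) * Complex.I := by
      rw [hn]; push_cast; ring
    exact_mod_cast mul_right_cancel₀ Complex.I_ne_zero h7
  have hSabs : |S| < 6 := by
    rw [abs_lt] at *
    rw [hS]
    constructor <;> linarith [a1.1, a1.2, a2.1, a2.2, a3.1, a3.2, a4.1, a4.2, a5.1, a5.2, a6.1, a6.2]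
  have hpi := Real.pi_gt_three
  have hn0 : n = 0 := by
    by_contra hne
    have h8 : (1 : ℝ) ≤ |(n : ℝ)| := by
      exact_mod_cast Int.one_le_abs hne
    have h9 : |S| = |(n : ℝ)| * (2 * Real.pi) := by
      rw [hSn, abs_mul, abs_of_pos (by positivity : (0 : ℝ) < 2 * Real.pi)]
    nlinarith
  rw [hSn, hn0]
  simp

theorem cube_sum : ∃ δ > 0, ∀ x : Fin 2 → Fin 2 → Fin 2 → S2,
    (∀ i j k i' j' k', dist (x i j k) (x i' j' k') < δ) →
    (Complex.arg (Bq (x 1 0 0) (x 1 1 0) (x 1 1 1) (x 1 0 1)) -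
      Complex.arg (Bq (x 0 0 0) (x 0 1 0) (x 0 1 1) (x 0 0 1))) -
    (Complex.arg (Bq (x 0 1 0) (x 1 1 0) (x 1 1 1) (x 0 1 1)) -
      Complex.arg (Bq (x 0 0 0) (x 1 0 0) (x 1 0 1) (x 0 0 1))) +
    (Complex.arg (Bq (x 0 0 1) (x 1 0 1) (x 1 1 1) (x 0 1 1)) -
      Complex.arg (Bq (x 0 0 0) (x 1 0 0) (x 1 1 0) (x 0 1 0))) = 0 := by
  obtain ⟨δ, hδ, hd⟩ := exists_delta
  refine ⟨δ, hδ, fun x hx => ?_⟩
  obtain ⟨ip, hc, h1, hB⟩ := OmBd_exists_ip
  have f1 := hd _ _ _ _ (hx 1 0 0 1 1 0) (hx 1 0 0 1 1 1) (hx 1 0 0 1 0 1)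
  have f2 := hd _ _ _ _ (hx 0 0 0 0 1 0) (hx 0 0 0 0 1 1) (hx 0 0 0 0 0 1)
  have f3 := hd _ _ _ _ (hx 0 1 0 1 1 0) (hx 0 1 0 1 1 1) (hx 0 1 0 0 1 1)
  have f4 := hd _ _ _ _ (hx 0 0 0 1 0 0) (hx 0 0 0 1 0 1) (hx 0 0 0 0 0 1)
  have f5 := hd _ _ _ _ (hx 0 0 1 1 0 1) (hx 0 0 1 1 1 1) (hx 0 0 1 0 1 1)
  have f6 := hd _ _ _ _ (hx 0 0 0 1 0 0) (hx 0 0 0 1 1 0) (hx 0 0 0 0 1 0)
  have nn : ∀ p q : S2, ip p q * ip q p = ((Complex.normSq (ip p q) : ℝ) : ℂ) := by
    intro p q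
    rw [hc p q, Complex.mul_conj]
  refine OmBd_args _ _ _ _ _ _ f1.2 f2.2 f3.2 f4.2 f5.2 f6.2 f1.1 f2.1 f3.1 f4.1 f5.1 f6.1
    (Complex.normSq (ip (x 1 0 0) (x 1 1 0)) * Complex.normSq (ip (x 1 1 0) (x 1 1 1)) *
      Complex.normSq (ip (x 1 1 1) (x 1 0 1)) * Complex.normSq (ip (x 1 0 1) (x 1 0 0)) *
      Complex.normSq (ip (x 0 0 0) (x 0 1 0)) * Complex.normSq (ip (x 0 1 0) (x 0 1 1)) *
      Complex.normSq (ip (x 0 1 1) (x 0 0 1)) * Complex.normSq (ip (x 0 0 1) (x 0 0 0)) *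
      Complex.normSq (ip (x 0 1 0) (x 1 1 0)) * Complex.normSq (ip (x 1 1 1) (x 0 1 1)) *
      Complex.normSq (ip (x 0 0 0) (x 1 0 0)) * Complex.normSq (ip (x 1 0 1) (x 0 0 1))) ?_ ?_
  · repeat' apply mul_nonneg
    all_goals exact Complex.normSq_nonneg _
  · rw [← Bq_conj, ← Bq_conj, ← Bq_conj]
    push_cast
    simp only [← nn, hB]
    ring

theorem OmBd_cont_pt3 : Continuous (fun q : unitInterval × unitInterval × unitInterval =>
    pt3 q.1 q.2.1 q.2.2) := by
  unfold pt3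
  refine Continuous.subtype_mk ?_ _
  refine continuous_pi fun i => ?_
  fin_cases i
  · show Continuous fun q : unitInterval × unitInterval × unitInterval => 1 - (q.1 : ℝ)
    fun_prop
  · show Continuous fun q : unitInterval × unitInterval × unitInterval =>
      (q.1 : ℝ) * (1 - q.2.1)
    fun_prop
  · show Continuous fun q : unitInterval × unitInterval × unitInterval =>
      (q.1 : ℝ) * q.2.1 * (1 - q.2.2)
    fun_prop
  · show Continuous fun q : unitInterval × unitInterval × unitInterval =>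
      (q.1 : ℝ) * q.2.1 * q.2.2
    fun_prop

theorem OmBd_gr_zero (N : ℕ) : gr N 0 = 0 := by
  unfold gr
  simp

theorem OmBd_gr_self {N : ℕ} (hN : 0 < N) : gr N N = 1 := by
  unfold gr
  have : ((N : ℝ) / N) = 1 := div_self (by exact_mod_cast hN.ne')
  rw [this]
  exact Set.projIcc_right zero_le_one

theorem OmBd_gr_dist (N i : ℕ) : dist (gr N i) (gr N (i+1)) ≤ 1 / N := by
  unfold gr
  have h1 : dist (Set.projIcc (0:ℝ) 1 zero_le_one ((i:ℝ) / N))
      (Set.projIcc (0:ℝ) 1 zero_le_one (((i+1 : ℕ):ℝ) / N)) ≤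
      dist ((i:ℝ) / N) (((i+1 : ℕ):ℝ) / N) := by
    have := (LipschitzWith.projIcc (zero_le_one (α := ℝ))).dist_le_mul ((i:ℝ) / N) (((i+1 : ℕ):ℝ) / N)
    simpa using this
  refine h1.trans (le_of_eq ?_)
  rw [Real.dist_eq]
  push_cast
  rw [← sub_div]
  have : (i : ℝ) - (i + 1) = -1 := by ring
  rw [this, abs_div, abs_neg, abs_one, abs_of_nonneg (Nat.cast_nonneg N)]

theorem OmBd_fc_succAbove {n : ℕ} (i : Fin (n+2)) (s : stdSimplex ℝ (Fin (n+1))) (j : Fin (n+1)) :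
    (fc i s) (i.succAbove j) = s j := by
  show (FunOnFinite.linearMap ℝ ℝ i.succAbove s) (i.succAbove j) = s j
  rw [FunOnFinite.linearMap_apply_apply]
  have : (Finset.univ.filter fun x => i.succAbove x = i.succAbove j) = {j} := by
    ext x
    simp [Fin.succAbove_right_inj]
  rw [this, Finset.sum_singleton]

theorem OmBd_fc_self {n : ℕ} (i : Fin (n+2)) (s : stdSimplex ℝ (Fin (n+1))) :
    (fc i s) i = 0 := by
  show (FunOnFinite.linearMap ℝ ℝ i.succAbove s) i = 0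
  rw [FunOnFinite.linearMap_apply_apply]
  have : (Finset.univ.filter fun x => i.succAbove x = i) = ∅ := by
    ext x
    simp [Fin.succAbove_ne]
  rw [this, Finset.sum_empty]

theorem OmBd_pt3_s1 (t u : unitInterval) : pt3 1 t u = fc 0 (pt2 t u) := by
  refine stdSimplex.ext (funext fun k => ?_)
  fin_cases k
  · show (1 : ℝ) - ((1 : unitInterval) : ℝ) = fc 0 (pt2 t u) 0
    rw [OmBd_fc_self]; simp
  · show ((1 : unitInterval) : ℝ) * (1 - t) = fc 0 (pt2 t u) ((0 : Fin 4).succAbove 0)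
    rw [OmBd_fc_succAbove]
    show _ = 1 - (t : ℝ)
    simp
  · show ((1 : unitInterval) : ℝ) * t * (1 - u) = fc 0 (pt2 t u) ((0 : Fin 4).succAbove 1)
    rw [OmBd_fc_succAbove]
    show _ = (t : ℝ) * (1 - u)
    simp
  · show ((1 : unitInterval) : ℝ) * t * u = fc 0 (pt2 t u) ((0 : Fin 4).succAbove 2)
    rw [OmBd_fc_succAbove]
    show _ = (t : ℝ) * u
    simp

theorem OmBd_pt3_t1 (s u : unitInterval) : pt3 s 1 u = fc 1 (pt2 s u) := by
  refine stdSimplex.ext (funext fun k => ?_)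
  fin_cases k
  · show (1 : ℝ) - s = fc 1 (pt2 s u) ((1 : Fin 4).succAbove 0)
    rw [OmBd_fc_succAbove]
    rfl
  · show (s : ℝ) * (1 - ((1 : unitInterval) : ℝ)) = fc 1 (pt2 s u) 1
    rw [OmBd_fc_self]; simp
  · show (s : ℝ) * ((1 : unitInterval) : ℝ) * (1 - u) = fc 1 (pt2 s u) ((1 : Fin 4).succAbove 1)
    rw [OmBd_fc_succAbove]
    show _ = (s : ℝ) * (1 - u)
    simp
  · show (s : ℝ) * ((1 : unitInterval) : ℝ) * u = fc 1 (pt2 s u) ((1 : Fin 4).succAbove 2)
    rw [OmBd_fc_succAbove]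
    show _ = (s : ℝ) * u
    simp

theorem OmBd_pt3_u1 (s t : unitInterval) : pt3 s t 1 = fc 2 (pt2 s t) := by
  refine stdSimplex.ext (funext fun k => ?_)
  fin_cases k
  · show (1 : ℝ) - s = fc 2 (pt2 s t) ((2 : Fin 4).succAbove 0)
    rw [OmBd_fc_succAbove]
    rfl
  · show (s : ℝ) * (1 - t) = fc 2 (pt2 s t) ((2 : Fin 4).succAbove 1)
    rw [OmBd_fc_succAbove]
    rfl
  · show (s : ℝ) * t * (1 - ((1 : unitInterval) : ℝ)) = fc 2 (pt2 s t) 2
    rw [OmBd_fc_self]; simp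
  · show (s : ℝ) * t * ((1 : unitInterval) : ℝ) = fc 2 (pt2 s t) ((2 : Fin 4).succAbove 2)
    rw [OmBd_fc_succAbove]
    show _ = (s : ℝ) * t
    simp

theorem OmBd_pt3_u0 (s t : unitInterval) : pt3 s t 0 = fc 3 (pt2 s t) := by
  refine stdSimplex.ext (funext fun k => ?_)
  fin_cases k
  · show (1 : ℝ) - s = fc 3 (pt2 s t) ((3 : Fin 4).succAbove 0)
    rw [OmBd_fc_succAbove]
    rfl
  · show (s : ℝ) * (1 - t) = fc 3 (pt2 s t) ((3 : Fin 4).succAbove 1)
    rw [OmBd_fc_succAbove]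
    rfl
  · show (s : ℝ) * t * (1 - ((0 : unitInterval) : ℝ)) = fc 3 (pt2 s t) ((3 : Fin 4).succAbove 2)
    rw [OmBd_fc_succAbove]
    show _ = (s : ℝ) * t
    simp
  · show (s : ℝ) * t * ((0 : unitInterval) : ℝ) = fc 3 (pt2 s t) 3
    rw [OmBd_fc_self]; simp

theorem OmBd_pt3_s0 (t u t' u' : unitInterval) : pt3 0 t u = pt3 0 t' u' := by
  refine stdSimplex.ext (funext fun k => ?_)
  fin_cases k
  · rfl
  · show ((0 : unitInterval) : ℝ) * (1 - t) = ((0 : unitInterval) : ℝ) * (1 - t')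
    simp
  · show ((0 : unitInterval) : ℝ) * t * (1 - u) = ((0 : unitInterval) : ℝ) * t' * (1 - u')
    simp
  · show ((0 : unitInterval) : ℝ) * t * u = ((0 : unitInterval) : ℝ) * t' * u'
    simp

theorem OmBd_pt3_t0 (s u u' : unitInterval) : pt3 s 0 u = pt3 s 0 u' := by
  refine stdSimplex.ext (funext fun k => ?_)
  fin_cases k
  · rfl
  · rfl
  · show (s : ℝ) * ((0 : unitInterval) : ℝ) * (1 - u) = (s : ℝ) * ((0 : unitInterval) : ℝ) * (1 - u')
    simp
  · show (s : ℝ) * ((0 : unitInterval) : ℝ) * u = (s : ℝ) * ((0 : unitInterval) : ℝ) * u'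
    simp

theorem OmBd_telescope (N : ℕ) (A1 A2 A3 : ℕ → ℕ → ℕ → ℝ)
    (h : ∀ i j k, (A1 (i+1) j k - A1 i j k) - (A2 i (j+1) k - A2 i j k) +
      (A3 i j (k+1) - A3 i j k) = 0) :
    (∑ j ∈ Finset.range N, ∑ k ∈ Finset.range N, (A1 N j k - A1 0 j k)) -
    (∑ i ∈ Finset.range N, ∑ k ∈ Finset.range N, (A2 i N k - A2 i 0 k)) +
    (∑ i ∈ Finset.range N, ∑ j ∈ Finset.range N, (A3 i j N - A3 i j 0)) = 0 := by
  have e1 : ∑ j ∈ Finset.range N, ∑ k ∈ Finset.range N, (A1 N j k - A1 0 j k) =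
      ∑ i ∈ Finset.range N, ∑ j ∈ Finset.range N, ∑ k ∈ Finset.range N,
        (A1 (i+1) j k - A1 i j k) := by
    rw [Finset.sum_comm (s := Finset.range N) (t := Finset.range N)
      (f := fun i j => ∑ k ∈ Finset.range N, (A1 (i+1) j k - A1 i j k))]
    refine Finset.sum_congr rfl fun j _ => ?_
    rw [Finset.sum_comm]
    refine Finset.sum_congr rfl fun k _ => ?_
    rw [Finset.sum_range_sub (fun i => A1 i j k)]
  have e2 : ∑ i ∈ Finset.range N, ∑ k ∈ Finset.range N, (A2 i N k - A2 i 0 k) =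
      ∑ i ∈ Finset.range N, ∑ j ∈ Finset.range N, ∑ k ∈ Finset.range N,
        (A2 i (j+1) k - A2 i j k) := by
    refine Finset.sum_congr rfl fun i _ => ?_
    rw [Finset.sum_comm]
    refine Finset.sum_congr rfl fun k _ => ?_
    rw [Finset.sum_range_sub (fun j => A2 i j k)]
  have e3 : ∑ i ∈ Finset.range N, ∑ j ∈ Finset.range N, (A3 i j N - A3 i j 0) =
      ∑ i ∈ Finset.range N, ∑ j ∈ Finset.range N, ∑ k ∈ Finset.range N,
        (A3 i j (k+1) - A3 i j k) := by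
    refine Finset.sum_congr rfl fun i _ => Finset.sum_congr rfl fun j _ => ?_
    rw [Finset.sum_range_sub (fun k => A3 i j k)]
  rw [e1, e2, e3, ← Finset.sum_sub_distrib, ← Finset.sum_add_distrib]
  refine Finset.sum_eq_zero fun i _ => ?_
  rw [← Finset.sum_sub_distrib, ← Finset.sum_add_distrib]
  refine Finset.sum_eq_zero fun j _ => ?_
  rw [← Finset.sum_sub_distrib, ← Finset.sum_add_distrib]
  exact Finset.sum_eq_zero fun k _ => h i j k

theorem Om_boundary (τ : Spx 3 S2) : ∃ N0 : ℕ, ∀ N ≥ N0,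
    Om N (τ.comp (fc 0)) - Om N (τ.comp (fc 1)) + Om N (τ.comp (fc 2))
      - Om N (τ.comp (fc 3)) = 0 := by
  obtain ⟨δ, hδ, hcube⟩ := cube_sum
  have hcont : Continuous (fun q : unitInterval × unitInterval × unitInterval =>
      τ (pt3 q.1 q.2.1 q.2.2)) := τ.continuous.comp OmBd_cont_pt3
  have hu := CompactSpace.uniformContinuous_of_continuous hcont
  obtain ⟨ε, hε, hεδ⟩ := Metric.uniformContinuous_iff.mp hu δ hδ
  obtain ⟨N1, hN1⟩ := exists_nat_gt (1 / ε)
  refine ⟨N1 + 1, fun N hN => ?_⟩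
  have hNpos : 0 < N := by omega
  have hNε : (1 : ℝ) / N < ε := by
    have h1 : (1 / ε : ℝ) < N := hN1.trans_le (by exact_mod_cast (by omega : N1 ≤ N))
    have h2 : (0 : ℝ) < N := by exact_mod_cast hNpos
    rw [div_lt_iff₀ h2]
    rw [div_lt_iff₀ hε] at h1
    linarith
  set X : ℕ → ℕ → ℕ → S2 := fun i j k => τ (pt3 (gr N i) (gr N j) (gr N k)) with hX
  have hgr : ∀ (i : ℕ) (a b : Fin 2), dist (gr N (i + a)) (gr N (i + b)) ≤ 1 / N := by
    intro i a b
    have h0 : (0 : ℝ) ≤ 1 / N := by positivity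
    fin_cases a <;> fin_cases b
    · simpa using h0
    · exact OmBd_gr_dist N i
    · rw [dist_comm]; exact OmBd_gr_dist N i
    · simpa using h0
  have hclose : ∀ i j k : ℕ, ∀ a b c a' b' c' : Fin 2,
      dist (X (i+a) (j+b) (k+c)) (X (i+a') (j+b') (k+c')) < δ := by
    intro i j k a b c a' b' c'
    refine @hεδ (gr N (i+a), gr N (j+b), gr N (k+c)) (gr N (i+a'), gr N (j+b'), gr N (k+c')) ?_
    simp only [Prod.dist_eq, max_lt_iff]
    exact ⟨(hgr i a a').trans_lt hNε, (hgr j b b').trans_lt hNε, (hgr k c c').trans_lt hNε⟩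
  have htel := OmBd_telescope N
    (fun i j k => Complex.arg (Bq (X i j k) (X i (j+1) k) (X i (j+1) (k+1)) (X i j (k+1))))
    (fun i j k => Complex.arg (Bq (X i j k) (X (i+1) j k) (X (i+1) j (k+1)) (X i j (k+1))))
    (fun i j k => Complex.arg (Bq (X i j k) (X (i+1) j k) (X (i+1) (j+1) k) (X i (j+1) k)))
    (fun i j k => hcube (fun a b c => X (i+a) (j+b) (k+c)) (hclose i j k))
  have g1 := OmBd_gr_self hNpos
  have g0 := OmBd_gr_zero N
  have t1 : ∑ j ∈ Finset.range N, ∑ k ∈ Finset.range N,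
      (Complex.arg (Bq (X N j k) (X N (j+1) k) (X N (j+1) (k+1)) (X N j (k+1))) -
        Complex.arg (Bq (X 0 j k) (X 0 (j+1) k) (X 0 (j+1) (k+1)) (X 0 j (k+1)))) =
      Om N (τ.comp (fc 0)) := by
    unfold Om
    refine Finset.sum_congr rfl fun j _ => Finset.sum_congr rfl fun k _ => ?_
    have hz : ∀ j' k', X 0 j' k' = X 0 j k := by
      intro j' k'
      simp only [hX, g0]
      rw [OmBd_pt3_s0 (gr N j') (gr N k') (gr N j) (gr N k)]
    have ho : ∀ j' k', X N j' k' = (τ.comp (fc 0)) (pt2 (gr N j') (gr N k')) := by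
      intro j' k'
      simp only [hX, g1, OmBd_pt3_s1]
      rfl
    rw [hz (j+1) k, hz (j+1) (k+1), hz j (k+1), OmBd_Bq_self, Complex.arg_one, sub_zero,
      ho, ho, ho, ho]
  have t2 : ∑ i ∈ Finset.range N, ∑ k ∈ Finset.range N,
      (Complex.arg (Bq (X i N k) (X (i+1) N k) (X (i+1) N (k+1)) (X i N (k+1))) -
        Complex.arg (Bq (X i 0 k) (X (i+1) 0 k) (X (i+1) 0 (k+1)) (X i 0 (k+1)))) =
      Om N (τ.comp (fc 1)) := by
    unfold Om
    refine Finset.sum_congr rfl fun i _ => Finset.sum_congr rfl fun k _ => ?_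
    have hz : ∀ i' k', X i' 0 k' = X i' 0 k := by
      intro i' k'
      simp only [hX, g0]
      rw [OmBd_pt3_t0 (gr N i') (gr N k') (gr N k)]
    have ho : ∀ i' k', X i' N k' = (τ.comp (fc 1)) (pt2 (gr N i') (gr N k')) := by
      intro i' k'
      simp only [hX, g1, OmBd_pt3_t1]
      rfl
    rw [hz (i+1) (k+1), hz i (k+1), OmBd_arg_pal, sub_zero, ho, ho, ho, ho]
  have t3 : ∑ i ∈ Finset.range N, ∑ j ∈ Finset.range N,
      (Complex.arg (Bq (X i j N) (X (i+1) j N) (X (i+1) (j+1) N) (X i (j+1) N)) -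
        Complex.arg (Bq (X i j 0) (X (i+1) j 0) (X (i+1) (j+1) 0) (X i (j+1) 0))) =
      Om N (τ.comp (fc 2)) - Om N (τ.comp (fc 3)) := by
    unfold Om
    rw [← Finset.sum_sub_distrib]
    refine Finset.sum_congr rfl fun i _ => ?_
    rw [← Finset.sum_sub_distrib]
    refine Finset.sum_congr rfl fun j _ => ?_
    have h2 : ∀ i' j', X i' j' N = (τ.comp (fc 2)) (pt2 (gr N i') (gr N j')) := by
      intro i' j'
      simp only [hX, g1, OmBd_pt3_u1]
      rfl
    have h3 : ∀ i' j', X i' j' 0 = (τ.comp (fc 3)) (pt2 (gr N i') (gr N j')) := by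
      intro i' j'
      simp only [hX, g0, OmBd_pt3_u0]
      rfl
    rw [h2, h2, h2, h2, h3, h3, h3, h3]
  rw [t1, t2, t3] at htel
  linarith

end

end SEC
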