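import Crest.Agent.SEC_Basic

/-!
SEC-Pend. `pend η L x = ∑_{t<L} ∏_{s≤t} tau η (x/rot^s)`. If every window of length `L` contains a zero of `tau`
(`tau_eq_zero`), the product over `s ≤ t` vanishes for `t ≥ L-1`, so the sum does not depend on `L` and
`P(rot x) = tau(rot x) (1 + P x)` (shift the index; `rot*x/rot^(s+1) = x/rot^s`, the last term vanishes).
-/

set_option autoImplicit false
open scoped ContDiff Manifold Topology
open Filter

namespace SEC

noncomputable section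

theorem pend_term_zero {η : ℝ} (hη : 0 < η) {x : ℂ} {t0 t : ℕ} (h : ‖x / rot^t0 - 1‖ ≤ η)
    (ht : t0 ≤ t) : ∏ s ∈ Finset.range (t+1), tau η (x / rot^s) = 0 :=
  Finset.prod_eq_zero (i := t0) (Finset.mem_range.2 (by omega)) (tau_eq_zero hη h)

theorem pend_congr_le {η : ℝ} (hη : 0 < η) {L L' : ℕ} (hLL : L ≤ L') (x : ℂ)
    (hL : ∃ t < L, ‖x / rot^t - 1‖ ≤ η) : pend η L x = pend η L' x := by
  obtain ⟨t0, ht0, h0⟩ := hL
  unfold pend
  refine Finset.sum_subset (Finset.range_mono hLL) fun t _ ht => ?_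
  rw [Finset.mem_range, not_lt] at ht
  exact pend_term_zero hη h0 (by omega)

theorem pend_congr {η : ℝ} (hη : 0 < η) {L L' : ℕ}
    (hL : ∀ x : ℂ, ‖x‖ = 1 → ∃ t < L, ‖x / rot^t - 1‖ ≤ η)
    (hL' : ∀ x : ℂ, ‖x‖ = 1 → ∃ t < L', ‖x / rot^t - 1‖ ≤ η) (x : ℂ) (hx : ‖x‖ = 1) :
    pend η L x = pend η L' x := by
  rcases le_total L L' with h | h
  · exact pend_congr_le hη h x (hL x hx)
  · exact (pend_congr_le hη h x (hL' x hx)).symm

theorem pend_rec {η : ℝ} (hη : 0 < η) {L : ℕ}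
    (hL : ∀ x : ℂ, ‖x‖ = 1 → ∃ t < L, ‖x / rot^t - 1‖ ≤ η) (x : ℂ) (hx : ‖x‖ = 1) :
    pend η L (rot * x) = tau η (rot * x) * (1 + pend η L x) := by
  obtain ⟨t0, ht0, h0⟩ := hL x hx
  obtain ⟨M, rfl⟩ : ∃ M, L = M + 1 := ⟨L - 1, by omega⟩
  have h1 : ∀ t : ℕ, ∏ s ∈ Finset.range (t+1), tau η (rot * x / rot^s) =
      tau η (rot * x) * ∏ s ∈ Finset.range t, tau η (x / rot^s) := by
    intro t
    rw [Finset.prod_range_succ', pow_zero, div_one, mul_comm]
    congr 1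
    refine Finset.prod_congr rfl fun s _ => ?_
    congr 1
    rw [pow_succ, mul_comm (rot^s) rot, mul_div_mul_left _ _ rot_ne_zero]
  unfold pend
  simp only [h1]
  rw [← Finset.mul_sum, Finset.sum_range_succ', Finset.sum_range_succ (fun t =>
    ∏ s ∈ Finset.range (t+1), tau η (x / rot^s)), pend_term_zero hη h0 (by omega : t0 ≤ M)]
  rw [Finset.prod_range_zero]
  ring

end

end SEC
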