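import Crest.Agent.SEC_Basic

/-!
SEC-Reg: easy lemmas on `RegW`.
-/

set_option autoImplicit false
open scoped ContDiff Manifold Topology
open Filter

namespace SEC

noncomputable section

/-- a natural level near a nonnegative real. -/
theorem exists_near_level {κ : ℝ} (hκ : 0 ≤ κ) : ∃ k : ℕ, |κ - k| ≤ 1/2 := by
  refine ⟨⌊κ + 1/2⌋₊, ?_⟩
  have h1 := Nat.floor_le (by linarith : 0 ≤ κ + 1/2)
  have h2 := Nat.lt_floor_add_one (κ + 1/2)
  rw [abs_le]; constructor <;> linarith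

theorem norm_slot_eq {κ θ : ℝ} {v : V} {A : ℕ → ℝ} (hA : ∀ k, 0 ≤ A k)
    (h : ∀ k : ℕ, |κ - k| < 21/32 → slot k v = (A k : ℂ) * dir θ k) {k : ℕ}
    (hk : |κ - k| < 21/32) : ‖slot k v‖ = A k := by
  rw [h k hk, norm_mul, norm_dir, mul_one, Complex.norm_real, Real.norm_eq_abs,
    abs_of_nonneg (hA k)]

theorem RegW.add {κ θ c₁ c₂ : ℝ} {v₁ v₂ : V} (h₁ : RegW κ θ c₁ v₁) (h₂ : RegW κ θ c₂ v₂) :
    RegW κ θ (c₁ + c₂) (v₁ + v₂) := by
  obtain ⟨A, a1, a2, a3, a4⟩ := h₁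
  obtain ⟨B, b1, b2, b3, b4⟩ := h₂
  refine ⟨fun k => A k + B k, fun k => add_nonneg (a1 k) (b1 k), fun k hk => ?_, fun σ hσ => ?_,
    fun k hk => ?_⟩
  · rw [slot_add, a2 k hk, b2 k hk]; push_cast; ring
  · rw [slot_add, a3 σ hσ, b3 σ hσ, add_zero]
  · have := a4 k hk
    have := b4 k hk
    have := nrm_add_le v₁ v₂
    constructor <;> simp only <;> linarith

theorem RegW.smul {κ θ c : ℝ} {v : V} (h : RegW κ θ c v) {s : ℝ} (hs : 0 ≤ s) :
    RegW κ θ (s * c) (s • v) := by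
  obtain ⟨A, a1, a2, a3, a4⟩ := h
  refine ⟨fun k => s * A k, fun k => mul_nonneg hs (a1 k), fun k hk => ?_, fun σ hσ => ?_,
    fun k hk => ?_⟩
  · rw [slot_smul, a2 k hk]; push_cast; ring
  · rw [slot_smul, a3 σ hσ, mul_zero]
  · have h1 := a4 k hk
    rw [nrm_smul, abs_of_nonneg hs]
    constructor
    · simp only; nlinarith [mul_le_mul_of_nonneg_left h1.1 hs]
    · simp only; nlinarith [mul_le_mul_of_nonneg_left h1.2 hs]

theorem RegW.mono {κ θ c c' : ℝ} {v : V} (h : RegW κ θ c v) (hc : c' ≤ c) : RegW κ θ c' v := by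
  obtain ⟨A, a1, a2, a3, a4⟩ := h
  exact ⟨A, a1, a2, a3, fun k hk => ⟨(a4 k hk).1, hc.trans (a4 k hk).2⟩⟩

theorem RegW.self {κ θ c : ℝ} {v : V} (h : RegW κ θ c v) : RegW κ θ (nrm v) v := by
  obtain ⟨A, a1, a2, a3, a4⟩ := h
  exact ⟨A, a1, a2, a3, fun k hk => ⟨(a4 k hk).1, (a4 k hk).1⟩⟩

theorem RegW.lower {κ θ c : ℝ} {v : V} (h : RegW κ θ c v) (hκ : 0 ≤ κ) : c ≤ 3 * nrm v := by
  obtain ⟨A, a1, a2, a3, a4⟩ := h
  obtain ⟨k, hk⟩ := exists_near_level hκ
  have h1 := (a4 k (hk.trans (by norm_num))).2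
  have h2 := norm_slot_eq a1 a2 (k := k) (lt_of_le_of_lt hk (by norm_num))
  have h3 := norm_slot_le_nrm k v
  linarith

theorem RegW.swp {κ θ c : ℝ} {v : V} (h : RegW κ θ c v) (hκ : 0 ≤ κ) :
    RegW (κ + 1) (2 * θ) c (swp v) := by
  obtain ⟨A, a1, a2, a3, a4⟩ := h
  have hcast : ∀ k : ℕ, κ + 1 - ((k+1 : ℕ) : ℝ) = κ - k := fun k => by push_cast; ring
  have h0 : (1:ℝ) ≤ |κ + 1 - ((0:ℕ):ℝ)| := by
    rw [Nat.cast_zero, sub_zero, abs_of_nonneg (by linarith)]; linarith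
  refine ⟨fun k => Nat.casesOn k 0 A, fun k => ?_, fun k hk => ?_, fun σ hσ => ?_, fun k hk => ?_⟩
  · cases k with
    | zero => exact le_rfl
    | succ k => exact a1 k
  · cases k with
    | zero => exact absurd (lt_of_le_of_lt h0 hk) (by norm_num)
    | succ k =>
      rw [hcast] at hk
      rw [slot_succ_swp, dir_two_mul, a2 k hk]
  · rw [slot_congr (show σ % 2 = (σ + 1 + 1) % 2 by omega), slot_succ_swp]
    apply a3 (σ + 1)
    intro k hk
    have := hσ (k+1) (by omega)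
    rwa [hcast] at this
  · cases k with
    | zero => exact absurd (le_trans h0 hk) (by norm_num)
    | succ k =>
      rw [hcast] at hk
      rw [nrm_swp]
      exact a4 k hk

theorem RegW.of_snd_zero (v : V) (h : v.2 = 0) : RegW 0 (Complex.arg v.1) (nrm v) v := by
  have hn : nrm v = ‖v.1‖ := by
    unfold nrm; rw [h, norm_zero]; simp [Real.sqrt_sq (norm_nonneg _)]
  have hk0 : ∀ k : ℕ, |(0:ℝ) - k| < 1 → k = 0 := by
    intro k hk
    rw [zero_sub, abs_neg, abs_of_nonneg (Nat.cast_nonneg k)] at hk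
    have : k < 1 := by exact_mod_cast hk
    omega
  refine ⟨fun k => if k = 0 then ‖v.1‖ else 0, fun k => ?_, fun k hk => ?_, fun σ hσ => ?_,
    fun k hk => ?_⟩
  · simp only; split_ifs
    · exact norm_nonneg _
    · exact le_rfl
  · have := hk0 k (hk.trans (by norm_num))
    subst this
    simp only [if_true]
    rw [dir_arg_zero]
    simp [slot]
  · have h1 : σ % 2 = 1 := by
      by_contra hne
      have h2 := hσ 0 (by omega)
      norm_num at h2
    rw [slot_congr (show σ % 2 = 1 % 2 by omega)]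
    simp [slot, h]
  · have := hk0 k (lt_of_le_of_lt hk (by norm_num))
    subst this
    simp only [if_true]
    rw [hn]
    constructor <;> linarith [norm_nonneg v.1]

end

end SEC
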