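import Crest.Agent.SEC_App

/-!
SEC-Step: an era step preserves regularity.
-/

set_option autoImplicit false
open scoped ContDiff Manifold Topology
open Filter

namespace SEC

noncomputable section

theorem two_rpow_neg_bound : (96/100 : ℝ) ≤ (2:ℝ)^(-(1/32) : ℝ) := by
  rw [Real.rpow_neg (by norm_num), le_inv_comm₀ (by norm_num) (by positivity)]
  have h : (2:ℝ)^(1/32 : ℝ) ≤ (((96/100 : ℝ)⁻¹)^(32:ℕ))^(1/32 : ℝ) :=
    Real.rpow_le_rpow (by norm_num) (by norm_num) (by norm_num)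
  rwa [← Real.rpow_natCast, ← Real.rpow_mul (by norm_num),
    show ((32:ℕ):ℝ) * (1/32) = 1 by norm_num, Real.rpow_one] at h

theorem RegW.step (E : Era) {κ κ' θ : ℝ} {x : ℂ} {v : V}
    (hb : 0 ≤ E.b (rot * x))
    (h : RegW κ θ (nrm v) v) (hκ : 0 ≤ κ) (hκ' : 0 ≤ κ') (hle : κ' ≤ κ + 1)
    (hP : |E.P x - κ| ≤ 1/64) (hP' : |tau E.η (rot * x) * (1 + E.P x) - κ'| ≤ 1/64)
    (hchi : chi E.η (rot * x) ≠ 1 → κ' = κ + 1) :
    RegW κ' (2 * θ) (96 * E.b (rot * x) * (2:ℝ)^(κ' - κ - 1) * nrm v) (E.F x v) := by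
  set kq := tau E.η (rot * x) * (1 + E.P x) with hkq
  set kp := 1 + E.P x with hkp
  have hsw : RegW (κ + 1) (2 * θ) (nrm v) (SEC.swp v) := h.swp hκ
  have hsw' : RegW (κ + 1) (2 * θ) (nrm (SEC.swp v)) (SEC.swp v) := by rwa [nrm_swp]
  have hp' : |kp - (κ + 1)| ≤ 1/64 := by
    rw [hkp, show 1 + E.P x - (κ + 1) = E.P x - κ by ring]; exact hP
  have hK : kp + 1 ≤ ((E.L + 3 : ℕ) : ℝ) := by
    have := E.P_le x
    rw [hkp]; push_cast; linarith
  have happ : RegW κ' (2 * θ) (nrm v) (SEC.app (E.L + 3) kp kq (SEC.swp v)) := by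
    have := hsw'.app (by linarith) hκ' hle hp' hP' hK
    rwa [nrm_swp] at this
  have h1 := abs_le.mp hp'
  have h2 := abs_le.mp hP'
  have hn := nrm_nonneg v
  -- the power bound
  have hpow : 96/100 * (2:ℝ)^(κ' - κ - 1) ≤ (2:ℝ)^(kq - kp) := by
    calc 96/100 * (2:ℝ)^(κ' - κ - 1) ≤ (2:ℝ)^(-(1/32) : ℝ) * (2:ℝ)^(κ' - κ - 1) :=
          mul_le_mul_of_nonneg_right two_rpow_neg_bound (by positivity)
      _ = (2:ℝ)^(-(1/32) + (κ' - κ - 1)) := by rw [← Real.rpow_add (by norm_num)]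
      _ ≤ _ := Real.rpow_le_rpow_of_exponent_le (by norm_num) (by linarith [h1.2, h2.1])
  have hc0 := chi_nonneg E.η (rot * x)
  have hc1 := chi_le_one E.η (rot * x)
  have hF : E.F x v = (100 * E.b (rot * x)) • ((1 - chi E.η (rot * x)) • SEC.swp v +
      (chi E.η (rot * x) * (2:ℝ)^(kq - kp)) • SEC.app (E.L + 3) kp kq (SEC.swp v)) := rfl
  rw [hF]
  by_cases hc : chi E.η (rot * x) = 1
  · rw [hc, sub_self, zero_smul, zero_add, one_mul]
    refine ((happ.smul (by positivity : 0 ≤ (2:ℝ)^(kq - kp))).smul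
      (by positivity : 0 ≤ 100 * E.b (rot * x))).mono ?_
    have := mul_le_mul_of_nonneg_right hpow (mul_nonneg hb hn)
    nlinarith
  · have hk := hchi hc
    have hsum : RegW κ' (2 * θ) ((1 - chi E.η (rot * x)) * nrm v +
        (chi E.η (rot * x) * (2:ℝ)^(kq - kp)) * nrm v)
        ((1 - chi E.η (rot * x)) • SEC.swp v +
        (chi E.η (rot * x) * (2:ℝ)^(kq - kp)) • SEC.app (E.L + 3) kp kq (SEC.swp v)) := by
      have e1 : RegW κ' (2 * θ) (nrm v) (SEC.swp v) := by rw [hk]; exact hsw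
      exact (e1.smul (by linarith)).add (happ.smul (by positivity))
    refine (hsum.smul (by positivity : 0 ≤ 100 * E.b (rot * x))).mono ?_
    rw [hk, show κ + 1 - κ - 1 = (0:ℝ) by ring, Real.rpow_zero] at hpow ⊢
    have e2 : 96/100 ≤ (1 - chi E.η (rot * x)) + chi E.η (rot * x) * (2:ℝ)^(kq - kp) := by
      nlinarith
    have := mul_le_mul_of_nonneg_right e2 (mul_nonneg hb hn)
    nlinarith

end

end SEC
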