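import Crest.Agent.SL_Defs

/-!
S0499, task T2: Gaussian small ball estimate.  helper77.
-/

set_option autoImplicit false

namespace Crest.Agent.SL

open MeasureTheory ProbabilityTheory Module Crest.StreamLearn Metric
open scoped ENNReal

theorem gaussianReal_le_half_volume (A : Set ℝ) :
    gaussianReal 0 1 A ≤ ENNReal.ofReal (1 / 2) * volume A := by
  rw [gaussianReal_apply 0 one_ne_zero A]
  calc ∫⁻ x in A, gaussianPDF 0 1 x ≤ ∫⁻ _x in A, ENNReal.ofReal (1 / 2) := by
        apply lintegral_mono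
        intro x
        unfold gaussianPDF gaussianPDFReal
        apply ENNReal.ofReal_le_ofReal
        have h1 : (2 : ℝ) ≤ Real.sqrt (2 * Real.pi * ((1 : NNReal) : ℝ)) := by
          apply Real.le_sqrt_of_sq_le
          have := Real.pi_gt_three
          norm_num
          linarith
        have h2 : Real.exp (-(x - 0) ^ 2 / (2 * ((1 : NNReal) : ℝ))) ≤ 1 := by
          apply Real.exp_le_one_iff.2
          have := sq_nonneg (x - 0)
          simp only [NNReal.coe_one, mul_one]
          linarith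
        have h3 : (Real.sqrt (2 * Real.pi * ((1 : NNReal) : ℝ)))⁻¹ ≤ 1 / 2 := by
          rw [one_div]
          exact inv_anti₀ (by norm_num) h1
        calc (Real.sqrt (2 * Real.pi * ((1 : NNReal) : ℝ)))⁻¹ *
              Real.exp (-(x - 0) ^ 2 / (2 * ((1 : NNReal) : ℝ))) ≤ 1 / 2 * 1 :=
              mul_le_mul h3 h2 (Real.exp_pos _).le (by norm_num)
          _ = 1 / 2 := by norm_num
    _ = ENNReal.ofReal (1 / 2) * volume A := by
        rw [setLIntegral_const]

theorem gaussianReal_interval (s c t : ℝ) (hs : 0 < s) :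
    gaussianReal 0 1 {x : ℝ | |x * s + c| ≤ t} ≤ ENNReal.ofReal t / ENNReal.ofReal s := by
  have hset : {x : ℝ | |x * s + c| ≤ t} = Set.Icc ((-t - c) / s) ((t - c) / s) := by
    ext x
    simp only [Set.mem_ofPred_eq, Set.mem_Icc, abs_le, div_le_iff₀ hs, le_div_iff₀ hs]
    constructor
    · rintro ⟨h1, h2⟩; constructor <;> linarith
    · rintro ⟨h1, h2⟩; constructor <;> linarith
  rw [hset]
  refine (gaussianReal_le_half_volume _).trans ?_
  rw [Real.volume_Icc, ← ENNReal.ofReal_mul (by norm_num), ← ENNReal.ofReal_div_of_pos hs]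
  apply ENNReal.ofReal_le_ofReal
  apply le_of_eq
  field_simp
  ring

/-- one row, unit vector form -/
theorem slab_aux {F₀ : Type*} [NormedAddCommGroup F₀] [InnerProductSpace ℝ F₀]
    [FiniteDimensional ℝ F₀] [MeasurableSpace F₀] [BorelSpace F₀] (u v : F₀) (hu : u ≠ 0) (huv : inner ℝ u v = ‖u‖ ^ 2) (t : ℝ) (S : Set F₀)
    (hS : MeasurableSet S) (hinv : ∀ a, ∀ c : ℝ, a + c • u ∈ S ↔ a ∈ S) :
    stdGaussian F₀ (S ∩ {a | |inner ℝ a v| ≤ t}) ≤
      (ENNReal.ofReal t / ENNReal.ofReal ‖u‖) * stdGaussian F₀ S := by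
  have hupos : 0 < ‖u‖ := norm_pos_iff.2 hu
  -- dimension
  obtain ⟨n, hn⟩ : ∃ n, finrank ℝ F₀ = n + 1 := by
    have : 0 < finrank ℝ F₀ := by
      have : Nontrivial F₀ := ⟨⟨u, 0, hu⟩⟩
      exact finrank_pos
    exact ⟨finrank ℝ F₀ - 1, by omega⟩
  -- orthonormal basis with first vector u / ‖u‖
  set e : F₀ := (‖u‖)⁻¹ • u with he
  have he1 : ‖e‖ = 1 := by
    rw [he, norm_smul, norm_inv, norm_norm, inv_mul_cancel₀ hupos.ne']
  let w : Fin (n + 1) → F₀ := fun _ => e
  have hw : Orthonormal ℝ (({0} : Set (Fin (n + 1))).domRestrict w) := by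
    constructor
    · rintro ⟨i, hi⟩; exact he1
    · rintro ⟨i, hi⟩ ⟨j, hj⟩ hij
      exfalso; apply hij
      simp only [Set.mem_singleton_iff] at hi hj
      subst hi; subst hj; rfl
  obtain ⟨b, hb⟩ := hw.exists_orthonormalBasis_extension_of_card_eq
    (by rw [hn, Fintype.card_fin])
  have hb0 : b 0 = e := hb 0 rfl
  -- the law
  let F : ℝ × (Fin n → ℝ) → F₀ := fun p => p.1 • e + ∑ i, p.2 i • b i.succ
  have hF : Measurable F := by
    apply Continuous.measurable
    fun_prop
  have hlaw : stdGaussian F₀ = ((gaussianReal 0 1).prod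
      (Measure.pi fun _ : Fin n => gaussianReal 0 1)).map F := by
    rw [stdGaussian_eq_map_pi_orthonormalBasis b]
    have hmp := measurePreserving_piFinSuccAbove (fun _ : Fin (n + 1) => gaussianReal 0 1) 0
    rw [← hmp.map_eq, Measure.map_map hF (MeasurableEquiv.measurable _)]
    congr 1
    funext x
    simp only [F, Function.comp_apply, MeasurableEquiv.piFinSuccAbove_apply]
    rw [Fin.sum_univ_succ, hb0]
    rfl
  have hFadd : ∀ x0 x', F (x0, x') = F (0, x') + x0 • e := by
    intro x0 x'; simp only [F, zero_smul, zero_add]; rw [add_comm]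
  have hFS : ∀ x0 x', F (x0, x') ∈ S ↔ F (0, x') ∈ S := by
    intro x0 x'
    rw [hFadd x0 x', he, smul_smul]
    exact hinv _ _
  have hFin : ∀ x0 x', inner ℝ (F (x0, x')) v = x0 * ‖u‖ + inner ℝ (F (0, x')) v := by
    intro x0 x'
    rw [hFadd x0 x', inner_add_left, inner_smul_left, he, inner_smul_left, huv]
    simp only [conj_trivial]
    field_simp
    ring
  have hslab : MeasurableSet (S ∩ {a : F₀ | |inner ℝ a v| ≤ t}) := by
    apply hS.inter
    apply measurableSet_le
    · exact (continuous_abs.comp (continuous_id.inner continuous_const)).measurable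
    · exact measurable_const
  rw [hlaw, Measure.map_apply hF hslab, Measure.map_apply hF hS,
    Measure.prod_apply_symm (hF hslab), Measure.prod_apply_symm (hF hS), ← lintegral_const_mul']
  · apply lintegral_mono
    intro x'
    by_cases hx : F (0, x') ∈ S
    · have h1 : (fun x0 => (x0, x')) ⁻¹' (F ⁻¹' S) = Set.univ := by
        ext x0; simp only [Set.mem_preimage, Set.mem_univ, iff_true]; exact (hFS x0 x').2 hx
      simp only [h1, measure_univ, mul_one]
      refine le_trans (measure_mono ?_) (gaussianReal_interval ‖u‖ (inner ℝ (F (0, x')) v) t hupos)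
      intro x0 hx0
      simp only [Set.mem_preimage, Set.mem_inter_iff, Set.mem_ofPred_eq] at hx0
      have := hx0.2
      rw [hFin] at this
      exact this
    · have h1 : (fun x0 => (x0, x')) ⁻¹' (F ⁻¹' (S ∩ {a : F₀ | |inner ℝ a v| ≤ t})) = ∅ := by
        ext x0
        simp only [Set.mem_preimage, Set.mem_inter_iff, Set.mem_empty_iff_false, iff_false, not_and]
        intro h; exact absurd ((hFS x0 x').1 h) hx
      simp only [h1]; simp
  · exact ENNReal.div_ne_top ENNReal.ofReal_ne_top (by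
      rw [ne_eq, ENNReal.ofReal_eq_zero, not_le]; exact hupos)


theorem slab_sub {d : ℕ} (V : Submodule ℝ (E d)) (v : E d) (η : ℝ) (hη : 0 < η) (S : Set (E d))
    (hS : MeasurableSet S) (hinv : ∀ a, ∀ w ∈ Vᗮ, a + w ∈ S ↔ a ∈ S) :
    stdGaussian (E d) (S ∩ {a | |(inner ℝ a v : ℝ)| ≤ η}) ≤
      (ENNReal.ofReal η / ENNReal.ofReal (dsub V v)) * stdGaussian (E d) S := by
  set P : E d := V.starProjection v with hP
  set u : E d := v - P with hu
  have huV : u ∈ Vᗮ := Submodule.sub_starProjection_mem_orthogonal v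
  have hPV : P ∈ V := Submodule.starProjection_apply_mem V v
  have hdist : dsub V v = ‖u‖ := rfl
  by_cases hu0 : u = 0
  · rw [hdist, hu0, norm_zero, ENNReal.ofReal_zero, ENNReal.div_zero (by
      rw [ne_eq, ENNReal.ofReal_eq_zero, not_le]; exact hη)]
    by_cases hSz : stdGaussian (E d) S = 0
    · rw [hSz, mul_zero, nonpos_iff_eq_zero]
      exact measure_mono_null Set.inter_subset_left hSz
    · rw [ENNReal.top_mul hSz]; exact le_top
  · have huv : inner ℝ u v = ‖u‖ ^ 2 := by
      have h1 : inner ℝ u P = 0 := by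
        rw [real_inner_comm]; exact (Submodule.mem_orthogonal V u).1 huV P hPV
      have h2 : v = u + P := by rw [hu]; abel
      rw [h2, inner_add_right, h1, add_zero, real_inner_self_eq_norm_sq]
    rw [hdist]
    exact slab_aux u v hu0 huv η S hS (fun a c => hinv a _ (Vᗮ.smul_mem c huV))

theorem smallball_set_measurable {d : ℕ} (η : ℝ) (l : List (E d)) :
    MeasurableSet {α : E d | ∀ w ∈ l, |(inner ℝ α w : ℝ)| ≤ η} := by
  have h : {α : E d | ∀ w ∈ l, |(inner ℝ α w : ℝ)| ≤ η} =
      ⋂ w ∈ l, {α : E d | |(inner ℝ α w : ℝ)| ≤ η} := by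
    ext α; simp
  rw [h]
  apply IsClosed.measurableSet
  apply isClosed_biInter
  intro w _
  exact isClosed_le (continuous_abs.comp (continuous_id.inner continuous_const)) continuous_const

theorem gaussian_smallball {d : ℕ} (η : ℝ) (hη : 0 < η) (l : List (E d)) :
    stdGaussian (E d) {α | ∀ w ∈ l, |(inner ℝ α w : ℝ)| ≤ η} ≤ sb η l := by
  induction l with
  | nil =>
    simp only [sb]
    exact prob_le_one
  | cons v l ih =>
    have h1 : {α : E d | ∀ w ∈ v :: l, |(inner ℝ α w : ℝ)| ≤ η} =
        {α : E d | ∀ w ∈ l, |(inner ℝ α w : ℝ)| ≤ η} ∩ {a | |(inner ℝ a v : ℝ)| ≤ η} := by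
      ext α
      simp only [List.mem_cons, forall_eq_or_imp, Set.mem_ofPred_eq, Set.mem_inter_iff]
      tauto
    rw [h1, sb]
    refine (slab_sub (Submodule.span ℝ {w | w ∈ l}) v η hη _
      (smallball_set_measurable η l) ?_).trans (by gcongr)
    intro a w hw
    simp only [Set.mem_ofPred_eq]
    have h2 : ∀ z ∈ l, (inner ℝ (a + w) z : ℝ) = inner ℝ a z := by
      intro z hz
      rw [inner_add_left]
      have : inner ℝ w z = 0 := by
        rw [real_inner_comm]
        exact (Submodule.mem_orthogonal _ w).1 hw z (Submodule.subset_span hz)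
      rw [this, add_zero]
    constructor
    · intro h z hz; rw [← h2 z hz]; exact h z hz
    · intro h z hz; rw [h2 z hz]; exact h z hz

theorem gaussian_smallball_pi {d : ℕ} (k : ℕ) (η : ℝ) (hη : 0 < η) (l : List (E d)) :
    gamk d k {a | ∀ w ∈ l, ∀ j, |(inner ℝ (a j) w : ℝ)| ≤ η} ≤ sb η l ^ k := by
  have h1 : {a : Fin k → E d | ∀ w ∈ l, ∀ j, |(inner ℝ (a j) w : ℝ)| ≤ η} =
      Set.pi Set.univ (fun _ : Fin k => {α : E d | ∀ w ∈ l, |(inner ℝ α w : ℝ)| ≤ η}) := by
    ext a
    simp only [Set.mem_ofPred_eq, Set.mem_pi, Set.mem_univ, forall_true_left]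
    constructor
    · intro h j w hw; exact h w hw j
    · intro h w hw j; exact h j w hw
  unfold gamk
  rw [h1, Measure.pi_pi, Finset.prod_const, Finset.card_univ, Fintype.card_fin]
  gcongr
  exact gaussian_smallball η hη l

end Crest.Agent.SL
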