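import Crest.Agent.SL_Defs

set_option autoImplicit false

namespace Crest.Agent.SL

open MeasureTheory ProbabilityTheory Crest.StreamLearn Metric
open scoped ENNReal

theorem T3_dsub_continuous {d : ℕ} (V : Submodule ℝ (E d)) : Continuous (dsub V) := by
  unfold dsub
  exact (continuous_id.sub V.starProjection.continuous).norm

/-- key geometric fact -/
theorem T3_norm_le_of_dsub {d : ℕ} (V : Submodule ℝ (E d)) (w : E d) (v : E d) (τ : ℝ)
    (h1 : dsub V w ≤ τ) (h2 : ‖V.starProjection w - v‖ ≤ τ) : ‖w - v‖ ≤ 2 * τ := by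
  unfold dsub at h1
  calc ‖w - v‖ = ‖(w - V.starProjection w) + (V.starProjection w - v)‖ := by
        congr 1; abel
    _ ≤ ‖w - V.starProjection w‖ + ‖V.starProjection w - v‖ := norm_add_le _ _
    _ ≤ 2 * τ := by linarith

theorem strip_le {d : ℕ} (μ : Measure (E d)) (β : ℝ≥0∞) (s0 : ℕ) (hF : Frost μ β s0)
    (y x0 : E d) (ρ τ : ℝ) (hρ : 0 < ρ) (hτ : 0 < τ) (V : Submodule ℝ (E d)) :
    μ {x | x ∈ closedBall y ρ ∧ dsub V (x - x0) ≤ τ} ≤
      ENNReal.ofReal (((ρ + τ) / τ) ^ (Module.finrank ℝ V)) *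
        (β * ENNReal.ofReal ((2 * τ) ^ s0)) := by
  classical
  rcases eq_or_ne β ⊤ with hβ | hβ
  · subst hβ
    have h1 : ENNReal.ofReal ((2 * τ) ^ s0) ≠ 0 := by
      rw [Ne, ENNReal.ofReal_eq_zero, not_le]; positivity
    have h2 : ENNReal.ofReal (((ρ + τ) / τ) ^ (Module.finrank ℝ V)) ≠ 0 := by
      rw [Ne, ENNReal.ofReal_eq_zero, not_le]; positivity
    rw [ENNReal.top_mul h1, ENNReal.mul_top h2]
    exact le_top
  -- main case
  set S : Set (E d) := {x | x ∈ closedBall y ρ ∧ dsub V (x - x0) ≤ τ} with hS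
  have hcont : Continuous fun x : E d => dsub V (x - x0) :=
    (T3_dsub_continuous V).comp (continuous_id.sub continuous_const)
  have hSm : MeasurableSet S := by
    apply MeasurableSet.inter
    · exact isClosed_closedBall.measurableSet
    · exact (isClosed_le hcont continuous_const).measurableSet
  have hSfin : μ S < ⊤ := by
    calc μ S ≤ μ (closedBall y ρ) := measure_mono (fun x hx => hx.1)
      _ ≤ β * ENNReal.ofReal (ρ ^ s0) := hF y ρ hρ
      _ < ⊤ := ENNReal.mul_lt_top hβ.lt_top ENNReal.ofReal_lt_top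
  have : IsFiniteMeasure (μ.restrict S) := ⟨by rw [Measure.restrict_apply_univ]; exact hSfin⟩
  set ν : Measure V := Measure.addHaar with hν
  set P : E d → V := fun x => V.orthogonalProjectionOnto (x - x0) with hP
  have hPc : Continuous P :=
    (V.orthogonalProjectionOnto).continuous.comp (continuous_id.sub continuous_const)
  -- the set of pairs
  have hmeas : MeasurableSet {q : E d × V | dist (P q.1) q.2 ≤ τ} :=
    (isClosed_le ((hPc.comp continuous_fst).dist continuous_snd) continuous_const).measurableSet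
  have hsw := lintegral_lintegral_swap (μ := μ.restrict S) (ν := ν)
    (f := fun x v => Set.indicator {q : E d × V | dist (P q.1) q.2 ≤ τ} (fun _ => (1 : ℝ≥0∞)) (x, v))
    (by
      apply Measurable.aemeasurable
      exact measurable_const.indicator hmeas)
  have hL : ∫⁻ x in S, ∫⁻ v, Set.indicator {q : E d × V | dist (P q.1) q.2 ≤ τ}
      (fun _ => (1 : ℝ≥0∞)) (x, v) ∂ν ∂μ =
      ENNReal.ofReal (τ ^ Module.finrank ℝ V) * ν (ball 0 1) * μ S := by
    have : ∀ x : E d, ∫⁻ v, Set.indicator {q : E d × V | dist (P q.1) q.2 ≤ τ}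
      (fun _ => (1 : ℝ≥0∞)) (x, v) ∂ν = ENNReal.ofReal (τ ^ Module.finrank ℝ V) * ν (ball 0 1) := by
      intro x
      rw [← Measure.addHaar_closedBall ν (P x) hτ.le, ← lintegral_indicator_one
        (isClosed_closedBall.measurableSet)]
      apply lintegral_congr
      intro v
      by_cases h : v ∈ closedBall (P x) τ
      · rw [Set.indicator_of_mem h, Set.indicator_of_mem]
        · rfl
        · simpa [dist_comm] using h
      · rw [Set.indicator_of_notMem h, Set.indicator_of_notMem]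
        simpa [dist_comm] using h
    simp_rw [this]
    rw [setLIntegral_const]
  have hR : ∫⁻ v, ∫⁻ x in S, Set.indicator {q : E d × V | dist (P q.1) q.2 ≤ τ}
      (fun _ => (1 : ℝ≥0∞)) (x, v) ∂μ ∂ν ≤
      (β * ENNReal.ofReal ((2 * τ) ^ s0)) *
        (ENNReal.ofReal ((ρ + τ) ^ Module.finrank ℝ V) * ν (ball 0 1)) := by
    rw [← Measure.addHaar_closedBall ν (P y) (by linarith : 0 ≤ ρ + τ), ← setLIntegral_const,
      ← lintegral_indicator isClosed_closedBall.measurableSet]
    apply lintegral_mono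
    intro v
    have hSub : ∫⁻ x in S, Set.indicator {q : E d × V | dist (P q.1) q.2 ≤ τ}
        (fun _ => (1 : ℝ≥0∞)) (x, v) ∂μ = μ ({x | dist (P x) v ≤ τ} ∩ S) := by
      have hm : MeasurableSet {x | dist (P x) v ≤ τ} :=
        (isClosed_le (hPc.dist continuous_const) continuous_const).measurableSet
      rw [← Measure.restrict_apply hm, ← lintegral_indicator_one hm]
      apply lintegral_congr
      intro x
      by_cases h : dist (P x) v ≤ τ
      · rw [Set.indicator_of_mem (by exact h), Set.indicator_of_mem (by exact h)]; rfl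
      · rw [Set.indicator_of_notMem (by exact h), Set.indicator_of_notMem (by exact h)]
    simp only []
    rw [hSub]
    by_cases hv : v ∈ closedBall (P y) (ρ + τ)
    · rw [Set.indicator_of_mem hv]
      calc μ ({x | dist (P x) v ≤ τ} ∩ S) ≤ μ (closedBall (x0 + (v : E d)) (2 * τ)) := by
            apply measure_mono
            rintro x ⟨h1, h2, h3⟩
            rw [mem_closedBall, dist_eq_norm]
            have : x - (x0 + (v : E d)) = (x - x0) - v := by abel
            rw [this]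
            apply T3_norm_le_of_dsub V _ _ _ h3
            have h1' : dist (P x) v ≤ τ := h1
            rw [dist_eq_norm] at h1'
            calc ‖V.starProjection (x - x0) - (v : E d)‖ = ‖((P x - v : V) : E d)‖ := by
                  rw [Submodule.coe_sub]; rfl
              _ = ‖P x - v‖ := rfl
              _ ≤ τ := h1'
        _ ≤ _ := hF _ _ (by linarith)
    · rw [Set.indicator_of_notMem hv]
      rw [nonpos_iff_eq_zero]
      have : {x | dist (P x) v ≤ τ} ∩ S = ∅ := by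
        rw [Set.eq_empty_iff_forall_notMem]
        rintro x ⟨h1, h2, h3⟩
        apply hv
        rw [mem_closedBall]
        have h1' : dist (P x) v ≤ τ := h1
        have h4 : dist (P x) (P y) ≤ ρ := by
          rw [dist_eq_norm]
          have : P x - P y = V.orthogonalProjectionOnto (x - y) := by
            simp only [hP, ← map_sub]
            congr 1
            abel
          rw [this]
          calc ‖V.orthogonalProjectionOnto (x - y)‖ ≤ ‖x - y‖ := V.norm_orthogonalProjectionOnto_apply_le _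
            _ ≤ ρ := by rw [← dist_eq_norm]; exact h2
        calc dist v (P y) ≤ dist v (P x) + dist (P x) (P y) := dist_triangle _ _ _
          _ ≤ τ + ρ := by rw [dist_comm v]; linarith
          _ = ρ + τ := by ring
      rw [this, measure_empty]
  have hν0 : ν (ball 0 1) ≠ 0 := (measure_ball_pos ν _ one_pos).ne'
  have hνt : ν (ball 0 1) ≠ ⊤ := measure_ball_lt_top.ne
  have hfin : ENNReal.ofReal (τ ^ Module.finrank ℝ V) * ν (ball 0 1) * μ S ≤
      (β * ENNReal.ofReal ((2 * τ) ^ s0)) *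
        (ENNReal.ofReal ((ρ + τ) ^ Module.finrank ℝ V) * ν (ball 0 1)) := by
    rw [← hL, hsw]; exact hR
  have hτ0 : ENNReal.ofReal (τ ^ Module.finrank ℝ V) ≠ 0 := by
    rw [Ne, ENNReal.ofReal_eq_zero, not_le]; positivity
  rw [div_pow, ENNReal.ofReal_div_of_pos (by positivity)]
  rw [← ENNReal.mul_le_mul_iff_right (a := ENNReal.ofReal (τ ^ Module.finrank ℝ V) * ν (ball 0 1))
    (mul_ne_zero hτ0 hν0) (ENNReal.mul_ne_top ENNReal.ofReal_ne_top hνt)]
  refine hfin.trans (le_of_eq ?_)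
  rw [ENNReal.div_eq_inv_mul]
  calc (β * ENNReal.ofReal ((2 * τ) ^ s0)) *
        (ENNReal.ofReal ((ρ + τ) ^ Module.finrank ℝ V) * ν (ball 0 1))
      = (ENNReal.ofReal (τ ^ Module.finrank ℝ V) * (ENNReal.ofReal (τ ^ Module.finrank ℝ V))⁻¹) *
        ((β * ENNReal.ofReal ((2 * τ) ^ s0)) *
        (ENNReal.ofReal ((ρ + τ) ^ Module.finrank ℝ V) * ν (ball 0 1))) := by
        rw [ENNReal.mul_inv_cancel hτ0 ENNReal.ofReal_ne_top, one_mul]
    _ = _ := by ring

theorem T3_pointwise_bound (k : ℕ) (ρ D : ℝ) (hρ : 0 < ρ) (hD : 0 ≤ D) :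
    (ENNReal.ofReal D)⁻¹ ^ k ≤ (ENNReal.ofReal ρ)⁻¹ ^ k +
      ∑' i : ℕ, (if D ≤ ρ / 2 ^ i then (ENNReal.ofReal (2 ^ (i + 1) / ρ)) ^ k else 0) := by
  rcases lt_or_ge ρ D with h | h
  · refine le_trans ?_ le_self_add
    apply pow_le_pow_left'
    exact ENNReal.inv_le_inv.mpr (ENNReal.ofReal_le_ofReal h.le)
  · rcases hD.eq_or_lt with h0 | h0
    · subst h0
      rcases Nat.eq_zero_or_pos k with hk | hk
      · subst hk; simp
      · have : ∑' i : ℕ, (if (0 : ℝ) ≤ ρ / 2 ^ i then (ENNReal.ofReal (2 ^ (i + 1) / ρ)) ^ k else 0)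
            = ⊤ := by
          have h1 : ∀ i : ℕ, (ENNReal.ofReal (1 / ρ)) ^ k ≤
              (if (0 : ℝ) ≤ ρ / 2 ^ i then (ENNReal.ofReal (2 ^ (i + 1) / ρ)) ^ k else 0) := by
            intro i
            rw [if_pos (by positivity)]
            apply pow_le_pow_left'
            apply ENNReal.ofReal_le_ofReal
            apply div_le_div_of_nonneg_right _ hρ.le
            exact one_le_pow₀ (by norm_num)
          rw [eq_top_iff]
          calc (⊤ : ℝ≥0∞) = ∑' i : ℕ, (ENNReal.ofReal (1 / ρ)) ^ k := by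
                rw [ENNReal.tsum_const_eq_top_of_ne_zero]
                apply pow_ne_zero
                rw [Ne, ENNReal.ofReal_eq_zero, not_le]; positivity
            _ ≤ _ := ENNReal.tsum_le_tsum h1
        rw [this]
        exact le_top.trans_eq (by rw [add_top])
    · -- find i
      obtain ⟨i, hi1, hi2⟩ : ∃ i : ℕ, D ≤ ρ / 2 ^ i ∧ ρ / 2 ^ (i + 1) < D := by
        have hex : ∃ n : ℕ, ρ / 2 ^ n < D := by
          obtain ⟨n, hn⟩ := pow_unbounded_of_one_lt (ρ / D) (by norm_num : (1 : ℝ) < 2)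
          refine ⟨n, ?_⟩
          rw [div_lt_iff₀ (by positivity)]
          rw [div_lt_iff₀ h0] at hn
          linarith
        have hn0 : Nat.find hex ≠ 0 := by
          intro h0'
          have := Nat.find_spec hex
          rw [h0'] at this
          simp at this
          linarith
        obtain ⟨m, hm⟩ := Nat.exists_eq_succ_of_ne_zero hn0
        refine ⟨m, ?_, ?_⟩
        · have := Nat.find_min hex (m := m) (by omega)
          exact not_lt.mp this
        · have := Nat.find_spec hex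
          rw [hm] at this
          exact this
      refine le_trans ?_ le_add_self
      refine le_trans ?_ (ENNReal.le_tsum i)
      rw [if_pos hi1]
      apply pow_le_pow_left'
      rw [← ENNReal.ofReal_inv_of_pos h0]
      apply ENNReal.ofReal_le_ofReal
      rw [inv_eq_one_div, div_le_div_iff₀ h0 hρ]
      rw [div_lt_iff₀ (by positivity)] at hi2
      linarith

theorem T3_real_step (k p s0 i : ℕ) (ρ : ℝ) (hρ : 0 < ρ) (hs : k + p + 1 ≤ s0) :
    ((2 : ℝ) ^ (i + 1) / ρ) ^ k * ((2 ^ (i + 1)) ^ p * ((2 * (ρ / 2 ^ i)) ^ s0)) ≤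
      2 ^ (k + p + s0) * ρ ^ (s0 - k) * (1 / 2) ^ i := by
  obtain ⟨e, rfl⟩ : ∃ e, s0 = k + p + 1 + e := ⟨s0 - (k + p + 1), by omega⟩
  have e1 : k + p + 1 + e - k = p + 1 + e := by omega
  rw [e1]
  have h6 : ((1 : ℝ) / 2) ^ i = (2 ^ i)⁻¹ := by
    rw [one_div, inv_pow]
  rw [h6]
  have h4 : (1 : ℝ) ≤ 2 ^ i := one_le_pow₀ (by norm_num)
  have h4' : (2 : ℝ) ^ (i + 1) = 2 * 2 ^ i := by ring
  rw [h4']
  generalize (2 : ℝ) ^ i = a at h4
  have ha : a * a⁻¹ = 1 := mul_inv_cancel₀ (by positivity)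
  have hρ' : ρ * ρ⁻¹ = 1 := mul_inv_cancel₀ (by positivity)
  have e2 : (2 * a / ρ) ^ k * ((2 * a) ^ p * (2 * (ρ / a)) ^ (k + p + 1 + e)) =
      (2 ^ (k + p + (k + p + 1 + e)) * ρ ^ (p + 1 + e) * a⁻¹) * (a⁻¹) ^ e := by
    calc (2 * a / ρ) ^ k * ((2 * a) ^ p * (2 * (ρ / a)) ^ (k + p + 1 + e))
        = (2 ^ (k + p + (k + p + 1 + e)) * ρ ^ (p + 1 + e) * a⁻¹) * (a⁻¹) ^ e *
          ((a * a⁻¹) ^ k * (a * a⁻¹) ^ p * (ρ * ρ⁻¹) ^ k) := by
          rw [div_eq_mul_inv, div_eq_mul_inv]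
          simp only [mul_pow, pow_add]
          ring
      _ = _ := by rw [ha, hρ']; simp
  rw [e2]
  apply mul_le_of_le_one_right (by positivity)
  apply pow_le_one₀ (by positivity)
  exact inv_le_one_of_one_le₀ h4

theorem potential_le {d : ℕ} (μ : Measure (E d)) (β : ℝ≥0∞) (hβ : β ≠ ⊤) (s0 k p : ℕ)
    (hF : Frost μ β s0) (hs : k + p + 1 ≤ s0)
    (y x0 : E d) (ρ : ℝ) (hρ : 0 < ρ) (V : Submodule ℝ (E d)) (hV : Module.finrank ℝ V ≤ p) :
    ∫⁻ x in closedBall y ρ, (ENNReal.ofReal (dsub V (x - x0)))⁻¹ ^ k ∂μ ≤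
      2 ^ (k + p + s0 + 2) * β * ENNReal.ofReal (ρ ^ (s0 - k)) := by
  classical
  have hcont : Continuous fun x : E d => dsub V (x - x0) :=
    (T3_dsub_continuous V).comp (continuous_id.sub continuous_const)
  have hstep : ∀ i : ℕ, ∫⁻ x in closedBall y ρ,
      (if dsub V (x - x0) ≤ ρ / 2 ^ i then (ENNReal.ofReal (2 ^ (i + 1) / ρ)) ^ k else 0) ∂μ ≤
      (2 ^ (k + p + s0) * β * ENNReal.ofReal (ρ ^ (s0 - k))) * (2⁻¹ : ℝ≥0∞) ^ i := by
    intro i
    have hset : MeasurableSet {x : E d | dsub V (x - x0) ≤ ρ / 2 ^ i} :=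
      (isClosed_le hcont continuous_const).measurableSet
    have h1 : ∫⁻ x in closedBall y ρ,
      (if dsub V (x - x0) ≤ ρ / 2 ^ i then (ENNReal.ofReal (2 ^ (i + 1) / ρ)) ^ k else 0) ∂μ =
        (ENNReal.ofReal (2 ^ (i + 1) / ρ)) ^ k *
          μ {x | x ∈ closedBall y ρ ∧ dsub V (x - x0) ≤ ρ / 2 ^ i} := by
      have : {x | x ∈ closedBall y ρ ∧ dsub V (x - x0) ≤ ρ / 2 ^ i} =
          {x : E d | dsub V (x - x0) ≤ ρ / 2 ^ i} ∩ closedBall y ρ := by
        ext x; simp [and_comm]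
      rw [this, ← Measure.restrict_apply hset, ← lintegral_indicator_const hset]
      apply lintegral_congr
      intro x
      by_cases h : dsub V (x - x0) ≤ ρ / 2 ^ i
      · rw [if_pos h, Set.indicator_of_mem (by exact h)]
      · rw [if_neg h, Set.indicator_of_notMem (by exact h)]
    rw [h1]
    have h2 := strip_le μ β s0 hF y x0 ρ (ρ / 2 ^ i) hρ (by positivity) V
    have h3 : ENNReal.ofReal (((ρ + ρ / 2 ^ i) / (ρ / 2 ^ i)) ^ (Module.finrank ℝ V)) ≤
        ENNReal.ofReal ((2 ^ (i + 1)) ^ p) := by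
      apply ENNReal.ofReal_le_ofReal
      have : (ρ + ρ / 2 ^ i) / (ρ / 2 ^ i) = 2 ^ i + 1 := by
        field_simp
      rw [this]
      have h4 : (1 : ℝ) ≤ 2 ^ i := one_le_pow₀ (by norm_num)
      calc ((2 : ℝ) ^ i + 1) ^ (Module.finrank ℝ V) ≤ ((2 : ℝ) ^ i + 1) ^ p :=
            pow_le_pow_right₀ (by linarith) hV
        _ ≤ (2 ^ (i + 1)) ^ p := by
            apply pow_le_pow_left₀ (by positivity)
            rw [pow_succ]; linarith
    calc (ENNReal.ofReal (2 ^ (i + 1) / ρ)) ^ k *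
          μ {x | x ∈ closedBall y ρ ∧ dsub V (x - x0) ≤ ρ / 2 ^ i}
        ≤ (ENNReal.ofReal (2 ^ (i + 1) / ρ)) ^ k * (ENNReal.ofReal ((2 ^ (i + 1)) ^ p) *
            (β * ENNReal.ofReal ((2 * (ρ / 2 ^ i)) ^ s0))) := by
          gcongr
          exact h2.trans (by gcongr)
      _ = β * ENNReal.ofReal ((2 ^ (i + 1) / ρ) ^ k * ((2 ^ (i + 1)) ^ p *
            ((2 * (ρ / 2 ^ i)) ^ s0))) := by
          rw [← ENNReal.ofReal_pow (by positivity), ENNReal.ofReal_mul (by positivity),
            ENNReal.ofReal_mul (by positivity)]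
          ring
      _ ≤ β * ENNReal.ofReal (2 ^ (k + p + s0) * ρ ^ (s0 - k) * (1 / 2) ^ i) := by
          exact mul_le_mul_right (ENNReal.ofReal_le_ofReal (T3_real_step k p s0 i ρ hρ hs)) β
      _ = (2 ^ (k + p + s0) * β * ENNReal.ofReal (ρ ^ (s0 - k))) * (2⁻¹ : ℝ≥0∞) ^ i := by
          have h7 : ENNReal.ofReal ((1 / 2 : ℝ) ^ i) = (2⁻¹ : ℝ≥0∞) ^ i := by
            rw [ENNReal.ofReal_pow (by norm_num)]
            congr 1
            rw [one_div, ENNReal.ofReal_inv_of_pos (by norm_num)]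
            simp
          have h8 : ENNReal.ofReal ((2 : ℝ) ^ (k + p + s0)) = 2 ^ (k + p + s0) := by
            rw [ENNReal.ofReal_pow (by norm_num)]; simp
          rw [ENNReal.ofReal_mul (by positivity), ENNReal.ofReal_mul (by positivity), h7, h8]
          ring
  have hfirst : ∫⁻ _ in closedBall y ρ, (ENNReal.ofReal ρ)⁻¹ ^ k ∂μ ≤
      β * ENNReal.ofReal (ρ ^ (s0 - k)) := by
    rw [setLIntegral_const]
    calc (ENNReal.ofReal ρ)⁻¹ ^ k * μ (closedBall y ρ)
        ≤ (ENNReal.ofReal ρ)⁻¹ ^ k * (β * ENNReal.ofReal (ρ ^ s0)) := by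
          gcongr
          exact hF y ρ hρ
      _ = β * ENNReal.ofReal (ρ ^ (s0 - k)) := by
          rw [← ENNReal.ofReal_inv_of_pos hρ, ← ENNReal.ofReal_pow (by positivity)]
          rw [mul_left_comm, ← ENNReal.ofReal_mul (by positivity)]
          congr 2
          have : s0 = k + (s0 - k) := by omega
          conv_lhs => rw [this]
          rw [pow_add, ← mul_assoc, ← mul_pow, inv_mul_cancel₀ hρ.ne', one_pow, one_mul]
  calc ∫⁻ x in closedBall y ρ, (ENNReal.ofReal (dsub V (x - x0)))⁻¹ ^ k ∂μ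
      ≤ ∫⁻ x in closedBall y ρ, ((ENNReal.ofReal ρ)⁻¹ ^ k + ∑' i : ℕ,
        (if dsub V (x - x0) ≤ ρ / 2 ^ i then (ENNReal.ofReal (2 ^ (i + 1) / ρ)) ^ k else 0)) ∂μ := by
        apply lintegral_mono
        intro x
        exact T3_pointwise_bound k ρ _ hρ (norm_nonneg _)
    _ = ∫⁻ x in closedBall y ρ, (ENNReal.ofReal ρ)⁻¹ ^ k ∂μ + ∑' i : ℕ, ∫⁻ x in closedBall y ρ,
        (if dsub V (x - x0) ≤ ρ / 2 ^ i then (ENNReal.ofReal (2 ^ (i + 1) / ρ)) ^ k else 0) ∂μ := by
        rw [lintegral_add_left measurable_const, lintegral_tsum]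
        intro i
        apply Measurable.aemeasurable
        exact Measurable.ite ((isClosed_le hcont continuous_const).measurableSet)
          measurable_const measurable_const
    _ ≤ β * ENNReal.ofReal (ρ ^ (s0 - k)) + ∑' i : ℕ,
        (2 ^ (k + p + s0) * β * ENNReal.ofReal (ρ ^ (s0 - k))) * (2⁻¹ : ℝ≥0∞) ^ i := by
        gcongr with i
        exact hstep i
    _ = β * ENNReal.ofReal (ρ ^ (s0 - k)) +
        (2 ^ (k + p + s0) * β * ENNReal.ofReal (ρ ^ (s0 - k))) * 2 := by
        rw [ENNReal.tsum_mul_left, ENNReal.tsum_geometric, ENNReal.one_sub_inv_two, inv_inv]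
    _ = (1 + 2 ^ (k + p + s0 + 1)) * (β * ENNReal.ofReal (ρ ^ (s0 - k))) := by ring
    _ ≤ (2 ^ (k + p + s0 + 1) + 2 ^ (k + p + s0 + 1)) * (β * ENNReal.ofReal (ρ ^ (s0 - k))) := by
        gcongr
        exact one_le_pow₀ (by norm_num)
    _ = _ := by ring

end Crest.Agent.SL
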