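import Crest.Agent.SL_Defs
import Crest.Agent.SL_T2

/-!
S0499, task T4: energy estimate.  helper77.
-/

set_option autoImplicit false

namespace Crest.Agent.SL

open MeasureTheory ProbabilityTheory Crest.StreamLearn Metric
open scoped ENNReal

theorem T4_box_measurable {d k : ℕ} (s₁ : E d) (η : ℝ) :
    MeasurableSet {p : (Fin k → E d) × E d | ∀ j, |(inner ℝ (p.1 j) (p.2 - s₁) : ℝ)| ≤ η} := by
  apply IsClosed.measurableSet
  have h : {p : (Fin k → E d) × E d | ∀ j, |(inner ℝ (p.1 j) (p.2 - s₁) : ℝ)| ≤ η} =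
      ⋂ j, {p : (Fin k → E d) × E d | |(inner ℝ (p.1 j) (p.2 - s₁) : ℝ)| ≤ η} := by
    ext p; simp
  rw [h]
  apply isClosed_iInter
  intro j
  refine isClosed_le (continuous_abs.comp (Continuous.inner ?_ ?_)) continuous_const
  · exact (continuous_apply j).comp continuous_fst
  · exact continuous_snd.sub continuous_const

/-- the smeared mass of the common slice through `s₁` -/
noncomputable def T4Z {d k : ℕ} (μ : Measure (E d)) (η : ℝ) (s₁ : E d) (a : Fin k → E d) : ℝ≥0∞ :=
  μ {s | ∀ j, |(inner ℝ (a j) (s - s₁) : ℝ)| ≤ η}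

theorem T4Z_measurable {d k : ℕ} (μ : Measure (E d)) [SFinite μ] (η : ℝ) (s₁ : E d) :
    Measurable (T4Z (k := k) μ η s₁) :=
  measurable_measure_prodMk_left (T4_box_measurable (k := k) s₁ η)

theorem T4_setA_measurable {d k : ℕ} (η : ℝ) (l : List (E d)) :
    MeasurableSet {a : Fin k → E d | ∀ w ∈ l, ∀ j, |(inner ℝ (a j) w : ℝ)| ≤ η} := by
  have h1 : {a : Fin k → E d | ∀ w ∈ l, ∀ j, |(inner ℝ (a j) w : ℝ)| ≤ η} =
      Set.pi Set.univ (fun _ : Fin k => {α : E d | ∀ w ∈ l, |(inner ℝ α w : ℝ)| ≤ η}) := by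
    ext a
    simp only [Set.mem_ofPred_eq, Set.mem_pi, Set.mem_univ, forall_true_left]
    constructor
    · intro h j w hw; exact h w hw j
    · intro h w hw j; exact h j w hw
  rw [h1]
  exact MeasurableSet.univ_pi (fun _ => smallball_set_measurable η l)

theorem T4_finrank_span_list {d : ℕ} (l : List (E d)) :
    Module.finrank ℝ (Submodule.span ℝ {w | w ∈ l}) ≤ l.length := by
  classical
  have h : {w | w ∈ l} = ((l.toFinset : Finset (E d)) : Set (E d)) := by
    ext w; simp
  rw [h]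
  exact (finrank_span_finset_le_card _).trans (List.toFinset_card_le l)

theorem T4_dsub_measurable {d : ℕ} (V : Submodule ℝ (E d)) (s₁ : E d) (k : ℕ) :
    Measurable fun s : E d => (ENNReal.ofReal (dsub V (s - s₁)))⁻¹ ^ k := by
  apply Measurable.pow_const
  apply Measurable.inv
  apply Measurable.ennreal_ofReal
  apply Continuous.measurable
  unfold dsub
  fun_prop

/-- recursion -/
theorem T4_rec {d k lam : ℕ} (μ : Measure (E d)) [IsFiniteMeasure μ]
    (I : ℝ≥0∞) (η : ℝ) (hη : 0 < η)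
    (hI : ∀ (x0 : E d) (V : Submodule ℝ (E d)), Module.finrank ℝ V + 2 ≤ lam →
      ∫⁻ x, (ENNReal.ofReal (dsub V (x - x0)))⁻¹ ^ k ∂μ ≤ I) (s₁ : E d) :
    ∀ (n : ℕ) (l : List (E d)), l.length + n + 1 ≤ lam →
      ∫⁻ a in {a : Fin k → E d | ∀ w ∈ l, ∀ j, |(inner ℝ (a j) w : ℝ)| ≤ η},
        T4Z μ η s₁ a ^ n ∂(gamk d k) ≤ sb η l ^ k * (ENNReal.ofReal η ^ k * I) ^ n := by
  intro n
  induction n with
  | zero =>
    intro l _
    simp only [pow_zero, mul_one, lintegral_const, one_mul]
    rw [Measure.restrict_apply_univ]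
    exact gaussian_smallball_pi k η hη l
  | succ n ih =>
    intro l hl
    set A : Set (Fin k → E d) := {a | ∀ w ∈ l, ∀ j, |(inner ℝ (a j) w : ℝ)| ≤ η} with hA
    set B : Set ((Fin k → E d) × E d) :=
      {p | ∀ j, |(inner ℝ (p.1 j) (p.2 - s₁) : ℝ)| ≤ η} with hB
    have hBm : MeasurableSet B := T4_box_measurable (k := k) s₁ η
    have hAm : MeasurableSet A := T4_setA_measurable η l
    have hZ : ∀ a, T4Z μ η s₁ a = ∫⁻ s, B.indicator (fun _ => (1 : ℝ≥0∞)) (a, s) ∂μ := by
      intro a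
      have h1 : (fun s => B.indicator (fun _ => (1 : ℝ≥0∞)) (a, s)) =
          Set.indicator {s | ∀ j, |(inner ℝ (a j) (s - s₁) : ℝ)| ≤ η} (fun _ => 1) := by
        funext s
        by_cases hs : ∀ j, |(inner ℝ (a j) (s - s₁) : ℝ)| ≤ η
        · rw [Set.indicator_of_mem (show (a, s) ∈ B from hs), Set.indicator_of_mem]
          exact hs
        · rw [Set.indicator_of_notMem (show (a, s) ∉ B from hs), Set.indicator_of_notMem]
          exact hs
      rw [h1, lintegral_indicator_const, one_mul]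
      · rfl
      · exact (measurable_prodMk_left (x := a)) hBm
    have hmeas : Measurable fun p : (Fin k → E d) × E d =>
        T4Z μ η s₁ p.1 ^ n * B.indicator (fun _ => (1 : ℝ≥0∞)) p :=
      (((T4Z_measurable μ η s₁).comp measurable_fst).pow_const n).mul
        (measurable_const.indicator hBm)
    calc ∫⁻ a in A, T4Z μ η s₁ a ^ (n + 1) ∂(gamk d k)
        = ∫⁻ a in A, ∫⁻ s, T4Z μ η s₁ a ^ n * B.indicator (fun _ => (1 : ℝ≥0∞)) (a, s) ∂μ
            ∂(gamk d k) := by
          apply lintegral_congr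
          intro a
          rw [lintegral_const_mul, ← hZ, pow_succ]
          exact (measurable_const.indicator hBm).comp measurable_prodMk_left
      _ = ∫⁻ s, ∫⁻ a in A, T4Z μ η s₁ a ^ n * B.indicator (fun _ => (1 : ℝ≥0∞)) (a, s)
            ∂(gamk d k) ∂μ := by
          exact lintegral_lintegral_swap hmeas.aemeasurable
      _ ≤ ∫⁻ s, (sb η ((s - s₁) :: l) ^ k * (ENNReal.ofReal η ^ k * I) ^ n) ∂μ := by
          apply lintegral_mono
          intro s
          refine le_trans (le_of_eq ?_) (ih ((s - s₁) :: l) (by simp only [List.length_cons]; omega))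
          have h2 : {a : Fin k → E d | ∀ w ∈ (s - s₁) :: l, ∀ j, |(inner ℝ (a j) w : ℝ)| ≤ η} =
              {a | (a, s) ∈ B} ∩ A := by
            ext a
            simp only [List.mem_cons, forall_eq_or_imp, Set.mem_ofPred_eq, Set.mem_inter_iff, hA, hB]
          have hBs : MeasurableSet {a | (a, s) ∈ B} := measurable_prodMk_right hBm
          rw [h2, ← Measure.restrict_restrict hBs, ← lintegral_indicator hBs]
          apply lintegral_congr
          intro a
          by_cases ha : (a, s) ∈ B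
          · rw [Set.indicator_of_mem ha, mul_one, Set.indicator_of_mem]
            exact ha
          · rw [Set.indicator_of_notMem ha, mul_zero, Set.indicator_of_notMem]
            exact ha
      _ = ∫⁻ s, (ENNReal.ofReal (dsub (Submodule.span ℝ {w | w ∈ l}) (s - s₁)))⁻¹ ^ k *
            (ENNReal.ofReal η ^ k * sb η l ^ k * (ENNReal.ofReal η ^ k * I) ^ n) ∂μ := by
          apply lintegral_congr
          intro s
          rw [sb, div_eq_mul_inv, mul_pow, mul_pow]
          ring
      _ = (∫⁻ s, (ENNReal.ofReal (dsub (Submodule.span ℝ {w | w ∈ l}) (s - s₁)))⁻¹ ^ k ∂μ) *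
            (ENNReal.ofReal η ^ k * sb η l ^ k * (ENNReal.ofReal η ^ k * I) ^ n) := by
          rw [lintegral_mul_const _ (T4_dsub_measurable _ s₁ k)]
      _ ≤ I * (ENNReal.ofReal η ^ k * sb η l ^ k * (ENNReal.ofReal η ^ k * I) ^ n) := by
          gcongr
          apply hI
          have := T4_finrank_span_list l
          omega
      _ = sb η l ^ k * (ENNReal.ofReal η ^ k * I) ^ (n + 1) := by ring

theorem energy_le {d : ℕ} (k lam : ℕ) (hlam : 1 ≤ lam) (μ : Measure (E d)) [IsFiniteMeasure μ]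
    (I : ℝ≥0∞) (ε : ℝ) (hε : 0 < ε)
    (hI : ∀ (x0 : E d) (V : Submodule ℝ (E d)), Module.finrank ℝ V + 2 ≤ lam →
      ∫⁻ x, (ENNReal.ofReal (dsub V (x - x0)))⁻¹ ^ k ∂μ ≤ I) :
    ∫⁻ a, ∫⁻ b : Fin k → ℝ, (μ {s | ∀ j, |(inner ℝ (a j) s : ℝ) - b j| ≤ ε}) ^ lam ∂volume
        ∂(gamk d k) ≤
      ENNReal.ofReal (2 * ε) ^ (k * lam) * μ Set.univ * I ^ (lam - 1) := by
  obtain ⟨n, rfl⟩ : ∃ n, lam = n + 1 := ⟨lam - 1, by omega⟩
  -- the closed set {(b, s) | ∀ j, |<a_j, s> - b_j| ≤ ε}
  have hCm : ∀ a : Fin k → E d, MeasurableSet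
      {p : (Fin k → ℝ) × E d | ∀ j, |(inner ℝ (a j) p.2 : ℝ) - p.1 j| ≤ ε} := by
    intro a
    apply IsClosed.measurableSet
    have h : {p : (Fin k → ℝ) × E d | ∀ j, |(inner ℝ (a j) p.2 : ℝ) - p.1 j| ≤ ε} =
        ⋂ j, {p : (Fin k → ℝ) × E d | |(inner ℝ (a j) p.2 : ℝ) - p.1 j| ≤ ε} := by
      ext p; simp
    rw [h]
    apply isClosed_iInter
    intro j
    refine isClosed_le (continuous_abs.comp ?_) continuous_const
    exact (Continuous.inner continuous_const continuous_snd).sub
      ((continuous_apply j).comp continuous_fst)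
  -- step (i)
  have hi : ∀ a : Fin k → E d,
      ∫⁻ b : Fin k → ℝ, (μ {s | ∀ j, |(inner ℝ (a j) s : ℝ) - b j| ≤ ε}) ^ (n + 1) ≤
      ENNReal.ofReal (2 * ε) ^ k * ∫⁻ s₁, T4Z μ (2 * ε) s₁ a ^ n ∂μ := by
    intro a
    set C : Set ((Fin k → ℝ) × E d) :=
      {p | ∀ j, |(inner ℝ (a j) p.2 : ℝ) - p.1 j| ≤ ε} with hC
    have hCm' : MeasurableSet C := hCm a
    have hZm : Measurable fun s₁ : E d => T4Z μ (2 * ε) s₁ a := by
      have h1 : MeasurableSet {p : E d × E d | ∀ j, |(inner ℝ (a j) (p.2 - p.1) : ℝ)| ≤ 2 * ε} := by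
        apply IsClosed.measurableSet
        have h : {p : E d × E d | ∀ j, |(inner ℝ (a j) (p.2 - p.1) : ℝ)| ≤ 2 * ε} =
            ⋂ j, {p : E d × E d | |(inner ℝ (a j) (p.2 - p.1) : ℝ)| ≤ 2 * ε} := by
          ext p; simp
        rw [h]
        apply isClosed_iInter
        intro j
        exact isClosed_le (continuous_abs.comp (Continuous.inner continuous_const
          (continuous_snd.sub continuous_fst))) continuous_const
      exact measurable_measure_prodMk_left h1
    have hm : ∀ b, μ {s | ∀ j, |(inner ℝ (a j) s : ℝ) - b j| ≤ ε} =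
        ∫⁻ s₁, C.indicator (fun _ => (1 : ℝ≥0∞)) (b, s₁) ∂μ := by
      intro b
      have h1 : (fun s => C.indicator (fun _ => (1 : ℝ≥0∞)) (b, s)) =
          Set.indicator {s | ∀ j, |(inner ℝ (a j) s : ℝ) - b j| ≤ ε} (fun _ => 1) := by
        funext s
        by_cases hs : ∀ j, |(inner ℝ (a j) s : ℝ) - b j| ≤ ε
        · rw [Set.indicator_of_mem (show (b, s) ∈ C from hs), Set.indicator_of_mem]
          exact hs
        · rw [Set.indicator_of_notMem (show (b, s) ∉ C from hs), Set.indicator_of_notMem]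
          exact hs
      rw [h1, lintegral_indicator_const, one_mul]
      exact (measurable_prodMk_left (x := b)) hCm'
    calc ∫⁻ b : Fin k → ℝ, (μ {s | ∀ j, |(inner ℝ (a j) s : ℝ) - b j| ≤ ε}) ^ (n + 1)
        = ∫⁻ b : Fin k → ℝ, ∫⁻ s₁, (μ {s | ∀ j, |(inner ℝ (a j) s : ℝ) - b j| ≤ ε}) ^ n *
            C.indicator (fun _ => (1 : ℝ≥0∞)) (b, s₁) ∂μ := by
          apply lintegral_congr
          intro b
          rw [lintegral_const_mul, ← hm, pow_succ]
          exact (measurable_const.indicator hCm').comp measurable_prodMk_left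
      _ ≤ ∫⁻ b : Fin k → ℝ, ∫⁻ s₁, T4Z μ (2 * ε) s₁ a ^ n *
            C.indicator (fun _ => (1 : ℝ≥0∞)) (b, s₁) ∂μ := by
          apply lintegral_mono; intro b
          apply lintegral_mono; intro s₁
          by_cases hs : (b, s₁) ∈ C
          · simp only [Set.indicator_of_mem hs, mul_one]
            gcongr
            apply measure_mono
            intro s hs' j
            have h1 := hs' j
            have h2 := (show ∀ j, |(inner ℝ (a j) s₁ : ℝ) - b j| ≤ ε from hs) j
            rw [inner_sub_right]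
            have h3 : (inner ℝ (a j) s : ℝ) - inner ℝ (a j) s₁ =
              ((inner ℝ (a j) s : ℝ) - b j) - ((inner ℝ (a j) s₁ : ℝ) - b j) := by ring
            rw [h3]
            refine (abs_sub _ _).trans ?_
            linarith
          · simp only [Set.indicator_of_notMem hs, mul_zero]
            exact le_refl _
      _ = ∫⁻ s₁, (∫⁻ b : Fin k → ℝ, T4Z μ (2 * ε) s₁ a ^ n *
            C.indicator (fun _ => (1 : ℝ≥0∞)) (b, s₁)) ∂μ := by
          apply lintegral_lintegral_swap
          apply Measurable.aemeasurable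
          exact ((hZm.comp measurable_snd).pow_const n).mul (measurable_const.indicator hCm')
      _ = ∫⁻ s₁, ENNReal.ofReal (2 * ε) ^ k * T4Z μ (2 * ε) s₁ a ^ n ∂μ := by
          apply lintegral_congr
          intro s₁
          have hbm : Measurable fun b : Fin k → ℝ => C.indicator (fun _ => (1 : ℝ≥0∞)) (b, s₁) :=
            (measurable_const.indicator hCm').comp measurable_prodMk_right
          rw [lintegral_const_mul _ hbm, mul_comm]
          congr 1
          have h1 : (fun b => C.indicator (fun _ => (1 : ℝ≥0∞)) (b, s₁)) =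
              Set.indicator (closedBall (fun j => (inner ℝ (a j) s₁ : ℝ)) ε) (fun _ => 1) := by
            funext b
            have h2 : (b, s₁) ∈ C ↔ b ∈ closedBall (fun j => (inner ℝ (a j) s₁ : ℝ)) ε := by
              rw [mem_closedBall, dist_pi_le_iff hε.le]
              simp only [hC, Set.mem_ofPred_eq, Real.dist_eq]
              constructor
              · intro h j; rw [abs_sub_comm]; exact h j
              · intro h j; rw [abs_sub_comm]; exact h j
            by_cases hb : (b, s₁) ∈ C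
            · rw [Set.indicator_of_mem hb, Set.indicator_of_mem (h2.1 hb)]
            · rw [Set.indicator_of_notMem hb, Set.indicator_of_notMem (fun h => hb (h2.2 h))]
          rw [h1, lintegral_indicator_const measurableSet_closedBall, one_mul,
            Real.volume_pi_closedBall _ hε.le, Fintype.card_fin, ENNReal.ofReal_pow (by linarith)]
      _ = ENNReal.ofReal (2 * ε) ^ k * ∫⁻ s₁, T4Z μ (2 * ε) s₁ a ^ n ∂μ := by
          rw [lintegral_const_mul _ (hZm.pow_const n)]
  -- step (ii)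
  have hii : ∀ s₁, ∫⁻ a, T4Z μ (2 * ε) s₁ a ^ n ∂(gamk d k) ≤
      (ENNReal.ofReal (2 * ε) ^ k * I) ^ n := by
    intro s₁
    have h1 := T4_rec (lam := n + 1) μ I (2 * ε) (by linarith) hI s₁ n [] (by simp)
    simpa [sb] using h1
  have hTm : Measurable fun p : (Fin k → E d) × E d => T4Z μ (2 * ε) p.2 p.1 := by
    have h1 : MeasurableSet {p : ((Fin k → E d) × E d) × E d |
        ∀ j, |(inner ℝ (p.1.1 j) (p.2 - p.1.2) : ℝ)| ≤ 2 * ε} := by
      apply IsClosed.measurableSet
      have h : {p : ((Fin k → E d) × E d) × E d |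
          ∀ j, |(inner ℝ (p.1.1 j) (p.2 - p.1.2) : ℝ)| ≤ 2 * ε} =
          ⋂ j, {p : ((Fin k → E d) × E d) × E d |
            |(inner ℝ (p.1.1 j) (p.2 - p.1.2) : ℝ)| ≤ 2 * ε} := by
        ext p; simp
      rw [h]
      apply isClosed_iInter
      intro j
      refine isClosed_le (continuous_abs.comp (Continuous.inner ?_ ?_)) continuous_const
      · exact (continuous_apply j).comp (continuous_fst.comp continuous_fst)
      · exact continuous_snd.sub (continuous_snd.comp continuous_fst)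
    exact measurable_measure_prodMk_left h1
  calc ∫⁻ a, ∫⁻ b : Fin k → ℝ, (μ {s | ∀ j, |(inner ℝ (a j) s : ℝ) - b j| ≤ ε}) ^ (n + 1)
        ∂volume ∂(gamk d k)
      ≤ ∫⁻ a, ENNReal.ofReal (2 * ε) ^ k * ∫⁻ s₁, T4Z μ (2 * ε) s₁ a ^ n ∂μ ∂(gamk d k) :=
        lintegral_mono hi
    _ = ENNReal.ofReal (2 * ε) ^ k * ∫⁻ a, ∫⁻ s₁, T4Z μ (2 * ε) s₁ a ^ n ∂μ ∂(gamk d k) := by
        rw [lintegral_const_mul' _ _ (ENNReal.pow_ne_top ENNReal.ofReal_ne_top)]
    _ = ENNReal.ofReal (2 * ε) ^ k * ∫⁻ s₁, ∫⁻ a, T4Z μ (2 * ε) s₁ a ^ n ∂(gamk d k) ∂μ := by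
        congr 1
        apply lintegral_lintegral_swap
        exact (hTm.pow_const n).aemeasurable
    _ ≤ ENNReal.ofReal (2 * ε) ^ k * ∫⁻ _s₁, (ENNReal.ofReal (2 * ε) ^ k * I) ^ n ∂μ := by
        gcongr with s₁
        exact hii s₁
    _ = ENNReal.ofReal (2 * ε) ^ (k * (n + 1)) * μ Set.univ * I ^ (n + 1 - 1) := by
        rw [lintegral_const, Nat.add_sub_cancel, mul_pow, ← pow_mul, Nat.mul_add, mul_one, pow_add]
        ring

end Crest.Agent.SL
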