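import Mathlib
import Crest.Agent.SL_Defs

set_option autoImplicit false

namespace Crest.Agent.SL

open MeasureTheory ProbabilityTheory Crest.StreamLearn Metric
open scoped ENNReal

theorem T5.lintegral_pi_prod {X : Type*} [MeasurableSpace X] (μ : Measure X) [SigmaFinite μ]
    (f : X → ℝ≥0∞) (hf : Measurable f) (k : ℕ) :
    ∫⁻ a, ∏ j, f (a j) ∂(Measure.pi fun _ : Fin k => μ) = (∫⁻ x, f x ∂μ) ^ k := by
  induction k with
  | zero => simp
  | succ k ih =>
    have h := (measurePreserving_piFinSuccAbove (fun _ : Fin (k+1) => μ) 0).symm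
    rw [← h.lintegral_comp_emb (MeasurableEquiv.measurableEmbedding _)]
    simp only [MeasurableEquiv.piFinSuccAbove_symm_apply, Fin.prod_univ_succ]
    simp only [Fin.insertNthEquiv_apply, Fin.insertNth_zero', Fin.cons_zero, Fin.cons_succ]
    rw [lintegral_prod_mul (f := f) (g := fun a : Fin k → X => ∏ j, f (a j)) hf.aemeasurable
      (Finset.measurable_prod _ fun j _ => hf.comp (measurable_pi_apply j)).aemeasurable,
      ih, pow_succ']

theorem T5.gauss_sq : ∫⁻ t : ℝ, ENNReal.ofReal (t ^ 2) ∂(gaussianReal 0 1) = 1 := by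
  have hint : Integrable (fun t : ℝ => t ^ 2) (gaussianReal 0 1) := by
    have h := memLp_id_gaussianReal (μ := 0) (v := 1) 2
    exact h.integrable_sq
  rw [← ofReal_integral_eq_lintegral_ofReal hint (ae_of_all _ fun t => sq_nonneg t)]
  have h1 : ∫ t : ℝ, t ^ 2 ∂(gaussianReal 0 1) = 1 := by
    have h2 := variance_id_gaussianReal (μ := 0) (v := 1)
    rw [variance_of_integral_eq_zero aemeasurable_id (by simp [integral_id_gaussianReal])] at h2
    simpa using h2
  rw [h1]; simp

theorem T5.lintegral_norm_sq (d : ℕ) :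
    ∫⁻ x, ENNReal.ofReal (‖x‖ ^ 2) ∂(stdGaussian (E d)) = ENNReal.ofReal d := by
  rw [← map_pi_eq_stdGaussian (ι := Fin d), lintegral_map (by fun_prop) (by fun_prop)]
  have h1 : ∀ x : Fin d → ℝ, ENNReal.ofReal (‖(WithLp.toLp 2 x : E d)‖ ^ 2) =
      ∑ i, ENNReal.ofReal ((x i) ^ 2) := by
    intro x
    rw [EuclideanSpace.norm_sq_eq, ENNReal.ofReal_sum_of_nonneg (fun i _ => sq_nonneg _)]
    simp
  simp_rw [h1]
  rw [lintegral_finsetSum _ (fun i _ => by fun_prop)]
  have h2 : ∀ i : Fin d, ∫⁻ x : Fin d → ℝ, ENNReal.ofReal ((x i) ^ 2)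
      ∂(Measure.pi fun _ : Fin d => gaussianReal 0 1) = 1 := by
    intro i
    rw [← T5.gauss_sq]
    exact (measurePreserving_eval (fun _ : Fin d => gaussianReal 0 1) i).lintegral_comp
      (f := fun t : ℝ => ENNReal.ofReal (t ^ 2)) (by fun_prop)
  simp [h2]

theorem T5.lintegral_sqrt_le (d : ℕ) :
    ∫⁻ x, ENNReal.ofReal (Real.sqrt (‖x‖ ^ 2 + 1)) ∂(stdGaussian (E d)) ≤
      ENNReal.ofReal (Real.sqrt (d + 1)) := by
  set c : ℝ := Real.sqrt (d + 1) with hc
  have hc0 : 0 < c := Real.sqrt_pos.2 (by positivity)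
  have hc2 : c ^ 2 = d + 1 := Real.sq_sqrt (by positivity)
  have h1 : ∀ x : E d, ENNReal.ofReal (Real.sqrt (‖x‖ ^ 2 + 1)) ≤
      ENNReal.ofReal (1 / (2 * c)) * ENNReal.ofReal (‖x‖ ^ 2) +
        ENNReal.ofReal ((1 + c ^ 2) / (2 * c)) := by
    intro x
    rw [← ENNReal.ofReal_mul (by positivity), ← ENNReal.ofReal_add (by positivity) (by positivity)]
    apply ENNReal.ofReal_le_ofReal
    have h2 : Real.sqrt (‖x‖ ^ 2 + 1) ^ 2 = ‖x‖ ^ 2 + 1 := Real.sq_sqrt (by positivity)
    have h3 := sq_nonneg (Real.sqrt (‖x‖ ^ 2 + 1) - c)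
    have h4 : 1 / (2 * c) * ‖x‖ ^ 2 + (1 + c ^ 2) / (2 * c) = (‖x‖ ^ 2 + 1 + c ^ 2) / (2 * c) := by
      field_simp
      ring
    rw [h4, le_div_iff₀ (by positivity)]
    nlinarith
  calc _ ≤ ∫⁻ x, (ENNReal.ofReal (1 / (2 * c)) * ENNReal.ofReal (‖x‖ ^ 2) +
        ENNReal.ofReal ((1 + c ^ 2) / (2 * c))) ∂(stdGaussian (E d)) := lintegral_mono h1
    _ = ENNReal.ofReal c := by
      rw [lintegral_add_right _ measurable_const, lintegral_const_mul _ (by fun_prop),
        T5.lintegral_norm_sq, lintegral_const, measure_univ, mul_one,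
        ← ENNReal.ofReal_mul (by positivity), ← ENNReal.ofReal_add (by positivity) (by positivity)]
      congr 1
      field_simp
      rw [hc2]; ring

theorem T5.hadamard {k : ℕ} {W : Type*} [NormedAddCommGroup W] [InnerProductSpace ℝ W]
    (b : OrthonormalBasis (Fin k) ℝ W) (v : Fin k → W) :
    |b.toBasis.det v| ≤ ∏ i, ‖v i‖ := by
  have : Fact (Module.finrank ℝ W = k) := ⟨by
    rw [Module.finrank_eq_card_basis b.toBasis, Fintype.card_fin]⟩
  rw [← b.toBasis.orientation.volumeForm_robust' b]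
  exact Orientation.abs_volumeForm_apply_le _ v

/-- augmented row -/
noncomputable def T5.aug {d k : ℕ} (α : Fin k → E d) (j : Fin k) :
    WithLp 2 (E d × EuclideanSpace ℝ (Fin k)) :=
  WithLp.toLp 2 (α j, EuclideanSpace.single j (1 : ℝ))

theorem T5.norm_aug {d k : ℕ} (α : Fin k → E d) (j : Fin k) :
    ‖T5.aug α j‖ = Real.sqrt (‖α j‖ ^ 2 + 1) := by
  rw [WithLp.prod_norm_eq_of_L2]
  simp [T5.aug]

theorem T5.inner_aug {d k : ℕ} (α : Fin k → E d) (j : Fin k) (s : E d)
    (u : EuclideanSpace ℝ (Fin k)) :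
    (inner ℝ (T5.aug α j) (WithLp.toLp 2 (s, u)) : ℝ) = inner ℝ (α j) s + u j := by
  rw [WithLp.prod_inner_apply]
  simp [T5.aug, EuclideanSpace.inner_single_left]

theorem T5.linInd_aug {d k : ℕ} (α : Fin k → E d) : LinearIndependent ℝ (T5.aug α) := by
  rw [Fintype.linearIndependent_iff]
  intro g hg i
  have h1 : (inner ℝ (∑ j, g j • T5.aug α j)
      (WithLp.toLp 2 ((0 : E d), EuclideanSpace.single i (1 : ℝ))) : ℝ) = 0 := by
    rw [hg, inner_zero_left]
  rw [sum_inner] at h1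
  simp_rw [inner_smul_left, T5.inner_aug] at h1
  simpa [PiLp.single_apply] using h1

theorem T5.pointwise {d k : ℕ} (α : Fin k → E d) (y : E d) (ρ ε : ℝ) (hρ : 0 < ρ) (hε : 0 < ε)
    (hερ : ε * k ≤ ρ) :
    volume {b : Fin k → ℝ | ∃ s ∈ closedBall y ρ, ∀ j, |(inner ℝ (α j) s : ℝ) - b j| ≤ ε} ≤
      (∏ j, ENNReal.ofReal (Real.sqrt (‖α j‖ ^ 2 + 1))) *
        volume (closedBall (0 : EuclideanSpace ℝ (Fin k)) (2 * ρ)) := by
  classical
  set W : Submodule ℝ (WithLp 2 (E d × EuclideanSpace ℝ (Fin k))) :=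
    Submodule.span ℝ (Set.range (T5.aug α)) with hW
  have hfin : Module.finrank ℝ W = k := by
    rw [hW, finrank_span_eq_card (T5.linInd_aug α), Fintype.card_fin]
  let b : OrthonormalBasis (Fin k) ℝ W := (stdOrthonormalBasis ℝ W).reindex (finCongr hfin)
  let v : Fin k → W := fun j => ⟨T5.aug α j, Submodule.subset_span ⟨j, rfl⟩⟩
  set A : Matrix (Fin k) (Fin k) ℝ := b.toBasis.toMatrix v with hA
  set T : (Fin k → ℝ) →ₗ[ℝ] (Fin k → ℝ) := Matrix.toLin' A.transpose with hT
  set D : Set (Fin k → ℝ) :=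
    (WithLp.toLp 2) ⁻¹' (closedBall (0 : EuclideanSpace ℝ (Fin k)) (2 * ρ)) with hD
  have hsub : {b : Fin k → ℝ | ∃ s ∈ closedBall y ρ, ∀ j, |(inner ℝ (α j) s : ℝ) - b j| ≤ ε} ⊆
      (fun z => (fun j => (inner ℝ (α j) y : ℝ)) + z) '' (T '' D) := by
    rintro b' ⟨s, hs, hb'⟩
    set u : EuclideanSpace ℝ (Fin k) :=
      WithLp.toLp 2 (fun j => b' j - (inner ℝ (α j) s : ℝ)) with hu
    set w : WithLp 2 (E d × EuclideanSpace ℝ (Fin k)) := WithLp.toLp 2 (s - y, u) with hw
    set P : W := W.orthogonalProjectionOnto w with hP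
    have hnu : ‖u‖ ≤ ρ := by
      rw [EuclideanSpace.norm_eq]
      have h1 : ∑ i, ‖u i‖ ^ 2 ≤ (ε * k) ^ 2 := by
        calc ∑ i, ‖u i‖ ^ 2 ≤ ∑ _i : Fin k, ε ^ 2 := by
              apply Finset.sum_le_sum
              intro i _
              have h2 : ‖u i‖ ≤ ε := by
                rw [Real.norm_eq_abs, hu]
                simpa [abs_sub_comm] using hb' i
              exact pow_le_pow_left₀ (norm_nonneg _) h2 2
          _ = k * ε ^ 2 := by simp
          _ ≤ (ε * k) ^ 2 := by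
              rw [mul_pow]
              rcases Nat.eq_zero_or_pos k with hk | hk
              · subst hk; simp
              · have h3 : (1 : ℝ) ≤ k := by exact_mod_cast hk
                nlinarith [sq_nonneg ε, mul_nonneg (sq_nonneg ε) (sub_nonneg.2 h3)]
      calc Real.sqrt (∑ i, ‖u i‖ ^ 2) ≤ Real.sqrt ((ε * k) ^ 2) := Real.sqrt_le_sqrt h1
        _ = ε * k := Real.sqrt_sq (by positivity)
        _ ≤ ρ := hερ
    have hns : ‖s - y‖ ≤ ρ := by simpa [dist_eq_norm] using hs
    have hnw : ‖w‖ ≤ 2 * ρ := by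
      rw [WithLp.prod_norm_eq_of_L2]
      calc Real.sqrt (‖s - y‖ ^ 2 + ‖u‖ ^ 2) ≤ Real.sqrt ((2 * ρ) ^ 2) := by
            apply Real.sqrt_le_sqrt
            nlinarith [norm_nonneg (s - y), norm_nonneg u]
        _ = 2 * ρ := Real.sqrt_sq (by positivity)
    have hnP : ‖P‖ ≤ 2 * ρ := (W.norm_orthogonalProjectionOnto_apply_le w).trans hnw
    refine ⟨b' - fun j => (inner ℝ (α j) y : ℝ), ⟨(b.repr P : Fin k → ℝ), ?_, ?_⟩, by simp⟩
    · simp only [hD, Set.mem_preimage, mem_closedBall, dist_zero_right]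
      have : (WithLp.toLp 2 (b.repr P : Fin k → ℝ) : EuclideanSpace ℝ (Fin k)) = b.repr P := rfl
      rw [this, LinearIsometryEquiv.norm_map]
      exact hnP
    · ext j
      rw [hT, Matrix.toLin'_apply, Matrix.mulVec, dotProduct]
      have h1 : ∑ i, A.transpose j i * (b.repr P : Fin k → ℝ) i =
          (inner ℝ (b.repr (v j)) (b.repr P) : ℝ) := by
        rw [PiLp.inner_apply]
        apply Finset.sum_congr rfl
        intro i _
        have h3 : A.transpose j i = b.repr (v j) i := by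
          rw [Matrix.transpose_apply, hA, Module.Basis.toMatrix_apply,
            OrthonormalBasis.coe_toBasis_repr_apply]
        rw [h3]
        exact mul_comm _ _
      rw [h1, LinearIsometryEquiv.inner_map_map]
      have h2 : (inner ℝ (v j) P : ℝ) = inner ℝ (T5.aug α j) w := by
        rw [hP, Submodule.inner_orthogonalProjectionOnto_eq_of_mem_left]
      rw [h2, hw, T5.inner_aug, hu]
      simp [inner_sub_right]
  have hdet : LinearMap.det T = b.toBasis.det v := by
    rw [hT, LinearMap.det_toLin', Matrix.det_transpose, Module.Basis.det_apply]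
  calc _ ≤ volume ((fun z => (fun j => (inner ℝ (α j) y : ℝ)) + z) '' (T '' D)) :=
        measure_mono hsub
    _ = volume (T '' D) := by
        rw [Set.image_add_left, measure_preimage_add]
    _ = ENNReal.ofReal |LinearMap.det T| * volume D :=
        Measure.addHaar_image_linearMap _ _ _
    _ ≤ (∏ j, ENNReal.ofReal (Real.sqrt (‖α j‖ ^ 2 + 1))) *
        volume (closedBall (0 : EuclideanSpace ℝ (Fin k)) (2 * ρ)) := by
        apply mul_le_mul'
        · rw [← ENNReal.ofReal_prod_of_nonneg (fun i _ => Real.sqrt_nonneg _), hdet]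
          apply ENNReal.ofReal_le_ofReal
          refine (T5.hadamard b v).trans (le_of_eq ?_)
          apply Finset.prod_congr rfl
          intro i _
          rw [← T5.norm_aug]
          rfl
        · rw [hD]
          exact le_of_eq ((PiLp.volume_preserving_toLp (Fin k)).measure_preimage
            measurableSet_closedBall.nullMeasurableSet)

theorem region_le (d n : ℕ) (y : E d) (ρ ε : ℝ) (hρ : 0 < ρ) (hε : 0 < ε)
    (hερ : ε * (2 * n : ℕ) ≤ ρ) :
    ∫⁻ a, volume {b : Fin (2 * n) → ℝ |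
        ∃ s ∈ closedBall y ρ, ∀ j, |(inner ℝ (a j) s : ℝ) - b j| ≤ ε} ∂(gamk d (2 * n)) ≤
      ENNReal.ofReal ((2 * ρ) ^ (2 * n) * (Real.pi ^ n / n.factorial * ((d : ℝ) + 1) ^ n)) := by
  rcases Nat.eq_zero_or_pos n with hn | hn
  · subst hn
    have h1 : ∀ s : Set (Fin (2 * 0) → ℝ), volume s ≤ 1 := by
      intro s
      refine (measure_mono (Set.subset_univ s)).trans ?_
      have : IsEmpty (Fin (2 * 0)) := by
        rw [Nat.mul_zero]; infer_instance
      rw [volume_pi, Measure.pi_of_empty]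
      simp
    calc _ ≤ ∫⁻ _a, 1 ∂(gamk d (2 * 0)) := lintegral_mono fun a => h1 _
      _ ≤ _ := by simp
  · have : Nonempty (Fin (2 * n)) := ⟨⟨0, by omega⟩⟩
    have hb : volume (closedBall (0 : EuclideanSpace ℝ (Fin (2 * n))) (2 * ρ)) =
        ENNReal.ofReal ((2 * ρ) ^ (2 * n) * (Real.pi ^ n / n.factorial)) := by
      rw [EuclideanSpace.volume_closedBall, Fintype.card_fin,
        ← ENNReal.ofReal_pow (by positivity), ← ENNReal.ofReal_mul (by positivity)]
      congr 2
      have h2 : Real.sqrt Real.pi ^ (2 * n) = Real.pi ^ n := by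
        rw [pow_mul, Real.sq_sqrt Real.pi_pos.le]
      have h3 : Real.Gamma (((2 * n : ℕ) : ℝ) / 2 + 1) = n.factorial := by
        rw [← Real.Gamma_nat_eq_factorial]
        congr 1
        push_cast
        ring
      rw [h2, h3]
    calc _ ≤ ∫⁻ a, (∏ j, ENNReal.ofReal (Real.sqrt (‖a j‖ ^ 2 + 1))) *
        volume (closedBall (0 : EuclideanSpace ℝ (Fin (2 * n))) (2 * ρ)) ∂(gamk d (2 * n)) :=
          lintegral_mono fun a => T5.pointwise a y ρ ε hρ hε hερ
      _ = (∫⁻ x, ENNReal.ofReal (Real.sqrt (‖x‖ ^ 2 + 1)) ∂(stdGaussian (E d))) ^ (2 * n) *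
          volume (closedBall (0 : EuclideanSpace ℝ (Fin (2 * n))) (2 * ρ)) := by
          rw [lintegral_mul_const _ (Finset.measurable_prod _ fun j _ => by fun_prop)]
          congr 1
          exact T5.lintegral_pi_prod (stdGaussian (E d))
            (fun x => ENNReal.ofReal (Real.sqrt (‖x‖ ^ 2 + 1))) (by fun_prop) (2 * n)
      _ ≤ ENNReal.ofReal (Real.sqrt (d + 1)) ^ (2 * n) *
          volume (closedBall (0 : EuclideanSpace ℝ (Fin (2 * n))) (2 * ρ)) := by
          gcongr
          exact T5.lintegral_sqrt_le d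
      _ = _ := by
          rw [hb, ← ENNReal.ofReal_pow (by positivity), ← ENNReal.ofReal_mul (by positivity)]
          congr 1
          rw [pow_mul (Real.sqrt _), Real.sq_sqrt (by positivity)]
          ring

end Crest.Agent.SL
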