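import Crest.Agent.SL_Defs

/-!
S0499, task T6: smoothing lemma for disjoint sets of measurement vectors.  helper77.
-/

set_option autoImplicit false

namespace Crest.Agent.SL

open MeasureTheory ProbabilityTheory Crest.StreamLearn Metric Filter Topology
open scoped ENNReal

/-- mass of a compact set is at most the integral over a thickening of the smeared density -/
theorem T6_compact_le {k : ℕ} (ν : Measure (Fin k → ℝ)) [IsFiniteMeasure ν] (K : Set (Fin k → ℝ))
    (hK : IsCompact K) (h : ℝ) (hh : 0 < h) :
    ν K ≤ ∫⁻ b in cthickening h K, ν (closedBall b h) / ENNReal.ofReal ((2 * h) ^ k) := by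
  have hc0 : ENNReal.ofReal ((2 * h) ^ k) ≠ 0 := by
    rw [ne_eq, ENNReal.ofReal_eq_zero, not_le]; positivity
  have hct : ENNReal.ofReal ((2 * h) ^ k) ≠ ⊤ := ENNReal.ofReal_ne_top
  have hTm : MeasurableSet (cthickening h K) := isClosed_cthickening.measurableSet
  set C : Set ((Fin k → ℝ) × (Fin k → ℝ)) := {p | dist p.2 p.1 ≤ h} with hC
  have hCm : MeasurableSet C := by
    apply IsClosed.measurableSet
    exact isClosed_le (continuous_snd.dist continuous_fst) continuous_const
  have h1 : ∀ b, ν (closedBall b h) = ∫⁻ x, C.indicator (fun _ => (1 : ℝ≥0∞)) (b, x) ∂ν := by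
    intro b
    have h2 : (fun x => C.indicator (fun _ => (1 : ℝ≥0∞)) (b, x)) =
        Set.indicator (closedBall b h) (fun _ => 1) := by
      funext x
      by_cases hx : x ∈ closedBall b h
      · rw [Set.indicator_of_mem hx, Set.indicator_of_mem (show (b, x) ∈ C from hx)]
      · rw [Set.indicator_of_notMem hx, Set.indicator_of_notMem (show (b, x) ∉ C from hx)]
    rw [h2, lintegral_indicator_const measurableSet_closedBall, one_mul]
  have hm1 : Measurable fun b => ν (closedBall b h) := by
    simp only [h1]
    exact Measurable.lintegral_prod_right' (measurable_const.indicator hCm)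
  simp only [div_eq_mul_inv]
  rw [lintegral_mul_const _ hm1, ← div_eq_mul_inv, ENNReal.le_div_iff_mul_le (Or.inl hc0)
    (Or.inl hct)]
  calc ν K * ENNReal.ofReal ((2 * h) ^ k)
      = ∫⁻ x in K, ENNReal.ofReal ((2 * h) ^ k) ∂ν := by
        rw [setLIntegral_const, mul_comm]
    _ ≤ ∫⁻ x in K, (∫⁻ b in cthickening h K, C.indicator (fun _ => (1 : ℝ≥0∞)) (b, x)) ∂ν := by
        apply setLIntegral_mono' hK.measurableSet
        intro x hx
        have h3 : (fun b => C.indicator (fun _ => (1 : ℝ≥0∞)) (b, x)) =
            Set.indicator (closedBall x h) (fun _ => 1) := by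
          funext b
          have h4 : (b, x) ∈ C ↔ b ∈ closedBall x h := by
            simp only [hC, Set.mem_ofPred_eq, mem_closedBall, dist_comm]
          by_cases hb : (b, x) ∈ C
          · rw [Set.indicator_of_mem hb, Set.indicator_of_mem (h4.1 hb)]
          · rw [Set.indicator_of_notMem hb, Set.indicator_of_notMem (fun h => hb (h4.2 h))]
        rw [h3, lintegral_indicator_const measurableSet_closedBall, one_mul,
          Measure.restrict_apply measurableSet_closedBall,
          Set.inter_eq_left.2 (closedBall_subset_cthickening hx h),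
          Real.volume_pi_closedBall _ hh.le, Fintype.card_fin]
    _ ≤ ∫⁻ x, (∫⁻ b in cthickening h K, C.indicator (fun _ => (1 : ℝ≥0∞)) (b, x)) ∂ν :=
        setLIntegral_le_lintegral _ _
    _ = ∫⁻ b in cthickening h K, (∫⁻ x, C.indicator (fun _ => (1 : ℝ≥0∞)) (b, x) ∂ν) := by
        rw [lintegral_lintegral_swap]
        apply Measurable.aemeasurable
        exact (measurable_const.indicator hCm).comp measurable_swap
    _ = ∫⁻ b in cthickening h K, ν (closedBall b h) := by
        simp only [h1]

theorem smooth_liminf {k : ℕ} {ι : Type*} [Fintype ι] (ν : ι → Measure (Fin k → ℝ))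
    [∀ i, IsFiniteMeasure (ν i)] (G : ι → Set (Fin k → ℝ)) (hG : ∀ i, MeasurableSet (G i))
    (hd : Pairwise (Function.onFun Disjoint G)) (h : ℕ → ℝ) (hpos : ∀ m, 0 < h m)
    (hlim : Tendsto h atTop (𝓝 0)) :
    ∑ i, ν i (G i) ≤ liminf (fun m => ∫⁻ b, ⨆ i, ν i (closedBall b (h m)) /
      ENNReal.ofReal ((2 * h m) ^ k)) atTop := by
  classical
  apply ENNReal.le_of_forall_pos_le_add
  intro ε hε _
  -- distribute ε
  set δ : ℝ≥0∞ := (ε : ℝ≥0∞) / ((Fintype.card ι : ℝ≥0∞) + 1) with hδ
  have hcard : ((Fintype.card ι : ℝ≥0∞) + 1) ≠ ⊤ := by simp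
  have hδ0 : δ ≠ 0 := by
    rw [hδ]; apply (ENNReal.div_pos _ hcard).ne'
    exact_mod_cast hε.ne'
  have hδsum : ∑ _i : ι, δ ≤ ε := by
    rw [Finset.sum_const, Finset.card_univ, nsmul_eq_mul, hδ, ← mul_div_assoc]
    apply ENNReal.div_le_of_le_mul
    rw [mul_comm]
    gcongr
    exact le_self_add
  choose K hKG hKc hKlt using fun i =>
    (hG i).exists_isCompact_lt_add (measure_ne_top (ν i) (G i)) hδ0
  -- eventually disjoint thickenings
  have hev : ∀ᶠ m in atTop, ∀ i j, i ≠ j →
      Disjoint (cthickening (h m) (K i)) (cthickening (h m) (K j)) := by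
    rw [eventually_all]; intro i
    rw [eventually_all]; intro j
    by_cases hij : i = j
    · exact Eventually.of_forall fun m hne => absurd hij hne
    · have hdis : Disjoint (K i) (K j) := (hd hij).mono (hKG i) (hKG j)
      obtain ⟨r, hr, hrd⟩ := hdis.exists_cthickenings (hKc i) (hKc j).isClosed
      have : ∀ᶠ m in atTop, h m < r := hlim.eventually (gt_mem_nhds hr)
      filter_upwards [this] with m hm _
      exact hrd.mono (cthickening_mono hm.le _) (cthickening_mono hm.le _)
  have hmain : ∀ᶠ m in atTop, (∑ i, ν i (G i)) - ε ≤ ∫⁻ b, ⨆ i, ν i (closedBall b (h m)) /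
      ENNReal.ofReal ((2 * h m) ^ k) := by
    filter_upwards [hev] with m hm
    rw [tsub_le_iff_right]
    calc ∑ i, ν i (G i) ≤ ∑ i, (ν i (K i) + δ) :=
          Finset.sum_le_sum fun i _ => (hKlt i).le
      _ = ∑ i, ν i (K i) + ∑ _i : ι, δ := Finset.sum_add_distrib
      _ ≤ (∫⁻ b, ⨆ i, ν i (closedBall b (h m)) / ENNReal.ofReal ((2 * h m) ^ k)) + ε := by
          gcongr
          calc ∑ i, ν i (K i) ≤ ∑ i, ∫⁻ b in cthickening (h m) (K i),
                ν i (closedBall b (h m)) / ENNReal.ofReal ((2 * h m) ^ k) :=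
                Finset.sum_le_sum fun i _ => T6_compact_le (ν i) (K i) (hKc i) (h m) (hpos m)
            _ ≤ ∑ i, ∫⁻ b in cthickening (h m) (K i),
                ⨆ i, ν i (closedBall b (h m)) / ENNReal.ofReal ((2 * h m) ^ k) := by
                apply Finset.sum_le_sum; intro i _
                apply lintegral_mono; intro b
                exact le_iSup (fun i => ν i (closedBall b (h m)) /
                  ENNReal.ofReal ((2 * h m) ^ k)) i
            _ = ∫⁻ b in ⋃ i ∈ (Finset.univ : Finset ι), cthickening (h m) (K i),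
                ⨆ i, ν i (closedBall b (h m)) / ENNReal.ofReal ((2 * h m) ^ k) := by
                rw [lintegral_biUnion_finset]
                · intro i _ j _ hij
                  exact hm i j hij
                · intro i _
                  exact isClosed_cthickening.measurableSet
            _ ≤ _ := setLIntegral_le_lintegral _ _
  have h2 : (∑ i, ν i (G i)) - ε ≤ liminf (fun m => ∫⁻ b, ⨆ i, ν i (closedBall b (h m)) /
      ENNReal.ofReal ((2 * h m) ^ k)) atTop := le_liminf_of_le (by isBoundedDefault) hmain
  rwa [tsub_le_iff_right] at h2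

end Crest.Agent.SL
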