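import Crest.Agent.SL_Defs
import Crest.Agent.SL_T3
import Crest.Agent.SL_T4
import Crest.Agent.SL_T5
import Crest.Agent.SL_T6a

/-!
S0499, task T6: the block inequality.  helper77.
-/

set_option autoImplicit false

namespace Crest.Agent.SL

open MeasureTheory ProbabilityTheory Crest.StreamLearn Metric Filter Topology
open scoped ENNReal

/-- `λ y ≤ (λ - 1) K + y^λ / K^(λ-1)` -/
theorem T6_young (lam : ℕ) (hlam : 1 ≤ lam) (K y : ℝ≥0∞) (hK0 : K ≠ 0) (hK : K ≠ ⊤) :
    (lam : ℝ≥0∞) * y ≤ ((lam - 1 : ℕ) : ℝ≥0∞) * K + y ^ lam * (K ^ (lam - 1))⁻¹ := by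
  obtain ⟨m, rfl⟩ : ∃ m, lam = m + 1 := ⟨lam - 1, by omega⟩
  rw [Nat.add_sub_cancel]
  have hKp0 : K ^ m ≠ 0 := pow_ne_zero _ hK0
  have hKpt : K ^ m ≠ ⊤ := ENNReal.pow_ne_top hK
  by_cases hy : y = ⊤
  · have h1 : y ^ (m + 1) = ⊤ := by rw [hy, ENNReal.top_pow (by omega)]
    rw [h1, ENNReal.top_mul (by simp [hKpt])]
    simp
  · lift y to NNReal using hy
    lift K to NNReal using hK
    have hK0' : K ≠ 0 := by simpa using hK0
    rw [← ENNReal.coe_pow, ← ENNReal.coe_pow, ← ENNReal.coe_inv (pow_ne_zero _ hK0')]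
    norm_cast
    have hKpos : (0 : ℝ) < K := by positivity
    rw [← NNReal.coe_le_coe]
    push_cast
    have h1 := one_add_mul_le_pow (a := (y : ℝ) / K - 1) (by
      have : (0 : ℝ) ≤ (y : ℝ) / K := by positivity
      linarith) (m + 1)
    rw [show (1 : ℝ) + ((y : ℝ) / K - 1) = (y : ℝ) / K by ring] at h1
    have h2 : (y : ℝ) ^ (m + 1) * ((K : ℝ) ^ m)⁻¹ = ((y : ℝ) / K) ^ (m + 1) * K := by
      rw [div_pow, pow_succ (K : ℝ) m]
      field_simp
    rw [h2]
    have h3 := mul_le_mul_of_nonneg_right h1 hKpos.le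
    have h4 : (1 + ((m + 1 : ℕ) : ℝ) * ((y : ℝ) / K - 1)) * K =
        K + ((m + 1 : ℕ) : ℝ) * y - ((m + 1 : ℕ) : ℝ) * K := by
      field_simp
      ring
    rw [h4] at h3
    push_cast at h3 ⊢
    linarith

theorem meas_continuous {d k : ℕ} : Continuous fun p : (Fin k → E d) × E d => meas p.1 p.2 := by
  unfold meas
  apply continuous_pi
  intro j
  exact Continuous.inner ((continuous_apply j).comp continuous_fst) continuous_snd

theorem meas_mem_closedBall {d k : ℕ} (a : Fin k → E d) (s : E d) (b : Fin k → ℝ) (h : ℝ)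
    (hh : 0 ≤ h) : meas a s ∈ closedBall b h ↔ ∀ j, |(inner ℝ (a j) s : ℝ) - b j| ≤ h := by
  rw [mem_closedBall, dist_pi_le_iff hh]
  simp only [Real.dist_eq, meas]

/-- smeared mass of the slice `b` -/
noncomputable def T6m {d k : ℕ} (ν : Measure (E d)) (h : ℝ) (a : Fin k → E d) (b : Fin k → ℝ) :
    ℝ≥0∞ :=
  ν {s | ∀ j, |(inner ℝ (a j) s : ℝ) - b j| ≤ h}

theorem T6m_measurable {d k : ℕ} (ν : Measure (E d)) [SFinite ν] (h : ℝ) :
    Measurable fun p : (Fin k → E d) × (Fin k → ℝ) => T6m ν h p.1 p.2 := by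
  have h1 : MeasurableSet {p : ((Fin k → E d) × (Fin k → ℝ)) × E d |
      ∀ j, |(inner ℝ (p.1.1 j) p.2 : ℝ) - p.1.2 j| ≤ h} := by
    apply IsClosed.measurableSet
    have h2 : {p : ((Fin k → E d) × (Fin k → ℝ)) × E d |
        ∀ j, |(inner ℝ (p.1.1 j) p.2 : ℝ) - p.1.2 j| ≤ h} =
        ⋂ j, {p : ((Fin k → E d) × (Fin k → ℝ)) × E d |
          |(inner ℝ (p.1.1 j) p.2 : ℝ) - p.1.2 j| ≤ h} := by
      ext p; simp
    rw [h2]
    apply isClosed_iInter
    intro j
    refine isClosed_le (continuous_abs.comp (Continuous.sub (Continuous.inner ?_ ?_) ?_))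
      continuous_const
    · exact (continuous_apply j).comp (continuous_fst.comp continuous_fst)
    · exact continuous_snd
    · exact (continuous_apply j).comp (continuous_snd.comp continuous_fst)
  exact measurable_measure_prodMk_left h1

theorem T6m_measurable_right {d k : ℕ} (ν : Measure (E d)) [SFinite ν] (h : ℝ)
    (a : Fin k → E d) : Measurable fun b : Fin k → ℝ => T6m ν h a b := by
  have h1 : MeasurableSet {p : (Fin k → ℝ) × E d |
      ∀ j, |(inner ℝ (a j) p.2 : ℝ) - p.1 j| ≤ h} := by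
    apply IsClosed.measurableSet
    have h2 : {p : (Fin k → ℝ) × E d |
        ∀ j, |(inner ℝ (a j) p.2 : ℝ) - p.1 j| ≤ h} =
        ⋂ j, {p : (Fin k → ℝ) × E d |
          |(inner ℝ (a j) p.2 : ℝ) - p.1 j| ≤ h} := by
      ext p; simp
    rw [h2]
    apply isClosed_iInter
    intro j
    refine isClosed_le (continuous_abs.comp (Continuous.sub (Continuous.inner ?_ ?_) ?_))
      continuous_const
    · exact continuous_const
    · exact continuous_snd
    · exact (continuous_apply j).comp continuous_fst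
  exact measurable_measure_prodMk_left h1

theorem T6m_sup_measurable {d k : ℕ} {ι : Type} [Fintype ι] (ν : ι → Measure (E d))
    [∀ i, SFinite (ν i)] (h : ℝ) (c : ℝ≥0∞) :
    Measurable fun a : Fin k → E d => ∫⁻ b : Fin k → ℝ, ⨆ i, T6m (ν i) h a b / c := by
  have h1 : Measurable fun p : (Fin k → E d) × (Fin k → ℝ) =>
      ⨆ i, T6m (ν i) h p.1 p.2 / c :=
    Measurable.iSup fun i => (T6m_measurable (ν i) h).div_const c
  exact h1.lintegral_prod_right'

theorem T6m_pow_measurable {d k : ℕ} (ν : Measure (E d)) [SFinite ν] (h : ℝ) (lam : ℕ) :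
    Measurable fun a : Fin k → E d => ∫⁻ b : Fin k → ℝ, T6m ν h a b ^ lam := by
  have h1 : Measurable fun p : (Fin k → E d) × (Fin k → ℝ) => T6m ν h p.1 p.2 ^ lam :=
    (T6m_measurable ν h).pow_const lam
  exact h1.lintegral_prod_right'

/-- fixed rows `a` -/
theorem T6_fixed {d k lam : ℕ} (hlam : 1 ≤ lam) {ι : Type} [Fintype ι] (μ : ι → Measure (E d))
    [∀ i, IsFiniteMeasure (μ i)] (y : E d) (ρ : ℝ) (h : ℝ) (c K : ℝ≥0∞) (hK0 : K ≠ 0)
    (hKt : K ≠ ⊤) (a : Fin k → E d) :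
    (lam : ℝ≥0∞) * ∫⁻ b : Fin k → ℝ, ⨆ i, T6m ((μ i).restrict (closedBall y ρ)) h a b / c ≤
      ((lam - 1 : ℕ) : ℝ≥0∞) * K * volume
          {b : Fin k → ℝ | ∃ s ∈ closedBall y ρ, ∀ j, |(inner ℝ (a j) s : ℝ) - b j| ≤ h} +
        ∑ i, (∫⁻ b : Fin k → ℝ, (T6m ((μ i).restrict (closedBall y ρ)) h a b) ^ lam) *
          ((c ^ lam)⁻¹ * (K ^ (lam - 1))⁻¹) := by
  rw [← lintegral_const_mul' _ _ (by simp)]
  calc ∫⁻ b : Fin k → ℝ, (lam : ℝ≥0∞) * ⨆ i, T6m ((μ i).restrict (closedBall y ρ)) h a b / c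
      ≤ ∫⁻ b : Fin k → ℝ, (Set.indicator {b : Fin k → ℝ | ∃ s ∈ closedBall y ρ,
            ∀ j, |(inner ℝ (a j) s : ℝ) - b j| ≤ h} (fun _ => ((lam - 1 : ℕ) : ℝ≥0∞) * K) b +
          ∑ i, (T6m ((μ i).restrict (closedBall y ρ)) h a b) ^ lam *
            ((c ^ lam)⁻¹ * (K ^ (lam - 1))⁻¹)) := by
        apply lintegral_mono
        intro b
        simp only
        by_cases hb : b ∈ {b : Fin k → ℝ | ∃ s ∈ closedBall y ρ,
            ∀ j, |(inner ℝ (a j) s : ℝ) - b j| ≤ h}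
        · rw [Set.indicator_of_mem hb]
          rw [ENNReal.mul_iSup]
          apply iSup_le
          intro i
          refine (T6_young lam hlam K (T6m ((μ i).restrict (closedBall y ρ)) h a b / c)
            hK0 hKt).trans ?_
          gcongr
          have h5 : (T6m ((μ i).restrict (closedBall y ρ)) h a b / c) ^ lam *
                (K ^ (lam - 1))⁻¹ =
              (T6m ((μ i).restrict (closedBall y ρ)) h a b) ^ lam *
                ((c ^ lam)⁻¹ * (K ^ (lam - 1))⁻¹) := by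
            rw [div_eq_mul_inv, mul_pow, ENNReal.inv_pow, ENNReal.inv_pow, mul_assoc]
          rw [h5]
          exact Finset.single_le_sum (f := fun i =>
            (T6m ((μ i).restrict (closedBall y ρ)) h a b) ^ lam *
            ((c ^ lam)⁻¹ * (K ^ (lam - 1))⁻¹)) (fun _ _ => zero_le) (Finset.mem_univ i)
        · have h6 : ∀ i, T6m ((μ i).restrict (closedBall y ρ)) h a b = 0 := by
            intro i
            rw [T6m, Measure.restrict_apply' measurableSet_closedBall]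
            have h7 : {s : E d | ∀ j, |(inner ℝ (a j) s : ℝ) - b j| ≤ h} ∩ closedBall y ρ = ∅ := by
              ext s
              simp only [Set.mem_inter_iff, Set.mem_ofPred_eq, Set.mem_empty_iff_false,
                iff_false, not_and]
              intro h8 h9
              exact hb ⟨s, h9, h8⟩
            rw [h7, measure_empty]
          simp [h6]
    _ = (∫⁻ b : Fin k → ℝ, Set.indicator {b : Fin k → ℝ | ∃ s ∈ closedBall y ρ,
            ∀ j, |(inner ℝ (a j) s : ℝ) - b j| ≤ h} (fun _ => ((lam - 1 : ℕ) : ℝ≥0∞) * K) b) +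
          ∫⁻ b : Fin k → ℝ, ∑ i, (T6m ((μ i).restrict (closedBall y ρ)) h a b) ^ lam *
            ((c ^ lam)⁻¹ * (K ^ (lam - 1))⁻¹) := by
        apply lintegral_add_right
        apply Finset.measurable_sum
        intro i _
        exact ((T6m_measurable_right _ h a).pow_const lam).mul_const _
    _ ≤ _ := by
        gcongr
        · exact lintegral_indicator_const_le _ _
        · rw [lintegral_finsetSum]
          · apply le_of_eq
            apply Finset.sum_congr rfl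
            intro i _
            exact lintegral_mul_const _ ((T6m_measurable_right _ h a).pow_const lam)
          · intro i _
            exact ((T6m_measurable_right _ h a).pow_const lam).mul_const _

/-- energy of one piece -/
theorem T6_energy {d n : ℕ} (hn : 1 ≤ n) (μ : Measure (E d)) [IsFiniteMeasure μ]
    (y : E d) (ρ : ℝ) (hρ : 0 < ρ) (β : ℝ≥0∞) (hβ : β ≠ ⊤) (hF : Frost μ β (4 * n))
    (h : ℝ) (hh : 0 < h) :
    ∫⁻ a, ∫⁻ b : Fin (2 * n) → ℝ, (T6m (μ.restrict (closedBall y ρ)) h a b) ^ (2 * n) ∂volume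
        ∂(gamk d (2 * n)) ≤
      (ENNReal.ofReal ((2 * h) ^ (2 * n))) ^ (2 * n) * (β * ENNReal.ofReal (ρ ^ (4 * n))) *
        (2 ^ (8 * n) * β * ENNReal.ofReal (ρ ^ (2 * n))) ^ (2 * n - 1) := by
  have h1 := energy_le (2 * n) (2 * n) (by omega) (μ.restrict (closedBall y ρ))
    (2 ^ (8 * n) * β * ENNReal.ofReal (ρ ^ (2 * n))) h hh (by
    intro x0 V hV
    have h2 := potential_le μ β hβ (4 * n) (2 * n) (2 * n - 2) hF (by omega) y x0 ρ hρ V
      (by omega)
    refine h2.trans (le_of_eq ?_)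
    rw [show 2 * n + (2 * n - 2) + 4 * n + 2 = 8 * n by omega,
      show 4 * n - 2 * n = 2 * n by omega])
  refine h1.trans ?_
  rw [ENNReal.ofReal_pow (by positivity : (0:ℝ) ≤ 2 * h), ← pow_mul]
  gcongr
  rw [Measure.restrict_apply_univ]
  exact hF y ρ hρ

/-- one scale: the smeared quantity is bounded -/
theorem T6_scale {d n : ℕ} (hn : 1 ≤ n) {ι : Type} [Fintype ι] (μ : ι → Measure (E d))
    [∀ i, IsFiniteMeasure (μ i)] (y : E d) (ρ : ℝ) (hρ : 0 < ρ)
    (β : ℝ≥0∞) (hβ : β ≠ ⊤) (hβ0 : β ≠ 0) (hF : ∀ i, Frost (μ i) β (4 * n))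
    (P : ℝ≥0∞) (hP0 : P ≠ 0) (hPt : P ≠ ⊤) (hP : (Fintype.card ι : ℝ≥0∞) ≤ P ^ (2 * n))
    (h : ℝ) (hh : 0 < h) (hhρ : h * (2 * n : ℕ) ≤ ρ) :
    ∫⁻ a, ∫⁻ b : Fin (2 * n) → ℝ, ⨆ i, T6m ((μ i).restrict (closedBall y ρ)) h a b /
        ENNReal.ofReal ((2 * h) ^ (2 * n)) ∂volume ∂(gamk d (2 * n)) ≤
      P * ENNReal.ofReal (Qc d n) * β * ENNReal.ofReal (ρ ^ (4 * n)) := by
  obtain ⟨c, hc⟩ : ∃ c, c = ENNReal.ofReal ((2 * h) ^ (2 * n)) := ⟨_, rfl⟩
  have hc0 : c ≠ 0 := by rw [hc, ne_eq, ENNReal.ofReal_eq_zero, not_le]; positivity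
  have hct : c ≠ ⊤ := by rw [hc]; exact ENNReal.ofReal_ne_top
  obtain ⟨I, hI⟩ : ∃ I : ℝ≥0∞, I = 2 ^ (8 * n) * β * ENNReal.ofReal (ρ ^ (2 * n)) := ⟨_, rfl⟩
  have hρ2 : ENNReal.ofReal (ρ ^ (2 * n)) ≠ 0 := by
    rw [ne_eq, ENNReal.ofReal_eq_zero, not_le]; positivity
  have hI0 : I ≠ 0 := by
    rw [hI]; exact mul_ne_zero (mul_ne_zero (by positivity) hβ0) hρ2
  have hIt : I ≠ ⊤ := by
    rw [hI]
    exact ENNReal.mul_ne_top (ENNReal.mul_ne_top (ENNReal.pow_ne_top (by simp)) hβ)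
      ENNReal.ofReal_ne_top
  have hK0 : P * I ≠ 0 := mul_ne_zero hP0 hI0
  have hKt : P * I ≠ ⊤ := ENNReal.mul_ne_top hPt hIt
  obtain ⟨lam, hlam⟩ : ∃ lam, lam = 2 * n := ⟨_, rfl⟩
  have hreg := region_le d n y ρ h hρ hh hhρ
  have hS : ∀ i, ∫⁻ a, (∫⁻ b : Fin (2 * n) → ℝ,
      (T6m ((μ i).restrict (closedBall y ρ)) h a b) ^ (2 * n)) *
      ((c ^ (2 * n))⁻¹ * ((P * I) ^ (2 * n - 1))⁻¹) ∂(gamk d (2 * n)) ≤
      (β * ENNReal.ofReal (ρ ^ (4 * n))) * (P ^ (2 * n - 1))⁻¹ := by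
    intro i
    rw [lintegral_mul_const _ (T6m_pow_measurable _ h (2 * n))]
    calc _ ≤ (c ^ (2 * n) * (β * ENNReal.ofReal (ρ ^ (4 * n))) * I ^ (2 * n - 1)) *
          ((c ^ (2 * n))⁻¹ * ((P * I) ^ (2 * n - 1))⁻¹) := by
          gcongr
          rw [hc, hI]
          exact T6_energy hn (μ i) y ρ hρ β hβ (hF i) h hh
      _ = (c ^ (2 * n) * (c ^ (2 * n))⁻¹) * (β * ENNReal.ofReal (ρ ^ (4 * n))) *
            (I ^ (2 * n - 1) * ((P * I) ^ (2 * n - 1))⁻¹) := by ring
      _ = (β * ENNReal.ofReal (ρ ^ (4 * n))) * (P ^ (2 * n - 1))⁻¹ := by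
          rw [ENNReal.mul_inv_cancel (pow_ne_zero _ hc0) (ENNReal.pow_ne_top hct), one_mul]
          congr 1
          rw [mul_pow, ENNReal.mul_inv (Or.inl (pow_ne_zero _ hP0))
            (Or.inl (ENNReal.pow_ne_top hPt)), mul_comm (P ^ (2 * n - 1))⁻¹, ← mul_assoc,
            ENNReal.mul_inv_cancel (pow_ne_zero _ hI0) (ENNReal.pow_ne_top hIt), one_mul]
  have hlam0 : ((2 * n : ℕ) : ℝ≥0∞) ≠ 0 := by
    have : 2 * n ≠ 0 := by omega
    exact_mod_cast this
  have hlamt : ((2 * n : ℕ) : ℝ≥0∞) ≠ ⊤ := ENNReal.natCast_ne_top _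
  have hQ1 : (1 : ℝ≥0∞) ≤ ENNReal.ofReal (Qc d n) := by
    rw [← ENNReal.ofReal_one]
    apply ENNReal.ofReal_le_ofReal
    exact le_max_left _ _
  have hQ2 : (2 : ℝ≥0∞) ^ (8 * n) * ENNReal.ofReal (2 ^ (2 * n) *
      (Real.pi ^ n / n.factorial * ((d : ℝ) + 1) ^ n)) ≤ ENNReal.ofReal (Qc d n) := by
    have h1 : (2 : ℝ≥0∞) ^ (8 * n) = ENNReal.ofReal (2 ^ (8 * n)) := by
      rw [ENNReal.ofReal_pow (by norm_num)]; norm_num
    rw [h1, ← ENNReal.ofReal_mul (by positivity)]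
    apply ENNReal.ofReal_le_ofReal
    refine le_trans (le_of_eq ?_) (le_max_right _ _)
    rw [show 10 * n = 8 * n + 2 * n by ring, pow_add]
    ring
  have hKR : P * I * ENNReal.ofReal ((2 * ρ) ^ (2 * n) *
        (Real.pi ^ n / n.factorial * ((d : ℝ) + 1) ^ n)) ≤
      P * ENNReal.ofReal (Qc d n) * β * ENNReal.ofReal (ρ ^ (4 * n)) := by
    calc P * I * ENNReal.ofReal ((2 * ρ) ^ (2 * n) *
          (Real.pi ^ n / n.factorial * ((d : ℝ) + 1) ^ n))
        = P * β * (2 ^ (8 * n) * ENNReal.ofReal (2 ^ (2 * n) *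
            (Real.pi ^ n / n.factorial * ((d : ℝ) + 1) ^ n))) *
            ENNReal.ofReal (ρ ^ (4 * n)) := by
          have h1 : ENNReal.ofReal ((2 * ρ) ^ (2 * n) *
              (Real.pi ^ n / n.factorial * ((d : ℝ) + 1) ^ n)) =
              ENNReal.ofReal (ρ ^ (2 * n)) * ENNReal.ofReal (2 ^ (2 * n) *
              (Real.pi ^ n / n.factorial * ((d : ℝ) + 1) ^ n)) := by
            rw [← ENNReal.ofReal_mul (by positivity)]
            congr 1
            rw [mul_pow]; ring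
          have h2 : ENNReal.ofReal (ρ ^ (4 * n)) =
              ENNReal.ofReal (ρ ^ (2 * n)) * ENNReal.ofReal (ρ ^ (2 * n)) := by
            rw [← ENNReal.ofReal_mul (by positivity), ← pow_add]
            congr 2; omega
          rw [h1, h2, hI]
          ring
      _ ≤ P * β * ENNReal.ofReal (Qc d n) * ENNReal.ofReal (ρ ^ (4 * n)) := by
          gcongr
      _ = P * ENNReal.ofReal (Qc d n) * β * ENNReal.ofReal (ρ ^ (4 * n)) := by ring
  have hSum : ∑ _i : ι, (β * ENNReal.ofReal (ρ ^ (4 * n))) * (P ^ (2 * n - 1))⁻¹ ≤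
      P * ENNReal.ofReal (Qc d n) * β * ENNReal.ofReal (ρ ^ (4 * n)) := by
    rw [Finset.sum_const, Finset.card_univ, nsmul_eq_mul]
    calc (Fintype.card ι : ℝ≥0∞) * (β * ENNReal.ofReal (ρ ^ (4 * n)) * (P ^ (2 * n - 1))⁻¹)
        ≤ P ^ (2 * n) * (β * ENNReal.ofReal (ρ ^ (4 * n)) * (P ^ (2 * n - 1))⁻¹) := by
          gcongr
      _ = P * (P ^ (2 * n - 1) * (P ^ (2 * n - 1))⁻¹) * (β * ENNReal.ofReal (ρ ^ (4 * n))) := by
          have h1 : P ^ (2 * n) = P * P ^ (2 * n - 1) := by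
            rw [← pow_succ']; congr 1; omega
          rw [h1]; ring
      _ = P * 1 * (β * ENNReal.ofReal (ρ ^ (4 * n))) := by
          rw [ENNReal.mul_inv_cancel (pow_ne_zero _ hP0) (ENNReal.pow_ne_top hPt)]
      _ ≤ P * ENNReal.ofReal (Qc d n) * (β * ENNReal.ofReal (ρ ^ (4 * n))) := by
          gcongr
      _ = P * ENNReal.ofReal (Qc d n) * β * ENNReal.ofReal (ρ ^ (4 * n)) := by ring
  rw [← ENNReal.mul_le_mul_iff_right hlam0 hlamt, ← hc]
  calc ((2 * n : ℕ) : ℝ≥0∞) * ∫⁻ a, ∫⁻ b : Fin (2 * n) → ℝ,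
        ⨆ i, T6m ((μ i).restrict (closedBall y ρ)) h a b / c ∂volume ∂(gamk d (2 * n))
      = ∫⁻ a, ((2 * n : ℕ) : ℝ≥0∞) * ∫⁻ b : Fin (2 * n) → ℝ,
        ⨆ i, T6m ((μ i).restrict (closedBall y ρ)) h a b / c ∂volume ∂(gamk d (2 * n)) := by
        rw [lintegral_const_mul' _ _ hlamt]
    _ ≤ ∫⁻ a, (((2 * n - 1 : ℕ) : ℝ≥0∞) * (P * I) * volume
          {b : Fin (2 * n) → ℝ | ∃ s ∈ closedBall y ρ, ∀ j, |(inner ℝ (a j) s : ℝ) - b j| ≤ h} +
        ∑ i, (∫⁻ b : Fin (2 * n) → ℝ,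
          (T6m ((μ i).restrict (closedBall y ρ)) h a b) ^ (2 * n)) *
          ((c ^ (2 * n))⁻¹ * ((P * I) ^ (2 * n - 1))⁻¹)) ∂(gamk d (2 * n)) :=
        lintegral_mono fun a => T6_fixed (by omega) μ y ρ h c (P * I) hK0 hKt a
    _ = (∫⁻ a, ((2 * n - 1 : ℕ) : ℝ≥0∞) * (P * I) * volume
          {b : Fin (2 * n) → ℝ | ∃ s ∈ closedBall y ρ, ∀ j, |(inner ℝ (a j) s : ℝ) - b j| ≤ h}
          ∂(gamk d (2 * n))) +
        ∫⁻ a, ∑ i, (∫⁻ b : Fin (2 * n) → ℝ,
          (T6m ((μ i).restrict (closedBall y ρ)) h a b) ^ (2 * n)) *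
          ((c ^ (2 * n))⁻¹ * ((P * I) ^ (2 * n - 1))⁻¹) ∂(gamk d (2 * n)) := by
        apply lintegral_add_right
        apply Finset.measurable_sum
        intro i _
        exact (T6m_pow_measurable _ h (2 * n)).mul_const _
    _ = ((2 * n - 1 : ℕ) : ℝ≥0∞) * (P * I) * (∫⁻ a, volume
          {b : Fin (2 * n) → ℝ | ∃ s ∈ closedBall y ρ, ∀ j, |(inner ℝ (a j) s : ℝ) - b j| ≤ h}
          ∂(gamk d (2 * n))) +
        ∑ i, ∫⁻ a, (∫⁻ b : Fin (2 * n) → ℝ,
          (T6m ((μ i).restrict (closedBall y ρ)) h a b) ^ (2 * n)) *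
          ((c ^ (2 * n))⁻¹ * ((P * I) ^ (2 * n - 1))⁻¹) ∂(gamk d (2 * n)) := by
        rw [lintegral_const_mul' _ _ (ENNReal.mul_ne_top (ENNReal.natCast_ne_top _) hKt),
          lintegral_finsetSum]
        intro i _
        exact (T6m_pow_measurable _ h (2 * n)).mul_const _
    _ ≤ ((2 * n - 1 : ℕ) : ℝ≥0∞) * (P * I) * ENNReal.ofReal ((2 * ρ) ^ (2 * n) *
          (Real.pi ^ n / n.factorial * ((d : ℝ) + 1) ^ n)) +
        ∑ _i : ι, (β * ENNReal.ofReal (ρ ^ (4 * n))) * (P ^ (2 * n - 1))⁻¹ := by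
        gcongr with i
        exact hS i
    _ ≤ ((2 * n - 1 : ℕ) : ℝ≥0∞) * (P * ENNReal.ofReal (Qc d n) * β *
          ENNReal.ofReal (ρ ^ (4 * n))) +
        P * ENNReal.ofReal (Qc d n) * β * ENNReal.ofReal (ρ ^ (4 * n)) := by
        rw [mul_assoc ((2 * n - 1 : ℕ) : ℝ≥0∞)]
        gcongr
    _ = ((2 * n : ℕ) : ℝ≥0∞) * (P * ENNReal.ofReal (Qc d n) * β *
          ENNReal.ofReal (ρ ^ (4 * n))) := by
        obtain ⟨q, hq⟩ : ∃ q, 2 * n = q + 1 := ⟨2 * n - 1, by omega⟩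
        rw [hq, Nat.add_sub_cancel]
        push_cast
        ring

theorem block_le {d n : ℕ} (hn : 1 ≤ n) {ι : Type} [Fintype ι] (μ : ι → Measure (E d))
    [∀ i, IsFiniteMeasure (μ i)] (y : E d) (ρ : ℝ) (hρ : 0 < ρ)
    (β : ℝ≥0∞) (hβ : β ≠ ⊤) (hF : ∀ i, Frost (μ i) β (4 * n))
    (P : ℝ≥0∞) (hP : (Fintype.card ι : ℝ≥0∞) ≤ P ^ (2 * n))
    (F : ι → Set ((Fin (2 * n) → E d) × (Fin (2 * n) → ℝ)))
    (hmeas : ∀ i, MeasurableSet (F i)) (hdisj : Pairwise (Function.onFun Disjoint F)) :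
    ∑ i, ∫⁻ s in closedBall y ρ, gamk d (2 * n) {a | (a, meas a s) ∈ F i} ∂(μ i) ≤
      P * ENNReal.ofReal (Qc d n) * β * ENNReal.ofReal (ρ ^ (4 * n)) := by
  classical
  have hQ0 : ENNReal.ofReal (Qc d n) ≠ 0 := by
    rw [ne_eq, ENNReal.ofReal_eq_zero, not_le]
    exact lt_of_lt_of_le one_pos (le_max_left _ _)
  have hρ0 : ENNReal.ofReal (ρ ^ (4 * n)) ≠ 0 := by
    rw [ne_eq, ENNReal.ofReal_eq_zero, not_le]; positivity
  by_cases hβ0 : β = 0
  · have h1 : ∀ i, (μ i) (closedBall y ρ) = 0 := by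
      intro i
      have := hF i y ρ hρ
      rw [hβ0, zero_mul, nonpos_iff_eq_zero] at this
      exact this
    have h2 : ∀ i, (μ i).restrict (closedBall y ρ) = 0 := fun i =>
      Measure.restrict_eq_zero.2 (h1 i)
    simp [h2]
  by_cases hPt : P = ⊤
  · rw [hPt, ENNReal.top_mul hQ0, ENNReal.top_mul hβ0, ENNReal.top_mul hρ0]
    exact le_top
  by_cases hP0 : P = 0
  · have h1 : Fintype.card ι = 0 := by
      rw [hP0, zero_pow (by omega), nonpos_iff_eq_zero] at hP
      exact_mod_cast hP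
    have h2 : IsEmpty ι := Fintype.card_eq_zero_iff.1 h1
    simp
  -- main case
  set μB : ι → Measure (E d) := fun i => (μ i).restrict (closedBall y ρ) with hμB
  have hFm : ∀ i, MeasurableSet {p : (Fin (2 * n) → E d) × E d | (p.1, meas p.1 p.2) ∈ F i} := by
    intro i
    exact (measurable_fst.prodMk meas_continuous.measurable) (hmeas i)
  -- rewrite the left hand side
  have hlhs : ∀ i, ∫⁻ s in closedBall y ρ, gamk d (2 * n) {a | (a, meas a s) ∈ F i} ∂(μ i) =
      ∫⁻ a, μB i {s | (a, meas a s) ∈ F i} ∂(gamk d (2 * n)) := by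
    intro i
    have h1 := Measure.prod_apply_symm (μ := gamk d (2 * n)) (ν := μB i) (hFm i)
    have h2 := Measure.prod_apply (μ := gamk d (2 * n)) (ν := μB i) (hFm i)
    rw [h1] at h2
    exact h2
  simp only [hlhs]
  rw [← lintegral_finsetSum]
  · -- fixed a
    set hs : ℕ → ℝ := fun m => ρ / (2 * n : ℕ) / ((m : ℝ) + 1) with hhs
    have hn0 : (0 : ℝ) < ((2 * n : ℕ) : ℝ) := by
      have : 0 < 2 * n := by omega
      exact_mod_cast this
    have hspos : ∀ m, 0 < hs m := fun m => by rw [hhs]; positivity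
    have hslim : Tendsto hs atTop (𝓝 0) := by
      have h1 := (tendsto_one_div_add_atTop_nhds_zero_nat (𝕜 := ℝ)).const_mul (ρ / (2 * n : ℕ))
      simp only [mul_zero] at h1
      refine h1.congr (fun m => ?_)
      rw [hhs]; ring
    have hsle : ∀ m, hs m * (2 * n : ℕ) ≤ ρ := by
      intro m
      have h1 : hs m * (2 * n : ℕ) = ρ / ((m : ℝ) + 1) := by
        rw [hhs]; field_simp
      rw [h1]
      apply div_le_self hρ.le
      have : (0 : ℝ) ≤ m := Nat.cast_nonneg m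
      linarith
    calc ∫⁻ a, ∑ i, μB i {s | (a, meas a s) ∈ F i} ∂(gamk d (2 * n))
        = ∫⁻ a, ∑ i, (μB i).map (meas a) {b | (a, b) ∈ F i} ∂(gamk d (2 * n)) := by
          apply lintegral_congr
          intro a
          have hma : Measurable (meas a : E d → Fin (2 * n) → ℝ) :=
            (meas_continuous.comp (Continuous.prodMk_right a)).measurable
          apply Finset.sum_congr rfl
          intro i _
          rw [Measure.map_apply hma]
          · rfl
          · exact (measurable_prodMk_left (x := a)) (hmeas i)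
      _ ≤ ∫⁻ a, liminf (fun m => ∫⁻ b : Fin (2 * n) → ℝ, ⨆ i, ((μB i).map (meas a))
            (closedBall b (hs m)) / ENNReal.ofReal ((2 * hs m) ^ (2 * n))) atTop
            ∂(gamk d (2 * n)) := by
          apply lintegral_mono
          intro a
          have hma : Measurable (meas a : E d → Fin (2 * n) → ℝ) :=
            (meas_continuous.comp (Continuous.prodMk_right a)).measurable
          have : ∀ i, IsFiniteMeasure ((μB i).map (meas a)) := fun i => by
            infer_instance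
          apply smooth_liminf (fun i => (μB i).map (meas a)) (fun i => {b | (a, b) ∈ F i})
          · intro i
            exact (measurable_prodMk_left (x := a)) (hmeas i)
          · intro i j hij
            have := hdisj hij
            rw [Function.onFun, Set.disjoint_left] at this ⊢
            intro b hb hb'
            exact this hb hb'
          · exact hspos
          · exact hslim
      _ = ∫⁻ a, liminf (fun m => ∫⁻ b : Fin (2 * n) → ℝ, ⨆ i, T6m (μB i) (hs m) a b /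
              ENNReal.ofReal ((2 * hs m) ^ (2 * n))) atTop ∂(gamk d (2 * n)) := by
          apply lintegral_congr
          intro a
          have hma : Measurable (meas a : E d → Fin (2 * n) → ℝ) :=
            (meas_continuous.comp (Continuous.prodMk_right a)).measurable
          congr 1
          funext m
          apply lintegral_congr
          intro b
          congr 1
          funext i
          rw [Measure.map_apply hma measurableSet_closedBall]
          congr 2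
          ext s
          exact meas_mem_closedBall a s b (hs m) (hspos m).le
      _ ≤ liminf (fun m => ∫⁻ a, ∫⁻ b : Fin (2 * n) → ℝ, ⨆ i, T6m (μB i) (hs m) a b /
              ENNReal.ofReal ((2 * hs m) ^ (2 * n)) ∂volume ∂(gamk d (2 * n))) atTop := by
          apply lintegral_liminf_le
          intro m
          exact T6m_sup_measurable μB (hs m) _
      _ ≤ P * ENNReal.ofReal (Qc d n) * β * ENNReal.ofReal (ρ ^ (4 * n)) := by
          refine (liminf_le_liminf (v := fun _ : ℕ => P * ENNReal.ofReal (Qc d n) * β *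
            ENNReal.ofReal (ρ ^ (4 * n))) (Eventually.of_forall fun m => ?_)).trans (by simp)
          exact T6_scale hn μ y ρ hρ β hβ hβ0 hF P hP0 hPt hP (hs m) (hspos m) (hsle m)
  · intro i _
    exact measurable_measure_prodMk_left (hFm i)

end Crest.Agent.SL
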