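import Crest.Agent.SL_T7a
import Crest.Agent.SL_T6

set_option autoImplicit false

namespace Crest.Agent.SL

open MeasureTheory ProbabilityTheory Crest.StreamLearn Metric
open scoped ENNReal

theorem blockLe {d n : ℕ} (hn : 1 ≤ n) : BlockLe d n := by
  intro ι _ μ _ y ρ hρ β hβ hF P hP F hmeas hdisj
  exact block_le hn μ y ρ hρ β hβ hF P hP F hmeas hdisj

/-- one block: the Frostman constant is multiplied by at most `P * Qc d n` -/
theorem vf_frost_block {d n : ℕ} (hd : 1 ≤ d) (hn : 1 ≤ n) {Q : Type} [Fintype Q]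
    (tr : ℕ → Q → E d → ℝ → Q) (htr : TrMeas tr) (g : Q → E d → ℝ≥0∞)
    (hg : ∀ q, Measurable (g q)) (hg1 : ∀ q s, g q s ≤ 1)
    (β : ℝ≥0∞) (hβ : β ≠ ⊤) (hF : ∀ q, Frost ((sig d).withDensity (g q)) β (4 * n))
    (P : ℝ≥0∞) (hP : (Fintype.card Q : ℝ≥0∞) ≤ P ^ (2 * n)) (t : ℕ) (q : Q) :
    Frost ((sig d).withDensity (vf tr g (2 * n) t q)) (P * ENNReal.ofReal (Qc d n) * β)
      (4 * n) :=
  vf_frost_block_of hd (blockLe hn) tr htr g hg hg1 β hβ hF P hP t q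

theorem vf_frost_iter {d n : ℕ} (hd : 1 ≤ d) (hn : 1 ≤ n) {Q : Type} [Fintype Q]
    (tr : ℕ → Q → E d → ℝ → Q) (htr : TrMeas tr) (g : Q → E d → ℝ≥0∞)
    (hg : ∀ q, Measurable (g q)) (hg1 : ∀ q s, g q s ≤ 1)
    (β : ℝ≥0∞) (hβ : β ≠ ⊤) (hF : ∀ q, Frost ((sig d).withDensity (g q)) β (4 * n))
    (P : ℝ≥0∞) (hPtop : P ≠ ⊤) (hP : (Fintype.card Q : ℝ≥0∞) ≤ P ^ (2 * n))
    (J t : ℕ) (q : Q) :
    Frost ((sig d).withDensity (vf tr g (J * (2 * n)) t q))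
      ((P * ENNReal.ofReal (Qc d n)) ^ J * β) (4 * n) :=
  vf_frost_iter_of hd (blockLe hn) tr htr g hg hg1 β hβ hF P hPtop hP J t q

end Crest.Agent.SL
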