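import Crest.Agent.SL_Defs
import Crest.Agent.SL_T1

set_option autoImplicit false

namespace Crest.Agent.SL

open MeasureTheory ProbabilityTheory Crest.StreamLearn Metric
open scoped ENNReal

/-- The statement of `block_le` (T6), used as a hypothesis here. -/
def BlockLe (d n : ℕ) : Prop :=
  ∀ (ι : Type) [Fintype ι] (μ : ι → Measure (E d))
    [∀ i, IsFiniteMeasure (μ i)] (y : E d) (ρ : ℝ) (_ : 0 < ρ)
    (β : ℝ≥0∞) (_ : β ≠ ⊤) (_ : ∀ i, Frost (μ i) β (4 * n))
    (P : ℝ≥0∞) (_ : (Fintype.card ι : ℝ≥0∞) ≤ P ^ (2 * n))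
    (F : ι → Set ((Fin (2 * n) → E d) × (Fin (2 * n) → ℝ)))
    (_ : ∀ i, MeasurableSet (F i)) (_ : Pairwise (Function.onFun Disjoint F)),
    ∑ i, ∫⁻ s in closedBall y ρ, gamk d (2 * n) {a | (a, meas a s) ∈ F i} ∂(μ i) ≤
      P * ENNReal.ofReal (Qc d n) * β * ENNReal.ofReal (ρ ^ (4 * n))

/-! ### T7 -/

theorem measurable_tr_set {d : ℕ} {Q : Type} (tr : ℕ → Q → E d → ℝ → Q)
    (htr : TrMeas tr) (t : ℕ) (q q' : Q) :
    MeasurableSet {p : E d × E d | tr t q p.2 (inner ℝ p.2 p.1) = q'} := by
  have h := htr t q q'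
  have hm : Measurable (fun p : E d × E d => (p.2, (inner ℝ p.2 p.1 : ℝ))) := by
    fun_prop
  exact hm h

theorem vf_measurable {d : ℕ} {Q : Type} [Finite Q] (tr : ℕ → Q → E d → ℝ → Q)
    (htr : TrMeas tr) (g : Q → E d → ℝ≥0∞) (hg : ∀ q, Measurable (g q)) (n t : ℕ) (q : Q) :
    Measurable (vf tr g n t q) := by
  classical
  cases nonempty_fintype Q
  induction n generalizing t q with
  | zero => exact hg q
  | succ n ih =>
    have hfun : (fun p : E d × E d => vf tr g n (t + 1) (tr t q p.2 (inner ℝ p.2 p.1)) p.1) =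
        fun p => ∑ q' : Q, Set.indicator {p : E d × E d | tr t q p.2 (inner ℝ p.2 p.1) = q'}
          (fun p => vf tr g n (t + 1) q' p.1) p := by
      funext p
      rw [Finset.sum_eq_single (tr t q p.2 (inner ℝ p.2 p.1))]
      · simp [Set.indicator]
      · intro b _ hb
        apply Set.indicator_of_notMem
        simp only [Set.mem_ofPred_eq]
        exact fun h => hb h.symm
      · simp
    have hmeas : Measurable
        (fun p : E d × E d => vf tr g n (t + 1) (tr t q p.2 (inner ℝ p.2 p.1)) p.1) := by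
      rw [hfun]
      apply Finset.measurable_sum
      intro q' _
      exact ((ih (t + 1) q').comp measurable_fst).indicator (measurable_tr_set tr htr t q q')
    have := hmeas.lintegral_prod_right' (ν := stdGaussian (E d))
    exact this

theorem vf_add {d : ℕ} {Q : Type} (tr : ℕ → Q → E d → ℝ → Q) (g : Q → E d → ℝ≥0∞)
    (m n t : ℕ) (q : Q) (s : E d) :
    vf tr g (m + n) t q s = vf tr (fun q' => vf tr g n (t + m) q') m t q s := by
  induction m generalizing t q with
  | zero => simp [vf]
  | succ m ih =>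
    have h1 : m + 1 + n = (m + n) + 1 := by omega
    rw [h1]
    simp only [vf]
    apply lintegral_congr
    intro x
    rw [ih]
    have h2 : t + 1 + m = t + (m + 1) := by omega
    rw [h2]

theorem brun_measurable {d : ℕ} {Q : Type} [Finite Q] (tr : ℕ → Q → E d → ℝ → Q)
    (htr : TrMeas tr) (k t : ℕ) (q q' : Q) :
    MeasurableSet {p : (Fin k → E d) × (Fin k → ℝ) | brun tr k t q p.1 p.2 = q'} := by
  induction k generalizing t q with
  | zero => simp [brun]
  | succ k ih =>
    have hset : {p : (Fin (k + 1) → E d) × (Fin (k + 1) → ℝ) |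
          brun tr (k + 1) t q p.1 p.2 = q'} =
        ⋃ q'' : Q, ({p | tr t q (p.1 0) (p.2 0) = q''} ∩
          {p | brun tr k (t + 1) q'' (Fin.tail p.1) (Fin.tail p.2) = q'}) := by
      ext p
      simp [brun]
    rw [hset]
    apply MeasurableSet.iUnion
    intro q''
    apply MeasurableSet.inter
    · have hm : Measurable (fun p : (Fin (k + 1) → E d) × (Fin (k + 1) → ℝ) =>
          (p.1 0, p.2 0)) := by fun_prop
      exact hm (htr t q q'')
    · have hm : Measurable (fun p : (Fin (k + 1) → E d) × (Fin (k + 1) → ℝ) =>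
          ((Fin.tail p.1 : Fin k → E d), (Fin.tail p.2 : Fin k → ℝ))) := by
        unfold Fin.tail
        fun_prop
      exact hm (ih (t + 1) q'')

theorem measurable_brun_g {d : ℕ} {Q : Type} [Finite Q] (tr : ℕ → Q → E d → ℝ → Q)
    (htr : TrMeas tr) (g : Q → E d → ℝ≥0∞) (k t : ℕ) (q : Q) (s : E d) :
    Measurable (fun a : Fin k → E d => g (brun tr k t q a (meas a s)) s) := by
  classical
  cases nonempty_fintype Q
  have hfun : (fun a : Fin k → E d => g (brun tr k t q a (meas a s)) s) =
      fun a => ∑ q' : Q, Set.indicator {a : Fin k → E d | brun tr k t q a (meas a s) = q'}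
        (fun _ => g q' s) a := by
    funext a
    rw [Finset.sum_eq_single (brun tr k t q a (meas a s))]
    · simp [Set.indicator]
    · intro b _ hb
      apply Set.indicator_of_notMem
      simp only [Set.mem_ofPred_eq]
      exact fun h => hb h.symm
    · simp
  rw [hfun]
  apply Finset.measurable_sum
  intro q' _
  apply measurable_const.indicator
  have hm : Measurable (fun a : Fin k → E d => (a, meas a s)) := by
    unfold meas
    fun_prop
  exact hm (brun_measurable tr htr k t q q')

theorem vf_eq_lintegral {d : ℕ} {Q : Type} [Finite Q] (tr : ℕ → Q → E d → ℝ → Q)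
    (htr : TrMeas tr) (g : Q → E d → ℝ≥0∞) (hg : ∀ q, Measurable (g q)) (k t : ℕ)
    (q : Q) (s : E d) :
    vf tr g k t q s = ∫⁻ a, g (brun tr k t q a (meas a s)) s ∂(gamk d k) := by
  induction k generalizing t q with
  | zero =>
    simp [vf, brun]
  | succ k ih =>
    have hmp := measurePreserving_piFinSuccAbove (fun _ : Fin (k + 1) => stdGaussian (E d)) 0
    have hF := measurable_brun_g tr htr g (k + 1) t q s
    have hsymm := hmp.symm
    unfold gamk
    rw [← hsymm.lintegral_comp_emb (MeasurableEquiv.measurableEmbedding _)]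
    have hG : Measurable (fun a : E d × (Fin k → E d) =>
        g (brun tr (k + 1) t q ((MeasurableEquiv.piFinSuccAbove (fun _ => E d) 0).symm a)
          (meas ((MeasurableEquiv.piFinSuccAbove (fun _ => E d) 0).symm a) s)) s) :=
      hF.comp (MeasurableEquiv.measurable _)
    rw [lintegral_prod _ hG.aemeasurable]
    simp only [vf]
    apply lintegral_congr
    intro x
    rw [ih]
    unfold gamk
    apply lintegral_congr
    intro a
    have h0 : (MeasurableEquiv.piFinSuccAbove (fun _ : Fin (k + 1) => E d) 0).symm (x, a)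
        = Fin.cons x a := by
      change (Fin.insertNth (α := fun _ : Fin (k + 1) => E d) 0 x a) = _
      rw [Fin.insertNth_zero']
    rw [h0]
    simp only [brun]
    have h1 : meas (Fin.cons x a : Fin (k + 1) → E d) s 0 = inner ℝ x s := by
      simp [meas]
    have h2 : Fin.tail (meas (Fin.cons x a : Fin (k + 1) → E d) s) = meas a s := by
      funext j
      simp [meas, Fin.tail]
    rw [h1, h2, Fin.tail_cons, Fin.cons_zero]

/-- one block: the Frostman constant is multiplied by at most `P * Qc d n` -/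
theorem vf_frost_block_of {d n : ℕ} (hd : 1 ≤ d) (hblk : BlockLe d n) {Q : Type} [Fintype Q]
    (tr : ℕ → Q → E d → ℝ → Q) (htr : TrMeas tr) (g : Q → E d → ℝ≥0∞)
    (hg : ∀ q, Measurable (g q)) (hg1 : ∀ q s, g q s ≤ 1)
    (β : ℝ≥0∞) (hβ : β ≠ ⊤) (hF : ∀ q, Frost ((sig d).withDensity (g q)) β (4 * n))
    (P : ℝ≥0∞) (hP : (Fintype.card Q : ℝ≥0∞) ≤ P ^ (2 * n)) (t : ℕ) (q : Q) :
    Frost ((sig d).withDensity (vf tr g (2 * n) t q)) (P * ENNReal.ofReal (Qc d n) * β)
      (4 * n) := by
  classical
  intro z τ hτ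
  have : IsProbabilityMeasure (sig d) := sig_prob d hd
  have hfin : ∀ q', IsFiniteMeasure ((sig d).withDensity (g q')) := by
    intro q'
    apply isFiniteMeasure_withDensity
    apply ne_top_of_le_ne_top (b := 1) ENNReal.one_ne_top
    calc ∫⁻ s, g q' s ∂(sig d) ≤ ∫⁻ _, 1 ∂(sig d) := lintegral_mono (fun s => hg1 q' s)
      _ = 1 := by simp
  set F : Q → Set ((Fin (2 * n) → E d) × (Fin (2 * n) → ℝ)) :=
    fun q' => {p | brun tr (2 * n) t q p.1 p.2 = q'} with hFdef
  have hFm : ∀ q', MeasurableSet (F q') := fun q' => brun_measurable tr htr (2 * n) t q q'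
  have hdisj : Pairwise (Function.onFun Disjoint F) := by
    intro q₁ q₂ h12
    rw [Function.onFun, Set.disjoint_left]
    intro p hp1 hp2
    simp only [hFdef, Set.mem_ofPred_eq] at hp1 hp2
    exact h12 (hp1.symm.trans hp2)
  have hblock := hblk Q (fun q' : Q => (sig d).withDensity (g q')) z τ hτ β hβ hF P hP F
    hFm hdisj
  refine le_trans (le_of_eq ?_) hblock
  have hmeasP : ∀ q' : Q, Measurable
      (fun s : E d => gamk d (2 * n) {a | (a, meas a s) ∈ F q'}) := by
    intro q'
    have hS : MeasurableSet {p : E d × (Fin (2 * n) → E d) | (p.2, meas p.2 p.1) ∈ F q'} := by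
      have hm : Measurable (fun p : E d × (Fin (2 * n) → E d) => (p.2, meas p.2 p.1)) := by
        unfold meas
        fun_prop
      exact hm (hFm q')
    exact measurable_measure_prodMk_left hS
  rw [withDensity_apply _ measurableSet_closedBall]
  have h1 : ∀ s : E d, vf tr g (2 * n) t q s =
      ∑ q' : Q, g q' s * gamk d (2 * n) {a | (a, meas a s) ∈ F q'} := by
    intro s
    rw [vf_eq_lintegral tr htr g hg]
    have hfun : (fun a : Fin (2 * n) → E d => g (brun tr (2 * n) t q a (meas a s)) s) =
        fun a => ∑ q' : Q, Set.indicator {a : Fin (2 * n) → E d | (a, meas a s) ∈ F q'}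
          (fun _ => g q' s) a := by
      funext a
      rw [Finset.sum_eq_single (brun tr (2 * n) t q a (meas a s))]
      · simp [Set.indicator, hFdef]
      · intro b _ hb
        apply Set.indicator_of_notMem
        simp only [hFdef, Set.mem_ofPred_eq]
        exact fun h => hb h.symm
      · simp
    have hSm : ∀ q' : Q, MeasurableSet {a : Fin (2 * n) → E d | (a, meas a s) ∈ F q'} := by
      intro q'
      have hm : Measurable (fun a : Fin (2 * n) → E d => (a, meas a s)) := by
        unfold meas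
        fun_prop
      exact hm (hFm q')
    rw [hfun, lintegral_finsetSum]
    · apply Finset.sum_congr rfl
      intro q' _
      rw [lintegral_indicator (hSm q'), setLIntegral_const]
    · intro q' _
      exact measurable_const.indicator (hSm q')
  simp_rw [h1]
  rw [lintegral_finsetSum]
  · apply Finset.sum_congr rfl
    intro q' _
    rw [restrict_withDensity measurableSet_closedBall, 
      lintegral_withDensity_eq_lintegral_mul _ (hg q') (hmeasP q')]
    rfl
  · intro q' _
    exact (hg q').mul (hmeasP q')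

theorem vf_le_one {d : ℕ} {Q : Type} (tr : ℕ → Q → E d → ℝ → Q) (g : Q → E d → ℝ≥0∞)
    (hg1 : ∀ q s, g q s ≤ 1) (n t : ℕ) (q : Q) (s : E d) : vf tr g n t q s ≤ 1 := by
  induction n generalizing t q with
  | zero => exact hg1 q s
  | succ n ih =>
    simp only [vf]
    calc ∫⁻ x, vf tr g n (t + 1) (tr t q x (inner ℝ x s)) s ∂(stdGaussian (E d))
        ≤ ∫⁻ _, 1 ∂(stdGaussian (E d)) := lintegral_mono (fun x => ih _ _)
      _ = 1 := by simp

theorem vf_frost_iter_of {d n : ℕ} (hd : 1 ≤ d) (hblk : BlockLe d n) {Q : Type} [Fintype Q]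
    (tr : ℕ → Q → E d → ℝ → Q) (htr : TrMeas tr) (g : Q → E d → ℝ≥0∞)
    (hg : ∀ q, Measurable (g q)) (hg1 : ∀ q s, g q s ≤ 1)
    (β : ℝ≥0∞) (hβ : β ≠ ⊤) (hF : ∀ q, Frost ((sig d).withDensity (g q)) β (4 * n))
    (P : ℝ≥0∞) (hPtop : P ≠ ⊤) (hP : (Fintype.card Q : ℝ≥0∞) ≤ P ^ (2 * n))
    (J t : ℕ) (q : Q) :
    Frost ((sig d).withDensity (vf tr g (J * (2 * n)) t q))
      ((P * ENNReal.ofReal (Qc d n)) ^ J * β) (4 * n) := by
  induction J generalizing t q with
  | zero =>
    simp only [Nat.zero_mul, pow_zero, one_mul]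
    exact hF q
  | succ J ih =>
    have h1 : (J + 1) * (2 * n) = 2 * n + J * (2 * n) := by ring
    have h2 : vf tr g ((J + 1) * (2 * n)) t q =
        vf tr (fun q' => vf tr g (J * (2 * n)) (t + 2 * n) q') (2 * n) t q := by
      funext s
      rw [h1, vf_add]
    rw [h2]
    have hne : (P * ENNReal.ofReal (Qc d n)) ^ J * β ≠ ⊤ := by
      apply ENNReal.mul_ne_top _ hβ
      exact ENNReal.pow_ne_top (ENNReal.mul_ne_top hPtop ENNReal.ofReal_ne_top)
    have := vf_frost_block_of hd hblk tr htr (fun q' => vf tr g (J * (2 * n)) (t + 2 * n) q')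
      (fun q' => vf_measurable tr htr g hg _ _ _) (fun q' s => vf_le_one tr g hg1 _ _ _ _)
      ((P * ENNReal.ofReal (Qc d n)) ^ J * β) hne (fun q' => ih (t + 2 * n) q') P hP t q
    have h3 : (P * ENNReal.ofReal (Qc d n)) ^ (J + 1) * β =
        P * ENNReal.ofReal (Qc d n) * ((P * ENNReal.ofReal (Qc d n)) ^ J * β) := by
      rw [pow_succ]; ring
    rw [h3]
    exact this

end Crest.Agent.SL
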