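import Crest.Agent.SL_Defs
import Crest.Agent.SL_T1

set_option autoImplicit false

namespace Crest.Agent.SL

open MeasureTheory ProbabilityTheory Crest.StreamLearn Metric
open scoped ENNReal

/-! ### T9 -/

theorem cap_subset {d : ℕ} (o s : E d) (ho : ‖o‖ = 1) (hs : ‖s‖ = 1) (ε : ℝ)
    (h : Real.arccos (inner ℝ o s) ≤ ε) : s ∈ closedBall o ε := by
  rw [mem_closedBall, dist_eq_norm]
  set θ := Real.arccos (inner ℝ o s) with hθ
  have hθ0 : 0 ≤ θ := Real.arccos_nonneg _
  have habs : |(inner ℝ o s : ℝ)| ≤ 1 := by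
    have := abs_real_inner_le_norm o s
    rwa [ho, hs, mul_one] at this
  have hcos : Real.cos θ = inner ℝ o s :=
    Real.cos_arccos (abs_le.mp habs).1 (abs_le.mp habs).2
  have h1 : ‖s - o‖ ^ 2 = 2 - 2 * Real.cos θ := by
    rw [@norm_sub_sq_real, hs, ho, hcos, real_inner_comm]
    ring
  have h2 : 1 - θ ^ 2 / 2 ≤ Real.cos θ := Real.one_sub_sq_div_two_le_cos
  have h3 : ‖s - o‖ ^ 2 ≤ θ ^ 2 := by rw [h1]; linarith
  have h4 : ‖s - o‖ ≤ θ := by
    exact le_of_abs_le (abs_le_of_sq_le_sq h3 hθ0)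
  linarith

theorem sig_ae_sphere' (d : ℕ) (A : Set (E d)) :
    sig d A ≤ sig d (A ∩ sphere (0 : E d) 1) := by
  have hval : MeasurableEmbedding (Subtype.val : Sphere d → E d) :=
    MeasurableEmbedding.subtype_coe (isClosed_sphere.measurableSet)
  unfold sig
  rw [hval.map_apply, hval.map_apply]
  apply measure_mono
  intro x hx
  exact ⟨hx, x.2⟩

theorem gL_withDensity {d T M : ℕ} (L : RLearner d T M) (ω : L.Ω) (q : QL L) (ε : ℝ)
    (A : Set (E d)) (hA : MeasurableSet A) :
    ((sig d).withDensity (gL L ω ε q)) A =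
      sig d (A ∩ {s : E d | Real.arccos (inner ℝ (outL L ω q) s) ≤ ε}) := by
  have hS : MeasurableSet {s : E d | Real.arccos (inner ℝ (outL L ω q) s) ≤ ε} := by
    apply measurableSet_le _ measurable_const
    exact Real.measurable_arccos.comp (measurable_const.inner measurable_id)
  rw [withDensity_apply _ hA]
  unfold gL
  rw [lintegral_indicator hS]
  simp only [lintegral_const, one_mul]
  rw [Measure.restrict_restrict hS, Measure.restrict_apply_univ, Set.inter_comm]

theorem outL_norm {d T M : ℕ} (L : RLearner d T M) (ω : L.Ω) (q : QL L) :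
    ‖outL L ω q‖ = 1 := L.out_unit _ _ _

theorem sig_cap_le {d : ℕ} (hd : 1 ≤ d) (o : E d) (ho : ‖o‖ = 1) (ε : ℝ) (hε : 0 < ε) :
    sig d {s : E d | Real.arccos (inner ℝ o s) ≤ ε} ≤
      2 * 4 ^ d * ENNReal.ofReal (ε ^ (d - 1)) := by
  refine (sig_ae_sphere' d _).trans ?_
  refine le_trans (measure_mono ?_) (frost_sig d hd o ε hε)
  rintro s ⟨h1, h2⟩
  exact cap_subset o s ho (by simpa using h2) ε h1

theorem frost_gL {d T M : ℕ} (L : RLearner d T M) (ω : L.Ω) (q : QL L) (ε : ℝ) (hε : 0 < ε)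
    (s0 : ℕ) (hs0 : s0 + 1 ≤ d) :
    Frost ((sig d).withDensity (gL L ω ε q)) (2 * 4 ^ d * ENNReal.ofReal (ε ^ (d - 1 - s0)))
      s0 := by
  intro z τ hτ
  have hd : 1 ≤ d := by omega
  rw [gL_withDensity L ω q ε _ isClosed_closedBall.measurableSet]
  have hexp : d - 1 = (d - 1 - s0) + s0 := by omega
  rw [mul_assoc, ← ENNReal.ofReal_mul (by positivity)]
  rcases le_total τ ε with h | h
  · refine (measure_mono Set.inter_subset_left).trans ?_
    refine (frost_sig d hd z τ hτ).trans ?_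
    gcongr
    rw [hexp, pow_add]
    have : d - 1 - s0 + s0 - s0 = d - 1 - s0 := by omega
    rw [this]
    gcongr
  · refine (measure_mono Set.inter_subset_right).trans ?_
    refine (sig_cap_le hd _ (outL_norm L ω q) ε hε).trans ?_
    gcongr
    rw [hexp, pow_add]
    have : d - 1 - s0 + s0 - s0 = d - 1 - s0 := by omega
    rw [this]
    gcongr

end Crest.Agent.SL
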