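import Crest.Agent.SRF_L2

set_option autoImplicit false
set_option linter.unusedSectionVars false
set_option linter.unusedVariables false

namespace Crest.Agent.SRF

open MeasureTheory Filter Topology

variable {E : Type*} [DecidableEq E]

theorem log_lip {a b : ℝ} (ha : 1 / 2 ≤ a) (hb : 1 / 2 ≤ b) : |Real.log a - Real.log b| ≤ 2 * |a - b| := by
  have key : ∀ x y : ℝ, 1 / 2 ≤ x → 1 / 2 ≤ y → Real.log x - Real.log y ≤ 2 * |x - y| := by
    intro x y hx hy
    have hy0 : 0 < y := by linarith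
    have hx0 : 0 < x := by linarith
    rw [← Real.log_div hx0.ne' hy0.ne']
    have h1 := Real.log_le_sub_one_of_pos (div_pos hx0 hy0)
    have h2 : x / y - 1 = (x - y) / y := by field_simp
    rw [h2] at h1
    refine h1.trans ?_
    rw [div_le_iff₀ hy0]
    have h3 : x - y ≤ |x - y| := le_abs_self _
    nlinarith [abs_nonneg (x - y)]
  rw [abs_le]
  constructor
  · have := key b a hb ha
    rw [abs_sub_comm] at this
    linarith
  · exact key a b ha hb

theorem rr_ge (z : unitInterval) : 1 / 2 ≤ rr z := by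
  have := z.2.1
  unfold rr; linarith

theorem log_rr_lip (z z' : unitInterval) : |Real.log (rr z) - Real.log (rr z')| ≤ 2 * |(z : ℝ) - z'| := by
  have := log_lip (rr_ge z) (rr_ge z')
  unfold rr at *
  simpa using this

theorem log_wt_lip (z z' : Lab E) (ht : ∀ e, z (e, 0) = z' (e, 0)) (g : E) (s : ℕ) (h : E) :
    |Real.log (wt z g s h) - Real.log (wt z' g s h)| ≤
      ∑ s' ∈ Finset.range (s + 1), 2 * |(z (h, s' + 1) : ℝ) - z' (h, s' + 1)| := by
  have hlog : ∀ y : Lab E, Real.log (wt y g s h) =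
      (∑ s' ∈ Finset.range s, Real.log (rr (y (h, s' + 1)))) +
        (if y (h, 0) < y (g, 0) then Real.log (rr (y (h, s + 1))) else 0) := by
    intro y
    unfold wt
    rw [Real.log_mul, Real.log_prod]
    · congr 1
      split_ifs
      · rfl
      · exact Real.log_one
    · intro s' _; exact (rr_pos _).ne'
    · exact (Finset.prod_pos fun _ _ => rr_pos _).ne'
    · split_ifs
      · exact (rr_pos _).ne'
      · exact one_ne_zero
  rw [hlog, hlog, Finset.sum_range_succ, ht h, ht g]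
  have e1 : (∑ s' ∈ Finset.range s, Real.log (rr (z (h, s' + 1)))) +
        (if z' (h, 0) < z' (g, 0) then Real.log (rr (z (h, s + 1))) else 0) -
      ((∑ s' ∈ Finset.range s, Real.log (rr (z' (h, s' + 1)))) +
        (if z' (h, 0) < z' (g, 0) then Real.log (rr (z' (h, s + 1))) else 0)) =
      (∑ s' ∈ Finset.range s, (Real.log (rr (z (h, s' + 1))) - Real.log (rr (z' (h, s' + 1))))) +
        (if z' (h, 0) < z' (g, 0) then Real.log (rr (z (h, s + 1))) - Real.log (rr (z' (h, s + 1))) else 0) := by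
    rw [Finset.sum_sub_distrib]
    split_ifs <;> ring
  rw [e1]
  refine (abs_add_le _ _).trans (add_le_add ?_ ?_)
  · refine (Finset.abs_sum_le_sum_abs _ _).trans (Finset.sum_le_sum fun s' _ => log_rr_lip _ _)
  · split_ifs
    · exact log_rr_lip _ _
    · simp

/-- `C(s, Λ)`: stage `s` observations are `Λ`-close in probability for large windows -/
def CP (p : Finset E → Finset E → ℝ) (s : ℕ) (Λ : ℝ) : Prop :=
  ∀ (g : E) (ε : ℝ), 0 < ε → ∃ V : Finset E, ∀ W W' : Finset E, V ⊆ W → V ⊆ W' →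
    lab E {L | Λ + ε < |(Zs p W L (g, s + 1) : ℝ) - Zs p W' L (g, s + 1)|} ≤ ENNReal.ofReal ε

theorem CP_one (p : Finset E → Finset E → ℝ) (s : ℕ) : CP p s 1 := by
  intro g ε hε
  refine ⟨∅, fun W W' _ _ => ?_⟩
  have : {L : Lab E | 1 + ε < |(Zs p W L (g, s + 1) : ℝ) - Zs p W' L (g, s + 1)|} = ∅ := by
    ext L
    simp only [Set.mem_ofPred_eq, Set.mem_empty_iff_false, iff_false, not_lt]
    have h1 := (Zs p W L (g, s + 1)).2
    have h2 := (Zs p W' L (g, s + 1)).2
    rw [abs_le]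
    constructor <;> linarith [h1.1, h1.2, h2.1, h2.2]
  rw [this]
  simp

/-- Markov bound for the difference of posterior means along the exact scheme -/
theorem prob_pm_diff {p : Finset E → Finset E → ℝ} (hp : IsGood p) (g : E) (s : ℕ) (V W : Finset E)
    (ε : ℝ) (hε : 0 < ε)
    (hb : ∫⁻ z, ENNReal.ofReal ((pm p W g (wt z g s) - pm p V g (wt z g s)) ^ 2) *
        ENNReal.ofReal (dens p W (s + 1) z) ∂lab E ≤ ENNReal.ofReal (ε ^ 3 / 4)) :
    lab E {L | ε < |pm p W g (wt (Zs p W L) g s) - pm p V g (wt (Zs p W L) g s)|} ≤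
      ENNReal.ofReal (ε / 4) := by
  set f : Lab E → ENNReal := fun z => ENNReal.ofReal ((pm p W g (wt z g s) - pm p V g (wt z g s)) ^ 2)
    with hf
  have hfm : Measurable f := by
    refine Measurable.ennreal_ofReal ?_
    exact ((measurable_pm_wt p W g s).sub (measurable_pm_wt p V g s)).pow_const 2
  have hdep : ∀ z z' : Lab E, (∀ e s', s' ≤ s + 1 → z (e, s') = z' (e, s')) → f z = f z' := by
    intro z z' h
    have hwt : wt z g s = wt z' g s := by
      ext e
      unfold wt
      rw [h e 0 (by omega), h g 0 (by omega), h e (s+1) le_rfl]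
      congr 1
      exact Finset.prod_congr rfl fun s' hs' => by
        rw [h e (s'+1) (by have := Finset.mem_range.1 hs'; omega)]
    simp only [hf, hwt]
  have hex := exact hp W (s + 1) f hfm hdep
  have hmark := mul_meas_ge_le_lintegral (μ := lab E) (f := fun L => f (Zs p W L))
    (hfm.comp (measurable_Zs p W)) (ENNReal.ofReal (ε ^ 2))
  rw [hex] at hmark
  have hsub : {L : Lab E | ε < |pm p W g (wt (Zs p W L) g s) - pm p V g (wt (Zs p W L) g s)|} ⊆
      {L | ENNReal.ofReal (ε ^ 2) ≤ f (Zs p W L)} := by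
    intro L hL
    simp only [Set.mem_ofPred_eq] at hL ⊢
    simp only [hf]
    apply ENNReal.ofReal_le_ofReal
    rw [← sq_abs (pm p W g (wt (Zs p W L) g s) - pm p V g (wt (Zs p W L) g s))]
    exact pow_le_pow_left₀ hε.le hL.le 2
  refine (measure_mono hsub).trans ?_
  have h2 : ENNReal.ofReal (ε ^ 2) * lab E {L | ENNReal.ofReal (ε ^ 2) ≤ f (Zs p W L)} ≤
      ENNReal.ofReal (ε ^ 2) * ENNReal.ofReal (ε / 4) := by
    refine (hmark.trans hb).trans (le_of_eq ?_)
    rw [← ENNReal.ofReal_mul (sq_nonneg _)]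
    congr 1; ring
  have hpos : 0 < ENNReal.ofReal (ε ^ 2) := ENNReal.ofReal_pos.2 (by positivity)
  exact (ENNReal.mul_le_mul_iff_right hpos.ne' ENNReal.ofReal_ne_top).1 h2

theorem CP_step {p : Finset E → Finset E → ℝ} (hp : IsGood p) (s : ℕ) (Λ : ℝ) (hΛ : 0 ≤ Λ)
    (hIH : ∀ s' < s, CP p s' 0) (hC : CP p s Λ) : CP p s (Λ / 4) := by
  intro g ε hε
  obtain ⟨V1, hgV1, hV1⟩ := l2_cauchy hp g s (ε ^ 3 / 4) (by positivity)
  set ε2 : ℝ := ε / (2 * ((V1.card : ℝ) + 1) * ((s : ℝ) + 1)) with hε2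
  have hε2pos : 0 < ε2 := by positivity
  -- closeness level for each stage
  set lev : ℕ → ℝ := fun s' => if s' < s then 0 else Λ with hlev
  have hall : ∀ h : E, ∀ s' : ℕ, s' ≤ s → ∃ V : Finset E, ∀ W W' : Finset E, V ⊆ W → V ⊆ W' →
      lab E {L | lev s' + ε2 < |(Zs p W L (h, s' + 1) : ℝ) - Zs p W' L (h, s' + 1)|} ≤
        ENNReal.ofReal ε2 := by
    intro h s' hs'
    rcases hs'.lt_or_eq with hlt | rfl
    · have := hIH s' hlt h ε2 hε2pos
      simpa [hlev, hlt] using this
    · have := hC h ε2 hε2pos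
      simpa [hlev] using this
  choose! VV hVV using hall
  refine ⟨V1 ∪ V1.biUnion (fun h => (Finset.range (s + 1)).biUnion (fun s' => VV h s')), ?_⟩
  intro W W' hW hW'
  have hV1W : V1 ⊆ W := Finset.subset_union_left.trans hW
  have hV1W' : V1 ⊆ W' := Finset.subset_union_left.trans hW'
  have hsubV : ∀ h ∈ V1, ∀ s' ≤ s, VV h s' ⊆
      V1 ∪ V1.biUnion (fun h => (Finset.range (s + 1)).biUnion (fun s' => VV h s')) := by
    intro h hh s' hs' x hx
    refine Finset.mem_union_right _ ?_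
    rw [Finset.mem_biUnion]
    refine ⟨h, hh, ?_⟩
    rw [Finset.mem_biUnion]
    exact ⟨s', Finset.mem_range.2 (by omega), hx⟩
  -- the bad events
  set B1 : Set (Lab E) :=
    {L | ε < |pm p W g (wt (Zs p W L) g s) - pm p V1 g (wt (Zs p W L) g s)|} with hB1
  set B2 : Set (Lab E) :=
    {L | ε < |pm p W' g (wt (Zs p W' L) g s) - pm p V1 g (wt (Zs p W' L) g s)|} with hB2
  set B : E → ℕ → Set (Lab E) := fun h s' =>
    {L | lev s' + ε2 < |(Zs p W L (h, s' + 1) : ℝ) - Zs p W' L (h, s' + 1)|} with hB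
  have hcover : {L : Lab E | Λ / 4 + ε < |(Zs p W L (g, s + 1) : ℝ) - Zs p W' L (g, s + 1)|} ⊆
      (B1 ∪ B2) ∪ ⋃ h ∈ V1, ⋃ s' ∈ Finset.range (s + 1), B h s' := by
    intro L hL
    by_contra hcon
    simp only [Set.mem_union, Set.mem_iUnion, not_or, not_exists] at hcon
    obtain ⟨⟨hn1, hn2⟩, hn3⟩ := hcon
    simp only [hB1, hB2, Set.mem_ofPred_eq, not_lt] at hn1 hn2
    have hn3' : ∀ h ∈ V1, ∀ s' ≤ s,
        |(Zs p W L (h, s' + 1) : ℝ) - Zs p W' L (h, s' + 1)| ≤ lev s' + ε2 := by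
      intro h hh s' hs'
      have := hn3 h hh s' (Finset.mem_range.2 (by omega))
      simpa [hB] using this
    -- middle term
    have hmid : |pm p V1 g (wt (Zs p W L) g s) - pm p V1 g (wt (Zs p W' L) g s)| ≤
        (2 * (Λ + ((s : ℝ) + 1) * ε2)) / 2 := by
      refine pm_lipschitz hp V1 g hgV1 _ _ (wt_pos _ g s) (wt_pos _ g s) _ fun h hh => ?_
      refine (log_wt_lip (Zs p W L) (Zs p W' L) (fun e => by rw [Zs_zero, Zs_zero]) g s h).trans ?_
      calc ∑ s' ∈ Finset.range (s + 1), 2 * |(Zs p W L (h, s' + 1) : ℝ) - Zs p W' L (h, s' + 1)|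
          ≤ ∑ s' ∈ Finset.range (s + 1), 2 * (lev s' + ε2) := by
            refine Finset.sum_le_sum fun s' hs' => ?_
            have := hn3' h hh s' (by have := Finset.mem_range.1 hs'; omega)
            linarith
        _ = 2 * (Λ + ((s : ℝ) + 1) * ε2) := by
            rw [← Finset.mul_sum, Finset.sum_add_distrib, Finset.sum_range_succ]
            have : ∑ x ∈ Finset.range s, lev x = 0 := by
              refine Finset.sum_eq_zero fun x hx => ?_
              simp [hlev, Finset.mem_range.1 hx]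
            rw [this]
            simp [hlev]
    have hZ : |(Zs p W L (g, s + 1) : ℝ) - Zs p W' L (g, s + 1)| ≤
        |pm p W g (wt (Zs p W L) g s) - pm p W' g (wt (Zs p W' L) g s)| / 4 := by
      rw [Zs_succ, Zs_succ]
      exact Q_lipschitz _ _ _
    have htri : |pm p W g (wt (Zs p W L) g s) - pm p W' g (wt (Zs p W' L) g s)| ≤
        ε + (2 * (Λ + ((s : ℝ) + 1) * ε2)) / 2 + ε := by
      have h3 : |pm p V1 g (wt (Zs p W' L) g s) - pm p W' g (wt (Zs p W' L) g s)| ≤ ε := by
        rw [abs_sub_comm]; exact hn2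
      have := abs_add_le (pm p W g (wt (Zs p W L) g s) - pm p V1 g (wt (Zs p W L) g s))
        ((pm p V1 g (wt (Zs p W L) g s) - pm p V1 g (wt (Zs p W' L) g s)) +
          (pm p V1 g (wt (Zs p W' L) g s) - pm p W' g (wt (Zs p W' L) g s)))
      have h4 := abs_add_le (pm p V1 g (wt (Zs p W L) g s) - pm p V1 g (wt (Zs p W' L) g s))
          (pm p V1 g (wt (Zs p W' L) g s) - pm p W' g (wt (Zs p W' L) g s))
      have e : pm p W g (wt (Zs p W L) g s) - pm p V1 g (wt (Zs p W L) g s) +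
        ((pm p V1 g (wt (Zs p W L) g s) - pm p V1 g (wt (Zs p W' L) g s)) +
          (pm p V1 g (wt (Zs p W' L) g s) - pm p W' g (wt (Zs p W' L) g s))) =
          pm p W g (wt (Zs p W L) g s) - pm p W' g (wt (Zs p W' L) g s) := by ring
      rw [e] at this
      linarith
    have hε2le : ((s : ℝ) + 1) * ε2 ≤ ε := by
      have h5 : ((s : ℝ) + 1) * ε2 = ε / (2 * ((V1.card : ℝ) + 1)) := by
        rw [hε2]; field_simp
      rw [h5, div_le_iff₀ (by positivity)]
      have : (0:ℝ) ≤ (V1.card : ℝ) := Nat.cast_nonneg _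
      nlinarith
    have hL' : Λ / 4 + ε < |(Zs p W L (g, s + 1) : ℝ) - Zs p W' L (g, s + 1)| := hL
    linarith
  refine (measure_mono hcover).trans ?_
  have hm1 : lab E B1 ≤ ENNReal.ofReal (ε / 4) := prob_pm_diff hp g s V1 W ε hε (hV1 W hV1W)
  have hm2 : lab E B2 ≤ ENNReal.ofReal (ε / 4) := prob_pm_diff hp g s V1 W' ε hε (hV1 W' hV1W')
  have hm3 : lab E (⋃ h ∈ V1, ⋃ s' ∈ Finset.range (s + 1), B h s') ≤ ENNReal.ofReal (ε / 2) := by
    calc lab E (⋃ h ∈ V1, ⋃ s' ∈ Finset.range (s + 1), B h s')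
        ≤ ∑ h ∈ V1, lab E (⋃ s' ∈ Finset.range (s + 1), B h s') := measure_biUnion_finset_le _ _
      _ ≤ ∑ h ∈ V1, ∑ s' ∈ Finset.range (s + 1), lab E (B h s') :=
          Finset.sum_le_sum fun h _ => measure_biUnion_finset_le _ _
      _ ≤ ∑ h ∈ V1, ∑ s' ∈ Finset.range (s + 1), ENNReal.ofReal ε2 := by
          refine Finset.sum_le_sum fun h hh => Finset.sum_le_sum fun s' hs' => ?_
          have hs'' : s' ≤ s := by have := Finset.mem_range.1 hs'; omega
          exact hVV h s' hs'' W W' ((hsubV h hh s' hs'').trans hW) ((hsubV h hh s' hs'').trans hW')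
      _ = ENNReal.ofReal ((V1.card : ℝ) * (((s : ℝ) + 1) * ε2)) := by
          rw [Finset.sum_const, Finset.sum_const, Finset.card_range, nsmul_eq_mul, nsmul_eq_mul,
            ENNReal.ofReal_mul (Nat.cast_nonneg _), ENNReal.ofReal_mul (by positivity),
            ENNReal.ofReal_natCast]
          congr 2
          rw [← Nat.cast_succ, ENNReal.ofReal_natCast]
      _ ≤ ENNReal.ofReal (ε / 2) := by
          apply ENNReal.ofReal_le_ofReal
          have h5 : ((s : ℝ) + 1) * ε2 = ε / (2 * ((V1.card : ℝ) + 1)) := by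
            rw [hε2]; field_simp
          rw [h5]
          have : (0:ℝ) ≤ (V1.card : ℝ) := Nat.cast_nonneg _
          rw [mul_div_assoc', div_le_div_iff₀ (by positivity) (by norm_num)]
          nlinarith
  calc lab E ((B1 ∪ B2) ∪ ⋃ h ∈ V1, ⋃ s' ∈ Finset.range (s + 1), B h s')
      ≤ (lab E B1 + lab E B2) + lab E (⋃ h ∈ V1, ⋃ s' ∈ Finset.range (s + 1), B h s') :=
        (measure_union_le _ _).trans (add_le_add_left (measure_union_le _ _) _)
    _ ≤ (ENNReal.ofReal (ε / 4) + ENNReal.ofReal (ε / 4)) + ENNReal.ofReal (ε / 2) := by gcongr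
    _ = ENNReal.ofReal ε := by
        rw [← ENNReal.ofReal_add (by positivity) (by positivity),
          ← ENNReal.ofReal_add (by positivity) (by positivity)]
        congr 1; ring

theorem CP_zero {p : Finset E → Finset E → ℝ} (hp : IsGood p) (s : ℕ) : CP p s 0 := by
  induction s using Nat.strong_induction_on with
  | _ s ih =>
    have hpow : ∀ n : ℕ, CP p s ((1 / 4 : ℝ) ^ n) := by
      intro n
      induction n with
      | zero => simpa using CP_one p s
      | succ n ihn =>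
        have := CP_step hp s ((1/4 : ℝ)^n) (by positivity) ih ihn
        have e : (1 / 4 : ℝ) ^ (n + 1) = (1 / 4 : ℝ) ^ n / 4 := by rw [pow_succ]; ring
        rw [e]; exact this
    intro g ε hε
    obtain ⟨n, hn⟩ := exists_pow_lt_of_lt_one (half_pos hε) (show (1 / 4 : ℝ) < 1 by norm_num)
    obtain ⟨V, hV⟩ := hpow n g (ε / 2) (half_pos hε)
    refine ⟨V, fun W W' hW hW' => ?_⟩
    refine (measure_mono ?_).trans ((hV W W' hW hW').trans (ENNReal.ofReal_le_ofReal (by linarith)))
    intro L hL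
    simp only [Set.mem_ofPred_eq, zero_add] at hL ⊢
    linarith

theorem Zs_cauchy {p : Finset E → Finset E → ℝ} (hp : IsGood p)
    (g : E) (s : ℕ) (ε : ℝ) (hε : 0 < ε) :
    ∃ V : Finset E, ∀ W W' : Finset E, V ⊆ W → V ⊆ W' →
      lab E {L | ε < |(Zs p W L (g, s + 1) : ℝ) - Zs p W' L (g, s + 1)|} ≤ ENNReal.ofReal ε := by
  obtain ⟨V, hV⟩ := CP_zero hp s g ε hε
  refine ⟨V, fun W W' hW hW' => ?_⟩
  have := hV W W' hW hW'
  simpa using this

end Crest.Agent.SRF
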