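import Mathlib

/-!
Cauchy–Binet expansion of `det (∑ w e • b e b eᵀ)` and the negative correlation inequality for
the weights `dB A * ∏ w`.
-/

set_option autoImplicit false

namespace Crest.Agent.SRF

open Finset Matrix

section CB

variable {E n : Type*} [DecidableEq E] [Fintype n] [DecidableEq n]

/-- Gram determinant of the vectors `b e`, `e ∈ A` -/
noncomputable def dB (b : E → n → ℝ) (A : Finset E) : ℝ :=
  (∑ e ∈ A, vecMulVec (b e) (b e)).det

omit [DecidableEq E] in
theorem cb_expand (b : E → n → ℝ) (F : Finset E) (w : E → ℝ) :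
    (∑ e ∈ F, w e • vecMulVec (b e) (b e)).det =
      ∑ r ∈ Fintype.piFinset (fun _ : n => F),
        (∏ i, w (r i)) * ((∏ i, b (r i) i) * (Matrix.of (fun i => b (r i))).det) := by
  have h1 : (∑ e ∈ F, w e • vecMulVec (b e) (b e)) =
      (Matrix.of fun i => ∑ e ∈ F, (w e * b e i) • b e) := by
    ext i j
    simp [Matrix.sum_apply, vecMulVec_apply, Finset.sum_apply, mul_assoc]
  rw [h1]
  have h2 := MultilinearMap.map_sum_finset (R := ℝ) (ι := n)
    (Matrix.detRowAlternating (n := n) (R := ℝ)).toMultilinearMap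
    (fun i e => (w e * b e i) • b e) (fun _ => F)
  have h3 : (Matrix.of fun i => ∑ e ∈ F, (w e * b e i) • b e).det =
      (Matrix.detRowAlternating (n := n) (R := ℝ)).toMultilinearMap
        (fun i => ∑ e ∈ F, (w e * b e i) • b e) := rfl
  rw [h3, h2]
  refine Finset.sum_congr rfl fun r _ => ?_
  rw [MultilinearMap.map_smul_univ, Finset.prod_mul_distrib, smul_eq_mul, mul_assoc]
  rfl

omit [DecidableEq E] in
theorem dB_expand (b : E → n → ℝ) (A : Finset E) :
    dB b A = ∑ r ∈ Fintype.piFinset (fun _ : n => A),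
      ((∏ i, b (r i) i) * (Matrix.of (fun i => b (r i))).det) := by
  have := cb_expand b A (fun _ => 1)
  simpa [dB] using this

/-- Cauchy–Binet -/
theorem cb_sum (b : E → n → ℝ) (F : Finset E) (w : E → ℝ) :
    (∑ e ∈ F, w e • vecMulVec (b e) (b e)).det =
      ∑ A ∈ F.powersetCard (Fintype.card n), dB b A * ∏ a ∈ A, w a := by
  classical
  rw [cb_expand]
  simp_rw [dB_expand, Finset.sum_mul]
  rw [Finset.sum_comm' (t' := Fintype.piFinset (fun _ : n => F))
    (s' := fun r => (F.powersetCard (Fintype.card n)).filter (fun A => ∀ i, r i ∈ A))]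
  · refine Finset.sum_congr rfl fun r hr => ?_
    by_cases hinj : Function.Injective r
    · have hcard : (Finset.univ.image r).card = Fintype.card n := by
        rw [Finset.card_image_of_injective _ hinj]; rfl
      have hfil : ((F.powersetCard (Fintype.card n)).filter (fun A => ∀ i, r i ∈ A)) =
          {Finset.univ.image r} := by
        ext A
        simp only [Finset.mem_filter, Finset.mem_powersetCard, Finset.mem_singleton]
        constructor
        · rintro ⟨⟨hA, hc⟩, h⟩
          symm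
          apply Finset.eq_of_subset_of_card_le
          · intro x hx
            simp only [Finset.mem_image, Finset.mem_univ, true_and] at hx
            obtain ⟨i, rfl⟩ := hx
            exact h i
          · omega
        · rintro rfl
          refine ⟨⟨?_, hcard⟩, fun i => Finset.mem_image_of_mem _ (Finset.mem_univ i)⟩
          intro x hx
          simp only [Finset.mem_image, Finset.mem_univ, true_and] at hx
          obtain ⟨i, rfl⟩ := hx
          exact (Fintype.mem_piFinset.1 hr) i
      rw [hfil, Finset.sum_singleton, Finset.prod_image (fun i _ j _ h => hinj h)]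
      ring
    · have hdet : (Matrix.of (fun i => b (r i))).det = 0 := by
        simp only [Function.Injective, not_forall] at hinj
        obtain ⟨i, j, hij, hne⟩ := hinj
        exact Matrix.det_zero_of_row_eq hne (by ext k; simp [hij])
      simp [hdet]
  · intro A r
    simp only [Finset.mem_filter, Finset.mem_powersetCard, Fintype.mem_piFinset]
    constructor
    · rintro ⟨⟨hA, hc⟩, h⟩
      exact ⟨⟨⟨hA, hc⟩, h⟩, fun i => hA (h i)⟩
    · rintro ⟨⟨⟨hA, hc⟩, h⟩, _⟩
      exact ⟨⟨hA, hc⟩, h⟩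

omit [DecidableEq E] in
theorem dB_nonneg (b : E → n → ℝ) (A : Finset E) : 0 ≤ dB b A := by
  apply Matrix.PosSemidef.det_nonneg
  apply Matrix.posSemidef_sum
  intro e _
  have := Matrix.posSemidef_vecMulVec_self_star (R := ℝ) (b e)
  simpa using this

/-! ### Negative correlation -/

/-- rank two update of the determinant -/
theorem det_rank_two (M : Matrix n n ℝ) (hM : IsUnit M.det) (hs : Mᵀ = M) (u v : n → ℝ)
    (x y : ℝ) :
    (M + x • vecMulVec u u + y • vecMulVec v v).det =
      M.det * ((1 + x * (u ⬝ᵥ (M⁻¹ *ᵥ u))) * (1 + y * (v ⬝ᵥ (M⁻¹ *ᵥ v))) -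
        x * y * (u ⬝ᵥ (M⁻¹ *ᵥ v)) ^ 2) := by
  let U : Matrix n (Fin 2) ℝ := Matrix.of fun i j => if j = 0 then x * u i else y * v i
  let W : Matrix (Fin 2) n ℝ := Matrix.of fun j i => if j = 0 then u i else v i
  have h1 : M + x • vecMulVec u u + y • vecMulVec v v = M + U * W := by
    ext i j
    simp [U, W, Matrix.mul_apply, Fin.sum_univ_two, vecMulVec_apply, mul_assoc, add_assoc]
  rw [h1, Matrix.det_add_mul _ _ hM, Matrix.det_fin_two]
  have hsym : v ⬝ᵥ (M⁻¹ *ᵥ u) = u ⬝ᵥ (M⁻¹ *ᵥ v) := by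
    rw [Matrix.dotProduct_mulVec, ← Matrix.mulVec_transpose, Matrix.transpose_nonsing_inv, hs,
      dotProduct_comm]
  have e00 : (W * M⁻¹ * U) 0 0 = x * (u ⬝ᵥ (M⁻¹ *ᵥ u)) := by
    rw [Matrix.mul_assoc]
    simp only [Matrix.mul_apply, dotProduct, mulVec, Finset.mul_sum, W, U, Matrix.of_apply]
    refine Finset.sum_congr rfl fun i _ => Finset.sum_congr rfl fun j _ => ?_
    simp; ring
  have e01 : (W * M⁻¹ * U) 0 1 = y * (u ⬝ᵥ (M⁻¹ *ᵥ v)) := by
    rw [Matrix.mul_assoc]
    simp only [Matrix.mul_apply, dotProduct, mulVec, Finset.mul_sum, W, U, Matrix.of_apply]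
    refine Finset.sum_congr rfl fun i _ => Finset.sum_congr rfl fun j _ => ?_
    simp; ring
  have e10 : (W * M⁻¹ * U) 1 0 = x * (v ⬝ᵥ (M⁻¹ *ᵥ u)) := by
    rw [Matrix.mul_assoc]
    simp only [Matrix.mul_apply, dotProduct, mulVec, Finset.mul_sum, W, U, Matrix.of_apply]
    refine Finset.sum_congr rfl fun i _ => Finset.sum_congr rfl fun j _ => ?_
    simp; ring
  have e11 : (W * M⁻¹ * U) 1 1 = y * (v ⬝ᵥ (M⁻¹ *ᵥ v)) := by
    rw [Matrix.mul_assoc]
    simp only [Matrix.mul_apply, dotProduct, mulVec, Finset.mul_sum, W, U, Matrix.of_apply]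
    refine Finset.sum_congr rfl fun i _ => Finset.sum_congr rfl fun j _ => ?_
    simp; ring
  have o01 : (1 : Matrix (Fin 2) (Fin 2) ℝ) 0 1 = 0 := Matrix.one_apply_ne (by decide)
  have o10 : (1 : Matrix (Fin 2) (Fin 2) ℝ) 1 0 = 0 := Matrix.one_apply_ne (by decide)
  simp only [Matrix.add_apply, e00, e01, e10, e11, hsym, o01, o10, Matrix.one_apply_eq]
  ring

omit [DecidableEq E] [Fintype n] [DecidableEq n] in
theorem gram_symm (b : E → n → ℝ) (F : Finset E) (w : E → ℝ) :
    (∑ e ∈ F, w e • vecMulVec (b e) (b e))ᵀ = ∑ e ∈ F, w e • vecMulVec (b e) (b e) := by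
  rw [Matrix.transpose_sum]
  refine Finset.sum_congr rfl fun e _ => ?_
  rw [Matrix.transpose_smul, Matrix.transpose_vecMulVec]

/-- negative correlation for the measure with weights `dB b A * ∏ w` -/
theorem cb_nc (b : E → n → ℝ) (F : Finset E) (w : E → ℝ) (hw : ∀ e, 0 ≤ w e) (e f : E)
    (hef : e ≠ f) :
    (∑ A ∈ F.powersetCard (Fintype.card n), dB b A * ∏ a ∈ A, w a) *
      (∑ A ∈ F.powersetCard (Fintype.card n) with e ∈ A ∧ f ∈ A, dB b A * ∏ a ∈ A, w a) ≤
    (∑ A ∈ F.powersetCard (Fintype.card n) with e ∈ A, dB b A * ∏ a ∈ A, w a) *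
      (∑ A ∈ F.powersetCard (Fintype.card n) with f ∈ A, dB b A * ∏ a ∈ A, w a) := by
  classical
  set K := F.powersetCard (Fintype.card n) with hK
  -- split in four parts
  set T : Finset E → ℝ := fun A => dB b A * ∏ a ∈ A, w a with hT
  have hTn : ∀ A, 0 ≤ T A := fun A => mul_nonneg (dB_nonneg b A) (Finset.prod_nonneg fun a _ => hw a)
  set p0 := ∑ A ∈ K with (e ∉ A ∧ f ∉ A), T A with hp0
  set p1 := ∑ A ∈ K with (e ∈ A ∧ f ∉ A), T A with hp1
  set p2 := ∑ A ∈ K with (e ∉ A ∧ f ∈ A), T A with hp2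
  set p3 := ∑ A ∈ K with (e ∈ A ∧ f ∈ A), T A with hp3
  have hE : ∑ A ∈ K with e ∈ A, T A = p1 + p3 := by
    rw [hp1, hp3, Finset.sum_filter, Finset.sum_filter, Finset.sum_filter, ← Finset.sum_add_distrib]
    refine Finset.sum_congr rfl fun A _ => ?_
    by_cases h1 : e ∈ A <;> by_cases h2 : f ∈ A <;> simp [h1, h2]
  have hF : ∑ A ∈ K with f ∈ A, T A = p2 + p3 := by
    rw [hp2, hp3, Finset.sum_filter, Finset.sum_filter, Finset.sum_filter, ← Finset.sum_add_distrib]
    refine Finset.sum_congr rfl fun A _ => ?_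
    by_cases h1 : e ∈ A <;> by_cases h2 : f ∈ A <;> simp [h1, h2]
  have hZ : ∑ A ∈ K, T A = p0 + p1 + p2 + p3 := by
    rw [hp0, hp1, hp2, hp3, Finset.sum_filter, Finset.sum_filter, Finset.sum_filter,
      Finset.sum_filter, ← Finset.sum_add_distrib, ← Finset.sum_add_distrib,
      ← Finset.sum_add_distrib]
    refine Finset.sum_congr rfl fun A _ => ?_
    by_cases h1 : e ∈ A <;> by_cases h2 : f ∈ A <;> simp [h1, h2]
  have hp1n : 0 ≤ p1 := Finset.sum_nonneg fun A _ => hTn A
  have hp2n : 0 ≤ p2 := Finset.sum_nonneg fun A _ => hTn A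
  have hp3n : 0 ≤ p3 := Finset.sum_nonneg fun A _ => hTn A
  suffices hkey : p0 * p3 ≤ p1 * p2 by
    change (∑ A ∈ K, T A) * p3 ≤ (∑ A ∈ K with e ∈ A, T A) * (∑ A ∈ K with f ∈ A, T A)
    rw [hE, hF, hZ]
    nlinarith
  -- the polynomial in two variables
  have hfe : f ≠ e := fun h => hef h.symm
  by_cases heF : e ∈ F
  swap
  · have : p3 = 0 := by
      rw [hp3]
      apply Finset.sum_eq_zero
      intro A hA
      exfalso
      simp only [Finset.mem_filter, hK, Finset.mem_powersetCard] at hA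
      exact heF (hA.1.1 hA.2.1)
    rw [this, mul_zero]
    exact mul_nonneg hp1n hp2n
  by_cases hfF : f ∈ F
  swap
  · have : p3 = 0 := by
      rw [hp3]
      apply Finset.sum_eq_zero
      intro A hA
      exfalso
      simp only [Finset.mem_filter, hK, Finset.mem_powersetCard] at hA
      exact hfF (hA.1.1 hA.2.2)
    rw [this, mul_zero]
    exact mul_nonneg hp1n hp2n
  set G := (F.erase e).erase f with hG
  have hFG : ∀ w' : E → ℝ, (∀ g, g ≠ e → g ≠ f → w' g = w g) →
      ∑ g ∈ F, w' g • vecMulVec (b g) (b g) =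
        (∑ g ∈ G, w g • vecMulVec (b g) (b g)) + w' e • vecMulVec (b e) (b e) +
          w' f • vecMulVec (b f) (b f) := by
    intro w' hw'
    rw [← Finset.add_sum_erase F _ heF, ← Finset.add_sum_erase (F.erase e) _
      (Finset.mem_erase.2 ⟨hfe, hfF⟩)]
    have : ∑ g ∈ G, w' g • vecMulVec (b g) (b g) = ∑ g ∈ G, w g • vecMulVec (b g) (b g) := by
      refine Finset.sum_congr rfl fun g hg => ?_
      rw [hw' g (Finset.mem_erase.1 (Finset.mem_erase.1 hg).2).1 (Finset.mem_erase.1 hg).1]
    rw [← hG, this]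
    abel
  set M := ∑ g ∈ G, w g • vecMulVec (b g) (b g) with hM
  -- the expansion at weights `(x * w e, y * w f)`
  have hD : ∀ x y : ℝ, (M + (x * w e) • vecMulVec (b e) (b e) +
      (y * w f) • vecMulVec (b f) (b f)).det = p0 + x * p1 + y * p2 + x * y * p3 := by
    intro x y
    set w' : E → ℝ := fun g => if g = e then x * w e else if g = f then y * w f else w g with hw'
    have h1 := hFG w' (fun g h1 h2 => by simp [hw', h1, h2])
    have h2 : w' e = x * w e := by simp [hw']
    have h3 : w' f = y * w f := by simp [hw', hfe]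
    rw [h2, h3] at h1
    rw [← h1, cb_sum]
    have h4 : ∀ A : Finset E, ∏ a ∈ A, w' a =
        (if e ∈ A then x else 1) * (if f ∈ A then y else 1) * ∏ a ∈ A, w a := by
      intro A
      have : ∀ a ∈ A, w' a = (if a = e then x else 1) * (if a = f then y else 1) * w a := by
        intro a _
        by_cases ha : a = e
        · subst ha
          simp [hw', hef]
        · by_cases hb : a = f
          · subst hb
            simp [hw', hfe]
          · simp [hw', ha, hb]
      rw [Finset.prod_congr rfl this, Finset.prod_mul_distrib, Finset.prod_mul_distrib,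
        Finset.prod_ite_eq', Finset.prod_ite_eq']
    rw [hp0, hp1, hp2, hp3, Finset.sum_filter, Finset.sum_filter, Finset.sum_filter,
      Finset.sum_filter, Finset.mul_sum, Finset.mul_sum, Finset.mul_sum,
      ← Finset.sum_add_distrib, ← Finset.sum_add_distrib, ← Finset.sum_add_distrib]
    refine Finset.sum_congr rfl fun A _ => ?_
    rw [h4, hT]
    by_cases h1 : e ∈ A <;> by_cases h2 : f ∈ A <;> simp [h1, h2] <;> ring
  have hMs : Mᵀ = M := gram_symm b G w
  have hM0 : M.det = p0 := by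
    have := hD 0 0
    simpa using this
  by_cases hdet : M.det = 0
  · rw [← hM0, hdet, zero_mul]
    exact mul_nonneg hp1n hp2n
  · have hu : IsUnit M.det := isUnit_iff_ne_zero.2 hdet
    set α := (b e) ⬝ᵥ (M⁻¹ *ᵥ (b e)) with hα
    set β := (b f) ⬝ᵥ (M⁻¹ *ᵥ (b f)) with hβ
    set γ := (b e) ⬝ᵥ (M⁻¹ *ᵥ (b f)) with hγ
    have hR : ∀ x y : ℝ, M.det * ((1 + (x * w e) * α) * (1 + (y * w f) * β) -
        (x * w e) * (y * w f) * γ ^ 2) = p0 + x * p1 + y * p2 + x * y * p3 := by
      intro x y
      rw [← hD x y, det_rank_two M hu hMs]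
    have h10 := hR 1 0
    have h01 := hR 0 1
    have h11 := hR 1 1
    simp only [one_mul, zero_mul, mul_zero, add_zero, sub_zero, mul_one] at h10 h01 h11
    rw [hM0] at h10 h01 h11
    have e1 : p1 = p0 * (w e * α) := by linarith
    have e2 : p2 = p0 * (w f * β) := by linarith
    have e3 : p3 = p0 * (w e * w f * (α * β - γ ^ 2)) := by
      rw [e1, e2] at h11
      linarith
    rw [e1, e2, e3]
    have : 0 ≤ w e * w f * (p0 * γ) ^ 2 := mul_nonneg (mul_nonneg (hw e) (hw f)) (sq_nonneg _)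
    nlinarith

end CB

end Crest.Agent.SRF
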