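import Mathlib
import Crest.Prelude.Def_SpanningTrees

/-!
Common definitions for rows S0254/S0255 (see the blueprint in the notes).

`p : Finset E → Finset E → ℝ` is a family of masses: `p W R` is the probability that the random
subset of `E` meets the finite window `W` exactly in `R`.
-/

set_option autoImplicit false

namespace Crest.Agent.SRF

open MeasureTheory Filter Topology

section Masses

variable {E : Type*} [DecidableEq E]

/-- generating function of the masses on the window `W` at weights `w` -/
noncomputable def gen (p : Finset E → Finset E → ℝ) (W : Finset E) (w : E → ℝ) : ℝ :=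
  ∑ S ∈ W.powerset, p W S * ∏ e ∈ S, w e

/-- the part of the generating function of the configurations containing `g` -/
noncomputable def genIn (p : Finset E → Finset E → ℝ) (W : Finset E) (g : E) (w : E → ℝ) : ℝ :=
  ∑ S ∈ W.powerset with g ∈ S, p W S * ∏ e ∈ S, w e

/-- mean of the occupation of `g` under the law on `W` tilted by the weights `w` -/
noncomputable def pm (p : Finset E → Finset E → ℝ) (W : Finset E) (g : E) (w : E → ℝ) : ℝ :=
  genIn p W g w / gen p W w

/-- consistent masses with the two monotonicity properties used in the construction -/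
structure IsGood (p : Finset E → Finset E → ℝ) : Prop where
  nonneg : ∀ W R, R ⊆ W → 0 ≤ p W R
  total : ∀ W, ∑ R ∈ W.powerset, p W R = 1
  consistent : ∀ V W R, V ⊆ W → R ⊆ V → p V R = ∑ S ∈ W.powerset with S ∩ V = R, p W S
  anti : ∀ W, ∀ g ∈ W, ∀ h ∈ W, h ≠ g → ∀ w w' : E → ℝ, (∀ e, 0 < w e) →
    (∀ e, e ≠ h → w' e = w e) → w h ≤ w' h → pm p W g w' ≤ pm p W g w
  scale : ∀ W, ∀ g ∈ W, ∀ w : E → ℝ, (∀ e, 0 < w e) → ∀ c : ℝ, 1 ≤ c →
    pm p W g w ≤ pm p W g (fun e => c * w e)

end Masses

section Scheme

/-- labels: coordinate `(e, 0)` is the time of `e`, coordinate `(e, s+1)` the stage-`s` uniform. -/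
abbrev Lab (E : Type*) : Type _ := E × ℕ → unitInterval

/-- the label law: all coordinates independent uniform -/
noncomputable def lab (E : Type*) : Measure (Lab E) :=
  Measure.infinitePi (fun _ : E × ℕ => (volume : Measure unitInterval))

/-- likelihood ratio of the observation channel -/
noncomputable def rr (z : unitInterval) : ℝ := (z : ℝ) + 1 / 2

/-- clamp to `[0,1]` -/
noncomputable def cl (m : ℝ) : ℝ := max 0 (min 1 m)

/-- quantile function (of the law on `[0,1]` with density `1 + m (z - 1/2)`), before clamping:
the solution `z` of `z - (m/2) z (1-z) = u`. -/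
noncomputable def Q0 (m u : ℝ) : ℝ :=
  2 * u / ((1 - m / 2) + Real.sqrt ((1 - m / 2) ^ 2 + 2 * m * u))

/-- quantile function as a map `ℝ → [0,1] → [0,1]` -/
noncomputable def Q (m : ℝ) (u : unitInterval) : unitInterval :=
  Set.projIcc 0 1 zero_le_one (Q0 (cl m) u)

variable {E : Type*}

/-- weight of site `h` seen by site `g` at stage `s`: product of likelihood ratios of the stages
`< s` and, if `h` comes before `g`, of stage `s`. -/
noncomputable def wt (z : Lab E) (g : E) (s : ℕ) (h : E) : ℝ :=
  (∏ s' ∈ Finset.range s, rr (z (h, s' + 1))) *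
    (if z (h, 0) < z (g, 0) then rr (z (h, s + 1)) else 1)

variable [DecidableEq E]

/-- one Picard step of the window-`W` scheme with labels `L` -/
noncomputable def step (p : Finset E → Finset E → ℝ) (W : Finset E) (L z : Lab E) : Lab E :=
  fun i => match i with
  | (g, 0) => L (g, 0)
  | (g, s + 1) => Q (pm p W g (wt z g s)) (L (g, s + 1))

/-- the window-`W` scheme: the fixed point of `step` reached after enough iterations -/
noncomputable def Zs (p : Finset E → Finset E → ℝ) (W : Finset E) (L : Lab E) : Lab E :=
  fun i => (step p W L)^[i.2 * (W.card + 1)] L i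

/-- density of the observations of the stages `< M` in window `W` w.r.t. the label law -/
noncomputable def dens (p : Finset E → Finset E → ℝ) (W : Finset E) (M : ℕ) (z : Lab E) : ℝ :=
  gen p W (fun e => ∏ s ∈ Finset.range M, rr (z (e, s + 1)))

/-- decoding a configuration bit from the sequence of observations -/
noncomputable def dec (z : ℕ → unitInterval) : Bool :=
  haveI := Classical.propDecidable
    ((13 / 24 : ℝ) < limsup (fun n : ℕ => (∑ s ∈ Finset.range n, (z s : ℝ)) / n) atTop)
  decide ((13 / 24 : ℝ) < limsup (fun n : ℕ => (∑ s ∈ Finset.range n, (z s : ℝ)) / n) atTop)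

end Scheme

section Trees

open Crest.ProbabilityR.SpanningTrees

variable {V : Type*} [DecidableEq V]

/-- the finite set of spanning trees (edge sets) of the piece of `G` on `S` -/
noncomputable def STs (G : SimpleGraph V) (S : Finset V) : Finset (Finset (Sym2 V)) :=
  haveI := Classical.decPred (fun A : Finset (Sym2 V) => IsSpanningTreeOn G S A)
  (edgesIn G S).powerset.filter (fun A => IsSpanningTreeOn G S A)

/-- masses of the uniform spanning tree of the piece of `G` on `S` -/
noncomputable def ustMass (G : SimpleGraph V) (S : Finset V) (W R : Finset (Sym2 V)) : ℝ :=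
  (((STs G S).filter (fun A => A ∩ W = R)).card : ℝ) / ((STs G S).card : ℝ)

/-- free uniform spanning forest: probability that all edges of `F` are present -/
noncomputable def fus (G : SimpleGraph ℕ) (F : Finset (Sym2 ℕ)) : ℝ :=
  ⨅ S : {S : Finset ℕ // (G.induce (S : Set ℕ)).Connected ∧ F ⊆ edgesIn G S},
    ustContains G (S : Finset ℕ) F

/-- masses of the free uniform spanning forest (inclusion–exclusion) -/
noncomputable def fmass (G : SimpleGraph ℕ) (W R : Finset (Sym2 ℕ)) : ℝ :=
  ∑ F ∈ W.powerset with R ⊆ F, (-1 : ℝ) ^ (F.card - R.card) * fus G F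

end Trees

end Crest.Agent.SRF
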