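import Crest.Agent.SRF_Fix

set_option autoImplicit false
set_option linter.unusedSectionVars false
set_option linter.unusedVariables false

namespace Crest.Agent.SRF

open MeasureTheory Filter Topology

variable {E : Type*} [DecidableEq E]

/-- weights collected from a list of observed coordinates -/
noncomputable def wC (r : List (E × ℕ)) (z : Lab E) (h : E) : ℝ :=
  (r.map (fun c => if c.1 = h then rr (z c) else 1)).prod

/-- sequential sampling along a list of coordinates (most recent first) -/
noncomputable def Er (p : Finset E → Finset E → ℝ) (W : Finset E) : List (E × ℕ) → Lab E → Lab E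
  | [], z => z
  | i :: r, z => Function.update (Er p W r z) i (Q (pm p W i.1 (wC r (Er p W r z))) (Er p W r z i))

theorem wC_nil (z : Lab E) (h : E) : wC [] z h = 1 := rfl

theorem wC_cons (i : E × ℕ) (r : List (E × ℕ)) (z : Lab E) (h : E) :
    wC (i :: r) z h = (if i.1 = h then rr (z i) else 1) * wC r z h := by
  unfold wC; simp

theorem wC_pos (r : List (E × ℕ)) (z : Lab E) (h : E) : 0 < wC r z h := by
  induction r with
  | nil => simp [wC_nil]
  | cons i r ih =>
    rw [wC_cons]
    refine mul_pos ?_ ih
    split_ifs
    · exact rr_pos _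
    · exact one_pos

theorem wC_congr (r : List (E × ℕ)) (z z' : Lab E) (hz : ∀ c ∈ r, z c = z' c) (h : E) :
    wC r z h = wC r z' h := by
  unfold wC
  congr 1
  refine List.map_congr_left fun c hc => ?_
  rw [hz c hc]

theorem measurable_wC (r : List (E × ℕ)) (h : E) : Measurable (fun z : Lab E => wC r z h) := by
  induction r with
  | nil => simp [wC_nil]
  | cons i r ih =>
    simp_rw [wC_cons]
    refine Measurable.mul ?_ ih
    split_ifs
    · exact measurable_rr.comp (measurable_pi_apply _)
    · exact measurable_const

theorem wC_cons_eq_update (i : E × ℕ) (r : List (E × ℕ)) (z : Lab E) :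
    wC (i :: r) z = Function.update (wC r z) i.1 (rr (z i) * wC r z i.1) := by
  ext h
  rw [wC_cons]
  by_cases hh : h = i.1
  · subst hh; simp
  · rw [Function.update_of_ne hh, if_neg (fun h' => hh h'.symm), one_mul]

theorem measurable_gen_wC (p : Finset E → Finset E → ℝ) (W : Finset E) (r : List (E × ℕ)) :
    Measurable (fun z : Lab E => gen p W (wC r z)) := by
  unfold gen
  refine Finset.measurable_fun_sum _ fun S _ => measurable_const.mul ?_
  exact Finset.measurable_fun_prod _ fun e _ => measurable_wC r e

theorem measurable_pm_wC (p : Finset E → Finset E → ℝ) (W : Finset E) (g : E) (r : List (E × ℕ)) :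
    Measurable (fun z : Lab E => pm p W g (wC r z)) :=
  measurable_pm_param (fun _ => p) W (fun _ => measurable_const) g _ fun e => measurable_wC r e

theorem measurable_upd {Ω : Type*} [MeasurableSpace Ω] (i : E × ℕ) (f : Ω → Lab E) (u : Ω → unitInterval)
    (hf : Measurable f) (hu : Measurable u) : Measurable (fun ω => Function.update (f ω) i (u ω)) :=
  (measurable_update_lab i).comp (hf.prodMk hu)

theorem measurable_Estep (p : Finset E → Finset E → ℝ) (W : Finset E) (i : E × ℕ) (r : List (E × ℕ)) :
    Measurable (fun z : Lab E => Function.update z i (Q (pm p W i.1 (wC r z)) (z i))) :=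
  measurable_upd i _ _ measurable_id
    (measurable_Q.comp ((measurable_pm_wC p W i.1 r).prodMk (measurable_pi_apply i)))

theorem measurable_Er (p : Finset E → Finset E → ℝ) (W : Finset E) (r : List (E × ℕ)) :
    Measurable (Er p W r) := by
  induction r with
  | nil => exact measurable_id
  | cons i r ih => exact (measurable_Estep p W i r).comp ih

/-- exactness along any duplicate-free list of coordinates -/
theorem exact_list {p : Finset E → Finset E → ℝ} (hp : IsGood p) (W : Finset E)
    (r : List (E × ℕ)) (hr : r.Nodup) (h : Lab E → ENNReal) (hh : Measurable h) :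
    ∫⁻ z, h (Er p W r z) ∂lab E = ∫⁻ z, h z * ENNReal.ofReal (gen p W (wC r z)) ∂lab E := by
  induction r generalizing h with
  | nil =>
    have : ∀ z : Lab E, gen p W (wC [] z) = 1 := by
      intro z
      unfold gen
      simp only [wC_nil, Finset.prod_const_one, mul_one]
      exact hp.total W
    simp [Er, this]
  | cons i r ih =>
    have hir : i ∉ r := (List.nodup_cons.1 hr).1
    have hr' : r.Nodup := (List.nodup_cons.1 hr).2
    set h' : Lab E → ENNReal := fun z => h (Function.update z i (Q (pm p W i.1 (wC r z)) (z i))) with hh'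
    have hmh' : Measurable h' := hh.comp (measurable_Estep p W i r)
    have e1 : ∫⁻ z, h (Er p W (i :: r) z) ∂lab E = ∫⁻ z, h' (Er p W r z) ∂lab E := rfl
    rw [e1, ih hr' h' hmh']
    have hmG : Measurable (fun z : Lab E => h' z * ENNReal.ofReal (gen p W (wC r z))) :=
      hmh'.mul (measurable_gen_wC p W r).ennreal_ofReal
    have hmH : Measurable (fun z : Lab E => h z * ENNReal.ofReal (gen p W (wC (i :: r) z))) :=
      hh.mul (measurable_gen_wC p W (i :: r)).ennreal_ofReal
    rw [lintegral_resample i _ hmG, lintegral_resample i _ hmH]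
    refine lintegral_congr fun z => ?_
    have hwc : ∀ u : unitInterval, wC r (Function.update z i u) = wC r z := by
      intro u; ext x
      refine wC_congr r _ _ (fun c hc => ?_) x
      exact Function.update_of_ne (fun hci : c = i => hir (hci ▸ hc)) _ _
    have hm0 := pm_nonneg hp W i.1 (wC r z) (wC_pos r z)
    have hm1 := pm_le_one hp W i.1 (wC r z) (wC_pos r z)
    have hg0 := gen_pos hp W (wC r z) (wC_pos r z)
    have e2 : ∀ u : unitInterval, h' (Function.update z i u) *
        ENNReal.ofReal (gen p W (wC r (Function.update z i u))) =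
        ENNReal.ofReal (gen p W (wC r z)) *
          (fun v => h (Function.update z i v)) (Q (pm p W i.1 (wC r z)) u) := by
      intro u
      simp only [hh', hwc, Function.update_idem, Function.update_self]
      rw [mul_comm]
    have e3 : ∀ u : unitInterval, h (Function.update z i u) *
        ENNReal.ofReal (gen p W (wC (i :: r) (Function.update z i u))) =
        ENNReal.ofReal (gen p W (wC r z)) *
          ((fun v => h (Function.update z i v)) u *
            ENNReal.ofReal (1 + pm p W i.1 (wC r z) * (rr u - 1))) := by
      intro u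
      rw [wC_cons_eq_update, hwc, Function.update_self, gen_update]
      have e4 : gen p W (wC r z) + (rr u - 1) * genIn p W i.1 (wC r z) =
          gen p W (wC r z) * (1 + pm p W i.1 (wC r z) * (rr u - 1)) := by
        unfold pm
        field_simp
      rw [e4, ENNReal.ofReal_mul hg0.le]
      ring
    simp_rw [e2, e3]
    have hmv : Measurable (fun v : unitInterval => h (Function.update z i v)) :=
      hh.comp (measurable_upd i _ _ measurable_const measurable_id)
    rw [lintegral_const_mul, lintegral_const_mul, lintegral_Q _ hm0 hm1 _ hmv]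
    · refine hmv.mul (Measurable.ennreal_ofReal ?_)
      exact (((measurable_rr.sub_const 1).const_mul _).const_add 1)
    · exact hmv.comp (measurable_Q.comp (measurable_const.prodMk measurable_id))


theorem wC_append (a b : List (E × ℕ)) (z : Lab E) (h : E) :
    wC (a ++ b) z h = wC a z h * wC b z h := by
  unfold wC; simp

theorem wC_map_stage (b : List E) (hb : b.Nodup) (k : ℕ) (z : Lab E) (h : E) :
    wC (b.map (fun g => (g, k))) z h = if h ∈ b then rr (z (h, k)) else 1 := by
  induction b with
  | nil => simp [wC_nil]
  | cons a b ih =>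
    have hab : a ∉ b := (List.nodup_cons.1 hb).1
    rw [List.map_cons, wC_cons, ih (List.nodup_cons.1 hb).2]
    by_cases hah : a = h
    · subst hah; simp [hab]
    · have : h ≠ a := fun h' => hah h'.symm
      simp [hah, this]

/-- stage-major list of coordinates, most recent first -/
def fullL (rl : List E) : ℕ → List (E × ℕ)
  | 0 => []
  | M + 1 => rl.map (fun g => (g, M + 1)) ++ fullL rl M

theorem mem_fullL (rl : List E) (M : ℕ) (c : E × ℕ) :
    c ∈ fullL rl M ↔ c.1 ∈ rl ∧ 1 ≤ c.2 ∧ c.2 ≤ M := by
  induction M with
  | zero => simp [fullL]; omega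
  | succ M ih =>
    simp only [fullL, List.mem_append, List.mem_map, ih]
    constructor
    · rintro (⟨g, hg, rfl⟩ | ⟨h1, h2, h3⟩)
      · exact ⟨hg, by simp, le_rfl⟩
      · exact ⟨h1, h2, by omega⟩
    · rintro ⟨h1, h2, h3⟩
      by_cases h : c.2 = M + 1
      · left; exact ⟨c.1, h1, by rw [← h]⟩
      · right; exact ⟨h1, h2, by omega⟩

theorem nodup_fullL (rl : List E) (hrl : rl.Nodup) (M : ℕ) : (fullL rl M).Nodup := by
  induction M with
  | zero => simp [fullL]
  | succ M ih =>
    unfold fullL
    refine List.Nodup.append (hrl.map fun a b h => (Prod.mk.inj h).1) ih ?_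
    intro c hc hc'
    rw [mem_fullL] at hc'
    obtain ⟨g, _, rfl⟩ := List.mem_map.1 hc
    have := hc'.2.2
    simp at this

theorem wC_fullL (rl : List E) (hrl : rl.Nodup) (M : ℕ) (z : Lab E) (h : E) (hh : h ∈ rl) :
    wC (fullL rl M) z h = ∏ s ∈ Finset.range M, rr (z (h, s + 1)) := by
  induction M with
  | zero => simp [fullL, wC_nil]
  | succ M ih =>
    rw [fullL, wC_append, wC_map_stage rl hrl, if_pos hh, ih, Finset.prod_range_succ, mul_comm]

theorem Er_of_notMem (p : Finset E → Finset E → ℝ) (W : Finset E) (r : List (E × ℕ)) (z : Lab E)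
    (c : E × ℕ) (hc : c ∉ r) : Er p W r z c = z c := by
  induction r with
  | nil => rfl
  | cons i r ih =>
    rw [List.mem_cons, not_or] at hc
    rw [Er, Function.update_of_ne hc.1, ih hc.2]

theorem Er_eq_Zs (p : Finset E → Finset E → ℝ) (W : Finset E) (rl : List E) (hnd : rl.Nodup)
    (hmem : ∀ x, x ∈ rl ↔ x ∈ W) (L : Lab E) (hs : rl.Pairwise (fun a b => L (b, 0) < L (a, 0)))
    (M : ℕ) : ∀ c ∈ fullL rl M, Er p W (fullL rl M) L c = Zs p W L c := by
  induction M with
  | zero => intro c hc; simp [fullL] at hc
  | succ M ih =>
    have key : ∀ b a : List E, rl = a ++ b → ∀ c ∈ b.map (fun g => (g, M + 1)) ++ fullL rl M,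
        Er p W (b.map (fun g => (g, M + 1)) ++ fullL rl M) L c = Zs p W L c := by
      intro b
      induction b with
      | nil => intro a _ c hc; simpa using ih c (by simpa using hc)
      | cons g b ihb =>
        intro a ha c hc
        have ha' : rl = (a ++ [g]) ++ b := by rw [ha]; simp
        set r := b.map (fun g => (g, M + 1)) ++ fullL rl M with hr
        have hndab : (a ++ g :: b).Nodup := ha ▸ hnd
        have hgb : g ∉ b := (List.nodup_cons.1 (List.nodup_append.1 hndab).2.1).1
        have hbnd : b.Nodup := (List.nodup_cons.1 (List.nodup_append.1 hndab).2.1).2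
        have hgW : g ∈ W := (hmem g).1 (by rw [ha]; simp)
        have hir : (g, M + 1) ∉ r := by
          rw [hr, List.mem_append, not_or]
          constructor
          · simp [hgb]
          · rw [mem_fullL]; simp
        have hcons : (g :: b).map (fun g => (g, M + 1)) ++ fullL rl M = (g, M + 1) :: r := by
          simp [hr]
        rw [hcons] at hc ⊢
        rw [Er]
        by_cases hci : c = (g, M + 1)
        · subst hci
          rw [Function.update_self, Er_of_notMem p W r L _ hir, Zs_succ]
          congr 1
          refine pm_congr p W g _ _ fun h hh => ?_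
          have hhrl : h ∈ rl := (hmem h).2 hh
          have hE : ∀ c ∈ r, Er p W r L c = Zs p W L c := ihb (a ++ [g]) ha'
          rw [wC_congr r _ _ hE, hr, wC_append, wC_map_stage b hbnd, wC_fullL rl hnd M _ h hhrl]
          unfold wt
          rw [mul_comm]
          congr 1
          rw [Zs_zero, Zs_zero]
          have hiff : h ∈ b ↔ L (h, 0) < L (g, 0) := by
            have hpw : (a ++ g :: b).Pairwise (fun a b => L (b, 0) < L (a, 0)) := ha ▸ hs
            rw [List.pairwise_append] at hpw
            obtain ⟨_, hpw2, hpw3⟩ := hpw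
            rw [List.pairwise_cons] at hpw2
            constructor
            · intro hb; exact hpw2.1 h hb
            · intro hlt
              rw [ha, List.mem_append, List.mem_cons] at hhrl
              rcases hhrl with h1 | rfl | h1
              · have := hpw3 h h1 g (by simp)
                exact absurd (hlt.trans this) (lt_irrefl _)
              · exact absurd hlt (lt_irrefl _)
              · exact h1
          by_cases hb : h ∈ b
          · rw [if_pos hb, if_pos (hiff.1 hb)]
          · rw [if_neg hb, if_neg (fun h' => hb (hiff.2 h'))]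
        · rw [Function.update_of_ne hci]
          refine ihb (a ++ [g]) ha' c ?_
          rcases List.mem_cons.1 hc with h | h
          · exact absurd h hci
          · exact h
    exact key rl [] (by simp)

theorem Zs_of_notMem (p : Finset E → Finset E → ℝ) (W : Finset E) (L : Lab E) (g : E) (hg : g ∉ W)
    (s : ℕ) : Zs p W L (g, s) = L (g, s) := by
  cases s with
  | zero => exact Zs_zero p W L g
  | succ s =>
    rw [Zs_succ]
    have : pm p W g (wt (Zs p W L) g s) = 0 := by
      unfold pm genIn
      rw [Finset.sum_eq_zero, zero_div]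
      intro S hS
      rw [Finset.mem_filter, Finset.mem_powerset] at hS
      exact absurd (hS.1 hS.2) hg
    rw [this, Q_zero]

/-- the set of labels sorted (decreasingly in time) along `rl` -/
def sortedSet (rl : List E) : Set (Lab E) := {L | rl.Pairwise (fun a b => L (b, 0) < L (a, 0))}

theorem measurableSet_sortedSet (rl : List E) : MeasurableSet (sortedSet rl) := by
  unfold sortedSet
  induction rl with
  | nil => simp
  | cons a rl ih =>
    have : {L : Lab E | (a :: rl).Pairwise (fun a b => L (b, 0) < L (a, 0))} =
        (⋂ b ∈ rl.toFinset, {L : Lab E | L (b, 0) < L (a, 0)}) ∩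
          {L : Lab E | rl.Pairwise (fun a b => L (b, 0) < L (a, 0))} := by
      ext L
      simp [List.pairwise_cons]
    rw [this]
    refine MeasurableSet.inter ?_ ih
    refine Finset.measurableSet_biInter _ fun b _ => ?_
    exact measurableSet_lt (measurable_pi_apply _) (measurable_pi_apply _)

/-- times are a.s. distinct -/
theorem ae_times_ne (a b : E) (hab : a ≠ b) : ∀ᵐ L ∂lab E, L (a, 0) ≠ L (b, 0) := by
  have hne : ((a, 0) : E × ℕ) ≠ (b, 0) := fun h => hab (Prod.mk.inj h).1
  have hmap := MeasureTheory.Measure.infinitePi_map_eval_prod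
    (P := fun _ : E × ℕ => (volume : Measure unitInterval)) hne
  have hmeas : Measurable (fun L : Lab E => (L (a, 0), L (b, 0))) :=
    (measurable_pi_apply _).prodMk (measurable_pi_apply _)
  have h2 : ∀ᵐ q ∂((volume : Measure unitInterval).prod (volume : Measure unitInterval)), q.1 ≠ q.2 := by
    rw [Measure.ae_prod_iff_ae_ae]
    · refine Filter.Eventually.of_forall fun x => ?_
      rw [ae_iff]
      have : {y : unitInterval | ¬ x ≠ y} = {x} := by ext y; simp [eq_comm]
      simp only [this]
      exact measure_singleton x
    · exact (measurableSet_eq_fun measurable_fst measurable_snd).compl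
  rw [← hmap] at h2
  exact ae_of_ae_map hmeas.aemeasurable h2

/-- the orderings of the window -/
noncomputable def orders (W : Finset E) : Finset (List E) := W.toList.permutations.toFinset

theorem mem_orders (W : Finset E) (rl : List E) : rl ∈ orders W ↔ rl.Perm W.toList := by
  unfold orders; rw [List.mem_toFinset, List.mem_permutations]

/-- a.s. exactly one ordering is sorted -/
theorem sum_indicator_orders (W : Finset E) (L : Lab E)
    (hinj : ∀ a ∈ W, ∀ b ∈ W, a ≠ b → L (a, 0) ≠ L (b, 0)) :
    ∑ rl ∈ orders W, (sortedSet rl).indicator (fun _ => (1 : ENNReal)) L = 1 := by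
  classical
  set le : E → E → Prop := fun a b => L (b, 0) ≤ L (a, 0) with hle
  have : IsTrans E le := ⟨fun a b c h1 h2 => le_trans h2 h1⟩
  have : Std.Total le := ⟨fun a b => le_total _ _⟩
  set l0 := W.toList.insertionSort le with hl0
  have hperm : l0.Perm W.toList := List.perm_insertionSort le W.toList
  have hnd0 : l0.Nodup := hperm.nodup_iff.2 W.nodup_toList
  have hpw : l0.Pairwise le := List.pairwise_insertionSort le W.toList
  have hmem0 : ∀ x ∈ l0, x ∈ W := fun x hx => Finset.mem_toList.1 (hperm.subset hx)
  have hs0 : l0 ∈ orders W := (mem_orders W l0).2 hperm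
  have hsorted : L ∈ sortedSet l0 := by
    have h1 : l0.Pairwise (fun a b => le a b ∧ a ≠ b) := hpw.and hnd0
    refine (List.Pairwise.imp_of_mem ?_ h1)
    intro a b ha hb hab
    exact lt_of_le_of_ne hab.1 (fun h => hinj b (hmem0 b hb) a (hmem0 a ha) hab.2.symm h)
  have huniq : ∀ rl ∈ orders W, L ∈ sortedSet rl → rl = l0 := by
    intro rl hrl hL
    have hp : rl.Perm l0 := ((mem_orders W rl).1 hrl).trans hperm.symm
    refine List.Perm.eq_of_pairwise (le := fun a b => L (b, 0) < L (a, 0)) ?_ hL hsorted hp
    intro a b _ _ h1 h2
    exact absurd (h1.trans h2) (lt_irrefl _)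
  rw [Finset.sum_eq_single l0]
  · rw [Set.indicator_of_mem hsorted]
  · intro rl hrl hne
    rw [Set.indicator_of_notMem]
    exact fun hL => hne (huniq rl hrl hL)
  · intro h; exact absurd hs0 h

theorem measurable_dens (p : Finset E → Finset E → ℝ) (W : Finset E) (M : ℕ) :
    Measurable (dens p W M) := by
  unfold dens gen
  refine Finset.measurable_fun_sum _ fun S _ => measurable_const.mul ?_
  refine Finset.measurable_fun_prod _ fun e _ => ?_
  exact Finset.measurable_fun_prod _ fun s _ => measurable_rr.comp (measurable_pi_apply _)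

/-- exactness of the law of the finite-window scheme -/
theorem exact {p : Finset E → Finset E → ℝ} (hp : IsGood p)
    (W : Finset E) (M : ℕ) (h : Lab E → ENNReal) (hh : Measurable h)
    (hdep : ∀ z z' : Lab E, (∀ e s, s ≤ M → z (e, s) = z' (e, s)) → h z = h z') :
    ∫⁻ L, h (Zs p W L) ∂lab E = ∫⁻ z, h z * ENNReal.ofReal (dens p W M z) ∂lab E := by
  have hae : ∀ᵐ L ∂lab E, ∀ a ∈ W, ∀ b ∈ W, a ≠ b → L (a, 0) ≠ L (b, 0) := by
    rw [Finset.eventually_all]
    intro a _
    rw [Finset.eventually_all]
    intro b _
    by_cases hab : a = b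
    · simp [hab]
    · filter_upwards [ae_times_ne a b hab] with L hL _ using hL
  have hpart : ∀ᵐ L ∂lab E,
      ∑ rl ∈ orders W, (sortedSet rl).indicator (fun _ => (1 : ENNReal)) L = 1 :=
    hae.mono fun L hL => sum_indicator_orders W L hL
  have hind : ∀ rl : List E, Measurable ((sortedSet rl).indicator (fun _ : Lab E => (1 : ENNReal))) :=
    fun rl => measurable_const.indicator (measurableSet_sortedSet rl)
  -- left side
  have lhs : ∫⁻ L, h (Zs p W L) ∂lab E =
      ∑ rl ∈ orders W, ∫⁻ L, (sortedSet rl).indicator (fun _ => (1 : ENNReal)) L * h (Zs p W L) ∂lab E := by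
    rw [← lintegral_finsetSum]
    · refine lintegral_congr_ae (hpart.mono fun L hL => ?_)
      simp only
      rw [← Finset.sum_mul, hL, one_mul]
    · intro rl _
      exact (hind rl).mul (hh.comp (measurable_Zs p W))
  have rhs : ∫⁻ z, h z * ENNReal.ofReal (dens p W M z) ∂lab E =
      ∑ rl ∈ orders W, ∫⁻ z, (sortedSet rl).indicator (fun _ => (1 : ENNReal)) z *
        (h z * ENNReal.ofReal (dens p W M z)) ∂lab E := by
    rw [← lintegral_finsetSum]
    · refine lintegral_congr_ae (hpart.mono fun L hL => ?_)
      simp only
      rw [← Finset.sum_mul, hL, one_mul]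
    · intro rl _
      exact (hind rl).mul (hh.mul (measurable_dens p W M).ennreal_ofReal)
  rw [lhs, rhs]
  refine Finset.sum_congr rfl fun rl hrl => ?_
  have hperm := (mem_orders W rl).1 hrl
  have hnd : rl.Nodup := hperm.nodup_iff.2 W.nodup_toList
  have hmem : ∀ x, x ∈ rl ↔ x ∈ W := fun x => by rw [hperm.mem_iff, Finset.mem_toList]
  have htime : ∀ (z : Lab E) (e : E), Er p W (fullL rl M) z (e, 0) = z (e, 0) := by
    intro z e
    refine Er_of_notMem p W _ z _ ?_
    rw [mem_fullL]; simp
  have h1 : ∀ L : Lab E, (sortedSet rl).indicator (fun _ => (1 : ENNReal)) L * h (Zs p W L) =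
      (fun z => (sortedSet rl).indicator (fun _ => (1 : ENNReal)) z * h z) (Er p W (fullL rl M) L) := by
    intro L
    have hiff : Er p W (fullL rl M) L ∈ sortedSet rl ↔ L ∈ sortedSet rl := by
      unfold sortedSet
      simp only [Set.mem_ofPred_eq, htime]
    by_cases hL : L ∈ sortedSet rl
    · simp only [Set.indicator_of_mem hL, Set.indicator_of_mem (hiff.2 hL), one_mul]
      refine hdep _ _ fun e s hs => ?_
      by_cases he : e ∈ W
      · cases s with
        | zero => rw [htime, Zs_zero]
        | succ s =>
          exact (Er_eq_Zs p W rl hnd hmem L hL M (e, s + 1)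
            ((mem_fullL rl M _).2 ⟨(hmem e).2 he, by simp, hs⟩)).symm
      · rw [Zs_of_notMem p W L e he, Er_of_notMem]
        rw [mem_fullL]
        exact fun h' => he ((hmem e).1 h'.1)
    · simp only [Set.indicator_of_notMem hL, Set.indicator_of_notMem (fun h' => hL (hiff.1 h')),
        zero_mul]
  simp_rw [h1]
  rw [exact_list hp W (fullL rl M) (nodup_fullL rl hnd M)
    (fun z => (sortedSet rl).indicator (fun _ => (1 : ENNReal)) z * h z) ((hind rl).mul hh)]
  refine lintegral_congr fun z => ?_
  rw [mul_assoc]
  congr 3
  unfold dens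
  refine gen_congr p W _ _ fun e he => ?_
  rw [wC_fullL rl hnd M z e ((hmem e).2 he)]

end Crest.Agent.SRF
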