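import Crest.Agent.SRF_UST
import Crest.Prelude.Def_GraphTables

/-!
Masses of the free uniform spanning forest.
-/

set_option autoImplicit false

namespace Crest.Agent.SRF

open MeasureTheory Filter Topology Crest.ProbabilityR Crest.ProbabilityR.SpanningTrees

/-! ### exhaustions -/

theorem exists_exhaustion (G : SimpleGraph ℕ) (hG : G.Connected) :
    ∃ S : ℕ → Finset ℕ, Monotone S ∧ (∀ v : ℕ, ∃ n, v ∈ S n) ∧
      ∀ n, (G.induce (S n : Set ℕ)).Connected := by
  classical
  have hext : ∀ t : Finset ℕ, t.Nonempty → ∃ t' : Finset ℕ, t ⊆ t' ∧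
      (G.induce (t' : Set ℕ)).Connected := fun t ht =>
    SimpleGraph.extend_finset_to_connected hG.preconnected ht
  choose! ext h1 h2 using hext
  let S : ℕ → Finset ℕ := fun n => Nat.rec (ext {0}) (fun n s => ext (insert (n + 1) s)) n
  have hS0 : S 0 = ext {0} := rfl
  have hSs : ∀ n, S (n + 1) = ext (insert (n + 1) (S n)) := fun n => rfl
  refine ⟨S, ?_, ?_, ?_⟩
  · apply monotone_nat_of_le_succ
    intro n
    rw [hSs]
    exact (Finset.subset_insert _ _).trans (h1 _ (Finset.insert_nonempty _ _))
  · intro v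
    refine ⟨v, ?_⟩
    cases v with
    | zero => rw [hS0]; exact h1 _ (Finset.singleton_nonempty 0) (Finset.mem_singleton_self 0)
    | succ n =>
      rw [hSs]
      exact h1 _ (Finset.insert_nonempty _ _) (Finset.mem_insert_self _ _)
  · intro n
    cases n with
    | zero => exact h2 _ (Finset.singleton_nonempty 0)
    | succ n => exact h2 _ (Finset.insert_nonempty _ _)

/-! ### elementary facts on `ustContains` -/

section Basic

variable {V : Type*}

theorem ustContains_nonneg (G : SimpleGraph V) (S : Finset V) (F : Finset (Sym2 V)) :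
    0 ≤ ustContains G S F := by
  unfold ustContains
  positivity

theorem ustContains_le_one (G : SimpleGraph V) (S : Finset V) (F : Finset (Sym2 V)) :
    ustContains G S F ≤ 1 := by
  classical
  unfold ustContains
  apply div_le_one_of_le₀
  · exact_mod_cast Finset.card_le_card (fun A hA => by
      rw [Finset.mem_filter] at hA ⊢
      exact ⟨hA.1, hA.2.1⟩)
  · positivity

theorem ustContains_of_not_subset (G : SimpleGraph V) (S : Finset V) (F : Finset (Sym2 V))
    (hF : ¬ F ⊆ edgesIn G S) : ustContains G S F = 0 := by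
  classical
  unfold ustContains
  rw [Finset.filter_eq_empty_iff.2, Finset.card_empty, Nat.cast_zero, zero_div]
  intro A hA hA2
  exact hF (hA2.2.trans (Finset.mem_powerset.1 hA))

theorem mem_edgesIn' {G : SimpleGraph V} {S : Finset V} {e : Sym2 V} :
    e ∈ edgesIn G S ↔ e ∈ S.sym2 ∧ e ∈ G.edgeSet := by
  simp [edgesIn]

theorem edgesIn_mono (G : SimpleGraph V) {S S' : Finset V} (h : S ⊆ S') :
    edgesIn G S ⊆ edgesIn G S' := by
  intro e he
  rw [mem_edgesIn'] at he ⊢
  exact ⟨Finset.sym2_mono h he.1, he.2⟩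

end Basic

theorem eventually_subset {S : ℕ → Finset ℕ} (hmono : Monotone S) (hex : ∀ v : ℕ, ∃ n, v ∈ S n)
    (T : Finset ℕ) : ∀ᶠ n in atTop, T ⊆ S n := by
  have : ∀ v ∈ T, ∀ᶠ n in atTop, v ∈ S n := by
    intro v _
    obtain ⟨n, hn⟩ := hex v
    filter_upwards [eventually_ge_atTop n] with m hm
    exact hmono hm hn
  have h2 := (Filter.eventually_all_finset T).2 this
  filter_upwards [h2] with n hn v hv
  exact hn v hv

theorem eventually_edges {G : SimpleGraph ℕ} {S : ℕ → Finset ℕ} (hmono : Monotone S)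
    (hex : ∀ v : ℕ, ∃ n, v ∈ S n) (F : Finset (Sym2 ℕ)) (hF : (F : Set (Sym2 ℕ)) ⊆ G.edgeSet) :
    ∀ᶠ n in atTop, F ⊆ edgesIn G (S n) := by
  have : ∀ e ∈ F, ∀ᶠ n in atTop, e ∈ edgesIn G (S n) := by
    intro e he
    have heG := hF (Finset.mem_coe.2 he)
    induction e using Sym2.ind with
    | _ u v =>
      filter_upwards [eventually_subset hmono hex {u, v}] with n hn
      rw [mem_edgesIn', Finset.mk_mem_sym2_iff]
      exact ⟨⟨hn (by simp), hn (by simp)⟩, heG⟩
  have h2 := (Filter.eventually_all_finset F).2 this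
  filter_upwards [h2] with n hn v hv
  exact hn v hv

theorem bddBelow_ust (G : SimpleGraph ℕ) (F : Finset (Sym2 ℕ)) :
    BddBelow (Set.range fun S : {S : Finset ℕ //
      (G.induce (S : Set ℕ)).Connected ∧ F ⊆ edgesIn G S} => ustContains G (S : Finset ℕ) F) :=
  ⟨0, by rintro _ ⟨S, rfl⟩; exact ustContains_nonneg _ _ _⟩

theorem fus_of_not_subset (G : SimpleGraph ℕ) (F : Finset (Sym2 ℕ))
    (hF : ¬ (F : Set (Sym2 ℕ)) ⊆ G.edgeSet) : fus G F = 0 := by
  have : IsEmpty {S : Finset ℕ // (G.induce (S : Set ℕ)).Connected ∧ F ⊆ edgesIn G S} := by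
    refine ⟨fun S => hF fun e he => ?_⟩
    exact (mem_edgesIn'.1 (S.2.2 (Finset.mem_coe.1 he))).2
  rw [fus, Real.iInf_of_isEmpty]

theorem fus_tendsto (G : SimpleGraph ℕ) (_hG : G.Connected) (S : ℕ → Finset ℕ) (hmono : Monotone S)
    (hex : ∀ v : ℕ, ∃ n, v ∈ S n) (hconn : ∀ n, (G.induce (S n : Set ℕ)).Connected)
    (F : Finset (Sym2 ℕ)) :
    Tendsto (fun n => ustContains G (S n) F) atTop (𝓝 (fus G F)) := by
  by_cases hF : (F : Set (Sym2 ℕ)) ⊆ G.edgeSet
  · obtain ⟨n0, hn0⟩ := (eventually_edges hmono hex F hF).exists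
    have hne : Nonempty {S : Finset ℕ // (G.induce (S : Set ℕ)).Connected ∧ F ⊆ edgesIn G S} :=
      ⟨⟨S n0, hconn n0, hn0⟩⟩
    have hlow : ∀ n, n0 ≤ n → fus G F ≤ ustContains G (S n) F := by
      intro n hn
      exact ciInf_le (bddBelow_ust G F) ⟨S n, hconn n, hn0.trans (edgesIn_mono G (hmono hn))⟩
    rw [Metric.tendsto_atTop]
    intro ε hε
    obtain ⟨⟨T, hT1, hT2⟩, hT3⟩ := exists_lt_of_ciInf_lt
      (show (⨅ S : {S : Finset ℕ // (G.induce (S : Set ℕ)).Connected ∧ F ⊆ edgesIn G S},
        ustContains G (S : Finset ℕ) F) < fus G F + ε from by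
          change fus G F < _; linarith)
    obtain ⟨n1, hn1⟩ := (eventually_subset hmono hex T).exists
    refine ⟨max n0 n1, fun n hn => ?_⟩
    have h1 := hlow n ((le_max_left _ _).trans hn)
    have h2 : ustContains G (S n) F ≤ ustContains G T F :=
      ustContains_anti G T (S n) (hn1.trans (hmono ((le_max_right _ _).trans hn))) hT1 (hconn n)
        F hT2
    rw [Real.dist_eq, abs_lt]
    constructor
    · linarith
    · simp only at hT3
      linarith
  · rw [fus_of_not_subset G F hF]
    have : ∀ n, ustContains G (S n) F = 0 := by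
      intro n
      apply ustContains_of_not_subset
      intro h
      exact hF fun e he => (mem_edgesIn'.1 (h (Finset.mem_coe.1 he))).2
    simp [this]

theorem fmass_self (G : SimpleGraph ℕ) (F : Finset (Sym2 ℕ)) : fmass G F F = fus G F := by
  classical
  unfold fmass
  rw [Finset.sum_eq_single F]
  · simp
  · intro F' hF' hne
    rw [Finset.mem_filter, Finset.mem_powerset] at hF'
    exact absurd (Finset.Subset.antisymm hF'.1 hF'.2) hne
  · intro h
    exact absurd (Finset.mem_filter.2 ⟨Finset.mem_powerset.2 subset_rfl, subset_rfl⟩) h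

/-! ### limits of good masses -/

section Limits

variable {E : Type*} [DecidableEq E]

omit [DecidableEq E] in
theorem gen_pos' {p : Finset E → Finset E → ℝ} (hn : ∀ W R, R ⊆ W → 0 ≤ p W R)
    (ht : ∀ W, ∑ R ∈ W.powerset, p W R = 1) (W : Finset E) (w : E → ℝ) (hw : ∀ e, 0 < w e) :
    0 < gen p W w := by
  unfold gen
  have h0 : ∀ S ∈ W.powerset, 0 ≤ p W S * ∏ e ∈ S, w e := fun S hS =>
    mul_nonneg (hn W S (Finset.mem_powerset.1 hS)) (Finset.prod_nonneg fun e _ => (hw e).le)
  refine lt_of_le_of_ne (Finset.sum_nonneg h0) ?_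
  intro h
  have h1 := (Finset.sum_eq_zero_iff_of_nonneg h0).1 h.symm
  have h2 : ∑ R ∈ W.powerset, p W R = 0 := by
    apply Finset.sum_eq_zero
    intro S hS
    have := h1 S hS
    rcases mul_eq_zero.1 this with h | h
    · exact h
    · exact absurd h (Finset.prod_pos fun e _ => hw e).ne'
  rw [ht] at h2
  exact one_ne_zero h2

theorem isGood_of_tendsto {q : ℕ → Finset E → Finset E → ℝ} {p : Finset E → Finset E → ℝ}
    (hq : ∀ n, IsGood (q n))
    (hlim : ∀ W R, R ⊆ W → Tendsto (fun n => q n W R) atTop (𝓝 (p W R))) : IsGood p := by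
  have hgen : ∀ W w, Tendsto (fun n => gen (q n) W w) atTop (𝓝 (gen p W w)) := by
    intro W w
    unfold gen
    refine tendsto_finsetSum _ fun S hS => ?_
    exact (hlim W S (Finset.mem_powerset.1 hS)).mul_const _
  have hgenIn : ∀ W g w, Tendsto (fun n => genIn (q n) W g w) atTop (𝓝 (genIn p W g w)) := by
    intro W g w
    unfold genIn
    refine tendsto_finsetSum _ fun S hS => ?_
    exact (hlim W S (Finset.mem_powerset.1 (Finset.mem_filter.1 hS).1)).mul_const _
  have hnn : ∀ W R, R ⊆ W → 0 ≤ p W R := fun W R hR =>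
    ge_of_tendsto' (hlim W R hR) fun n => (hq n).nonneg W R hR
  have htot : ∀ W, ∑ R ∈ W.powerset, p W R = 1 := by
    intro W
    have h1 : Tendsto (fun n => ∑ R ∈ W.powerset, q n W R) atTop
        (𝓝 (∑ R ∈ W.powerset, p W R)) :=
      tendsto_finsetSum _ fun S hS => hlim W S (Finset.mem_powerset.1 hS)
    have h2 : (fun n => ∑ R ∈ W.powerset, q n W R) = fun _ => 1 := by
      funext n; exact (hq n).total W
    rw [h2] at h1
    exact (tendsto_nhds_unique h1 tendsto_const_nhds)
  have hpm : ∀ W g w, (∀ e, 0 < w e) →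
      Tendsto (fun n => pm (q n) W g w) atTop (𝓝 (pm p W g w)) := by
    intro W g w hw
    unfold pm
    exact (hgenIn W g w).div (hgen W w) (gen_pos' hnn htot W w hw).ne'
  refine ⟨hnn, htot, ?_, ?_, ?_⟩
  · intro V W R hVW hR
    have h1 := hlim V R hR
    have h2 : Tendsto (fun n => ∑ S ∈ W.powerset with S ∩ V = R, q n W S) atTop
        (𝓝 (∑ S ∈ W.powerset with S ∩ V = R, p W S)) :=
      tendsto_finsetSum _ fun S hS =>
        hlim W S (Finset.mem_powerset.1 (Finset.mem_filter.1 hS).1)
    have h3 : (fun n => q n V R) = fun n => ∑ S ∈ W.powerset with S ∩ V = R, q n W S := by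
      funext n; exact (hq n).consistent V W R hVW hR
    rw [h3] at h1
    exact tendsto_nhds_unique h1 h2
  · intro W g hg h hh hne w w' hw hw' hle
    have hwpos : ∀ e, 0 < w' e := by
      intro e
      by_cases he : e = h
      · subst he; exact lt_of_lt_of_le (hw e) hle
      · rw [hw' e he]; exact hw e
    exact le_of_tendsto_of_tendsto' (hpm W g w' hwpos) (hpm W g w hw)
      fun n => (hq n).anti W g hg h hh hne w w' hw hw' hle
  · intro W g hg w hw c hc
    exact le_of_tendsto_of_tendsto' (hpm W g w hw)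
      (hpm W g _ fun e => mul_pos (by linarith) (hw e))
      fun n => (hq n).scale W g hg w hw c hc

end Limits

theorem fmass_isGood (G : SimpleGraph ℕ) (hG : G.Connected) : IsGood (fmass G) := by
  obtain ⟨S, hmono, hex, hconn⟩ := exists_exhaustion G hG
  refine isGood_of_tendsto (q := fun n => ustMass G (S n)) (fun n => ustMass_isGood G _ (hconn n)) ?_
  intro W R hR
  have : (fun n => ustMass G (S n) W R) = fun n =>
      ∑ F ∈ W.powerset with R ⊆ F, (-1 : ℝ) ^ (F.card - R.card) * ustContains G (S n) F := by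
    funext n; exact ustMass_eq G (S n) W R hR
  rw [this]
  unfold fmass
  exact tendsto_finsetSum _ fun F _ => (fus_tendsto G hG S hmono hex hconn F).const_mul _

/-! ### relabelling -/

section Relabel

/-- `Sym2.map σ` as a permutation -/
def sMap (σ : Equiv.Perm ℕ) : Equiv.Perm (Sym2 ℕ) where
  toFun := Sym2.map σ
  invFun := Sym2.map σ.symm
  left_inv e := by
    rw [Sym2.map_map]
    simp
  right_inv e := by
    rw [Sym2.map_map]
    simp

/-- transport of induced graphs -/
def isoInduce (H : SimpleGraph ℕ) (σ : Equiv.Perm ℕ) (S : Finset ℕ) :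
    ((H.comap σ).induce (S : Set ℕ)) ≃g
      (H.induce ((S.map σ.toEmbedding : Finset ℕ) : Set ℕ)) where
  toFun x := ⟨σ x, by simp⟩
  invFun y := ⟨σ.symm y, by
    have := y.2
    simp only [Finset.coe_map, Equiv.coe_toEmbedding, Set.mem_image, Finset.mem_coe] at this
    obtain ⟨x, hx, hxy⟩ := this
    rw [← hxy]
    simpa using hx⟩
  left_inv x := by simp
  right_inv y := by simp
  map_rel_iff' := by
    intro a b
    simp

theorem edgesIn_comap (G : SimpleGraph ℕ) (σ : Equiv.Perm ℕ) (S : Finset ℕ) :
    edgesIn G (S.map σ.toEmbedding) = (edgesIn (G.comap σ) S).map (sMap σ).toEmbedding := by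
  ext e
  rw [Finset.mem_map_equiv, mem_edgesIn', mem_edgesIn']
  induction e using Sym2.ind with
  | _ u v =>
    have h : (sMap σ).symm s(u, v) = s(σ.symm u, σ.symm v) := rfl
    rw [h, Finset.mk_mem_sym2_iff, Finset.mk_mem_sym2_iff, Finset.mem_map_equiv,
      Finset.mem_map_equiv, SimpleGraph.mem_edgeSet, SimpleGraph.mem_edgeSet]
    simp

theorem fromEdgeSet_comap (σ : Equiv.Perm ℕ) (A : Finset (Sym2 ℕ)) :
    (SimpleGraph.fromEdgeSet ((A.map (sMap σ).toEmbedding : Finset (Sym2 ℕ)) : Set (Sym2 ℕ))).comap σ =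
      SimpleGraph.fromEdgeSet (A : Set (Sym2 ℕ)) := by
  ext u v
  rw [SimpleGraph.comap_adj, SimpleGraph.fromEdgeSet_adj, SimpleGraph.fromEdgeSet_adj,
    Finset.mem_coe, Finset.mem_coe, Finset.mem_map_equiv]
  have h : (sMap σ).symm s(σ u, σ v) = s(σ.symm (σ u), σ.symm (σ v)) := rfl
  rw [h]
  simp

theorem isSpanningTreeOn_comap (G : SimpleGraph ℕ) (σ : Equiv.Perm ℕ) (S : Finset ℕ)
    (A : Finset (Sym2 ℕ)) :
    IsSpanningTreeOn G (S.map σ.toEmbedding) (A.map (sMap σ).toEmbedding) ↔
      IsSpanningTreeOn (G.comap σ) S A := by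
  unfold IsSpanningTreeOn
  rw [edgesIn_comap, Finset.map_subset_map]
  have h := (isoInduce (SimpleGraph.fromEdgeSet
    ((A.map (sMap σ).toEmbedding : Finset (Sym2 ℕ)) : Set (Sym2 ℕ))) σ S).isTree_iff
  rw [fromEdgeSet_comap] at h
  rw [h]

theorem ustContains_comap (G : SimpleGraph ℕ) (σ : Equiv.Perm ℕ) (S : Finset ℕ)
    (F : Finset (Sym2 ℕ)) :
    ustContains G (S.map σ.toEmbedding) (F.map (sMap σ).toEmbedding) =
      ustContains (G.comap σ) S F := by
  classical
  unfold ustContains
  congr 2
  · symm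
    refine Finset.card_nbij' (fun A => A.map (sMap σ).toEmbedding)
      (fun A => A.map (sMap σ).symm.toEmbedding) ?_ ?_ ?_ ?_
    · intro A hA
      simp only [Finset.coe_filter, Finset.mem_powerset, Set.mem_ofPred_eq] at hA ⊢
      refine ⟨?_, (isSpanningTreeOn_comap G σ S A).2 hA.2.1, Finset.map_subset_map.2 hA.2.2⟩
      rw [edgesIn_comap, Finset.map_subset_map]
      exact hA.1
    · intro A hA
      simp only [Finset.coe_filter, Finset.mem_powerset, Set.mem_ofPred_eq] at hA ⊢
      have hA' : (A.map (sMap σ).symm.toEmbedding).map (sMap σ).toEmbedding = A := by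
        rw [Finset.map_map]; simp
      refine ⟨?_, ?_, ?_⟩
      · rw [← Finset.map_subset_map (f := (sMap σ).toEmbedding), hA', ← edgesIn_comap]
        exact hA.1
      · rw [← isSpanningTreeOn_comap, hA']
        exact hA.2.1
      · rw [← Finset.map_subset_map (f := (sMap σ).toEmbedding), hA']
        exact hA.2.2
    · intro A _
      simp [Finset.map_map]
    · intro A _
      simp [Finset.map_map]
  · symm
    refine Finset.card_nbij' (fun A => A.map (sMap σ).toEmbedding)
      (fun A => A.map (sMap σ).symm.toEmbedding) ?_ ?_ ?_ ?_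
    · intro A hA
      simp only [Finset.coe_filter, Finset.mem_powerset, Set.mem_ofPred_eq] at hA ⊢
      refine ⟨?_, (isSpanningTreeOn_comap G σ S A).2 hA.2⟩
      rw [edgesIn_comap, Finset.map_subset_map]
      exact hA.1
    · intro A hA
      simp only [Finset.coe_filter, Finset.mem_powerset, Set.mem_ofPred_eq] at hA ⊢
      have hA' : (A.map (sMap σ).symm.toEmbedding).map (sMap σ).toEmbedding = A := by
        rw [Finset.map_map]; simp
      refine ⟨?_, ?_⟩
      · rw [← Finset.map_subset_map (f := (sMap σ).toEmbedding), hA', ← edgesIn_comap]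
        exact hA.1
      · rw [← isSpanningTreeOn_comap, hA']
        exact hA.2
    · intro A _
      simp [Finset.map_map]
    · intro A _
      simp [Finset.map_map]

theorem fus_comap (G : SimpleGraph ℕ) (σ : Equiv.Perm ℕ) (F : Finset (Sym2 ℕ)) :
    fus (G.comap σ) F = fus G (F.map (sMap σ).toEmbedding) := by
  unfold fus
  refine Equiv.iInf_congr (Equiv.subtypeEquiv σ.finsetCongr ?_) ?_
  · intro S
    rw [Equiv.finsetCongr_apply]
    rw [(isoInduce G σ S).connected_iff, edgesIn_comap, Finset.map_subset_map]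
  · intro S
    rw [Equiv.subtypeEquiv_apply]
    simp only [Equiv.finsetCongr_apply]
    exact ustContains_comap G σ S F

theorem fmass_comap (G : SimpleGraph ℕ) (σ : Equiv.Perm ℕ) (W R : Finset (Sym2 ℕ)) :
    fmass (G.comap ⇑σ) W R =
      fmass G (W.map ⟨Sym2.map ⇑σ, Sym2.map.injective σ.injective⟩)
        (R.map ⟨Sym2.map ⇑σ, Sym2.map.injective σ.injective⟩) := by
  classical
  have hτ : (⟨Sym2.map ⇑σ, Sym2.map.injective σ.injective⟩ : Sym2 ℕ ↪ Sym2 ℕ) =
      (sMap σ).toEmbedding := rfl
  rw [hτ]
  unfold fmass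
  refine Finset.sum_nbij' (fun A => A.map (sMap σ).toEmbedding)
      (fun A => A.map (sMap σ).symm.toEmbedding) ?_ ?_ ?_ ?_ ?_
  · intro A hA
    simp only [Finset.mem_filter, Finset.mem_powerset, Finset.map_subset_map] at hA ⊢
    exact hA
  · intro A hA
    simp only [Finset.mem_filter, Finset.mem_powerset] at hA ⊢
    have hA' : (A.map (sMap σ).symm.toEmbedding).map (sMap σ).toEmbedding = A := by
      rw [Finset.map_map]; simp
    rw [← hA', Finset.map_subset_map, Finset.map_subset_map] at hA
    exact hA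
  · intro A _
    simp [Finset.map_map]
  · intro A _
    simp [Finset.map_map]
  · intro A _
    rw [fus_comap]
    simp

end Relabel

/-! ### measurability -/

section Meas

open GraphTables

/-- restriction of a table to a finite square -/
def restr (S : Finset ℕ) (A : ℕ → ℕ → Bool) : S → S → Bool := fun i j => A i j

/-- extension of a finite table by `false` -/
noncomputable def extd (S : Finset ℕ) (a : S → S → Bool) : ℕ → ℕ → Bool := fun i j =>
  haveI := Classical.dec (i ∈ S)
  haveI := Classical.dec (j ∈ S)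
  if hi : i ∈ S then if hj : j ∈ S then a ⟨i, hi⟩ ⟨j, hj⟩ else false else false

theorem adj_extd (S : Finset ℕ) (A : ℕ → ℕ → Bool) {i j : ℕ} (hi : i ∈ S) (hj : j ∈ S) :
    (graphOfTable (extd S (restr S A))).Adj i j ↔ (graphOfTable A).Adj i j := by
  simp [graphOfTable, extd, restr, hi, hj]

theorem induce_extd (S : Finset ℕ) (A : ℕ → ℕ → Bool) :
    (graphOfTable (extd S (restr S A))).induce (S : Set ℕ) =
      (graphOfTable A).induce (S : Set ℕ) := by
  ext i j
  simp only [SimpleGraph.comap_adj, Function.Embedding.subtype_apply]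
  exact adj_extd S A i.2 j.2

theorem edgesIn_extd (S : Finset ℕ) (A : ℕ → ℕ → Bool) :
    edgesIn (graphOfTable (extd S (restr S A))) S = edgesIn (graphOfTable A) S := by
  ext e
  rw [mem_edgesIn', mem_edgesIn']
  induction e using Sym2.ind with
  | _ u v =>
    rw [Finset.mk_mem_sym2_iff, SimpleGraph.mem_edgeSet, SimpleGraph.mem_edgeSet]
    constructor
    · rintro ⟨⟨hu, hv⟩, h⟩
      exact ⟨⟨hu, hv⟩, (adj_extd S A hu hv).1 h⟩
    · rintro ⟨⟨hu, hv⟩, h⟩
      exact ⟨⟨hu, hv⟩, (adj_extd S A hu hv).2 h⟩

theorem ustContains_extd (S : Finset ℕ) (A : ℕ → ℕ → Bool) (F : Finset (Sym2 ℕ)) :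
    ustContains (graphOfTable (extd S (restr S A))) S F = ustContains (graphOfTable A) S F := by
  unfold ustContains IsSpanningTreeOn
  rw [edgesIn_extd]

theorem measurable_restr (S : Finset ℕ) : Measurable (restr S) := by
  unfold restr
  refine measurable_pi_lambda _ fun i => measurable_pi_lambda _ fun j => ?_
  exact (measurable_pi_apply (j : ℕ)).comp (measurable_pi_apply (i : ℕ))

/-- a function of the table that only depends on the entries in `S × S` is measurable -/
theorem measurable_of_restr {β : Type*} [MeasurableSpace β] (S : Finset ℕ)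
    (f : (ℕ → ℕ → Bool) → β) (hf : ∀ A, f (extd S (restr S A)) = f A) : Measurable f := by
  have h1 : f = (fun a : S → S → Bool => f (extd S a)) ∘ restr S := by
    funext A; exact (hf A).symm
  rw [h1]
  have h2 : Measurable (fun a : S → S → Bool => f (extd S a)) := by
    have : Countable (S → S → Bool) := inferInstance
    exact measurable_of_countable _
  exact h2.comp (measurable_restr S)

theorem measurable_fus (F : Finset (Sym2 ℕ)) :
    Measurable (fun A : ℕ → ℕ → Bool => fus (graphOfTable A) F) := by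
  classical
  let P : (ℕ → ℕ → Bool) → Finset ℕ → Prop := fun A S =>
    ((graphOfTable A).induce (S : Set ℕ)).Connected ∧ F ⊆ edgesIn (graphOfTable A) S
  have hP : ∀ S, MeasurableSet {A | P A S} := by
    intro S
    apply measurableSet_setOfPred.2
    apply measurable_of_restr S
    intro A
    simp only [P]
    rw [induce_extd, edgesIn_extd]
  have hf : ∀ S : Finset ℕ, Measurable (fun A => ustContains (graphOfTable A) S F) := by
    intro S
    exact measurable_of_restr S _ fun A => ustContains_extd S A F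
  have heq : (fun A : ℕ → ℕ → Bool => fus (graphOfTable A) F) = fun A =>
      if (∃ S, P A S) then ⨅ S : Finset ℕ, (if P A S then ustContains (graphOfTable A) S F else 1)
      else 0 := by
    funext A
    by_cases h : ∃ S, P A S
    · rw [if_pos h]
      obtain ⟨S0, hS0⟩ := h
      have hne : Nonempty {S : Finset ℕ // ((graphOfTable A).induce (S : Set ℕ)).Connected ∧
        F ⊆ edgesIn (graphOfTable A) S} := ⟨⟨S0, hS0⟩⟩
      have hb : BddBelow (Set.range fun S : Finset ℕ =>
          (if P A S then ustContains (graphOfTable A) S F else 1)) := by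
        refine ⟨0, ?_⟩
        rintro _ ⟨S, rfl⟩
        simp only
        split_ifs
        · exact ustContains_nonneg _ _ _
        · exact zero_le_one
      apply le_antisymm
      · apply le_ciInf
        intro S
        by_cases hS : P A S
        · rw [if_pos hS]
          exact ciInf_le (bddBelow_ust (graphOfTable A) F) ⟨S, hS⟩
        · rw [if_neg hS]
          exact (ciInf_le (bddBelow_ust (graphOfTable A) F) ⟨S0, hS0⟩).trans
            (ustContains_le_one _ _ _)
      · apply le_ciInf
        rintro ⟨S, hS⟩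
        refine (ciInf_le hb S).trans ?_
        rw [if_pos (show P A S from hS)]
    · rw [if_neg h]
      have : IsEmpty {S : Finset ℕ // ((graphOfTable A).induce (S : Set ℕ)).Connected ∧
        F ⊆ edgesIn (graphOfTable A) S} := ⟨fun S => h ⟨S.1, S.2⟩⟩
      rw [fus, Real.iInf_of_isEmpty]
  rw [heq]
  apply Measurable.ite
  · have : {A | ∃ S, P A S} = ⋃ S, {A | P A S} := by
      ext A; simp
    rw [this]
    exact MeasurableSet.iUnion hP
  · apply Measurable.iInf
    intro S
    exact Measurable.ite (hP S) (hf S) measurable_const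
  · exact measurable_const

theorem measurable_fmass (W R : Finset (Sym2 ℕ)) :
    Measurable (fun A : ℕ → ℕ → Bool => fmass (GraphTables.graphOfTable A) W R) := by
  unfold fmass
  exact Finset.measurable_sum _ fun F _ => (measurable_fus F).const_mul _

end Meas

end Crest.Agent.SRF
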