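import Crest.Agent.SRF_Defs

set_option autoImplicit false

namespace Crest.Agent.SRF

open MeasureTheory Filter Topology

set_option linter.unusedSectionVars false
set_option linter.unusedVariables false

variable {E : Type*} [DecidableEq E]

theorem prod_pos_of {w : E → ℝ} (hw : ∀ e, 0 < w e) (S : Finset E) : 0 < ∏ e ∈ S, w e :=
  Finset.prod_pos fun e _ => hw e

theorem gen_nonneg {p : Finset E → Finset E → ℝ} (hp : IsGood p)
    (W : Finset E) (w : E → ℝ) (hw : ∀ e, 0 < w e) : 0 ≤ gen p W w :=
  Finset.sum_nonneg fun S hS =>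
    mul_nonneg (hp.nonneg W S (Finset.mem_powerset.1 hS)) (prod_pos_of hw S).le

theorem gen_pos {p : Finset E → Finset E → ℝ} (hp : IsGood p)
    (W : Finset E) (w : E → ℝ) (hw : ∀ e, 0 < w e) : 0 < gen p W w := by
  have hterm : ∀ S ∈ W.powerset, 0 ≤ p W S * ∏ e ∈ S, w e := fun S hS =>
    mul_nonneg (hp.nonneg W S (Finset.mem_powerset.1 hS)) (prod_pos_of hw S).le
  refine lt_of_le_of_ne (Finset.sum_nonneg hterm) fun h0 => ?_
  have hz := (Finset.sum_eq_zero_iff_of_nonneg hterm).1 h0.symm
  have htot := hp.total W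
  have : ∑ R ∈ W.powerset, p W R = 0 := by
    refine Finset.sum_eq_zero fun S hS => ?_
    rcases mul_eq_zero.1 (hz S hS) with h | h
    · exact h
    · exact absurd h (prod_pos_of hw S).ne'
  linarith

theorem genIn_nonneg {p : Finset E → Finset E → ℝ} (hp : IsGood p)
    (W : Finset E) (g : E) (w : E → ℝ) (hw : ∀ e, 0 < w e) : 0 ≤ genIn p W g w :=
  Finset.sum_nonneg fun S hS =>
    mul_nonneg (hp.nonneg W S (Finset.mem_powerset.1 (Finset.mem_filter.1 hS).1)) (prod_pos_of hw S).le

theorem genIn_le_gen {p : Finset E → Finset E → ℝ} (hp : IsGood p)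
    (W : Finset E) (g : E) (w : E → ℝ) (hw : ∀ e, 0 < w e) : genIn p W g w ≤ gen p W w := by
  unfold genIn gen
  refine Finset.sum_le_sum_of_subset_of_nonneg (Finset.filter_subset _ _) fun S hS _ => ?_
  exact mul_nonneg (hp.nonneg W S (Finset.mem_powerset.1 hS)) (prod_pos_of hw S).le

theorem pm_nonneg {p : Finset E → Finset E → ℝ} (hp : IsGood p)
    (W : Finset E) (g : E) (w : E → ℝ) (hw : ∀ e, 0 < w e) : 0 ≤ pm p W g w :=
  div_nonneg (genIn_nonneg hp W g w hw) (gen_nonneg hp W w hw)

theorem pm_le_one {p : Finset E → Finset E → ℝ} (hp : IsGood p)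
    (W : Finset E) (g : E) (w : E → ℝ) (hw : ∀ e, 0 < w e) : pm p W g w ≤ 1 :=
  (div_le_one (gen_pos hp W w hw)).2 (genIn_le_gen hp W g w hw)

theorem gen_congr (p : Finset E → Finset E → ℝ)
    (W : Finset E) (w w' : E → ℝ) (h : ∀ e ∈ W, w e = w' e) : gen p W w = gen p W w' := by
  unfold gen
  refine Finset.sum_congr rfl fun S hS => ?_
  congr 1
  exact Finset.prod_congr rfl fun e he => h e (Finset.mem_powerset.1 hS he)

theorem genIn_congr (p : Finset E → Finset E → ℝ)
    (W : Finset E) (g : E) (w w' : E → ℝ) (h : ∀ e ∈ W, w e = w' e) :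
    genIn p W g w = genIn p W g w' := by
  unfold genIn
  refine Finset.sum_congr rfl fun S hS => ?_
  congr 1
  exact Finset.prod_congr rfl fun e he =>
    h e (Finset.mem_powerset.1 (Finset.mem_filter.1 hS).1 he)

/-- `pm` depends only on the weights of sites in the window -/
theorem pm_congr (p : Finset E → Finset E → ℝ)
    (W : Finset E) (g : E) (w w' : E → ℝ) (h : ∀ e ∈ W, w e = w' e) : pm p W g w = pm p W g w' := by
  unfold pm
  rw [gen_congr p W w w' h, genIn_congr p W g w w' h]

theorem prod_update_mul (w : E → ℝ) (g : E) (c : ℝ) (S : Finset E) :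
    ∏ e ∈ S, Function.update w g (c * w g) e = (if g ∈ S then c else 1) * ∏ e ∈ S, w e := by
  split_ifs with hg
  · rw [← Finset.mul_prod_erase S _ hg, ← Finset.mul_prod_erase S w hg, Function.update_self]
    have : ∏ x ∈ S.erase g, Function.update w g (c * w g) x = ∏ x ∈ S.erase g, w x :=
      Finset.prod_congr rfl fun x hx => Function.update_of_ne (Finset.ne_of_mem_erase hx) _ _
    rw [this]; ring
  · rw [one_mul]
    exact Finset.prod_congr rfl fun x hx =>
      Function.update_of_ne (fun h : x = g => hg (h ▸ hx)) _ _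

/-- updating one weight: `gen` is affine -/
theorem gen_update (p : Finset E → Finset E → ℝ)
    (W : Finset E) (g : E) (w : E → ℝ) (c : ℝ) :
    gen p W (Function.update w g (c * w g)) = gen p W w + (c - 1) * genIn p W g w := by
  unfold gen genIn
  rw [Finset.mul_sum, Finset.sum_filter, ← Finset.sum_add_distrib]
  refine Finset.sum_congr rfl fun S _ => ?_
  rw [prod_update_mul]
  split_ifs <;> ring

theorem genIn_update_self (p : Finset E → Finset E → ℝ)
    (W : Finset E) (g : E) (w : E → ℝ) (c : ℝ) :
    genIn p W g (Function.update w g (c * w g)) = c * genIn p W g w := by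
  unfold genIn
  rw [Finset.mul_sum]
  refine Finset.sum_congr rfl fun S hS => ?_
  rw [prod_update_mul, if_pos (Finset.mem_filter.1 hS).2]
  ring

/-- raising the weights of sites other than `g` lowers the mean at `g` -/
theorem pm_anti_of_le {p : Finset E → Finset E → ℝ} (hp : IsGood p)
    (W : Finset E) (g : E) (hg : g ∈ W) (w w' : E → ℝ) (hw : ∀ e, 0 < w e) (hle : ∀ e, w e ≤ w' e)
    (hwg : w' g = w g) : pm p W g w' ≤ pm p W g w := by
  -- change the coordinates of `W.erase g` one at a time
  have key : ∀ T : Finset E, T ⊆ W.erase g →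
      pm p W g (fun e => if e ∈ T then w' e else w e) ≤ pm p W g w := by
    intro T
    induction T using Finset.induction_on with
    | empty => intro _; simp
    | insert a T ha ih =>
      intro hT
      have haW : a ∈ W.erase g := hT (Finset.mem_insert_self a T)
      have hTW : T ⊆ W.erase g := fun x hx => hT (Finset.mem_insert_of_mem hx)
      refine le_trans ?_ (ih hTW)
      refine hp.anti W g hg a (Finset.mem_of_mem_erase haW) (Finset.ne_of_mem_erase haW) _ _ ?_ ?_ ?_
      · intro e
        split_ifs
        · exact lt_of_lt_of_le (hw e) (hle e)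
        · exact hw e
      · intro e hea
        simp only [Finset.mem_insert, hea, false_or]
      · simp only [Finset.mem_insert, true_or, if_true, ha, if_false]
        exact hle a
  refine le_trans (le_of_eq ?_) (key (W.erase g) (Finset.Subset.refl _))
  refine pm_congr p W g _ _ fun e he => ?_
  by_cases heg : e = g
  · subst heg; simp [hwg]
  · simp [heg, he]

/-- raising the weight of `g` by the factor `c ≥ 1` -/
theorem pm_update_self {p : Finset E → Finset E → ℝ} (hp : IsGood p)
    (W : Finset E) (g : E) (w : E → ℝ) (hw : ∀ e, 0 < w e) (c : ℝ) (hc : 0 < c) :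
    pm p W g (Function.update w g (c * w g)) =
      c * pm p W g w / (1 + (c - 1) * pm p W g w) := by
  unfold pm
  rw [gen_update, genIn_update_self]
  have := gen_pos hp W w hw
  have h1 := genIn_nonneg hp W g w hw
  have h2 := genIn_le_gen hp W g w hw
  have h3 : 0 < gen p W w + (c - 1) * genIn p W g w := by
    have e : gen p W w + (c - 1) * genIn p W g w = (gen p W w - genIn p W g w) + c * genIn p W g w := by
      ring
    rw [e]
    rcases h1.eq_or_lt with h | h
    · rw [← h]; linarith
    · have := mul_pos hc h; linarith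
  have h4 : 0 < 1 + (c - 1) * (genIn p W g w / gen p W w) := by
    have : 1 + (c - 1) * (genIn p W g w / gen p W w) =
      (gen p W w + (c - 1) * genIn p W g w) / gen p W w := by field_simp
    rw [this]; positivity
  field_simp

/-- logistic bound: `c m/(1+(c-1)m) - m ≤ (log c)/4` for `c ≥ 1` -/
theorem logistic_bound (m c : ℝ) (hm : 0 ≤ m) (hm1 : m ≤ 1) (hc : 1 ≤ c) :
    c * m / (1 + (c - 1) * m) ≤ m + Real.log c / 4 := by
  -- f(x) = m + log x / 4 - x m / (1 + (x-1) m) is nondecreasing on [1,∞), f(1) = 0
  set f : ℝ → ℝ := fun x => m + Real.log x / 4 - x * m / (1 + (x - 1) * m) with hf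
  have hden : ∀ x : ℝ, 1 ≤ x → 0 < 1 + (x - 1) * m := by
    intro x hx; nlinarith [mul_nonneg (sub_nonneg.2 hx) hm]
  have hderiv : ∀ x : ℝ, 1 < x → HasDerivAt f
      (1 / (4 * x) - m * (1 - m) / (1 + (x - 1) * m) ^ 2) x := by
    intro x hx
    have hx0 : x ≠ 0 := by linarith
    have hd := (hden x hx.le).ne'
    have h1 : HasDerivAt (fun y : ℝ => Real.log y / 4) (x⁻¹ / 4) x :=
      (Real.hasDerivAt_log hx0).div_const 4
    have h2 : HasDerivAt (fun y : ℝ => y * m) (1 * m) x := (hasDerivAt_id x).mul_const m
    have h3 : HasDerivAt (fun y : ℝ => 1 + (y - 1) * m) (1 * m) x := by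
      have := (((hasDerivAt_id x).sub_const 1).mul_const m).const_add 1
      simpa using this
    have h4 := h2.div h3 hd
    have h5 := (h1.const_add m).sub h4
    refine h5.congr_deriv ?_
    have : x⁻¹ / 4 = 1 / (4 * x) := by field_simp
    rw [this]
    congr 1
    congr 1
    ring
  have hcont : ContinuousOn f (Set.Ici 1) := by
    apply ContinuousOn.sub
    · apply ContinuousOn.add continuousOn_const
      apply ContinuousOn.div_const
      apply Real.continuousOn_log.mono
      intro x hx
      simp only [Set.mem_compl_iff, Set.mem_singleton_iff]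
      have : (1:ℝ) ≤ x := hx
      linarith
    · apply ContinuousOn.div
      · fun_prop
      · fun_prop
      · intro x hx; exact (hden x hx).ne'
  have hmono : MonotoneOn f (Set.Ici 1) := by
    refine monotoneOn_of_deriv_nonneg (convex_Ici 1) hcont ?_ ?_
    · intro x hx
      rw [interior_Ici] at hx
      exact (hderiv x hx).differentiableAt.differentiableWithinAt
    · intro x hx
      rw [interior_Ici] at hx
      have hx' : 1 < x := hx
      rw [(hderiv x hx').deriv]
      have hd := hden x hx'.le
      rw [sub_nonneg, div_le_div_iff₀ (by positivity) (by positivity)]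
      nlinarith [sq_nonneg (1 - m - m * x), mul_nonneg hm (sub_nonneg.2 hm1)]
  have h1 : f 1 = 0 := by simp [hf]
  have h2 : f 1 ≤ f c := hmono (Set.mem_Ici.2 le_rfl) (Set.mem_Ici.2 hc) hc
  rw [h1] at h2
  simp only [hf] at h2
  linarith

theorem pm_scale_down {p : Finset E → Finset E → ℝ} (hp : IsGood p)
    (W : Finset E) (g : E) (hg : g ∈ W) (w : E → ℝ) (hw : ∀ e, 0 < w e) (c : ℝ) (hc : 0 < c)
    (hc1 : c ≤ 1) : pm p W g (fun e => c * w e) ≤ pm p W g w := by
  have h := hp.scale W g hg (fun e => c * w e) (fun e => mul_pos hc (hw e)) c⁻¹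
    ((one_le_inv₀ hc).2 hc1)
  refine h.trans (le_of_eq ?_)
  congr 1
  ext e
  field_simp

/-- one-sided Lipschitz bound -/
theorem pm_lipschitz_aux {p : Finset E → Finset E → ℝ} (hp : IsGood p)
    (W : Finset E) (g : E) (hg : g ∈ W) (w w' : E → ℝ) (hw : ∀ e, 0 < w e) (hw' : ∀ e, 0 < w' e)
    (δ : ℝ) (hδ0 : 0 ≤ δ) (hδ : ∀ e ∈ W, |Real.log (w e) - Real.log (w' e)| ≤ δ) :
    pm p W g w' ≤ pm p W g w + δ / 2 := by
  classical
  set k := Real.exp (-δ) with hk
  have hk0 : 0 < k := Real.exp_pos _
  have hk1 : k ≤ 1 := Real.exp_le_one_iff.2 (by linarith)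
  set K := Real.exp (2 * δ) with hK
  have hK0 : 0 < K := Real.exp_pos _
  have hK1 : 1 ≤ K := Real.one_le_exp_iff.2 (by linarith)
  have hle1 : ∀ e ∈ W, k * w e ≤ w' e := by
    intro e he
    have := (abs_le.1 (hδ e he)).2
    have h1 : Real.log (w e) - δ ≤ Real.log (w' e) := by linarith
    have h2 := Real.exp_le_exp.2 h1
    rw [Real.exp_sub, Real.exp_log (hw e), Real.exp_log (hw' e)] at h2
    rw [hk, Real.exp_neg]
    calc (Real.exp δ)⁻¹ * w e = w e / Real.exp δ := by field_simp
      _ ≤ w' e := h2
  have hle2 : ∀ e ∈ W, w' e ≤ k * (K * w e) := by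
    intro e he
    have := (abs_le.1 (hδ e he)).1
    have h1 : Real.log (w' e) ≤ δ + Real.log (w e) := by linarith
    have h2 := Real.exp_le_exp.2 h1
    rw [Real.exp_add, Real.exp_log (hw e), Real.exp_log (hw' e)] at h2
    have h3 : k * (K * w e) = Real.exp δ * w e := by
      rw [hk, hK, ← mul_assoc, ← Real.exp_add]
      congr 2; ring
    rw [h3]; exact h2
  -- step 1: replace the others by k * w
  set v1 : E → ℝ := fun e => if e = g then w' g else k * w e with hv1
  have s1 : pm p W g w' ≤ pm p W g v1 := by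
    have : pm p W g w' = pm p W g (fun e => if e ∈ W then w' e else max (w' e) (k * w e)) := by
      refine pm_congr p W g _ _ fun e he => ?_
      simp [he]
    rw [this]
    refine pm_anti_of_le hp W g hg _ _ ?_ ?_ ?_
    · intro e; simp only [hv1]; split_ifs
      · exact hw' g
      · exact mul_pos hk0 (hw e)
    · intro e
      simp only [hv1]
      split_ifs with h1 h2 h2
      · subst h1; exact le_rfl
      · subst h1; exact le_max_left _ _
      · exact hle1 e h2
      · exact le_max_right _ _
    · simp [hv1, hg]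
  -- step 2: raise the weight of g to k * (K * w g)
  set v2 : E → ℝ := fun e => k * (Function.update w g (K * w g)) e with hv2
  have s2 : pm p W g v1 ≤ pm p W g v2 := by
    have hv1pos : ∀ e, 0 < v1 e := by
      intro e; simp only [hv1]; split_ifs
      · exact hw' g
      · exact mul_pos hk0 (hw e)
    have hc : 1 ≤ k * (K * w g) / w' g := by
      rw [le_div_iff₀ (hw' g), one_mul]; exact hle2 g hg
    have h2 : v2 = Function.update v1 g ((k * (K * w g) / w' g) * v1 g) := by
      ext e
      by_cases he : e = g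
      · subst he
        simp only [hv2, hv1, Function.update_self, if_true]
        field_simp [(hw' e).ne']
      · simp [hv2, hv1, Function.update_of_ne he, he]
    rw [h2, pm_update_self hp W g v1 hv1pos _ (by linarith)]
    set c := k * (K * w g) / w' g
    have hm := pm_nonneg hp W g v1 hv1pos
    have hm1 := pm_le_one hp W g v1 hv1pos
    rw [le_div_iff₀ (by nlinarith)]
    nlinarith [mul_nonneg (mul_nonneg (sub_nonneg.2 hc) hm) (sub_nonneg.2 hm1)]
  -- step 3: scale
  have s3 : pm p W g v2 ≤ pm p W g (Function.update w g (K * w g)) := by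
    refine pm_scale_down hp W g hg _ ?_ k hk0 hk1
    intro e
    by_cases he : e = g
    · subst he; simp only [Function.update_self]; exact mul_pos hK0 (hw e)
    · rw [Function.update_of_ne he]; exact hw e
  have s4 : pm p W g (Function.update w g (K * w g)) ≤ pm p W g w + δ / 2 := by
    rw [pm_update_self hp W g w hw K hK0]
    refine (logistic_bound _ K (pm_nonneg hp W g w hw) (pm_le_one hp W g w hw) hK1).trans ?_
    rw [hK, Real.log_exp]; linarith
  exact s1.trans (s2.trans (s3.trans s4))

theorem pm_lipschitz {p : Finset E → Finset E → ℝ} (hp : IsGood p)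
    (W : Finset E) (g : E) (hg : g ∈ W) (w w' : E → ℝ) (hw : ∀ e, 0 < w e) (hw' : ∀ e, 0 < w' e)
    (δ : ℝ) (hδ : ∀ e ∈ W, |Real.log (w e) - Real.log (w' e)| ≤ δ) :
    |pm p W g w - pm p W g w'| ≤ δ / 2 := by
  have hδ0 : 0 ≤ δ := (abs_nonneg _).trans (hδ g hg)
  have h1 := pm_lipschitz_aux hp W g hg w w' hw hw' δ hδ0 hδ
  have h2 := pm_lipschitz_aux hp W g hg w' w hw' hw δ hδ0 (fun e he => by
    rw [abs_sub_comm]; exact hδ e he)
  rw [abs_le]; constructor <;> linarith

end Crest.Agent.SRF
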