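import Crest.Agent.SRF_Defs

set_option autoImplicit false

namespace Crest.Agent.SRF

open MeasureTheory Filter Topology

theorem cl_mem (m : ℝ) : 0 ≤ cl m ∧ cl m ≤ 1 := by
  unfold cl
  constructor
  · exact le_max_left _ _
  · exact max_le zero_le_one (min_le_left _ _)

theorem cl_of_mem {m : ℝ} (h0 : 0 ≤ m) (h1 : m ≤ 1) : cl m = m := by
  unfold cl
  rw [min_eq_right h1, max_eq_right h0]

theorem cl_lipschitz (m m' : ℝ) : |cl m - cl m'| ≤ |m - m'| := by
  unfold cl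
  calc |max 0 (min 1 m) - max 0 (min 1 m')| ≤ |min 1 m - min 1 m'| := by
        have := abs_max_sub_max_le_max (0:ℝ) (min 1 m) 0 (min 1 m')
        simpa using this
    _ ≤ |m - m'| := by
        have := abs_min_sub_min_le_max (1:ℝ) m 1 m'
        simpa using this

theorem measurable_cl : Measurable cl := by
  unfold cl
  fun_prop

theorem measurable_Q : Measurable (fun q : ℝ × unitInterval => Q q.1 q.2) := by
  unfold Q Q0
  have hc := measurable_cl
  have h1 : Measurable (fun q : ℝ × unitInterval => cl q.1) := hc.comp measurable_fst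
  have h2 : Measurable (fun q : ℝ × unitInterval => (q.2 : ℝ)) := measurable_subtype_coe.comp measurable_snd
  refine (continuous_projIcc.measurable).comp ?_
  fun_prop

/-- basic facts about the quantile for parameters in range -/
theorem Q0_spec {m u : ℝ} (hm : 0 ≤ m) (hm' : m ≤ 1) (hu : 0 ≤ u) (hu' : u ≤ 1) :
    0 ≤ Q0 m u ∧ Q0 m u ≤ 1 ∧ Q0 m u - m / 2 * (Q0 m u * (1 - Q0 m u)) = u := by
  unfold Q0
  set D := Real.sqrt ((1 - m / 2) ^ 2 + 2 * m * u) with hD
  have hnn : 0 ≤ (1 - m / 2) ^ 2 + 2 * m * u := by positivity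
  have hD0 : 0 ≤ D := Real.sqrt_nonneg _
  have hDsq : D ^ 2 = (1 - m / 2) ^ 2 + 2 * m * u := Real.sq_sqrt hnn
  have hden : 0 < (1 - m / 2) + D := by linarith
  have hDge : 1 - m / 2 ≤ D := by
    apply Real.le_sqrt_of_sq_le
    nlinarith [mul_nonneg hm hu]
  refine ⟨by positivity, ?_, ?_⟩
  · rw [div_le_one hden]
    by_contra hcon
    push Not at hcon
    -- D < 2u - (1 - m/2)
    have h1 : D < 2 * u - (1 - m / 2) := by linarith
    have h2 : D ^ 2 < (2 * u - (1 - m / 2)) ^ 2 := by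
      apply pow_lt_pow_left₀ h1 hD0; norm_num
    rw [hDsq] at h2
    nlinarith [mul_nonneg hu (sub_nonneg.2 hu'), mul_nonneg hm hu]
  · have hx : 2 * u / ((1 - m / 2) + D) * ((1 - m / 2) + D) = 2 * u := div_mul_cancel₀ _ hden.ne'
    set x := 2 * u / ((1 - m / 2) + D) with hxdef
    have hden2 : ((1 - m / 2) + D) ^ 2 ≠ 0 := by positivity
    have hzero : (x - m / 2 * (x * (1 - x)) - u) * ((1 - m / 2) + D) ^ 2 = 0 := by
      have e1 : (x - m / 2 * (x * (1 - x)) - u) * ((1 - m / 2) + D) ^ 2 =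
          (1 - m / 2) * ((1 - m / 2) + D) * (x * ((1 - m / 2) + D))
            + m / 2 * (x * ((1 - m / 2) + D)) ^ 2 - u * ((1 - m / 2) + D) ^ 2 := by ring
      rw [e1, hx]
      have e2 : (1 - m / 2) * (1 - m / 2 + D) * (2 * u) + m / 2 * (2 * u) ^ 2
          - u * (1 - m / 2 + D) ^ 2 = u * ((1 - m / 2) ^ 2 + 2 * m * u - D ^ 2) := by ring
      rw [e2, hDsq]; ring
    rcases mul_eq_zero.1 hzero with h | h
    · linarith
    · exact absurd h hden2

theorem Q_coe (m : ℝ) (u : unitInterval) : ((Q m u : unitInterval) : ℝ) = Q0 (cl m) u := by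
  unfold Q
  obtain ⟨h0, h1, _⟩ := Q0_spec (cl_mem m).1 (cl_mem m).2 u.2.1 u.2.2
  rw [Set.projIcc_of_mem _ ⟨h0, h1⟩]

theorem Q_eq (m : ℝ) (u : unitInterval) :
    ((Q m u : unitInterval) : ℝ) - cl m / 2 * ((Q m u : ℝ) * (1 - (Q m u : ℝ))) = u := by
  rw [Q_coe]
  exact (Q0_spec (cl_mem m).1 (cl_mem m).2 u.2.1 u.2.2).2.2

/-- uniqueness of the solution -/
theorem Q_unique {m : ℝ} (hm : 0 ≤ m) (hm' : m ≤ 1) (u z : unitInterval)
    (h : (z : ℝ) - m / 2 * ((z : ℝ) * (1 - z)) = u) : Q m u = z := by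
  have h1 := Q_eq m u
  rw [cl_of_mem hm hm'] at h1
  have hq0 := (Q m u).2.1
  have hq1 := (Q m u).2.2
  have hz0 := z.2.1
  have hz1 := z.2.2
  apply Subtype.ext
  have h2 : ((Q m u : ℝ) - z) * (1 - m / 2 * (1 - (Q m u : ℝ) - z)) = 0 := by
    have : (Q m u : ℝ) - m / 2 * ((Q m u : ℝ) * (1 - (Q m u : ℝ))) = (z : ℝ) - m / 2 * ((z : ℝ) * (1 - z)) := by
      rw [h1, h]
    ring_nf
    ring_nf at this
    linarith
  rcases mul_eq_zero.1 h2 with h3 | h3
  · linarith
  · exfalso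
    nlinarith

theorem Q_zero (u : unitInterval) : Q 0 u = u :=
  Q_unique le_rfl zero_le_one u u (by simp)

theorem Q_lipschitz (m m' : ℝ) (u : unitInterval) :
    |(Q m u : ℝ) - Q m' u| ≤ |m - m'| / 4 := by
  have h := Q_eq m u
  have h' := Q_eq m' u
  have hc := cl_lipschitz m m'
  obtain ⟨hm0, hm1⟩ := cl_mem m
  obtain ⟨hm0', hm1'⟩ := cl_mem m'
  set c := cl m
  set c' := cl m'
  set z := (Q m u : ℝ) with hz
  set z' := (Q m' u : ℝ) with hz'
  have hz0 : 0 ≤ z := (Q m u).2.1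
  have hz1 : z ≤ 1 := (Q m u).2.2
  have hz0' : 0 ≤ z' := (Q m' u).2.1
  have hz1' : z' ≤ 1 := (Q m' u).2.2
  -- (z - z') * (1 - c/2 * (1 - z - z')) = (c - c')/2 * z' (1 - z')
  have key : (z - z') * (1 - c / 2 * (1 - z - z')) = (c - c') / 2 * (z' * (1 - z')) := by
    nlinarith [h, h']
  have hA : 1 / 2 ≤ 1 - c / 2 * (1 - z - z') := by nlinarith
  have hB : z' * (1 - z') ≤ 1 / 4 := by nlinarith [sq_nonneg (z' - 1 / 2)]
  have hB0 : 0 ≤ z' * (1 - z') := mul_nonneg hz0' (by linarith)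
  have h1 : |z - z'| * (1 / 2) ≤ |c - c'| / 2 * (1 / 4) := by
    calc |z - z'| * (1 / 2) ≤ |z - z'| * (1 - c / 2 * (1 - z - z')) := by
          apply mul_le_mul_of_nonneg_left hA (abs_nonneg _)
      _ = |(z - z') * (1 - c / 2 * (1 - z - z'))| := by
          rw [abs_mul, abs_of_pos (show (0:ℝ) < 1 - c / 2 * (1 - z - z') by linarith)]
      _ = |(c - c') / 2 * (z' * (1 - z'))| := by rw [key]
      _ = |c - c'| / 2 * (z' * (1 - z')) := by
          rw [abs_mul, abs_div, abs_of_nonneg hB0]; norm_num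
      _ ≤ |c - c'| / 2 * (1 / 4) := by
          apply mul_le_mul_of_nonneg_left hB (by positivity)
  linarith


theorem lintegral_unitInterval (f : ℝ → ENNReal) :
    ∫⁻ u : unitInterval, f u = ∫⁻ x in Set.Icc (0:ℝ) 1, f x := by
  rw [unitInterval.volume_def]
  exact lintegral_subtype_comap measurableSet_Icc f

/-- pushforward of the uniform law under `Q m` has density `1 + m (z - 1/2)` -/
theorem lintegral_Q (m : ℝ) (hm : 0 ≤ m) (hm' : m ≤ 1) (h : unitInterval → ENNReal) (hh : Measurable h) :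
    ∫⁻ u : unitInterval, h (Q m u) =
      ∫⁻ z : unitInterval, h z * ENNReal.ofReal (1 + m * (rr z - 1)) := by
  set F : ℝ → ℝ := fun z => z - m / 2 * (z * (1 - z)) with hF
  have hderiv : ∀ x ∈ Set.Icc (0:ℝ) 1, HasDerivWithinAt F (1 + m * (x - 1 / 2)) (Set.Icc 0 1) x := by
    intro x _
    have h1 : HasDerivAt F (1 - m / 2 * (1 * (1 - x) + x * (0 - 1))) x := by
      have ha : HasDerivAt (fun z : ℝ => z * (1 - z)) (1 * (1 - x) + x * (0 - 1)) x :=
        (hasDerivAt_id x).mul ((hasDerivAt_const x (1:ℝ)).sub (hasDerivAt_id x))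
      exact (hasDerivAt_id x).sub (ha.const_mul (m / 2))
    have h2 : (1 - m / 2 * (1 * (1 - x) + x * (0 - 1))) = 1 + m * (x - 1 / 2) := by ring
    rw [h2] at h1
    exact h1.hasDerivWithinAt
  have hpos : ∀ x ∈ Set.Icc (0:ℝ) 1, 0 < 1 + m * (x - 1 / 2) := by
    intro x hx
    nlinarith [hx.1, hx.2]
  have hdiff : ∀ x y : ℝ, F x - F y = (x - y) * (1 - m / 2 * (1 - x - y)) := by
    intro x y; simp only [hF]; ring
  have hinj : Set.InjOn F (Set.Icc 0 1) := by
    intro x hx y hy hxy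
    have h3 : (x - y) * (1 - m / 2 * (1 - x - y)) = 0 := by rw [← hdiff, hxy, sub_self]
    rcases mul_eq_zero.1 h3 with h4 | h4
    · linarith
    · exfalso; nlinarith [hx.1, hx.2, hy.1, hy.2]
  have himage : F '' Set.Icc 0 1 = Set.Icc 0 1 := by
    apply Set.Subset.antisymm
    · rintro _ ⟨x, hx, rfl⟩
      have h5 : 0 ≤ x * (1 - x) := mul_nonneg hx.1 (by linarith [hx.2])
      have h6 : x * (1 - x) ≤ x := by nlinarith [hx.1, hx.2]
      constructor
      · simp only [hF]; nlinarith [hx.1]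
      · simp only [hF]; nlinarith [hx.2]
    · intro u hu
      refine ⟨(Q m ⟨u, hu⟩ : ℝ), (Q m ⟨u, hu⟩).2, ?_⟩
      have := Q_eq m ⟨u, hu⟩
      rw [cl_of_mem hm hm'] at this
      simpa [hF] using this
  have hQF : ∀ x (hx : x ∈ Set.Icc (0:ℝ) 1), Q m (Set.projIcc 0 1 zero_le_one (F x)) = ⟨x, hx⟩ := by
    intro x hx
    have hFx : F x ∈ Set.Icc (0:ℝ) 1 := by rw [← himage]; exact ⟨x, hx, rfl⟩
    apply Q_unique hm hm'
    rw [Set.projIcc_of_mem _ hFx]
  have e1 : ∫⁻ u : unitInterval, h (Q m u) =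
      ∫⁻ x in Set.Icc (0:ℝ) 1, h (Q m (Set.projIcc 0 1 zero_le_one x)) := by
    rw [← lintegral_unitInterval (fun x => h (Q m (Set.projIcc 0 1 zero_le_one x)))]
    refine lintegral_congr fun u => ?_
    rw [Set.projIcc_val]
  have e2 : ∫⁻ z : unitInterval, h z * ENNReal.ofReal (1 + m * (rr z - 1)) =
      ∫⁻ x in Set.Icc (0:ℝ) 1, h (Set.projIcc 0 1 zero_le_one x) *
        ENNReal.ofReal (1 + m * (x - 1 / 2)) := by
    rw [← lintegral_unitInterval (fun x => h (Set.projIcc 0 1 zero_le_one x) *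
        ENNReal.ofReal (1 + m * (x - 1 / 2)))]
    refine lintegral_congr fun u => ?_
    rw [Set.projIcc_val]
    congr 2
    unfold rr; ring
  rw [e1, e2]
  conv_lhs => rw [← himage]
  rw [lintegral_image_eq_lintegral_abs_deriv_mul measurableSet_Icc hderiv hinj]
  refine setLIntegral_congr_fun measurableSet_Icc fun x hx => ?_
  rw [hQF x hx, Set.projIcc_of_mem _ hx, abs_of_pos (hpos x hx), mul_comm]

end Crest.Agent.SRF
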