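import Crest.Agent.SRF_Defs
import Crest.Agent.SRF_Q
import Crest.Agent.SRF_Lip

set_option autoImplicit false

namespace Crest.Agent.SRF

open MeasureTheory Filter Topology

/-- resampling one coordinate of the label law: joint version -/
theorem map_update_lab {E : Type*} [DecidableEq E] (i : E × ℕ) :
    ((lab E).prod (volume : Measure unitInterval)).map (fun q : Lab E × unitInterval =>
      Function.update q.1 i q.2) = lab E := by
  have hmeas : Measurable (fun q : Lab E × unitInterval => Function.update q.1 i q.2) := by
    refine measurable_pi_lambda _ fun j => ?_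
    by_cases hj : j = i
    · subst hj
      simpa using measurable_snd
    · have : (fun q : Lab E × unitInterval => Function.update q.1 i q.2 j) = fun q => q.1 j := by
        ext q; simp [Function.update_of_ne hj]
      rw [this]
      exact (measurable_pi_apply j).comp measurable_fst
  have : IsProbabilityMeasure (lab E) := by unfold lab; infer_instance
  refine Measure.eq_infinitePi _ fun s t ht => ?_
  rw [Measure.map_apply hmeas (MeasurableSet.pi s.countable_toSet fun _ _ => ht _)]
  have hset : (fun q : Lab E × unitInterval => Function.update q.1 i q.2) ⁻¹' (Set.pi s t) =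
      (Set.pi (s.erase i) t) ×ˢ (if i ∈ s then t i else Set.univ) := by
    ext ⟨L, u⟩
    simp only [Set.mem_preimage, Set.mem_pi, Finset.mem_coe, Set.mem_prod, Finset.mem_erase]
    constructor
    · intro h
      refine ⟨fun j hj => ?_, ?_⟩
      · have := h j hj.2
        rwa [Function.update_of_ne hj.1] at this
      · split_ifs with hi
        · simpa using h i hi
        · trivial
    · rintro ⟨h1, h2⟩ j hj
      by_cases hji : j = i
      · subst hji
        simpa [hj] using h2
      · rw [Function.update_of_ne hji]
        exact h1 j ⟨hji, hj⟩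
  rw [hset, Measure.prod_prod]
  have h1 : lab E (Set.pi (↑(s.erase i)) t) = ∏ j ∈ s.erase i, (volume : Measure unitInterval) (t j) := by
    unfold lab
    rw [Measure.infinitePi_pi]
    exact fun j _ => ht j
  rw [h1]
  split_ifs with hi
  · rw [mul_comm, Finset.mul_prod_erase s (fun j => (volume : Measure unitInterval) (t j)) hi]
  · rw [Finset.erase_eq_of_notMem hi]
    simp

theorem measurable_update_lab {E : Type*} [DecidableEq E] (i : E × ℕ) :
    Measurable (fun q : Lab E × unitInterval => Function.update q.1 i q.2) := by
  refine measurable_pi_lambda _ fun j => ?_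
  by_cases hj : j = i
  · subst hj
    simpa using measurable_snd
  · have : (fun q : Lab E × unitInterval => Function.update q.1 i q.2 j) = fun q => q.1 j := by
      ext q; simp [Function.update_of_ne hj]
    rw [this]
    exact (measurable_pi_apply j).comp measurable_fst

instance {E : Type*} : IsProbabilityMeasure (lab E) := by unfold lab; infer_instance

/-- resampling one coordinate of the label law -/
theorem lintegral_resample {E : Type*} [DecidableEq E] (i : E × ℕ) (G : Lab E → ENNReal)
    (hG : Measurable G) :
    ∫⁻ L, G L ∂lab E = ∫⁻ L, (∫⁻ u : unitInterval, G (Function.update L i u)) ∂lab E := by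
  conv_lhs => rw [← map_update_lab i]
  rw [lintegral_map hG (measurable_update_lab i), lintegral_prod]
  exact (hG.comp (measurable_update_lab i)).aemeasurable


theorem measurable_rr : Measurable rr := by
  unfold rr
  exact measurable_subtype_coe.add_const _

theorem rr_pos (z : unitInterval) : 0 < rr z := by
  have := z.2.1
  unfold rr; linarith

theorem measurable_wt {E : Type*} (g : E) (s : ℕ) (h : E) :
    Measurable (fun z : Lab E => wt z g s h) := by
  unfold wt
  refine Measurable.mul ?_ ?_
  · exact Finset.measurable_fun_prod _ fun s' _ => measurable_rr.comp (measurable_pi_apply _)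
  · refine Measurable.ite ?_ (measurable_rr.comp (measurable_pi_apply _)) measurable_const
    exact measurableSet_lt (measurable_pi_apply _) (measurable_pi_apply _)

theorem wt_pos {E : Type*} (z : Lab E) (g : E) (s : ℕ) (h : E) : 0 < wt z g s h := by
  unfold wt
  refine mul_pos (Finset.prod_pos fun _ _ => rr_pos _) ?_
  split_ifs
  · exact rr_pos _
  · exact one_pos

section param

variable {Ω : Type*} [MeasurableSpace Ω] {E : Type*} [DecidableEq E]

theorem measurable_pm_param (P : Ω → Finset E → Finset E → ℝ) (W : Finset E)
    (hP : ∀ R, Measurable (fun ω => P ω W R)) (g : E) (v : Ω → E → ℝ)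
    (hv : ∀ e, Measurable (fun ω => v ω e)) : Measurable (fun ω => pm (P ω) W g (v ω)) := by
  unfold pm gen genIn
  refine Measurable.div ?_ ?_
  · refine Finset.measurable_fun_sum _ fun S _ => (hP S).mul ?_
    exact Finset.measurable_fun_prod _ fun e _ => hv e
  · refine Finset.measurable_fun_sum _ fun S _ => (hP S).mul ?_
    exact Finset.measurable_fun_prod _ fun e _ => hv e

theorem measurable_step_param (P : Ω → Finset E → Finset E → ℝ) (W : Finset E)
    (hP : ∀ R, Measurable (fun ω => P ω W R)) (LL zz : Ω → Lab E) (hLL : Measurable LL)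
    (hzz : Measurable zz) : Measurable (fun ω => step (P ω) W (LL ω) (zz ω)) := by
  refine measurable_pi_lambda _ fun i => ?_
  obtain ⟨g, s⟩ := i
  cases s with
  | zero =>
    exact (measurable_pi_apply (g, 0)).comp hLL
  | succ s =>
    have h1 : Measurable (fun ω => pm (P ω) W g (wt (zz ω) g s)) :=
      measurable_pm_param P W hP g _ fun e => (measurable_wt g s e).comp hzz
    have h2 : Measurable (fun ω => LL ω (g, s + 1)) := (measurable_pi_apply _).comp hLL
    exact measurable_Q.comp (h1.prodMk h2)

theorem measurable_iterate_param (P : Ω → Finset E → Finset E → ℝ) (W : Finset E)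
    (hP : ∀ R, Measurable (fun ω => P ω W R)) (LL : Ω → Lab E) (hLL : Measurable LL) (k : ℕ) :
    Measurable (fun ω => (step (P ω) W (LL ω))^[k] (LL ω)) := by
  induction k with
  | zero => simpa using hLL
  | succ k ih =>
    simp_rw [Function.iterate_succ_apply']
    exact measurable_step_param P W hP LL _ hLL ih

theorem measurable_Zs_param (P : Ω → Finset E → Finset E → ℝ) (W : Finset E)
    (hP : ∀ R, Measurable (fun ω => P ω W R))
    (LL : Ω → Lab E) (hLL : Measurable LL) : Measurable (fun ω => Zs (P ω) W (LL ω)) := by
  refine measurable_pi_lambda _ fun i => ?_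
  exact (measurable_pi_apply i).comp (measurable_iterate_param P W hP LL hLL (i.2 * (W.card + 1)))

theorem measurable_Zs (p : Finset E → Finset E → ℝ) (W : Finset E) :
    Measurable (Zs p W) :=
  measurable_Zs_param (fun _ => p) W (fun _ => measurable_const) id measurable_id

end param

section fixedpoint

variable {E : Type*} [DecidableEq E]

theorem step_zero (p : Finset E → Finset E → ℝ) (W : Finset E) (L z : Lab E) (g : E) :
    step p W L z (g, 0) = L (g, 0) := rfl

theorem step_succ (p : Finset E → Finset E → ℝ) (W : Finset E) (L z : Lab E) (g : E) (s : ℕ) :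
    step p W L z (g, s + 1) = Q (pm p W g (wt z g s)) (L (g, s + 1)) := rfl

/-- rank of the coordinate `(g, s+1)` -/
noncomputable def rk (W : Finset E) (L : Lab E) (g : E) (s : ℕ) : ℕ :=
  s * (W.card + 1) + (W.filter (fun h => L (h, 0) < L (g, 0))).card

theorem rk_lt (W : Finset E) (L : Lab E) (g : E) (s : ℕ) : rk W L g s < (s + 1) * (W.card + 1) := by
  unfold rk
  have := Finset.card_filter_le W (fun h => L (h, 0) < L (g, 0))
  nlinarith

theorem iterate_time (p : Finset E → Finset E → ℝ) (W : Finset E) (L : Lab E) (k : ℕ) (g : E) :
    (step p W L)^[k] L (g, 0) = L (g, 0) := by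
  cases k with
  | zero => rfl
  | succ k => rw [Function.iterate_succ_apply', step_zero]

/-- the iterates are stable beyond the rank -/
theorem iterate_stable (p : Finset E → Finset E → ℝ) (W : Finset E) (L : Lab E) :
    ∀ n : ℕ, ∀ (g : E) (s : ℕ), rk W L g s = n → ∀ k, n < k →
      (step p W L)^[k] L (g, s + 1) = (step p W L)^[n + 1] L (g, s + 1) := by
  intro n
  induction n using Nat.strong_induction_on with
  | _ n ih =>
    intro g s hrk k hk
    obtain ⟨k, rfl⟩ : ∃ k', k = k' + 1 := ⟨k - 1, by omega⟩
    rw [Function.iterate_succ_apply', Function.iterate_succ_apply', step_succ, step_succ]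
    congr 1
    refine pm_congr p W g _ _ fun h hh => ?_
    have key : ∀ s' : ℕ, (s' < s ∨ (s' = s ∧ L (h, 0) < L (g, 0))) →
        (step p W L)^[k] L (h, s' + 1) = (step p W L)^[n] L (h, s' + 1) := by
      intro s' hs'
      have hlt : rk W L h s' < n := by
        rw [← hrk]
        rcases hs' with hs' | ⟨rfl, ht⟩
        · have h1 := rk_lt W L h s'
          have h2 : (s' + 1) * (W.card + 1) ≤ s * (W.card + 1) := Nat.mul_le_mul_right _ hs'
          unfold rk at *
          omega
        · unfold rk
          refine Nat.add_lt_add_left ?_ _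
          apply Finset.card_lt_card
          rw [Finset.ssubset_iff_of_subset]
          · exact ⟨h, by simp [hh, ht], by simp⟩
          · intro x hx
            rw [Finset.mem_filter] at hx ⊢
            exact ⟨hx.1, hx.2.trans ht⟩
      rw [ih _ hlt h s' rfl k (by omega), ih _ hlt h s' rfl n hlt]
    unfold wt
    congr 1
    · refine Finset.prod_congr rfl fun s' hs' => ?_
      rw [key s' (Or.inl (Finset.mem_range.1 hs'))]
    · rw [iterate_time, iterate_time, iterate_time, iterate_time]
      split_ifs with ht
      · rw [key s (Or.inr ⟨rfl, ht⟩)]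
      · rfl

theorem Zs_zero (p : Finset E → Finset E → ℝ) (W : Finset E)
    (L : Lab E) (g : E) : Zs p W L (g, 0) = L (g, 0) := by
  simp [Zs]

/-- `Zs` at a coordinate equals any high enough iterate -/
theorem Zs_eq_iterate (p : Finset E → Finset E → ℝ) (W : Finset E) (L : Lab E) (g : E) (s k : ℕ)
    (hk : rk W L g s < k) : Zs p W L (g, s + 1) = (step p W L)^[k] L (g, s + 1) := by
  unfold Zs
  rw [iterate_stable p W L _ g s rfl k hk, iterate_stable p W L _ g s rfl _ (rk_lt W L g s)]

theorem Zs_succ (p : Finset E → Finset E → ℝ) (W : Finset E)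
    (L : Lab E) (g : E) (s : ℕ) :
    Zs p W L (g, s + 1) = Q (pm p W g (wt (Zs p W L) g s)) (L (g, s + 1)) := by
  -- take a common large iterate
  set N := (s + 1) * (W.card + 1) with hN
  have hall : ∀ h s', s' ≤ s → Zs p W L (h, s' + 1) = (step p W L)^[N] L (h, s' + 1) := by
    intro h s' hs'
    apply Zs_eq_iterate
    refine (rk_lt W L h s').trans_le ?_
    exact Nat.mul_le_mul_right _ (by omega)
  have h0 : ∀ h, Zs p W L (h, 0) = (step p W L)^[N] L (h, 0) := by
    intro h; rw [Zs_zero, iterate_time]
  have h1 : Zs p W L (g, s + 1) = (step p W L)^[N + 1] L (g, s + 1) := by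
    apply Zs_eq_iterate
    exact (rk_lt W L g s).trans (Nat.lt_succ_self _)
  rw [h1, Function.iterate_succ_apply', step_succ]
  congr 1
  refine pm_congr p W g _ _ fun h _ => ?_
  unfold wt
  rw [h0, h0, hall h s le_rfl]
  congr 1
  refine Finset.prod_congr rfl fun s' hs' => ?_
  rw [hall h s' (Finset.mem_range.1 hs').le]

end fixedpoint

end Crest.Agent.SRF
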