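import Crest.Agent.SRF_Exact

set_option autoImplicit false
set_option linter.unusedSectionVars false
set_option linter.unusedVariables false

namespace Crest.Agent.SRF

open MeasureTheory Filter Topology

variable {E : Type*} [DecidableEq E]

theorem lintegral_rr : ∫⁻ u : unitInterval, ENNReal.ofReal (rr u) = 1 := by
  have h := lintegral_Q 1 zero_le_one le_rfl (fun _ => 1) measurable_const
  simp only [lintegral_one, measure_univ, one_mul] at h
  rw [h]
  refine lintegral_congr fun u => ?_
  congr 1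
  ring

/-- one-coordinate masking -/
theorem mask_one (i : E × ℕ) (al : Lab E → Prop) (hmeas : MeasurableSet {z | al z})
    (hal : ∀ z u, al (Function.update z i u) ↔ al z) (φ : Lab E → ENNReal) (hφ : Measurable φ)
    (hdep : ∀ z u, ¬ al z → φ (Function.update z i u) = φ z) [∀ z, Decidable (al z)] :
    ∫⁻ z, φ z * ENNReal.ofReal (rr (z i)) ∂lab E =
      ∫⁻ z, φ z * (if al z then ENNReal.ofReal (rr (z i)) else 1) ∂lab E := by
  have hρ : Measurable (fun z : Lab E => ENNReal.ofReal (rr (z i))) :=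
    (measurable_rr.comp (measurable_pi_apply i)).ennreal_ofReal
  have hite : Measurable (fun z : Lab E => if al z then ENNReal.ofReal (rr (z i)) else 1) :=
    Measurable.ite hmeas hρ measurable_const
  rw [lintegral_resample i (fun z => φ z * ENNReal.ofReal (rr (z i))) (hφ.mul hρ),
    lintegral_resample i (fun z => φ z * (if al z then ENNReal.ofReal (rr (z i)) else 1)) (hφ.mul hite)]
  refine lintegral_congr fun z => ?_
  by_cases hz : al z
  · refine lintegral_congr fun u => ?_
    rw [if_pos ((hal z u).2 hz)]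
  · have e1 : ∀ u : unitInterval, φ (Function.update z i u) * ENNReal.ofReal (rr (Function.update z i u i)) =
        φ z * ENNReal.ofReal (rr u) := by
      intro u; rw [hdep z u hz, Function.update_self]
    have e2 : ∀ u : unitInterval, φ (Function.update z i u) *
        (if al (Function.update z i u) then ENNReal.ofReal (rr (Function.update z i u i)) else 1) =
        φ z := by
      intro u; rw [hdep z u hz, if_neg (fun h => hz ((hal z u).1 h)), mul_one]
    simp_rw [e1, e2]
    rw [lintegral_const_mul _ measurable_rr.ennreal_ofReal, lintegral_rr]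
    simp

/-- masking of finitely many coordinates -/
theorem mask (C : Finset (E × ℕ)) (al : E × ℕ → Lab E → Prop)
    (hmeas : ∀ c, MeasurableSet {z | al c z})
    (hal : ∀ c, ∀ c' ∈ C, ∀ z u, al c (Function.update z c' u) ↔ al c z)
    [∀ c z, Decidable (al c z)] :
    ∀ φ : Lab E → ENNReal, Measurable φ →
      (∀ c ∈ C, ∀ z u, ¬ al c z → φ (Function.update z c u) = φ z) →
    ∫⁻ z, φ z * ∏ c ∈ C, ENNReal.ofReal (rr (z c)) ∂lab E =
      ∫⁻ z, φ z * ∏ c ∈ C, (if al c z then ENNReal.ofReal (rr (z c)) else 1) ∂lab E := by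
  induction C using Finset.induction_on with
  | empty => intro φ _ _; simp
  | insert i C hi ih =>
    intro φ hφ hdep
    have hρ : ∀ c : E × ℕ, Measurable (fun z : Lab E => ENNReal.ofReal (rr (z c))) := fun c =>
      (measurable_rr.comp (measurable_pi_apply c)).ennreal_ofReal
    have hite : ∀ c : E × ℕ, Measurable (fun z : Lab E => if al c z then ENNReal.ofReal (rr (z c)) else 1) :=
      fun c => Measurable.ite (hmeas c) (hρ c) measurable_const
    have hP : Measurable (fun z : Lab E => ∏ c ∈ C, ENNReal.ofReal (rr (z c))) :=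
      Finset.measurable_fun_prod _ fun c _ => hρ c
    -- step 1
    have s1 : ∫⁻ z, φ z * ∏ c ∈ insert i C, ENNReal.ofReal (rr (z c)) ∂lab E =
        ∫⁻ z, (φ z * (if al i z then ENNReal.ofReal (rr (z i)) else 1)) *
          ∏ c ∈ C, ENNReal.ofReal (rr (z c)) ∂lab E := by
      have h1 := mask_one i (al i) (hmeas i) (hal i i (Finset.mem_insert_self i C))
        (fun z => φ z * ∏ c ∈ C, ENNReal.ofReal (rr (z c))) (hφ.mul hP) (by
          intro z u hz
          rw [hdep i (Finset.mem_insert_self i C) z u hz]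
          congr 1
          refine Finset.prod_congr rfl fun c hc => ?_
          rw [Function.update_of_ne (fun h : c = i => hi (h ▸ hc))])
      calc ∫⁻ z, φ z * ∏ c ∈ insert i C, ENNReal.ofReal (rr (z c)) ∂lab E
          = ∫⁻ z, φ z * (∏ c ∈ C, ENNReal.ofReal (rr (z c))) * ENNReal.ofReal (rr (z i)) ∂lab E := by
            refine lintegral_congr fun z => ?_
            rw [Finset.prod_insert hi]; ring
        _ = _ := h1
        _ = _ := by
            refine lintegral_congr fun z => ?_
            ring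
    rw [s1, ih (fun c c' hc' => hal c c' (Finset.mem_insert_of_mem hc'))
      (fun z => φ z * (if al i z then ENNReal.ofReal (rr (z i)) else 1)) (hφ.mul (hite i))]
    · refine lintegral_congr fun z => ?_
      rw [Finset.prod_insert hi]; ring
    · intro c hc z u hz
      have hci : i ≠ c := fun h => hi (h ▸ hc)
      rw [hdep c (Finset.mem_insert_of_mem hc) z u hz, Function.update_of_ne hci]
      have := hal i c (Finset.mem_insert_of_mem hc) z u
      by_cases h' : al i z
      · rw [if_pos h', if_pos (this.2 h')]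
      · rw [if_neg h', if_neg (fun h'' => h' (this.1 h''))]

/-- the shift `(e, s) ↦ (e, s + 1)` -/
def shiftEmb (E : Type*) : E × ℕ ↪ E × ℕ where
  toFun q := (q.1, q.2 + 1)
  inj' := by
    intro a b h
    have := Prod.mk.inj h
    exact Prod.ext this.1 (Nat.succ_injective this.2)

theorem shiftEmb_apply (q : E × ℕ) : shiftEmb E q = (q.1, q.2 + 1) := rfl

/-- observation coordinates of the sites `S` and the stages `< M` -/
def cs (S : Finset E) (M : ℕ) : Finset (E × ℕ) :=
  (S ×ˢ Finset.range M).map (shiftEmb E)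

theorem mem_cs (S : Finset E) (M : ℕ) (c : E × ℕ) : c ∈ cs S M ↔ c.1 ∈ S ∧ 1 ≤ c.2 ∧ c.2 ≤ M := by
  unfold cs
  rw [Finset.mem_map]
  constructor
  · rintro ⟨q, hq, rfl⟩
    rw [Finset.mem_product, Finset.mem_range] at hq
    rw [shiftEmb_apply]
    exact ⟨hq.1, Nat.succ_le_succ (Nat.zero_le _), hq.2⟩
  · rintro ⟨h1, h2, h3⟩
    refine ⟨(c.1, c.2 - 1), ?_, ?_⟩
    · rw [Finset.mem_product, Finset.mem_range]
      exact ⟨h1, by simp only; omega⟩
    · rw [shiftEmb_apply]
      apply Prod.ext
      · rfl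
      · simp only; omega

theorem prod_cs {R : Type*} [CommMonoid R] (S : Finset E) (M : ℕ) (f : E × ℕ → R) :
    ∏ c ∈ cs S M, f c = ∏ e ∈ S, ∏ s ∈ Finset.range M, f (e, s + 1) := by
  unfold cs
  rw [Finset.prod_map, Finset.prod_product]
  rfl

theorem ofReal_gen_eq {p : Finset E → Finset E → ℝ} (hp : IsGood p) (W : Finset E) (w : E → ℝ)
    (hw : ∀ e, 0 < w e) : ENNReal.ofReal (gen p W w) =
      ∑ S ∈ W.powerset, ENNReal.ofReal (p W S) * ∏ e ∈ S, ENNReal.ofReal (w e) := by
  unfold gen
  rw [ENNReal.ofReal_sum_of_nonneg]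
  · refine Finset.sum_congr rfl fun S hS => ?_
    rw [ENNReal.ofReal_mul (hp.nonneg W S (Finset.mem_powerset.1 hS)),
      ENNReal.ofReal_prod_of_nonneg fun e _ => (hw e).le]
  · intro S hS
    exact mul_nonneg (hp.nonneg W S (Finset.mem_powerset.1 hS)) (prod_pos_of hw S).le

theorem ofReal_genIn_eq {p : Finset E → Finset E → ℝ} (hp : IsGood p) (W : Finset E) (g : E) (w : E → ℝ)
    (hw : ∀ e, 0 < w e) : ENNReal.ofReal (genIn p W g w) =
      ∑ S ∈ W.powerset, ENNReal.ofReal (p W S) * (if g ∈ S then 1 else 0) *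
        ∏ e ∈ S, ENNReal.ofReal (w e) := by
  unfold genIn
  rw [ENNReal.ofReal_sum_of_nonneg, Finset.sum_filter]
  · refine Finset.sum_congr rfl fun S hS => ?_
    split_ifs
    · rw [ENNReal.ofReal_mul (hp.nonneg W S (Finset.mem_powerset.1 hS)),
        ENNReal.ofReal_prod_of_nonneg fun e _ => (hw e).le, mul_one]
    · simp
  · intro S hS
    exact mul_nonneg (hp.nonneg W S (Finset.mem_powerset.1 (Finset.mem_filter.1 hS).1))
      (prod_pos_of hw S).le

/-- regrouping the subsets of `W` by their trace on `V` -/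
theorem sum_consistent {p : Finset E → Finset E → ℝ} (hp : IsGood p) (V W : Finset E) (hVW : V ⊆ W)
    (f : Finset E → ENNReal) :
    ∑ S ∈ W.powerset, ENNReal.ofReal (p W S) * f (S ∩ V) =
      ∑ R ∈ V.powerset, ENNReal.ofReal (p V R) * f R := by
  rw [← Finset.sum_fiberwise_of_maps_to (g := fun S => S ∩ V) (t := V.powerset)
    (fun S _ => Finset.mem_powerset.2 Finset.inter_subset_right)]
  refine Finset.sum_congr rfl fun R hR => ?_
  rw [hp.consistent V W R hVW (Finset.mem_powerset.1 hR), ENNReal.ofReal_sum_of_nonneg, Finset.sum_mul]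
  · refine Finset.sum_congr rfl fun S hS => ?_
    rw [(Finset.mem_filter.1 hS).2]
  · intro S hS
    exact hp.nonneg W S (Finset.mem_powerset.1 (Finset.mem_filter.1 hS).1)

/-- the basic functional: integral of `φ` against the likelihood of the configuration `S` -/
noncomputable def lk (M : ℕ) (φ : Lab E → ENNReal) (S : Finset E) : ENNReal :=
  ∫⁻ z, φ z * ∏ c ∈ cs S M, ENNReal.ofReal (rr (z c)) ∂lab E

theorem measurable_prod_cs (S : Finset E) (M : ℕ) :
    Measurable (fun z : Lab E => ∏ c ∈ cs S M, ENNReal.ofReal (rr (z c))) :=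
  Finset.measurable_fun_prod _ fun c _ => (measurable_rr.comp (measurable_pi_apply c)).ennreal_ofReal

theorem lintegral_dens_eq {p : Finset E → Finset E → ℝ} (hp : IsGood p) (W : Finset E) (M : ℕ)
    (φ : Lab E → ENNReal) (hφ : Measurable φ) :
    ∫⁻ z, φ z * ENNReal.ofReal (dens p W M z) ∂lab E =
      ∑ S ∈ W.powerset, ENNReal.ofReal (p W S) * lk M φ S := by
  unfold lk
  have h1 : ∀ z : Lab E, φ z * ENNReal.ofReal (dens p W M z) =
      ∑ S ∈ W.powerset, ENNReal.ofReal (p W S) * (φ z * ∏ c ∈ cs S M, ENNReal.ofReal (rr (z c))) := by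
    intro z
    unfold dens
    rw [ofReal_gen_eq hp W _ (fun e => Finset.prod_pos fun _ _ => rr_pos _), Finset.mul_sum]
    refine Finset.sum_congr rfl fun S _ => ?_
    rw [prod_cs]
    have : ∀ e, ENNReal.ofReal (∏ s ∈ Finset.range M, rr (z (e, s + 1))) =
        ∏ s ∈ Finset.range M, ENNReal.ofReal (rr (z (e, s + 1))) := fun e =>
      ENNReal.ofReal_prod_of_nonneg fun s _ => (rr_pos _).le
    simp_rw [this]
    ring
  simp_rw [h1]
  rw [lintegral_finsetSum]
  · refine Finset.sum_congr rfl fun S _ => ?_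
    rw [lintegral_const_mul]
    exact hφ.mul (measurable_prod_cs S M)
  · intro S _
    exact measurable_const.mul (hφ.mul (measurable_prod_cs S M))

/-- sites outside `V` integrate out -/
theorem lk_inter (V : Finset E) (M : ℕ) (φ : Lab E → ENNReal) (hφ : Measurable φ)
    (hdep : ∀ c : E × ℕ, c.1 ∉ V → 1 ≤ c.2 → ∀ z u, φ (Function.update z c u) = φ z) (S : Finset E) :
    lk M φ S = lk M φ (S ∩ V) := by
  unfold lk
  rw [mask (cs S M) (fun c _ => c.1 ∈ V) (fun c => by
      by_cases h : c.1 ∈ V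
      · simp [h]
      · simp [h]) (fun c c' _ z u => Iff.rfl) φ hφ (fun c hc z u hcV =>
      hdep c hcV ((mem_cs S M c).1 hc).2.1 z u)]
  refine lintegral_congr fun z => ?_
  congr 1
  rw [← Finset.prod_filter]
  refine Finset.prod_congr ?_ fun _ _ => rfl
  ext c
  rw [Finset.mem_filter, mem_cs, mem_cs, Finset.mem_inter]
  tauto

/-- the law of the observations inside `V` does not depend on the window `W ⊇ V` -/
theorem dens_consistent {p : Finset E → Finset E → ℝ} (hp : IsGood p)
    (V W : Finset E) (hVW : V ⊆ W) (M : ℕ) (h : Lab E → ENNReal) (hh : Measurable h)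
    (hdep : ∀ z z' : Lab E, (∀ e, z (e, 0) = z' (e, 0)) → (∀ e ∈ V, ∀ s, s ≤ M → z (e, s) = z' (e, s)) →
      h z = h z') :
    ∫⁻ z, h z * ENNReal.ofReal (dens p W M z) ∂lab E =
      ∫⁻ z, h z * ENNReal.ofReal (dens p V M z) ∂lab E := by
  rw [lintegral_dens_eq hp W M h hh, lintegral_dens_eq hp V M h hh,
    ← sum_consistent hp V W hVW (lk M h)]
  refine Finset.sum_congr rfl fun S _ => ?_
  rw [lk_inter V M h hh ?_ S]
  intro c hcV hc1 z u
  refine hdep _ _ ?_ ?_
  · intro e
    rw [Function.update_of_ne]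
    intro h'
    rw [← h'] at hc1
    simp at hc1
  · intro e he s _
    rw [Function.update_of_ne]
    intro h'
    rw [← h'] at hcV
    exact hcV he

/-- coordinates readable by the index `(g, s+1)` -/
def alw (g : E) (s : ℕ) (c : E × ℕ) (z : Lab E) : Prop :=
  c.2 ≤ s ∨ (c.2 = s + 1 ∧ z (c.1, 0) < z (g, 0))

theorem measurableSet_alw (g : E) (s : ℕ) (c : E × ℕ) : MeasurableSet {z : Lab E | alw g s c z} := by
  unfold alw
  by_cases h1 : c.2 ≤ s
  · simp [h1]
  · by_cases h2 : c.2 = s + 1
    · simp only [h1, h2, false_or, true_and]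
      have : {z : Lab E | s + 1 ≤ s ∨ z (c.1, 0) < z (g, 0)} = {z : Lab E | z (c.1, 0) < z (g, 0)} := by
        ext z; simp
      simp only [Nat.not_succ_le_self, false_or]
      exact measurableSet_lt (measurable_pi_apply _) (measurable_pi_apply _)
    · simp [h1, h2]

theorem alw_update (g : E) (s : ℕ) (c c' : E × ℕ) (hc' : 1 ≤ c'.2) (z : Lab E) (u : unitInterval) :
    alw g s c (Function.update z c' u) ↔ alw g s c z := by
  unfold alw
  have h0 : ∀ e : E, Function.update z c' u (e, 0) = z (e, 0) := by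
    intro e
    rw [Function.update_of_ne]
    intro h'
    rw [← h'] at hc'
    simp at hc'
  rw [h0, h0]

theorem prod_alw (g : E) (s : ℕ) (S : Finset E) (z : Lab E) [∀ c z, Decidable (alw g s c z)] :
    ∏ c ∈ cs S (s + 1), (if alw g s c z then ENNReal.ofReal (rr (z c)) else 1) =
      ∏ e ∈ S, ENNReal.ofReal (wt z g s e) := by
  rw [prod_cs]
  refine Finset.prod_congr rfl fun e _ => ?_
  rw [Finset.prod_range_succ]
  unfold wt
  rw [ENNReal.ofReal_mul (Finset.prod_nonneg fun _ _ => (rr_pos _).le)]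
  congr 1
  · rw [ENNReal.ofReal_prod_of_nonneg fun _ _ => (rr_pos _).le]
    refine Finset.prod_congr rfl fun s' hs' => ?_
    rw [if_pos]
    exact Or.inl (Finset.mem_range.1 hs')
  · by_cases h : z (e, 0) < z (g, 0)
    · have ha : alw g s (e, s + 1) z := Or.inr ⟨rfl, h⟩
      rw [if_pos ha, if_pos h]
    · rw [if_neg h, if_neg, ENNReal.ofReal_one]
      rintro (h' | h')
      · simp at h'
      · exact h h'.2

/-- `φ` does not read coordinates forbidden to `(g, s+1)` -/
def NoRead (g : E) (s : ℕ) (φ : Lab E → ENNReal) : Prop :=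
  ∀ c : E × ℕ, 1 ≤ c.2 → ∀ z u, ¬ alw g s c z → φ (Function.update z c u) = φ z

theorem lk_alw (g : E) (s : ℕ) (φ : Lab E → ENNReal) (hφ : Measurable φ) (hr : NoRead g s φ)
    (S : Finset E) :
    lk (s + 1) φ S = ∫⁻ z, φ z * ∏ e ∈ S, ENNReal.ofReal (wt z g s e) ∂lab E := by
  classical
  unfold lk
  rw [mask (cs S (s + 1)) (alw g s) (measurableSet_alw g s)
    (fun c c' hc' z u => alw_update g s c c' ((mem_cs S (s+1) c').1 hc').2.1 z u) φ hφ
    (fun c hc z u hz => hr c ((mem_cs S (s+1) c).1 hc).2.1 z u hz)]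
  refine lintegral_congr fun z => ?_
  rw [prod_alw]

theorem measurable_prod_wt (g : E) (s : ℕ) (S : Finset E) :
    Measurable (fun z : Lab E => ∏ e ∈ S, ENNReal.ofReal (wt z g s e)) :=
  Finset.measurable_fun_prod _ fun e _ => (measurable_wt g s e).ennreal_ofReal

theorem lintegral_gen_wt {p : Finset E → Finset E → ℝ} (hp : IsGood p) (W : Finset E) (g : E) (s : ℕ)
    (φ : Lab E → ENNReal) (hφ : Measurable φ) (hr : NoRead g s φ) :
    ∫⁻ z, φ z * ENNReal.ofReal (gen p W (wt z g s)) ∂lab E =
      ∑ S ∈ W.powerset, ENNReal.ofReal (p W S) * lk (s + 1) φ S := by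
  have h1 : ∀ z : Lab E, φ z * ENNReal.ofReal (gen p W (wt z g s)) =
      ∑ S ∈ W.powerset, ENNReal.ofReal (p W S) * (φ z * ∏ e ∈ S, ENNReal.ofReal (wt z g s e)) := by
    intro z
    rw [ofReal_gen_eq hp W _ (wt_pos z g s), Finset.mul_sum]
    refine Finset.sum_congr rfl fun S _ => ?_
    ring
  simp_rw [h1]
  rw [lintegral_finsetSum]
  · refine Finset.sum_congr rfl fun S _ => ?_
    rw [lintegral_const_mul, lk_alw g s φ hφ hr]
    exact hφ.mul (measurable_prod_wt g s S)
  · intro S _
    exact measurable_const.mul (hφ.mul (measurable_prod_wt g s S))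

theorem lintegral_genIn_wt {p : Finset E → Finset E → ℝ} (hp : IsGood p) (W : Finset E) (g : E) (s : ℕ)
    (φ : Lab E → ENNReal) (hφ : Measurable φ) (hr : NoRead g s φ) :
    ∫⁻ z, φ z * ENNReal.ofReal (genIn p W g (wt z g s)) ∂lab E =
      ∑ S ∈ W.powerset, ENNReal.ofReal (p W S) * ((if g ∈ S then 1 else 0) * lk (s + 1) φ S) := by
  have h1 : ∀ z : Lab E, φ z * ENNReal.ofReal (genIn p W g (wt z g s)) =
      ∑ S ∈ W.powerset, (ENNReal.ofReal (p W S) * (if g ∈ S then 1 else 0)) *
        (φ z * ∏ e ∈ S, ENNReal.ofReal (wt z g s e)) := by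
    intro z
    rw [ofReal_genIn_eq hp W g _ (wt_pos z g s), Finset.mul_sum]
    refine Finset.sum_congr rfl fun S _ => ?_
    ring
  simp_rw [h1]
  rw [lintegral_finsetSum]
  · refine Finset.sum_congr rfl fun S _ => ?_
    rw [lintegral_const_mul, lk_alw g s φ hφ hr, mul_assoc]
    exact hφ.mul (measurable_prod_wt g s S)
  · intro S _
    exact measurable_const.mul (hφ.mul (measurable_prod_wt g s S))

theorem wt_update_of_not_alw (g : E) (s : ℕ) (c : E × ℕ) (hc : 1 ≤ c.2) (z : Lab E) (u : unitInterval)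
    (h : ¬ alw g s c z) : wt (Function.update z c u) g s = wt z g s := by
  ext e
  have h0 : ∀ e : E, Function.update z c u (e, 0) = z (e, 0) := by
    intro e
    rw [Function.update_of_ne]
    intro h'
    rw [← h'] at hc
    simp at hc
  unfold wt
  rw [h0, h0]
  congr 1
  · refine Finset.prod_congr rfl fun s' hs' => ?_
    rw [Function.update_of_ne]
    intro h'
    apply h
    left
    rw [← h']
    exact Finset.mem_range.1 hs'
  · split_ifs with ht
    · rw [Function.update_of_ne]
      intro h'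
      apply h
      right
      rw [← h']
      exact ⟨rfl, ht⟩
    · rfl

theorem wt_update_of_notMem (V : Finset E) (g : E) (s : ℕ) (c : E × ℕ) (hc : 1 ≤ c.2) (hcV : c.1 ∉ V)
    (z : Lab E) (u : unitInterval) : ∀ e ∈ V, wt (Function.update z c u) g s e = wt z g s e := by
  intro e he
  have h0 : ∀ e : E, Function.update z c u (e, 0) = z (e, 0) := by
    intro e
    rw [Function.update_of_ne]
    intro h'
    rw [← h'] at hc
    simp at hc
  have h1 : ∀ s' : ℕ, Function.update z c u (e, s') = z (e, s') := by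
    intro s'
    rw [Function.update_of_ne]
    intro h'
    rw [← h'] at hcV
    exact hcV he
  unfold wt
  rw [h0, h0, h1]
  congr 1
  exact Finset.prod_congr rfl fun s' _ => by rw [h1]

theorem measurable_pm_wt (p : Finset E → Finset E → ℝ) (W : Finset E) (g : E) (s : ℕ) :
    Measurable (fun z : Lab E => pm p W g (wt z g s)) :=
  measurable_pm_param (fun _ => p) W (fun _ => measurable_const) g _ fun e => measurable_wt g s e

/-- second moment of the posterior mean -/
noncomputable def sm (p : Finset E → Finset E → ℝ) (g : E) (s : ℕ) (W : Finset E) : ENNReal :=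
  ∫⁻ z, ENNReal.ofReal (pm p W g (wt z g s) ^ 2) * ENNReal.ofReal (dens p W (s + 1) z) ∂lab E

theorem lintegral_dens_one {p : Finset E → Finset E → ℝ} (hp : IsGood p) (W : Finset E) (M : ℕ) :
    ∫⁻ z, ENNReal.ofReal (dens p W M z) ∂lab E = 1 := by
  have := exact hp W M (fun _ => 1) measurable_const (fun _ _ _ => rfl)
  simp only [one_mul] at this
  rw [← this]
  simp

theorem sm_le_one {p : Finset E → Finset E → ℝ} (hp : IsGood p) (g : E) (s : ℕ) (W : Finset E) :
    sm p g s W ≤ 1 := by
  unfold sm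
  rw [← lintegral_dens_one hp W (s + 1)]
  refine lintegral_mono fun z => ?_
  have h0 := pm_nonneg hp W g _ (wt_pos z g s)
  have h1 := pm_le_one hp W g _ (wt_pos z g s)
  calc ENNReal.ofReal (pm p W g (wt z g s) ^ 2) * ENNReal.ofReal (dens p W (s + 1) z)
      ≤ 1 * ENNReal.ofReal (dens p W (s + 1) z) := by
        gcongr
        rw [← ENNReal.ofReal_one]
        exact ENNReal.ofReal_le_ofReal (pow_le_one₀ h0 h1)
    _ = _ := one_mul _

theorem pythagoras {p : Finset E → Finset E → ℝ} (hp : IsGood p) (g : E) (s : ℕ) (V W : Finset E)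
    (hg : g ∈ V) (hVW : V ⊆ W) :
    ∫⁻ z, ENNReal.ofReal ((pm p W g (wt z g s) - pm p V g (wt z g s)) ^ 2) *
        ENNReal.ofReal (dens p W (s + 1) z) ∂lab E + sm p g s V = sm p g s W := by
  set mW : Lab E → ℝ := fun z => pm p W g (wt z g s) with hmW
  set mV : Lab E → ℝ := fun z => pm p V g (wt z g s) with hmV
  have hW0 : ∀ z, 0 ≤ mW z := fun z => pm_nonneg hp W g _ (wt_pos z g s)
  have hV0 : ∀ z, 0 ≤ mV z := fun z => pm_nonneg hp V g _ (wt_pos z g s)
  have measW : Measurable mW := measurable_pm_wt p W g s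
  have measV : Measurable mV := measurable_pm_wt p V g s
  have noreadW : ∀ c : E × ℕ, 1 ≤ c.2 → ∀ z u, ¬ alw g s c z → mW (Function.update z c u) = mW z := by
    intro c hc z u h
    simp only [hmW, wt_update_of_not_alw g s c hc z u h]
  have noreadV : ∀ c : E × ℕ, 1 ≤ c.2 → ∀ z u, ¬ alw g s c z → mV (Function.update z c u) = mV z := by
    intro c hc z u h
    simp only [hmV, wt_update_of_not_alw g s c hc z u h]
  have offV : ∀ c : E × ℕ, c.1 ∉ V → 1 ≤ c.2 → ∀ z u, mV (Function.update z c u) = mV z := by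
    intro c hcV hc z u
    exact pm_congr p V g _ _ (wt_update_of_notMem V g s c hc hcV z u)
  -- E_W[(m^V)^2] = E_V[(m^V)^2]
  have c1 : ∫⁻ z, ENNReal.ofReal (mV z ^ 2) * ENNReal.ofReal (dens p W (s + 1) z) ∂lab E =
      sm p g s V := by
    unfold sm
    rw [lintegral_dens_eq hp W (s+1) _ (measV.pow_const 2).ennreal_ofReal,
      lintegral_dens_eq hp V (s+1) _ (measV.pow_const 2).ennreal_ofReal,
      ← sum_consistent hp V W hVW]
    refine Finset.sum_congr rfl fun S _ => ?_
    rw [lk_inter V (s+1) _ (measV.pow_const 2).ennreal_ofReal ?_ S]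
    intro c hcV hc z u
    rw [offV c hcV hc z u]
  -- E_W[m^W m^V] = E_V[(m^V)^2]
  have c2 : ∫⁻ z, ENNReal.ofReal (mW z * mV z) * ENNReal.ofReal (dens p W (s + 1) z) ∂lab E =
      sm p g s V := by
    have nr1 : NoRead g s (fun z => ENNReal.ofReal (mW z * mV z)) := by
      intro c hc z u h
      simp only [noreadW c hc z u h, noreadV c hc z u h]
    have nr2 : NoRead g s (fun z => ENNReal.ofReal (mV z)) := by
      intro c hc z u h
      simp only [noreadV c hc z u h]
    have nr3 : NoRead g s (fun z => ENNReal.ofReal (mV z ^ 2)) := by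
      intro c hc z u h
      simp only [noreadV c hc z u h]
    have meas1 : Measurable (fun z => ENNReal.ofReal (mW z * mV z)) := (measW.mul measV).ennreal_ofReal
    have meas2 : Measurable (fun z => ENNReal.ofReal (mV z)) := measV.ennreal_ofReal
    have meas3 : Measurable (fun z => ENNReal.ofReal (mV z ^ 2)) := (measV.pow_const 2).ennreal_ofReal
    unfold sm
    rw [lintegral_dens_eq hp W (s+1) _ meas1, ← lintegral_gen_wt hp W g s _ meas1 nr1,
      lintegral_dens_eq hp V (s+1) _ meas3, ← lintegral_gen_wt hp V g s _ meas3 nr3]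
    have e1 : ∀ z : Lab E, ENNReal.ofReal (mW z * mV z) * ENNReal.ofReal (gen p W (wt z g s)) =
        ENNReal.ofReal (mV z) * ENNReal.ofReal (genIn p W g (wt z g s)) := by
      intro z
      rw [← ENNReal.ofReal_mul (mul_nonneg (hW0 z) (hV0 z)), ← ENNReal.ofReal_mul (hV0 z)]
      congr 1
      have := gen_pos hp W _ (wt_pos z g s)
      simp only [hmW]
      unfold pm
      field_simp
    have e2 : ∀ z : Lab E, ENNReal.ofReal (mV z ^ 2) * ENNReal.ofReal (gen p V (wt z g s)) =
        ENNReal.ofReal (mV z) * ENNReal.ofReal (genIn p V g (wt z g s)) := by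
      intro z
      rw [← ENNReal.ofReal_mul (sq_nonneg _), ← ENNReal.ofReal_mul (hV0 z)]
      congr 1
      have := gen_pos hp V _ (wt_pos z g s)
      simp only [hmV]
      unfold pm
      field_simp
    simp_rw [e1, e2]
    rw [lintegral_genIn_wt hp W g s _ meas2 nr2, lintegral_genIn_wt hp V g s _ meas2 nr2,
      ← sum_consistent hp V W hVW]
    refine Finset.sum_congr rfl fun S _ => ?_
    have hiff : g ∈ S ↔ g ∈ S ∩ V := by simp [hg]
    rw [lk_inter V (s+1) _ meas2 ?_ S]
    · by_cases h : g ∈ S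
      · rw [if_pos h, if_pos (hiff.1 h)]
      · rw [if_neg h, if_neg (fun h' => h (hiff.2 h'))]
    · intro c hcV hc z u
      rw [offV c hcV hc z u]
  have hfin : sm p g s V ≠ ⊤ := ne_top_of_le_ne_top ENNReal.one_ne_top (sm_le_one hp g s V)
  have measD : Measurable (fun z => ENNReal.ofReal (dens p W (s + 1) z)) :=
    (measurable_dens p W (s+1)).ennreal_ofReal
  -- pointwise identity
  have key : (∫⁻ z, ENNReal.ofReal ((mW z - mV z) ^ 2) *
        ENNReal.ofReal (dens p W (s + 1) z) ∂lab E + sm p g s V) + sm p g s V =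
        sm p g s W + sm p g s V := by
    nth_rewrite 1 [← c2]
    nth_rewrite 1 [← c2]
    nth_rewrite 1 [← c1]
    unfold sm
    rw [← lintegral_add_right, ← lintegral_add_right, ← lintegral_add_right]
    · refine lintegral_congr fun z => ?_
      rw [← add_mul, ← add_mul, ← add_mul]
      congr 1
      rw [← ENNReal.ofReal_add (sq_nonneg _) (mul_nonneg (hW0 z) (hV0 z)),
        ← ENNReal.ofReal_add (add_nonneg (sq_nonneg _) (mul_nonneg (hW0 z) (hV0 z)))
          (mul_nonneg (hW0 z) (hV0 z)),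
        ← ENNReal.ofReal_add (sq_nonneg _) (sq_nonneg _)]
      congr 1
      ring
    · exact ((measV.pow_const 2).ennreal_ofReal).mul measD
    · exact ((measW.mul measV).ennreal_ofReal).mul measD
    · exact ((measW.mul measV).ennreal_ofReal).mul measD
  exact (ENNReal.add_left_inj hfin).1 key

theorem l2_cauchy {p : Finset E → Finset E → ℝ} (hp : IsGood p)
    (g : E) (s : ℕ) (ε : ℝ) (hε : 0 < ε) :
    ∃ V : Finset E, g ∈ V ∧ ∀ W : Finset E, V ⊆ W →
      ∫⁻ z, ENNReal.ofReal ((pm p W g (wt z g s) - pm p V g (wt z g s)) ^ 2) *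
        ENNReal.ofReal (dens p W (s + 1) z) ∂lab E ≤ ENNReal.ofReal ε := by
  set A : {W : Finset E // g ∈ W} → ENNReal := fun W => sm p g s W with hA
  have hle : ⨆ W, A W ≤ 1 := iSup_le fun W => sm_le_one hp g s W
  have hne : (⨆ W, A W) ≠ ⊤ := ne_top_of_le_ne_top ENNReal.one_ne_top hle
  have hεpos : 0 < ENNReal.ofReal ε := ENNReal.ofReal_pos.2 hε
  -- choose V with sup ≤ A V + ε
  obtain ⟨V, hV⟩ : ∃ V, (⨆ W, A W) ≤ A V + ENNReal.ofReal ε := by
    by_contra hcon
    push Not at hcon
    have h1 : (⨆ W, A W) + ENNReal.ofReal ε ≤ ⨆ W, A W := by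
      have : Nonempty {W : Finset E // g ∈ W} := ⟨⟨{g}, by simp⟩⟩
      rw [ENNReal.iSup_add]
      exact iSup_le fun W => (hcon W).le
    exact absurd h1 (not_le.2 (ENNReal.lt_add_right hne hεpos.ne'))
  refine ⟨V, V.2, fun W hVW => ?_⟩
  have hpy := pythagoras hp g s V W V.2 hVW
  have hWle : sm p g s W ≤ sm p g s V + ENNReal.ofReal ε :=
    (le_iSup A ⟨W, hVW V.2⟩).trans hV
  rw [← hpy, add_comm] at hWle
  have hfin : sm p g s (V : Finset E) ≠ ⊤ :=
    ne_top_of_le_ne_top ENNReal.one_ne_top (sm_le_one hp g s V)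
  exact (ENNReal.add_le_add_iff_left hfin).1 hWle

end Crest.Agent.SRF
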