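import Crest.Agent.SRF_Cauchy

set_option autoImplicit false
set_option linter.unusedSectionVars false
set_option linter.unusedVariables false

namespace Crest.Agent.SRF

open MeasureTheory Filter Topology ProbabilityTheory

/-! ### decoding -/

theorem measurable_avg (n : ℕ) :
    Measurable (fun z : ℕ → unitInterval => (∑ s ∈ Finset.range n, (z s : ℝ)) / n) := by
  refine Measurable.div_const ?_ _
  exact Finset.measurable_fun_sum _ fun s _ => measurable_subtype_coe.comp (measurable_pi_apply s)

theorem measurable_dec : Measurable dec := by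
  have hl : Measurable (fun z : ℕ → unitInterval =>
      limsup (fun n : ℕ => (∑ s ∈ Finset.range n, (z s : ℝ)) / n) atTop) :=
    Measurable.limsup measurable_avg
  refine measurable_to_bool ?_
  have : dec ⁻¹' {true} = {z : ℕ → unitInterval |
      (13 / 24 : ℝ) < limsup (fun n : ℕ => (∑ s ∈ Finset.range n, (z s : ℝ)) / n) atTop} := by
    ext z
    simp [dec]
  rw [this]
  exact measurableSet_lt measurable_const hl

theorem dec_eq_true_iff (z : ℕ → unitInterval) (a : ℝ)
    (h : Tendsto (fun n : ℕ => (∑ s ∈ Finset.range n, (z s : ℝ)) / n) atTop (𝓝 a)) :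
    dec z = true ↔ 13 / 24 < a := by
  unfold dec
  rw [decide_eq_true_iff, h.limsup_eq]

/-! ### strong law for the label coordinates -/

variable {E : Type*}

theorem slln (f : unitInterval → ℝ) (hf : Measurable f) (C : ℝ) (hC : ∀ u, |f u| ≤ C) (e : E) :
    ∀ᵐ L ∂lab E, Tendsto (fun n : ℕ => (∑ s ∈ Finset.range n, f (L (e, s + 1))) / n) atTop
      (𝓝 (∫ u : unitInterval, f u)) := by
  classical
  have hind : iIndepFun (fun (c : E × ℕ) (L : Lab E) => f (L c)) (lab E) := by
    unfold lab
    exact iIndepFun_infinitePi (X := fun _ u => f u) (fun _ => hf)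
  have hmap : ∀ c : E × ℕ, (lab E).map (fun L => L c) = (volume : Measure unitInterval) := by
    intro c
    unfold lab
    exact Measure.infinitePi_map_eval (fun _ : E × ℕ => (volume : Measure unitInterval)) c
  set X : ℕ → Lab E → ℝ := fun s L => f (L (e, s + 1)) with hX
  have hXm : ∀ s, Measurable (X s) := fun s => hf.comp (measurable_pi_apply _)
  have hlaw : ∀ s, (lab E).map (X s) = (volume : Measure unitInterval).map f := by
    intro s
    have : X s = f ∘ (fun L : Lab E => L (e, s + 1)) := rfl
    have hev : Measurable (fun L : Lab E => L (e, s + 1)) := measurable_pi_apply _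
    rw [this, ← Measure.map_map hf hev, hmap]
  have hint : Integrable (X 0) (lab E) := by
    refine Integrable.of_bound (hXm 0).aestronglyMeasurable C (Filter.Eventually.of_forall fun L => ?_)
    exact hC _
  have hexp : ∫ L, X 0 L ∂lab E = ∫ u : unitInterval, f u := by
    have hev : Measurable (fun L : Lab E => L (e, 0 + 1)) := measurable_pi_apply _
    rw [← hmap (e, 0 + 1), integral_map hev.aemeasurable hf.aestronglyMeasurable]
  rw [← hexp]
  refine strong_law_ae_real X hint ?_ ?_
  · intro i j hij
    have hne : ((e, i + 1) : E × ℕ) ≠ (e, j + 1) := by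
      intro h
      exact hij (Nat.succ_injective (Prod.mk.inj h).2)
    exact hind.indepFun hne
  · intro i
    exact ⟨(hXm i).aemeasurable, (hXm 0).aemeasurable, by rw [hlaw i, hlaw 0]⟩

theorem integral_unitInterval (f : ℝ → ℝ) :
    ∫ u : unitInterval, f u = ∫ x in (0:ℝ)..1, f x := by
  rw [intervalIntegral.integral_of_le zero_le_one, ← integral_Icc_eq_integral_Ioc]
  rw [unitInterval.volume_def]
  exact integral_subtype_comap measurableSet_Icc f

theorem integral_id_unit : ∫ u : unitInterval, (u : ℝ) = 1 / 2 := by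
  rw [integral_unitInterval (fun x => x)]
  simp

theorem integral_Q_one : ∫ u : unitInterval, (Q 1 u : ℝ) = 7 / 12 := by
  have hQm : Measurable (fun u : unitInterval => Q 1 u) :=
    measurable_Q.comp (measurable_const.prodMk measurable_id)
  rw [integral_eq_lintegral_of_nonneg_ae (Filter.Eventually.of_forall fun u => (Q 1 u).2.1)
    (measurable_subtype_coe.comp hQm).aestronglyMeasurable]
  have h1 := lintegral_Q 1 zero_le_one le_rfl (fun z => ENNReal.ofReal (z : ℝ))
    measurable_subtype_coe.ennreal_ofReal
  rw [h1]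
  have h2 : ∀ z : unitInterval, ENNReal.ofReal (z : ℝ) * ENNReal.ofReal (1 + 1 * (rr z - 1)) =
      ENNReal.ofReal ((fun x : ℝ => x * (x + 1 / 2)) z) := by
    intro z
    rw [← ENNReal.ofReal_mul z.2.1]
    congr 1
    unfold rr; ring
  simp_rw [h2]
  rw [← integral_eq_lintegral_of_nonneg_ae]
  · rw [integral_unitInterval (fun x : ℝ => x * (x + 1 / 2))]
    have : ∀ x : ℝ, x * (x + 1 / 2) = x ^ 2 + x * (1 / 2) := fun x => by ring
    simp_rw [this]
    rw [intervalIntegral.integral_add (Continuous.intervalIntegrable (by fun_prop) _ _)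
      (Continuous.intervalIntegrable (by fun_prop) _ _)]
    simp
    norm_num
  · refine Filter.Eventually.of_forall fun z => ?_
    have := z.2.1
    simp only [Pi.zero_apply]
    positivity
  · exact Continuous.aestronglyMeasurable (by fun_prop)

/-! ### change of measure for finitely many coordinates -/

variable [DecidableEq E]

/-- apply `Q 1` at the coordinates of `D` -/
noncomputable def TD (D : Finset (E × ℕ)) (z : Lab E) : Lab E :=
  fun c => if c ∈ D then Q 1 (z c) else z c

theorem measurable_Q_one : Measurable (fun u : unitInterval => Q 1 u) :=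
  measurable_Q.comp (measurable_const.prodMk measurable_id)

theorem measurable_TD (D : Finset (E × ℕ)) : Measurable (TD (E := E) D) := by
  refine measurable_pi_lambda _ fun c => ?_
  unfold TD
  split_ifs
  · exact measurable_Q_one.comp (measurable_pi_apply c)
  · exact measurable_pi_apply c

theorem lintegral_TD (D : Finset (E × ℕ)) :
    ∀ G : Lab E → ENNReal, Measurable G →
    ∫⁻ z, G (TD D z) ∂lab E = ∫⁻ z, G z * ∏ c ∈ D, ENNReal.ofReal (rr (z c)) ∂lab E := by
  induction D using Finset.induction_on with
  | empty =>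
    intro G _
    have : ∀ z : Lab E, TD ∅ z = z := by
      intro z; ext c; simp [TD]
    simp [this]
  | insert c D hc ih =>
    intro G hG
    set G' : Lab E → ENNReal := fun y => G (Function.update y c (Q 1 (y c))) with hG'
    have hupd : Measurable (fun y : Lab E => Function.update y c (Q 1 (y c))) :=
      measurable_upd c _ _ measurable_id (measurable_Q_one.comp (measurable_pi_apply c))
    have hG'm : Measurable G' := hG.comp hupd
    have e1 : ∀ z : Lab E, G (TD (insert c D) z) = G' (TD D z) := by
      intro z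
      simp only [hG']
      congr 1
      ext x
      by_cases hx : x = c
      · subst hx; simp [TD, hc]
      · simp [TD, Function.update_of_ne hx, hx]
    simp_rw [e1]
    rw [ih G' hG'm]
    have hP : Measurable (fun z : Lab E => ∏ c ∈ D, ENNReal.ofReal (rr (z c))) :=
      Finset.measurable_fun_prod _ fun c _ => (measurable_rr.comp (measurable_pi_apply c)).ennreal_ofReal
    have hP' : Measurable (fun z : Lab E => ∏ c ∈ insert c D, ENNReal.ofReal (rr (z c))) :=
      Finset.measurable_fun_prod _ fun c _ => (measurable_rr.comp (measurable_pi_apply c)).ennreal_ofReal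
    rw [lintegral_resample c (fun z => G' z * ∏ c ∈ D, ENNReal.ofReal (rr (z c))) (hG'm.mul hP),
      lintegral_resample c (fun z => G z * ∏ c ∈ insert c D, ENNReal.ofReal (rr (z c))) (hG.mul hP')]
    refine lintegral_congr fun z => ?_
    have hprod : ∀ u : unitInterval, ∏ x ∈ D, ENNReal.ofReal (rr (Function.update z c u x)) =
        ∏ x ∈ D, ENNReal.ofReal (rr (z x)) := by
      intro u
      refine Finset.prod_congr rfl fun x hx => ?_
      rw [Function.update_of_ne (fun h : x = c => hc (h ▸ hx))]
    have e2 : ∀ u : unitInterval, G' (Function.update z c u) *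
        ∏ x ∈ D, ENNReal.ofReal (rr (Function.update z c u x)) =
        (∏ x ∈ D, ENNReal.ofReal (rr (z x))) * (fun v => G (Function.update z c v)) (Q 1 u) := by
      intro u
      rw [hprod, mul_comm]
      simp only [hG', Function.update_idem, Function.update_self]
    have e3 : ∀ u : unitInterval, G (Function.update z c u) *
        ∏ x ∈ insert c D, ENNReal.ofReal (rr (Function.update z c u x)) =
        (∏ x ∈ D, ENNReal.ofReal (rr (z x))) * ((fun v => G (Function.update z c v)) u *
          ENNReal.ofReal (1 + 1 * (rr u - 1))) := by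
      intro u
      rw [Finset.prod_insert hc, hprod, Function.update_self]
      have : 1 + 1 * (rr u - 1) = rr u := by ring
      rw [this]
      ring
    simp_rw [e2, e3]
    have hmv : Measurable (fun v : unitInterval => G (Function.update z c v)) :=
      hG.comp (measurable_upd c _ _ measurable_const measurable_id)
    rw [lintegral_const_mul, lintegral_const_mul,
      lintegral_Q 1 zero_le_one le_rfl _ hmv]
    · refine hmv.mul (Measurable.ennreal_ofReal ?_)
      exact (((measurable_rr.sub_const 1).const_mul _).const_add 1)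
    · exact hmv.comp measurable_Q_one

/-! ### limits of laws -/

theorem limit_law {Ω : Type*} [MeasurableSpace Ω] (P : Measure Ω) [IsProbabilityMeasure P]
    {ι : Type*} (Yj : ℕ → Ω → (ι → unitInterval)) (Y : Ω → (ι → unitInterval))
    (hYj : ∀ j, Measurable (Yj j)) (hY : Measurable Y)
    (hlim : ∀ c, ∀ᵐ ω ∂P, Tendsto (fun j => Yj j ω c) atTop (𝓝 (Y ω c)))
    (𝕄 : Measure (ι → unitInterval)) [IsFiniteMeasure 𝕄]
    (h𝕄 : ∀ C : Finset ι, ∀ᶠ j in atTop, ∀ h : (ι → unitInterval) → ENNReal, Measurable h →
      (∀ z z', (∀ c ∈ C, z c = z' c) → h z = h z') → ∫⁻ ω, h (Yj j ω) ∂P = ∫⁻ z, h z ∂𝕄) :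
    P.map Y = 𝕄 := by
  have hmarg : ∀ C : Finset ι, (P.map Y).map C.restrict = 𝕄.map C.restrict := by
    intro C
    have hrm : Measurable (C.restrict : (ι → unitInterval) → (C → unitInterval)) :=
      Finset.measurable_restrict C
    rw [Measure.map_map hrm hY]
    have : IsFiniteMeasure (P.map (C.restrict ∘ Y)) := by
      have : IsProbabilityMeasure (P.map (C.restrict ∘ Y)) :=
        Measure.isProbabilityMeasure_map (hrm.comp hY).aemeasurable
      infer_instance
    have : IsFiniteMeasure (𝕄.map C.restrict) := by infer_instance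
    refine ext_of_forall_lintegral_eq_of_IsFiniteMeasure fun f => ?_
    have hfm : Measurable (fun x => (f x : ENNReal)) :=
      (f.continuous.measurable).coe_nnreal_ennreal
    rw [lintegral_map hfm (hrm.comp hY), lintegral_map hfm hrm]
    have hlimC : ∀ᵐ ω ∂P, ∀ c ∈ C, Tendsto (fun j => Yj j ω c) atTop (𝓝 (Y ω c)) := by
      rw [Finset.eventually_all]
      exact fun c _ => hlim c
    have htend : Tendsto (fun j => ∫⁻ ω, (f (C.restrict (Yj j ω)) : ENNReal) ∂P) atTop
        (𝓝 (∫⁻ ω, (f (C.restrict (Y ω)) : ENNReal) ∂P)) := by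
      refine tendsto_lintegral_of_dominated_convergence (fun _ => (nndist f 0 : ENNReal)) ?_ ?_ ?_ ?_
      · exact fun j => hfm.comp (hrm.comp (hYj j))
      · intro j
        refine Filter.Eventually.of_forall fun ω => ?_
        exact ENNReal.coe_le_coe.2 (BoundedContinuousFunction.NNReal.upper_bound f _)
      · simp
      · filter_upwards [hlimC] with ω hω
        have hr : Tendsto (fun j => C.restrict (Yj j ω)) atTop (𝓝 (C.restrict (Y ω))) := by
          rw [tendsto_pi_nhds]
          intro c
          exact hω c c.2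
        exact (ENNReal.continuous_coe.tendsto _).comp ((f.continuous.tendsto _).comp hr)
    have hconst : Tendsto (fun j => ∫⁻ ω, (f (C.restrict (Yj j ω)) : ENNReal) ∂P) atTop
        (𝓝 (∫⁻ z, (f (C.restrict z) : ENNReal) ∂𝕄)) := by
      refine tendsto_const_nhds.congr' ?_
      filter_upwards [h𝕄 C] with j hj
      refine (hj (fun z => (f (C.restrict z) : ENNReal)) (hfm.comp hrm) ?_).symm
      intro z z' hz
      have : C.restrict z = C.restrict z' := by
        ext c
        rw [Finset.restrict_def]
        simp only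
        rw [hz c c.2]
      simp only [this]
    exact tendsto_nhds_unique htend hconst
  have h1 : IsProjectiveLimit (P.map Y) (fun C : Finset ι => 𝕄.map C.restrict) := fun C => hmarg C
  have h2 : IsProjectiveLimit 𝕄 (fun C : Finset ι => 𝕄.map C.restrict) := fun C => rfl
  have : ∀ C : Finset ι, IsFiniteMeasure (𝕄.map (C.restrict : (ι → unitInterval) → _)) :=
    fun C => by infer_instance
  exact h1.unique h2


/-! ### a common sequence of windows -/

theorem exists_windows {p : Finset E → Finset E → ℝ} (hp : IsGood p) (F : Finset E)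
    (Wn : E → ℕ → Finset E) (hW : ∀ e (V : Finset E), ∀ᶠ k in atTop, V ⊆ Wn e k)
    (ζ : E → ℕ → Lab E → unitInterval)
    (hlim : ∀ e s, ∀ᵐ L ∂lab E, Tendsto (fun k => Zs p (Wn e k) L (e, s + 1)) atTop (𝓝 (ζ e s L))) :
    ∃ V : ℕ → Finset E, (∀ j, F ⊆ V j) ∧
      ∀ e ∈ F, ∀ s, ∀ᵐ L ∂lab E, Tendsto (fun j => Zs p (V j) L (e, s + 1)) atTop (𝓝 (ζ e s L)) := by
  have hεpos : ∀ j : ℕ, (0:ℝ) < (1 / 2) ^ j := fun j => by positivity
  have hch : ∀ (e : E) (s j : ℕ), ∃ V : Finset E, ∀ W W' : Finset E, V ⊆ W → V ⊆ W' →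
      lab E {L | ((1:ℝ) / 2) ^ j < |(Zs p W L (e, s + 1) : ℝ) - Zs p W' L (e, s + 1)|} ≤
        ENNReal.ofReal ((1 / 2) ^ j) := fun e s j => Zs_cauchy hp e s _ (hεpos j)
  choose VV hVV using hch
  set V : ℕ → Finset E := fun j => F ∪ F.biUnion (fun e => (Finset.range (j + 1)).biUnion (fun s => VV e s j))
    with hV
  have hsub : ∀ j, ∀ e ∈ F, ∀ s ≤ j, VV e s j ⊆ V j := by
    intro j e he s hs x hx
    refine Finset.mem_union_right _ ?_
    rw [Finset.mem_biUnion]
    refine ⟨e, he, ?_⟩
    rw [Finset.mem_biUnion]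
    exact ⟨s, Finset.mem_range.2 (by omega), hx⟩
  refine ⟨V, fun j => Finset.subset_union_left, fun e he s => ?_⟩
  -- indices k_j
  have hk : ∀ j : ℕ, ∃ k : ℕ, j ≤ k ∧ V j ⊆ Wn e k := by
    intro j
    obtain ⟨k, hk1, hk2⟩ := ((hW e (V j)).and (eventually_ge_atTop j)).exists
    exact ⟨k, hk2, hk1⟩
  choose κ hκ1 hκ2 using hk
  have hκ : Tendsto κ atTop atTop := tendsto_atTop_mono hκ1 tendsto_id
  set B : ℕ → Set (Lab E) := fun j =>
    if s ≤ j then {L | ((1:ℝ) / 2) ^ j < |(Zs p (V j) L (e, s + 1) : ℝ) - Zs p (Wn e (κ j)) L (e, s + 1)|}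
    else ∅ with hB
  have hBle : ∀ j, lab E (B j) ≤ ENNReal.ofReal ((1 / 2) ^ j) := by
    intro j
    by_cases hs : s ≤ j
    · simp only [hB, if_pos hs]
      exact hVV e s j _ _ (hsub j e he s hs) ((hsub j e he s hs).trans (hκ2 j))
    · simp only [hB, if_neg hs, measure_empty]
      exact zero_le
  have hsum : ∑' j, lab E (B j) ≠ ⊤ := by
    refine ne_top_of_le_ne_top ?_ (ENNReal.tsum_le_tsum hBle)
    have : ∀ j : ℕ, ENNReal.ofReal ((1 / 2 : ℝ) ^ j) = (ENNReal.ofReal (1 / 2)) ^ j := fun j =>
      ENNReal.ofReal_pow (by norm_num) j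
    simp_rw [this]
    rw [ENNReal.tsum_geometric]
    have h2 : ENNReal.ofReal (1 / 2) < 1 := by
      rw [ENNReal.ofReal_lt_one]; norm_num
    have h3 : 1 - ENNReal.ofReal (1 / 2) ≠ 0 := (tsub_pos_of_lt h2).ne'
    exact ENNReal.inv_ne_top.2 h3
  filter_upwards [hlim e s, ae_eventually_notMem hsum] with L hL1 hL2
  have h1 : Tendsto (fun j => (Zs p (Wn e (κ j)) L (e, s + 1) : ℝ)) atTop (𝓝 (ζ e s L : ℝ)) :=
    (continuous_subtype_val.tendsto _).comp (hL1.comp hκ)
  have h2 : Tendsto (fun j => (Zs p (V j) L (e, s + 1) : ℝ) - Zs p (Wn e (κ j)) L (e, s + 1)) atTop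
      (𝓝 0) := by
    rw [tendsto_zero_iff_abs_tendsto_zero]
    have hpow : Tendsto (fun j : ℕ => ((1:ℝ) / 2) ^ j) atTop (𝓝 0) :=
      tendsto_pow_atTop_nhds_zero_of_lt_one (by norm_num) (by norm_num)
    refine squeeze_zero' (Filter.Eventually.of_forall fun j => abs_nonneg _) ?_ hpow
    filter_upwards [hL2, eventually_ge_atTop s] with j hj hjs
    simp only [hB, if_pos hjs, Set.mem_ofPred_eq, not_lt] at hj
    exact hj
  have h3 : Tendsto (fun j => (Zs p (V j) L (e, s + 1) : ℝ)) atTop (𝓝 (ζ e s L : ℝ)) := by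
    have := h2.add h1
    simpa using this
  exact tendsto_subtype_rng.2 h3

/-- `TT R`: the observation field in the component `R` -/
noncomputable def TT (F R : Finset E) (z : Lab E) : F × ℕ → unitInterval :=
  fun c => if (c.1 : E) ∈ R then Q 1 (z ((c.1 : E), c.2 + 1)) else z ((c.1 : E), c.2 + 1)

theorem measurable_TT (F R : Finset E) : Measurable (TT F R) := by
  refine measurable_pi_lambda _ fun c => ?_
  unfold TT
  split_ifs
  · exact measurable_Q_one.comp (measurable_pi_apply _)
  · exact measurable_pi_apply _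

/-- the mixture law of the observations on `F` -/
noncomputable def mix (p : Finset E → Finset E → ℝ) (F : Finset E) : Measure (F × ℕ → unitInterval) :=
  Measure.sum (fun R : {R // R ∈ F.powerset} => ENNReal.ofReal (p F R) • (lab E).map (TT F R))

theorem lintegral_mix (p : Finset E → Finset E → ℝ) (F : Finset E) (h : (F × ℕ → unitInterval) → ENNReal)
    (hh : Measurable h) :
    ∫⁻ y, h y ∂mix p F = ∑ R ∈ F.powerset, ENNReal.ofReal (p F R) * ∫⁻ z, h (TT F R z) ∂lab E := by
  unfold mix
  rw [lintegral_sum_measure, tsum_fintype]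
  rw [← Finset.sum_coe_sort F.powerset
    (fun R => ENNReal.ofReal (p F R) * ∫⁻ z, h (TT F R z) ∂lab E)]
  refine Finset.sum_congr rfl fun R _ => ?_
  rw [lintegral_smul_measure, lintegral_map hh (measurable_TT F R), smul_eq_mul]

theorem mix_univ {p : Finset E → Finset E → ℝ} (hp : IsGood p) (F : Finset E) :
    mix p F Set.univ = 1 := by
  rw [← lintegral_one, lintegral_mix p F _ measurable_const]
  simp only [lintegral_one, measure_univ, mul_one]
  rw [← ENNReal.ofReal_sum_of_nonneg fun R hR => hp.nonneg F R (Finset.mem_powerset.1 hR), hp.total F,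
    ENNReal.ofReal_one]

/-- law of the limit observations -/
theorem law_obs {p : Finset E → Finset E → ℝ}
    (hp : IsGood p) (Wn : E → ℕ → Finset E) (hW : ∀ e (V : Finset E), ∀ᶠ k in atTop, V ⊆ Wn e k)
    (ζ : E → ℕ → Lab E → unitInterval) (hζ : ∀ e s, Measurable (ζ e s))
    (hlim : ∀ e s, ∀ᵐ L ∂lab E, Tendsto (fun k => Zs p (Wn e k) L (e, s + 1)) atTop (𝓝 (ζ e s L)))
    (F : Finset E) :
    (lab E).map (fun L => fun c : F × ℕ => ζ c.1 c.2 L) = mix p F := by
  obtain ⟨V, hFV, hV⟩ := exists_windows hp F Wn hW ζ hlim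
  have : IsFiniteMeasure (mix p F) := ⟨by rw [mix_univ hp F]; exact ENNReal.one_lt_top⟩
  have hobs : Measurable (fun z : Lab E => fun c : F × ℕ => z ((c.1 : E), c.2 + 1)) :=
    measurable_pi_lambda _ fun c => measurable_pi_apply _
  refine limit_law (lab E) (fun j L => fun c : F × ℕ => Zs p (V j) L (c.1, c.2 + 1)) _ ?_ ?_ ?_ (mix p F) ?_
  · intro j
    exact hobs.comp (measurable_Zs p (V j))
  · exact measurable_pi_lambda _ fun c => hζ _ _
  · intro c
    exact hV c.1 c.1.2 c.2
  · intro C
    refine Filter.Eventually.of_forall fun j => fun h hh hdep => ?_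
    set M : ℕ := C.sup (fun c => c.2) + 1 with hM
    have hCM : ∀ c ∈ C, c.2 < M := fun c hc => Nat.lt_succ_of_le (Finset.le_sup (f := fun c => c.2) hc)
    set h' : Lab E → ENNReal := fun z => h (fun c : F × ℕ => z ((c.1 : E), c.2 + 1)) with hh'
    have hh'm : Measurable h' := hh.comp hobs
    have e1 : ∫⁻ L, h (fun c : F × ℕ => Zs p (V j) L (c.1, c.2 + 1)) ∂lab E =
        ∫⁻ L, h' (Zs p (V j) L) ∂lab E := rfl
    rw [e1, exact hp (V j) M h' hh'm, dens_consistent hp F (V j) (hFV j) M h' hh'm,
      lintegral_dens_eq hp F M h' hh'm, lintegral_mix p F h hh]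
    · refine Finset.sum_congr rfl fun R hR => ?_
      congr 1
      unfold lk
      rw [← lintegral_TD (cs R M) h' hh'm]
      refine lintegral_congr fun z => ?_
      simp only [hh']
      refine hdep _ _ fun c hc => ?_
      unfold TT TD
      have hiff : ((c.1 : E), c.2 + 1) ∈ cs R M ↔ (c.1 : E) ∈ R := by
        rw [mem_cs]
        constructor
        · exact fun h => h.1
        · intro h
          exact ⟨h, Nat.succ_le_succ (Nat.zero_le _), hCM c hc⟩
      by_cases hR' : (c.1 : E) ∈ R
      · rw [if_pos (hiff.2 hR'), if_pos hR']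
      · rw [if_neg (fun h => hR' (hiff.1 h)), if_neg hR']
    · intro z z' _ hz
      refine hdep _ _ fun c hc => ?_
      exact hz c.1 c.1.2 (c.2 + 1) (hCM c hc)
    · intro z z' hz
      refine hdep _ _ fun c hc => ?_
      exact hz c.1 (c.2 + 1) (hCM c hc)

theorem law_dec [Countable E] {p : Finset E → Finset E → ℝ}
    (hp : IsGood p) (Wn : E → ℕ → Finset E) (hW : ∀ e (V : Finset E), ∀ᶠ k in atTop, V ⊆ Wn e k)
    (ζ : E → ℕ → Lab E → unitInterval) (hζ : ∀ e s, Measurable (ζ e s))
    (hlim : ∀ e s, ∀ᵐ L ∂lab E, Tendsto (fun k => Zs p (Wn e k) L (e, s + 1)) atTop (𝓝 (ζ e s L)))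
    (F : Finset E) :
    lab E {L | ∀ e ∈ F, dec (fun s => ζ e s L) = true} = ENNReal.ofReal (p F F) := by
  have hlaw := law_obs hp Wn hW ζ hζ hlim F
  set D : Set (F × ℕ → unitInterval) := {y | ∀ e : F, dec (fun s => y (e, s)) = true} with hD
  have hDm : MeasurableSet D := by
    have : D = ⋂ e : F, {y | dec (fun s => y (e, s)) = true} := by ext y; simp [hD]
    rw [this]
    refine MeasurableSet.iInter fun e => ?_
    have hm : Measurable (fun y : F × ℕ → unitInterval => dec (fun s => y (e, s))) :=
      measurable_dec.comp (measurable_pi_lambda _ fun s => measurable_pi_apply _)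
    exact hm (measurableSet_singleton true)
  have hYm : Measurable (fun L : Lab E => fun c : F × ℕ => ζ c.1 c.2 L) :=
    measurable_pi_lambda _ fun c => hζ _ _
  have e1 : lab E {L | ∀ e ∈ F, dec (fun s => ζ e s L) = true} =
      (lab E).map (fun L => fun c : F × ℕ => ζ c.1 c.2 L) D := by
    rw [Measure.map_apply hYm hDm]
    congr 1
    ext L
    simp [hD]
  rw [e1, hlaw, ← lintegral_indicator_one hDm, lintegral_mix p F _ (measurable_one.indicator hDm)]
  rw [Finset.sum_eq_single F]
  · have : ∫⁻ z, D.indicator 1 (TT F F z) ∂lab E = 1 := by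
      have hae : ∀ᵐ z ∂lab E, D.indicator (1 : (F × ℕ → unitInterval) → ENNReal) (TT F F z) = 1 := by
        have hall : ∀ᵐ z ∂lab E, ∀ e : F, Tendsto (fun n : ℕ =>
            (∑ s ∈ Finset.range n, ((Q 1 (z ((e : E), s + 1)) : unitInterval) : ℝ)) / n) atTop
            (𝓝 (7 / 12)) := by
          rw [ae_all_iff]
          intro e
          have := slln (fun u => ((Q 1 u : unitInterval) : ℝ))
            (measurable_subtype_coe.comp measurable_Q_one) 1 (fun u => by
              rw [abs_of_nonneg (Q 1 u).2.1]; exact (Q 1 u).2.2) (e : E)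
          rwa [integral_Q_one] at this
        filter_upwards [hall] with z hz
        rw [Set.indicator_of_mem]
        · rfl
        · intro e
          rw [dec_eq_true_iff _ (7 / 12)]
          · norm_num
          · have := hz e
            simpa [TT] using this
      rw [lintegral_congr_ae hae]
      simp
    rw [this, mul_one]
  · intro R hR hRF
    have hsub : R ⊆ F := Finset.mem_powerset.1 hR
    obtain ⟨e, heF, heR⟩ : ∃ e ∈ F, e ∉ R := by
      by_contra hcon
      push Not at hcon
      exact hRF (Finset.Subset.antisymm hsub hcon)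
    have : ∫⁻ z, D.indicator 1 (TT F R z) ∂lab E = 0 := by
      have hae : ∀ᵐ z ∂lab E, D.indicator (1 : (F × ℕ → unitInterval) → ENNReal) (TT F R z) = 0 := by
        have := slln (fun u : unitInterval => (u : ℝ)) measurable_subtype_coe 1 (fun u => by
              rw [abs_of_nonneg u.2.1]; exact u.2.2) e
        rw [integral_id_unit] at this
        filter_upwards [this] with z hz
        rw [Set.indicator_of_notMem]
        intro hmem
        have h1 := hmem ⟨e, heF⟩
        rw [dec_eq_true_iff _ (1 / 2)] at h1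
        · norm_num at h1
        · simpa [TT, heR] using hz
      rw [lintegral_congr_ae hae]
      simp
    rw [this, mul_zero]
  · intro h
    exact absurd (Finset.mem_powerset.2 (Finset.Subset.refl F)) h

end Crest.Agent.SRF
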