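import Crest.Agent.SRF_Law

set_option autoImplicit false
set_option linter.unusedSectionVars false
set_option linter.unusedVariables false

namespace Crest.Agent.SRF

open MeasureTheory Filter Topology

/-- transporting masses along an embedding -/
def pcomap {E E' : Type*} (p : Finset E → Finset E → ℝ) (f : E' ↪ E) : Finset E' → Finset E' → ℝ :=
  fun W R => p (W.map f) (R.map f)

variable {E E' : Type*} [DecidableEq E] [DecidableEq E']

theorem powerset_map' (f : E' ↪ E) (W : Finset E') :
    (W.map f).powerset = W.powerset.map (Finset.mapEmbedding f).toEmbedding := by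
  ext S
  simp only [Finset.mem_powerset, Finset.mem_map, RelEmbedding.coe_toEmbedding,
    Finset.mapEmbedding_apply]
  constructor
  · intro h
    obtain ⟨T, hT, rfl⟩ := Finset.subset_map_iff.1 h
    exact ⟨T, hT, rfl⟩
  · rintro ⟨T, hT, rfl⟩
    exact Finset.map_subset_map.2 hT

theorem sum_powerset_map (f : E' ↪ E) (W : Finset E') {R : Type*} [AddCommMonoid R]
    (F : Finset E → R) : ∑ S ∈ (W.map f).powerset, F S = ∑ S ∈ W.powerset, F (S.map f) := by
  rw [powerset_map', Finset.sum_map]
  rfl

theorem gen_pcomap (p : Finset E → Finset E → ℝ) (f : E' ↪ E) (W : Finset E') (w : E → ℝ) :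
    gen (pcomap p f) W (fun e => w (f e)) = gen p (W.map f) w := by
  unfold gen
  rw [sum_powerset_map]
  refine Finset.sum_congr rfl fun S _ => ?_
  rw [Finset.prod_map]
  rfl

theorem genIn_pcomap (p : Finset E → Finset E → ℝ) (f : E' ↪ E) (W : Finset E') (g : E') (w : E → ℝ) :
    genIn (pcomap p f) W g (fun e => w (f e)) = genIn p (W.map f) (f g) w := by
  unfold genIn
  rw [Finset.sum_filter, Finset.sum_filter, sum_powerset_map]
  refine Finset.sum_congr rfl fun S _ => ?_
  have : f g ∈ S.map f ↔ g ∈ S := Finset.mem_map' f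
  by_cases h : g ∈ S
  · rw [if_pos h, if_pos (this.2 h), Finset.prod_map]
    rfl
  · rw [if_neg h, if_neg (fun h' => h (this.1 h'))]

theorem pm_pcomap (p : Finset E → Finset E → ℝ) (f : E' ↪ E) (W : Finset E') (g : E') (w : E → ℝ) :
    pm (pcomap p f) W g (fun e => w (f e)) = pm p (W.map f) (f g) w := by
  unfold pm
  rw [gen_pcomap, genIn_pcomap]

theorem exists_extend (f : E' ↪ E) (w : E' → ℝ) (hw : ∀ e, 0 < w e) :
    ∃ v : E → ℝ, (∀ e, 0 < v e) ∧ ∀ e, v (f e) = w e := by
  classical
  refine ⟨fun x => if h : ∃ e, f e = x then w h.choose else 1, ?_, ?_⟩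
  · intro x
    simp only
    split_ifs
    · exact hw _
    · exact one_pos
  · intro e
    have h : ∃ e', f e' = f e := ⟨e, rfl⟩
    simp only [dif_pos h]
    congr 1
    exact f.injective h.choose_spec

theorem IsGood.pcomap {p : Finset E → Finset E → ℝ}
    (hp : IsGood p) (f : E' ↪ E) : IsGood (pcomap p f) where
  nonneg W R hR := hp.nonneg _ _ (Finset.map_subset_map.2 hR)
  total W := by
    have := hp.total (W.map f)
    rwa [sum_powerset_map] at this
  consistent V W R hVW hR := by
    have := hp.consistent (V.map f) (W.map f) (R.map f) (Finset.map_subset_map.2 hVW)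
      (Finset.map_subset_map.2 hR)
    rw [Finset.sum_filter, sum_powerset_map] at this
    unfold SRF.pcomap
    rw [this, Finset.sum_filter]
    refine Finset.sum_congr rfl fun S _ => ?_
    have h1 : S.map f ∩ V.map f = R.map f ↔ S ∩ V = R := by
      rw [← Finset.map_inter, Finset.map_inj]
    by_cases h : S ∩ V = R
    · rw [if_pos h, if_pos (h1.2 h)]
    · rw [if_neg h, if_neg (fun h' => h (h1.1 h'))]
  anti W g hg h hh hne w w' hw hww' hle := by
    obtain ⟨v, hv, hvw⟩ := exists_extend f w hw
    set v' : E → ℝ := Function.update v (f h) (w' h) with hv'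
    have e1 : w = fun e => v (f e) := by ext e; exact (hvw e).symm
    have e2 : w' = fun e => v' (f e) := by
      ext e
      by_cases he : e = h
      · subst he; simp [hv']
      · rw [hv', Function.update_of_ne (fun h' => he (f.injective h')), hvw, hww' e he]
    rw [e1, e2, pm_pcomap, pm_pcomap]
    refine hp.anti (W.map f) (f g) (Finset.mem_map_of_mem f hg) (f h) (Finset.mem_map_of_mem f hh)
      (fun h' => hne (f.injective h')) v v' hv ?_ ?_
    · intro e he; rw [hv', Function.update_of_ne he]
    · rw [hv', Function.update_self, hvw]; exact hle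
  scale W g hg w hw c hc := by
    obtain ⟨v, hv, hvw⟩ := exists_extend f w hw
    have e1 : w = fun e => v (f e) := by ext e; exact (hvw e).symm
    have e2 : pm (SRF.pcomap p f) W g (fun e => c * w e) = pm p (W.map f) (f g) (fun x => c * v x) := by
      rw [← pm_pcomap p f W g (fun x => c * v x)]
      congr 1
      ext e; rw [← hvw e]
    rw [e2]
    nth_rewrite 1 [e1]
    rw [pm_pcomap]
    exact hp.scale (W.map f) (f g) (Finset.mem_map_of_mem f hg) v hv c hc

omit [DecidableEq E] [DecidableEq E'] in
theorem wt_comp (f : E' → E) (z : Lab E) (g : E') (s : ℕ) (h : E') :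
    wt (fun i : E' × ℕ => z (f i.1, i.2)) g s h = wt z (f g) s (f h) := rfl

theorem iterate_pcomap (p : Finset E → Finset E → ℝ) (f : E' ↪ E) (W : Finset E') (L : Lab E) (k : ℕ) :
    (step (pcomap p f) W (fun i : E' × ℕ => L (f i.1, i.2)))^[k] (fun i : E' × ℕ => L (f i.1, i.2)) =
      fun i : E' × ℕ => (step p (W.map f) L)^[k] L (f i.1, i.2) := by
  induction k with
  | zero => rfl
  | succ k ih =>
    rw [Function.iterate_succ_apply', ih]
    ext i
    rw [Function.iterate_succ_apply']
    obtain ⟨g, s⟩ := i
    cases s with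
    | zero => rfl
    | succ s =>
      simp only [step_succ]
      congr 2
      rw [← pm_pcomap]
      rfl

theorem Zs_pcomap (p : Finset E → Finset E → ℝ)
    (f : E' ↪ E) (W : Finset E') (L : Lab E) (e : E') (s : ℕ) :
    Zs (pcomap p f) W (fun i : E' × ℕ => L (f i.1, i.2)) (e, s) = Zs p (W.map f) L (f e, s) := by
  unfold Zs
  rw [iterate_pcomap, Finset.card_map]

/-- only the labels of the window matter -/
theorem Zs_congr (p : Finset E → Finset E → ℝ) (W : Finset E)
    (L L' : Lab E) (h : ∀ e ∈ W, ∀ s, L (e, s) = L' (e, s)) (e : E) (he : e ∈ W) (s : ℕ) :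
    Zs p W L (e, s) = Zs p W L' (e, s) := by
  have key : ∀ k : ℕ, ∀ e ∈ W, ∀ s,
      (step p W L)^[k] L (e, s) = (step p W L')^[k] L' (e, s) := by
    intro k
    induction k with
    | zero => exact h
    | succ k ih =>
      intro e he s
      rw [Function.iterate_succ_apply', Function.iterate_succ_apply']
      cases s with
      | zero => exact h e he 0
      | succ s =>
        rw [step_succ, step_succ, h e he (s + 1)]
        congr 1
        refine pm_congr p W e _ _ fun x hx => ?_
        unfold wt
        rw [ih x hx 0, ih e he 0, ih x hx (s + 1)]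
        congr 1
        exact Finset.prod_congr rfl fun s' _ => by rw [ih x hx (s' + 1)]
  exact key _ e he s

/-- the scheme only reads the masses of its own window -/
theorem Zs_congr_mass (p q : Finset E → Finset E → ℝ) (W : Finset E)
    (h : ∀ R ⊆ W, p W R = q W R) (L : Lab E) : Zs p W L = Zs q W L := by
  have hg : ∀ w : E → ℝ, gen p W w = gen q W w := by
    intro w
    unfold gen
    refine Finset.sum_congr rfl fun S hS => ?_
    rw [h S (Finset.mem_powerset.1 hS)]
  have hgi : ∀ (g : E) (w : E → ℝ), genIn p W g w = genIn q W g w := by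
    intro g w
    unfold genIn
    refine Finset.sum_congr rfl fun S hS => ?_
    rw [h S (Finset.mem_powerset.1 (Finset.mem_filter.1 hS).1)]
  have hs : step p W L = step q W L := by
    ext z i
    obtain ⟨g, s⟩ := i
    cases s with
    | zero => rfl
    | succ s =>
      rw [step_succ, step_succ]
      unfold pm
      rw [hg, hgi]
  ext i
  unfold Zs
  rw [hs]

end Crest.Agent.SRF
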