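import Mathlib

/-!
Limits of sequences in the unit interval, Borel–Cantelli along fast subsequences.
-/

set_option autoImplicit false

namespace Crest.Agent.SRF

open MeasureTheory Filter Topology

/-- the limit (limsup) of a sequence in the unit interval -/
noncomputable def limU (x : ℕ → unitInterval) : unitInterval :=
  Set.projIcc 0 1 zero_le_one (limsup (fun k => (x k : ℝ)) atTop)

theorem limU_eq {x : ℕ → unitInterval} {a : unitInterval} (h : Tendsto x atTop (𝓝 a)) :
    limU x = a := by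
  have h2 : Tendsto (fun k => (x k : ℝ)) atTop (𝓝 (a : ℝ)) :=
    (continuous_subtype_val.tendsto a).comp h
  rw [limU, h2.limsup_eq]
  exact Set.projIcc_val zero_le_one a

theorem measurable_limU {Ω : Type*} [MeasurableSpace Ω] (f : ℕ → Ω → unitInterval)
    (hf : ∀ k, Measurable (f k)) : Measurable (fun ω => limU (fun k => f k ω)) :=
  continuous_projIcc.measurable.comp
    (Measurable.limsup fun k => measurable_subtype_coe.comp (hf k))

theorem ae_tendsto_limU {Ω : Type*} [MeasurableSpace Ω] (μ : Measure Ω)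
    (Y : ℕ → Ω → unitInterval) (s : ℕ)
    (h : ∀ k, s ≤ k → μ {ω | (1 / 2 : ℝ) ^ k < |(Y k ω : ℝ) - Y (k + 1) ω|} ≤
      ENNReal.ofReal ((1 / 2) ^ k)) :
    ∀ᵐ ω ∂μ, Tendsto (fun k => Y k ω) atTop (𝓝 (limU (fun k => Y k ω))) := by
  have hsum : ∑' k, μ {ω | (1 / 2 : ℝ) ^ (k + s) < |(Y (k + s) ω : ℝ) - Y (k + s + 1) ω|} ≠ ⊤ := by
    have h1 : ∑' k, μ {ω | (1 / 2 : ℝ) ^ (k + s) < |(Y (k + s) ω : ℝ) - Y (k + s + 1) ω|} ≤
        ∑' k : ℕ, ENNReal.ofReal ((1 / 2) ^ k) := by
      refine ENNReal.tsum_le_tsum fun k => (h (k + s) (by omega)).trans ?_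
      apply ENNReal.ofReal_le_ofReal
      exact pow_le_pow_of_le_one (by norm_num) (by norm_num) (by omega)
    refine ne_top_of_le_ne_top ?_ h1
    rw [← ENNReal.ofReal_tsum_of_nonneg (fun k => by positivity)
      (summable_geometric_of_lt_one (by norm_num) (by norm_num))]
    exact ENNReal.ofReal_ne_top
  have h2 := ae_eventually_notMem hsum
  filter_upwards [h2] with ω hω
  obtain ⟨N, hN⟩ := eventually_atTop.1 hω
  have hcauchy : CauchySeq (fun n => Y (n + (N + s)) ω) := by
    refine cauchySeq_of_le_geometric (1 / 2) 1 (by norm_num) fun n => ?_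
    have h3 := hN (n + N) (by omega)
    simp only [not_lt] at h3
    have e1 : n + N + s = n + (N + s) := by omega
    have e2 : n + (N + s) + 1 = n + 1 + (N + s) := by omega
    rw [e1, e2] at h3
    rw [Subtype.dist_eq, Real.dist_eq, one_mul]
    exact h3.trans (pow_le_pow_of_le_one (by norm_num) (by norm_num) (by omega))
  obtain ⟨a, ha⟩ := cauchySeq_tendsto_of_complete hcauchy
  have h4 : Tendsto (fun k => Y k ω) atTop (𝓝 a) :=
    (tendsto_add_atTop_iff_nat (f := fun k => Y k ω) (N + s)).1 ha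
  rw [limU_eq h4]
  exact h4

/-- measurability by cases on a countable valued index -/
theorem measurable_of_countable_cases {Ω β ι : Type*} [MeasurableSpace Ω] [MeasurableSpace β]
    [Countable ι] (w : Ω → ι) (hw : ∀ i, MeasurableSet {ω | w ω = i}) (f : ι → Ω → β)
    (hf : ∀ i, Measurable (f i)) : Measurable (fun ω => f (w ω) ω) := by
  intro T hT
  have : (fun ω => f (w ω) ω) ⁻¹' T = ⋃ i, {ω | w ω = i} ∩ f i ⁻¹' T := by
    ext ω
    simp
  rw [this]
  exact MeasurableSet.iUnion fun i => (hw i).inter (hf i hT)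

end Crest.Agent.SRF
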