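import Crest.Agent.SRF_Defs
import Crest.Agent.SRF_CauchyBinet

/-!
Spanning trees as bases of the reduced incidence vectors, and negative correlation of weighted
spanning trees.
-/

set_option autoImplicit false

namespace Crest.Agent.SRF

open Finset Matrix Crest.ProbabilityR.SpanningTrees

namespace TreeNC

variable {V : Type*} [DecidableEq V]

/-- reduced vertex indicator -/
def chi (S : Finset V) (r v : V) : {x // x ∈ S.erase r} → ℤ := fun i => if (i : V) = v then 1 else 0

/-- reduced incidence vector of an edge -/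
noncomputable def bZ (S : Finset V) (r : V) (e : Sym2 V) : {x // x ∈ S.erase r} → ℤ :=
  chi S r e.out.1 - chi S r e.out.2

/-- the same with real entries -/
noncomputable def bR (S : Finset V) (r : V) (e : Sym2 V) : {x // x ∈ S.erase r} → ℝ :=
  fun i => (bZ S r e i : ℝ)

theorem bZ_mk (S : Finset V) (r u v : V) :
    bZ S r s(u, v) = chi S r u - chi S r v ∨ bZ S r s(u, v) = chi S r v - chi S r u := by
  have h : Sym2.mk ((s(u, v) : Sym2 V).out.1) ((s(u, v) : Sym2 V).out.2) = s(u, v) :=
    Quot.out_eq (s(u, v) : Sym2 V)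
  rw [Sym2.eq_iff] at h
  rcases h with ⟨h1, h2⟩ | ⟨h1, h2⟩
  · left; rw [bZ, h1, h2]
  · right; rw [bZ, h1, h2]

theorem chi_root (S : Finset V) (r : V) : chi S r r = 0 := by
  funext i
  have : (i : V) ≠ r := (Finset.mem_erase.1 i.2).1
  simp [chi, this]

omit [DecidableEq V] in
theorem mem_edgesIn {G : SimpleGraph V} {S : Finset V} {u v : V} :
    s(u, v) ∈ edgesIn G S ↔ u ∈ S ∧ v ∈ S ∧ G.Adj u v := by
  simp [edgesIn, and_assoc]

/-- the graph of `A` on `S` -/
abbrev HA (S : Finset V) (A : Finset (Sym2 V)) : SimpleGraph (S : Set V) :=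
  (SimpleGraph.fromEdgeSet (A : Set (Sym2 V))).induce (S : Set V)

omit [DecidableEq V] in
theorem HA_adj {S : Finset V} {A : Finset (Sym2 V)} {u v : (S : Set V)} :
    (HA S A).Adj u v ↔ s((u : V), (v : V)) ∈ A ∧ (u : V) ≠ v := by
  simp [HA]

theorem chi_mem_span {S : Finset V} {r : V} (hr : r ∈ S) {A : Finset (Sym2 V)}
    (hc : (HA S A).Connected) (v : V) (hv : v ∈ S) :
    chi S r v ∈ Submodule.span ℤ (Set.range fun a : {a // a ∈ A} => bZ S r a) := by
  have hreach := hc.preconnected ⟨r, hr⟩ ⟨v, hv⟩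
  rw [SimpleGraph.reachable_iff_reflTransGen] at hreach
  have key : ∀ x : (S : Set V), Relation.ReflTransGen (HA S A).Adj ⟨r, hr⟩ x →
      chi S r x ∈ Submodule.span ℤ (Set.range fun a : {a // a ∈ A} => bZ S r a) := by
    intro x hx
    induction hx with
    | refl => rw [chi_root]; exact Submodule.zero_mem _
    | @tail y z _ hyz ih =>
      rw [HA_adj] at hyz
      have hm : bZ S r s((y : V), (z : V)) ∈
          Submodule.span ℤ (Set.range fun a : {a // a ∈ A} => bZ S r a) :=
        Submodule.subset_span ⟨⟨_, hyz.1⟩, rfl⟩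
      rcases bZ_mk S r (y : V) (z : V) with h | h
      · rw [h] at hm
        have := Submodule.sub_mem _ ih hm
        simpa using this
      · rw [h] at hm
        have := Submodule.add_mem _ ih hm
        simpa using this
  exact key _ hreach

omit [DecidableEq V] in
theorem card_edgeSet_HA {G : SimpleGraph V} {S : Finset V} {A : Finset (Sym2 V)}
    (hA : A ⊆ edgesIn G S) : Nat.card (HA S A).edgeSet = A.card := by
  have h1 : (Sym2.map (Subtype.val : ↥(S : Set V) → V)) '' (HA S A).edgeSet =
      (A : Set (Sym2 V)) := by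
    ext e
    constructor
    · rintro ⟨e', he', rfl⟩
      induction e' using Sym2.ind with
      | _ u v =>
        rw [SimpleGraph.mem_edgeSet, HA_adj] at he'
        exact he'.1
    · intro he
      have he2 := hA (Finset.mem_coe.1 he)
      induction e using Sym2.ind with
      | _ u v =>
        rw [mem_edgesIn] at he2
        refine ⟨s(⟨u, he2.1⟩, ⟨v, he2.2.1⟩), ?_, rfl⟩
        rw [SimpleGraph.mem_edgeSet, HA_adj]
        exact ⟨he, he2.2.2.ne⟩
  rw [← Set.ncard_coe_finset A, ← h1,
    Set.ncard_image_of_injective _ (Sym2.map.injective Subtype.val_injective)]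
  rfl

theorem isTree_iff {G : SimpleGraph V} {S : Finset V} {r : V} (hr : r ∈ S)
    {A : Finset (Sym2 V)} (hA : A ⊆ edgesIn G S) :
    (HA S A).IsTree ↔ (HA S A).Connected ∧ A.card = (S.erase r).card := by
  rw [SimpleGraph.isTree_iff_connected_and_card, card_edgeSet_HA hA]
  have h1 : Nat.card (S : Set V) = S.card := by
    simp
  have h2 : (S.erase r).card + 1 = S.card := Finset.card_erase_add_one hr
  rw [h1]
  constructor
  · rintro ⟨h, h'⟩; exact ⟨h, by omega⟩
  · rintro ⟨h, h'⟩; exact ⟨h, by omega⟩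

theorem dB_sq {S : Finset V} {r : V} {A : Finset (Sym2 V)}
    (φ : {x // x ∈ S.erase r} ≃ {a // a ∈ A}) :
    dB (bR S r) A = ((Matrix.of fun i => bZ S r (φ i)).det : ℝ) ^ 2 := by
  have h1 : (∑ e ∈ A, vecMulVec (bR S r e) (bR S r e)) =
      ((Matrix.of fun i => bZ S r (φ i)).map (Int.cast : ℤ → ℝ))ᵀ *
        ((Matrix.of fun i => bZ S r (φ i)).map (Int.cast : ℤ → ℝ)) := by
    ext j k
    rw [Matrix.sum_apply, Matrix.mul_apply, ← Finset.sum_coe_sort A]
    symm
    rw [← Equiv.sum_comp φ]
    refine Finset.sum_congr rfl fun i _ => ?_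
    simp [vecMulVec_apply, bR]
  rw [dB, h1, Matrix.det_mul, Matrix.det_transpose, ← sq]
  congr 1
  exact (Int.cast_det _).symm

theorem dB_of_connected {S : Finset V} {r : V} (hr : r ∈ S) {A : Finset (Sym2 V)}
    (hcard : A.card = (S.erase r).card) (hc : (HA S A).Connected) : dB (bR S r) A = 1 := by
  obtain ⟨φ⟩ : Nonempty ({x // x ∈ S.erase r} ≃ {a // a ∈ A}) := by
    rw [← Fintype.card_eq]; simp [hcard]
  rw [dB_sq φ]
  -- left inverse
  have h1 : ∀ i : {x // x ∈ S.erase r}, ∃ c : {a // a ∈ A} → ℤ,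
      ∑ a, c a • bZ S r a = chi S r i := by
    intro i
    have := chi_mem_span hr hc i (Finset.mem_of_mem_erase i.2)
    rwa [Submodule.mem_span_range_iff_exists_fun] at this
  choose c hc' using h1
  have h2 : (Matrix.of fun (i j : {x // x ∈ S.erase r}) => c i (φ j)) *
      (Matrix.of fun i => bZ S r (φ i)) = 1 := by
    ext i j
    rw [Matrix.mul_apply]
    simp only [Matrix.of_apply]
    have := congrFun (hc' i) j
    rw [← Equiv.sum_comp φ] at this
    simp only [Finset.sum_apply, Pi.smul_apply, smul_eq_mul] at this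
    rw [this, Matrix.one_apply, chi]
    by_cases hij : i = j
    · simp [hij]
    · have : (j : V) ≠ i := fun h => hij (Subtype.ext h.symm)
      simp [hij, this]
  have h3 := congrArg Matrix.det h2
  rw [Matrix.det_mul, Matrix.det_one] at h3
  have h4 : IsUnit (Matrix.of fun i => bZ S r (φ i)).det := IsUnit.of_mul_eq_one_right _ h3
  rcases Int.isUnit_iff.1 h4 with h | h <;> simp [h]

theorem dB_of_not_connected {G : SimpleGraph V} {S : Finset V} {r : V} (hr : r ∈ S)
    {A : Finset (Sym2 V)} (hA : A ⊆ edgesIn G S)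
    (hc : ¬ (HA S A).Connected) : dB (bR S r) A = 0 := by
  classical
  have hne : Nonempty (S : Set V) := ⟨⟨r, hr⟩⟩
  -- some vertex is not reachable from the root
  have h1 : ∃ v : (S : Set V), ¬ (HA S A).Reachable ⟨r, hr⟩ v := by
    by_contra h
    push Not at h
    apply hc
    exact SimpleGraph.Connected.mk fun u v => (h u).symm.trans (h v)
  obtain ⟨v, hv⟩ := h1
  rw [dB, ← Matrix.exists_mulVec_eq_zero_iff]
  have hvr : (v : V) ≠ r := by
    intro h
    apply hv
    have : v = ⟨r, hr⟩ := Subtype.ext h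
    rw [this]
  let x : {x // x ∈ S.erase r} → ℝ := fun i =>
    if (HA S A).Reachable ⟨(i : V), Finset.mem_coe.2 (Finset.mem_of_mem_erase i.2)⟩ v then 1 else 0
  refine ⟨x, ?_, ?_⟩
  · intro h
    have := congrFun h ⟨(v : V), Finset.mem_erase.2 ⟨hvr, v.2⟩⟩
    simp only [x, Pi.zero_apply] at this
    rw [if_pos] at this
    · exact one_ne_zero this
    · exact SimpleGraph.Reachable.refl _
  · rw [Matrix.sum_mulVec]
    apply Finset.sum_eq_zero
    intro e he
    rw [Matrix.vecMulVec_mulVec]
    have hdot : bR S r e ⬝ᵥ x = 0 := by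
      have he2 := hA he
      induction e using Sym2.ind with
      | _ u u' =>
        rw [mem_edgesIn] at he2
        obtain ⟨hu, hu', hadj⟩ := he2
        have hadjH : (HA S A).Adj ⟨u, hu⟩ ⟨u', hu'⟩ := by
          rw [HA_adj]; exact ⟨he, hadj.ne⟩
        have hval : ∀ y (hy : y ∈ S), ∑ i, ((chi S r y i : ℤ) : ℝ) * x i =
            if (HA S A).Reachable ⟨y, hy⟩ v then 1 else 0 := by
          intro y hy
          by_cases hyr : y = r
          · subst hyr
            rw [chi_root, if_neg hv]
            simp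
          · rw [Finset.sum_eq_single (⟨y, Finset.mem_erase.2 ⟨hyr, hy⟩⟩ : {x // x ∈ S.erase r})]
            · simp [chi, x]
            · intro i _ hi
              have : (i : V) ≠ y := fun h => hi (Subtype.ext h)
              simp [chi, this]
            · intro h; exact absurd (Finset.mem_univ _) h
        have heq : (HA S A).Reachable ⟨u, hu⟩ v ↔ (HA S A).Reachable ⟨u', hu'⟩ v :=
          ⟨fun h => hadjH.symm.reachable.trans h, fun h => hadjH.reachable.trans h⟩
        have hcomb : ∀ s t : V, bZ S r s(u, u') = chi S r s - chi S r t →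
            bR S r s(u, u') ⬝ᵥ x = (∑ i, ((chi S r s i : ℤ) : ℝ) * x i) -
              ∑ i, ((chi S r t i : ℤ) : ℝ) * x i := by
          intro s t hst
          rw [dotProduct, ← Finset.sum_sub_distrib]
          refine Finset.sum_congr rfl fun i _ => ?_
          rw [bR, hst]
          simp only [Pi.sub_apply, Int.cast_sub]
          ring
        rcases bZ_mk S r u u' with h | h
        · rw [hcomb _ _ h, hval u hu, hval u' hu']
          simp [heq]
        · rw [hcomb _ _ h, hval u hu, hval u' hu']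
          simp [heq]
    rw [hdot]
    simp

end TreeNC

open TreeNC

theorem mem_STs {V : Type*} [DecidableEq V] {G : SimpleGraph V} {S : Finset V}
    {A : Finset (Sym2 V)} : A ∈ STs G S ↔ IsSpanningTreeOn G S A := by
  classical
  simp only [STs, Finset.mem_filter, Finset.mem_powerset]
  exact ⟨fun h => h.2, fun h => ⟨h.1, h⟩⟩

theorem dB_tree {V : Type*} [DecidableEq V] {G : SimpleGraph V} {S : Finset V} {r : V}
    (hr : r ∈ S) {A : Finset (Sym2 V)} (hA : A ⊆ edgesIn G S)
    (hcard : A.card = (S.erase r).card) [Decidable (A ∈ STs G S)] :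
    dB (bR S r) A = if A ∈ STs G S then 1 else 0 := by
  by_cases h : A ∈ STs G S
  · rw [if_pos h]
    rw [mem_STs] at h
    exact dB_of_connected hr hcard h.2.connected
  · rw [if_neg h]
    apply dB_of_not_connected hr hA
    intro hc
    apply h
    rw [mem_STs]
    exact ⟨hA, (isTree_iff hr hA).2 ⟨hc, hcard⟩⟩

/-- sums over spanning trees as sums over bases -/
theorem sum_STs {V : Type*} [DecidableEq V] (G : SimpleGraph V) (S : Finset V) {r : V}
    (hr : r ∈ S) (w : Sym2 V → ℝ) (P : Finset (Sym2 V) → Prop) [DecidablePred P] :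
    ∑ A ∈ STs G S with P A, ∏ a ∈ A, w a =
      ∑ A ∈ (edgesIn G S).powersetCard (Fintype.card {x // x ∈ S.erase r}) with P A,
        dB (bR S r) A * ∏ a ∈ A, w a := by
  classical
  have hsub : (STs G S).filter P ⊆
      ((edgesIn G S).powersetCard (Fintype.card {x // x ∈ S.erase r})).filter P := by
    intro A hA
    rw [Finset.mem_filter] at hA ⊢
    refine ⟨?_, hA.2⟩
    have h := mem_STs.1 hA.1
    rw [Finset.mem_powersetCard]
    refine ⟨h.1, ?_⟩
    rw [Fintype.card_coe]
    exact ((isTree_iff hr h.1).1 h.2).2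
  rw [← Finset.sum_subset_zero_on_sdiff hsub]
  · intro A hA
    rw [Finset.mem_sdiff, Finset.mem_filter, Finset.mem_filter, Finset.mem_powersetCard,
      Fintype.card_coe] at hA
    rw [dB_tree hr hA.1.1.1 hA.1.1.2, if_neg, zero_mul]
    intro h
    exact hA.2 ⟨h, hA.1.2⟩
  · intro A hA
    have h1 := hsub hA
    rw [Finset.mem_filter, Finset.mem_powersetCard, Fintype.card_coe] at h1
    rw [Finset.mem_filter] at hA
    rw [dB_tree hr h1.1.1 h1.1.2, if_pos hA.1, one_mul]

theorem tree_nc {V : Type*} [DecidableEq V] (G : SimpleGraph V) (S : Finset V)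
    (w : Sym2 V → ℝ) (hw : ∀ e, 0 < w e) (e f : Sym2 V) (hef : e ≠ f) :
    (∑ A ∈ STs G S, ∏ a ∈ A, w a) * (∑ A ∈ STs G S with e ∈ A ∧ f ∈ A, ∏ a ∈ A, w a) ≤
      (∑ A ∈ STs G S with e ∈ A, ∏ a ∈ A, w a) * (∑ A ∈ STs G S with f ∈ A, ∏ a ∈ A, w a) := by
  classical
  rcases S.eq_empty_or_nonempty with rfl | ⟨r, hr⟩
  · have : STs G (∅ : Finset V) = ∅ := by
      rw [Finset.eq_empty_iff_forall_notMem]
      intro A hA
      rw [mem_STs] at hA
      obtain ⟨x⟩ := hA.2.connected.nonempty
      simpa using x.2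
    simp [this]
  · have h0 := sum_STs G S hr w (fun _ => True)
    simp only [Finset.filter_true] at h0
    rw [h0, sum_STs G S hr w, sum_STs G S hr w, sum_STs G S hr w]
    exact cb_nc (bR S r) (edgesIn G S) w (fun e => (hw e).le) e f hef

end Crest.Agent.SRF
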