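import Crest.Agent.SRF_Defs
import Crest.Agent.SRF_TreeNC

/-!
T5a of the blueprint for S0254/S0255: the masses of the uniform spanning tree of a finite
connected piece are good, and Rayleigh monotonicity.
-/

set_option autoImplicit false

namespace Crest.Agent.SRF

open Filter Topology Crest.ProbabilityR Crest.ProbabilityR.SpanningTrees

namespace UST

section Abstract

variable {E : Type*} [DecidableEq E]

/-- generating function of the members of `T` containing `F` -/
noncomputable def Z (T : Finset (Finset E)) (F : Finset E) (w : E → ℝ) : ℝ :=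
  ∑ A ∈ T with F ⊆ A, ∏ a ∈ A, w a

theorem Z_nonneg (T : Finset (Finset E)) (F : Finset E) (w : E → ℝ) (hw : ∀ e, 0 < w e) :
    0 ≤ Z T F w :=
  Finset.sum_nonneg fun _ _ => Finset.prod_nonneg fun a _ => (hw a).le

theorem Z_pos (T : Finset (Finset E)) (hT : T.Nonempty) (w : E → ℝ) (hw : ∀ e, 0 < w e) :
    0 < Z T ∅ w := by
  unfold Z
  apply Finset.sum_pos
  · intro A _
    exact Finset.prod_pos fun a _ => hw a
  · simpa using hT

theorem Z_mono (T : Finset (Finset E)) (F F' : Finset E) (h : F ⊆ F') (w : E → ℝ)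
    (hw : ∀ e, 0 < w e) : Z T F' w ≤ Z T F w := by
  unfold Z
  apply Finset.sum_le_sum_of_subset_of_nonneg
  · intro A hA
    simp only [Finset.mem_filter] at hA ⊢
    exact ⟨hA.1, h.trans hA.2⟩
  · intro A _ _
    exact Finset.prod_nonneg fun a _ => (hw a).le

theorem Z_congr (T : Finset (Finset E)) (F : Finset E) (w w' : E → ℝ)
    (h : ∀ A ∈ T, ∀ a ∈ A, w a = w' a) : Z T F w = Z T F w' := by
  unfold Z
  apply Finset.sum_congr rfl
  intro A hA
  apply Finset.prod_congr rfl
  intro a ha
  exact h A (Finset.mem_filter.1 hA).1 a ha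

theorem Z_update (T : Finset (Finset E)) (F : Finset E) (w : E → ℝ) (k : E) (t : ℝ) :
    Z T F (Function.update w k (t * w k)) = Z T F w + (t - 1) * Z T (insert k F) w := by
  have key : ∀ A : Finset E, ∏ a ∈ A, Function.update w k (t * w k) a =
      (∏ a ∈ A, w a) + (t - 1) * (if k ∈ A then ∏ a ∈ A, w a else 0) := by
    intro A
    by_cases hk : k ∈ A
    · rw [if_pos hk, ← Finset.mul_prod_erase A _ hk, ← Finset.mul_prod_erase A w hk,
        Function.update_self]
      have : ∏ a ∈ A.erase k, Function.update w k (t * w k) a = ∏ a ∈ A.erase k, w a := by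
        apply Finset.prod_congr rfl
        intro a ha
        rw [Function.update_of_ne (Finset.ne_of_mem_erase ha)]
      rw [this]
      ring
    · rw [if_neg hk]
      have : ∏ a ∈ A, Function.update w k (t * w k) a = ∏ a ∈ A, w a := by
        apply Finset.prod_congr rfl
        intro a ha
        rw [Function.update_of_ne]
        rintro rfl
        exact hk ha
      rw [this]
      ring
  unfold Z
  rw [Finset.sum_congr rfl fun A _ => key A, Finset.sum_add_distrib, ← Finset.mul_sum,
    ← Finset.sum_filter, Finset.filter_filter]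
  congr 3
  apply Finset.filter_congr
  intro A _
  rw [Finset.insert_subset_iff, and_comm]

/-- pairwise negative correlation for all positive weights -/
def NC (T : Finset (Finset E)) : Prop :=
  ∀ w : E → ℝ, (∀ e, 0 < w e) → ∀ e f, e ≠ f → Z T ∅ w * Z T {e, f} w ≤ Z T {e} w * Z T {f} w

theorem quad_le {a0 a1 b0 b1 c0 c1 d0 d1 : ℝ}
    (h : ∀ s : ℝ, 0 < s → (a0 + s * a1) * (b0 + s * b1) ≤ (c0 + s * c1) * (d0 + s * d1)) :
    a1 * b1 ≤ c1 * d1 := by
  by_contra hcon
  push Not at hcon
  have h1 : 0 < a1 * b1 - c1 * d1 := by linarith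
  set X : ℝ := a1 * b1 - c1 * d1 with hX
  set Y : ℝ := a0 * b1 + a1 * b0 - c0 * d1 - c1 * d0 with hY
  set W : ℝ := a0 * b0 - c0 * d0 with hW
  -- X s² + Y s + W ≤ 0 for all s > 0
  have h2 : ∀ s : ℝ, 0 < s → X * s ^ 2 + Y * s + W ≤ 0 := by
    intro s hs
    have := h s hs
    rw [hX, hY, hW]
    nlinarith [this]
  have h3 := h2 (1 + (|Y| + |W|) / X) (by positivity)
  have h4 : X * (1 + (|Y| + |W|) / X) = X + (|Y| + |W|) := by
    field_simp
  set s := 1 + (|Y| + |W|) / X with hs
  have hs1 : 1 ≤ s := by
    rw [hs]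
    have : 0 ≤ (|Y| + |W|) / X := by positivity
    linarith
  have h5 : X * s ^ 2 + Y * s + W = (X + |Y| + |W|) * s + Y * s + W := by
    have : X * s ^ 2 = (X * s) * s := by ring
    rw [this, h4]
    ring
  rw [h5] at h3
  have h6 : 0 ≤ (|Y| + Y) * s := by
    apply mul_nonneg _ (by linarith)
    have := neg_abs_le Y
    linarith
  have h7 : |W| ≤ |W| * s := by
    have := abs_nonneg W
    nlinarith
  have h8 := neg_abs_le W
  nlinarith

theorem NC.cond {T : Finset (Finset E)} (hT : NC T) (K : Finset E) :
    ∀ w : E → ℝ, (∀ e, 0 < w e) → ∀ e f, e ≠ f →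
      Z T K w * Z T (insert e (insert f K)) w ≤ Z T (insert e K) w * Z T (insert f K) w := by
  induction K using Finset.induction_on with
  | empty =>
    intro w hw e f hef
    have := hT w hw e f hef
    simpa using this
  | insert k K hk ih =>
    intro w hw e f hef
    have h1 : ∀ s : ℝ, 0 < s →
        (Z T K w + s * Z T (insert k K) w) *
          (Z T (insert e (insert f K)) w + s * Z T (insert k (insert e (insert f K))) w) ≤
        (Z T (insert e K) w + s * Z T (insert k (insert e K)) w) *
          (Z T (insert f K) w + s * Z T (insert k (insert f K)) w) := by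
      intro s hs
      have h2 := ih (Function.update w k ((1 + s) * w k)) (by
        intro a
        by_cases ha : a = k
        · subst ha
          rw [Function.update_self]
          have := hw a
          positivity
        · rw [Function.update_of_ne ha]
          exact hw a) e f hef
      simp only [Z_update, add_sub_cancel_left] at h2
      exact h2
    have h3 := quad_le h1
    have e1 : insert k (insert e (insert f K)) = insert e (insert f (insert k K)) := by
      ext x; simp; tauto
    have e2 : insert k (insert e K) = insert e (insert k K) := Finset.insert_comm _ _ _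
    have e3 : insert k (insert f K) = insert f (insert k K) := Finset.insert_comm _ _ _
    rw [e1, e2, e3] at h3
    exact h3

theorem NC.multi {T : Finset (Finset E)} (hT : NC T) (w : E → ℝ) (hw : ∀ e, 0 < w e)
    (F : Finset E) : ∀ k, k ∉ F →
      Z T (insert k F) w * Z T ∅ w ≤ Z T F w * Z T {k} w := by
  induction F using Finset.induction_on with
  | empty =>
    intro k _
    simp only [insert_empty_eq]
    rw [mul_comm]
  | insert e F he ih =>
    intro k hk
    have hke : k ≠ e := fun h => hk (by simp [h])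
    have hkF : k ∉ F := fun h => hk (by simp [h])
    have h1 := ih k hkF
    have h2 := hT.cond F w hw k e hke
    have n1 := Z_nonneg T F w hw
    have n2 := Z_nonneg T (insert e F) w hw
    have n3 := Z_nonneg T ∅ w hw
    rcases n1.eq_or_lt with h0 | h0
    · have h3 : Z T (insert k (insert e F)) w = 0 := by
        apply le_antisymm _ (Z_nonneg _ _ _ hw)
        rw [h0]
        apply Z_mono _ _ _ _ _ hw
        intro x hx
        simp [hx]
      rw [h3, zero_mul]
      exact mul_nonneg n2 (Z_nonneg _ _ _ hw)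
    · have h4 : Z T F w * (Z T (insert k (insert e F)) w * Z T ∅ w) ≤
          Z T F w * (Z T (insert e F) w * Z T {k} w) := by
        calc Z T F w * (Z T (insert k (insert e F)) w * Z T ∅ w)
            = (Z T F w * Z T (insert k (insert e F)) w) * Z T ∅ w := by ring
          _ ≤ (Z T (insert k F) w * Z T (insert e F) w) * Z T ∅ w :=
              mul_le_mul_of_nonneg_right h2 n3
          _ = (Z T (insert k F) w * Z T ∅ w) * Z T (insert e F) w := by ring
          _ ≤ (Z T F w * Z T {k} w) * Z T (insert e F) w := mul_le_mul_of_nonneg_right h1 n2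
          _ = Z T F w * (Z T (insert e F) w * Z T {k} w) := by ring
      exact le_of_mul_le_mul_left h4 h0

/-- increasing one weight outside `F` decreases the probability of `F` -/
theorem NC.anti_one {T : Finset (Finset E)} (hT : NC T) (w : E → ℝ) (hw : ∀ e, 0 < w e)
    (F : Finset E) (k : E) (hk : k ∉ F) (t : ℝ) (ht : 1 ≤ t) :
    Z T F (Function.update w k (t * w k)) * Z T ∅ w ≤
      Z T F w * Z T ∅ (Function.update w k (t * w k)) := by
  have h := hT.multi w hw F k hk
  rw [Z_update, Z_update]
  have h2 : (t - 1) * (Z T (insert k F) w * Z T ∅ w) ≤ (t - 1) * (Z T F w * Z T {k} w) :=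
    mul_le_mul_of_nonneg_left h (by linarith)
  have e : insert k (∅ : Finset E) = {k} := by simp
  rw [e]
  nlinarith

/-- probability of `F` -/
noncomputable def P (T : Finset (Finset E)) (F : Finset E) (w : E → ℝ) : ℝ := Z T F w / Z T ∅ w

theorem NC.anti {T : Finset (Finset E)} (hT : NC T) (hne : T.Nonempty) (F : Finset E)
    (D : Finset E) (hD : Disjoint D F) :
    ∀ w w' : E → ℝ, (∀ e, 0 < w e) → (∀ e, w e ≤ w' e) → (∀ e, e ∉ D → w' e = w e) →
      P T F w' ≤ P T F w := by
  induction D using Finset.induction_on with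
  | empty =>
    intro w w' hw hle heq
    have : w' = w := funext fun e => heq e (by simp)
    rw [this]
  | insert k D hk ih =>
    intro w w' hw hle heq
    rw [Finset.disjoint_insert_left] at hD
    -- intermediate weight
    set w1 : E → ℝ := Function.update w k (w' k) with hw1
    have hw1pos : ∀ e, 0 < w1 e := by
      intro e
      rw [hw1]
      by_cases he : e = k
      · subst he
        rw [Function.update_self]
        exact (hw e).trans_le (hle e)
      · rw [Function.update_of_ne he]
        exact hw e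
    have h1 : P T F w' ≤ P T F w1 := by
      apply ih hD.2 w1 w' hw1pos
      · intro e
        rw [hw1]
        by_cases he : e = k
        · subst he
          rw [Function.update_self]
        · rw [Function.update_of_ne he]
          exact hle e
      · intro e he
        rw [hw1]
        by_cases he' : e = k
        · subst he'
          rw [Function.update_self]
        · rw [Function.update_of_ne he']
          apply heq
          simp [he, he']
    have h2 : P T F w1 ≤ P T F w := by
      have ht : 1 ≤ w' k / w k := by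
        rw [le_div_iff₀ (hw k)]
        simpa using hle k
      have h3 := hT.anti_one w hw F k hD.1 (w' k / w k) ht
      have h4 : w' k / w k * w k = w' k := div_mul_cancel₀ _ (hw k).ne'
      rw [h4] at h3
      unfold P
      rw [div_le_div_iff₀ (Z_pos T hne _ hw1pos) (Z_pos T hne _ hw)]
      exact h3
    exact h1.trans h2

/-- masses of the uniform law on `T` -/
noncomputable def mass (T : Finset (Finset E)) (W R : Finset E) : ℝ :=
  ((T.filter (fun A => A ∩ W = R)).card : ℝ) / (T.card : ℝ)

/-- weights on `W`, completed by `1` -/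
noncomputable def ext (W : Finset E) (w : E → ℝ) : E → ℝ := fun e => if e ∈ W then w e else 1

theorem ext_pos (W : Finset E) (w : E → ℝ) (hw : ∀ e, 0 < w e) : ∀ e, 0 < ext W w e := by
  intro e
  unfold ext
  split_ifs
  · exact hw e
  · exact one_pos

theorem prod_ext (W A : Finset E) (w : E → ℝ) : ∏ a ∈ A, ext W w a = ∏ a ∈ A ∩ W, w a := by
  unfold ext
  rw [Finset.prod_ite, Finset.prod_const_one, mul_one]
  congr 1

theorem sum_mass (T : Finset (Finset E)) (W : Finset E) (q : Finset E → Prop) [DecidablePred q]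
    (φ : Finset E → ℝ) :
    ∑ R ∈ W.powerset with q R, mass T W R * φ R =
      (∑ A ∈ T with q (A ∩ W), φ (A ∩ W)) / (T.card : ℝ) := by
  have h : ∑ A ∈ T with q (A ∩ W), φ (A ∩ W) =
      ∑ R ∈ W.powerset with q R, ∑ A ∈ T.filter (fun A => q (A ∩ W)) with A ∩ W = R, φ (A ∩ W) := by
    rw [Finset.sum_fiberwise_of_maps_to]
    intro A hA
    simp only [Finset.mem_filter, Finset.mem_powerset] at hA ⊢
    exact ⟨Finset.inter_subset_right, hA.2⟩
  rw [h, Finset.sum_div]
  apply Finset.sum_congr rfl
  intro R hR
  simp only [Finset.mem_filter, Finset.mem_powerset] at hR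
  have h1 : ∑ A ∈ T.filter (fun A => q (A ∩ W)) with A ∩ W = R, φ (A ∩ W) =
      ((T.filter (fun A => A ∩ W = R)).card : ℝ) * φ R := by
    rw [Finset.filter_filter]
    have : T.filter (fun A => q (A ∩ W) ∧ A ∩ W = R) = T.filter (fun A => A ∩ W = R) := by
      apply Finset.filter_congr
      intro A _
      constructor
      · exact fun h => h.2
      · intro h
        rw [h]
        exact ⟨hR.2, rfl⟩
    rw [this, Finset.sum_congr rfl (g := fun _ => φ R), Finset.sum_const, nsmul_eq_mul]
    intro A hA
    rw [(Finset.mem_filter.1 hA).2]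
  rw [h1]
  unfold mass
  ring

theorem gen_mass (T : Finset (Finset E)) (W : Finset E) (w : E → ℝ) :
    gen (mass T) W w = Z T ∅ (ext W w) / (T.card : ℝ) := by
  have h := sum_mass T W (fun _ => True) (fun R => ∏ e ∈ R, w e)
  simp only [Finset.filter_true] at h
  unfold gen Z
  rw [h]
  congr 1
  rw [Finset.filter_true_of_mem (by simp)]
  exact Finset.sum_congr rfl fun A _ => (prod_ext W A w).symm

theorem genIn_mass (T : Finset (Finset E)) (W : Finset E) (g : E) (hg : g ∈ W) (w : E → ℝ) :
    genIn (mass T) W g w = Z T {g} (ext W w) / (T.card : ℝ) := by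
  have h := sum_mass T W (fun R => g ∈ R) (fun R => ∏ e ∈ R, w e)
  unfold genIn Z
  rw [h]
  congr 1
  have : T.filter (fun A => g ∈ A ∩ W) = T.filter (fun A => {g} ⊆ A) := by
    apply Finset.filter_congr
    intro A _
    simp [hg]
  rw [this]
  exact Finset.sum_congr rfl fun A _ => (prod_ext W A w).symm

theorem pm_mass (T : Finset (Finset E)) (hne : T.Nonempty) (W : Finset E) (g : E) (hg : g ∈ W)
    (w : E → ℝ) : pm (mass T) W g w = P T {g} (ext W w) := by
  unfold pm P
  rw [gen_mass, genIn_mass T W g hg]
  have : (T.card : ℝ) ≠ 0 := by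
    have := hne.card_pos
    positivity
  rw [div_div_div_cancel_right₀ this]

theorem isGood_mass (T : Finset (Finset E)) (hne : T.Nonempty) (hT : NC T) (U : Finset E)
    (hU : ∀ A ∈ T, A ⊆ U) (r : ℕ) (hr : ∀ A ∈ T, A.card = r) : IsGood (mass T) where
  nonneg := by
    intro W R _
    unfold mass
    positivity
  total := by
    intro W
    have h := sum_mass T W (fun _ => True) (fun _ => 1)
    simp only [Finset.filter_true, mul_one, Finset.sum_const, nsmul_eq_mul] at h
    rw [h]
    have := hne.card_pos
    field_simp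
  consistent := by
    intro V W R hVW hR
    have h := sum_mass T W (fun S => S ∩ V = R) (fun _ => 1)
    simp only [mul_one, Finset.sum_const, nsmul_eq_mul] at h
    rw [h]
    unfold mass
    congr 3
    apply Finset.filter_congr
    intro A _
    rw [Finset.inter_assoc, Finset.inter_eq_right.2 hVW]
  anti := by
    intro W g hg h hh hhg w w' hw heq hle
    rw [pm_mass T hne W g hg, pm_mass T hne W g hg]
    apply hT.anti hne {g} {h} (by simpa using hhg) _ _ (ext_pos W w hw)
    · intro e
      by_cases he : e = h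
      · subst he
        simp only [ext, hh, if_true]
        exact hle
      · simp only [ext, heq e he]
        exact le_rfl
    · intro e he
      have he : e ≠ h := by simpa using he
      simp only [ext, heq e he]
  scale := by
    intro W g hg w hw c hc
    have hc0 : 0 < c := by linarith
    rw [pm_mass T hne W g hg, pm_mass T hne W g hg]
    -- divide all weights by `c`
    have hscale : ∀ F : Finset E, Z T F (ext W (fun e => c * w e)) =
        c ^ r * Z T F (fun e => if e ∈ W then w e else c⁻¹) := by
      intro F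
      unfold Z
      rw [Finset.mul_sum]
      apply Finset.sum_congr rfl
      intro A hA
      rw [← hr A (Finset.mem_filter.1 hA).1, ← Finset.prod_const, ← Finset.prod_mul_distrib]
      apply Finset.prod_congr rfl
      intro a _
      unfold ext
      split_ifs
      · rfl
      · rw [mul_inv_cancel₀ hc0.ne']
    have h2 : P T {g} (ext W (fun e => c * w e)) =
        P T {g} (fun e => if e ∈ W then w e else c⁻¹) := by
      unfold P
      rw [hscale, hscale, mul_div_mul_left]
      positivity
    rw [h2]
    -- compare with weights which are `1` outside `U`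
    have h3 : P T {g} (fun e => if e ∈ W then w e else c⁻¹) =
        P T {g} (fun e => if e ∈ W then w e else if e ∈ U then c⁻¹ else 1) := by
      unfold P
      rw [Z_congr T {g} _ (fun e => if e ∈ W then w e else if e ∈ U then c⁻¹ else 1),
        Z_congr T ∅ _ (fun e => if e ∈ W then w e else if e ∈ U then c⁻¹ else 1)]
      · intro A hA a ha
        simp only [hU A hA ha, if_true]
      · intro A hA a ha
        simp only [hU A hA ha, if_true]
    rw [h3]
    apply hT.anti hne {g} (U \ W)
    · rw [Finset.disjoint_singleton_right]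
      simp [hg]
    · intro e
      split_ifs
      · exact hw e
      · positivity
      · exact one_pos
    · intro e
      simp only [ext]
      split_ifs
      · exact le_rfl
      · exact inv_le_one_of_one_le₀ hc
      · exact le_rfl
    · intro e he
      simp only [ext]
      simp only [Finset.mem_sdiff, not_and, not_not] at he
      split_ifs with h1 h4
      · rfl
      · exact absurd (he h4) h1
      · rfl

/-- the restriction argument for Rayleigh monotonicity -/
theorem restrict (T T' : Finset (Finset E)) (U : Finset E) (hT' : NC T') (U' : Finset E)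
    (hU' : ∀ A ∈ T', A ⊆ U')
    (k : Finset E → ℕ) (m : ℕ) (hk : ∀ A ∈ T', (A \ U).card = m + k A)
    (hk0 : ∀ A ∈ T', k A = 0 ↔ A ∩ U ∈ T)
    (M : ℕ) (hM : 0 < M) (hcount : ∀ B ∈ T, (T'.filter (fun A => A ∩ U = B)).card = M)
    (hne : T.Nonempty) (hne' : T'.Nonempty) (F : Finset E) (hF : F ⊆ U) :
    ((T'.filter (fun A => F ⊆ A)).card : ℝ) / (T'.card : ℝ) ≤
      ((T.filter (fun A => F ⊆ A)).card : ℝ) / (T.card : ℝ) := by
  -- counts as generating functions at weight one
  have hone : ∀ (T : Finset (Finset E)) (F : Finset E),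
      Z T F (fun _ => 1) = ((T.filter (fun A => F ⊆ A)).card : ℝ) := by
    intro T F
    simp [Z]
  have hZ : ∀ (F : Finset E) (ε : ℝ), Z T' F (fun e => if e ∈ U then 1 else ε) =
      ε ^ m * ∑ A ∈ T' with F ⊆ A, ε ^ k A := by
    intro F ε
    unfold Z
    rw [Finset.mul_sum]
    apply Finset.sum_congr rfl
    intro A hA
    rw [Finset.prod_ite, Finset.prod_const_one, one_mul, Finset.prod_const, ← pow_add,
      ← hk A (Finset.mem_filter.1 hA).1]
    congr 2
    ext x
    simp
  have hlim : ∀ F : Finset E, F ⊆ U → ∑ A ∈ T' with F ⊆ A, (0 : ℝ) ^ k A =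
      M * ((T.filter (fun A => F ⊆ A)).card : ℝ) := by
    intro F hF
    have h1 : ∑ A ∈ T' with F ⊆ A, (0 : ℝ) ^ k A =
        (((T'.filter (fun A => F ⊆ A)).filter (fun A => A ∩ U ∈ T)).card : ℝ) := by
      rw [Finset.card_filter]
      push_cast
      apply Finset.sum_congr rfl
      intro A hA
      by_cases h : A ∩ U ∈ T
      · rw [if_pos h, (hk0 A (Finset.mem_filter.1 hA).1).2 h, pow_zero]
      · rw [if_neg h, zero_pow]
        exact fun h0 => h ((hk0 A (Finset.mem_filter.1 hA).1).1 h0)
    rw [h1]
    have h2 : ((T'.filter (fun A => F ⊆ A)).filter (fun A => A ∩ U ∈ T)).card =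
        ∑ B ∈ T.filter (fun A => F ⊆ A), M := by
      rw [Finset.card_eq_sum_card_fiberwise (f := fun A => A ∩ U)
        (t := T.filter (fun A => F ⊆ A))]
      · apply Finset.sum_congr rfl
        intro B hB
        rw [← hcount B (Finset.mem_filter.1 hB).1]
        congr 1
        ext A
        simp only [Finset.mem_filter] at hB ⊢
        constructor
        · rintro ⟨⟨⟨h1, h2⟩, h3⟩, h4⟩
          exact ⟨h1, h4⟩
        · rintro ⟨h1, h4⟩
          refine ⟨⟨⟨h1, ?_⟩, ?_⟩, h4⟩
          · have h5 : F ⊆ A ∩ U := h4 ▸ hB.2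
            exact h5.trans Finset.inter_subset_left
          · rw [h4]
            exact hB.1
      · intro A hA
        simp only [Finset.coe_filter, Finset.mem_filter, Set.mem_ofPred_eq] at hA ⊢
        exact ⟨hA.2, Finset.subset_inter hA.1.2 hF⟩
    rw [h2, Finset.sum_const, smul_eq_mul]
    push_cast
    ring
  -- the inequality for positive `ε`
  have hineq : ∀ ε : ℝ, 0 < ε → ε ≤ 1 →
      ((T'.filter (fun A => F ⊆ A)).card : ℝ) * (∑ A ∈ T' with ∅ ⊆ A, ε ^ k A) ≤
        (∑ A ∈ T' with F ⊆ A, ε ^ k A) * (T'.card : ℝ) := by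
    intro ε hε hε1
    have h1 := hT'.anti hne' F (U' \ U) (by
      rw [Finset.disjoint_left]
      intro x hx hxF
      exact (Finset.mem_sdiff.1 hx).2 (hF hxF))
      (fun e => if e ∈ U then 1 else if e ∈ U' then ε else 1) (fun _ => 1)
      (by
        intro e
        split_ifs
        · exact one_pos
        · exact hε
        · exact one_pos)
      (by
        intro e
        split_ifs
        · exact le_rfl
        · exact hε1
        · exact le_rfl)
      (by
        intro e he
        simp only [Finset.mem_sdiff, not_and, not_not] at he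
        split_ifs with h1 h2
        · rfl
        · exact absurd (he h2) h1
        · rfl)
    have h2 : ∀ F : Finset E, Z T' F (fun e => if e ∈ U then 1 else if e ∈ U' then ε else 1) =
        Z T' F (fun e => if e ∈ U then 1 else ε) := by
      intro F
      apply Z_congr
      intro A hA a ha
      simp only [hU' A hA ha, if_true]
    unfold P at h1
    rw [h2, h2, hZ, hZ, hone, hone, mul_div_mul_left _ _ (by positivity)] at h1
    have h3 : (0 : ℝ) < ∑ A ∈ T' with ∅ ⊆ A, ε ^ k A := by
      apply Finset.sum_pos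
      · intro A _
        positivity
      · simpa using hne'
    have h4 : T'.filter (fun A => ∅ ⊆ A) = T' := by simp
    rw [h4] at h1
    have h5 : (0 : ℝ) < (T'.card : ℝ) := by
      have := hne'.card_pos
      positivity
    rw [h4] at h3 ⊢
    rw [div_le_div_iff₀ h5 h3] at h1
    exact h1
  -- the limit
  have hcont : ∀ F : Finset E, Tendsto (fun ε : ℝ => ∑ A ∈ T' with F ⊆ A, ε ^ k A)
      (𝓝[>] 0) (𝓝 (∑ A ∈ T' with F ⊆ A, (0 : ℝ) ^ k A)) := by
    intro F
    have : Continuous (fun ε : ℝ => ∑ A ∈ T' with F ⊆ A, ε ^ k A) := by fun_prop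
    exact (this.tendsto 0).mono_left nhdsWithin_le_nhds
  have hfin := le_of_tendsto_of_tendsto ((hcont ∅).const_mul
    ((T'.filter (fun A => F ⊆ A)).card : ℝ)) ((hcont F).mul_const (T'.card : ℝ)) (by
      have : Set.Ioc (0 : ℝ) 1 ∈ 𝓝[>] (0 : ℝ) := Ioc_mem_nhdsGT one_pos
      filter_upwards [this] with ε hε
      exact hineq ε hε.1 hε.2)
  rw [hlim ∅ (by simp), hlim F hF] at hfin
  have h4 : T.filter (fun A => ∅ ⊆ A) = T := by simp
  rw [h4] at hfin
  have h5 : (0 : ℝ) < (T'.card : ℝ) := by
    have := hne'.card_pos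
    positivity
  have h6 : (0 : ℝ) < (T.card : ℝ) := by
    have := hne.card_pos
    positivity
  have h7 : (0 : ℝ) < M := by exact_mod_cast hM
  rw [div_le_div_iff₀ h5 h6]
  have h8 : (M : ℝ) * (((T'.filter (fun A => F ⊆ A)).card : ℝ) * (T.card : ℝ)) ≤
      M * (((T.filter (fun A => F ⊆ A)).card : ℝ) * (T'.card : ℝ)) := by
    calc _ = ((T'.filter (fun A => F ⊆ A)).card : ℝ) * (M * (T.card : ℝ)) := by ring
      _ ≤ _ := hfin
      _ = _ := by ring
  exact le_of_mul_le_mul_left h8 h7

end Abstract

section Graph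

variable {V : Type*} [DecidableEq V]

omit [DecidableEq V] in
theorem mem_edgesIn {G : SimpleGraph V} {S : Finset V} {e : Sym2 V} :
    e ∈ edgesIn G S ↔ (∀ v ∈ e, v ∈ S) ∧ e ∈ G.edgeSet := by
  unfold edgesIn
  simp only [Finset.mem_filter, Finset.mem_sym2_iff]

omit [DecidableEq V] in
theorem mem_STs {G : SimpleGraph V} {S : Finset V} {A : Finset (Sym2 V)} :
    A ∈ STs G S ↔ IsSpanningTreeOn G S A := by
  unfold STs
  simp only [Finset.mem_filter, Finset.mem_powerset]
  exact ⟨fun h => h.2, fun h => ⟨h.1, h⟩⟩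

/-- the graph on `S` with edge set `A` -/
abbrev gr (S : Finset V) (A : Finset (Sym2 V)) : SimpleGraph (S : Set V) :=
  (SimpleGraph.fromEdgeSet (A : Set (Sym2 V))).induce (S : Set V)

omit [DecidableEq V] in
theorem gr_adj {S : Finset V} {A : Finset (Sym2 V)} {u v : (S : Set V)} :
    (gr S A).Adj u v ↔ s((u : V), (v : V)) ∈ A ∧ (u : V) ≠ v := by
  simp [gr, SimpleGraph.fromEdgeSet_adj]

omit [DecidableEq V] in
theorem ne_of_mem_edgesIn {G : SimpleGraph V} {S : Finset V} {u v : V}
    (h : s(u, v) ∈ edgesIn G S) : u ≠ v := by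
  have := (mem_edgesIn.1 h).2
  exact SimpleGraph.Adj.ne this

omit [DecidableEq V] in
theorem image_edgeSet {G : SimpleGraph V} {S : Finset V} {A : Finset (Sym2 V)}
    (hA : A ⊆ edgesIn G S) :
    (Sym2.map (Subtype.val : ↥(S : Set V) → V)) '' (gr S A).edgeSet = (A : Set (Sym2 V)) := by
  ext e
  constructor
  · rintro ⟨e', he', rfl⟩
    induction e' using Sym2.ind with
    | _ u v =>
      rw [SimpleGraph.mem_edgeSet, gr_adj] at he'
      exact he'.1
  · intro he
    induction e using Sym2.ind with
    | _ u v =>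
      have h := mem_edgesIn.1 (hA he)
      have hu : u ∈ (S : Set V) := h.1 u (by simp)
      have hv : v ∈ (S : Set V) := h.1 v (by simp)
      refine ⟨s(⟨u, hu⟩, ⟨v, hv⟩), ?_, by simp⟩
      rw [SimpleGraph.mem_edgeSet, gr_adj]
      exact ⟨he, ne_of_mem_edgesIn (hA he)⟩

omit [DecidableEq V] in
theorem card_edgeSet {G : SimpleGraph V} {S : Finset V} {A : Finset (Sym2 V)}
    (hA : A ⊆ edgesIn G S) : Nat.card (gr S A).edgeSet = A.card := by
  have h1 := image_edgeSet hA
  have h2 : Set.ncard ((Sym2.map (Subtype.val : ↥(S : Set V) → V)) '' (gr S A).edgeSet) =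
      Set.ncard (gr S A).edgeSet :=
    Set.ncard_image_of_injective _ (Sym2.map.injective Subtype.val_injective)
  rw [h1, Set.ncard_coe_finset] at h2
  rw [h2]
  rfl

theorem ST_iff {G : SimpleGraph V} {S : Finset V} {A : Finset (Sym2 V)} :
    IsSpanningTreeOn G S A ↔ A ⊆ edgesIn G S ∧ (gr S A).Connected ∧ A.card + 1 = S.card := by
  unfold IsSpanningTreeOn
  constructor
  · rintro ⟨h1, h2⟩
    rw [SimpleGraph.isTree_iff_connected_and_card] at h2
    have h3 := card_edgeSet h1
    refine ⟨h1, h2.1, ?_⟩
    rw [← h3, h2.2]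
    simp
  · rintro ⟨h1, h2, h3⟩
    refine ⟨h1, ?_⟩
    rw [SimpleGraph.isTree_iff_connected_and_card]
    refine ⟨h2, ?_⟩
    rw [card_edgeSet h1, h3]
    simp

omit [DecidableEq V] in
theorem exists_gr_eq {G : SimpleGraph V} {S : Finset V} {H : SimpleGraph (S : Set V)}
    (hH : H ≤ G.induce (S : Set V)) : ∃ A ⊆ edgesIn G S, gr S A = H := by
  classical
  refine ⟨(edgesIn G S).filter
    (fun e => e ∈ (Sym2.map (Subtype.val : ↥(S : Set V) → V)) '' H.edgeSet),
    Finset.filter_subset _ _, ?_⟩
  ext u v
  rw [gr_adj, Finset.mem_filter]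
  constructor
  · rintro ⟨⟨_, e, he, heq⟩, _⟩
    have : e = s(u, v) := Sym2.map.injective Subtype.val_injective (by rw [heq]; simp)
    rw [this] at he
    exact he
  · intro h
    refine ⟨⟨?_, s(u, v), h, by simp⟩, ?_⟩
    · rw [mem_edgesIn]
      refine ⟨?_, ?_⟩
      · intro x hx
        rw [Sym2.mem_iff] at hx
        rcases hx with rfl | rfl
        · exact u.2
        · exact v.2
      · exact hH h
    · intro h2
      exact h.ne (Subtype.ext h2)

omit [DecidableEq V] in
theorem gr_le {G : SimpleGraph V} {S : Finset V} {A : Finset (Sym2 V)}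
    (hA : A ⊆ edgesIn G S) : gr S A ≤ G.induce (S : Set V) := by
  intro u v h
  rw [gr_adj] at h
  exact (mem_edgesIn.1 (hA h.1)).2

omit [DecidableEq V] in
theorem gr_mono {S : Finset V} {A B : Finset (Sym2 V)} (h : A ⊆ B) : gr S A ≤ gr S B := by
  intro u v huv
  rw [gr_adj] at huv ⊢
  exact ⟨h huv.1, huv.2⟩

omit [DecidableEq V] in
theorem exists_ST_of_acyclic {G : SimpleGraph V} {S : Finset V}
    (hS : (G.induce (S : Set V)).Connected) {A : Finset (Sym2 V)} (hA : A ⊆ edgesIn G S)
    (hac : (gr S A).IsAcyclic) : ∃ B ∈ STs G S, A ⊆ B := by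
  obtain ⟨F, h1, h2, h3⟩ := hS.exists_isTree_le_of_le_of_isAcyclic (gr_le hA) hac
  obtain ⟨B, hB, rfl⟩ := exists_gr_eq h2
  refine ⟨B, mem_STs.2 ⟨hB, h3⟩, ?_⟩
  intro e he
  have h4 : e ∈ (A : Set (Sym2 V)) := he
  rw [← image_edgeSet hA] at h4
  have h5 : e ∈ (B : Set (Sym2 V)) := by
    rw [← image_edgeSet hB]
    exact Set.image_mono (SimpleGraph.edgeSet_mono h1) h4
  exact h5

omit [DecidableEq V] in
theorem edgesIn_mono {G : SimpleGraph V} {S S' : Finset V} (h : S ⊆ S') :
    edgesIn G S ⊆ edgesIn G S' := by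
  intro e he
  rw [mem_edgesIn] at he ⊢
  exact ⟨fun v hv => h (he.1 v hv), he.2⟩

theorem inter_acyclic {G : SimpleGraph V} {S S' : Finset V} (h : S ⊆ S') {A : Finset (Sym2 V)}
    (hA : A ∈ STs G S') : (gr S (A ∩ edgesIn G S)).IsAcyclic := by
  have hA' := (mem_STs.1 hA).2.isAcyclic
  refine hA'.comap (G := gr S (A ∩ edgesIn G S))
    ⟨fun x => ⟨x.1, h x.2⟩, ?_⟩ ?_
  · intro a b hab
    have h2 := gr_adj.1 hab
    show (gr S' A).Adj _ _
    rw [gr_adj]
    exact ⟨(Finset.mem_inter.1 h2.1).1, h2.2⟩
  · intro a b hab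
    have := congrArg Subtype.val hab
    exact Subtype.ext this

/-- exchanging the part inside `S` -/
theorem swap {G : SimpleGraph V} {S S' : Finset V} (h : S ⊆ S') {A B' : Finset (Sym2 V)}
    (hA : A ∈ STs G S') (hB : A ∩ edgesIn G S ∈ STs G S) (hB' : B' ∈ STs G S) :
    (A \ edgesIn G S) ∪ B' ∈ STs G S' ∧ ((A \ edgesIn G S) ∪ B') ∩ edgesIn G S = B' := by
  rw [mem_STs, ST_iff] at hA hB hB'
  have hdisj : Disjoint (A \ edgesIn G S) B' := by
    rw [Finset.disjoint_left]
    intro x hx hx'
    exact (Finset.mem_sdiff.1 hx).2 (hB'.1 hx')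
  constructor
  · rw [mem_STs, ST_iff]
    refine ⟨?_, ?_, ?_⟩
    · apply Finset.union_subset
      · exact Finset.sdiff_subset.trans hA.1
      · exact hB'.1.trans (edgesIn_mono h)
    · -- connectedness
      have hne := hA.2.1.nonempty
      have key : ∀ u v : (S' : Set V), (gr S' A).Adj u v →
          (gr S' ((A \ edgesIn G S) ∪ B')).Reachable u v := by
        intro u v huv
        rw [gr_adj] at huv
        by_cases hin : s((u : V), (v : V)) ∈ edgesIn G S
        · -- both endpoints are in `S`
          have hu : (u : V) ∈ S := (mem_edgesIn.1 hin).1 _ (by simp)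
          have hv : (v : V) ∈ S := (mem_edgesIn.1 hin).1 _ (by simp)
          have hr : (gr S B').Reachable ⟨u, hu⟩ ⟨v, hv⟩ := hB'.2.1.preconnected _ _
          let f : gr S B' →g gr S' ((A \ edgesIn G S) ∪ B') :=
            ⟨fun x => ⟨x.1, h x.2⟩, by
              intro a b hab
              have h2 := gr_adj.1 hab
              show (gr S' ((A \ edgesIn G S) ∪ B')).Adj _ _
              rw [gr_adj]
              exact ⟨Finset.mem_union_right _ h2.1, h2.2⟩⟩
          exact hr.map f
        · apply SimpleGraph.Adj.reachable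
          rw [gr_adj]
          exact ⟨Finset.mem_union_left _ (Finset.mem_sdiff.2 ⟨huv.1, hin⟩), huv.2⟩
      refine ⟨?_⟩
      intro u v
      obtain ⟨p⟩ := hA.2.1.preconnected u v
      induction p with
      | nil => exact SimpleGraph.Reachable.refl _
      | cons hadj _ ih => exact (key _ _ hadj).trans ih
    · rw [Finset.card_union_of_disjoint hdisj]
      have h1 : (A \ edgesIn G S).card + (A ∩ edgesIn G S).card = A.card :=
        Finset.card_sdiff_add_card_inter A (edgesIn G S)
      omega
  · ext x
    simp only [Finset.mem_inter, Finset.mem_union, Finset.mem_sdiff]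
    constructor
    · rintro ⟨h1 | h1, h2⟩
      · exact absurd h2 h1.2
      · exact h1
    · intro hx
      exact ⟨Or.inr hx, hB'.1 hx⟩

omit [DecidableEq V] in
theorem acyclic_up {G : SimpleGraph V} {S S' : Finset V} {B : Finset (Sym2 V)}
    (hB : B ⊆ edgesIn G S) (hac : (gr S B).IsAcyclic) : (gr S' B).IsAcyclic := by
  intro u p hp
  have hsupp : ∀ x ∈ p.support, x ∈ {x : (S' : Set V) | (x : V) ∈ S} := by
    intro x hx
    rw [SimpleGraph.Walk.mem_support_iff_exists_mem_edges_of_not_nil hp.not_nil] at hx
    obtain ⟨e, he, hxe⟩ := hx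
    have h1 := p.edges_subset_edgeSet he
    induction e using Sym2.ind with
    | _ a b =>
      rw [SimpleGraph.mem_edgeSet, gr_adj] at h1
      have h2 := (mem_edgesIn.1 (hB h1.1)).1
      rw [Sym2.mem_iff] at hxe
      rcases hxe with rfl | rfl
      · exact h2 _ (by simp)
      · exact h2 _ (by simp)
  have hp' : (p.induce _ hsupp).IsCycle := by
    rw [← SimpleGraph.Walk.isCycle_map_iff_of_injective
      (f := (SimpleGraph.Embedding.induce (G := gr S' B)
        {x : (S' : Set V) | (x : V) ∈ S}).toHom)
      (SimpleGraph.Embedding.induce (G := gr S' B)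
        {x : (S' : Set V) | (x : V) ∈ S}).injective]
    rw [SimpleGraph.Walk.map_induce]
    exact hp
  have h3 : ((gr S' B).induce {x : (S' : Set V) | (x : V) ∈ S}).IsAcyclic := by
    refine hac.comap ⟨fun x => ⟨x.1.1, x.2⟩, ?_⟩ ?_
    · intro a b hab
      have h2 := gr_adj.1 (show (gr S' B).Adj a.1 b.1 from hab)
      show (gr S B).Adj _ _
      rw [gr_adj]
      exact h2
    · intro a b hab
      have := congrArg Subtype.val hab
      exact Subtype.ext (Subtype.ext this)
  exact h3 _ hp'

/-- a spanning tree of the big piece restricting to a spanning tree of the small piece -/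
theorem exists_good {G : SimpleGraph V} {S S' : Finset V} (h : S ⊆ S')
    (hS : (G.induce (S : Set V)).Connected) (hS' : (G.induce (S' : Set V)).Connected) :
    ∃ A ∈ STs G S', A ∩ edgesIn G S ∈ STs G S := by
  obtain ⟨B, hB, -⟩ := exists_ST_of_acyclic hS (A := ∅) (Finset.empty_subset _) (by
    have : gr S (∅ : Finset (Sym2 V)) = ⊥ := by
      ext u v
      rw [gr_adj]
      simp
    rw [this]
    exact SimpleGraph.isAcyclic_bot)
  have hB1 := mem_STs.1 hB
  -- `B` is acyclic in `S'`
  have hBac : (gr S' B).IsAcyclic := acyclic_up hB1.1 hB1.2.isAcyclic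
  obtain ⟨A, hA, hBA⟩ := exists_ST_of_acyclic hS' (hB1.1.trans (edgesIn_mono h)) hBac
  refine ⟨A, hA, ?_⟩
  obtain ⟨B', hB', hAB'⟩ := exists_ST_of_acyclic hS Finset.inter_subset_right
    (inter_acyclic h hA)
  have h1 : B ⊆ A ∩ edgesIn G S := Finset.subset_inter hBA hB1.1
  have h2 : B = B' := by
    apply Finset.eq_of_subset_of_card_le (h1.trans hAB')
    have := (ST_iff.1 (mem_STs.1 hB)).2.2
    have := (ST_iff.1 (mem_STs.1 hB')).2.2
    omega
  have h3 : A ∩ edgesIn G S = B := Finset.Subset.antisymm (h2 ▸ hAB') h1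
  rw [h3]
  exact hB

end Graph

end UST

section Final

variable {V : Type*} [DecidableEq V]

open UST

theorem STs_nonempty (G : SimpleGraph V) (S : Finset V)
    (hS : (G.induce (S : Set V)).Connected) : (STs G S).Nonempty := by
  obtain ⟨B, hB, -⟩ := exists_ST_of_acyclic hS (A := ∅) (Finset.empty_subset _) (by
    have : gr S (∅ : Finset (Sym2 V)) = ⊥ := by
      ext u v
      rw [gr_adj]
      simp
    rw [this]
    exact SimpleGraph.isAcyclic_bot)
  exact ⟨B, hB⟩

theorem NC_STs (G : SimpleGraph V) (S : Finset V) : NC (STs G S) := by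
  intro w hw e f hef
  have h := tree_nc G S w hw e f hef
  unfold Z
  simpa [Finset.insert_subset_iff] using h

theorem ustMass_isGood (G : SimpleGraph V) (S : Finset V)
    (hS : (G.induce (S : Set V)).Connected) : IsGood (ustMass G S) := by
  have h := isGood_mass (STs G S) (STs_nonempty G S hS) (NC_STs G S) (edgesIn G S)
    (fun A hA => (mem_STs.1 hA).1) (S.card - 1) (fun A hA => by
      have := (ST_iff.1 (mem_STs.1 hA)).2.2
      omega)
  exact h

theorem ustContains_eq (G : SimpleGraph V) (S : Finset V) (F : Finset (Sym2 V)) :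
    ustContains G S F =
      (((STs G S).filter (fun A => F ⊆ A)).card : ℝ) / ((STs G S).card : ℝ) := by
  unfold ustContains STs
  congr 2
  rw [Finset.filter_filter]
  congr

theorem ustContains_anti (G : SimpleGraph V) (S S' : Finset V)
    (hSS : S ⊆ S') (hS : (G.induce (S : Set V)).Connected) (hS' : (G.induce (S' : Set V)).Connected)
    (F : Finset (Sym2 V)) (hF : F ⊆ edgesIn G S) :
    ustContains G S' F ≤ ustContains G S F := by
  rw [ustContains_eq, ustContains_eq]
  obtain ⟨A₀, hA₀, hA₀'⟩ := exists_good hSS hS hS'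
  have hcard : ∀ A ∈ STs G S', (A ∩ edgesIn G S).card + 1 ≤ S.card ∧
      ((A ∩ edgesIn G S).card + 1 = S.card ↔ A ∩ edgesIn G S ∈ STs G S) := by
    intro A hA
    obtain ⟨B, hB, hAB⟩ := exists_ST_of_acyclic hS Finset.inter_subset_right
      (inter_acyclic hSS hA)
    have h1 := (ST_iff.1 (mem_STs.1 hB)).2.2
    have h2 := Finset.card_le_card hAB
    refine ⟨by omega, ?_, ?_⟩
    · intro h3
      have h4 : A ∩ edgesIn G S = B := Finset.eq_of_subset_of_card_le hAB (by omega)
      rw [h4]
      exact hB
    · intro h3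
      exact (ST_iff.1 (mem_STs.1 h3)).2.2
  apply restrict (STs G S) (STs G S') (edgesIn G S) (NC_STs G S') (edgesIn G S')
    (fun A hA => (mem_STs.1 hA).1) (fun A => (S.card - 1) - (A ∩ edgesIn G S).card)
    (S'.card - S.card) ?_ ?_
    (((STs G S').filter (fun A => A ∩ edgesIn G S = A₀ ∩ edgesIn G S)).card) ?_ ?_
    (STs_nonempty G S hS) (STs_nonempty G S' hS') F hF
  · intro A hA
    have h1 := hcard A hA
    have h2 := (ST_iff.1 (mem_STs.1 hA)).2.2
    have h3 := Finset.card_sdiff_add_card_inter A (edgesIn G S)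
    have h4 := Finset.card_le_card hSS
    omega
  · intro A hA
    have h1 := hcard A hA
    rw [← h1.2]
    have h2 := h1.1
    omega
  · apply Finset.card_pos.2
    exact ⟨A₀, Finset.mem_filter.2 ⟨hA₀, rfl⟩⟩
  · intro B hB
    -- bijection exchanging the part in `S`
    apply Finset.card_bij' (i := fun A _ => (A \ edgesIn G S) ∪ (A₀ ∩ edgesIn G S))
      (j := fun A _ => (A \ edgesIn G S) ∪ B)
    · intro A hA
      rw [Finset.mem_filter] at hA ⊢
      have h1 : A ∩ edgesIn G S ∈ STs G S := by
        rw [hA.2]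
        exact hB
      exact swap hSS hA.1 h1 hA₀'
    · intro A hA
      rw [Finset.mem_filter] at hA ⊢
      have h1 : A ∩ edgesIn G S ∈ STs G S := by
        rw [hA.2]
        exact hA₀'
      exact swap hSS hA.1 h1 hB
    · intro A hA
      rw [Finset.mem_filter] at hA
      ext x
      have h1 : x ∈ A ∩ edgesIn G S ↔ x ∈ B := by rw [hA.2]
      have h2 : x ∈ B → x ∈ edgesIn G S := fun h => (mem_STs.1 hB).1 h
      simp only [Finset.mem_inter, Finset.mem_union, Finset.mem_sdiff] at h1 ⊢
      tauto
    · intro A hA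
      rw [Finset.mem_filter] at hA
      ext x
      have h1 : x ∈ A ∩ edgesIn G S ↔ x ∈ A₀ ∩ edgesIn G S := by rw [hA.2]
      have h2 : x ∈ B → x ∈ edgesIn G S := fun h => (mem_STs.1 hB).1 h
      simp only [Finset.mem_inter, Finset.mem_union, Finset.mem_sdiff] at h1 ⊢
      tauto

theorem incl_excl {E : Type*} [DecidableEq E] (W R A : Finset E) :
    (if A ∩ W = R then (1 : ℝ) else 0) =
      ∑ F ∈ W.powerset with R ⊆ F, (-1 : ℝ) ^ (F.card - R.card) * (if F ⊆ A then 1 else 0) := by
  have h1 : ∑ F ∈ W.powerset with R ⊆ F, (-1 : ℝ) ^ (F.card - R.card) * (if F ⊆ A then 1 else 0) =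
      ∑ F ∈ (A ∩ W).powerset with R ⊆ F, (-1 : ℝ) ^ (F.card - R.card) := by
    rw [Finset.sum_congr rfl (g := fun F => if F ⊆ A then (-1 : ℝ) ^ (F.card - R.card) else 0)
      (fun F _ => by split_ifs <;> simp), ← Finset.sum_filter, Finset.filter_filter]
    apply Finset.sum_congr _ (fun _ _ => rfl)
    ext F
    simp only [Finset.mem_filter, Finset.mem_powerset, Finset.subset_inter_iff]
    tauto
  rw [h1]
  by_cases hRA : R ⊆ A ∩ W
  · have h2 : ∑ F ∈ (A ∩ W).powerset with R ⊆ F, (-1 : ℝ) ^ (F.card - R.card) =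
        ∑ D ∈ ((A ∩ W) \ R).powerset, (-1 : ℝ) ^ D.card := by
      apply Finset.sum_bij' (i := fun F _ => F \ R) (j := fun D _ => D ∪ R)
      · intro F hF
        simp only [Finset.mem_filter, Finset.mem_powerset] at hF ⊢
        exact Finset.sdiff_subset_sdiff hF.1 (Finset.Subset.refl _)
      · intro D hD
        simp only [Finset.mem_filter, Finset.mem_powerset] at hD ⊢
        exact ⟨Finset.union_subset (hD.trans Finset.sdiff_subset) hRA,
          Finset.subset_union_right⟩
      · intro F hF
        simp only [Finset.mem_filter, Finset.mem_powerset] at hF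
        exact Finset.sdiff_union_of_subset hF.2
      · intro D hD
        simp only [Finset.mem_powerset] at hD
        apply Finset.union_sdiff_cancel_right
        rw [Finset.disjoint_left]
        intro x hx
        exact (Finset.mem_sdiff.1 (hD hx)).2
      · intro F hF
        simp only [Finset.mem_filter, Finset.mem_powerset] at hF
        rw [Finset.card_sdiff_of_subset hF.2]
    rw [h2]
    have h3 := Finset.sum_powerset_neg_one_pow_card (x := (A ∩ W) \ R)
    have h4 : ∑ D ∈ ((A ∩ W) \ R).powerset, (-1 : ℝ) ^ D.card =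
        ((∑ D ∈ ((A ∩ W) \ R).powerset, (-1 : ℤ) ^ D.card : ℤ) : ℝ) := by
      push_cast
      rfl
    rw [h4, h3]
    by_cases h5 : A ∩ W = R
    · have h6 : (A ∩ W) \ R = ∅ := by
        rw [h5]
        simp
      rw [if_pos h5, if_pos h6]
      simp
    · have h6 : (A ∩ W) \ R ≠ ∅ := fun h =>
        h5 (Finset.Subset.antisymm (Finset.sdiff_eq_empty_iff_subset.1 h) hRA)
      rw [if_neg h5, if_neg h6]
      simp
  · rw [if_neg (fun h => hRA h.ge)]
    symm
    apply Finset.sum_eq_zero
    intro F hF
    simp only [Finset.mem_filter, Finset.mem_powerset] at hF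
    exact absurd (hF.2.trans hF.1) hRA

/-- inclusion–exclusion -/
theorem ustMass_eq (G : SimpleGraph V) (S : Finset V)
    (W R : Finset (Sym2 V)) (_hR : R ⊆ W) :
    ustMass G S W R =
      ∑ F ∈ W.powerset with R ⊆ F, (-1 : ℝ) ^ (F.card - R.card) * ustContains G S F := by
  unfold ustMass
  simp only [ustContains_eq]
  have h1 : ∑ F ∈ W.powerset with R ⊆ F, (-1 : ℝ) ^ (F.card - R.card) *
      ((((STs G S).filter (fun A => F ⊆ A)).card : ℝ) / ((STs G S).card : ℝ)) =
      (∑ F ∈ W.powerset with R ⊆ F, ∑ A ∈ STs G S, (-1 : ℝ) ^ (F.card - R.card) *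
        (if F ⊆ A then 1 else 0)) / ((STs G S).card : ℝ) := by
    rw [Finset.sum_div]
    apply Finset.sum_congr rfl
    intro F _
    rw [← mul_div_assoc, ← Finset.mul_sum, Finset.card_filter]
    push_cast
    rfl
  rw [h1, Finset.sum_comm, Finset.card_filter]
  congr 1
  push_cast
  apply Finset.sum_congr rfl
  intro A _
  exact incl_excl W R A

end Final

end Crest.Agent.SRF
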