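import Crest.Agent.SRF_FUSF
import Crest.Agent.SRF_Nat
import Crest.Agent.SRF_Sub

/-!
Windows around an edge: definition, equivariance, measurability, exhaustion; the canonical
subsequence and the limits of the finite-window schemes.
-/

set_option autoImplicit false

namespace Crest.Agent.SRF

open MeasureTheory Filter Topology Crest.ProbabilityR Crest.ProbabilityR.GraphTables

/-- ball of radius `r` around the edge `e` -/
def ballS (G : SimpleGraph ℕ) (e : Sym2 ℕ) : ℕ → Set ℕ
  | 0 => {v | v ∈ e}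
  | r + 1 => ballS G e r ∪ {v | ∃ u, u ∈ ballS G e r ∧ G.Adj u v}

/-- edges inside the ball -/
def winSet (G : SimpleGraph ℕ) (e : Sym2 ℕ) (r : ℕ) : Set (Sym2 ℕ) :=
  {e' | e' ∈ G.edgeSet ∧ ∀ v ∈ e', v ∈ ballS G e r}

open Classical in
/-- the window -/
noncomputable def win (G : SimpleGraph ℕ) (e : Sym2 ℕ) (r : ℕ) : Finset (Sym2 ℕ) :=
  if h : (winSet G e r).Finite then h.toFinset else ∅

section comap

variable (σ : Equiv.Perm ℕ) (G : SimpleGraph ℕ)

theorem mem_ballS_comap (e : Sym2 ℕ) (r : ℕ) (v : ℕ) :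
    v ∈ ballS (G.comap ⇑σ) e r ↔ σ v ∈ ballS G (Sym2.map ⇑σ e) r := by
  induction r generalizing v with
  | zero =>
    simp only [ballS, Set.mem_ofPred_eq, Sym2.mem_map]
    constructor
    · intro h; exact ⟨v, h, rfl⟩
    · rintro ⟨a, ha, hav⟩
      rwa [← σ.injective hav]
  | succ r ih =>
    simp only [ballS, Set.mem_union, Set.mem_ofPred_eq, SimpleGraph.comap_adj]
    rw [ih]
    refine or_congr Iff.rfl ?_
    constructor
    · rintro ⟨u, hu, hadj⟩
      exact ⟨σ u, (ih u).1 hu, hadj⟩
    · rintro ⟨u, hu, hadj⟩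
      refine ⟨σ.symm u, (ih _).2 ?_, ?_⟩
      · rwa [Equiv.apply_symm_apply]
      · rwa [Equiv.apply_symm_apply]

theorem mem_edgeSet_comap (e : Sym2 ℕ) :
    e ∈ (G.comap ⇑σ).edgeSet ↔ Sym2.map ⇑σ e ∈ G.edgeSet := by
  induction e using Sym2.ind with
  | _ u v => simp

theorem mem_winSet_comap (e : Sym2 ℕ) (r : ℕ) (e' : Sym2 ℕ) :
    e' ∈ winSet (G.comap ⇑σ) e r ↔ Sym2.map ⇑σ e' ∈ winSet G (Sym2.map ⇑σ e) r := by
  simp only [winSet, Set.mem_ofPred_eq]
  rw [mem_edgeSet_comap]
  refine and_congr Iff.rfl ?_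
  constructor
  · intro h v hv
    obtain ⟨a, ha, rfl⟩ := Sym2.mem_map.1 hv
    exact (mem_ballS_comap σ G e r a).1 (h a ha)
  · intro h v hv
    exact (mem_ballS_comap σ G e r v).2 (h (σ v) (Sym2.mem_map.2 ⟨v, hv, rfl⟩))

theorem winSet_comap_image (e : Sym2 ℕ) (r : ℕ) :
    winSet G (Sym2.map ⇑σ e) r = (sMap σ) '' winSet (G.comap ⇑σ) e r := by
  ext e'
  constructor
  · intro h
    refine ⟨(sMap σ).symm e', ?_, Equiv.apply_symm_apply _ _⟩
    rw [mem_winSet_comap]
    have : Sym2.map ⇑σ ((sMap σ).symm e') = e' := Equiv.apply_symm_apply (sMap σ) e'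
    rwa [this]
  · rintro ⟨a, ha, rfl⟩
    exact (mem_winSet_comap σ G e r a).1 ha

theorem win_comap (e : Sym2 ℕ) (r : ℕ) :
    (win (G.comap ⇑σ) e r).map (sMap σ).toEmbedding = win G (Sym2.map ⇑σ e) r := by
  classical
  unfold win
  by_cases h : (winSet (G.comap ⇑σ) e r).Finite
  · have h' : (winSet G (Sym2.map ⇑σ e) r).Finite := by
      rw [winSet_comap_image]; exact h.image _
    rw [dif_pos h, dif_pos h']
    ext e'
    rw [Finset.mem_map_equiv, Set.Finite.mem_toFinset, Set.Finite.mem_toFinset, mem_winSet_comap]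
    have : Sym2.map ⇑σ ((sMap σ).symm e') = e' := Equiv.apply_symm_apply (sMap σ) e'
    rw [this]
  · have h' : ¬ (winSet G (Sym2.map ⇑σ e) r).Finite := by
      rw [winSet_comap_image]
      intro h2
      exact h (Set.Finite.of_finite_image h2 (sMap σ).injective.injOn)
    rw [dif_neg h, dif_neg h']
    simp

end comap

section finite

variable {G : SimpleGraph ℕ}

theorem ballS_mono (e : Sym2 ℕ) : Monotone (ballS G e) :=
  monotone_nat_of_le_succ fun _ => Set.subset_union_left

theorem ballS_finite (hG : ∀ v : ℕ, (G.neighborSet v).Finite) (e : Sym2 ℕ) (r : ℕ) :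
    (ballS G e r).Finite := by
  induction r with
  | zero =>
    induction e using Sym2.ind with
    | _ u v =>
      refine (Set.toFinite ({u, v} : Set ℕ)).subset ?_
      intro x hx
      simpa [ballS] using hx
  | succ r ih =>
    refine ih.union ?_
    have : {v | ∃ u, u ∈ ballS G e r ∧ G.Adj u v} = ⋃ u ∈ ballS G e r, G.neighborSet u := by
      ext v; simp
    rw [this]
    exact ih.biUnion fun u _ => hG u

theorem winSet_finite (hG : ∀ v : ℕ, (G.neighborSet v).Finite) (e : Sym2 ℕ) (r : ℕ) :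
    (winSet G e r).Finite := by
  classical
  have h := ballS_finite hG e r
  refine (h.toFinset.sym2.finite_toSet).subset ?_
  intro e' he'
  rw [Finset.mem_coe, Finset.mem_sym2_iff]
  intro v hv
  rw [Set.Finite.mem_toFinset]
  exact he'.2 v hv

theorem mem_win (hG : ∀ v : ℕ, (G.neighborSet v).Finite) (e : Sym2 ℕ) (r : ℕ) (e' : Sym2 ℕ) :
    e' ∈ win G e r ↔ e' ∈ winSet G e r := by
  unfold win
  rw [dif_pos (winSet_finite hG e r), Set.Finite.mem_toFinset]

theorem win_subset_edgeSet (e : Sym2 ℕ) (r : ℕ) (e' : Sym2 ℕ) (he' : e' ∈ win G e r) :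
    e' ∈ G.edgeSet := by
  unfold win at he'
  split_ifs at he' with h
  · rw [Set.Finite.mem_toFinset] at he'
    exact he'.1
  · simp at he'

theorem exists_ballS (hc : G.Connected) (e : Sym2 ℕ) (v : ℕ) : ∃ r, v ∈ ballS G e r := by
  induction e using Sym2.ind with
  | _ u w =>
    have h := hc.preconnected u v
    rw [SimpleGraph.reachable_iff_reflTransGen] at h
    induction h with
    | refl => exact ⟨0, by simp [ballS]⟩
    | tail _ hbc ih =>
      obtain ⟨r, hr⟩ := ih
      exact ⟨r + 1, Or.inr ⟨_, hr, hbc⟩⟩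

theorem eventually_mem_win (hc : G.Connected) (hG : ∀ v : ℕ, (G.neighborSet v).Finite)
    (e e' : Sym2 ℕ) (he' : e' ∈ G.edgeSet) : ∀ᶠ r in atTop, e' ∈ win G e r := by
  have h1 : ∀ᶠ r in atTop, ∀ v ∈ e', v ∈ ballS G e r := by
    induction e' using Sym2.ind with
    | _ u w =>
      obtain ⟨r1, hr1⟩ := exists_ballS hc e u
      obtain ⟨r2, hr2⟩ := exists_ballS hc e w
      filter_upwards [eventually_ge_atTop (max r1 r2)] with r hr v hv
      rw [Sym2.mem_iff] at hv
      rcases hv with rfl | rfl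
      · exact ballS_mono e ((le_max_left _ _).trans hr) hr1
      · exact ballS_mono e ((le_max_right _ _).trans hr) hr2
  filter_upwards [h1] with r hr
  rw [mem_win hG]
  exact ⟨he', hr⟩

end finite

section meas

theorem measurableSet_adj (u w : ℕ) : MeasurableSet {A : ℕ → ℕ → Bool | (graphOfTable A).Adj u w} := by
  have : {A : ℕ → ℕ → Bool | (graphOfTable A).Adj u w} =
      {A | u ≠ w ∧ (A u w = true ∨ A w u = true)} := by
    ext A
    simp [graphOfTable, SimpleGraph.fromRel_adj]
  rw [this]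
  have h1 : ∀ u w : ℕ, MeasurableSet {A : ℕ → ℕ → Bool | A u w = true} := by
    intro u w
    have hm : Measurable fun A : ℕ → ℕ → Bool => A u w :=
      (measurable_pi_apply w).comp (measurable_pi_apply u)
    exact hm (measurableSet_singleton true)
  by_cases h : u = w
  · simp [h]
  · have : {A : ℕ → ℕ → Bool | u ≠ w ∧ (A u w = true ∨ A w u = true)} =
        {A | A u w = true} ∪ {A | A w u = true} := by
      ext A; simp [h]
    rw [this]
    exact (h1 u w).union (h1 w u)

theorem measurableSet_edge (e : Sym2 ℕ) :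
    MeasurableSet {A : ℕ → ℕ → Bool | e ∈ (graphOfTable A).edgeSet} := by
  induction e using Sym2.ind with
  | _ u w => exact measurableSet_adj u w

theorem measurableSet_ballS (e : Sym2 ℕ) (r : ℕ) (v : ℕ) :
    MeasurableSet {A : ℕ → ℕ → Bool | v ∈ ballS (graphOfTable A) e r} := by
  induction r generalizing v with
  | zero => exact MeasurableSet.const _
  | succ r ih =>
    have : {A : ℕ → ℕ → Bool | v ∈ ballS (graphOfTable A) e (r + 1)} =
        {A | v ∈ ballS (graphOfTable A) e r} ∪
          ⋃ u, ({A | u ∈ ballS (graphOfTable A) e r} ∩ {A | (graphOfTable A).Adj u v}) := by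
      ext A
      simp [ballS]
    rw [this]
    exact (ih v).union (MeasurableSet.iUnion fun u => (ih u).inter (measurableSet_adj u v))

theorem measurableSet_winSet (e : Sym2 ℕ) (r : ℕ) (e' : Sym2 ℕ) :
    MeasurableSet {A : ℕ → ℕ → Bool | e' ∈ winSet (graphOfTable A) e r} := by
  have : {A : ℕ → ℕ → Bool | e' ∈ winSet (graphOfTable A) e r} =
      {A | e' ∈ (graphOfTable A).edgeSet} ∩
        ⋂ v, {A | v ∈ e' → v ∈ ballS (graphOfTable A) e r} := by
    ext A
    simp [winSet]
  rw [this]
  refine (measurableSet_edge e').inter (MeasurableSet.iInter fun v => ?_)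
  by_cases h : v ∈ e'
  · simpa [h] using measurableSet_ballS e r v
  · simp [h]

theorem measurableSet_winSet_eq (e : Sym2 ℕ) (r : ℕ) (W : Finset (Sym2 ℕ)) :
    MeasurableSet {A : ℕ → ℕ → Bool | winSet (graphOfTable A) e r = (W : Set (Sym2 ℕ))} := by
  have : {A : ℕ → ℕ → Bool | winSet (graphOfTable A) e r = (W : Set (Sym2 ℕ))} =
      ⋂ e', {A | (e' ∈ winSet (graphOfTable A) e r) ↔ e' ∈ W} := by
    ext A
    simp [Set.ext_iff]
  rw [this]
  refine MeasurableSet.iInter fun e' => ?_
  by_cases h : e' ∈ W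
  · simpa [h] using measurableSet_winSet e r e'
  · have : {A : ℕ → ℕ → Bool | (e' ∈ winSet (graphOfTable A) e r) ↔ e' ∈ W} =
        {A | e' ∈ winSet (graphOfTable A) e r}ᶜ := by
      ext A; simp [h]
    rw [this]
    exact (measurableSet_winSet e r e').compl

theorem measurableSet_win (e : Sym2 ℕ) (r : ℕ) (W : Finset (Sym2 ℕ)) :
    MeasurableSet {A : ℕ → ℕ → Bool | win (graphOfTable A) e r = W} := by
  classical
  have hfin : {A : ℕ → ℕ → Bool | (winSet (graphOfTable A) e r).Finite} =
      ⋃ T : Finset (Sym2 ℕ), {A | winSet (graphOfTable A) e r = (T : Set (Sym2 ℕ))} := by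
    ext A
    simp only [Set.mem_ofPred_eq, Set.mem_iUnion]
    constructor
    · intro h; exact ⟨h.toFinset, by simp⟩
    · rintro ⟨T, hT⟩; rw [hT]; exact T.finite_toSet
  have hfm : MeasurableSet {A : ℕ → ℕ → Bool | (winSet (graphOfTable A) e r).Finite} := by
    rw [hfin]; exact MeasurableSet.iUnion fun T => measurableSet_winSet_eq e r T
  have : {A : ℕ → ℕ → Bool | win (graphOfTable A) e r = W} =
      {A | winSet (graphOfTable A) e r = (W : Set (Sym2 ℕ))} ∪
        ({A | (winSet (graphOfTable A) e r).Finite}ᶜ ∩ {A | (∅ : Finset (Sym2 ℕ)) = W}) := by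
    ext A
    simp only [Set.mem_ofPred_eq, Set.mem_union, Set.mem_inter_iff, Set.mem_compl_iff]
    by_cases h : (winSet (graphOfTable A) e r).Finite
    · rw [win, dif_pos h]
      constructor
      · rintro rfl; left; simp
      · rintro (h1 | h1)
        · apply Finset.coe_injective; simpa using h1
        · exact absurd h h1.1
    · rw [win, dif_neg h]
      constructor
      · intro h1; exact Or.inr ⟨h, h1⟩
      · rintro (h1 | h1)
        · exfalso; apply h; rw [h1]; exact W.finite_toSet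
        · exact h1.2
  rw [this]
  exact (measurableSet_winSet_eq e r W).union (hfm.compl.inter (MeasurableSet.const _))

end meas

/-! ### the canonical subsequence -/

section defs

/-- scheme in the window `win G e n` -/
noncomputable def XX (G : SimpleGraph ℕ) (e : Sym2 ℕ) (s n : ℕ) (L : Lab (Sym2 ℕ)) :
    unitInterval :=
  Zs (fmass G) (win G e n) L (e, s + 1)

/-- probability of a large difference -/
noncomputable def bad (G : SimpleGraph ℕ) (e : Sym2 ℕ) (k s n n' : ℕ) : ENNReal :=
  lab (Sym2 ℕ) {L | (1 / 2 : ℝ) ^ k < |(XX G e s n L : ℝ) - XX G e s n' L|}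

/-- from `n` on, the schemes are close in probability -/
def cond (G : SimpleGraph ℕ) (e : Sym2 ℕ) (k n : ℕ) : Prop :=
  ∀ m m' : ℕ, n ≤ m → n ≤ m' → ∀ s : ℕ, s ≤ k → bad G e k s m m' ≤ ENNReal.ofReal ((1 / 2) ^ k)

/-- least such `n` -/
noncomputable def lev (G : SimpleGraph ℕ) (e : Sym2 ℕ) (k : ℕ) : ℕ := sInf {n | cond G e k n}

/-- the canonical subsequence -/
noncomputable def idx (G : SimpleGraph ℕ) (e : Sym2 ℕ) (k : ℕ) : ℕ :=
  ∑ j ∈ Finset.range (k + 1), (lev G e j + 1)

/-- limiting observations -/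
noncomputable def zeta (G : SimpleGraph ℕ) (e : Sym2 ℕ) (s : ℕ) (L : Lab (Sym2 ℕ)) :
    unitInterval :=
  limU (fun k => XX G e s (idx G e k) L)

theorem measurable_XX (G : SimpleGraph ℕ) (e : Sym2 ℕ) (s n : ℕ) : Measurable (XX G e s n) :=
  (measurable_pi_apply (e, s + 1)).comp (measurable_Zs (fmass G) (win G e n))

theorem measurableSet_bad (G : SimpleGraph ℕ) (e : Sym2 ℕ) (k s n n' : ℕ) :
    MeasurableSet {L | (1 / 2 : ℝ) ^ k < |(XX G e s n L : ℝ) - XX G e s n' L|} := by
  apply measurableSet_lt measurable_const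
  exact ((measurable_subtype_coe.comp (measurable_XX G e s n)).sub
    (measurable_subtype_coe.comp (measurable_XX G e s n'))).abs

end defs

section comap2

variable (σ : Equiv.Perm ℕ) (G : SimpleGraph ℕ)

theorem pcomap_fmass : pcomap (fmass G) (sMap σ).toEmbedding = fmass (G.comap ⇑σ) := by
  funext W R
  rw [fmass_comap]
  rfl

/-- relabelling of edge labels -/
def relab (L : Lab (Sym2 ℕ)) : Lab (Sym2 ℕ) := fun i => L (Sym2.map ⇑σ i.1, i.2)

theorem XX_comap (e : Sym2 ℕ) (s n : ℕ) (L : Lab (Sym2 ℕ)) :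
    XX (G.comap ⇑σ) e s n (relab σ L) = XX G (Sym2.map ⇑σ e) s n L := by
  unfold XX
  rw [← pcomap_fmass, ← win_comap]
  exact Zs_pcomap (fmass G) (sMap σ).toEmbedding (win (G.comap ⇑σ) e n) L e (s + 1)

theorem map_relab : (lab (Sym2 ℕ)).map (relab σ) = lab (Sym2 ℕ) := by
  unfold lab
  have hf : Function.Injective (fun i : Sym2 ℕ × ℕ => (Sym2.map ⇑σ i.1, i.2)) := by
    rintro ⟨a, b⟩ ⟨c, d⟩ h
    simp only [Prod.mk.injEq] at h
    rw [Sym2.map.injective σ.injective h.1, h.2]
  exact Measure.map_infinitePi_infinitePi_of_inj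
    (P := fun _ : Sym2 ℕ × ℕ => (volume : Measure unitInterval)) hf

theorem measurable_relab : Measurable (relab σ) :=
  measurable_pi_iff.2 fun _ => measurable_pi_apply _

theorem bad_comap (e : Sym2 ℕ) (k s n n' : ℕ) :
    bad (G.comap ⇑σ) e k s n n' = bad G (Sym2.map ⇑σ e) k s n n' := by
  unfold bad
  rw [← map_relab σ, Measure.map_apply (measurable_relab σ) (measurableSet_bad _ _ _ _ _ _)]
  have : (relab σ ⁻¹' {L | (1 / 2 : ℝ) ^ k <
      |(XX (G.comap ⇑σ) e s n L : ℝ) - XX (G.comap ⇑σ) e s n' L|}) =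
      {L | (1 / 2 : ℝ) ^ k < |(XX G (Sym2.map ⇑σ e) s n L : ℝ) - XX G (Sym2.map ⇑σ e) s n' L|} := by
    ext L
    simp only [Set.mem_preimage, Set.mem_ofPred_eq]
    rw [XX_comap, XX_comap]
  rw [this, map_relab]

theorem cond_comap (e : Sym2 ℕ) (k n : ℕ) :
    cond (G.comap ⇑σ) e k n ↔ cond G (Sym2.map ⇑σ e) k n := by
  unfold cond
  simp only [bad_comap]

theorem lev_comap (e : Sym2 ℕ) (k : ℕ) : lev (G.comap ⇑σ) e k = lev G (Sym2.map ⇑σ e) k := by
  unfold lev
  simp only [cond_comap]

theorem idx_comap (e : Sym2 ℕ) (k : ℕ) : idx (G.comap ⇑σ) e k = idx G (Sym2.map ⇑σ e) k := by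
  unfold idx
  simp only [lev_comap]

theorem zeta_comap (e : Sym2 ℕ) (s : ℕ) (L : Lab (Sym2 ℕ)) :
    zeta (G.comap ⇑σ) e s (relab σ L) = zeta G (Sym2.map ⇑σ e) s L := by
  unfold zeta
  simp only [idx_comap, XX_comap]

end comap2

section meas2

theorem measurable_XX_table (e : Sym2 ℕ) (s n : ℕ) :
    Measurable (fun q : (ℕ → ℕ → Bool) × Lab (Sym2 ℕ) => XX (graphOfTable q.1) e s n q.2) := by
  refine measurable_of_countable_cases
    (fun q : (ℕ → ℕ → Bool) × Lab (Sym2 ℕ) => win (graphOfTable q.1) e n)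
    (fun W => measurable_fst (measurableSet_win e n W))
    (fun W (q : (ℕ → ℕ → Bool) × Lab (Sym2 ℕ)) => Zs (fmass (graphOfTable q.1)) W q.2 (e, s + 1))
    fun W => ?_
  have h := measurable_Zs_param
    (fun q : (ℕ → ℕ → Bool) × Lab (Sym2 ℕ) => fmass (graphOfTable q.1)) W
    (fun R => (measurable_fmass W R).comp measurable_fst) (fun q => q.2) measurable_snd
  exact measurable_pi_iff.1 h (e, s + 1)

theorem measurable_bad_table (e : Sym2 ℕ) (k s n n' : ℕ) :
    Measurable (fun A : ℕ → ℕ → Bool => bad (graphOfTable A) e k s n n') := by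
  have : IsProbabilityMeasure (lab (Sym2 ℕ)) := by unfold lab; infer_instance
  have hset : MeasurableSet {q : (ℕ → ℕ → Bool) × Lab (Sym2 ℕ) | (1 / 2 : ℝ) ^ k <
      |(XX (graphOfTable q.1) e s n q.2 : ℝ) - XX (graphOfTable q.1) e s n' q.2|} := by
    apply measurableSet_lt measurable_const
    exact ((measurable_subtype_coe.comp (measurable_XX_table e s n)).sub
      (measurable_subtype_coe.comp (measurable_XX_table e s n'))).abs
  exact measurable_measure_prodMk_left (ν := lab (Sym2 ℕ)) hset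

theorem measurableSet_cond (e : Sym2 ℕ) (k n : ℕ) :
    MeasurableSet {A : ℕ → ℕ → Bool | cond (graphOfTable A) e k n} := by
  have : {A : ℕ → ℕ → Bool | cond (graphOfTable A) e k n} =
      ⋂ m : ℕ, ⋂ m' : ℕ, ⋂ s : ℕ, {A | n ≤ m → n ≤ m' → s ≤ k →
        bad (graphOfTable A) e k s m m' ≤ ENNReal.ofReal ((1 / 2) ^ k)} := by
    ext A
    simp only [cond, Set.mem_ofPred_eq, Set.mem_iInter]
    exact ⟨fun h m m' s h1 h2 h3 => h m m' h1 h2 s h3, fun h m m' h1 h2 s h3 => h m m' s h1 h2 h3⟩
  rw [this]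
  refine MeasurableSet.iInter fun m => MeasurableSet.iInter fun m' => MeasurableSet.iInter fun s => ?_
  by_cases h1 : n ≤ m <;> by_cases h2 : n ≤ m' <;> by_cases h3 : s ≤ k
  · simp only [h1, h2, h3, true_imp_iff]
    exact measurableSet_le (measurable_bad_table e k s m m') measurable_const
  all_goals simp [h1, h2, h3]

theorem measurable_lev (e : Sym2 ℕ) (k : ℕ) :
    Measurable (fun A : ℕ → ℕ → Bool => lev (graphOfTable A) e k) := by
  refine measurable_to_countable' fun m => ?_
  have : (fun A : ℕ → ℕ → Bool => lev (graphOfTable A) e k) ⁻¹' {m} =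
      ({A | cond (graphOfTable A) e k m} ∩ ⋂ j : ℕ, {A | j < m → ¬ cond (graphOfTable A) e k j}) ∪
      ((⋂ j : ℕ, {A | ¬ cond (graphOfTable A) e k j}) ∩ {A | m = 0}) := by
    ext A
    simp only [Set.mem_preimage, Set.mem_singleton_iff, Set.mem_union, Set.mem_inter_iff,
      Set.mem_ofPred_eq, Set.mem_iInter]
    constructor
    · intro h
      by_cases hne : ∃ n, cond (graphOfTable A) e k n
      · left
        subst h
        exact ⟨Nat.sInf_mem (s := {n | cond (graphOfTable A) e k n}) hne,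
          fun j hj hc => Nat.notMem_of_lt_sInf (s := {n | cond (graphOfTable A) e k n}) hj hc⟩
      · right
        push Not at hne
        refine ⟨hne, ?_⟩
        have : {n | cond (graphOfTable A) e k n} = ∅ := by
          ext n; simp [hne n]
        rw [lev, this, Nat.sInf_empty] at h
        exact h.symm
    · rintro (⟨h1, h2⟩ | ⟨h1, h2⟩)
      · apply le_antisymm
        · exact Nat.sInf_le h1
        · by_contra hlt
          push Not at hlt
          exact h2 _ hlt (Nat.sInf_mem (s := {n | cond (graphOfTable A) e k n}) ⟨m, h1⟩)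
      · have : {n | cond (graphOfTable A) e k n} = ∅ := by
          ext n; simp [h1 n]
        rw [lev, this, Nat.sInf_empty, h2]
  rw [this]
  refine ((measurableSet_cond e k m).inter (MeasurableSet.iInter fun j => ?_)).union
    ((MeasurableSet.iInter fun j => (measurableSet_cond e k j).compl).inter (MeasurableSet.const _))
  by_cases hj : j < m
  · simp only [hj, true_imp_iff]
    exact (measurableSet_cond e k j).compl
  · simp [hj]

theorem measurable_idx (e : Sym2 ℕ) (k : ℕ) :
    Measurable (fun A : ℕ → ℕ → Bool => idx (graphOfTable A) e k) := by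
  unfold idx
  exact Finset.measurable_sum _ fun j _ => (measurable_lev e j).add_const 1

theorem measurable_zeta_table (e : Sym2 ℕ) (s : ℕ) :
    Measurable (fun q : (ℕ → ℕ → Bool) × Lab (Sym2 ℕ) => zeta (graphOfTable q.1) e s q.2) := by
  unfold zeta
  refine measurable_limU _ fun k => ?_
  exact measurable_of_countable_cases
    (fun q : (ℕ → ℕ → Bool) × Lab (Sym2 ℕ) => idx (graphOfTable q.1) e k)
    (fun n => ((measurable_idx e k).comp measurable_fst) (measurableSet_singleton n))
    (fun n (q : (ℕ → ℕ → Bool) × Lab (Sym2 ℕ)) => XX (graphOfTable q.1) e s n q.2)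
    fun n => measurable_XX_table e s n

theorem measurableSet_reach (u v : ℕ) :
    MeasurableSet {A : ℕ → ℕ → Bool | (graphOfTable A).Reachable u v} := by
  have : {A : ℕ → ℕ → Bool | (graphOfTable A).Reachable u v} =
      ⋃ r : ℕ, {A | v ∈ ballS (graphOfTable A) s(u, u) r} := by
    ext A
    simp only [Set.mem_ofPred_eq, Set.mem_iUnion]
    constructor
    · intro h
      rw [SimpleGraph.reachable_iff_reflTransGen] at h
      induction h with
      | refl => exact ⟨0, by simp [ballS]⟩
      | tail _ hbc ih =>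
        obtain ⟨r, hr⟩ := ih
        exact ⟨r + 1, Or.inr ⟨_, hr, hbc⟩⟩
    · rintro ⟨r, hr⟩
      induction r generalizing v with
      | zero =>
        simp only [ballS, Set.mem_ofPred_eq, Sym2.mem_iff, or_self] at hr
        rw [hr]
      | succ r ih =>
        rcases hr with hr | ⟨w, hw, hadj⟩
        · exact ih v hr
        · exact (ih w hw).trans hadj.reachable
  rw [this]
  exact MeasurableSet.iUnion fun r => measurableSet_ballS s(u, u) r v

/-- the graphs on which the rule is not trivial -/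
def goodG (G : SimpleGraph ℕ) : Prop := G.Connected ∧ ∀ v : ℕ, (G.neighborSet v).Finite

theorem measurableSet_goodG : MeasurableSet {A : ℕ → ℕ → Bool | goodG (graphOfTable A)} := by
  have : {A : ℕ → ℕ → Bool | goodG (graphOfTable A)} =
      (⋂ u : ℕ, ⋂ v : ℕ, {A | (graphOfTable A).Reachable u v}) ∩
      ⋂ v : ℕ, ⋃ n : ℕ, ⋂ m : ℕ, {A | n < m → ¬ (graphOfTable A).Adj v m} := by
    ext A
    simp only [goodG, Set.mem_inter_iff, Set.mem_iInter, Set.mem_iUnion, Set.mem_ofPred_eq]
    refine and_congr ?_ ?_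
    · rw [SimpleGraph.connected_iff]
      exact ⟨fun h => h.1, fun h => ⟨h, inferInstance⟩⟩
    · refine forall_congr' fun v => ?_
      constructor
      · intro h
        obtain ⟨n, hn⟩ := h.bddAbove
        exact ⟨n, fun m hm hadj => absurd (hn hadj) (not_le.2 hm)⟩
      · rintro ⟨n, hn⟩
        refine (Set.finite_Iic n).subset fun m hm => ?_
        by_contra h
        exact hn m (not_le.1 h) hm
  rw [this]
  refine (MeasurableSet.iInter fun u => MeasurableSet.iInter fun v => measurableSet_reach u v).inter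
    (MeasurableSet.iInter fun v => MeasurableSet.iUnion fun n => MeasurableSet.iInter fun m => ?_)
  by_cases h : n < m
  · simp only [h, true_imp_iff]
    exact (measurableSet_adj v m).compl
  · simp [h]

theorem goodG_comap (σ : Equiv.Perm ℕ) (G : SimpleGraph ℕ) : goodG (G.comap ⇑σ) ↔ goodG G := by
  have hiso : (G.comap ⇑σ) ≃g G :=
    { toEquiv := σ, map_rel_iff' := by intro a b; rfl }
  unfold goodG
  rw [hiso.connected_iff]
  refine and_congr Iff.rfl ?_
  have hn : ∀ v, (G.comap ⇑σ).neighborSet v = σ ⁻¹' (G.neighborSet (σ v)) := by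
    intro v; ext w; simp
  constructor
  · intro h v
    have h1 := h (σ.symm v)
    rw [hn, Equiv.apply_symm_apply] at h1
    have h2 := h1.image σ
    rwa [Set.image_preimage_eq _ σ.surjective] at h2
  · intro h v
    rw [hn]
    exact (h (σ v)).preimage σ.injective.injOn

end meas2

end Crest.Agent.SRF
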