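import Crest.Agent.SX_Defs

/-!
# S0297/S0298: basic API (owner: helper61)
-/

set_option autoImplicit false

namespace Crest.Agent.SX

open Equiv Equiv.Perm

variable {Ω ι : Type} [Fintype Ω] [DecidableEq Ω] {h : ι → ℕ}

open scoped Classical in
theorem pt_def (t : Ω ≃ Cel h) (w : Ω → ℕ) :
    pt t w = ∑ s : Perm Ω, if (∀ x, (t (s x)).1 = (t x).1) ∧ (∀ x, w (s x) = ((t x).2 : ℕ)) then
      ((sign s : ℤ) : ℂ) else 0 := rfl

/-- Renaming the letters of a polytabloid. -/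
theorem pt_comp (t : Ω ≃ Cel h) (g : Perm Ω) (w : Ω → ℕ) :
    pt t (w ∘ g) = pt (g.symm.trans t) w := by
  classical
  rw [pt_def, pt_def]
  refine Fintype.sum_equiv (MulAut.conj g).toEquiv _ _ fun s => ?_
  have hs : sign ((MulAut.conj g).toEquiv s) = sign s := by
    show sign (g * s * g⁻¹) = sign s
    rw [Perm.sign_mul, Perm.sign_mul, Perm.sign_inv, mul_comm, ← mul_assoc, Int.units_mul_self,
      one_mul]
  have e1 : ∀ x, ((MulAut.conj g).toEquiv s) x = g (s (g.symm x)) := fun x => rfl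
  rw [hs]
  refine if_congr ?_ rfl rfl
  simp only [e1, Equiv.trans_apply, Equiv.symm_apply_apply, Function.comp_apply]
  constructor
  · rintro ⟨h1, h2⟩
    exact ⟨fun x => h1 _, fun x => h2 _⟩
  · rintro ⟨h1, h2⟩
    refine ⟨fun x => ?_, fun x => ?_⟩
    · have := h1 (g x)
      rwa [Equiv.symm_apply_apply] at this
    · have := h2 (g x)
      rwa [Equiv.symm_apply_apply] at this

/-- `pt t w ≠ 0` implies that `w` is a column permutation of the row word of `t`. -/
theorem pt_ne_zero {t : Ω ≃ Cel h} {w : Ω → ℕ} (hw : pt t w ≠ 0) :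
    ∃ s : Perm Ω, (∀ x, (t (s x)).1 = (t x).1) ∧ ∀ x, w (s x) = ((t x).2 : ℕ) := by
  classical
  rw [pt_def] at hw
  obtain ⟨s, -, hs⟩ := Finset.exists_ne_zero_of_sum_ne_zero hw
  refine ⟨s, ?_⟩
  by_contra h'
  exact hs (if_neg h')

omit [Fintype Ω] [DecidableEq Ω] in
/-- Two column permutations giving the same word are equal. -/
theorem col_unique (t : Ω ≃ Cel h) {w : Ω → ℕ} {s s' : Perm Ω}
    (hs : (∀ x, (t (s x)).1 = (t x).1) ∧ ∀ x, w (s x) = ((t x).2 : ℕ))
    (hs' : (∀ x, (t (s' x)).1 = (t x).1) ∧ ∀ x, w (s' x) = ((t x).2 : ℕ)) : s = s' := by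
  -- `y = s x`, `w y = row (t (s⁻¹ y))`, `col (t y) = col (t (s⁻¹ y))`
  have key : ∀ s : Perm Ω, ((∀ x, (t (s x)).1 = (t x).1) ∧ ∀ x, w (s x) = ((t x).2 : ℕ)) →
      ∀ y, (t (s.symm y)).1 = (t y).1 ∧ w y = ((t (s.symm y)).2 : ℕ) := by
    intro s hs y
    constructor
    · simpa using (hs.1 (s.symm y)).symm
    · simpa using hs.2 (s.symm y)
  have h2 : ∀ y, t (s.symm y) = t (s'.symm y) := by
    intro y
    obtain ⟨a1, a2⟩ := key s hs y
    obtain ⟨b1, b2⟩ := key s' hs' y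
    have h1 : (t (s.symm y)).1 = (t (s'.symm y)).1 := a1.trans b1.symm
    have h2 : ((t (s.symm y)).2 : ℕ) = ((t (s'.symm y)).2 : ℕ) := a2.symm.trans b2
    generalize t (s.symm y) = c at h1 h2
    generalize t (s'.symm y) = c' at h1 h2
    obtain ⟨i, a⟩ := c
    obtain ⟨i', a'⟩ := c'
    simp only at h1 h2
    subst h1
    rw [Fin.ext h2]
  have h3 : s.symm = s'.symm := by
    ext y
    exact t.injective (h2 y)
  rw [← Equiv.symm_symm s, h3, Equiv.symm_symm]

/-- The value of a polytabloid. -/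
theorem pt_eq_sign (t : Ω ≃ Cel h) {w : Ω → ℕ} (s : Perm Ω) (h1 : ∀ x, (t (s x)).1 = (t x).1)
    (h2 : ∀ x, w (s x) = ((t x).2 : ℕ)) : pt t w = ((sign s : ℤ) : ℂ) := by
  classical
  rw [pt_def, Finset.sum_eq_single s]
  · rw [if_pos ⟨h1, h2⟩]
  · intro s' _ hs'
    rw [if_neg]
    intro h'
    exact hs' (col_unique t h' ⟨h1, h2⟩)
  · intro h'
    exact absurd (Finset.mem_univ _) h'

/-- `pt t` takes the value `1` at the row word of `t`. -/
theorem pt_self (t : Ω ≃ Cel h) : pt t (fun x => ((t x).2 : ℕ)) = 1 := by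
  rw [pt_eq_sign t 1 (fun x => rfl) (fun x => rfl)]
  simp

/-- The column group acts by the sign. -/
theorem pt_col (t : Ω ≃ Cel h) (s : Perm Ω) (hs : ∀ x, (t (s x)).1 = (t x).1) (w : Ω → ℕ) :
    pt t (w ∘ s) = ((sign s : ℤ) : ℂ) * pt t w := by
  classical
  rw [pt_def, pt_def, Finset.mul_sum]
  refine Fintype.sum_equiv (Equiv.mulLeft s) _ _ fun s' => ?_
  rw [mul_ite, mul_zero]
  have hc : ((∀ x, (t (s' x)).1 = (t x).1) ∧ ∀ x, (w ∘ s) (s' x) = ((t x).2 : ℕ)) ↔
      ((∀ x, (t ((Equiv.mulLeft s s') x)).1 = (t x).1) ∧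
        ∀ x, w ((Equiv.mulLeft s s') x) = ((t x).2 : ℕ)) := by
    simp only [Equiv.coe_mulLeft, Perm.coe_mul, Function.comp_apply]
    constructor
    · rintro ⟨a, b⟩
      exact ⟨fun x => (hs _).trans (a x), b⟩
    · rintro ⟨a, b⟩
      exact ⟨fun x => (hs _).symm.trans (a x), b⟩
  by_cases hh : ((∀ x, (t (s' x)).1 = (t x).1) ∧ ∀ x, (w ∘ s) (s' x) = ((t x).2 : ℕ))
  · rw [if_pos hh, if_pos (hc.1 hh)]
    simp only [Equiv.coe_mulLeft, Perm.sign_mul, Units.val_mul, Int.cast_mul]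
    rw [← mul_assoc, ← Int.cast_mul, ← Units.val_mul, Int.units_mul_self]
    simp
  · rw [if_neg hh, if_neg (fun h' => hh (hc.2 h'))]

/-- The support of a polytabloid: the sum of the rows is `wt h`. -/
theorem pt_weight [Fintype ι] {t : Ω ≃ Cel h} {w : Ω → ℕ} (hw : pt t w ≠ 0) :
    ∑ x, w x = wt h := by
  obtain ⟨s, -, h2⟩ := pt_ne_zero hw
  rw [wt, ← Equiv.sum_comp s w, ← Equiv.sum_comp t (fun c : Cel h => (c.2 : ℕ))]
  exact Finset.sum_congr rfl fun x _ => h2 x

theorem pt_mem_Sp (t : Ω ≃ Cel h) : pt t ∈ Sp (Ω := Ω) h := Submodule.subset_span ⟨t, rfl⟩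

theorem gen_mem_VV (t t' : Ω ≃ Cel h) : (fun x : WW Ω => pt t x.1 * pt t' x.2) ∈ VV (Ω := Ω) h :=
  Submodule.subset_span ⟨t, t', rfl⟩

/-- Functions in `Sp h` are supported on words of weight `wt h`. -/
theorem Sp_weight [Fintype ι] {F : (Ω → ℕ) → ℂ} (hF : F ∈ Sp (Ω := Ω) h) {w : Ω → ℕ}
    (hw : F w ≠ 0) : ∑ x, w x = wt h := by
  by_contra hne
  refine hw ?_
  refine Submodule.span_induction (p := fun F _ => F w = 0) ?_ rfl ?_ ?_ hF
  · rintro _ ⟨t, rfl⟩
    by_contra h'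
    exact hne (pt_weight h')
  · intro F G _ _ h1 h2
    rw [Pi.add_apply, h1, h2, add_zero]
  · intro a F _ h1
    rw [Pi.smul_apply, h1, smul_zero]

/-- Functions in `VV h` are supported on pairs of words of weight `wt h`. -/
theorem VV_weight [Fintype ι] {F : WW Ω → ℂ} (hF : F ∈ VV (Ω := Ω) h) {x : WW Ω}
    (hx : F x ≠ 0) : ∑ a, x.1 a = wt h ∧ ∑ a, x.2 a = wt h := by
  by_contra hne
  refine hx ?_
  refine Submodule.span_induction (p := fun F _ => F x = 0) ?_ rfl ?_ ?_ hF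
  · rintro _ ⟨t, t', rfl⟩
    by_contra h'
    have h1 := left_ne_zero_of_mul h'
    have h2 := right_ne_zero_of_mul h'
    exact hne ⟨pt_weight h1, pt_weight h2⟩
  · intro F G _ _ h1 h2
    rw [Pi.add_apply, h1, h2, add_zero]
  · intro a F _ h1
    rw [Pi.smul_apply, h1, smul_zero]

/-- `Sp h` is stable under renaming of letters. -/
theorem Sp_comp {F : (Ω → ℕ) → ℂ} (hF : F ∈ Sp (Ω := Ω) h) (g : Perm Ω) :
    (fun w => F (w ∘ g)) ∈ Sp (Ω := Ω) h := by
  refine Submodule.span_induction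
    (p := fun F _ => (fun w : Ω → ℕ => F (w ∘ g)) ∈ Sp (Ω := Ω) h) ?_ ?_ ?_ ?_ hF
  · rintro _ ⟨t, rfl⟩
    simp only [pt_comp]
    exact pt_mem_Sp _
  · exact Submodule.zero_mem _
  · intro F G _ _ h1 h2
    exact Submodule.add_mem _ h1 h2
  · intro a F _ h1
    exact Submodule.smul_mem _ a h1

/-- `VV h` is stable under renaming of letters. -/
theorem VV_pull {F : WW Ω → ℂ} (hF : F ∈ VV (Ω := Ω) h) (g : Perm Ω) :
    (fun x => F (pull g x)) ∈ VV (Ω := Ω) h := by
  refine Submodule.span_induction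
    (p := fun F _ => (fun x : WW Ω => F (pull g x)) ∈ VV (Ω := Ω) h) ?_ ?_ ?_ ?_ hF
  · rintro _ ⟨t, t', rfl⟩
    simp only [pull, pt_comp]
    exact gen_mem_VV _ _
  · exact Submodule.zero_mem _
  · intro F G _ _ h1 h2
    exact Submodule.add_mem _ h1 h2
  · intro a F _ h1
    exact Submodule.smul_mem _ a h1

/-- Fixing the second word, a function of `VV h` is in `Sp h`. -/
theorem VV_fst {F : WW Ω → ℂ} (hF : F ∈ VV (Ω := Ω) h) (v : Ω → ℕ) :
    (fun w => F (w, v)) ∈ Sp (Ω := Ω) h := by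
  refine Submodule.span_induction
    (p := fun F _ => (fun w : Ω → ℕ => F (w, v)) ∈ Sp (Ω := Ω) h) ?_ ?_ ?_ ?_ hF
  · rintro _ ⟨t, t', rfl⟩
    have : (fun w => pt t w * pt t' v) = pt t' v • pt t := by
      ext w
      simp [mul_comm]
    simp only [this]
    exact Submodule.smul_mem _ _ (pt_mem_Sp _)
  · exact Submodule.zero_mem _
  · intro F G _ _ h1 h2
    exact Submodule.add_mem _ h1 h2
  · intro a F _ h1
    exact Submodule.smul_mem _ a h1

/-- Fixing the first word, a function of `VV h` is in `Sp h`. -/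
theorem VV_snd {F : WW Ω → ℂ} (hF : F ∈ VV (Ω := Ω) h) (v : Ω → ℕ) :
    (fun w => F (v, w)) ∈ Sp (Ω := Ω) h := by
  refine Submodule.span_induction
    (p := fun F _ => (fun w : Ω → ℕ => F (v, w)) ∈ Sp (Ω := Ω) h) ?_ ?_ ?_ ?_ hF
  · rintro _ ⟨t, t', rfl⟩
    exact Submodule.smul_mem _ (pt t v) (pt_mem_Sp t')
  · exact Submodule.zero_mem _
  · intro F G _ _ h1 h2
    exact Submodule.add_mem _ h1 h2
  · intro a F _ h1
    exact Submodule.smul_mem _ a h1

/-- Values outside words bounded by a number above all heights vanish. -/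
theorem VV_bdd {F : WW Ω → ℂ} (hF : F ∈ VV (Ω := Ω) h) {n : ℕ} (hn : ∀ i, h i ≤ n) {x : WW Ω}
    (hx : F x ≠ 0) : (∀ a, x.1 a < n) ∧ ∀ a, x.2 a < n := by
  have hpt : ∀ (t : Ω ≃ Cel h) (w : Ω → ℕ), pt t w ≠ 0 → ∀ a, w a < n := by
    intro t w hw a
    obtain ⟨s, -, h2⟩ := pt_ne_zero hw
    have := h2 (s.symm a)
    rw [Equiv.apply_symm_apply] at this
    rw [this]
    exact lt_of_lt_of_le (Fin.is_lt _) (hn _)
  by_contra hne
  refine hx ?_
  refine Submodule.span_induction (p := fun F _ => F x = 0) ?_ rfl ?_ ?_ hF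
  · rintro _ ⟨t, t', rfl⟩
    by_contra h'
    exact hne ⟨hpt t _ (left_ne_zero_of_mul h'), hpt t' _ (right_ne_zero_of_mul h')⟩
  · intro F G _ _ h1 h2
    rw [Pi.add_apply, h1, h2, add_zero]
  · intro a F _ h1
    rw [Pi.smul_apply, h1, smul_zero]

theorem Sp_bdd {F : (Ω → ℕ) → ℂ} (hF : F ∈ Sp (Ω := Ω) h) {n : ℕ} (hn : ∀ i, h i ≤ n)
    {w : Ω → ℕ} (hw : F w ≠ 0) : ∀ a, w a < n := by
  have hpt : ∀ (t : Ω ≃ Cel h) (w : Ω → ℕ), pt t w ≠ 0 → ∀ a, w a < n := by
    intro t w hw a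
    obtain ⟨s, -, h2⟩ := pt_ne_zero hw
    have := h2 (s.symm a)
    rw [Equiv.apply_symm_apply] at this
    rw [this]
    exact lt_of_lt_of_le (Fin.is_lt _) (hn _)
  by_contra hne
  refine hw ?_
  refine Submodule.span_induction (p := fun F _ => F w = 0) ?_ rfl ?_ ?_ hF
  · rintro _ ⟨t, rfl⟩
    by_contra h'
    exact hne (hpt t _ h')
  · intro F G _ _ h1 h2
    rw [Pi.add_apply, h1, h2, add_zero]
  · intro a F _ h1
    rw [Pi.smul_apply, h1, smul_zero]

instance finSp [Fintype ι] : FiniteDimensional ℂ (Sp (Ω := Ω) h) := by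
  classical
  refine FiniteDimensional.span_of_finite ℂ ?_
  exact Set.finite_range _

instance finVV [Fintype ι] : FiniteDimensional ℂ (VV (Ω := Ω) h) := by
  classical
  refine FiniteDimensional.span_of_finite ℂ ?_
  have : {F : WW Ω → ℂ | ∃ t t' : Ω ≃ Cel h, F = fun x => pt t x.1 * pt t' x.2} =
      Set.range fun q : (Ω ≃ Cel h) × (Ω ≃ Cel h) => fun x : WW Ω => pt q.1 x.1 * pt q.2 x.2 := by
    ext F
    constructor
    · rintro ⟨t, t', rfl⟩
      exact ⟨(t, t'), rfl⟩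
    · rintro ⟨q, rfl⟩
      exact ⟨q.1, q.2, rfl⟩
  rw [this]
  exact Set.finite_range _

/-- The Specht module as a representation. -/
noncomputable def SpRep (Ω : Type) {ι : Type} [Fintype Ω] [DecidableEq Ω] (h : ι → ℕ) :
    Representation ℂ (Perm Ω) (Sp (Ω := Ω) h) where
  toFun g :=
    { toFun := fun F => ⟨fun w => F.1 (w ∘ g), Sp_comp F.2 g⟩
      map_add' := fun _ _ => rfl
      map_smul' := fun _ _ => rfl }
  map_one' := rfl
  map_mul' _ _ := rfl

@[simp] theorem SpRep_apply (g : Perm Ω) (F : Sp (Ω := Ω) h) (w : Ω → ℕ) :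
    (SpRep Ω h g F).1 w = F.1 (w ∘ g) := rfl

/-- The tensor square as a representation. -/
noncomputable def VVRep (Ω : Type) {ι : Type} [Fintype Ω] [DecidableEq Ω] (h : ι → ℕ) :
    Representation ℂ (Perm Ω) (VV (Ω := Ω) h) where
  toFun g :=
    { toFun := fun F => ⟨fun w => F.1 (pull g w), VV_pull F.2 g⟩
      map_add' := fun _ _ => rfl
      map_smul' := fun _ _ => rfl }
  map_one' := rfl
  map_mul' _ _ := rfl

@[simp] theorem VVRep_apply (g : Perm Ω) (F : VV (Ω := Ω) h) (x : WW Ω) :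
    (VVRep Ω h g F).1 x = F.1 (pull g x) := rfl

/-- An equivariant map which is not zero on an irreducible representation is injective. -/
theorem injective_of_irr {W : Type} [AddCommGroup W] [Module ℂ W]
    (σ : Representation ℂ (Perm Ω) W) (hσ : σ.IsIrreducible) (j : W →ₗ[ℂ] (WW Ω → ℂ))
    (hj : ∀ g w x, j (σ g w) x = j w (pull g x)) (h0 : j ≠ 0) : Function.Injective j := by
  let K : Subrepresentation σ :=
    { toSubmodule := LinearMap.ker j
      apply_mem_toSubmodule := by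
        intro g v hv
        rw [LinearMap.mem_ker] at hv ⊢
        ext x
        rw [hj, hv]
        rfl }
  have := hσ
  rcases eq_bot_or_eq_top K with hK | hK
  · rw [← LinearMap.ker_eq_bot]
    have : K.toSubmodule = (⊥ : Subrepresentation σ).toSubmodule := by rw [hK]
    exact this
  · exfalso
    apply h0
    have : K.toSubmodule = (⊤ : Subrepresentation σ).toSubmodule := by rw [hK]
    exact LinearMap.ker_eq_top.1 this

/-- Same for one word. -/
theorem injective_of_irr' {W : Type} [AddCommGroup W] [Module ℂ W]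
    (σ : Representation ℂ (Perm Ω) W) (hσ : σ.IsIrreducible) (j : W →ₗ[ℂ] ((Ω → ℕ) → ℂ))
    (hj : ∀ g w x, j (σ g w) x = j w (x ∘ g)) (h0 : j ≠ 0) : Function.Injective j := by
  let K : Subrepresentation σ :=
    { toSubmodule := LinearMap.ker j
      apply_mem_toSubmodule := by
        intro g v hv
        rw [LinearMap.mem_ker] at hv ⊢
        ext x
        rw [hj, hv]
        rfl }
  have := hσ
  rcases eq_bot_or_eq_top K with hK | hK
  · rw [← LinearMap.ker_eq_bot]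
    have : K.toSubmodule = (⊥ : Subrepresentation σ).toSubmodule := by rw [hK]
    exact this
  · exfalso
    apply h0
    have : K.toSubmodule = (⊤ : Subrepresentation σ).toSubmodule := by rw [hK]
    exact LinearMap.ker_eq_top.1 this

end Crest.Agent.SX
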