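import Crest.Agent.SX_API

/-!
# S0297, task SX-C1: James' lemma
-/

set_option autoImplicit false

namespace Crest.Agent.SX

open Equiv Equiv.Perm

variable {Ω ι : Type} [Fintype Ω] [DecidableEq Ω] [Fintype ι] [DecidableEq ι] {h : ι → ℕ}

/-- The sum of `n` distinct natural numbers, with a bound on the number of those `≥ n`. -/
theorem sum_range_add_card_le (S : Finset ℕ) (n : ℕ) (hS : S.card = n) :
    ∑ i ∈ Finset.range n, i + (S \ Finset.range n).card ≤ ∑ i ∈ S, i := by
  have h1 : ∑ i ∈ S \ Finset.range n, i + ∑ i ∈ S ∩ Finset.range n, i = ∑ i ∈ S, i := by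
    rw [add_comm]
    exact Finset.sum_inter_add_sum_sdiff S (Finset.range n) fun i => i
  have h2 : ∑ i ∈ Finset.range n \ S, i + ∑ i ∈ S ∩ Finset.range n, i =
      ∑ i ∈ Finset.range n, i := by
    rw [Finset.inter_comm, add_comm]
    exact Finset.sum_inter_add_sum_sdiff (Finset.range n) S fun i => i
  have hc : (S \ Finset.range n).card = (Finset.range n \ S).card := by
    apply Finset.card_sdiff_comm
    rw [hS, Finset.card_range]
  have h3 : (S \ Finset.range n).card * n ≤ ∑ i ∈ S \ Finset.range n, i := by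
    rw [← smul_eq_mul]
    refine Finset.card_nsmul_le_sum _ _ _ fun i hi => ?_
    rw [Finset.mem_sdiff, Finset.mem_range] at hi
    omega
  have h4 : ∑ i ∈ Finset.range n \ S, i + (Finset.range n \ S).card ≤
      (Finset.range n \ S).card * n := by
    have e : ∑ i ∈ Finset.range n \ S, i + (Finset.range n \ S).card =
        ∑ i ∈ Finset.range n \ S, (i + 1) := by
      rw [Finset.sum_add_distrib, ← Finset.card_eq_sum_ones]
    rw [e, ← smul_eq_mul]
    refine Finset.sum_le_card_nsmul _ _ _ fun i hi => ?_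
    rw [Finset.mem_sdiff, Finset.mem_range] at hi
    omega
  rw [hc] at h3 ⊢
  omega

/-- Injective functions on `Fin n`. -/
theorem sum_fin_le {n : ℕ} (f : Fin n → ℕ) (hf : Function.Injective f) :
    ∑ a : Fin n, (a : ℕ) ≤ ∑ a, f a ∧ (∑ a, f a = ∑ a : Fin n, (a : ℕ) → ∀ a, f a < n) := by
  have hS : (Finset.univ.image f).card = n := by
    rw [Finset.card_image_of_injective _ hf, Finset.card_univ, Fintype.card_fin]
  have h1 := sum_range_add_card_le (Finset.univ.image f) n hS
  have h2 : ∑ i ∈ Finset.univ.image f, i = ∑ a, f a := Finset.sum_image (by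
    intro a _ b _ hab
    exact hf hab)
  have h3 : ∑ a : Fin n, (a : ℕ) = ∑ i ∈ Finset.range n, i :=
    Fin.sum_univ_eq_sum_range (fun i => i) n
  rw [h2, ← h3] at h1
  refine ⟨by omega, fun he a => ?_⟩
  have h4 : (Finset.univ.image f \ Finset.range n).card = 0 := by omega
  rw [Finset.card_eq_zero, Finset.sdiff_eq_empty_iff_subset] at h4
  exact Finset.mem_range.1 (h4 (Finset.mem_image_of_mem f (Finset.mem_univ a)))

/-- A word which is injective on the columns of `t` has weight at least `wt h` (on a column with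
`n` letters the values are distinct, so their sum is at least `0 + 1 + … + (n - 1)`). -/
theorem weight_ge (t : Ω ≃ Cel h) (w : Ω → ℕ)
    (hw : ∀ x y, (t x).1 = (t y).1 → w x = w y → x = y) : wt h ≤ ∑ x, w x := by
  have hinj : ∀ i : ι, Function.Injective fun a : Fin (h i) => w (t.symm ⟨i, a⟩) := by
    intro i a b hab
    have := hw (t.symm ⟨i, a⟩) (t.symm ⟨i, b⟩) (by simp) hab
    have h2 : (⟨i, a⟩ : Cel h) = ⟨i, b⟩ := t.symm.injective this
    simpa using h2
  rw [← Equiv.sum_comp t.symm w, wt, Fintype.sum_sigma, Fintype.sum_sigma]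
  exact Finset.sum_le_sum fun i _ => (sum_fin_le _ (hinj i)).1

/-- In case of equality, the values on every column are `0, …, n - 1`, so `w` is a column
permutation of the row word of `t`. -/
theorem weight_eq (t : Ω ≃ Cel h) (w : Ω → ℕ)
    (hw : ∀ x y, (t x).1 = (t y).1 → w x = w y → x = y) (he : ∑ x, w x = wt h) :
    ∃ s : Perm Ω, (∀ x, (t (s x)).1 = (t x).1) ∧ ∀ x, w (s x) = ((t x).2 : ℕ) := by
  have hinj : ∀ i : ι, Function.Injective fun a : Fin (h i) => w (t.symm ⟨i, a⟩) := by
    intro i a b hab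
    have := hw (t.symm ⟨i, a⟩) (t.symm ⟨i, b⟩) (by simp) hab
    have h2 : (⟨i, a⟩ : Cel h) = ⟨i, b⟩ := t.symm.injective this
    simpa using h2
  rw [← Equiv.sum_comp t.symm w, wt, Fintype.sum_sigma, Fintype.sum_sigma] at he
  have hcol := (Finset.sum_eq_sum_iff_of_le
    (fun i _ => (sum_fin_le _ (hinj i)).1)).1 he.symm
  have hlt : ∀ x, w x < h (t x).1 := by
    intro x
    have h1 := (sum_fin_le _ (hinj (t x).1)).2 (hcol (t x).1 (Finset.mem_univ _)).symm (t x).2
    have h2 : t.symm ⟨(t x).1, (t x).2⟩ = x := by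
      rw [Sigma.eta, Equiv.symm_apply_apply]
    rwa [h2] at h1
  let φ : Ω → Cel h := fun x => ⟨(t x).1, ⟨w x, hlt x⟩⟩
  have hφ : Function.Injective φ := by
    intro x y hxy
    have h1 : (φ x).1 = (φ y).1 := by rw [hxy]
    have h2 : ((φ x).2 : ℕ) = ((φ y).2 : ℕ) := by rw [hxy]
    exact hw x y h1 h2
  have hb : Function.Bijective φ :=
    (Fintype.bijective_iff_injective_and_card φ).2 ⟨hφ, Fintype.card_congr t⟩
  let e : Ω ≃ Cel h := Equiv.ofBijective φ hb
  refine ⟨t.trans e.symm, fun x => ?_, fun x => ?_⟩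
  · have h1 : e (e.symm (t x)) = t x := e.apply_symm_apply _
    have h2 : (e (e.symm (t x))).1 = (t (e.symm (t x))).1 := rfl
    rw [Equiv.trans_apply, ← h2, h1]
  · have h1 : e (e.symm (t x)) = t x := e.apply_symm_apply _
    have h2 : ((e (e.symm (t x))).2 : ℕ) = w (e.symm (t x)) := rfl
    rw [Equiv.trans_apply, ← h2, h1]

/-- If `F` is antisymmetric under the column group of `t`, then `F w ≠ 0` implies that `w` is
injective on the columns of `t` (use `swap x y`). -/
theorem inj_of_anti (t : Ω ≃ Cel h) (F : (Ω → ℕ) → ℂ)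
    (hanti : ∀ s : Perm Ω, (∀ x, (t (s x)).1 = (t x).1) → ∀ w, F (w ∘ s) =
      ((sign s : ℤ) : ℂ) * F w) (w : Ω → ℕ) (hF : F w ≠ 0) :
    ∀ x y, (t x).1 = (t y).1 → w x = w y → x = y := by
  intro x y hxy hwxy
  by_contra hne
  have h1 := hanti (swap x y) (fun z => by
    rcases eq_or_ne z x with rfl | hzx
    · rw [swap_apply_left, hxy]
    rcases eq_or_ne z y with rfl | hzy
    · rw [swap_apply_right, hxy]
    rw [swap_apply_of_ne_of_ne hzx hzy]) w
  have h2 : w ∘ swap x y = w := by
    ext z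
    rw [Function.comp_apply]
    rcases eq_or_ne z x with rfl | hzx
    · rw [swap_apply_left, hwxy]
    rcases eq_or_ne z y with rfl | hzy
    · rw [swap_apply_right, hwxy]
    rw [swap_apply_of_ne_of_ne hzx hzy]
  rw [h2, sign_swap hne] at h1
  have h3 : F w = 0 := by
    have : F w = -F w := by simpa using h1
    exact self_eq_neg.1 this
  exact hF h3

/-- JAMES' LEMMA. A function which is antisymmetric under the column group of `t` and supported on
words of weight `wt h` is a multiple of the polytabloid. -/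
theorem james (t : Ω ≃ Cel h) (F : (Ω → ℕ) → ℂ)
    (hanti : ∀ s : Perm Ω, (∀ x, (t (s x)).1 = (t x).1) → ∀ w, F (w ∘ s) =
      ((sign s : ℤ) : ℂ) * F w)
    (hsupp : ∀ w, F w ≠ 0 → ∑ x, w x = wt h) (w : Ω → ℕ) :
    F w = F (fun x => ((t x).2 : ℕ)) * pt t w := by
  by_cases hs : ∃ s : Perm Ω, (∀ x, (t (s x)).1 = (t x).1) ∧ ∀ x, w (s x) = ((t x).2 : ℕ)
  · obtain ⟨s, h1, h2⟩ := hs
    have h3 : (fun x => ((t x).2 : ℕ)) = w ∘ s := by
      ext x
      exact (h2 x).symm
    rw [h3, hanti s h1 w, pt_eq_sign t s h1 h2, mul_right_comm, ← Int.cast_mul, ← Units.val_mul,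
      Int.units_mul_self]
    simp
  · have h1 : pt t w = 0 := by
      by_contra h'
      exact hs (pt_ne_zero h')
    have h2 : F w = 0 := by
      by_contra h'
      exact hs (weight_eq t w (inj_of_anti t F hanti w h') (hsupp w h'))
    rw [h1, h2, mul_zero]

end Crest.Agent.SX
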