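import Crest.Agent.SX_C1

/-!
# S0297, task SX-C2: irreducibility of Specht modules
-/

set_option autoImplicit false

namespace Crest.Agent.SX

open Equiv Equiv.Perm

variable {Ω ι : Type} [Fintype Ω] [DecidableEq Ω] [Fintype ι] [DecidableEq ι] {h : ι → ℕ}

open scoped Classical in
/-- The pairing of a function on words with the polytabloid `pt t`. -/
noncomputable def evp (t : Ω ≃ Cel h) : ((Ω → ℕ) → ℂ) →ₗ[ℂ] ℂ where
  toFun F := ∑ s : Perm Ω, if ∀ x, (t (s x)).1 = (t x).1 then
    ((sign s : ℤ) : ℂ) * F (fun x => ((t (s.symm x)).2 : ℕ)) else 0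
  map_add' F G := by
    rw [← Finset.sum_add_distrib]
    refine Finset.sum_congr rfl fun s _ => ?_
    split_ifs
    · rw [Pi.add_apply, mul_add]
    · rw [add_zero]
  map_smul' a F := by
    rw [RingHom.id_apply, smul_eq_mul, Finset.mul_sum]
    refine Finset.sum_congr rfl fun s _ => ?_
    split_ifs
    · rw [Pi.smul_apply, smul_eq_mul]; ring
    · rw [mul_zero]

/-- `evp t F = ∑_w F w * pt t w`, the sum over any finite set of words containing the words
`row ∘ t ∘ s⁻¹`, e.g. all words with values `< n`, `h i ≤ n`. -/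
theorem evp_eq_sum (t : Ω ≃ Cel h) (F : (Ω → ℕ) → ℂ) (n : ℕ) (hn : ∀ i, h i ≤ n) :
    evp t F = ∑ v : Ω → Fin n, F (fun x => (v x : ℕ)) * pt t (fun x => (v x : ℕ)) := by
  classical
  simp only [pt_def, Finset.mul_sum]
  rw [Finset.sum_comm]
  show (∑ s : Perm Ω, if ∀ x, (t (s x)).1 = (t x).1 then
    ((sign s : ℤ) : ℂ) * F (fun x => ((t (s.symm x)).2 : ℕ)) else 0) = _
  refine Finset.sum_congr rfl fun s _ => ?_
  by_cases hs : ∀ x, (t (s x)).1 = (t x).1
  · rw [if_pos hs]
    have hlt : ∀ x, ((t (s.symm x)).2 : ℕ) < n := fun x => lt_of_lt_of_le (Fin.is_lt _) (hn _)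
    rw [Finset.sum_eq_single (fun x => (⟨((t (s.symm x)).2 : ℕ), hlt x⟩ : Fin n))]
    · rw [if_pos ⟨hs, fun x => by
        show ((t (s.symm (s x))).2 : ℕ) = ((t x).2 : ℕ)
        rw [Equiv.symm_apply_apply]⟩, mul_comm]
    · intro v _ hv
      rw [if_neg, mul_zero]
      rintro ⟨-, h2⟩
      apply hv
      ext x
      have := h2 (s.symm x)
      rw [Equiv.apply_symm_apply] at this
      exact this
    · intro h'
      exact absurd (Finset.mem_univ _) h'
  · rw [if_neg hs]
    symm
    refine Finset.sum_eq_zero fun v _ => ?_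
    rw [if_neg (fun h' => hs h'.1), mul_zero]

private theorem star_pt (t : Ω ≃ Cel h) (w : Ω → ℕ) : (starRingEnd ℂ) (pt t w) = pt t w := by
  by_cases h0 : pt t w = 0
  · rw [h0, map_zero]
  · obtain ⟨s, h1, h2⟩ := pt_ne_zero h0
    rw [pt_eq_sign t s h1 h2, map_intCast]

/-- Nondegeneracy: `F ∈ Sp h` with all `evp t F = 0` is `0`. (`F = ∑ a_t pt t`; then
`∑_w F w * conj (F w) = ∑ conj a_t * evp t F = 0` since polytabloids are real; the support of `F`
consists of words with values `< n` by `Sp_bdd`.) -/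
theorem evp_nondeg (F : (Ω → ℕ) → ℂ) (hF : F ∈ Sp (Ω := Ω) h)
    (h0 : ∀ t : Ω ≃ Cel h, evp t F = 0) : F = 0 := by
  have hn : ∀ i, h i ≤ ∑ j, h j := fun i =>
    Finset.single_le_sum (f := h) (fun _ _ => Nat.zero_le _) (Finset.mem_univ i)
  set n := ∑ j, h j with hndef
  have key : ∑ v : Ω → Fin n, F (fun x => (v x : ℕ)) *
      (starRingEnd ℂ) (F (fun x => (v x : ℕ))) = 0 := by
    refine Submodule.span_induction
      (p := fun G _ => ∑ v : Ω → Fin n, F (fun x => (v x : ℕ)) *
        (starRingEnd ℂ) (G (fun x => (v x : ℕ))) = 0) ?_ ?_ ?_ ?_ hF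
    · rintro _ ⟨t, rfl⟩
      have := h0 t
      rw [evp_eq_sum t F n hn] at this
      rw [← this]
      refine Finset.sum_congr rfl fun v _ => ?_
      rw [star_pt]
    · simp
    · intro G G' _ _ h1 h2
      have : ∑ v : Ω → Fin n, F (fun x => (v x : ℕ)) *
        (starRingEnd ℂ) ((G + G') (fun x => (v x : ℕ))) =
          (∑ v : Ω → Fin n, F (fun x => (v x : ℕ)) *
            (starRingEnd ℂ) (G (fun x => (v x : ℕ)))) +
          ∑ v : Ω → Fin n, F (fun x => (v x : ℕ)) *
            (starRingEnd ℂ) (G' (fun x => (v x : ℕ))) := by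
        rw [← Finset.sum_add_distrib]
        refine Finset.sum_congr rfl fun v _ => ?_
        rw [Pi.add_apply, map_add, mul_add]
      rw [this, h1, h2, add_zero]
    · intro a G _ h1
      have : ∑ v : Ω → Fin n, F (fun x => (v x : ℕ)) *
        (starRingEnd ℂ) ((a • G) (fun x => (v x : ℕ))) = (starRingEnd ℂ) a *
          ∑ v : Ω → Fin n, F (fun x => (v x : ℕ)) *
        (starRingEnd ℂ) (G (fun x => (v x : ℕ))) := by
        rw [Finset.mul_sum]
        refine Finset.sum_congr rfl fun v _ => ?_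
        rw [Pi.smul_apply, smul_eq_mul, map_mul]
        ring
      rw [this, h1, mul_zero]
  have key2 : ∑ v : Ω → Fin n, Complex.normSq (F (fun x => (v x : ℕ))) = 0 := by
    have : ((∑ v : Ω → Fin n, Complex.normSq (F (fun x => (v x : ℕ))) : ℝ) : ℂ) = 0 := by
      rw [Complex.ofReal_sum, ← key]
      refine Finset.sum_congr rfl fun v _ => ?_
      rw [Complex.mul_conj]
    exact_mod_cast this
  rw [Finset.sum_eq_zero_iff_of_nonneg (fun v _ => Complex.normSq_nonneg _)] at key2
  funext w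
  by_contra hw
  have hb := Sp_bdd hF hn hw
  have := key2 (fun x => ⟨w x, hb x⟩) (Finset.mem_univ _)
  rw [Complex.normSq_eq_zero] at this
  exact hw this

/-- Equivariance of `evp`. -/
theorem evp_comp (t : Ω ≃ Cel h) (F : (Ω → ℕ) → ℂ) (g : Perm Ω) :
    evp t (fun w => F (w ∘ g)) = evp (g.trans t) F := by
  classical
  show (∑ s : Perm Ω, if ∀ x, (t (s x)).1 = (t x).1 then
    ((sign s : ℤ) : ℂ) * F ((fun x => ((t (s.symm x)).2 : ℕ)) ∘ g) else 0) =
    ∑ s : Perm Ω, if ∀ x, ((g.trans t) (s x)).1 = ((g.trans t) x).1 then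
    ((sign s : ℤ) : ℂ) * F (fun x => (((g.trans t) (s.symm x)).2 : ℕ)) else 0
  refine Fintype.sum_equiv (MulAut.conj g⁻¹).toEquiv _ _ fun s => ?_
  have hs : sign ((MulAut.conj g⁻¹).toEquiv s) = sign s := by
    show sign (g⁻¹ * s * g⁻¹⁻¹) = sign s
    rw [inv_inv, Perm.sign_mul, Perm.sign_mul, Perm.sign_inv, mul_comm, ← mul_assoc,
      Int.units_mul_self, one_mul]
  have e1 : ∀ x, g (((MulAut.conj g⁻¹).toEquiv s) x) = s (g x) := by
    intro x
    show g (g⁻¹ (s (g⁻¹⁻¹ x))) = _
    simp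
  have e2 : ∀ x, g (((MulAut.conj g⁻¹).toEquiv s).symm x) = s.symm (g x) := by
    intro x
    apply s.injective
    rw [Equiv.apply_symm_apply, ← e1, Equiv.apply_symm_apply]
  have e3 : (fun x => (((g.trans t) (((MulAut.conj g⁻¹).toEquiv s).symm x)).2 : ℕ)) =
      (fun x => ((t (s.symm x)).2 : ℕ)) ∘ g := by
    funext x
    show ((t (g (((MulAut.conj g⁻¹).toEquiv s).symm x))).2 : ℕ) = ((t (s.symm (g x))).2 : ℕ)
    rw [e2]
  rw [hs, e3]
  simp only [Equiv.trans_apply, e1]
  refine if_congr ?_ rfl rfl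
  constructor
  · intro h1 x
    exact h1 (g x)
  · intro h1 x
    have := h1 (g.symm x)
    rwa [Equiv.apply_symm_apply] at this

open scoped Classical in
/-- Column antisymmetrisation of a function supported on weight `wt h` is a multiple of `pt t`:
`∑_{s ∈ C_t} sign s * F (w ∘ s) = evp t F * pt t w`. (`james`: the left side is antisymmetric, its
value at the row word of `t` is `evp t F`, up to `s ↦ s⁻¹`.) -/
theorem antisym_eq (t : Ω ≃ Cel h) (F : (Ω → ℕ) → ℂ)
    (hsupp : ∀ w, F w ≠ 0 → ∑ x, w x = wt h) (w : Ω → ℕ) :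
    (∑ s : Perm Ω, if ∀ x, (t (s x)).1 = (t x).1 then ((sign s : ℤ) : ℂ) * F (w ∘ s) else 0) =
      evp t F * pt t w := by
  set A : (Ω → ℕ) → ℂ := fun w => ∑ s : Perm Ω, if ∀ x, (t (s x)).1 = (t x).1 then
    ((sign s : ℤ) : ℂ) * F (w ∘ s) else 0 with hA
  have hanti : ∀ s : Perm Ω, (∀ x, (t (s x)).1 = (t x).1) → ∀ w, A (w ∘ s) =
      ((sign s : ℤ) : ℂ) * A w := by
    intro u hu w
    rw [hA]
    simp only
    rw [Finset.mul_sum]
    refine Fintype.sum_equiv (Equiv.mulLeft u) _ _ fun s => ?_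
    have hc : (∀ x, (t (s x)).1 = (t x).1) ↔ (∀ x, (t ((Equiv.mulLeft u s) x)).1 = (t x).1) := by
      simp only [Equiv.coe_mulLeft, Perm.coe_mul, Function.comp_apply]
      constructor
      · intro a x
        exact (hu _).trans (a x)
      · intro a x
        exact (hu _).symm.trans (a x)
    by_cases hs : ∀ x, (t (s x)).1 = (t x).1
    · rw [if_pos hs, if_pos (hc.1 hs)]
      simp only [Equiv.coe_mulLeft, Perm.sign_mul, Units.val_mul, Int.cast_mul]
      rw [← mul_assoc, ← mul_assoc, ← Int.cast_mul, ← Units.val_mul, Int.units_mul_self]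
      simp only [Units.val_one, Int.cast_one, one_mul]
      rfl
    · rw [if_neg hs, if_neg (fun h' => hs (hc.2 h')), mul_zero]
  have hsuppA : ∀ w, A w ≠ 0 → ∑ x, w x = wt h := by
    intro w hw
    obtain ⟨s, -, hs⟩ := Finset.exists_ne_zero_of_sum_ne_zero hw
    by_cases hs' : ∀ x, (t (s x)).1 = (t x).1
    · rw [if_pos hs'] at hs
      have := hsupp _ (right_ne_zero_of_mul hs)
      rw [← this]
      exact (Equiv.sum_comp s w).symm
    · rw [if_neg hs'] at hs
      exact absurd rfl hs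
  have hj := james t A hanti hsuppA w
  have hev : A (fun x => ((t x).2 : ℕ)) = evp t F := by
    show (∑ s : Perm Ω, if ∀ x, (t (s x)).1 = (t x).1 then
      ((sign s : ℤ) : ℂ) * F ((fun x => ((t x).2 : ℕ)) ∘ s) else 0) =
      ∑ s : Perm Ω, if ∀ x, (t (s x)).1 = (t x).1 then
    ((sign s : ℤ) : ℂ) * F (fun x => ((t (s.symm x)).2 : ℕ)) else 0
    refine Fintype.sum_equiv (Equiv.inv (Perm Ω)) _ _ fun s => ?_
    have hc : (∀ x, (t (s x)).1 = (t x).1) ↔ (∀ x, (t ((Equiv.inv (Perm Ω) s) x)).1 = (t x).1) := by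
      constructor
      · intro a x
        have := a (s.symm x)
        rw [Equiv.apply_symm_apply] at this
        exact this.symm
      · intro a x
        have := a (s x)
        have e : (Equiv.inv (Perm Ω) s) (s x) = x := Equiv.symm_apply_apply s x
        rw [e] at this
        exact this.symm
    by_cases hs : ∀ x, (t (s x)).1 = (t x).1
    · rw [if_pos hs, if_pos (hc.1 hs)]
      have e : sign ((Equiv.inv (Perm Ω)) s) = sign s := Perm.sign_inv s
      rw [e]
      rfl
    · rw [if_neg hs, if_neg (fun h' => hs (hc.2 h'))]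
  rw [hev] at hj
  exact hj

/-- JAMES' SUBMODULE THEOREM (over `ℂ`): a nonzero invariant subspace of `Sp h` is everything. -/
theorem Sp_submodule (U : Submodule ℂ ((Ω → ℕ) → ℂ)) (hU : U ≤ Sp (Ω := Ω) h)
    (hinv : ∀ F ∈ U, ∀ g : Perm Ω, (fun w => F (w ∘ g)) ∈ U) (h0 : U ≠ ⊥) :
    U = Sp (Ω := Ω) h := by
  classical
  refine le_antisymm hU ?_
  obtain ⟨F, hF, hF0⟩ := Submodule.exists_mem_ne_zero_of_ne_bot h0
  have ht : ∃ t : Ω ≃ Cel h, evp t F ≠ 0 := by
    by_contra hcon
    push Not at hcon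
    exact hF0 (evp_nondeg F (hU hF) hcon)
  obtain ⟨t, ht⟩ := ht
  have hpt : pt t ∈ U := by
    have h1 : (fun w => ∑ s : Perm Ω, if ∀ x, (t (s x)).1 = (t x).1 then
        ((sign s : ℤ) : ℂ) * F (w ∘ s) else 0) ∈ U := by
      have e : (fun w => ∑ s : Perm Ω, if ∀ x, (t (s x)).1 = (t x).1 then
        ((sign s : ℤ) : ℂ) * F (w ∘ s) else 0) =
        ∑ s : Perm Ω, (if ∀ x, (t (s x)).1 = (t x).1 then ((sign s : ℤ) : ℂ) else 0) •
          (fun w : Ω → ℕ => F (w ∘ s)) := by
        funext w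
        rw [Finset.sum_apply]
        refine Finset.sum_congr rfl fun s _ => ?_
        rw [Pi.smul_apply, smul_eq_mul]
        split_ifs
        · rfl
        · rw [zero_mul]
      rw [e]
      exact Submodule.sum_mem _ fun s _ => Submodule.smul_mem _ _ (hinv F hF s)
    have h2 : (fun w => ∑ s : Perm Ω, if ∀ x, (t (s x)).1 = (t x).1 then
        ((sign s : ℤ) : ℂ) * F (w ∘ s) else 0) = evp t F • pt t := by
      funext w
      rw [Pi.smul_apply, smul_eq_mul]
      convert antisym_eq t F (fun w hw => Sp_weight (hU hF) hw) w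
    rw [h2] at h1
    have h3 := U.smul_mem (evp t F)⁻¹ h1
    rwa [smul_smul, inv_mul_cancel₀ ht, one_smul] at h3
  refine Submodule.span_le.2 ?_
  rintro _ ⟨t', rfl⟩
  have h1 := hinv _ hpt (t.trans t'.symm)
  have h2 : (fun w => pt t (w ∘ (t.trans t'.symm : Perm Ω))) = pt t' := by
    funext w
    rw [pt_comp]
    have e : ((t.trans t'.symm : Perm Ω).symm.trans t) = t' := by
      apply Equiv.ext
      intro x
      show t (t.symm (t' x)) = t' x
      rw [Equiv.apply_symm_apply]
    rw [e]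
  rw [h2] at h1
  exact h1

/-- The Specht module is irreducible. -/
theorem Sp_irr (hne : Nonempty (Ω ≃ Cel h)) : (SpRep Ω h).IsIrreducible := by
  obtain ⟨t⟩ := hne
  have hpt0 : pt t ≠ 0 := by
    intro h0
    have := pt_self t
    rw [h0] at this
    exact zero_ne_one this
  have : Nontrivial (Subrepresentation (SpRep Ω h)) := by
    refine ⟨⊥, ⊤, ?_⟩
    intro heq
    have h1 : (⟨pt t, pt_mem_Sp t⟩ : Sp (Ω := Ω) h) ∈
        (⊤ : Subrepresentation (SpRep Ω h)).toSubmodule := Submodule.mem_top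
    rw [← heq] at h1
    have h2 := (Submodule.mem_bot ℂ).1 h1
    exact hpt0 (congrArg Subtype.val h2)
  refine ⟨fun K => ?_⟩
  by_cases hK : K.toSubmodule = ⊥
  · left
    exact Subrepresentation.toSubmodule_injective hK
  · right
    apply Subrepresentation.toSubmodule_injective
    have h1 := Sp_submodule (h := h) (K.toSubmodule.map (Sp (Ω := Ω) h).subtype)
      (Submodule.map_subtype_le _ _) (by
        rintro _ ⟨F, hF, rfl⟩ g
        exact ⟨SpRep Ω h g F, K.apply_mem_toSubmodule g hF, rfl⟩) (by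
        intro h2
        apply hK
        rw [eq_bot_iff]
        intro F hF
        have h3 : F.1 ∈ K.toSubmodule.map (Sp (Ω := Ω) h).subtype := ⟨F, hF, rfl⟩
        rw [h2] at h3
        exact (Submodule.mem_bot ℂ).2 (Subtype.ext ((Submodule.mem_bot ℂ).1 h3)))
    show K.toSubmodule = ⊤
    rw [eq_top_iff]
    intro F _
    have h2 : F.1 ∈ K.toSubmodule.map (Sp (Ω := Ω) h).subtype := by
      rw [h1]; exact F.2
    obtain ⟨G, hG, hGF⟩ := h2
    have : G = F := Subtype.ext hGF
    rw [← this]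
    exact hG

end Crest.Agent.SX
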