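import Crest.Agent.SX_C2

/-!
# S0297, task SX-C3: Specht modules of different shapes are not isomorphic
-/

set_option autoImplicit false

namespace Crest.Agent.SX

open Equiv Equiv.Perm

variable {Ω ι κ : Type} [Fintype Ω] [DecidableEq Ω] [Fintype ι] [DecidableEq ι] [Fintype κ]
  [DecidableEq κ] {h : ι → ℕ} {h' : κ → ℕ}

omit [DecidableEq Ω] [DecidableEq ι] in
/-- If `w` is the row word of `t` up to renaming, the number of letters in row `i` is the number of
columns of height `> i`. -/
private theorem card_row (t : Ω ≃ Cel h) (w : Ω → ℕ) (s : Perm Ω)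
    (hs : ∀ x, w (s x) = ((t x).2 : ℕ)) (i : ℕ) :
    (Finset.univ.filter fun c => i < h c).card = (Finset.univ.filter fun x => w x = i).card := by
  refine Finset.card_bij
    (fun c hc => s (t.symm ⟨c, ⟨i, (Finset.mem_filter.1 hc).2⟩⟩)) ?_ ?_ ?_
  · intro c hc
    rw [Finset.mem_filter]
    refine ⟨Finset.mem_univ _, ?_⟩
    rw [hs, t.apply_symm_apply]
  · intro c hc c' hc' hcc
    have h1 := t.symm.injective (s.injective hcc)
    exact congrArg Sigma.fst h1
  · intro x hx
    have hx' : w x = i := (Finset.mem_filter.1 hx).2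
    have h1 : w (s (s.symm x)) = ((t (s.symm x)).2 : ℕ) := hs _
    rw [Equiv.apply_symm_apply, hx'] at h1
    refine ⟨(t (s.symm x)).1, ?_, ?_⟩
    · simp only [Finset.mem_filter, Finset.mem_univ, true_and]
      rw [h1]
      exact Fin.is_lt _
    · have e : (⟨(t (s.symm x)).1, ⟨i, by rw [h1]; exact Fin.is_lt _⟩⟩ : Cel h) =
          t (s.symm x) := by
        refine Sigma.ext rfl (heq_of_eq ?_)
        exact Fin.ext h1
      rw [e, Equiv.symm_apply_apply, Equiv.apply_symm_apply]

/-- A nonzero equivariant map `Sp h → Sp h'` implies `wt h ≤ wt h'`, and if `wt h = wt h'` then the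
rows of `h` and `h'` have the same lengths. (Some `F = f (pt t)` is nonzero and antisymmetric under
the column group of `t`; take `w` with `F w ≠ 0`; `inj_of_anti`, `weight_ge`, `weight_eq`; the number
of letters with `w x = i` is the number of columns of `h'` of height `> i` by `F ∈ Sp h'`, and in the
case of equality also the number of columns of `h` of height `> i`.) -/
theorem map_Sp (f : Sp (Ω := Ω) h →ₗ[ℂ] Sp (Ω := Ω) h')
    (hf : ∀ g F, f (SpRep Ω h g F) = SpRep Ω h' g (f F)) (h0 : f ≠ 0) :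
    wt h ≤ wt h' ∧ (wt h = wt h' → ∀ i, (Finset.univ.filter fun c => i < h c).card =
      (Finset.univ.filter fun c => i < h' c).card) := by
  -- a tableau `t` with `f (pt t) ≠ 0`
  have hex : ∃ t : Ω ≃ Cel h, f ⟨pt t, pt_mem_Sp t⟩ ≠ 0 := by
    by_contra hno
    push Not at hno
    apply h0
    ext1 ⟨F, hF⟩
    rw [LinearMap.zero_apply]
    refine Submodule.span_induction (p := fun F hF => f ⟨F, hF⟩ = 0) ?_ ?_ ?_ ?_ hF
    · rintro _ ⟨t, rfl⟩
      exact hno t
    · exact map_zero f
    · intro F G hF' hG' h1 h2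
      have e : (⟨F + G, Submodule.add_mem _ hF' hG'⟩ : Sp (Ω := Ω) h) = ⟨F, hF'⟩ + ⟨G, hG'⟩ := rfl
      rw [e, map_add, h1, h2, add_zero]
    · intro a F hF' h1
      have e : (⟨a • F, Submodule.smul_mem _ a hF'⟩ : Sp (Ω := Ω) h) = a • ⟨F, hF'⟩ := rfl
      rw [e, map_smul, h1, smul_zero]
  obtain ⟨t, ht⟩ := hex
  set G : Sp (Ω := Ω) h' := f ⟨pt t, pt_mem_Sp t⟩ with hG
  have hanti : ∀ s : Perm Ω, (∀ x, (t (s x)).1 = (t x).1) → ∀ w, G.1 (w ∘ s) =
      ((sign s : ℤ) : ℂ) * G.1 w := by
    intro s hs w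
    have h1 := hf s ⟨pt t, pt_mem_Sp t⟩
    have h2 : SpRep Ω h s ⟨pt t, pt_mem_Sp t⟩ =
        ((sign s : ℤ) : ℂ) • (⟨pt t, pt_mem_Sp t⟩ : Sp (Ω := Ω) h) := by
      refine Subtype.ext (funext fun v => ?_)
      rw [SpRep_apply]
      exact pt_col t s hs v
    rw [h2, map_smul, ← hG] at h1
    have h3 := congrArg (fun F : Sp (Ω := Ω) h' => F.1 w) h1
    simp only [SpRep_apply, Submodule.coe_smul, Pi.smul_apply, smul_eq_mul] at h3
    exact h3.symm
  have hex2 : ∃ w, G.1 w ≠ 0 := by
    by_contra hno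
    push Not at hno
    exact ht (Subtype.ext (funext hno))
  obtain ⟨w, hw⟩ := hex2
  have hinj := inj_of_anti t G.1 hanti w hw
  have hwt : ∑ x, w x = wt h' := Sp_weight G.2 hw
  refine ⟨hwt ▸ weight_ge t w hinj, fun he i => ?_⟩
  obtain ⟨s, -, hs⟩ := weight_eq t w hinj (hwt.trans he.symm)
  have hex3 : ∃ t' : Ω ≃ Cel h', pt t' w ≠ 0 := by
    by_contra hno
    push Not at hno
    refine hw ?_
    refine Submodule.span_induction (p := fun F _ => F w = 0) ?_ rfl ?_ ?_ G.2
    · rintro _ ⟨t', rfl⟩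
      exact hno t'
    · intro F G _ _ h1 h2
      rw [Pi.add_apply, h1, h2, add_zero]
    · intro a F _ h1
      rw [Pi.smul_apply, h1, smul_zero]
  obtain ⟨t', ht'⟩ := hex3
  obtain ⟨s', -, hs'⟩ := pt_ne_zero ht'
  rw [card_row t w s hs i, card_row t' w s' hs' i]

omit [DecidableEq ι] [DecidableEq κ] in
/-- Same row lengths, positive heights: same multiset of heights. -/
theorem heights_of_rows (hp : ∀ i, 0 < h i) (hp' : ∀ i, 0 < h' i)
    (hr : ∀ i, (Finset.univ.filter fun c => i < h c).card =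
      (Finset.univ.filter fun c => i < h' c).card) :
    (Finset.univ.val.map h : Multiset ℕ) = Finset.univ.val.map h' := by
  have key : ∀ {ι : Type} [Fintype ι] (h : ι → ℕ) (n : ℕ),
      (Finset.univ.filter fun c => n + 1 = h c).card +
        (Finset.univ.filter fun c => n + 1 < h c).card =
      (Finset.univ.filter fun c => n < h c).card := by
    intro ι _ h n
    classical
    rw [← Finset.card_union_of_disjoint]
    · congr 1
      ext c
      simp only [Finset.mem_union, Finset.mem_filter, Finset.mem_univ, true_and]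
      omega
    · rw [Finset.disjoint_filter]
      intro c _ h1 h2
      omega
  rw [Multiset.ext]
  intro n
  rw [Multiset.count_map, Multiset.count_map]
  change (Finset.univ.filter fun c => n = h c).card = (Finset.univ.filter fun c => n = h' c).card
  rcases n with _ | n
  · rw [Finset.filter_false_of_mem, Finset.filter_false_of_mem]
    · rfl
    · intro c _ hc
      have := hp' c
      omega
    · intro c _ hc
      have := hp c
      omega
  · have h1 := key h n
    have h2 := key h' n
    have h3 := hr n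
    have h4 := hr (n + 1)
    omega

/-- Isomorphic Specht modules have the same column heights. -/
theorem iso_Sp (hp : ∀ i, 0 < h i) (hp' : ∀ i, 0 < h' i) (hne : Nonempty (Ω ≃ Cel h))
    (e : (SpRep Ω h).Equiv (SpRep Ω h')) :
    (Finset.univ.val.map h : Multiset ℕ) = Finset.univ.val.map h' := by
  obtain ⟨t⟩ := hne
  have hpt : (⟨pt t, pt_mem_Sp t⟩ : Sp (Ω := Ω) h) ≠ 0 := by
    intro h0
    have h1 := congrArg (fun F : Sp (Ω := Ω) h => F.1 (fun x => ((t x).2 : ℕ))) h0
    simp only [pt_self] at h1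
    exact one_ne_zero h1
  have h1 := map_Sp (e.toLinearEquiv : Sp (Ω := Ω) h →ₗ[ℂ] Sp (Ω := Ω) h')
    (fun g F => by
      have := LinearMap.congr_fun (e.1.2 g) F
      exact this)
    (by
      intro h0
      have := LinearMap.congr_fun h0 (⟨pt t, pt_mem_Sp t⟩ : Sp (Ω := Ω) h)
      exact hpt (e.toLinearEquiv.map_eq_zero_iff.1 this))
  have h2 := map_Sp (e.symm.toLinearEquiv : Sp (Ω := Ω) h' →ₗ[ℂ] Sp (Ω := Ω) h)
    (fun g F => by
      have := LinearMap.congr_fun (e.symm.1.2 g) F
      exact this)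
    (by
      intro h0
      have := LinearMap.congr_fun h0 (e.toLinearEquiv (⟨pt t, pt_mem_Sp t⟩ : Sp (Ω := Ω) h))
      have h3 := e.symm.toLinearEquiv.map_eq_zero_iff.1 this
      exact hpt (e.toLinearEquiv.map_eq_zero_iff.1 h3))
  exact heights_of_rows hp hp' (h1.2 (le_antisymm h1.1 h2.1))

end Crest.Agent.SX
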