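import Crest.Agent.SX_C3

/-!
# S0297, task SX-C4: completeness of the Specht modules
-/

set_option autoImplicit false

namespace Crest.Agent.SX

open Equiv Equiv.Perm

variable {Ω : Type} [Fintype Ω] [DecidableEq Ω]

/-- The columns of a partition, sorted decreasingly. -/
noncomputable def ptCols {n : ℕ} (μ : n.Partition) : Fin (μ.parts.sort (· ≥ ·)).length → ℕ :=
  fun i => (μ.parts.sort (· ≥ ·)).get i

theorem ptCols_antitone {n : ℕ} (μ : n.Partition) : Antitone (ptCols μ) := by
  have h : (μ.parts.sort (· ≥ ·)).Pairwise (· ≥ ·) := Multiset.pairwise_sort _ _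
  exact List.sortedGE_iff_antitone_get.1 (List.sortedGE_iff_pairwise.2 h)

private theorem ptCols_multiset_aux {n : ℕ} (μ : n.Partition) :
    (Finset.univ.val.map (ptCols μ) : Multiset ℕ) = μ.parts := by
  have h1 : (Finset.univ.val.map (ptCols μ) : Multiset ℕ) =
      ((List.ofFn (ptCols μ) : List ℕ) : Multiset ℕ) := by
    rw [Fin.univ_val_map]
  rw [h1]
  have h2 : List.ofFn (ptCols μ) = μ.parts.sort (· ≥ ·) := by
    unfold ptCols
    exact List.ofFn_get _
  rw [h2, Multiset.sort_eq]

theorem ptCols_pos {n : ℕ} (μ : n.Partition) (i) : 0 < ptCols μ i := by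
  apply μ.parts_pos
  rw [← ptCols_multiset_aux μ]
  exact Multiset.mem_map.2 ⟨i, Finset.mem_univ_val i, rfl⟩

theorem ptCols_sum {n : ℕ} (μ : n.Partition) : ∑ i, ptCols μ i = n := by
  have h : ∑ i, ptCols μ i = (Finset.univ.val.map (ptCols μ)).sum := rfl
  rw [h, ptCols_multiset_aux, μ.parts_sum]

theorem ptCols_multiset {n : ℕ} (μ : n.Partition) :
    (Finset.univ.val.map (ptCols μ) : Multiset ℕ) = μ.parts := ptCols_multiset_aux μ

/-- Number of conjugacy classes `≤` number of partitions (`Equiv.Perm.partition`,
`Equiv.Perm.partition_eq_of_isConj`). -/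
theorem card_conj_le : Nat.card (ConjClasses (Perm Ω)) ≤ Fintype.card (Fintype.card Ω).Partition := by
  classical
  rw [← Nat.card_eq_fintype_card]
  let f : ConjClasses (Perm Ω) → (Fintype.card Ω).Partition :=
    Quotient.lift (fun σ : Perm Ω => σ.partition)
      (fun a b h => Equiv.Perm.partition_eq_of_isConj.1 h)
  have hf : Function.Injective f := by
    intro a b hab
    induction a using Quotient.inductionOn with
    | _ a =>
      induction b using Quotient.inductionOn with
      | _ b =>
        exact Quotient.sound (Equiv.Perm.partition_eq_of_isConj.2 hab)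
  exact Nat.card_le_card_of_injective f hf

/-- Irreducible pairwise non-isomorphic finite-dimensional complex representations indexed by a
finite type `I`: `card I ≤` number of conjugacy classes. (`Representation.char_orthonormal`: the
characters are linearly independent functions on `ConjClasses G`; `Representation.char_conj`.) -/
theorem card_irr_le {G : Type} [Group G] [Fintype G] {I : Type} [Fintype I]
    (M : I → Type) [∀ i, AddCommGroup (M i)] [∀ i, Module ℂ (M i)]
    [∀ i, FiniteDimensional ℂ (M i)] (ρ : ∀ i, Representation ℂ G (M i))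
    (hirr : ∀ i, (ρ i).IsIrreducible) (hne : ∀ i i', i ≠ i' → IsEmpty ((ρ i).Equiv (ρ i'))) :
    Fintype.card I ≤ Nat.card (ConjClasses G) := by
  classical
  have hG : (Nat.card G : ℂ) ≠ 0 := by
    rw [Nat.card_eq_fintype_card]
    exact Nat.cast_ne_zero.2 Fintype.card_ne_zero
  letI hinv : Invertible (Nat.card G : ℂ) := invertibleOfNonzero hG
  let χ : I → ConjClasses G → ℂ := fun i => Quotient.lift (fun g => (ρ i).character g) (by
    intro a b hab
    obtain ⟨c, hc⟩ := isConj_iff.1 hab
    change (ρ i).character a = (ρ i).character b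
    rw [← hc, Representation.char_conj])
  have hli : LinearIndependent ℂ χ := by
    rw [Fintype.linearIndependent_iff]
    intro a ha j
    have h2 : ∀ g : G, ∑ i, a i * (ρ i).character g = 0 := fun g => by
      have h3 := congrFun ha (ConjClasses.mk g)
      rw [Finset.sum_apply] at h3
      exact h3
    have h1 : ∑ i, a i * ((Nat.card G : ℂ)⁻¹ *
        ∑ g : G, (ρ i).character g * (ρ j).character g⁻¹) = 0 := by
      calc ∑ i, a i * ((Nat.card G : ℂ)⁻¹ * ∑ g : G, (ρ i).character g * (ρ j).character g⁻¹)
          = (Nat.card G : ℂ)⁻¹ * ∑ g : G, (∑ i, a i * (ρ i).character g) *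
              (ρ j).character g⁻¹ := by
            simp only [Finset.mul_sum, Finset.sum_mul]
            rw [Finset.sum_comm]
            refine Finset.sum_congr rfl fun g _ => Finset.sum_congr rfl fun i _ => ?_
            ring
        _ = 0 := by simp [h2]
    rw [Finset.sum_eq_single j] at h1
    · haveI := hirr j
      rw [Representation.char_orthonormal, if_pos ⟨Representation.Equiv.refl _⟩] at h1
      simpa using h1
    · intro i _ hij
      haveI := hirr i
      haveI := hirr j
      rw [Representation.char_orthonormal, if_neg, mul_zero]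
      rintro ⟨e⟩
      exact (hne j i (Ne.symm hij)).false e
    · intro h
      exact absurd (Finset.mem_univ j) h
  have h := hli.fintype_card_le_finrank
  rw [Module.finrank_fintype_fun_eq_card] at h
  rw [Nat.card_eq_fintype_card]
  exact h

/-- Auxiliary bundle. -/
private structure IrrB (G : Type) [Group G] where
  M : Type
  i1 : AddCommGroup M
  i2 : Module ℂ M
  i3 : FiniteDimensional ℂ M
  ρ : Representation ℂ G M
  irr : ρ.IsIrreducible

attribute [local instance] IrrB.i1 IrrB.i2 IrrB.i3

private theorem finDim_Sp {ι : Type} (h : ι → ℕ) [Finite ι] :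
    FiniteDimensional ℂ (Sp (Ω := Ω) h) :=
  FiniteDimensional.span_of_finite ℂ (Set.finite_range _)

omit [DecidableEq Ω] in
private theorem ne_tab (μ : (Fintype.card Ω).Partition) : Nonempty (Ω ≃ Cel (ptCols μ)) := by
  apply Fintype.card_eq.1
  rw [Fintype.card_sigma]
  simp only [Fintype.card_fin]
  exact (ptCols_sum μ).symm

/-- COMPLETENESS. Every irreducible finite-dimensional complex representation of `Perm Ω` embeds in
a Specht module. (Otherwise the family `none ↦ σ`, `some μ ↦ SpRep Ω (ptCols μ)` contradicts
`card_irr_le` and `card_conj_le`; an isomorphism `σ ≃ SpRep Ω (ptCols μ)` composed with the inclusion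
of `Sp` in functions gives `f`.) -/
theorem completeness {W : Type} [AddCommGroup W] [Module ℂ W] [FiniteDimensional ℂ W]
    (σ : Representation ℂ (Perm Ω) W) (hσ : σ.IsIrreducible) :
    ∃ (l : ℕ) (h : Fin l → ℕ), Antitone h ∧ (∀ i, 0 < h i) ∧ ∑ i, h i = Fintype.card Ω ∧
      ∃ f : W →ₗ[ℂ] ((Ω → ℕ) → ℂ), Function.Injective f ∧
        (∀ g w x, f (σ g w) x = f w (x ∘ g)) ∧ ∀ w, f w ∈ Sp (Ω := Ω) h := by
  classical
  have key : ∃ μ : (Fintype.card Ω).Partition, Nonempty (σ.Equiv (SpRep Ω (ptCols μ))) := by
    by_contra hno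
    push Not at hno
    let fam : Option (Fintype.card Ω).Partition → IrrB (Perm Ω) := fun o =>
      o.elim ⟨W, inferInstance, inferInstance, inferInstance, σ, hσ⟩
        (fun μ => ⟨Sp (Ω := Ω) (ptCols μ), inferInstance, inferInstance, finDim_Sp _,
          SpRep Ω (ptCols μ), Sp_irr (ne_tab μ)⟩)
    have h1 := card_irr_le (fun o => (fam o).M) (fun o => (fam o).ρ) (fun o => (fam o).irr) (by
      intro o o' hoo
      rcases o with _ | μ
      · rcases o' with _ | μ'
        · exact absurd rfl hoo
        · exact ⟨fun e => (hno μ').false e⟩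
      · rcases o' with _ | μ'
        · exact ⟨fun e => (hno μ).false (Representation.Equiv.symm e)⟩
        · refine ⟨fun e => hoo ?_⟩
          have h2 := iso_Sp (ptCols_pos μ) (ptCols_pos μ') (ne_tab μ) e
          rw [ptCols_multiset, ptCols_multiset] at h2
          rw [Nat.Partition.ext h2])
    have h2 := card_conj_le (Ω := Ω)
    rw [Fintype.card_option] at h1
    omega
  obtain ⟨μ, ⟨e⟩⟩ := key
  refine ⟨_, ptCols μ, ptCols_antitone μ, ptCols_pos μ, ptCols_sum μ,
    (Sp (Ω := Ω) (ptCols μ)).subtype.comp (e.toLinearEquiv : W →ₗ[ℂ] Sp (Ω := Ω) (ptCols μ)),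
    ?_, ?_, ?_⟩
  · exact (Subtype.val_injective).comp e.toLinearEquiv.injective
  · intro g w x
    have h1 := LinearMap.congr_fun (e.1.2 g) w
    have h2 := congrArg (fun F : Sp (Ω := Ω) (ptCols μ) => F.1 x) h1
    exact h2
  · intro w
    exact (e.toLinearEquiv w).2

end Crest.Agent.SX
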