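import Crest.Agent.SX_T0

/-!
# S0297, task SX-Comb: a subdiagram with rows `2a+1, 2b, 2c, 2d` and `2k+3` cells
-/

set_option autoImplicit false

namespace Crest.Agent.SX

/-- Number of columns of height `> i` = length of row `i`. -/
def rowLen {l : ℕ} (h : Fin l → ℕ) (i : ℕ) : ℕ := (Finset.univ.filter fun c => i < h c).card

/-- A partition (given by its columns `h`) with `(k+2)(k+3)/2` cells contained in the
`(k+1) × (k+1)` box: its first four rows have at least `2k+9` cells. (`l ≤ k+1`, `h i ≤ k+1`; if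
`k + 1 < 4` this is impossible; the row lengths `r_i` are decreasing, vanish for `i ≥ k + 1` and
`r_i ≤ l ≤ k + 1`; `∑ r_i = ∑ h_i`; so `4 n ≤ (k + 1) (r_0 + r_1 + r_2 + r_3)` with
`n = (k+2)(k+3)/2`, and `2 (k+2)(k+3) / (k+1) > 2k + 8`.) -/
theorem four_rows (k l : ℕ) (h : Fin l → ℕ) (hl : l ≤ k + 1)
    (hk : ∀ i, h i ≤ k + 1) (hsum : 2 * ∑ i, h i = (k + 2) * (k + 3)) :
    2 * k + 9 ≤ rowLen h 0 + rowLen h 1 + rowLen h 2 + rowLen h 3 := by
  have hanti : ∀ i j, i ≤ j → rowLen h j ≤ rowLen h i := by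
    intro i j hij
    refine Finset.card_le_card fun c hc => ?_
    simp only [Finset.mem_filter, Finset.mem_univ, true_and] at hc ⊢
    omega
  have hle : ∀ i, rowLen h i ≤ k + 1 := by
    intro i
    refine le_trans (Finset.card_le_univ _) ?_
    simpa using hl
  have hs : ∑ i, h i = ∑ r ∈ Finset.range (k + 1), rowLen h r := by
    have h1 : ∀ i, h i = ∑ r ∈ Finset.range (k + 1), if r < h i then 1 else 0 := by
      intro i
      rw [← Finset.card_filter]
      have : (Finset.range (k + 1)).filter (fun r => r < h i) = Finset.range (h i) := by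
        ext r
        simp only [Finset.mem_filter, Finset.mem_range]
        have := hk i
        omega
      rw [this, Finset.card_range]
    rw [Finset.sum_congr rfl fun i _ => h1 i, Finset.sum_comm]
    refine Finset.sum_congr rfl fun r _ => ?_
    rw [rowLen, Finset.card_filter]
  rw [hs] at hsum
  have hk3 : 3 ≤ k := by
    by_contra hcon
    have h2 : ∑ r ∈ Finset.range (k + 1), rowLen h r ≤ (k + 1) * (k + 1) := by
      refine le_trans (Finset.sum_le_sum fun r _ => hle r) ?_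
      simp
    have h3 : k = 0 ∨ k = 1 ∨ k = 2 := by omega
    rcases h3 with rfl | rfl | rfl <;> omega
  set R := rowLen h 0 + rowLen h 1 + rowLen h 2 + rowLen h 3 with hR
  have hbig : 4 * ∑ r ∈ Finset.range (k + 1), rowLen h r ≤ (k + 1) * R := by
    obtain ⟨m, rfl⟩ : ∃ m, k = m + 3 := ⟨k - 3, by omega⟩
    have e1 : m + 3 + 1 = 4 + m := by ring
    rw [e1, Finset.sum_range_add]
    have e2 : ∑ x ∈ Finset.range 4, rowLen h x = R := by
      simp [Finset.sum_range_succ, hR]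
    rw [e2]
    have e3 : 4 * ∑ x ∈ Finset.range m, rowLen h (4 + x) ≤ m * R := by
      rw [Finset.mul_sum]
      refine le_trans (Finset.sum_le_sum (g := fun _ => R) fun x _ => ?_) (by simp)
      have a0 := hanti 0 (4 + x) (by omega)
      have a1 := hanti 1 (4 + x) (by omega)
      have a2 := hanti 2 (4 + x) (by omega)
      have a3 := hanti 3 (4 + x) (by omega)
      omega
    nlinarith
  by_contra hcon
  have hRle : R ≤ 2 * k + 8 := by omega
  have : (k + 1) * R ≤ (k + 1) * (2 * k + 8) := Nat.mul_le_mul_left _ hRle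
  nlinarith

/-- Choice of `a ≥ b ≥ c ≥ d` with `2a+1, 2b, 2c, 2d` at most the row lengths and
`a + b + c + d = k + 1`. (Take `a' = (r₀-1)/2`, `b' = min (r₁/2) a'`, `c' = min (r₂/2) b'`,
`d' = min (r₃/2) c'`: then `2 (a'+b'+c'+d') + 1 ≥ 2k+3` by a case analysis on parities: the loss is at
most `7`, and `≤ 7` with equality only if all four are equal and even, `≤ 6`, ... ; then decrease,
e.g. `a = min a' (k+1)`, `b = min b' (k+1-a)`, ….) -/
theorem choose_four (k : ℕ) (r₀ r₁ r₂ r₃ : ℕ) (h1 : r₁ ≤ r₀) (h2 : r₂ ≤ r₁) (h3 : r₃ ≤ r₂)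
    (hs : 2 * k + 9 ≤ r₀ + r₁ + r₂ + r₃) :
    ∃ a b c d : ℕ, b ≤ a ∧ c ≤ b ∧ d ≤ c ∧ a + b + c + d = k + 1 ∧ 2 * a + 1 ≤ r₀ ∧ 2 * b ≤ r₁ ∧
      2 * c ≤ r₂ ∧ 2 * d ≤ r₃ := by
  obtain ⟨a', ha'⟩ : ∃ a', a' = (r₀ - 1) / 2 := ⟨_, rfl⟩
  obtain ⟨b', hb'⟩ : ∃ b', b' = min (r₁ / 2) a' := ⟨_, rfl⟩
  obtain ⟨c', hc'⟩ : ∃ c', c' = min (r₂ / 2) b' := ⟨_, rfl⟩
  obtain ⟨d', hd'⟩ : ∃ d', d' = min (r₃ / 2) c' := ⟨_, rfl⟩
  have e0 : r₀ ≤ 2 * a' + 2 := by omega
  have e0' : 2 * a' + 1 ≤ r₀ := by omega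
  have e1 : r₁ ≤ 2 * b' + 2 := by omega
  have e1' : 2 * b' ≤ r₁ := by omega
  have e2 : r₂ ≤ 2 * c' + 2 := by omega
  have e2' : 2 * c' ≤ r₂ := by omega
  have e3 : r₃ ≤ 2 * d' + 2 := by omega
  have e3' : 2 * d' ≤ r₃ := by omega
  have o1 : b' ≤ a' := by omega
  have o2 : c' ≤ b' := by omega
  have o3 : d' ≤ c' := by omega
  have hS : k + 1 ≤ a' + b' + c' + d' := by omega
  clear ha' hb' hc' hd'
  obtain ⟨a, ha⟩ : ∃ a, a = min a' (k + 1) := ⟨_, rfl⟩
  obtain ⟨b, hb⟩ : ∃ b, b = min b' (k + 1 - a) := ⟨_, rfl⟩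
  obtain ⟨c, hc⟩ : ∃ c, c = min c' (k + 1 - a - b) := ⟨_, rfl⟩
  obtain ⟨d, hd⟩ : ∃ d, d = min d' (k + 1 - a - b - c) := ⟨_, rfl⟩
  refine ⟨a, b, c, d, ?_, ?_, ?_, ?_, ?_, ?_, ?_, ?_⟩ <;> omega

/-- The subdiagram. -/
theorem comb (k l : ℕ) (h : Fin l → ℕ) (ha : Antitone h) (hl : l ≤ k + 1)
    (hk : ∀ i, h i ≤ k + 1) (hsum : 2 * ∑ i, h i = (k + 2) * (k + 3)) :
    ∃ a b c d : ℕ, b ≤ a ∧ c ≤ b ∧ d ≤ c ∧ a + b + c + d = k + 1 ∧
      ∃ φ : Fin (2 * a + 1) → Fin l, Function.Injective φ ∧ ∀ j, dh a b c d j ≤ h (φ j) := by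
  have hanti : ∀ i j, i ≤ j → rowLen h j ≤ rowLen h i := by
    intro i j hij
    refine Finset.card_le_card fun c hc => ?_
    simp only [Finset.mem_filter, Finset.mem_univ, true_and] at hc ⊢
    omega
  have hlt : ∀ (i : ℕ) (c : Fin l), (c : ℕ) < rowLen h i → i < h c := by
    intro i c hc
    by_contra hcon
    have h1 : rowLen h i ≤ (Finset.Iio c).card := by
      refine Finset.card_le_card fun c' hc' => ?_
      simp only [Finset.mem_filter, Finset.mem_univ, true_and] at hc'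
      rw [Finset.mem_Iio]
      by_contra hcc
      have := ha (not_lt.1 hcc)
      omega
    rw [Fin.card_Iio] at h1
    omega
  obtain ⟨a, b, c, d, o1, o2, o3, hsum', h0, h1, h2, h3⟩ :=
    choose_four k (rowLen h 0) (rowLen h 1) (rowLen h 2) (rowLen h 3) (hanti _ _ (by omega))
      (hanti _ _ (by omega)) (hanti _ _ (by omega)) (four_rows k l h hl hk hsum)
  have hl' : rowLen h 0 ≤ l := by
    refine le_trans (Finset.card_le_univ _) ?_
    simp
  refine ⟨a, b, c, d, o1, o2, o3, hsum', fun j => ⟨j, by have := j.2; omega⟩, ?_, ?_⟩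
  · intro x y hxy
    have := congrArg Fin.val hxy
    exact Fin.ext this
  · intro j
    have hj := j.2
    set c' : Fin l := ⟨j, by omega⟩ with hc'
    have g0 : 0 < h c' := hlt 0 c' (show (j : ℕ) < _ by omega)
    have g1 : (j : ℕ) < 2 * b → 1 < h c' := fun hh => hlt 1 c' (show (j : ℕ) < _ by omega)
    have g2 : (j : ℕ) < 2 * c → 2 < h c' := fun hh => hlt 2 c' (show (j : ℕ) < _ by omega)
    have g3 : (j : ℕ) < 2 * d → 3 < h c' := fun hh => hlt 3 c' (show (j : ℕ) < _ by omega)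
    change dh a b c d j ≤ h c'
    unfold dh
    split_ifs with x1 x2 x3 x3 x2 x3 x3
    all_goals omega

end Crest.Agent.SX
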