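import Mathlib

/-!
# S0297 / S0298 (tensor squares of Specht modules): common definitions

Everything is expressed with functions on words. `Ω` is a finite set of letters, a word is a function
`w : Ω → ℕ` (letter ↦ row), `WW Ω` is the type of pairs of words. `Equiv.Perm Ω` acts on functions
`F : WW Ω → ℂ` by `(g F) x = F (pull g x)`, `pull g x = (x.1 ∘ g, x.2 ∘ g)`.

A shape is a function `h : ι → ℕ` (`ι` = set of columns, `h i` = height of column `i`, columns are
not sorted); `Cel h = Σ i, Fin (h i)` is the set of cells; a tableau is `t : Ω ≃ Cel h`, `(t x).1`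
is the column and `(t x).2` the row of the letter `x`.

* `pt t : (Ω → ℕ) → ℂ` is the polytabloid of `t`: `pt t w = sign s` if `w = row ∘ t ∘ s⁻¹` with `s`
  in the column group of `t` (there is at most one such `s`), and `0` otherwise;
* `Sp h` is the Specht module (span of the `pt t`), `VV h` its tensor square, both as spaces of
  functions;
* `Good R h p σ`: the representation `σ` of `Perm Ω` has an injective equivariant map `j` into `VV h`
  such that, whenever all the values of `j w` on the orbit of the pair of words `p` are in the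
  additive subgroup `R` of `ℂ`, all values of `j w` are in `R`. (We use it for `R` a valuation ring
  of `ℂ` above `2`, and for `R = ⊥`.)
-/

set_option autoImplicit false

namespace Crest.Agent.SX

open Equiv Equiv.Perm

/-- Pairs of words. -/
abbrev WW (Ω : Type) : Type := (Ω → ℕ) × (Ω → ℕ)

/-- Renaming letters in a pair of words. -/
def pull {Ω : Type} (g : Perm Ω) (x : WW Ω) : WW Ω := (x.1 ∘ g, x.2 ∘ g)

/-- Restriction of a pair of words to the left letters. -/
def resl {A B : Type} (x : WW (A ⊕ B)) : WW A := (x.1 ∘ Sum.inl, x.2 ∘ Sum.inl)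

/-- Restriction of a pair of words to the right letters. -/
def resr {A B : Type} (x : WW (A ⊕ B)) : WW B := (x.1 ∘ Sum.inr, x.2 ∘ Sum.inr)

/-- Cells of the shape with columns `i : ι` of heights `h i`. -/
abbrev Cel {ι : Type} (h : ι → ℕ) : Type := Σ i : ι, Fin (h i)

/-- The sum of the row indices over all cells. -/
def wt {ι : Type} [Fintype ι] (h : ι → ℕ) : ℕ := ∑ c : Cel h, (c.2 : ℕ)

open scoped Classical in
/-- The polytabloid of the tableau `t`, as a function on words. -/
noncomputable def pt {Ω ι : Type} [Fintype Ω] [DecidableEq Ω] {h : ι → ℕ} (t : Ω ≃ Cel h)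
    (w : Ω → ℕ) : ℂ :=
  ∑ s : Perm Ω, if (∀ x, (t (s x)).1 = (t x).1) ∧ (∀ x, w (s x) = ((t x).2 : ℕ)) then
    ((sign s : ℤ) : ℂ) else 0

/-- The Specht module of shape `h`, a space of functions on words. -/
noncomputable def Sp {Ω ι : Type} [Fintype Ω] [DecidableEq Ω] (h : ι → ℕ) :
    Submodule ℂ ((Ω → ℕ) → ℂ) :=
  Submodule.span ℂ (Set.range fun t : Ω ≃ Cel h => pt t)

/-- The tensor square of the Specht module, a space of functions on pairs of words. -/
noncomputable def VV {Ω ι : Type} [Fintype Ω] [DecidableEq Ω] (h : ι → ℕ) :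
    Submodule ℂ (WW Ω → ℂ) :=
  Submodule.span ℂ {F | ∃ t t' : Ω ≃ Cel h, F = fun x => pt t x.1 * pt t' x.2}

/-- See the header. -/
def Good (R : AddSubgroup ℂ) {Ω ι : Type} [Fintype Ω] [DecidableEq Ω] (h : ι → ℕ) (p : WW Ω)
    {W : Type} [AddCommGroup W] [Module ℂ W] (σ : Representation ℂ (Perm Ω) W) : Prop :=
  ∃ j : W →ₗ[ℂ] (WW Ω → ℂ), Function.Injective j ∧ (∀ g w x, j (σ g w) x = j w (pull g x)) ∧
    (∀ w, j w ∈ VV h) ∧ ∀ w, (∀ g, j w (pull g p) ∈ R) → ∀ x, j w x ∈ R

/-- The staircase: columns of heights `1, …, k`. -/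
def stair (k : ℕ) : Fin k → ℕ := fun i => (i : ℕ) + 1

/-- Two columns of heights `k + 2` and `k + 1`. -/
def two (k : ℕ) : Bool → ℕ := fun b => if b then k + 1 else k + 2

/-- `p` is a staircase pair of words: `(p.1, p.2)` is injective with image in the staircase
`r + c < k` (it will be used when the number of letters is `k (k + 1) / 2`). -/
def IsStair {Ω : Type} (k : ℕ) (p : WW Ω) : Prop :=
  (Function.Injective fun a => (p.1 a, p.2 a)) ∧ ∀ a, p.1 a + p.2 a < k

/-- The sign twist of a representation of the symmetric group. -/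
noncomputable def sgnTwist {Ω W : Type} [Fintype Ω] [DecidableEq Ω] [AddCommGroup W] [Module ℂ W]
    (σ : Representation ℂ (Perm Ω) W) : Representation ℂ (Perm Ω) W where
  toFun g := ((sign g : ℤ) : ℂ) • σ g
  map_one' := by simp
  map_mul' g g' := by
    ext w
    simp only [Units.val_mul, Int.cast_mul, map_mul, LinearMap.smul_apply,
      Module.End.mul_apply, map_smul, smul_smul]
    rw [mul_comm]

theorem sgnTwist_apply {Ω W : Type} [Fintype Ω] [DecidableEq Ω] [AddCommGroup W] [Module ℂ W]
    (σ : Representation ℂ (Perm Ω) W) (g : Perm Ω) (w : W) :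
    sgnTwist σ g w = ((sign g : ℤ) : ℂ) • σ g w := rfl

/-- The additive group of a valuation subring. -/
noncomputable def vAdd (V : ValuationSubring ℂ) : AddSubgroup ℂ := V.toSubring.toAddSubgroup

theorem mem_vAdd (V : ValuationSubring ℂ) (z : ℂ) : z ∈ vAdd V ↔ z ∈ V := Iff.rfl

@[simp] theorem pull_one {Ω : Type} (x : WW Ω) : pull 1 x = x := rfl

theorem pull_mul {Ω : Type} (g g' : Perm Ω) (x : WW Ω) : pull (g * g') x = pull g' (pull g x) := rfl

end Crest.Agent.SX
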