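import Crest.Agent.SX_API

/-!
# S0297, task SX-One: the block with one column
-/

set_option autoImplicit false

namespace Crest.Agent.SX

open Equiv Equiv.Perm

private theorem one_val {A : Type} [Fintype A] [DecidableEq A] {n : ℕ}
    (t : A ≃ Cel (fun _ : Unit => n)) (w : A → ℕ) : pt t w = 0 ∨ pt t w = 1 ∨ pt t w = -1 := by
  by_cases h : pt t w = 0
  · exact Or.inl h
  · obtain ⟨s, h1, h2⟩ := pt_ne_zero h
    rw [pt_eq_sign t s h1 h2]
    rcases Int.units_eq_one_or (sign s) with h3 | h3 <;> rw [h3] <;> simp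

private theorem one_ne {A : Type} [Fintype A] [DecidableEq A] {n : ℕ}
    (hA : Fintype.card A = n) (t : A ≃ Cel (fun _ : Unit => n)) (w : A → ℕ)
    (h1 : Function.Injective w) (h1' : ∀ a, w a < n) : pt t w = 1 ∨ pt t w = -1 := by
  let f : A → Fin n := fun a => ⟨w a, h1' a⟩
  have hf : Function.Injective f := fun a b hab => h1 (by simpa [f] using hab)
  have hfb : Function.Bijective f :=
    (Fintype.bijective_iff_injective_and_card f).2 ⟨hf, by rw [hA, Fintype.card_fin]⟩
  let e : A ≃ Fin n := Equiv.ofBijective f hfb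
  have hsn : Function.Bijective (fun a => (t a).2) := by
    constructor
    · intro a b hab
      apply t.injective
      have h2 : (t a).2 = (t b).2 := hab
      exact Sigma.ext rfl (heq_of_eq h2)
    · intro i
      refine ⟨t.symm ⟨(), i⟩, ?_⟩
      simp
  let s : Perm A := (Equiv.ofBijective _ hsn).trans e.symm
  have hs : ∀ x, w (s x) = ((t x).2 : ℕ) := by
    intro x
    have h3 : e (s x) = (t x).2 := by simp [s]
    have h4 : (e (s x) : ℕ) = w (s x) := rfl
    rw [← h4, h3]
  rw [pt_eq_sign t s (fun x => rfl) hs]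
  rcases Int.units_eq_one_or (sign s) with h3 | h3 <;> rw [h3] <;> simp

/-- One column. Take any tableau `t : A ≃ Cel (fun _ : Unit => n)` and
`j c x = c * pt t x.1 * pt t x.2`. All permutations preserve the column, so by `pt_col` the product
of the two signs is `1` (equivariance). The value at `p` is `± c` (`pt_eq_sign` with
`s x = t⁻¹ ((), p.1 x)` inverted ...) and all values are `0` or `± c`. -/
theorem one_good {A : Type} [Fintype A] [DecidableEq A] (n : ℕ) (hA : Fintype.card A = n)
    (R : AddSubgroup ℂ) (p : WW A)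
    (h1 : Function.Injective p.1) (h1' : ∀ a, p.1 a < n)
    (h2 : Function.Injective p.2) (h2' : ∀ a, p.2 a < n) :
    Good R (fun _ : Unit => n) p (Representation.trivial ℂ (Perm A) ℂ) := by
  let t : A ≃ Cel (fun _ : Unit => n) :=
    (Fintype.equivFinOfCardEq hA).trans (Equiv.uniqueSigma (fun _ : Unit => Fin n)).symm
  have hp1 := one_ne hA t p.1 h1 h1'
  have hp2 := one_ne hA t p.2 h2 h2'
  let j : ℂ →ₗ[ℂ] (WW A → ℂ) :=
    LinearMap.toSpanSingleton ℂ _ (fun x : WW A => pt t x.1 * pt t x.2)
  have hj : ∀ c x, j c x = c * (pt t x.1 * pt t x.2) := fun c x => rfl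
  have hcol : ∀ (g : Perm A) (w : A → ℕ), pt t (w ∘ g) = ((sign g : ℤ) : ℂ) * pt t w :=
    fun g w => pt_col t g (fun x => rfl) w
  have hsq : ∀ g : Perm A, ((sign g : ℤ) : ℂ) * ((sign g : ℤ) : ℂ) = 1 := by
    intro g
    rcases Int.units_eq_one_or (sign g) with h3 | h3 <;> rw [h3] <;> simp
  refine ⟨j, ?_, ?_, ?_, ?_⟩
  · rw [← LinearMap.ker_eq_bot, LinearMap.ker_eq_bot']
    intro c hc
    have h3 : j c p = 0 := by rw [hc]; rfl
    rw [hj] at h3
    rcases hp1 with e1 | e1 <;> rcases hp2 with e2 | e2 <;> rw [e1, e2] at h3 <;> simpa using h3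
  · intro g c x
    rw [Representation.trivial_apply, hj, hj]
    change c * (pt t x.1 * pt t x.2) = c * (pt t (x.1 ∘ g) * pt t (x.2 ∘ g))
    rw [hcol, hcol]
    linear_combination -(c * (pt t x.1 * pt t x.2)) * hsq g
  · intro c
    exact Submodule.smul_mem _ c (gen_mem_VV t t)
  · intro c hc x
    have h3 : j c p ∈ R := by
      have := hc 1
      rwa [pull_one] at this
    have hcR : c ∈ R := by
      rw [hj] at h3
      rcases hp1 with e1 | e1 <;> rcases hp2 with e2 | e2 <;> rw [e1, e2] at h3
      · simpa using h3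
      · simpa using h3
      · simpa using h3
      · simpa using h3
    rw [hj]
    rcases one_val t x.1 with e1 | e1 | e1 <;> rcases one_val t x.2 with e2 | e2 | e2 <;>
      rw [e1, e2] <;> simp [R.zero_mem, hcR]

end Crest.Agent.SX
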