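import Crest.Agent.SX_Pair1

/-!
# S0297, task SX-Pair: restriction of a representation to `Perm A × Perm B`
-/

set_option autoImplicit false

namespace Crest.Agent.SX

open Equiv Equiv.Perm TensorProduct

/-- The space of `Perm A`-equivariant maps. -/
noncomputable def pairM {A B : Type} [Fintype A] [DecidableEq A] [Fintype B] [DecidableEq B]
    {W U₁ : Type} [AddCommGroup W] [Module ℂ W]
    [AddCommGroup U₁] [Module ℂ U₁]
    (σ : Representation ℂ (Perm (A ⊕ B)) W) (τ₁ : Representation ℂ (Perm A) U₁) :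
    Submodule ℂ (W →ₗ[ℂ] U₁) where
  carrier := {φ | ∀ g w, φ (σ (Perm.sumCongr g 1) w) = τ₁ g (φ w)}
  add_mem' := by
    intro a b ha hb g w
    change ∀ g w, _ at ha hb
    simp [ha g w, hb g w]
  zero_mem' := by
    intro g w
    simp
  smul_mem' := by
    intro c a ha g w
    change ∀ g w, _ at ha
    simp [ha g w]

theorem sumCongr_mul' {A B : Type} (g g' : Perm A) (k k' : Perm B) :
    Perm.sumCongr (g * g') (k * k') = Perm.sumCongr g k * Perm.sumCongr g' k' := by
  rw [Perm.sumCongr_mul]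

/-- The action of `Perm B` on it. -/
noncomputable def pairRep {A B : Type} [Fintype A] [DecidableEq A] [Fintype B] [DecidableEq B]
    {W U₁ : Type} [AddCommGroup W] [Module ℂ W]
    [AddCommGroup U₁] [Module ℂ U₁]
    (σ : Representation ℂ (Perm (A ⊕ B)) W) (τ₁ : Representation ℂ (Perm A) U₁) :
    Representation ℂ (Perm B) (pairM σ τ₁) where
  toFun b :=
    { toFun := fun φ => ⟨φ.1 ∘ₗ σ (Perm.sumCongr 1 b⁻¹), by
        intro g w
        have h := φ.2 g (σ (Perm.sumCongr 1 b⁻¹) w)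
        simp only [LinearMap.comp_apply]
        rw [← h, ← Module.End.mul_apply, ← Module.End.mul_apply, ← map_mul, ← map_mul,
          ← sumCongr_mul', ← sumCongr_mul']
        simp⟩
      map_add' := by
        intro x y
        ext w
        simp
      map_smul' := by
        intro c x
        ext w
        simp }
  map_one' := by
    ext φ w
    have : Perm.sumCongr (1 : Perm A) (1 : Perm B) = 1 := Perm.sumCongr_one
    simp [this]
  map_mul' := by
    intro b b'
    ext φ w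
    simp only [mul_inv_rev, Module.End.mul_apply, LinearMap.coe_mk, AddHom.coe_mk,
      LinearMap.comp_apply]
    rw [← Module.End.mul_apply (σ _) (σ _), ← map_mul, ← sumCongr_mul', one_mul]

theorem pairRep_apply {A B : Type} [Fintype A] [DecidableEq A] [Fintype B] [DecidableEq B]
    {W U₁ : Type} [AddCommGroup W] [Module ℂ W]
    [AddCommGroup U₁] [Module ℂ U₁]
    (σ : Representation ℂ (Perm (A ⊕ B)) W) (τ₁ : Representation ℂ (Perm A) U₁)
    (b : Perm B) (φ : pairM σ τ₁) (w : W) :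
    ((pairRep σ τ₁ b φ : pairM σ τ₁) : W →ₗ[ℂ] U₁) w
      = (φ : W →ₗ[ℂ] U₁) (σ (Perm.sumCongr 1 b⁻¹) w) := rfl

theorem dualTensorHom_map {G V U : Type} [Group G] [AddCommGroup V] [Module ℂ V]
    [AddCommGroup U] [Module ℂ U] (ρ : Representation ℂ G V) (T : U →ₗ[ℂ] U) (g : G)
    (x : Module.Dual ℂ V ⊗[ℂ] U) (v : V) :
    dualTensorHom ℂ V U (TensorProduct.map (Representation.dual ρ g) T x) v
      = T (dualTensorHom ℂ V U x (ρ g⁻¹ v)) := by
  induction x using TensorProduct.induction_on with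
  | zero => simp
  | tmul f u =>
    simp only [TensorProduct.map_tmul, dualTensorHom_apply, Representation.dual_apply, map_smul]
    rfl
  | add a b ha hb =>
    simp only [map_add, LinearMap.add_apply, ha, hb]

/-- The main construction. -/
theorem pair_key {A B : Type} [Fintype A] [DecidableEq A] [Fintype B] [DecidableEq B]
    {W U₁ : Type} [AddCommGroup W] [Module ℂ W] [FiniteDimensional ℂ W]
    [AddCommGroup U₁] [Module ℂ U₁] [FiniteDimensional ℂ U₁]
    (σ : Representation ℂ (Perm (A ⊕ B)) W) (τ₁ : Representation ℂ (Perm A) U₁)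
    {α : Type} [AddCommGroup α] [Module ℂ α] [FiniteDimensional ℂ α]
    (ρ : Representation ℂ (Perm B) α) (hρ : ρ.IsIrreducible)
    (ι : α →ₗ[ℂ] (W →ₗ[ℂ] U₁)) (hι : Function.Injective ι)
    (h1 : ∀ φ g w, ι φ (σ (Perm.sumCongr g 1) w) = τ₁ g (ι φ w))
    (h2 : ∀ (b : Perm B) φ w, ι (ρ b φ) w = ι φ (σ (Perm.sumCongr 1 b⁻¹) w)) :
    ∃ (U₂ : Type) (_ : AddCommGroup U₂) (_ : Module ℂ U₂) (_ : FiniteDimensional ℂ U₂)
      (τ₂ : Representation ℂ (Perm B) U₂), τ₂.IsIrreducible ∧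
      ∃ F : W →ₗ[ℂ] U₁ ⊗[ℂ] U₂, F ≠ 0 ∧
        ∀ g₁ g₂ w, F (σ (Perm.sumCongr g₁ g₂) w) = TensorProduct.map (τ₁ g₁) (τ₂ g₂) (F w) := by
  refine ⟨Module.Dual ℂ α, inferInstance, inferInstance, inferInstance, Representation.dual ρ,
    dual_irr ρ hρ, ?_⟩
  let e : Module.Dual ℂ α ⊗[ℂ] U₁ ≃ₗ[ℂ] (α →ₗ[ℂ] U₁) := dualTensorHomEquiv ℂ α U₁
  let ev : W →ₗ[ℂ] (α →ₗ[ℂ] U₁) := LinearMap.flip ι
  have hev : ∀ w (φ : α), ev w φ = ι φ w := fun w φ => rfl
  refine ⟨(TensorProduct.comm ℂ (Module.Dual ℂ α) U₁).toLinearMap ∘ₗ e.symm.toLinearMap ∘ₗ ev,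
    ?_, ?_⟩
  · intro h0
    have hnt2 : Nontrivial α := by
      by_contra hc
      rw [not_nontrivial_iff_subsingleton] at hc
      obtain ⟨a, b, hab⟩ := hρ.toNontrivial
      apply hab
      cases a
      cases b
      congr 1
      exact Subsingleton.elim _ _
    obtain ⟨φ, hφ⟩ := exists_ne (0 : α)
    apply hφ
    have hz : ∀ w, ev w = 0 := by
      intro w
      have := LinearMap.congr_fun h0 w
      simpa using this
    apply hι
    ext w
    have h2 := LinearMap.congr_fun (hz w) φ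
    rw [hev] at h2
    simpa using h2
  · intro g₁ g₂ w
    simp only [LinearMap.comp_apply, LinearEquiv.coe_coe]
    rw [TensorProduct.map_comm]
    congr 1
    rw [LinearEquiv.symm_apply_eq]
    ext φ
    have h3 : e (TensorProduct.map (Representation.dual ρ g₂) (τ₁ g₁) (e.symm (ev w))) φ
        = τ₁ g₁ ((e (e.symm (ev w))) (ρ g₂⁻¹ φ)) :=
      dualTensorHom_map ρ (τ₁ g₁) g₂ (e.symm (ev w)) φ
    rw [h3, LinearEquiv.apply_symm_apply, hev, hev, h2, inv_inv, ← h1, ← Module.End.mul_apply,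
      ← map_mul, ← sumCongr_mul', mul_one, one_mul]

/-- Let `σ` be a representation of `Perm (A ⊕ B)` on `W` and let `f : W → U₁` be a nonzero
`Perm A`-equivariant map. Then there are an irreducible representation `τ₂` of `Perm B` on some `U₂`
and a nonzero `Perm A × Perm B`-equivariant map `F : W → U₁ ⊗ U₂`.

Proof. `M` = space of `Perm A`-equivariant maps `W → U₁`, a nonzero finite-dimensional
representation of `Perm B` by `(b φ) w = φ (σ (1, b⁻¹) w)`. Let `α ⊆ M` be irreducible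
(`exists_irr_sub`) and `U₂ = Module.Dual ℂ α` (`dual_irr`). With a basis `φ_i` of `α` and the dual
basis `φ_i^*` put `F w = ∑ φ_i w ⊗ φ_i^*`. (Equivalently `F` is determined by
`(id ⊗ ev_φ) (F w) = φ w` for all `φ ∈ α`, which makes equivariance easy.) -/
theorem exists_pair {A B : Type} [Fintype A] [DecidableEq A] [Fintype B] [DecidableEq B]
    {W U₁ : Type} [AddCommGroup W] [Module ℂ W] [FiniteDimensional ℂ W]
    [AddCommGroup U₁] [Module ℂ U₁] [FiniteDimensional ℂ U₁]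
    (σ : Representation ℂ (Perm (A ⊕ B)) W) (τ₁ : Representation ℂ (Perm A) U₁)
    (f : W →ₗ[ℂ] U₁) (hf0 : f ≠ 0)
    (hf : ∀ g w, f (σ (Perm.sumCongr g 1) w) = τ₁ g (f w)) :
    ∃ (U₂ : Type) (_ : AddCommGroup U₂) (_ : Module ℂ U₂) (_ : FiniteDimensional ℂ U₂)
      (τ₂ : Representation ℂ (Perm B) U₂), τ₂.IsIrreducible ∧
      ∃ F : W →ₗ[ℂ] U₁ ⊗[ℂ] U₂, F ≠ 0 ∧
        ∀ g₁ g₂ w, F (σ (Perm.sumCongr g₁ g₂) w) = TensorProduct.map (τ₁ g₁) (τ₂ g₂) (F w) := by
  have hnt : Nontrivial (pairM (A := A) (B := B) σ τ₁) := by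
    refine ⟨⟨⟨f, hf⟩, 0, ?_⟩⟩
    intro h
    exact hf0 (congrArg Subtype.val h)
  obtain ⟨N, hN⟩ := exists_irr_sub (pairRep σ τ₁)
  let α : Submodule ℂ (pairM (A := A) (B := B) σ τ₁) := N.toSubmodule
  let ρ : @Representation ℂ (Perm B) α _ _ (Submodule.addCommGroup α).toAddCommMonoid _ :=
    N.toRepresentation
  have hρ : @Representation.IsIrreducible (Perm B) ℂ α _ _ (Submodule.addCommGroup α) _ ρ := hN
  let ι : α →ₗ[ℂ] (W →ₗ[ℂ] U₁) := (Submodule.subtype (pairM (A := A) (B := B) σ τ₁)) ∘ₗ α.subtype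
  have hι : Function.Injective ι := fun x y h => Subtype.ext (Subtype.ext h)
  have h1 : ∀ φ g w, ι φ (σ (Perm.sumCongr g 1) w) = τ₁ g (ι φ w) := fun φ g w => φ.1.2 g w
  have h2 : ∀ (b : Perm B) φ w, ι (ρ b φ) w = ι φ (σ (Perm.sumCongr 1 b⁻¹) w) :=
    fun b φ w => rfl
  exact pair_key (α := α) σ τ₁ ρ hρ ι hι h1 h2

end Crest.Agent.SX
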