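import Crest.Agent.SX_Rel

/-!
# S0297: relabelling of letters for polytabloids and embeddings in Specht modules (helper61)
-/

set_option autoImplicit false

namespace Crest.Agent.SX

open Equiv Equiv.Perm

variable {Ω Ω' : Type} [Fintype Ω] [DecidableEq Ω] [Fintype Ω'] [DecidableEq Ω']

theorem pt_equiv {ι : Type} {h : ι → ℕ} (e : Ω ≃ Ω') (t : Ω ≃ Cel h) (x : Ω' → ℕ) :
    pt (e.symm.trans t) x = pt t (x ∘ e) := by
  classical
  rw [pt_def, pt_def]
  refine Fintype.sum_equiv (e.symm.permCongr) _ _ fun s => ?_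
  have hs : sign (e.symm.permCongr s) = sign s := Equiv.Perm.sign_permCongr _ _
  rw [hs]
  refine if_congr ?_ rfl rfl
  simp only [Equiv.trans_apply, Equiv.permCongr_apply, Equiv.symm_symm, Function.comp_apply,
    Equiv.apply_symm_apply]
  constructor
  · rintro ⟨h1, h2⟩
    refine ⟨fun y => ?_, fun y => ?_⟩
    · have := h1 (e y)
      rwa [Equiv.symm_apply_apply] at this
    · have := h2 (e y)
      rwa [Equiv.symm_apply_apply] at this
  · rintro ⟨h1, h2⟩
    refine ⟨fun y => ?_, fun y => ?_⟩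
    · have := h1 (e.symm y)
      rwa [Equiv.apply_symm_apply] at this
    · have := h2 (e.symm y)
      rwa [Equiv.apply_symm_apply] at this

theorem Sp_equiv {ι : Type} {h : ι → ℕ} (e : Ω ≃ Ω') {F : (Ω → ℕ) → ℂ}
    (hF : F ∈ Sp (Ω := Ω) h) : (fun x : Ω' → ℕ => F (x ∘ e)) ∈ Sp (Ω := Ω') h := by
  refine Submodule.span_induction
    (p := fun F _ => (fun x : Ω' → ℕ => F (x ∘ e)) ∈ Sp (Ω := Ω') h) ?_ ?_ ?_ ?_ hF
  · rintro _ ⟨t, rfl⟩
    have : (fun x : Ω' → ℕ => pt t (x ∘ e)) = pt (e.symm.trans t) := by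
      funext x
      rw [pt_equiv]
    simp only [this]
    exact pt_mem_Sp _
  · exact Submodule.zero_mem _
  · intro F G _ _ h1 h2
    exact Submodule.add_mem _ h1 h2
  · intro a F _ h1
    exact Submodule.smul_mem _ a h1

theorem emb_relabel {ι : Type} {h : ι → ℕ} {W : Type} [AddCommGroup W] [Module ℂ W] (e : Ω ≃ Ω')
    (σ : Representation ℂ (Perm Ω) W) (f : W →ₗ[ℂ] ((Ω → ℕ) → ℂ)) (hinj : Function.Injective f)
    (hf : ∀ g w x, f (σ g w) x = f w (x ∘ g)) (hS : ∀ w, f w ∈ Sp (Ω := Ω) h) :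
    ∃ f' : W →ₗ[ℂ] ((Ω' → ℕ) → ℂ), Function.Injective f' ∧
      (∀ g w x, f' (relabel e σ g w) x = f' w (x ∘ g)) ∧ ∀ w, f' w ∈ Sp (Ω := Ω') h := by
  refine ⟨{ toFun := fun w x => f w (x ∘ e)
            map_add' := fun w w' => by funext x; simp
            map_smul' := fun a w => by funext x; simp }, ?_, ?_, ?_⟩
  · intro w w' hww
    apply hinj
    funext x
    have := congrFun hww (x ∘ e.symm)
    simpa [Function.comp_assoc] using this
  · intro g w x
    show f (σ (e.symm.permCongr g) w) (x ∘ e) = f w ((x ∘ g) ∘ e)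
    rw [hf]
    have e1 : (x ∘ e) ∘ (e.symm.permCongr g) = (x ∘ g) ∘ e := by
      funext y
      simp
    rw [e1]
  · intro w
    exact Sp_equiv e (hS w)

end Crest.Agent.SX
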