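import Crest.Agent.SX_Defs

/-!
# S0297, task SX-Val: a valuation ring of `ℂ` above `2`
-/

set_option autoImplicit false

namespace Crest.Agent.SX

/-- There is a valuation subring of `ℂ` in which `2` is not invertible. (Take the local subring of
`ℂ` obtained by localising `ℤ` at `(2)`, e.g. `LocalSubring.ofPrime`, and use
`LocalSubring.exists_le_valuationSubring`: domination, so `2` stays a non-unit. File
`Mathlib/RingTheory/Valuation/LocalSubring.lean`.) -/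
theorem exists_val : ∃ V : ValuationSubring ℂ, (2 : ℂ)⁻¹ ∉ V := by
  obtain ⟨V, -, hV⟩ := Ideal.image_subset_nonunits_valuationSubring
    (A := (Int.castRingHom ℂ).range)
    (Ideal.span {(⟨2, ⟨2, by simp⟩⟩ : (Int.castRingHom ℂ).range)}) (by
      intro h
      rw [Ideal.eq_top_iff_one, Ideal.mem_span_singleton'] at h
      obtain ⟨⟨a, m, hm⟩, ha⟩ := h
      have h1 := congrArg Subtype.val ha
      simp only [Subring.coe_mul, Subring.coe_one] at h1
      rw [← hm] at h1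
      simp only [eq_intCast] at h1
      have h2 : ((m * 2 : ℤ) : ℂ) = ((1 : ℤ) : ℂ) := by
        push_cast
        exact h1
      have h3 : m * 2 = 1 := by exact_mod_cast h2
      omega)
  refine ⟨V, ?_⟩
  have h2 : (2 : ℂ) ∈ V.nonunits := hV ⟨_, Ideal.subset_span rfl, rfl⟩
  have h3 := V.inv_mem_nonunits_iff (x := (2 : ℂ)⁻¹)
  rw [inv_inv] at h3
  exact (h3.1 h2).resolve_left (by norm_num)

/-- `vAdd V ≠ ⊤`. -/
theorem vAdd_ne_top {V : ValuationSubring ℂ} (hV : (2 : ℂ)⁻¹ ∉ V) : vAdd V ≠ ⊤ := by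
  intro h
  exact hV (by rw [← mem_vAdd, h]; trivial)

/-- Maximal ideal: `2 * V` consists of non-units. (`z ≠ 0` is necessary since `0⁻¹ = 0`.) -/
theorem two_mul_nonunit {V : ValuationSubring ℂ} (hV : (2 : ℂ)⁻¹ ∉ V) {z : ℂ} (hz : z ∈ V)
    (hz0 : z ≠ 0) : (2 * z)⁻¹ ∉ V := by
  intro h
  apply hV
  have e : (2 : ℂ)⁻¹ = z * (2 * z)⁻¹ := by
    field_simp
  rw [e]
  exact V.mul_mem _ _ hz h

/-- Sums of non-units are non-units (`V` is a local ring): if `a, b ∈ V`, `a⁻¹ ∉ V` or `a = 0`,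
`b⁻¹ ∉ V` or `b = 0` then `a + b = 0` or `(a + b)⁻¹ ∉ V`. -/
theorem nonunit_add {V : ValuationSubring ℂ} {a b : ℂ} (ha : a ∈ V) (hb : b ∈ V)
    (ha' : a = 0 ∨ a⁻¹ ∉ V) (hb' : b = 0 ∨ b⁻¹ ∉ V) : a + b = 0 ∨ (a + b)⁻¹ ∉ V := by
  by_cases h0 : a + b = 0
  · exact Or.inl h0
  refine Or.inr fun h => ?_
  by_cases ha0 : a = 0
  · subst ha0
    rw [zero_add] at h0 h
    exact hb'.elim h0 fun hb2 => hb2 h
  by_cases hb0 : b = 0
  · subst hb0
    rw [add_zero] at h0 h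
    exact ha'.elim h0 fun ha2 => ha2 h
  have key : ∀ x y : ℂ, x ≠ 0 → y ≠ 0 → x + y ≠ 0 → (x + y)⁻¹ ∈ V → x / y ∈ V → y⁻¹ ∈ V := by
    intro x y _ hy hxy hxyV hV
    have e : y⁻¹ = (x / y + 1) * (x + y)⁻¹ := by
      field_simp
    rw [e]
    exact V.mul_mem _ _ (V.add_mem _ _ hV V.one_mem) hxyV
  rcases V.mem_or_inv_mem (a / b) with h1 | h1
  · exact hb'.elim hb0 fun hb2 => hb2 (key a b ha0 hb0 h0 h h1)
  · rw [inv_div] at h1
    refine ha'.elim ha0 fun ha2 => ha2 (key b a hb0 ha0 ?_ ?_ h1)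
    · rwa [add_comm]
    · rwa [add_comm]

/-- Odd integers are units of `V`. -/
theorem odd_inv_mem {V : ValuationSubring ℂ} (hV : (2 : ℂ)⁻¹ ∉ V) {c : ℤ} (hc : Odd c) :
    ((c : ℂ))⁻¹ ∈ V := by
  by_contra hcV
  obtain ⟨k, hk⟩ := hc
  have hc1 : (c : ℂ) ∈ V := intCast_mem V c
  have hk1 : ((-(2 * k) : ℤ) : ℂ) ∈ V := intCast_mem V _
  have h2 : ((-(2 * k) : ℤ) : ℂ) = 0 ∨ (((-(2 * k) : ℤ) : ℂ))⁻¹ ∉ V := by
    by_cases hk0 : k = 0
    · left
      rw [hk0]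
      simp
    · right
      have e : ((-(2 * k) : ℤ) : ℂ) = 2 * (((-k : ℤ)) : ℂ) := by
        push_cast
        ring
      rw [e]
      refine two_mul_nonunit hV (intCast_mem V _) ?_
      exact_mod_cast neg_ne_zero.2 hk0
  have h3 := nonunit_add hc1 hk1 (Or.inr hcV) h2
  have e : (c : ℂ) + ((-(2 * k) : ℤ) : ℂ) = 1 := by
    rw [hk]
    push_cast
    ring
  rw [e] at h3
  rcases h3 with h3 | h3
  · exact one_ne_zero h3
  · rw [inv_one] at h3
    exact h3 V.one_mem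

/-- A finite family which is not zero has an entry of maximal valuation. -/
theorem exists_max_val (V : ValuationSubring ℂ) {X : Type} (f : X → ℂ) (s : Finset X)
    (hs : ∀ x, f x ≠ 0 → x ∈ s) (h0 : ∃ x, f x ≠ 0) :
    ∃ x₀, f x₀ ≠ 0 ∧ ∀ x, f x / f x₀ ∈ V := by
  obtain ⟨y, hy⟩ := h0
  obtain ⟨x₀, hx₀, hmax⟩ := Finset.exists_max_image s (fun x => V.valuation (f x)) ⟨y, hs y hy⟩
  have hx0 : V.valuation (f x₀) ≠ 0 := by
    intro h
    have h1 := hmax y (hs y hy)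
    rw [h] at h1
    exact hy ((Valuation.zero_iff _).1 (le_antisymm h1 zero_le))
  have hfx0 : f x₀ ≠ 0 := fun h => hx0 (by rw [h, map_zero])
  refine ⟨x₀, hfx0, fun x => ?_⟩
  by_cases hx : f x = 0
  · rw [hx, zero_div]
    exact V.zero_mem
  · rw [← V.valuation_le_one_iff, map_div₀]
    exact (div_le_one₀ (zero_lt_iff.2 hx0)).2 (hmax x (hs x hx))

end Crest.Agent.SX
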