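import Crest.Agent.SX_S3
import Crest.Agent.SX_Val

/-!
# S0297, task SX-S4: the sign twist
-/

set_option autoImplicit false

namespace Crest.Agent.SX

open Equiv Equiv.Perm

variable {Ω : Type} [Fintype Ω] [DecidableEq Ω] {k : ℕ}

private theorem mul_mem_VV {ι : Type} {h : ι → ℕ} (t : Ω ≃ Cel h) {G : (Ω → ℕ) → ℂ}
    (hG : G ∈ Sp (Ω := Ω) h) : (fun x : WW Ω => pt t x.1 * G x.2) ∈ VV (Ω := Ω) h := by
  refine Submodule.span_induction
    (p := fun G _ => (fun x : WW Ω => pt t x.1 * G x.2) ∈ VV (Ω := Ω) h) ?_ ?_ ?_ ?_ hG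
  · rintro _ ⟨t', rfl⟩
    exact gen_mem_VV t t'
  · simp only [Pi.zero_apply, mul_zero]
    exact Submodule.zero_mem _
  · intro F G _ _ h1 h2
    simp only [Pi.add_apply, mul_add]
    exact Submodule.add_mem _ h1 h2
  · intro a F _ h1
    have e : (fun x : WW Ω => pt t x.1 * (a • F) x.2) = a • fun x : WW Ω => pt t x.1 * F x.2 := by
      ext x
      simp only [Pi.smul_apply, smul_eq_mul]
      ring
    rw [e]
    exact Submodule.smul_mem _ a h1

theorem th2_mem (t₀ : Ω ≃ Cel (stair k)) (F : WW Ω → ℂ) (hF : F ∈ VV (Ω := Ω) (stair k)) :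
    th2 t₀ F ∈ VV (Ω := Ω) (stair k) := by
  refine Submodule.span_induction
    (p := fun F _ => th2 t₀ F ∈ VV (Ω := Ω) (stair k)) ?_ ?_ ?_ ?_ hF
  · rintro _ ⟨t, t', rfl⟩
    have e : th2 t₀ (fun x : WW Ω => pt t x.1 * pt t' x.2) =
        fun x : WW Ω => pt t x.1 * th t₀ (pt t') x.2 := by
      ext x
      rw [th2_apply, th, Finset.mul_sum]
      exact Finset.sum_congr rfl fun v _ => mul_assoc _ _ _
    rw [e]
    exact mul_mem_VV t (th_mem t₀ _)
  · rw [map_zero]
    exact Submodule.zero_mem _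
  · intro F G _ _ h1 h2
    rw [map_add]
    exact Submodule.add_mem _ h1 h2
  · intro a F _ h1
    rw [map_smul]
    exact Submodule.smul_mem _ a h1

theorem th2_pull (t₀ : Ω ≃ Cel (stair k)) (F : WW Ω → ℂ) (g : Perm Ω) (x : WW Ω) :
    th2 t₀ (fun x => F (pull g x)) x = ((sign g : ℤ) : ℂ) * th2 t₀ F (pull g x) := by
  rw [th2_eq_th, th2_eq_th]
  exact th_comp t₀ (fun w => F (x.1 ∘ g, w)) g x.2

/-- (`th_th` applied to the functions `F (x.1, ·)`, see `VV_snd`.) -/
theorem th2_th2 (t₀ : Ω ≃ Cel (stair k)) :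
    ∃ c : ℤ, Odd c ∧ ∀ F ∈ VV (Ω := Ω) (stair k), ∀ x, th2 t₀ (th2 t₀ F) x = (c : ℂ) * F x := by
  obtain ⟨c, hc, h⟩ := th_th t₀
  refine ⟨c, hc, fun F hF x => ?_⟩
  exact h (fun w => F (x.1, w)) (VV_snd hF x.1) x.2

private theorem th2_mem_V (V : ValuationSubring ℂ) (t₀ : Ω ≃ Cel (stair k)) (F : WW Ω → ℂ)
    (hFV : ∀ x, F x ∈ V) (x : WW Ω) : th2 t₀ F x ∈ V := by
  rw [th2_apply]
  exact sum_mem fun v _ => V.mul_mem _ _ (hFV _) (intCast_mem V _)

/-- `1 ⊗ θ = 1` modulo the maximal ideal, on functions with values in `V`: with `c` as in `th2_th2`,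
`F = th2 y`, `y = c⁻¹ th2 F` (values in `V` by `odd_inv_mem`), and
`th2 F = th2 (th2 y) = th2 y + 2 (…) = F + 2 (…)` by `eps_mul_eps`. -/
theorem th2_congr (V : ValuationSubring ℂ) (hV : (2 : ℂ)⁻¹ ∉ V) (t₀ : Ω ≃ Cel (stair k))
    (F : WW Ω → ℂ) (hF : F ∈ VV (Ω := Ω) (stair k)) (hFV : ∀ x, F x ∈ V) (x : WW Ω) :
    ∃ z ∈ V, th2 t₀ F x = F x + 2 * z := by
  obtain ⟨c, hc, hcc⟩ := th2_th2 (Ω := Ω) t₀
  have hcV := odd_inv_mem hV hc
  have hc0 : (c : ℂ) ≠ 0 := by
    intro h
    have : c = 0 := by exact_mod_cast h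
    rw [this] at hc
    exact absurd hc (by decide)
  set y : WW Ω → ℂ := (c : ℂ)⁻¹ • th2 t₀ F with hy
  have hyV : ∀ x, y x ∈ V := by
    intro x
    rw [hy, Pi.smul_apply, smul_eq_mul]
    exact V.mul_mem _ _ hcV (th2_mem_V V t₀ F hFV x)
  have hFy : F = th2 t₀ y := by
    rw [hy, map_smul]
    ext x
    rw [Pi.smul_apply, hcc F hF x, smul_eq_mul, ← mul_assoc, inv_mul_cancel₀ hc0, one_mul]
  choose m hm using fun v : Ω → Fin k => (eps_mul_eps t₀ (kw v) x.2)
  refine ⟨∑ u : Ω → Fin k, y (x.1, kw u) * (m u : ℂ),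
    sum_mem fun u _ => V.mul_mem _ _ (hyV _) (intCast_mem V _), ?_⟩
  have e1 : th2 t₀ F x = ∑ u : Ω → Fin k, y (x.1, kw u) *
      ((∑ v : Ω → Fin k, eps t₀ (kw u) (kw v) * eps t₀ (kw v) x.2 : ℤ) : ℂ) := by
    conv_lhs => rw [hFy]
    rw [th2_apply]
    simp only [th2_apply, Finset.sum_mul, Int.cast_sum, Int.cast_mul, Finset.mul_sum]
    rw [Finset.sum_comm]
    exact Finset.sum_congr rfl fun u _ => Finset.sum_congr rfl fun v _ => mul_assoc _ _ _
  rw [e1]
  conv_rhs => rw [hFy]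
  rw [th2_apply, Finset.mul_sum, ← Finset.sum_add_distrib]
  refine Finset.sum_congr rfl fun u _ => ?_
  have h2 := hm u
  have h3 : (∑ v : Ω → Fin k, eps t₀ (kw u) (kw v) * eps t₀ (kw v) x.2) =
      eps t₀ (kw u) x.2 + (m u + m u) := by
    rw [← h2]
    ring
  rw [h3]
  push_cast
  ring

/-- THE SIGN TWIST. (If `Good` holds for `j`, take `j' = th2 ∘ j`; it is injective by `th2_th2`
(`c ≠ 0`) and equivariant for the twist by `th2_pull`.
Sharpness: suppose `j' w (pull g p) ∈ V` for all `g`. If all `j w x ∈ V` then `j' w x ∈ V` (integer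
matrix). Otherwise let `x₀` be such that `z₀ = j w x₀` has maximal valuation (`exists_max_val`; the
support of `j w` is finite by `VV_bdd`), `z₀ ∉ V`, and `w' = z₀⁻¹ • w`: `j w' x ∈ V` for all `x` and
`j w' x₀ = 1`. Then `j' w' (pull g p)` is `z₀⁻¹` times an element of `V`, a non-unit, so by
`th2_congr`, `two_mul_nonunit` and `nonunit_add`, `j w' (pull g p)` is a non-unit (or `0`) for all
`g`. If all of them are `0`: the sharpness of `j` for `c • w'`, all `c ∈ ℂ`, gives
`c = j (c • w') x₀ ∈ V` for all `c`, contradiction with `hV`. Otherwise let `z₁` be one of maximal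
valuation; sharpness of `j` for `z₁⁻¹ • w'` gives `z₁⁻¹ ∈ V`, contradiction.) -/
theorem sign_twist (V : ValuationSubring ℂ) (hV : (2 : ℂ)⁻¹ ∉ V)
    (hΩ : Nonempty (Ω ≃ Cel (stair k))) (p : WW Ω)
    {W : Type} [AddCommGroup W] [Module ℂ W] (σ : Representation ℂ (Perm Ω) W)
    (hG : Good (vAdd V) (stair k) p σ) : Good (vAdd V) (stair k) p (sgnTwist σ) := by
  obtain ⟨t₀⟩ := hΩ
  obtain ⟨j, hinj, hequi, hmem, hsharp⟩ := hG
  refine ⟨(th2 t₀).comp j, ?_, ?_, fun w => th2_mem t₀ _ (hmem w), ?_⟩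
  · -- injectivity
    obtain ⟨c, hc, hcc⟩ := th2_th2 (Ω := Ω) t₀
    have hc0 : (c : ℂ) ≠ 0 := by
      intro h
      have : c = 0 := by exact_mod_cast h
      rw [this] at hc
      exact absurd hc (by decide)
    rw [← LinearMap.ker_eq_bot, LinearMap.ker_eq_bot']
    intro w hw
    rw [LinearMap.comp_apply] at hw
    have h1 : ∀ x, j w x = 0 := by
      intro x
      have h2 := hcc (j w) (hmem w) x
      rw [hw, map_zero, Pi.zero_apply] at h2
      exact (mul_eq_zero.1 h2.symm).resolve_left hc0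
    exact (LinearMap.ker_eq_bot'.1 (LinearMap.ker_eq_bot.2 hinj)) w (funext h1)
  · -- equivariance
    intro g w x
    rw [sgnTwist_apply, map_smul, Pi.smul_apply, LinearMap.comp_apply, LinearMap.comp_apply]
    have h1 : j (σ g w) = fun x => j w (pull g x) := funext fun x => hequi g w x
    rw [h1, th2_pull, smul_eq_mul, ← mul_assoc, ← Int.cast_mul, ← Units.val_mul,
      Int.units_mul_self]
    simp
  · -- sharpness
    intro w hw
    by_cases hA : ∀ x, j w x ∈ V
    · intro x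
      exact th2_mem_V V t₀ _ hA x
    exfalso
    push Not at hA
    obtain ⟨x₁, hx₁⟩ := hA
    -- finite support
    have hfin : {x : WW Ω | j w x ≠ 0}.Finite := by
      have h1 : {x : WW Ω | j w x ≠ 0} ⊆ (Set.range fun q : (Ω → Fin k) × (Ω → Fin k) =>
          ((kw q.1, kw q.2) : WW Ω)) := by
        intro x hx
        obtain ⟨h1, h2⟩ := VV_bdd (hmem w) (n := k) (fun i => i.is_lt) hx
        exact ⟨(fun a => ⟨x.1 a, h1 a⟩, fun a => ⟨x.2 a, h2 a⟩), rfl⟩
      exact (Set.finite_range _).subset h1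
    obtain ⟨x₀, hx₀, hmax⟩ := exists_max_val V (j w) hfin.toFinset
      (fun x hx => hfin.mem_toFinset.2 hx) ⟨x₁, fun h => hx₁ (by rw [h]; exact V.zero_mem)⟩
    set z₀ := j w x₀ with hz₀
    have hz₀V : z₀ ∉ V := by
      intro h
      apply hx₁
      have e : j w x₁ = j w x₁ / z₀ * z₀ := by field_simp
      rw [e]
      exact V.mul_mem _ _ (hmax x₁) h
    have hz₀i : z₀⁻¹ ∈ V := (V.mem_or_inv_mem z₀).resolve_left hz₀V
    set w' := z₀⁻¹ • w with hw'
    have hF : ∀ x, j w' x = j w x / z₀ := by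
      intro x
      rw [hw', map_smul, Pi.smul_apply, smul_eq_mul, div_eq_inv_mul]
    have hFV : ∀ x, j w' x ∈ V := fun x => by
      rw [hF]
      exact hmax x
    have hF0 : j w' x₀ = 1 := by
      rw [hF, ← hz₀, div_self hx₀]
    -- the values of `j w'` on the orbit are non-units
    have hnon : ∀ g, j w' (pull g p) = 0 ∨ (j w' (pull g p))⁻¹ ∉ V := by
      intro g
      obtain ⟨z, hz, hz2⟩ := th2_congr V hV t₀ (j w') (hmem w') hFV (pull g p)
      have e1 : th2 t₀ (j w') (pull g p) = z₀⁻¹ * (th2 t₀ (j w) (pull g p)) := by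
        rw [hw', map_smul, map_smul, Pi.smul_apply, smul_eq_mul]
      have hb : th2 t₀ (j w) (pull g p) ∈ V := hw g
      have e2 : j w' (pull g p) = z₀⁻¹ * (th2 t₀ (j w) (pull g p)) + 2 * (-z) := by
        rw [← e1, hz2]
        ring
      rw [e2]
      refine nonunit_add (V.mul_mem _ _ hz₀i hb)
        (V.mul_mem _ _ (by exact_mod_cast (intCast_mem V 2)) (V.neg_mem _ hz)) ?_ ?_
      · by_cases h0 : th2 t₀ (j w) (pull g p) = 0
        · left
          rw [h0, mul_zero]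
        · right
          intro h
          apply hz₀V
          have e3 : z₀ = (z₀⁻¹ * th2 t₀ (j w) (pull g p))⁻¹ * th2 t₀ (j w) (pull g p) := by
            field_simp
          rw [e3]
          exact V.mul_mem _ _ h hb
      · by_cases h0 : z = 0
        · left
          rw [h0]
          ring
        · right
          exact two_mul_nonunit hV (V.neg_mem _ hz) (neg_ne_zero.2 h0)
    by_cases hall : ∀ g, j w' (pull g p) = 0
    · have h1 := hsharp ((2 : ℂ)⁻¹ • w') (fun g => by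
        rw [map_smul, Pi.smul_apply, hall g, smul_zero]
        exact V.zero_mem) x₀
      rw [map_smul, Pi.smul_apply, hF0, smul_eq_mul, mul_one] at h1
      exact hV h1
    · push Not at hall
      obtain ⟨g₁, hg₁, hmax₁⟩ := exists_max_val V (fun g : Perm Ω => j w' (pull g p))
        Finset.univ (fun g _ => Finset.mem_univ g) hall
      have h1 := hsharp ((j w' (pull g₁ p))⁻¹ • w') (fun g => by
        rw [map_smul, Pi.smul_apply, smul_eq_mul, ← div_eq_inv_mul]
        exact hmax₁ g) x₀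
      rw [map_smul, Pi.smul_apply, hF0, smul_eq_mul, mul_one] at h1
      exact ((hnon g₁).resolve_left hg₁) h1

end Crest.Agent.SX
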