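import Crest.Agent.SX_Thr
import Crest.Agent.SX_Mul

/-!
# S0297, task SX-StepA: the abstract induction step
-/

set_option autoImplicit false

namespace Crest.Agent.SX

open Equiv Equiv.Perm TensorProduct

/-- Averages of functions constant on the cosets of a subgroup. -/
private theorem stepA_avg {G : Type} [Group G] [Fintype G] (H : Subgroup G) (R : AddSubgroup ℂ)
    (t : G → ℂ) (ht : ∀ g, ∀ m ∈ H, t (g * m) = t g) (hR : ∀ g, t g ∈ R) :
    ((Nat.card H : ℂ))⁻¹ * ∑ g, t g ∈ R := by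
  classical
  have hcard : (Nat.card H : ℂ) ≠ 0 := by
    exact_mod_cast (Nat.card_pos (α := H)).ne'
  have h1 : ∑ g, t g = ∑ c : G ⧸ H, (Nat.card H : ℂ) * t c.out := by
    rw [← Finset.sum_fiberwise (s := Finset.univ) (g := fun g : G => (g : G ⧸ H)) (f := t)]
    refine Finset.sum_congr rfl fun c _ => ?_
    have h2 : ∑ g ∈ Finset.univ.filter (fun g : G => (g : G ⧸ H) = c), t g =
        ∑ m : H, t (c.out * m) := by
      refine Finset.sum_bij' (fun g _ => if hg : c.out⁻¹ * g ∈ H then (⟨c.out⁻¹ * g, hg⟩ : H) else 1)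
        (fun m _ => c.out * m) ?_ ?_ ?_ ?_ ?_
      · intro g _
        exact Finset.mem_univ _
      · intro m _
        rw [Finset.mem_filter]
        refine ⟨Finset.mem_univ _, ?_⟩
        rw [QuotientGroup.mk_mul_of_mem _ m.2, QuotientGroup.out_eq']
      · intro g hg
        rw [Finset.mem_filter] at hg
        have h3 : c.out⁻¹ * g ∈ H := by
          rw [← QuotientGroup.eq, QuotientGroup.out_eq', hg.2]
        simp only [h3, dif_pos, mul_inv_cancel_left]
      · intro m _
        have h3 : c.out⁻¹ * (c.out * (m : G)) ∈ H := by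
          rw [inv_mul_cancel_left]
          exact m.2
        rw [dif_pos h3]
        ext
        simp
      · intro g hg
        rw [Finset.mem_filter] at hg
        have h3 : c.out⁻¹ * g ∈ H := by
          rw [← QuotientGroup.eq, QuotientGroup.out_eq', hg.2]
        simp only [h3, dif_pos, mul_inv_cancel_left]
    rw [h2]
    rw [Finset.sum_congr rfl (fun (m : H) _ => ht c.out m m.2), Finset.sum_const, nsmul_eq_mul,
      Finset.card_univ, Nat.card_eq_fintype_card]
  rw [h1, ← Finset.mul_sum, ← mul_assoc, inv_mul_cancel₀ hcard, one_mul]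
  exact AddSubgroup.sum_mem _ fun c _ => hR _

variable {A B ι κ : Type} [Fintype A] [DecidableEq A] [Fintype B] [DecidableEq B]
  [Fintype ι] [Fintype κ]

/-- ABSTRACT INDUCTION STEP. `q` is equivariant for the block permutations, supported on the `x`
with left weight `2 wt h`; `p` separates the left and the right letters. Then
`j w = |H|⁻¹ ∑_{g} g q (g⁻¹ w)` (`H` = block permutations) does the job:
`j w x = |H|⁻¹ ∑_g q (σ g⁻¹ w) (pull g x)`. For `x = pull h p`: if the term of `g` is `≠ 0`, the left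
weight of `pull g (pull h p) = pull (h * g) p` is `2 wt h`, so `h * g` is a block permutation by
`threshold_perm`, and the term is `q (σ h w) p` (use `σ g⁻¹ = σ (h g)⁻¹ σ h` and equivariance), and
the number of such `g` is `|H|`; so `j w (pull h p) = q (σ h w) p`. Sharpness: if all
`j w (pull h p) ∈ R` then for each `g'`, `w' = σ g' w`: `q w' (pull (block) p) = q (σ block w') p ∈ R`,
hence `q w' x ∈ R` for all `x`; and `j w x` is a sum over the cosets `g H` of
`q (σ g⁻¹ w) (pull g x)` (the terms are constant on cosets), in `R`. -/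
theorem step_abs (h : ι → ℕ) (h' : κ → ℕ) (R : AddSubgroup ℂ) (θ : ℕ) (p : WW (A ⊕ B))
    (hpA : ∀ a, θ ≤ p.1 (Sum.inl a) + p.2 (Sum.inl a))
    (hpB : ∀ b, p.1 (Sum.inr b) + p.2 (Sum.inr b) < θ)
    (hpw : ∑ a, (p.1 (Sum.inl a) + p.2 (Sum.inl a)) = 2 * wt h)
    {W : Type} [AddCommGroup W] [Module ℂ W] (σ : Representation ℂ (Perm (A ⊕ B)) W)
    (hσ : σ.IsIrreducible) (q : W →ₗ[ℂ] (WW (A ⊕ B) → ℂ))
    (hq : ∀ g₁ g₂ w x, q (σ (Perm.sumCongr g₁ g₂) w) x = q w (pull (Perm.sumCongr g₁ g₂) x))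
    (hqV : ∀ w, q w ∈ VV (Ω := A ⊕ B) (Sum.elim h h'))
    (hqs : ∀ w x, q w x ≠ 0 → ∑ a, (x.1 (Sum.inl a) + x.2 (Sum.inl a)) = 2 * wt h)
    (hqR : ∀ w, (∀ g₁ g₂, q w (pull (Perm.sumCongr g₁ g₂) p) ∈ R) → ∀ x, q w x ∈ R)
    (hqp : ∃ w, q w p ≠ 0) : Good R (Sum.elim h h') p σ := by
  classical
  -- the subgroup of block permutations
  let H : Subgroup (Perm (A ⊕ B)) := (sumCongrHom A B).range
  have hHmem : ∀ m, m ∈ H ↔ ∃ (g₁ : Perm A) (g₂ : Perm B), m = Perm.sumCongr g₁ g₂ := by
    intro m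
    constructor
    · rintro ⟨⟨g₁, g₂⟩, rfl⟩
      exact ⟨g₁, g₂, rfl⟩
    · rintro ⟨g₁, g₂, rfl⟩
      exact ⟨(g₁, g₂), rfl⟩
  have hqH : ∀ m ∈ H, ∀ w x, q (σ m w) x = q w (pull m x) := by
    intro m hm w x
    obtain ⟨g₁, g₂, rfl⟩ := (hHmem m).1 hm
    exact hq g₁ g₂ w x
  have hcard : (Nat.card H : ℂ) ≠ 0 := by
    exact_mod_cast (Nat.card_pos (α := H)).ne'
  -- the averaged map
  let j : W →ₗ[ℂ] (WW (A ⊕ B) → ℂ) :=
    { toFun := fun w x => (Nat.card H : ℂ)⁻¹ * ∑ g : Perm (A ⊕ B), q (σ g⁻¹ w) (pull g x)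
      map_add' := by
        intro w w'
        funext x
        simp only [map_add, Pi.add_apply, Finset.sum_add_distrib, mul_add]
      map_smul' := by
        intro c w
        funext x
        simp only [map_smul, Pi.smul_apply, smul_eq_mul, RingHom.id_apply]
        rw [← Finset.mul_sum]
        ring }
  have hj : ∀ w x, j w x = (Nat.card H : ℂ)⁻¹ * ∑ g : Perm (A ⊕ B), q (σ g⁻¹ w) (pull g x) :=
    fun w x => rfl
  -- equivariance
  have hje : ∀ g w x, j (σ g w) x = j w (pull g x) := by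
    intro g₀ w x
    rw [hj, hj]
    congr 1
    refine Fintype.sum_equiv (Equiv.mulLeft g₀⁻¹) _ _ fun g => ?_
    have e1 : σ g⁻¹ (σ g₀ w) = σ (g₀⁻¹ * g)⁻¹ w := by
      rw [mul_inv_rev, inv_inv, map_mul]
      rfl
    have e2 : pull (g₀⁻¹ * g) (pull g₀ x) = pull g x := by
      rw [← pull_mul, mul_inv_cancel_left]
    simp only [Equiv.coe_mulLeft]
    rw [e1, e2]
  -- values on the orbit of `p`
  have hjp : ∀ k w, j w (pull k p) = q (σ k w) p := by
    intro k w
    rw [hj]
    have key : ∀ m : Perm (A ⊕ B), q (σ m⁻¹ (σ k w)) (pull m p) =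
        if m ∈ H then q (σ k w) p else 0 := by
      intro m
      by_cases hm : m ∈ H
      · rw [if_pos hm, ← hqH m hm, ← Module.End.mul_apply, ← map_mul, mul_inv_cancel, map_one]
        rfl
      · rw [if_neg hm]
        by_contra hne
        have h1 := hqs _ _ hne
        apply hm
        rw [hHmem]
        refine threshold_perm (fun x => p.1 x + p.2 x) θ hpA hpB m ?_
        rw [hpw, ← h1]
        rfl
    have e1 : ∑ g : Perm (A ⊕ B), q (σ g⁻¹ w) (pull g (pull k p)) =
        ∑ m : Perm (A ⊕ B), if m ∈ H then q (σ k w) p else 0 := by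
      refine Fintype.sum_equiv (Equiv.mulLeft k) _ _ fun g => ?_
      rw [← key, ← pull_mul, Equiv.coe_mulLeft]
      have e2 : σ g⁻¹ w = σ (k * g)⁻¹ (σ k w) := by
        have : g⁻¹ = (k * g)⁻¹ * k := by group
        rw [this, map_mul]
        rfl
      rw [e2]
    rw [e1, Finset.sum_ite, Finset.sum_const_zero, add_zero, Finset.sum_const, nsmul_eq_mul]
    have e3 : (Finset.univ.filter (fun m : Perm (A ⊕ B) => m ∈ H)).card = Nat.card H := by
      rw [Nat.card_eq_fintype_card, ← Fintype.card_subtype]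
    rw [e3, ← mul_assoc, inv_mul_cancel₀ hcard, one_mul]
  refine ⟨j, ?_, hje, ?_, ?_⟩
  · refine injective_of_irr σ hσ j hje ?_
    intro h0
    obtain ⟨w, hw⟩ := hqp
    apply hw
    have h1 := hjp 1 w
    rw [h0] at h1
    simpa using h1.symm
  · intro w
    have e1 : j w = (Nat.card H : ℂ)⁻¹ • ∑ g : Perm (A ⊕ B), fun x => q (σ g⁻¹ w) (pull g x) := by
      funext x
      rw [hj, Pi.smul_apply, Finset.sum_apply, smul_eq_mul]
    rw [e1]
    exact Submodule.smul_mem _ _ (Submodule.sum_mem _ fun g _ => VV_pull (hqV _) g)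
  · intro w hw x
    have h1 : ∀ g' x, q (σ g' w) x ∈ R := by
      intro g' x
      refine hqR _ ?_ x
      intro g₁ g₂
      rw [← hq, ← Module.End.mul_apply, ← map_mul, ← hjp]
      exact hw _
    rw [hj]
    refine stepA_avg H R _ ?_ fun g => h1 _ _
    intro g m hm
    rw [pull_mul, ← hqH m hm, ← Module.End.mul_apply, ← map_mul]
    have : m * (g * m)⁻¹ = g⁻¹ := by group
    rw [this]

end Crest.Agent.SX
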