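import Crest.Agent.SX_StepQ
import Crest.Agent.SX_StepA

/-!
# S0297, the induction step (threshold theorem), assembled
-/

set_option autoImplicit false

namespace Crest.Agent.SX

open Equiv Equiv.Perm TensorProduct

variable {A B ι κ : Type} [Fintype A] [DecidableEq A] [Fintype B] [DecidableEq B]
  [Fintype ι] [Fintype κ]

/-- THE INDUCTION STEP (threshold theorem). -/
theorem step_gen (h : ι → ℕ) (h' : κ → ℕ) (R : AddSubgroup ℂ) (hR : R ≠ ⊤) (θ : ℕ)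
    (p : WW (A ⊕ B))
    (hpA : ∀ a, θ ≤ p.1 (Sum.inl a) + p.2 (Sum.inl a))
    (hpB : ∀ b, p.1 (Sum.inr b) + p.2 (Sum.inr b) < θ)
    (hpw : ∑ a, (p.1 (Sum.inl a) + p.2 (Sum.inl a)) = 2 * wt h)
    {W U₁ U₂ : Type} [AddCommGroup W] [Module ℂ W]
    [AddCommGroup U₁] [Module ℂ U₁] [FiniteDimensional ℂ U₁]
    [AddCommGroup U₂] [Module ℂ U₂] [FiniteDimensional ℂ U₂]
    (σ : Representation ℂ (Perm (A ⊕ B)) W) (hσ : σ.IsIrreducible)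
    (τ₁ : Representation ℂ (Perm A) U₁) (τ₂ : Representation ℂ (Perm B) U₂)
    (h1 : Good R h (resl p) τ₁) (h2 : Good R h' (resr p) τ₂)
    (F : W →ₗ[ℂ] U₁ ⊗[ℂ] U₂) (hF0 : F ≠ 0)
    (hF : ∀ g₁ g₂ w, F (σ (Perm.sumCongr g₁ g₂) w) = TensorProduct.map (τ₁ g₁) (τ₂ g₂) (F w)) :
    Good R (Sum.elim h h') p σ := by
  obtain ⟨j₁, hj1, he1, hm1, hs1⟩ := h1
  obtain ⟨j₂, hj2, he2, hm2, hs2⟩ := h2
  have hR' : ∃ y : ℂ, y ∉ R := by
    by_contra hc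
    push Not at hc
    exact hR (by ext y; simp [hc y])
  obtain ⟨y, hy⟩ := hR'
  have hsharp := qmap_sharp R p j₁ j₂ F hs1 hs2
  refine step_abs h h' R θ p hpA hpB hpw σ hσ (qmap j₁ j₂ F)
    (qmap_equiv σ τ₁ τ₂ j₁ j₂ F he1 he2 hF) (qmap_mem j₁ j₂ F hm1 hm2)
    (qmap_supp j₁ j₂ F hm1) hsharp ?_
  obtain ⟨w, hw⟩ : ∃ w, F w ≠ 0 := by
    by_contra hc
    push Not at hc
    exact hF0 (LinearMap.ext hc)
  obtain ⟨x, hx⟩ := qmap_ne_zero j₁ j₂ F hj1 hj2 w hw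
  by_contra hc
  push Not at hc
  have := hsharp ((y / qmap j₁ j₂ F w x) • w) (fun g₁ g₂ => by
    rw [← qmap_equiv σ τ₁ τ₂ j₁ j₂ F he1 he2 hF, hc]
    exact R.zero_mem) x
  rw [map_smul, Pi.smul_apply, smul_eq_mul, div_mul_cancel₀ _ hx] at this
  exact hy this

end Crest.Agent.SX
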