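import Crest.Agent.SX_T0

/-!
# S0297, task SX-T2: the value of `eps2` at the row word of `t₀`, and of `Θ` on the diagonal
-/

set_option autoImplicit false

namespace Crest.Agent.SX

open Equiv Equiv.Perm

variable {A : Type} [Fintype A] [DecidableEq A] {k : ℕ}

private theorem cel_ext {a b : Cel (two k)} (h1 : a.1 = b.1) (h2 : (a.2 : ℕ) = (b.2 : ℕ)) :
    a = b := by
  obtain ⟨a1, a2⟩ := a
  obtain ⟨b1, b2⟩ := b
  simp only at h1
  subst h1
  simp only at h2
  rw [Fin.ext h2]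

omit [Fintype A] [DecidableEq A] in
private theorem t_c0 (t₀ : A ≃ Cel (two k)) (i : Fin (k + 1)) :
    (t₀ (c0 t₀ i)).1 = false ∧ ((t₀ (c0 t₀ i)).2 : ℕ) = i := by
  unfold c0; rw [Equiv.apply_symm_apply]; exact ⟨rfl, rfl⟩

omit [Fintype A] [DecidableEq A] in
private theorem t_c1 (t₀ : A ≃ Cel (two k)) (i : Fin (k + 1)) :
    (t₀ (c1 t₀ i)).1 = true ∧ ((t₀ (c1 t₀ i)).2 : ℕ) = i := by
  unfold c1; rw [Equiv.apply_symm_apply]; exact ⟨rfl, rfl⟩

omit [Fintype A] [DecidableEq A] in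
private theorem t_cs (t₀ : A ≃ Cel (two k)) :
    (t₀ (cs t₀)).1 = false ∧ ((t₀ (cs t₀)).2 : ℕ) = k + 1 := by
  unfold cs; rw [Equiv.apply_symm_apply]; exact ⟨rfl, rfl⟩

omit [Fintype A] [DecidableEq A] in
private theorem cases_A (t₀ : A ≃ Cel (two k)) (x : A) :
    (∃ i, x = c0 t₀ i) ∨ (∃ i, x = c1 t₀ i) ∨ x = cs t₀ := by
  obtain ⟨c, hc⟩ : ∃ c, t₀ x = c := ⟨_, rfl⟩
  obtain ⟨b, j⟩ := c
  cases b with
  | true =>
    right; left
    have hj : (j : ℕ) < k + 1 := j.2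
    refine ⟨⟨j, hj⟩, ?_⟩
    apply t₀.injective
    refine cel_ext ?_ ?_
    · rw [hc, (t_c1 t₀ _).1]
    · rw [hc, (t_c1 t₀ _).2]
  | false =>
    have hj : (j : ℕ) < k + 2 := j.2
    rcases Nat.lt_or_ge (j : ℕ) (k + 1) with h | h
    · left
      refine ⟨⟨j, h⟩, ?_⟩
      apply t₀.injective
      refine cel_ext ?_ ?_
      · rw [hc, (t_c0 t₀ _).1]
      · rw [hc, (t_c0 t₀ _).2]
    · right; right
      apply t₀.injective
      refine cel_ext ?_ ?_
      · rw [hc, (t_cs t₀).1]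
      · rw [hc, (t_cs t₀).2]
        show (j : ℕ) = k + 1
        omega

omit [Fintype A] [DecidableEq A] in
private theorem c0_inj (t₀ : A ≃ Cel (two k)) {i j : Fin (k + 1)} (h : c0 t₀ i = c0 t₀ j) :
    i = j := by
  have h1 := (t_c0 t₀ i).2
  have h2 := (t_c0 t₀ j).2
  rw [h] at h1
  exact Fin.ext (h1.symm.trans h2)

omit [Fintype A] [DecidableEq A] in
private theorem c1_inj (t₀ : A ≃ Cel (two k)) {i j : Fin (k + 1)} (h : c1 t₀ i = c1 t₀ j) :
    i = j := by
  have h1 := (t_c1 t₀ i).2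
  have h2 := (t_c1 t₀ j).2
  rw [h] at h1
  exact Fin.ext (h1.symm.trans h2)

omit [Fintype A] [DecidableEq A] in
private theorem c0_ne_c1 (t₀ : A ≃ Cel (two k)) (i j : Fin (k + 1)) : c0 t₀ i ≠ c1 t₀ j := by
  intro h
  have h1 := (t_c0 t₀ i).1
  have h2 := (t_c1 t₀ j).1
  rw [h, h2] at h1
  exact absurd h1 (by decide)

omit [Fintype A] [DecidableEq A] in
private theorem c0_ne_cs (t₀ : A ≃ Cel (two k)) (i : Fin (k + 1)) : c0 t₀ i ≠ cs t₀ := by
  intro h
  have h1 := (t_c0 t₀ i).2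
  have h2 := (t_cs t₀).2
  rw [h, h2] at h1
  have := i.2
  omega

omit [Fintype A] [DecidableEq A] in
private theorem c1_ne_cs (t₀ : A ≃ Cel (two k)) (i : Fin (k + 1)) : c1 t₀ i ≠ cs t₀ := by
  intro h
  have h1 := (t_c1 t₀ i).1
  have h2 := (t_cs t₀).1
  rw [h, h2] at h1
  exact absurd h1 (by decide)

private theorem exists_perm (t₀ : A ≃ Cel (two k)) (S : Finset (Fin (k + 1))) :
    ∃ g : Perm A, (sign g : ℤ) = ∏ i, (if i ∈ S then (-1 : ℤ) else 1) ∧
      (∀ i, g (c0 t₀ i) = if i ∈ S then c1 t₀ i else c0 t₀ i) ∧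
      (∀ i, g (c1 t₀ i) = if i ∈ S then c0 t₀ i else c1 t₀ i) ∧ g (cs t₀) = cs t₀ := by
  induction S using Finset.induction_on with
  | empty => exact ⟨1, by simp, by simp, by simp, by simp⟩
  | insert a S ha ih =>
    obtain ⟨g, h1, h2, h3, h4⟩ := ih
    refine ⟨swap (c0 t₀ a) (c1 t₀ a) * g, ?_, ?_, ?_, ?_⟩
    · rw [Perm.sign_mul, sign_swap (c0_ne_c1 t₀ a a), Units.val_mul, h1]
      rw [← Finset.mul_prod_erase Finset.univ _ (Finset.mem_univ a),
        ← Finset.mul_prod_erase Finset.univ (fun i => if i ∈ insert a S then (-1 : ℤ) else 1)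
          (Finset.mem_univ a)]
      rw [if_neg ha, if_pos (Finset.mem_insert_self a S)]
      have : ∏ x ∈ Finset.univ.erase a, (if x ∈ S then (-1 : ℤ) else 1) =
          ∏ x ∈ Finset.univ.erase a, (if x ∈ insert a S then (-1 : ℤ) else 1) := by
        refine Finset.prod_congr rfl fun x hx => ?_
        have hxa : x ≠ a := Finset.ne_of_mem_erase hx
        simp [Finset.mem_insert, hxa]
      rw [this]
      simp
    · intro i
      rw [Perm.mul_apply, h2]
      by_cases hia : i = a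
      · subst hia
        rw [if_neg ha, swap_apply_left, if_pos (Finset.mem_insert_self _ _)]
      · have e : (i ∈ insert a S) ↔ i ∈ S := by simp [Finset.mem_insert, hia]
        simp only [e]
        split_ifs
        · exact swap_apply_of_ne_of_ne (c0_ne_c1 t₀ a i).symm (fun h => hia (c1_inj t₀ h))
        · exact swap_apply_of_ne_of_ne (fun h => hia (c0_inj t₀ h)) (c0_ne_c1 t₀ i a)
    · intro i
      rw [Perm.mul_apply, h3]
      by_cases hia : i = a
      · subst hia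
        rw [if_neg ha, swap_apply_right, if_pos (Finset.mem_insert_self _ _)]
      · have e : (i ∈ insert a S) ↔ i ∈ S := by simp [Finset.mem_insert, hia]
        simp only [e]
        split_ifs
        · exact swap_apply_of_ne_of_ne (fun h => hia (c0_inj t₀ h)) (c0_ne_c1 t₀ i a)
        · exact swap_apply_of_ne_of_ne (c0_ne_c1 t₀ a i).symm (fun h => hia (c1_inj t₀ h))
    · rw [Perm.mul_apply, h4]
      exact swap_apply_of_ne_of_ne (c0_ne_cs t₀ a).symm (c1_ne_cs t₀ a).symm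

theorem eps2_diag (t₀ : A ≃ Cel (two k)) (u : A → Bool) :
    eps2 t₀ u (rowW t₀) = (if u (cs t₀) = false then 1 else 0) *
      ∏ i, eb (u (c0 t₀ i)) (u (c1 t₀ i)) := by
  classical
  unfold eps2 rowW
  by_cases hcs : u (cs t₀) = false
  swap
  · rw [if_neg hcs, zero_mul]
    refine Finset.sum_eq_zero fun g _ => if_neg ?_
    rintro ⟨h1, h2⟩
    have e1 := h1 (cs t₀)
    have e2 := h2 (cs t₀)
    rw [(t_cs t₀).2] at e2
    have hu : u (cs t₀) = true := by simpa using hcs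
    rw [hu] at e1
    obtain ⟨c, hc⟩ : ∃ c, t₀ (g (cs t₀)) = c := ⟨_, rfl⟩
    rw [hc] at e1 e2
    obtain ⟨b, j⟩ := c
    simp only at e1 e2
    subst e1
    have hj : (j : ℕ) < k + 1 := j.2
    omega
  rw [if_pos hcs, one_mul]
  by_cases hne : ∀ i, u (c0 t₀ i) ≠ u (c1 t₀ i)
  swap
  · push Not at hne
    obtain ⟨i, hi⟩ := hne
    have hz : ∏ i, eb (u (c0 t₀ i)) (u (c1 t₀ i)) = 0 := by
      refine Finset.prod_eq_zero (Finset.mem_univ i) ?_
      rw [hi]
      cases u (c1 t₀ i) <;> rfl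
    rw [hz]
    refine Finset.sum_eq_zero fun g _ => if_neg ?_
    rintro ⟨h1, h2⟩
    have : t₀ (g (c0 t₀ i)) = t₀ (g (c1 t₀ i)) := by
      refine cel_ext ?_ ?_
      · rw [← h1, ← h1, hi]
      · rw [← h2, ← h2, (t_c0 t₀ i).2, (t_c1 t₀ i).2]
    exact c0_ne_c1 t₀ i i (g.injective (t₀.injective this))
  obtain ⟨g, hg1, hg2, hg3, hg4⟩ := exists_perm t₀ (Finset.univ.filter fun i => u (c0 t₀ i) = true)
  have hcond : (∀ x, u x = (t₀ (g x)).1) ∧ ∀ x, ((t₀ x).2 : ℕ) = ((t₀ (g x)).2 : ℕ) := by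
    refine ⟨fun x => ?_, fun x => ?_⟩
    · rcases cases_A t₀ x with ⟨i, rfl⟩ | ⟨i, rfl⟩ | rfl
      · rw [hg2]
        split_ifs with h
        · rw [(t_c1 t₀ i).1]; simpa using h
        · rw [(t_c0 t₀ i).1]; simpa using h
      · rw [hg3]
        have hn := hne i
        split_ifs with h
        · rw [(t_c0 t₀ i).1]
          have h' : u (c0 t₀ i) = true := by simpa using h
          rw [h'] at hn
          revert hn
          cases u (c1 t₀ i) <;> simp
        · rw [(t_c1 t₀ i).1]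
          have h' : u (c0 t₀ i) = false := by simpa using h
          rw [h'] at hn
          revert hn
          cases u (c1 t₀ i) <;> simp
      · rw [hg4, (t_cs t₀).1, hcs]
    · rcases cases_A t₀ x with ⟨i, rfl⟩ | ⟨i, rfl⟩ | rfl
      · by_cases h : i ∈ Finset.univ.filter fun i => u (c0 t₀ i) = true
        · rw [hg2, if_pos h, (t_c1 t₀ i).2, (t_c0 t₀ i).2]
        · rw [hg2, if_neg h]
      · by_cases h : i ∈ Finset.univ.filter fun i => u (c0 t₀ i) = true
        · rw [hg3, if_pos h, (t_c1 t₀ i).2, (t_c0 t₀ i).2]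
        · rw [hg3, if_neg h]
      · rw [hg4]
  rw [Finset.sum_eq_single g]
  · rw [if_pos hcond, hg1]
    refine Finset.prod_congr rfl fun i _ => ?_
    have hn := hne i
    by_cases h : u (c0 t₀ i) = true
    · rw [if_pos (by simpa using h)]
      rw [h] at hn ⊢
      revert hn
      cases u (c1 t₀ i) <;> simp [eb]
    · rw [if_neg (by simpa using h)]
      have h' : u (c0 t₀ i) = false := by simpa using h
      rw [h'] at hn ⊢
      revert hn
      cases u (c1 t₀ i) <;> simp [eb]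
  · intro g' _ hg'
    refine if_neg ?_
    rintro ⟨h1, h2⟩
    refine hg' (Equiv.ext fun x => t₀.injective (cel_ext ?_ ?_))
    · rw [← h1, hcond.1]
    · rw [← h2, hcond.2]
  · intro h
    exact absurd (Finset.mem_univ g) h

omit [DecidableEq A] in
private theorem prod_A (t₀ : A ≃ Cel (two k)) (φ : A → ℤ) :
    ∏ a, φ a = (∏ i, φ (c0 t₀ i) * φ (c1 t₀ i)) * φ (cs t₀) := by
  rw [← Equiv.prod_comp t₀.symm φ, Fintype.prod_sigma, Fintype.prod_bool]
  have h1 : ∏ y : Fin (two k true), φ (t₀.symm ⟨true, y⟩) = ∏ i, φ (c1 t₀ i) := rfl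
  have h2 : ∏ y : Fin (two k false), φ (t₀.symm ⟨false, y⟩) = (∏ i, φ (c0 t₀ i)) * φ (cs t₀) := by
    show ∏ y : Fin (k + 2), φ (t₀.symm ⟨false, y⟩) = _
    rw [Fin.prod_univ_castSucc]
    rfl
  rw [h1, h2, Finset.prod_mul_distrib]
  ring

/-- values of two words on the letters. -/
private def spl (t₀ : A ≃ Cel (two k)) (p : (A → Bool) × (A → Bool)) :
    (Fin (k + 1) → (Bool × Bool) × (Bool × Bool)) × (Bool × Bool) :=
  (fun i => ((p.1 (c0 t₀ i), p.2 (c0 t₀ i)), (p.1 (c1 t₀ i), p.2 (c1 t₀ i))),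
    (p.1 (cs t₀), p.2 (cs t₀)))

omit [Fintype A] [DecidableEq A] in
private theorem spl_inj (t₀ : A ≃ Cel (two k)) : Function.Injective (spl t₀) := by
  rintro ⟨u, u'⟩ ⟨v, v'⟩ h
  simp only [spl, Prod.mk.injEq] at h
  obtain ⟨h1, h2, h3⟩ := h
  have h4 := fun i => congrFun h1 i
  simp only [Prod.mk.injEq] at h4
  refine Prod.ext ?_ ?_
  · funext x
    rcases cases_A t₀ x with ⟨i, rfl⟩ | ⟨i, rfl⟩ | rfl
    · exact (h4 i).1.1
    · exact (h4 i).2.1
    · exact h2
  · funext x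
    rcases cases_A t₀ x with ⟨i, rfl⟩ | ⟨i, rfl⟩ | rfl
    · exact (h4 i).1.2
    · exact (h4 i).2.2
    · exact h3

private theorem spl_bij (t₀ : A ≃ Cel (two k)) : Function.Bijective (spl t₀) := by
  rw [Fintype.bijective_iff_injective_and_card]
  refine ⟨spl_inj t₀, ?_⟩
  have hA : Fintype.card A = 2 * k + 3 := by
    rw [Fintype.card_congr t₀, Fintype.card_sigma, Fintype.sum_bool]
    simp only [Fintype.card_fin]
    show (k + 1) + (k + 2) = 2 * k + 3
    ring
  simp only [Fintype.card_prod, Fintype.card_fun, Fintype.card_bool, Fintype.card_fin, hA]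
  have : (2 * 2 * (2 * 2) : ℕ) ^ (k + 1) = 2 ^ (4 * (k + 1)) := by
    rw [pow_mul]; norm_num
  rw [this, show (2 * 2 : ℕ) = 2 ^ 2 by norm_num, ← pow_add, ← pow_add]
  congr 1
  ring

/-- Sums of products over the letters, arranged by pairs `c0 i`, `c1 i` and the single letter `cs`
(the letters are the disjoint union of `{c0 i}`, `{c1 i}`, `{cs}`; `Finset.prod_univ_sum` /
`Fintype.piFinset`, or reindex `A → Bool` by `(Fin (k+1) → Bool × Bool) × Bool`). -/
theorem Tht_sum (t₀ : A ≃ Cel (two k)) (r : A → Fin 4) :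
    (∑ u : A → Bool, ∑ u' : A → Bool, (∏ a, Dm (r a) (u a) (u' a)) *
      ((if u (cs t₀) = false then 1 else 0) * ∏ i, eb (u (c0 t₀ i)) (u (c1 t₀ i))) *
      ((if u' (cs t₀) = false then 1 else 0) * ∏ i, eb (u' (c0 t₀ i)) (u' (c1 t₀ i)))) =
    (∏ i, if r (c0 t₀ i) = r (c1 t₀ i) then cc (r (c0 t₀ i)) else 0) *
      Dm (r (cs t₀)) false false := by
  classical
  let G : Fin (k + 1) → (Bool × Bool) × (Bool × Bool) → ℤ := fun i p =>
    Dm (r (c0 t₀ i)) p.1.1 p.1.2 * Dm (r (c1 t₀ i)) p.2.1 p.2.2 * (eb p.1.1 p.2.1 * eb p.1.2 p.2.2)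
  let H : Bool × Bool → ℤ := fun s =>
    Dm (r (cs t₀)) s.1 s.2 * ((if s.1 = false then 1 else 0) * (if s.2 = false then 1 else 0))
  rw [← Fintype.sum_prod_type']
  rw [Fintype.sum_equiv (Equiv.ofBijective _ (spl_bij t₀)) _
    (fun q : (Fin (k + 1) → (Bool × Bool) × (Bool × Bool)) × (Bool × Bool) =>
      (∏ i, G i (q.1 i)) * H q.2)]
  · rw [Fintype.sum_prod_type]
    simp only [← Finset.mul_sum, ← Finset.sum_mul]
    congr 1
    · rw [← Fintype.piFinset_univ, ← Finset.prod_univ_sum]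
      refine Finset.prod_congr rfl fun i _ => ?_
      rw [← Dm_orth]
      simp only [G]
      rw [Fintype.sum_prod_type]
      simp only [Fintype.sum_prod_type]
    · simp only [H, Fintype.sum_prod_type, Fintype.sum_bool]
      simp
  · rintro ⟨u, u'⟩
    rw [prod_A t₀]
    show _ = (∏ i, G i ((u (c0 t₀ i), u' (c0 t₀ i)), (u (c1 t₀ i), u' (c1 t₀ i)))) *
      H (u (cs t₀), u' (cs t₀))
    simp only [G, H, Finset.prod_mul_distrib]
    ring

/-- The value of `Θ F` at the pair `(row t₀, row t₀)`. -/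
theorem Tht_diag (t₀ : A ≃ Cel (two k)) (F : (A → ℕ) → ℂ) :
    Tht t₀ F (rowW t₀, rowW t₀) = ∑ r : A → Fin 4, F (kw r) *
      (((∏ i, if r (c0 t₀ i) = r (c1 t₀ i) then cc (r (c0 t₀ i)) else 0) *
      Dm (r (cs t₀)) false false : ℤ) : ℂ) := by
  rw [Tht_apply]
  have h : ∀ r : A → Fin 4, (∑ u : A → Bool, ∑ u' : A → Bool,
      F (kw r) * ((∏ a, Dm (r a) (u a) (u' a) : ℤ) : ℂ) * (eps2 t₀ u (rowW t₀) : ℂ) *
        (eps2 t₀ u' (rowW t₀) : ℂ)) = F (kw r) *
      (((∏ i, if r (c0 t₀ i) = r (c1 t₀ i) then cc (r (c0 t₀ i)) else 0) *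
      Dm (r (cs t₀)) false false : ℤ) : ℂ) := by
    intro r
    rw [← Tht_sum t₀ r]
    simp only [eps2_diag]
    push_cast
    simp only [Finset.mul_sum]
    refine Finset.sum_congr rfl fun u _ => Finset.sum_congr rfl fun u' _ => ?_
    ring
  rw [← Finset.sum_congr rfl fun r _ => h r]
  rw [Finset.sum_congr rfl fun u _ => Finset.sum_comm]
  rw [Finset.sum_comm]

end Crest.Agent.SX
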