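import Crest.Agent.SX_T0

/-!
# S0297, task SX-T3: dominoes
-/

set_option autoImplicit false

namespace Crest.Agent.SX

open Equiv Equiv.Perm

variable {A : Type} [Fintype A] [DecidableEq A] {k : ℕ}

private theorem t3_aux (a b c d : ℕ) (hb : b ≤ a) (hc : c ≤ b) (hd : d ≤ c) (r : Fin 4) (j : ℕ)
    (hj : j < (![a, b, c, d] : Fin 4 → ℕ) r) (δ : ℕ) (hδ : δ < 2) :
    2 * j + δ < 2 * a ∧ ∀ h : 2 * j + δ < 2 * a + 1, (r : ℕ) < dh a b c d ⟨2 * j + δ, h⟩ := by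
  refine ⟨?_, fun h => ?_⟩
  · fin_cases r <;> simp at hj <;> omega
  · unfold dh
    fin_cases r <;> simp at hj ⊢ <;> split_ifs <;> omega

private theorem t3_sur (a b c d : ℕ) (hb : b ≤ a) (hc : c ≤ b) (hd : d ≤ c) (j : Fin (2 * a + 1))
    (r : ℕ) (hr : r < dh a b c d j) :
    ((j : ℕ) = 2 * a ∧ r = 0) ∨ ∃ h : r < 4, (j : ℕ) / 2 < (![a, b, c, d] : Fin 4 → ℕ) ⟨r, h⟩ := by
  have hj := j.2
  have h4 : dh a b c d j ≤ 4 := by unfold dh; split_ifs <;> omega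
  have hr4 : r < 4 := by omega
  by_cases h : (j : ℕ) = 2 * a
  · left
    refine ⟨h, ?_⟩
    unfold dh at hr
    split_ifs at hr <;> omega
  · right
    refine ⟨hr4, ?_⟩
    unfold dh at hr
    have : r = 0 ∨ r = 1 ∨ r = 2 ∨ r = 3 := by omega
    rcases this with rfl | rfl | rfl | rfl <;> simp <;> split_ifs at hr <;> omega

/-- The cells of the shape `dh a b c d` (rows `2a+1, 2b, 2c, 2d`) are paired by horizontal dominoes
(columns `2j`, `2j+1`), except the last cell of the first row. Enumerate the `a+b+c+d = k+1`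
dominoes. -/
theorem exists_dom (a b c d : ℕ) (hb : b ≤ a) (hc : c ≤ b) (hd : d ≤ c)
    (hsum : a + b + c + d = k + 1) (t : A ≃ Cel (dh a b c d)) :
    ∃ t₀ : A ≃ Cel (two k),
      (∀ i, ∃ j : ℕ, ((t (c0 t₀ i)).1 : ℕ) = 2 * j ∧ ((t (c1 t₀ i)).1 : ℕ) = 2 * j + 1 ∧
        ((t (c0 t₀ i)).2 : ℕ) = ((t (c1 t₀ i)).2 : ℕ)) ∧
      ((t (cs t₀)).1 : ℕ) = 2 * a := by
  classical
  let D : Type := Σ r : Fin 4, Fin ((![a, b, c, d] : Fin 4 → ℕ) r)
  have hcard : Fintype.card (Fin (k + 1)) = Fintype.card D := by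
    simp [D, Fin.sum_univ_four, ← hsum]
  let e : Fin (k + 1) ≃ D := Fintype.equivOfCardEq hcard
  let cel : D → (δ : ℕ) → δ < 2 → Cel (dh a b c d) := fun x δ hδ =>
    ⟨⟨2 * (x.2 : ℕ) + δ, by
      have := (t3_aux a b c d hb hc hd x.1 x.2 x.2.2 δ hδ).1; omega⟩,
      ⟨(x.1 : ℕ), (t3_aux a b c d hb hc hd x.1 x.2 x.2.2 δ hδ).2 _⟩⟩
  have hcel1 : ∀ x δ hδ, ((cel x δ hδ).1 : ℕ) = 2 * (x.2 : ℕ) + δ := fun x δ hδ => rfl
  have hcel2 : ∀ x δ hδ, ((cel x δ hδ).2 : ℕ) = (x.1 : ℕ) := fun x δ hδ => rfl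
  have hlt : ∀ x δ hδ, ((cel x δ hδ).1 : ℕ) < 2 * a := fun x δ hδ =>
    (t3_aux a b c d hb hc hd x.1 x.2 x.2.2 δ hδ).1
  have hext : ∀ x y : Cel (dh a b c d), (x.1 : ℕ) = (y.1 : ℕ) → (x.2 : ℕ) = (y.2 : ℕ) → x = y := by
    rintro ⟨⟨x1, hx1⟩, ⟨x2, hx2⟩⟩ ⟨⟨y1, hy1⟩, ⟨y2, hy2⟩⟩ h1 h2
    simp only at h1 h2
    subst h1
    subst h2
    rfl
  have hDext : ∀ x y : D, (x.1 : ℕ) = (y.1 : ℕ) → (x.2 : ℕ) = (y.2 : ℕ) → x = y := by
    rintro ⟨x1, ⟨x2, hx2⟩⟩ ⟨y1, ⟨y2, hy2⟩⟩ h1 h2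
    have : x1 = y1 := Fin.ext h1
    subst this
    simp only at h2
    subst h2
    rfl
  let lst : Cel (dh a b c d) := ⟨⟨2 * a, by omega⟩, ⟨0, by unfold dh; omega⟩⟩
  let φ : Cel (two k) → Cel (dh a b c d) := fun p =>
    match p with
    | ⟨false, i⟩ => if h : (i : ℕ) < k + 1 then cel (e ⟨i, h⟩) 0 (by norm_num) else lst
    | ⟨true, i⟩ => cel (e ⟨i, i.2⟩) 1 (by norm_num)
  have hφ0 : ∀ (i : ℕ) (hi : i < k + 1) (hi' : i < two k false),
      φ ⟨false, ⟨i, hi'⟩⟩ = cel (e ⟨i, hi⟩) 0 (by norm_num) := by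
    intro i hi hi'
    simp only [φ, hi, dif_pos]
  have hφ1 : ∀ (i : ℕ) (hi : i < k + 1) (hi' : i < two k true),
      φ ⟨true, ⟨i, hi'⟩⟩ = cel (e ⟨i, hi⟩) 1 (by norm_num) := by
    intro i hi hi'
    rfl
  have hφs : ∀ (hi' : k + 1 < two k false), φ ⟨false, ⟨k + 1, hi'⟩⟩ = lst := by
    intro hi'
    simp [φ]
  have hcases : ∀ p : Cel (two k), (∃ i, ∃ (hi : i < k + 1) (hi' : i < two k false),
      p = ⟨false, ⟨i, hi'⟩⟩) ∨ (∃ i, ∃ (hi : i < k + 1) (hi' : i < two k true),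
      p = ⟨true, ⟨i, hi'⟩⟩) ∨ ∃ hi' : k + 1 < two k false, p = ⟨false, ⟨k + 1, hi'⟩⟩ := by
    rintro ⟨b', ⟨i, hi⟩⟩
    cases b' with
    | false =>
      by_cases h : i < k + 1
      · exact Or.inl ⟨i, h, hi, rfl⟩
      · have hi2 : i < k + 2 := hi
        have : i = k + 1 := by omega
        subst this
        exact Or.inr (Or.inr ⟨hi, rfl⟩)
    | true => exact Or.inr (Or.inl ⟨i, hi, hi, rfl⟩)
  have hcinj : ∀ x δ hδ y ε hε, cel x δ hδ = cel y ε hε → x = y ∧ δ = ε := by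
    intro x δ hδ y ε hε h
    have h1 : ((cel x δ hδ).1 : ℕ) = ((cel y ε hε).1 : ℕ) := by rw [h]
    have h2 : ((cel x δ hδ).2 : ℕ) = ((cel y ε hε).2 : ℕ) := by rw [h]
    rw [hcel1 x δ hδ, hcel1 y ε hε] at h1
    rw [hcel2 x δ hδ, hcel2 y ε hε] at h2
    exact ⟨hDext _ _ h2 (by omega), by omega⟩
  have hclst : ∀ x δ hδ, cel x δ hδ ≠ lst := by
    intro x δ hδ h
    have h1 := hlt x δ hδ
    rw [h] at h1
    exact absurd h1 (lt_irrefl _)
  have hinj : Function.Injective φ := by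
    intro p p' h
    rcases hcases p with ⟨i, hi, hi', rfl⟩ | ⟨i, hi, hi', rfl⟩ | ⟨hi', rfl⟩ <;>
    rcases hcases p' with ⟨j, hj, hj', rfl⟩ | ⟨j, hj, hj', rfl⟩ | ⟨hj', rfl⟩
    · rw [hφ0 i hi, hφ0 j hj] at h
      have := e.injective (hcinj _ _ (by norm_num) _ _ (by norm_num) h).1
      simp only [Fin.mk.injEq] at this
      subst this; rfl
    · rw [hφ0 i hi, hφ1 j hj] at h
      exact absurd (hcinj _ _ (by norm_num) _ _ (by norm_num) h).2 (by norm_num)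
    · rw [hφ0 i hi, hφs] at h
      exact absurd h (hclst _ _ (by norm_num))
    · rw [hφ1 i hi, hφ0 j hj] at h
      exact absurd (hcinj _ _ (by norm_num) _ _ (by norm_num) h).2 (by norm_num)
    · rw [hφ1 i hi, hφ1 j hj] at h
      have := e.injective (hcinj _ _ (by norm_num) _ _ (by norm_num) h).1
      simp only [Fin.mk.injEq] at this
      subst this; rfl
    · rw [hφ1 i hi, hφs] at h
      exact absurd h (hclst _ _ (by norm_num))
    · rw [hφ0 j hj, hφs] at h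
      exact absurd h.symm (hclst _ _ (by norm_num))
    · rw [hφ1 j hj, hφs] at h
      exact absurd h.symm (hclst _ _ (by norm_num))
    · rfl
  have hsur : Function.Surjective φ := by
    rintro ⟨j, ⟨r, hr⟩⟩
    rcases t3_sur a b c d hb hc hd j r hr with ⟨h1, h2⟩ | ⟨h4, h⟩
    · have hi' : k + 1 < two k false := show k + 1 < k + 2 by omega
      refine ⟨⟨false, ⟨k + 1, hi'⟩⟩, ?_⟩
      rw [hφs hi']
      exact hext _ _ h1.symm h2.symm
    · let x : D := ⟨⟨r, h4⟩, ⟨(j : ℕ) / 2, h⟩⟩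
      have hx := (e.symm x).2
      rcases Nat.mod_two_eq_zero_or_one (j : ℕ) with hm | hm
      · have hi' : (e.symm x : ℕ) < two k false := show (e.symm x : ℕ) < k + 2 by omega
        refine ⟨⟨false, ⟨(e.symm x : ℕ), hi'⟩⟩, ?_⟩
        rw [hφ0 _ hx hi']
        have : e ⟨(e.symm x : ℕ), hx⟩ = x := by simp
        rw [this]
        refine hext _ _ ?_ ?_
        · show 2 * ((j : ℕ) / 2) + 0 = (j : ℕ)
          omega
        · rfl
      · have hi' : (e.symm x : ℕ) < two k true := hx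
        refine ⟨⟨true, ⟨(e.symm x : ℕ), hi'⟩⟩, ?_⟩
        rw [hφ1 _ hx hi']
        have : e ⟨(e.symm x : ℕ), hx⟩ = x := by simp
        rw [this]
        refine hext _ _ ?_ ?_
        · show 2 * ((j : ℕ) / 2) + 1 = (j : ℕ)
          omega
        · rfl
  let Φ : Cel (two k) ≃ Cel (dh a b c d) := Equiv.ofBijective φ ⟨hinj, hsur⟩
  refine ⟨t.trans Φ.symm, fun i => ⟨((e i).2 : ℕ), ?_⟩, ?_⟩
  · have h0 : t (c0 (t.trans Φ.symm) i) = cel (e i) 0 (by norm_num) := by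
      simp only [c0, Equiv.symm_trans_apply, Equiv.symm_symm, Equiv.apply_symm_apply]
      exact hφ0 i i.2 _
    have h1 : t (c1 (t.trans Φ.symm) i) = cel (e i) 1 (by norm_num) := by
      simp only [c1, Equiv.symm_trans_apply, Equiv.symm_symm, Equiv.apply_symm_apply]
      exact hφ1 i i.2 _
    rw [h0, h1]
    exact ⟨rfl, rfl, rfl⟩
  · have hs : t (cs (t.trans Φ.symm)) = lst := by
      simp only [cs, Equiv.symm_trans_apply, Equiv.symm_symm, Equiv.apply_symm_apply]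
      exact hφs _
    rw [hs]

end Crest.Agent.SX
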