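import Crest.Agent.SX_T0

/-!
# S0297, task SX-T4: a column permutation giving a domino-constant word is even
-/

set_option autoImplicit false

namespace Crest.Agent.SX

open Equiv Equiv.Perm

variable {A : Type} [Fintype A] [DecidableEq A] {k : ℕ}

private def ff (t₀ : A ≃ Cel (two k)) : (Fin (k + 1) ⊕ Fin (k + 1)) ⊕ Unit → A :=
  Sum.elim (Sum.elim (c0 t₀) (c1 t₀)) (fun _ => cs t₀)

omit [Fintype A] [DecidableEq A] in
private theorem ff_surj (t₀ : A ≃ Cel (two k)) : Function.Surjective (ff t₀) := by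
  intro x
  obtain ⟨y, rfl⟩ := t₀.symm.surjective x
  obtain ⟨b, r, hr⟩ := y
  cases b with
  | true => exact ⟨Sum.inl (Sum.inr ⟨r, hr⟩), rfl⟩
  | false =>
    have hr' : r < k + 2 := hr
    by_cases h : r < k + 1
    · exact ⟨Sum.inl (Sum.inl ⟨r, h⟩), rfl⟩
    · have : r = k + 1 := by omega
      subst this
      exact ⟨Sum.inr (), rfl⟩

private theorem ff_bij (t₀ : A ≃ Cel (two k)) : Function.Bijective (ff t₀) := by
  rw [Fintype.bijective_iff_surjective_and_card]
  refine ⟨ff_surj t₀, ?_⟩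
  rw [Fintype.card_congr t₀, Fintype.card_sigma, Fintype.sum_bool]
  change _ = Fintype.card (Fin (k + 1)) + Fintype.card (Fin (k + 2))
  simp only [Fintype.card_sum, Fintype.card_fin, Fintype.card_unit]
  omega

private theorem cel_ext {n : ℕ} {h : Fin n → ℕ} (p q : Cel h) (h1 : (p.1 : ℕ) = q.1)
    (h2 : (p.2 : ℕ) = q.2) : p = q := by
  obtain ⟨cx, rx⟩ := p
  obtain ⟨cy, ry⟩ := q
  have h3 : cx = cy := Fin.ext h1
  subst h3
  have h4 : rx = ry := Fin.ext h2
  rw [h4]

/-- Let `t₀` be as in `exists_dom` (dominoes `{c0 i, c1 i}` and the single letter `cs`), and let `s`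
be in the column group of `t` such that `r = row ∘ t ∘ s⁻¹` is constant on the dominoes. Then
`sign s = 1`.

Proof. Let `m` be the involution exchanging `c0 i` and `c1 i` and fixing `cs`. For `x = c0 i` in the
column `2j`: `s⁻¹ x` is the letter in column `2j` and row `r x`; `s⁻¹ (m x)` is the letter in column
`2j + 1` and row `r (m x) = r x`, so `m (s⁻¹ (m x)) = s⁻¹ x` (partners are in the same row, columns
`2j`, `2j+1`). Hence `m s m = s` (`s` fixes `cs`, the only letter of its column). Let `E` be the set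
of the letters `c0 i`, it is preserved by `s` (even columns `≠ 2a`). `s` is the product of its
restriction to `E`, to `m E` and to `{cs}`; the restrictions to `E` and `m E` are conjugate by `m`,
so they have the same sign. -/
theorem dom_sign (a b c d : ℕ) (t : A ≃ Cel (dh a b c d)) (hb : b ≤ a) (hc : c ≤ b) (hd : d ≤ c)
    (t₀ : A ≃ Cel (two k))
    (hdom : ∀ i, ∃ j : ℕ, ((t (c0 t₀ i)).1 : ℕ) = 2 * j ∧ ((t (c1 t₀ i)).1 : ℕ) = 2 * j + 1 ∧
        ((t (c0 t₀ i)).2 : ℕ) = ((t (c1 t₀ i)).2 : ℕ))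
    (hcs : ((t (cs t₀)).1 : ℕ) = 2 * a) (s : Perm A) (hs : ∀ x, (t (s x)).1 = (t x).1)
    (w : A → ℕ) (hw : ∀ x, w (s x) = ((t x).2 : ℕ)) (hdc : ∀ i, w (c0 t₀ i) = w (c1 t₀ i)) :
    sign s = 1 := by
  -- letters are determined by column and row
  have hext : ∀ x y : A, ((t x).1 : ℕ) = ((t y).1 : ℕ) → ((t x).2 : ℕ) = ((t y).2 : ℕ) → x = y := by
    intro x y h1 h2
    exact t.injective (cel_ext _ _ h1 h2)
  have hs' : ∀ x, ((t (s x)).1 : ℕ) = ((t x).1 : ℕ) := fun x => by rw [hs x]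
  -- the single letter
  have hcs1 : ∀ x, ((t x).1 : ℕ) = 2 * a → x = cs t₀ := by
    intro x hx
    have key : ∀ z : A, ((t z).1 : ℕ) = 2 * a → ((t z).2 : ℕ) = 0 := by
      intro z hz
      have h2 : ((t z).2 : ℕ) < dh a b c d (t z).1 := (t z).2.isLt
      have h3 : dh a b c d (t z).1 = 1 := by
        unfold dh
        rw [if_neg (by omega), if_neg (by omega), if_neg (by omega)]
      omega
    exact hext x (cs t₀) (by rw [hx, hcs]) (by rw [key x hx, key _ hcs])
  have hscs : s (cs t₀) = cs t₀ := hcs1 _ (by rw [hs', hcs])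
  -- action on the letters c0
  have h0 : ∀ i, ∃ i', s (c0 t₀ i) = c0 t₀ i' ∧ s (c1 t₀ i) = c1 t₀ i' := by
    intro i
    obtain ⟨j, hj0, hj1, hjr⟩ := hdom i
    have hja : 2 * j + 1 < 2 * a + 1 := by
      rw [← hj1]; exact (t (c1 t₀ i)).1.isLt
    obtain ⟨z, hz⟩ := ff_surj t₀ (s (c0 t₀ i))
    have hcol := hs' (c0 t₀ i)
    rw [← hz, hj0] at hcol
    rcases z with (i' | i') | u
    · -- main case
      have hz' : c0 t₀ i' = s (c0 t₀ i) := hz
      have hcol' : ((t (c0 t₀ i')).1 : ℕ) = 2 * j := hcol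
      refine ⟨i', hz'.symm, ?_⟩
      obtain ⟨j', hj0', hj1', hjr'⟩ := hdom i'
      have hjj : j' = j := by omega
      subst hjj
      have h1 : s.symm (c1 t₀ i') = c1 t₀ i := by
        apply hext
        · have := hs' (s.symm (c1 t₀ i'))
          rw [s.apply_symm_apply] at this
          rw [← this, hj1', hj1]
        · have h2 := hw (s.symm (c1 t₀ i'))
          rw [s.apply_symm_apply, ← hdc i', hz', hw (c0 t₀ i), hjr] at h2
          exact h2.symm
      rw [← h1, s.apply_symm_apply]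
    · exfalso
      have hcol' : ((t (c1 t₀ i')).1 : ℕ) = 2 * j := hcol
      obtain ⟨j', hj0', hj1', hjr'⟩ := hdom i'
      omega
    · exfalso
      have hcol' : ((t (cs t₀)).1 : ℕ) = 2 * j := hcol
      omega
  choose σ0 hσ0 using h0
  have hinj : Function.Injective σ0 := by
    intro i i' h
    have h1 : c0 t₀ i = c0 t₀ i' := s.injective (by rw [(hσ0 i).1, (hσ0 i').1, h])
    have h2 : (Sum.inl (Sum.inl i) : (Fin (k + 1) ⊕ Fin (k + 1)) ⊕ Unit) = Sum.inl (Sum.inl i') :=
      (ff_bij t₀).1 h1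
    simpa using h2
  let σ : Perm (Fin (k + 1)) := Equiv.ofBijective σ0 (Finite.injective_iff_bijective.1 hinj)
  let e : ((Fin (k + 1) ⊕ Fin (k + 1)) ⊕ Unit) ≃ A := Equiv.ofBijective (ff t₀) (ff_bij t₀)
  let g : Perm ((Fin (k + 1) ⊕ Fin (k + 1)) ⊕ Unit) :=
    Equiv.sumCongr (Equiv.sumCongr σ σ) (1 : Perm Unit)
  have hsg : s = e.permCongr g := by
    ext x
    obtain ⟨z, rfl⟩ := e.surjective x
    rw [Equiv.permCongr_apply, Equiv.symm_apply_apply]
    rcases z with (i | i) | u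
    · exact (hσ0 i).1
    · exact (hσ0 i).2
    · exact hscs
  rw [hsg, Equiv.Perm.sign_permCongr]
  have h1 : sign g = sign (Equiv.sumCongr σ σ) * sign (1 : Perm Unit) := Perm.sign_sumCongr _ _
  have h2 : sign (Equiv.sumCongr σ σ) = sign σ * sign σ := Perm.sign_sumCongr _ _
  rw [h1, h2, Int.units_mul_self, Perm.sign_one, mul_one]

end Crest.Agent.SX
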