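import Crest.Agent.SX_T1
import Crest.Agent.SX_T2
import Crest.Agent.SX_T3
import Crest.Agent.SX_T4

/-!
# S0297, task SX-T5: `Θ (pt t) ≠ 0`
-/

set_option autoImplicit false

namespace Crest.Agent.SX

open Equiv Equiv.Perm

variable {A : Type} [Fintype A] [DecidableEq A] {k : ℕ}

omit [DecidableEq A] in
/-- products over the letters, arranged by dominoes -/
private theorem T5_prod (t₀ : A ≃ Cel (two k)) (f : A → ℂ) :
    ∏ a, f a = (∏ i, (f (c0 t₀ i) * f (c1 t₀ i))) * f (cs t₀) := by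
  have h1 : ∏ a, f a = ∏ c : Cel (two k), f (t₀.symm c) :=
    (Equiv.prod_comp t₀.symm f).symm
  rw [h1, Fintype.prod_sigma, Fintype.prod_bool, Finset.prod_mul_distrib]
  have h2 : (∏ y : Fin (two k false), f (t₀.symm ⟨false, y⟩)) =
      (∏ i : Fin (k + 1), f (c0 t₀ i)) * f (cs t₀) := by
    have h3 : (∏ y : Fin (k + 1 + 1), f (t₀.symm ⟨false, y⟩)) =
      (∏ i : Fin (k + 1), f (c0 t₀ i)) * f (cs t₀) := by
      rw [Fin.prod_univ_castSucc]
      rfl
    exact h3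
  have h4 : (∏ y : Fin (two k true), f (t₀.symm ⟨true, y⟩)) =
      (∏ i : Fin (k + 1), f (c1 t₀ i)) := rfl
  rw [h2, h4]
  ring

/-- square roots of `cc` -/
private noncomputable def T5_phi (m : Fin 4) : ℂ := (cc m : ℂ) ^ (1 / 2 : ℂ)

private theorem T5_cc_ne (m : Fin 4) : cc m ≠ 0 := by
  revert m; decide

private theorem T5_phi_ne (m : Fin 4) : T5_phi m ≠ 0 := by
  unfold T5_phi
  rw [Ne, Complex.cpow_eq_zero_iff]
  push Not
  intro h
  exact absurd (Int.cast_eq_zero.1 h) (T5_cc_ne m)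

private theorem T5_phi_sq (m : Fin 4) : T5_phi m * T5_phi m = (cc m : ℂ) := by
  unfold T5_phi
  have h : (cc m : ℂ) ≠ 0 := by exact_mod_cast T5_cc_ne m
  rw [← Complex.cpow_add _ _ h]
  norm_num

private theorem T5_row_lt {a b c d : ℕ} (x : Cel (dh a b c d)) : (x.2 : ℕ) < 4 := by
  have h : (x.2 : ℕ) < dh a b c d x.1 := x.2.2
  have h' : dh a b c d x.1 ≤ 4 := by
    unfold dh
    split_ifs <;> omega
  omega

private theorem T5_row_zero {a b c d : ℕ} (hb : b ≤ a) (hc : c ≤ b) (hd : d ≤ c)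
    (x : Cel (dh a b c d)) (hx : (x.1 : ℕ) = 2 * a) : (x.2 : ℕ) = 0 := by
  have h : (x.2 : ℕ) < dh a b c d x.1 := x.2.2
  have h' : dh a b c d x.1 = 1 := by
    unfold dh
    rw [if_neg (by omega), if_neg (by omega), if_neg (by omega)]
  omega

/-- By `Tht_diag`, `Θ (pt t) (row t₀, row t₀)` is a sum over `r : A → Fin 4`. In a nonzero term `r` is
constant on the dominoes, `pt t r = 1` (`pt_ne_zero`, `pt_eq_sign`, `dom_sign`), the letter `cs` is
alone in its column so `r (cs) = 0` and `Dm 0 false false = 1`, and the number of dominoes with value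
`m` is half of the number of letters with value `m`, i.e. `a, b, c, d` for `m = 0, 1, 2, 3`
(`#{x | r x = m}` is the length of row `m`, minus one for `m = 0`), so the product of the `cc` is the
constant `C = 2 ^ a * (-2) ^ b * 2 ^ c * (-2) ^ d ≠ 0`. So the sum is `C` times the number of nonzero
terms, and `r = row t` is one of them. -/
theorem Tht_pt_ne_zero (a b c d : ℕ) (hb : b ≤ a) (hc : c ≤ b) (hd : d ≤ c)
    (hsum : a + b + c + d = k + 1) (t : A ≃ Cel (dh a b c d)) (t₀ : A ≃ Cel (two k))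
    (hdom : ∀ i, ∃ j : ℕ, ((t (c0 t₀ i)).1 : ℕ) = 2 * j ∧ ((t (c1 t₀ i)).1 : ℕ) = 2 * j + 1 ∧
        ((t (c0 t₀ i)).2 : ℕ) = ((t (c1 t₀ i)).2 : ℕ))
    (hcs : ((t (cs t₀)).1 : ℕ) = 2 * a) : Tht t₀ (pt t) (rowW t₀, rowW t₀) ≠ 0 := by
  classical
  rw [Tht_diag]
  set T : (A → Fin 4) → ℂ := fun r => pt t (kw r) *
      (((∏ i, if r (c0 t₀ i) = r (c1 t₀ i) then cc (r (c0 t₀ i)) else 0) *
      Dm (r (cs t₀)) false false : ℤ) : ℂ) with hT
  -- the value of the product in terms of `phi`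
  have hprod : ∀ r : A → Fin 4, (∀ i, r (c0 t₀ i) = r (c1 t₀ i)) →
      (∏ i, (cc (r (c0 t₀ i)) : ℂ)) * T5_phi (r (cs t₀)) = ∏ x, T5_phi (r x) := by
    intro r hr
    rw [T5_prod t₀ (fun x => T5_phi (r x))]
    congr 1
    refine Finset.prod_congr rfl fun i _ => ?_
    rw [← hr i, T5_phi_sq]
  -- the constant
  set r₀ : A → Fin 4 := fun x => ⟨((t x).2 : ℕ), T5_row_lt (t x)⟩ with hr₀
  have h0col : ∀ i, r₀ (c0 t₀ i) = r₀ (c1 t₀ i) := by
    intro i
    obtain ⟨j, -, -, h3⟩ := hdom i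
    exact Fin.ext h3
  have h0cs : r₀ (cs t₀) = 0 := Fin.ext (T5_row_zero hb hc hd _ hcs)
  set C : ℂ := ∏ i, (cc (r₀ (c0 t₀ i)) : ℂ) with hC
  have hC0 : C ≠ 0 := by
    rw [hC]
    refine Finset.prod_ne_zero_iff.2 fun i _ => ?_
    exact_mod_cast T5_cc_ne _
  have hTeq : ∀ r : A → Fin 4, (∀ i, r (c0 t₀ i) = r (c1 t₀ i)) → r (cs t₀) = 0 →
      T r = pt t (kw r) * ∏ i, (cc (r (c0 t₀ i)) : ℂ) := by
    intro r hr hr0
    rw [hT]
    simp only [hr0]
    have h5 : Dm 0 false false = 1 := rfl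
    rw [h5, mul_one]
    push_cast
    congr 1
    refine Finset.prod_congr rfl fun i _ => ?_
    rw [if_pos (hr i)]
  have hT0 : T r₀ = C := by
    rw [hTeq r₀ h0col h0cs]
    have h6 : pt t (kw r₀) = 1 := pt_self t
    rw [h6, one_mul]
  have hTr : ∀ r, T r ≠ 0 → T r = C := by
    intro r hr
    have h7 : pt t (kw r) ≠ 0 := left_ne_zero_of_mul hr
    have h8 := right_ne_zero_of_mul hr
    rw [Int.cast_ne_zero] at h8
    have h9 := left_ne_zero_of_mul h8
    have h10 : ∀ i, r (c0 t₀ i) = r (c1 t₀ i) := by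
      intro i
      by_contra h11
      have := Finset.prod_ne_zero_iff.1 h9 i (Finset.mem_univ i)
      exact this (if_neg h11)
    obtain ⟨s, hs1, hs2⟩ := pt_ne_zero h7
    have h12 : r (cs t₀) = 0 := by
      have h13 := hs1 (s.symm (cs t₀))
      have h14 := hs2 (s.symm (cs t₀))
      rw [Equiv.apply_symm_apply] at h13 h14
      apply Fin.ext
      show (kw r (cs t₀)) = 0
      rw [h14]
      apply T5_row_zero hb hc hd
      rw [← h13]
      exact hcs
    have h15 : sign s = 1 := by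
      refine dom_sign a b c d t hb hc hd t₀ hdom hcs s hs1 (kw r) hs2 ?_
      intro i
      show ((r (c0 t₀ i) : Fin 4) : ℕ) = ((r (c1 t₀ i) : Fin 4) : ℕ)
      rw [h10 i]
    have h16 : pt t (kw r) = 1 := by
      rw [pt_eq_sign t s hs1 hs2, h15]
      simp
    rw [hTeq r h10 h12, h16, one_mul]
    have h17 := hprod r h10
    have h18 := hprod r₀ h0col
    have h19 : ∏ x, T5_phi (r x) = ∏ x, T5_phi (r₀ x) := by
      rw [← Equiv.prod_comp s (fun x => T5_phi (r x))]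
      refine Finset.prod_congr rfl fun x _ => ?_
      congr 1
      exact Fin.ext (hs2 x)
    rw [h19, ← h18, h12, h0cs] at h17
    exact mul_right_cancel₀ (T5_phi_ne 0) h17
  have hsumT : ∑ r, T r = ((Finset.univ.filter fun r => T r ≠ 0).card : ℂ) * C := by
    rw [← Finset.sum_filter_ne_zero, Finset.sum_congr rfl (fun r hr => hTr r
      (Finset.mem_filter.1 hr).2), Finset.sum_const, nsmul_eq_mul]
  show ∑ r, T r ≠ 0
  rw [hsumT]
  refine mul_ne_zero ?_ hC0
  rw [Nat.cast_ne_zero]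
  apply Finset.card_ne_zero.2
  exact ⟨r₀, Finset.mem_filter.2 ⟨Finset.mem_univ _, by rw [hT0]; exact hC0⟩⟩

/-- The 4-row block, assembled. -/
theorem theta (a b c d : ℕ) (hb : b ≤ a) (hc : c ≤ b) (hd : d ≤ c)
    (hsum : a + b + c + d = k + 1) (t : A ≃ Cel (dh a b c d)) :
    ∃ Θ : ((A → ℕ) → ℂ) →ₗ[ℂ] (WW A → ℂ), (∀ F, Θ F ∈ VV (Ω := A) (two k)) ∧
      (∀ (g : Perm A) F x, Θ (fun w => F (w ∘ g)) x = Θ F (pull g x)) ∧ Θ (pt t) ≠ 0 := by
  obtain ⟨t₀, h1, h2⟩ := exists_dom a b c d hb hc hd hsum t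
  refine ⟨Tht t₀, Tht_mem t₀, fun g F x => Tht_equiv t₀ F g x, fun h => ?_⟩
  exact Tht_pt_ne_zero a b c d hb hc hd hsum t t₀ h1 h2 (by rw [h]; rfl)

end Crest.Agent.SX
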