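import Crest.Agent.SX_U1

/-!
# S0297, task SX-U2: restriction of a Specht module to a subdiagram
-/

set_option autoImplicit false

namespace Crest.Agent.SX

open Equiv Equiv.Perm

variable {A B : Type} [Fintype A] [DecidableEq A] [Fintype B] [DecidableEq B]
  {W : Type} [AddCommGroup W] [Module ℂ W] {l : ℕ} {h : Fin l → ℕ}

private theorem U2_evp {Ω ι : Type} [Fintype Ω] [DecidableEq Ω] [Fintype ι] [DecidableEq ι] {h : ι → ℕ}
    (t : Ω ≃ Cel h) (F : (Ω → ℕ) → ℂ) :
    evp t F = ∑ s : Perm Ω, if ∀ x, (t (s x)).1 = (t x).1 then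
    ((sign s : ℤ) : ℂ) * F (fun x => ((t (s.symm x)).2 : ℕ)) else 0 := by
  unfold evp
  simp only [LinearMap.coe_mk, AddHom.coe_mk]

private theorem U2_antisym {Ω ι : Type} [Fintype Ω] [DecidableEq Ω] [Fintype ι] [DecidableEq ι] {h : ι → ℕ}
    (t : Ω ≃ Cel h) (F : (Ω → ℕ) → ℂ)
    (hsupp : ∀ w, F w ≠ 0 → ∑ x, w x = wt h) (w : Ω → ℕ) :
    (∑ s : Perm Ω, if ∀ x, (t (s x)).1 = (t x).1 then ((sign s : ℤ) : ℂ) * F (w ∘ s) else 0) =
      evp t F * pt t w := by
  rw [← antisym_eq t F hsupp w]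

/-- extension of the tableau -/
private theorem U2_ext {ι' : Type} {hν : ι' → ℕ}
    (hcard : ∑ i, h i = Fintype.card (A ⊕ B)) (tν : A ≃ Cel hν) (φ : ι' → Fin l)
    (hφ : Function.Injective φ) (hle : ∀ i, hν i ≤ h (φ i)) :
    ∃ t : A ⊕ B ≃ Cel h, (∀ a, (t (Sum.inl a)).1 = φ (tν a).1) ∧
      ∀ a, ((t (Sum.inl a)).2 : ℕ) = ((tν a).2 : ℕ) := by
  classical
  let e0 : A → Cel h := fun a => ⟨φ (tν a).1, Fin.castLE (hle _) (tν a).2⟩
  have he0 : Function.Injective e0 := by
    intro a b hab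
    apply tν.injective
    have h1 : φ (tν a).1 = φ (tν b).1 := congrArg Sigma.fst hab
    have h1' : (tν a).1 = (tν b).1 := hφ h1
    have h2 : (((e0 a).2 : Fin _) : ℕ) = ((e0 b).2 : ℕ) := by rw [hab]
    have h2' : ((tν a).2 : ℕ) = ((tν b).2 : ℕ) := h2
    generalize tν a = c at h1' h2'
    generalize tν b = d at h1' h2'
    obtain ⟨i, x⟩ := c
    obtain ⟨j, y⟩ := d
    simp only at h1' h2'
    subst h1'
    rw [Fin.ext h2']
  have e1 : Fintype.card (Cel h) = Fintype.card A + Fintype.card B := by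
    rw [Fintype.card_sigma]
    simp only [Fintype.card_fin]
    rw [hcard, Fintype.card_sum]
  have e2 : Fintype.card B = Fintype.card ((Set.range e0)ᶜ : Set (Cel h)) := by
    rw [Fintype.card_compl_set, e1, Set.card_range_of_injective he0]
    omega
  let eB : B ≃ ((Set.range e0)ᶜ : Set (Cel h)) := Fintype.equivOfCardEq e2
  let eA : A ≃ (Set.range e0) := Equiv.ofInjective e0 he0
  refine ⟨(Equiv.sumCongr eA eB).trans (Equiv.Set.sumCompl (Set.range e0)), fun a => ?_, fun a => ?_⟩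
  · rfl
  · rfl

/-- restriction to words with fixed values on `B` -/
private noncomputable def U2_fr (f : W →ₗ[ℂ] ((A ⊕ B → ℕ) → ℂ)) (r : B → ℕ) : W →ₗ[ℂ] ((A → ℕ) → ℂ) where
  toFun w := fun v => f w (Sum.elim v r)
  map_add' w w' := by
    ext v
    simp
  map_smul' a w := by
    ext v
    simp

/-- Let the representation embed in the Specht module `Sp h` on the letters `A ⊕ B`, and let
`tν : A ≃ Cel hν` be a tableau of a subdiagram (`φ` maps the columns of `hν` injectively to columns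
of `h` which are at least as high). Then there is a `Perm A`-equivariant map from `W` to functions on
words on `A` with `pt tν` in its image.

Proof. Extend `tν` (followed by the inclusion `(i, r) ↦ (φ i, r)`) to a tableau `t : A ⊕ B ≃ Cel h`.
For a fixed word `r` on `B` let `f_r w = (v ↦ f w (v on A, r on B))`; it is `Perm A`-equivariant. Let
`r` be the row word of `t` on `B`. As `f w ∈ Sp h`, `f_r w` is supported on words of weight
`wt h - ∑ r = wt hν`. By `evp_nondeg` etc. there is `w` with `evp t (f w) ≠ 0` (as in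
`col_functional`). Averaging over the column group `C_ν` of `tν` (embedded in the column group
`C` of `t`): `evp t (f w) = |C_ν|⁻¹ ∑_{s ∈ C} sign s * ∑_{s' ∈ C_ν} sign s' * f w (row t ∘ s'⁻¹ ∘ s⁻¹)`
and `f w (row t ∘ s'⁻¹ ∘ s⁻¹) = f (σ s⁻¹ w) (row t ∘ s'⁻¹) = f_r (σ s⁻¹ w) (row tν ∘ s'⁻¹)`, so for
some `s` the vector `w' = σ s⁻¹ w` has `evp tν (f_r w') ≠ 0`. Finally by `antisym_eq`,
`∑_{s' ∈ C_ν} sign s' • f_r (σ s' w') = evp tν (f_r w') • pt tν`. -/
theorem restrict {ι' : Type} [Fintype ι'] [DecidableEq ι'] {hν : ι' → ℕ}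
    (σ : Representation ℂ (Perm (A ⊕ B)) W)
    [Nontrivial W] (f : W →ₗ[ℂ] ((A ⊕ B → ℕ) → ℂ)) (hinj : Function.Injective f)
    (hf : ∀ g w x, f (σ g w) x = f w (x ∘ g)) (hS : ∀ w, f w ∈ Sp (Ω := A ⊕ B) h)
    (hcard : ∑ i, h i = Fintype.card (A ⊕ B)) (tν : A ≃ Cel hν) (φ : ι' → Fin l)
    (hφ : Function.Injective φ) (hle : ∀ i, hν i ≤ h (φ i)) :
    ∃ f' : W →ₗ[ℂ] ((A → ℕ) → ℂ),
      (∀ (g : Perm A) w x, f' (σ (Perm.sumCongr g 1) w) x = f' w (x ∘ g)) ∧
      ∃ w, f' w = pt tν := by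
  obtain ⟨t, ht1, ht2⟩ := U2_ext hcard tν φ hφ hle
  -- a vector with nonzero pairing
  obtain ⟨w0, hw0⟩ : ∃ w, evp t (f w) ≠ 0 := by
    obtain ⟨w, hw⟩ := exists_ne (0 : W)
    have hfw : f w ≠ 0 := fun h0 => hw (hinj (by rw [h0, map_zero]))
    by_contra hcon
    push Not at hcon
    apply hfw
    apply evp_nondeg _ (hS w)
    intro t'
    have e1 : t' = (t'.trans t.symm).trans t :=
      Equiv.ext fun x => (Equiv.apply_symm_apply t _).symm
    rw [e1, ← evp_comp]
    have e2 : (fun v => f w (v ∘ (t'.trans t.symm))) = f (σ (t'.trans t.symm) w) := by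
      ext v
      rw [hf]
    rw [e2]
    exact hcon _
  set r : B → ℕ := fun b => ((t (Sum.inr b)).2 : ℕ) with hr
  have hcolA : ∀ s' : Perm A, (∀ a, (tν (s' a)).1 = (tν a).1) →
      ∀ x, (t ((Perm.sumCongr s' (1 : Perm B)) x)).1 = (t x).1 := by
    intro s' hs' x
    rcases x with a | b
    · rw [Perm.sumCongr_apply, Sum.map_inl, ht1, ht1, hs']
    · rfl
  -- the row word
  have hrow : ∀ (s' : Perm A) (s : Perm (A ⊕ B)),
      (Sum.elim (fun a => ((tν (s'.symm a)).2 : ℕ)) r) ∘ (s⁻¹ : Perm (A ⊕ B)) =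
        fun x => ((t (((s * Perm.sumCongr s' (1 : Perm B))).symm x)).2 : ℕ) := by
    intro s' s
    ext x
    have e1 : ((s * Perm.sumCongr s' (1 : Perm B))).symm x =
        (Perm.sumCongr s' (1 : Perm B)).symm (s.symm x) := rfl
    rw [e1, Function.comp_apply]
    have e2 : (s⁻¹ : Perm (A ⊕ B)) x = s.symm x := rfl
    rw [e2]
    generalize s.symm x = y
    rcases y with a | b
    · have e3 : (Perm.sumCongr s' (1 : Perm B)).symm (Sum.inl a) = Sum.inl (s'.symm a) := rfl
      rw [e3, ht2, Sum.elim_inl]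
    · have e3 : (Perm.sumCongr s' (1 : Perm B)).symm (Sum.inr b) = Sum.inr b := rfl
      rw [e3, Sum.elim_inr]
  have hevp : ∀ s : Perm (A ⊕ B), evp tν (U2_fr f r (σ s⁻¹ w0)) =
      ∑ s' : Perm A, if ∀ a, (tν (s' a)).1 = (tν a).1 then
        ((sign s' : ℤ) : ℂ) * f w0 (fun x => ((t (((s * Perm.sumCongr s' (1 : Perm B))).symm x)).2 : ℕ)) else 0 := by
    intro s
    rw [U2_evp]
    refine Finset.sum_congr rfl fun s' _ => ?_
    refine if_congr Iff.rfl ?_ rfl
    congr 1
    show f (σ s⁻¹ w0) (Sum.elim (fun a => ((tν (s'.symm a)).2 : ℕ)) r) = _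
    rw [hf, hrow]
  -- shift invariance of evp
  have hshift : ∀ s' : Perm A, (∀ a, (tν (s' a)).1 = (tν a).1) →
      evp t (f w0) = ∑ s : Perm (A ⊕ B), if ∀ x, (t (s x)).1 = (t x).1 then
        ((sign s : ℤ) : ℂ) * (((sign s' : ℤ) : ℂ) *
          f w0 (fun x => ((t (((s * Perm.sumCongr s' (1 : Perm B))).symm x)).2 : ℕ))) else 0 := by
    intro s' hs'
    rw [U2_evp]
    symm
    refine Fintype.sum_equiv (Equiv.mulRight (Perm.sumCongr s' (1 : Perm B))) _ _ fun s => ?_
    rw [Equiv.coe_mulRight]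
    have hc : (∀ x, (t (s x)).1 = (t x).1) ↔
        ∀ x, (t ((s * Perm.sumCongr s' (1 : Perm B)) x)).1 = (t x).1 := by
      constructor
      · intro h1 x
        rw [Perm.mul_apply, h1, hcolA s' hs']
      · intro h1 y
        have h2 := h1 ((Perm.sumCongr s' (1 : Perm B)).symm y)
        rw [Perm.mul_apply, Equiv.apply_symm_apply] at h2
        rw [h2]
        have h3 := hcolA s' hs' ((Perm.sumCongr s' (1 : Perm B)).symm y)
        rw [Equiv.apply_symm_apply] at h3
        exact h3.symm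
    refine if_congr hc ?_ rfl
    rw [← mul_assoc]
    congr 1
    rw [Perm.sign_mul, Perm.sign_sumCongr]
    simp
  -- a column permutation with nonzero pairing
  obtain ⟨s, hs⟩ : ∃ s : Perm (A ⊕ B), evp tν (U2_fr f r (σ s⁻¹ w0)) ≠ 0 := by
    by_contra hcon
    push Not at hcon
    apply hw0
    have h1 : ∑ s' : Perm A, (if ∀ a, (tν (s' a)).1 = (tν a).1 then evp t (f w0) else 0) = 0 := by
      calc ∑ s' : Perm A, (if ∀ a, (tν (s' a)).1 = (tν a).1 then evp t (f w0) else 0)
          = ∑ s' : Perm A, ∑ s : Perm (A ⊕ B), (if ∀ x, (t (s x)).1 = (t x).1 then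
              ((sign s : ℤ) : ℂ) * (if ∀ a, (tν (s' a)).1 = (tν a).1 then (((sign s' : ℤ) : ℂ) *
          f w0 (fun x => ((t (((s * Perm.sumCongr s' (1 : Perm B))).symm x)).2 : ℕ))) else 0) else 0) := by
            refine Finset.sum_congr rfl fun s' _ => ?_
            by_cases hs' : ∀ a, (tν (s' a)).1 = (tν a).1
            · rw [if_pos hs', hshift s' hs']
              refine Finset.sum_congr rfl fun s _ => ?_
              rw [if_pos hs']
            · rw [if_neg hs']
              symm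
              refine Finset.sum_eq_zero fun s _ => ?_
              rw [if_neg hs', mul_zero, ite_self]
        _ = ∑ s : Perm (A ⊕ B), (if ∀ x, (t (s x)).1 = (t x).1 then
              ((sign s : ℤ) : ℂ) * evp tν (U2_fr f r (σ s⁻¹ w0)) else 0) := by
            rw [Finset.sum_comm]
            refine Finset.sum_congr rfl fun s _ => ?_
            rw [hevp s]
            by_cases hs : ∀ x, (t (s x)).1 = (t x).1
            · simp only [if_pos hs]
              rw [Finset.mul_sum]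
            · simp only [if_neg hs]
              rw [Finset.sum_const_zero]
        _ = 0 := by
            refine Finset.sum_eq_zero fun s _ => ?_
            rw [hcon s, mul_zero, ite_self]
    rw [← Finset.sum_filter, Finset.sum_const, nsmul_eq_mul] at h1
    rcases mul_eq_zero.1 h1 with h2 | h2
    · exfalso
      have h3 : (Finset.univ.filter fun s' : Perm A => ∀ a, (tν (s' a)).1 = (tν a).1).card = 0 := by
        exact_mod_cast h2
      rw [Finset.card_eq_zero] at h3
      have h4 : (1 : Perm A) ∈ (Finset.univ.filter fun s' : Perm A => ∀ a, (tν (s' a)).1 = (tν a).1) := by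
        rw [Finset.mem_filter]
        exact ⟨Finset.mem_univ _, fun a => rfl⟩
      rw [h3] at h4
      exact absurd h4 (Finset.notMem_empty _)
    · exact h2
  set w' := σ s⁻¹ w0 with hw'
  have heq : ∀ (g : Perm A) w x, U2_fr f r (σ (Perm.sumCongr g 1) w) x = U2_fr f r w (x ∘ g) := by
    intro g w x
    show f (σ (Perm.sumCongr g 1) w) (Sum.elim x r) = f w (Sum.elim (x ∘ g) r)
    have e : (Sum.elim x r) ∘ ⇑(Perm.sumCongr g (1 : Perm B)) = Sum.elim (x ∘ g) r := by
      funext y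
      rcases y with a | b
      · rfl
      · rfl
    rw [hf, e]
  refine ⟨U2_fr f r, heq, ?_⟩
  -- support
  have hsupp : ∀ v, U2_fr f r w' v ≠ 0 → ∑ a, v a = wt hν := by
    intro v hv
    have h1 : ∑ x, Sum.elim v r x = wt h := Sp_weight (hS w') hv
    rw [Fintype.sum_sum_type] at h1
    simp only [Sum.elim_inl, Sum.elim_inr] at h1
    have h2 : wt h = ∑ a, ((tν a).2 : ℕ) + ∑ b, r b := by
      rw [wt, ← Equiv.sum_comp t (fun c : Cel h => (c.2 : ℕ)), Fintype.sum_sum_type]
      simp only [ht2, hr]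
    have h3 : wt hν = ∑ a, ((tν a).2 : ℕ) := by
      rw [wt, ← Equiv.sum_comp tν (fun c : Cel hν => (c.2 : ℕ))]
    omega
  set c : ℂ := evp tν (U2_fr f r w') with hc
  refine ⟨c⁻¹ • ∑ s' : Perm A, if ∀ a, (tν (s' a)).1 = (tν a).1 then
    ((sign s' : ℤ) : ℂ) • σ (Perm.sumCongr s' 1) w' else 0, ?_⟩
  ext v
  rw [map_smul, map_sum, Pi.smul_apply, Finset.sum_apply]
  have h1 : ∑ s' : Perm A, (U2_fr f r (if ∀ a, (tν (s' a)).1 = (tν a).1 then
      ((sign s' : ℤ) : ℂ) • σ (Perm.sumCongr s' 1) w' else 0)) v =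
      ∑ s' : Perm A, if ∀ a, (tν (s' a)).1 = (tν a).1 then
        ((sign s' : ℤ) : ℂ) * U2_fr f r w' (v ∘ s') else 0 := by
    refine Finset.sum_congr rfl fun s' _ => ?_
    split_ifs with h1
    · rw [map_smul, Pi.smul_apply, heq, smul_eq_mul]
    · rw [map_zero, Pi.zero_apply]
  rw [h1, U2_antisym tν _ hsupp v, smul_eq_mul, ← mul_assoc, inv_mul_cancel₀ hs, one_mul]

end Crest.Agent.SX
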