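import Crest.Agent.SX_Y0

/-!
# S0297, task SX-Y2: reduction to connected pairs of words
-/

set_option autoImplicit false

namespace Crest.Agent.SX

open Equiv Equiv.Perm

variable {A : Type} [Fintype A] [DecidableEq A]

/-- Parity: a set of letters which is closed under "same value under `w`" (`w` of type `TwoW`) has
odd size iff it contains the letter with value `k + 1`. -/
theorem card_closed (k : ℕ) (w : A → ℕ) (hw : TwoW k w) (S : Finset A)
    (hS : ∀ a ∈ S, ∀ b, w a = w b → b ∈ S) (s : A) (hs : w s = k + 1) :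
    Odd S.card ↔ s ∈ S := by
  have h1 : S.card = ∑ i ∈ Finset.range (k + 2), (S.filter fun a => w a = i).card := by
    apply Finset.card_eq_sum_card_fiberwise
    intro a _
    have := hw.1 a
    simp only [Finset.coe_range, Set.mem_Iio]
    omega
  have hfil : ∀ i, (∃ a ∈ S, w a = i) → (S.filter fun a => w a = i) =
      (Finset.univ.filter fun a => w a = i) := by
    rintro i ⟨a, ha, hai⟩
    ext b
    simp only [Finset.mem_filter, Finset.mem_univ, true_and]
    exact ⟨fun h => h.2, fun h => ⟨hS a ha b (by rw [hai, h]), h⟩⟩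
  have hemp : ∀ i, (¬ ∃ a ∈ S, w a = i) → (S.filter fun a => w a = i) = ∅ := by
    intro i hi
    rw [Finset.filter_eq_empty_iff]
    intro a ha hai
    exact hi ⟨a, ha, hai⟩
  have h2 : Even (∑ i ∈ Finset.range (k + 1), (S.filter fun a => w a = i).card) := by
    apply Finset.even_sum
    intro i hi
    rw [Finset.mem_range] at hi
    by_cases hex : ∃ a ∈ S, w a = i
    · rw [hfil i hex, hw.2.1 i (by omega)]
      exact even_two
    · rw [hemp i hex]
      simp
  rw [h1, Finset.sum_range_succ, Nat.odd_add', iff_true_right h2]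
  by_cases hsS : s ∈ S
  · rw [hfil (k + 1) ⟨s, hsS, hs⟩, hw.2.2]
    simp [hsS]
  · rw [hemp (k + 1)]
    · simp [hsS]
    · rintro ⟨a, ha, hai⟩
      exact hsS (hS a ha s (by rw [hai, hs]))

/-- closed sets of letters -/
private def Clo (x : WW A) (S : Finset A) : Prop :=
  ∀ a ∈ S, ∀ b, (x.1 a = x.1 b ∨ x.2 a = x.2 b) → b ∈ S

open scoped Classical in
/-- the component of a letter -/
private noncomputable def cmp (x : WW A) (s : A) : Finset A :=
  Finset.univ.filter fun b => ∀ S : Finset A, s ∈ S → Clo x S → b ∈ S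

private theorem cmp_self (x : WW A) (s : A) : s ∈ cmp x s := by
  classical
  simp only [cmp, Finset.mem_filter, Finset.mem_univ, true_and]
  intro S hS _
  exact hS

private theorem cmp_clo (x : WW A) (s : A) : Clo x (cmp x s) := by
  classical
  intro a ha b hab
  simp only [cmp, Finset.mem_filter, Finset.mem_univ, true_and] at ha ⊢
  intro S hS hc
  exact hc a (ha S hS hc) b hab

private theorem cmp_min (x : WW A) (s : A) (S : Finset A) (hs : s ∈ S) (hc : Clo x S) :
    cmp x s ⊆ S := by
  classical
  intro b hb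
  simp only [cmp, Finset.mem_filter, Finset.mem_univ, true_and] at hb
  exact hb S hs hc

private theorem clo_compl (x : WW A) (S : Finset A) (hc : Clo x S) : Clo x Sᶜ := by
  intro a ha b hab
  rw [Finset.mem_compl] at ha ⊢
  intro hb
  apply ha
  apply hc b hb a
  rcases hab with h | h
  · exact Or.inl h.symm
  · exact Or.inr h.symm

private theorem cmp_symm (x : WW A) (s b : A) (hb : b ∈ cmp x s) : cmp x s ⊆ cmp x b := by
  apply cmp_min x s _ _ (cmp_clo x b)
  by_contra hs
  have h1 : cmp x s ⊆ (cmp x b)ᶜ :=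
    cmp_min x s _ (Finset.mem_compl.2 hs) (clo_compl x _ (cmp_clo x b))
  exact (Finset.mem_compl.1 (h1 hb)) (cmp_self x b)

private theorem twoW_unique (k : ℕ) (w : A → ℕ) (hw : TwoW k w) (s t : A) (hs : w s = k + 1)
    (ht : w t = k + 1) : s = t := by
  have h := hw.2.2
  rw [Finset.card_eq_one] at h
  obtain ⟨c, hc⟩ := h
  have h1 : s ∈ (Finset.univ.filter fun a => w a = k + 1) := by simp [hs]
  have h2 : t ∈ (Finset.univ.filter fun a => w a = k + 1) := by simp [ht]
  rw [hc, Finset.mem_singleton] at h1 h2
  rw [h1, h2]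

private theorem twoW_exists (k : ℕ) (w : A → ℕ) (hw : TwoW k w) : ∃ s, w s = k + 1 := by
  have h := hw.2.2
  rw [Finset.card_eq_one] at h
  obtain ⟨c, hc⟩ := h
  have : c ∈ (Finset.univ.filter fun a => w a = k + 1) := by rw [hc]; simp
  exact ⟨c, by simpa using this⟩

private theorem twoW_perm (k : ℕ) (w : A → ℕ) (hw : TwoW k w) (g : Perm A) :
    TwoW k (w ∘ g) := by
  have hc : ∀ i, (Finset.univ.filter fun a => (w ∘ g) a = i).card =
      (Finset.univ.filter fun a => w a = i).card := by
    intro i
    apply Finset.card_bij (fun a _ => g a)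
    · intro a ha
      simpa using ha
    · intro a _ b _ hab
      exact g.injective hab
    · intro b hb
      refine ⟨g.symm b, ?_, by simp⟩
      simpa using hb
  refine ⟨fun a => hw.1 _, fun i hi => ?_, ?_⟩
  · rw [hc i]; exact hw.2.1 i hi
  · rw [hc]; exact hw.2.2

private theorem step_card (k : ℕ) (x : WW A) (hx1 : TwoW k x.1) (hx2 : TwoW k x.2) (a b s : A)
    (hab : a ≠ b) (hw : x.1 a = x.1 b) (hs : x.1 s = k + 1) (ha : a ∉ cmp x s) :
    (cmp x s).card < (cmp (x.1 ∘ swap b s, x.2) b).card := by
  have hb : b ∉ cmp x s := fun hb => ha (cmp_clo x s b hb a (Or.inl hw.symm))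
  have has : a ≠ s := fun h => ha (h ▸ cmp_self x s)
  have hbs : b ≠ s := fun h => hb (h ▸ cmp_self x s)
  set y : WW A := (x.1 ∘ swap b s, x.2) with hy
  have hy1 : TwoW k y.1 := twoW_perm k x.1 hx1 _
  have hys : y.1 s = x.1 b := by simp [hy]
  have hyb : y.1 b = k + 1 := by simp [hy, hs]
  have hyo : ∀ c, c ≠ b → c ≠ s → y.1 c = x.1 c := by
    intro c h1 h2
    simp [hy, swap_apply_of_ne_of_ne h1 h2]
  have hya : y.1 a = x.1 a := hyo a hab has
  -- the component of `s` under `y`
  have haC : a ∈ cmp y s := cmp_clo y s s (cmp_self y s) a (Or.inl (by rw [hys, hya, hw]))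
  have hsub : cmp x s ⊆ cmp y s := by
    have hT : Clo x (cmp y s ∩ cmp x s) := by
      intro c hc d hcd
      rw [Finset.mem_inter] at hc ⊢
      have hdx : d ∈ cmp x s := cmp_clo x s c hc.2 d hcd
      refine ⟨?_, hdx⟩
      rcases hcd with h | h
      · by_cases hcs : c = s
        · have : d = s := twoW_unique k x.1 hx1 d s (by rw [← h, hcs, hs]) hs
          rw [this]; exact cmp_self y s
        · by_cases hds : d = s
          · rw [hds]; exact cmp_self y s
          · have hcb : c ≠ b := fun h' => hb (h' ▸ hc.2)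
            have hdb : d ≠ b := fun h' => hb (h' ▸ hdx)
            apply cmp_clo y s c hc.1 d
            left
            rw [hyo c hcb hcs, hyo d hdb hds, h]
      · exact cmp_clo y s c hc.1 d (Or.inr h)
    exact (cmp_min x s _ (Finset.mem_inter.2 ⟨cmp_self y s, cmp_self x s⟩) hT).trans
      Finset.inter_subset_left
  obtain ⟨s2, hs2⟩ := twoW_exists k x.2 hx2
  have hodd : Odd (cmp x s).card :=
    (card_closed k x.1 hx1 _ (fun a ha b hab => cmp_clo x s a ha b (Or.inl hab)) s hs).2
      (cmp_self x s)
  have hs2x : s2 ∈ cmp x s :=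
    (card_closed k x.2 hx2 _ (fun a ha b hab => cmp_clo x s a ha b (Or.inr hab)) s2 hs2).1 hodd
  have hodd' : Odd (cmp y s).card :=
    (card_closed k y.2 hx2 _ (fun a ha b hab => cmp_clo y s a ha b (Or.inr hab)) s2 hs2).2
      (hsub hs2x)
  have hbC : b ∈ cmp y s :=
    (card_closed k y.1 hy1 _ (fun a ha b hab => cmp_clo y s a ha b (Or.inl hab)) b hyb).1 hodd'
  have hfin : cmp y s ⊆ cmp y b := cmp_symm y s b hbC
  apply Finset.card_lt_card
  rw [Finset.ssubset_iff_of_subset (hsub.trans hfin)]
  exact ⟨a, hfin haC, ha⟩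

/-- Let `P` be a property of pairs of words ("`F x ∈ R`") which holds for connected pairs and for
the pairs which are not of type `TwoW`, and such that `P` for `(x.1 ∘ swap a s, x.2)` and
`(x.1 ∘ swap b s, x.2)` implies `P x` when `x.1 a = x.1 b`, `a ≠ b`, `x.1 s = k + 1 ≠ x.1 a`. Then
`P` holds everywhere.

Proof. Induction on the number of letters which are not in the component `C(x)` of the letter `s`
with `x.1 s = k + 1` (component = smallest set containing `s` closed under `x.1 a = x.1 b` or
`x.2 a = x.2 b`). If `C(x) = A` the pair is connected. Otherwise choose `a ∉ C(x)` and let `b` be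
the other letter with `x.1 b = x.1 a`. Put `y = (x.1 ∘ swap b s, x.2)`: its letter with value
`k + 1` is `b`, and `y.1 s = y.1 a`. CLAIM: `C(y)` contains `C(x)`, `a` and `b` (so it is bigger).
Let `C'` be the component under `y` of `s` (and of `a`). It contains `C(x)` because `y.1 = x.1`
outside `{a, b, s}` and no letter of `C(x) \ {s}` has the same `x.1`-value as `s`, `a`, `b`;
in particular `C'` contains the letter `s₂` with `x.2 s₂ = k + 1`, which is in `C(x)` by parity
(`card_closed` for `x.1` and for `x.2`: `|C(x)|` is odd since `s ∈ C(x)`). By `card_closed` for `x.2`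
the size of `C'` is odd, hence by `card_closed` for `y.1` it contains `b`. Hence `C' = C(y)`.
The same with `a` and `b` exchanged for `(x.1 ∘ swap a s, x.2)`. -/
theorem conn_reduce (k : ℕ) (hA : Fintype.card A = 2 * k + 3) (P : WW A → Prop)
    (h0 : ∀ x, ¬ (TwoW k x.1 ∧ TwoW k x.2) → P x)
    (h1 : ∀ x, TwoW k x.1 → TwoW k x.2 → Conn x → P x)
    (h2 : ∀ (x : WW A) (a b s : A), a ≠ b → x.1 a = x.1 b → x.1 s = k + 1 → x.1 s ≠ x.1 a →
      P (x.1 ∘ swap a s, x.2) → P (x.1 ∘ swap b s, x.2) → P x) :
    ∀ x, P x := by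
  have main : ∀ n : ℕ, ∀ (x : WW A) (s : A), TwoW k x.1 → TwoW k x.2 → x.1 s = k + 1 →
      Fintype.card A - (cmp x s).card = n → P x := by
    intro n
    induction n using Nat.strong_induction_on with
    | _ n ih =>
      intro x s hx1 hx2 hs hn
      by_cases hcon : cmp x s = Finset.univ
      · apply h1 x hx1 hx2
        intro S hSne hSc
        by_cases hsS : s ∈ S
        · have := cmp_min x s S hsS hSc
          rw [hcon] at this
          exact Finset.univ_subset_iff.1 this
        · exfalso
          have h3 : cmp x s ⊆ Sᶜ := cmp_min x s _ (Finset.mem_compl.2 hsS) (clo_compl x S hSc)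
          rw [hcon] at h3
          obtain ⟨c, hc⟩ := hSne
          exact (Finset.mem_compl.1 (h3 (Finset.mem_univ c))) hc
      · obtain ⟨a, ha⟩ : ∃ a, a ∉ cmp x s := by
          by_contra hall
          push Not at hall
          exact hcon (Finset.eq_univ_iff_forall.2 hall)
        have has : a ≠ s := fun h => ha (h ▸ cmp_self x s)
        have hak : x.1 a ≤ k := by
          have h3 := hx1.1 a
          by_contra h4
          exact has (twoW_unique k x.1 hx1 a s (by omega) hs)
        obtain ⟨b, hb1, hb2⟩ : ∃ b, b ≠ a ∧ x.1 b = x.1 a := by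
          have h3 := hx1.2.1 (x.1 a) hak
          have h4 : 1 < (Finset.univ.filter fun c => x.1 c = x.1 a).card := by rw [h3]; norm_num
          obtain ⟨b, hb, hba⟩ := Finset.exists_mem_ne h4 a
          exact ⟨b, hba, by simpa using hb⟩
        have hb : b ∉ cmp x s := fun hb => ha (cmp_clo x s b hb a (Or.inl hb2))
        have hltA : ∀ (y : WW A) (c : A), (cmp y c).card ≤ Fintype.card A :=
          fun y c => Finset.card_le_univ _
        apply h2 x a b s hb1.symm hb2.symm hs
        · rw [hs]; omega
        · -- `swap a s`: new letter `a`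
          have hlt := step_card k x hx1 hx2 b a s hb1 hb2 hs hb
          refine ih _ ?_ (x.1 ∘ swap a s, x.2) a (twoW_perm k x.1 hx1 _) hx2 (by simp [hs]) rfl
          have := hltA (x.1 ∘ swap a s, x.2) a
          omega
        · have hlt := step_card k x hx1 hx2 a b s hb1.symm hb2.symm hs ha
          refine ih _ ?_ (x.1 ∘ swap b s, x.2) b (twoW_perm k x.1 hx1 _) hx2 (by simp [hs]) rfl
          have := hltA (x.1 ∘ swap b s, x.2) b
          omega
  intro x
  by_cases hx : TwoW k x.1 ∧ TwoW k x.2
  · obtain ⟨s, hs⟩ := twoW_exists k x.1 hx.1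
    exact main _ x s hx.1 hx.2 hs rfl
  · exact h0 x hx

end Crest.Agent.SX
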