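import Crest.Agent.SX_Y0

/-!
# S0297, task SX-Y3: any two connected pairs of words of type `TwoW` are isomorphic
-/

set_option autoImplicit false

namespace Crest.Agent.SX

open Equiv Equiv.Perm

variable {A : Type} [Fintype A] [DecidableEq A]

/-- The partner involution of a word of type `TwoW`. -/
theorem exists_partner (k : ℕ) (w : A → ℕ) (hw : TwoW k w) :
    ∃ m : Perm A, (∀ a, w (m a) = w a) ∧ (∀ a, m (m a) = a) ∧ (∀ a, m a = a ↔ w a = k + 1) ∧
      ∀ a b, w a = w b → b = a ∨ b = m a := by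
  obtain ⟨h1, h2, h3⟩ := hw
  have hex : ∀ a, ∃ b, w b = w a ∧ (b = a ↔ w a = k + 1) ∧ ∀ c, w a = w c → c = a ∨ c = b := by
    intro a
    rcases Nat.lt_or_ge k (w a) with hk | hk
    · have hwa : w a = k + 1 := le_antisymm (h1 a) hk
      refine ⟨a, rfl, ⟨fun _ => hwa, fun _ => rfl⟩, ?_⟩
      intro c hc
      left
      obtain ⟨z, hz⟩ := Finset.card_eq_one.1 h3
      have ha : a ∈ Finset.univ.filter fun a => w a = k + 1 := by simp [hwa]
      have hc' : c ∈ Finset.univ.filter fun a => w a = k + 1 := by simp [← hc, hwa]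
      rw [hz, Finset.mem_singleton] at ha hc'
      rw [ha, hc']
    · obtain ⟨y, z, hyz, hs⟩ := Finset.card_eq_two.1 (h2 (w a) hk)
      have hmem : ∀ c, w c = w a ↔ c = y ∨ c = z := by
        intro c
        have : c ∈ (Finset.univ.filter fun b => w b = w a) ↔ c ∈ ({y, z} : Finset A) := by
          rw [hs]
        simpa using this
      rcases (hmem a).1 rfl with rfl | rfl
      · refine ⟨z, (hmem z).2 (Or.inr rfl), ⟨fun h => absurd h.symm hyz, fun h => by omega⟩, ?_⟩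
        intro c hc
        exact (hmem c).1 hc.symm
      · refine ⟨y, (hmem y).2 (Or.inl rfl), ⟨fun h => absurd h hyz, fun h => by omega⟩, ?_⟩
        intro c hc
        exact ((hmem c).1 hc.symm).symm
  choose f hf1 hf2 hf3 using hex
  have hinv : Function.Involutive f := by
    intro a
    rcases hf3 (f a) a (hf1 a) with h | h
    · rw [← h, ← h]
    · exact h.symm
  exact ⟨hinv.toPerm f, hf1, hinv, hf2, hf3⟩

private theorem Y3_last (k : ℕ) (w v : A → ℕ) (hw : TwoW k w) (hv : TwoW k v)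
    (h : ∀ a b, w a = w b ↔ v a = v b) (a : A) (ha : v a = k + 1) : w a = k + 1 := by
  rcases Nat.lt_or_ge k (w a) with hk | hk
  · exact le_antisymm (hw.1 a) hk
  · exfalso
    have h2 := hw.2.1 (w a) hk
    have h3 := hv.2.2
    have : (Finset.univ.filter fun b => w b = w a) = Finset.univ.filter fun b => v b = k + 1 := by
      apply Finset.filter_congr
      intro b _
      rw [← ha]
      exact h b a
    rw [this, h3] at h2
    omega

private theorem Y3_surj (k : ℕ) (v : A → ℕ) (hv : TwoW k v) (i : ℕ) (hi : i ≤ k + 1) :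
    ∃ a, v a = i := by
  rcases Nat.lt_or_ge k i with hk | hk
  · have hik : i = k + 1 := le_antisymm hi hk
    obtain ⟨z, hz⟩ := Finset.card_eq_one.1 hv.2.2
    have : z ∈ Finset.univ.filter fun a => v a = k + 1 := by rw [hz]; simp
    exact ⟨z, by rw [hik]; simpa using this⟩
  · obtain ⟨y, z, _, hs⟩ := Finset.card_eq_two.1 (hv.2.1 i hk)
    have : y ∈ Finset.univ.filter fun a => v a = i := by rw [hs]; simp
    exact ⟨y, by simpa using this⟩

/-- Two words of type `TwoW` with the same classes differ by a relabelling of rows: if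
`w a = w b ↔ v a = v b` then `w = τ ∘ v` with `RowPerm k τ`. -/
theorem relabel_of_ker (k : ℕ) (w v : A → ℕ) (hw : TwoW k w) (hv : TwoW k v)
    (h : ∀ a b, w a = w b ↔ v a = v b) : ∃ τ : Perm ℕ, RowPerm k τ ∧ ∀ a, w a = τ (v a) := by
  classical
  have hA : ∀ i, ∃ a : A, i ≤ k + 1 → v a = i := by
    intro i
    by_cases hi : i ≤ k + 1
    · obtain ⟨a, ha⟩ := Y3_surj k v hv i hi
      exact ⟨a, fun _ => ha⟩
    · obtain ⟨a, -⟩ := Y3_surj k v hv 0 (by omega)
      exact ⟨a, fun h => absurd h hi⟩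
  have hB : ∀ i, ∃ a : A, i ≤ k + 1 → w a = i := by
    intro i
    by_cases hi : i ≤ k + 1
    · obtain ⟨a, ha⟩ := Y3_surj k w hw i hi
      exact ⟨a, fun _ => ha⟩
    · obtain ⟨a, -⟩ := Y3_surj k w hw 0 (by omega)
      exact ⟨a, fun h => absurd h hi⟩
  choose p hp using hA
  choose q hq using hB
  let t : ℕ → ℕ := fun i => if i ≤ k + 1 then w (p i) else i
  let u : ℕ → ℕ := fun i => if i ≤ k + 1 then v (q i) else i
  have ht : ∀ i, i ≤ k + 1 → t i = w (p i) := fun i hi => if_pos hi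
  have ht' : ∀ i, ¬ i ≤ k + 1 → t i = i := fun i hi => if_neg hi
  have hu : ∀ i, i ≤ k + 1 → u i = v (q i) := fun i hi => if_pos hi
  have hu' : ∀ i, ¬ i ≤ k + 1 → u i = i := fun i hi => if_neg hi
  have hut : ∀ i, u (t i) = i := by
    intro i
    by_cases hi : i ≤ k + 1
    · rw [ht i hi, hu _ (hw.1 _)]
      have h1 : w (q (w (p i))) = w (p i) := hq _ (hw.1 _)
      rw [(h _ _).1 h1, hp i hi]
    · rw [ht' i hi, hu' i hi]
  have htu : ∀ i, t (u i) = i := by
    intro i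
    by_cases hi : i ≤ k + 1
    · rw [hu i hi, ht _ (hv.1 _)]
      have h1 : v (p (v (q i))) = v (q i) := hp _ (hv.1 _)
      rw [(h _ _).2 h1, hq i hi]
    · rw [hu' i hi, ht' i hi]
  have htv : ∀ a, w a = t (v a) := by
    intro a
    rw [ht _ (hv.1 a)]
    exact (h _ _).2 (hp _ (hv.1 a)).symm
  refine ⟨⟨t, u, hut, htu⟩, ⟨?_, ?_⟩, htv⟩
  · intro i
    show i ≤ k ↔ t i ≤ k
    by_cases hi : i ≤ k + 1
    · rw [ht i hi]
      have h1 := Y3_last k w v hw hv h (p i)
      have h2 := Y3_last k v w hv hw (fun a b => (h a b).symm) (p i)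
      rw [hp i hi] at h1 h2
      have h3 := hw.1 (p i)
      constructor
      · intro h4
        by_contra h5
        have := h2 (by omega)
        omega
      · intro h4
        by_contra h5
        have := h1 (by omega)
        omega
    · rw [ht' i hi]
  · show t (k + 1) = k + 1
    rw [ht _ le_rfl]
    exact Y3_last k w v hw hv h _ (hp _ le_rfl)

private theorem Y3_period (P : Perm A) (s : A) (hs : ∀ a, ∃ i : ℤ, (P ^ i) s = a) (i j : ℤ) :
    (P ^ i) s = (P ^ j) s ↔ (Fintype.card A : ℤ) ∣ i - j := by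
  classical
  have horb : MulAction.orbit (Subgroup.zpowers P) s = Set.univ := by
    rw [Set.eq_univ_iff_forall]
    intro a
    obtain ⟨i, hi⟩ := hs a
    exact ⟨⟨P ^ i, ⟨i, rfl⟩⟩, hi⟩
  have hcard : Function.minimalPeriod (P • ·) s = Fintype.card A := by
    have h1 := MulAction.minimalPeriod_eq_card (a := P) (b := s)
    rw [h1]
    have h2 : Fintype.card (MulAction.orbit (Subgroup.zpowers P) s) =
        Fintype.card (Set.univ : Set A) := by
      apply Fintype.card_congr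
      rw [horb]
    rw [h2]
    simp
  rw [← hcard, ← MulAction.zpow_smul_eq_iff_minimalPeriod_dvd]
  show (P ^ i) s = (P ^ j) s ↔ (P ^ (i - j)) s = s
  rw [sub_eq_neg_add, zpow_add, zpow_neg, Perm.mul_apply, Perm.inv_eq_iff_eq]

private theorem Y3_orbit (k : ℕ) (x : WW A) (m₁ m₂ : Perm A)
    (h1 : ∀ a, m₁ (m₁ a) = a) (h2 : ∀ a, m₂ (m₂ a) = a)
    (hp1 : ∀ a b, x.1 a = x.1 b → b = a ∨ b = m₁ a)
    (hp2 : ∀ a b, x.2 a = x.2 b → b = a ∨ b = m₂ a)
    (s : A) (hs : m₁ s = s) (hx : Conn x) :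
    (∀ i : ℤ, m₁ (((m₁ * m₂) ^ i) s) = ((m₁ * m₂) ^ (-i)) s) ∧
    (∀ i : ℤ, m₂ (((m₁ * m₂) ^ i) s) = ((m₁ * m₂) ^ (-i - 1)) s) ∧
    ∀ a, ∃ i : ℤ, ((m₁ * m₂) ^ i) s = a := by
  classical
  set P := m₁ * m₂ with hP
  have e1 : m₁ * m₁ = 1 := by
    ext a
    exact h1 a
  have e2 : m₂ * m₂ = 1 := by
    ext a
    exact h2 a
  have i1 : m₁⁻¹ = m₁ := by rw [inv_eq_iff_mul_eq_one, e1]
  have i2 : m₂⁻¹ = m₂ := by rw [inv_eq_iff_mul_eq_one, e2]
  have hPinv : P⁻¹ = m₂ * m₁ := by rw [hP, mul_inv_rev, i1, i2]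
  have c1 : m₁ * P * m₁⁻¹ = P⁻¹ := by
    rw [hPinv, hP, i1, ← mul_assoc, e1, one_mul]
  have c2 : m₂ * P * m₂⁻¹ = P⁻¹ := by
    rw [hPinv, hP, i2, mul_assoc, mul_assoc, e2, mul_one]
  have d1 : ∀ i : ℤ, m₁ * P ^ i = P ^ (-i) * m₁ := by
    intro i
    have := conj_zpow (a := m₁) (b := P) (i := i)
    rw [c1, inv_zpow', ] at this
    rw [this, mul_assoc, mul_assoc, inv_mul_cancel, mul_one]
  have d2 : ∀ i : ℤ, m₂ * P ^ i = P ^ (-i) * m₂ := by
    intro i
    have := conj_zpow (a := m₂) (b := P) (i := i)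
    rw [c2, inv_zpow'] at this
    rw [this, mul_assoc, mul_assoc, inv_mul_cancel, mul_one]
  have f1 : ∀ i : ℤ, m₁ ((P ^ i) s) = (P ^ (-i)) s := by
    intro i
    have := congrArg (fun g : Perm A => g s) (d1 i)
    simp only [Perm.mul_apply, hs] at this
    exact this
  have hm2s : m₂ s = (P ^ (-1 : ℤ)) s := by
    rw [zpow_neg_one, hPinv, Perm.mul_apply, hs]
  have f2 : ∀ i : ℤ, m₂ ((P ^ i) s) = (P ^ (-i - 1)) s := by
    intro i
    have := congrArg (fun g : Perm A => g s) (d2 i)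
    simp only [Perm.mul_apply] at this
    rw [this, hm2s, ← Perm.mul_apply, ← zpow_add]
    rfl
  refine ⟨f1, f2, ?_⟩
  have hS := hx (Finset.univ.filter fun a => ∃ i : ℤ, (P ^ i) s = a)
    ⟨s, by simp only [Finset.mem_filter, Finset.mem_univ, true_and]; exact ⟨0, by simp⟩⟩ (by
      intro a ha b hab
      simp only [Finset.mem_filter, Finset.mem_univ, true_and] at ha ⊢
      obtain ⟨i, hi⟩ := ha
      rcases hab with hab | hab
      · rcases hp1 a b hab with rfl | rfl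
        · exact ⟨i, hi⟩
        · exact ⟨-i, by rw [← hi, f1]⟩
      · rcases hp2 a b hab with rfl | rfl
        · exact ⟨i, hi⟩
        · exact ⟨-i - 1, by rw [← hi, f2]⟩)
  intro a
  have : a ∈ Finset.univ.filter fun a => ∃ i : ℤ, (P ^ i) s = a := by
    rw [hS]
    exact Finset.mem_univ a
  simpa only [Finset.mem_filter, Finset.mem_univ, true_and] using this

private theorem Y3_comp (k : ℕ) (v : A → ℕ) (hv : TwoW k v) (g : Perm A) :
    TwoW k (fun a => v (g a)) := by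
  have hc : ∀ i, (Finset.univ.filter fun a => v (g a) = i).card =
      (Finset.univ.filter fun a => v a = i).card := by
    intro i
    apply Finset.card_bij (fun a _ => g a)
    · intro a ha
      simpa using ha
    · intro a _ b _ hab
      exact g.injective hab
    · intro b hb
      exact ⟨g.symm b, by simpa using hb, by simp⟩
  exact ⟨fun a => hv.1 _, fun i hi => by rw [hc]; exact hv.2.1 i hi, by rw [hc]; exact hv.2.2⟩

/-- Let `m₁`, `m₂` be the partner involutions of `x.1`, `x.2`, `P = m₁ * m₂`, `s` the letter with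
`x.1 s = k + 1`. Then `m₁ s = s`, `m₁ (P ^ i s) = P ^ (-i) s`, `m₂ (P ^ i s) = P ^ (-i-1) s` (for
`i : ℤ`), so `{P ^ i s}` is closed under `m₁` and `m₂` and by connectedness everything. Hence
`P ^ i s = P ^ j s ↔ i ≡ j mod (2 k + 3)`. The same for `p` with `P'`, `s'`. Define `g` by
`g (P ^ i s) = P' ^ i s'`; it conjugates `m₁` to `m₁'` and `m₂` to `m₂'`, so `x.1` and `p.1 ∘ g` have
the same classes, and `x.2` and `p.2 ∘ g` too; use `relabel_of_ker`. -/
theorem conn_iso (k : ℕ) (hA : Fintype.card A = 2 * k + 3) (x p : WW A)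
    (hx1 : TwoW k x.1) (hx2 : TwoW k x.2) (hp1 : TwoW k p.1) (hp2 : TwoW k p.2)
    (hx : Conn x) (hp : Conn p) :
    ∃ (g : Perm A) (τ₁ τ₂ : Perm ℕ), RowPerm k τ₁ ∧ RowPerm k τ₂ ∧
      x = (fun a => τ₁ (p.1 (g a)), fun a => τ₂ (p.2 (g a))) := by
  classical
  obtain ⟨m₁, a1, a2, a3, a4⟩ := exists_partner k x.1 hx1
  obtain ⟨m₂, b1, b2, b3, b4⟩ := exists_partner k x.2 hx2
  obtain ⟨n₁, c1, c2, c3, c4⟩ := exists_partner k p.1 hp1
  obtain ⟨n₂, d1, d2, d3, d4⟩ := exists_partner k p.2 hp2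
  obtain ⟨s, hs⟩ := Y3_surj k x.1 hx1 (k + 1) le_rfl
  obtain ⟨s', hs'⟩ := Y3_surj k p.1 hp1 (k + 1) le_rfl
  obtain ⟨u1, u2, u3⟩ := Y3_orbit k x m₁ m₂ a2 b2 a4 b4 s ((a3 s).2 hs) hx
  obtain ⟨v1, v2, v3⟩ := Y3_orbit k p n₁ n₂ c2 d2 c4 d4 s' ((c3 s').2 hs') hp
  have hper := Y3_period (m₁ * m₂) s u3
  have hper' := Y3_period (n₁ * n₂) s' v3
  choose ix hix using u3
  let g₀ : A → A := fun a => ((n₁ * n₂) ^ (ix a)) s'
  have hg₀ : ∀ i : ℤ, g₀ (((m₁ * m₂) ^ i) s) = ((n₁ * n₂) ^ i) s' := by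
    intro i
    show ((n₁ * n₂) ^ (ix (((m₁ * m₂) ^ i) s))) s' = _
    rw [hper', ← hper]
    exact hix _
  have hinj : Function.Injective g₀ := by
    intro a b hab
    rw [← hix a, ← hix b, hper, ← hper']
    exact hab
  let g : Perm A := Equiv.ofBijective g₀ (Finite.injective_iff_bijective.1 hinj)
  have hg : ∀ i : ℤ, g (((m₁ * m₂) ^ i) s) = ((n₁ * n₂) ^ i) s' := hg₀
  have hc1 : ∀ a, g (m₁ a) = n₁ (g a) := by
    intro a
    rw [← hix a, u1, hg, hg, v1]
  have hc2 : ∀ a, g (m₂ a) = n₂ (g a) := by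
    intro a
    rw [← hix a, u2, hg, hg, v2]
  have hk1 : ∀ a b, x.1 a = x.1 b ↔ (fun a => p.1 (g a)) a = (fun a => p.1 (g a)) b := by
    intro a b
    constructor
    · intro h
      rcases a4 a b h with rfl | rfl
      · rfl
      · show p.1 (g a) = p.1 (g (m₁ a))
        rw [hc1, c1]
    · intro h
      rcases c4 (g a) (g b) h with h | h
      · rw [g.injective h]
      · rw [← hc1] at h
        rw [g.injective h, a1]
  have hk2 : ∀ a b, x.2 a = x.2 b ↔ (fun a => p.2 (g a)) a = (fun a => p.2 (g a)) b := by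
    intro a b
    constructor
    · intro h
      rcases b4 a b h with rfl | rfl
      · rfl
      · show p.2 (g a) = p.2 (g (m₂ a))
        rw [hc2, d1]
    · intro h
      rcases d4 (g a) (g b) h with h | h
      · rw [g.injective h]
      · rw [← hc2] at h
        rw [g.injective h, b1]
  obtain ⟨τ₁, t1, t2⟩ := relabel_of_ker k x.1 _ hx1 (Y3_comp k p.1 hp1 g) hk1
  obtain ⟨τ₂, t3, t4⟩ := relabel_of_ker k x.2 _ hx2 (Y3_comp k p.2 hp2 g) hk2
  refine ⟨g, τ₁, τ₂, t1, t3, ?_⟩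
  apply Prod.ext
  · funext a
    exact t2 a
  · funext a
    exact t4 a

end Crest.Agent.SX
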