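import Crest.Agent.SX_Y0

/-!
# S0297, task SX-Y4: the zigzag
-/

set_option autoImplicit false

namespace Crest.Agent.SX

open Equiv Equiv.Perm

variable {A : Type} [Fintype A] [DecidableEq A]

private def y4Z (k : ℕ) : Finset (ℕ × ℕ) :=
  Finset.HasAntidiagonal.antidiagonal k ∪ Finset.HasAntidiagonal.antidiagonal (k + 1)

private theorem y4Z_mem (k : ℕ) (z : ℕ × ℕ) : z ∈ y4Z k ↔ (k ≤ z.1 + z.2 ∧ z.1 + z.2 < k + 2) := by
  unfold y4Z
  rw [Finset.mem_union, Finset.HasAntidiagonal.mem_antidiagonal, Finset.HasAntidiagonal.mem_antidiagonal]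
  omega

private theorem y4Z_card (k : ℕ) : (y4Z k).card = 2 * k + 3 := by
  unfold y4Z
  rw [Finset.card_union_of_disjoint, Finset.Nat.card_antidiagonal, Finset.Nat.card_antidiagonal]
  · ring
  · rw [Finset.disjoint_left]
    intro z hz hz'
    rw [Finset.HasAntidiagonal.mem_antidiagonal] at hz hz'
    omega

private theorem y4_image (k : ℕ) (hA : Fintype.card A = 2 * k + 3) (f : A → ℕ × ℕ)
    (hinj : Function.Injective f)
    (hp : ∀ a, k ≤ (f a).1 + (f a).2 ∧ (f a).1 + (f a).2 < k + 2) :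
    Finset.univ.image f = y4Z k := by
  refine Finset.eq_of_subset_of_card_le ?_ ?_
  · intro z hz
    rw [Finset.mem_image] at hz
    obtain ⟨a, _, rfl⟩ := hz
    rw [y4Z_mem]
    exact hp a
  · rw [y4Z_card, Finset.card_image_of_injective _ hinj, Finset.card_univ, hA]

private theorem y4_surj (k : ℕ) (hA : Fintype.card A = 2 * k + 3) (f : A → ℕ × ℕ)
    (hinj : Function.Injective f)
    (hp : ∀ a, k ≤ (f a).1 + (f a).2 ∧ (f a).1 + (f a).2 < k + 2) (r c : ℕ)
    (hrc : k ≤ r + c ∧ r + c < k + 2) : ∃ a, f a = (r, c) := by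
  have h1 : (r, c) ∈ Finset.univ.image f := by
    rw [y4_image k hA f hinj hp, y4Z_mem]
    exact hrc
  rw [Finset.mem_image] at h1
  obtain ⟨a, _, ha⟩ := h1
  exact ⟨a, ha⟩

private theorem y4_two (k : ℕ) (hA : Fintype.card A = 2 * k + 3) (f : A → ℕ × ℕ)
    (hinj : Function.Injective f)
    (hp : ∀ a, k ≤ (f a).1 + (f a).2 ∧ (f a).1 + (f a).2 < k + 2) :
    TwoW k (fun a => (f a).1) := by
  have key : ∀ i, (Finset.univ.filter fun a => (f a).1 = i).card =
      ((y4Z k).filter fun z => z.1 = i).card := by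
    intro i
    rw [← y4_image k hA f hinj hp, Finset.filter_image,
      Finset.card_image_of_injective _ hinj]
  refine ⟨fun a => ?_, fun i hi => ?_, ?_⟩
  · have := hp a
    show (f a).1 ≤ k + 1
    omega
  · rw [key i]
    have h1 : ((y4Z k).filter fun z => z.1 = i) = {(i, k - i), (i, k + 1 - i)} := by
      ext ⟨r, c⟩
      rw [Finset.mem_filter, y4Z_mem, Finset.mem_insert, Finset.mem_singleton]
      simp only [Prod.mk.injEq]
      omega
    rw [h1, Finset.card_pair]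
    intro h
    rw [Prod.mk.injEq] at h
    omega
  · rw [key (k + 1)]
    have h1 : ((y4Z k).filter fun z => z.1 = k + 1) = {(k + 1, 0)} := by
      ext ⟨r, c⟩
      rw [Finset.mem_filter, y4Z_mem, Finset.mem_singleton]
      simp only [Prod.mk.injEq]
      omega
    rw [h1, Finset.card_singleton]

/-- If `(p.1, p.2)` is injective with image in the two antidiagonals `r + c ∈ {k, k + 1}` (which have
`2 k + 3 = |A|` cells, so it is a bijection onto them) then both words are of type `TwoW`. -/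
theorem zigzag_two (k : ℕ) (hA : Fintype.card A = 2 * k + 3) (p : WW A)
    (hinj : Function.Injective fun a => (p.1 a, p.2 a))
    (hp : ∀ a, k ≤ p.1 a + p.2 a ∧ p.1 a + p.2 a < k + 2) : TwoW k p.1 ∧ TwoW k p.2 := by
  refine ⟨y4_two k hA (fun a => (p.1 a, p.2 a)) hinj hp,
    y4_two k hA (fun a => (p.2 a, p.1 a)) ?_ ?_⟩
  · intro a b hab
    rw [Prod.mk.injEq] at hab
    exact hinj (Prod.ext hab.2 hab.1)
  · intro a
    have := hp a
    show k ≤ p.2 a + p.1 a ∧ p.2 a + p.1 a < k + 2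
    omega

/-- The zigzag is connected: `(k+1, 0), (k, 0), (k, 1), (k-1, 1), (k-1, 2), …, (0, k), (0, k+1)`. -/
theorem zigzag_conn (k : ℕ) (hA : Fintype.card A = 2 * k + 3) (p : WW A)
    (hinj : Function.Injective fun a => (p.1 a, p.2 a))
    (hp : ∀ a, k ≤ p.1 a + p.2 a ∧ p.1 a + p.2 a < k + 2) : Conn p := by
  have hsurj : ∀ r c, k ≤ r + c ∧ r + c < k + 2 → ∃ a, p.1 a = r ∧ p.2 a = c := by
    intro r c hrc
    obtain ⟨a, ha⟩ := y4_surj k hA (fun a => (p.1 a, p.2 a)) hinj hp r c hrc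
    rw [Prod.mk.injEq] at ha
    exact ⟨a, ha⟩
  intro S hS hcl
  obtain ⟨a0, ha0⟩ := hS
  -- `P i`: the whole row `i` is in `S`
  have hrow : ∀ a ∈ S, ∀ b, p.1 b = p.1 a → b ∈ S := fun a ha b hb => hcl a ha b (Or.inl hb.symm)
  have hdown : ∀ i, 1 ≤ i → i ≤ k + 1 → (∀ a, p.1 a = i → a ∈ S) →
      (∀ a, p.1 a = i - 1 → a ∈ S) := by
    intro i hi1 hi2 hP b hb
    obtain ⟨a, ha1, ha2⟩ := hsurj i (k + 1 - i) (by omega)
    obtain ⟨d, hd1, hd2⟩ := hsurj (i - 1) (k + 1 - i) (by omega)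
    have hdS : d ∈ S := hcl a (hP a ha1) d (Or.inr (by rw [ha2, hd2]))
    exact hrow d hdS b (by rw [hb, hd1])
  have hup : ∀ i, i ≤ k → (∀ a, p.1 a = i → a ∈ S) → (∀ a, p.1 a = i + 1 → a ∈ S) := by
    intro i hi hP b hb
    obtain ⟨a, ha1, ha2⟩ := hsurj i (k - i) (by omega)
    obtain ⟨d, hd1, hd2⟩ := hsurj (i + 1) (k - i) (by omega)
    have hdS : d ∈ S := hcl a (hP a ha1) d (Or.inr (by rw [ha2, hd2]))
    exact hrow d hdS b (by rw [hb, hd1])
  have hi0 : p.1 a0 ≤ k + 1 := by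
    have := hp a0
    omega
  have hP0 : ∀ a, p.1 a = p.1 a0 → a ∈ S := fun a ha => hrow a0 ha0 a ha
  have hzero : ∀ i, i ≤ k + 1 → (∀ a, p.1 a = i → a ∈ S) → (∀ a, p.1 a = 0 → a ∈ S) := by
    intro i
    induction i with
    | zero => exact fun _ h => h
    | succ i ih =>
      intro hi hP
      exact ih (by omega) (hdown (i + 1) (by omega) hi hP)
  have hall : ∀ i, i ≤ k + 1 → (∀ a, p.1 a = i → a ∈ S) := by
    intro i
    induction i with
    | zero => exact fun _ => hzero (p.1 a0) hi0 hP0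
    | succ i ih =>
      intro hi
      exact hup i (by omega) (ih (by omega))
  ext a
  refine ⟨fun _ => Finset.mem_univ a, fun _ => ?_⟩
  refine hall (p.1 a) ?_ a rfl
  have := hp a
  omega

end Crest.Agent.SX
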