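import Crest.Agent.SX_Y1
import Crest.Agent.SX_Y2
import Crest.Agent.SX_Y3
import Crest.Agent.SX_Y4

/-!
# S0297: the block with two columns is sharp (assembled)
-/

set_option autoImplicit false

namespace Crest.Agent.SX

open Equiv Equiv.Perm

variable {A : Type} [Fintype A] [DecidableEq A]

theorem sharp_two (k : ℕ) (hA : Fintype.card A = 2 * k + 3) (R : AddSubgroup ℂ) (p : WW A)
    (hinj : Function.Injective fun a => (p.1 a, p.2 a))
    (hp : ∀ a, k ≤ p.1 a + p.2 a ∧ p.1 a + p.2 a < k + 2)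
    (F : WW A → ℂ) (hF : F ∈ VV (Ω := A) (two k)) (hR : ∀ g, F (pull g p) ∈ R) :
    ∀ x, F x ∈ R := by
  obtain ⟨hp1, hp2⟩ := zigzag_two k hA p hinj hp
  have hpc := zigzag_conn k hA p hinj hp
  refine conn_reduce k hA (fun x => F x ∈ R) ?_ ?_ ?_
  · intro x hx
    have : F x = 0 := by
      by_contra h
      exact hx (VV_two_support k F hF x h)
    show F x ∈ R
    rw [this]
    exact R.zero_mem
  · intro x hx1 hx2 hx
    obtain ⟨g, τ₁, τ₂, h1, h2, rfl⟩ := conn_iso k hA x p hx1 hx2 hp1 hp2 hx hpc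
    show F (fun a => τ₁ ((pull g p).1 a), fun a => τ₂ ((pull g p).2 a)) ∈ R
    rw [VV_two_relabel k F hF (pull g p) τ₁ τ₂ h1 h2]
    exact hR g
  · intro x a b s hab hw hs hsa h3 h4
    have h5 := VV_two_rel k F hF x a b s hab hw hsa
    have : F x = -(F (x.1 ∘ swap a s, x.2) + F (x.1 ∘ swap b s, x.2)) := by
      linear_combination h5
    show F x ∈ R
    rw [this]
    exact R.neg_mem (R.add_mem h3 h4)

/-- The whole tensor square of the two-column shape is good. -/
theorem two_good (k : ℕ) (hA : Fintype.card A = 2 * k + 3) (R : AddSubgroup ℂ) (p : WW A)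
    (hinj : Function.Injective fun a => (p.1 a, p.2 a))
    (hp : ∀ a, k ≤ p.1 a + p.2 a ∧ p.1 a + p.2 a < k + 2) :
    Good R (two k) p (VVRep A (two k)) :=
  ⟨(VV (Ω := A) (two k)).subtype, Subtype.val_injective, fun _ _ _ => rfl, fun w => w.2,
    fun w hw => sharp_two k hA R p hinj hp w.1 w.2 hw⟩

end Crest.Agent.SX
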