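import Crest.Agent.SX_Y0

/-!
# S0297, task SX-Y5: small counting lemmas
-/

set_option autoImplicit false

namespace Crest.Agent.SX

open Equiv Equiv.Perm

private theorem Y5_sum (k : ℕ) : 2 * ∑ i ∈ Finset.range k, (i + 1) = k * (k + 1) := by
  induction k with
  | zero => simp
  | succ n ih =>
    rw [Finset.sum_range_succ, mul_add, ih]
    ring

private def Y5_tri (K : ℕ) : Finset (ℕ × ℕ) :=
  (Finset.range K).biUnion (fun s => Finset.HasAntidiagonal.antidiagonal s)

private theorem Y5_mem_tri (K : ℕ) (x : ℕ × ℕ) : x ∈ Y5_tri K ↔ x.1 + x.2 < K := by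
  unfold Y5_tri
  simp

private theorem Y5_card_tri (K : ℕ) : 2 * (Y5_tri K).card = K * (K + 1) := by
  unfold Y5_tri
  rw [Finset.card_biUnion]
  · simp only [Finset.Nat.card_antidiagonal]
    exact Y5_sum K
  · intro i _ j _ hij
    simp only [Function.onFun]
    rw [Finset.disjoint_left]
    intro x hx hx'
    rw [Finset.HasAntidiagonal.mem_antidiagonal] at hx hx'
    exact hij (hx.symm.trans hx')

/-- The sum of a word of type `TwoW`. -/
theorem sum_TwoW {A : Type} [Fintype A] [DecidableEq A] (k : ℕ) (w : A → ℕ) (hw : TwoW k w) :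
    ∑ a, w a = (k + 1) * (k + 1) := by
  obtain ⟨h1, h2, h3⟩ := hw
  have hmap : ∀ a ∈ (Finset.univ : Finset A), w a ∈ Finset.range (k + 2) := by
    intro a _
    rw [Finset.mem_range]
    have := h1 a
    omega
  rw [← Finset.sum_fiberwise_of_maps_to hmap]
  have e1 : ∀ i ∈ Finset.range (k + 2), ∑ a ∈ Finset.univ.filter (fun a => w a = i), w a =
      (Finset.univ.filter (fun a => w a = i)).card * i := by
    intro i _
    rw [Finset.sum_congr rfl (g := fun _ => i)]
    · rw [Finset.sum_const, smul_eq_mul]
    · intro a ha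
      exact (Finset.mem_filter.1 ha).2
  rw [Finset.sum_congr rfl e1, Finset.sum_range_succ, h3]
  have e2 : ∑ i ∈ Finset.range (k + 1), (Finset.univ.filter (fun a => w a = i)).card * i =
      ∑ i ∈ Finset.range (k + 1), 2 * i := by
    apply Finset.sum_congr rfl
    intro i hi
    rw [Finset.mem_range] at hi
    rw [h2 i (by omega)]
  rw [e2, ← Finset.mul_sum]
  have e3 : (∑ i ∈ Finset.range (k + 1), i) * 2 = (k + 1) * k := by
    have := Finset.sum_range_id_mul_two (k + 1)
    simpa using this
  nlinarith [e3]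

/-- A staircase pair of words is a bijection onto the staircase `r + c < K`, so the number of
letters with `r + c < k` is `k (k + 1) / 2`. -/
theorem stair_card_lt {Ω : Type} [Fintype Ω] [DecidableEq Ω] (K k : ℕ) (hk : k ≤ K)
    (hΩ : 2 * Fintype.card Ω = K * (K + 1)) (p : WW Ω) (hp : IsStair K p) :
    2 * Fintype.card {x // p.1 x + p.2 x < k} = k * (k + 1) := by
  classical
  have himg : (Finset.univ : Finset Ω).image (fun a => (p.1 a, p.2 a)) = Y5_tri K := by
    apply Finset.eq_of_subset_of_card_le
    · intro x hx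
      rw [Finset.mem_image] at hx
      obtain ⟨a, _, rfl⟩ := hx
      rw [Y5_mem_tri]
      exact hp.2 a
    · rw [Finset.card_image_of_injective _ hp.1, Finset.card_univ]
      have := Y5_card_tri K
      omega
  have h2 : ((Finset.univ : Finset Ω).filter (fun x => p.1 x + p.2 x < k)).image (fun a => (p.1 a, p.2 a)) =
      Y5_tri k := by
    ext x
    rw [Finset.mem_image, Y5_mem_tri]
    constructor
    · rintro ⟨a, ha, rfl⟩
      exact (Finset.mem_filter.1 ha).2
    · intro hx
      have hxK : x ∈ Y5_tri K := by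
        rw [Y5_mem_tri]
        omega
      rw [← himg, Finset.mem_image] at hxK
      obtain ⟨a, _, rfl⟩ := hxK
      exact ⟨a, Finset.mem_filter.2 ⟨Finset.mem_univ _, hx⟩, rfl⟩
  have h3 := congrArg Finset.card h2
  rw [Finset.card_image_of_injective _ hp.1] at h3
  rw [Fintype.card_subtype, h3]
  exact Y5_card_tri k

/-- Number of cells of the shape `dh a b c d`. -/
theorem card_two (k : ℕ) : Fintype.card (Cel (two k)) = 2 * k + 3 := by
  rw [Fintype.card_sigma, Fintype.sum_bool]
  simp only [Fintype.card_fin, two]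
  simp
  omega

theorem card_stair (k : ℕ) : 2 * Fintype.card (Cel (stair k)) = k * (k + 1) := by
  rw [Fintype.card_sigma]
  simp only [Fintype.card_fin]
  have e : ∑ x : Fin k, stair k x = ∑ x : Fin k, ((x : ℕ) + 1) := rfl
  rw [e, Fin.sum_univ_eq_sum_range (fun i => i + 1) k]
  exact Y5_sum k

end Crest.Agent.SX
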