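import Crest.Agent.SX_S0

/-!
# S0297: the map `Θ` from functions on words to the tensor square of the two-column shape

For `t₀ : A ≃ Cel (two k)`, `eps2 t₀ u w` is the sign of the permutation `g` with
`u x = column (t₀ (g x))`, `w x = row (t₀ (g x))`, or `0`. `Dm` is a `4 × 4` matrix (rows `Fin 4`,
columns `Bool × Bool`) with `∑ Dm i a a' * Dm j b b' * eb a b * eb a' b' = cc i` if `i = j`, else `0`.
-/

set_option autoImplicit false

namespace Crest.Agent.SX

open Equiv Equiv.Perm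

variable {A : Type} [Fintype A] [DecidableEq A] {k : ℕ}

open scoped Classical in
/-- The sign matrix of the two-column shape. -/
noncomputable def eps2 (t₀ : A ≃ Cel (two k)) (u : A → Bool) (w : A → ℕ) : ℤ :=
  ∑ g : Perm A, if (∀ x, u x = (t₀ (g x)).1) ∧ (∀ x, w x = ((t₀ (g x)).2 : ℕ)) then
    (sign g : ℤ) else 0

/-- The `4 × 4` matrix. -/
def Dm : Fin 4 → Bool → Bool → ℤ
  | 0, false, false => 1
  | 0, true, true => 1
  | 1, false, false => 1
  | 1, true, true => -1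
  | 2, false, true => 1
  | 2, true, false => -1
  | 3, false, true => 1
  | 3, true, false => 1
  | _, _, _ => 0

/-- The alternating form on `Bool`. -/
def eb : Bool → Bool → ℤ
  | false, true => 1
  | true, false => -1
  | _, _ => 0

/-- The diagonal entries. -/
def cc : Fin 4 → ℤ
  | 0 => 2
  | 1 => -2
  | 2 => 2
  | 3 => -2

theorem Dm_orth : ∀ i j : Fin 4, (∑ a : Bool, ∑ a' : Bool, ∑ b : Bool, ∑ b' : Bool,
    Dm i a a' * Dm j b b' * (eb a b * eb a' b')) = if i = j then cc i else 0 := by decide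

/-- The map `Θ`. -/
noncomputable def Tht (t₀ : A ≃ Cel (two k)) : ((A → ℕ) → ℂ) →ₗ[ℂ] (WW A → ℂ) where
  toFun F := fun x => ∑ u : A → Bool, ∑ u' : A → Bool, ∑ r : A → Fin 4,
    F (kw r) * ((∏ a, Dm (r a) (u a) (u' a) : ℤ) : ℂ) * (eps2 t₀ u x.1 : ℂ) * (eps2 t₀ u' x.2 : ℂ)
  map_add' F G := by
    ext x
    simp [add_mul, Finset.sum_add_distrib]
  map_smul' a F := by
    ext x
    simp [mul_assoc, Finset.mul_sum]

theorem Tht_apply (t₀ : A ≃ Cel (two k)) (F : (A → ℕ) → ℂ) (x : WW A) :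
    Tht t₀ F x = ∑ u : A → Bool, ∑ u' : A → Bool, ∑ r : A → Fin 4,
      F (kw r) * ((∏ a, Dm (r a) (u a) (u' a) : ℤ) : ℂ) * (eps2 t₀ u x.1 : ℂ) *
        (eps2 t₀ u' x.2 : ℂ) := rfl

/-- The row word of a tableau. -/
def rowW {Ω ι : Type} {h : ι → ℕ} (t : Ω ≃ Cel h) : Ω → ℕ := fun x => ((t x).2 : ℕ)

/-- The letter in row `i ≤ k` of the first (longer) column. -/
def c0 (t₀ : A ≃ Cel (two k)) (i : Fin (k + 1)) : A :=
  t₀.symm ⟨false, ⟨i, show (i : ℕ) < k + 2 by have := i.2; omega⟩⟩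

/-- The letter in row `i ≤ k` of the second column. -/
def c1 (t₀ : A ≃ Cel (two k)) (i : Fin (k + 1)) : A :=
  t₀.symm ⟨true, ⟨i, show (i : ℕ) < k + 1 from i.2⟩⟩

/-- The letter in row `k + 1`. -/
def cs (t₀ : A ≃ Cel (two k)) : A :=
  t₀.symm ⟨false, ⟨k + 1, show k + 1 < k + 2 by omega⟩⟩

/-- The shape with rows `2 a + 1, 2 b, 2 c, 2 d`. -/
def dh (a b c d : ℕ) : Fin (2 * a + 1) → ℕ := fun j =>
  1 + (if (j : ℕ) < 2 * b then 1 else 0) + (if (j : ℕ) < 2 * c then 1 else 0) +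
    (if (j : ℕ) < 2 * d then 1 else 0)

end Crest.Agent.SX
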