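import Crest.Agent.SX_API
import Crest.Agent.SX_T0

/-!
# S0297, task SX-Zero: the empty staircase; cells of `dh`
-/

set_option autoImplicit false

namespace Crest.Agent.SX

open Equiv Equiv.Perm

/-- No letters: the group is trivial, an irreducible representation has dimension one, `pt t = 1`
for the unique tableau `t`. `j w = φ w • 1` for an isomorphism `φ : W ≃ ℂ`
(`Representation.IsIrreducible.finrank_eq_one_of_isMulCommutative`). -/
theorem good_zero (R : AddSubgroup ℂ) {Ω : Type} [Fintype Ω] [DecidableEq Ω]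
    (hΩ : Fintype.card Ω = 0) (p : WW Ω) {W : Type} [AddCommGroup W] [Module ℂ W]
    [FiniteDimensional ℂ W] (σ : Representation ℂ (Perm Ω) W) (hσ : σ.IsIrreducible) :
    Good R (stair 0) p σ := by
  have hE : IsEmpty Ω := Fintype.card_eq_zero_iff.1 hΩ
  have hC : IsEmpty (Cel (stair 0)) := ⟨fun c => c.1.elim0⟩
  have hWs : ∀ x y : WW Ω, x = y := fun x y => Prod.ext (Subsingleton.elim _ _) (Subsingleton.elim _ _)
  have hcomm : IsMulCommutative (Perm Ω) := ⟨⟨fun a b => Subsingleton.elim _ _⟩⟩
  have hfr : Module.finrank ℂ W = 1 := hσ.finrank_eq_one_of_isMulCommutative σ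
  have hfr' : Module.finrank ℂ W = Module.finrank ℂ ℂ := by
    rw [hfr, Module.finrank_self]
  let φ : W ≃ₗ[ℂ] ℂ := LinearEquiv.ofFinrankEq W ℂ hfr'
  let j : W →ₗ[ℂ] (WW Ω → ℂ) := LinearMap.pi fun _ => (φ : W →ₗ[ℂ] ℂ)
  have hj : ∀ w x, j w x = φ w := fun w x => rfl
  refine ⟨j, ?_, ?_, ?_, ?_⟩
  · intro w w' h
    apply φ.injective
    have := congrFun h p
    rwa [hj, hj] at this
  · intro g w x
    have hg : g = 1 := Subsingleton.elim _ _
    rw [hg, map_one]
    rfl
  · intro w
    let t : Ω ≃ Cel (stair 0) := Equiv.equivOfIsEmpty _ _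
    have h1 : ∀ v : Ω → ℕ, pt t v = 1 := by
      intro v
      have : v = fun x => ((t x).2 : ℕ) := Subsingleton.elim _ _
      rw [this]
      exact pt_self t
    have h2 : j w = φ w • (fun x : WW Ω => pt t x.1 * pt t x.2) := by
      funext x
      rw [hj, Pi.smul_apply, h1, h1, mul_one, smul_eq_mul, mul_one]
    rw [h2]
    exact Submodule.smul_mem _ _ (gen_mem_VV t t)
  · intro w h x
    have h1 := h 1
    rwa [hj] at h1

/-- Number of cells of the shape `dh a b c d`. -/
theorem card_dh (a b c d : ℕ) (hb : b ≤ a) (hc : c ≤ b) (hd : d ≤ c) :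
    Fintype.card (Cel (dh a b c d)) = 2 * (a + b + c + d) + 1 := by
  have key : ∀ m : ℕ, m ≤ 2 * a + 1 →
      ∑ j : Fin (2 * a + 1), (if (j : ℕ) < m then 1 else 0) = m := by
    intro m hm
    rw [Fin.sum_univ_eq_sum_range (fun j => if j < m then 1 else 0) (2 * a + 1),
      ← Finset.sum_filter, Finset.sum_const, smul_eq_mul, mul_one]
    have : (Finset.range (2 * a + 1)).filter (fun j => j < m) = Finset.range m := by
      ext j
      simp only [Finset.mem_filter, Finset.mem_range]
      omega
    rw [this, Finset.card_range]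
  have h0 : Fintype.card (Cel (dh a b c d)) = ∑ j : Fin (2 * a + 1), dh a b c d j := by
    rw [Fintype.card_sigma]
    exact Finset.sum_congr rfl fun j _ => Fintype.card_fin _
  rw [h0]
  simp only [dh]
  rw [Finset.sum_add_distrib, Finset.sum_add_distrib, Finset.sum_add_distrib,
    key (2 * b) (by omega), key (2 * c) (by omega), key (2 * d) (by omega)]
  simp only [Finset.sum_const, Finset.card_univ, Fintype.card_fin, smul_eq_mul, mul_one]
  ring

end Crest.Agent.SX
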