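import Crest.Agent.SX_Val
import Crest.Agent.SX_Pair
import Crest.Agent.SX_Step
import Crest.Agent.SX_One
import Crest.Agent.SX_Y
import Crest.Agent.SX_S4
import Crest.Agent.SX_C4
import Crest.Agent.SX_U2
import Crest.Agent.SX_T5
import Crest.Agent.SX_Comb
import Crest.Agent.SX_Rel2
import Crest.Agent.SX_Y5
import Crest.Agent.SX_Zero

/-!
# S0297: the main induction (assembled by helper61)
-/

set_option autoImplicit false

namespace Crest.Agent.SX

open Equiv Equiv.Perm TensorProduct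

/-- The statement proved by induction on `k`. -/
def Saxl (V : ValuationSubring ℂ) (k : ℕ) : Prop :=
  ∀ (Ω : Type) [Fintype Ω] [DecidableEq Ω], 2 * Fintype.card Ω = k * (k + 1) →
    ∀ p : WW Ω, IsStair k p → ∀ (W : Type) [AddCommGroup W] [Module ℂ W] [FiniteDimensional ℂ W]
      (σ : Representation ℂ (Perm Ω) W), σ.IsIrreducible → Good (vAdd V) (stair k) p σ

/-- The step with one column, on a sum type. -/
theorem step_one (V : ValuationSubring ℂ) (hV : (2 : ℂ)⁻¹ ∉ V) (k : ℕ) (ih : Saxl V k)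
    {A B : Type} [Fintype A] [DecidableEq A] [Fintype B] [DecidableEq B]
    (hA : Fintype.card A = k + 1) (hB : 2 * Fintype.card B = k * (k + 1))
    (p : WW (A ⊕ B)) (hp : IsStair (k + 1) p) (hpA : ∀ a, k ≤ p.1 (Sum.inl a) + p.2 (Sum.inl a))
    (hpB : ∀ b, p.1 (Sum.inr b) + p.2 (Sum.inr b) < k)
    {W : Type} [AddCommGroup W] [Module ℂ W] [FiniteDimensional ℂ W]
    (σ : Representation ℂ (Perm (A ⊕ B)) W) (hσ : σ.IsIrreducible)
    (hℓ : ∃ ℓ : W →ₗ[ℂ] ℂ, ℓ ≠ 0 ∧ ∀ (g : Perm A) w, ℓ (σ (Perm.sumCongr g 1) w) = ℓ w) :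
    Good (vAdd V) (stair (k + 1)) p σ := by
  obtain ⟨ℓ, hℓ0, hℓ1⟩ := hℓ
  obtain ⟨U₂, _, _, _, τ₂, hτ₂, F, hF0, hF⟩ :=
    exists_pair σ (Representation.trivial ℂ (Perm A) ℂ) ℓ hℓ0 (fun g w => hℓ1 g w)
  have hsum : ∀ a : A, p.1 (Sum.inl a) + p.2 (Sum.inl a) = k := fun a => by
    have h1 := hp.2 (Sum.inl a)
    have h2 := hpA a
    omega
  have hinj1 : Function.Injective (resl p).1 := by
    intro a a' h
    have h1 : p.1 (Sum.inl a) = p.1 (Sum.inl a') := h
    have h2 : (fun x => (p.1 x, p.2 x)) (Sum.inl a) = (fun x => (p.1 x, p.2 x)) (Sum.inl a') := by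
      have ha := hsum a
      have ha' := hsum a'
      simp only [Prod.mk.injEq]
      omega
    exact Sum.inl_injective (hp.1 h2)
  have hinj2 : Function.Injective (resl p).2 := by
    intro a a' h
    have h1 : p.2 (Sum.inl a) = p.2 (Sum.inl a') := h
    have h2 : (fun x => (p.1 x, p.2 x)) (Sum.inl a) = (fun x => (p.1 x, p.2 x)) (Sum.inl a') := by
      have ha := hsum a
      have ha' := hsum a'
      simp only [Prod.mk.injEq]
      omega
    exact Sum.inl_injective (hp.1 h2)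
  have h1 : Good (vAdd V) (fun _ : Unit => k + 1) (resl p) (Representation.trivial ℂ (Perm A) ℂ) := by
    refine one_good (k + 1) hA (vAdd V) (resl p) hinj1 (fun a => ?_) hinj2 (fun a => ?_)
    · have h1 := hsum a
      show p.1 (Sum.inl a) < k + 1
      omega
    · have h1 := hsum a
      show p.2 (Sum.inl a) < k + 1
      omega
  have h2 : Good (vAdd V) (stair k) (resr p) τ₂ := by
    refine ih B hB (resr p) ⟨?_, hpB⟩ U₂ τ₂ hτ₂
    intro b b' h
    exact Sum.inr_injective (hp.1 h)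
  have h3 := step_gen (fun _ : Unit => k + 1) (stair k) (vAdd V) (vAdd_ne_top hV) k p hpA hpB
    (by
      rw [wt_one, Finset.sum_congr rfl fun a _ => hsum a]
      simp [hA]) σ hσ (Representation.trivial ℂ (Perm A) ℂ) τ₂ h1 h2 F hF0 hF
  obtain ⟨j, hj1, hj2, hj3, hj4⟩ := h3
  exact ⟨j, hj1, hj2, fun w => by rw [← VV_stair_succ]; exact hj3 w, hj4⟩

/-- The step with two columns, on a sum type. -/
theorem step_two (V : ValuationSubring ℂ) (hV : (2 : ℂ)⁻¹ ∉ V) (k : ℕ) (ih : Saxl V k)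
    {A B : Type} [Fintype A] [DecidableEq A] [Fintype B] [DecidableEq B]
    (hA : Fintype.card A = 2 * k + 3) (hB : 2 * Fintype.card B = k * (k + 1))
    (p : WW (A ⊕ B)) (hp : IsStair (k + 2) p) (hpA : ∀ a, k ≤ p.1 (Sum.inl a) + p.2 (Sum.inl a))
    (hpB : ∀ b, p.1 (Sum.inr b) + p.2 (Sum.inr b) < k)
    {W : Type} [AddCommGroup W] [Module ℂ W] [FiniteDimensional ℂ W]
    (σ : Representation ℂ (Perm (A ⊕ B)) W) (hσ : σ.IsIrreducible)
    (hℓ : ∃ f : W →ₗ[ℂ] VV (Ω := A) (two k), f ≠ 0 ∧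
      ∀ (g : Perm A) w, f (σ (Perm.sumCongr g 1) w) = VVRep A (two k) g (f w)) :
    Good (vAdd V) (stair (k + 2)) p σ := by
  obtain ⟨f, hf0, hf1⟩ := hℓ
  obtain ⟨U₂, _, _, _, τ₂, hτ₂, F, hF0, hF⟩ := exists_pair σ (VVRep A (two k)) f hf0 hf1
  have hinj : Function.Injective fun a => ((resl p).1 a, (resl p).2 a) := by
    intro a a' h
    exact Sum.inl_injective (hp.1 h)
  have hran : ∀ a, k ≤ (resl p).1 a + (resl p).2 a ∧ (resl p).1 a + (resl p).2 a < k + 2 :=
    fun a => ⟨hpA a, hp.2 (Sum.inl a)⟩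
  have h1 : Good (vAdd V) (two k) (resl p) (VVRep A (two k)) :=
    two_good k hA (vAdd V) (resl p) hinj hran
  have h2 : Good (vAdd V) (stair k) (resr p) τ₂ := by
    refine ih B hB (resr p) ⟨?_, hpB⟩ U₂ τ₂ hτ₂
    intro b b' h
    exact Sum.inr_injective (hp.1 h)
  have hw : ∑ a, (p.1 (Sum.inl a) + p.2 (Sum.inl a)) = 2 * wt (two k) := by
    obtain ⟨t1, t2⟩ := zigzag_two k hA (resl p) hinj hran
    have e1 := sum_TwoW k _ t1
    have e2 := sum_TwoW k _ t2
    rw [Finset.sum_add_distrib, wt_two]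
    have e1' : ∑ a, p.1 (Sum.inl a) = (k + 1) * (k + 1) := e1
    have e2' : ∑ a, p.2 (Sum.inl a) = (k + 1) * (k + 1) := e2
    rw [e1', e2']
    ring
  have h3 := step_gen (two k) (stair k) (vAdd V) (vAdd_ne_top hV) k p hpA hpB hw σ hσ
    (VVRep A (two k)) τ₂ h1 h2 F hF0 hF
  obtain ⟨j, hj1, hj2, hj3, hj4⟩ := h3
  exact ⟨j, hj1, hj2, fun w => by rw [← VV_stair_two]; exact hj3 w, hj4⟩

/-- `Good` for the sign twist. -/
theorem Good_of_twist (V : ValuationSubring ℂ) (hV : (2 : ℂ)⁻¹ ∉ V) (k : ℕ)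
    {Ω : Type} [Fintype Ω] [DecidableEq Ω] (hΩ : 2 * Fintype.card Ω = k * (k + 1)) (p : WW Ω)
    {W : Type} [AddCommGroup W] [Module ℂ W] (σ : Representation ℂ (Perm Ω) W)
    (hG : Good (vAdd V) (stair k) p (sgnTwist σ)) : Good (vAdd V) (stair k) p σ := by
  rw [← sgnTwist_sgnTwist σ]
  refine sign_twist V hV ?_ p (sgnTwist σ) hG
  refine Fintype.card_eq.1 ?_
  have := card_stair k
  omega

/-- The case of a representation which embeds in a Specht module with `l ≤ k + 1` columns of heights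
`≤ k + 1`, on a sum type. -/
theorem step_box (V : ValuationSubring ℂ) (hV : (2 : ℂ)⁻¹ ∉ V) (k : ℕ) (ih : Saxl V k)
    {A B : Type} [Fintype A] [DecidableEq A] [Fintype B] [DecidableEq B]
    (hA : Fintype.card A = 2 * k + 3) (hB : 2 * Fintype.card B = k * (k + 1))
    (p : WW (A ⊕ B)) (hp : IsStair (k + 2) p) (hpA : ∀ a, k ≤ p.1 (Sum.inl a) + p.2 (Sum.inl a))
    (hpB : ∀ b, p.1 (Sum.inr b) + p.2 (Sum.inr b) < k)
    {W : Type} [AddCommGroup W] [Module ℂ W] [FiniteDimensional ℂ W] [Nontrivial W]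
    (σ : Representation ℂ (Perm (A ⊕ B)) W) (hσ : σ.IsIrreducible)
    (l : ℕ) (h : Fin l → ℕ) (hanti : Antitone h) (hl : l ≤ k + 1) (hk : ∀ i, h i ≤ k + 1)
    (hsum : ∑ i, h i = Fintype.card (A ⊕ B))
    (f : W →ₗ[ℂ] ((A ⊕ B → ℕ) → ℂ)) (hinj : Function.Injective f)
    (hf : ∀ g w x, f (σ g w) x = f w (x ∘ g)) (hS : ∀ w, f w ∈ Sp (Ω := A ⊕ B) h) :
    Good (vAdd V) (stair (k + 2)) p σ := by
  have hcard : 2 * ∑ i, h i = (k + 2) * (k + 3) := by
    rw [hsum, Fintype.card_sum, mul_add, hB, hA]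
    ring
  obtain ⟨a, b, c, d, hb, hc, hd, hs, φ, hφ, hle⟩ := comb k l h hanti hl hk hcard
  have hcd := card_dh a b c d hb hc hd
  have ht : Nonempty (A ≃ Cel (dh a b c d)) := Fintype.card_eq.1 (by rw [hcd, hA, hs]; ring)
  obtain ⟨tν⟩ := ht
  obtain ⟨f', hf'1, w₀, hw₀⟩ := restrict σ f hinj hf hS hsum tν φ hφ hle
  obtain ⟨Θ, hΘ1, hΘ2, hΘ3⟩ := theta a b c d hb hc hd hs tν
  refine step_two V hV k ih hA hB p hp hpA hpB σ hσ
    ⟨LinearMap.codRestrict (VV (Ω := A) (two k)) (Θ ∘ₗ f') (fun w => hΘ1 _), ?_, ?_⟩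
  · intro h0
    apply hΘ3
    rw [← hw₀]
    have := congrArg (fun G : W →ₗ[ℂ] VV (Ω := A) (two k) => ((G w₀ : VV (Ω := A) (two k)) :
      WW A → ℂ)) h0
    simpa using this
  · intro g w
    apply Subtype.ext
    funext x
    show Θ (f' (σ (Perm.sumCongr g 1) w)) x = Θ (f' w) (pull g x)
    have e : f' (σ (Perm.sumCongr g 1) w) = fun y => f' w (y ∘ g) := funext fun y => hf'1 g w y
    rw [e, hΘ2]

/-- Splitting the letters of a staircase. -/
theorem split_letters {Ω : Type} [Fintype Ω] [DecidableEq Ω] (K k : ℕ)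
    (hk : k ≤ K) (hΩ : 2 * Fintype.card Ω = K * (K + 1)) (p : WW Ω) (hp : IsStair K p) :
    ∃ (A B : Type) (_ : Fintype A) (_ : DecidableEq A) (_ : Fintype B) (_ : DecidableEq B)
      (e : Ω ≃ A ⊕ B), 2 * Fintype.card B = k * (k + 1) ∧
      2 * Fintype.card A + k * (k + 1) = K * (K + 1) ∧
      IsStair K ((p.1 ∘ e.symm, p.2 ∘ e.symm) : WW (A ⊕ B)) ∧
      (∀ a, k ≤ p.1 (e.symm (Sum.inl a)) + p.2 (e.symm (Sum.inl a))) ∧
      ∀ b, p.1 (e.symm (Sum.inr b)) + p.2 (e.symm (Sum.inr b)) < k := by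
  have h1 := stair_card_lt K k hk hΩ p hp
  let e : Ω ≃ {x // ¬ (p.1 x + p.2 x < k)} ⊕ {x // p.1 x + p.2 x < k} :=
    ((Equiv.sumComm _ _).trans (Equiv.sumCompl fun x => p.1 x + p.2 x < k)).symm
  refine ⟨{x // ¬ (p.1 x + p.2 x < k)}, {x // p.1 x + p.2 x < k}, inferInstance, inferInstance,
    inferInstance, inferInstance, e, h1, ?_, ⟨?_, ?_⟩, ?_, ?_⟩
  · have h2 := Fintype.card_congr e
    rw [Fintype.card_sum] at h2
    rw [← h1, ← hΩ, h2]
    ring
  · intro x y hxy
    exact e.symm.injective (hp.1 hxy)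
  · intro x
    exact hp.2 _
  · intro a
    exact not_lt.1 a.2
  · intro b
    exact b.2

theorem saxl_all (V : ValuationSubring ℂ) (hV : (2 : ℂ)⁻¹ ∉ V) : ∀ k, Saxl V k := by
  intro k
  induction k using Nat.strong_induction_on with
  | _ K ih =>
    intro Ω _ _ hΩ p hp W _ _ _ σ hσ
    rcases Nat.eq_zero_or_pos K with rfl | hK
    · exact good_zero (vAdd V) (by omega) p σ hσ
    obtain ⟨k, rfl⟩ : ∃ k, K = k + 1 := ⟨K - 1, by omega⟩
    have hW : Nontrivial W := by
      by_contra hn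
      rw [not_nontrivial_iff_subsingleton] at hn
      have h1 := hσ
      have h2 : (⊥ : Subrepresentation σ) ≠ ⊤ := bot_ne_top
      apply h2
      apply SetLike.ext
      intro x
      have hx : x = 0 := Subsingleton.elim _ _
      subst hx
      constructor
      · intro _; trivial
      · intro _; exact Submodule.zero_mem (⊥ : Subrepresentation σ).toSubmodule
    -- the one column step
    have one : ∀ (σ : Representation ℂ (Perm Ω) W), σ.IsIrreducible →
        (∀ (A B : Type) [Fintype A] [DecidableEq A] [Fintype B] [DecidableEq B] (e : Ω ≃ A ⊕ B),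
          Fintype.card A = k + 1 → ∃ ℓ : W →ₗ[ℂ] ℂ, ℓ ≠ 0 ∧
            ∀ (g : Perm A) w, ℓ (relabel e σ (Perm.sumCongr g 1) w) = ℓ w) →
        Good (vAdd V) (stair (k + 1)) p σ := by
      intro σ hσ hfun
      obtain ⟨A, B, _, _, _, _, e, hB, hA, hp', hpA, hpB⟩ :=
        split_letters (k + 1) k (by omega) hΩ p hp
      have hA' : Fintype.card A = k + 1 := by nlinarith
      exact Good_relabel e _ _ p σ (step_one V hV k (ih k (by omega)) hA' hB _ hp' hpA hpB
        (relabel e σ) (relabel_irr e σ hσ) (hfun A B e hA'))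
    obtain ⟨l, h, hanti, hpos, hsum, f, hinj, hf, hS⟩ := completeness σ hσ
    by_cases h1 : k + 1 ≤ l
    · -- long first row
      refine one σ hσ ?_
      intro A B _ _ _ _ e hA
      obtain ⟨f', hinj', hf', hS'⟩ := emb_relabel e σ f hinj hf hS
      exact row_functional hpos (relabel e σ) f' hinj' hf' hS' (by omega)
    by_cases h2 : ∃ i, k + 1 ≤ h i
    · -- long first column
      obtain ⟨i, hi⟩ := h2
      refine Good_of_twist V hV (k + 1) hΩ p σ (one (sgnTwist σ) (sgnTwist_irr σ hσ) ?_)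
      intro A B _ _ _ _ e hA
      obtain ⟨f', hinj', hf', hS'⟩ := emb_relabel e σ f hinj hf hS
      obtain ⟨ℓ, hℓ0, hℓ1⟩ := col_functional (relabel e σ) f' hinj' hf' hS'
        (by rw [hsum]; exact Fintype.card_congr e) i (by omega)
      refine ⟨ℓ, hℓ0, fun g w => ?_⟩
      have hs : sign (e.symm.permCongr (Perm.sumCongr g 1)) = sign g := by
        rw [Equiv.Perm.sign_permCongr, Equiv.Perm.sign_sumCongr, Equiv.Perm.sign_one, mul_one]
      have h3 : relabel e (sgnTwist σ) (Perm.sumCongr g 1) w =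
          ((sign g : ℤ) : ℂ) • relabel e σ (Perm.sumCongr g 1) w := by
        rw [relabel_apply, sgnTwist_apply, hs]
        rfl
      rw [h3, map_smul, hℓ1, smul_eq_mul, ← mul_assoc, ← Int.cast_mul, ← Units.val_mul,
        Int.units_mul_self]
      simp
    · -- inside the box
      push Not at h1 h2
      have hk : 1 ≤ k := by
        by_contra hk0
        have hk0' : k = 0 := by omega
        subst hk0'
        have : l = 0 := by omega
        subst this
        simp at hsum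
        omega
      obtain ⟨k', rfl⟩ : ∃ k', k = k' + 1 := ⟨k - 1, by omega⟩
      obtain ⟨A, B, _, _, _, _, e, hB, hA, hp', hpA, hpB⟩ :=
        split_letters (k' + 2) k' (by omega) hΩ p hp
      have hA' : Fintype.card A = 2 * k' + 3 := by nlinarith
      obtain ⟨f', hinj', hf', hS'⟩ := emb_relabel e σ f hinj hf hS
      exact Good_relabel e _ _ p σ (step_box V hV k' (ih k' (by omega)) hA' hB _ hp' hpA hpB
        (relabel e σ) (relabel_irr e σ hσ) l h hanti (by omega)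
        (fun i => by have := h2 i; omega) (by rw [hsum]; exact Fintype.card_congr e)
        f' hinj' hf' hS')

end Crest.Agent.SX
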