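import Crest.Agent.SX_API

/-!
# S0297, task SX-Mul1: products of polytabloids on disjoint letters
-/

set_option autoImplicit false

namespace Crest.Agent.SX

open Equiv Equiv.Perm

variable {A B ι κ : Type} [Fintype A] [DecidableEq A] [Fintype B] [DecidableEq B]

/-- The cells of a union of two sets of columns. -/
def celSum (h : ι → ℕ) (h' : κ → ℕ) : Cel h ⊕ Cel h' ≃ Cel (Sum.elim h h') :=
  (Equiv.sumSigmaDistrib (fun i : ι ⊕ κ => Fin (Sum.elim h h' i))).symm

/-- Two tableaux side by side. -/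
def glue {h : ι → ℕ} {h' : κ → ℕ} (t : A ≃ Cel h) (t' : B ≃ Cel h') :
    A ⊕ B ≃ Cel (Sum.elim h h') := (Equiv.sumCongr t t').trans (celSum h h')

/-- A polytabloid of a glued tableau is a product. (A column permutation of `glue t t'` preserves
the left and the right letters, `Equiv.Perm.mem_sumCongrHom_range_of_perm_mapsTo_inl`; or use
`pt_ne_zero`, `pt_eq_sign` on both sides, and `sign_sumCongr`.) -/
theorem pt_glue {h : ι → ℕ} {h' : κ → ℕ} (t : A ≃ Cel h) (t' : B ≃ Cel h') (w : A ⊕ B → ℕ) :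
    pt (glue t t') w = pt t (w ∘ Sum.inl) * pt t' (w ∘ Sum.inr) := by
  have e1 : ∀ a, (glue t t' (Sum.inl a)).1 = Sum.inl (t a).1 := fun a => rfl
  have e2 : ∀ a, (((glue t t' (Sum.inl a)).2 : ℕ)) = ((t a).2 : ℕ) := fun a => rfl
  have e3 : ∀ b, (glue t t' (Sum.inr b)).1 = Sum.inr (t' b).1 := fun b => rfl
  have e4 : ∀ b, (((glue t t' (Sum.inr b)).2 : ℕ)) = ((t' b).2 : ℕ) := fun b => rfl
  by_cases hR : pt t (w ∘ Sum.inl) * pt t' (w ∘ Sum.inr) = 0
  · rw [hR]
    by_contra hL
    obtain ⟨S, hS1, hS2⟩ := pt_ne_zero hL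
    have hmap : Set.MapsTo S (Set.range Sum.inl) (Set.range Sum.inl) := by
      rintro _ ⟨a, rfl⟩
      have h1 := hS1 (Sum.inl a)
      rw [e1] at h1
      rcases hSa : S (Sum.inl a) with a' | b'
      · exact ⟨a', rfl⟩
      · rw [hSa, e3] at h1
        cases h1
    obtain ⟨⟨s, s'⟩, hss⟩ := Perm.mem_sumCongrHom_range_of_perm_mapsTo_inl hmap
    have hS : S = Equiv.sumCongr s s' := hss.symm
    subst hS
    have hA : pt t (w ∘ Sum.inl) = ((sign s : ℤ) : ℂ) := by
      apply pt_eq_sign t s
      · intro a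
        have h1 := hS1 (Sum.inl a)
        rw [Equiv.sumCongr_apply, Sum.map_inl, e1, e1] at h1
        exact Sum.inl.inj h1
      · intro a
        have h1 := hS2 (Sum.inl a)
        rwa [Equiv.sumCongr_apply, Sum.map_inl, e2] at h1
    have hB : pt t' (w ∘ Sum.inr) = ((sign s' : ℤ) : ℂ) := by
      apply pt_eq_sign t' s'
      · intro b
        have h1 := hS1 (Sum.inr b)
        rw [Equiv.sumCongr_apply, Sum.map_inr, e3, e3] at h1
        exact Sum.inr.inj h1
      · intro b
        have h1 := hS2 (Sum.inr b)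
        rwa [Equiv.sumCongr_apply, Sum.map_inr, e4] at h1
    rw [hA, hB] at hR
    rcases mul_eq_zero.mp hR with h0 | h0
    · exact (Units.ne_zero (sign s)) (by exact_mod_cast h0)
    · exact (Units.ne_zero (sign s')) (by exact_mod_cast h0)
  · obtain ⟨s, hs1, hs2⟩ := pt_ne_zero (left_ne_zero_of_mul hR)
    obtain ⟨s', hs1', hs2'⟩ := pt_ne_zero (right_ne_zero_of_mul hR)
    rw [pt_eq_sign t s hs1 hs2, pt_eq_sign t' s' hs1' hs2']
    rw [pt_eq_sign (glue t t') (Equiv.sumCongr s s')]
    · rw [Perm.sign_sumCongr]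
      push_cast
      rfl
    · rintro (a | b)
      · rw [Equiv.sumCongr_apply, Sum.map_inl, e1, e1, hs1]
      · rw [Equiv.sumCongr_apply, Sum.map_inr, e3, e3, hs1']
    · rintro (a | b)
      · rw [Equiv.sumCongr_apply, Sum.map_inl, e2]
        exact hs2 a
      · rw [Equiv.sumCongr_apply, Sum.map_inr, e4]
        exact hs2' b

/-- Products of functions in `VV`. (From `pt_glue` by linearity, twice
`Submodule.span_induction`.) -/
theorem VV_mul {h : ι → ℕ} {h' : κ → ℕ} {F : WW A → ℂ} {G : WW B → ℂ}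
    (hF : F ∈ VV (Ω := A) h) (hG : G ∈ VV (Ω := B) h') :
    (fun x : WW (A ⊕ B) => F (resl x) * G (resr x)) ∈ VV (Ω := A ⊕ B) (Sum.elim h h') := by
  refine Submodule.span_induction
    (p := fun F _ => (fun x : WW (A ⊕ B) => F (resl x) * G (resr x)) ∈
      VV (Ω := A ⊕ B) (Sum.elim h h')) ?_ ?_ ?_ ?_ hF
  · rintro _ ⟨t1, t2, rfl⟩
    refine Submodule.span_induction
      (p := fun G _ => (fun x : WW (A ⊕ B) => (pt t1 (resl x).1 * pt t2 (resl x).2) * G (resr x)) ∈
        VV (Ω := A ⊕ B) (Sum.elim h h')) ?_ ?_ ?_ ?_ hG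
    · rintro _ ⟨t1', t2', rfl⟩
      have : (fun x : WW (A ⊕ B) => (pt t1 (resl x).1 * pt t2 (resl x).2) *
          (pt t1' (resr x).1 * pt t2' (resr x).2)) =
          fun x : WW (A ⊕ B) => pt (glue t1 t1') x.1 * pt (glue t2 t2') x.2 := by
        funext x
        rw [pt_glue, pt_glue]
        simp only [resl, resr]
        ring
      rw [this]
      exact gen_mem_VV _ _
    · simp only [Pi.zero_apply, mul_zero]
      exact Submodule.zero_mem _
    · intro F G _ _ h1 h2
      have := Submodule.add_mem _ h1 h2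
      convert this using 1
      funext x
      simp [mul_add]
    · intro a F _ h1
      have := Submodule.smul_mem _ a h1
      convert this using 1
      funext x
      simp only [Pi.smul_apply, smul_eq_mul]
      ring
  · simp only [Pi.zero_apply, zero_mul]
    exact Submodule.zero_mem _
  · intro F G _ _ h1 h2
    have := Submodule.add_mem _ h1 h2
    convert this using 1
    funext x
    simp [add_mul]
  · intro a F _ h1
    have := Submodule.smul_mem _ a h1
    convert this using 1
    funext x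
    simp only [Pi.smul_apply, smul_eq_mul]
    ring

/-- Products of functions in `Sp`. -/
theorem Sp_mul {h : ι → ℕ} {h' : κ → ℕ} {F : (A → ℕ) → ℂ} {G : (B → ℕ) → ℂ}
    (hF : F ∈ Sp (Ω := A) h) (hG : G ∈ Sp (Ω := B) h') :
    (fun x : A ⊕ B → ℕ => F (x ∘ Sum.inl) * G (x ∘ Sum.inr)) ∈
      Sp (Ω := A ⊕ B) (Sum.elim h h') := by
  refine Submodule.span_induction
    (p := fun F _ => (fun x : A ⊕ B → ℕ => F (x ∘ Sum.inl) * G (x ∘ Sum.inr)) ∈
      Sp (Ω := A ⊕ B) (Sum.elim h h')) ?_ ?_ ?_ ?_ hF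
  · rintro _ ⟨t1, rfl⟩
    refine Submodule.span_induction
      (p := fun G _ => (fun x : A ⊕ B → ℕ => pt t1 (x ∘ Sum.inl) * G (x ∘ Sum.inr)) ∈
        Sp (Ω := A ⊕ B) (Sum.elim h h')) ?_ ?_ ?_ ?_ hG
    · rintro _ ⟨t1', rfl⟩
      have : (fun x : A ⊕ B → ℕ => pt t1 (x ∘ Sum.inl) * pt t1' (x ∘ Sum.inr)) =
          pt (glue t1 t1') := by
        funext x
        rw [pt_glue]
      rw [this]
      exact pt_mem_Sp _
    · simp only [Pi.zero_apply, mul_zero]
      exact Submodule.zero_mem _
    · intro F G _ _ h1 h2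
      have := Submodule.add_mem _ h1 h2
      convert this using 1
      funext x
      simp [mul_add]
    · intro a F _ h1
      have := Submodule.smul_mem _ a h1
      convert this using 1
      funext x
      simp only [Pi.smul_apply, smul_eq_mul]
      ring
  · simp only [Pi.zero_apply, zero_mul]
    exact Submodule.zero_mem _
  · intro F G _ _ h1 h2
    have := Submodule.add_mem _ h1 h2
    convert this using 1
    funext x
    simp [add_mul]
  · intro a F _ h1
    have := Submodule.smul_mem _ a h1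
    convert this using 1
    funext x
    simp only [Pi.smul_apply, smul_eq_mul]
    ring

end Crest.Agent.SX
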