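import Crest.Agent.SX_API

/-!
# S0297, task SX-Mul2: reindexing of columns, weights
-/

set_option autoImplicit false

namespace Crest.Agent.SX

open Equiv Equiv.Perm

variable {A ι κ : Type} [Fintype A] [DecidableEq A]

/-- The cells after reindexing of the columns. -/
private def m2E {ι κ : Type} (e : κ ≃ ι) (h : ι → ℕ) : Cel (h ∘ e) ≃ Cel h :=
  Equiv.sigmaCongrLeft (β := fun i => Fin (h i)) e

private theorem m2E_fst {ι κ : Type} (e : κ ≃ ι) (h : ι → ℕ) (c : Cel (h ∘ e)) :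
    (m2E e h c).1 = e c.1 := rfl

private theorem m2E_snd {ι κ : Type} (e : κ ≃ ι) (h : ι → ℕ) (c : Cel (h ∘ e)) :
    ((m2E e h c).2 : ℕ) = (c.2 : ℕ) := rfl

private theorem m2_pt (e : κ ≃ ι) (h : ι → ℕ) (t : A ≃ Cel (h ∘ e)) (w : A → ℕ) :
    pt (t.trans (m2E e h)) w = pt t w := by
  classical
  rw [pt_def, pt_def]
  refine Finset.sum_congr rfl fun s _ => ?_
  refine if_congr ?_ rfl rfl
  refine and_congr ?_ ?_
  · refine forall_congr' fun x => ?_
    rw [Equiv.trans_apply, Equiv.trans_apply, m2E_fst, m2E_fst]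
    exact e.injective.eq_iff
  · refine forall_congr' fun x => ?_
    rw [Equiv.trans_apply, m2E_snd]

private theorem m2_pt' (e : κ ≃ ι) (h : ι → ℕ) (t : A ≃ Cel h) (w : A → ℕ) :
    pt (t.trans (m2E e h).symm) w = pt t w := by
  rw [← m2_pt e h, Equiv.trans_assoc, Equiv.symm_trans_self, Equiv.trans_refl]

/-- Reindexing the columns. -/
theorem VV_reindex (e : κ ≃ ι) (h : ι → ℕ) : VV (Ω := A) (h ∘ e) = VV (Ω := A) h := by
  unfold VV
  congr 1
  ext F
  constructor
  · rintro ⟨t, t', rfl⟩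
    refine ⟨t.trans (m2E e h), t'.trans (m2E e h), ?_⟩
    funext x
    rw [m2_pt, m2_pt]
  · rintro ⟨t, t', rfl⟩
    refine ⟨t.trans (m2E e h).symm, t'.trans (m2E e h).symm, ?_⟩
    funext x
    rw [m2_pt', m2_pt']

theorem Sp_reindex (e : κ ≃ ι) (h : ι → ℕ) : Sp (Ω := A) (h ∘ e) = Sp (Ω := A) h := by
  unfold Sp
  congr 1
  ext F
  constructor
  · rintro ⟨t, rfl⟩
    refine ⟨t.trans (m2E e h), ?_⟩
    funext x
    exact m2_pt e h t x
  · rintro ⟨t, rfl⟩
    refine ⟨t.trans (m2E e h).symm, ?_⟩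
    funext x
    exact m2_pt' e h t x

theorem wt_reindex [Fintype ι] [Fintype κ] (e : κ ≃ ι) (h : ι → ℕ) : wt (h ∘ e) = wt h := by
  unfold wt
  exact Fintype.sum_equiv (m2E e h) _ _ fun c => rfl

/-- `Unit ⊕ Fin k ≃ Fin (k + 1)`, the left point going to the last one. -/
private def m2U (k : ℕ) : Unit ⊕ Fin k ≃ Fin (k + 1) :=
  (Equiv.sumComm _ _).trans (((Equiv.refl (Fin k)).sumCongr (Equiv.equivPUnit (Fin 1)).symm).trans
    finSumFinEquiv)

/-- The top column of a staircase. -/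
theorem VV_stair_succ (k : ℕ) :
    VV (Ω := A) (Sum.elim (fun _ : Unit => k + 1) (stair k)) = VV (Ω := A) (stair (k + 1)) := by
  have : (Sum.elim (fun _ : Unit => k + 1) (stair k)) = stair (k + 1) ∘ (m2U k) := by
    funext x
    rcases x with x | x
    · simp [m2U, stair]
    · simp [m2U, stair]
  rw [this, VV_reindex]

/-- `Bool ⊕ Fin k ≃ Fin (k + 2)`, the left points going to the last ones. -/
private def m2B (k : ℕ) : Bool ⊕ Fin k ≃ Fin (k + 2) :=
  (Equiv.sumComm _ _).trans (((Equiv.refl (Fin k)).sumCongr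
    (Equiv.boolNot.trans finTwoEquiv.symm)).trans finSumFinEquiv)

/-- The two top columns of a staircase. -/
theorem VV_stair_two (k : ℕ) :
    VV (Ω := A) (Sum.elim (two k) (stair k)) = VV (Ω := A) (stair (k + 2)) := by
  have : (Sum.elim (two k) (stair k)) = stair (k + 2) ∘ (m2B k) := by
    funext x
    rcases x with x | x
    · rcases x with _ | _
      · simp [m2B, stair, two, finTwoEquiv]
      · simp [m2B, stair, two, finTwoEquiv]
    · simp [m2B, stair]
  rw [this, VV_reindex]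

private theorem m2_sum (n : ℕ) : 2 * ∑ a : Fin n, (a : ℕ) = n * (n - 1) := by
  rw [Fin.sum_univ_eq_sum_range (fun i => i) n, mul_comm, Finset.sum_range_id_mul_two]

/-- `2 wt` of one column. -/
theorem wt_one (n : ℕ) : 2 * wt (fun _ : Unit => n) = n * (n - 1) := by
  unfold wt
  rw [Fintype.sum_sigma]
  simp only [Finset.univ_unique, Finset.sum_singleton]
  exact m2_sum n

/-- `2 wt` of the two top columns. -/
theorem wt_two (k : ℕ) : 2 * wt (two k) = (k + 2) * (k + 1) + (k + 1) * k := by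
  unfold wt
  rw [Fintype.sum_sigma, Fintype.sum_bool, mul_add]
  have h1 : 2 * ∑ a : Fin (k + 2), (a : ℕ) = (k + 2) * (k + 1) := m2_sum (k + 2)
  have h2 : 2 * ∑ a : Fin (k + 1), (a : ℕ) = (k + 1) * k := m2_sum (k + 1)
  rw [add_comm]
  exact congrArg₂ (· + ·) h1 h2

end Crest.Agent.SX
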