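import Crest.Agent.SX_Defs

/-!
# S0297, task SX-Pair1: irreducible subrepresentations and duals
-/

set_option autoImplicit false

namespace Crest.Agent.SX

open Equiv Equiv.Perm TensorProduct

/-- Every nonzero finite-dimensional representation contains an irreducible one (an invariant
subspace of minimal positive dimension). -/
theorem exists_irr_sub {G M : Type} [Group G] [AddCommGroup M] [Module ℂ M] [FiniteDimensional ℂ M]
    [Nontrivial M] (τ : Representation ℂ G M) :
    ∃ N : Subrepresentation τ, N.toRepresentation.IsIrreducible := by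
  classical
  have hex : ∃ n : ℕ, ∃ N : Subrepresentation τ, N.toSubmodule ≠ ⊥ ∧
      Module.finrank ℂ N.toSubmodule = n :=
    ⟨_, ⊤, (bot_ne_top (α := Submodule ℂ M)).symm, rfl⟩
  obtain ⟨N, hN, hNn⟩ := Nat.find_spec hex
  refine ⟨N, ?_⟩
  have hnt : Nontrivial (Subrepresentation N.toRepresentation) := by
    refine ⟨⟨⊥, ⊤, fun h => hN ?_⟩⟩
    have h' : (⊥ : Submodule ℂ N.toSubmodule) = ⊤ := congrArg Subrepresentation.toSubmodule h
    rw [Submodule.eq_bot_iff]
    intro x hx
    have : (⟨x, hx⟩ : N.toSubmodule) ∈ (⊥ : Submodule ℂ N.toSubmodule) := by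
      rw [h']; trivial
    rw [Submodule.mem_bot] at this
    exact congrArg Subtype.val this
  refine { toNontrivial := hnt, eq_bot_or_eq_top := fun P => ?_ }
  let Q : Subrepresentation τ :=
    { toSubmodule := P.toSubmodule.map N.toSubmodule.subtype
      apply_mem_toSubmodule := by
        rintro g _ ⟨x, hx, rfl⟩
        exact ⟨N.toRepresentation g x, P.apply_mem_toSubmodule g hx, rfl⟩ }
  by_cases hP : P.toSubmodule = ⊥
  · left
    exact Subrepresentation.toSubmodule_injective hP
  · right
    apply Subrepresentation.toSubmodule_injective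
    change P.toSubmodule = ⊤
    have hQ : Q.toSubmodule ≠ ⊥ := by
      intro h
      apply hP
      have h' : P.toSubmodule.map N.toSubmodule.subtype = ⊥ := h
      rw [Submodule.eq_bot_iff]
      intro x hx
      have hx' : N.toSubmodule.subtype x ∈ (⊥ : Submodule ℂ M) := by
        rw [← h']; exact Submodule.mem_map_of_mem hx
      rw [Submodule.mem_bot] at hx'
      exact Subtype.ext hx'
    have h1 : Module.finrank ℂ N.toSubmodule ≤ Module.finrank ℂ Q.toSubmodule := by
      rw [hNn]
      exact Nat.find_min' hex ⟨Q, hQ, rfl⟩
    have h2 : Module.finrank ℂ Q.toSubmodule = Module.finrank ℂ P.toSubmodule :=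
      Submodule.finrank_map_subtype_eq _ _
    exact Submodule.eq_top_of_finrank_eq (le_antisymm (Submodule.finrank_le _) (h2 ▸ h1))

/-- The dual of an irreducible finite-dimensional representation is irreducible (annihilators). -/
theorem dual_irr {G M : Type} [Group G] [AddCommGroup M] [Module ℂ M] [FiniteDimensional ℂ M]
    (τ : Representation ℂ G M) (hτ : τ.IsIrreducible) : (Representation.dual τ).IsIrreducible := by
  have hM : Nontrivial M := by
    obtain ⟨a, b, hab⟩ := hτ.toNontrivial
    by_contra hM
    rw [not_nontrivial_iff_subsingleton] at hM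
    exact hab (Subrepresentation.toSubmodule_injective (Subsingleton.elim _ _))
  have hnt : Nontrivial (Subrepresentation (Representation.dual τ)) := by
    refine ⟨⟨⊥, ⊤, fun h => ?_⟩⟩
    have h' : (⊥ : Submodule ℂ (Module.Dual ℂ M)) = ⊤ :=
      congrArg Subrepresentation.toSubmodule h
    exact bot_ne_top h'
  refine { toNontrivial := hnt, eq_bot_or_eq_top := fun P => ?_ }
  let Q : Subrepresentation τ :=
    { toSubmodule := P.toSubmodule.dualCoannihilator
      apply_mem_toSubmodule := by
        intro g x hx
        rw [Submodule.mem_dualCoannihilator] at hx ⊢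
        intro φ hφ
        have := hx _ (P.apply_mem_toSubmodule g⁻¹ hφ)
        rw [Representation.dual_apply, inv_inv] at this
        exact this }
  rcases hτ.eq_bot_or_eq_top Q with h | h
  · right
    apply Subrepresentation.toSubmodule_injective
    change P.toSubmodule = ⊤
    have h' : P.toSubmodule.dualCoannihilator = ⊥ := congrArg Subrepresentation.toSubmodule h
    rw [← Subspace.dualCoannihilator_dualAnnihilator_eq (W := P.toSubmodule), h',
      Submodule.dualAnnihilator_bot]
  · left
    apply Subrepresentation.toSubmodule_injective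
    change P.toSubmodule = ⊥
    have h' : P.toSubmodule.dualCoannihilator = ⊤ := congrArg Subrepresentation.toSubmodule h
    rw [← Subspace.dualCoannihilator_dualAnnihilator_eq (W := P.toSubmodule), h',
      Submodule.dualAnnihilator_top]

end Crest.Agent.SX
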