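import Crest.Agent.SX_API

/-!
# S0297, task SX-Rel: relabelling the letters
-/

set_option autoImplicit false

namespace Crest.Agent.SX

open Equiv Equiv.Perm

variable {Ω Ω' : Type} [Fintype Ω] [DecidableEq Ω] [Fintype Ω'] [DecidableEq Ω']
  {W : Type} [AddCommGroup W] [Module ℂ W]

/-- The representation of `Perm Ω'` obtained from one of `Perm Ω` and a bijection `e : Ω ≃ Ω'`. -/
noncomputable def relabel (e : Ω ≃ Ω') (σ : Representation ℂ (Perm Ω) W) :
    Representation ℂ (Perm Ω') W :=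
  σ.comp (e.symm.permCongrHom.toMonoidHom)

theorem relabel_apply (e : Ω ≃ Ω') (σ : Representation ℂ (Perm Ω) W) (g : Perm Ω') (w : W) :
    relabel e σ g w = σ (e.symm.permCongr g) w := rfl

/-- Two representations (of possibly different groups) with the same stable subspaces. -/
theorem irr_of_iff {G G' : Type} [Monoid G] [Monoid G'] (σ : Representation ℂ G W)
    (τ : Representation ℂ G' W)
    (h : ∀ S : Submodule ℂ W, (∀ g, ∀ v ∈ S, σ g v ∈ S) ↔ (∀ g, ∀ v ∈ S, τ g v ∈ S))
    (hσ : σ.IsIrreducible) : τ.IsIrreducible := by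
  have f : Subrepresentation τ ≃o Subrepresentation σ :=
    { toFun := fun S => ⟨S.toSubmodule, (h S.toSubmodule).2 S.apply_mem_toSubmodule⟩
      invFun := fun S => ⟨S.toSubmodule, (h S.toSubmodule).1 S.apply_mem_toSubmodule⟩
      left_inv := fun S => rfl
      right_inv := fun S => rfl
      map_rel_iff' := Iff.rfl }
  have := hσ
  exact f.isSimpleOrder

theorem relabel_irr (e : Ω ≃ Ω') (σ : Representation ℂ (Perm Ω) W) (hσ : σ.IsIrreducible) :
    (relabel e σ).IsIrreducible := by
  refine irr_of_iff σ (relabel e σ) (fun S => ⟨fun h g v hv => ?_, fun h g v hv => ?_⟩) hσ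
  · rw [relabel_apply]
    exact h _ v hv
  · have h1 := h (e.permCongr g) v hv
    rw [relabel_apply] at h1
    have h2 : e.symm.permCongr (e.permCongr g) = g := by
      ext x
      simp [Equiv.permCongr_apply]
    rwa [h2] at h1

/-- The tableau transported by `e`. -/
theorem pt_relabel (e : Ω ≃ Ω') {ι : Type} {h : ι → ℕ} (t : Ω' ≃ Cel h) (w : Ω → ℕ) :
    pt t (w ∘ e.symm) = pt (e.trans t) w := by
  classical
  rw [pt_def, pt_def]
  refine Fintype.sum_equiv e.symm.permCongr _ _ fun s => ?_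
  have hs : sign (e.symm.permCongr s) = sign s := Equiv.Perm.sign_permCongr _ _
  rw [hs]
  refine if_congr ?_ rfl rfl
  simp only [Equiv.trans_apply, Equiv.permCongr_apply, Function.comp_apply, Equiv.symm_symm,
    Equiv.apply_symm_apply]
  constructor
  · rintro ⟨h1, h2⟩
    exact ⟨fun x => h1 _, fun x => h2 _⟩
  · rintro ⟨h1, h2⟩
    refine ⟨fun x => ?_, fun x => ?_⟩
    · have := h1 (e.symm x)
      rwa [Equiv.apply_symm_apply] at this
    · have := h2 (e.symm x)
      rwa [Equiv.apply_symm_apply] at this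

/-- Transport of `Good`. (If `j'` is good for `relabel e σ`, take
`j w x = j' w (x.1 ∘ e.symm, x.2 ∘ e.symm)`.) -/
theorem Good_relabel (e : Ω ≃ Ω') {ι : Type} (R : AddSubgroup ℂ) (h : ι → ℕ) (p : WW Ω)
    (σ : Representation ℂ (Perm Ω) W)
    (hG : Good R h (p.1 ∘ e.symm, p.2 ∘ e.symm) (relabel e σ)) : Good R h p σ := by
  obtain ⟨j', hinj, heq, hmem, hR⟩ := hG
  have key : ∀ (g : Perm Ω) (x : WW Ω), ((pull g x).1 ∘ e.symm, (pull g x).2 ∘ e.symm) =
      pull (e.permCongr g) ((x.1 ∘ e.symm, x.2 ∘ e.symm) : WW Ω') := by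
    intro g x
    have h1 : ∀ w : Ω → ℕ, (w ∘ g) ∘ e.symm = (w ∘ e.symm) ∘ (e.permCongr g) := by
      intro w
      funext y
      simp [Equiv.permCongr_apply]
    simp only [pull, h1]
  have hback : ∀ g : Perm Ω', e.permCongr (e.symm.permCongr g) = g := by
    intro g
    ext x
    simp [Equiv.permCongr_apply]
  have hback' : ∀ g : Perm Ω, e.symm.permCongr (e.permCongr g) = g := by
    intro g
    ext x
    simp [Equiv.permCongr_apply]
  refine ⟨{ toFun := fun w x => j' w (x.1 ∘ e.symm, x.2 ∘ e.symm)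
            map_add' := fun w w' => by rw [map_add]; rfl
            map_smul' := fun c w => by rw [map_smul]; rfl }, ?_, ?_, ?_, ?_⟩
  · intro w w' hww
    apply hinj
    funext y
    have h1 := congrFun hww (y.1 ∘ e, y.2 ∘ e)
    have h2 : ∀ v : Ω' → ℕ, (v ∘ e) ∘ e.symm = v := by
      intro v
      funext y
      simp
    simpa only [LinearMap.coe_mk, AddHom.coe_mk, h2] using h1
  · intro g w x
    show j' (σ g w) (x.1 ∘ e.symm, x.2 ∘ e.symm) =
      j' w ((pull g x).1 ∘ e.symm, (pull g x).2 ∘ e.symm)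
    rw [key, ← heq, relabel_apply, hback']
  · intro w
    show (fun x : WW Ω => j' w (x.1 ∘ e.symm, x.2 ∘ e.symm)) ∈ VV h
    refine Submodule.span_induction
      (p := fun F _ => (fun x : WW Ω => F ((x.1 ∘ e.symm, x.2 ∘ e.symm) : WW Ω')) ∈
        VV (Ω := Ω) h) ?_ ?_ ?_ ?_ (hmem w)
    · rintro _ ⟨t, t', rfl⟩
      simp only [pt_relabel]
      exact gen_mem_VV _ _
    · exact Submodule.zero_mem _
    · intro F G _ _ h1 h2
      exact Submodule.add_mem _ h1 h2
    · intro a F _ h1
      exact Submodule.smul_mem _ a h1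
  · intro w hw x
    show j' w (x.1 ∘ e.symm, x.2 ∘ e.symm) ∈ R
    refine hR w (fun g => ?_) _
    have h1 := hw (e.symm.permCongr g)
    have h2 : j' w (((pull (e.symm.permCongr g) p).1 ∘ e.symm,
        (pull (e.symm.permCongr g) p).2 ∘ e.symm) : WW Ω') ∈ R := h1
    rwa [key, hback] at h2

theorem sgnTwist_irr (σ : Representation ℂ (Perm Ω) W) (hσ : σ.IsIrreducible) :
    (sgnTwist σ).IsIrreducible := by
  refine irr_of_iff σ (sgnTwist σ) (fun S => ⟨fun h g v hv => ?_, fun h g v hv => ?_⟩) hσ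
  · rw [sgnTwist_apply]
    exact S.smul_mem _ (h g v hv)
  · have h1 := h g v hv
    rw [sgnTwist_apply] at h1
    have h2 := S.smul_mem ((sign g : ℤ) : ℂ) h1
    rwa [smul_smul, ← Int.cast_mul, ← Units.val_mul, Int.units_mul_self, Units.val_one,
      Int.cast_one, one_smul] at h2

theorem sgnTwist_sgnTwist (σ : Representation ℂ (Perm Ω) W) : sgnTwist (sgnTwist σ) = σ := by
  ext g w
  rw [sgnTwist_apply, sgnTwist_apply, smul_smul, ← Int.cast_mul, ← Units.val_mul,
    Int.units_mul_self, Units.val_one, Int.cast_one, one_smul]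

end Crest.Agent.SX
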