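import Crest.Agent.SX_API

/-!
# S0297: the matrix `eps` of the staircase (definitions for the sign twist)

For a fixed tableau `t₀ : Ω ≃ Cel (stair k)`, `eps t₀ u w` is the sign of the permutation `g` with
`u x = k - 1 - column (t₀ (g x))` and `w x = row (t₀ (g x))` for all `x` (there is at most one such
`g`), and `0` if there is none. So `u` is a column word in which the columns are numbered
`0, 1, …, k-1` from the longest to the shortest, and `eps t₀ u w ≠ 0` iff `(u, w)` is a bijection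
from `Ω` onto the staircase `{(j, r) : j + r < k}` (when `|Ω| = k (k + 1) / 2`).
`th t₀ F = F * eps` is the twisted endomorphism `θ`.
-/

set_option autoImplicit false

namespace Crest.Agent.SX

open Equiv Equiv.Perm

variable {Ω : Type} [Fintype Ω] [DecidableEq Ω] {k : ℕ}

open scoped Classical in
/-- The sign matrix of the staircase. -/
noncomputable def eps (t₀ : Ω ≃ Cel (stair k)) (u w : Ω → ℕ) : ℤ :=
  ∑ g : Perm Ω, if (∀ x, u x + ((t₀ (g x)).1 : ℕ) + 1 = k) ∧ (∀ x, w x = ((t₀ (g x)).2 : ℕ)) then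
    (sign g : ℤ) else 0

/-- The column word of a tableau (columns numbered from the longest). -/
def colw (t : Ω ≃ Cel (stair k)) : Ω → ℕ := fun x => k - 1 - ((t x).1 : ℕ)

/-- Words with values `< k`. -/
abbrev kw (v : Ω → Fin k) : Ω → ℕ := fun x => (v x : ℕ)

/-- The endomorphism `θ` (semi-linear for the sign). -/
noncomputable def th (t₀ : Ω ≃ Cel (stair k)) (F : (Ω → ℕ) → ℂ) : (Ω → ℕ) → ℂ :=
  fun w => ∑ v : Ω → Fin k, F (kw v) * (eps t₀ (kw v) w : ℂ)

/-- `1 ⊗ θ` on functions of pairs of words. -/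
noncomputable def th2 (t₀ : Ω ≃ Cel (stair k)) : (WW Ω → ℂ) →ₗ[ℂ] (WW Ω → ℂ) where
  toFun F := fun x => ∑ v : Ω → Fin k, F (x.1, kw v) * (eps t₀ (kw v) x.2 : ℂ)
  map_add' F G := by
    ext x
    simp [add_mul, Finset.sum_add_distrib]
  map_smul' a F := by
    ext x
    simp [mul_assoc, Finset.mul_sum]

theorem th2_apply (t₀ : Ω ≃ Cel (stair k)) (F : WW Ω → ℂ) (x : WW Ω) :
    th2 t₀ F x = ∑ v : Ω → Fin k, F (x.1, kw v) * (eps t₀ (kw v) x.2 : ℂ) := rfl

theorem th2_eq_th (t₀ : Ω ≃ Cel (stair k)) (F : WW Ω → ℂ) (x : WW Ω) :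
    th2 t₀ F x = th t₀ (fun w => F (x.1, w)) x.2 := rfl

end Crest.Agent.SX
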