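import Crest.Agent.SX_S0

/-!
# S0297, task SX-S1: basic properties of the sign matrix of the staircase
-/

set_option autoImplicit false

namespace Crest.Agent.SX

open Equiv Equiv.Perm

variable {Ω : Type} [Fintype Ω] [DecidableEq Ω] {k : ℕ}

private theorem s1_cel_ext {c c' : Cel (stair k)} (h1 : (c.1 : ℕ) = (c'.1 : ℕ))
    (h2 : (c.2 : ℕ) = (c'.2 : ℕ)) : c = c' := by
  obtain ⟨i, a⟩ := c
  obtain ⟨i', a'⟩ := c'
  simp only at h1 h2
  have := Fin.ext h1
  subst this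
  rw [Fin.ext h2]

omit [Fintype Ω] [DecidableEq Ω] in
private theorem s1_unique (t₀ : Ω ≃ Cel (stair k)) {u w : Ω → ℕ} {g g' : Perm Ω}
    (h : (∀ x, u x + ((t₀ (g x)).1 : ℕ) + 1 = k) ∧ (∀ x, w x = ((t₀ (g x)).2 : ℕ)))
    (h' : (∀ x, u x + ((t₀ (g' x)).1 : ℕ) + 1 = k) ∧ (∀ x, w x = ((t₀ (g' x)).2 : ℕ))) :
    g = g' := by
  ext x
  refine t₀.injective (s1_cel_ext ?_ ?_)
  · have a := h.1 x
    have b := h'.1 x
    omega
  · rw [← h.2 x, ← h'.2 x]

/-- Value of `eps`. -/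
theorem eps_eq_sign (t₀ : Ω ≃ Cel (stair k)) (u w : Ω → ℕ) (g : Perm Ω)
    (h1 : ∀ x, u x + ((t₀ (g x)).1 : ℕ) + 1 = k) (h2 : ∀ x, w x = ((t₀ (g x)).2 : ℕ)) :
    eps t₀ u w = (sign g : ℤ) := by
  classical
  rw [eps, Finset.sum_eq_single g]
  · rw [if_pos ⟨h1, h2⟩]
  · intro g' _ hg'
    rw [if_neg]
    intro h'
    exact hg' (s1_unique t₀ h' ⟨h1, h2⟩)
  · intro h'
    exact absurd (Finset.mem_univ _) h'

theorem eps_ne_zero (t₀ : Ω ≃ Cel (stair k)) (u w : Ω → ℕ) (h : eps t₀ u w ≠ 0) :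
    ∃ g : Perm Ω, (∀ x, u x + ((t₀ (g x)).1 : ℕ) + 1 = k) ∧ (∀ x, w x = ((t₀ (g x)).2 : ℕ)) := by
  classical
  rw [eps] at h
  obtain ⟨g, -, hg⟩ := Finset.exists_ne_zero_of_sum_ne_zero h
  refine ⟨g, ?_⟩
  by_contra h'
  exact hg (if_neg h')

/-- `eps` is nonzero iff `(u, w)` is injective into the staircase. (`⇐`: `|Ω| = |Cel (stair k)|`
because of `t₀`, so `x ↦ cell (k - 1 - u x, w x)` is a bijection `Ω → Cel (stair k)`, compose with
`t₀⁻¹`.) -/
theorem eps_ne_zero_iff (t₀ : Ω ≃ Cel (stair k)) (u w : Ω → ℕ) :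
    eps t₀ u w ≠ 0 ↔ (Function.Injective fun x => (u x, w x)) ∧ ∀ x, u x + w x < k := by
  constructor
  · intro h
    obtain ⟨g, h1, h2⟩ := eps_ne_zero t₀ u w h
    constructor
    · intro x y hxy
      simp only [Prod.mk.injEq] at hxy
      refine g.injective (t₀.injective (s1_cel_ext ?_ ?_))
      · have a := h1 x
        have b := h1 y
        omega
      · rw [← h2 x, ← h2 y, hxy.2]
    · intro x
      have a := h1 x
      have b := h2 x
      have c : ((t₀ (g x)).2 : ℕ) < ((t₀ (g x)).1 : ℕ) + 1 := (t₀ (g x)).2.2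
      omega
  · rintro ⟨hinj, hlt⟩
    let c : Ω → Cel (stair k) := fun x =>
      ⟨⟨k - 1 - u x, by have := hlt x; omega⟩, ⟨w x, by
        show w x < k - 1 - u x + 1
        have := hlt x
        omega⟩⟩
    have hc : Function.Injective c := by
      intro x y hxy
      apply hinj
      have h1 : ((c x).1 : ℕ) = ((c y).1 : ℕ) := by rw [hxy]
      have h2 : ((c x).2 : ℕ) = ((c y).2 : ℕ) := by rw [hxy]
      simp only [c] at h1 h2
      simp only [Prod.mk.injEq]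
      refine ⟨?_, h2⟩
      have := hlt x
      have := hlt y
      omega
    have hb : Function.Bijective fun x => t₀.symm (c x) :=
      Finite.injective_iff_bijective.1 (t₀.symm.injective.comp hc)
    let g : Perm Ω := Equiv.ofBijective _ hb
    have hg : ∀ x, t₀ (g x) = c x := by
      intro x
      show t₀ (t₀.symm (c x)) = c x
      rw [Equiv.apply_symm_apply]
    rw [eps_eq_sign t₀ u w g]
    · exact Units.ne_zero _
    · intro x
      rw [hg]
      show u x + (k - 1 - u x) + 1 = k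
      have := hlt x
      omega
    · intro x
      rw [hg]

/-- Values are `0, 1, -1`. -/
theorem eps_sq_one (t₀ : Ω ≃ Cel (stair k)) (u w : Ω → ℕ) (h : eps t₀ u w ≠ 0) :
    eps t₀ u w * eps t₀ u w = 1 := by
  obtain ⟨g, h1, h2⟩ := eps_ne_zero t₀ u w h
  rw [eps_eq_sign t₀ u w g h1 h2, ← Units.val_mul, Int.units_mul_self, Units.val_one]

theorem eps_comp (t₀ : Ω ≃ Cel (stair k)) (u w : Ω → ℕ) (g : Perm Ω) :
    eps t₀ (u ∘ g) (w ∘ g) = (sign g : ℤ) * eps t₀ u w := by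
  by_cases h : eps t₀ u w = 0
  · rw [h, mul_zero]
    by_contra h'
    obtain ⟨g', h1, h2⟩ := eps_ne_zero t₀ _ _ h'
    have : eps t₀ u w = (sign (g' * g⁻¹) : ℤ) := by
      refine eps_eq_sign t₀ u w (g' * g⁻¹) (fun x => ?_) (fun x => ?_)
      · have := h1 (g⁻¹ x)
        simpa using this
      · have := h2 (g⁻¹ x)
        simpa using this
    rw [this] at h
    exact Units.ne_zero _ h
  · obtain ⟨g', h1, h2⟩ := eps_ne_zero t₀ _ _ h
    rw [eps_eq_sign t₀ u w g' h1 h2, eps_eq_sign t₀ (u ∘ g) (w ∘ g) (g' * g)]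
    · rw [Perm.sign_mul, Units.val_mul, mul_comm]
    · intro x
      simpa using h1 (g x)
    · intro x
      simpa using h2 (g x)

/-- Transposing the cells of the staircase. -/
private def s1_tr : Cel (stair k) → Cel (stair k) := fun c =>
  ⟨⟨k - 1 - (c.2 : ℕ), by have := c.1.2; omega⟩, ⟨k - 1 - (c.1 : ℕ), by
    show k - 1 - (c.1 : ℕ) < k - 1 - (c.2 : ℕ) + 1
    have h2 : (c.2 : ℕ) < (c.1 : ℕ) + 1 := c.2.2
    omega⟩⟩

private theorem s1_tr_tr (c : Cel (stair k)) : s1_tr (s1_tr c) = c := by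
  have h1 : (c.1 : ℕ) < k := c.1.2
  have h2 : (c.2 : ℕ) < (c.1 : ℕ) + 1 := c.2.2
  refine s1_cel_ext ?_ ?_
  · show k - 1 - (k - 1 - (c.1 : ℕ)) = (c.1 : ℕ)
    omega
  · show k - 1 - (k - 1 - (c.2 : ℕ)) = (c.2 : ℕ)
    omega

/-- Transposing: the staircase is symmetric. (Compose with the permutation of `Ω` which transposes
the cells of `t₀`; `δ` is its sign.) -/
theorem eps_symm (t₀ : Ω ≃ Cel (stair k)) :
    ∃ δ : ℤ, δ * δ = 1 ∧ ∀ u w, eps t₀ w u = δ * eps t₀ u w := by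
  let τ : Cel (stair k) ≃ Cel (stair k) := ⟨s1_tr, s1_tr, s1_tr_tr, s1_tr_tr⟩
  let π : Perm Ω := (t₀.trans τ).trans t₀.symm
  have hπ : ∀ y, t₀ (π y) = s1_tr (t₀ y) := by
    intro y
    show t₀ (t₀.symm (τ (t₀ y))) = _
    rw [Equiv.apply_symm_apply]
    rfl
  have key : ∀ (u w : Ω → ℕ) (g : Perm Ω), (∀ x, u x + ((t₀ (g x)).1 : ℕ) + 1 = k) →
      (∀ x, w x = ((t₀ (g x)).2 : ℕ)) → eps t₀ w u = (sign (π * g) : ℤ) := by
    intro u w g h1 h2
    refine eps_eq_sign t₀ w u (π * g) (fun x => ?_) (fun x => ?_)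
    · rw [Perm.mul_apply, hπ]
      show w x + (k - 1 - ((t₀ (g x)).2 : ℕ)) + 1 = k
      have a : ((t₀ (g x)).1 : ℕ) < k := (t₀ (g x)).1.2
      have b : ((t₀ (g x)).2 : ℕ) < ((t₀ (g x)).1 : ℕ) + 1 := (t₀ (g x)).2.2
      have := h2 x
      omega
    · rw [Perm.mul_apply, hπ]
      show u x = k - 1 - ((t₀ (g x)).1 : ℕ)
      have := h1 x
      omega
  refine ⟨(sign π : ℤ), ?_, fun u w => ?_⟩
  · rw [← Units.val_mul, Int.units_mul_self, Units.val_one]
  · by_cases h : eps t₀ u w = 0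
    · rw [h, mul_zero]
      by_contra h'
      obtain ⟨g, h1, h2⟩ := eps_ne_zero t₀ _ _ h'
      have := key _ _ g h1 h2
      rw [h] at this
      exact Units.ne_zero _ this.symm
    · obtain ⟨g, h1, h2⟩ := eps_ne_zero t₀ _ _ h
      rw [key u w g h1 h2, eps_eq_sign t₀ u w g h1 h2, Perm.sign_mul, Units.val_mul]

/-- Rows of `eps` are polytabloids up to sign: if `t = t₀ ∘ g₀` then
`eps t₀ (colw t) w = sign g₀ * pt t w` (bijection `g = g₀ * s⁻¹`). -/
theorem eps_colw (t₀ : Ω ≃ Cel (stair k)) (g₀ : Perm Ω) (w : Ω → ℕ) :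
    (eps t₀ (colw (g₀.trans t₀)) w : ℂ) = ((sign g₀ : ℤ) : ℂ) * pt (g₀.trans t₀) w := by
  by_cases h : pt (g₀.trans t₀) w = 0
  · rw [h, mul_zero]
    by_contra h'
    have h'' : eps t₀ (colw (g₀.trans t₀)) w ≠ 0 := by
      intro h0
      exact h' (by rw [h0]; simp)
    obtain ⟨g, h1, h2⟩ := eps_ne_zero t₀ _ _ h''
    have hcol : ∀ y, ((t₀ (g y)).1 : ℕ) = ((t₀ (g₀ y)).1 : ℕ) := by
      intro y
      have a := h1 y
      have b : colw (g₀.trans t₀) y = k - 1 - ((t₀ (g₀ y)).1 : ℕ) := rfl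
      have c : ((t₀ (g₀ y)).1 : ℕ) < k := (t₀ (g₀ y)).1.2
      omega
    have := pt_eq_sign (g₀.trans t₀) (w := w) (g⁻¹ * g₀) (fun x => ?_) (fun x => ?_)
    · rw [h] at this
      have h3 : ((sign (g⁻¹ * g₀) : ℤ) : ℂ) ≠ 0 := by
        exact_mod_cast Units.ne_zero _
      exact h3 this.symm
    · refine Fin.ext ?_
      have := hcol (g.symm (g₀ x))
      rw [Equiv.apply_symm_apply] at this
      exact this.symm
    · have := h2 (g.symm (g₀ x))
      rw [Equiv.apply_symm_apply] at this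
      exact this
  · obtain ⟨s, h1, h2⟩ := pt_ne_zero h
    rw [pt_eq_sign _ s h1 h2, eps_eq_sign t₀ _ _ (g₀ * s⁻¹)]
    · rw [Perm.sign_mul, Perm.sign_inv, Units.val_mul, Int.cast_mul]
    · intro x
      have := h1 (s.symm x)
      simp only [Equiv.apply_symm_apply, Equiv.trans_apply] at this
      have b : colw (g₀.trans t₀) x = k - 1 - ((t₀ (g₀ x)).1 : ℕ) := rfl
      have c : ((t₀ (g₀ x)).1 : ℕ) < k := (t₀ (g₀ x)).1.2
      have e : (g₀ * s⁻¹) x = g₀ (s.symm x) := rfl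
      rw [b, e, ← this]
      omega
    · intro x
      have := h2 (s.symm x)
      simp only [Equiv.apply_symm_apply, Equiv.trans_apply] at this
      have e : (g₀ * s⁻¹) x = g₀ (s.symm x) := rfl
      rw [e]
      exact this

/-- Every row of `eps` is zero or `±` a polytabloid, so it is in the Specht module. -/
theorem eps_mem (t₀ : Ω ≃ Cel (stair k)) (u : Ω → ℕ) :
    (fun w => (eps t₀ u w : ℂ)) ∈ Sp (Ω := Ω) (stair k) := by
  by_cases h : ∀ w, eps t₀ u w = 0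
  · have : (fun w => (eps t₀ u w : ℂ)) = 0 := by
      ext w
      rw [h w]
      simp
    rw [this]
    exact Submodule.zero_mem _
  · push Not at h
    obtain ⟨w₀, hw₀⟩ := h
    obtain ⟨g, h1, -⟩ := eps_ne_zero t₀ _ _ hw₀
    have hu : u = colw (g.trans t₀) := by
      ext x
      have := h1 x
      show u x = k - 1 - ((t₀ (g x)).1 : ℕ)
      omega
    have : (fun w => (eps t₀ u w : ℂ)) = ((sign g : ℤ) : ℂ) • pt (g.trans t₀) := by
      ext w
      rw [hu, eps_colw]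
      rfl
    rw [this]
    exact Submodule.smul_mem _ _ (pt_mem_Sp _)

/-- If `u`, `w` are words with a common class of two letters `x ≠ y` then `eps t₀ u w = 0`. -/
theorem eps_eq_zero_of_not_inj (t₀ : Ω ≃ Cel (stair k)) (u w : Ω → ℕ) {x y : Ω} (hxy : x ≠ y)
    (hu : u x = u y) (hw : w x = w y) : eps t₀ u w = 0 := by
  by_contra h
  refine hxy (((eps_ne_zero_iff t₀ u w).1 h).1 ?_)
  simp only [hu, hw]

end Crest.Agent.SX
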