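import Crest.Agent.SX_S1

/-!
# S0297, task SX-S2: `eps ^ 2 = eps` modulo `2`
-/

set_option autoImplicit false

namespace Crest.Agent.SX

open Equiv Equiv.Perm

variable {Ω : Type} [Fintype Ω] [DecidableEq Ω] {k : ℕ}

private def sxT (k : ℕ) : Finset (ℕ × ℕ) :=
  (Finset.range k).biUnion (fun s => Finset.HasAntidiagonal.antidiagonal s)

private lemma mem_sxT {k : ℕ} (p : ℕ × ℕ) : p ∈ sxT k ↔ p.1 + p.2 < k := by
  simp [sxT]

private lemma card_sxT (k : ℕ) : 2 * (sxT k).card = k * (k + 1) := by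
  have h : (sxT k).card = ∑ s ∈ Finset.range k, (s + 1) := by
    unfold sxT
    rw [Finset.card_biUnion]
    · simp
    · intro a _ b _ hab
      show _root_.Disjoint _ _
      rw [Finset.disjoint_left]
      intro p hp hq
      simp only [Finset.HasAntidiagonal.mem_antidiagonal] at hp hq
      exact hab (hp.symm.trans hq)
  rw [h]
  clear h
  induction k with
  | zero => simp
  | succ k ih =>
    rw [Finset.sum_range_succ, mul_add, ih]
    ring

private lemma sum_sxT {Ω : Type} [Fintype Ω] {k : ℕ} (hΩ : 2 * Fintype.card Ω = k * (k + 1))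
    (a b : Ω → ℕ) (hab : Function.Injective fun x => (a x, b x)) (hab' : ∀ x, a x + b x < k)
    (F : ℕ × ℕ → ℤ) : ∑ x, F (a x, b x) = ∑ p ∈ sxT k, F p := by
  classical
  have himg : Finset.univ.image (fun x => (a x, b x)) = sxT k := by
    apply Finset.eq_of_subset_of_card_le
    · intro p hp
      rw [Finset.mem_image] at hp
      obtain ⟨x, _, rfl⟩ := hp
      rw [mem_sxT]
      exact hab' x
    · rw [Finset.card_image_of_injective _ hab, Finset.card_univ]
      have := card_sxT k
      omega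
  rw [← himg, Finset.sum_image (fun x _ y _ h => hab h)]

private lemma sq_sxT {Ω : Type} [Fintype Ω] {k : ℕ} (hΩ : 2 * Fintype.card Ω = k * (k + 1))
    (u v w : Ω → ℕ)
    (huw : Function.Injective fun x => (u x, w x)) (huw' : ∀ x, u x + w x < k)
    (huv : Function.Injective fun x => (u x, v x)) (huv' : ∀ x, u x + v x < k)
    (hvw : Function.Injective fun x => (v x, w x)) (hvw' : ∀ x, v x + w x < k) :
    6 * ∑ x, ((u x : ℤ) + v x + w x - (k - 1)) ^ 2 =
      3 * ∑ p ∈ sxT k, (3 * (p.1 : ℤ) ^ 2 + 3 * (p.2 : ℤ) ^ 2 + 12 * p.1 * p.2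
        - 6 * (k - 1) * (p.1 + p.2) + 2 * (k - 1) ^ 2) := by
  have h1 := sum_sxT hΩ u w huw huw' (fun p => 3 * (p.1 : ℤ) ^ 2 + 3 * (p.2 : ℤ) ^ 2 + 12 * p.1 * p.2
        - 6 * (k - 1) * (p.1 + p.2) + 2 * (k - 1) ^ 2)
  have h2 := sum_sxT hΩ u v huv huv' (fun p => 3 * (p.1 : ℤ) ^ 2 + 3 * (p.2 : ℤ) ^ 2 + 12 * p.1 * p.2
        - 6 * (k - 1) * (p.1 + p.2) + 2 * (k - 1) ^ 2)
  have h3 := sum_sxT hΩ v w hvw hvw' (fun p => 3 * (p.1 : ℤ) ^ 2 + 3 * (p.2 : ℤ) ^ 2 + 12 * p.1 * p.2
        - 6 * (k - 1) * (p.1 + p.2) + 2 * (k - 1) ^ 2)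
  rw [Finset.mul_sum]
  have h4 : ∀ x, 6 * ((u x : ℤ) + v x + w x - (k - 1)) ^ 2 =
      (3 * (u x : ℤ) ^ 2 + 3 * (w x : ℤ) ^ 2 + 12 * u x * w x
        - 6 * (k - 1) * (u x + w x) + 2 * (k - 1) ^ 2) +
      (3 * (u x : ℤ) ^ 2 + 3 * (v x : ℤ) ^ 2 + 12 * u x * v x
        - 6 * (k - 1) * (u x + v x) + 2 * (k - 1) ^ 2) +
      (3 * (v x : ℤ) ^ 2 + 3 * (w x : ℤ) ^ 2 + 12 * v x * w x
        - 6 * (k - 1) * (v x + w x) + 2 * (k - 1) ^ 2) := by
    intro x; ring
  simp only [h4, Finset.sum_add_distrib] at h1 h2 h3 ⊢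
  linarith

private lemma sxT_exists {Ω : Type} {k : ℕ} (u w : Ω → ℕ)
    (huw : Function.Injective fun x => (u x, w x)) (huw' : ∀ x, u x + w x < k) :
    (Function.Injective fun x => (u x, k - 1 - u x - w x)) ∧
      (∀ x, u x + (k - 1 - u x - w x) < k) ∧
      (Function.Injective fun x => (k - 1 - u x - w x, w x)) ∧
      ∀ x, (k - 1 - u x - w x) + w x < k := by
  refine ⟨fun x y h => huw ?_, fun x => ?_, fun x y h => huw ?_, fun x => ?_⟩
  · simp only [Prod.mk.injEq] at h ⊢
    have h1 := huw' x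
    have h2 := huw' y
    omega
  · have h1 := huw' x
    omega
  · simp only [Prod.mk.injEq] at h ⊢
    have h1 := huw' x
    have h2 := huw' y
    omega
  · have h1 := huw' x
    omega

/-- Uniqueness of the common transversal word. Suppose `(u, w)`, `(u, v)` and `(v, w)` are injective
into the staircase `{(i, j) : i + j < k}`, `|Ω| = k (k + 1) / 2`. Then `v x + u x + w x = k - 1`.

Proof. All three maps are bijections onto the staircase, so the class `v = i` has `k - i` letters,
`u` takes on it every value `0, …, k - 1 - i` once, and `w` too; so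
`∑_{v x = i} (u x + w x) = ∑_{v x = i} (k - 1 - i)`. Strong induction on `i`: the letters with
`v = i` have `u + w ≤ k - 1 - i` (the letters with `u + w = k - 1 - i'`, `i' < i`, are exactly the
`k - i'` letters with `v = i'`, by induction, as there are `k - i'` cells with `u + w = k - 1 - i'`),
so the sum forces `u x + w x = k - 1 - i` for all of them. -/
theorem transversal_unique (hΩ : 2 * Fintype.card Ω = k * (k + 1)) (u v w : Ω → ℕ)
    (huw : Function.Injective fun x => (u x, w x)) (huw' : ∀ x, u x + w x < k)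
    (huv : Function.Injective fun x => (u x, v x)) (huv' : ∀ x, u x + v x < k)
    (hvw : Function.Injective fun x => (v x, w x)) (hvw' : ∀ x, v x + w x < k) (x : Ω) :
    v x + u x + w x + 1 = k := by
  classical
  have hA := sq_sxT hΩ u v w huw huw' huv huv' hvw hvw'
  have hT : 2 * Fintype.card ↥(sxT k) = k * (k + 1) := by
    rw [Fintype.card_coe]; exact card_sxT k
  have hinj : Function.Injective fun p : ↥(sxT k) => (p.1.1, p.1.2) := by
    intro p q h
    exact Subtype.ext h
  have hlt : ∀ p : ↥(sxT k), p.1.1 + p.1.2 < k := fun p => (mem_sxT p.1).1 p.2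
  obtain ⟨e1, e2, e3, e4⟩ := sxT_exists (fun p : ↥(sxT k) => p.1.1) (fun p => p.1.2)
    hinj hlt
  have hB := sq_sxT hT (fun p : ↥(sxT k) => p.1.1) (fun p => k - 1 - p.1.1 - p.1.2)
    (fun p => p.1.2) hinj hlt e1 e2 e3 e4
  have hC : ∑ p : ↥(sxT k), ((p.1.1 : ℤ) + ((k - 1 - p.1.1 - p.1.2 : ℕ) : ℤ) + p.1.2 - (k - 1)) ^ 2
      = 0 := by
    apply Finset.sum_eq_zero
    intro p _
    have h := hlt p
    have : ((p.1.1 : ℤ) + ((k - 1 - p.1.1 - p.1.2 : ℕ) : ℤ) + p.1.2 - (k - 1)) = 0 := by omega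
    rw [this]; norm_num
  rw [hC, mul_zero] at hB
  rw [← hB] at hA
  have hD : ∑ x, ((u x : ℤ) + v x + w x - (k - 1)) ^ 2 = 0 := by linarith
  rw [Finset.sum_eq_zero_iff_of_nonneg (fun _ _ => sq_nonneg _)] at hD
  have hE := hD x (Finset.mem_univ x)
  have hF : ((u x : ℤ) + v x + w x - (k - 1)) = 0 := by
    exact pow_eq_zero_iff (two_ne_zero) |>.1 hE
  omega

/-- Conversely `v = k - 1 - u - w` is transversal to both. -/
theorem transversal_exists (u w : Ω → ℕ)
    (huw : Function.Injective fun x => (u x, w x)) (huw' : ∀ x, u x + w x < k) :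
    (Function.Injective fun x => (u x, k - 1 - u x - w x)) ∧
      (∀ x, u x + (k - 1 - u x - w x) < k) ∧
      (Function.Injective fun x => (k - 1 - u x - w x, w x)) ∧
      ∀ x, (k - 1 - u x - w x) + w x < k := sxT_exists u w huw huw'

section S2b

/-- the staircase as a set of cells -/
private def S2_St (k : ℕ) : Finset (ℕ × ℕ) :=
  ((Finset.range k) ×ˢ (Finset.range k)).filter fun c => c.1 + c.2 < k

private theorem S2_mem_St (k : ℕ) (c : ℕ × ℕ) : c ∈ S2_St k ↔ c.1 + c.2 < k := by
  unfold S2_St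
  rw [Finset.mem_filter, Finset.mem_product, Finset.mem_range, Finset.mem_range]
  constructor
  · exact fun h => h.2
  · intro h
    exact ⟨⟨by omega, by omega⟩, h⟩

omit [Fintype Ω] [DecidableEq Ω] in
private theorem S2_inj₀ (t₀ : Ω ≃ Cel (stair k)) :
    Function.Injective fun x => (colw t₀ x, ((t₀ x).2 : ℕ)) := by
  intro x y hxy
  simp only [Prod.mk.injEq, colw] at hxy
  obtain ⟨h1, h2⟩ := hxy
  apply t₀.injective
  generalize t₀ x = c at h1 h2
  generalize t₀ y = c' at h1 h2
  obtain ⟨i, a⟩ := c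
  obtain ⟨i', a'⟩ := c'
  have hi := i.2
  have hi' := i'.2
  simp only at h1 h2
  have h3 : i = i' := Fin.ext (by omega)
  subst h3
  rw [Fin.ext h2]

private theorem S2_image₀ (t₀ : Ω ≃ Cel (stair k)) :
    (Finset.univ : Finset Ω).image (fun x => (colw t₀ x, ((t₀ x).2 : ℕ))) = S2_St k := by
  ext c
  rw [S2_mem_St, Finset.mem_image]
  constructor
  · rintro ⟨x, -, rfl⟩
    have h1 := (t₀ x).2.2
    have h2 := (t₀ x).1.2
    simp only [colw, stair] at h1 ⊢
    omega
  · intro h
    have h1 : k - 1 - c.1 < k := by omega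
    have h2 : c.2 < stair k ⟨k - 1 - c.1, h1⟩ := by
      simp only [stair]; omega
    have e : t₀ (t₀.symm ⟨⟨k - 1 - c.1, h1⟩, ⟨c.2, h2⟩⟩) = ⟨⟨k - 1 - c.1, h1⟩, ⟨c.2, h2⟩⟩ :=
      t₀.apply_symm_apply _
    refine ⟨t₀.symm ⟨⟨k - 1 - c.1, h1⟩, ⟨c.2, h2⟩⟩, Finset.mem_univ _, ?_⟩
    simp only [colw]
    rw [e]
    ext
    · show k - 1 - (k - 1 - c.1) = c.1
      omega
    · rfl

private theorem S2_card (t₀ : Ω ≃ Cel (stair k)) : Fintype.card Ω = (S2_St k).card := by
  rw [← S2_image₀ t₀, Finset.card_image_of_injective _ (S2_inj₀ t₀), Finset.card_univ]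

private theorem S2_card' (t₀ : Ω ≃ Cel (stair k)) : 2 * Fintype.card Ω = k * (k + 1) := by
  have h1 : Fintype.card Ω = ∑ i : Fin k, ((i : ℕ) + 1) := by
    rw [Fintype.card_congr t₀, Fintype.card_sigma]
    exact Finset.sum_congr rfl fun i _ => Fintype.card_fin _
  rw [h1, Fin.sum_univ_eq_sum_range (fun i => i + 1) k]
  clear h1 t₀
  induction k with
  | zero => simp
  | succ n ih => rw [Finset.sum_range_succ, mul_add, ih]; ring

private theorem S2_sum_fst (t₀ : Ω ≃ Cel (stair k)) {u w : Ω → ℕ} (h : eps t₀ u w ≠ 0) :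
    ∑ x, u x = ∑ x, colw t₀ x ∧ ∑ x, w x = ∑ x, ((t₀ x).2 : ℕ) := by
  obtain ⟨g, h1, h2⟩ := eps_ne_zero t₀ u w h
  constructor
  · rw [← Equiv.sum_comp g (fun x => colw t₀ x)]
    refine Finset.sum_congr rfl fun x _ => ?_
    have := h1 x
    simp only [colw]
    omega
  · rw [← Equiv.sum_comp g (fun x => ((t₀ x).2 : ℕ))]
    exact Finset.sum_congr rfl fun x _ => h2 x

/-- If `(u, v)` and `(v, w)` are bijections onto the staircase and `(u, w)` is injective then its
image is the staircase. -/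
private theorem S2_weight (t₀ : Ω ≃ Cel (stair k)) {u v w : Ω → ℕ} (h1 : eps t₀ u v ≠ 0)
    (h2 : eps t₀ v w ≠ 0) (hinj : Function.Injective fun x => (u x, w x)) (x : Ω) :
    u x + w x < k := by
  classical
  obtain ⟨a1, a2⟩ := S2_sum_fst t₀ h1
  obtain ⟨b1, b2⟩ := S2_sum_fst t₀ h2
  set A : Finset (ℕ × ℕ) := (Finset.univ : Finset Ω).image (fun x => (u x, w x)) with hA
  have hcA : A.card = (S2_St k).card := by
    rw [hA, Finset.card_image_of_injective _ hinj, Finset.card_univ, S2_card t₀]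
  have hsA : ∑ c ∈ A, (c.1 + c.2) = ∑ c ∈ S2_St k, (c.1 + c.2) := by
    rw [hA, Finset.sum_image (fun x _ y _ h => hinj h), ← S2_image₀ t₀,
      Finset.sum_image (fun x _ y _ h => S2_inj₀ t₀ h)]
    rw [Finset.sum_add_distrib, Finset.sum_add_distrib]
    rw [a1, b2]
  have e1 := Finset.sum_sdiff (Finset.inter_subset_left : A ∩ S2_St k ⊆ A)
    (f := fun c : ℕ × ℕ => c.1 + c.2)
  have e2 := Finset.sum_sdiff (Finset.inter_subset_right : A ∩ S2_St k ⊆ S2_St k)
    (f := fun c : ℕ × ℕ => c.1 + c.2)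
  have c1 := Finset.card_sdiff_add_card_eq_card (Finset.inter_subset_left : A ∩ S2_St k ⊆ A)
  have c2 := Finset.card_sdiff_add_card_eq_card
    (Finset.inter_subset_right : A ∩ S2_St k ⊆ S2_St k)
  have d1 : k * (A \ (A ∩ S2_St k)).card ≤ ∑ c ∈ A \ (A ∩ S2_St k), (c.1 + c.2) := by
    rw [mul_comm, ← smul_eq_mul, ← Finset.sum_const]
    refine Finset.sum_le_sum fun c hc => ?_
    rw [Finset.mem_sdiff, Finset.mem_inter, S2_mem_St] at hc
    by_contra h
    exact hc.2 ⟨hc.1, by omega⟩
  have d2 : ∑ c ∈ S2_St k \ (A ∩ S2_St k), (c.1 + c.2) + (S2_St k \ (A ∩ S2_St k)).card ≤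
      k * (S2_St k \ (A ∩ S2_St k)).card := by
    rw [Finset.card_eq_sum_ones, ← Finset.sum_add_distrib, Finset.mul_sum]
    refine Finset.sum_le_sum fun c hc => ?_
    rw [Finset.mem_sdiff, S2_mem_St] at hc
    have := hc.1
    omega
  have e3 : (A \ (A ∩ S2_St k)).card = (S2_St k \ (A ∩ S2_St k)).card := by omega
  rw [e3] at d1
  have e4 : (A \ (A ∩ S2_St k)).card = 0 := by omega
  rw [Finset.card_eq_zero, Finset.sdiff_eq_empty_iff_subset] at e4
  have hx : (u x, w x) ∈ A := Finset.mem_image_of_mem _ (Finset.mem_univ x)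
  have := Finset.mem_of_mem_inter_right (e4 hx)
  rwa [S2_mem_St] at this

private theorem S2_odd (t₀ : Ω ≃ Cel (stair k)) {u w : Ω → ℕ} (h : eps t₀ u w ≠ 0) :
    Odd (eps t₀ u w) := by
  have h1 := eps_sq_one t₀ u w h
  have h2 : Odd (eps t₀ u w * eps t₀ u w) := by rw [h1]; exact odd_one
  exact (Int.odd_mul.1 h2).1

end S2b

/-- `eps * eps = eps` mod `2`.

If `(u, w)` is injective into the staircase, there is exactly one `v` with
`eps u v * eps v w ≠ 0` (the two lemmas above and `eps_ne_zero_iff`), and then the product is `± 1`.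
If `u x + w x ≥ k` for some `x`... NOTE: then some care is needed: if the sum has a nonzero term `v`
then `(u, v)` and `(v, w)` are bijections onto the staircase, so the words `u`, `v`, `w` have
content: value `i` is taken `k - i` times; if moreover `(u, w)` is injective, then `(u, w)` is a
subset of `ℕ²` with the margins of the staircase, hence equal to the staircase (weight argument:
`∑ (u + w)` is the same and the staircase is the unique set of `k (k + 1) / 2` cells of minimal
weight). So if `(u, w)` is not injective into the staircase and some term is nonzero, there are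
`x ≠ y` with `u x = u y`, `w x = w y`; the involution `v ↦ v ∘ swap x y` preserves the parity of the
terms (`eps u (v ∘ swap) = eps (u ∘ swap) (v ∘ swap) = - eps u v`, and same for the other factor)
and has no fixed point among the nonzero terms (a fixed point has `v x = v y`, then `eps u v = 0`),
so the number of nonzero (odd) terms is even. -/
theorem eps_mul_eps (t₀ : Ω ≃ Cel (stair k)) (u w : Ω → ℕ) :
    Even ((∑ v : Ω → Fin k, eps t₀ u (kw v) * eps t₀ (kw v) w) - eps t₀ u w) := by
  classical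
  by_cases h0 : eps t₀ u w = 0
  · rw [h0, sub_zero]
    by_cases hN : ∀ v : Ω → Fin k, eps t₀ u (kw v) * eps t₀ (kw v) w = 0
    · rw [Finset.sum_eq_zero fun v _ => hN v]
      exact Even.zero
    · push Not at hN
      obtain ⟨v₀, hv₀⟩ := hN
      have hu0 := left_ne_zero_of_mul hv₀
      have hw0 := right_ne_zero_of_mul hv₀
      have hni : ¬ Function.Injective fun x => (u x, w x) := by
        intro hinj
        exact (eps_ne_zero_iff t₀ u w).2 ⟨hinj, S2_weight t₀ hu0 hw0 hinj⟩ h0
      obtain ⟨x, y, hxy, hne⟩ : ∃ x y, (u x, w x) = (u y, w y) ∧ x ≠ y := by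
        unfold Function.Injective at hni
        push Not at hni
        obtain ⟨x, y, h1, h2⟩ := hni
        exact ⟨x, y, h1, h2⟩
      have hux : u x = u y := congrArg Prod.fst hxy
      have hwx : w x = w y := congrArg Prod.snd hxy
      have hsw : ∀ f : Ω → ℕ, f x = f y → f ∘ (swap x y) = f := by
        intro f hf
        funext z
        simp only [Function.comp_apply]
        by_cases hzx : z = x
        · rw [hzx, swap_apply_left, hf]
        · by_cases hzy : z = y
          · rw [hzy, swap_apply_right, hf]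
          · rw [swap_apply_of_ne_of_ne hzx hzy]
      have hterm : ∀ v : Ω → Fin k,
          eps t₀ u (kw (v ∘ swap x y)) * eps t₀ (kw (v ∘ swap x y)) w =
            eps t₀ u (kw v) * eps t₀ (kw v) w := by
        intro v
        have e1 : kw (v ∘ swap x y) = kw v ∘ swap x y := rfl
        have e2 := eps_comp t₀ u (kw v) (swap x y)
        have e3 := eps_comp t₀ (kw v) w (swap x y)
        rw [hsw u hux] at e2
        rw [hsw w hwx] at e3
        rw [e1, e2, e3, sign_swap hne]
        simp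
      refine even_iff_two_dvd.2 ((ZMod.intCast_zmod_eq_zero_iff_dvd _ 2).1 ?_)
      rw [Int.cast_sum]
      refine Finset.sum_involution (fun v _ => v ∘ swap x y) ?_ ?_ ?_ ?_
      · intro v _
        rw [hterm v, ← Int.cast_add, ← two_mul, Int.cast_mul]
        have : ((2 : ℤ) : ZMod 2) = 0 := by decide
        rw [this, zero_mul]
      · intro v _ hv hfix
        apply hv
        have hvx : kw v x = kw v y := by
          have := congrFun hfix x
          simp only [Function.comp_apply, swap_apply_left] at this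
          show ((v x : Fin k) : ℕ) = (v y : ℕ)
          rw [this]
        rw [eps_eq_zero_of_not_inj t₀ u (kw v) hne hux hvx, zero_mul, Int.cast_zero]
      · intro v _
        exact Finset.mem_univ _
      · intro v _
        funext z
        simp
  · obtain ⟨hinj, hlt⟩ := (eps_ne_zero_iff t₀ u w).1 h0
    have hk : ∀ x, k - 1 - u x - w x < k := fun x => by have := hlt x; omega
    set v₁ : Ω → Fin k := fun x => ⟨k - 1 - u x - w x, hk x⟩ with hv₁
    obtain ⟨i1, i2, i3, i4⟩ := transversal_exists u w hinj hlt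
    have hu1 : eps t₀ u (kw v₁) ≠ 0 := (eps_ne_zero_iff t₀ _ _).2 ⟨i1, i2⟩
    have hw1 : eps t₀ (kw v₁) w ≠ 0 := (eps_ne_zero_iff t₀ _ _).2 ⟨i3, i4⟩
    rw [Finset.sum_eq_single v₁]
    · exact ((S2_odd t₀ hu1).mul (S2_odd t₀ hw1)).sub_odd (S2_odd t₀ h0)
    · intro v _ hv
      by_contra hne
      apply hv
      obtain ⟨j1, j2⟩ := (eps_ne_zero_iff t₀ _ _).1 (left_ne_zero_of_mul hne)
      obtain ⟨j3, j4⟩ := (eps_ne_zero_iff t₀ _ _).1 (right_ne_zero_of_mul hne)
      funext x
      have := transversal_unique (S2_card' t₀) u (kw v) w hinj hlt j1 j2 j3 j4 x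
      apply Fin.ext
      show (v x : ℕ) = k - 1 - u x - w x
      have e : kw v x = (v x : ℕ) := rfl
      omega
    · intro h
      exact absurd (Finset.mem_univ _) h

end Crest.Agent.SX
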