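import Crest.Agent.SX_S2
import Crest.Agent.SX_C1

/-!
# S0297, task SX-S3: `θ²` is an odd scalar on the Specht module of the staircase
-/

set_option autoImplicit false

namespace Crest.Agent.SX

open Equiv Equiv.Perm

variable {Ω : Type} [Fintype Ω] [DecidableEq Ω] {k : ℕ}

/-- `θ (F ∘ g) = sign g • (θ F) ∘ g`. (Reindex the sum by `v ↦ v ∘ g`, `eps_comp`.) -/
theorem th_comp (t₀ : Ω ≃ Cel (stair k)) (F : (Ω → ℕ) → ℂ) (g : Perm Ω) (w : Ω → ℕ) :
    th t₀ (fun w => F (w ∘ g)) w = ((sign g : ℤ) : ℂ) * th t₀ F (w ∘ g) := by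
  unfold th
  rw [Finset.mul_sum]
  refine Fintype.sum_equiv (Equiv.arrowCongr g.symm (Equiv.refl (Fin k))) _ _ fun v => ?_
  have e1 : kw (Equiv.arrowCongr g.symm (Equiv.refl (Fin k)) v) = kw v ∘ g := rfl
  have e2 : ((sign g : ℤ) : ℂ) * ((sign g : ℤ) : ℂ) = 1 := by
    rw [← Int.cast_mul, ← Units.val_mul, Int.units_mul_self]
    simp
  rw [e1, eps_comp, Int.cast_mul]
  linear_combination (-(F (kw v ∘ g) * (eps t₀ (kw v) w : ℂ))) * e2

/-- `θ F` is in the Specht module. -/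
theorem th_mem (t₀ : Ω ≃ Cel (stair k)) (F : (Ω → ℕ) → ℂ) : th t₀ F ∈ Sp (Ω := Ω) (stair k) := by
  have e : th t₀ F = ∑ v : Ω → Fin k, F (kw v) • (fun w => (eps t₀ (kw v) w : ℂ)) := by
    ext w
    rw [Finset.sum_apply]
    rfl
  rw [e]
  exact Submodule.sum_mem _ fun v _ => Submodule.smul_mem _ _ (eps_mem t₀ (kw v))

private theorem th_apply_aux (t₀ : Ω ≃ Cel (stair k)) (F : (Ω → ℕ) → ℂ) (w : Ω → ℕ) :
    th t₀ F w = ∑ v : Ω → Fin k, F (kw v) * (eps t₀ (kw v) w : ℂ) := rfl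

private theorem th_add (t₀ : Ω ≃ Cel (stair k)) (F G : (Ω → ℕ) → ℂ) :
    th t₀ (F + G) = th t₀ F + th t₀ G := by
  ext w
  simp only [th, Pi.add_apply, add_mul, Finset.sum_add_distrib]

private theorem th_smul (t₀ : Ω ≃ Cel (stair k)) (a : ℂ) (F : (Ω → ℕ) → ℂ) :
    th t₀ (a • F) = a • th t₀ F := by
  ext w
  simp only [th, Pi.smul_apply, smul_eq_mul, Finset.mul_sum, mul_assoc]

private theorem th_zero (t₀ : Ω ≃ Cel (stair k)) : th t₀ (0 : (Ω → ℕ) → ℂ) = 0 := by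
  ext w
  simp [th]

private theorem th_th_comp (t₀ : Ω ≃ Cel (stair k)) (F : (Ω → ℕ) → ℂ) (g : Perm Ω) (w : Ω → ℕ) :
    th t₀ (th t₀ (fun w => F (w ∘ g))) w = th t₀ (th t₀ F) (w ∘ g) := by
  have e2 : ((sign g : ℤ) : ℂ) * ((sign g : ℤ) : ℂ) = 1 := by
    rw [← Int.cast_mul, ← Units.val_mul, Int.units_mul_self]
    simp
  have e1 : th t₀ (fun w => F (w ∘ g)) =
      ((sign g : ℤ) : ℂ) • fun w => th t₀ F (w ∘ g) := by
    ext w
    exact th_comp t₀ F g w
  rw [e1, th_smul, Pi.smul_apply, th_comp, smul_eq_mul, ← mul_assoc, e2, one_mul]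

/-- `θ² = c` on the Specht module, `c` an odd integer.

Proof. For a tableau `t`, `θ² (pt t)` is antisymmetric under the column group of `t` (`th_comp`
twice and `pt_col`) and supported on weight `wt` (`th_mem`, `Sp_weight`), so by `james` it is
`c_t • pt t` with `c_t = θ² (pt t) (row word of t)`, an integer; `c_t` does not depend on `t`
(`pt_comp`, `th_comp`: all tableaux are `g.symm.trans t`). Oddness: `pt t₀ = ± eps (colw t₀) ·`, so
`θ² (pt t₀) w = ± ∑_{v, v'} eps u v eps v v' eps v' w` which by `eps_mul_eps` (twice) is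
`± eps u w` mod `2`, and `eps u w = ± 1` for `w` = row word of `t₀`. -/
theorem th_th (t₀ : Ω ≃ Cel (stair k)) :
    ∃ c : ℤ, Odd c ∧ ∀ F ∈ Sp (Ω := Ω) (stair k), ∀ w, th t₀ (th t₀ F) w = (c : ℂ) * F w := by
  set u : Ω → ℕ := colw t₀ with hu
  set r : Ω → ℕ := fun x => ((t₀ x).2 : ℕ) with hr
  -- the base polytabloid is the row `u` of `eps`
  have hpt : ∀ w, pt t₀ w = (eps t₀ u w : ℂ) := by
    intro w
    have h1 := eps_colw t₀ 1 w
    have h2 : (1 : Perm Ω).trans t₀ = t₀ := rfl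
    rw [h2] at h1
    rw [hu, h1]
    simp
  set A : (Ω → ℕ) → ℤ := fun w => ∑ v : Ω → Fin k, eps t₀ u (kw v) * eps t₀ (kw v) w with hA
  set c : ℤ := ∑ v : Ω → Fin k, A (kw v) * eps t₀ (kw v) r with hc
  have hthA : ∀ w, th t₀ (pt t₀) w = (A w : ℂ) := by
    intro w
    simp only [th, hA, hpt]
    push_cast
    rfl
  have hcT : th t₀ (th t₀ (pt t₀)) r = (c : ℂ) := by
    rw [hc]
    simp only [th_apply_aux t₀ (th t₀ (pt t₀)), hthA]
    push_cast
    rfl
  have hodd : Odd c := by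
    have h1 : Even (c - ∑ v : Ω → Fin k, eps t₀ u (kw v) * eps t₀ (kw v) r) := by
      rw [hc, ← Finset.sum_sub_distrib]
      refine Finset.even_sum _ fun v _ => ?_
      rw [← sub_mul]
      exact (eps_mul_eps t₀ u (kw v)).mul_right _
    have h2 := eps_mul_eps t₀ u r
    have h3 : eps t₀ u r = 1 := by
      have h4 := hpt r
      rw [hr, pt_self] at h4
      exact_mod_cast h4.symm
    have h5 : c = (c - ∑ v : Ω → Fin k, eps t₀ u (kw v) * eps t₀ (kw v) r) +
        ((∑ v : Ω → Fin k, eps t₀ u (kw v) * eps t₀ (kw v) r) - eps t₀ u r) + 1 := by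
      rw [h3]; ring
    rw [h5]
    exact (h1.add h2).add_one
  -- the base polytabloid
  have h0 : ∀ w, th t₀ (th t₀ (pt t₀)) w = (c : ℂ) * pt t₀ w := by
    intro w
    rw [← hcT]
    refine james t₀ (th t₀ (th t₀ (pt t₀))) ?_ ?_ w
    · intro s hs w
      rw [← th_th_comp]
      have h1 : (fun w => pt t₀ (w ∘ s)) = ((sign s : ℤ) : ℂ) • pt t₀ := by
        ext w
        exact pt_col t₀ s hs w
      rw [h1, th_smul, th_smul]
      rfl
    · intro w hw
      exact Sp_weight (th_mem t₀ _) hw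
  refine ⟨c, hodd, fun F hF => ?_⟩
  refine Submodule.span_induction
    (p := fun F _ => ∀ w, th t₀ (th t₀ F) w = (c : ℂ) * F w) ?_ ?_ ?_ ?_ hF
  · rintro _ ⟨t, rfl⟩ w
    have h1 : (fun w => pt t₀ (w ∘ (t₀.trans t.symm))) = pt t := by
      ext w
      rw [pt_comp]
      congr 1
      refine Equiv.ext fun x => ?_
      show t₀ (t₀.symm (t x)) = t x
      rw [Equiv.apply_symm_apply]
    show th t₀ (th t₀ (pt t)) w = (c : ℂ) * pt t w
    rw [← h1, th_th_comp, h0]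
  · intro w
    rw [th_zero, th_zero]
    simp
  · intro F G _ _ h1 h2 w
    rw [th_add, th_add, Pi.add_apply, Pi.add_apply, h1, h2, mul_add]
  · intro a F _ h1 w
    rw [th_smul, th_smul, Pi.smul_apply, Pi.smul_apply, h1, smul_eq_mul, smul_eq_mul]
    ring

end Crest.Agent.SX
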