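import Crest.Agent.SX_Thr
import Crest.Agent.SX_Mul

/-!
# S0297, task SX-StepQ: matrix coefficients of a tensor product
-/

set_option autoImplicit false

namespace Crest.Agent.SX

open Equiv Equiv.Perm TensorProduct

variable {A B ι κ : Type} [Fintype A] [DecidableEq A] [Fintype B] [DecidableEq B]
  [Fintype ι] [Fintype κ]

/-- The matrix coefficients of a product: for `F : W → U₁ ⊗ U₂` and equivariant maps `j₁`, `j₂` into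
functions, the function `q w x = (j₁ ⊗ j₂) (F w) (resl x, resr x)`. Here `ev x : (WW A → ℂ) → ℂ`
is evaluation (`LinearMap.proj x`). -/
noncomputable def qmap {W U₁ U₂ : Type} [AddCommGroup W] [Module ℂ W]
    [AddCommGroup U₁] [Module ℂ U₁] [AddCommGroup U₂] [Module ℂ U₂]
    (j₁ : U₁ →ₗ[ℂ] (WW A → ℂ)) (j₂ : U₂ →ₗ[ℂ] (WW B → ℂ)) (F : W →ₗ[ℂ] U₁ ⊗[ℂ] U₂) :
    W →ₗ[ℂ] (WW (A ⊕ B) → ℂ) :=
  LinearMap.pi fun x =>
    (TensorProduct.lid ℂ ℂ).toLinearMap ∘ₗ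
      (TensorProduct.map (LinearMap.proj (resl x) ∘ₗ j₁) (LinearMap.proj (resr x) ∘ₗ j₂)) ∘ₗ F

section helpers
variable {X Y U₁ U₂ : Type} [AddCommGroup U₁] [Module ℂ U₁] [AddCommGroup U₂] [Module ℂ U₂]

/-- two point evaluation -/
private noncomputable def q2 (j₁ : U₁ →ₗ[ℂ] (X → ℂ)) (j₂ : U₂ →ₗ[ℂ] (Y → ℂ)) (x : X) (y : Y) :
    U₁ ⊗[ℂ] U₂ →ₗ[ℂ] ℂ :=
  (TensorProduct.lid ℂ ℂ).toLinearMap ∘ₗ
    (TensorProduct.map (LinearMap.proj x ∘ₗ j₁) (LinearMap.proj y ∘ₗ j₂))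

private theorem q2_tmul (j₁ : U₁ →ₗ[ℂ] (X → ℂ)) (j₂ : U₂ →ₗ[ℂ] (Y → ℂ)) (x : X) (y : Y) (u : U₁)
    (v : U₂) : q2 j₁ j₂ x y (u ⊗ₜ[ℂ] v) = j₁ u x * j₂ v y := by
  simp [q2]

/-- partial evaluation in the second factor -/
private noncomputable def e1 (j₂ : U₂ →ₗ[ℂ] (Y → ℂ)) (y : Y) : U₁ ⊗[ℂ] U₂ →ₗ[ℂ] U₁ :=
  (TensorProduct.rid ℂ U₁).toLinearMap ∘ₗ (TensorProduct.map LinearMap.id (LinearMap.proj y ∘ₗ j₂))

/-- partial evaluation in the first factor -/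
private noncomputable def e2 (j₁ : U₁ →ₗ[ℂ] (X → ℂ)) (x : X) : U₁ ⊗[ℂ] U₂ →ₗ[ℂ] U₂ :=
  (TensorProduct.lid ℂ U₂).toLinearMap ∘ₗ (TensorProduct.map (LinearMap.proj x ∘ₗ j₁) LinearMap.id)

private theorem e1_spec (j₁ : U₁ →ₗ[ℂ] (X → ℂ)) (j₂ : U₂ →ₗ[ℂ] (Y → ℂ)) (x : X) (y : Y)
    (T : U₁ ⊗[ℂ] U₂) : j₁ (e1 j₂ y T) x = q2 j₁ j₂ x y T := by
  induction T with
  | zero => simp
  | tmul u v =>
    rw [q2_tmul]
    simp [e1, mul_comm]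
  | add a b ha hb => rw [map_add, map_add, map_add, Pi.add_apply, ha, hb]

private theorem e2_spec (j₁ : U₁ →ₗ[ℂ] (X → ℂ)) (j₂ : U₂ →ₗ[ℂ] (Y → ℂ)) (x : X) (y : Y)
    (T : U₁ ⊗[ℂ] U₂) : j₂ (e2 j₁ x T) y = q2 j₁ j₂ x y T := by
  induction T with
  | zero => simp
  | tmul u v =>
    rw [q2_tmul]
    simp [e2]
  | add a b ha hb => rw [map_add, map_add, map_add, Pi.add_apply, ha, hb]

end helpers

omit [Fintype A] [DecidableEq A] [Fintype B] [DecidableEq B] in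
private theorem qmap_eq {W U₁ U₂ : Type} [AddCommGroup W] [Module ℂ W]
    [AddCommGroup U₁] [Module ℂ U₁] [AddCommGroup U₂] [Module ℂ U₂]
    (j₁ : U₁ →ₗ[ℂ] (WW A → ℂ)) (j₂ : U₂ →ₗ[ℂ] (WW B → ℂ)) (F : W →ₗ[ℂ] U₁ ⊗[ℂ] U₂) (w : W)
    (x : WW (A ⊕ B)) : qmap j₁ j₂ F w x = q2 j₁ j₂ (resl x) (resr x) (F w) := rfl

/-- `qmap` is equivariant for `Perm A × Perm B`. -/
theorem qmap_equiv {W U₁ U₂ : Type} [AddCommGroup W] [Module ℂ W]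
    [AddCommGroup U₁] [Module ℂ U₁] [AddCommGroup U₂] [Module ℂ U₂]
    (σ : Representation ℂ (Perm (A ⊕ B)) W) (τ₁ : Representation ℂ (Perm A) U₁)
    (τ₂ : Representation ℂ (Perm B) U₂)
    (j₁ : U₁ →ₗ[ℂ] (WW A → ℂ)) (j₂ : U₂ →ₗ[ℂ] (WW B → ℂ)) (F : W →ₗ[ℂ] U₁ ⊗[ℂ] U₂)
    (hj₁ : ∀ g w x, j₁ (τ₁ g w) x = j₁ w (pull g x))
    (hj₂ : ∀ g w x, j₂ (τ₂ g w) x = j₂ w (pull g x))
    (hF : ∀ g₁ g₂ w, F (σ (Perm.sumCongr g₁ g₂) w) = TensorProduct.map (τ₁ g₁) (τ₂ g₂) (F w))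
    (g₁ : Perm A) (g₂ : Perm B) (w : W) (x : WW (A ⊕ B)) :
    qmap j₁ j₂ F (σ (Perm.sumCongr g₁ g₂) w) x =
      qmap j₁ j₂ F w (pull (Perm.sumCongr g₁ g₂) x) := by
  rw [qmap_eq, qmap_eq, hF]
  have hl : resl (pull (Perm.sumCongr g₁ g₂) x) = pull g₁ (resl x) := rfl
  have hr : resr (pull (Perm.sumCongr g₁ g₂) x) = pull g₂ (resr x) := rfl
  rw [hl, hr]
  generalize F w = T
  induction T with
  | zero => simp
  | tmul u v => rw [TensorProduct.map_tmul, q2_tmul, q2_tmul, hj₁, hj₂]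
  | add a b ha hb => rw [map_add, map_add, map_add, ha, hb]

/-- The values of `qmap` are in `VV (Sum.elim h h')` (`VV_mul`). -/
theorem qmap_mem {W U₁ U₂ : Type} [AddCommGroup W] [Module ℂ W]
    [AddCommGroup U₁] [Module ℂ U₁] [AddCommGroup U₂] [Module ℂ U₂] {h : ι → ℕ} {h' : κ → ℕ}
    (j₁ : U₁ →ₗ[ℂ] (WW A → ℂ)) (j₂ : U₂ →ₗ[ℂ] (WW B → ℂ)) (F : W →ₗ[ℂ] U₁ ⊗[ℂ] U₂)
    (hj₁ : ∀ w, j₁ w ∈ VV (Ω := A) h) (hj₂ : ∀ w, j₂ w ∈ VV (Ω := B) h') (w : W) :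
    qmap j₁ j₂ F w ∈ VV (Ω := A ⊕ B) (Sum.elim h h') := by
  have h1 : qmap j₁ j₂ F w = fun x => q2 j₁ j₂ (resl x) (resr x) (F w) := rfl
  rw [h1]
  generalize F w = T
  induction T with
  | zero =>
    simp only [map_zero]
    exact Submodule.zero_mem _
  | tmul u v =>
    simp only [q2_tmul]
    exact VV_mul (hj₁ u) (hj₂ v)
  | add a b ha hb =>
    simp only [map_add]
    exact Submodule.add_mem _ ha hb

/-- The support of `qmap`: the weight over the left letters is `2 wt h`. -/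
theorem qmap_supp {W U₁ U₂ : Type} [AddCommGroup W] [Module ℂ W]
    [AddCommGroup U₁] [Module ℂ U₁] [AddCommGroup U₂] [Module ℂ U₂] {h : ι → ℕ}
    (j₁ : U₁ →ₗ[ℂ] (WW A → ℂ)) (j₂ : U₂ →ₗ[ℂ] (WW B → ℂ)) (F : W →ₗ[ℂ] U₁ ⊗[ℂ] U₂)
    (hj₁ : ∀ w, j₁ w ∈ VV (Ω := A) h) (w : W) (x : WW (A ⊕ B))
    (hx : qmap j₁ j₂ F w x ≠ 0) :
    ∑ a, (x.1 (Sum.inl a) + x.2 (Sum.inl a)) = 2 * wt h := by
  by_contra hne
  apply hx
  rw [qmap_eq]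
  generalize F w = T
  induction T with
  | zero => simp
  | tmul u v =>
    rw [q2_tmul]
    have h0 : j₁ u (resl x) = 0 := by
      by_contra h1
      obtain ⟨h2, h3⟩ := VV_weight (hj₁ u) h1
      apply hne
      rw [Finset.sum_add_distrib]
      have h4 : ∑ a, x.1 (Sum.inl a) = wt h := h2
      have h5 : ∑ a, x.2 (Sum.inl a) = wt h := h3
      rw [h4, h5]
      ring
    rw [h0, zero_mul]
  | add a b ha hb => rw [map_add, ha, hb, add_zero]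

/-- `qmap` is injective on nonzero elements: if `F w ≠ 0` then `qmap j₁ j₂ F w ≠ 0`
(injectivity of `TensorProduct.map j₁ j₂` and of `(X → ℂ) ⊗ (Y → ℂ) → (X × Y → ℂ)`; or: write `F w`
with a basis of the finite-dimensional `U₂`, or evaluate one factor after the other). -/
theorem qmap_ne_zero {W U₁ U₂ : Type} [AddCommGroup W] [Module ℂ W]
    [AddCommGroup U₁] [Module ℂ U₁] [FiniteDimensional ℂ U₁]
    [AddCommGroup U₂] [Module ℂ U₂] [FiniteDimensional ℂ U₂]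
    (j₁ : U₁ →ₗ[ℂ] (WW A → ℂ)) (j₂ : U₂ →ₗ[ℂ] (WW B → ℂ)) (F : W →ₗ[ℂ] U₁ ⊗[ℂ] U₂)
    (hj₁ : Function.Injective j₁) (hj₂ : Function.Injective j₂) (w : W) (hw : F w ≠ 0) :
    ∃ x, qmap j₁ j₂ F w x ≠ 0 := by
  by_contra hne
  push Not at hne
  apply hw
  let b := Module.finBasis ℂ U₂
  obtain ⟨c, hc⟩ := TensorProduct.eq_repr_basis_right b (F w)
  have key : ∀ (y : WW A) (z : WW B), j₂ (c.sum fun i n => (j₁ n y) • b i) z = 0 := by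
    intro y z
    have h1 := hne (Sum.elim y.1 z.1, Sum.elim y.2 z.2)
    rw [qmap_eq] at h1
    have hl : resl ((Sum.elim y.1 z.1, Sum.elim y.2 z.2) : WW (A ⊕ B)) = y := rfl
    have hr : resr ((Sum.elim y.1 z.1, Sum.elim y.2 z.2) : WW (A ⊕ B)) = z := rfl
    rw [hl, hr, ← hc] at h1
    rw [← h1]
    unfold Finsupp.sum
    rw [map_sum, map_sum, Finset.sum_apply]
    refine Finset.sum_congr rfl fun i _ => ?_
    rw [q2_tmul, map_smul, Pi.smul_apply, smul_eq_mul]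
  have key2 : ∀ (y : WW A) i, j₁ (c i) y = 0 := by
    intro y i
    have h1 : (c.sum fun i n => (j₁ n y) • b i) = 0 := by
      apply hj₂
      rw [map_zero]
      funext z
      exact key y z
    have h2 : (∑ i, (j₁ (c i) y) • b i) = 0 := by
      rw [← h1, Finsupp.sum_fintype]
      intro i
      simp
    exact (Fintype.linearIndependent_iff.mp b.linearIndependent) _ h2 i
  have hc0 : c = 0 := by
    ext i
    apply hj₁
    rw [Finsupp.coe_zero, Pi.zero_apply, map_zero]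
    funext y
    exact key2 y i
  rw [← hc, hc0, Finsupp.sum_zero_index]

/-- Sharpness of `qmap`. For fixed `y : WW B`, `x ↦ (j₁ ⊗ j₂) (F w) (x, y)` is `j₁ u` for some
`u ∈ U₁` (`u = (id ⊗ ev_y ∘ j₂) (F w)`), and symmetrically; apply the sharpness of `j₁` with
`y = pull g₂ (resr p)`, then the sharpness of `j₂`. -/
theorem qmap_sharp {W U₁ U₂ : Type} [AddCommGroup W] [Module ℂ W]
    [AddCommGroup U₁] [Module ℂ U₁] [AddCommGroup U₂] [Module ℂ U₂]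
    (R : AddSubgroup ℂ) (p : WW (A ⊕ B))
    (j₁ : U₁ →ₗ[ℂ] (WW A → ℂ)) (j₂ : U₂ →ₗ[ℂ] (WW B → ℂ)) (F : W →ₗ[ℂ] U₁ ⊗[ℂ] U₂)
    (h₁ : ∀ w, (∀ g, j₁ w (pull g (resl p)) ∈ R) → ∀ x, j₁ w x ∈ R)
    (h₂ : ∀ w, (∀ g, j₂ w (pull g (resr p)) ∈ R) → ∀ x, j₂ w x ∈ R) (w : W)
    (hw : ∀ g₁ g₂, qmap j₁ j₂ F w (pull (Perm.sumCongr g₁ g₂) p) ∈ R) :
    ∀ x, qmap j₁ j₂ F w x ∈ R := by
  have hq : ∀ (x : WW A) (y : WW B), q2 j₁ j₂ x y (F w) ∈ R := by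
    have s1 : ∀ (g₂ : Perm B) (x : WW A), q2 j₁ j₂ x (pull g₂ (resr p)) (F w) ∈ R := by
      intro g₂ x
      rw [← e1_spec]
      apply h₁
      intro g₁
      rw [e1_spec]
      exact hw g₁ g₂
    intro x y
    rw [← e2_spec]
    apply h₂
    intro g₂
    rw [e2_spec]
    exact s1 g₂ x
  intro x
  exact hq _ _

end Crest.Agent.SX
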