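import Crest.Agent.SX_T0

/-!
# S0297, task SX-T1: `Θ` is an equivariant map into the tensor square
-/

set_option autoImplicit false

namespace Crest.Agent.SX

open Equiv Equiv.Perm

variable {A : Type} [Fintype A] [DecidableEq A] {k : ℕ}

theorem eps2_comp (t₀ : A ≃ Cel (two k)) (u : A → Bool) (w : A → ℕ) (g : Perm A) :
    eps2 t₀ (u ∘ g) (w ∘ g) = (sign g : ℤ) * eps2 t₀ u w := by
  classical
  unfold eps2
  rw [Finset.mul_sum]
  refine Fintype.sum_equiv (Equiv.mulRight g⁻¹) _ _ fun s => ?_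
  have e1 : ∀ x, (Equiv.mulRight g⁻¹ s) x = s (g.symm x) := fun x => rfl
  have hs : (sign s : ℤ) = (sign g : ℤ) * (sign (Equiv.mulRight g⁻¹ s) : ℤ) := by
    have : sign s = sign g * sign (s * g⁻¹) := by
      rw [Perm.sign_mul, Perm.sign_inv, mul_comm (sign s), ← mul_assoc, Int.units_mul_self, one_mul]
    have h2 := congrArg (fun z : ℤˣ => (z : ℤ)) this
    simpa using h2
  rw [mul_ite, mul_zero, ← hs]
  refine if_congr ?_ rfl rfl
  simp only [e1, Function.comp_apply]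
  constructor
  · rintro ⟨h1, h2⟩
    refine ⟨fun x => ?_, fun x => ?_⟩
    · have := h1 (g.symm x)
      rwa [Equiv.apply_symm_apply] at this
    · have := h2 (g.symm x)
      rwa [Equiv.apply_symm_apply] at this
  · rintro ⟨h1, h2⟩
    refine ⟨fun x => ?_, fun x => ?_⟩
    · have := h1 (g x)
      rwa [Equiv.symm_apply_apply] at this
    · have := h2 (g x)
      rwa [e1, Equiv.symm_apply_apply] at this

/-- Every row of `eps2` is `0` or `±` a polytabloid: if `u = column ∘ t₀ ∘ g₀` then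
`eps2 t₀ u w = sign g₀ * pt (g₀.trans t₀) w`. -/
theorem eps2_mem (t₀ : A ≃ Cel (two k)) (u : A → Bool) :
    (eps2 t₀ u = 0) ∨ ∃ (t : A ≃ Cel (two k)) (δ : ℤ), ∀ w, (eps2 t₀ u w : ℂ) = δ * pt t w := by
  classical
  by_cases h : ∃ g₀ : Perm A, ∀ x, u x = (t₀ (g₀ x)).1
  · right
    obtain ⟨g₀, hg⟩ := h
    refine ⟨g₀.trans t₀, (sign g₀ : ℤ), fun w => ?_⟩
    unfold eps2 pt
    rw [Int.cast_sum, Finset.mul_sum]
    let e : Perm A ≃ Perm A := ⟨fun s => g₀ * s⁻¹, fun g => g⁻¹ * g₀, fun s => by simp,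
      fun g => by simp⟩
    refine (Fintype.sum_equiv e _ _ fun s => ?_).symm
    have e0 : e s = g₀ * s⁻¹ := rfl
    have hs : (sign (g₀ * s⁻¹) : ℤ) = (sign g₀ : ℤ) * (sign s : ℤ) := by
      have : sign (g₀ * s⁻¹) = sign g₀ * sign s := by
        rw [Perm.sign_mul, Perm.sign_inv]
      exact congrArg (fun z : ℤˣ => (z : ℤ)) this
    rw [e0]
    have hiff : ((∀ x, ((g₀.trans t₀) (s x)).1 = ((g₀.trans t₀) x).1) ∧
        ∀ x, w (s x) = (((g₀.trans t₀) x).2 : ℕ)) ↔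
        ((∀ x, u x = (t₀ ((g₀ * s⁻¹) x)).1) ∧ ∀ x, w x = ((t₀ ((g₀ * s⁻¹) x)).2 : ℕ)) := by
      simp only [Equiv.trans_apply, Perm.mul_apply, Perm.coe_inv]
      constructor
      · rintro ⟨h1, h2⟩
        refine ⟨fun x => ?_, fun x => ?_⟩
        · have := h1 (s.symm x)
          rw [Equiv.apply_symm_apply] at this
          rw [hg x, this]
        · have := h2 (s.symm x)
          rwa [Equiv.apply_symm_apply] at this
      · rintro ⟨h1, h2⟩
        refine ⟨fun x => ?_, fun x => ?_⟩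
        · have := h1 (s x)
          rw [Equiv.symm_apply_apply, hg] at this
          exact this
        · have := h2 (s x)
          rwa [Equiv.symm_apply_apply] at this
    by_cases hP : (∀ x, u x = (t₀ ((g₀ * s⁻¹) x)).1) ∧
        ∀ x, w x = ((t₀ ((g₀ * s⁻¹) x)).2 : ℕ)
    · rw [if_pos (hiff.2 hP), if_pos hP, hs, Int.cast_mul]
    · rw [if_neg (fun h' => hP (hiff.1 h')), if_neg hP, Int.cast_zero, mul_zero]
  · left
    funext w
    unfold eps2
    refine Finset.sum_eq_zero fun g _ => if_neg ?_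
    rintro ⟨h1, -⟩
    exact h ⟨g, h1⟩

theorem Tht_mem (t₀ : A ≃ Cel (two k)) (F : (A → ℕ) → ℂ) : Tht t₀ F ∈ VV (Ω := A) (two k) := by
  classical
  have h1 : ∀ u u' : A → Bool, (fun x : WW A => (eps2 t₀ u x.1 : ℂ) * (eps2 t₀ u' x.2 : ℂ)) ∈
      VV (Ω := A) (two k) := by
    intro u u'
    rcases eps2_mem t₀ u with h | ⟨t, δ, h⟩
    · have : (fun x : WW A => (eps2 t₀ u x.1 : ℂ) * (eps2 t₀ u' x.2 : ℂ)) = 0 := by
        funext x
        simp [h]
      rw [this]; exact Submodule.zero_mem _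
    rcases eps2_mem t₀ u' with h' | ⟨t', δ', h'⟩
    · have : (fun x : WW A => (eps2 t₀ u x.1 : ℂ) * (eps2 t₀ u' x.2 : ℂ)) = 0 := by
        funext x
        simp [h']
      rw [this]; exact Submodule.zero_mem _
    have : (fun x : WW A => (eps2 t₀ u x.1 : ℂ) * (eps2 t₀ u' x.2 : ℂ)) =
        ((δ : ℂ) * δ') • (fun x : WW A => pt t x.1 * pt t' x.2) := by
      funext x
      simp only [h, h', Pi.smul_apply, smul_eq_mul]
      ring
    rw [this]
    exact Submodule.smul_mem _ _ (Submodule.subset_span ⟨t, t', rfl⟩)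
  have h2 : Tht t₀ F = ∑ u : A → Bool, ∑ u' : A → Bool, ∑ r : A → Fin 4,
      (F (kw r) * ((∏ a, Dm (r a) (u a) (u' a) : ℤ) : ℂ)) •
        (fun x : WW A => (eps2 t₀ u x.1 : ℂ) * (eps2 t₀ u' x.2 : ℂ)) := by
    funext x
    rw [Tht_apply]
    simp only [Finset.sum_apply, Pi.smul_apply, smul_eq_mul]
    refine Finset.sum_congr rfl fun u _ => Finset.sum_congr rfl fun u' _ =>
      Finset.sum_congr rfl fun r _ => ?_
    ring
  rw [h2]
  exact Submodule.sum_mem _ fun u _ => Submodule.sum_mem _ fun u' _ => Submodule.sum_mem _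
    fun r _ => Submodule.smul_mem _ _ (h1 u u')

/-- Equivariance (reindex all three sums by composition with `g`; the two signs cancel). -/
theorem Tht_equiv (t₀ : A ≃ Cel (two k)) (F : (A → ℕ) → ℂ) (g : Perm A) (x : WW A) :
    Tht t₀ (fun w => F (w ∘ g)) x = Tht t₀ F (pull g x) := by
  classical
  rw [Tht_apply, Tht_apply]
  refine Fintype.sum_equiv (Equiv.arrowCongr g.symm (Equiv.refl Bool)) _ _ fun u => ?_
  refine Fintype.sum_equiv (Equiv.arrowCongr g.symm (Equiv.refl Bool)) _ _ fun u' => ?_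
  refine Fintype.sum_equiv (Equiv.arrowCongr g.symm (Equiv.refl (Fin 4))) _ _ fun r => ?_
  have e1 : (Equiv.arrowCongr g.symm (Equiv.refl Bool)) u = u ∘ g := rfl
  have e2 : (Equiv.arrowCongr g.symm (Equiv.refl Bool)) u' = u' ∘ g := rfl
  have e3 : (Equiv.arrowCongr g.symm (Equiv.refl (Fin 4))) r = r ∘ g := rfl
  rw [e1, e2, e3]
  have e4 : kw (r ∘ g) = kw r ∘ g := rfl
  have e5 : (∏ a, Dm ((r ∘ g) a) ((u ∘ g) a) ((u' ∘ g) a)) = ∏ a, Dm (r a) (u a) (u' a) :=
    Equiv.prod_comp g (fun a => Dm (r a) (u a) (u' a))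
  have e6 : eps2 t₀ (u ∘ g) (pull g x).1 = (sign g : ℤ) * eps2 t₀ u x.1 := eps2_comp t₀ u x.1 g
  have e7 : eps2 t₀ (u' ∘ g) (pull g x).2 = (sign g : ℤ) * eps2 t₀ u' x.2 := eps2_comp t₀ u' x.2 g
  rw [e4, e5, e6, e7]
  have e8 : ((sign g : ℤ) : ℂ) * ((sign g : ℤ) : ℂ) = 1 := by
    rw [← Int.cast_mul, ← Units.val_mul, Int.units_mul_self]; simp
  push_cast
  linear_combination (-(F (kw r ∘ g) * (∏ a, (Dm (r a) (u a) (u' a) : ℂ)) * (eps2 t₀ u x.1 : ℂ) *
    (eps2 t₀ u' x.2 : ℂ))) * e8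

end Crest.Agent.SX
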