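import Crest.Agent.SX_Defs

/-!
# S0297, task SX-Thr: the threshold lemma
-/

set_option autoImplicit false

namespace Crest.Agent.SX

open Equiv

/-- THRESHOLD LEMMA. Let `f ≥ θ` on the left letters and `f < θ` on the right letters. If a
permutation `g` does not change the sum of `f` over the left letters, then `g` maps the left letters
to left letters. (Let `T` be the image of the left letters under `g`, `L` the set of left letters,
`|T| = |L|`, so `|T \ L| = |L \ T|`, and the sum over `T` is the sum over `L` minus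
`∑_{L \ T} f - ∑_{T \ L} f > 0` unless `T = L`.) -/
theorem threshold {A B : Type} [Fintype A] [Fintype B] (f : A ⊕ B → ℕ) (θ : ℕ)
    (hA : ∀ a, θ ≤ f (Sum.inl a)) (hB : ∀ b, f (Sum.inr b) < θ) (g : Perm (A ⊕ B))
    (hg : ∑ a, f (g (Sum.inl a)) = ∑ a, f (Sum.inl a)) :
    ∀ a, ∃ a', g (Sum.inl a) = Sum.inl a' := by
  classical
  let L : Finset (A ⊕ B) := Finset.univ.map (Function.Embedding.inl : A ↪ A ⊕ B)
  let T : Finset (A ⊕ B) := Finset.univ.map
    ((Function.Embedding.inl : A ↪ A ⊕ B).trans g.toEmbedding)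
  have hLsum : ∑ x ∈ L, f x = ∑ a, f (Sum.inl a) := by
    simp only [L, Finset.sum_map]; rfl
  have hTsum : ∑ x ∈ T, f x = ∑ a, f (g (Sum.inl a)) := by
    simp only [T, Finset.sum_map]; rfl
  have hcard : T.card = L.card := by simp [T, L]
  have hLA : ∀ x ∈ L, θ ≤ f x := by
    intro x hx
    simp only [L, Finset.mem_map, Finset.mem_univ, true_and] at hx
    obtain ⟨a, rfl⟩ := hx
    exact hA a
  have hLB : ∀ x, x ∉ L → f x < θ := by
    intro x hx
    rcases x with a | b
    · exact absurd (by simp [L]) hx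
    · exact hB b
  have hcard2 : (T \ L).card = (L \ T).card := Finset.card_sdiff_comm hcard
  have hTL : T \ L = ∅ := by
    by_contra hne
    have hne' : (T \ L).Nonempty := Finset.nonempty_iff_ne_empty.mpr hne
    have h1 : ∑ x ∈ T \ L, f x < ∑ x ∈ T \ L, θ :=
      Finset.sum_lt_sum_of_nonempty hne' fun x hx => hLB x (Finset.mem_sdiff.mp hx).2
    have h2 : ∑ x ∈ L \ T, θ ≤ ∑ x ∈ L \ T, f x :=
      Finset.sum_le_sum fun x hx => hLA x (Finset.mem_sdiff.mp hx).1
    simp only [Finset.sum_const, hcard2] at h1 h2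
    have h3 := Finset.sum_inter_add_sum_sdiff T L f
    have h4 := Finset.sum_inter_add_sum_sdiff L T f
    rw [Finset.inter_comm] at h4
    have h5 : ∑ x ∈ T, f x = ∑ x ∈ L, f x := by rw [hTsum, hLsum, hg]
    omega
  intro a
  have hmem : g (Sum.inl a) ∈ T := by
    simp only [T, Finset.mem_map, Finset.mem_univ, true_and]
    exact ⟨a, rfl⟩
  have hmem' : g (Sum.inl a) ∈ L := by
    by_contra hn
    have : g (Sum.inl a) ∈ T \ L := Finset.mem_sdiff.mpr ⟨hmem, hn⟩
    rw [hTL] at this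
    exact absurd this (Finset.notMem_empty _)
  simp only [L, Finset.mem_map, Finset.mem_univ, true_and] at hmem'
  obtain ⟨a', ha'⟩ := hmem'
  exact ⟨a', ha'.symm⟩

/-- Consequently `g` is a block permutation. -/
theorem threshold_perm {A B : Type} [Fintype A] [Fintype B] [DecidableEq A] [DecidableEq B]
    (f : A ⊕ B → ℕ) (θ : ℕ)
    (hA : ∀ a, θ ≤ f (Sum.inl a)) (hB : ∀ b, f (Sum.inr b) < θ) (g : Perm (A ⊕ B))
    (hg : ∑ a, f (g (Sum.inl a)) = ∑ a, f (Sum.inl a)) :
    ∃ (g₁ : Perm A) (g₂ : Perm B), g = Perm.sumCongr g₁ g₂ := by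
  have h := threshold f θ hA hB g hg
  have hmaps : Set.MapsTo g (Set.range (Sum.inl : A → A ⊕ B)) (Set.range Sum.inl) := by
    rintro _ ⟨a, rfl⟩
    obtain ⟨a', ha'⟩ := h a
    exact ⟨a', ha'.symm⟩
  have := Equiv.Perm.mem_sumCongrHom_range_of_perm_mapsTo_inl hmaps
  obtain ⟨⟨g₁, g₂⟩, hgg⟩ := this
  exact ⟨g₁, g₂, hgg.symm⟩

end Crest.Agent.SX
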