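import Crest.Agent.SX_C2

/-!
# S0297, task SX-U1: functionals invariant under the permutations of a part of a row or of a column
-/

set_option autoImplicit false

namespace Crest.Agent.SX

open Equiv Equiv.Perm

variable {A B : Type} [Fintype A] [DecidableEq A] [Fintype B] [DecidableEq B]
  {W : Type} [AddCommGroup W] [Module ℂ W] {l : ℕ} {h : Fin l → ℕ}

/-- Column permutations act by the sign. -/
theorem evp_col {Ω ι : Type} [Fintype Ω] [DecidableEq Ω] [DecidableEq ι] {h : ι → ℕ} (t : Ω ≃ Cel h)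
    (g : Perm Ω) (hg : ∀ x, (t (g x)).1 = (t x).1) (F : (Ω → ℕ) → ℂ) :
    evp (g.trans t) F = ((sign g : ℤ) : ℂ) * evp t F := by
  classical
  show (∑ s : Perm Ω, if ∀ x, ((g.trans t) (s x)).1 = ((g.trans t) x).1 then
      ((sign s : ℤ) : ℂ) * F (fun x => (((g.trans t) (s.symm x)).2 : ℕ)) else 0) =
    ((sign g : ℤ) : ℂ) * ∑ s : Perm Ω, if ∀ x, (t (s x)).1 = (t x).1 then
      ((sign s : ℤ) : ℂ) * F (fun x => ((t (s.symm x)).2 : ℕ)) else 0
  rw [Finset.mul_sum]
  refine Fintype.sum_equiv (Equiv.mulRight g⁻¹) _ _ fun s => ?_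
  have hg1 : ∀ x, g (g⁻¹ x) = x := fun x => Equiv.apply_symm_apply g x
  have hg2 : ∀ x, g⁻¹ (g x) = x := fun x => Equiv.symm_apply_apply g x
  have hgi : ∀ x, (t (g⁻¹ x)).1 = (t x).1 := fun x => by
    have := hg (g⁻¹ x)
    rw [hg1] at this
    exact this.symm
  have hc : (∀ x, ((g.trans t) (s x)).1 = ((g.trans t) x).1) ↔
      ∀ x, (t ((Equiv.mulRight g⁻¹ s) x)).1 = (t x).1 := by
    simp only [Equiv.coe_mulRight, Perm.coe_mul, Function.comp_apply, Equiv.trans_apply, hg]
    constructor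
    · intro h' x
      rw [h', hgi]
    · intro h' x
      have := h' (g x)
      rwa [hg2, hg] at this
  have hw : (fun x => (((g.trans t) (s.symm x)).2 : ℕ)) =
      fun x => ((t ((Equiv.mulRight g⁻¹ s).symm x)).2 : ℕ) := by
    funext x
    have : (Equiv.mulRight g⁻¹ s).symm x = g (s.symm x) := by
      rw [Equiv.symm_apply_eq, Equiv.coe_mulRight, Perm.coe_mul, Function.comp_apply,
        hg2, Equiv.apply_symm_apply]
    rw [this]
    rfl
  rw [hw, mul_ite, mul_zero]
  refine if_congr hc ?_ rfl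
  rw [Equiv.coe_mulRight, Perm.sign_mul, Perm.sign_inv, ← mul_assoc, ← Int.cast_mul,
    ← Units.val_mul, mul_left_comm, Int.units_mul_self, mul_one]

/-- An injection of the left letters extends to a permutation. -/
theorem exists_perm_extend (e : A → A ⊕ B) (he : Function.Injective e) :
    ∃ g : Perm (A ⊕ B), ∀ a, g (Sum.inl a) = e a := by
  classical
  refine ⟨Equiv.extendSubtype (p := fun x => x ∈ Set.range (Sum.inl : A → A ⊕ B))
    (q := fun x => x ∈ Set.range e)
    ((Equiv.ofInjective _ Sum.inl_injective).symm.trans (Equiv.ofInjective e he)), fun a => ?_⟩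
  rw [Equiv.extendSubtype_apply_of_mem _ _ ⟨a, rfl⟩, Equiv.trans_apply]
  have h1 : (Equiv.ofInjective (Sum.inl : A → A ⊕ B) Sum.inl_injective).symm
      ⟨Sum.inl a, ⟨a, rfl⟩⟩ = a := by
    rw [Equiv.symm_apply_eq]
    rfl
  rw [h1]
  rfl

/-- If the representation embeds in the Specht module with `l` (nonempty) columns, i.e. first row of
length `l`, and `|A| ≤ l`, there is a nonzero functional invariant under `Perm A`.
(Take `w`, `r` with `f w r ≠ 0`; by `pt_ne_zero` exactly `l` letters `x` have `r x = 0`; choose `g`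
with `r (g (inl a)) = 0` for all `a`, and `ℓ w = f w (r ∘ g)`.) -/
theorem row_functional (hpos : ∀ i, 0 < h i) (σ : Representation ℂ (Perm (A ⊕ B)) W)
    [Nontrivial W] (f : W →ₗ[ℂ] ((A ⊕ B → ℕ) → ℂ)) (hinj : Function.Injective f)
    (hf : ∀ g w x, f (σ g w) x = f w (x ∘ g)) (hS : ∀ w, f w ∈ Sp (Ω := A ⊕ B) h)
    (hk : Fintype.card A ≤ l) :
    ∃ ℓ : W →ₗ[ℂ] ℂ, ℓ ≠ 0 ∧ ∀ (g : Perm A) w, ℓ (σ (Perm.sumCongr g 1) w) = ℓ w := by
  obtain ⟨w, hw⟩ := exists_ne (0 : W)
  have hfw : f w ≠ 0 := fun h0 => hw (hinj (by rw [h0, map_zero]))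
  obtain ⟨r, hr⟩ := Function.ne_iff.1 hfw
  obtain ⟨t, ht⟩ : ∃ t : A ⊕ B ≃ Cel h, pt t r ≠ 0 := by
    by_contra hall
    push Not at hall
    refine hr ?_
    refine Submodule.span_induction (p := fun F _ => F r = 0) ?_ rfl ?_ ?_ (hS w)
    · rintro _ ⟨t, rfl⟩
      exact hall t
    · intro F G _ _ h1 h2
      rw [Pi.add_apply, h1, h2, add_zero]
    · intro a F _ h1
      rw [Pi.smul_apply, h1, smul_zero]
  obtain ⟨s, -, hs2⟩ := pt_ne_zero ht
  obtain ⟨φ⟩ : Nonempty (A ↪ Fin l) :=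
    Function.Embedding.nonempty_of_card_le (by rwa [Fintype.card_fin])
  let e : A → A ⊕ B := fun a => s (t.symm ⟨φ a, ⟨0, hpos _⟩⟩)
  have he : Function.Injective e := by
    intro a b hab
    have h1 := t.symm.injective (s.injective hab)
    have h2 : φ a = φ b := congrArg Sigma.fst h1
    exact φ.injective h2
  have her : ∀ a, r (e a) = 0 := by
    intro a
    show r (s (t.symm ⟨φ a, ⟨0, hpos _⟩⟩)) = 0
    rw [hs2, Equiv.apply_symm_apply]
  obtain ⟨g, hg⟩ := exists_perm_extend e he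
  refine ⟨{ toFun := fun w => f w (r ∘ g), map_add' := ?_, map_smul' := ?_ }, ?_, ?_⟩
  · intro x y
    rw [map_add, Pi.add_apply]
  · intro a x
    rw [map_smul, Pi.smul_apply, RingHom.id_apply]
  · intro h0
    have h1 := LinearMap.congr_fun h0 (σ g⁻¹ w)
    simp only [LinearMap.coe_mk, AddHom.coe_mk, LinearMap.zero_apply] at h1
    rw [hf] at h1
    have h2 : (r ∘ g) ∘ (g⁻¹ : Perm (A ⊕ B)) = r := by
      funext x
      simp
    rw [h2] at h1
    exact hr h1
  · intro g' w'
    simp only [LinearMap.coe_mk, AddHom.coe_mk]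
    rw [hf]
    refine congrArg (f w') (funext fun x => ?_)
    rcases x with a | b
    · simp only [Function.comp_apply, Perm.sumCongr_apply, Sum.map_inl, hg, her]
    · simp only [Function.comp_apply, Perm.sumCongr_apply, Sum.map_inr, Perm.coe_one, id_eq]

/-- If a column has at least `|A|` cells, there is a nonzero functional on which `Perm A` acts by the
sign: choose `t : A ⊕ B ≃ Cel h` mapping `A` into that column and `ℓ w = evp t (f w)`; it is not zero
by `evp_nondeg` and `evp_comp` (all tableaux are `g.trans t`), and `evp_col` gives the sign. -/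
theorem col_functional (σ : Representation ℂ (Perm (A ⊕ B)) W)
    [Nontrivial W] (f : W →ₗ[ℂ] ((A ⊕ B → ℕ) → ℂ)) (hinj : Function.Injective f)
    (hf : ∀ g w x, f (σ g w) x = f w (x ∘ g)) (hS : ∀ w, f w ∈ Sp (Ω := A ⊕ B) h)
    (hcard : ∑ i, h i = Fintype.card (A ⊕ B)) (i : Fin l) (hk : Fintype.card A ≤ h i) :
    ∃ ℓ : W →ₗ[ℂ] ℂ, ℓ ≠ 0 ∧
      ∀ (g : Perm A) w, ℓ (σ (Perm.sumCongr g 1) w) = ((sign g : ℤ) : ℂ) * ℓ w := by
  have hc : Fintype.card (A ⊕ B) = Fintype.card (Cel h) := by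
    rw [Fintype.card_sigma]
    simp only [Fintype.card_fin]
    exact hcard.symm
  let t0 : A ⊕ B ≃ Cel h := Fintype.equivOfCardEq hc
  obtain ⟨φ⟩ : Nonempty (A ↪ Fin (h i)) :=
    Function.Embedding.nonempty_of_card_le (by rwa [Fintype.card_fin])
  let e : A → A ⊕ B := fun a => t0.symm ⟨i, φ a⟩
  have he : Function.Injective e := by
    intro a b hab
    have h1 : (⟨i, φ a⟩ : Cel h) = ⟨i, φ b⟩ := t0.symm.injective hab
    have h2 : φ a = φ b := by simpa using h1
    exact φ.injective h2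
  obtain ⟨g0, hg0⟩ := exists_perm_extend e he
  let t : A ⊕ B ≃ Cel h := g0.trans t0
  have ht : ∀ a, (t (Sum.inl a)).1 = i := by
    intro a
    show (t0 (g0 (Sum.inl a))).1 = i
    rw [hg0]
    show (t0 (t0.symm ⟨i, φ a⟩)).1 = i
    rw [Equiv.apply_symm_apply]
  have hfun : ∀ (g : Perm (A ⊕ B)) w, f (σ g w) = fun x => f w (x ∘ g) := fun g w => by
    funext x
    exact hf g w x
  refine ⟨(evp t).comp f, ?_, ?_⟩
  · intro h0
    obtain ⟨w, hw⟩ := exists_ne (0 : W)
    refine hw (hinj ?_)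
    rw [map_zero]
    refine evp_nondeg (f w) (hS w) fun t' => ?_
    have h1 := LinearMap.congr_fun h0 (σ (t'.trans t.symm) w)
    rw [LinearMap.comp_apply, hfun, evp_comp, LinearMap.zero_apply] at h1
    have h2 : (t'.trans t.symm).trans t = t' :=
      Equiv.ext fun x => Equiv.apply_symm_apply t (t' x)
    rw [h2] at h1
    exact h1
  · intro g w
    rw [LinearMap.comp_apply, LinearMap.comp_apply, hfun, evp_comp, evp_col]
    · rw [Perm.sign_sumCongr]
      simp
    · intro x
      rcases x with a | b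
      · rw [Perm.sumCongr_apply, Sum.map_inl, ht, ht]
      · rw [Perm.sumCongr_apply, Sum.map_inr, Perm.coe_one, id_eq]

end Crest.Agent.SX
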