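import Crest.Agent.SX_API

/-!
# S0297: definitions for the block with two columns (heights `k + 2`, `k + 1`)
-/

set_option autoImplicit false

namespace Crest.Agent.SX

open Equiv Equiv.Perm

variable {A : Type} [Fintype A] [DecidableEq A]

/-- Every value `i ≤ k` is taken twice, the value `k + 1` once, there is no other value. -/
def TwoW (k : ℕ) (w : A → ℕ) : Prop :=
  (∀ a, w a ≤ k + 1) ∧ (∀ i ≤ k, (Finset.univ.filter fun a => w a = i).card = 2) ∧
    (Finset.univ.filter fun a => w a = k + 1).card = 1

/-- The graph on `A` in which two letters are joined if they have the same value under the first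
word or under the second word is connected. -/
def Conn (x : WW A) : Prop :=
  ∀ S : Finset A, S.Nonempty → (∀ a ∈ S, ∀ b, (x.1 a = x.1 b ∨ x.2 a = x.2 b) → b ∈ S) →
    S = Finset.univ

/-- Relabellings of the rows which fix the row `k + 1` and preserve `{0, …, k}`. -/
def RowPerm (k : ℕ) (τ : Perm ℕ) : Prop := (∀ i, i ≤ k ↔ τ i ≤ k) ∧ τ (k + 1) = k + 1

end Crest.Agent.SX
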