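import Crest.Agent.SX_Y0

/-!
# S0297, task SX-Y1: relations in the Specht module with two columns of heights `k + 2`, `k + 1`
-/

set_option autoImplicit false

namespace Crest.Agent.SX

open Equiv Equiv.Perm

variable {A : Type} [Fintype A] [DecidableEq A]

/-- Support. (`pt_ne_zero`; each row `i ≤ k` of `Cel (two k)` has two cells, row `k + 1` has one.) -/
theorem pt_two_support (k : ℕ) (t : A ≃ Cel (two k)) (w : A → ℕ) (hw : pt t w ≠ 0) :
    TwoW k w := by
  obtain ⟨s, -, h2⟩ := pt_ne_zero hw
  have hwe : ∀ a, w a = ((t (s.symm a)).2 : ℕ) := by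
    intro a
    have := h2 (s.symm a)
    rwa [Equiv.apply_symm_apply] at this
  -- the equivalence
  obtain ⟨e, he⟩ : ∃ e : A ≃ Cel (two k), ∀ a, w a = ((e a).2 : ℕ) :=
    ⟨s.symm.trans t, hwe⟩
  have hlt : ∀ (b : Bool), two k b ≤ k + 2 := by
    intro b
    cases b <;> simp [two]
  refine ⟨fun a => ?_, fun i hi => ?_, ?_⟩
  · rw [he a]
    have h1 := (e a).2.isLt
    have h3 := hlt (e a).1
    omega
  · have hc : (Finset.univ.filter fun a => w a = i) =
        {e.symm ⟨false, ⟨i, by simp [two]; omega⟩⟩, e.symm ⟨true, ⟨i, by simp [two]; omega⟩⟩} := by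
      ext a
      simp only [Finset.mem_filter, Finset.mem_univ, true_and, Finset.mem_insert,
        Finset.mem_singleton]
      constructor
      · intro ha
        rw [he a] at ha
        have hx : e.symm (e a) = a := e.symm_apply_apply a
        rcases hea : e a with ⟨b, r⟩
        rw [hea] at ha hx
        simp only at ha
        cases b
        · left
          rw [← hx]
          congr 2
          exact Fin.ext ha
        · right
          rw [← hx]
          congr 2
          exact Fin.ext ha
      · rintro (rfl | rfl)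
        · rw [he, Equiv.apply_symm_apply]
        · rw [he, Equiv.apply_symm_apply]
    rw [hc, Finset.card_pair]
    intro h
    have := e.symm.injective h
    have h3 := congrArg Sigma.fst this
    simp at h3
  · have hc : (Finset.univ.filter fun a => w a = k + 1) =
        {e.symm ⟨false, ⟨k + 1, by simp [two]⟩⟩} := by
      ext a
      simp only [Finset.mem_filter, Finset.mem_univ, true_and, Finset.mem_singleton]
      constructor
      · intro ha
        rw [he a] at ha
        have hx : e.symm (e a) = a := e.symm_apply_apply a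
        rcases hea : e a with ⟨b, r⟩
        rw [hea] at ha hx
        simp only at ha
        cases b
        · rw [← hx]
          congr 2
          exact Fin.ext ha
        · exfalso
          have := r.isLt
          have h4 : two k true = k + 1 := by simp [two]
          omega
      · rintro rfl
        rw [he, Equiv.apply_symm_apply]
    rw [hc, Finset.card_singleton]

/-- Invariance under relabelling of equal rows: the permutation `ρ` of `A` which maps the letter in
cell `(i, r)` of `t` to the letter in the cell `(i, τ⁻¹ r)` preserves columns and has sign `1` (it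
is the "same" permutation in both columns), `pt t (τ ∘ w)` and `pt t w` correspond under
`s ↦ s * ρ⁻¹`. -/
theorem pt_two_relabel (k : ℕ) (t : A ≃ Cel (two k)) (w : A → ℕ) (τ : Perm ℕ)
    (hτ : RowPerm k τ) : pt t (fun a => τ (w a)) = pt t w := by
  classical
  obtain ⟨hτ1, hτ2⟩ := hτ
  have hb : ∀ (b : Bool) (r : ℕ), r < two k b ↔ τ r < two k b := by
    intro b r
    cases b
    · have h4 : two k false = k + 2 := by simp [two]
      rw [h4]
      have h5 := hτ1 r
      constructor
      · intro h
        by_cases hr : r ≤ k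
        · have := h5.1 hr
          omega
        · have h6 : r = k + 1 := by omega
          rw [h6, hτ2]
          omega
      · intro h
        by_cases hr : τ r ≤ k
        · have := h5.2 hr
          omega
        · have h6 : τ r = k + 1 := by omega
          have h7 : r = k + 1 := τ.injective (by rw [h6, hτ2])
          omega
    · have h4 : two k true = k + 1 := by simp [two]
      rw [h4, Nat.lt_succ_iff, Nat.lt_succ_iff]
      exact hτ1 r
  let π : ∀ b : Bool, Perm (Fin (two k b)) := fun b =>
    { toFun := fun r => ⟨τ r, (hb b r).1 r.isLt⟩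
      invFun := fun r => ⟨τ.symm r, by
        rw [hb b, Equiv.apply_symm_apply]
        exact r.isLt⟩
      left_inv := fun r => by simp
      right_inv := fun r => by simp }
  have hπ : ∀ b r, ((π b r : Fin (two k b)) : ℕ) = τ r := fun b r => rfl
  have hsign : sign (π true) = sign (π false) := by
    have h4 : two k true = k + 1 := by simp [two]
    have h4' : two k false = k + 2 := by simp [two]
    refine Equiv.Perm.sign_bij (fun x _ => ⟨(x : ℕ), by have := x.isLt; omega⟩) ?_ ?_ ?_
    · intro x hx hx'
      exact Fin.ext (by simp only [hπ])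
    · intro x₁ x₂ _ _ h
      exact Fin.ext (by simpa using congrArg Fin.val h)
    · intro y hy
      have hy2 : (y : ℕ) ≠ k + 1 := by
        intro hyk
        apply hy
        apply Fin.ext
        rw [hπ, hyk, hτ2]
      have hy3 : (y : ℕ) < two k true := by
        have := y.isLt
        omega
      refine ⟨⟨y, hy3⟩, ?_, ?_⟩
      · intro h
        apply hy
        apply Fin.ext
        have := congrArg Fin.val h
        rw [hπ] at this ⊢
        exact this
      · rfl
  let C : Perm (Cel (two k)) := Equiv.Perm.sigmaCongrRight π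
  have hC : sign C = 1 := by
    let e : Fin (two k false) ⊕ Fin (two k true) ≃ Cel (two k) :=
      { toFun := Sum.elim (fun r => ⟨false, r⟩) (fun r => ⟨true, r⟩)
        invFun := fun c => match c with
          | ⟨false, r⟩ => Sum.inl r
          | ⟨true, r⟩ => Sum.inr r
        left_inv := by
          rintro (r | r) <;> rfl
        right_inv := by
          rintro ⟨b, r⟩
          cases b <;> rfl }
    have h1 : C = e.permCongr (Equiv.Perm.sumCongr (π false) (π true)) := by
      ext1 c
      rcases c with ⟨b, r⟩
      cases b <;> rfl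
    rw [h1, Equiv.Perm.sign_permCongr, Equiv.Perm.sign_sumCongr, hsign, Int.units_mul_self]
  let ρ : Perm A := t.trans (C.trans t.symm)
  have hρ : ∀ x, t (ρ x) = C (t x) := by
    intro x
    show t (t.symm (C (t x))) = _
    rw [Equiv.apply_symm_apply]
  have hρs : sign ρ = 1 := by
    have h1 : ρ = t.symm.permCongr C := by
      ext x
      rfl
    rw [h1, Equiv.Perm.sign_permCongr, hC]
  have hC1 : ∀ c, (C c).1 = c.1 := fun c => rfl
  have hC2 : ∀ c, ((C c).2 : ℕ) = τ c.2 := fun c => rfl
  rw [pt_def, pt_def]
  refine Fintype.sum_equiv (Equiv.mulRight ρ) _ _ fun s => ?_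
  have hs : sign (Equiv.mulRight ρ s) = sign s := by
    show sign (s * ρ) = sign s
    rw [Perm.sign_mul, hρs, mul_one]
  rw [hs]
  have hiff : ((∀ x, (t (s x)).1 = (t x).1) ∧ ∀ x, τ (w (s x)) = ((t x).2 : ℕ)) ↔
      ((∀ x, (t ((Equiv.mulRight ρ s) x)).1 = (t x).1) ∧
        ∀ x, w ((Equiv.mulRight ρ s) x) = ((t x).2 : ℕ)) := ?_
  · by_cases hh : ((∀ x, (t (s x)).1 = (t x).1) ∧ ∀ x, τ (w (s x)) = ((t x).2 : ℕ))
    · rw [if_pos hh, if_pos (hiff.1 hh)]
    · rw [if_neg hh, if_neg (fun h' => hh (hiff.2 h'))]
  simp only [Equiv.coe_mulRight, Perm.coe_mul, Function.comp_apply]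
  constructor
  · rintro ⟨h1, h2⟩
    refine ⟨fun x => ?_, fun x => ?_⟩
    · rw [h1, hρ, hC1]
    · have := h2 (ρ x)
      rw [hρ, hC2] at this
      exact τ.injective this
  · rintro ⟨h1, h2⟩
    refine ⟨fun x => ?_, fun x => ?_⟩
    · have h3 := h1 (ρ.symm x)
      rw [Equiv.apply_symm_apply] at h3
      rw [h3]
      have h4 := hρ (ρ.symm x)
      rw [Equiv.apply_symm_apply] at h4
      rw [h4, hC1]
    · have h3 := h2 (ρ.symm x)
      rw [Equiv.apply_symm_apply] at h3
      rw [h3]
      have h4 := hρ (ρ.symm x)
      rw [Equiv.apply_symm_apply] at h4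
      rw [h4, hC2]

private theorem pt_swap_neg {ι : Type} {h : ι → ℕ} (t : A ≃ Cel h) (w : A → ℕ) (a b : A)
    (hab : a ≠ b) (hc : (t a).1 = (t b).1) : pt t (w ∘ swap a b) = - pt t w := by
  rw [pt_col t (swap a b)]
  · rw [sign_swap hab]
    simp
  · intro x
    by_cases hxa : x = a
    · subst hxa
      rw [swap_apply_left, hc]
    · by_cases hxb : x = b
      · subst hxb
        rw [swap_apply_right, hc]
      · rw [swap_apply_of_ne_of_ne hxa hxb]

private theorem pt_eq_zero_of_eq {ι : Type} {h : ι → ℕ} (t : A ≃ Cel h) (w : A → ℕ) (a b : A)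
    (hab : a ≠ b) (hc : (t a).1 = (t b).1) (hw : w a = w b) : pt t w = 0 := by
  have h1 := pt_swap_neg t w a b hab hc
  have h2 : w ∘ swap a b = w := by
    funext x
    show w (swap a b x) = w x
    by_cases hxa : x = a
    · subst hxa
      rw [swap_apply_left, hw]
    · by_cases hxb : x = b
      · subst hxb
        rw [swap_apply_right, hw]
      · rw [swap_apply_of_ne_of_ne hxa hxb]
  rw [h2] at h1
  exact self_eq_neg.1 h1

/-- The Plücker (Garnir) relation. If `t a`, `t s` are in the same column: the second term is minus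
the first (`pt_col` with `swap a s`) and the third one vanishes (two letters of the same column with
the same value). Similarly if `t b`, `t s` are in the same column. Otherwise `t a`, `t b` are in the
same column; the first term vanishes and the two others cancel
(`w ∘ swap b s = w ∘ swap a s ∘ swap a b` because `w a = w b`). -/
theorem pt_two_rel (k : ℕ) (t : A ≃ Cel (two k)) (w : A → ℕ) (a b s : A) (hab : a ≠ b)
    (hw : w a = w b) (hs : w s ≠ w a) :
    pt t w + pt t (w ∘ swap a s) + pt t (w ∘ swap b s) = 0 := by
  have hsa : s ≠ a := fun h => hs (by rw [h])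
  have hsb : s ≠ b := fun h => hs (by rw [h, hw])
  by_cases h1 : (t a).1 = (t s).1
  · rw [pt_swap_neg t w a s hsa.symm h1]
    rw [pt_eq_zero_of_eq t (w ∘ swap b s) a s hsa.symm h1 (by
      simp only [Function.comp_apply]
      rw [swap_apply_of_ne_of_ne hab hsa.symm, swap_apply_right, hw])]
    ring
  · by_cases h2 : (t b).1 = (t s).1
    · rw [pt_swap_neg t w b s hsb.symm h2]
      rw [pt_eq_zero_of_eq t (w ∘ swap a s) b s hsb.symm h2 (by
        simp only [Function.comp_apply]
        rw [swap_apply_of_ne_of_ne hab.symm hsb.symm, swap_apply_right, hw])]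
      ring
    · have h3 : (t a).1 = (t b).1 := by
        cases ha : (t a).1 <;> cases hb : (t b).1 <;> cases hc : (t s).1 <;> simp_all
      rw [pt_eq_zero_of_eq t w a b hab h3 hw]
      have h4 : w ∘ swap b s = (w ∘ swap a s) ∘ swap a b := by
        funext x
        simp only [Function.comp_apply]
        by_cases hxa : x = a
        · subst hxa
          rw [swap_apply_of_ne_of_ne hab hsa.symm, swap_apply_left,
            swap_apply_of_ne_of_ne hab.symm hsb.symm, hw]
        · by_cases hxb : x = b
          · subst hxb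
            rw [swap_apply_left, swap_apply_right, swap_apply_left]
          · by_cases hxs : x = s
            · subst hxs
              rw [swap_apply_right, swap_apply_of_ne_of_ne hsa hsb, swap_apply_right, hw]
            · rw [swap_apply_of_ne_of_ne hxb hxs, swap_apply_of_ne_of_ne hxa hxb,
                swap_apply_of_ne_of_ne hxa hxs]
      rw [h4, pt_swap_neg t (w ∘ swap a s) a b hab h3]
      ring

/-- Consequences in the tensor square. -/
theorem VV_two_support (k : ℕ) (F : WW A → ℂ) (hF : F ∈ VV (Ω := A) (two k)) (x : WW A)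
    (hx : F x ≠ 0) : TwoW k x.1 ∧ TwoW k x.2 := by
  by_contra hne
  refine hx ?_
  refine Submodule.span_induction (p := fun F _ => F x = 0) ?_ rfl ?_ ?_ hF
  · rintro _ ⟨t, t', rfl⟩
    by_contra h'
    exact hne ⟨pt_two_support k t _ (left_ne_zero_of_mul h'),
      pt_two_support k t' _ (right_ne_zero_of_mul h')⟩
  · intro F G _ _ h1 h2
    rw [Pi.add_apply, h1, h2, add_zero]
  · intro a F _ h1
    rw [Pi.smul_apply, h1, smul_zero]

theorem VV_two_relabel (k : ℕ) (F : WW A → ℂ) (hF : F ∈ VV (Ω := A) (two k)) (x : WW A)
    (τ₁ τ₂ : Perm ℕ) (h₁ : RowPerm k τ₁) (h₂ : RowPerm k τ₂) :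
    F (fun a => τ₁ (x.1 a), fun a => τ₂ (x.2 a)) = F x := by
  refine Submodule.span_induction
    (p := fun F _ => F (fun a => τ₁ (x.1 a), fun a => τ₂ (x.2 a)) = F x) ?_ rfl ?_ ?_ hF
  · rintro _ ⟨t, t', rfl⟩
    simp only
    rw [pt_two_relabel k t x.1 τ₁ h₁, pt_two_relabel k t' x.2 τ₂ h₂]
  · intro F G _ _ h1 h2
    rw [Pi.add_apply, Pi.add_apply, h1, h2]
  · intro a F _ h1
    rw [Pi.smul_apply, Pi.smul_apply, h1]

theorem VV_two_rel (k : ℕ) (F : WW A → ℂ) (hF : F ∈ VV (Ω := A) (two k)) (x : WW A)
    (a b s : A) (hab : a ≠ b) (hw : x.1 a = x.1 b) (hs : x.1 s ≠ x.1 a) :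
    F x + F (x.1 ∘ swap a s, x.2) + F (x.1 ∘ swap b s, x.2) = 0 := by
  refine Submodule.span_induction
    (p := fun F _ => F x + F (x.1 ∘ swap a s, x.2) + F (x.1 ∘ swap b s, x.2) = 0) ?_ ?_ ?_ ?_ hF
  · rintro _ ⟨t, t', rfl⟩
    simp only
    have h := pt_two_rel k t x.1 a b s hab hw hs
    rw [← add_mul, ← add_mul, h, zero_mul]
  · simp
  · intro F G _ _ h1 h2
    simp only [Pi.add_apply]
    linear_combination h1 + h2
  · intro c F _ h1
    simp only [Pi.smul_apply, smul_eq_mul]
    linear_combination c * h1

end Crest.Agent.SX
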