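import Crest.Agent.SY_K3

/-!
# S0298, bases (1): removing boxes above a target shape
-/

set_option autoImplicit false

namespace Crest.Agent.SY

open Finset

namespace Shp

/-- containment of shapes -/
def Le (S T : Shp) : Prop := ∀ c, S.a c ≤ T.a c

theorem Le.b {S T : Shp} (h : Le S T) (r : ℕ) : S.b r ≤ T.b r := by
  by_contra hcon
  push Not at hcon
  have h1 := (S.h (T.b r) r).2 hcon
  have h2 := (T.h (T.b r) r).1 (h1.trans_le (h _))
  omega

theorem Le.tr {S T : Shp} (h : Le S T) : Le S.tr T.tr := fun r => h.b r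

theorem Le.trans {S T U : Shp} (h : Le S T) (h' : Le T U) : Le S U := fun c => (h c).trans (h' c)

theorem le_of_b {S T : Shp} (h : ∀ r, S.b r ≤ T.b r) : Le S T :=
  Le.tr (S := S.tr) (T := T.tr) h

/-- union of shapes -/
def sup (S T : Shp) : Shp where
  a c := max (S.a c) (T.a c)
  b r := max (S.b r) (T.b r)
  h := by
    intro c r
    have h1 := S.h c r
    have h2 := T.h c r
    rw [lt_max_iff, lt_max_iff, h1, h2]

@[simp] theorem sup_a (S T : Shp) (c : ℕ) : (sup S T).a c = max (S.a c) (T.a c) := rfl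
@[simp] theorem sup_b (S T : Shp) (r : ℕ) : (sup S T).b r = max (S.b r) (T.b r) := rfl
theorem sup_tr (S T : Shp) : (sup S T).tr = sup S.tr T.tr := rfl

/-- remove the first `m` rows -/
def drop (m : ℕ) (S : Shp) : Shp where
  a c := S.a c - m
  b r := S.b (r + m)
  h := by
    intro c r
    have h1 := S.h c (r + m)
    omega

@[simp] theorem drop_a (m : ℕ) (S : Shp) (c : ℕ) : (drop m S).a c = S.a c - m := rfl
@[simp] theorem drop_b (m : ℕ) (S : Shp) (r : ℕ) : (drop m S).b r = S.b (r + m) := rfl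

theorem drop_le (m : ℕ) (S : Shp) : Le (drop m S) S := fun _ => Nat.sub_le _ _

/-- The number of cells, by rows. -/
theorem size_rows (S : Shp) (N : ℕ) (hN : S.a 0 ≤ N) : S.size = ∑ r ∈ range N, S.b r := by
  rw [← S.size_tr]
  exact S.tr.size_eq_sum N hN

theorem size_mono {S T : Shp} (h : Le S T) : S.size ≤ T.size := by
  rw [S.size_eq_sum (max (S.b 0) (T.b 0)) (le_max_left _ _),
    T.size_eq_sum (max (S.b 0) (T.b 0)) (le_max_right _ _)]
  exact sum_le_sum fun c _ => h c

/-- Two step removal staying above `f`. -/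
theorem two_step (S f : Shp) (m s₁ s₂ : ℕ) (hs : s₂ ≤ s₁) (hf : Le f S)
    (h₁ : (sup f (drop m S)).size + s₁ ≤ S.size)
    (h₂ : (sup f (drop (2 * m) S)).size + (s₁ + s₂) ≤ S.size) :
    ∃ S₁ S₂ : Shp, Rm m s₁ S S₁ ∧ Rm m s₂ S₁ S₂ ∧ Le f S₂ := by
  have hfb := hf.b 0
  have hle : ∀ m', Le (sup f (drop m' S)) S := fun m' c =>
    max_le (hf c) (Nat.sub_le _ _)
  have e1 : ∀ m', (sup f (drop m' S)).size + ∑ c ∈ range (S.b 0), (S.a c - max (f.a c) (S.a c - m')) =
      S.size := by
    intro m'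
    rw [(sup f (drop m' S)).size_eq_sum (S.b 0) ((hle m').b 0), ← sum_add_distrib]
    refine sum_congr rfl fun c _ => ?_
    have := hle m' c
    simp only [sup_a, drop_a] at this ⊢
    omega
  have e2 := e1 m
  have e3 := e1 (2 * m)
  obtain ⟨S₁, S₂, x1, x2, x3, x4, x5, x6, x7⟩ := S.chain2
    (fun c => max (f.a c) (S.a c - 2 * m))
    (fun x y hxy => max_le_max (f.anti hxy) (Nat.sub_le_sub_right (S.anti hxy) _))
    (fun c => max_le (hf c) (Nat.sub_le _ _)) m
    (fun c => by
      have := le_max_right (f.a c) (S.a c - 2 * m)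
      show S.a c ≤ max (f.a c) (S.a c - 2 * m) + 2 * m
      omega) s₁ s₂ hs
    (by
      have : ∑ c ∈ range (S.b 0), (S.a c - max (f.a c) (S.a c - m)) ≤
          ∑ c ∈ range (S.b 0), min m (S.a c - max (f.a c) (S.a c - 2 * m)) := by
        refine sum_le_sum fun c _ => ?_
        have := hf c
        omega
      omega) (by omega)
  exact ⟨S₁, S₂, ⟨x3, x4, x6⟩, ⟨x2, x5, x7⟩, fun c => (le_max_left _ _).trans (x1 c)⟩

/-- The number of removable cells is monotone. -/
theorem sup_drop_mono (f G S : Shp) (m : ℕ) (hfG : Le f G) (hGS : Le G S) :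
    (sup f (drop m S)).size + G.size ≤ S.size + (sup f (drop m G)).size := by
  have hb := hGS.b 0
  have hle : ∀ T : Shp, Le f T → Le (sup f (drop m T)) T := fun T h c =>
    max_le (h c) (Nat.sub_le _ _)
  rw [(sup f (drop m S)).size_eq_sum (S.b 0) ((hle S (hfG.trans hGS)).b 0),
    S.size_eq_sum (S.b 0) le_rfl, G.size_eq_sum (S.b 0) hb,
    (sup f (drop m G)).size_eq_sum (S.b 0) (((hle G hfG).b 0).trans hb),
    ← sum_add_distrib, ← sum_add_distrib]
  refine sum_le_sum fun c _ => ?_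
  have h1 := hfG c
  have h2 := hGS c
  simp only [sup_a, drop_a]
  omega

/-- The two-row shape. -/
def two (f₁ f₂ : ℕ) (h : f₂ ≤ f₁) : Shp where
  a c := if c < f₂ then 2 else if c < f₁ then 1 else 0
  b r := if r = 0 then f₁ else if r = 1 then f₂ else 0
  h := by
    intro c r
    match r with
    | 0 =>
      show 0 < (if c < f₂ then 2 else if c < f₁ then 1 else 0) ↔ c < f₁
      split_ifs <;> omega
    | 1 =>
      show 1 < (if c < f₂ then 2 else if c < f₁ then 1 else 0) ↔ c < f₂
      split_ifs <;> omega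
    | r + 2 =>
      show r + 2 < (if c < f₂ then 2 else if c < f₁ then 1 else 0) ↔ c < 0
      split_ifs <;> omega

/-- Size of the union with a two-row shape. -/
theorem size_sup_two (f₁ f₂ : ℕ) (h : f₂ ≤ f₁) (X : Shp) :
    (sup (two f₁ f₂ h) X).size = X.size + (f₁ - X.b 0) + (f₂ - X.b 1) := by
  have hN : (sup (two f₁ f₂ h) X).a 0 ≤ X.a 0 + 2 := by
    show max (if 0 < f₂ then 2 else if 0 < f₁ then 1 else 0) (X.a 0) ≤ _
    split_ifs <;> omega
  rw [size_rows _ (X.a 0 + 2) hN, size_rows X (X.a 0 + 2) (by omega), sum_range_succ',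
    sum_range_succ', sum_range_succ' (fun r => X.b r), sum_range_succ' (fun r => X.b (r + 1))]
  have : ∑ k ∈ range (X.a 0), (sup (two f₁ f₂ h) X).b (k + 1 + 1) =
      ∑ k ∈ range (X.a 0), X.b (k + 1 + 1) := by
    refine sum_congr rfl fun k _ => ?_
    show max (if k + 1 + 1 = 0 then f₁ else if k + 1 + 1 = 1 then f₂ else 0) _ = _
    rw [if_neg (by omega), if_neg (by omega)]
    simp
  rw [this]
  show _ + max f₂ (X.b (0 + 1)) + max f₁ (X.b 0) = _
  simp only [Nat.zero_add]
  omega

end Shp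

end Crest.Agent.SY
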