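import Crest.Agent.SY_E9

/-!
# S0298, bases (10): kernel computations
-/

set_option autoImplicit false
set_option maxRecDepth 100000

namespace Crest.Agent.SY

open Ck

/-- templates -/
def Ts43 : List Tm := [⟨[7,2], [0,0,2,1], 1, 2⟩, ⟨[2,1,1,1,1,1,1,1], [2,1,1,0], 1, 0⟩, ⟨[8,1], [0,0,1,1], 1, 1⟩, ⟨[2,1,1,1,1,1,1,1], [2,1,1,0], 1, 1⟩, ⟨[8,1], [0,0,1,1], 1, 2⟩, ⟨[2,1,1,1,1,1,1,1], [0,0,0,0], 1, 1⟩, ⟨[5,4], [0,0,1,1], 1, 1⟩]

theorem node43 : node (3 + 2) (2 * 3 + 3) 43 10 9 24 Ts43 [] 43 = true := by decide +kernel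

theorem ys43 : allN (checkY (3 + 2) (2 * 3 + 3) 43 10 9 24 Ts43) 8 1 = true := by decide +kernel

/-- `n = 43` -/
theorem full43 : Full 43 10 :=
  full_of_check 0 3 6 43 9 24 Ts43 (by omega) (by omega) (by omega) ⟨by omega, by omega⟩ node43
    (fun y h1 h2 => allN_spec _ _ _ ys43 y h1 (by omega))

end Crest.Agent.SY
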