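import Crest.Agent.SY_E10

/-!
# S0298, bases (11): kernel computations
-/

set_option autoImplicit false
set_option maxRecDepth 100000

namespace Crest.Agent.SY

open Ck

/-- templates -/
def Ts46 : List Tm := [⟨[2,1,1,1,1,1,1,1,1,1], [1,2,1,1], 1, 1⟩, ⟨[2,1,1,1,1,1,1,1,1,1], [2,0,0,0], 1, 0⟩]

theorem node46 : node (4 + 2) (2 * 4 + 3) 46 10 12 27 Ts46 [] 46 = true := by decide +kernel

theorem ys46 : allN (checkY (4 + 2) (2 * 4 + 3) 46 10 12 27 Ts46) 9 1 = true := by decide +kernel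

/-- `n = 46` -/
theorem full46 : Full 46 10 :=
  full_of_check 1 4 6 46 12 27 Ts46 (by omega) (by omega) (by omega) ⟨by omega, by omega⟩ node46
    (fun y h1 h2 => allN_spec _ _ _ ys46 y h1 (by omega))

/-- templates -/
def Ts51 : List Tm := [⟨[2,1,1,1,1,1,1,1,1,1], [0,0,0,0], 1, 0⟩]

theorem node51 : node (4 + 2) (2 * 4 + 3) 51 10 17 32 Ts51 [] 51 = true := by decide +kernel

theorem ys51 : allN (checkY (4 + 2) (2 * 4 + 3) 51 10 17 32 Ts51) 10 1 = true := by decide +kernel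

/-- `n = 51` -/
theorem full51 : Full 51 10 :=
  full_of_check 3 4 6 51 17 32 Ts51 (by omega) (by omega) (by omega) ⟨by omega, by omega⟩ node51
    (fun y h1 h2 => allN_spec _ _ _ ys51 y h1 (by omega))

end Crest.Agent.SY
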