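import Crest.Agent.SY_E11

/-!
# S0298, bases (12): kernel computations
-/

set_option autoImplicit false
set_option maxRecDepth 100000

namespace Crest.Agent.SY

open Ck

/-- templates -/
def Ts50 : List Tm := [⟨[8,1], [0,0,1,1], 1, 2⟩, ⟨[2,1,1,1,1,1,1,1], [0,0,0,0], 1, 0⟩]

theorem node50 : node (3 + 2) (2 * 3 + 3) 50 11 12 29 Ts50 [] 50 = true := by decide +kernel

theorem y50_1 : checkY (3 + 2) (2 * 3 + 3) 50 11 12 29 Ts50 1 = true := by decide +kernel

theorem y50_2 : checkY (3 + 2) (2 * 3 + 3) 50 11 12 29 Ts50 2 = true := by decide +kernel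

theorem y50_3 : checkY (3 + 2) (2 * 3 + 3) 50 11 12 29 Ts50 3 = true := by decide +kernel

theorem y50_4 : checkY (3 + 2) (2 * 3 + 3) 50 11 12 29 Ts50 4 = true := by decide +kernel

theorem y50_5 : checkY (3 + 2) (2 * 3 + 3) 50 11 12 29 Ts50 5 = true := by decide +kernel

theorem y50_6 : checkY (3 + 2) (2 * 3 + 3) 50 11 12 29 Ts50 6 = true := by decide +kernel

theorem y50_7 : checkY (3 + 2) (2 * 3 + 3) 50 11 12 29 Ts50 7 = true := by decide +kernel

theorem y50_8 : checkY (3 + 2) (2 * 3 + 3) 50 11 12 29 Ts50 8 = true := by decide +kernel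

theorem y50_9 : checkY (3 + 2) (2 * 3 + 3) 50 11 12 29 Ts50 9 = true := by decide +kernel

theorem y50_10 : checkY (3 + 2) (2 * 3 + 3) 50 11 12 29 Ts50 10 = true := by decide +kernel

theorem ys50 : ∀ y, 1 ≤ y → y ≤ 50 / 5 → checkY (3 + 2) (2 * 3 + 3) 50 11 12 29 Ts50 y = true := by
  intro y h1 h2
  have h3 : y < 11 := by omega
  interval_cases y
  · exact y50_1
  · exact y50_2
  · exact y50_3
  · exact y50_4
  · exact y50_5
  · exact y50_6
  · exact y50_7
  · exact y50_8
  · exact y50_9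
  · exact y50_10

/-- `n = 50` -/
theorem full50 : Full 50 11 :=
  full_of_check 2 3 7 50 12 29 Ts50 (by omega) (by omega) (by omega) ⟨by omega, by omega⟩ node50
    ys50

end Crest.Agent.SY
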