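import Crest.Agent.SY_E12

/-!
# S0298, bases (13): kernel computations
-/

set_option autoImplicit false
set_option maxRecDepth 100000

namespace Crest.Agent.SY

open Ck

/-- templates -/
def Ts54 : List Tm := [⟨[2,1,1,1,1,1,1,1,1,1,1,1], [2,2,0,0], 1, 0⟩]

theorem node54 : node (5 + 2) (2 * 5 + 3) 54 11 16 33 Ts54 [] 54 = true := by decide +kernel

theorem y54_1 : checkY (5 + 2) (2 * 5 + 3) 54 11 16 33 Ts54 1 = true := by decide +kernel

theorem y54_2 : checkY (5 + 2) (2 * 5 + 3) 54 11 16 33 Ts54 2 = true := by decide +kernel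

theorem y54_3 : checkY (5 + 2) (2 * 5 + 3) 54 11 16 33 Ts54 3 = true := by decide +kernel

theorem y54_4 : checkY (5 + 2) (2 * 5 + 3) 54 11 16 33 Ts54 4 = true := by decide +kernel

theorem y54_5 : checkY (5 + 2) (2 * 5 + 3) 54 11 16 33 Ts54 5 = true := by decide +kernel

theorem y54_6 : checkY (5 + 2) (2 * 5 + 3) 54 11 16 33 Ts54 6 = true := by decide +kernel

theorem y54_7 : checkY (5 + 2) (2 * 5 + 3) 54 11 16 33 Ts54 7 = true := by decide +kernel

theorem y54_8 : checkY (5 + 2) (2 * 5 + 3) 54 11 16 33 Ts54 8 = true := by decide +kernel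

theorem y54_9 : checkY (5 + 2) (2 * 5 + 3) 54 11 16 33 Ts54 9 = true := by decide +kernel

theorem y54_10 : checkY (5 + 2) (2 * 5 + 3) 54 11 16 33 Ts54 10 = true := by decide +kernel

theorem ys54 : ∀ y, 1 ≤ y → y ≤ 54 / 5 → checkY (5 + 2) (2 * 5 + 3) 54 11 16 33 Ts54 y = true := by
  intro y h1 h2
  have h3 : y < 11 := by omega
  interval_cases y
  · exact y54_1
  · exact y54_2
  · exact y54_3
  · exact y54_4
  · exact y54_5
  · exact y54_6
  · exact y54_7
  · exact y54_8
  · exact y54_9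
  · exact y54_10

/-- `n = 54` -/
theorem full54 : Full 54 11 :=
  full_of_check 2 5 7 54 16 33 Ts54 (by omega) (by omega) (by omega) ⟨by omega, by omega⟩ node54
    ys54

end Crest.Agent.SY
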