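import Crest.Agent.SY_E13

/-!
# S0298, bases (14): kernel computations
-/

set_option autoImplicit false
set_option maxRecDepth 100000

namespace Crest.Agent.SY

open Ck

theorem allN_intro (p : ℕ → Bool) (k : ℕ) : ∀ i, (∀ x, i ≤ x → x < i + k → p x = true) →
    allN p k i = true := by
  induction k with
  | zero => intro i _; rfl
  | succ k ih =>
    intro i h
    have e : allN p (k + 1) i = (p i && allN p k (i + 1)) := and_rec _ _
    rw [e, Bool.and_eq_true]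
    exact ⟨h i le_rfl (by omega), ih (i + 1) fun x h1 h2 => h x (by omega) (by omega)⟩

/-- splitting a large computation -/
theorem checkY_split (b2 m t C8 C4 : ℕ) (Ts : List Tm) (k y zm r1 : ℕ) (hr : k + 1 - y = r1)
    (hx : mn y (r1 - 4 * y) = zm) (h0 : node b2 m (k + 1) t C8 C4 Ts [y] r1 = true)
    (hz : ∀ z, 1 ≤ z → z ≤ zm → enum b2 m (k + 1) t C8 C4 Ts k [y, z] z (r1 - z) = true) :
    checkY b2 m (k + 1) t C8 C4 Ts y = true := by
  subst hr
  unfold checkY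
  have e : enum b2 m (k + 1) t C8 C4 Ts (k + 1) [y] y (Nat.sub (k + 1) y) =
      (node b2 m (k + 1) t C8 C4 Ts [y] (Nat.sub (k + 1) y) &&
      allN (fun z => enum b2 m (k + 1) t C8 C4 Ts k (snoc [y] z) z (Nat.sub (Nat.sub (k + 1) y) z))
        (mn y (Nat.sub (Nat.sub (k + 1) y) (Nat.mul 4 (hd [y])))) 1) := and_rec _ _
  rw [e, Bool.and_eq_true]
  refine ⟨h0, allN_intro _ _ _ fun z h1 h2 => hz z h1 ?_⟩
  have e2 : mn y (Nat.sub (Nat.sub (k + 1) y) (Nat.mul 4 (hd [y]))) = zm := hx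
  omega

/-- templates -/
def Ts58 : List Tm := [⟨[2,1,1,1,1,1,1,1,1,1,1,1], [1,2,2,2], 2, 1⟩, ⟨[2,2,1,1,1,1,1,1,1,1,1], [1,1,2,2], 2, 0⟩, ⟨[2,1,1,1,1,1,1,1,1,1,1,1], [1,0,0,0], 1, 0⟩]

theorem node58 : node (5 + 2) (2 * 5 + 3) 58 12 16 35 Ts58 [] 58 = true := by decide +kernel

theorem y58_1 : checkY (5 + 2) (2 * 5 + 3) 58 12 16 35 Ts58 1 = true := by decide +kernel

theorem y58_2 : checkY (5 + 2) (2 * 5 + 3) 58 12 16 35 Ts58 2 = true := by decide +kernel

theorem y58_3_0 : node (5 + 2) (2 * 5 + 3) 58 12 16 35 Ts58 [3] 55 = true := by decide +kernel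

theorem y58_3_1 : enum (5 + 2) (2 * 5 + 3) 58 12 16 35 Ts58 57 [3, 1] 1 54 = true := by decide +kernel

theorem y58_3_2 : enum (5 + 2) (2 * 5 + 3) 58 12 16 35 Ts58 57 [3, 2] 2 53 = true := by decide +kernel

theorem y58_3_3 : enum (5 + 2) (2 * 5 + 3) 58 12 16 35 Ts58 57 [3, 3] 3 52 = true := by decide +kernel

theorem y58_3 : checkY (5 + 2) (2 * 5 + 3) 58 12 16 35 Ts58 3 = true := by
  refine checkY_split (5 + 2) (2 * 5 + 3) 12 16 35 Ts58 57 3 3 55 (by omega) (by decide +kernel) y58_3_0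
    fun z h1 h2 => ?_
  interval_cases z
  · exact y58_3_1
  · exact y58_3_2
  · exact y58_3_3

theorem y58_4_0 : node (5 + 2) (2 * 5 + 3) 58 12 16 35 Ts58 [4] 54 = true := by decide +kernel

theorem y58_4_1 : enum (5 + 2) (2 * 5 + 3) 58 12 16 35 Ts58 57 [4, 1] 1 53 = true := by decide +kernel

theorem y58_4_2 : enum (5 + 2) (2 * 5 + 3) 58 12 16 35 Ts58 57 [4, 2] 2 52 = true := by decide +kernel

theorem y58_4_3 : enum (5 + 2) (2 * 5 + 3) 58 12 16 35 Ts58 57 [4, 3] 3 51 = true := by decide +kernel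

theorem y58_4_4 : enum (5 + 2) (2 * 5 + 3) 58 12 16 35 Ts58 57 [4, 4] 4 50 = true := by decide +kernel

theorem y58_4 : checkY (5 + 2) (2 * 5 + 3) 58 12 16 35 Ts58 4 = true := by
  refine checkY_split (5 + 2) (2 * 5 + 3) 12 16 35 Ts58 57 4 4 54 (by omega) (by decide +kernel) y58_4_0
    fun z h1 h2 => ?_
  interval_cases z
  · exact y58_4_1
  · exact y58_4_2
  · exact y58_4_3
  · exact y58_4_4

theorem y58_5_0 : node (5 + 2) (2 * 5 + 3) 58 12 16 35 Ts58 [5] 53 = true := by decide +kernel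

theorem y58_5_1 : enum (5 + 2) (2 * 5 + 3) 58 12 16 35 Ts58 57 [5, 1] 1 52 = true := by decide +kernel

theorem y58_5_2 : enum (5 + 2) (2 * 5 + 3) 58 12 16 35 Ts58 57 [5, 2] 2 51 = true := by decide +kernel

theorem y58_5_3 : enum (5 + 2) (2 * 5 + 3) 58 12 16 35 Ts58 57 [5, 3] 3 50 = true := by decide +kernel

theorem y58_5_4 : enum (5 + 2) (2 * 5 + 3) 58 12 16 35 Ts58 57 [5, 4] 4 49 = true := by decide +kernel

theorem y58_5_5 : enum (5 + 2) (2 * 5 + 3) 58 12 16 35 Ts58 57 [5, 5] 5 48 = true := by decide +kernel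

theorem y58_5 : checkY (5 + 2) (2 * 5 + 3) 58 12 16 35 Ts58 5 = true := by
  refine checkY_split (5 + 2) (2 * 5 + 3) 12 16 35 Ts58 57 5 5 53 (by omega) (by decide +kernel) y58_5_0
    fun z h1 h2 => ?_
  interval_cases z
  · exact y58_5_1
  · exact y58_5_2
  · exact y58_5_3
  · exact y58_5_4
  · exact y58_5_5

theorem y58_6_0 : node (5 + 2) (2 * 5 + 3) 58 12 16 35 Ts58 [6] 52 = true := by decide +kernel

theorem y58_6_1 : enum (5 + 2) (2 * 5 + 3) 58 12 16 35 Ts58 57 [6, 1] 1 51 = true := by decide +kernel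

theorem y58_6_2 : enum (5 + 2) (2 * 5 + 3) 58 12 16 35 Ts58 57 [6, 2] 2 50 = true := by decide +kernel

theorem y58_6_3 : enum (5 + 2) (2 * 5 + 3) 58 12 16 35 Ts58 57 [6, 3] 3 49 = true := by decide +kernel

theorem y58_6_4 : enum (5 + 2) (2 * 5 + 3) 58 12 16 35 Ts58 57 [6, 4] 4 48 = true := by decide +kernel

theorem y58_6_5 : enum (5 + 2) (2 * 5 + 3) 58 12 16 35 Ts58 57 [6, 5] 5 47 = true := by decide +kernel

theorem y58_6_6 : enum (5 + 2) (2 * 5 + 3) 58 12 16 35 Ts58 57 [6, 6] 6 46 = true := by decide +kernel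

theorem y58_6 : checkY (5 + 2) (2 * 5 + 3) 58 12 16 35 Ts58 6 = true := by
  refine checkY_split (5 + 2) (2 * 5 + 3) 12 16 35 Ts58 57 6 6 52 (by omega) (by decide +kernel) y58_6_0
    fun z h1 h2 => ?_
  interval_cases z
  · exact y58_6_1
  · exact y58_6_2
  · exact y58_6_3
  · exact y58_6_4
  · exact y58_6_5
  · exact y58_6_6

theorem y58_7_0 : node (5 + 2) (2 * 5 + 3) 58 12 16 35 Ts58 [7] 51 = true := by decide +kernel

theorem y58_7_1 : enum (5 + 2) (2 * 5 + 3) 58 12 16 35 Ts58 57 [7, 1] 1 50 = true := by decide +kernel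

theorem y58_7_2 : enum (5 + 2) (2 * 5 + 3) 58 12 16 35 Ts58 57 [7, 2] 2 49 = true := by decide +kernel

theorem y58_7_3 : enum (5 + 2) (2 * 5 + 3) 58 12 16 35 Ts58 57 [7, 3] 3 48 = true := by decide +kernel

theorem y58_7_4 : enum (5 + 2) (2 * 5 + 3) 58 12 16 35 Ts58 57 [7, 4] 4 47 = true := by decide +kernel

theorem y58_7_5 : enum (5 + 2) (2 * 5 + 3) 58 12 16 35 Ts58 57 [7, 5] 5 46 = true := by decide +kernel

theorem y58_7_6 : enum (5 + 2) (2 * 5 + 3) 58 12 16 35 Ts58 57 [7, 6] 6 45 = true := by decide +kernel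

theorem y58_7_7 : enum (5 + 2) (2 * 5 + 3) 58 12 16 35 Ts58 57 [7, 7] 7 44 = true := by decide +kernel

theorem y58_7 : checkY (5 + 2) (2 * 5 + 3) 58 12 16 35 Ts58 7 = true := by
  refine checkY_split (5 + 2) (2 * 5 + 3) 12 16 35 Ts58 57 7 7 51 (by omega) (by decide +kernel) y58_7_0
    fun z h1 h2 => ?_
  interval_cases z
  · exact y58_7_1
  · exact y58_7_2
  · exact y58_7_3
  · exact y58_7_4
  · exact y58_7_5
  · exact y58_7_6
  · exact y58_7_7

theorem y58_8_0 : node (5 + 2) (2 * 5 + 3) 58 12 16 35 Ts58 [8] 50 = true := by decide +kernel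

theorem y58_8_1 : enum (5 + 2) (2 * 5 + 3) 58 12 16 35 Ts58 57 [8, 1] 1 49 = true := by decide +kernel

theorem y58_8_2 : enum (5 + 2) (2 * 5 + 3) 58 12 16 35 Ts58 57 [8, 2] 2 48 = true := by decide +kernel

theorem y58_8_3 : enum (5 + 2) (2 * 5 + 3) 58 12 16 35 Ts58 57 [8, 3] 3 47 = true := by decide +kernel

theorem y58_8_4 : enum (5 + 2) (2 * 5 + 3) 58 12 16 35 Ts58 57 [8, 4] 4 46 = true := by decide +kernel

theorem y58_8_5 : enum (5 + 2) (2 * 5 + 3) 58 12 16 35 Ts58 57 [8, 5] 5 45 = true := by decide +kernel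

theorem y58_8_6 : enum (5 + 2) (2 * 5 + 3) 58 12 16 35 Ts58 57 [8, 6] 6 44 = true := by decide +kernel

theorem y58_8_7 : enum (5 + 2) (2 * 5 + 3) 58 12 16 35 Ts58 57 [8, 7] 7 43 = true := by decide +kernel

theorem y58_8_8 : enum (5 + 2) (2 * 5 + 3) 58 12 16 35 Ts58 57 [8, 8] 8 42 = true := by decide +kernel

theorem y58_8 : checkY (5 + 2) (2 * 5 + 3) 58 12 16 35 Ts58 8 = true := by
  refine checkY_split (5 + 2) (2 * 5 + 3) 12 16 35 Ts58 57 8 8 50 (by omega) (by decide +kernel) y58_8_0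
    fun z h1 h2 => ?_
  interval_cases z
  · exact y58_8_1
  · exact y58_8_2
  · exact y58_8_3
  · exact y58_8_4
  · exact y58_8_5
  · exact y58_8_6
  · exact y58_8_7
  · exact y58_8_8

theorem y58_9_0 : node (5 + 2) (2 * 5 + 3) 58 12 16 35 Ts58 [9] 49 = true := by decide +kernel

theorem y58_9_1 : enum (5 + 2) (2 * 5 + 3) 58 12 16 35 Ts58 57 [9, 1] 1 48 = true := by decide +kernel

theorem y58_9_2 : enum (5 + 2) (2 * 5 + 3) 58 12 16 35 Ts58 57 [9, 2] 2 47 = true := by decide +kernel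

theorem y58_9_3 : enum (5 + 2) (2 * 5 + 3) 58 12 16 35 Ts58 57 [9, 3] 3 46 = true := by decide +kernel

theorem y58_9_4 : enum (5 + 2) (2 * 5 + 3) 58 12 16 35 Ts58 57 [9, 4] 4 45 = true := by decide +kernel

theorem y58_9_5 : enum (5 + 2) (2 * 5 + 3) 58 12 16 35 Ts58 57 [9, 5] 5 44 = true := by decide +kernel

theorem y58_9_6 : enum (5 + 2) (2 * 5 + 3) 58 12 16 35 Ts58 57 [9, 6] 6 43 = true := by decide +kernel

theorem y58_9_7 : enum (5 + 2) (2 * 5 + 3) 58 12 16 35 Ts58 57 [9, 7] 7 42 = true := by decide +kernel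

theorem y58_9_8 : enum (5 + 2) (2 * 5 + 3) 58 12 16 35 Ts58 57 [9, 8] 8 41 = true := by decide +kernel

theorem y58_9_9 : enum (5 + 2) (2 * 5 + 3) 58 12 16 35 Ts58 57 [9, 9] 9 40 = true := by decide +kernel

theorem y58_9 : checkY (5 + 2) (2 * 5 + 3) 58 12 16 35 Ts58 9 = true := by
  refine checkY_split (5 + 2) (2 * 5 + 3) 12 16 35 Ts58 57 9 9 49 (by omega) (by decide +kernel) y58_9_0
    fun z h1 h2 => ?_
  interval_cases z
  · exact y58_9_1
  · exact y58_9_2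
  · exact y58_9_3
  · exact y58_9_4
  · exact y58_9_5
  · exact y58_9_6
  · exact y58_9_7
  · exact y58_9_8
  · exact y58_9_9

theorem y58_10_0 : node (5 + 2) (2 * 5 + 3) 58 12 16 35 Ts58 [10] 48 = true := by decide +kernel

theorem y58_10_1 : enum (5 + 2) (2 * 5 + 3) 58 12 16 35 Ts58 57 [10, 1] 1 47 = true := by decide +kernel

theorem y58_10_2 : enum (5 + 2) (2 * 5 + 3) 58 12 16 35 Ts58 57 [10, 2] 2 46 = true := by decide +kernel

theorem y58_10_3 : enum (5 + 2) (2 * 5 + 3) 58 12 16 35 Ts58 57 [10, 3] 3 45 = true := by decide +kernel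

theorem y58_10_4 : enum (5 + 2) (2 * 5 + 3) 58 12 16 35 Ts58 57 [10, 4] 4 44 = true := by decide +kernel

theorem y58_10_5 : enum (5 + 2) (2 * 5 + 3) 58 12 16 35 Ts58 57 [10, 5] 5 43 = true := by decide +kernel

theorem y58_10_6 : enum (5 + 2) (2 * 5 + 3) 58 12 16 35 Ts58 57 [10, 6] 6 42 = true := by decide +kernel

theorem y58_10_7 : enum (5 + 2) (2 * 5 + 3) 58 12 16 35 Ts58 57 [10, 7] 7 41 = true := by decide +kernel

theorem y58_10_8 : enum (5 + 2) (2 * 5 + 3) 58 12 16 35 Ts58 57 [10, 8] 8 40 = true := by decide +kernel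

theorem y58_10 : checkY (5 + 2) (2 * 5 + 3) 58 12 16 35 Ts58 10 = true := by
  refine checkY_split (5 + 2) (2 * 5 + 3) 12 16 35 Ts58 57 10 8 48 (by omega) (by decide +kernel) y58_10_0
    fun z h1 h2 => ?_
  interval_cases z
  · exact y58_10_1
  · exact y58_10_2
  · exact y58_10_3
  · exact y58_10_4
  · exact y58_10_5
  · exact y58_10_6
  · exact y58_10_7
  · exact y58_10_8

theorem y58_11_0 : node (5 + 2) (2 * 5 + 3) 58 12 16 35 Ts58 [11] 47 = true := by decide +kernel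

theorem y58_11_1 : enum (5 + 2) (2 * 5 + 3) 58 12 16 35 Ts58 57 [11, 1] 1 46 = true := by decide +kernel

theorem y58_11_2 : enum (5 + 2) (2 * 5 + 3) 58 12 16 35 Ts58 57 [11, 2] 2 45 = true := by decide +kernel

theorem y58_11_3 : enum (5 + 2) (2 * 5 + 3) 58 12 16 35 Ts58 57 [11, 3] 3 44 = true := by decide +kernel

theorem y58_11 : checkY (5 + 2) (2 * 5 + 3) 58 12 16 35 Ts58 11 = true := by
  refine checkY_split (5 + 2) (2 * 5 + 3) 12 16 35 Ts58 57 11 3 47 (by omega) (by decide +kernel) y58_11_0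
    fun z h1 h2 => ?_
  interval_cases z
  · exact y58_11_1
  · exact y58_11_2
  · exact y58_11_3

theorem ys58 : ∀ y, 1 ≤ y → y ≤ 58 / 5 → checkY (5 + 2) (2 * 5 + 3) 58 12 16 35 Ts58 y = true := by
  intro y h1 h2
  have h3 : y < 12 := by omega
  interval_cases y
  · exact y58_1
  · exact y58_2
  · exact y58_3
  · exact y58_4
  · exact y58_5
  · exact y58_6
  · exact y58_7
  · exact y58_8
  · exact y58_9
  · exact y58_10
  · exact y58_11

/-- `n = 58` -/
theorem full58 : Full 58 12 :=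
  full_of_check 2 5 8 58 16 35 Ts58 (by omega) (by omega) (by omega) ⟨by omega, by omega⟩ node58
    ys58

end Crest.Agent.SY
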