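import Crest.Agent.SY_E1

/-!
# S0298, bases (2): levels `{1..w} ∪ {b+1,b+2} ∪ {a+1..a+4}`
-/

set_option autoImplicit false

namespace Crest.Agent.SY

open Finset

/-- transposing the partition, self-conjugate types -/
theorem Der.symm_of {J : ℕ → Bool} {k : ℕ} {g S : Shp} (hg : g.tr = g) (h : Der J k g g S.tr) :
    Der J k g g S := by
  have := Der.twist k g g S.tr h
  rw [hg] at this
  exact this

/-- The inner shapes reached by the lower pair of levels. -/
def InnerOK (b : ℕ) (S : Shp) : Prop :=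
  (b + 2 ≤ S.b 0 ∧ 2 * b + 3 ≤ S.b 0 + S.b 1) ∨ (b + 2 ≤ S.a 0 ∧ 2 * b + 3 ≤ S.a 0 + S.a 1)

theorem InnerOK.mono {b : ℕ} {S T : Shp} (h : InnerOK b S) (hle : Shp.Le S T) : InnerOK b T := by
  have h1 := hle 0
  have h2 := hle 1
  have h3 := hle.b 0
  have h4 := hle.b 1
  rcases h with h | h
  · exact Or.inl (by omega)
  · exact Or.inr (by omega)

theorem InnerOK.tr {b : ℕ} {S : Shp} (h : InnerOK b S) : InnerOK b S.tr := Or.symm h

/-- The inner type. -/
def gP (w b : ℕ) : Shp := Shp.row (b + 2) (Shp.col (b + 1) (Shp.st w))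

theorem gP_a_zero (w b : ℕ) : (gP w b).a 0 = b + 2 := by
  unfold gP
  rw [row_a_zero, Shp.col_a_zero]

theorem st_a_zero (w : ℕ) : (Shp.st w).a 0 = w := rfl

theorem gP_tr (w b : ℕ) (hwb : w ≤ b) : (gP w b).tr = gP w b := by
  have h1 : (gP w b).tr = Shp.col (b + 2) (Shp.row (b + 1) (Shp.st w)) := rfl
  rw [h1, gP, Shp.row_col (b + 1) (Shp.st w) (by rw [st_a_zero]; omega)]

/-- The levels used. -/
def JPQ (w b a : ℕ) : ℕ → Bool := fun j =>
  decide (j ≤ w) || decide (j = b + 1) || decide (j = b + 2) || decide (a + 1 ≤ j)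

theorem JPQ_core (w b a j : ℕ) (h : j ≤ w) : JPQ w b a j = true := by simp [JPQ, h]
theorem JPQ_b1 (w b a : ℕ) : JPQ w b a (b + 1) = true := by simp [JPQ]
theorem JPQ_b2 (w b a : ℕ) : JPQ w b a (b + 2) = true := by simp [JPQ]
theorem JPQ_top (w b a j : ℕ) (h : a + 1 ≤ j) : JPQ w b a j = true := by simp [JPQ, h]
theorem JPQ_false (w b a j : ℕ) (h1 : w < j) (h2 : j ≠ b + 1) (h3 : j ≠ b + 2) (h4 : j ≤ a) :
    JPQ w b a j = false := by
  have e1 : ¬ j ≤ w := by omega
  have e4 : ¬ (a + 1 ≤ j) := by omega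
  simp [JPQ, e1, h2, h3]
  omega

theorem Der.skips {J : ℕ → Bool} {k : ℕ} {g g' lam : Shp} (h : Der J k g g' lam) :
    ∀ m : ℕ, (∀ j, k < j → j ≤ k + m → J j = false) → Der J (k + m) g g' lam := by
  intro m
  induction m with
  | zero => intro _; exact h
  | succ m ih =>
    intro hJ
    exact Der.skip _ _ _ _ (hJ (k + m + 1) (by omega) (by omega))
      (ih fun j h1 h2 => hJ j h1 (by omega))

theorem inner_rows (w b a : ℕ) (hwb : w ≤ b) (al : Shp)
    (hs : 2 * al.size = w * (w + 1) + 2 * (2 * b + 3)) (h1 : b + 2 ≤ al.b 0)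
    (h2 : 2 * b + 3 ≤ al.b 0 + al.b 1) (hba : b + 2 ≤ a) :
    Der (JPQ w b a) (b + 2) (gP w b) (gP w b) al := by
  obtain ⟨S₁, S₂, x1, x2⟩ := al.exists_SS (b + 2) (b + 1) (by omega) h1 (by omega)
  have z1 := Rm_size x1
  have z2 := Rm_size x2
  have y0 : Der (JPQ w b a) w (Shp.st w) (Shp.st w) S₂ :=
    Der.saxl w S₂ (fun j _ hj => JPQ_core w b a j hj) (by omega)
  have y1 : Der (JPQ w b a) b (Shp.st w) (Shp.st w) S₂ := by
    obtain ⟨m, rfl⟩ : ∃ m, b = w + m := ⟨b - w, by omega⟩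
    exact y0.skips m fun j hj1 hj2 => JPQ_false _ _ _ _ hj1 (by omega) (by omega) (by omega)
  have y2 := y1.stripCC (lam := S₁) (JPQ_b1 w b a) x2
  exact y2.stripRR (lam := al) (JPQ_b2 w b a) x1

theorem inner_der (w b a : ℕ) (hwb : w ≤ b) (hba : b + 2 ≤ a) (al : Shp)
    (hs : 2 * al.size = w * (w + 1) + 2 * (2 * b + 3)) (h : InnerOK b al) :
    Der (JPQ w b a) a (gP w b) (gP w b) al := by
  have key : Der (JPQ w b a) (b + 2) (gP w b) (gP w b) al := by
    rcases h with ⟨h1, h2⟩ | ⟨h1, h2⟩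
    · exact inner_rows w b a hwb al hs h1 h2 hba
    · refine Der.symm_of (gP_tr w b hwb) ?_
      exact inner_rows w b a hwb al.tr (by rw [Shp.size_tr]; exact hs) h1 h2 hba
  obtain ⟨m, rfl⟩ : ∃ m, a = b + 2 + m := ⟨a - (b + 2), by omega⟩
  exact key.skips m fun j hj1 hj2 => JPQ_false _ _ _ _ (by omega) (by omega) (by omega) (by omega)

/-- The double layer pattern on top. -/
theorem top_PP {J : ℕ → Bool} {k : ℕ} {g S S₁ S₂ : Shp}
    (h1 : J (k + 1) = true) (h2 : J (k + 2) = true) (h3 : J (k + 3) = true) (h4 : J (k + 4) = true)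
    (y0 : Der J k g g S₂) (x1 : Shp.Rm 4 (2 * k + 7) S S₁) (x2 : Shp.Rm 4 (2 * k + 3) S₁ S₂) :
    Der J (k + 4) (four k g) (four k g) S := by
  have y1 := y0.pathCC (lam := S₁) h1 h2 x2
  have y2 := y1.pathRR (lam := S) h3 h4 (by
    have e : 2 * k + 7 = 2 * (k + 2) + 3 := by omega
    rw [e] at x1
    exact x1)
  exact y2

/-- The pattern: two horizontal strips above two vertical strips. -/
theorem top_HHVV {J : ℕ → Bool} {k : ℕ} {g S S₁ S₂ T₁ T₂ : Shp} (hg : g.a 0 ≤ k)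
    (h1 : J (k + 1) = true) (h2 : J (k + 2) = true) (h3 : J (k + 3) = true) (h4 : J (k + 4) = true)
    (y0 : Der J k g g T₂.tr) (x1 : Shp.Rm 1 (k + 4) S S₁) (x2 : Shp.Rm 1 (k + 3) S₁ S₂)
    (x3 : Shp.Rm 1 (k + 2) S₂.tr T₁) (x4 : Shp.Rm 1 (k + 1) T₁ T₂) :
    Der J (k + 4) (four k g) (four k g) S := by
  have y1 : Der J (k + 1) (Shp.col (k + 1) g) (Shp.row (k + 1) g) T₁.tr := y0.stripCR h1 x4
  have y2 : Der J (k + 2) (Shp.row (k + 2) (Shp.col (k + 1) g))
      (Shp.col (k + 2) (Shp.row (k + 1) g)) S₂ := y1.stripRC h2 x3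
  rw [← Shp.row_col (k + 1) g (by omega)] at y2
  have y3 := y2.stripCC (lam := S₁) h3 x2
  have y4 := y3.stripRR (lam := S) h4 x1
  rw [four_eq]
  exact y4

/-- Numerical condition for the double layer pattern. -/
def GoodPP (b t : ℕ) (S : Shp) : Prop :=
  ∃ f : Shp, Shp.Le f S ∧ InnerOK b f ∧ (Shp.sup f (Shp.drop 4 S)).size + (2 * t - 1) ≤ S.size ∧
    (Shp.sup f (Shp.drop 8 S)).size + (4 * t - 6) ≤ S.size

/-- Numerical condition for the pattern with single strips. -/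
def GoodHV (b t : ℕ) (S : Shp) : Prop :=
  ∃ G f : Shp, Shp.Le f G ∧ Shp.Le G S ∧ InnerOK b f ∧
    (Shp.sup G (Shp.drop 1 S)).size + t ≤ S.size ∧
    (Shp.sup G (Shp.drop 2 S)).size + (2 * t - 1) ≤ S.size ∧
    (Shp.sup f.tr (Shp.drop 1 G.tr)).size + (t - 2) ≤ G.size ∧
    (Shp.sup f.tr (Shp.drop 2 G.tr)).size + (2 * t - 5) ≤ G.size

theorem der_of_goodPP (w b a : ℕ) (hwb : w ≤ b) (hba : b + 2 ≤ a) (S : Shp)
    (hs : 2 * S.size = w * (w + 1) + 2 * (2 * b + 3) + 2 * (4 * a + 10)) (h : GoodPP b (a + 4) S) :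
    Der (JPQ w b a) (a + 4) (four a (gP w b)) (four a (gP w b)) S := by
  obtain ⟨f, hf, hI, c4, c8⟩ := h
  obtain ⟨S₁, S₂, x1, x2, x3⟩ := S.two_step f 4 (2 * a + 7) (2 * a + 3) (by omega) hf
    (by omega) (by show (Shp.sup f (Shp.drop 8 S)).size + _ ≤ _; omega)
  have z1 := Rm_size x1
  have z2 := Rm_size x2
  exact top_PP (JPQ_top _ _ _ _ (by omega)) (JPQ_top _ _ _ _ (by omega))
    (JPQ_top _ _ _ _ (by omega)) (JPQ_top _ _ _ _ (by omega))
    (inner_der w b a hwb hba S₂ (by omega) (hI.mono x3)) x1 x2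

theorem der_of_goodHV (w b a : ℕ) (hwb : w ≤ b) (hba : b + 2 ≤ a) (S : Shp)
    (hs : 2 * S.size = w * (w + 1) + 2 * (2 * b + 3) + 2 * (4 * a + 10)) (h : GoodHV b (a + 4) S) :
    Der (JPQ w b a) (a + 4) (four a (gP w b)) (four a (gP w b)) S := by
  obtain ⟨G, f, hfG, hGS, hI, c1, c2, d1, d2⟩ := h
  obtain ⟨S₁, S₂, x1, x2, x3⟩ := S.two_step G 1 (a + 4) (a + 3) (by omega) hGS
    (by omega) (by show (Shp.sup G (Shp.drop 2 S)).size + _ ≤ _; omega)
  have z1 := Rm_size x1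
  have z2 := Rm_size x2
  have m1 := Shp.sup_drop_mono f.tr G.tr S₂.tr 1 hfG.tr x3.tr
  have m2 := Shp.sup_drop_mono f.tr G.tr S₂.tr 2 hfG.tr x3.tr
  rw [Shp.size_tr, Shp.size_tr] at m1 m2
  obtain ⟨T₁, T₂, x4, x5, x6⟩ := S₂.tr.two_step f.tr 1 (a + 2) (a + 1) (by omega)
    (hfG.tr.trans x3.tr) (by rw [Shp.size_tr]; omega)
    (by rw [Shp.size_tr]; show (Shp.sup f.tr (Shp.drop 2 S₂.tr)).size + _ ≤ _; omega)
  have z3 := Rm_size x4
  have z4 := Rm_size x5
  rw [Shp.size_tr] at z3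
  exact top_HHVV (by rw [gP_a_zero]; omega) (JPQ_top _ _ _ _ (by omega)) (JPQ_top _ _ _ _ (by omega))
    (JPQ_top _ _ _ _ (by omega)) (JPQ_top _ _ _ _ (by omega))
    (inner_der w b a hwb hba T₂.tr (by rw [Shp.size_tr]; omega) ((hI.tr.mono x6).tr))
    x1 x2 x4 x5

/-- All four conditions. -/
def Good (b t : ℕ) (S : Shp) : Prop :=
  (GoodPP b t S ∨ GoodPP b t S.tr) ∨ (GoodHV b t S ∨ GoodHV b t S.tr)

theorem full_of_good (w b a : ℕ) (hwb : w ≤ b) (hba : b + 2 ≤ a)
    (h : ∀ S : Shp, 2 * S.size = w * (w + 1) + 2 * (2 * b + 3) + 2 * (4 * a + 10) →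
      Good b (a + 4) S) (n : ℕ) (hn : 2 * n = w * (w + 1) + 2 * (2 * b + 3) + 2 * (4 * a + 10)) :
    Full n (a + 4) := by
  have hgt : (four a (gP w b)).tr = four a (gP w b) :=
    four_tr a _ (by rw [gP_a_zero]; omega) (gP_tr w b hwb)
  refine ⟨JPQ w b a, four a (gP w b), hgt, (four_a_zero a _).le, ?_, fun S hS => ?_⟩
  · -- the sum of the levels
    have e0 : ∀ N, ∑ j ∈ range (w + 1 + N), (if JPQ w b a j = true then j else 0) =
        ∑ j ∈ range (w + 1), j + ∑ j ∈ range N, (if JPQ w b a (w + 1 + j) = true then w + 1 + j else 0) := by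
      intro N
      rw [sum_range_add]
      congr 1
      refine sum_congr rfl fun j hj => ?_
      rw [mem_range] at hj
      rw [if_pos (JPQ_core w b a j (by omega))]
    have e1 : ∀ m, w ≤ m → m ≤ b → ∑ j ∈ range (m + 1), (if JPQ w b a j = true then j else 0) =
        ∑ j ∈ range (w + 1), j := by
      intro m hm
      induction m, hm using Nat.le_induction with
      | base =>
        intro _
        have := e0 0
        simpa using this
      | succ m hm ih =>
        intro hmb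
        rw [sum_range_succ, ih (by omega),
          JPQ_false w b a (m + 1) (by omega) (by omega) (by omega) (by omega)]
        simp
    have e2 : ∑ j ∈ range (b + 2 + 1), (if JPQ w b a j = true then j else 0) =
        ∑ j ∈ range (w + 1), j + (2 * b + 3) := by
      rw [sum_range_succ, sum_range_succ, e1 b hwb le_rfl, JPQ_b1, JPQ_b2]
      simp only [if_true]
      omega
    have e3 : ∀ m, b + 2 ≤ m → m ≤ a → ∑ j ∈ range (m + 1), (if JPQ w b a j = true then j else 0) =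
        ∑ j ∈ range (w + 1), j + (2 * b + 3) := by
      intro m hm
      induction m, hm using Nat.le_induction with
      | base => intro _; exact e2
      | succ m hm ih =>
        intro hmb
        rw [sum_range_succ, ih (by omega),
          JPQ_false w b a (m + 1) (by omega) (by omega) (by omega) (by omega)]
        simp
    rw [sum_range_succ, sum_range_succ, sum_range_succ, sum_range_succ, e3 a hba le_rfl,
      JPQ_top w b a (a + 1) le_rfl, JPQ_top w b a (a + 2) (by omega),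
      JPQ_top w b a (a + 3) (by omega), JPQ_top w b a (a + 4) (by omega)]
    have e5 := Finset.sum_range_id_mul_two (w + 1)
    simp only [if_true]
    have e6 : (w + 1) * (w + 1 - 1) = w * (w + 1) := by simp [mul_comm]
    rw [e6] at e5
    omega
  · have hS2 : 2 * S.size = w * (w + 1) + 2 * (2 * b + 3) + 2 * (4 * a + 10) := by omega
    have hS3 : 2 * S.tr.size = w * (w + 1) + 2 * (2 * b + 3) + 2 * (4 * a + 10) := by
      rw [Shp.size_tr]; exact hS2
    rcases h S hS2 with (h1 | h1) | (h1 | h1)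
    · exact der_of_goodPP w b a hwb hba S hS2 h1
    · exact Der.symm_of hgt (der_of_goodPP w b a hwb hba S.tr hS3 h1)
    · exact der_of_goodHV w b a hwb hba S hS2 h1
    · exact Der.symm_of hgt (der_of_goodHV w b a hwb hba S.tr hS3 h1)

end Crest.Agent.SY
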