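import Mathlib

/-!
# S0298, bases (3): the kernel check (definitions)

All functions are written with recursors, so that the kernel evaluates them quickly.
-/

set_option autoImplicit false

namespace Crest.Agent.SY.Ck

noncomputable section

/-- conjunction -/
notation:35 x:36 " &' " y:35 => @Bool.rec (fun _ => Bool) false y x
/-- disjunction -/
notation:30 x:31 " |' " y:30 => @Bool.rec (fun _ => Bool) y true x

/-- evaluate the argument -/
def force (α : Type) (x : ℕ) (f : ℕ → α) : α :=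
  @Nat.rec (fun _ => α) (f 0) (fun k _ => f (Nat.succ k)) x

/-- sum of a list -/
def lsum (L : List ℕ) : ℕ := @List.rec ℕ (fun _ => ℕ) 0 (fun x _ ih => Nat.add x ih) L

/-- sum of `x - m` -/
def ssub (m : ℕ) (L : List ℕ) : ℕ :=
  @List.rec ℕ (fun _ => ℕ) 0 (fun x _ ih => Nat.add (Nat.sub x m) ih) L

/-- number of leading entries `> j` -/
def cnt (j : ℕ) (L : List ℕ) : ℕ :=
  @List.rec ℕ (fun _ => ℕ) 0 (fun x _ ih =>
    @Bool.rec (fun _ => ℕ) (Nat.succ ih) 0 (Nat.ble x j)) L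

/-- head -/
def hd (L : List ℕ) : ℕ := @List.rec ℕ (fun _ => ℕ) 0 (fun x _ _ => x) L

/-- tail -/
def tl (L : List ℕ) : List ℕ := @List.rec ℕ (fun _ => List ℕ) [] (fun _ L _ => L) L

/-- length -/
def len (L : List ℕ) : ℕ := @List.rec ℕ (fun _ => ℕ) 0 (fun _ _ ih => Nat.succ ih) L

/-- append an element -/
def snoc (L : List ℕ) (y : ℕ) : List ℕ :=
  @List.rec ℕ (fun _ => List ℕ) [y] (fun x _ ih => x :: ih) L

/-- the numerical condition; `b2 = b + 2`, `m = 2 b + 3` -/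
def ppn (b2 m C8 C4 A8 A4 x8 y8 x4 y4 : ℕ) : Bool :=
  Nat.ble A8 C8 &' Nat.ble A4 C4 &' Nat.ble (Nat.add m A8) (Nat.add (Nat.add x8 y8) C8) &'
  Nat.ble (Nat.add m A4) (Nat.add (Nat.add x4 y4) C4) &' Nat.ble (Nat.add b2 A8) (Nat.add x8 C8) &'
  Nat.ble (Nat.add b2 A4) (Nat.add x4 C4) &'
  Nat.ble (Nat.add m (Nat.add A8 A4)) (Nat.add (Nat.add x4 y8) (Nat.add C4 C8)) &'
  Nat.ble (Nat.add m (Nat.add A8 A4)) (Nat.add (Nat.add x8 y4) (Nat.add C4 C8))

/-- a template for the single strip pattern: target, shifts, tail shift, cut -/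
structure Tm where
  /-- target -/
  F : List ℕ
  /-- shifts -/
  E : List ℕ
  /-- shift of the remaining rows -/
  e : ℕ
  /-- number of rows cut -/
  cut : ℕ

/-- minimum -/
def mn (x y : ℕ) : ℕ := @Bool.rec (fun _ => ℕ) y x (Nat.ble x y)

/-- maximum -/
def mx (x y : ℕ) : ℕ := @Bool.rec (fun _ => ℕ) x y (Nat.ble x y)

/-- head with default value -/
def hdD (e : ℕ) (L : List ℕ) : ℕ := @List.rec ℕ (fun _ => ℕ) e (fun x _ _ => x) L

/-- the intermediate shape of a template -/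
def mkG (e : ℕ) (L : List ℕ) : ℕ → List ℕ → List ℕ → List ℕ :=
  @List.rec ℕ (fun _ => ℕ → List ℕ → List ℕ → List ℕ) (fun _ _ _ => [])
    (fun x _ ih k F E => @Nat.rec (fun _ => List ℕ) []
      (fun k' _ => mn x (Nat.add (hd F) (hdD e E)) :: ih k' (tl F) (tl E)) k) L

/-- is antitone -/
def isAnti (L : List ℕ) : Bool :=
  @List.rec ℕ (fun _ => Bool) true (fun x L ih => Nat.ble (hd L) x &' ih) L

/-- pointwise comparison -/
def leL (F : List ℕ) : List ℕ → Bool :=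
  @List.rec ℕ (fun _ => List ℕ → Bool) (fun _ => true)
    (fun x _ ih G => Nat.ble x (hd G) &' ih (tl G)) F

/-- size of the union -/
def usz (F : List ℕ) : List ℕ → ℕ :=
  @List.rec ℕ (fun _ => List ℕ → ℕ) (fun L => lsum L)
    (fun x _ ih L => Nat.add (mx x (hd L)) (ih (tl L))) F

/-- size of the union of `F` with `L` shortened by `m` -/
def uszs (m : ℕ) (L : List ℕ) : List ℕ → ℕ :=
  @List.rec ℕ (fun _ => List ℕ → ℕ) (fun F => lsum F)
    (fun x _ ih F => Nat.add (mx (hd F) (Nat.sub x m)) (ih (tl F))) L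

/-- target test -/
def isT (b2 m : ℕ) (F : List ℕ) : Bool :=
  (Nat.ble b2 (hd F) &' Nat.ble m (Nat.add (hd F) (hd (tl F)))) |'
  (Nat.ble b2 (cnt 0 F) &' Nat.ble m (Nat.add (cnt 0 F) (cnt 1 F)))

/-- test with intermediate shape `G` and target `F` -/
def hvG (b2 m n t : ℕ) (L G F : List ℕ) : Bool :=
  Nat.ble (Nat.add (usz G (tl L)) t) n &'
  Nat.ble (Nat.add (usz G (tl (tl L))) (Nat.sub (Nat.add t t) 1)) n &'
  Nat.ble (Nat.add (uszs 1 G F) (Nat.sub t 2)) (lsum G) &'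
  Nat.ble (Nat.add (uszs 2 G F) (Nat.sub (Nat.add t t) 5)) (lsum G) &'
  isAnti G &' leL F G &' leL G L &' isAnti F &' isT b2 m F

/-- test with a template -/
def hvT (b2 m n t : ℕ) (L : List ℕ) (τ : Tm) : Bool :=
  hvG b2 m n t L (mkG τ.e L (Nat.sub (len L) τ.cut) τ.F τ.E) τ.F

/-- some template works -/
def hvA (b2 m n t : ℕ) (L : List ℕ) (Ts : List Tm) : Bool :=
  @List.rec Tm (fun _ => Bool) false (fun τ _ ih => hvT b2 m n t L τ |' ih) Ts

/-- conjugate partition, columns `i, i+1, …, i+k-1` -/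
def conjL (L : List ℕ) (k : ℕ) : ℕ → List ℕ :=
  @Nat.rec (fun _ => ℕ → List ℕ) (fun _ => []) (fun _ ih i => cnt i L :: ih (Nat.succ i)) k

/-- drop four -/
def d4 (L : List ℕ) : List ℕ := tl (tl (tl (tl L)))

/-- slow test of a full partition -/
def slow (b2 m n t C8 C4 : ℕ) (Ts : List Tm) (A8 A4 a0 a1 : ℕ) (L : List ℕ) : Bool :=
  (Nat.ble m (Nat.add a0 a1) &'
    (ppn b2 m C8 C4 A8 A4 (cnt 8 L) (cnt 9 L) (cnt 4 L) (cnt 5 L) |'
     ppn b2 m C8 C4 (lsum (d4 (d4 L))) (lsum (d4 L)) (Nat.sub a0 8) (Nat.sub a1 8)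
      (Nat.sub a0 4) (Nat.sub a1 4))) |'
  (Nat.ble m (Nat.add (hd L) (hd (tl L))) &'
    ppn b2 m C8 C4 (lsum (d4 (d4 L))) (lsum (d4 L)) (hd (d4 (d4 L))) (hd (tl (d4 (d4 L))))
      (hd (d4 L)) (hd (tl (d4 L)))) |'
  hvA b2 m n t L Ts |' hvA b2 m n t (conjL L (hd L) 0) Ts

/-- quick test of a full partition; `k8`, `k4` are the contributions of `K` -/
def quick (b2 m C8 C4 k8 k4 b0 b1 b2' b3 : ℕ) : Bool :=
  Nat.ble m (Nat.add b0 b1) &'
    ppn b2 m C8 C4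
      (Nat.add (Nat.sub b0 8) (Nat.add (Nat.sub b1 8) (Nat.add (Nat.sub b2' 8)
        (Nat.add (Nat.sub b3 8) k8))))
      (Nat.add (Nat.sub b0 4) (Nat.add (Nat.sub b1 4) (Nat.add (Nat.sub b2' 4)
        (Nat.add (Nat.sub b3 4) k4))))
      (Nat.sub b0 8) (Nat.sub b1 8) (Nat.sub b0 4) (Nat.sub b1 4)

/-- bounded quantifier -/
def allN (p : ℕ → Bool) (k : ℕ) : ℕ → Bool :=
  @Nat.rec (fun _ => ℕ → Bool) (fun _ => true) (fun _ ih i => p i &' ih (Nat.succ i)) k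

/-- fold over an interval -/
def foldN {α : Type} (f : ℕ → α → α) (k : ℕ) : ℕ → α → α :=
  @Nat.rec (fun _ => ℕ → α → α) (fun _ x => x) (fun _ ih i x => f i (ih (Nat.succ i) x)) k

/-- the first four rows failing the quick test -/
def failB (b2 m C8 C4 k8 k4 k0 rem : ℕ) : List (List ℕ) :=
  foldN (fun b3 => foldN (fun b2' => foldN (fun b1 acc =>
    @Bool.rec (fun _ => List (List ℕ))
      ([Nat.sub (Nat.sub (Nat.sub rem b1) b2') b3, b1, b2', b3] :: acc) acc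
      (quick b2 m C8 C4 k8 k4 (Nat.sub (Nat.sub (Nat.sub rem b1) b2') b3) b1 b2' b3))
      (Nat.sub (Nat.succ (Nat.div (Nat.sub (Nat.sub rem b3) b2') 2)) b2') b2')
      (Nat.sub (Nat.succ (Nat.div (Nat.sub rem b3) 3)) b3) b3)
      (Nat.sub (Nat.succ (Nat.div rem 4)) k0) k0 []

/-- test all lists `B ++ K` -/
def allB (b2 m n t C8 C4 : ℕ) (Ts : List Tm) (K : List ℕ) (k8 k4 : ℕ) (Bs : List (List ℕ)) : Bool :=
  @List.rec (List ℕ) (fun _ => Bool) true (fun B _ ih =>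
    slow b2 m n t C8 C4 Ts (Nat.add (ssub 8 B) k8) (Nat.add (ssub 4 B) k4)
      (cnt 0 (B ++ K)) (cnt 1 (B ++ K)) (B ++ K) &' ih) Bs

/-- test on the rows `5, 6, …` only -/
def ppK (b2 m n C8 C4 : ℕ) (K : List ℕ) (A8 A4 : ℕ) : Bool :=
  (Nat.ble (Nat.add (Nat.add m m) A4) (Nat.succ n) &'
    ppn b2 m C8 C4 A8 A4 (hd (d4 K)) (hd (tl (d4 K))) (hd K) (hd (tl K))) |'
  (@Bool.rec (fun _ => Bool)
    (Nat.ble 1 (len K) &' Nat.ble m (Nat.add (len K) 4) &'
      ppn b2 m C8 C4 A8 A4 (Nat.sub (len K) 4) 0 (len K) 0)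
    (Nat.ble m (Nat.add (len K) (Nat.add (cnt 1 K) 8)) &'
      ppn b2 m C8 C4 A8 A4 (Nat.sub (len K) 4) (Nat.sub (cnt 1 K) 4) (len K) (cnt 1 K))
    (Nat.ble 1 (cnt 1 K)))

/-- test of a `κ` -/
def node (b2 m n t C8 C4 : ℕ) (Ts : List Tm) (K : List ℕ) (rem : ℕ) : Bool :=
  ppK b2 m n C8 C4 K (lsum (d4 K)) (Nat.sub n rem) |'
  force Bool (ssub 8 K) fun k8 => force Bool (ssub 4 K) fun k4 => force Bool (hd K) fun k0 =>
    force Bool rem fun rem => allB b2 m n t C8 C4 Ts K k8 k4 (failB b2 m C8 C4 k8 k4 k0 rem)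

/-- enumeration of all `κ` extending `K`; `x` = bound for the next row, `rem` = remaining cells,
the first four rows need at least `4 * hd K` of them -/
def enum (b2 m n t C8 C4 : ℕ) (Ts : List Tm) (k : ℕ) : List ℕ → ℕ → ℕ → Bool :=
  @Nat.rec (fun _ => List ℕ → ℕ → ℕ → Bool) (fun _ _ _ => false)
    (fun _ ih K x rem => node b2 m n t C8 C4 Ts K rem &'
      allN (fun y => ih (snoc K y) y (Nat.sub rem y)) (mn x (Nat.sub rem (Nat.mul 4 (hd K)))) 1) k

/-- the check for first row `y` -/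
def checkY (b2 m n t C8 C4 : ℕ) (Ts : List Tm) (y : ℕ) : Bool :=
  enum b2 m n t C8 C4 Ts n [y] y (Nat.sub n y)

/-- the whole check -/
def check (b2 m n t C8 C4 : ℕ) (Ts : List Tm) : Bool :=
  node b2 m n t C8 C4 Ts [] n &' allN (checkY b2 m n t C8 C4 Ts) (Nat.div n 5) 1

end

end Crest.Agent.SY.Ck
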