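import Crest.Agent.SY_E2
import Crest.Agent.SY_E3

/-!
# S0298, bases (4): soundness of the kernel check, part 1 (lists and shapes)
-/

set_option autoImplicit false

namespace Crest.Agent.SY

open Finset Ck

/-- `L` is the list of rows of `S`. -/
def IsR (S : Shp) (L : List ℕ) : Prop := ∀ r, S.b r = L.getD r 0

theorem hd_eq (L : List ℕ) : hd L = L.getD 0 0 := by cases L <;> rfl

theorem tl_getD (L : List ℕ) (r : ℕ) : (tl L).getD r 0 = L.getD (r + 1) 0 := by cases L <;> rfl

theorem hd_tl (L : List ℕ) : hd (tl L) = L.getD 1 0 := by rw [hd_eq, tl_getD]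

theorem d4_getD (L : List ℕ) (r : ℕ) : (d4 L).getD r 0 = L.getD (r + 4) 0 := by
  unfold d4
  rw [tl_getD, tl_getD, tl_getD, tl_getD]

theorem and_rec (x y : Bool) : (@Bool.rec (fun _ => Bool) false y x) = (x && y) := by
  cases x <;> rfl

theorem or_rec (x y : Bool) : (@Bool.rec (fun _ => Bool) y true x) = (x || y) := by
  cases x <;> rfl

theorem lsum_cons (x : ℕ) (L : List ℕ) : lsum (x :: L) = x + lsum L := rfl

theorem sum_getD (L : List ℕ) : ∀ N, L.length ≤ N → ∑ r ∈ range N, L.getD r 0 = lsum L := by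
  induction L with
  | nil => intro N _; simp [lsum]
  | cons x L ih =>
    intro N hN
    obtain ⟨M, rfl⟩ : ∃ M, N = M + 1 := ⟨N - 1, by simp at hN; omega⟩
    rw [sum_range_succ', lsum_cons, add_comm]
    congr 1
    simp only [List.getD_cons_succ]
    exact ih M (by simp at hN; omega)

theorem sum_ssub (m : ℕ) (L : List ℕ) : ∀ N, L.length ≤ N →
    ∑ r ∈ range N, (L.getD r 0 - m) = ssub m L := by
  induction L with
  | nil => intro N _; simp [ssub]
  | cons x L ih =>
    intro N hN
    obtain ⟨M, rfl⟩ : ∃ M, N = M + 1 := ⟨N - 1, by simp at hN; omega⟩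
    rw [sum_range_succ']
    have e : ssub m (x :: L) = (x - m) + ssub m L := rfl
    rw [e, add_comm]
    congr 1
    simp only [List.getD_cons_succ]
    exact ih M (by simp at hN; omega)

theorem mx_eq (x y : ℕ) : mx x y = max x y := by
  unfold mx
  by_cases h : x ≤ y
  · rw [Nat.ble_eq_true_of_le h, max_eq_right h]
  · have : Nat.ble x y = false := by
      rw [Bool.eq_false_iff]
      intro h2
      exact h (Nat.le_of_ble_eq_true h2)
    rw [this, max_eq_left (by omega)]

theorem sum_usz (F : List ℕ) : ∀ (L : List ℕ) (N : ℕ), F.length ≤ N → L.length ≤ N →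
    ∑ r ∈ range N, max (F.getD r 0) (L.getD r 0) = usz F L := by
  induction F with
  | nil =>
    intro L N _ hL
    have : usz [] L = lsum L := rfl
    rw [this, ← sum_getD L N hL]
    exact sum_congr rfl fun r _ => by simp
  | cons x F ih =>
    intro L N hF hL
    obtain ⟨M, rfl⟩ : ∃ M, N = M + 1 := ⟨N - 1, by simp at hF; omega⟩
    rw [sum_range_succ']
    have e : usz (x :: F) L = mx x (hd L) + usz F (tl L) := rfl
    rw [e, add_comm, mx_eq, hd_eq]
    congr 1
    simp only [List.getD_cons_succ]
    rw [← ih (tl L) M (by simp at hF; omega) (by cases L <;> simp [tl] at hL ⊢; omega)]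
    exact sum_congr rfl fun r _ => by rw [tl_getD]

theorem sum_uszs (m : ℕ) (L : List ℕ) : ∀ (F : List ℕ) (N : ℕ), F.length ≤ N → L.length ≤ N →
    ∑ r ∈ range N, max (F.getD r 0) (L.getD r 0 - m) = uszs m L F := by
  induction L with
  | nil =>
    intro F N hF _
    have : uszs m [] F = lsum F := rfl
    rw [this, ← sum_getD F N hF]
    exact sum_congr rfl fun r _ => by simp
  | cons x L ih =>
    intro F N hF hL
    obtain ⟨M, rfl⟩ : ∃ M, N = M + 1 := ⟨N - 1, by simp at hL; omega⟩
    rw [sum_range_succ']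
    have e : uszs m (x :: L) F = mx (hd F) (x - m) + uszs m L (tl F) := rfl
    rw [e, add_comm, mx_eq, hd_eq]
    congr 1
    simp only [List.getD_cons_succ]
    rw [← ih (tl F) M (by cases F <;> simp [tl] at hF ⊢; omega) (by simp at hL; omega)]
    exact sum_congr rfl fun r _ => by rw [tl_getD]

theorem cnt_spec (j : ℕ) (L : List ℕ) : ∀ r, r < cnt j L ↔ ∀ i ≤ r, j < L.getD i 0 := by
  induction L with
  | nil =>
    intro r
    have : cnt j [] = 0 := rfl
    rw [this]
    constructor
    · intro h; omega
    · intro h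
      have := h 0 (Nat.zero_le _)
      simp at this
  | cons x L ih =>
    intro r
    by_cases hx : x ≤ j
    · have e : cnt j (x :: L) = 0 := by
        show (@Bool.rec (fun _ => ℕ) (Nat.succ (cnt j L)) 0 (Nat.ble x j)) = 0
        rw [Nat.ble_eq_true_of_le hx]
      rw [e]
      constructor
      · intro h; omega
      · intro h
        have := h 0 (Nat.zero_le _)
        simp at this
        omega
    · have e : cnt j (x :: L) = cnt j L + 1 := by
        show (@Bool.rec (fun _ => ℕ) (Nat.succ (cnt j L)) 0 (Nat.ble x j)) = _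
        have : Nat.ble x j = false := by
          rw [Bool.eq_false_iff]
          intro h2
          exact hx (Nat.le_of_ble_eq_true h2)
        rw [this]
      rw [e]
      match r with
      | 0 =>
        constructor
        · intro _ i hi
          obtain rfl : i = 0 := by omega
          simp
          omega
        · intro _; omega
      | r + 1 =>
        rw [Nat.add_lt_add_iff_right, ih r]
        constructor
        · intro h i hi
          match i with
          | 0 => simp; omega
          | i + 1 =>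
            simp only [List.getD_cons_succ]
            exact h i (by omega)
        · intro h i hi
          have := h (i + 1) (by omega)
          simpa using this

theorem IsR.cnt {S : Shp} {L : List ℕ} (h : IsR S L) (j : ℕ) : Ck.cnt j L = S.a j := by
  have key : ∀ r, r < Ck.cnt j L ↔ r < S.a j := by
    intro r
    rw [cnt_spec, S.h]
    constructor
    · intro h1
      rw [h r]
      exact h1 r le_rfl
    · intro h1 i hi
      rw [← h i]
      exact h1.trans_le (S.anti_b hi)
  have h1 := key (Ck.cnt j L)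
  have h2 := key (S.a j)
  omega

theorem IsR.size {S : Shp} {L : List ℕ} (h : IsR S L) : lsum L = S.size := by
  rw [S.size_rows (max (S.a 0) L.length) (le_max_left _ _), ← sum_getD L _ (le_max_right _ _)]
  exact sum_congr rfl fun r _ => (h r).symm

theorem IsR.hd {S : Shp} {L : List ℕ} (h : IsR S L) : Ck.hd L = S.b 0 := by rw [h, hd_eq]

theorem IsR.hd1 {S : Shp} {L : List ℕ} (h : IsR S L) : Ck.hd (Ck.tl L) = S.b 1 := by
  rw [h, hd_tl]

theorem IsR.d4 {S : Shp} {L : List ℕ} (h : IsR S L) : IsR (Shp.drop 4 S) (Ck.d4 L) := by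
  intro r
  rw [d4_getD]
  exact h (r + 4)

theorem IsR.d8 {S : Shp} {L : List ℕ} (h : IsR S L) :
    IsR (Shp.drop 8 S) (Ck.d4 (Ck.d4 L)) := by
  intro r
  rw [d4_getD, d4_getD]
  exact h (r + 4 + 4)

theorem IsR.tl {S : Shp} {L : List ℕ} (h : IsR S L) : IsR (Shp.drop 1 S) (Ck.tl L) := by
  intro r
  rw [tl_getD]
  exact h (r + 1)

theorem IsR.tl2 {S : Shp} {L : List ℕ} (h : IsR S L) :
    IsR (Shp.drop 2 S) (Ck.tl (Ck.tl L)) := by
  intro r
  rw [tl_getD, tl_getD]
  exact h (r + 1 + 1)

theorem IsR.ssub {S : Shp} {L : List ℕ} (h : IsR S L) (m : ℕ) :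
    Ck.ssub m L = (Shp.drop m S.tr).size := by
  have h0 : (Shp.drop m S.tr).b 0 ≤ S.a 0 := by
    show S.a (0 + m) ≤ _
    exact S.anti (Nat.zero_le _)
  rw [(Shp.drop m S.tr).size_eq_sum (max (S.a 0) L.length) (h0.trans (le_max_left _ _)),
    ← sum_ssub m L _ (le_max_right _ _)]
  exact sum_congr rfl fun r _ => by
    show _ = S.b r - m
    rw [h r]

theorem IsR.usz {S T : Shp} {F L : List ℕ} (hS : IsR S F) (hT : IsR T L) :
    Ck.usz F L = (Shp.sup S T).size := by
  rw [(Shp.sup S T).size_rows (max ((Shp.sup S T).a 0) (max F.length L.length)) (le_max_left _ _),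
    ← sum_usz F L (max ((Shp.sup S T).a 0) (max F.length L.length))
      ((le_max_left _ _).trans (le_max_right _ _)) ((le_max_right _ _).trans (le_max_right _ _))]
  exact sum_congr rfl fun r _ => by
    show _ = max (S.b r) (T.b r)
    rw [hS r, hT r]

theorem IsR.uszs {S T : Shp} {F L : List ℕ} (m : ℕ) (hS : IsR S F) (hT : IsR T L) :
    Ck.uszs m L F = (Shp.sup S.tr (Shp.drop m T.tr)).size := by
  rw [(Shp.sup S.tr (Shp.drop m T.tr)).size_eq_sum
      (max ((Shp.sup S.tr (Shp.drop m T.tr)).b 0) (max F.length L.length)) (le_max_left _ _),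
    ← sum_uszs m L F (max ((Shp.sup S.tr (Shp.drop m T.tr)).b 0) (max F.length L.length))
      ((le_max_left _ _).trans (le_max_right _ _)) ((le_max_right _ _).trans (le_max_right _ _))]
  exact sum_congr rfl fun r _ => by
    show _ = max (S.b r) (T.b r - m)
    rw [hS r, hT r]

theorem isAnti_spec (L : List ℕ) : isAnti L = true → ∀ r, L.getD (r + 1) 0 ≤ L.getD r 0 := by
  induction L with
  | nil => intro _ r; simp
  | cons x L ih =>
    intro h r
    have e : isAnti (x :: L) = (Nat.ble (hd L) x && isAnti L) := and_rec _ _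
    rw [e, Bool.and_eq_true] at h
    match r with
    | 0 =>
      have := Nat.le_of_ble_eq_true h.1
      rw [hd_eq] at this
      simpa using this
    | r + 1 =>
      have := ih h.2 r
      simpa using this

/-- The shape with given rows. -/
def mkShp (L : List ℕ) (h : isAnti L = true) : Shp :=
  (Shp.ofAnti (fun r => L.getD r 0) (antitone_nat_of_succ_le (isAnti_spec L h)) L.length
    (by simp)).tr

theorem mkShp_isR (L : List ℕ) (h : isAnti L = true) : IsR (mkShp L h) L := fun _ => rfl

theorem leL_spec (F : List ℕ) : ∀ G, leL F G = true → ∀ r, F.getD r 0 ≤ G.getD r 0 := by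
  induction F with
  | nil => intro G _ r; simp
  | cons x F ih =>
    intro G h r
    have e : leL (x :: F) G = (Nat.ble x (hd G) && leL F (tl G)) := and_rec _ _
    rw [e, Bool.and_eq_true] at h
    match r with
    | 0 =>
      have := Nat.le_of_ble_eq_true h.1
      rw [hd_eq] at this
      simpa using this
    | r + 1 =>
      have := ih (tl G) h.2 r
      rw [tl_getD] at this
      simpa using this

theorem isT_spec {b : ℕ} {F : List ℕ} {f : Shp} (hf : IsR f F)
    (h : isT (b + 2) (2 * b + 3) F = true) : InnerOK b f := by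
  unfold isT at h
  rw [or_rec, and_rec, and_rec, Bool.or_eq_true, Bool.and_eq_true, Bool.and_eq_true, hf.hd, hf.hd1,
    hf.cnt, hf.cnt] at h
  rcases h with ⟨h1, h2⟩ | ⟨h1, h2⟩
  · exact Or.inl ⟨Nat.le_of_ble_eq_true h1, Nat.le_of_ble_eq_true h2⟩
  · exact Or.inr ⟨Nat.le_of_ble_eq_true h1, Nat.le_of_ble_eq_true h2⟩

theorem hvG_sound {b n t : ℕ} {L G F : List ℕ} {S : Shp} (hS : IsR S L) (hn : S.size = n)
    (h : hvG (b + 2) (2 * b + 3) n t L G F = true) : GoodHV b t S := by
  unfold hvG at h
  simp only [and_rec, Bool.and_eq_true] at h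
  obtain ⟨h1, h2, h3, h4, h5, h6, h7, h8, h9⟩ := h
  have hG := mkShp_isR G h5
  have hF := mkShp_isR F h8
  refine ⟨mkShp G h5, mkShp F h8, Shp.le_of_b fun r => ?_, Shp.le_of_b fun r => ?_,
    isT_spec hF h9, ?_, ?_, ?_, ?_⟩
  · rw [hG r, hF r]; exact leL_spec F G h6 r
  · rw [hG r, hS r]; exact leL_spec G L h7 r
  · rw [← hG.usz hS.tl, hn]; exact Nat.le_of_ble_eq_true h1
  · rw [← hG.usz hS.tl2, hn, Nat.two_mul]; exact Nat.le_of_ble_eq_true h2
  · rw [← hF.uszs 1 hG, ← hG.size]; exact Nat.le_of_ble_eq_true h3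
  · rw [← hF.uszs 2 hG, ← hG.size, Nat.two_mul]; exact Nat.le_of_ble_eq_true h4

theorem hvA_sound {b n t : ℕ} {L : List ℕ} {S : Shp} (hS : IsR S L) (hn : S.size = n)
    (Ts : List Tm) : hvA (b + 2) (2 * b + 3) n t L Ts = true → GoodHV b t S := by
  induction Ts with
  | nil => intro h; exact absurd (show false = true from h) (by decide)
  | cons τ Ts ih =>
    intro h
    have e : hvA (b + 2) (2 * b + 3) n t L (τ :: Ts) =
      (hvT (b + 2) (2 * b + 3) n t L τ || hvA (b + 2) (2 * b + 3) n t L Ts) := or_rec _ _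
    rw [e, Bool.or_eq_true] at h
    rcases h with h | h
    · exact hvG_sound hS hn h
    · exact ih h

theorem conjL_getD (L : List ℕ) (k : ℕ) : ∀ i r, (conjL L k i).getD r 0 =
    if r < k then cnt (i + r) L else 0 := by
  induction k with
  | zero => intro i r; simp [conjL]
  | succ k ih =>
    intro i r
    have e : conjL L (k + 1) i = cnt i L :: conjL L k (i + 1) := rfl
    rw [e]
    match r with
    | 0 => simp
    | r + 1 =>
      rw [List.getD_cons_succ, ih]
      by_cases h : r < k
      · rw [if_pos h, if_pos (by omega), show i + 1 + r = i + (r + 1) by omega]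
      · rw [if_neg h, if_neg (by omega)]

theorem IsR.conj {S : Shp} {L : List ℕ} (h : IsR S L) : IsR S.tr (conjL L (Ck.hd L) 0) := by
  intro r
  rw [conjL_getD, h.hd, Nat.zero_add, h.cnt]
  by_cases hr : r < S.b 0
  · rw [if_pos hr]; rfl
  · rw [if_neg hr]; exact S.a_eq_zero (by omega)

end Crest.Agent.SY
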