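import Crest.Agent.SY_E4

/-!
# S0298, bases (5): soundness of the kernel check, part 2 (enumeration)
-/

set_option autoImplicit false

namespace Crest.Agent.SY

open Finset Ck

theorem ppn_spec {b C8 C4 A8 A4 x8 y8 x4 y4 : ℕ}
    (h : ppn (b + 2) (2 * b + 3) C8 C4 A8 A4 x8 y8 x4 y4 = true) :
    ∃ f : ℕ, b + 2 ≤ f ∧ f ≤ 2 * b + 3 ∧ A8 + (f - x8) + (2 * b + 3 - f - y8) ≤ C8 ∧
      A4 + (f - x4) + (2 * b + 3 - f - y4) ≤ C4 := by
  unfold ppn at h
  simp only [and_rec, Bool.and_eq_true, Nat.ble_eq] at h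
  obtain ⟨h1, h2, h3, h4, h5, h6, h7, h8⟩ := h
  simp only [Nat.add_eq] at h3 h4 h5 h6 h7 h8
  refine ⟨max (b + 2) (max (2 * b + 3 - (y8 + (C8 - A8))) (2 * b + 3 - (y4 + (C4 - A4)))), ?_, ?_,
    ?_, ?_⟩ <;> omega

theorem row_target {b C8 C4 : ℕ} (S X8 X4 : Shp) (h8 : Shp.Le X8 S) (h4 : Shp.Le X4 S)
    (hXY : 2 * b + 3 ≤ S.b 0 + S.b 1)
    (hp : ppn (b + 2) (2 * b + 3) C8 C4 X8.size X4.size (X8.b 0) (X8.b 1) (X4.b 0) (X4.b 1) = true) :
    ∃ f : Shp, Shp.Le f S ∧ InnerOK b f ∧ (Shp.sup f X8).size ≤ C8 ∧ (Shp.sup f X4).size ≤ C4 := by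
  obtain ⟨f, f1, f2, f3, f4⟩ := ppn_spec hp
  have a1 := S.anti_b (Nat.zero_le 1)
  have b1 := h8.b 0
  have b2 := h8.b 1
  have b3 := h4.b 0
  have b4 := h4.b 1
  have c1 := X8.anti_b (Nat.zero_le 1)
  have c2 := X4.anti_b (Nat.zero_le 1)
  obtain ⟨e, e1, e2, e3, e4, e5, e6, e7⟩ : ∃ e : ℕ, b + 2 ≤ e ∧ e ≤ 2 * b + 3 ∧
      e ≤ S.b 0 ∧ 2 * b + 3 - e ≤ S.b 1 ∧ 2 * b + 3 - e ≤ e ∧
      X8.size + (e - X8.b 0) + (2 * b + 3 - e - X8.b 1) ≤ C8 ∧
      X4.size + (e - X4.b 0) + (2 * b + 3 - e - X4.b 1) ≤ C4 := by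
    by_cases k1 : S.b 1 < 2 * b + 3 - f
    · exact ⟨2 * b + 3 - S.b 1, by omega, by omega, by omega, by omega, by omega, by omega, by omega⟩
    · by_cases k2 : S.b 0 < f
      · exact ⟨S.b 0, by omega, by omega, by omega, by omega, by omega, by omega, by omega⟩
      · exact ⟨f, by omega, by omega, by omega, by omega, by omega, by omega, by omega⟩
  refine ⟨Shp.two e (2 * b + 3 - e) e5, Shp.le_of_b fun r => ?_, Or.inl ⟨?_, ?_⟩, ?_, ?_⟩
  · match r with
    | 0 => exact e3
    | 1 => exact e4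
    | r + 2 => exact Nat.zero_le _
  · exact e1
  · show 2 * b + 3 ≤ e + (2 * b + 3 - e)
    omega
  · rw [Shp.size_sup_two]; exact e6
  · rw [Shp.size_sup_two]; exact e7

theorem col_target {b C8 C4 : ℕ} (S X8 X4 : Shp) (h8 : Shp.Le X8 S) (h4 : Shp.Le X4 S)
    (hXY : 2 * b + 3 ≤ S.a 0 + S.a 1)
    (hp : ppn (b + 2) (2 * b + 3) C8 C4 X8.size X4.size (X8.a 0) (X8.a 1) (X4.a 0) (X4.a 1) = true) :
    ∃ f : Shp, Shp.Le f S ∧ InnerOK b f ∧ (Shp.sup f X8).size ≤ C8 ∧ (Shp.sup f X4).size ≤ C4 := by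
  obtain ⟨f, e1, e2, e3, e4⟩ := row_target (b := b) (C8 := C8) (C4 := C4) S.tr X8.tr X4.tr h8.tr h4.tr
    hXY (by rw [Shp.size_tr, Shp.size_tr]; exact hp)
  refine ⟨f.tr, e1.tr, e2.tr, ?_, ?_⟩
  · rw [← Shp.size_tr, Shp.sup_tr]; exact e3
  · rw [← Shp.size_tr, Shp.sup_tr]; exact e4

/-- the parameters -/
structure Par (b n t C8 C4 : ℕ) : Prop where
  c8 : C8 + (4 * t - 6) ≤ n
  c4 : C4 + (2 * t - 1) ≤ n

theorem goodPP_row {b n t C8 C4 : ℕ} (hP : Par b n t C8 C4) (S : Shp) (hn : S.size = n)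
    (hXY : 2 * b + 3 ≤ S.b 0 + S.b 1)
    (hp : ppn (b + 2) (2 * b + 3) C8 C4 (Shp.drop 8 S).size (Shp.drop 4 S).size (S.b 8) (S.b 9)
      (S.b 4) (S.b 5) = true) : GoodPP b t S := by
  obtain ⟨f, e1, e2, e3, e4⟩ := row_target S (Shp.drop 8 S) (Shp.drop 4 S) (Shp.drop_le _ _)
    (Shp.drop_le _ _) hXY (by
      show ppn _ _ _ _ _ _ (S.b (0 + 8)) (S.b (1 + 8)) (S.b (0 + 4)) (S.b (1 + 4)) = true
      exact hp)
  have h1 := hP.c8
  have h2 := hP.c4
  exact ⟨f, e1, e2, by omega, by omega⟩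

theorem goodPP_col {b n t C8 C4 : ℕ} (hP : Par b n t C8 C4) (S : Shp) (hn : S.size = n)
    (hXY : 2 * b + 3 ≤ S.a 0 + S.a 1)
    (hp : ppn (b + 2) (2 * b + 3) C8 C4 (Shp.drop 8 S).size (Shp.drop 4 S).size (S.a 0 - 8)
      (S.a 1 - 8) (S.a 0 - 4) (S.a 1 - 4) = true) : GoodPP b t S := by
  obtain ⟨f, e1, e2, e3, e4⟩ := col_target S (Shp.drop 8 S) (Shp.drop 4 S) (Shp.drop_le _ _)
    (Shp.drop_le _ _) hXY hp
  have h1 := hP.c8
  have h2 := hP.c4
  exact ⟨f, e1, e2, by omega, by omega⟩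

theorem slow_sound {b n t C8 C4 : ℕ} (hP : Par b n t C8 C4) {L : List ℕ} {S : Shp} (hS : IsR S L)
    (hn : S.size = n) (Ts : List Tm)
    (h : slow (b + 2) (2 * b + 3) n t C8 C4 Ts (ssub 8 L) (ssub 4 L) (cnt 0 L) (cnt 1 L) L = true) :
    Good b t S := by
  unfold slow at h
  simp only [and_rec, or_rec, Bool.or_eq_true, Bool.and_eq_true, Nat.ble_eq, Nat.add_eq,
    Nat.sub_eq] at h
  have hn' : S.tr.size = n := by rw [Shp.size_tr]; exact hn
  rw [hS.ssub 8, hS.ssub 4, hS.d8.size, hS.d4.size, hS.hd, hS.hd1, hS.d8.hd, hS.d8.hd1, hS.d4.hd,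
    hS.d4.hd1, hS.cnt, hS.cnt, hS.cnt, hS.cnt, hS.cnt, hS.cnt] at h
  rcases h with ⟨h1, h2 | h2⟩ | ⟨h1, h2⟩ | h1 | h1
  · exact Or.inl (Or.inr (goodPP_row hP S.tr hn' h1 h2))
  · exact Or.inl (Or.inl (goodPP_col hP S hn h1 h2))
  · exact Or.inl (Or.inl (goodPP_row hP S hn h1 h2))
  · exact Or.inr (Or.inl (hvA_sound hS hn Ts h1))
  · refine Or.inr (Or.inr (hvA_sound (L := conjL L (S.b 0) 0) ?_ hn' Ts h1))
    have := hS.conj
    rw [hS.hd] at this
    exact this

theorem ssub_append (m : ℕ) (B K : List ℕ) : ssub m (B ++ K) = ssub m B + ssub m K := by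
  induction B with
  | nil => simp [ssub]
  | cons x B ih =>
    have e1 : ∀ L, ssub m (x :: L) = (x - m) + ssub m L := fun _ => rfl
    rw [List.cons_append, e1, e1, ih, Nat.add_assoc]

theorem allB_sound {b n t C8 C4 : ℕ} (Ts : List Tm) (K : List ℕ) (Bs : List (List ℕ)) :
    allB (b + 2) (2 * b + 3) n t C8 C4 Ts K (ssub 8 K) (ssub 4 K) Bs = true → ∀ B ∈ Bs,
    slow (b + 2) (2 * b + 3) n t C8 C4 Ts (ssub 8 (B ++ K)) (ssub 4 (B ++ K)) (cnt 0 (B ++ K))
      (cnt 1 (B ++ K)) (B ++ K) = true := by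
  induction Bs with
  | nil => intro _ B hB; simp at hB
  | cons B0 Bs ih =>
    intro h B hB
    have e : allB (b + 2) (2 * b + 3) n t C8 C4 Ts K (ssub 8 K) (ssub 4 K) (B0 :: Bs) =
      (slow (b + 2) (2 * b + 3) n t C8 C4 Ts (Nat.add (ssub 8 B0) (ssub 8 K))
        (Nat.add (ssub 4 B0) (ssub 4 K)) (cnt 0 (B0 ++ K)) (cnt 1 (B0 ++ K)) (B0 ++ K) &&
        allB (b + 2) (2 * b + 3) n t C8 C4 Ts K (ssub 8 K) (ssub 4 K) Bs) := and_rec _ _
    rw [e, Bool.and_eq_true] at h
    rcases List.mem_cons.1 hB with rfl | hB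
    · rw [ssub_append, ssub_append]; exact h.1
    · exact ih h.2 B hB

theorem allN_spec (p : ℕ → Bool) (k : ℕ) : ∀ i, allN p k i = true → ∀ x, i ≤ x → x < i + k →
    p x = true := by
  induction k with
  | zero => intro i _ x h1 h2; omega
  | succ k ih =>
    intro i h x h1 h2
    have e : allN p (k + 1) i = (p i && allN p k (i + 1)) := and_rec _ _
    rw [e, Bool.and_eq_true] at h
    rcases Nat.eq_or_lt_of_le h1 with rfl | h3
    · exact h.1
    · exact ih (i + 1) h.2 x h3 (by omega)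

/-- membership in a fold -/
theorem foldN_mem {α : Type} (f : ℕ → List α → List α) (q : ℕ → α → Prop)
    (hmono : ∀ i l y, y ∈ l → y ∈ f i l) (hq : ∀ i l y, q i y → y ∈ f i l) (k : ℕ) :
    ∀ i l, (∀ y ∈ l, y ∈ foldN f k i l) ∧ ∀ x y, i ≤ x → x < i + k → q x y → y ∈ foldN f k i l := by
  induction k with
  | zero => intro i l; exact ⟨fun y hy => hy, fun x y h1 h2 => by omega⟩
  | succ k ih =>
    intro i l
    have e : foldN f (k + 1) i l = f i (foldN f k (i + 1) l) := rfl
    rw [e]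
    refine ⟨fun y hy => hmono _ _ _ ((ih (i + 1) l).1 y hy), fun x y h1 h2 h3 => ?_⟩
    rcases Nat.eq_or_lt_of_le h1 with rfl | h4
    · exact hq _ _ _ h3
    · exact hmono _ _ _ ((ih (i + 1) l).2 x y h4 (by omega) h3)

theorem failB_spec (b2 m C8 C4 k8 k4 k0 rem b0 b1 b2' b3 : ℕ) (h3 : k0 ≤ b3) (h2 : b3 ≤ b2')
    (h1 : b2' ≤ b1) (h0 : b1 ≤ b0) (hs : b0 + b1 + b2' + b3 = rem)
    (hq : ¬ quick b2 m C8 C4 k8 k4 b0 b1 b2' b3 = true) :
    [b0, b1, b2', b3] ∈ failB b2 m C8 C4 k8 k4 k0 rem := by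
  have hb0 : Nat.sub (Nat.sub (Nat.sub rem b1) b2') b3 = b0 := by
    simp only [Nat.sub_eq]; omega
  -- innermost
  have in1 : ∀ (c3 c2 : ℕ), (∀ i (l : List (List ℕ)) y, y ∈ l → y ∈
      (fun c1 acc => @Bool.rec (fun _ => List (List ℕ))
      ([Nat.sub (Nat.sub (Nat.sub rem c1) c2) c3, c1, c2, c3] :: acc) acc
      (quick b2 m C8 C4 k8 k4 (Nat.sub (Nat.sub (Nat.sub rem c1) c2) c3) c1 c2 c3)) i l) := by
    intro c3 c2 i l y hy
    show y ∈ @Bool.rec (fun _ => List (List ℕ)) _ _ _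
    cases quick b2 m C8 C4 k8 k4 (Nat.sub (Nat.sub (Nat.sub rem i) c2) c3) i c2 c3
    · exact List.mem_cons_of_mem _ hy
    · exact hy
  have in2 : (∀ i (l : List (List ℕ)) y, (i = b1 ∧ y = [b0, b1, b2', b3]) → y ∈
      (fun c1 acc => @Bool.rec (fun _ => List (List ℕ))
      ([Nat.sub (Nat.sub (Nat.sub rem c1) b2') b3, c1, b2', b3] :: acc) acc
      (quick b2 m C8 C4 k8 k4 (Nat.sub (Nat.sub (Nat.sub rem c1) b2') b3) c1 b2' b3)) i l) := by
    rintro i l y ⟨rfl, rfl⟩
    show _ ∈ @Bool.rec (fun _ => List (List ℕ)) _ _ _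
    rw [hb0]
    rw [Bool.not_eq_true] at hq
    rw [hq]
    exact List.mem_cons_self
  have f1 := foldN_mem _ _ (in1 b3 b2') in2
  have f1' := fun c3 c2 => foldN_mem _ (fun _ _ => False) (in1 c3 c2) (fun _ _ _ h => h.elim)
  have f2 := foldN_mem (fun c2 => foldN (fun c1 acc => @Bool.rec (fun _ => List (List ℕ))
      ([Nat.sub (Nat.sub (Nat.sub rem c1) c2) b3, c1, c2, b3] :: acc) acc
      (quick b2 m C8 C4 k8 k4 (Nat.sub (Nat.sub (Nat.sub rem c1) c2) b3) c1 c2 b3))
      (Nat.sub (Nat.succ (Nat.div (Nat.sub (Nat.sub rem b3) c2) 2)) c2) c2)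
      (fun i y => i = b2' ∧ y = [b0, b1, b2', b3])
      (fun i l y hy => (f1' b3 i _ _ _).1 y hy)
      (by
        rintro i l y ⟨rfl, rfl⟩
        refine (f1 _ _ _).2 b1 _ h1 ?_ ⟨rfl, rfl⟩
        show b1 < i + (((rem - b3 - i) / 2).succ - i)
        omega)
  have f2' := fun c3 => foldN_mem (fun c2 => foldN (fun c1 acc => @Bool.rec (fun _ => List (List ℕ))
      ([Nat.sub (Nat.sub (Nat.sub rem c1) c2) c3, c1, c2, c3] :: acc) acc
      (quick b2 m C8 C4 k8 k4 (Nat.sub (Nat.sub (Nat.sub rem c1) c2) c3) c1 c2 c3))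
      (Nat.sub (Nat.succ (Nat.div (Nat.sub (Nat.sub rem c3) c2) 2)) c2) c2)
      (fun _ _ => False) (fun i l y hy => (f1' c3 i _ _ _).1 y hy) (fun _ _ _ h => h.elim)
  have f3 := foldN_mem (fun c3 => foldN (fun c2 => foldN (fun c1 acc =>
      @Bool.rec (fun _ => List (List ℕ))
      ([Nat.sub (Nat.sub (Nat.sub rem c1) c2) c3, c1, c2, c3] :: acc) acc
      (quick b2 m C8 C4 k8 k4 (Nat.sub (Nat.sub (Nat.sub rem c1) c2) c3) c1 c2 c3))
      (Nat.sub (Nat.succ (Nat.div (Nat.sub (Nat.sub rem c3) c2) 2)) c2) c2)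
      (Nat.sub (Nat.succ (Nat.div (Nat.sub rem c3) 3)) c3) c3)
      (fun i y => i = b3 ∧ y = [b0, b1, b2', b3])
      (fun i l y hy => (f2' i _ _ _).1 y hy)
      (by
        rintro i l y ⟨rfl, rfl⟩
        refine (f2 _ _ _).2 b2' _ h2 ?_ ⟨rfl, rfl⟩
        show b2' < i + (((rem - i) / 3).succ - i)
        omega)
  unfold failB
  refine (f3 _ _ _).2 b3 _ h3 ?_ ⟨rfl, rfl⟩
  show b3 < k0 + ((rem / 4).succ - k0)
  omega

theorem force_eq (α : Type) (x : ℕ) (f : ℕ → α) : force α x f = f x := by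
  cases x <;> rfl

theorem quick_sound {b n t C8 C4 : ℕ} (hP : Par b n t C8 C4) {K : List ℕ} {S : Shp}
    {b0 b1 b2 b3 : ℕ} (hS : IsR S ([b0, b1, b2, b3] ++ K)) (hn : S.size = n)
    (h : quick (b + 2) (2 * b + 3) C8 C4 (ssub 8 K) (ssub 4 K) b0 b1 b2 b3 = true) :
    Good b t S := by
  unfold quick at h
  rw [and_rec, Bool.and_eq_true, Nat.ble_eq] at h
  obtain ⟨h1, h2⟩ := h
  have e0 : S.b 0 = b0 := hS 0
  have e1 : S.b 1 = b1 := hS 1
  have e8 := hS.ssub 8
  have e4 := hS.ssub 4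
  have hn' : S.tr.size = n := by rw [Shp.size_tr]; exact hn
  refine Or.inl (Or.inr (goodPP_col hP S.tr hn' ?_ ?_))
  · show 2 * b + 3 ≤ S.b 0 + S.b 1
    rw [e0, e1]
    exact h1
  · rw [← e8, ← e4]
    show ppn _ _ _ _ _ _ (S.b 0 - 8) (S.b 1 - 8) (S.b 0 - 4) (S.b 1 - 4) = true
    rw [e0, e1]
    exact h2

theorem ppK_sound {b n t C8 C4 : ℕ} (hP : Par b n t C8 C4) {K : List ℕ} {S : Shp}
    (hK : IsR (Shp.drop 4 S) K) (hl : len K = (Shp.drop 4 S).a 0) (hn : S.size = n)
    (h : ppK (b + 2) (2 * b + 3) n C8 C4 K (lsum (d4 K)) (lsum K) = true) :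
    Good b t S := by
  have hK8 : IsR (Shp.drop 8 S) (d4 K) := by
    intro r
    have := hK.d4 r
    exact this
  have hc : cnt 1 K = S.a 1 - 4 := hK.cnt 1
  have hl' : len K = S.a 0 - 4 := hl
  unfold ppK at h
  have hrec : ∀ (x y z : Bool), (@Bool.rec (fun _ => Bool) x y z) = true →
      (z = true ∧ y = true) ∨ (z = false ∧ x = true) := by
    intro x y z
    cases z
    · exact fun h => Or.inr ⟨rfl, h⟩
    · exact fun h => Or.inl ⟨rfl, h⟩
  rw [or_rec, Bool.or_eq_true] at h
  rcases h with h | h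
  · rw [and_rec, Bool.and_eq_true, Nat.ble_eq, hK.hd, hK.hd1, hK8.hd, hK8.hd1, hK8.size,
      hK.size] at h
    refine Or.inl (Or.inl (goodPP_row hP S hn ?_ h.2))
    have h1 := h.1
    -- the first two rows contain at least half of the cells of the first four rows
    have hs : S.size = (Shp.drop 4 S).size + (S.b 0 + S.b 1 + S.b 2 + S.b 3) := by
      have g1 := S.size_rows (S.a 0 + 4) (by omega)
      have g2 := (Shp.drop 4 S).size_rows (S.a 0) (Nat.sub_le _ _)
      rw [add_comm (S.a 0) 4, sum_range_add] at g1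
      rw [g1, g2]
      have g3 : ∑ x ∈ range 4, S.b x = S.b 0 + S.b 1 + S.b 2 + S.b 3 := by
        simp [sum_range_succ]
      rw [g3, add_comm]
      congr 1
      exact sum_congr rfl fun r _ => by
        show S.b (4 + r) = S.b (r + 4)
        rw [add_comm]
    have a1 := S.anti_b (show 1 ≤ 2 by omega)
    have a2 := S.anti_b (show 0 ≤ 3 by omega)
    have a3 := S.anti_b (show 1 ≤ 3 by omega)
    have a4 := S.anti_b (show 0 ≤ 2 by omega)
    simp only [Nat.add_eq] at h1
    omega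
  · rcases hrec _ _ _ h with ⟨z, h⟩ | ⟨z, h⟩
    · rw [and_rec, Bool.and_eq_true, Nat.ble_eq, hl', hc, hK8.size, hK.size] at h
      rw [Nat.ble_eq, hc] at z
      simp only [Nat.add_eq, Nat.sub_eq] at h
      have a1 := S.anti (Nat.zero_le 1)
      refine Or.inl (Or.inl (goodPP_col hP S hn (by omega) ?_))
      have h2 := h.2
      rw [show S.a 0 - 8 = S.a 0 - 4 - 4 by omega, show S.a 1 - 8 = S.a 1 - 4 - 4 by omega]
      exact h2
    · rw [and_rec, Bool.and_eq_true, and_rec, Bool.and_eq_true, Nat.ble_eq, Nat.ble_eq, hl',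
        hK8.size, hK.size] at h
      have z' : ¬ (1 ≤ cnt 1 K) := by
        intro hh
        rw [Nat.ble_eq_true_of_le hh] at z
        exact absurd z (by decide)
      rw [hc] at z'
      simp only [Nat.add_eq, Nat.sub_eq] at h
      refine Or.inl (Or.inl (goodPP_col hP S hn (by omega) ?_))
      have h2 := h.2.2
      rw [show S.a 0 - 8 = S.a 0 - 4 - 4 by omega, show S.a 1 - 8 = 0 by omega,
        show S.a 1 - 4 = 0 by omega]
      exact h2

theorem node_sound {b n t C8 C4 : ℕ} (hP : Par b n t C8 C4) (Ts : List Tm) {K : List ℕ} {S : Shp}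
    (hK : IsR (Shp.drop 4 S) K) (hl : len K = (Shp.drop 4 S).a 0) (hn : S.size = n) {rem : ℕ}
    (hr : rem + lsum K = n)
    (h : node (b + 2) (2 * b + 3) n t C8 C4 Ts K rem = true) : Good b t S := by
  unfold node at h
  rw [or_rec, Bool.or_eq_true, force_eq, force_eq, force_eq, force_eq] at h
  rcases h with h | h
  · rw [show Nat.sub n rem = lsum K by simp only [Nat.sub_eq]; omega] at h
    exact ppK_sound hP hK hl hn h
  · have hS : IsR S ([S.b 0, S.b 1, S.b 2, S.b 3] ++ K) := by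
      intro r
      match r with
      | 0 => rfl
      | 1 => rfl
      | 2 => rfl
      | 3 => rfl
      | r + 4 =>
        have := hK r
        exact this
    have hs := hS.size
    have e1 : lsum ([S.b 0, S.b 1, S.b 2, S.b 3] ++ K) =
        S.b 0 + (S.b 1 + (S.b 2 + (S.b 3 + lsum K))) := rfl
    rw [e1, hn] at hs
    by_cases hq : quick (b + 2) (2 * b + 3) C8 C4 (ssub 8 K) (ssub 4 K) (S.b 0) (S.b 1) (S.b 2)
        (S.b 3) = true
    · exact quick_sound hP hS hn hq
    · have hmem := failB_spec (b + 2) (2 * b + 3) C8 C4 (ssub 8 K) (ssub 4 K) (hd K) rem (S.b 0)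
        (S.b 1) (S.b 2) (S.b 3) (by rw [hK.hd]; exact S.anti_b (by omega)) (S.anti_b (by omega))
        (S.anti_b (by omega)) (S.anti_b (by omega)) (by omega) hq
      exact slow_sound hP hS hn Ts (allB_sound Ts K _ h _ hmem)

theorem mn_eq (x y : ℕ) : mn x y = min x y := by
  unfold mn
  by_cases h : x ≤ y
  · rw [Nat.ble_eq_true_of_le h, min_eq_left h]
  · have : Nat.ble x y = false := by
      rw [Bool.eq_false_iff]
      intro h2
      exact h (Nat.le_of_ble_eq_true h2)
    rw [this, min_eq_right (by omega)]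

theorem snoc_len (K : List ℕ) (y : ℕ) : len (snoc K y) = len K + 1 := by
  induction K with
  | nil => rfl
  | cons x K ih =>
    show Nat.succ (len (snoc K y)) = Nat.succ (len K) + 1
    rw [ih]

theorem snoc_lsum (K : List ℕ) (y : ℕ) : lsum (snoc K y) = lsum K + y := by
  induction K with
  | nil => show y + 0 = 0 + y; omega
  | cons x K ih =>
    show x + lsum (snoc K y) = x + lsum K + y
    rw [ih, Nat.add_assoc]

theorem snoc_getD (K : List ℕ) (y : ℕ) : ∀ r, (snoc K y).getD r 0 =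
    if r = len K then y else K.getD r 0 := by
  induction K with
  | nil =>
    intro r
    match r with
    | 0 => rfl
    | r + 1 =>
      rw [if_neg (show ¬ (r + 1 = len []) from by show ¬ (r + 1 = 0); omega)]
      rfl
  | cons x K ih =>
    intro r
    match r with
    | 0 =>
      rw [if_neg (show ¬ (0 = len (x :: K)) from by show ¬ (0 = Nat.succ (len K)); omega)]
      rfl
    | r + 1 =>
      show (snoc K y).getD r 0 = _
      rw [ih r]
      by_cases h : r = len K
      · rw [if_pos h, if_pos (show r + 1 = len (x :: K) from by show r + 1 = Nat.succ (len K); omega)]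
      · rw [if_neg h, if_neg (show ¬ (r + 1 = len (x :: K)) from by
          show ¬ (r + 1 = Nat.succ (len K)); omega)]
        rfl

theorem getD_len (K : List ℕ) : ∀ r, len K ≤ r → K.getD r 0 = 0 := by
  induction K with
  | nil => intro r _; simp
  | cons x K ih =>
    intro r hr
    have e : len (x :: K) = len K + 1 := rfl
    match r with
    | 0 => omega
    | r + 1 =>
      rw [List.getD_cons_succ]
      exact ih r (by omega)

theorem enum_sound {b n t C8 C4 : ℕ} (hP : Par b n t C8 C4) (Ts : List Tm) {S : Shp}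
    (hn : S.size = n) (k : ℕ) : ∀ (K : List ℕ) (x rem : ℕ), 1 ≤ len K →
    (∀ r < len K, S.b (r + 4) = K.getD r 0) → 0 < S.b (len K - 1 + 4) →
    x = S.b (len K - 1 + 4) → rem + lsum K = n →
    enum (b + 2) (2 * b + 3) n t C8 C4 Ts k K x rem = true → Good b t S := by
  induction k with
  | zero =>
    intro K x rem _ _ _ _ _ h
    exact absurd (show false = true from h) (by decide)
  | succ k ih =>
    intro K x rem hK1 hK hpos hx hr h
    have e : enum (b + 2) (2 * b + 3) n t C8 C4 Ts (k + 1) K x rem =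
      (node (b + 2) (2 * b + 3) n t C8 C4 Ts K rem &&
      allN (fun y => enum (b + 2) (2 * b + 3) n t C8 C4 Ts k (snoc K y) y (Nat.sub rem y))
        (mn x (Nat.sub rem (Nat.mul 4 (hd K)))) 1) := and_rec _ _
    rw [e, Bool.and_eq_true] at h
    by_cases h0 : S.b (len K + 4) = 0
    · -- exact
      have hKR : IsR (Shp.drop 4 S) K := by
        intro r
        show S.b (r + 4) = _
        by_cases hrl : r < len K
        · exact hK r hrl
        · rw [getD_len K r (by omega)]
          have := S.anti_b (show len K + 4 ≤ r + 4 by omega)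
          omega
      have hl : len K = (Shp.drop 4 S).a 0 := by
        show len K = S.a 0 - 4
        have h1 := (S.h 0 (len K - 1 + 4)).2 hpos
        have h2 : ¬ (len K + 4 < S.a 0) := by
          intro hh
          have := (S.h 0 (len K + 4)).1 hh
          omega
        omega
      exact node_sound hP Ts hKR hl hn hr h.1
    · -- one more row
      have hy := allN_spec _ _ _ h.2 (S.b (len K + 4)) (by omega) (by
        rw [mn_eq, hx]
        have h1 := S.anti_b (show len K - 1 + 4 ≤ len K + 4 by omega)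
        have h2 : S.b (len K + 4) + 4 * hd K ≤ rem := by
          -- count cells
          have hd0 : hd K = S.b 4 := by rw [hd_eq, ← hK 0 (by omega)]
          have g1 := S.size_rows (4 + (len K + (1 + S.a 0))) (by omega)
          rw [sum_range_add, sum_range_add, sum_range_add] at g1
          have g2 : ∑ x ∈ range (len K), S.b (4 + x) = lsum K := by
            have hll : K.length = len K := by
              clear * -
              induction K with
              | nil => rfl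
              | cons x K ih => show K.length + 1 = Nat.succ (len K); rw [ih]
            rw [← sum_getD K (len K) hll.le]
            refine sum_congr rfl fun r hr => ?_
            rw [mem_range] at hr
            rw [add_comm 4 r]
            exact hK r hr
          have g3 : ∑ x ∈ range 4, S.b x = S.b 0 + S.b 1 + S.b 2 + S.b 3 := by
            simp [sum_range_succ]
          have g4 : ∑ x ∈ range 1, S.b (4 + (len K + x)) = S.b (len K + 4) := by
            simp [add_comm]
          rw [g2, g3, g4, hn] at g1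
          have a0 := S.anti_b (show 0 ≤ 4 by omega)
          have a1 := S.anti_b (show 1 ≤ 4 by omega)
          have a2 := S.anti_b (show 2 ≤ 4 by omega)
          have a3 := S.anti_b (show 3 ≤ 4 by omega)
          omega
        have h3 : Nat.sub rem (Nat.mul 4 (hd K)) = rem - 4 * hd K := rfl
        rw [h3]
        omega)
      refine ih (snoc K (S.b (len K + 4))) _ _ (by rw [snoc_len]; omega) ?_ ?_ ?_ ?_ hy
      · intro r hrl
        rw [snoc_len] at hrl
        rw [snoc_getD]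
        by_cases hr' : r = len K
        · rw [if_pos hr', hr']
        · rw [if_neg hr']
          exact hK r (by omega)
      · rw [snoc_len]
        show 0 < S.b (len K + 1 - 1 + 4)
        rw [Nat.add_sub_cancel]
        omega
      · rw [snoc_len]
        show _ = S.b (len K + 1 - 1 + 4)
        rw [Nat.add_sub_cancel]
      · rw [snoc_lsum]
        show rem - S.b (len K + 4) + _ = _
        have hle : S.b (len K + 4) ≤ rem := by
          have g1 := S.size_rows (4 + (len K + (1 + S.a 0))) (by omega)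
          rw [sum_range_add, sum_range_add, sum_range_add] at g1
          have g2 : ∑ x ∈ range (len K), S.b (4 + x) = lsum K := by
            have hll : K.length = len K := by
              clear * -
              induction K with
              | nil => rfl
              | cons x K ih => show K.length + 1 = Nat.succ (len K); rw [ih]
            rw [← sum_getD K (len K) hll.le]
            refine sum_congr rfl fun r hr => ?_
            rw [mem_range] at hr
            rw [add_comm 4 r]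
            exact hK r hr
          have g4 : ∑ x ∈ range 1, S.b (4 + (len K + x)) = S.b (len K + 4) := by
            simp [add_comm]
          rw [g2, g4, hn] at g1
          omega
        omega

theorem check_sound {b n t C8 C4 : ℕ} (hP : Par b n t C8 C4) (Ts : List Tm)
    (h0 : node (b + 2) (2 * b + 3) n t C8 C4 Ts [] n = true)
    (hy : ∀ y, 1 ≤ y → y ≤ n / 5 → checkY (b + 2) (2 * b + 3) n t C8 C4 Ts y = true)
    {S : Shp} (hn : S.size = n) : Good b t S := by
  by_cases hb : S.b 4 = 0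
  · refine node_sound hP Ts (K := []) ?_ ?_ hn (by simp [lsum]) h0
    · intro r
      show S.b (r + 4) = _
      have := S.anti_b (show 4 ≤ r + 4 by omega)
      simp
      omega
    · show 0 = S.a 0 - 4
      have : ¬ (4 < S.a 0) := fun hh => by
        have := (S.h 0 4).1 hh
        omega
      omega
  · have g1 := S.size_rows (5 + S.a 0) (by omega)
    rw [sum_range_add] at g1
    have g3 : ∑ x ∈ range 5, S.b x = S.b 0 + S.b 1 + S.b 2 + S.b 3 + S.b 4 := by
      simp [sum_range_succ]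
    rw [g3, hn] at g1
    have a0 := S.anti_b (show 0 ≤ 4 by omega)
    have a1 := S.anti_b (show 1 ≤ 4 by omega)
    have a2 := S.anti_b (show 2 ≤ 4 by omega)
    have a3 := S.anti_b (show 3 ≤ 4 by omega)
    have h := hy (S.b 4) (by omega) (by omega)
    refine enum_sound hP Ts hn n [S.b 4] (S.b 4) (n - S.b 4) (by show 1 ≤ 1; omega) ?_ ?_ ?_ ?_ h
    · intro r hr
      have hr' : r < 1 := hr
      obtain rfl : r = 0 := by omega
      rfl
    · show 0 < S.b (1 - 1 + 4)
      simp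
      omega
    · rfl
    · show n - S.b 4 + (S.b 4 + 0) = n
      omega

end Crest.Agent.SY
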