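import Crest.Agent.SY_E5

/-!
# S0298, bases (6): kernel computations
-/

set_option autoImplicit false
set_option maxRecDepth 100000

namespace Crest.Agent.SY

open Ck

/-- from the check to `Full` -/
theorem full_of_check (w b a n C8 C4 : ℕ) (Ts : List Tm) (hwb : w ≤ b) (hba : b + 2 ≤ a)
    (hn : 2 * n = w * (w + 1) + 2 * (2 * b + 3) + 2 * (4 * a + 10)) (hP : Par b n (a + 4) C8 C4)
    (h0 : node (b + 2) (2 * b + 3) n (a + 4) C8 C4 Ts [] n = true)
    (hy : ∀ y, 1 ≤ y → y ≤ n / 5 → checkY (b + 2) (2 * b + 3) n (a + 4) C8 C4 Ts y = true) :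
    Full n (a + 4) :=
  full_of_good w b a hwb hba (fun _ hS => check_sound hP Ts h0 hy (by omega)) n hn

/-- templates -/
def Ts27 : List Tm := [⟨[2,1,1,1], [0,0,0,0], 1, 1⟩]

theorem node27 : node (1 + 2) (2 * 1 + 3) 27 7 5 14 Ts27 [] 27 = true := by decide +kernel

theorem ys27 : allN (checkY (1 + 2) (2 * 1 + 3) 27 7 5 14 Ts27) 5 1 = true := by decide +kernel

/-- `n = 27` -/
theorem full27 : Full 27 7 :=
  full_of_check 0 1 3 27 5 14 Ts27 (by omega) (by omega) (by omega) ⟨by omega, by omega⟩ node27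
    (fun y h1 h2 => allN_spec _ _ _ ys27 y h1 (by omega))

/-- templates -/
def Ts31 : List Tm := [⟨[4,1], [0,1,1,1], 1, 2⟩, ⟨[2,1,1,1], [0,1,0,0], 1, 1⟩, ⟨[4,1], [0,0,1,1], 1, 1⟩]

theorem node31 : node (1 + 2) (2 * 1 + 3) 31 8 5 16 Ts31 [] 31 = true := by decide +kernel

theorem ys31 : allN (checkY (1 + 2) (2 * 1 + 3) 31 8 5 16 Ts31) 6 1 = true := by decide +kernel

/-- `n = 31` -/
theorem full31 : Full 31 8 :=
  full_of_check 0 1 4 31 5 16 Ts31 (by omega) (by omega) (by omega) ⟨by omega, by omega⟩ node31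
    (fun y h1 h2 => allN_spec _ _ _ ys31 y h1 (by omega))

/-- templates -/
def Ts33 : List Tm := [⟨[2,1,1,1,1,1], [1,0,0,0], 1, 0⟩, ⟨[2,1,1,1,1,1], [0,0,0,0], 1, 0⟩]

theorem node33 : node (2 + 2) (2 * 2 + 3) 33 8 7 18 Ts33 [] 33 = true := by decide +kernel

theorem ys33 : allN (checkY (2 + 2) (2 * 2 + 3) 33 8 7 18 Ts33) 6 1 = true := by decide +kernel

/-- `n = 33` -/
theorem full33 : Full 33 8 :=
  full_of_check 0 2 4 33 7 18 Ts33 (by omega) (by omega) (by omega) ⟨by omega, by omega⟩ node33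
    (fun y h1 h2 => allN_spec _ _ _ ys33 y h1 (by omega))

/-- templates -/
def Ts34 : List Tm := [⟨[2,1,1,1,1,1], [0,0,0,0], 1, 0⟩]

theorem node34 : node (2 + 2) (2 * 2 + 3) 34 8 8 19 Ts34 [] 34 = true := by decide +kernel

theorem ys34 : allN (checkY (2 + 2) (2 * 2 + 3) 34 8 8 19 Ts34) 6 1 = true := by decide +kernel

/-- `n = 34` -/
theorem full34 : Full 34 8 :=
  full_of_check 1 2 4 34 8 19 Ts34 (by omega) (by omega) (by omega) ⟨by omega, by omega⟩ node34
    (fun y h1 h2 => allN_spec _ _ _ ys34 y h1 (by omega))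

end Crest.Agent.SY
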