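import Crest.Agent.SY_E6

/-!
# S0298, bases (7): kernel computations
-/

set_option autoImplicit false
set_option maxRecDepth 100000

namespace Crest.Agent.SY

open Ck

/-- templates -/
def Ts35 : List Tm := [⟨[4,1], [0,2,2,1], 1, 2⟩, ⟨[2,1,1,1], [1,2,1,0], 1, 2⟩, ⟨[4,1], [1,1,1,1], 1, 1⟩, ⟨[3,2], [0,0,2,2], 2, 2⟩, ⟨[4,1], [0,1,1,1], 1, 1⟩, ⟨[4,1], [1,0,1,1], 1, 0⟩]

theorem node35 : node (1 + 2) (2 * 1 + 3) 35 9 5 18 Ts35 [] 35 = true := by decide +kernel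

theorem ys35 : allN (checkY (1 + 2) (2 * 1 + 3) 35 9 5 18 Ts35) 7 1 = true := by decide +kernel

/-- `n = 35` -/
theorem full35 : Full 35 9 :=
  full_of_check 0 1 5 35 5 18 Ts35 (by omega) (by omega) (by omega) ⟨by omega, by omega⟩ node35
    (fun y h1 h2 => allN_spec _ _ _ ys35 y h1 (by omega))

/-- templates -/
def Ts37 : List Tm := [⟨[5,2], [0,0,2,1], 1, 2⟩, ⟨[2,2,1,1,1], [2,2,0,0], 1, 2⟩, ⟨[2,1,1,1,1,1], [1,2,0,0], 1, 0⟩, ⟨[6,1], [0,0,1,1], 1, 1⟩, ⟨[6,1], [0,0,1,1], 1, 2⟩, ⟨[2,1,1,1,1,1], [0,0,0,0], 1, 0⟩]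

theorem node37 : node (2 + 2) (2 * 2 + 3) 37 9 7 20 Ts37 [] 37 = true := by decide +kernel

theorem ys37 : allN (checkY (2 + 2) (2 * 2 + 3) 37 9 7 20 Ts37) 7 1 = true := by decide +kernel

/-- `n = 37` -/
theorem full37 : Full 37 9 :=
  full_of_check 0 2 5 37 7 20 Ts37 (by omega) (by omega) (by omega) ⟨by omega, by omega⟩ node37
    (fun y h1 h2 => allN_spec _ _ _ ys37 y h1 (by omega))

/-- templates -/
def Ts38 : List Tm := [⟨[6,1], [0,0,1,1], 1, 2⟩, ⟨[2,1,1,1,1,1], [0,0,0,0], 1, 0⟩]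

theorem node38 : node (2 + 2) (2 * 2 + 3) 38 9 8 21 Ts38 [] 38 = true := by decide +kernel

theorem ys38 : allN (checkY (2 + 2) (2 * 2 + 3) 38 9 8 21 Ts38) 7 1 = true := by decide +kernel

/-- `n = 38` -/
theorem full38 : Full 38 9 :=
  full_of_check 1 2 5 38 8 21 Ts38 (by omega) (by omega) (by omega) ⟨by omega, by omega⟩ node38
    (fun y h1 h2 => allN_spec _ _ _ ys38 y h1 (by omega))

end Crest.Agent.SY
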