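import Crest.Agent.SY_E7

/-!
# S0298, bases (8): kernel computations
-/

set_option autoImplicit false
set_option maxRecDepth 100000

namespace Crest.Agent.SY

open Ck

/-- templates -/
def Ts39 : List Tm := [⟨[2,1,1,1,1,1,1,1], [2,1,0,0], 1, 0⟩, ⟨[2,1,1,1,1,1,1,1], [1,1,0,0], 1, 0⟩, ⟨[2,1,1,1,1,1,1,1], [0,0,0,0], 1, 1⟩]

theorem node39 : node (3 + 2) (2 * 3 + 3) 39 9 9 22 Ts39 [] 39 = true := by decide +kernel

theorem ys39 : allN (checkY (3 + 2) (2 * 3 + 3) 39 9 9 22 Ts39) 7 1 = true := by decide +kernel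

/-- `n = 39` -/
theorem full39 : Full 39 9 :=
  full_of_check 0 3 5 39 9 22 Ts39 (by omega) (by omega) (by omega) ⟨by omega, by omega⟩ node39
    (fun y h1 h2 => allN_spec _ _ _ ys39 y h1 (by omega))

/-- templates -/
def Ts42 : List Tm := [⟨[2,1,1,1,1,1,1,1], [0,0,0,0], 1, 0⟩]

theorem node42 : node (3 + 2) (2 * 3 + 3) 42 9 12 25 Ts42 [] 42 = true := by decide +kernel

theorem ys42 : allN (checkY (3 + 2) (2 * 3 + 3) 42 9 12 25 Ts42) 8 1 = true := by decide +kernel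

/-- `n = 42` -/
theorem full42 : Full 42 9 :=
  full_of_check 2 3 5 42 12 25 Ts42 (by omega) (by omega) (by omega) ⟨by omega, by omega⟩ node42
    (fun y h1 h2 => allN_spec _ _ _ ys42 y h1 (by omega))

end Crest.Agent.SY
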