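import Crest.Agent.SY_E8

/-!
# S0298, bases (9): kernel computations
-/

set_option autoImplicit false
set_option maxRecDepth 100000

namespace Crest.Agent.SY

open Ck

/-- templates -/
def Ts41 : List Tm := [⟨[5,2], [0,1,2,2], 1, 2⟩, ⟨[4,3], [0,0,2,2], 1, 2⟩, ⟨[6,1], [0,2,2,2], 1, 2⟩, ⟨[2,1,1,1,1,1], [1,1,1,1], 1, 1⟩, ⟨[6,1], [1,0,1,1], 1, 0⟩, ⟨[2,2,2,1], [2,2,1,0], 1, 2⟩, ⟨[6,1], [0,0,1,1], 1, 0⟩, ⟨[6,1], [0,0,1,1], 1, 1⟩, ⟨[2,1,1,1,1,1], [0,0,0,0], 1, 1⟩]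

theorem node41 : node (2 + 2) (2 * 2 + 3) 41 10 7 22 Ts41 [] 41 = true := by decide +kernel

theorem ys41 : allN (checkY (2 + 2) (2 * 2 + 3) 41 10 7 22 Ts41) 8 1 = true := by decide +kernel

/-- `n = 41` -/
theorem full41 : Full 41 10 :=
  full_of_check 0 2 6 41 7 22 Ts41 (by omega) (by omega) (by omega) ⟨by omega, by omega⟩ node41
    (fun y h1 h2 => allN_spec _ _ _ ys41 y h1 (by omega))

end Crest.Agent.SY
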