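import Crest.Agent.SY_I
import Crest.Agent.SX_Int

/-!
# S0298: from `GoodT` to the tensor square of the Specht module (owner: helper61)
-/

set_option autoImplicit false

namespace Crest.Agent.SY

open Equiv Equiv.Perm TensorProduct Crest.Agent.SX

variable {Ω Z ι ι' : Type} [Fintype Ω] [DecidableEq Ω]

/-- Fixing the second word, a function of `Tens X Y` is in `X`. -/
theorem Tens_fst {Λ : Type} {X Y : Submodule ℂ ((Λ → ℕ) → ℂ)} {T : WW Λ → ℂ} (hT : T ∈ Tens X Y)
    (y : Λ → ℕ) : (fun x => T (x, y)) ∈ X := by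
  refine Submodule.span_induction (p := fun T _ => (fun x => T (x, y)) ∈ X) ?_ ?_ ?_ ?_ hT
  · rintro _ ⟨F, hF, G, hG, rfl⟩
    have : (fun x : Λ → ℕ => F x * G y) = G y • F := by
      funext x
      simp [mul_comm]
    simp only [this]
    exact Submodule.smul_mem _ _ hF
  · exact Submodule.zero_mem _
  · intro F G _ _ h1 h2
    exact Submodule.add_mem _ h1 h2
  · intro a F _ h1
    exact Submodule.smul_mem _ a h1

theorem Tens_snd {Λ : Type} {X Y : Submodule ℂ ((Λ → ℕ) → ℂ)} {T : WW Λ → ℂ} (hT : T ∈ Tens X Y)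
    (x : Λ → ℕ) : (fun y => T (x, y)) ∈ Y := by
  refine Submodule.span_induction (p := fun T _ => (fun y => T (x, y)) ∈ Y) ?_ ?_ ?_ ?_ hT
  · rintro _ ⟨F, hF, G, hG, rfl⟩
    exact Submodule.smul_mem _ (F x) hG
  · exact Submodule.zero_mem _
  · intro F G _ _ h1 h2
    exact Submodule.add_mem _ h1 h2
  · intro a F _ h1
    exact Submodule.smul_mem _ a h1

/-- Apply `φ` in the first word and `ψ` in the second word. -/
noncomputable def app2 {Λ Λ' : Type} (φ ψ : ((Λ → ℕ) → ℂ) →ₗ[ℂ] ((Λ' → ℕ) → ℂ)) :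
    (WW Λ → ℂ) →ₗ[ℂ] (WW Λ' → ℂ) where
  toFun T := fun x => ψ (fun y => φ (fun z => T (z, y)) x.1) x.2
  map_add' T T' := by
    funext x
    have h1 : ∀ y, φ (fun z => (T + T') (z, y)) = φ (fun z => T (z, y)) + φ (fun z => T' (z, y)) := by
      intro y
      rw [← map_add]
      rfl
    have h2 : (fun y => φ (fun z => (T + T') (z, y)) x.1) =
        (fun y => φ (fun z => T (z, y)) x.1) + (fun y => φ (fun z => T' (z, y)) x.1) := by
      funext y
      rw [h1]
      rfl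
    rw [h2, map_add]
    rfl
  map_smul' a T := by
    funext x
    have h1 : ∀ y, φ (fun z => (a • T) (z, y)) = a • φ (fun z => T (z, y)) := by
      intro y
      rw [← map_smul]
      rfl
    have h2 : (fun y => φ (fun z => (a • T) (z, y)) x.1) =
        a • (fun y => φ (fun z => T (z, y)) x.1) := by
      funext y
      rw [h1]
      rfl
    rw [h2, map_smul]
    rfl

theorem app2_apply {Λ Λ' : Type} (φ ψ : ((Λ → ℕ) → ℂ) →ₗ[ℂ] ((Λ' → ℕ) → ℂ)) (T : WW Λ → ℂ)
    (x : WW Λ') : app2 φ ψ T x = ψ (fun y => φ (fun z => T (z, y)) x.1) x.2 := rfl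

theorem app2_mem {Λ Λ' : Type} (φ ψ : ((Λ → ℕ) → ℂ) →ₗ[ℂ] ((Λ' → ℕ) → ℂ))
    {X Y : Submodule ℂ ((Λ → ℕ) → ℂ)} {X' Y' : Submodule ℂ ((Λ' → ℕ) → ℂ)}
    (hφ : ∀ F ∈ X, φ F ∈ X') (hψ : ∀ F ∈ Y, ψ F ∈ Y') {T : WW Λ → ℂ} (hT : T ∈ Tens X Y) :
    app2 φ ψ T ∈ Tens X' Y' := by
  refine Submodule.span_induction (p := fun T _ => app2 φ ψ T ∈ Tens X' Y') ?_ ?_ ?_ ?_ hT
  · rintro _ ⟨F, hF, G, hG, rfl⟩
    have e : app2 φ ψ (fun x : WW Λ => F x.1 * G x.2) = fun x => φ F x.1 * ψ G x.2 := by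
      funext x
      rw [app2_apply]
      have h1 : ∀ y, φ (fun z => F z * G y) = G y • φ F := by
        intro y
        rw [← map_smul]
        congr 1
        funext z
        simp [mul_comm]
      have h2 : (fun y => φ (fun z => F z * G y) x.1) = φ F x.1 • G := by
        funext y
        rw [h1]
        simp [mul_comm]
      simp only
      rw [h2, map_smul]
      rfl
    rw [e]
    exact tmul_mem (hφ F hF) (hψ G hG)
  · rw [map_zero]
    exact Submodule.zero_mem _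
  · intro F G _ _ h1 h2
    rw [map_add]
    exact Submodule.add_mem _ h1 h2
  · intro a F _ h1
    rw [map_smul]
    exact Submodule.smul_mem _ a h1

/-- FINAL STEP: an irreducible representation which is good in isotypic spaces of types `h`, `h'`
embeds in `Sp h ⊗ Sp h'`. -/
theorem GoodZ_final {R : AddSubgroup ℂ} {X Y : Submodule ℂ ((Ω ⊕ Z → ℕ) → ℂ)} {p : WW (Ω ⊕ Z)}
    {h : ι → ℕ} {h' : ι' → ℕ} (hX : IsoT h X) (hY : IsoT h' Y)
    {W : Type} [AddCommGroup W] [Module ℂ W] (σ : Representation ℂ (Perm Ω) W)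
    (hσ : σ.IsIrreducible) (hG : GoodZ R X Y p σ) :
    ∃ f : W →ₗ[ℂ] (WW Ω → ℂ), Function.Injective f ∧ (∀ g w x, f (σ g w) x = f w (pull g x)) ∧
      ∀ w, f w ∈ Tens (Sp (Ω := Ω) h) (Sp (Ω := Ω) h') := by
  obtain ⟨j, hj, he, hm, -⟩ := hG
  by_cases hW : ∀ w : W, w = 0
  · refine ⟨0, fun w w' _ => by rw [hW w, hW w'], fun g w x => rfl, fun w => ?_⟩
    exact Submodule.zero_mem _
  push Not at hW
  obtain ⟨w₀, hw₀⟩ := hW
  have h1 : j w₀ ≠ 0 := fun h => hw₀ (hj (by rw [h, map_zero]))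
  obtain ⟨x₀, hx₀⟩ : ∃ x, j w₀ x ≠ 0 := by
    by_contra hc
    push Not at hc
    exact h1 (funext hc)
  -- the first factor
  obtain ⟨φ, hφ, hφ0⟩ := hX.2 _ (Tens_fst (hm w₀) x₀.2) (fun h => hx₀ (congrFun h x₀.1))
  obtain ⟨u, hu⟩ : ∃ u, φ (fun z => j w₀ (z, x₀.2)) u ≠ 0 := by
    by_contra hc
    push Not at hc
    exact hφ0 (funext hc)
  have hmY : ∀ (w : W) (v : Ω → ℕ), (fun y => φ (fun z => j w (z, y)) v) ∈ Y := by
    intro w v
    refine Submodule.span_induction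
      (p := fun T _ => (fun y => φ (fun z => T (z, y)) v) ∈ Y) ?_ ?_ ?_ ?_ (hm w)
    · rintro _ ⟨F, hF, G, hG, rfl⟩
      have h2 : (fun y => φ (fun z => F z * G y) v) = φ F v • G := by
        funext y
        have h1 : φ (fun z => F z * G y) = G y • φ F := by
          rw [← map_smul]
          congr 1
          funext z
          simp [mul_comm]
        rw [h1]
        simp [mul_comm]
      simp only [h2]
      exact Submodule.smul_mem _ _ hG
    · have : (fun y : Ω ⊕ Z → ℕ => φ (fun z => (0 : WW (Ω ⊕ Z) → ℂ) (z, y)) v) = 0 := by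
        funext y
        have : (fun z => (0 : WW (Ω ⊕ Z) → ℂ) (z, y)) = 0 := rfl
        rw [this, map_zero]
        rfl
      rw [this]
      exact Submodule.zero_mem _
    · intro F G _ _ h1 h2
      have : (fun y => φ (fun z => (F + G) (z, y)) v) =
          (fun y => φ (fun z => F (z, y)) v) + (fun y => φ (fun z => G (z, y)) v) := by
        funext y
        have : (fun z => (F + G) (z, y)) = (fun z => F (z, y)) + (fun z => G (z, y)) := rfl
        rw [this, map_add]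
        rfl
      rw [this]
      exact Submodule.add_mem _ h1 h2
    · intro a F _ h1
      have : (fun y => φ (fun z => (a • F) (z, y)) v) =
          a • (fun y => φ (fun z => F (z, y)) v) := by
        funext y
        have : (fun z => (a • F) (z, y)) = a • (fun z => F (z, y)) := rfl
        rw [this, map_smul]
        rfl
      rw [this]
      exact Submodule.smul_mem _ a h1
  obtain ⟨ψ, hψ, hψ0⟩ := hY.2 _ (hmY w₀ u) (fun h => hu (congrFun h x₀.2))
  have hequiv : ∀ g w x, (app2 φ ψ ∘ₗ j) (σ g w) x = (app2 φ ψ ∘ₗ j) w (pull g x) := by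
    intro g w x
    rw [LinearMap.comp_apply, LinearMap.comp_apply, app2_apply, app2_apply]
    have e1 : ∀ y, φ (fun z => j (σ g w) (z, y)) x.1 =
        φ (fun z => j w (z, y ∘ Perm.sumCongr g 1)) (x.1 ∘ g) := by
      intro y
      rw [← hφ.2 _ (Tens_fst (hm w) (y ∘ Perm.sumCongr g 1)) g x.1]
      refine congrArg (fun G => φ G x.1) ?_
      funext z
      rw [he]
      rfl
    have e2 : (fun y => φ (fun z => j (σ g w) (z, y)) x.1) =
        fun y => (fun y => φ (fun z => j w (z, y)) (x.1 ∘ g)) (y ∘ Perm.sumCongr g 1) := by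
      funext y
      exact e1 y
    rw [e2, hψ.2 _ (hmY w (x.1 ∘ g)) g x.2]
    rfl
  refine ⟨app2 φ ψ ∘ₗ j, ?_, hequiv, fun w => app2_mem φ ψ hφ.1 hψ.1 (hm w)⟩
  refine injective_of_irrG (fun g x => pull g x) σ hσ _ hequiv ?_
  intro h0
  apply hψ0
  funext v
  exact congrFun (congrArg (fun G : W →ₗ[ℂ] (WW Ω → ℂ) => G w₀) h0) (u, v)

/-- Intertwining map from `GoodZ` in isotypic spaces. -/
theorem GoodZ_intertwine {R : AddSubgroup ℂ} [Fintype ι]
    {h : ι → ℕ} {p : WW (Ω ⊕ Z)} {X Y : Submodule ℂ ((Ω ⊕ Z → ℕ) → ℂ)} (hX : IsoT h X)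
    (hY : IsoT h Y) {W : Type} [AddCommGroup W] [Module ℂ W]
    (σ : Representation ℂ (Perm Ω) W) (hσ : σ.IsIrreducible) (hG : GoodZ R X Y p σ) :
    ∃ Ψ : W →ₗ[ℂ] (Sp (Ω := Ω) h ⊗[ℂ] Sp (Ω := Ω) h), Function.Injective Ψ ∧
      ∀ g w, Ψ (σ g w) = Representation.tprod (SpRep Ω h) (SpRep Ω h) g (Ψ w) := by
  obtain ⟨f, hf1, hf2, hf3⟩ := GoodZ_final hX hY σ hσ hG
  exact Good_intertwine h (R := ⊤) (p := (fun _ => 0, fun _ => 0)) σ
    ⟨f, hf1, hf2, fun w => Tens_le_VV h (hf3 w), fun _ _ _ => AddSubgroup.mem_top _⟩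

end Crest.Agent.SY
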