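import Crest.Agent.SX_StepA

/-!
# S0298: abstract versions of the induction step (arbitrary group acting on points)

Adapted from `SX_StepA`, `SX_StepQ`.
-/

set_option autoImplicit false

namespace Crest.Agent.SY

open Equiv Equiv.Perm TensorProduct Crest.Agent.SX

/-- Averages of functions constant on the cosets of a subgroup. -/
theorem avg_mem {G : Type} [Group G] [Fintype G] (H : Subgroup G) (R : AddSubgroup ℂ)
    (t : G → ℂ) (ht : ∀ g, ∀ m ∈ H, t (g * m) = t g) (hR : ∀ g, t g ∈ R) :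
    ((Nat.card H : ℂ))⁻¹ * ∑ g, t g ∈ R := by
  classical
  have hcard : (Nat.card H : ℂ) ≠ 0 := by
    exact_mod_cast (Nat.card_pos (α := H)).ne'
  have h1 : ∑ g, t g = ∑ c : G ⧸ H, (Nat.card H : ℂ) * t c.out := by
    rw [← Finset.sum_fiberwise (s := Finset.univ) (g := fun g : G => (g : G ⧸ H)) (f := t)]
    refine Finset.sum_congr rfl fun c _ => ?_
    have h2 : ∑ g ∈ Finset.univ.filter (fun g : G => (g : G ⧸ H) = c), t g =
        ∑ m : H, t (c.out * m) := by
      refine Finset.sum_bij' (fun g _ => if hg : c.out⁻¹ * g ∈ H then (⟨c.out⁻¹ * g, hg⟩ : H) else 1)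
        (fun m _ => c.out * m) ?_ ?_ ?_ ?_ ?_
      · intro g _
        exact Finset.mem_univ _
      · intro m _
        rw [Finset.mem_filter]
        refine ⟨Finset.mem_univ _, ?_⟩
        rw [QuotientGroup.mk_mul_of_mem _ m.2, QuotientGroup.out_eq']
      · intro g hg
        rw [Finset.mem_filter] at hg
        have h3 : c.out⁻¹ * g ∈ H := by
          rw [← QuotientGroup.eq, QuotientGroup.out_eq', hg.2]
        simp only [h3, dif_pos, mul_inv_cancel_left]
      · intro m _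
        have h3 : c.out⁻¹ * (c.out * (m : G)) ∈ H := by
          rw [inv_mul_cancel_left]
          exact m.2
        rw [dif_pos h3]
        ext
        simp
      · intro g hg
        rw [Finset.mem_filter] at hg
        have h3 : c.out⁻¹ * g ∈ H := by
          rw [← QuotientGroup.eq, QuotientGroup.out_eq', hg.2]
        simp only [h3, dif_pos, mul_inv_cancel_left]
    rw [h2]
    rw [Finset.sum_congr rfl (fun (m : H) _ => ht c.out m m.2), Finset.sum_const, nsmul_eq_mul,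
      Finset.card_univ, Nat.card_eq_fintype_card]
  rw [h1, ← Finset.mul_sum, ← mul_assoc, inv_mul_cancel₀ hcard, one_mul]
  exact AddSubgroup.sum_mem _ fun c _ => hR _

/-- ABSTRACT INDUCTION STEP for a finite group `G` acting on a set of points `X`
(`pl (g * g') x = pl g' (pl g x)`), `H` a subgroup, `q` an `H`-equivariant map, `p` a point such that
`q w (pl m p) ≠ 0` only for `m ∈ H`. -/
theorem step_grp {G X W : Type} [Group G] [Fintype G] [AddCommGroup W] [Module ℂ W]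
    (pl : G → X → X) (hpl1 : ∀ x, pl 1 x = x) (hpl : ∀ g g' x, pl (g * g') x = pl g' (pl g x))
    (H : Subgroup G) (R : AddSubgroup ℂ) (p : X) (σ : Representation ℂ G W)
    (q : W →ₗ[ℂ] (X → ℂ)) (hqH : ∀ m ∈ H, ∀ w x, q (σ m w) x = q w (pl m x))
    (T : Submodule ℂ (X → ℂ)) (hT : ∀ F ∈ T, ∀ g, (fun x => F (pl g x)) ∈ T)
    (hqT : ∀ w, q w ∈ T) (hqs : ∀ w m, q w (pl m p) ≠ 0 → m ∈ H)
    (hqR : ∀ w, (∀ m ∈ H, q w (pl m p) ∈ R) → ∀ x, q w x ∈ R)
    (hqp : ∃ w, q w p ≠ 0) :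
    ∃ j : W →ₗ[ℂ] (X → ℂ), j ≠ 0 ∧ (∀ g w x, j (σ g w) x = j w (pl g x)) ∧ (∀ w, j w ∈ T) ∧
      ∀ w, (∀ g, j w (pl g p) ∈ R) → ∀ x, j w x ∈ R := by
  classical
  have hcard : (Nat.card H : ℂ) ≠ 0 := by
    exact_mod_cast (Nat.card_pos (α := H)).ne'
  -- the averaged map
  let j : W →ₗ[ℂ] (X → ℂ) :=
    { toFun := fun w x => (Nat.card H : ℂ)⁻¹ * ∑ g : G, q (σ g⁻¹ w) (pl g x)
      map_add' := by
        intro w w'
        funext x
        simp only [map_add, Pi.add_apply, Finset.sum_add_distrib, mul_add]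
      map_smul' := by
        intro c w
        funext x
        simp only [map_smul, Pi.smul_apply, smul_eq_mul, RingHom.id_apply]
        rw [← Finset.mul_sum]
        ring }
  have hj : ∀ w x, j w x = (Nat.card H : ℂ)⁻¹ * ∑ g : G, q (σ g⁻¹ w) (pl g x) :=
    fun w x => rfl
  -- equivariance
  have hje : ∀ g w x, j (σ g w) x = j w (pl g x) := by
    intro g₀ w x
    rw [hj, hj]
    congr 1
    refine Fintype.sum_equiv (Equiv.mulLeft g₀⁻¹) _ _ fun g => ?_
    have e1 : σ g⁻¹ (σ g₀ w) = σ (g₀⁻¹ * g)⁻¹ w := by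
      rw [mul_inv_rev, inv_inv, map_mul]
      rfl
    have e2 : pl (g₀⁻¹ * g) (pl g₀ x) = pl g x := by
      rw [← hpl, mul_inv_cancel_left]
    simp only [Equiv.coe_mulLeft]
    rw [e1, e2]
  -- values on the orbit of `p`
  have hjp : ∀ k w, j w (pl k p) = q (σ k w) p := by
    intro k w
    rw [hj]
    have key : ∀ m : G, q (σ m⁻¹ (σ k w)) (pl m p) =
        if m ∈ H then q (σ k w) p else 0 := by
      intro m
      by_cases hm : m ∈ H
      · rw [if_pos hm, ← hqH m hm, ← Module.End.mul_apply, ← map_mul, mul_inv_cancel, map_one]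
        rfl
      · rw [if_neg hm]
        by_contra hne
        exact hm (hqs _ _ hne)
    have e1 : ∑ g : G, q (σ g⁻¹ w) (pl g (pl k p)) =
        ∑ m : G, if m ∈ H then q (σ k w) p else 0 := by
      refine Fintype.sum_equiv (Equiv.mulLeft k) _ _ fun g => ?_
      rw [← key, ← hpl, Equiv.coe_mulLeft]
      have e2 : σ g⁻¹ w = σ (k * g)⁻¹ (σ k w) := by
        have : g⁻¹ = (k * g)⁻¹ * k := by group
        rw [this, map_mul]
        rfl
      rw [e2]
    rw [e1, Finset.sum_ite, Finset.sum_const_zero, add_zero, Finset.sum_const, nsmul_eq_mul]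
    have e3 : (Finset.univ.filter (fun m : G => m ∈ H)).card = Nat.card H := by
      rw [Nat.card_eq_fintype_card, ← Fintype.card_subtype]
    rw [e3, ← mul_assoc, inv_mul_cancel₀ hcard, one_mul]
  refine ⟨j, ?_, hje, ?_, ?_⟩
  · intro h0
    obtain ⟨w, hw⟩ := hqp
    apply hw
    have h1 := hjp 1 w
    rw [h0, hpl1] at h1
    simpa using h1.symm
  · intro w
    have e1 : j w = (Nat.card H : ℂ)⁻¹ • ∑ g : G, fun x => q (σ g⁻¹ w) (pl g x) := by
      funext x
      rw [hj, Pi.smul_apply, Finset.sum_apply, smul_eq_mul]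
    rw [e1]
    exact Submodule.smul_mem _ _ (Submodule.sum_mem _ fun g _ => hT _ (hqT _) g)
  · intro w hw x
    have h1 : ∀ g' x, q (σ g' w) x ∈ R := by
      intro g' x
      refine hqR _ ?_ x
      intro m hm
      rw [← hqH m hm, ← Module.End.mul_apply, ← map_mul, ← hjp]
      exact hw _
    rw [hj]
    refine avg_mem H R _ ?_ fun g => h1 _ _
    intro g m hm
    rw [hpl, ← hqH m hm, ← Module.End.mul_apply, ← map_mul]
    have : m * (g * m)⁻¹ = g⁻¹ := by group
    rw [this]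

/-- An equivariant map which is not zero on an irreducible representation is injective. -/
theorem injective_of_irrG {G X W : Type} [Group G] [AddCommGroup W] [Module ℂ W]
    (pl : G → X → X) (σ : Representation ℂ G W) (hσ : σ.IsIrreducible) (j : W →ₗ[ℂ] (X → ℂ))
    (hj : ∀ g w x, j (σ g w) x = j w (pl g x)) (h0 : j ≠ 0) : Function.Injective j := by
  let K : Subrepresentation σ :=
    { toSubmodule := LinearMap.ker j
      apply_mem_toSubmodule := by
        intro g v hv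
        rw [LinearMap.mem_ker] at hv ⊢
        ext x
        rw [hj, hv]
        rfl }
  have := hσ
  rcases eq_bot_or_eq_top K with hK | hK
  · rw [← LinearMap.ker_eq_bot]
    have : K.toSubmodule = (⊥ : Subrepresentation σ).toSubmodule := by rw [hK]
    exact this
  · exfalso
    apply h0
    have : K.toSubmodule = (⊤ : Subrepresentation σ).toSubmodule := by rw [hK]
    exact LinearMap.ker_eq_top.1 this

section two
variable {X Y U₁ U₂ : Type} [AddCommGroup U₁] [Module ℂ U₁] [AddCommGroup U₂] [Module ℂ U₂]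

/-- two point evaluation -/
noncomputable def q2 (j₁ : U₁ →ₗ[ℂ] (X → ℂ)) (j₂ : U₂ →ₗ[ℂ] (Y → ℂ)) (x : X) (y : Y) :
    U₁ ⊗[ℂ] U₂ →ₗ[ℂ] ℂ :=
  (TensorProduct.lid ℂ ℂ).toLinearMap ∘ₗ
    (TensorProduct.map (LinearMap.proj x ∘ₗ j₁) (LinearMap.proj y ∘ₗ j₂))

theorem q2_tmul (j₁ : U₁ →ₗ[ℂ] (X → ℂ)) (j₂ : U₂ →ₗ[ℂ] (Y → ℂ)) (x : X) (y : Y) (u : U₁)
    (v : U₂) : q2 j₁ j₂ x y (u ⊗ₜ[ℂ] v) = j₁ u x * j₂ v y := by
  simp [q2]

/-- partial evaluation in the second factor -/
noncomputable def e1 (j₂ : U₂ →ₗ[ℂ] (Y → ℂ)) (y : Y) : U₁ ⊗[ℂ] U₂ →ₗ[ℂ] U₁ :=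
  (TensorProduct.rid ℂ U₁).toLinearMap ∘ₗ (TensorProduct.map LinearMap.id (LinearMap.proj y ∘ₗ j₂))

/-- partial evaluation in the first factor -/
noncomputable def e2 (j₁ : U₁ →ₗ[ℂ] (X → ℂ)) (x : X) : U₁ ⊗[ℂ] U₂ →ₗ[ℂ] U₂ :=
  (TensorProduct.lid ℂ U₂).toLinearMap ∘ₗ (TensorProduct.map (LinearMap.proj x ∘ₗ j₁) LinearMap.id)

theorem e1_spec (j₁ : U₁ →ₗ[ℂ] (X → ℂ)) (j₂ : U₂ →ₗ[ℂ] (Y → ℂ)) (x : X) (y : Y)
    (T : U₁ ⊗[ℂ] U₂) : j₁ (e1 j₂ y T) x = q2 j₁ j₂ x y T := by
  induction T with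
  | zero => simp
  | tmul u v =>
    rw [q2_tmul]
    simp [e1, mul_comm]
  | add a b ha hb => rw [map_add, map_add, map_add, Pi.add_apply, ha, hb]

theorem e2_spec (j₁ : U₁ →ₗ[ℂ] (X → ℂ)) (j₂ : U₂ →ₗ[ℂ] (Y → ℂ)) (x : X) (y : Y)
    (T : U₁ ⊗[ℂ] U₂) : j₂ (e2 j₁ x T) y = q2 j₁ j₂ x y T := by
  induction T with
  | zero => simp
  | tmul u v =>
    rw [q2_tmul]
    simp [e2]
  | add a b ha hb => rw [map_add, map_add, map_add, Pi.add_apply, ha, hb]

/-- Nonzero tensors have a nonzero two point evaluation. -/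
theorem q2_ne_zero [FiniteDimensional ℂ U₂] (j₁ : U₁ →ₗ[ℂ] (X → ℂ)) (j₂ : U₂ →ₗ[ℂ] (Y → ℂ))
    (hj₁ : Function.Injective j₁) (hj₂ : Function.Injective j₂) (T : U₁ ⊗[ℂ] U₂) (hT : T ≠ 0) :
    ∃ x y, q2 j₁ j₂ x y T ≠ 0 := by
  by_contra hne
  push Not at hne
  apply hT
  let b := Module.finBasis ℂ U₂
  obtain ⟨c, hc⟩ := TensorProduct.eq_repr_basis_right b T
  have key : ∀ y z, j₂ (c.sum fun i n => (j₁ n y) • b i) z = 0 := by
    intro y z
    have h1 := hne y z
    rw [← hc] at h1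
    rw [← h1]
    unfold Finsupp.sum
    rw [map_sum, map_sum, Finset.sum_apply]
    refine Finset.sum_congr rfl fun i _ => ?_
    rw [q2_tmul, map_smul, Pi.smul_apply, smul_eq_mul]
  have key2 : ∀ y i, j₁ (c i) y = 0 := by
    intro y i
    have h1 : (c.sum fun i n => (j₁ n y) • b i) = 0 := by
      apply hj₂
      rw [map_zero]
      funext z
      exact key y z
    have h2 : (∑ i, (j₁ (c i) y) • b i) = 0 := by
      rw [← h1, Finsupp.sum_fintype]
      intro i
      simp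
    exact (Fintype.linearIndependent_iff.mp b.linearIndependent) _ h2 i
  have hc0 : c = 0 := by
    ext i
    apply hj₁
    rw [Finsupp.coe_zero, Pi.zero_apply, map_zero]
    funext y
    exact key2 y i
  rw [← hc, hc0, Finsupp.sum_zero_index]

end two

end Crest.Agent.SY
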