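import Crest.Agent.SY_Z3

/-!
# S0298: isotypic spaces of functions and the interface of the induction (owner: helper61)

`IsoT h X`: the space `X` of functions on words on `Ω ⊕ Z` is stable under `Perm Ω` and the
`Perm Ω`-equivariant maps from `X` to the Specht module `Sp h` separate the points of `X`
(so `X` is a multiple of `Sp h`). The maps are given as linear maps on the whole space of functions,
equivariant on `X` (every linear map on `X` extends).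
-/

set_option autoImplicit false

namespace Crest.Agent.SY

open Equiv Equiv.Perm TensorProduct Crest.Agent.SX

/-- An equivariant map from `X` to `Sp h`. -/
def EqvTo {Ω Z ι : Type} [Fintype Ω] [DecidableEq Ω] (h : ι → ℕ)
    (X : Submodule ℂ ((Ω ⊕ Z → ℕ) → ℂ)) (φ : ((Ω ⊕ Z → ℕ) → ℂ) →ₗ[ℂ] ((Ω → ℕ) → ℂ)) : Prop :=
  (∀ F ∈ X, φ F ∈ Sp (Ω := Ω) h) ∧
    ∀ F ∈ X, ∀ (g : Perm Ω) w,
      φ (fun x => F (x ∘ Perm.sumCongr g (1 : Perm Z))) w = φ F (w ∘ g)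

/-- `X` is isotypic of type `Sp h`. -/
def IsoT {Ω Z ι : Type} [Fintype Ω] [DecidableEq Ω] (h : ι → ℕ)
    (X : Submodule ℂ ((Ω ⊕ Z → ℕ) → ℂ)) : Prop :=
  StabZ X ∧ ∀ F ∈ X, F ≠ 0 → ∃ φ, EqvTo h X φ ∧ φ F ≠ 0

/-- `T` is equivariant on `Sp h`. -/
def EqvFrom {Ω Z ι : Type} [Fintype Ω] [DecidableEq Ω] (h : ι → ℕ)
    (T : ((Ω → ℕ) → ℂ) →ₗ[ℂ] ((Ω ⊕ Z → ℕ) → ℂ)) : Prop :=
  ∀ v ∈ Sp (Ω := Ω) h, ∀ (g : Perm Ω) x,
    T (fun w => v (w ∘ g)) x = T v (x ∘ Perm.sumCongr g (1 : Perm Z))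

/-- `X` is isotypic of type `Sp h` (version with maps from `Sp h`). -/
def IsoI {Ω Z ι : Type} [Fintype Ω] [DecidableEq Ω] (h : ι → ℕ)
    (X : Submodule ℂ ((Ω ⊕ Z → ℕ) → ℂ)) : Prop :=
  StabZ X ∧ ∀ F ∈ X, F ∈ Submodule.span ℂ {G : (Ω ⊕ Z → ℕ) → ℂ |
    ∃ T, EqvFrom (Ω := Ω) (Z := Z) h T ∧ ∃ v ∈ Sp (Ω := Ω) h, G = T v}

/-- `GoodT R k h h' p σ`: `σ` is good in the tensor product of the spaces `X`, `Y` of functions in
the staircase module of level `k`, isotypic of types `h` and `h'`. -/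
def GoodT (R : AddSubgroup ℂ) {Ω Z ι ι' : Type} [Fintype Ω] [DecidableEq Ω] [Fintype Z]
    [DecidableEq Z] (k : ℕ) (h : ι → ℕ) (h' : ι' → ℕ) (p : WW (Ω ⊕ Z)) {W : Type} [AddCommGroup W]
    [Module ℂ W] (σ : Representation ℂ (Perm Ω) W) : Prop :=
  ∃ X Y : Submodule ℂ ((Ω ⊕ Z → ℕ) → ℂ), X ≤ Sp (stair k) ∧ Y ≤ Sp (stair k) ∧
    IsoI h X ∧ IsoI h' Y ∧ GoodZ R X Y p σ

end Crest.Agent.SY
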