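import Crest.Agent.SY_S0

/-!
# S0298, combinatorics (1): removing boxes from shapes, in two steps
-/

set_option autoImplicit false

namespace Crest.Agent.SY

open Finset

/-- Interpolation between antitone functions. -/
theorem interp (f g : ℕ → ℕ) (hf : Antitone f) (hg : Antitone g) (hfg : ∀ c, f c ≤ g c) (N : ℕ)
    (hN : g N = 0) : ∀ k : ℕ, ∑ c ∈ range N, f c + k ≤ ∑ c ∈ range N, g c →
    ∃ e : ℕ → ℕ, Antitone e ∧ (∀ c, f c ≤ e c) ∧ (∀ c, e c ≤ g c) ∧
      ∑ c ∈ range N, e c = ∑ c ∈ range N, f c + k := by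
  intro k
  induction k with
  | zero => intro _; exact ⟨f, hf, fun _ => le_rfl, hfg, by simp⟩
  | succ k ih =>
    intro hk
    obtain ⟨e, he, h1, h2, h3⟩ := ih (by omega)
    have hex : ∃ c, e c < g c := by
      by_contra hcon
      push Not at hcon
      have : ∑ c ∈ range N, g c ≤ ∑ c ∈ range N, e c := sum_le_sum fun c _ => hcon c
      omega
    classical
    obtain ⟨c, hc, hmin⟩ : ∃ c, e c < g c ∧ ∀ c' < c, ¬ e c' < g c' :=
      ⟨Nat.find hex, Nat.find_spec hex, fun c' hc' => Nat.find_min hex hc'⟩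
    have hcN : c < N := by
      by_contra hcon
      push Not at hcon
      have := hg hcon
      omega
    refine ⟨Function.update e c (e c + 1), ?_, ?_, ?_, ?_⟩
    · refine antitone_nat_of_succ_le fun x => ?_
      by_cases hx : x + 1 = c
      · subst hx
        rw [Function.update_self, Function.update_of_ne (by omega)]
        have a1 := hmin x (by omega)
        have a2 := hg (Nat.le_succ x)
        have a3 : Nat.succ x = x + 1 := rfl
        rw [a3] at a2
        omega
      · rw [Function.update_of_ne hx]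
        by_cases hx' : x = c
        · subst hx'
          rw [Function.update_self]
          have := he (Nat.le_succ x)
          have a3 : Nat.succ x = x + 1 := rfl
          rw [a3] at this
          omega
        · rw [Function.update_of_ne hx']
          exact he (Nat.le_succ x)
    · intro x
      by_cases hx : x = c
      · subst hx; rw [Function.update_self]; have := h1 x; omega
      · rw [Function.update_of_ne hx]; exact h1 x
    · intro x
      by_cases hx : x = c
      · subst hx; rw [Function.update_self]; omega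
      · rw [Function.update_of_ne hx]; exact h2 x
    · rw [Finset.sum_update_of_mem (mem_range.2 hcN)]
      rw [← Finset.add_sum_erase (range N) e (mem_range.2 hcN)] at h3
      have : range N \ {c} = (range N).erase c := by
        ext y; simp [and_comm]
      rw [this]
      omega

/-- The two step removal. -/
theorem chain2 (a f : ℕ → ℕ) (ha : Antitone a) (hf : Antitone f) (hfa : ∀ c, f c ≤ a c) (m : ℕ)
    (ham : ∀ c, a c ≤ f c + 2 * m) (N : ℕ) (hN : a N = 0) (s₁ s₂ : ℕ) (hs : s₂ ≤ s₁)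
    (h₁ : s₁ ≤ ∑ c ∈ range N, min m (a c - f c)) (h₂ : s₁ + s₂ ≤ ∑ c ∈ range N, (a c - f c)) :
    ∃ a₁ a₂ : ℕ → ℕ, Antitone a₁ ∧ Antitone a₂ ∧ (∀ c, f c ≤ a₂ c) ∧ (∀ c, a₂ c ≤ a₁ c) ∧
      (∀ c, a₁ c ≤ a c) ∧ (∀ c, a c ≤ a₁ c + m) ∧ (∀ c, a₁ c ≤ a₂ c + m) ∧
      ∑ c ∈ range N, a₁ c + s₁ = ∑ c ∈ range N, a c ∧
      ∑ c ∈ range N, a₂ c + s₂ = ∑ c ∈ range N, a₁ c := by
  -- `q = min a (f + m)`, `p = max f (a - m)`
  have hq : Antitone fun c => min (a c) (f c + m) := fun x y hxy =>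
    min_le_min (ha hxy) (Nat.add_le_add_right (hf hxy) m)
  have hp : Antitone fun c => max (f c) (a c - m) := fun x y hxy =>
    max_le_max (hf hxy) (Nat.sub_le_sub_right (ha hxy) m)
  have key : ∀ F G : ℕ → ℕ, (∀ c, G c ≤ F c) →
      ∑ c ∈ range N, (F c - G c) + ∑ c ∈ range N, G c = ∑ c ∈ range N, F c := by
    intro F G h
    rw [← sum_add_distrib]
    exact sum_congr rfl fun c _ => Nat.sub_add_cancel (h c)
  have ka := key a f hfa
  have kp : ∑ c ∈ range N, min m (a c - f c) + ∑ c ∈ range N, max (f c) (a c - m) =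
      ∑ c ∈ range N, a c := by
    rw [← sum_add_distrib]
    refine sum_congr rfl fun c _ => ?_
    have := hfa c
    omega
  have kq : ∑ c ∈ range N, min m (a c - f c) + ∑ c ∈ range N, f c =
      ∑ c ∈ range N, min (a c) (f c + m) := by
    rw [← sum_add_distrib]
    refine sum_congr rfl fun c _ => ?_
    have := hfa c
    omega
  by_cases hcase : s₁ + ∑ c ∈ range N, min (a c) (f c + m) ≤ ∑ c ∈ range N, a c
  · obtain ⟨a₁, x1, x2, x3, x4⟩ := interp (fun c => min (a c) (f c + m)) a hq ha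
      (fun c => min_le_left _ _) N hN
      (∑ c ∈ range N, a c - s₁ - ∑ c ∈ range N, min (a c) (f c + m)) (by omega)
    have hp1 : Antitone fun c => max (f c) (a₁ c - m) := fun x y hxy =>
      max_le_max (hf hxy) (Nat.sub_le_sub_right (x1 hxy) m)
    have fa1 : ∀ c, f c ≤ a₁ c := by
      intro c
      have g1 : min (a c) (f c + m) ≤ a₁ c := x2 c
      have g2 := hfa c
      omega
    have k1 : ∑ c ∈ range N, min m (a c - f c) + ∑ c ∈ range N, max (f c) (a₁ c - m) ≤
        ∑ c ∈ range N, a₁ c := by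
      rw [← sum_add_distrib]
      refine sum_le_sum fun c _ => ?_
      have g1 : min (a c) (f c + m) ≤ a₁ c := x2 c
      have g2 := hfa c
      have g3 := fa1 c
      omega
    obtain ⟨a₂, y1, y2, y3, y4⟩ := interp (fun c => max (f c) (a₁ c - m)) a₁ hp1 x1
      (fun c => by have := fa1 c; omega) N (by have := x3 N; omega)
      (∑ c ∈ range N, a₁ c - s₂ - ∑ c ∈ range N, max (f c) (a₁ c - m)) (by omega)
    refine ⟨a₁, a₂, x1, y1, fun c => ?_, y3, x3, fun c => ?_, fun c => ?_, by omega, by omega⟩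
    · have : max (f c) (a₁ c - m) ≤ a₂ c := y2 c
      omega
    · have g1 : min (a c) (f c + m) ≤ a₁ c := x2 c
      have g2 := ham c
      omega
    · have : max (f c) (a₁ c - m) ≤ a₂ c := y2 c
      omega
  · push Not at hcase
    obtain ⟨a₁, x1, x2, x3, x4⟩ := interp (fun c => max (f c) (a c - m))
      (fun c => min (a c) (f c + m)) hp hq
      (fun c => by have := hfa c; have := ham c; omega) N
      (by have := hfa N; omega)
      (∑ c ∈ range N, a c - s₁ - ∑ c ∈ range N, max (f c) (a c - m)) (by omega)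
    have fa1 : ∀ c, f c ≤ a₁ c := by
      intro c
      have g1 : max (f c) (a c - m) ≤ a₁ c := x2 c
      omega
    obtain ⟨a₂, y1, y2, y3, y4⟩ := interp f a₁ hf x1 fa1 N
      (by have g1 : a₁ N ≤ min (a N) (f N + m) := x3 N; omega)
      (∑ c ∈ range N, a₁ c - s₂ - ∑ c ∈ range N, f c) (by omega)
    refine ⟨a₁, a₂, x1, y1, y2, y3, fun c => ?_, fun c => ?_, fun c => ?_, by omega, by omega⟩
    · have g1 : a₁ c ≤ min (a c) (f c + m) := x3 c
      omega
    · have g1 : max (f c) (a c - m) ≤ a₁ c := x2 c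
      omega
    · have g1 : a₁ c ≤ min (a c) (f c + m) := x3 c
      have g2 := y2 c
      omega

namespace Shp

/-- The shape with given column heights. -/
def ofAnti (f : ℕ → ℕ) (hf : Antitone f) (N : ℕ) (hN : f N = 0) : Shp where
  a := f
  b r := ((range N).filter fun c => r < f c).card
  h := by
    intro c r
    constructor
    · intro hr
      have h1 : range (c + 1) ⊆ (range N).filter fun c => r < f c := by
        intro x hx
        rw [mem_range] at hx
        have h2 := hf (show x ≤ c by omega)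
        rw [mem_filter, mem_range]
        refine ⟨?_, by omega⟩
        by_contra hcon
        have h3 := hf (show N ≤ x by omega)
        omega
      have := card_le_card h1
      rw [card_range] at this
      omega
    · intro hr
      by_contra hcon
      have h1 : ((range N).filter fun c => r < f c) ⊆ range c := by
        intro x hx
        rw [mem_filter, mem_range] at hx
        rw [mem_range]
        by_contra hxc
        have h2 := hf (show c ≤ x by omega)
        omega
      have := card_le_card h1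
      rw [card_range] at this
      omega

@[simp] theorem ofAnti_a (f : ℕ → ℕ) (hf : Antitone f) (N : ℕ) (hN : f N = 0) :
    (ofAnti f hf N hN).a = f := rfl

theorem b_zero_le_of (S : Shp) (N : ℕ) (hN : S.a N = 0) : S.b 0 ≤ N := by
  by_contra hcon
  have := (S.h N 0).2 (by omega)
  omega

/-- Row sums by columns. -/
theorem sum_min (S : Shp) (k N : ℕ) (hN : S.b 0 ≤ N) :
    ∑ c ∈ range N, min k (S.a c) = ∑ r ∈ range k, S.b r := by
  have h1 : ∀ c, min k (S.a c) = ∑ r ∈ range k, if r < S.a c then 1 else 0 := by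
    intro c
    rw [← card_filter]
    have : (range k).filter (fun r => r < S.a c) = range (min k (S.a c)) := by
      ext r
      simp only [mem_filter, mem_range]
      omega
    rw [this, card_range]
  have h2 : ∀ r, S.b r = ∑ c ∈ range N, if r < S.a c then 1 else 0 := by
    intro r
    rw [← card_filter]
    have : (range N).filter (fun c => r < S.a c) = range (S.b r) := by
      ext c
      simp only [mem_filter, mem_range]
      have g1 := S.h c r
      have g2 := S.anti_b (Nat.zero_le r)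
      constructor
      · rintro ⟨_, g3⟩
        exact g1.1 g3
      · intro g3
        exact ⟨by omega, g1.2 g3⟩
    rw [this, card_range]
  rw [sum_congr rfl fun c _ => h1 c, sum_comm]
  exact (sum_congr rfl fun r _ => h2 r).symm

/-- The two step removal for shapes. -/
theorem chain2 (S : Shp) (f : ℕ → ℕ) (hf : Antitone f) (hfa : ∀ c, f c ≤ S.a c) (m : ℕ)
    (ham : ∀ c, S.a c ≤ f c + 2 * m) (s₁ s₂ : ℕ) (hs : s₂ ≤ s₁)
    (h₁ : s₁ ≤ ∑ c ∈ range (S.b 0), min m (S.a c - f c))
    (h₂ : s₁ + s₂ ≤ ∑ c ∈ range (S.b 0), (S.a c - f c)) :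
    ∃ S₁ S₂ : Shp, (∀ c, f c ≤ S₂.a c) ∧ (∀ c, S₂.a c ≤ S₁.a c) ∧ (∀ c, S₁.a c ≤ S.a c) ∧
      (∀ c, S.a c ≤ S₁.a c + m) ∧ (∀ c, S₁.a c ≤ S₂.a c + m) ∧ S.size = S₁.size + s₁ ∧
      S₁.size = S₂.size + s₂ := by
  have hN : S.a (S.b 0) = 0 := S.a_eq_zero le_rfl
  obtain ⟨a₁, a₂, x1, x2, x3, x4, x5, x6, x7, x8, x9⟩ :=
    Crest.Agent.SY.chain2 S.a f S.anti hf hfa m ham (S.b 0) hN s₁ s₂ hs h₁ h₂
  have h1 : a₁ (S.b 0) = 0 := by have := x5 (S.b 0); omega
  have h2 : a₂ (S.b 0) = 0 := by have := x4 (S.b 0); omega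
  have e1 := (ofAnti a₁ x1 (S.b 0) h1).size_eq_sum (S.b 0) (b_zero_le_of _ _ h1)
  have e2 := (ofAnti a₂ x2 (S.b 0) h2).size_eq_sum (S.b 0) (b_zero_le_of _ _ h2)
  simp only [ofAnti_a] at e1 e2
  refine ⟨ofAnti a₁ x1 (S.b 0) h1, ofAnti a₂ x2 (S.b 0) h2, x3, x4, x5, x6, x7, ?_, ?_⟩
  · rw [e1]; exact x8.symm
  · rw [e1, e2]; exact x9.symm

/-- `T` is obtained from `S` by removing `s` cells, at most `m` in every column. -/
def Rm (m s : ℕ) (S T : Shp) : Prop :=
  (∀ c, T.a c ≤ S.a c) ∧ (∀ c, S.a c ≤ T.a c + m) ∧ S.size = T.size + s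

/-- Two double layers. -/
theorem exists_PP (S : Shp) (t : ℕ) (ht : 3 ≤ t) (h₁ : 2 * t - 1 ≤ ∑ r ∈ range 4, S.b r)
    (h₂ : 4 * t - 6 ≤ ∑ r ∈ range 8, S.b r) :
    ∃ S₁ S₂ : Shp, Rm 4 (2 * t - 1) S S₁ ∧ Rm 4 (2 * t - 5) S₁ S₂ := by
  rw [← S.sum_min 4 (S.b 0) le_rfl] at h₁
  rw [← S.sum_min 8 (S.b 0) le_rfl] at h₂
  obtain ⟨S₁, S₂, x1, x2, x3, x4, x5, x6, x7⟩ := S.chain2 (fun c => S.a c - 8)
    (fun x y hxy => Nat.sub_le_sub_right (S.anti hxy) 8) (fun c => Nat.sub_le _ _) 4
    (fun c => by omega) (2 * t - 1) (2 * t - 5) (by omega)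
    (h₁.trans (sum_le_sum fun c _ => by omega))
    (le_trans (by omega) (h₂.trans (sum_le_sum fun c _ => by omega)))
  exact ⟨S₁, S₂, ⟨x3, x4, x6⟩, ⟨x2, x5, x7⟩⟩

/-- Two single layers (used for the vertical strips). -/
theorem exists_SS (S : Shp) (s₁ s₂ : ℕ) (hs : s₂ ≤ s₁) (h₁ : s₁ ≤ S.b 0)
    (h₂ : s₁ + s₂ ≤ S.b 0 + S.b 1) :
    ∃ S₁ S₂ : Shp, Rm 1 s₁ S S₁ ∧ Rm 1 s₂ S₁ S₂ := by
  have e1 : S.b 0 = ∑ r ∈ range 1, S.b r := by simp
  have e2 : S.b 0 + S.b 1 = ∑ r ∈ range 2, S.b r := by simp [sum_range_succ]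
  rw [e1, ← S.sum_min 1 (S.b 0) le_rfl] at h₁
  rw [e2, ← S.sum_min 2 (S.b 0) le_rfl] at h₂
  obtain ⟨S₁, S₂, x1, x2, x3, x4, x5, x6, x7⟩ := S.chain2 (fun c => S.a c - 2)
    (fun x y hxy => Nat.sub_le_sub_right (S.anti hxy) 2) (fun c => Nat.sub_le _ _) 1
    (fun c => by omega) s₁ s₂ hs
    (h₁.trans (sum_le_sum fun c _ => by omega))
    (h₂.trans (sum_le_sum fun c _ => by omega))
  exact ⟨S₁, S₂, ⟨x3, x4, x6⟩, ⟨x2, x5, x7⟩⟩

end Shp

end Crest.Agent.SY
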