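import Crest.Agent.SY_K1

/-!
# S0298, combinatorics (1b): two horizontal strips followed by two vertical strips
-/

set_option autoImplicit false

namespace Crest.Agent.SY

open Finset

namespace Shp

theorem exists_HHVV_core (S : Shp) (t : ℕ) (ht : 4 ≤ t) (u₀ u₁ : ℕ) (hu₀ : u₀ ≤ 2) (hu₁ : u₁ ≤ 2)
    (hu₀' : u₀ ≤ S.a 0) (hu₁' : u₁ ≤ S.a 1) (hb : 2 ≤ S.b 0) (hf : S.a 1 + u₀ ≤ S.a 0 + u₁)
    (h₁ : t + min 1 (S.a 0) + min 1 (S.a 1) ≤ S.b 0 + min 1 u₀ + min 1 u₁)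
    (h₂ : 2 * t - 1 + min 2 (S.a 0) + min 2 (S.a 1) ≤ S.b 0 + S.b 1 + u₀ + u₁)
    (h₃ : t - 2 + u₀ ≤ S.a 0) (h₄ : 2 * t - 5 + (u₀ + u₁) ≤ S.a 0 + S.a 1) :
    ∃ S₁ S₂ : Shp, Rm 1 t S S₁ ∧ Rm 1 (t - 1) S₁ S₂ ∧
      ∃ T₁ T₂ : Shp, Rm 1 (t - 2) S₂.tr T₁ ∧ Rm 1 (t - 3) T₁ T₂ := by
  obtain ⟨M, hM⟩ : ∃ M, S.b 0 = M + 2 := ⟨S.b 0 - 2, by omega⟩
  have e1 : ∑ c ∈ range (S.b 0), min 1 (S.a c) = S.b 0 := by
    rw [S.sum_min 1 (S.b 0) le_rfl]; simp
  have e2 : ∑ c ∈ range (S.b 0), min 2 (S.a c) = S.b 0 + S.b 1 := by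
    rw [S.sum_min 2 (S.b 0) le_rfl]; simp [sum_range_succ]
  obtain ⟨f, hfdef⟩ : ∃ f : ℕ → ℕ, f = fun c => if c = 0 then S.a 0 - u₀ else if c = 1 then
      S.a 1 - u₁ else S.a c - 2 := ⟨_, rfl⟩
  have f0 : f 0 = S.a 0 - u₀ := by rw [hfdef]; rfl
  have f1 : f 1 = S.a 1 - u₁ := by rw [hfdef]; rfl
  have f2 : ∀ c, f (c + 2) = S.a (c + 2) - 2 := by intro c; rw [hfdef]; rfl
  have hanti : Antitone f := by
    refine antitone_nat_of_succ_le fun c => ?_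
    match c with
    | 0 =>
      show f 1 ≤ f 0
      rw [f0, f1]
      omega
    | 1 =>
      show f (0 + 2) ≤ f 1
      rw [f1, f2]
      have := S.anti (show 1 ≤ 0 + 2 by omega)
      omega
    | c + 2 =>
      rw [f2, show c + 2 + 1 = (c + 1) + 2 from rfl, f2]
      have := S.anti (show c + 2 ≤ c + 1 + 2 by omega)
      omega
  have hle : ∀ c, f c ≤ S.a c := by
    intro c
    match c with
    | 0 => rw [f0]; omega
    | 1 => rw [f1]; omega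
    | c + 2 => rw [f2]; omega
  have hge : ∀ c, S.a c ≤ f c + 2 * 1 := by
    intro c
    match c with
    | 0 => rw [f0]; omega
    | 1 => rw [f1]; omega
    | c + 2 => rw [f2]; omega
  rw [hM, sum_range_succ', sum_range_succ'] at e1 e2
  have k1 : ∑ c ∈ range (S.b 0), min 1 (S.a c - f c) =
      ∑ c ∈ range M, min 1 (S.a (c + 1 + 1)) + min 1 u₁ + min 1 u₀ := by
    rw [hM, sum_range_succ', sum_range_succ']
    simp only [Nat.zero_add]
    rw [f0, f1]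
    have : ∑ c ∈ range M, min 1 (S.a (c + 1 + 1) - f (c + 1 + 1)) =
        ∑ c ∈ range M, min 1 (S.a (c + 1 + 1)) := by
      refine sum_congr rfl fun c _ => ?_
      rw [show c + 1 + 1 = c + 2 from rfl, f2]
      omega
    rw [this]
    omega
  have k2 : ∑ c ∈ range (S.b 0), (S.a c - f c) =
      ∑ c ∈ range M, min 2 (S.a (c + 1 + 1)) + u₁ + u₀ := by
    rw [hM, sum_range_succ', sum_range_succ']
    simp only [Nat.zero_add]
    rw [f0, f1]
    have : ∑ c ∈ range M, (S.a (c + 1 + 1) - f (c + 1 + 1)) =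
        ∑ c ∈ range M, min 2 (S.a (c + 1 + 1)) := by
      refine sum_congr rfl fun c _ => ?_
      rw [show c + 1 + 1 = c + 2 from rfl, f2]
      omega
    rw [this]
    omega
  simp only [Nat.zero_add] at e1 e2
  obtain ⟨S₁, S₂, x1, x2, x3, x4, x5, x6, x7⟩ := S.chain2 f hanti hle 1 hge t (t - 1) (by omega)
    (by rw [k1]; omega) (by rw [k2]; omega)
  refine ⟨S₁, S₂, ⟨x3, x4, x6⟩, ⟨x2, x5, x7⟩, ?_⟩
  have g0 := x1 0
  have g1 := x1 1
  rw [f0] at g0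
  rw [f1] at g1
  refine exists_SS S₂.tr (t - 2) (t - 3) (by omega) ?_ ?_
  · show t - 2 ≤ S₂.a 0
    omega
  · show t - 2 + (t - 3) ≤ S₂.a 0 + S₂.a 1
    omega

/-- Two horizontal strips of sizes `t`, `t - 1`, then two vertical strips of sizes `t - 2`,
`t - 3` (general form, with a weaker hypothesis for hooks). -/
theorem exists_HHVV' (S : Shp) (t : ℕ) (ht : 4 ≤ t) (h₁ : 2 * t - 1 ≤ S.b 0 + S.b 1)
    (h₂ : 2 * t - 4 ≤ S.a 0 + S.a 1) (h₃ : 4 * t - 2 ≤ S.b 0 + S.b 1 + (S.a 0 + S.a 1) ∨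
      (S.a 1 ≤ 1 ∧ 4 * t - 3 ≤ S.b 0 + S.b 1 + (S.a 0 + S.a 1))) :
    ∃ S₁ S₂ : Shp, Rm 1 t S S₁ ∧ Rm 1 (t - 1) S₁ S₂ ∧
      ∃ T₁ T₂ : Shp, Rm 1 (t - 2) S₂.tr T₁ ∧ Rm 1 (t - 3) T₁ T₂ := by
  have hb := S.anti_b (Nat.zero_le 1)
  have ha := S.anti (Nat.zero_le 1)
  have hpos : 0 < S.a 1 := (S.h 1 0).2 (by omega)
  by_cases hB : S.a 1 = 1
  · have hb1 : S.b 1 ≤ 1 := by
      by_contra hcon
      have := (S.h 1 1).2 (by omega)
      omega
    by_cases x1 : 2 * t - 2 ≤ S.a 0 + S.a 1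
    · exact exists_HHVV_core S t ht 2 1 (by omega) (by omega) (by omega) (by omega) (by omega)
        (by omega) (by omega) (by omega) (by omega) (by omega)
    by_cases x2 : 2 * t - 3 ≤ S.a 0 + S.a 1
    · exact exists_HHVV_core S t ht 1 1 (by omega) (by omega) (by omega) (by omega) (by omega)
        (by omega) (by omega) (by omega) (by omega) (by omega)
    · exact exists_HHVV_core S t ht 0 1 (by omega) (by omega) (by omega) (by omega) (by omega)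
        (by omega) (by omega) (by omega) (by omega) (by omega)
  · have h₃ : 4 * t - 2 ≤ S.b 0 + S.b 1 + (S.a 0 + S.a 1) := by omega
    by_cases x0 : 2 * t - 1 ≤ S.a 0 + S.a 1
    · exact exists_HHVV_core S t ht 2 2 (by omega) (by omega) (by omega) (by omega) (by omega)
        (by omega) (by omega) (by omega) (by omega) (by omega)
    by_cases x1 : 2 * t - 2 ≤ S.a 0 + S.a 1
    · exact exists_HHVV_core S t ht 1 2 (by omega) (by omega) (by omega) (by omega) (by omega)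
        (by omega) (by omega) (by omega) (by omega) (by omega)
    by_cases x2 : 2 * t - 3 ≤ S.a 0 + S.a 1
    · exact exists_HHVV_core S t ht 1 1 (by omega) (by omega) (by omega) (by omega) (by omega)
        (by omega) (by omega) (by omega) (by omega) (by omega)
    · exact exists_HHVV_core S t ht 0 1 (by omega) (by omega) (by omega) (by omega) (by omega)
        (by omega) (by omega) (by omega) (by omega) (by omega)

theorem exists_HHVV (S : Shp) (t : ℕ) (ht : 4 ≤ t) (h₁ : 2 * t - 1 ≤ S.b 0 + S.b 1)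
    (h₂ : 2 * t - 4 ≤ S.a 0 + S.a 1) (h₃ : 4 * t - 2 ≤ S.b 0 + S.b 1 + (S.a 0 + S.a 1)) :
    ∃ S₁ S₂ : Shp, Rm 1 t S S₁ ∧ Rm 1 (t - 1) S₁ S₂ ∧
      ∃ T₁ T₂ : Shp, Rm 1 (t - 2) S₂.tr T₁ ∧ Rm 1 (t - 3) T₁ T₂ :=
  S.exists_HHVV' t ht h₁ h₂ (Or.inl h₃)

end Shp

end Crest.Agent.SY
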