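import Crest.Agent.SY_K3

/-!
# S0298, combinatorics (2): the four-level lemma
-/

set_option autoImplicit false

namespace Crest.Agent.SY

open Finset

/-- The average of the first `m` terms is at least the average of the first `N` terms. -/
theorem avg (a : ℕ → ℕ) (ha : Antitone a) (m N : ℕ) (hmN : m ≤ N) :
    m * ∑ c ∈ range N, a c ≤ N * ∑ c ∈ range m, a c := by
  obtain ⟨j, rfl⟩ := Nat.exists_eq_add_of_le hmN
  have h1 : ∑ c ∈ range j, a (m + c) ≤ j * a m := by
    refine le_trans (sum_le_sum (g := fun _ => a m) fun c _ => ha (Nat.le_add_right m c)) ?_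
    simp
  have h2 : m * a m ≤ ∑ c ∈ range m, a c := by
    refine le_trans ?_ (sum_le_sum (f := fun _ => a m) fun c hc => ha (mem_range.1 hc).le)
    simp
  rw [sum_range_add]
  nlinarith

namespace Shp

/-- The cells outside the first `m` rows. -/
theorem size_eq (S : Shp) (m : ℕ) :
    S.size = ∑ r ∈ range m, S.b r + ∑ c ∈ range (S.b m), (S.a c - m) := by
  have hN : S.b m ≤ S.b 0 := S.anti_b (Nat.zero_le m)
  have h1 : ∑ c ∈ range (S.b m), (S.a c - m) = ∑ c ∈ range (S.b 0), (S.a c - m) := by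
    refine sum_subset (range_mono hN) fun c _ hc => ?_
    rw [mem_range] at hc
    have := S.h c m
    omega
  rw [h1, ← S.sum_min m (S.b 0) le_rfl, ← sum_add_distrib]
  unfold size
  exact sum_congr rfl fun c _ => by omega

theorem size_eq' (S : Shp) (m : ℕ) :
    S.size = ∑ r ∈ range m, S.a r + ∑ c ∈ range (S.a m), (S.b c - m) := by
  rw [← size_tr]
  exact S.tr.size_eq m

end Shp

/-- First reduction: if the first four rows are short but the first eight are long, the columns are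
fine. -/
theorem crit_aux1 (t : ℕ) (ht : 4 ≤ t) (S : Shp) (hn1 : 4 * t ≤ S.size + 6)
    (hn4 : t * t + t ≤ 4 * S.size + 1) (h4 : ∑ r ∈ range 4, S.b r ≤ 2 * t - 2)
    (h8 : 4 * t - 6 ≤ ∑ r ∈ range 8, S.b r) :
    2 * t - 1 ≤ ∑ r ∈ range 4, S.a r ∧ 4 * t - 6 ≤ ∑ r ∈ range 8, S.a r := by
  have hb : 2 * S.b 0 ≤ t + 2 := by
    have e := S.anti_b
    have e1 := e (show 0 ≤ 1 by omega)
    have e2 := e (show 1 ≤ 2 by omega)
    have e3 := e (show 2 ≤ 3 by omega)
    have e4 := e (show 3 ≤ 4 by omega)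
    have e5 := e (show 4 ≤ 5 by omega)
    have e6 := e (show 5 ≤ 6 by omega)
    have e7 := e (show 6 ≤ 7 by omega)
    simp only [sum_range_succ, sum_range_zero] at h4 h8
    omega
  have hz : ∀ m, S.b 0 ≤ m → S.size = ∑ r ∈ range m, S.a r := fun m hm => S.size_eq_sum m hm
  constructor
  · by_contra hcon
    push Not at hcon
    by_cases h : S.b 0 ≤ 4
    · have := hz 4 h
      omega
    · have h1 := avg S.a S.anti 4 (S.b 0) (by omega)
      rw [← S.size_eq_sum (S.b 0) le_rfl] at h1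
      have h2 : S.b 0 * ∑ c ∈ range 4, S.a c ≤ S.b 0 * (2 * t - 2) :=
        Nat.mul_le_mul_left _ (by omega)
      obtain ⟨s, rfl⟩ : ∃ s, t = s + 1 := ⟨t - 1, by omega⟩
      have e : 2 * (s + 1) - 2 = 2 * s := by omega
      rw [e] at h2
      nlinarith
  · by_contra hcon
    push Not at hcon
    by_cases h : S.b 0 ≤ 8
    · have := hz 8 h
      omega
    · have h1 := avg S.a S.anti 8 (S.b 0) (by omega)
      rw [← S.size_eq_sum (S.b 0) le_rfl] at h1
      have h2 : S.b 0 * ∑ c ∈ range 8, S.a c ≤ S.b 0 * (4 * t - 7) :=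
        Nat.mul_le_mul_left _ (by omega)
      obtain ⟨s, rfl⟩ : ∃ s, t = s + 2 := ⟨t - 2, by omega⟩
      have e : 4 * (s + 2) - 7 = 4 * s + 1 := by omega
      rw [e] at h2
      nlinarith

/-- The `8 × 8` box is not contained in `S` when both sums of eight are small. -/
theorem crit_aux2 (t : ℕ) (ht : 8 ≤ t) (S : Shp) (hn3 : 8 * t ≤ S.size + 48)
    (hn4 : t * t + t ≤ 4 * S.size + 1) (hB : ∑ r ∈ range 8, S.b r ≤ 4 * t - 7)
    (hA : ∑ r ∈ range 8, S.a r ≤ 4 * t - 7) : S.b 7 ≤ 7 := by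
  by_contra hcon
  push Not at hcon
  have ha7 : 8 ≤ S.a 7 := (S.h 7 7).2 (by omega)
  have e := S.anti
  have f := S.anti_b
  have hsize := S.size_eq 8
  -- the cells outside the first eight rows
  have h1 : ∑ c ∈ range (S.b 8), (S.a c - 8) ≤ ∑ c ∈ range 8, (S.a c - 8) +
      (S.b 8 - 8) * (S.a 8 - 8) := by
    by_cases h : S.b 8 ≤ 8
    · refine le_trans (sum_le_sum_of_subset (range_mono h)) (Nat.le_add_right _ _)
    · obtain ⟨j, hj⟩ : ∃ j, S.b 8 = 8 + j := ⟨S.b 8 - 8, by omega⟩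
      rw [hj, sum_range_add]
      refine Nat.add_le_add_left ?_ _
      refine le_trans (sum_le_sum (g := fun _ => S.a 8 - 8) fun c _ => ?_) ?_
      · exact Nat.sub_le_sub_right (e (Nat.le_add_right 8 c)) 8
      · simp
  have h2 : ∑ c ∈ range 8, (S.a c - 8) + 64 = ∑ c ∈ range 8, S.a c := by
    have : ∑ c ∈ range 8, S.a c = ∑ c ∈ range 8, ((S.a c - 8) + 8) := by
      refine sum_congr rfl fun c hc => ?_
      have := e (show c ≤ 7 by have := mem_range.1 hc; omega)
      omega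
    rw [this, sum_add_distrib]
    simp
  have h3 : 8 * S.a 8 ≤ ∑ c ∈ range 8, S.a c := by
    refine le_trans ?_ (sum_le_sum (f := fun _ => S.a 8) fun c hc => e (mem_range.1 hc).le)
    simp
  have h4 : 8 * S.b 8 ≤ ∑ c ∈ range 8, S.b c := by
    refine le_trans ?_ (sum_le_sum (f := fun _ => S.b 8) fun c hc => f (mem_range.1 hc).le)
    simp
  by_cases hx : S.b 8 ≤ 8 ∨ S.a 8 ≤ 8
  · have : (S.b 8 - 8) * (S.a 8 - 8) = 0 := by
      rcases hx with hx | hx
      · rw [Nat.sub_eq_zero_of_le hx, zero_mul]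
      · rw [Nat.sub_eq_zero_of_le hx, mul_zero]
    omega
  · push Not at hx
    obtain ⟨x, hx1⟩ : ∃ x, S.b 8 = x + 8 := ⟨S.b 8 - 8, by omega⟩
    obtain ⟨y, hy1⟩ : ∃ y, S.a 8 = y + 8 := ⟨S.a 8 - 8, by omega⟩
    have h5 : S.size + 64 ≤ 8 * t - 14 + (S.b 8 - 8) * (S.a 8 - 8) := by omega
    rw [hx1, hy1, Nat.add_sub_cancel, Nat.add_sub_cancel] at h5
    rw [hy1] at h3
    rw [hx1] at h4
    obtain ⟨s, rfl⟩ : ∃ s, t = s + 18 := ⟨t - 18, by omega⟩
    have g1 : 8 * x ≤ 4 * s + 1 := by omega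
    have g2 : 8 * y ≤ 4 * s + 1 := by omega
    have g3 : S.size + 64 ≤ 8 * s + 130 + x * y := by omega
    have g4 : 64 * (x * y) ≤ (4 * s + 1) * (4 * s + 1) := by
      have := Nat.mul_le_mul g1 g2
      nlinarith
    nlinarith

end Crest.Agent.SY
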