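import Crest.Agent.SY_K2

/-!
# S0298, combinatorics (2b): the four-level lemma, final case analysis
-/

set_option autoImplicit false

namespace Crest.Agent.SY

open Finset

theorem Shp.size_add (S : Shp) (m : ℕ) :
    S.size + m * S.b m = ∑ r ∈ range m, S.b r + ∑ c ∈ range (S.b m), S.a c := by
  rw [S.size_eq m]
  have : ∑ c ∈ range (S.b m), S.a c = ∑ c ∈ range (S.b m), (S.a c - m) + m * S.b m := by
    have h1 : ∑ c ∈ range (S.b m), S.a c = ∑ c ∈ range (S.b m), ((S.a c - m) + m) := by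
      refine sum_congr rfl fun c hc => ?_
      rw [mem_range] at hc
      have := (S.h c m).2 hc
      omega
    rw [h1, sum_add_distrib]
    simp [mul_comm]
  omega

/-- The overlap of the first eight rows and the first eight columns. -/
theorem Shp.overlap (S : Shp) (hl : S.b 8 ≤ 8) :
    S.size + 8 * S.b 8 + (8 - S.b 8) * S.a 8 ≤ ∑ r ∈ range 8, S.b r + ∑ r ∈ range 8, S.a r := by
  rw [S.size_add 8]
  obtain ⟨j, hj⟩ : ∃ j, 8 = S.b 8 + j := ⟨8 - S.b 8, by omega⟩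
  have e1 : ∑ r ∈ range 8, S.a r = ∑ c ∈ range (S.b 8), S.a c + ∑ c ∈ range j, S.a (S.b 8 + c) := by
    have : range 8 = range (S.b 8 + j) := by rw [← hj]
    rw [this, sum_range_add]
  have e2 : (8 - S.b 8) * S.a 8 ≤ ∑ c ∈ range j, S.a (S.b 8 + c) := by
    have h1 : 8 - S.b 8 = j := by omega
    rw [h1]
    refine le_trans ?_ (sum_le_sum (f := fun _ => S.a 8) fun c hc =>
      S.anti (show S.b 8 + c ≤ 8 by have := mem_range.1 hc; omega))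
    simp
  omega

/-- Bound of the first eight rows when the second column is short. -/
theorem Shp.hook_bound (S : Shp) (h1 : 1 ≤ S.a 1) (h8 : S.a 1 ≤ 8) :
    ∑ r ∈ range 8, S.b r ≤ S.b 0 + (S.a 1 - 1) * S.b 1 + (8 - S.a 1) := by
  obtain ⟨j, hj⟩ : ∃ j, 8 = S.a 1 + j := ⟨8 - S.a 1, by omega⟩
  obtain ⟨i, hi⟩ : ∃ i, S.a 1 = i + 1 := ⟨S.a 1 - 1, by omega⟩
  have e1 : ∑ r ∈ range 8, S.b r = ∑ r ∈ range (S.a 1), S.b r + ∑ r ∈ range j, S.b (S.a 1 + r) := by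
    have : range 8 = range (S.a 1 + j) := by rw [← hj]
    rw [this, sum_range_add]
  have e2 : ∑ r ∈ range j, S.b (S.a 1 + r) ≤ 8 - S.a 1 := by
    have h2 : 8 - S.a 1 = j := by omega
    rw [h2]
    refine le_trans (sum_le_sum (g := fun _ => 1) fun r _ => ?_) (by simp)
    by_contra hcon
    have := (S.h 1 (S.a 1 + r)).2 (by omega)
    omega
  have e3 : ∑ r ∈ range (S.a 1), S.b r ≤ S.b 0 + (S.a 1 - 1) * S.b 1 := by
    rw [hi, sum_range_succ', Nat.add_sub_cancel]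
    have : ∑ r ∈ range i, S.b (r + 1) ≤ i * S.b 1 := by
      refine le_trans (sum_le_sum (g := fun _ => S.b 1) fun r _ =>
        S.anti_b (show 1 ≤ r + 1 by omega)) (by simp)
    omega
  omega

theorem case31 (t n A B a0 a1 b0 b1 b2 : ℕ) (ht : 8 ≤ t) (hn1 : 6 * t ≤ n + 20)
    (hn2 : 7 * t ≤ n + 33) (hA : A ≤ 4 * t - 7) (hB : B ≤ 4 * t - 7) (h1 : n + 8 = B + a0)
    (h2 : n + 24 = A + (b0 + b1 + b2)) (h3 : 3 ≤ a1) (h4 : a1 = 3 → A = a0 + 21) (hb : b1 ≤ b0)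
    (hb' : b2 ≤ b1) :
    2 * t - 4 ≤ b0 + b1 ∧ 2 * t - 4 ≤ a0 + a1 ∧ 4 * t - 2 ≤ b0 + b1 + (a0 + a1) := by
  by_cases h : a1 = 3
  · have := h4 h
    omega
  · omega

theorem case32 (t n A B a0 a1 b0 b1 b2 : ℕ) (ht : 8 ≤ t) (hn1 : 6 * t ≤ n + 20)
    (hn2 : 7 * t ≤ n + 33) (hA : A ≤ 4 * t - 7) (hB : B ≤ 4 * t - 7) (h1 : n + 16 = B + (a0 + a1))
    (h2 : n + 24 = A + (b0 + b1 + b2)) (hb : b1 ≤ b0) (hb' : b2 ≤ b1) :
    2 * t - 4 ≤ b0 + b1 ∧ 2 * t - 4 ≤ a0 + a1 ∧ 4 * t - 2 ≤ b0 + b1 + (a0 + a1) := by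
  omega

theorem case21 (t n A B a0 a1 b0 b1 : ℕ) (ht : 8 ≤ t) (hn1 : 6 * t ≤ n + 20)
    (hA : A ≤ 4 * t - 7) (hB : B ≤ 4 * t - 7) (h1 : n + 8 = B + a0)
    (h2 : n + 16 = A + (b0 + b1)) (h3 : 2 ≤ a1) :
    2 * t - 4 ≤ b0 + b1 ∧ 2 * t - 4 ≤ a0 + a1 ∧ 4 * t - 2 ≤ b0 + b1 + (a0 + a1) := by
  omega

theorem case22 (t n A B a0 a1 b0 b1 : ℕ) (ht : 8 ≤ t) (hn1 : 6 * t ≤ n + 20)
    (hA : A ≤ 4 * t - 7) (hB : B ≤ 4 * t - 7) (h1 : n + 16 = B + (a0 + a1))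
    (h2 : n + 16 = A + (b0 + b1)) :
    2 * t - 4 ≤ b0 + b1 ∧ 2 * t - 4 ≤ a0 + a1 ∧ 4 * t - 2 ≤ b0 + b1 + (a0 + a1) := by
  omega

theorem case11 (t n A B a0 a1 b0 b1 : ℕ) (ht : 8 ≤ t) (hn1 : 6 * t ≤ n + 20)
    (hA : A ≤ 4 * t - 7) (hB : B ≤ 4 * t - 7) (h1 : n + 8 = B + a0)
    (h2 : n + 8 = A + b0) (h3 : 1 ≤ a1) (h4 : 1 ≤ b1) (h5 : a1 ≤ 8)
    (h6 : B ≤ b0 + (a1 - 1) * b1 + (8 - a1)) :
    2 * t - 4 ≤ b0 + b1 ∧ 2 * t - 4 ≤ a0 + a1 ∧ 4 * t - 2 ≤ b0 + b1 + (a0 + a1) := by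
  by_cases h : 8 ≤ a1 + b1
  · omega
  · have g1 : a1 ≤ 6 := by omega
    interval_cases a1 <;> omega

theorem key_kl (t n A B k l : ℕ) (ht : 8 ≤ t) (hn1 : 6 * t ≤ n + 20) (hn3 : 8 * t ≤ n + 48)
    (hA : A ≤ 4 * t - 7) (hB : B ≤ 4 * t - 7) (hk : k ≤ 7) (hl : l ≤ 7)
    (h : n + 8 * l + (8 - l) * k ≤ B + A) (h0 : l = 0 → n = B) (h0' : k = 0 → n = A) :
    (k = 1 ∧ l = 1) ∨ (k = 1 ∧ l = 2) ∨ (k = 2 ∧ l = 1) ∨ (k = 2 ∧ l = 2) ∨ (k = 1 ∧ l = 3) ∨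
      (k = 3 ∧ l = 1) ∨ (k = 2 ∧ l = 3) ∨ (k = 3 ∧ l = 2) := by
  have hl1 : l ≠ 0 := fun hl => by have := h0 hl; omega
  have hk1 : k ≠ 0 := fun hk => by have := h0' hk; omega
  clear h0 h0'
  have h3 : 8 * l + (8 - l) * k ≤ 34 := by omega
  clear h hn1 hn3 hA hB ht
  have : l = 1 ∨ l = 2 ∨ l = 3 ∨ l = 4 ∨ l = 5 ∨ l = 6 ∨ l = 7 := by omega
  rcases this with rfl | rfl | rfl | rfl | rfl | rfl | rfl <;> omega

theorem crit_aux3 (t : ℕ) (ht : 8 ≤ t) (S : Shp) (hn1 : 6 * t ≤ S.size + 20)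
    (hn2 : 7 * t ≤ S.size + 33) (hn3 : 8 * t ≤ S.size + 48)
    (hB : ∑ r ∈ range 8, S.b r ≤ 4 * t - 7) (hA : ∑ r ∈ range 8, S.a r ≤ 4 * t - 7)
    (h7 : S.b 7 ≤ 7) :
    2 * t - 4 ≤ S.b 0 + S.b 1 ∧ 2 * t - 4 ≤ S.a 0 + S.a 1 ∧
      4 * t - 2 ≤ S.b 0 + S.b 1 + (S.a 0 + S.a 1) := by
  have e := S.anti
  have f := S.anti_b
  have ha7 : S.a 7 ≤ 7 := by
    by_contra hcon
    have := (S.h 7 7).1 (by omega)
    omega
  have I1 := S.size_add 8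
  have I2 := S.tr.size_add 8
  rw [Shp.size_tr, Shp.tr_b, Shp.tr_a] at I2
  have hl0 : S.b 8 ≤ 7 := (f (show 7 ≤ 8 by omega)).trans h7
  have hk0 : S.a 8 ≤ 7 := (e (show 7 ≤ 8 by omega)).trans ha7
  have ov := S.overlap (by omega)
  -- general facts for the small cases
  have a01 := e (show 0 ≤ 1 by omega)
  have a12 := e (show 1 ≤ 2 by omega)
  have a18 := e (show 1 ≤ 8 by omega)
  have b01 := f (show 0 ≤ 1 by omega)
  have b12 := f (show 1 ≤ 2 by omega)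
  have b18 := f (show 1 ≤ 8 by omega)
  have hkl := key_kl t S.size _ _ _ _ ht hn1 hn3 hA hB hk0 hl0 ov (fun h => by rw [h] at I1; simpa using I1)
    (fun h => by rw [h] at I2; simpa using I2)
  rcases hkl with ⟨hk, hl⟩ | ⟨hk, hl⟩ | ⟨hk, hl⟩ | ⟨hk, hl⟩ | ⟨hk, hl⟩ | ⟨hk, hl⟩ | ⟨hk, hl⟩ | ⟨hk, hl⟩
  · -- (1, 1)
    rw [hl] at I1
    rw [hk] at I2
    have g1 : S.a 1 ≤ 8 := by
      by_contra hcon
      have := (S.h 1 8).1 (by omega)
      omega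
    exact case11 t S.size _ _ (S.a 0) (S.a 1) (S.b 0) (S.b 1) ht hn1 hA hB
      (by simpa using I1) (by simpa using I2) (by omega) (by omega) g1
      (S.hook_bound (by omega) g1)
  · -- k = 1, l = 2
    rw [hl] at I1
    rw [hk] at I2
    have := case21 t S.size _ _ (S.b 0) (S.b 1) (S.a 0) (S.a 1) ht hn1 hB hA
      (by simpa using I2) (by simpa [sum_range_succ] using I1) (by omega)
    omega
  · -- k = 2, l = 1
    rw [hl] at I1
    rw [hk] at I2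
    have := case21 t S.size _ _ (S.a 0) (S.a 1) (S.b 0) (S.b 1) ht hn1 hA hB
      (by simpa using I1) (by simpa [sum_range_succ] using I2) (by omega)
    omega
  · -- k = 2, l = 2
    rw [hl] at I1
    rw [hk] at I2
    exact case22 t S.size _ _ (S.a 0) (S.a 1) (S.b 0) (S.b 1) ht hn1 hA hB
      (by simpa [sum_range_succ] using I1) (by simpa [sum_range_succ] using I2)
  · -- k = 1, l = 3
    rw [hl] at I1
    rw [hk] at I2
    have := case31 t S.size _ _ (S.b 0) (S.b 1) (S.a 0) (S.a 1) (S.a 2) ht hn1 hn2 hB hA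
      (by simpa using I2) (by simpa [sum_range_succ] using I1) (by omega) (fun h => by
        have x2 := f (show 2 ≤ 8 by omega)
        have x3 := f (show 3 ≤ 8 by omega)
        have x4 := f (show 4 ≤ 8 by omega)
        have x5 := f (show 5 ≤ 8 by omega)
        have x6 := f (show 6 ≤ 8 by omega)
        have x7 := f (show 7 ≤ 8 by omega)
        have y2 := f (show 1 ≤ 2 by omega)
        have y3 := f (show 1 ≤ 3 by omega)
        have y4 := f (show 1 ≤ 4 by omega)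
        have y5 := f (show 1 ≤ 5 by omega)
        have y6 := f (show 1 ≤ 6 by omega)
        have y7 := f (show 1 ≤ 7 by omega)
        simp only [sum_range_succ, sum_range_zero]
        omega) a01 a12
    omega
  · -- k = 3, l = 1
    rw [hl] at I1
    rw [hk] at I2
    have := case31 t S.size _ _ (S.a 0) (S.a 1) (S.b 0) (S.b 1) (S.b 2) ht hn1 hn2 hA hB
      (by simpa using I1) (by simpa [sum_range_succ] using I2) (by omega) (fun h => by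
        have x2 := e (show 2 ≤ 8 by omega)
        have x3 := e (show 3 ≤ 8 by omega)
        have x4 := e (show 4 ≤ 8 by omega)
        have x5 := e (show 5 ≤ 8 by omega)
        have x6 := e (show 6 ≤ 8 by omega)
        have x7 := e (show 7 ≤ 8 by omega)
        have y2 := e (show 1 ≤ 2 by omega)
        have y3 := e (show 1 ≤ 3 by omega)
        have y4 := e (show 1 ≤ 4 by omega)
        have y5 := e (show 1 ≤ 5 by omega)
        have y6 := e (show 1 ≤ 6 by omega)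
        have y7 := e (show 1 ≤ 7 by omega)
        simp only [sum_range_succ, sum_range_zero]
        omega) b01 b12
    omega
  · -- k = 2, l = 3
    rw [hl] at I1
    rw [hk] at I2
    have := case32 t S.size _ _ (S.b 0) (S.b 1) (S.a 0) (S.a 1) (S.a 2) ht hn1 hn2 hB hA
      (by simpa [sum_range_succ] using I2) (by simpa [sum_range_succ] using I1) a01 a12
    omega
  · -- k = 3, l = 2
    rw [hl] at I1
    rw [hk] at I2
    exact case32 t S.size _ _ (S.a 0) (S.a 1) (S.b 0) (S.b 1) (S.b 2) ht hn1 hn2 hA hB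
      (by simpa [sum_range_succ] using I1) (by simpa [sum_range_succ] using I2) b01 b12

/-- THE FOUR-LEVEL LEMMA. -/
theorem crit_large (t : ℕ) (ht : 8 ≤ t) (S : Shp) (hn1 : 6 * t ≤ S.size + 20)
    (hn2 : 7 * t ≤ S.size + 33) (hn3 : 8 * t ≤ S.size + 48) (hn4 : t * t + t ≤ 4 * S.size + 1) :
    Crit t S := by
  by_cases hB : 4 * t - 6 ≤ ∑ r ∈ range 8, S.b r
  · by_cases hB4 : 2 * t - 1 ≤ ∑ r ∈ range 4, S.b r
    · exact Or.inl ⟨hB4, hB⟩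
    · exact Or.inr (Or.inl (crit_aux1 t (by omega) S (by omega) hn4 (by omega) hB))
  by_cases hA : 4 * t - 6 ≤ ∑ r ∈ range 8, S.a r
  · by_cases hA4 : 2 * t - 1 ≤ ∑ r ∈ range 4, S.a r
    · exact Or.inr (Or.inl ⟨hA4, hA⟩)
    · exact Or.inl (crit_aux1 t (by omega) S.tr (by rw [Shp.size_tr]; omega)
        (by rw [Shp.size_tr]; exact hn4) (by rw [Shp.tr_b]; omega) hA)
  · refine Or.inr (Or.inr (crit_aux3 t ht S hn1 hn2 hn3 (by omega) (by omega) ?_))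
    exact crit_aux2 t ht S hn3 hn4 (by omega) (by omega)

theorem key_kl_small (t n A B k l : ℕ) (ht : 4 ≤ t) (ht' : t ≤ 7) (hn : 4 * t ≤ n + 6)
    (hn' : 6 * t ≤ n + 19) (hA : A ≤ 4 * t - 7) (hB : B ≤ 4 * t - 7) (hk : k ≤ 7) (hl : l ≤ 7)
    (h : n + 8 * l + (8 - l) * k ≤ B + A) (h0 : l = 0 → n = B) (h0' : k = 0 → n = A) :
    k = 1 ∧ l = 1 := by
  have hl1 : l ≠ 0 := fun hl => by have := h0 hl; omega
  have hk1 : k ≠ 0 := fun hk => by have := h0' hk; omega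
  clear h0 h0'
  have h3 : 8 * l + (8 - l) * k ≤ 19 := by omega
  clear h hn hn' hA hB ht ht'
  have : l = 1 ∨ l = 2 ∨ l = 3 ∨ l = 4 ∨ l = 5 ∨ l = 6 ∨ l = 7 := by omega
  rcases this with rfl | rfl | rfl | rfl | rfl | rfl | rfl <;> omega

theorem case11_small (t n A B a0 a1 b0 b1 : ℕ) (ht : 4 ≤ t) (ht' : t ≤ 7) (hn : 4 * t ≤ n + 6)
    (hn1 : 6 * t ≤ n + 19) (hA : A ≤ 4 * t - 7) (hB : B ≤ 4 * t - 7) (h1 : n + 8 = B + a0)
    (h2 : n + 8 = A + b0) (h3 : 1 ≤ a1) (h4 : 1 ≤ b1) (h5 : a1 ≤ 8) (h7 : 2 ≤ a1 ↔ 2 ≤ b1)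
    (h6 : B ≤ b0 + (a1 - 1) * b1 + (8 - a1)) :
    2 * t - 4 ≤ b0 + b1 ∧ 2 * t - 4 ≤ a0 + a1 ∧ (4 * t - 2 ≤ b0 + b1 + (a0 + a1) ∨
      (a1 ≤ 1 ∧ b1 ≤ 1 ∧ 4 * t - 3 ≤ b0 + b1 + (a0 + a1))) := by
  by_cases h : 8 ≤ a1 + b1
  · omega
  · have g1 : a1 ≤ 6 := by omega
    interval_cases a1 <;> omega

/-- The four-level lemma for `t = 4, 5, 6, 7`. -/
theorem crit_small (t : ℕ) (ht : 4 ≤ t) (ht' : t ≤ 7) (S : Shp) (hn : 4 * t ≤ S.size + 6)
    (hn1 : 6 * t ≤ S.size + 19) : Crit t S ∨ Hook t S := by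
  have hn4 : t * t + t ≤ 4 * S.size + 1 := by
    have : t = 4 ∨ t = 5 ∨ t = 6 ∨ t = 7 := by omega
    rcases this with rfl | rfl | rfl | rfl <;> omega
  by_cases hB : 4 * t - 6 ≤ ∑ r ∈ range 8, S.b r
  · left
    by_cases hB4 : 2 * t - 1 ≤ ∑ r ∈ range 4, S.b r
    · exact Or.inl ⟨hB4, hB⟩
    · exact Or.inr (Or.inl (crit_aux1 t ht S (by omega) hn4 (by omega) hB))
  by_cases hA : 4 * t - 6 ≤ ∑ r ∈ range 8, S.a r
  · left
    by_cases hA4 : 2 * t - 1 ≤ ∑ r ∈ range 4, S.a r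
    · exact Or.inr (Or.inl ⟨hA4, hA⟩)
    · exact Or.inl (crit_aux1 t ht S.tr (by rw [Shp.size_tr]; omega)
        (by rw [Shp.size_tr]; exact hn4) (by rw [Shp.tr_b]; omega) hA)
  have e := S.anti
  have f := S.anti_b
  have h7 : S.b 7 ≤ 7 := by
    have : 8 * S.b 7 ≤ ∑ c ∈ range 8, S.b c := by
      refine le_trans ?_ (sum_le_sum (f := fun _ => S.b 7) fun c hc =>
        f (show c ≤ 7 by have := mem_range.1 hc; omega))
      simp
    omega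
  have ha7 : S.a 7 ≤ 7 := by
    by_contra hcon
    have := (S.h 7 7).1 (by omega)
    omega
  have I1 := S.size_add 8
  have I2 := S.tr.size_add 8
  rw [Shp.size_tr, Shp.tr_b, Shp.tr_a] at I2
  have hl0 : S.b 8 ≤ 7 := (f (show 7 ≤ 8 by omega)).trans h7
  have hk0 : S.a 8 ≤ 7 := (e (show 7 ≤ 8 by omega)).trans ha7
  have ov := S.overlap (by omega)
  have a18 := e (show 1 ≤ 8 by omega)
  have b18 := f (show 1 ≤ 8 by omega)
  obtain ⟨hk, hl⟩ := key_kl_small t S.size _ _ _ _ ht ht' hn hn1 (by omega) (by omega) hk0 hl0 ov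
    (fun h => by rw [h] at I1; simpa using I1) (fun h => by rw [h] at I2; simpa using I2)
  rw [hl] at I1
  rw [hk] at I2
  have g1 : S.a 1 ≤ 8 := by
    by_contra hcon
    have := (S.h 1 8).1 (by omega)
    omega
  have g2 := S.h 1 1
  have := case11_small t S.size _ _ (S.a 0) (S.a 1) (S.b 0) (S.b 1) ht ht' hn hn1
    (show ∑ r ∈ range 8, S.a r ≤ 4 * t - 7 by omega)
    (show ∑ r ∈ range 8, S.b r ≤ 4 * t - 7 by omega) (by simpa using I1) (by simpa using I2)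
    (by omega) (by omega) g1 (by omega) (S.hook_bound (by omega) g1)
  rcases this with ⟨x1, x2, x3 | ⟨x3, x4, x5⟩⟩
  · exact Or.inl (Or.inr (Or.inr ⟨x1, x2, x3⟩))
  · exact Or.inr ⟨x3, x4, x1, x2, x5⟩

/-- The arithmetic condition on `(n, t)` for the TOP-4 rule. -/
def Rng (n t : ℕ) : Prop :=
  (8 ≤ t ∧ 6 * t ≤ n + 20 ∧ 7 * t ≤ n + 33 ∧ 8 * t ≤ n + 48 ∧ t * t + t ≤ 4 * n + 1) ∨
  (4 ≤ t ∧ t ≤ 7 ∧ 4 * t ≤ n + 6 ∧ 6 * t ≤ n + 19)

instance (n t : ℕ) : Decidable (Rng n t) := by unfold Rng; infer_instance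

/-- The TOP-4 rule in arithmetic form. -/
theorem Full.top {n m k t : ℕ} (h : Full m k) (hk : k + 4 ≤ t) (hn : n + 6 = m + 4 * t)
    (hr : Rng n t) : Full n t := by
  have e : n = m + 4 * t - 6 := by omega
  subst e
  refine h.four' hk fun lam hl => ?_
  rw [← hl] at hr
  rcases hr with ⟨h1, h2, h3, h4, h5⟩ | ⟨h1, h2, h3, h4⟩
  · exact Or.inl (crit_large t h1 lam h2 h3 h4 h5)
  · exact crit_small t h1 h2 lam h3 h4

end Crest.Agent.SY
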