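import Crest.Agent.SZ_Mul
import Crest.Agent.SX_Main
import Crest.Agent.SX_Int

/-!
# S0298 small `n`: to equivariant maps, the end (task SZ-4b)
-/

set_option autoImplicit false

namespace Crest.Agent.SZ

open Equiv Equiv.Perm TensorProduct Crest.Agent.SX

variable {Ω ι κ : Type} [Fintype Ω] [DecidableEq Ω]

private theorem Sp3_slice {a : ι → ℕ} {c : κ → ℕ} {H : W3 Ω → ℂ} (hH : H ∈ Sp3 (Ω := Ω) a a c)
    (w : Ω → ℕ) : (fun y : WW Ω => H (y.1, y.2, w)) ∈ VV (Ω := Ω) a := by
  refine Submodule.span_induction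
    (p := fun H _ => (fun y : WW Ω => H (y.1, y.2, w)) ∈ VV (Ω := Ω) a) ?_ ?_ ?_ ?_ hH
  · rintro _ ⟨t1, t2, t3, rfl⟩
    have : (fun y : WW Ω => pt t1 y.1 * pt t2 y.2 * pt t3 w) =
        pt t3 w • fun y : WW Ω => pt t1 y.1 * pt t2 y.2 := by
      funext y
      simp [mul_comm]
    exact this ▸ Submodule.smul_mem _ _ (gen_mem_VV t1 t2)
  · exact Submodule.zero_mem _
  · intro F G _ _ h1 h2
    exact Submodule.add_mem _ h1 h2
  · intro r F _ h1
    exact Submodule.smul_mem _ r h1

private theorem Sp3_last {a : ι → ℕ} {c : κ → ℕ} {H : W3 Ω → ℂ} (hH : H ∈ Sp3 (Ω := Ω) a a c)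
    (u v : Ω → ℕ) : (fun w => H (u, v, w)) ∈ Sp (Ω := Ω) c := by
  refine Submodule.span_induction
    (p := fun H _ => (fun w => H (u, v, w)) ∈ Sp (Ω := Ω) c) ?_ ?_ ?_ ?_ hH
  · rintro _ ⟨t1, t2, t3, rfl⟩
    exact Submodule.smul_mem _ (pt t1 u * pt t2 v) (pt_mem_Sp t3)
  · exact Submodule.zero_mem _
  · intro F G _ _ h1 h2
    exact Submodule.add_mem _ h1 h2
  · intro r F _ h1
    exact Submodule.smul_mem _ r h1

private theorem Sp_conj {c : κ → ℕ} {F : (Ω → ℕ) → ℂ} (hF : F ∈ Sp (Ω := Ω) c) :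
    (fun w => (starRingEnd ℂ) (F w)) ∈ Sp (Ω := Ω) c := by
  refine Submodule.span_induction
    (p := fun F _ => (fun w => (starRingEnd ℂ) (F w)) ∈ Sp (Ω := Ω) c) ?_ ?_ ?_ ?_ hF
  · rintro _ ⟨t, rfl⟩
    have : (fun w => (starRingEnd ℂ) (pt t w)) = pt t := by
      funext w
      by_cases hw : pt t w = 0
      · rw [hw, map_zero]
      · obtain ⟨s, h1, h2⟩ := pt_ne_zero hw
        rw [pt_eq_sign t s h1 h2]
        simp
    exact this ▸ pt_mem_Sp t
  · have : (fun w : Ω → ℕ => (starRingEnd ℂ) ((0 : (Ω → ℕ) → ℂ) w)) = 0 := by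
      funext w
      simp
    rw [this]
    exact Submodule.zero_mem _
  · intro F G _ _ h1 h2
    have : (fun w : Ω → ℕ => (starRingEnd ℂ) ((F + G) w)) =
        (fun w => (starRingEnd ℂ) (F w)) + fun w => (starRingEnd ℂ) (G w) := by
      funext w
      simp
    exact this ▸ Submodule.add_mem _ h1 h2
  · intro r F _ h1
    have : (fun w : Ω → ℕ => (starRingEnd ℂ) ((r • F) w)) =
        (starRingEnd ℂ) r • fun w => (starRingEnd ℂ) (F w) := by
      funext w
      simp
    exact this ▸ Submodule.smul_mem _ _ h1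

/-- From an invariant function to an equivariant map: `j F (u, v) = ∑_w F w * H (u, v, w)`, the sum
over the words `w` with letters `< n`, `n` = bound of the heights. Not zero: choose `(u, v)` with
`H (u, v, ·) ≠ 0`; this function is in `Sp c`, so is its complex conjugate `F` (polytabloids are
real), and `∑_w |H (u, v, w)|^2 ≠ 0`. -/
theorem hom_of_Kr [Fintype ι] [Fintype κ] {a : ι → ℕ} {c : κ → ℕ} (h : Kr Ω a a c) :
    ∃ j : Sp (Ω := Ω) c →ₗ[ℂ] (WW Ω → ℂ), j ≠ 0 ∧
      (∀ g F x, j (SpRep Ω c g F) x = j F (pull g x)) ∧ ∀ F, j F ∈ VV (Ω := Ω) a := by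
  classical
  obtain ⟨H, hH, hH0, hinv⟩ := h
  obtain ⟨n, hn⟩ : ∃ n, ∀ i, c i ≤ n := ⟨Finset.univ.sup c, fun i => Finset.le_sup (Finset.mem_univ i)⟩
  let wd : (Ω → Fin n) → (Ω → ℕ) := fun w x => (w x : ℕ)
  let j : Sp (Ω := Ω) c →ₗ[ℂ] (WW Ω → ℂ) :=
    { toFun := fun F y => ∑ w : Ω → Fin n, F.1 (wd w) * H (y.1, y.2, wd w)
      map_add' := fun F G => by
        funext y
        simp only [Submodule.coe_add, Pi.add_apply, add_mul, Finset.sum_add_distrib]
      map_smul' := fun r F => by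
        funext y
        simp only [Submodule.coe_smul, Pi.smul_apply, smul_eq_mul, mul_assoc, Finset.mul_sum,
          RingHom.id_apply] }
  have hj : ∀ F y, j F y = ∑ w : Ω → Fin n, F.1 (wd w) * H (y.1, y.2, wd w) := fun _ _ => rfl
  refine ⟨j, ?_, ?_, ?_⟩
  · obtain ⟨x, hx⟩ : ∃ x, H x ≠ 0 := by
      by_contra hcon
      push Not at hcon
      exact hH0 (funext hcon)
    intro hj0
    let F : Sp (Ω := Ω) c := ⟨_, Sp_conj (Sp3_last hH x.1 x.2.1)⟩
    have h1 : j F (x.1, x.2.1) = 0 := by rw [hj0]; rfl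
    rw [hj] at h1
    have h2 : ∀ w : Ω → Fin n, F.1 (wd w) * H (x.1, x.2.1, wd w) =
        ((Complex.normSq (H (x.1, x.2.1, wd w)) : ℝ) : ℂ) := by
      intro w
      rw [Complex.normSq_eq_conj_mul_self]
    simp only [h2] at h1
    rw [← Complex.ofReal_sum, Complex.ofReal_eq_zero,
      Finset.sum_eq_zero_iff_of_nonneg (fun _ _ => Complex.normSq_nonneg _)] at h1
    have hb := Sp_bdd (Sp3_last hH x.1 x.2.1) hn (w := x.2.2) hx
    have h3 := h1 (fun y => ⟨x.2.2 y, hb y⟩) (Finset.mem_univ _)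
    rw [Complex.normSq_eq_zero] at h3
    exact hx h3
  · intro g F x
    rw [hj, hj]
    refine Fintype.sum_equiv (Equiv.arrowCongr g.symm (Equiv.refl _)) _ _ fun w => ?_
    have e1 : wd ((Equiv.arrowCongr g.symm (Equiv.refl (Fin n))) w) = wd w ∘ g := by
      funext y
      rfl
    rw [e1]
    have e2 := hinv g (x.1, x.2, wd w)
    rw [← e2]
    rfl
  · intro F
    have h4 : j F = ∑ w : Ω → Fin n, F.1 (wd w) • fun y : WW Ω => H (y.1, y.2, wd w) := by
      funext y
      rw [hj, Finset.sum_apply]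
      rfl
    rw [h4]
    exact Submodule.sum_mem _ fun w _ => Submodule.smul_mem _ _ (Sp3_slice hH (wd w))

/-- THE END: if all `KL a a c` hold, the Specht module with columns `a` has a tensor square which
contains all irreducible representations (`completeness`, `Sp_irr`, `hom_of_Kr`, `VV_le_range`,
`PhiS_inj`, `PhiS_equiv`; transport along `Fin n`). -/
theorem of_KL (n : ℕ) (a : List ℕ) (ha : a.sum = n)
    (h : ∀ c : List ℕ, (∀ x ∈ c, 0 < x) → c.sum = n → KL a a c) :
    ∃ (V : Type) (_ : AddCommGroup V) (_ : Module ℂ V) (_ : FiniteDimensional ℂ V)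
      (ρ : Representation ℂ (Equiv.Perm (Fin n)) V), Representation.IsIrreducible ρ ∧
      ∀ (W : Type) [AddCommGroup W] [Module ℂ W] [FiniteDimensional ℂ W]
        (σ : Representation ℂ (Equiv.Perm (Fin n)) W), Representation.IsIrreducible σ →
        Nontrivial (Representation.IntertwiningMap σ (Representation.tprod ρ ρ)) := by
  have hne : Nonempty (Fin n ≃ Cel a.get) := by
    apply Fintype.card_eq.1
    rw [Fintype.card_sigma]
    simp only [Fintype.card_fin]
    rw [← ha, ← List.sum_ofFn, List.ofFn_get]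
  refine ⟨Sp (Ω := Fin n) a.get, inferInstance, inferInstance, inferInstance,
    SpRep (Fin n) a.get, Sp_irr hne, ?_⟩
  intro W _ _ _ σ hσ
  have hW : Nontrivial W := by
    by_contra hn
    rw [not_nontrivial_iff_subsingleton] at hn
    have h1 := hσ
    have h2 : (⊥ : Subrepresentation σ) ≠ ⊤ := bot_ne_top
    apply h2
    apply SetLike.ext
    intro x
    have hx : x = 0 := Subsingleton.elim _ _
    subst hx
    constructor
    · intro _; trivial
    · intro _; exact Submodule.zero_mem (⊥ : Subrepresentation σ).toSubmodule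
  obtain ⟨l, hh, -, hpos, hsum, f, hinj, hf, hS⟩ := completeness σ hσ
  rw [Fintype.card_fin] at hsum
  have hK : Kr (Fin n) a.get a.get hh := by
    have h1 := (h (List.ofFn hh) (by
      intro x hx
      obtain ⟨i, rfl⟩ := (List.mem_ofFn' _ _).1 hx
      exact hpos i) (by rw [List.sum_ofFn, hsum])).2.2 (Fin n) (by
        rw [Fintype.card_fin, List.sum_ofFn, hsum])
    have hlen : l = (List.ofFn hh).length := by simp
    have h2 := Kr_reindex (Equiv.refl _) (Equiv.refl _) (finCongr hlen) h1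
    have h3 : (List.ofFn hh).get ∘ (finCongr hlen) = hh := by
      funext i
      simp
    rw [h3] at h2
    exact h2
  obtain ⟨j, hj0, hj, hjV⟩ := hom_of_Kr hK
  have hneh : Nonempty (Fin n ≃ Cel hh) := by
    apply Fintype.card_eq.1
    rw [Fintype.card_sigma]
    simp only [Fintype.card_fin]
    exact hsum.symm
  have hjinj : Function.Injective j := injective_of_irr (SpRep (Fin n) hh) (Sp_irr hneh) j hj hj0
  let f' : W →ₗ[ℂ] Sp (Ω := Fin n) hh := LinearMap.codRestrict _ f hS
  have hf' : ∀ g w, f' (σ g w) = SpRep (Fin n) hh g (f' w) := by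
    intro g w
    apply Subtype.ext
    funext x
    exact hf g w x
  have hG : Good (⊤ : AddSubgroup ℂ) a.get ((fun _ => 0, fun _ => 0) : WW (Fin n)) σ := by
    refine ⟨j ∘ₗ f', ?_, ?_, fun w => hjV _, fun _ _ _ => trivial⟩
    · intro x y hxy
      have h4 : f' x = f' y := hjinj hxy
      exact hinj (congrArg Subtype.val h4)
    · intro g w x
      show j (f' (σ g w)) x = j (f' w) (pull g x)
      rw [hf', hj]
  obtain ⟨Ψ, hΨ1, hΨ2⟩ := Good_intertwine a.get σ hG
  let Ψ' : Representation.IntertwiningMap σ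
      (Representation.tprod (SpRep (Fin n) a.get) (SpRep (Fin n) a.get)) :=
    { toLinearMap := Ψ
      isIntertwining' := by
        intro g
        ext w
        exact hΨ2 g w }
  refine ⟨⟨Ψ', 0, fun h0 => ?_⟩⟩
  obtain ⟨w, hw⟩ := exists_ne (0 : W)
  have h1 : Ψ w = 0 := congrArg (fun f : Representation.IntertwiningMap σ _ => f w) h0
  exact hw (hΨ1 (by rw [h1, map_zero]))

end Crest.Agent.SZ
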