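import Crest.Agent.SZ_Code

/-!
# S0298 small `n`: the stack machine which checks the certificates (task SZ-7)
-/

set_option autoImplicit false

namespace Crest.Agent.SZ

/-- `(n, a, b, c)` stands for `KN n a b c`. -/
abbrev Fact : Type := ℕ × ℕ × ℕ × ℕ

def Fact.ok (f : Fact) : Prop := f.1 ≤ 63 ∧ KN f.1 f.2.1 f.2.2.1 f.2.2.2

/-- Read `m` digits in base 64: the list and the rest. -/
def rd : ℕ → ℕ → List ℕ × ℕ
  | 0, p => ([], p)
  | m + 1, p => let r := rd m (p / 64); (p % 64 :: r.1, r.2)

/-- The machine. The program is a number, read in base 64 from the least significant digit: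
* `0`: end;
* `1 ≤ h ≤ 47`: push the trivial triple of one column of height `h`;
* `48`: add the two top facts; `49`: rotate `(a, b, c) ↦ (b, c, a)`; `50`: swap `(a, b, c) ↦ (b, a, c)`;
* `51`: conjugate `a` and `b`;
* `52`: `k`, `m`, and `m` digits `c`: push the Saxl triple `(ρ_k, ρ_k, c)`;
* `53`: `i`: push the fact number `i` of the library. -/
def run (lib : List Fact) : ℕ → ℕ → List Fact → List Fact
  | 0, _, st => st
  | f + 1, p, st =>
    let d := p % 64
    let p := p / 64
    if d = 0 then st
    else if d < 48 then run lib f p ((d, d, 64 ^ (d - 1), 64 ^ (d - 1)) :: st)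
    else if d = 48 then
      match st with
      | x :: y :: st => if x.1 + y.1 ≤ 63 then
          run lib f p ((x.1 + y.1, x.2.1 + y.2.1, x.2.2.1 + y.2.2.1, x.2.2.2 + y.2.2.2) :: st)
          else []
      | _ => []
    else if d = 49 then
      match st with
      | x :: st => run lib f p ((x.1, x.2.2.1, x.2.2.2, x.2.1) :: st)
      | _ => []
    else if d = 50 then
      match st with
      | x :: st => run lib f p ((x.1, x.2.2.1, x.2.1, x.2.2.2) :: st)
      | _ => []
    else if d = 51 then
      match st with
      | x :: st => run lib f p ((x.1, trC x.2.1, trC x.2.2.1, x.2.2.2) :: st)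
      | _ => []
    else if d = 52 then
      let k := p % 64
      let m := p / 64 % 64
      let r := rd m (p / 4096)
      if (r.1.all fun h => decide (0 < h)) && decide (2 * r.1.sum = k * (k + 1)) &&
          decide (r.1.sum ≤ 63) then
        run lib f r.2 ((r.1.sum, enc (stairL k), enc (stairL k), enc r.1) :: st)
      else []
    else if d = 53 then
      match lib[p % 64]? with
      | some x => run lib f (p / 64) (x :: st)
      | none => []
    else []

attribute [local irreducible] trC in
private theorem run_tw {x : Fact} (h : x.ok) :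
    Fact.ok (x.1, trC x.2.1, trC x.2.2.1, x.2.2.2) := by
  obtain ⟨n, a, b, c⟩ := x
  obtain ⟨h1, h2⟩ := h
  have h1' : n ≤ 63 := h1
  have h2' : KN n a b c := h2
  exact ⟨h1', KN_tw h1' h2'⟩

attribute [local irreducible] trC in
theorem run_ok (lib : List Fact) (hlib : ∀ x ∈ lib, x.ok) (f p : ℕ) (st : List Fact)
    (hst : ∀ x ∈ st, x.ok) : ∀ x ∈ run lib f p st, x.ok := by
  have hnil : ∀ x ∈ ([] : List Fact), x.ok := fun x hx => absurd hx List.not_mem_nil
  have hcons : ∀ (y : Fact) (l : List Fact), y.ok → (∀ x ∈ l, x.ok) → ∀ x ∈ y :: l, x.ok := by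
    intro y l hy hl x hx
    rcases List.mem_cons.1 hx with rfl | hx
    · exact hy
    · exact hl x hx
  induction f generalizing p st with
  | zero => exact hst
  | succ f ih =>
    unfold run
    simp only
    by_cases h0 : p % 64 = 0
    · rw [if_pos h0]
      exact hst
    rw [if_neg h0]
    by_cases h1 : p % 64 < 48
    · rw [if_pos h1]
      refine ih _ _ (hcons _ _ ⟨?_, ?_⟩ hst)
      · show p % 64 ≤ 63
        omega
      · exact KN_col (p % 64) (Nat.pos_of_ne_zero h0)
    rw [if_neg h1]
    by_cases h2 : p % 64 = 48
    · rw [if_pos h2]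
      match st, hst with
      | [], _ => exact hnil
      | [x], _ => exact hnil
      | x :: y :: st, hst =>
        simp only
        by_cases h3 : x.1 + y.1 ≤ 63
        · rw [if_pos h3]
          refine ih _ _ (hcons _ _ ⟨h3, ?_⟩ fun z hz => hst z
            (List.mem_cons_of_mem _ (List.mem_cons_of_mem _ hz)))
          exact KN_add (hst x (by simp)).2 (hst y (by simp)).2
        · rw [if_neg h3]
          exact hnil
    rw [if_neg h2]
    by_cases h3 : p % 64 = 49
    · rw [if_pos h3]
      match st, hst with
      | [], _ => exact hnil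
      | x :: st, hst =>
        simp only
        refine ih _ _ (hcons _ _ ⟨(hst x (by simp)).1, ?_⟩ fun z hz => hst z
            (List.mem_cons_of_mem _ hz))
        exact KN_rot (hst x (by simp)).2
    rw [if_neg h3]
    by_cases h4 : p % 64 = 50
    · rw [if_pos h4]
      match st, hst with
      | [], _ => exact hnil
      | x :: st, hst =>
        simp only
        refine ih _ _ (hcons _ _ ⟨(hst x (by simp)).1, ?_⟩ fun z hz => hst z
            (List.mem_cons_of_mem _ hz))
        exact KN_swap (hst x (by simp)).2
    rw [if_neg h4]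
    by_cases h5 : p % 64 = 51
    · rw [if_pos h5]
      match st, hst with
      | [], _ => exact hnil
      | x :: st, hst =>
        have hx := hst x List.mem_cons_self
        exact ih _ _ (hcons _ _ (run_tw hx) fun z hz => hst z (List.mem_cons_of_mem _ hz))
    rw [if_neg h5]
    by_cases h6 : p % 64 = 52
    · rw [if_pos h6]
      split_ifs with h7
      · simp only [Bool.and_eq_true, List.all_eq_true, decide_eq_true_eq] at h7
        obtain ⟨⟨h8, h9⟩, h10⟩ := h7
        refine ih _ _ (hcons _ _ ⟨h10, ?_⟩ hst)
        exact KN_saxl _ _ h8 h9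
      · exact hnil
    rw [if_neg h6]
    by_cases h7 : p % 64 = 53
    · rw [if_pos h7]
      split
      · rename_i x hx
        exact ih _ _ (hcons _ _ (hlib x (List.mem_of_getElem? hx)) hst)
      · exact hnil
    rw [if_neg h7]
    exact hnil

/-- The check for `n`, with the shape of code `m`: `cs` = codes of partitions, `ps` = programs for
the `c` with `c ≤ trC c`, in the same order. -/
def chk (lib : List Fact) (n m : ℕ) : List ℕ → List ℕ → Bool
  | [], _ => true
  | c :: cs, ps =>
    if trC c < c then chk lib n m cs ps else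
      match ps with
      | [] => false
      | p :: ps =>
        match run lib 1000 p [] with
        | x :: _ => (x.1 == n) && (x.2.1 == m) && (x.2.2.1 == m) && (x.2.2.2 == c) &&
            chk lib n m cs ps
        | [] => false

theorem chk_ok (lib : List Fact) (hlib : ∀ x ∈ lib, x.ok) (n m : ℕ) (cs ps : List ℕ)
    (h : chk lib n m cs ps = true) : ∀ c ∈ cs, ¬ trC c < c → KN n m m c := by
  induction cs generalizing ps with
  | nil => intro c hc; exact absurd hc List.not_mem_nil
  | cons c cs ih =>
    unfold chk at h
    by_cases h0 : trC c < c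
    · rw [if_pos h0] at h
      intro c' hc' h'
      rcases List.mem_cons.1 hc' with rfl | hc'
      · exact absurd h0 h'
      · exact ih ps h c' hc' h'
    · rw [if_neg h0] at h
      match ps, h with
      | [], h => exact absurd h (by simp)
      | p :: ps, h =>
        simp only at h
        have hrun := run_ok lib hlib 1000 p [] (fun x hx => absurd hx List.not_mem_nil)
        split at h
        · rename_i x l hx
          simp only [Bool.and_eq_true, beq_iff_eq] at h
          obtain ⟨⟨⟨⟨h1, h2⟩, h3⟩, h4⟩, h5⟩ := h
          intro c' hc' h'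
          rcases List.mem_cons.1 hc' with rfl | hc'
          · have h6 := (hrun x (by rw [hx]; exact List.mem_cons_self)).2
            rw [h1, h2, h3, h4] at h6
            exact h6
          · exact ih ps h5 c' hc' h'
        · exact absurd h (by simp)

/-- THE CHECK. (`mem_gen'`, `chk_ok`; for `c` with `trC c < c` use the conjugate: `trC_enc`,
`trL_trL`, `KN_tw`, `KN_rot`, `KN_swap`; `KL_of_KN`.) -/
theorem KL_of_chk (lib : List Fact) (hlib : ∀ x ∈ lib, x.ok) (n : ℕ) (hn : n ≤ 63) (a : List ℕ)
    (ha : ∀ h ∈ a, 0 < h) (ha' : a.sum = n) (hm : trC (enc a) = enc a) (ps : List ℕ)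
    (h : chk lib n (enc a) (gen n n) ps = true) (c : List ℕ) (hc : ∀ h ∈ c, 0 < h)
    (hc' : c.sum = n) : KL a a c := by
  have key := chk_ok lib hlib n (enc a) (gen n n) ps h
  by_cases h0 : trC (enc c) < enc c
  · have e1 : enc (trL c) = trC (enc c) := trC_enc hc (by omega)
    have e2 : enc (trL (trL c)) = trC (enc (trL c)) :=
      trC_enc (trL_pos c) (by rw [trL_sum]; omega)
    have e3 : enc (trL (trL c)) = enc c := enc_perm (trL_trL hc)
    have h1 := key (enc (trL c)) (mem_gen' n (trL c) (trL_pos c) (by rw [trL_sum]; exact hc'))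
      (by rw [← e2, e3, e1]; omega)
    have h2 := KN_tw hn (KN_rot h1)
    rw [hm, ← e2, e3] at h2
    exact KL_of_KN hn ha ha hc ha' ha' hc' (KN_rot (KN_swap h2))
  · exact KL_of_KN hn ha ha hc ha' ha' hc' (key (enc c) (mem_gen' n c hc hc') h0)

end Crest.Agent.SZ
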