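import Crest.Agent.SY_R9
import Crest.Agent.SZ_Run
import Crest.Agent.SZ_HomB

/-!
# S0298: mixed conclusion: derivations and semigroup certificates (owner: helper61)
-/

set_option autoImplicit false

namespace Crest.Agent.SY

open Equiv Equiv.Perm TensorProduct Crest.Agent.SX

/-- From a function valued embedding to the intertwining map. -/
theorem psi_of_map {Ω ι W : Type} [Fintype Ω] [DecidableEq Ω] [Fintype ι] (h : ι → ℕ)
    [AddCommGroup W] [Module ℂ W] (σ : Representation ℂ (Perm Ω) W) (hσ : σ.IsIrreducible)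
    (f : W →ₗ[ℂ] (WW Ω → ℂ)) (hf0 : f ≠ 0) (hf : ∀ g w x, f (σ g w) x = f w (pull g x))
    (hV : ∀ w, f w ∈ VV (Ω := Ω) h) :
    ∃ Ψ : W →ₗ[ℂ] (Sp (Ω := Ω) h ⊗[ℂ] Sp (Ω := Ω) h), Function.Injective Ψ ∧
      ∀ g w, Ψ (σ g w) = Representation.tprod (SpRep Ω h) (SpRep Ω h) g (Ψ w) :=
  Good_intertwine h (R := ⊤) (p := (fun _ => 0, fun _ => 0)) σ
    ⟨f, injective_of_irrG (fun g x => pull g x) σ hσ f hf hf0, hf, hV,
      fun _ _ _ => AddSubgroup.mem_top _⟩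

/-- From a Kronecker certificate. -/
theorem psi_of_Kr {Ω ι κ W : Type} [Fintype Ω] [DecidableEq Ω] [Fintype ι] [Fintype κ]
    [DecidableEq κ] {a : ι → ℕ} {c : κ → ℕ} (hK : Crest.Agent.SZ.Kr Ω a a c)
    [AddCommGroup W] [Module ℂ W] (σ : Representation ℂ (Perm Ω) W) (hσ : σ.IsIrreducible)
    (hE : Emb σ c) :
    ∃ Ψ : W →ₗ[ℂ] (Sp (Ω := Ω) a ⊗[ℂ] Sp (Ω := Ω) a), Function.Injective Ψ ∧
      ∀ g w, Ψ (σ g w) = Representation.tprod (SpRep Ω a) (SpRep Ω a) g (Ψ w) := by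
  obtain ⟨j, hj0, hje, hjV⟩ := Crest.Agent.SZ.hom_of_Kr hK
  obtain ⟨f, hf1, hf2, hf3⟩ := hE
  have := nontrivial_of_irr σ hσ
  let f' : W →ₗ[ℂ] Sp (Ω := Ω) c := LinearMap.codRestrict _ f hf3
  refine psi_of_map a σ hσ (j ∘ₗ f') ?_ ?_ fun w => hjV _
  · intro h0
    apply hj0
    -- `f'` is onto
    have hr : LinearMap.range f = Sp (Ω := Ω) c := by
      refine Sp_submodule (LinearMap.range f) ?_ ?_ ?_
      · rintro _ ⟨w, rfl⟩
        exact hf3 w
      · rintro _ ⟨w, rfl⟩ g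
        exact ⟨σ g w, funext fun x => hf2 g w x⟩
      · intro hb
        obtain ⟨w, hw⟩ := exists_ne (0 : W)
        rw [LinearMap.range_eq_bot] at hb
        exact hw (hf1 (by rw [hb]; rfl))
    ext F x
    obtain ⟨w, hw⟩ : ∃ w, f w = F.1 := by
      have h1 : F.1 ∈ LinearMap.range f := by rw [hr]; exact F.2
      exact h1
    have h2 : F = f' w := Subtype.ext hw.symm
    rw [h2]
    exact congrFun (congrArg (fun G : W →ₗ[ℂ] (WW Ω → ℂ) => G w) h0) x
  · intro g w x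
    show j (f' (σ g w)) x = j (f' w) (pull g x)
    rw [← hje]
    have e1 : f' (σ g w) = SpRep Ω c g (f' w) := by
      apply Subtype.ext
      funext y
      exact hf2 g w y
    rw [e1]

/-- Mixed final theorem. -/
theorem Concl_mixed (n k : ℕ) (J : ℕ → Bool) (g : Shp) (hg : g.size = n)
    (hn : n = ∑ j ∈ Finset.range k, if J (j + 1) = true then j + 1 else 0)
    (H : ∀ lam : Shp, lam.size = n → Der J k g g lam ∨
      Crest.Agent.SZ.Kr (Fin n) g.hf g.hf lam.hf) :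
    Concl n := by
  classical
  obtain ⟨V, hV⟩ := exists_val
  obtain ⟨eΩ⟩ : Nonempty (Fin n ≃ {x : Bx k // J ((x.1.1 : ℕ) + x.1.2 + 1) = true}) := by
    refine Fintype.card_eq.1 ?_
    rw [card_fib, ← hn, Fintype.card_fin]
  obtain ⟨eg⟩ : Nonempty (Fin n ≃ Cel g.hf) := by
    refine Fintype.card_eq.1 ?_
    rw [Fintype.card_sigma, Fintype.card_fin]
    simp only [Fintype.card_fin]
    rw [Shp.sum_hf, hg]
  let Z : Type := {x : Bx k // ¬ J ((x.1.1 : ℕ) + x.1.2 + 1) = true}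
  let p : WW (Fin n ⊕ Z) :=
    (Sum.elim (fun i => ((eΩ i).1.1.1 : ℕ)) (fun z => (z.1.1.1 : ℕ)),
      Sum.elim (fun i => ((eΩ i).1.1.2 : ℕ)) (fun z => (z.1.1.2 : ℕ)))
  have hcard : 2 * (Fintype.card (Fin n) + Fintype.card Z) = k * (k + 1) := by
    rw [← card_Bx k, Fintype.card_congr eΩ]
    congr 1
    rw [← Fintype.card_sum]
    exact Fintype.card_congr (Equiv.sumCompl _)
  have hinj0 : ∀ x y : Bx k, (x.1.1 : ℕ) = y.1.1 → (x.1.2 : ℕ) = y.1.2 → x = y := by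
    intro x y h1 h2
    apply Subtype.ext
    apply Prod.ext
    · exact Fin.ext h1
    · exact Fin.ext h2
  have hp : IsStair k p := by
    constructor
    · rintro (x | x) (y | y) hxy
      · have h1 := hinj0 (eΩ x).1 (eΩ y).1 (Prod.mk.inj hxy).1 (Prod.mk.inj hxy).2
        rw [eΩ.injective (Subtype.ext h1)]
      · have h1 := hinj0 (eΩ x).1 y.1 (Prod.mk.inj hxy).1 (Prod.mk.inj hxy).2
        exact absurd (h1 ▸ (eΩ x).2) y.2
      · have h1 := hinj0 x.1 (eΩ y).1 (Prod.mk.inj hxy).1 (Prod.mk.inj hxy).2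
        exact absurd (h1 ▸ (eΩ y).2) x.2
      · have h1 := hinj0 x.1 y.1 (Prod.mk.inj hxy).1 (Prod.mk.inj hxy).2
        rw [Subtype.ext h1]
    · rintro (x | x)
      · exact (eΩ x).1.2
      · exact x.1.2
  have hA : Adm J p := by
    refine ⟨fun a => (eΩ a).2, fun z => ?_⟩
    have := z.2
    rwa [Bool.not_eq_true] at this
  have hirr : (SpRep (Fin n) g.hf).IsIrreducible := Sp_irr ⟨eg⟩
  refine ⟨Sp (Ω := Fin n) g.hf, inferInstance, inferInstance, inferInstance, SpRep (Fin n) g.hf,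
    hirr, ?_⟩
  intro W _ _ _ σ hσ
  obtain ⟨lam, hlam, hE⟩ := complStatement (Fin n) W σ hσ
  rw [Fintype.card_fin] at hlam
  rcases H lam hlam with hD | hK
  · have hGG := GG_of_Der t1Statement t3Statement sgnStatement resHStatement resPStatement V hV hD
    obtain ⟨X, Y, hX1, hY1, hX2, hY2, hG⟩ := hGG (Fin n) Z hcard p hp hA W σ hσ hE
    obtain ⟨Ψ, h1, h2⟩ := GoodZ_intertwine (isoStatement _ _ k g X hX1 hX2)
      (isoStatement _ _ k g Y hY1 hY2) σ hσ hG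
    exact nontrivial_of_psi σ hσ (SpRep (Fin n) g.hf) Ψ h1 h2
  · obtain ⟨Ψ, h1, h2⟩ := psi_of_Kr hK σ hσ hE
    exact nontrivial_of_psi σ hσ (SpRep (Fin n) g.hf) Ψ h1 h2

end Crest.Agent.SY
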