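import Crest.Agent.SY_M1

/-!
# S0298: `n = 47`: the Kronecker certificate of the partition `(18, 5, 5, 3, 3, 1^13)`
(owner: helper61)
-/

set_option autoImplicit false

namespace Crest.Agent.SY

open Equiv Equiv.Perm TensorProduct Crest.Agent.SX Crest.Agent.SZ

/-- columns of the type -/
def l47 : List ℕ := [11, 10, 7, 3, 3, 3, 3, 2, 2, 2, 1]

/-- columns of the exceptional partition -/
def x47 : List ℕ := [18, 5, 5, 3, 3, 1, 1, 1, 1, 1, 1, 1, 1, 1, 1, 1, 1, 1]

theorem KN47 : KN 47 (enc l47) (enc l47) (enc x47) := by
  have h1 : (run [] 100 8038709734463480703256102437954111000378279376165281308825980745478338816457311609295856477929072289486232881975098540098 []) =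
      [(47, enc l47, enc l47, enc x47)] := by decide +kernel
  have h2 := run_ok [] (by simp) 100 8038709734463480703256102437954111000378279376165281308825980745478338816457311609295856477929072289486232881975098540098 []
    (by simp) (47, enc l47, enc l47, enc x47) (by rw [h1]; exact List.mem_singleton.2 rfl)
  exact h2.2

theorem hf_eq_get (S : Shp) (l : List ℕ) (hl : ∀ h ∈ l, 0 < h) (hS : S.a = fun c => l.getD c 0) :
    ∃ e : Fin (S.b 0) ≃ Fin l.length, l.get ∘ e = S.hf := by
  have hb : S.b 0 = l.length := by
    have h1 : ∀ c, c < S.b 0 ↔ c < l.length := by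
      intro c
      rw [← S.h c 0, hS]
      constructor
      · intro h
        by_contra hc
        simp only [List.getD_eq_getElem?_getD] at h
        rw [List.getElem?_eq_none (by omega)] at h
        simp at h
      · intro h
        simp only [List.getD_eq_getElem?_getD, List.getElem?_eq_getElem h, Option.getD_some]
        exact hl _ (List.getElem_mem h)
    have h2 := (h1 (S.b 0)).not.1 (lt_irrefl _)
    have h3 := (h1 l.length).not.2 (lt_irrefl _)
    omega
  refine ⟨finCongr hb, ?_⟩
  funext c
  show l.get (finCongr hb c) = S.a c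
  rw [hS]
  have h : (c : ℕ) < l.length := lt_of_lt_of_eq c.2 hb
  simp only [List.getD_eq_getElem?_getD, List.getElem?_eq_getElem h, Option.getD_some]
  rfl

theorem kr47 (S T : Shp) (hS : S.a = fun c => l47.getD c 0) (hT : T.a = fun c => x47.getD c 0) :
    Kr (Fin 47) S.hf S.hf T.hf := by
  have h1 : KL l47 l47 x47 := KL_of_KN (by norm_num) (by decide) (by decide) (by decide)
    (by decide) (by decide) (by decide) KN47
  have h2 := h1.2.2 (Fin 47) (by decide)
  obtain ⟨e1, he1⟩ := hf_eq_get S l47 (by decide) hS
  obtain ⟨e2, he2⟩ := hf_eq_get T x47 (by decide) hT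
  have h3 := Kr_reindex e1 e1 e2 h2
  rwa [he1, he2] at h3

end Crest.Agent.SY
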