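import Mathlib

/-!
# S0298: shapes and the combinatorial derivation predicate (owner: helper77)

A shape `Shp` is a partition given by its column heights `a 0 ≥ a 1 ≥ …` and its row lengths
`b 0 ≥ b 1 ≥ …`, related by `r < a c ↔ c < b r`. `tr` is the transposition, `col k S` adds a first
column of height `k` (if all columns of `S` have height `≤ k`), `row k S` adds a first row.

`Der J k g g' lam` is a purely combinatorial predicate. Meaning (proved elsewhere, file `SY_R*`): in
the framework of a staircase with `k` levels, in which the letters of the levels `j` with `J j = true`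
are permuted and the others are frozen, the representations `Sp lam` is "good" in the tensor product
of the modules of types `g`, `g'`.
-/

set_option autoImplicit false

namespace Crest.Agent.SY

/-- Shapes: `a` = column heights, `b` = row lengths. -/
@[ext]
structure Shp where
  /-- column heights -/
  a : ℕ → ℕ
  /-- row lengths -/
  b : ℕ → ℕ
  h : ∀ c r, r < a c ↔ c < b r

namespace Shp

/-- transposition -/
def tr (S : Shp) : Shp := ⟨S.b, S.a, fun c r => (S.h r c).symm⟩

@[simp] theorem tr_tr (S : Shp) : S.tr.tr = S := rfl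
@[simp] theorem tr_a (S : Shp) : S.tr.a = S.b := rfl
@[simp] theorem tr_b (S : Shp) : S.tr.b = S.a := rfl

/-- A shape is determined by its column heights. -/
theorem ext_a {S T : Shp} (h : S.a = T.a) : S = T := by
  refine Shp.ext h ?_
  funext r
  by_contra hne
  rcases Nat.lt_or_gt_of_ne hne with h1 | h1
  · have := (T.h (S.b r) r).2 h1
    rw [← h, S.h] at this
    omega
  · have := (S.h (T.b r) r).2 h1
    rw [h, T.h] at this
    omega

theorem ext_b {S T : Shp} (h : S.b = T.b) : S = T := by
  have : S.tr = T.tr := ext_a h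
  rw [← S.tr_tr, this, tr_tr]

theorem anti (S : Shp) : Antitone S.a := by
  intro c c' hc
  by_contra hlt
  push Not at hlt
  have h1 := (S.h c' (S.a c)).1 hlt
  have h2 := (S.h c (S.a c)).2 (by omega)
  omega

theorem anti_b (S : Shp) : Antitone S.b := S.tr.anti

theorem a_eq_zero (S : Shp) {c : ℕ} (hc : S.b 0 ≤ c) : S.a c = 0 := by
  by_contra hne
  have := (S.h c 0).1 (Nat.pos_of_ne_zero hne)
  omega

theorem b_eq_zero (S : Shp) {r : ℕ} (hr : S.a 0 ≤ r) : S.b r = 0 := S.tr.a_eq_zero hr

/-- Number of cells. -/
def size (S : Shp) : ℕ := ∑ c ∈ Finset.range (S.b 0), S.a c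

/-- The cells as a finite set. -/
def cells (S : Shp) : Finset (ℕ × ℕ) :=
  ((Finset.range (S.b 0)) ×ˢ (Finset.range (S.a 0))).filter fun x => x.2 < S.a x.1

theorem mem_cells (S : Shp) (x : ℕ × ℕ) : x ∈ S.cells ↔ x.2 < S.a x.1 := by
  unfold cells
  rw [Finset.mem_filter, Finset.mem_product, Finset.mem_range, Finset.mem_range]
  constructor
  · exact fun h => h.2
  · intro h
    have h1 := (S.h _ _).1 h
    have h2 := S.anti (Nat.zero_le x.1)
    have h3 := S.anti_b (Nat.zero_le x.2)
    exact ⟨⟨by omega, by omega⟩, h⟩

theorem card_cells (S : Shp) : S.cells.card = S.size := by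
  unfold size
  have h : S.cells = (Finset.sigma (Finset.range (S.b 0)) (fun c => Finset.range (S.a c))).map
      ⟨fun x => (x.1, x.2), fun x y hxy => by
        obtain ⟨x1, x2⟩ := x
        obtain ⟨y1, y2⟩ := y
        simp only [Prod.mk.injEq] at hxy
        obtain ⟨rfl, rfl⟩ := hxy
        rfl⟩ := by
    ext x
    rw [mem_cells]
    simp only [Finset.mem_map, Finset.mem_sigma, Finset.mem_range, Sigma.exists]
    constructor
    · intro hx
      refine ⟨x.1, x.2, ⟨?_, hx⟩, rfl⟩
      have h1 := (S.h _ _).1 hx
      have h3 := S.anti_b (Nat.zero_le x.2)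
      omega
    · rintro ⟨c, r, ⟨-, hr⟩, rfl⟩
      exact hr
  rw [h, Finset.card_map, Finset.card_sigma]
  simp

theorem size_tr (S : Shp) : S.tr.size = S.size := by
  rw [← card_cells, ← card_cells]
  have : S.tr.cells = S.cells.map (Equiv.prodComm ℕ ℕ).toEmbedding := by
    ext x
    rw [mem_cells]
    simp only [Finset.mem_map_equiv, mem_cells]
    exact (S.h _ _).symm
  rw [this, Finset.card_map]

theorem size_eq_sum (S : Shp) (N : ℕ) (hN : S.b 0 ≤ N) : S.size = ∑ c ∈ Finset.range N, S.a c := by
  unfold size
  refine Finset.sum_subset (Finset.range_mono hN) fun c _ hc => ?_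
  rw [Finset.mem_range] at hc
  exact S.a_eq_zero (by omega)

/-- Add a first column of height `k` (the columns of `S` are cut at height `k`). -/
def col (k : ℕ) (S : Shp) : Shp where
  a c := match c with
    | 0 => k
    | c + 1 => min (S.a c) k
  b r := if r < k then S.b r + 1 else 0
  h := by
    intro c r
    match c with
    | 0 => by_cases hr : r < k <;> simp [hr]
    | c + 1 =>
      have := S.h c r
      show r < min (S.a c) k ↔ c + 1 < if r < k then S.b r + 1 else 0
      rw [lt_min_iff, this]
      split_ifs <;> omega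

@[simp] theorem col_a_zero (k : ℕ) (S : Shp) : (col k S).a 0 = k := rfl
@[simp] theorem col_a_succ (k : ℕ) (S : Shp) (c : ℕ) : (col k S).a (c + 1) = min (S.a c) k := rfl
theorem col_b (k : ℕ) (S : Shp) (r : ℕ) : (col k S).b r = if r < k then S.b r + 1 else 0 := rfl

/-- Add a first row of length `k`. -/
def row (k : ℕ) (S : Shp) : Shp := (col k S.tr).tr

theorem row_col (k : ℕ) (S : Shp) (h1 : S.a 0 ≤ k) :
    row (k + 1) (col k S) = col (k + 1) (row k S) := by
  apply ext_a
  funext c
  have ha : ∀ c, S.a c ≤ k := fun c => (S.anti (Nat.zero_le c)).trans h1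
  match c with
  | 0 =>
    show (if 0 < k + 1 then (col k S).a 0 + 1 else 0) = k + 1
    simp
  | c + 1 =>
    show (if c + 1 < k + 1 then (col k S).a (c + 1) + 1 else 0) =
      min (if c < k then S.a c + 1 else 0) (k + 1)
    have := ha c
    rw [col_a_succ]
    split_ifs <;> omega

/-- The heights of the nonempty columns, as a function on a finite type. -/
def hf (S : Shp) : Fin (S.b 0) → ℕ := fun c => S.a c

theorem hf_pos (S : Shp) (c : Fin (S.b 0)) : 0 < S.hf c := (S.h c 0).2 c.2

theorem sum_hf (S : Shp) : ∑ c, S.hf c = S.size :=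
  Fin.sum_univ_eq_sum_range (fun c => S.a c) (S.b 0)

/-- The shape with given antitone column heights. -/
def ofFun {l : ℕ} (h : Fin l → ℕ) (hh : Antitone h) : Shp where
  a c := if hc : c < l then h ⟨c, hc⟩ else 0
  b r := (Finset.univ.filter fun i : Fin l => r < h i).card
  h := by
    intro c r
    constructor
    · intro hr
      split_ifs at hr with hc
      · have h1 : (Finset.univ.filter fun i : Fin l => (i : ℕ) < c + 1).card ≤
            (Finset.univ.filter fun i : Fin l => r < h i).card := by
          refine Finset.card_le_card fun i hi => ?_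
          rw [Finset.mem_filter] at hi ⊢
          refine ⟨Finset.mem_univ _, hr.trans_le (hh ?_)⟩
          show (i : ℕ) ≤ c
          omega
        have h2 : (Finset.univ.filter fun i : Fin l => (i : ℕ) < c + 1).card = c + 1 := by
          rw [Fin.card_filter_val_lt]
          omega
        omega
      · omega
    · intro hr
      by_contra hcon
      have h1 : (Finset.univ.filter fun i : Fin l => r < h i).card ≤
          (Finset.univ.filter fun i : Fin l => (i : ℕ) < c).card := by
        refine Finset.card_le_card fun i hi => ?_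
        rw [Finset.mem_filter] at hi ⊢
        refine ⟨Finset.mem_univ _, ?_⟩
        by_contra hic
        push Not at hic
        apply hcon
        have hcl : c < l := lt_of_le_of_lt hic i.2
        rw [dif_pos hcl]
        exact hi.2.trans_le (hh hic)
      have h2 : (Finset.univ.filter fun i : Fin l => (i : ℕ) < c).card ≤ c := by
        rw [Fin.card_filter_val_lt]
        omega
      omega

/-- The empty shape. -/
def empty : Shp := ⟨fun _ => 0, fun _ => 0, by simp⟩

/-- The staircase with `k` columns `k, k - 1, …, 1`. -/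
def st (k : ℕ) : Shp := ⟨fun c => k - c, fun r => k - r, fun c r => by omega⟩

end Shp

/-- The derivation predicate. `J j = true` means that the letters of level `j` (`1 ≤ j ≤ k`) are
permuted, `g`, `g'` are the types, `lam` the partition. -/
inductive Der (J : ℕ → Bool) : ℕ → Shp → Shp → Shp → Prop
  /-- Saxl's theorem for the staircase (`k = 0` allowed). -/
  | saxl (k : ℕ) (lam : Shp) (hJ : ∀ j, 1 ≤ j → j ≤ k → J j = true)
      (hs : 2 * lam.size = k * (k + 1)) : Der J k (Shp.st k) (Shp.st k) lam
  /-- The level `k + 1` is frozen. -/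
  | skip (k : ℕ) (g g' lam : Shp) (hJ : J (k + 1) = false) (h : Der J k g g' lam) :
      Der J (k + 1) g g' lam
  /-- One new column on both sides: horizontal strip. -/
  | strip (k : ℕ) (g g' lam al : Shp) (hJ : J (k + 1) = true) (h : Der J k g g' al)
      (h1 : ∀ c, al.a c ≤ lam.a c) (h2 : ∀ c, lam.a c ≤ al.a c + 1)
      (hs : lam.size = al.size + (k + 1)) :
      Der J (k + 1) (Shp.col (k + 1) g) (Shp.col (k + 1) g') lam
  /-- Two new columns on both sides. -/
  | path (k : ℕ) (g g' lam al : Shp) (hJ1 : J (k + 1) = true) (hJ2 : J (k + 2) = true)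
      (h : Der J k g g' al) (h1 : ∀ c, al.a c ≤ lam.a c) (h2 : ∀ c, lam.a c ≤ al.a c + 4)
      (hs : lam.size = al.size + (2 * k + 3)) :
      Der J (k + 2) (Shp.col (k + 2) (Shp.col (k + 1) g)) (Shp.col (k + 2) (Shp.col (k + 1) g')) lam
  /-- Twist of the second type. -/
  | twist (k : ℕ) (g g' lam : Shp) (h : Der J k g g' lam) : Der J k g g'.tr lam.tr
  /-- Twist of the first type. -/
  | twist' (k : ℕ) (g g' lam : Shp) (h : Der J k g g' lam) : Der J k g.tr g' lam.tr

end Crest.Agent.SY
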