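import Crest.Agent.SX_C2
import Crest.Agent.SX_S0
import Crest.Agent.SX_Mul1
import Crest.Agent.SY_S0

/-!
# S0298, types and restriction rules: common definitions (owner: helper77)

* `DD Ω D` is the operator `D^{⊗Ω}` on functions on words (values `< K`), `D` a `K × K` matrix:
  `(DD Ω D F) w = ∑_{v : Ω → Fin K} (∏ a, D (w a) (v a)) * F v` (`0` if some `w a ≥ K`).
* `skw t o` is the skew polytabloid of `t : A ≃ Cel d`: column `i` has rows `o i, …, o i + d i - 1`.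
-/

set_option autoImplicit false

namespace Crest.Agent.SY

open Equiv Equiv.Perm Crest.Agent.SX

/-- The matrix `D` with rows extended by `0`. -/
noncomputable def Dx {K : ℕ} (D : Matrix (Fin K) (Fin K) ℂ) (i : ℕ) (j : Fin K) : ℂ :=
  if h : i < K then D ⟨i, h⟩ j else 0

/-- The operator `D^{⊗Ω}` on functions on words. -/
noncomputable def DD (Ω : Type) [Fintype Ω] [DecidableEq Ω] {K : ℕ}
    (D : Matrix (Fin K) (Fin K) ℂ) : ((Ω → ℕ) → ℂ) →ₗ[ℂ] ((Ω → ℕ) → ℂ) where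
  toFun F := fun w => ∑ v : Ω → Fin K, (∏ a, Dx D (w a) (v a)) * F (kw v)
  map_add' F G := by
    ext w
    simp [mul_add, Finset.sum_add_distrib]
  map_smul' c F := by
    ext w
    simp only [Pi.smul_apply, smul_eq_mul, Finset.mul_sum, RingHom.id_apply]
    exact Finset.sum_congr rfl fun v _ => by ring

theorem DD_apply {Ω : Type} [Fintype Ω] [DecidableEq Ω] {K : ℕ} (D : Matrix (Fin K) (Fin K) ℂ)
    (F : (Ω → ℕ) → ℂ) (w : Ω → ℕ) :
    DD Ω D F w = ∑ v : Ω → Fin K, (∏ a, Dx D (w a) (v a)) * F (kw v) := rfl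

/-- `D^{⊗Ω}` commutes with the permutations of the letters. -/
theorem DD_comp {Ω : Type} [Fintype Ω] [DecidableEq Ω] {K : ℕ} (D : Matrix (Fin K) (Fin K) ℂ)
    (F : (Ω → ℕ) → ℂ) (g : Perm Ω) (w : Ω → ℕ) :
    DD Ω D (fun y => F (y ∘ g)) w = DD Ω D F (w ∘ g) := by
  rw [DD_apply, DD_apply]
  refine Fintype.sum_equiv (Equiv.arrowCongr g.symm (Equiv.refl (Fin K))) _ _ fun v => ?_
  have e1 : (Equiv.arrowCongr g.symm (Equiv.refl (Fin K))) v = v ∘ g := rfl
  rw [e1]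
  have e2 : ∏ a, Dx D ((w ∘ g) a) ((v ∘ g) a) = ∏ a, Dx D (w a) (v a) :=
    Equiv.prod_comp g (fun a => Dx D (w a) (v a))
  rw [e2]
  rfl

/-- `D^{⊗Ω} F` vanishes on words with a value `≥ K`. -/
theorem DD_bdd {Ω : Type} [Fintype Ω] [DecidableEq Ω] {K : ℕ} (D : Matrix (Fin K) (Fin K) ℂ)
    (F : (Ω → ℕ) → ℂ) (w : Ω → ℕ) (hw : ¬ ∀ a, w a < K) : DD Ω D F w = 0 := by
  rw [DD_apply]
  refine Finset.sum_eq_zero fun v _ => ?_
  push Not at hw
  obtain ⟨a, ha⟩ := hw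
  rw [Finset.prod_eq_zero (Finset.mem_univ a), zero_mul]
  unfold Dx
  rw [dif_neg (by omega)]

open scoped Classical in
/-- The skew polytabloid with offsets `o`. -/
noncomputable def skw {A ι : Type} [Fintype A] [DecidableEq A] {d : ι → ℕ} (t : A ≃ Cel d)
    (o : ι → ℕ) (w : A → ℕ) : ℂ :=
  ∑ s : Perm A, if (∀ x, (t (s x)).1 = (t x).1) ∧ (∀ x, w (s x) = o (t x).1 + ((t x).2 : ℕ)) then
    ((sign s : ℤ) : ℂ) else 0

end Crest.Agent.SY
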