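import Crest.Agent.SY_P0

/-!
# S0298, task SY-P1: polarization
-/

set_option autoImplicit false

namespace Crest.Agent.SY

open Equiv Equiv.Perm Crest.Agent.SX

private noncomputable def syCont {B S : Type} [Fintype B] (y : B → S) : S →₀ ℕ :=
  ∑ b, Finsupp.single (y b) 1

private theorem syCont_apply {B S : Type} [Fintype B] [DecidableEq S] (y : B → S) (s : S) :
    syCont y s = Fintype.card {b // y b = s} := by
  unfold syCont
  rw [Finsupp.finsetSum_apply, Fintype.card_subtype, Finset.card_filter]
  exact Finset.sum_congr rfl fun b _ => Finsupp.single_apply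

private theorem sy_perm {B S : Type} [Fintype B] [DecidableEq B] [DecidableEq S] (y y' : B → S)
    (h : syCont y = syCont y') : ∃ g : Perm B, y' = y ∘ g := by
  have hc : ∀ s, Fintype.card {b // y' b = s} = Fintype.card {b // y b = s} := by
    intro s
    rw [← syCont_apply, ← syCont_apply, h]
  let e : ∀ s, {b // y' b = s} ≃ {b // y b = s} := fun s => Fintype.equivOfCardEq (hc s)
  refine ⟨(Equiv.sigmaFiberEquiv y').symm.trans
    ((Equiv.sigmaCongrRight e).trans (Equiv.sigmaFiberEquiv y)), ?_⟩
  funext b
  exact ((e (y' b)) ⟨b, rfl⟩).2.symm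

private theorem sy_prod {B S : Type} [Fintype B] [DecidableEq B] (y : B → S) :
    (∏ b, MvPolynomial.X (y b) : MvPolynomial S ℂ) = MvPolynomial.monomial (syCont y) 1 := by
  unfold syCont
  have : ∀ t : Finset B, (∏ b ∈ t, MvPolynomial.X (y b) : MvPolynomial S ℂ) =
      MvPolynomial.monomial (∑ b ∈ t, Finsupp.single (y b) 1) 1 := by
    intro t
    induction t using Finset.induction_on with
    | empty => simp
    | insert b t hb ih =>
      rw [Finset.prod_insert hb, Finset.sum_insert hb, ih]
      show MvPolynomial.monomial (Finsupp.single (y b) 1) 1 * _ = _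
      rw [MvPolynomial.monomial_mul, one_mul]
  exact this Finset.univ

/-- POLARIZATION: an invariant kernel is a combination of kernels `D^{⊗B}`, `D` invertible.

Proof. Let `S = Fin K × Fin K`; identify `(w, w')` with `y : B → S`, `y b = (w b, w' b)`, and `M` with
a function `m` on `B → S` with `m (y ∘ g) = m y`. Let `P ≤ ((B → S) → ℂ)` be the span of the functions
`y ↦ ∏ b, D (y b).1 (y b).2` with `D.det ≠ 0`. If `m ∉ P` there is a linear functional `φ`,
`φ F = ∑ y, c y * F y`, which vanishes on `P` and not on `m`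
(`Submodule.exists_le_ker_of_notMem` or similar). The polynomial
`p = ∑ y, C (c y) * ∏ b, X (y b) : MvPolynomial S ℂ` vanishes at every `D` with `D.det ≠ 0`, so
`p * det = 0` (`MvPolynomial.funext`), `det = Matrix.det (Matrix.of fun i j => X (i, j)) ≠ 0`
(evaluate at the identity), so `p = 0`. Its coefficient at the monomial `μ` is
`∑_{y : content y = μ} c y`, `content y = ∑ b, Finsupp.single (y b) 1`. Words with the same content
are related by a permutation of `B`, so `m` is constant on the sets `content y = μ` and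
`φ m = ∑_μ m_μ * ∑_{content y = μ} c y = 0`, a contradiction. -/
theorem polar {B : Type} [Fintype B] [DecidableEq B] {K : ℕ}
    (M : (B → Fin K) → (B → Fin K) → ℂ)
    (hM : ∀ (g : Perm B) w w', M (w ∘ g) (w' ∘ g) = M w w') :
    ∃ (n : ℕ) (c : Fin n → ℂ) (D : Fin n → Matrix (Fin K) (Fin K) ℂ), (∀ i, (D i).det ≠ 0) ∧
      ∀ w w', M w w' = ∑ i, c i * ∏ b, D i (w b) (w' b) := by
  classical
  let m : (B → Fin K × Fin K) → ℂ := fun y => M (fun b => (y b).1) (fun b => (y b).2)
  let F : Matrix (Fin K) (Fin K) ℂ → (B → Fin K × Fin K) → ℂ :=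
    fun D y => ∏ b, D (y b).1 (y b).2
  let P : Submodule ℂ ((B → Fin K × Fin K) → ℂ) :=
    Submodule.span ℂ {f | ∃ D : Matrix (Fin K) (Fin K) ℂ, D.det ≠ 0 ∧ f = F D}
  have hm : m ∈ P := by
    by_contra hcon
    obtain ⟨φ, hφ1, hφ2⟩ := Submodule.exists_le_ker_of_notMem hcon
    let c : (B → Fin K × Fin K) → ℂ := fun y => φ (fun j => if y = j then 1 else 0)
    have hφ : ∀ f, φ f = ∑ y, f y * c y := fun f => LinearMap.pi_apply_eq_sum_univ φ f
    let p : MvPolynomial (Fin K × Fin K) ℂ :=
      ∑ y, MvPolynomial.C (c y) * ∏ b, MvPolynomial.X (y b)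
    have hp : p = 0 := by
      have h1 : p * Matrix.det (Matrix.mvPolynomialX (Fin K) (Fin K) ℂ) = 0 := by
        apply MvPolynomial.funext
        intro x
        rw [map_mul, map_zero]
        let D : Matrix (Fin K) (Fin K) ℂ := Matrix.of fun i j => x (i, j)
        have e1 : MvPolynomial.eval x p = φ (F D) := by
          rw [hφ]
          show MvPolynomial.eval x (∑ y, MvPolynomial.C (c y) * ∏ b, MvPolynomial.X (y b)) = _
          rw [map_sum]
          refine Finset.sum_congr rfl fun y _ => ?_
          rw [map_mul, MvPolynomial.eval_C, map_prod, mul_comm]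
          congr 1
          refine Finset.prod_congr rfl fun b _ => ?_
          rw [MvPolynomial.eval_X]
          rfl
        have e2 : MvPolynomial.eval x (Matrix.det (Matrix.mvPolynomialX (Fin K) (Fin K) ℂ)) =
            D.det := by
          rw [RingHom.map_det]
          congr 1
          ext i j
          rw [RingHom.mapMatrix_apply, Matrix.map_apply, Matrix.mvPolynomialX_apply,
            MvPolynomial.eval_X]
          rfl
        rw [e1, e2]
        by_cases hD : D.det = 0
        · rw [hD, mul_zero]
        · have h2 : F D ∈ P := Submodule.subset_span ⟨D, hD, rfl⟩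
          have h3 : φ (F D) = 0 := hφ2 h2
          rw [h3, zero_mul]
      exact (mul_eq_zero.1 h1).resolve_right (Matrix.det_mvPolynomialX_ne_zero (Fin K) ℂ)
    apply hφ1
    rw [hφ]
    -- group by content
    have hfib : ∀ μ : Fin K × Fin K →₀ ℕ,
        ∑ y ∈ Finset.univ.filter (fun y : B → Fin K × Fin K => syCont y = μ), c y = 0 := by
      intro μ
      have h1 : MvPolynomial.coeff μ p = 0 := by rw [hp, MvPolynomial.coeff_zero]
      have h2 : MvPolynomial.coeff μ p =
          ∑ y, MvPolynomial.coeff μ (MvPolynomial.C (c y) * ∏ b, MvPolynomial.X (y b)) := by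
        show MvPolynomial.coeff μ (∑ y, _) = _
        rw [MvPolynomial.coeff_sum]
      rw [h2] at h1
      rw [← h1, Finset.sum_filter]
      refine Finset.sum_congr rfl fun y _ => ?_
      rw [sy_prod, MvPolynomial.C_mul_monomial, MvPolynomial.coeff_monomial, mul_one]
    have hmc : ∀ y y' : B → Fin K × Fin K, syCont y = syCont y' → m y = m y' := by
      intro y y' h
      obtain ⟨g, rfl⟩ := sy_perm y y' h
      exact (hM g _ _).symm
    rw [← Finset.sum_fiberwise_of_maps_to
      (t := Finset.univ.image (syCont : (B → Fin K × Fin K) → _)) (g := syCont)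
      (fun y _ => Finset.mem_image_of_mem _ (Finset.mem_univ y))]
    refine Finset.sum_eq_zero fun μ hμ => ?_
    obtain ⟨y0, _, hy0⟩ := Finset.mem_image.1 hμ
    have h5 : ∑ y ∈ Finset.univ.filter (fun y : B → Fin K × Fin K => syCont y = μ), m y * c y =
        m y0 * ∑ y ∈ Finset.univ.filter (fun y : B → Fin K × Fin K => syCont y = μ), c y := by
      rw [Finset.mul_sum]
      refine Finset.sum_congr rfl fun y hy => ?_
      rw [hmc y y0 ((Finset.mem_filter.1 hy).2.trans hy0.symm)]
    rw [h5, hfib, mul_zero]
  obtain ⟨n, f, g, hfg⟩ := (Submodule.mem_span_set' (R := ℂ)).1 hm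
  choose D hD hD' using fun i => (g i).2
  refine ⟨n, f, D, hD, fun w w' => ?_⟩
  have h1 : m (fun b => (w b, w' b)) = M w w' := rfl
  rw [← h1, ← hfg, Finset.sum_apply]
  refine Finset.sum_congr rfl fun i _ => ?_
  rw [Pi.smul_apply, hD' i]
  rfl

end Crest.Agent.SY
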