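import Crest.Agent.SY_P0
import Crest.Agent.SX_C4

/-!
# S0298, task SY-P10: completeness in terms of shapes, reindexing, the list of Specht modules
-/

set_option autoImplicit false

namespace Crest.Agent.SY

open Equiv Equiv.Perm Crest.Agent.SX

private theorem p10_pt {Ω ι κ : Type} [Fintype Ω] [DecidableEq Ω] {h : ι → ℕ} {h' : κ → ℕ}
    (E : Cel h' ≃ Cel h) (h1 : ∀ x y, (E x).1 = (E y).1 ↔ x.1 = y.1)
    (h2 : ∀ x, ((E x).2 : ℕ) = x.2) (t : Ω ≃ Cel h') : pt (t.trans E) = pt t := by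
  classical
  funext w
  unfold pt
  refine Finset.sum_congr rfl fun s _ => ?_
  refine if_congr ?_ rfl rfl
  refine and_congr ?_ ?_
  · exact forall_congr' fun x => h1 _ _
  · refine forall_congr' fun x => ?_
    rw [Equiv.trans_apply, h2]

private theorem p10_Sp {Ω ι κ : Type} [Fintype Ω] [DecidableEq Ω] {h : ι → ℕ} {h' : κ → ℕ}
    (E : Cel h' ≃ Cel h) (h1 : ∀ x y, (E x).1 = (E y).1 ↔ x.1 = y.1)
    (h2 : ∀ x, ((E x).2 : ℕ) = x.2) : Sp (Ω := Ω) h' = Sp (Ω := Ω) h := by
  unfold Sp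
  congr 1
  ext F
  constructor
  · rintro ⟨t, rfl⟩
    exact ⟨t.trans E, p10_pt E h1 h2 t⟩
  · rintro ⟨t, rfl⟩
    refine ⟨t.trans E.symm, ?_⟩
    have h3 := p10_pt E h1 h2 (t.trans E.symm)
    change pt (t.trans E.symm) = pt t
    rw [← h3, Equiv.trans_assoc, Equiv.symm_trans_self, Equiv.trans_refl]

/-- Removing empty columns does not change the Specht module. -/
private theorem p10_cols {Ω ι κ : Type} [Fintype Ω] [DecidableEq Ω] (e : κ → ι)
    (he : Function.Injective e) (h : ι → ℕ) (h0 : ∀ i, h i ≠ 0 → ∃ j, e j = i) :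
    Sp (Ω := Ω) (fun j => h (e j)) = Sp (Ω := Ω) h := by
  let f : Cel (fun j => h (e j)) → Cel h := fun x => ⟨e x.1, x.2⟩
  have hf : Function.Bijective f := by
    constructor
    · rintro ⟨j, r⟩ ⟨j', r'⟩ hx
      have h1 : e j = e j' := congrArg Sigma.fst hx
      obtain rfl := he h1
      have h2 : r = r' := by
        have := eq_of_heq (Sigma.mk.inj hx).2
        exact this
      rw [h2]
    · rintro ⟨i, r⟩
      obtain ⟨j, rfl⟩ := h0 i (by have := r.2; omega)
      exact ⟨⟨j, r⟩, rfl⟩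
  refine p10_Sp (Equiv.ofBijective f hf) (fun x y => ?_) (fun x => rfl)
  exact he.eq_iff

/-- Renaming the columns does not change the Specht module. (`Cel (h ∘ e) ≃ Cel h`, compare
`pt_equiv`; the sum defining `pt` is unchanged.) -/
theorem Sp_reindex {Ω ι κ : Type} [Fintype Ω] [DecidableEq Ω] (e : κ ≃ ι) (h : ι → ℕ) :
    Sp (Ω := Ω) (fun i => h (e i)) = Sp (Ω := Ω) h :=
  p10_cols e e.injective h fun i _ => e.surjective i

/-- Removing empty columns does not change the Specht module. -/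
theorem Sp_nonempty_cols {Ω ι κ : Type} [Fintype Ω] [DecidableEq Ω] (e : κ → ι)
    (he : Function.Injective e) (h : ι → ℕ) (h0 : ∀ i, h i ≠ 0 → ∃ j, e j = i) :
    Sp (Ω := Ω) (fun j => h (e j)) = Sp (Ω := Ω) h :=
  p10_cols e he h h0

/-- `completeness` in terms of shapes: take `S = Shp.ofFun h hanti`, `S.b 0 = l`, `S.hf = h` up to
the cast. -/
theorem completeness_shp {Ω : Type} [Fintype Ω] [DecidableEq Ω] {W : Type} [AddCommGroup W]
    [Module ℂ W] [FiniteDimensional ℂ W] [Nontrivial W] (σ : Representation ℂ (Perm Ω) W)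
    (hσ : σ.IsIrreducible) :
    ∃ (S : Shp) (f : W →ₗ[ℂ] ((Ω → ℕ) → ℂ)), S.size = Fintype.card Ω ∧ Function.Injective f ∧
      (∀ g w x, f (σ g w) x = f w (x ∘ g)) ∧ ∀ w, f w ∈ Sp (Ω := Ω) S.hf := by
  obtain ⟨l, h, hanti, hpos, hsum, f, hf1, hf2, hf3⟩ := completeness σ hσ
  have hb : (Shp.ofFun h hanti).b 0 = l := by
    change (Finset.univ.filter fun i : Fin l => 0 < h i).card = l
    rw [Finset.filter_true_of_mem fun i _ => hpos i, Finset.card_univ, Fintype.card_fin]
  have ha : ∀ i : Fin l, (Shp.ofFun h hanti).a i = h i := by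
    intro i
    change (if hc : (i : ℕ) < l then h ⟨i, hc⟩ else 0) = h i
    rw [dif_pos i.2]
  refine ⟨Shp.ofFun h hanti, f, ?_, hf1, hf2, ?_⟩
  · rw [Shp.size_eq_sum _ l hb.le, ← Fin.sum_univ_eq_sum_range, ← hsum]
    exact Finset.sum_congr rfl fun i _ => ha i
  · intro w
    have h1 : Sp (Ω := Ω) (Shp.ofFun h hanti).hf = Sp (Ω := Ω) h := by
      have h2 := Sp_reindex (Ω := Ω) (finCongr hb.symm) (Shp.ofFun h hanti).hf
      rw [← h2]
      congr 1
      funext i
      exact ha i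
    rw [h1]
    exact hf3 w

/-- The heights of `S.col k`, when all columns of `S` have height `≤ k`. -/
theorem Sp_col {Ω : Type} [Fintype Ω] [DecidableEq Ω] (k : ℕ) (hk : 0 < k) (S : Shp)
    (hS : S.a 0 ≤ k) :
    Sp (Ω := Ω) (Sum.elim (fun _ : Unit => k) S.hf) = Sp (Ω := Ω) (S.col k).hf := by
  have hb : (S.col k).b 0 = S.b 0 + 1 := by rw [Shp.col_b, if_pos hk]
  let e : Unit ⊕ Fin (S.b 0) → Fin ((S.col k).b 0) :=
    Sum.elim (fun _ => ⟨0, by omega⟩) (fun c => ⟨c + 1, by have := c.2; omega⟩)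
  have h1 : (fun j => (S.col k).hf (e j)) = Sum.elim (fun _ : Unit => k) S.hf := by
    funext j
    rcases j with j | j
    · rfl
    · change min (S.a j) k = S.a j
      exact min_eq_left ((S.anti (Nat.zero_le _)).trans hS)
  rw [← h1]
  refine Sp_nonempty_cols e ?_ _ ?_
  · rintro (x | x) (y | y) hxy
    · rfl
    · have := congrArg Fin.val hxy
      change (0 : ℕ) = y + 1 at this
      omega
    · have := congrArg Fin.val hxy
      change (x : ℕ) + 1 = 0 at this
      omega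
    · have := congrArg Fin.val hxy
      change (x : ℕ) + 1 = y + 1 at this
      congr 1
      exact Fin.ext (by omega)
  · intro i _
    rcases Nat.eq_zero_or_pos (i : ℕ) with h0 | h0
    · exact ⟨Sum.inl (), Fin.ext h0.symm⟩
    · refine ⟨Sum.inr ⟨(i : ℕ) - 1, by have := i.2; omega⟩, Fin.ext ?_⟩
      change (i : ℕ) - 1 + 1 = i
      omega

end Crest.Agent.SY
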