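import Mathlib

/-!
# S0298, task SY-Q2: permutations inside contiguous blocks
-/

set_option autoImplicit false

namespace Crest.Agent.SY

open Equiv Equiv.Perm

private theorem Q2_mono {n : ℕ} (s : Perm (Fin n)) (h : ∀ i j : Fin n, (i : ℕ) + 1 = j → s i ≤ s j) :
    s = 1 := by
  have hm : Monotone s := by
    cases n with
    | zero => exact fun i => i.elim0
    | succ m =>
      rw [Fin.monotone_iff_le_succ]
      intro i
      exact h _ _ (by simp)
  have hsm : StrictMono s := hm.strictMono_of_injective s.injective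
  let e : Fin n ≃o Fin n := hsm.orderIsoOfSurjective _ s.surjective
  have he : e = OrderIso.refl _ := Subsingleton.elim _ _
  ext i
  have h1 : e i = s i := rfl
  rw [← h1, he]
  rfl

private theorem Q2_grow {n : ℕ} (s : Perm (Fin n)) (i j : Fin n) (hij : (i : ℕ) + 1 = j)
    (h : s j < s i) :
    ∑ k : Fin n, (k : ℕ) * (s k : ℕ) < ∑ k : Fin n, (k : ℕ) * ((s * swap i j) k : ℕ) := by
  have hne : i ≠ j := by
    rintro rfl
    omega
  have h1 : ∑ k : Fin n, (((k : ℕ) : ℤ) * (((s * swap i j) k : ℕ) : ℤ) -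
      ((k : ℕ) : ℤ) * ((s k : ℕ) : ℤ)) =
      (((i : ℕ) : ℤ) * (((s * swap i j) i : ℕ) : ℤ) - ((i : ℕ) : ℤ) * ((s i : ℕ) : ℤ)) +
      (((j : ℕ) : ℤ) * (((s * swap i j) j : ℕ) : ℤ) - ((j : ℕ) : ℤ) * ((s j : ℕ) : ℤ)) := by
    refine Fintype.sum_eq_add i j hne fun k hk => ?_
    rw [Perm.mul_apply, swap_apply_of_ne_of_ne hk.1 hk.2, sub_self]
  rw [Finset.sum_sub_distrib, Perm.mul_apply, Perm.mul_apply, swap_apply_left, swap_apply_right] at h1
  have h2 : ((s j : ℕ) : ℤ) < ((s i : ℕ) : ℤ) := by exact_mod_cast h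
  have h3 : ((j : ℕ) : ℤ) = ((i : ℕ) : ℤ) + 1 := by
    rw [← hij]
    push_cast
    rfl
  have h4 : (∑ k : Fin n, ((k : ℕ) : ℤ) * ((s k : ℕ) : ℤ)) <
      ∑ k : Fin n, ((k : ℕ) : ℤ) * (((s * swap i j) k : ℕ) : ℤ) := by
    rw [h3] at h1
    nlinarith
  exact_mod_cast h4

private theorem Q2_bound {n : ℕ} (s : Perm (Fin n)) : ∑ k : Fin n, (k : ℕ) * (s k : ℕ) ≤ n ^ 3 := by
  calc ∑ k : Fin n, (k : ℕ) * (s k : ℕ) ≤ ∑ _k : Fin n, n * n :=
        Finset.sum_le_sum fun k _ => Nat.mul_le_mul k.2.le (s k).2.le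
    _ = n ^ 3 := by
        rw [Finset.sum_const, Finset.card_univ, Fintype.card_fin, smul_eq_mul]
        ring

private theorem Q2_aux {n : ℕ} {γ : Type} (Ψ : (Fin n → γ) → ℤ)
    (hΨ : ∀ (r : Fin n → γ) (i j : Fin n), (i : ℕ) + 1 = j → r i ≠ r j →
      Ψ (r ∘ (swap i j : Perm (Fin n))) = - Ψ r)
    (c : Fin n → ℕ) (hc : Monotone c) (r : Fin n → γ) (hr : ∀ i j, c i = c j → r i = r j → i = j)
    (m : ℕ) : ∀ s : Perm (Fin n), (∀ i, c (s i) = c i) →
      n ^ 3 - (∑ k : Fin n, (k : ℕ) * (s k : ℕ)) = m → Ψ (r ∘ s) = (sign s : ℤ) * Ψ r := by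
  induction m using Nat.strong_induction_on with
  | _ m ih =>
    intro s hs hm
    by_cases hmono : ∀ i j : Fin n, (i : ℕ) + 1 = j → s i ≤ s j
    · rw [Q2_mono s hmono]
      simp
    · push Not at hmono
      obtain ⟨i, j, hij, hlt⟩ := hmono
      have hne : i ≠ j := by
        rintro rfl
        omega
      have hle : i ≤ j := by
        rw [Fin.le_def]
        omega
      have hc1 : c (s j) ≤ c (s i) := hc hlt.le
      have hc2 : c i ≤ c j := hc hle
      have hc3 : c i = c j := by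
        rw [hs, hs] at hc1
        omega
      have hrne : (r ∘ s) i ≠ (r ∘ s) j := by
        intro h
        have h1 := hr (s i) (s j) (by rw [hs, hs, hc3]) h
        exact hne (s.injective h1)
      have h1 := hΨ (r ∘ s) i j hij hrne
      have hs' : ∀ k, c ((s * swap i j) k) = c k := by
        intro k
        rw [Perm.mul_apply, hs]
        by_cases hki : k = i
        · rw [hki, swap_apply_left, hc3]
        · by_cases hkj : k = j
          · rw [hkj, swap_apply_right, hc3]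
          · rw [swap_apply_of_ne_of_ne hki hkj]
      have hgrow := Q2_grow s i j hij hlt
      have hb := Q2_bound (s * swap i j)
      have h2 := ih (n ^ 3 - ∑ k : Fin n, (k : ℕ) * ((s * swap i j) k : ℕ)) (by omega)
        (s * swap i j) hs' rfl
      have h3 : r ∘ ⇑(s * swap i j) = (r ∘ s) ∘ (swap i j : Perm (Fin n)) := rfl
      rw [h3, h1, Perm.sign_mul, Perm.sign_swap hne] at h2
      have h4 : (((sign s * -1 : ℤˣ) : ℤ)) = -(sign s : ℤ) := by simp
      rw [h4] at h2
      linarith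

/-- Let `Ψ` change its sign when two different neighbours are exchanged. If `c` is monotone (blocks =
fibres of `c`), `r` injective on the blocks and `s` a permutation preserving the blocks, then
`Ψ (r ∘ s) = sign s * Ψ r`.

Proof. Induction on `n ^ 3 - ∑ i, i * s i` (`i * s i ≤ n * n`). If `s` is monotone it is `1`.
Otherwise there is a descent `s i > s j`, `j = i + 1`; `c (s i) ≥ c (s j)`, `c (s i) = c i ≤ c j =
c (s j)`, so `c (s i) = c (s j)` and `r (s i) ≠ r (s j)`, so `Ψ (r ∘ s ∘ swap i j) = - Ψ (r ∘ s)`.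
Apply the induction hypothesis to `s * swap i j`, for which `∑ i, i * s i` has grown by
`s i - s j > 0`. -/
theorem block_perm {n : ℕ} {γ : Type} (Ψ : (Fin n → γ) → ℤ)
    (hΨ : ∀ (r : Fin n → γ) (i j : Fin n), (i : ℕ) + 1 = j → r i ≠ r j →
      Ψ (r ∘ (swap i j : Perm (Fin n))) = - Ψ r)
    (c : Fin n → ℕ) (hc : Monotone c) (r : Fin n → γ) (hr : ∀ i j, c i = c j → r i = r j → i = j)
    (s : Perm (Fin n)) (hs : ∀ i, c (s i) = c i) : Ψ (r ∘ s) = (sign s : ℤ) * Ψ r :=
  Q2_aux Ψ hΨ c hc r hr _ s hs rfl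

end Crest.Agent.SY
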