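import Crest.Agent.SY_Q0

/-!
# S0298, task SY-Q3: `ThG` is an equivariant map into the tensor square
-/

set_option autoImplicit false

namespace Crest.Agent.SY

open Equiv Equiv.Perm Crest.Agent.SX

variable {A : Type} [Fintype A] [DecidableEq A] {k : ℕ}

/-- Same proof as `Tht_mem` (`SX_T1`). -/
theorem ThG_mem (t₀ : A ≃ Cel (two k)) (N : ℕ) (D : Fin 4 → Bool → Bool → ℤ) (F : (A → ℕ) → ℂ) :
    ThG t₀ N D F ∈ VV (Ω := A) (two k) := by
  classical
  have h1 : ∀ u u' : A → Bool, (fun x : WW A => (eps2 t₀ u x.1 : ℂ) * (eps2 t₀ u' x.2 : ℂ)) ∈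
      VV (Ω := A) (two k) := by
    intro u u'
    rcases eps2_mem t₀ u with h | ⟨t, δ, h⟩
    · have : (fun x : WW A => (eps2 t₀ u x.1 : ℂ) * (eps2 t₀ u' x.2 : ℂ)) = 0 := by
        funext x
        simp [h]
      rw [this]; exact Submodule.zero_mem _
    rcases eps2_mem t₀ u' with h' | ⟨t', δ', h'⟩
    · have : (fun x : WW A => (eps2 t₀ u x.1 : ℂ) * (eps2 t₀ u' x.2 : ℂ)) = 0 := by
        funext x
        simp [h']
      rw [this]; exact Submodule.zero_mem _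
    have : (fun x : WW A => (eps2 t₀ u x.1 : ℂ) * (eps2 t₀ u' x.2 : ℂ)) =
        ((δ : ℂ) * δ') • (fun x : WW A => pt t x.1 * pt t' x.2) := by
      funext x
      simp only [h, h', Pi.smul_apply, smul_eq_mul]
      ring
    rw [this]
    exact Submodule.smul_mem _ _ (Submodule.subset_span ⟨t, t', rfl⟩)
  have h2 : ThG t₀ N D F = ∑ u : A → Bool, ∑ u' : A → Bool, ∑ r : A → Fin N,
      (F (kw r) * ((∏ a, D (m4 (r a)) (u a) (u' a) : ℤ) : ℂ)) •
        (fun x : WW A => (eps2 t₀ u x.1 : ℂ) * (eps2 t₀ u' x.2 : ℂ)) := by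
    funext x
    rw [ThG_apply]
    simp only [Finset.sum_apply, Pi.smul_apply, smul_eq_mul]
    refine Finset.sum_congr rfl fun u _ => Finset.sum_congr rfl fun u' _ =>
      Finset.sum_congr rfl fun r _ => ?_
    ring
  rw [h2]
  exact Submodule.sum_mem _ fun u _ => Submodule.sum_mem _ fun u' _ => Submodule.sum_mem _
    fun r _ => Submodule.smul_mem _ _ (h1 u u')

/-- Same proof as `Tht_equiv` (`SX_T1`). -/
theorem ThG_equiv (t₀ : A ≃ Cel (two k)) (N : ℕ) (D : Fin 4 → Bool → Bool → ℤ)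
    (F : (A → ℕ) → ℂ) (g : Perm A) (x : WW A) :
    ThG t₀ N D (fun w => F (w ∘ g)) x = ThG t₀ N D F (pull g x) := by
  classical
  rw [ThG_apply, ThG_apply]
  refine Fintype.sum_equiv (Equiv.arrowCongr g.symm (Equiv.refl Bool)) _ _ fun u => ?_
  refine Fintype.sum_equiv (Equiv.arrowCongr g.symm (Equiv.refl Bool)) _ _ fun u' => ?_
  refine Fintype.sum_equiv (Equiv.arrowCongr g.symm (Equiv.refl (Fin N))) _ _ fun r => ?_
  have e1 : (Equiv.arrowCongr g.symm (Equiv.refl Bool)) u = u ∘ g := rfl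
  have e2 : (Equiv.arrowCongr g.symm (Equiv.refl Bool)) u' = u' ∘ g := rfl
  have e3 : (Equiv.arrowCongr g.symm (Equiv.refl (Fin N))) r = r ∘ g := rfl
  rw [e1, e2, e3]
  have e4 : kw (r ∘ g) = kw r ∘ g := rfl
  have e5 : (∏ a, D (m4 ((r ∘ g) a)) ((u ∘ g) a) ((u' ∘ g) a)) =
      ∏ a, D (m4 (r a)) (u a) (u' a) :=
    Equiv.prod_comp g (fun a => D (m4 (r a)) (u a) (u' a))
  have e6 : eps2 t₀ (u ∘ g) (pull g x).1 = (sign g : ℤ) * eps2 t₀ u x.1 := eps2_comp t₀ u x.1 g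
  have e7 : eps2 t₀ (u' ∘ g) (pull g x).2 = (sign g : ℤ) * eps2 t₀ u' x.2 := eps2_comp t₀ u' x.2 g
  rw [e4, e5, e6, e7]
  have e8 : ((sign g : ℤ) : ℂ) * ((sign g : ℤ) : ℂ) = 1 := by
    rw [← Int.cast_mul, ← Units.val_mul, Int.units_mul_self]; simp
  push_cast
  linear_combination (-(F (kw r ∘ g) * (∏ a, (D (m4 (r a)) (u a) (u' a) : ℂ)) *
    (eps2 t₀ u x.1 : ℂ) * (eps2 t₀ u' x.2 : ℂ))) * e8

end Crest.Agent.SY
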