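import Crest.Agent.SY_Q0

/-!
# S0298, task SY-Q4: evaluation of `ThG` at a path
-/

set_option autoImplicit false

namespace Crest.Agent.SY

open Equiv Equiv.Perm Crest.Agent.SX

variable {A : Type} [Fintype A] [DecidableEq A] {k : ℕ}

/-- The path order of the cells. -/
private def q4map (c : Cel (two k)) : Fin (2 * k + 3) :=
  match c with
  | ⟨false, i⟩ => ⟨2 * (i : ℕ), by have : (i : ℕ) < k + 2 := i.2; omega⟩
  | ⟨true, i⟩ => ⟨2 * (i : ℕ) + 1, by have : (i : ℕ) < k + 1 := i.2; omega⟩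

private theorem q4map_bij : Function.Bijective (q4map (k := k)) := by
  rw [Fintype.bijective_iff_injective_and_card]
  constructor
  · rintro ⟨a, i⟩ ⟨b, j⟩ h
    have h1 := congrArg Fin.val h
    cases a <;> cases b <;> simp only [q4map] at h1
    · have : i = j := Fin.ext (by omega)
      rw [this]
    · omega
    · omega
    · have : i = j := Fin.ext (by omega)
      rw [this]
  · rw [Fintype.card_sigma, Fintype.sum_bool]
    simp only [Fintype.card_fin]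
    show (k + 1) + (k + 2) = 2 * k + 3
    ring

/-- The equivalence. -/
private noncomputable def q4eq (k : ℕ) : Cel (two k) ≃ Fin (2 * k + 3) :=
  Equiv.ofBijective _ q4map_bij

/-- Let `e : Fin (2k+3) ≃ A`. Choose `t₀` with `c0 t₀ i = e (2i)`, `c1 t₀ i = e (2i+1)`,
`cs t₀ = e (2k+2)` (i.e. `t₀.symm ⟨false, i⟩ = e (2i)`, `t₀.symm ⟨true, i⟩ = e (2i+1)`) and the
permutation `g` of `A` with `g (e (2i+1)) = c0 t₀ i = e (2i)`, `g (e (2i+2)) = c1 t₀ i = e (2i+1)`,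
`g (e 0) = cs t₀ = e (2k+2)` (a cyclic shift: `g (e j) = e (j - 1)`), and evaluate at
`x = (rowW t₀, rowW t₀ ∘ g)`: by `eps2_diag`, and
`eps2 t₀ u' (rowW t₀ ∘ g) = sign g * eps2 t₀ (u' ∘ g⁻¹) (rowW t₀)` (`eps2_comp`), this is
`sign g * ∑ r, F (kw r) * PathS D (fun j => m4 (r (e j)))` (reindex `u`, `u'` by `e`). -/
theorem ThG_path (e : Fin (2 * k + 3) ≃ A) :
    ∃ (t₀ : A ≃ Cel (two k)) (x : WW A) (δ : ℤ), δ ≠ 0 ∧
      ∀ (N : ℕ) (D : Fin 4 → Bool → Bool → ℤ) (F : (A → ℕ) → ℂ), ThG t₀ N D F x =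
        (δ : ℂ) * ∑ r : A → Fin N, F (kw r) * (PathS D (fun j => m4 (r (e j))) : ℂ) := by
  classical
  set t₀ : A ≃ Cel (two k) := ((q4eq k).trans e).symm with ht₀
  set h : Perm A := e.symm.trans ((finRotate (2 * k + 3)).trans e) with hh
  set g : Perm A := h⁻¹ with hg
  have hc0 : ∀ i : Fin (k + 1), c0 t₀ i = e ⟨2 * (i : ℕ), by omega⟩ := fun i => rfl
  have hc1 : ∀ i : Fin (k + 1), c1 t₀ i = e ⟨2 * (i : ℕ) + 1, by omega⟩ := fun i => rfl
  have hcs : cs t₀ = e ⟨2 * k + 2, by omega⟩ := rfl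
  have hhe : ∀ j, h (e j) = e (finRotate (2 * k + 3) j) := fun j => by
    rw [hh, Equiv.trans_apply, Equiv.symm_apply_apply, Equiv.trans_apply]
  have hh0 : ∀ i : Fin (k + 1), h (c0 t₀ i) = e ⟨2 * (i : ℕ) + 1, by omega⟩ := fun i => by
    rw [hc0, hhe, finRotate_of_lt (by omega : 2 * (i : ℕ) < 2 * k + 2)]
  have hh1 : ∀ i : Fin (k + 1), h (c1 t₀ i) = e ⟨2 * (i : ℕ) + 2, by omega⟩ := fun i => by
    rw [hc1, hhe, finRotate_of_lt (by omega : 2 * (i : ℕ) + 1 < 2 * k + 2)]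
  have hhs : h (cs t₀) = e ⟨0, by omega⟩ := by
    rw [hcs, hhe, finRotate_last']
  have hu : ∀ u : A → Bool, eps2 t₀ u (rowW t₀) = (if u (e ⟨2 * k + 2, by omega⟩) = false then 1 else 0) *
      ∏ i : Fin (k + 1), eb (u (e ⟨2 * (i : ℕ), by omega⟩)) (u (e ⟨2 * (i : ℕ) + 1, by omega⟩)) := by
    intro u
    rw [eps2_diag]
    rfl
  have hu' : ∀ u : A → Bool, eps2 t₀ u (rowW t₀ ∘ g) = (sign g : ℤ) *
      ((if u (e ⟨0, by omega⟩) = false then 1 else 0) *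
      ∏ i : Fin (k + 1), eb (u (e ⟨2 * (i : ℕ) + 1, by omega⟩)) (u (e ⟨2 * (i : ℕ) + 2, by omega⟩))) := by
    intro u
    have h1 : u = (u ∘ h) ∘ g := by
      funext a
      exact congrArg u (h.apply_symm_apply a).symm
    have h2 := eps2_comp t₀ (u ∘ h) (rowW t₀) g
    rw [← h1] at h2
    rw [h2, eps2_diag]
    simp only [Function.comp_apply, hh0, hh1, hhs]
  refine ⟨t₀, (rowW t₀, rowW t₀ ∘ g), (sign g : ℤ), Units.ne_zero _, fun N D F => ?_⟩
  rw [ThG_apply]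
  have key : ∀ r : A → Fin N, (∑ u : A → Bool, ∑ u' : A → Bool,
      F (kw r) * ((∏ a, D (m4 (r a)) (u a) (u' a) : ℤ) : ℂ) * (eps2 t₀ u (rowW t₀) : ℂ) *
        (eps2 t₀ u' (rowW t₀ ∘ g) : ℂ)) =
      ((sign g : ℤ) : ℂ) * (F (kw r) * (PathS D (fun j => m4 (r (e j))) : ℂ)) := by
    intro r
    have h3 : PathS D (fun j => m4 (r (e j))) = ∑ u : A → Bool, ∑ u' : A → Bool,
        (∏ a, D (m4 (r a)) (u a) (u' a)) *
        ((if u (e ⟨2 * k + 2, by omega⟩) = false then 1 else 0) *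
      ∏ i : Fin (k + 1), eb (u (e ⟨2 * (i : ℕ), by omega⟩)) (u (e ⟨2 * (i : ℕ) + 1, by omega⟩))) *
        ((if u' (e ⟨0, by omega⟩) = false then 1 else 0) *
      ∏ i : Fin (k + 1), eb (u' (e ⟨2 * (i : ℕ) + 1, by omega⟩)) (u' (e ⟨2 * (i : ℕ) + 2, by omega⟩))) := by
      unfold PathS
      refine (Fintype.sum_equiv (Equiv.arrowCongr e.symm (Equiv.refl Bool)) _ _ fun u => ?_).symm
      refine Fintype.sum_equiv (Equiv.arrowCongr e.symm (Equiv.refl Bool)) _ _ fun u' => ?_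
      have e1 : (Equiv.arrowCongr e.symm (Equiv.refl Bool)) u = u ∘ e := rfl
      have e2 : (Equiv.arrowCongr e.symm (Equiv.refl Bool)) u' = u' ∘ e := rfl
      rw [e1, e2]
      simp only [Function.comp_apply]
      rw [Equiv.prod_comp e (fun a => D (m4 (r a)) (u a) (u' a))]
    rw [h3]
    push_cast
    rw [Finset.mul_sum, Finset.mul_sum]
    refine Finset.sum_congr rfl fun u _ => ?_
    rw [Finset.mul_sum, Finset.mul_sum]
    refine Finset.sum_congr rfl fun u' _ => ?_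
    rw [hu, hu']
    push_cast
    ring
  calc _ = ∑ u : A → Bool, ∑ r : A → Fin N, ∑ u' : A → Bool,
        F (kw r) * ((∏ a, D (m4 (r a)) (u a) (u' a) : ℤ) : ℂ) * (eps2 t₀ u (rowW t₀) : ℂ) *
        (eps2 t₀ u' (rowW t₀ ∘ g) : ℂ) := Finset.sum_congr rfl fun u _ => Finset.sum_comm
    _ = ∑ r : A → Fin N, ∑ u : A → Bool, ∑ u' : A → Bool,
        F (kw r) * ((∏ a, D (m4 (r a)) (u a) (u' a) : ℤ) : ℂ) * (eps2 t₀ u (rowW t₀) : ℂ) *
        (eps2 t₀ u' (rowW t₀ ∘ g) : ℂ) := Finset.sum_comm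
    _ = ∑ r : A → Fin N, ((sign g : ℤ) : ℂ) * (F (kw r) * (PathS D (fun j => m4 (r (e j))) : ℂ)) :=
        Finset.sum_congr rfl fun r _ => key r
    _ = _ := by rw [Finset.mul_sum]

end Crest.Agent.SY
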