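import Crest.Agent.SY_Q0

/-!
# S0298, task SY-Q5: the path sum is the chain product
-/

set_option autoImplicit false

namespace Crest.Agent.SY

open Equiv Equiv.Perm Crest.Agent.SX

private theorem q5_sum_cons {n : ℕ} (f : (Fin (n + 1) → Bool) → ℤ) :
    ∑ u : Fin (n + 1) → Bool, f u =
      ∑ b : Bool, ∑ v : Fin n → Bool, f (Fin.cons b v : Fin (n + 1) → Bool) := by
  rw [← (Fin.consEquiv (fun _ : Fin (n + 1) => Bool)).sum_comp, Fintype.sum_prod_type]
  rfl

/-- the general path sum with start value `a` -/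
private def q5S (D : Fin 4 → Bool → Bool → ℤ) (m : ℕ) (ρ : Fin (2 * m + 1) → Fin 4) (a : Bool) :
    ℤ :=
  ∑ u : Fin (2 * m + 1) → Bool, ∑ u' : Fin (2 * m + 1) → Bool, (∏ j, D (ρ j) (u j) (u' j)) *
    ((if u ⟨2 * m, by omega⟩ = false then 1 else 0) *
      ∏ i : Fin m, eb (u ⟨2 * i, by omega⟩) (u ⟨2 * i + 1, by omega⟩)) *
    ((if u' ⟨0, by omega⟩ = a then 1 else 0) *
      ∏ i : Fin m, eb (u' ⟨2 * i + 1, by omega⟩) (u' ⟨2 * i + 2, by omega⟩))

private theorem q5_zero (D : Fin 4 → Bool → Bool → ℤ) (ρ : Fin (2 * 0 + 1) → Fin 4) (a : Bool) :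
    q5S D 0 ρ a = D (ρ 0) false a := by
  show ∑ u : Fin (0 + 1) → Bool, ∑ u' : Fin (0 + 1) → Bool, (∏ j : Fin (0 + 1),
    D (ρ j) (u j) (u' j)) * ((if u 0 = false then 1 else 0) * 1) *
    ((if u' 0 = a then 1 else 0) * 1) = _
  rw [q5_sum_cons]
  simp only [q5_sum_cons, Fintype.sum_bool, Fin.cons_zero, Finset.univ_unique,
    Finset.sum_singleton]
  cases a <;> simp

private theorem q5_succ (D : Fin 4 → Bool → Bool → ℤ) (m : ℕ)
    (ρ : Fin (2 * (m + 1) + 1) → Fin 4) (a : Bool) :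
    q5S D (m + 1) ρ a = ∑ b : Bool, ∑ c : Bool, ∑ d : Bool, ∑ e : Bool,
      D (ρ 0) b a * eb b c * (D (ρ ⟨1, by omega⟩) c d * eb d e *
        q5S D m (fun j => ρ ⟨j + 2, by omega⟩) e) := by
  have key : q5S D (m + 1) ρ a = ∑ b : Bool, ∑ c : Bool, ∑ v : Fin (2 * m + 1) → Bool,
      ∑ b' : Bool, ∑ d : Bool, ∑ v' : Fin (2 * m + 1) → Bool,
      (D (ρ 0) b b' * (D (ρ ⟨1, by omega⟩) c d * ∏ j : Fin (2 * m + 1),
          D (ρ ⟨j + 2, by omega⟩) (v j) (v' j))) *
        ((if v ⟨2 * m, by omega⟩ = false then 1 else 0) *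
          (eb b c * ∏ i : Fin m, eb (v ⟨2 * i, by omega⟩) (v ⟨2 * i + 1, by omega⟩))) *
        ((if b' = a then 1 else 0) *
          (eb d (v' ⟨0, by omega⟩) *
            ∏ i : Fin m, eb (v' ⟨2 * i + 1, by omega⟩) (v' ⟨2 * i + 2, by omega⟩))) := by
    show ∑ u : Fin ((2 * m + 1) + 1 + 1) → Bool, ∑ u' : Fin ((2 * m + 1) + 1 + 1) → Bool, _ = _
    rw [q5_sum_cons]
    refine Finset.sum_congr rfl fun b _ => ?_
    rw [q5_sum_cons]
    refine Finset.sum_congr rfl fun c _ => ?_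
    refine Finset.sum_congr rfl fun v _ => ?_
    rw [q5_sum_cons]
    refine Finset.sum_congr rfl fun b' _ => ?_
    rw [q5_sum_cons]
    refine Finset.sum_congr rfl fun d _ => ?_
    refine Finset.sum_congr rfl fun v' _ => ?_
    have h1 : (∏ j : Fin ((2 * m + 1) + 1 + 1), D (ρ j)
        ((Fin.cons b (Fin.cons c v : Fin ((2 * m + 1) + 1) → Bool) :
          Fin ((2 * m + 1) + 1 + 1) → Bool) j)
        ((Fin.cons b' (Fin.cons d v' : Fin ((2 * m + 1) + 1) → Bool) :
          Fin ((2 * m + 1) + 1 + 1) → Bool) j)) =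
        D (ρ 0) b b' * (D (ρ ⟨1, by omega⟩) c d * ∏ j : Fin (2 * m + 1),
          D (ρ ⟨j + 2, by omega⟩) (v j) (v' j)) := by
      rw [Fin.prod_univ_succ, Fin.prod_univ_succ]
      rfl
    have h2 : ∀ (b c : Bool) (v : Fin (2 * m + 1) → Bool), (∏ i : Fin (m + 1),
        eb ((Fin.cons b (Fin.cons c v : Fin ((2 * m + 1) + 1) → Bool) :
          Fin ((2 * m + 1) + 1 + 1) → Bool) ⟨2 * i, by omega⟩)
        ((Fin.cons b (Fin.cons c v : Fin ((2 * m + 1) + 1) → Bool) :
          Fin ((2 * m + 1) + 1 + 1) → Bool) ⟨2 * i + 1, by omega⟩)) =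
        eb b c * ∏ i : Fin m, eb (v ⟨2 * i, by omega⟩) (v ⟨2 * i + 1, by omega⟩) := by
      intro b c v
      rw [Fin.prod_univ_succ]
      rfl
    have h3 : ∀ (b c : Bool) (v : Fin (2 * m + 1) → Bool), (∏ i : Fin (m + 1),
        eb ((Fin.cons b (Fin.cons c v : Fin ((2 * m + 1) + 1) → Bool) :
          Fin ((2 * m + 1) + 1 + 1) → Bool) ⟨2 * i + 1, by omega⟩)
        ((Fin.cons b (Fin.cons c v : Fin ((2 * m + 1) + 1) → Bool) :
          Fin ((2 * m + 1) + 1 + 1) → Bool) ⟨2 * i + 2, by omega⟩)) =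
        eb c (v ⟨0, by omega⟩) *
          ∏ i : Fin m, eb (v ⟨2 * i + 1, by omega⟩) (v ⟨2 * i + 2, by omega⟩) := by
      intro b c v
      rw [Fin.prod_univ_succ]
      rfl
    rw [← h1, ← h2, ← h3 b' d v']
    rfl
  rw [key]
  refine Finset.sum_congr rfl fun b _ => ?_
  refine Finset.sum_congr rfl fun c _ => ?_
  calc _ = ∑ v : Fin (2 * m + 1) → Bool, ∑ d : Bool, ∑ v' : Fin (2 * m + 1) → Bool,
      (D (ρ 0) b a * (D (ρ ⟨1, by omega⟩) c d * ∏ j : Fin (2 * m + 1),
          D (ρ ⟨j + 2, by omega⟩) (v j) (v' j))) *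
        ((if v ⟨2 * m, by omega⟩ = false then 1 else 0) *
          (eb b c * ∏ i : Fin m, eb (v ⟨2 * i, by omega⟩) (v ⟨2 * i + 1, by omega⟩))) *
        (1 * (eb d (v' ⟨0, by omega⟩) *
            ∏ i : Fin m, eb (v' ⟨2 * i + 1, by omega⟩) (v' ⟨2 * i + 2, by omega⟩))) := by
        refine Finset.sum_congr rfl fun v _ => ?_
        rw [Finset.sum_eq_single a]
        · refine Finset.sum_congr rfl fun d _ => ?_
          refine Finset.sum_congr rfl fun v' _ => ?_
          rw [if_pos (rfl : a = a)]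
        · intro b' _ hb'
          refine Finset.sum_eq_zero fun d _ => Finset.sum_eq_zero fun v' _ => ?_
          rw [if_neg hb', zero_mul, mul_zero]
        · intro h
          exact absurd (Finset.mem_univ a) h
    _ = _ := by
        rw [Finset.sum_comm]
        refine Finset.sum_congr rfl fun d _ => ?_
        unfold q5S
        simp only [Finset.mul_sum]
        symm
        rw [Finset.sum_comm]
        refine Finset.sum_congr rfl fun v _ => ?_
        rw [Finset.sum_comm]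
        refine Finset.sum_congr rfl fun v' _ => ?_
        rw [Finset.sum_eq_single (v' ⟨0, by omega⟩)]
        · rw [if_pos (rfl : v' ⟨0, by omega⟩ = v' ⟨0, by omega⟩)]
          ring
        · intro e _ he
          have he' : ¬ (v' ⟨0, by omega⟩ = e) := fun h => he h.symm
          rw [if_neg he']
          ring
        · intro h
          exact absurd (Finset.mem_univ _) h

private theorem q5_cq (D : Fin 4 → Bool → Bool → ℤ) (m : ℕ) : ∀ (ρ : Fin (2 * m + 1) → Fin 4)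
    (a : Bool), q5S D m ρ a = Cq D false (List.ofFn ρ) a := by
  induction m with
  | zero =>
    intro ρ a
    rw [q5_zero]
    rfl
  | succ m ih =>
    intro ρ a
    rw [q5_succ]
    simp only [ih]
    have hL : List.ofFn ρ = ρ 0 :: ρ ⟨1, by omega⟩ ::
        List.ofFn (fun j : Fin (2 * m + 1) => ρ ⟨j + 2, by omega⟩) := by
      have h1 := List.ofFn_succ (n := 2 * m + 1 + 1) (f := ρ)
      rw [List.ofFn_succ (n := 2 * m + 1)] at h1
      exact h1
    rw [hL]
    obtain ⟨r, l, hl⟩ : ∃ r l, List.ofFn (fun j : Fin (2 * m + 1) => ρ ⟨j + 2, by omega⟩) =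
        r :: l := ⟨_, _, List.ofFn_succ⟩
    rw [hl]
    show _ = ∑ b : Bool, ∑ c : Bool, D (ρ 0) b a * eb b c * ∑ d : Bool, ∑ e : Bool,
      D (ρ ⟨1, by omega⟩) c d * eb d e * Cq D false (r :: l) e
    simp only [Finset.mul_sum]

/-- Induction on `k`, more generally with the start value `a` of `u' 0` instead of `false` and also
for one letter (`n = 1`): peel off the first two letters, `u = Fin.cons b (Fin.cons c v)`,
`u' = Fin.cons a (Fin.cons d v')` (`Fin.consEquiv`, `Fin.prod_univ_succ`); state the general version for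
`ρ : Fin (2 * m + 1) → Fin 4`, with
`S m ρ a = ∑ u u', (∏ j, D (ρ j) (u j) (u' j)) * ([u (2m) = false] * ∏ i : Fin m, eb (u (2i)) (u (2i+1)))
* ([u' 0 = a] * ∏ i : Fin m, eb (u' (2i+1)) (u' (2i+2)))`, `S m ρ a = Cq D false (List.ofFn ρ) a`,
`S (m+1) ρ a = ∑ b c d e, D (ρ 0) b a * eb b c * D (ρ 1) c d * eb d e * S m (ρ (· + 2)) e`. -/
theorem PathS_eq (D : Fin 4 → Bool → Bool → ℤ) {k : ℕ} (ρ : Fin (2 * k + 3) → Fin 4) :
    PathS D ρ = Cq D false (List.ofFn ρ) false := by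
  exact q5_cq D (k + 1) ρ false

end Crest.Agent.SY
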