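import Crest.Agent.SY_Q1
import Crest.Agent.SY_Q2
import Crest.Agent.SY_Q3
import Crest.Agent.SY_Q4
import Crest.Agent.SY_Q5

/-!
# S0298, task SY-Q6: the path block, assembled
-/

set_option autoImplicit false

namespace Crest.Agent.SY

open Equiv Equiv.Perm Crest.Agent.SX

private theorem q6_ofFn {n : ℕ} {γ : Type} (r : Fin n → γ) (i j : Fin n) (h : (i : ℕ) + 1 = j) :
    List.ofFn r = (List.ofFn r).take i ++ r i :: r j :: (List.ofFn r).drop (i + 2) := by
  have hi : (i : ℕ) < (List.ofFn r).length := by rw [List.length_ofFn]; exact i.2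
  have hj : (i : ℕ) + 1 < (List.ofFn r).length := by rw [List.length_ofFn, h]; exact j.2
  have h1 : (List.ofFn r).drop i = r i :: r j :: (List.ofFn r).drop (i + 2) := by
    rw [List.drop_eq_getElem_cons hi, List.drop_eq_getElem_cons hj, List.getElem_ofFn,
      List.getElem_ofFn]
    congr 2
    congr 1
    exact Fin.ext h
  rw [← h1, List.take_append_drop]

private theorem q6_ofFn_swap {n : ℕ} {γ : Type} (r : Fin n → γ) (i j : Fin n)
    (h : (i : ℕ) + 1 = j) :
    List.ofFn (r ∘ (swap i j : Perm (Fin n))) =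
      (List.ofFn r).take i ++ r j :: r i :: (List.ofFn r).drop (i + 2) := by
  have h1 := q6_ofFn (r ∘ (swap i j : Perm (Fin n))) i j h
  have e1 : (r ∘ (swap i j : Perm (Fin n))) i = r j := by
    rw [Function.comp_apply, swap_apply_left]
  have e2 : (r ∘ (swap i j : Perm (Fin n))) j = r i := by
    rw [Function.comp_apply, swap_apply_right]
  rw [e1, e2] at h1
  rw [h1]
  congr 1
  · apply List.ext_getElem
    · simp
    · intro m h2 h3
      rw [List.getElem_take, List.getElem_take, List.getElem_ofFn, List.getElem_ofFn,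
        Function.comp_apply]
      have hm : m < i := by
        rw [List.length_take, List.length_ofFn] at h2
        omega
      rw [swap_apply_of_ne_of_ne]
      · intro he; rw [← he] at hm; simp at hm
      · intro he
        have : (i : ℕ) + 1 = m := by rw [h, ← he]
        omega
  · congr 2
    apply List.ext_getElem
    · simp
    · intro m h2 h3
      rw [List.getElem_drop, List.getElem_drop, List.getElem_ofFn, List.getElem_ofFn,
        Function.comp_apply, swap_apply_of_ne_of_ne]
      · intro he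
        have := congrArg Fin.val he
        simp only at this
        omega
      · intro he
        have := congrArg Fin.val he
        simp only at this
        omega

private theorem q6_path_swap (D : Fin 4 → Bool → Bool → ℤ) (hD : D = Dm ∨ D = Dm2) (k : ℕ)
    (r : Fin (2 * k + 3) → Fin 4) (i j : Fin (2 * k + 3)) (h : (i : ℕ) + 1 = j) (hne : r i ≠ r j) :
    PathS D (r ∘ (swap i j : Perm (Fin (2 * k + 3)))) = - PathS D r := by
  rw [PathS_eq, PathS_eq, q6_ofFn_swap r i j h, q6_ofFn r i j h]
  have h1 := Cq_swap D hD false ((List.ofFn r).take i) ((List.ofFn r).drop (i + 2)) (r j) (r i)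
    hne.symm false
  rw [← q6_ofFn r i j h] at h1 ⊢
  exact h1

/-- THE PATH BLOCK.

Proof. Choose `e : Fin (2k+3) ≃ A` such that `c j = (index of the column of t (e j))` (via
`Fintype.equivFin ι`) is monotone. Take `t₀`, `x`, `δ` from `ThG_path e`, `N = (∑ i, (o i + d i)) + 1`,
`Ψ ρ = Cq D false (List.ofFn ρ) false` (`PathS_eq`). `Ψ` changes its sign under adjacent transpositions
of different values (`Cq_swap`, `List.ofFn` of `ρ ∘ swap`). `ρ₀ j = m4 (o + row of t (e j))` is
injective on blocks (`d i ≤ 4` consecutive values). If `skw t o (kw r) ≠ 0` there is `s` in the column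
group with `r ∘ s = o + row`, the value is `sign s`, and `j ↦ m4 (r (e j))` is `ρ₀ ∘ s'⁻¹`,
`s' = e⁻¹ s e`, so by `block_perm` the term is `Ψ ρ₀`. So
`ThG t₀ N D (skw t o) x = δ * #{r | skw t o (kw r) ≠ 0} * Ψ ρ₀`, the number is `≥ 1` (`s = 1`), and for
`D = Dm` or `D = Dm2`, `Ψ ρ₀ ≠ 0` by `Cq_ne_zero`. -/
theorem theta_gen {A ι : Type} [Fintype A] [DecidableEq A] [Fintype ι] [DecidableEq ι] (k : ℕ)
    (hA : Fintype.card A = 2 * k + 3) {d : ι → ℕ} (hd : ∀ i, d i ≤ 4) (t : A ≃ Cel d) (o : ι → ℕ) :
    ∃ Θ : ((A → ℕ) → ℂ) →ₗ[ℂ] (WW A → ℂ), (∀ F, Θ F ∈ VV (Ω := A) (two k)) ∧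
      (∀ (g : Perm A) F x, Θ (fun w => F (w ∘ g)) x = Θ F (pull g x)) ∧ Θ (skw t o) ≠ 0 := by
  classical
  -- the sorted enumeration
  let col : A → ℕ := fun a => (Fintype.equivFin ι (t a).1 : ℕ)
  have hcol : ∀ a b, col a = col b → (t a).1 = (t b).1 := fun a b h =>
    (Fintype.equivFin ι).injective (Fin.ext h)
  let e₀ : Fin (2 * k + 3) ≃ A := (Fintype.equivFinOfCardEq hA).symm
  let e : Fin (2 * k + 3) ≃ A := (Tuple.sort (col ∘ e₀)).trans e₀
  let c : Fin (2 * k + 3) → ℕ := fun j => col (e j)
  have hc : Monotone c := Tuple.monotone_sort (col ∘ e₀)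
  obtain ⟨t₀, x, δ, hδ, hpath⟩ := ThG_path (k := k) e
  let row : A → ℕ := fun a => o (t a).1 + ((t a).2 : ℕ)
  let N : ℕ := (∑ i, (o i + d i)) + 1
  have hrow : ∀ a, row a < N := by
    intro a
    have h1 : o (t a).1 + d (t a).1 ≤ ∑ i, (o i + d i) :=
      Finset.single_le_sum (f := fun i => o i + d i) (fun i _ => Nat.zero_le _)
        (Finset.mem_univ (t a).1)
    have h2 : ((t a).2 : ℕ) < d (t a).1 := (t a).2.2
    show o (t a).1 + ((t a).2 : ℕ) < (∑ i, (o i + d i)) + 1
    omega
  let ρ₀ : Fin (2 * k + 3) → Fin 4 := fun j => m4 (row (e j))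
  have hkey : ∀ p q : Cel d, p.1 = q.1 →
      (o p.1 + (p.2 : ℕ)) % 4 = (o q.1 + (q.2 : ℕ)) % 4 → p = q := by
    rintro ⟨a, i⟩ ⟨b, j⟩ h1 h2
    simp only at h1
    subst h1
    simp only at h2
    have h3 := hd a
    have h4 := i.2
    have h5 := j.2
    have h6 : i = j := Fin.ext (by omega)
    rw [h6]
  have hρ₀ : ∀ i j, c i = c j → ρ₀ i = ρ₀ j → i = j := by
    intro i j h1 h2
    have h4 : row (e i) % 4 = row (e j) % 4 := congrArg Fin.val h2
    exact e.injective (t.injective (hkey _ _ (hcol _ _ h1) h4))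
  let S : Finset (Perm A) := Finset.univ.filter fun s : Perm A => ∀ x, (t (s x)).1 = (t x).1
  have hS : 0 < S.card := by
    refine Finset.card_pos.2 ⟨1, ?_⟩
    rw [Finset.mem_filter]
    exact ⟨Finset.mem_univ _, fun x => rfl⟩
  have hsum : ∀ D : Fin 4 → Bool → Bool → ℤ, (D = Dm ∨ D = Dm2) →
      ThG t₀ N D (skw t o) x = (δ : ℂ) * ((S.card : ℂ) * (PathS D ρ₀ : ℂ)) := by
    intro D hD
    rw [hpath]
    congr 1
    have h1 : ∀ r : A → Fin N, skw t o (kw r) * (PathS D (fun j => m4 (r (e j))) : ℂ) =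
        ∑ s : Perm A, (if (∀ x, (t (s x)).1 = (t x).1) ∧
          (∀ x, (kw r) (s x) = o (t x).1 + ((t x).2 : ℕ)) then ((sign s : ℤ) : ℂ) else 0) *
            (PathS D (fun j => m4 (r (e j))) : ℂ) := by
      intro r
      unfold skw
      rw [Finset.sum_mul]
      refine Finset.sum_congr rfl fun s _ => ?_
      congr
    rw [Finset.sum_congr rfl fun r _ => h1 r, Finset.sum_comm]
    have h2 : ∀ s : Perm A, (∑ r : A → Fin N, (if (∀ x, (t (s x)).1 = (t x).1) ∧
          (∀ x, (kw r) (s x) = o (t x).1 + ((t x).2 : ℕ)) then ((sign s : ℤ) : ℂ) else 0) *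
            (PathS D (fun j => m4 (r (e j))) : ℂ)) =
        if (∀ x, (t (s x)).1 = (t x).1) then (PathS D ρ₀ : ℂ) else 0 := by
      intro s
      by_cases hs : ∀ x, (t (s x)).1 = (t x).1
      · rw [if_pos hs]
        let rs : A → Fin N := fun a => ⟨row (s⁻¹ a), hrow _⟩
        rw [Finset.sum_eq_single rs]
        · have h3 : ∀ x, (kw rs) (s x) = o (t x).1 + ((t x).2 : ℕ) := by
            intro x
            show row (s⁻¹ (s x)) = _
            have h4 : s⁻¹ (s x) = x := s.symm_apply_apply x
            rw [h4]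
          rw [if_pos ⟨hs, h3⟩]
          -- the permutation of `Fin (2k+3)`
          let s' : Perm (Fin (2 * k + 3)) := (e.trans s⁻¹).trans e.symm
          have hs' : ∀ j, e (s' j) = s⁻¹ (e j) := fun j => by
            show e (e.symm (s⁻¹ (e j))) = _
            rw [Equiv.apply_symm_apply]
          have hsg : sign s' = sign s := by
            have h4 : s' = e.symm.permCongr (s⁻¹ : Perm A) := by
              ext j
              rfl
            have h5 : sign s' = sign (s⁻¹) := by
              rw [h4]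
              exact sign_permCongr e.symm s⁻¹
            rw [h5, sign_inv]
          have hsc : ∀ j, c (s' j) = c j := by
            intro j
            show (Fintype.equivFin ι (t (e (s' j))).1 : ℕ) = (Fintype.equivFin ι (t (e j)).1 : ℕ)
            rw [hs']
            have h6 := hs (s⁻¹ (e j))
            have h66 : s (s⁻¹ (e j)) = e j := s.apply_symm_apply (e j)
            rw [h66] at h6
            rw [h6]
          have h7 : (fun j => m4 ((rs (e j) : Fin N) : ℕ)) = ρ₀ ∘ s' := by
            funext j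
            show m4 (row (s⁻¹ (e j))) = m4 (row (e (s' j)))
            rw [hs']
          have h8 := block_perm (PathS D) (fun r i j h hne => q6_path_swap D hD k r i j h hne)
            c hc ρ₀ hρ₀ s' hsc
          rw [h7, h8, hsg]
          push_cast
          rw [← mul_assoc]
          have h9 : ((sign s : ℤ) : ℂ) * ((sign s : ℤ) : ℂ) = 1 := by
            rw [← Int.cast_mul, ← Units.val_mul, Int.units_mul_self]
            simp
          rw [h9, one_mul]
        · intro r _ hr
          rw [if_neg, zero_mul]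
          rintro ⟨-, h4⟩
          apply hr
          funext a
          apply Fin.ext
          have h5 := h4 (s⁻¹ a)
          have h55 : s (s⁻¹ a) = a := s.apply_symm_apply a
          rw [h55] at h5
          exact h5
        · intro h
          exact absurd (Finset.mem_univ _) h
      · rw [if_neg hs]
        refine Finset.sum_eq_zero fun r _ => ?_
        rw [if_neg, zero_mul]
        rintro ⟨h3, -⟩
        exact hs h3
    rw [Finset.sum_congr rfl fun s _ => h2 s, ← Finset.sum_filter, Finset.sum_const, nsmul_eq_mul]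
  have hfin : ∀ D : Fin 4 → Bool → Bool → ℤ, (D = Dm ∨ D = Dm2) → PathS D ρ₀ ≠ 0 →
      ∃ Θ : ((A → ℕ) → ℂ) →ₗ[ℂ] (WW A → ℂ), (∀ F, Θ F ∈ VV (Ω := A) (two k)) ∧
        (∀ (g : Perm A) F x, Θ (fun w => F (w ∘ g)) x = Θ F (pull g x)) ∧ Θ (skw t o) ≠ 0 := by
    intro D hD hne
    refine ⟨ThG t₀ N D, fun F => ThG_mem t₀ N D F, fun g F x => ThG_equiv t₀ N D F g x, ?_⟩
    intro h0
    have h1 := congrFun h0 x
    rw [hsum D hD, Pi.zero_apply] at h1
    have h2 : (δ : ℂ) ≠ 0 := by exact_mod_cast hδ
    have h3 : (S.card : ℂ) ≠ 0 := by exact_mod_cast hS.ne'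
    have h4 : (PathS D ρ₀ : ℂ) ≠ 0 := by exact_mod_cast hne
    exact mul_ne_zero h2 (mul_ne_zero h3 h4) h1
  have hlen : (List.ofFn ρ₀).length % 2 = 1 := by
    rw [List.length_ofFn]
    omega
  rcases Cq_ne_zero (List.ofFn ρ₀) hlen with h | h
  · exact hfin Dm (Or.inl rfl) (by rw [PathS_eq]; exact h)
  · exact hfin Dm2 (Or.inr rfl) (by rw [PathS_eq]; exact h)

end Crest.Agent.SY
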