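import Crest.Agent.SY_P9
import Crest.Agent.SY_P10
import Crest.Agent.SY_Q6

/-!
# S0298, task SY-P11: the restriction rules for strips and paths
-/

set_option autoImplicit false

namespace Crest.Agent.SY

open Equiv Equiv.Perm Crest.Agent.SX TensorProduct

private theorem p11_b0 {lam al : Shp} (h1 : ∀ c, al.a c ≤ lam.a c) : al.b 0 ≤ lam.b 0 := by
  by_contra hcon
  push Not at hcon
  have h2 : 0 < al.a (lam.b 0) := (al.h _ _).2 hcon
  have h3 : lam.b 0 < lam.b 0 := (lam.h (lam.b 0) 0).1 (h2.trans_le (h1 _))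
  exact lt_irrefl _ h3

/-- Common part: from shapes to `restrict_gen`. `hb c = al.a c`, `d c = lam.a c - al.a c` for
`c : Fin (lam.b 0)`; `Sp (fun c => hb c + d c) = Sp lam.hf` and `Sp hb = Sp al.hf`
(`Sp_nonempty_cols`, since `al.b 0 ≤ lam.b 0`). -/
theorem restrict_shp {A B : Type} [Fintype A] [DecidableEq A] [Fintype B] [DecidableEq B]
    (lam al : Shp) (m : ℕ) (h1 : ∀ c, al.a c ≤ lam.a c) (h2 : ∀ c, lam.a c ≤ al.a c + m)
    (hB : Fintype.card B = al.size) (hAB : lam.size = al.size + Fintype.card A)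
    {W U : Type} [AddCommGroup W] [Module ℂ W] [AddCommGroup U] [Module ℂ U]
    (σ : Representation ℂ (Perm (A ⊕ B)) W) (f : W →ₗ[ℂ] ((A ⊕ B → ℕ) → ℂ)) (hf0 : f ≠ 0)
    (hf : ∀ g w x, f (σ g w) x = f w (x ∘ g)) (hS : ∀ w, f w ∈ Sp (Ω := A ⊕ B) lam.hf)
    (τ : Representation ℂ (Perm A) U)
    (hΘ : ∀ (ι : Type) [Fintype ι] [DecidableEq ι] (d o : ι → ℕ) (t : A ≃ Cel d),
      (∀ i, d i ≤ m) → ∃ Θ : ((A → ℕ) → ℂ) →ₗ[ℂ] U,
        (∀ (g : Perm A) (F : (A → ℕ) → ℂ), Θ (fun w => F (w ∘ g)) = τ g (Θ F)) ∧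
        Θ (skw t o) ≠ 0) :
    ∃ F : W →ₗ[ℂ] U ⊗[ℂ] Sp (Ω := B) al.hf, F ≠ 0 ∧ ∀ g₁ g₂ w,
      F (σ (Perm.sumCongr g₁ g₂) w) = TensorProduct.map (τ g₁) (SpRep B al.hf g₂) (F w) := by
  have hb0 := p11_b0 h1
  let hb : Fin (lam.b 0) → ℕ := fun c => al.a c
  let d : Fin (lam.b 0) → ℕ := fun c => lam.a c - al.a c
  have hsb : ∑ c, hb c = al.size := by
    rw [Shp.size_eq_sum al _ hb0]
    exact Fin.sum_univ_eq_sum_range (fun c => al.a c) (lam.b 0)
  have hsum : (fun i => hb i + d i) = lam.hf := by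
    funext c
    exact Nat.add_sub_cancel' (h1 c)
  have hsd : ∑ c, hb c + ∑ c, d c = lam.size := by
    rw [← Finset.sum_add_distrib, ← Shp.sum_hf]
    exact Finset.sum_congr rfl fun c _ => congrFun hsum c
  have hcA : Fintype.card A = Fintype.card (Cel d) := by
    rw [Fintype.card_sigma]
    simp only [Fintype.card_fin]
    omega
  have hcB : Fintype.card B = Fintype.card (Cel hb) := by
    rw [Fintype.card_sigma]
    simp only [Fintype.card_fin]
    omega
  let tA : A ≃ Cel d := Fintype.equivOfCardEq hcA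
  let tB : B ≃ Cel hb := Fintype.equivOfCardEq hcB
  obtain ⟨Θ, hΘ1, hΘ2⟩ := hΘ (Fin (lam.b 0)) d hb tA (fun i => by
    have := h2 i
    show lam.a i - al.a i ≤ m
    omega)
  have hS' : ∀ w, f w ∈ Sp (Ω := A ⊕ B) (fun i => hb i + d i) := by
    intro w
    rw [hsum]
    exact hS w
  obtain ⟨F, hF0, hF⟩ := restrict_gen tA tB σ f hf0 hf hS' τ Θ hΘ1 hΘ2
  have hE : Sp (Ω := B) hb = Sp (Ω := B) al.hf := by
    refine (Sp_nonempty_cols (Ω := B) (Fin.castLE hb0) (Fin.castLE_injective hb0) hb fun i hi => ?_).symm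
    have h3 : (i : ℕ) < al.b 0 := (al.h i 0).1 (Nat.pos_of_ne_zero hi)
    exact ⟨⟨i, h3⟩, rfl⟩
  let e : Sp (Ω := B) hb ≃ₗ[ℂ] Sp (Ω := B) al.hf := LinearEquiv.ofEq _ _ hE
  let E : U ⊗[ℂ] Sp (Ω := B) hb ≃ₗ[ℂ] U ⊗[ℂ] Sp (Ω := B) al.hf :=
    TensorProduct.congr (LinearEquiv.refl ℂ U) e
  have key : ∀ g₁ g₂ (x : U ⊗[ℂ] Sp (Ω := B) hb), E (TensorProduct.map (τ g₁) (SpRep B hb g₂) x) =
      TensorProduct.map (τ g₁) (SpRep B al.hf g₂) (E x) := by
    intro g₁ g₂ x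
    induction x using TensorProduct.induction_on with
    | zero => simp
    | tmul u v => rfl
    | add x y hx hy => rw [map_add, map_add, map_add, map_add, hx, hy]
  refine ⟨E.toLinearMap ∘ₗ F, ?_, fun g₁ g₂ w => ?_⟩
  · intro h0
    apply hF0
    ext w
    have h4 : E (F w) = 0 := LinearMap.congr_fun h0 w
    have h5 : F w = 0 := E.injective (by rw [h4, map_zero])
    rw [h5]
    rfl
  · show E (F (σ (Perm.sumCongr g₁ g₂) w)) = TensorProduct.map (τ g₁) (SpRep B al.hf g₂) (E (F w))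
    rw [hF, key]

/-- sum over all words with values `< N`. -/
private noncomputable def p11_Θ (A : Type) [Fintype A] [DecidableEq A] (N : ℕ) :
    ((A → ℕ) → ℂ) →ₗ[ℂ] ℂ where
  toFun F := ∑ v : A → Fin N, F (kw v)
  map_add' F G := by
    simp [Finset.sum_add_distrib]
  map_smul' c F := by
    simp [Finset.mul_sum]

private theorem p11_one {A ι : Type} [Fintype A] [DecidableEq A] {d : ι → ℕ} (hd : ∀ i, d i ≤ 1)
    (t : A ≃ Cel d) (s : Perm A) (hs : ∀ x, (t (s x)).1 = (t x).1) : s = 1 := by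
  ext x
  show s x = x
  apply t.injective
  have key : ∀ y z : Cel d, y.1 = z.1 → y = z := by
    rintro ⟨i, r⟩ ⟨j, q⟩ hij
    obtain rfl : i = j := hij
    have h1 := r.2
    have h2 := q.2
    have h3 := hd i
    have : r = q := Fin.ext (by omega)
    rw [this]
  exact key _ _ (hs x)

/-- STRIP. `Θ G = ∑ v : A → Fin N, G (kw v)`; if all `d i ≤ 1` the column group is trivial and
`skw t o` is the indicator of one word. -/
theorem strip_F {A B : Type} [Fintype A] [DecidableEq A] [Fintype B] [DecidableEq B]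
    (lam al : Shp) (h1 : ∀ c, al.a c ≤ lam.a c) (h2 : ∀ c, lam.a c ≤ al.a c + 1)
    (hB : Fintype.card B = al.size) (hAB : lam.size = al.size + Fintype.card A)
    {W : Type} [AddCommGroup W] [Module ℂ W]
    (σ : Representation ℂ (Perm (A ⊕ B)) W) (f : W →ₗ[ℂ] ((A ⊕ B → ℕ) → ℂ)) (hf0 : f ≠ 0)
    (hf : ∀ g w x, f (σ g w) x = f w (x ∘ g)) (hS : ∀ w, f w ∈ Sp (Ω := A ⊕ B) lam.hf) :
    ∃ F : W →ₗ[ℂ] ℂ ⊗[ℂ] Sp (Ω := B) al.hf, F ≠ 0 ∧ ∀ g₁ g₂ w,
      F (σ (Perm.sumCongr g₁ g₂) w) =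
        TensorProduct.map (Representation.trivial ℂ (Perm A) ℂ g₁) (SpRep B al.hf g₂) (F w) := by
  classical
  refine restrict_shp lam al 1 h1 h2 hB hAB σ f hf0 hf hS (Representation.trivial ℂ (Perm A) ℂ) ?_
  intro ι _ _ d o t hd
  refine ⟨p11_Θ A (∑ i, o i + 1), ?_, ?_⟩
  · intro g F
    rw [Representation.trivial_apply]
    show ∑ v : A → Fin (∑ i, o i + 1), F (kw v ∘ g) = ∑ v : A → Fin (∑ i, o i + 1), F (kw v)
    exact Fintype.sum_equiv (Equiv.arrowCongr g.symm (Equiv.refl (Fin (∑ i, o i + 1)))) _ _ fun v => rfl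
  · have hval : ∀ v : A → ℕ, skw t o v = if v = fun x => o (t x).1 then 1 else 0 := by
      intro v
      have hr : ∀ x, ((t x).2 : ℕ) = 0 := fun x => by
        have h3 := (t x).2.2
        have h4 := hd (t x).1
        omega
      unfold skw
      rw [Finset.sum_eq_single (1 : Perm A)]
      · by_cases hv : v = fun x => o (t x).1
        · rw [if_pos hv, if_pos]
          · simp
          · refine ⟨fun x => rfl, fun x => ?_⟩
            rw [hv, hr x]
            rfl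
        · rw [if_neg hv, if_neg]
          rintro ⟨-, h5⟩
          apply hv
          funext x
          have h6 := h5 x
          rw [hr x] at h6
          exact h6
      · intro s _ hs
        rw [if_neg]
        rintro ⟨h5, -⟩
        exact hs (p11_one hd t s h5)
      · intro h; exact absurd (Finset.mem_univ _) h
    have ho : ∀ x, o (t x).1 < ∑ i, o i + 1 := fun x =>
      Nat.lt_succ_of_le (Finset.single_le_sum (f := o) (fun _ _ => Nat.zero_le _) (Finset.mem_univ _))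
    show ∑ v : A → Fin (∑ i, o i + 1), skw t o (kw v) ≠ 0
    rw [Finset.sum_eq_single (fun x => (⟨o (t x).1, ho x⟩ : Fin (∑ i, o i + 1)))]
    · rw [hval, if_pos rfl]
      exact one_ne_zero
    · intro v _ hv
      rw [hval, if_neg]
      intro h5
      apply hv
      funext x
      exact Fin.ext (congrFun h5 x)
    · intro h; exact absurd (Finset.mem_univ _) h

/-- PATH. -/
theorem path_F {A B : Type} [Fintype A] [DecidableEq A] [Fintype B] [DecidableEq B] (k : ℕ)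
    (hA : Fintype.card A = 2 * k + 3)
    (lam al : Shp) (h1 : ∀ c, al.a c ≤ lam.a c) (h2 : ∀ c, lam.a c ≤ al.a c + 4)
    (hB : Fintype.card B = al.size) (hAB : lam.size = al.size + Fintype.card A)
    {W : Type} [AddCommGroup W] [Module ℂ W]
    (σ : Representation ℂ (Perm (A ⊕ B)) W) (f : W →ₗ[ℂ] ((A ⊕ B → ℕ) → ℂ)) (hf0 : f ≠ 0)
    (hf : ∀ g w x, f (σ g w) x = f w (x ∘ g)) (hS : ∀ w, f w ∈ Sp (Ω := A ⊕ B) lam.hf) :
    ∃ F : W →ₗ[ℂ] VV (Ω := A) (two k) ⊗[ℂ] Sp (Ω := B) al.hf, F ≠ 0 ∧ ∀ g₁ g₂ w,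
      F (σ (Perm.sumCongr g₁ g₂) w) =
        TensorProduct.map (VVRep A (two k) g₁) (SpRep B al.hf g₂) (F w) := by
  refine restrict_shp lam al 4 h1 h2 hB hAB σ f hf0 hf hS (VVRep A (two k)) ?_
  intro ι _ _ d o t hd
  obtain ⟨Θ, hΘ1, hΘ2, hΘ3⟩ := theta_gen k hA hd t o
  refine ⟨Θ.codRestrict _ hΘ1, fun g F => ?_, fun h0 => ?_⟩
  · apply Subtype.ext
    funext x
    exact hΘ2 g F x
  · exact hΘ3 (congrArg Subtype.val h0)

end Crest.Agent.SY
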