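import Crest.Agent.SY_P0

/-!
# S0298, task SY-P2: `D^{⊗A}` on one column and on products
-/

set_option autoImplicit false

namespace Crest.Agent.SY

open Equiv Equiv.Perm Crest.Agent.SX

private theorem pt_det {A : Type} [Fintype A] [DecidableEq A] {K : ℕ}
    (t : A ≃ Cel (fun _ : Unit => K)) (w : A → ℕ) :
    pt t w = (Matrix.of (fun a b : A => if w a = ((t b).2 : ℕ) then (1 : ℂ) else 0)).det := by
  classical
  rw [pt_def, Matrix.det_apply']
  refine Finset.sum_congr rfl fun s _ => ?_
  by_cases h : ∀ x, w (s x) = ((t x).2 : ℕ)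
  · rw [if_pos ⟨fun x => rfl, h⟩, Finset.prod_eq_one, mul_one]
    intro x _
    show (if w (s x) = ((t x).2 : ℕ) then (1 : ℂ) else 0) = 1
    rw [if_pos (h x)]
  · rw [if_neg (fun h' => h h'.2)]
    push Not at h
    obtain ⟨x, hx⟩ := h
    rw [Finset.prod_eq_zero (Finset.mem_univ x), mul_zero]
    show (if w (s x) = ((t x).2 : ℕ) then (1 : ℂ) else 0) = 0
    rw [if_neg hx]

/-- the bijection of a one column tableau -/
private def colE {A : Type} {K : ℕ} (t : A ≃ Cel (fun _ : Unit => K)) : A ≃ Fin K where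
  toFun x := (t x).2
  invFun i := t.symm ⟨(), i⟩
  left_inv x := by
    have : (⟨(), (t x).2⟩ : Cel (fun _ : Unit => K)) = t x := by
      rcases t x with ⟨⟨⟩, i⟩
      rfl
    show t.symm ⟨(), (t x).2⟩ = x
    rw [this, Equiv.symm_apply_apply]
  right_inv i := by
    show (t (t.symm ⟨(), i⟩)).2 = i
    rw [Equiv.apply_symm_apply]

/-- `D^{⊗A}` multiplies the polytabloid of one column of height `K` by `det D`.

Proof. Let `e : A ≃ Fin K`, `e x = (t x).2`. By `pt_eq_sign`, `pt_ne_zero`: `pt t w = sign s` if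
`w ∘ s = e` with `s : Perm A`, and `0` if `w` is not a bijection onto `{0, …, K - 1}`. So
`pt t (kw v) = det (fun a b : Fin K => if v (e.symm a) = b then 1 else 0)` and more directly
`∑_v (∏ a, Dx D (w a) (v a)) * pt t (kw v) = ∑_{s : Perm A} sign s * ∏ a, Dx D (w a) (e (s⁻¹ a))`
which is the determinant of the matrix with rows `Dx D (w (e.symm a))`; if `w` has a value `≥ K` both
sides are `0`; if `w = kw v'`, it is `det (D.submatrix (v' ∘ e.symm) id)`, `= 0` if `v'` is not
injective and `= sign * det D` otherwise. -/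
theorem det_pt {A : Type} [Fintype A] [DecidableEq A] {K : ℕ} (t : A ≃ Cel (fun _ : Unit => K))
    (D : Matrix (Fin K) (Fin K) ℂ) : DD A D (pt t) = D.det • pt t := by
  classical
  ext w
  rw [DD_apply, Pi.smul_apply, smul_eq_mul]
  set e : A ≃ Fin K := colE t with he
  have hev : ∀ x, (t x).2 = e x := fun x => rfl
  have h1 : ∑ v : A → Fin K, (∏ a, Dx D (w a) (v a)) * pt t (kw v) =
      (Matrix.of (fun a b : A => Dx D (w a) (e b))).det := by
    rw [Matrix.det_apply']
    have h2 : ∀ v : A → Fin K, (∏ a, Dx D (w a) (v a)) * pt t (kw v) =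
        ∑ s : Perm A, (if v = fun a => e (s.symm a) then
          ((sign s : ℤ) : ℂ) * ∏ a, Dx D (w a) (v a) else 0) := by
      intro v
      rw [pt_def, Finset.mul_sum]
      refine Finset.sum_congr rfl fun s _ => ?_
      rw [mul_ite, mul_zero]
      have hc : ((∀ x, (t (s x)).1 = (t x).1) ∧ (∀ x, kw v (s x) = ((t x).2 : ℕ))) ↔
          v = fun a => e (s.symm a) := by
        constructor
        · rintro ⟨-, h⟩
          funext a
          have h3 := h (s.symm a)
          rw [Equiv.apply_symm_apply] at h3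
          exact Fin.ext h3
        · rintro h
          refine ⟨fun x => rfl, fun x => ?_⟩
          rw [h]
          show ((e (s.symm (s x)) : Fin K) : ℕ) = _
          rw [Equiv.symm_apply_apply]
          rfl
      by_cases hcv : v = fun a => e (s.symm a)
      · rw [if_pos (hc.2 hcv), if_pos hcv, mul_comm]
      · rw [if_neg (fun h => hcv (hc.1 h)), if_neg hcv]
    rw [Finset.sum_congr rfl fun v _ => h2 v, Finset.sum_comm]
    refine Finset.sum_congr rfl fun s _ => ?_
    rw [Finset.sum_ite_eq' Finset.univ (fun a => e (s.symm a))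
      (fun v => ((sign s : ℤ) : ℂ) * ∏ a, Dx D (w a) (v a)), if_pos (Finset.mem_univ _)]
    congr 1
    rw [← Equiv.prod_comp s]
    refine Finset.prod_congr rfl fun x _ => ?_
    show Dx D (w (s x)) (e (s.symm (s x))) = Dx D (w (s x)) (e x)
    rw [Equiv.symm_apply_apply]
  rw [h1, pt_det, mul_comm]
  have h3 : (Matrix.of (fun a b : A => Dx D (w a) (e b))) =
      (Matrix.of (fun a b : A => if w a = ((t b).2 : ℕ) then (1 : ℂ) else 0)) *
        D.submatrix e e := by
    ext a b
    rw [Matrix.mul_apply]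
    simp only [Matrix.of_apply, Matrix.submatrix_apply, ite_mul, one_mul, zero_mul]
    by_cases h : w a < K
    · rw [Finset.sum_eq_single (e.symm ⟨w a, h⟩)]
      · have h4 : (((t (e.symm ⟨w a, h⟩)).2 : Fin K) : ℕ) = w a := by
          rw [hev, Equiv.apply_symm_apply]
        rw [if_pos h4.symm, Equiv.apply_symm_apply]
        unfold Dx
        rw [dif_pos h]
      · intro c _ hc
        rw [if_neg]
        intro h5
        apply hc
        rw [Equiv.eq_symm_apply]
        exact Fin.ext h5.symm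
      · intro h5
        exact absurd (Finset.mem_univ _) h5
    · rw [Finset.sum_eq_zero]
      · unfold Dx
        rw [dif_neg h]
      · intro c _
        rw [if_neg]
        intro h5
        apply h
        rw [h5]
        exact (t c).2.isLt
  rw [h3, Matrix.det_mul, Matrix.det_submatrix_equiv_self]

/-- `D^{⊗(A ⊕ B)}` on products. (`Fintype.sum_prod_type` through the equivalence
`(A ⊕ B → Fin K) ≃ (A → Fin K) × (B → Fin K)`, `Fintype.prod_sum_type`.) -/
theorem DD_mul {A B : Type} [Fintype A] [DecidableEq A] [Fintype B] [DecidableEq B] {K : ℕ}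
    (D : Matrix (Fin K) (Fin K) ℂ) (F : (A → ℕ) → ℂ) (G : (B → ℕ) → ℂ) :
    DD (A ⊕ B) D (fun x => F (x ∘ Sum.inl) * G (x ∘ Sum.inr)) =
      fun x => DD A D F (x ∘ Sum.inl) * DD B D G (x ∘ Sum.inr) := by
  funext x
  show DD (A ⊕ B) D (fun x => F (x ∘ Sum.inl) * G (x ∘ Sum.inr)) x = _
  rw [DD_apply, DD_apply, DD_apply, Finset.sum_mul_sum, ← Fintype.sum_prod_type']
  refine Fintype.sum_equiv (Equiv.sumArrowEquivProdArrow A B (Fin K)) _ _ fun v => ?_
  rw [Fintype.prod_sum_type]
  have e1 : F (kw v ∘ Sum.inl) = F (kw ((Equiv.sumArrowEquivProdArrow A B (Fin K)) v).1) := rfl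
  have e2 : G (kw v ∘ Sum.inr) = G (kw ((Equiv.sumArrowEquivProdArrow A B (Fin K)) v).2) := rfl
  rw [e1, e2]
  have e3 : ∀ a, ((Equiv.sumArrowEquivProdArrow A B (Fin K)) v).1 a = v (Sum.inl a) := fun a => rfl
  have e4 : ∀ a, ((Equiv.sumArrowEquivProdArrow A B (Fin K)) v).2 a = v (Sum.inr a) := fun a => rfl
  simp only [e3, e4, Function.comp_apply]
  ring

end Crest.Agent.SY
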