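import Crest.Agent.SY_P0

/-!
# S0298, task SY-P3: the equivariant projection onto a Specht module
-/

set_option autoImplicit false

namespace Crest.Agent.SY

open Equiv Equiv.Perm Crest.Agent.SX

variable {Ω ι : Type} [Fintype Ω] [DecidableEq Ω] [Fintype ι] [DecidableEq ι] {h : ι → ℕ}

omit [Fintype ι] [DecidableEq ι] in
private theorem star_pt' (t : Ω ≃ Cel h) (w : Ω → ℕ) : (starRingEnd ℂ) (pt t w) = pt t w := by
  by_cases h0 : pt t w = 0
  · rw [h0, map_zero]
  · obtain ⟨s, h1, h2⟩ := pt_ne_zero h0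
    rw [pt_eq_sign t s h1 h2, map_intCast]

/-- For ANY function `F` on words. Proof: take `n = ∑ j, h j` in `evp_eq_sum`; multiply the
hypothesis, evaluated at the word `v < n`, with `conj (F v)` and sum over `v : Ω → Fin n`: since
polytabloids are real this gives `∑ t, evp t F * conj (evp t F) = 0` (compare the proof of
`evp_nondeg`). -/
theorem evp_sum_zero (F : (Ω → ℕ) → ℂ) (h0 : ∑ t : Ω ≃ Cel h, evp t F • pt t = 0)
    (t : Ω ≃ Cel h) : evp t F = 0 := by
  have hn : ∀ i, h i ≤ ∑ j, h j := fun i =>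
    Finset.single_le_sum (f := h) (fun _ _ => Nat.zero_le _) (Finset.mem_univ i)
  set n := ∑ j, h j with hndef
  have hconj : ∀ t : Ω ≃ Cel h, (starRingEnd ℂ) (evp t F) =
      ∑ v : Ω → Fin n, pt t (fun x => (v x : ℕ)) * (starRingEnd ℂ) (F (fun x => (v x : ℕ))) := by
    intro t
    rw [evp_eq_sum t F n hn, map_sum]
    refine Finset.sum_congr rfl fun v _ => ?_
    rw [map_mul, star_pt', mul_comm]
  have key : ∑ t : Ω ≃ Cel h, evp t F * (starRingEnd ℂ) (evp t F) = 0 := by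
    calc ∑ t : Ω ≃ Cel h, evp t F * (starRingEnd ℂ) (evp t F)
        = ∑ t : Ω ≃ Cel h, ∑ v : Ω → Fin n,
          (evp t F * pt t (fun x => (v x : ℕ))) * (starRingEnd ℂ) (F (fun x => (v x : ℕ))) := by
          refine Finset.sum_congr rfl fun t _ => ?_
          rw [hconj t, Finset.mul_sum]
          refine Finset.sum_congr rfl fun v _ => ?_
          ring
      _ = ∑ v : Ω → Fin n, (∑ t : Ω ≃ Cel h, evp t F * pt t (fun x => (v x : ℕ))) *
          (starRingEnd ℂ) (F (fun x => (v x : ℕ))) := by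
          rw [Finset.sum_comm]
          refine Finset.sum_congr rfl fun v _ => ?_
          rw [Finset.sum_mul]
      _ = 0 := by
          refine Finset.sum_eq_zero fun v _ => ?_
          have h1 := congrFun h0 (fun x => (v x : ℕ))
          rw [Finset.sum_apply] at h1
          simp only [Pi.smul_apply, smul_eq_mul, Pi.zero_apply] at h1
          rw [h1, zero_mul]
  have key2 : ∑ t : Ω ≃ Cel h, Complex.normSq (evp t F) = 0 := by
    have : ((∑ t : Ω ≃ Cel h, Complex.normSq (evp t F) : ℝ) : ℂ) = 0 := by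
      rw [Complex.ofReal_sum, ← key]
      refine Finset.sum_congr rfl fun t _ => ?_
      rw [Complex.mul_conj]
    exact_mod_cast this
  rw [Finset.sum_eq_zero_iff_of_nonneg (fun t _ => Complex.normSq_nonneg _)] at key2
  exact Complex.normSq_eq_zero.1 (key2 t (Finset.mem_univ _))

/-- There is an equivariant projection onto `Sp h`.

Proof. `P₀ F = ∑ t, evp t F • pt t` is linear, has values in `Sp h`, and is equivariant by
`evp_comp`, `pt_comp` (reindex `t ↦ g.trans t`). Its restriction to `Sp h` is injective by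
`evp_sum_zero` and `evp_nondeg`, so it is bijective (`Sp h` is finite-dimensional), let
`E : Sp h ≃ Sp h` be the inverse; `P = E ∘ P₀`. -/
theorem exists_proj : ∃ P : ((Ω → ℕ) → ℂ) →ₗ[ℂ] ((Ω → ℕ) → ℂ), (∀ F, P F ∈ Sp (Ω := Ω) h) ∧
    (∀ F ∈ Sp (Ω := Ω) h, P F = F) ∧
    ∀ (F : (Ω → ℕ) → ℂ) (g : Perm Ω) w, P (fun y => F (y ∘ g)) w = P F (w ∘ g) := by
  classical
  let P₀ : ((Ω → ℕ) → ℂ) →ₗ[ℂ] ((Ω → ℕ) → ℂ) := ∑ t : Ω ≃ Cel h, (evp t).smulRight (pt t)
  have hP₀ : ∀ F, P₀ F = ∑ t : Ω ≃ Cel h, evp t F • pt t := by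
    intro F
    show (∑ t : Ω ≃ Cel h, (evp t).smulRight (pt t)) F = _
    rw [LinearMap.sum_apply]
    rfl
  have hmem : ∀ F, P₀ F ∈ Sp (Ω := Ω) h := by
    intro F
    rw [hP₀]
    exact Submodule.sum_mem _ fun t _ => Submodule.smul_mem _ _ (pt_mem_Sp t)
  have heq : ∀ (F : (Ω → ℕ) → ℂ) (g : Perm Ω),
      P₀ (fun y => F (y ∘ g)) = fun w => P₀ F (w ∘ g) := by
    intro F g
    funext w
    rw [hP₀, hP₀, Finset.sum_apply, Finset.sum_apply]
    simp only [Pi.smul_apply, smul_eq_mul]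
    refine Fintype.sum_equiv (Equiv.equivCongr g.symm (Equiv.refl _)) _ _ fun t => ?_
    have e1 : (Equiv.equivCongr g.symm (Equiv.refl _)) t = g.trans t := by
      apply Equiv.ext
      intro x
      simp [Equiv.equivCongr]
    rw [e1, evp_comp, pt_comp]
    have e2 : g.symm.trans (g.trans t) = t := by
      apply Equiv.ext
      intro x
      show t (g (g.symm x)) = t x
      rw [Equiv.apply_symm_apply]
    rw [e2]
  let P₁ : ((Ω → ℕ) → ℂ) →ₗ[ℂ] Sp (Ω := Ω) h := P₀.codRestrict _ hmem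
  let E : Sp (Ω := Ω) h →ₗ[ℂ] Sp (Ω := Ω) h := P₁ ∘ₗ (Sp (Ω := Ω) h).subtype
  have hE : Function.Injective E := by
    rw [← LinearMap.ker_eq_bot, LinearMap.ker_eq_bot']
    intro F hF
    have h1 : P₀ F.1 = 0 := congrArg Subtype.val hF
    rw [hP₀] at h1
    exact Subtype.ext (evp_nondeg F.1 F.2 (evp_sum_zero F.1 h1))
  let e : Sp (Ω := Ω) h ≃ₗ[ℂ] Sp (Ω := Ω) h := LinearEquiv.ofInjectiveEndo E hE
  have he : ∀ F, e F = P₁ F.1 := fun F => rfl
  refine ⟨(Sp (Ω := Ω) h).subtype ∘ₗ e.symm.toLinearMap ∘ₗ P₁, fun F => ?_, fun F hF => ?_, ?_⟩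
  · exact (e.symm (P₁ F)).2
  · show (e.symm (P₁ F)).1 = F
    have h1 : P₁ F = e ⟨F, hF⟩ := (he ⟨F, hF⟩).symm
    rw [h1, LinearEquiv.symm_apply_apply]
  · intro F g w
    show (e.symm (P₁ (fun y => F (y ∘ g)))).1 w = (e.symm (P₁ F)).1 (w ∘ g)
    set G := e.symm (P₁ F) with hG
    have hG1 : e G = P₁ F := by rw [hG, LinearEquiv.apply_symm_apply]
    have h2 : P₁ (fun y => F (y ∘ g)) = e ⟨fun y => G.1 (y ∘ g), Sp_comp G.2 g⟩ := by
      rw [he]
      apply Subtype.ext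
      show P₀ (fun y => F (y ∘ g)) = P₀ (fun y => G.1 (y ∘ g))
      rw [heq, heq]
      have h3 : P₀ G.1 = P₀ F := congrArg Subtype.val ((he G).symm.trans hG1)
      rw [h3]
    rw [h2, LinearEquiv.symm_apply_apply]

end Crest.Agent.SY
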