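import Crest.Agent.SY_P1
import Crest.Agent.SY_P3

/-!
# S0298, task SY-P4: equivariant maps out of a Specht module
-/

set_option autoImplicit false

namespace Crest.Agent.SY

open Equiv Equiv.Perm Crest.Agent.SX

private theorem kw_injective {B : Type} {K : ℕ} :
    Function.Injective (fun w : B → Fin K => (kw w : B → ℕ)) := by
  intro w w' h
  funext b
  exact Fin.ext (congrFun h b)

private theorem single_comp {B : Type} [Fintype B] [DecidableEq B] {K : ℕ} (w' : B → Fin K)
    (g : Perm B) (y : B → ℕ) :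
    (Pi.single (kw (w' ∘ g)) (1 : ℂ) : (B → ℕ) → ℂ) (y ∘ g) =
      (Pi.single (kw w') (1 : ℂ) : (B → ℕ) → ℂ) y := by
  rw [Pi.single_apply, Pi.single_apply]
  have : y ∘ g = kw (w' ∘ g) ↔ y = kw w' := by
    constructor
    · intro h
      funext b
      have := congrFun h (g.symm b)
      simp only [Function.comp_apply, kw, Equiv.apply_symm_apply] at this
      exact this
    · rintro rfl
      rfl
  simp only [this]

private theorem Sp_expand {B ι : Type} [Fintype B] [DecidableEq B] [Fintype ι] [DecidableEq ι]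
    {h : ι → ℕ} (K : ℕ) (hK : ∀ i, h i ≤ K) (v : (B → ℕ) → ℂ) (hv : v ∈ Sp (Ω := B) h) :
    v = ∑ w' : B → Fin K, v (kw w') • (Pi.single (kw w') (1 : ℂ) : (B → ℕ) → ℂ) := by
  funext y
  rw [Finset.sum_apply]
  by_cases hy : v y = 0
  · rw [hy]
    symm
    refine Finset.sum_eq_zero fun w' _ => ?_
    rw [Pi.smul_apply, Pi.single_apply]
    split_ifs with h1
    · rw [← h1, hy, zero_smul]
    · rw [smul_zero]
  · have hb := Sp_bdd hv hK hy
    obtain ⟨w0, hw0⟩ : ∃ w0 : B → Fin K, kw w0 = y := ⟨fun b => ⟨y b, hb b⟩, rfl⟩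
    rw [Finset.sum_eq_single w0]
    · rw [Pi.smul_apply, Pi.single_apply, if_pos hw0.symm, hw0, smul_eq_mul, mul_one]
    · intro w' _ hne
      rw [Pi.smul_apply, Pi.single_apply, if_neg, smul_zero]
      intro he
      exact hne (kw_injective (by show kw w' = kw w0; rw [hw0, he]))
    · intro hn
      exact absurd (Finset.mem_univ _) hn

/-- Equivariant maps out of `Sp h` are combinations of the operators `D^{⊗B}`.

Proof. Let `P` be as in `exists_proj`, `δ w' : (B → ℕ) → ℂ` the indicator of the word `kw w'`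
(`Pi.single`), `M w w' = L (P (δ w')) (kw w)`; `M` is invariant (`δ (w' ∘ g) ∘ g = δ w'`), apply
`polar`. For `v ∈ Sp h`, `v = ∑_{w'} v (kw w') • δ w'` by `Sp_bdd` and `hK`, and `P v = v`. -/
theorem eqv_struct {B ι : Type} [Fintype B] [DecidableEq B] [Fintype ι] [DecidableEq ι]
    {h : ι → ℕ} (K : ℕ) (hK : ∀ i, h i ≤ K) (L : ((B → ℕ) → ℂ) →ₗ[ℂ] ((B → ℕ) → ℂ))
    (hL : ∀ v ∈ Sp (Ω := B) h, ∀ (g : Perm B) w, L (fun y => v (y ∘ g)) w = L v (w ∘ g)) :
    ∃ (n : ℕ) (c : Fin n → ℂ) (D : Fin n → Matrix (Fin K) (Fin K) ℂ), (∀ i, (D i).det ≠ 0) ∧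
      ∀ v ∈ Sp (Ω := B) h, ∀ w : B → Fin K, L v (kw w) = ∑ i, c i * DD B (D i) v (kw w) := by
  obtain ⟨P, hP1, hP2, hP3⟩ := exists_proj (Ω := B) (h := h)
  let δ : (B → Fin K) → ((B → ℕ) → ℂ) := fun w' => Pi.single (kw w') (1 : ℂ)
  obtain ⟨n, c, D, hD, hM⟩ := polar (B := B) (K := K) (fun w w' => L (P (δ w')) (kw w)) (by
    intro g w w'
    have e1 : P (δ w') = fun y => P (δ (w' ∘ g)) (y ∘ g) := by
      funext y
      rw [← hP3]
      have e0 : δ w' = fun z => δ (w' ∘ g) (z ∘ g) := by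
        funext z
        exact (single_comp w' g z).symm
      rw [← e0]
    have e2 := hL (P (δ (w' ∘ g))) (hP1 _) g (kw w)
    show L (P (δ (w' ∘ g))) (kw (w ∘ g)) = L (P (δ w')) (kw w)
    rw [e1, e2]
    rfl)
  refine ⟨n, c, D, hD, fun v hv w => ?_⟩
  have hv1 : L v (kw w) = ∑ w' : B → Fin K, v (kw w') * L (P (δ w')) (kw w) := by
    have e1 : v = ∑ w' : B → Fin K, v (kw w') • P (δ w') := by
      conv_lhs => rw [← hP2 v hv, Sp_expand K hK v hv]
      rw [map_sum]
      refine Finset.sum_congr rfl fun w' _ => ?_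
      rw [map_smul]
    conv_lhs => rw [e1]
    rw [map_sum, Finset.sum_apply]
    refine Finset.sum_congr rfl fun w' _ => ?_
    rw [map_smul, Pi.smul_apply, smul_eq_mul]
  rw [hv1]
  have e3 : ∀ i, DD B (D i) v (kw w) = ∑ w' : B → Fin K, (∏ b, D i (w b) (w' b)) * v (kw w') := by
    intro i
    rw [DD_apply]
    refine Finset.sum_congr rfl fun w' _ => ?_
    congr 1
    refine Finset.prod_congr rfl fun b _ => ?_
    unfold Dx
    rw [dif_pos (w b).2]
  calc ∑ w' : B → Fin K, v (kw w') * L (P (δ w')) (kw w)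
      = ∑ w' : B → Fin K, ∑ i, c i * ((∏ b, D i (w b) (w' b)) * v (kw w')) := by
        refine Finset.sum_congr rfl fun w' _ => ?_
        rw [hM w w', Finset.mul_sum]
        refine Finset.sum_congr rfl fun i _ => ?_
        ring
    _ = ∑ i, c i * DD B (D i) v (kw w) := by
        rw [Finset.sum_comm]
        refine Finset.sum_congr rfl fun i _ => ?_
        rw [e3 i, Finset.mul_sum]

end Crest.Agent.SY
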