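import Crest.Agent.SY_F

/-!
# S0298: the space generated by products; relabelling of isotypic spaces (owner: helper61)
-/

set_option autoImplicit false

namespace Crest.Agent.SY

open Equiv Equiv.Perm TensorProduct Crest.Agent.SX

section up
variable {A B Z : Type}

/-- The span of the translates of the products of functions of words on `A` and on `B ⊕ Z`. -/
def UpX (S : Submodule ℂ ((A → ℕ) → ℂ)) (X : Submodule ℂ ((B ⊕ Z → ℕ) → ℂ)) :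
    Submodule ℂ (((A ⊕ B) ⊕ Z → ℕ) → ℂ) :=
  Submodule.span ℂ {T | ∃ g : Perm (A ⊕ B), ∃ F ∈ S, ∃ G ∈ X,
    T = fun x => F ((x ∘ Perm.sumCongr g (1 : Perm Z)) ∘ ia) *
      G ((x ∘ Perm.sumCongr g (1 : Perm Z)) ∘ ibz)}

theorem sumCongr_one_one : (Perm.sumCongr (1 : Perm A) (1 : Perm B)) = 1 := by
  ext x
  rcases x with x | x <;> rfl

theorem UpX_mul_mem {S : Submodule ℂ ((A → ℕ) → ℂ)} {X : Submodule ℂ ((B ⊕ Z → ℕ) → ℂ)}
    {F : (A → ℕ) → ℂ} (hF : F ∈ S) {G : (B ⊕ Z → ℕ) → ℂ} (hG : G ∈ X) :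
    (fun x : (A ⊕ B) ⊕ Z → ℕ => F (x ∘ ia) * G (x ∘ ibz)) ∈ UpX S X := by
  refine Submodule.subset_span ⟨1, F, hF, G, hG, ?_⟩
  rw [sumCongr_one_one]
  rfl

theorem UpX_stab (S : Submodule ℂ ((A → ℕ) → ℂ)) (X : Submodule ℂ ((B ⊕ Z → ℕ) → ℂ)) :
    StabZ (UpX S X) := by
  intro F hF g
  refine Submodule.span_induction (p := fun F _ =>
    (fun x => F (x ∘ Perm.sumCongr g (1 : Perm Z))) ∈ UpX S X) ?_ ?_ ?_ ?_ hF
  · rintro _ ⟨g', F, hF, G, hG, rfl⟩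
    refine Submodule.subset_span ⟨g * g', F, hF, G, hG, ?_⟩
    funext x
    rw [sumCongr_mul_one]
    rfl
  · exact Submodule.zero_mem _
  · intro F G _ _ h1 h2
    exact Submodule.add_mem _ h1 h2
  · intro a F _ h1
    exact Submodule.smul_mem _ a h1

theorem UpX_le {S : Submodule ℂ ((A → ℕ) → ℂ)} {X : Submodule ℂ ((B ⊕ Z → ℕ) → ℂ)}
    (Y : Submodule ℂ (((A ⊕ B) ⊕ Z → ℕ) → ℂ)) (hY : StabZ Y)
    (h : ∀ F ∈ S, ∀ G ∈ X, (fun x : (A ⊕ B) ⊕ Z → ℕ => F (x ∘ ia) * G (x ∘ ibz)) ∈ Y) :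
    UpX S X ≤ Y := by
  refine Submodule.span_le.2 ?_
  rintro _ ⟨g, F, hF, G, hG, rfl⟩
  exact hY _ (h F hF G hG) g

variable [Fintype A] [DecidableEq A] [Fintype B] [DecidableEq B] [Fintype Z] [DecidableEq Z]
  {ι κ : Type}

theorem Sp_stabZ {Ω : Type} [Fintype Ω] [DecidableEq Ω] (h : ι → ℕ) :
    StabZ (Sp (Ω := Ω ⊕ Z) h) := fun _ hF g => Sp_comp hF (Perm.sumCongr g 1)

/-- Products of Specht modules. -/
theorem Sp_mul3 {h : ι → ℕ} {h' : κ → ℕ} {F : (A → ℕ) → ℂ} (hF : F ∈ Sp (Ω := A) h)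
    {G : (B ⊕ Z → ℕ) → ℂ} (hG : G ∈ Sp (Ω := B ⊕ Z) h') :
    (fun x : (A ⊕ B) ⊕ Z → ℕ => F (x ∘ ia) * G (x ∘ ibz)) ∈
      Sp (Ω := (A ⊕ B) ⊕ Z) (Sum.elim h h') := by
  have h1 := Sp_equiv (Equiv.sumAssoc A B Z).symm (Sp_mul hF hG)
  refine (congrArg (· ∈ Sp (Ω := (A ⊕ B) ⊕ Z) (Sum.elim h h')) ?_).mp h1
  funext x
  have e1 : ((x ∘ (Equiv.sumAssoc A B Z).symm) ∘ Sum.inr) = x ∘ ibz := by
    funext y
    rcases y with y | y <;> rfl
  rw [e1]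
  rfl

theorem UpX_le_Sp {h : ι → ℕ} {h' : κ → ℕ} {X : Submodule ℂ ((B ⊕ Z → ℕ) → ℂ)}
    (hX : X ≤ Sp h') : UpX (Sp (Ω := A) h) X ≤ Sp (Sum.elim h h') :=
  UpX_le _ (Sp_stabZ _) fun _ hF _ hG => Sp_mul3 hF (hX hG)

end up

/-- `Unit ⊕ Fin k ≃ Fin (k + 1)`, the left point going to the last one. -/
def m2U (k : ℕ) : Unit ⊕ Fin k ≃ Fin (k + 1) :=
  (Equiv.sumComm _ _).trans (((Equiv.refl (Fin k)).sumCongr (Equiv.equivPUnit (Fin 1)).symm).trans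
    finSumFinEquiv)

/-- The top column of a staircase. -/
theorem Sp_stair_succ {Λ : Type} [Fintype Λ] [DecidableEq Λ] (k : ℕ) :
    Sp (Ω := Λ) (Sum.elim (fun _ : Unit => k + 1) (stair k)) = Sp (Ω := Λ) (stair (k + 1)) := by
  have : (Sum.elim (fun _ : Unit => k + 1) (stair k)) = stair (k + 1) ∘ (m2U k) := by
    funext x
    rcases x with x | x
    · simp [m2U, stair]
    · simp [m2U, stair]
  rw [this, Sp_reindex]

/-- `Bool ⊕ Fin k ≃ Fin (k + 2)`, the left points going to the last ones. -/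
def m2B (k : ℕ) : Bool ⊕ Fin k ≃ Fin (k + 2) :=
  (Equiv.sumComm _ _).trans (((Equiv.refl (Fin k)).sumCongr
    (Equiv.boolNot.trans finTwoEquiv.symm)).trans finSumFinEquiv)

/-- The two top columns of a staircase. -/
theorem Sp_stair_two {Λ : Type} [Fintype Λ] [DecidableEq Λ] (k : ℕ) :
    Sp (Ω := Λ) (Sum.elim (two k) (stair k)) = Sp (Ω := Λ) (stair (k + 2)) := by
  have : (Sum.elim (two k) (stair k)) = stair (k + 2) ∘ (m2B k) := by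
    funext x
    rcases x with x | x
    · rcases x with _ | _
      · simp [m2B, stair, two, finTwoEquiv]
      · simp [m2B, stair, two, finTwoEquiv]
    · simp [m2B, stair]
  rw [this, Sp_reindex]

section iso
variable {Ω Z ι : Type} [Fintype Ω] [DecidableEq Ω]

theorem IsoT_mono {h : ι → ℕ} {X Y : Submodule ℂ ((Ω ⊕ Z → ℕ) → ℂ)} (hXY : X ≤ Y)
    (hX : StabZ X) (hY : IsoT h Y) : IsoT h X := by
  refine ⟨hX, fun F hF hF0 => ?_⟩
  obtain ⟨φ, ⟨h1, h2⟩, h3⟩ := hY.2 F (hXY hF) hF0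
  exact ⟨φ, ⟨fun F hF => h1 F (hXY hF), fun F hF => h2 F (hXY hF)⟩, h3⟩

theorem IsoT_reindex {κ : Type} (e : κ ≃ ι) {h : ι → ℕ} {X : Submodule ℂ ((Ω ⊕ Z → ℕ) → ℂ)}
    (hX : IsoT h X) : IsoT (h ∘ e) X := by
  refine ⟨hX.1, fun F hF hF0 => ?_⟩
  obtain ⟨φ, ⟨h1, h2⟩, h3⟩ := hX.2 F hF hF0
  exact ⟨φ, ⟨fun F hF => by rw [Sp_reindex]; exact h1 F hF, h2⟩, h3⟩

/-- Relabelling an isotypic space. -/
theorem IsoT_mapL {Ω' Z' : Type} [Fintype Ω'] [DecidableEq Ω'] (e : Ω ≃ Ω') (f : Z ≃ Z')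
    {h : ι → ℕ} {X : Submodule ℂ ((Ω ⊕ Z → ℕ) → ℂ)} (hX : IsoT h X) :
    IsoT h (mapL (Equiv.sumCongr e f) X) := by
  set E := Equiv.sumCongr e f with hE
  have hcomp : ∀ (g : Perm Ω') (x : Ω' ⊕ Z' → ℕ) , ((x ∘ E) ∘ Perm.sumCongr (e.symm.permCongr g)
      (1 : Perm Z)) = (x ∘ Perm.sumCongr g (1 : Perm Z')) ∘ E := by
    intro g x
    funext y
    rcases y with y | y
    · show x (E (Sum.inl (e.symm (g (e y))))) = x (Sum.inl (g (e y)))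
      simp [hE]
    · show x (E (Sum.inr y)) = x (Sum.inr (f y))
      rfl
  have hcomp' : ∀ (g : Perm Ω') (x : Ω ⊕ Z → ℕ) , ((x ∘ E.symm) ∘ Perm.sumCongr g
      (1 : Perm Z')) = (x ∘ Perm.sumCongr (e.symm.permCongr g) (1 : Perm Z)) ∘ E.symm := by
    intro g x
    funext y
    rcases y with y | y
    · show x (Sum.inl (e.symm (g y))) = x (Sum.inl (e.symm (g (e (e.symm y)))))
      simp
    · show x (Sum.inr (f.symm y)) = x (Sum.inr (f.symm y))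
      rfl
  refine ⟨?_, ?_⟩
  · intro F hF g
    rw [mem_mapL] at hF ⊢
    have h1 := hX.1 _ hF (e.symm.permCongr g)
    refine (congrArg (· ∈ X) ?_).mp h1
    funext x
    rw [hcomp']
  · intro F hF hF0
    rw [mem_mapL] at hF
    obtain ⟨φ, ⟨h1, h2⟩, h3⟩ := hX.2 _ hF (fun h => hF0 (by
      funext x
      have := congrFun h (x ∘ E)
      simpa [Function.comp_assoc] using this))
    let φ' : ((Ω' ⊕ Z' → ℕ) → ℂ) →ₗ[ℂ] ((Ω' → ℕ) → ℂ) :=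
      (LinearMap.funLeft ℂ ℂ (fun w : Ω' → ℕ => w ∘ e)) ∘ₗ φ ∘ₗ
        (LinearMap.funLeft ℂ ℂ (fun x : Ω ⊕ Z → ℕ => x ∘ E.symm))
    have hφ' : ∀ F w, φ' F w = φ (fun x => F (x ∘ E.symm)) (w ∘ e) := fun F w => rfl
    refine ⟨φ', ⟨?_, ?_⟩, ?_⟩
    · intro F hF
      exact Sp_equiv e (h1 _ hF)
    · intro F hF g w
      rw [hφ', hφ']
      have h4 := h2 _ hF (e.symm.permCongr g) (w ∘ e)
      have e1 : (w ∘ e) ∘ (e.symm.permCongr g) = (w ∘ g) ∘ e := by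
        funext y
        simp
      rw [e1] at h4
      refine Eq.trans ?_ h4
      refine congrArg (fun G => φ G (w ∘ e)) ?_
      funext x
      show F ((x ∘ E.symm) ∘ _) = F ((x ∘ _) ∘ E.symm)
      rw [hcomp']
    · intro h4
      apply h3
      funext w
      have := congrFun h4 (w ∘ e.symm)
      rw [hφ'] at this
      simpa [Function.comp_assoc] using this

theorem IsoI_mono {h : ι → ℕ} {X Y : Submodule ℂ ((Ω ⊕ Z → ℕ) → ℂ)} (hXY : X ≤ Y)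
    (hX : StabZ X) (hY : IsoI h Y) : IsoI h X :=
  ⟨hX, fun F hF => hY.2 F (hXY hF)⟩

theorem IsoI_reindex {κ : Type} (e : κ ≃ ι) {h : ι → ℕ} {X : Submodule ℂ ((Ω ⊕ Z → ℕ) → ℂ)}
    (hX : IsoI h X) : IsoI (h ∘ e) X := by
  refine ⟨hX.1, fun F hF => ?_⟩
  unfold EqvFrom
  rw [Sp_reindex]
  exact hX.2 F hF

theorem EqvFrom_relabel {Ω' Z' : Type} [Fintype Ω'] [DecidableEq Ω'] (e : Ω ≃ Ω') (f : Z ≃ Z')
    {h : ι → ℕ} {T : ((Ω → ℕ) → ℂ) →ₗ[ℂ] ((Ω ⊕ Z → ℕ) → ℂ)} (hT : EqvFrom h T) :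
    EqvFrom h ((LinearMap.funLeft ℂ ℂ (fun x : Ω' ⊕ Z' → ℕ => x ∘ Equiv.sumCongr e f)) ∘ₗ T ∘ₗ
      (LinearMap.funLeft ℂ ℂ (fun w : Ω → ℕ => w ∘ e.symm))) := by
  intro v hv g x
  have h1 : (fun w : Ω → ℕ => v (w ∘ e.symm)) ∈ Sp (Ω := Ω) h := Sp_equiv e.symm hv
  have h2 := hT _ h1 (e.symm.permCongr g) (x ∘ Equiv.sumCongr e f)
  have e1 : (fun w : Ω → ℕ => v ((w ∘ (e.symm.permCongr g)) ∘ e.symm)) =
      fun w => v ((w ∘ e.symm) ∘ g) := by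
    funext w
    congr 1
    funext y
    simp
  have e2 : (x ∘ Equiv.sumCongr e f) ∘ Perm.sumCongr (e.symm.permCongr g) (1 : Perm Z) =
      (x ∘ Perm.sumCongr g (1 : Perm Z')) ∘ Equiv.sumCongr e f := by
    funext y
    rcases y with y | y
    · show x (Sum.inl (e (e.symm (g (e y))))) = x (Sum.inl (g (e y)))
      simp
    · rfl
  rw [e1, e2] at h2
  exact h2

/-- Relabelling an isotypic space. -/
theorem IsoI_mapL {Ω' Z' : Type} [Fintype Ω'] [DecidableEq Ω'] (e : Ω ≃ Ω') (f : Z ≃ Z')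
    {h : ι → ℕ} {X : Submodule ℂ ((Ω ⊕ Z → ℕ) → ℂ)} (hX : IsoI h X) :
    IsoI h (mapL (Equiv.sumCongr e f) X) := by
  set E := Equiv.sumCongr e f with hE
  have hcomp' : ∀ (g : Perm Ω') (x : Ω ⊕ Z → ℕ) , ((x ∘ E.symm) ∘ Perm.sumCongr g
      (1 : Perm Z')) = (x ∘ Perm.sumCongr (e.symm.permCongr g) (1 : Perm Z)) ∘ E.symm := by
    intro g x
    funext y
    rcases y with y | y
    · show x (Sum.inl (e.symm (g y))) = x (Sum.inl (e.symm (g (e (e.symm y)))))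
      simp
    · show x (Sum.inr (f.symm y)) = x (Sum.inr (f.symm y))
      rfl
  refine ⟨?_, ?_⟩
  · intro F hF g
    rw [mem_mapL] at hF ⊢
    have h1 := hX.1 _ hF (e.symm.permCongr g)
    refine (congrArg (· ∈ X) ?_).mp h1
    funext x
    rw [hcomp']
  · intro F hF
    rw [mem_mapL] at hF
    have h1 := hX.2 _ hF
    let L : ((Ω ⊕ Z → ℕ) → ℂ) →ₗ[ℂ] ((Ω' ⊕ Z' → ℕ) → ℂ) :=
      LinearMap.funLeft ℂ ℂ (fun x : Ω' ⊕ Z' → ℕ => x ∘ E)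
    have h2 : F = L (fun x => F (x ∘ E.symm)) := by
      funext x
      show F x = F ((x ∘ E) ∘ E.symm)
      congr 1
      funext y
      simp
    rw [h2]
    refine Submodule.span_induction (p := fun G _ => L G ∈ Submodule.span ℂ {G : (Ω' ⊕ Z' → ℕ) → ℂ |
      ∃ T, EqvFrom (Ω := Ω') (Z := Z') h T ∧ ∃ v ∈ Sp (Ω := Ω') h, G = T v}) ?_ ?_ ?_ ?_ h1
    · rintro _ ⟨T, hT, v, hv, rfl⟩
      refine Submodule.subset_span ⟨_, EqvFrom_relabel e f hT, fun w => v (w ∘ e),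
        Sp_equiv e hv, ?_⟩
      show L (T v) = L (T (fun w => v ((w ∘ e.symm) ∘ e)))
      congr 2
      funext w
      congr 1
      funext y
      simp
    · rw [map_zero]
      exact Submodule.zero_mem _
    · intro F G _ _ h1 h2
      rw [map_add]
      exact Submodule.add_mem _ h1 h2
    · intro a F _ h1
      rw [map_smul]
      exact Submodule.smul_mem _ a h1

theorem mapL_le {Λ Λ' κ : Type} [Fintype Λ] [DecidableEq Λ] [Fintype Λ'] [DecidableEq Λ']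
    (e : Λ ≃ Λ') {h : κ → ℕ} {X : Submodule ℂ ((Λ → ℕ) → ℂ)} (hX : X ≤ Sp h) :
    mapL e X ≤ Sp h := by
  intro F hF
  rw [mem_mapL] at hF
  have h1 := Sp_equiv e (hX hF)
  refine (congrArg (· ∈ Sp (Ω := Λ') h) ?_).mp h1
  funext x
  congr 1
  funext y
  simp

/-- Relabelling `GoodT`. -/
theorem GoodT_relabel {Ω' Z' ι' : Type} [Fintype Z] [DecidableEq Z] [Fintype Ω'] [DecidableEq Ω']
    [Fintype Z'] [DecidableEq Z'] (e : Ω ≃ Ω') (f : Z ≃ Z')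
    (R : AddSubgroup ℂ) (k : ℕ) (h : ι → ℕ) (h' : ι' → ℕ) (p : WW (Ω ⊕ Z))
    {W : Type} [AddCommGroup W] [Module ℂ W] (σ : Representation ℂ (Perm Ω) W)
    (hG : GoodT R k h h' (res (Equiv.sumCongr e f).symm p) (relabel e σ)) :
    GoodT R k h h' p σ := by
  obtain ⟨X, Y, hX1, hY1, hX2, hY2, hG⟩ := hG
  exact ⟨_, _, mapL_le _ hX1, mapL_le _ hY1, IsoI_mapL e.symm f.symm hX2,
    IsoI_mapL e.symm f.symm hY2, GoodZ_relabel e f R X Y p σ hG⟩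

end iso

end Crest.Agent.SY
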