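import Crest.Agent.SY_P2
import Crest.Agent.SY_P4
import Crest.Agent.SY_U

/-!
# S0298, task SY-P5: the type of the space generated by one new column
-/

set_option autoImplicit false

namespace Crest.Agent.SY

open Equiv Equiv.Perm Crest.Agent.SX

open scoped Classical in
/-- the indicator of `x ∘ inr = kw z` -/
private noncomputable def p5I {Ω Z : Type} {K : ℕ} (z : Z → Fin K) (x : Ω ⊕ Z → ℕ) : ℂ :=
  if x ∘ Sum.inr = kw z then 1 else 0

private noncomputable def p5T {Ω Z : Type} [Fintype Ω] [DecidableEq Ω] {K : ℕ}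
    (D : Matrix (Fin K) (Fin K) ℂ) (z : Z → Fin K) :
    ((Ω → ℕ) → ℂ) →ₗ[ℂ] ((Ω ⊕ Z → ℕ) → ℂ) :=
  LinearMap.pi fun x => p5I z x • (LinearMap.proj (x ∘ Sum.inl) ∘ₗ DD Ω D)

private theorem p5T_apply {Ω Z : Type} [Fintype Ω] [DecidableEq Ω] {K : ℕ}
    (D : Matrix (Fin K) (Fin K) ℂ) (z : Z → Fin K) (u : (Ω → ℕ) → ℂ) (x : Ω ⊕ Z → ℕ) :
    p5T D z u x = p5I z x * DD Ω D u (x ∘ Sum.inl) := rfl

private theorem p5T_eqv {Ω Z ι : Type} [Fintype Ω] [DecidableEq Ω] {K : ℕ}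
    (D : Matrix (Fin K) (Fin K) ℂ) (z : Z → Fin K) (h : ι → ℕ) :
    EqvFrom (Ω := Ω) (Z := Z) h (p5T D z) := by
  intro v _ g x
  rw [p5T_apply, p5T_apply, DD_comp]
  rfl

private noncomputable def p5L {B Z : Type} {K : ℕ} (T : ((B → ℕ) → ℂ) →ₗ[ℂ] ((B ⊕ Z → ℕ) → ℂ))
    (z : Z → Fin K) : ((B → ℕ) → ℂ) →ₗ[ℂ] ((B → ℕ) → ℂ) :=
  LinearMap.funLeft ℂ ℂ (fun b : B → ℕ => (Sum.elim b (kw z) : B ⊕ Z → ℕ)) ∘ₗ T

private theorem p5L_apply {B Z : Type} {K : ℕ} (T : ((B → ℕ) → ℂ) →ₗ[ℂ] ((B ⊕ Z → ℕ) → ℂ))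
    (z : Z → Fin K) (v : (B → ℕ) → ℂ) (b : B → ℕ) :
    p5L T z v b = T v (Sum.elim b (kw z)) := rfl

private theorem p5L_eqv {B Z ι : Type} [Fintype B] [DecidableEq B] {K : ℕ} {h : ι → ℕ}
    {T : ((B → ℕ) → ℂ) →ₗ[ℂ] ((B ⊕ Z → ℕ) → ℂ)} (hT : EqvFrom h T)
    (z : Z → Fin K) : ∀ v ∈ Sp (Ω := B) h, ∀ (g : Perm B) w,
      p5L T z (fun y => v (y ∘ g)) w = p5L T z v (w ∘ g) := by
  intro v hv g w
  rw [p5L_apply, p5L_apply, hT v hv g]
  refine congrArg (T v) ?_
  funext y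
  rcases y with y | y <;> rfl

open scoped Classical in
private theorem p5_key {A B Z ι : Type} [Fintype A] [DecidableEq A] [Fintype B] [DecidableEq B]
    [Fintype Z] [DecidableEq Z] [Fintype ι] [DecidableEq ι] (K : ℕ) {h : ι → ℕ}
    (hk : ∀ i, h i ≤ K) (t : A ≃ Cel (fun _ : Unit => K))
    {T : ((B → ℕ) → ℂ) →ₗ[ℂ] ((B ⊕ Z → ℕ) → ℂ)} (hT : EqvFrom h T) {v : (B → ℕ) → ℂ}
    (hv : v ∈ Sp (Ω := B) h) :
    (fun x : (A ⊕ B) ⊕ Z → ℕ => pt t (x ∘ ia) *
      (if ∀ a, (x ∘ ibz) a < K then T v (x ∘ ibz) else 0)) ∈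
    Submodule.span ℂ {G : ((A ⊕ B) ⊕ Z → ℕ) → ℂ | ∃ T, EqvFrom (Ω := A ⊕ B) (Z := Z)
      (Sum.elim (fun _ : Unit => K) h) T ∧ ∃ v ∈ Sp (Ω := A ⊕ B) (Sum.elim (fun _ : Unit => K) h),
        G = T v} := by
  choose n c D hD hL using fun z : Z → Fin K => eqv_struct K hk (p5L T z) (p5L_eqv hT z)
  set u : (A ⊕ B → ℕ) → ℂ := fun y => pt t (y ∘ Sum.inl) * v (y ∘ Sum.inr) with hu
  have huS : u ∈ Sp (Ω := A ⊕ B) (Sum.elim (fun _ : Unit => K) h) := Sp_mul (pt_mem_Sp t) hv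
  have key : (fun x : (A ⊕ B) ⊕ Z → ℕ => pt t (x ∘ ia) *
      (if ∀ a, (x ∘ ibz) a < K then T v (x ∘ ibz) else 0)) =
      ∑ z : Z → Fin K, ∑ i : Fin (n z), (c z i * ((D z i).det)⁻¹) • p5T (D z i) z u := by
    funext x
    rw [Finset.sum_apply]
    simp only [Finset.sum_apply, Pi.smul_apply, smul_eq_mul, p5T_apply]
    by_cases hx : ∀ a, (x ∘ ibz) a < K
    · rw [if_pos hx]
      let z0 : Z → Fin K := fun a => ⟨x (Sum.inr a), hx (Sum.inr a)⟩
      let b0 : B → Fin K := fun b => ⟨x (Sum.inl (Sum.inr b)), hx (Sum.inl b)⟩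
      rw [Finset.sum_eq_single z0]
      · have h1 : p5I z0 x = 1 := by
          unfold p5I
          rw [if_pos]
          rfl
        have h2 := hL z0 v hv b0
        rw [p5L_apply] at h2
        have h3 : (Sum.elim (kw b0) (kw z0) : B ⊕ Z → ℕ) = x ∘ ibz := by
          funext y
          rcases y with y | y <;> rfl
        rw [h3] at h2
        rw [h2, h1, Finset.mul_sum]
        refine Finset.sum_congr rfl fun i _ => ?_
        have h4 := congrFun (DD_mul (D z0 i) (pt t) v) (x ∘ Sum.inl)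
        rw [hu, h4, det_pt]
        have h5 : (x ∘ Sum.inl) ∘ Sum.inr = kw b0 := rfl
        rw [h5]
        have h6 := hD z0 i
        simp only [Pi.smul_apply, smul_eq_mul]
        have h7 : (x ∘ Sum.inl) ∘ Sum.inl = x ∘ ia := rfl
        rw [h7]
        field_simp
      · intro z _ hz
        have h1 : p5I z x = 0 := by
          unfold p5I
          rw [if_neg]
          intro hc
          apply hz
          funext a
          apply Fin.ext
          exact (congrFun hc a).symm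
        refine Finset.sum_eq_zero fun i _ => ?_
        rw [h1]
        ring
      · intro hc
        exact absurd (Finset.mem_univ _) hc
    · rw [if_neg hx, mul_zero]
      symm
      refine Finset.sum_eq_zero fun z _ => Finset.sum_eq_zero fun i _ => ?_
      by_cases hz : x ∘ Sum.inr = kw z
      · rw [DD_bdd]
        · ring
        · intro hc
          apply hx
          intro a
          rcases a with a | a
          · exact hc (Sum.inr a)
          · have := congrFun hz a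
            show x (Sum.inr a) < K
            rw [show x (Sum.inr a) = (z a : ℕ) from this]
            exact (z a).2
      · have h1 : p5I z x = 0 := by
          unfold p5I
          rw [if_neg hz]
        rw [h1]
        ring
  rw [key]
  exact Submodule.sum_mem _ fun z _ => Submodule.sum_mem _ fun i _ =>
    Submodule.smul_mem _ _ (Submodule.subset_span ⟨_, p5T_eqv _ _ _, u, huS, rfl⟩)

/-- TYPE OF A NEW COLUMN.

Proof. Stability is `UpX_stab`. Let `K = k + 1`. By linearity it is enough to treat a generator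
`x ↦ F ((x ∘ g) ∘ ia) * G ((x ∘ g) ∘ ibz)` with `F = pt t`, `t : A ≃ Cel (fun _ : Unit => K)` (if there
is no such `t`, `Sp = 0`) and `G ∈ X`. `G ∈ Sp (stair k)` vanishes at words with a value `≥ k`
(`Sp_bdd`), and `G = ∑ T_i v_i`. So it is enough to show that for `T` with `EqvFrom h T`, `v ∈ Sp h`
the function `x ↦ 1[all values of x are < K] * pt t (x ∘ ia) * T v (x ∘ ibz)` is in the span (then also
its composition with `g`, because `T' v' (x ∘ g) = T' (v' ∘ g) x`). For a word `z : Z → Fin K` apply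
`eqv_struct` to `L v = fun b => T v (Sum.elim b (kw z))`: for `b` with values `< K`,
`T v (Sum.elim b z) = ∑ c_i * DD B D_i v b`, so with `det_pt`, `DD_mul`
`pt t (a) * T v (Sum.elim b z) = ∑ c_i * (det D_i)⁻¹ * DD (A ⊕ B) D_i (pt t * v) (a, b)`, and
`T'_{i,z} v' x = 1[x ∘ inr = kw z] * DD (A ⊕ B) D_i v' (x ∘ Sum.inl)` satisfies `EqvFrom`
(`DD_comp`), while `pt t * v ∈ Sp (Sum.elim _ h)` (`Sp_mul`). -/
theorem IsoI_col {A B Z ι : Type} [Fintype A] [DecidableEq A] [Fintype B] [DecidableEq B]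
    [Fintype Z] [DecidableEq Z] [Fintype ι] [DecidableEq ι] (k : ℕ) {h : ι → ℕ}
    (hk : ∀ i, h i ≤ k + 1) (X : Submodule ℂ ((B ⊕ Z → ℕ) → ℂ)) (hX : X ≤ Sp (stair k))
    (hI : IsoI (Ω := B) (Z := Z) h X) :
    IsoI (Ω := A ⊕ B) (Z := Z) (Sum.elim (fun _ : Unit => k + 1) h)
      (UpX (Sp (Ω := A) (fun _ : Unit => k + 1)) X) := by
  classical
  refine ⟨UpX_stab _ _, ?_⟩
  refine UpX_le (Submodule.span ℂ {G : ((A ⊕ B) ⊕ Z → ℕ) → ℂ | ∃ T, EqvFrom (Ω := A ⊕ B) (Z := Z)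
    (Sum.elim (fun _ : Unit => k + 1) h) T ∧
      ∃ v ∈ Sp (Ω := A ⊕ B) (Sum.elim (fun _ : Unit => k + 1) h), G = T v}) ?_ ?_
  · intro F hF g
    refine Submodule.span_induction (p := fun F _ =>
      (fun x => F (x ∘ Perm.sumCongr g (1 : Perm Z))) ∈ Submodule.span ℂ
        {G : ((A ⊕ B) ⊕ Z → ℕ) → ℂ | ∃ T, EqvFrom (Ω := A ⊕ B) (Z := Z)
          (Sum.elim (fun _ : Unit => k + 1) h) T ∧
            ∃ v ∈ Sp (Ω := A ⊕ B) (Sum.elim (fun _ : Unit => k + 1) h), G = T v}) ?_ ?_ ?_ ?_ hF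
    · rintro _ ⟨T, hT, v, hv, rfl⟩
      refine Submodule.subset_span ⟨T, hT, fun w => v (w ∘ g), Sp_comp hv g, ?_⟩
      funext x
      rw [hT v hv g x]
    · exact Submodule.zero_mem _
    · intro F G _ _ h1 h2
      exact Submodule.add_mem _ h1 h2
    · intro a F _ h1
      exact Submodule.smul_mem _ a h1
  · intro F hF G hG
    -- replace `G` by its restriction to words with values `< k + 1`
    have hG' : (fun x : (A ⊕ B) ⊕ Z → ℕ => F (x ∘ ia) * G (x ∘ ibz)) =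
        fun x : (A ⊕ B) ⊕ Z → ℕ => F (x ∘ ia) *
          (if ∀ a, (x ∘ ibz) a < k + 1 then G (x ∘ ibz) else 0) := by
      funext x
      by_cases h0 : G (x ∘ ibz) = 0
      · rw [h0, ite_self]
      · have h1 := Sp_bdd (hX hG) (n := k + 1) (fun i => by
          unfold stair
          have := i.2
          omega) h0
        rw [if_pos h1]
    rw [hG']
    refine Submodule.span_induction (p := fun F _ => (fun x : (A ⊕ B) ⊕ Z → ℕ => F (x ∘ ia) *
          (if ∀ a, (x ∘ ibz) a < k + 1 then G (x ∘ ibz) else 0)) ∈ Submodule.span ℂ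
        {G : ((A ⊕ B) ⊕ Z → ℕ) → ℂ | ∃ T, EqvFrom (Ω := A ⊕ B) (Z := Z)
          (Sum.elim (fun _ : Unit => k + 1) h) T ∧
            ∃ v ∈ Sp (Ω := A ⊕ B) (Sum.elim (fun _ : Unit => k + 1) h), G = T v}) ?_ ?_ ?_ ?_ hF
    · rintro _ ⟨t, rfl⟩
      refine Submodule.span_induction (p := fun G _ => (fun x : (A ⊕ B) ⊕ Z → ℕ => pt t (x ∘ ia) *
          (if ∀ a, (x ∘ ibz) a < k + 1 then G (x ∘ ibz) else 0)) ∈ Submodule.span ℂ
        {G : ((A ⊕ B) ⊕ Z → ℕ) → ℂ | ∃ T, EqvFrom (Ω := A ⊕ B) (Z := Z)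
          (Sum.elim (fun _ : Unit => k + 1) h) T ∧
            ∃ v ∈ Sp (Ω := A ⊕ B) (Sum.elim (fun _ : Unit => k + 1) h), G = T v}) ?_ ?_ ?_ ?_
            (hI.2 G hG)
      · rintro _ ⟨T, hT, v, hv, rfl⟩
        exact p5_key (k + 1) hk t hT hv
      · have : (fun x : (A ⊕ B) ⊕ Z → ℕ => pt t (x ∘ ia) *
          (if ∀ a, (x ∘ ibz) a < k + 1 then (0 : (B ⊕ Z → ℕ) → ℂ) (x ∘ ibz) else 0)) = 0 := by
          funext x
          simp
        rw [this]
        exact Submodule.zero_mem _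
      · intro G G' _ _ h1 h2
        have : (fun x : (A ⊕ B) ⊕ Z → ℕ => pt t (x ∘ ia) *
          (if ∀ a, (x ∘ ibz) a < k + 1 then (G + G') (x ∘ ibz) else 0)) =
            (fun x : (A ⊕ B) ⊕ Z → ℕ => pt t (x ∘ ia) *
              (if ∀ a, (x ∘ ibz) a < k + 1 then G (x ∘ ibz) else 0)) +
            (fun x : (A ⊕ B) ⊕ Z → ℕ => pt t (x ∘ ia) *
              (if ∀ a, (x ∘ ibz) a < k + 1 then G' (x ∘ ibz) else 0)) := by
          funext x
          simp only [Pi.add_apply]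
          split_ifs <;> ring
        rw [this]
        exact Submodule.add_mem _ h1 h2
      · intro a G _ h1
        have : (fun x : (A ⊕ B) ⊕ Z → ℕ => pt t (x ∘ ia) *
          (if ∀ a, (x ∘ ibz) a < k + 1 then (a • G) (x ∘ ibz) else 0)) =
            a • (fun x : (A ⊕ B) ⊕ Z → ℕ => pt t (x ∘ ia) *
              (if ∀ a, (x ∘ ibz) a < k + 1 then G (x ∘ ibz) else 0)) := by
          funext x
          simp only [Pi.smul_apply, smul_eq_mul]
          split_ifs <;> ring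
        rw [this]
        exact Submodule.smul_mem _ a h1
    · have : (fun x : (A ⊕ B) ⊕ Z → ℕ => (0 : (A → ℕ) → ℂ) (x ∘ ia) *
          (if ∀ a, (x ∘ ibz) a < k + 1 then G (x ∘ ibz) else 0)) = 0 := by
        funext x
        simp
      rw [this]
      exact Submodule.zero_mem _
    · intro F F' _ _ h1 h2
      have : (fun x : (A ⊕ B) ⊕ Z → ℕ => (F + F') (x ∘ ia) *
          (if ∀ a, (x ∘ ibz) a < k + 1 then G (x ∘ ibz) else 0)) =
            (fun x : (A ⊕ B) ⊕ Z → ℕ => F (x ∘ ia) *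
              (if ∀ a, (x ∘ ibz) a < k + 1 then G (x ∘ ibz) else 0)) +
            (fun x : (A ⊕ B) ⊕ Z → ℕ => F' (x ∘ ia) *
              (if ∀ a, (x ∘ ibz) a < k + 1 then G (x ∘ ibz) else 0)) := by
        funext x
        simp only [Pi.add_apply]
        ring
      rw [this]
      exact Submodule.add_mem _ h1 h2
    · intro a F _ h1
      have : (fun x : (A ⊕ B) ⊕ Z → ℕ => (a • F) (x ∘ ia) *
          (if ∀ a, (x ∘ ibz) a < k + 1 then G (x ∘ ibz) else 0)) =
            a • (fun x : (A ⊕ B) ⊕ Z → ℕ => F (x ∘ ia) *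
              (if ∀ a, (x ∘ ibz) a < k + 1 then G (x ∘ ibz) else 0)) := by
        funext x
        simp only [Pi.smul_apply, smul_eq_mul]
        ring
      rw [this]
      exact Submodule.smul_mem _ a h1

end Crest.Agent.SY
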