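import Crest.Agent.SY_P3
import Crest.Agent.SY_I

/-!
# S0298, task SY-P6: maps from `Sp h` and maps to `Sp h`
-/

set_option autoImplicit false

namespace Crest.Agent.SY

open Equiv Equiv.Perm Crest.Agent.SX

section p6
variable {A : Type} [Fintype A] [DecidableEq A]

/-- the inner product over the words with values `< k` -/
private noncomputable def p6ip (k : ℕ) (G H : (A → ℕ) → ℂ) : ℂ :=
  ∑ v : A → Fin k, G (kw v) * (starRingEnd ℂ) (H (kw v))

private theorem p6ip_add_left (k : ℕ) (G G' H : (A → ℕ) → ℂ) :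
    p6ip k (G + G') H = p6ip k G H + p6ip k G' H := by
  unfold p6ip
  rw [← Finset.sum_add_distrib]
  exact Finset.sum_congr rfl fun v _ => by rw [Pi.add_apply, add_mul]

private theorem p6ip_smul_left (k : ℕ) (a : ℂ) (G H : (A → ℕ) → ℂ) :
    p6ip k (a • G) H = a * p6ip k G H := by
  unfold p6ip
  rw [Finset.mul_sum]
  exact Finset.sum_congr rfl fun v _ => by rw [Pi.smul_apply, smul_eq_mul, mul_assoc]

private theorem p6ip_add_right (k : ℕ) (G H H' : (A → ℕ) → ℂ) :
    p6ip k G (H + H') = p6ip k G H + p6ip k G H' := by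
  unfold p6ip
  rw [← Finset.sum_add_distrib]
  exact Finset.sum_congr rfl fun v _ => by rw [Pi.add_apply, map_add, mul_add]

private theorem p6ip_smul_right (k : ℕ) (a : ℂ) (G H : (A → ℕ) → ℂ) :
    p6ip k G (a • H) = (starRingEnd ℂ) a * p6ip k G H := by
  unfold p6ip
  rw [Finset.mul_sum]
  exact Finset.sum_congr rfl fun v _ => by rw [Pi.smul_apply, smul_eq_mul, map_mul]; ring

private theorem p6ip_zero_right (k : ℕ) (G : (A → ℕ) → ℂ) : p6ip k G 0 = 0 := by
  unfold p6ip
  exact Finset.sum_eq_zero fun v _ => by rw [Pi.zero_apply, map_zero, mul_zero]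

private theorem p6ip_comp (k : ℕ) (G H : (A → ℕ) → ℂ) (g : Perm A) :
    p6ip k (fun x => G (x ∘ g)) H = p6ip k G (fun x => H (x ∘ (g⁻¹ : Perm A))) := by
  unfold p6ip
  refine Fintype.sum_equiv (Equiv.arrowCongr g.symm (Equiv.refl (Fin k))) _ _ fun v => ?_
  have e1 : (Equiv.arrowCongr g.symm (Equiv.refl (Fin k))) v = v ∘ g := rfl
  rw [e1]
  have e2 : (kw (v ∘ g) ∘ (g⁻¹ : Perm A) : A → ℕ) = kw v := by
    funext x
    show ((v (g (g.symm x)) : Fin k) : ℕ) = (v x : ℕ)
    rw [Equiv.apply_symm_apply]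
  have e3 : (fun x => H (x ∘ (g⁻¹ : Perm A))) (kw (v ∘ g)) = H (kw v) := congrArg H e2
  rw [e3]
  rfl

private theorem p6ip_self (k : ℕ) (F : (A → ℕ) → ℂ) (h : p6ip k F F = 0) (v : A → Fin k) :
    F (kw v) = 0 := by
  have key2 : ∑ v : A → Fin k, Complex.normSq (F (kw v)) = 0 := by
    have : ((∑ v : A → Fin k, Complex.normSq (F (kw v)) : ℝ) : ℂ) = 0 := by
      rw [Complex.ofReal_sum, ← h]
      refine Finset.sum_congr rfl fun v _ => ?_
      rw [Complex.mul_conj]
    exact_mod_cast this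
  rw [Finset.sum_eq_zero_iff_of_nonneg (fun v _ => Complex.normSq_nonneg _)] at key2
  exact Complex.normSq_eq_zero.1 (key2 v (Finset.mem_univ _))

end p6

/-- Proof. Let `F ∈ X`, `F ≠ 0`. All functions of `X` vanish at words with a value `≥ k` (`Sp_bdd`),
so sums over the words `kw v`, `v : Ω ⊕ Z → Fin k`, are enough. `∑_v F v * conj (F v) ≠ 0`, and `F` is
a combination of functions `T v₀`, so for some `T` with `EqvFrom h T` and some tableau `t` (the `pt t`
span `Sp h`), `∑_v F v * conj (T (pt t) v) ≠ 0`. Define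
`φ G = ∑_{t : Ω ≃ Cel h} (∑_v G (kw v) * conj (T (pt t) (kw v))) • pt t`, a linear map with values in
`Sp h`; it is equivariant (reindex `v ↦ v ∘ g`, `t ↦ g.trans t`, use `pt_comp` and `EqvFrom`). If
`φ F = 0` put `c t = ∑_v F v * conj (T (pt t) v)`: `∑ t, c t • pt t = 0`, hence `∑ t, c t • T (pt t) = 0`
and `∑_t c t * conj (c t) = ∑_v conj (F v) * ∑_t c t * T (pt t) v = 0`, so all `c t = 0`,
a contradiction. -/
theorem IsoT_of_IsoI {Ω Z ι : Type} [Fintype Ω] [DecidableEq Ω] [Fintype Z] [DecidableEq Z]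
    [Finite ι] (k : ℕ) {h : ι → ℕ} (X : Submodule ℂ ((Ω ⊕ Z → ℕ) → ℂ))
    (hX : X ≤ Sp (stair k)) (hI : IsoI (Ω := Ω) (Z := Z) h X) : IsoT (Ω := Ω) (Z := Z) h X := by
  classical
  have : Fintype ι := Fintype.ofFinite ι
  refine ⟨hI.1, fun F hF hF0 => ?_⟩
  -- `ip F F ≠ 0`
  have hFF : p6ip k F F ≠ 0 := by
    intro h0
    apply hF0
    funext w
    by_contra hw
    have hb := Sp_bdd (hX hF) (n := k) (fun i => by show (i : ℕ) + 1 ≤ k; omega) hw
    exact hw (p6ip_self k F h0 (fun x => ⟨w x, hb x⟩))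
  -- some `T (pt t)` pairs nontrivially with `F`
  obtain ⟨T, hT, t₀, ht₀⟩ : ∃ T, EqvFrom (Ω := Ω) (Z := Z) h T ∧ ∃ t₀ : Ω ≃ Cel h,
      p6ip k F (T (pt t₀)) ≠ 0 := by
    by_contra hcon
    push Not at hcon
    apply hFF
    have h1 : ∀ T, EqvFrom (Ω := Ω) (Z := Z) h T → ∀ v ∈ Sp (Ω := Ω) h,
        p6ip k F (T v) = 0 := by
      intro T hT v hv
      refine Submodule.span_induction (p := fun v _ => p6ip k F (T v) = 0) ?_ ?_ ?_ ?_ hv
      · rintro _ ⟨t, rfl⟩
        exact hcon T hT t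
      · rw [map_zero, p6ip_zero_right]
      · intro a b _ _ ha hb
        rw [map_add, p6ip_add_right, ha, hb, add_zero]
      · intro c a _ ha
        rw [map_smul, p6ip_smul_right, ha, mul_zero]
    refine Submodule.span_induction (p := fun G _ => p6ip k F G = 0) ?_ ?_ ?_ ?_ (hI.2 F hF)
    · rintro _ ⟨T, hT, v, hv, rfl⟩
      exact h1 T hT v hv
    · exact p6ip_zero_right k F
    · intro a b _ _ ha hb
      rw [p6ip_add_right, ha, hb, add_zero]
    · intro c a _ ha
      rw [p6ip_smul_right, ha, mul_zero]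
  -- the map
  let φ : ((Ω ⊕ Z → ℕ) → ℂ) →ₗ[ℂ] ((Ω → ℕ) → ℂ) :=
    { toFun := fun G => ∑ t : Ω ≃ Cel h, p6ip k G (T (pt t)) • pt t
      map_add' := fun G G' => by
        rw [← Finset.sum_add_distrib]
        exact Finset.sum_congr rfl fun t _ => by rw [p6ip_add_left, add_smul]
      map_smul' := fun a G => by
        rw [RingHom.id_apply, Finset.smul_sum]
        exact Finset.sum_congr rfl fun t _ => by rw [p6ip_smul_left, smul_smul] }
  have hφ : ∀ G, φ G = ∑ t : Ω ≃ Cel h, p6ip k G (T (pt t)) • pt t := fun G => rfl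
  refine ⟨φ, ⟨fun G _ => ?_, fun G _ g w => ?_⟩, fun h0 => ht₀ ?_⟩
  · rw [hφ]
    exact Submodule.sum_mem _ fun t _ => Submodule.smul_mem _ _ (pt_mem_Sp t)
  · rw [hφ, hφ, Finset.sum_apply, Finset.sum_apply]
    refine Fintype.sum_equiv (Equiv.equivCongr g.symm (Equiv.refl (Cel h))) _ _ fun t => ?_
    have e1 : (Equiv.equivCongr g.symm (Equiv.refl (Cel h))) t = g.trans t := by
      ext x <;> rfl
    rw [e1, Pi.smul_apply, Pi.smul_apply, smul_eq_mul, smul_eq_mul]
    have e2 : pt (g.trans t) (w ∘ g) = pt t w := by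
      rw [pt_comp]
      have e5 : (g.symm.trans (g.trans t) : Ω ≃ Cel h) = t :=
        Equiv.ext fun x => congrArg t (g.apply_symm_apply x)
      rw [e5]
    have e3 : p6ip k (fun x => G (x ∘ Perm.sumCongr g (1 : Perm Z))) (T (pt t)) =
        p6ip k G (T (pt (g.trans t))) := by
      rw [p6ip_comp]
      congr 1
      funext x
      have e4 : (Perm.sumCongr g (1 : Perm Z))⁻¹ = Perm.sumCongr g⁻¹ (1 : Perm Z) := by
        ext y
        rcases y with y | y <;> rfl
      rw [e4, ← hT (pt t) (pt_mem_Sp t) g⁻¹ x]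
      have e5 : (fun w' : Ω → ℕ => pt t (w' ∘ (g⁻¹ : Perm Ω))) = pt (g.trans t) := by
        funext w'
        rw [pt_comp]
        rfl
      rw [e5]
    rw [e2, e3]
  · -- `φ F ≠ 0`
    rw [hφ] at h0
    have h1 : ∑ t : Ω ≃ Cel h, p6ip k F (T (pt t)) • T (pt t) = 0 := by
      have := congrArg T h0
      rw [map_zero, map_sum] at this
      rw [← this]
      exact Finset.sum_congr rfl fun t _ => by rw [map_smul]
    have h2 : ∑ t : Ω ≃ Cel h, p6ip k F (T (pt t)) * (starRingEnd ℂ) (p6ip k F (T (pt t))) = 0 := by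
      calc ∑ t : Ω ≃ Cel h, p6ip k F (T (pt t)) * (starRingEnd ℂ) (p6ip k F (T (pt t)))
          = ∑ t : Ω ≃ Cel h, ∑ v : Ω ⊕ Z → Fin k, (starRingEnd ℂ) (F (kw v)) *
              (p6ip k F (T (pt t)) • T (pt t)) (kw v) := by
            refine Finset.sum_congr rfl fun t _ => ?_
            have e6 : (starRingEnd ℂ) (p6ip k F (T (pt t))) =
                ∑ v : Ω ⊕ Z → Fin k, (starRingEnd ℂ) (F (kw v)) * T (pt t) (kw v) := by
              unfold p6ip
              rw [map_sum]
              exact Finset.sum_congr rfl fun v _ => by rw [map_mul, Complex.conj_conj]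
            rw [e6, Finset.mul_sum]
            refine Finset.sum_congr rfl fun v _ => ?_
            rw [Pi.smul_apply, smul_eq_mul]
            ring
        _ = ∑ v : Ω ⊕ Z → Fin k, (starRingEnd ℂ) (F (kw v)) *
              (∑ t : Ω ≃ Cel h, p6ip k F (T (pt t)) • T (pt t)) (kw v) := by
            rw [Finset.sum_comm]
            refine Finset.sum_congr rfl fun v _ => ?_
            rw [Finset.sum_apply, Finset.mul_sum]
        _ = 0 := by
            rw [h1]
            simp
    have h3 : ∑ t : Ω ≃ Cel h, Complex.normSq (p6ip k F (T (pt t))) = 0 := by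
      have : ((∑ t : Ω ≃ Cel h, Complex.normSq (p6ip k F (T (pt t))) : ℝ) : ℂ) = 0 := by
        rw [Complex.ofReal_sum, ← h2]
        refine Finset.sum_congr rfl fun v _ => ?_
        rw [Complex.mul_conj]
      exact_mod_cast this
    rw [Finset.sum_eq_zero_iff_of_nonneg (fun v _ => Complex.normSq_nonneg _)] at h3
    exact Complex.normSq_eq_zero.1 (h3 t₀ (Finset.mem_univ _))

end Crest.Agent.SY
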