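import Crest.Agent.SY_P0

/-!
# S0298, task SY-P7: the Specht module of the transposed shape
-/

set_option autoImplicit false

namespace Crest.Agent.SY

open Equiv Equiv.Perm Crest.Agent.SX

/-- transposition of the cells -/
private def P7_trC (S : Shp) : Cel S.hf ≃ Cel S.tr.hf where
  toFun x := ⟨⟨(x.2 : ℕ), by
      have h1 : (x.2 : ℕ) < S.a x.1 := x.2.2
      exact h1.trans_le (S.anti (Nat.zero_le _))⟩,
    ⟨(x.1 : ℕ), by
      have h1 : (x.2 : ℕ) < S.a x.1 := x.2.2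
      exact (S.h _ _).1 h1⟩⟩
  invFun x := ⟨⟨(x.2 : ℕ), by
      have h1 : (x.2 : ℕ) < S.b x.1 := x.2.2
      exact h1.trans_le (S.anti_b (Nat.zero_le _))⟩,
    ⟨(x.1 : ℕ), by
      have h1 : (x.2 : ℕ) < S.b x.1 := x.2.2
      exact (S.h _ _).2 h1⟩⟩
  left_inv x := rfl
  right_inv x := rfl

section
variable {S : Shp} {Ω : Type} [Fintype Ω] [DecidableEq Ω]

private noncomputable def P7_psi (t : Ω ≃ Cel S.hf) (t' : Ω ≃ Cel S.tr.hf) :
    ((Ω → ℕ) → ℂ) →ₗ[ℂ] ((Ω → ℕ) → ℂ) where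
  toFun F := fun w => ∑ g : Perm Ω, ((sign g : ℤ) : ℂ) * F ((fun x => ((t x).2 : ℕ)) ∘ g.symm) *
    pt t' (w ∘ g)
  map_add' F G := by
    ext w
    simp only [Pi.add_apply, mul_add, add_mul, Finset.sum_add_distrib]
  map_smul' c F := by
    ext w
    simp only [Pi.smul_apply, smul_eq_mul, Finset.mul_sum, RingHom.id_apply]
    exact Finset.sum_congr rfl fun v _ => by ring

private theorem P7_apply (t : Ω ≃ Cel S.hf) (t' : Ω ≃ Cel S.tr.hf) (F : (Ω → ℕ) → ℂ) (w : Ω → ℕ) :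
    P7_psi t t' F w = ∑ g : Perm Ω, ((sign g : ℤ) : ℂ) * F ((fun x => ((t x).2 : ℕ)) ∘ g.symm) *
    pt t' (w ∘ g) := rfl

private theorem P7_comp (t : Ω ≃ Cel S.hf) (t' : Ω ≃ Cel S.tr.hf) (F : (Ω → ℕ) → ℂ) (g₀ : Perm Ω)
    (w : Ω → ℕ) :
    P7_psi t t' (fun y => F (y ∘ g₀)) w = ((sign g₀ : ℤ) : ℂ) * P7_psi t t' F (w ∘ g₀) := by
  rw [P7_apply, P7_apply, Finset.mul_sum]
  refine (Fintype.sum_equiv (Equiv.mulLeft g₀) _ _ fun g => ?_).symm
  have e1 : (((fun x => ((t x).2 : ℕ)) ∘ ((Equiv.mulLeft g₀) g).symm) ∘ g₀) =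
      (fun x => ((t x).2 : ℕ)) ∘ g.symm := by
    funext x
    show ((t (g.symm (g₀.symm (g₀ x)))).2 : ℕ) = ((t (g.symm x)).2 : ℕ)
    rw [Equiv.symm_apply_apply]
  have e2 : (w ∘ g₀) ∘ g = w ∘ ((Equiv.mulLeft g₀) g) := rfl
  rw [e1, e2]
  have e3 : sign ((Equiv.mulLeft g₀) g) = sign g₀ * sign g := by
    show sign (g₀ * g) = _
    rw [Perm.sign_mul]
  rw [e3]
  push_cast
  ring

private theorem P7_mem (t : Ω ≃ Cel S.hf) (t' : Ω ≃ Cel S.tr.hf) (F : (Ω → ℕ) → ℂ) :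
    P7_psi t t' F ∈ Sp (Ω := Ω) S.tr.hf := by
  have e : P7_psi t t' F = ∑ g : Perm Ω, (((sign g : ℤ) : ℂ) * F ((fun x => ((t x).2 : ℕ)) ∘ g.symm)) •
      (fun w : Ω → ℕ => pt t' (w ∘ g)) := by
    funext w
    rw [P7_apply, Finset.sum_apply]
    rfl
  rw [e]
  exact Submodule.sum_mem _ fun g _ => Submodule.smul_mem _ _ (Sp_comp (pt_mem_Sp t') g)

private theorem P7_val (t : Ω ≃ Cel S.hf) :
    P7_psi t (t.trans (P7_trC S)) (pt t) (fun x => ((t x).1 : ℕ)) ≠ 0 := by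
  classical
  set t' : Ω ≃ Cel S.tr.hf := t.trans (P7_trC S) with ht'
  have h1' : ∀ x, ((t' x).1 : ℕ) = ((t x).2 : ℕ) := fun x => rfl
  have h2' : ∀ x, ((t' x).2 : ℕ) = ((t x).1 : ℕ) := fun x => rfl
  have hself : pt t' (fun x => ((t x).1 : ℕ)) = 1 := pt_self t'
  have key : ∀ g : Perm Ω, ((sign g : ℤ) : ℂ) * pt t ((fun x => ((t x).2 : ℕ)) ∘ g.symm) *
      pt t' ((fun x => ((t x).1 : ℕ)) ∘ g) =
      if pt t ((fun x => ((t x).2 : ℕ)) ∘ g.symm) ≠ 0 then 1 else 0 := by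
    intro g
    by_cases hg : pt t ((fun x => ((t x).2 : ℕ)) ∘ g.symm) = 0
    · rw [if_neg (not_not.mpr hg), hg]
      ring
    · rw [if_pos hg]
      obtain ⟨s, hs1, hs2⟩ := pt_ne_zero hg
      rw [pt_eq_sign t s hs1 hs2]
      have hr : ∀ y, (t' ((s⁻¹ * g) y)).1 = (t' y).1 := by
        intro y
        apply Fin.ext
        rw [h1', h1']
        have h3 := hs2 ((s⁻¹ * g) y)
        have e1 : s ((s⁻¹ * g) y) = g y := by
          show s (s.symm (g y)) = g y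
          rw [Equiv.apply_symm_apply]
        rw [e1] at h3
        rw [← h3]
        show ((t (g.symm (g y))).2 : ℕ) = ((t y).2 : ℕ)
        rw [Equiv.symm_apply_apply]
      have e2 : (fun x => ((t x).1 : ℕ)) ∘ g = (fun x => ((t x).1 : ℕ)) ∘ (s⁻¹ * g) := by
        funext y
        show ((t (g y)).1 : ℕ) = ((t ((s⁻¹ * g) y)).1 : ℕ)
        rw [← hs1 ((s⁻¹ * g) y)]
        congr 3
        show g y = s (s.symm (g y))
        rw [Equiv.apply_symm_apply]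
      rw [e2, pt_col t' (s⁻¹ * g) hr, hself, mul_one, Perm.sign_mul, Perm.sign_inv]
      have e3 : ((sign g : ℤ) : ℂ) * ((sign g : ℤ) : ℂ) = 1 := by
        rw [← Int.cast_mul, ← Units.val_mul, Int.units_mul_self]
        simp
      have e4 : ((sign s : ℤ) : ℂ) * ((sign s : ℤ) : ℂ) = 1 := by
        rw [← Int.cast_mul, ← Units.val_mul, Int.units_mul_self]
        simp
      push_cast
      linear_combination ((sign s : ℤ) : ℂ) * ((sign s : ℤ) : ℂ) * e3 + e4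
  rw [P7_apply, Finset.sum_congr rfl fun g _ => key g, Finset.sum_ite, Finset.sum_const_zero, add_zero,
    Finset.sum_const, nsmul_eq_mul, mul_one, Nat.cast_ne_zero]
  rw [← Nat.pos_iff_ne_zero, Finset.card_pos]
  refine ⟨1, ?_⟩
  rw [Finset.mem_filter]
  refine ⟨Finset.mem_univ _, ?_⟩
  have : pt t ((fun x => ((t x).2 : ℕ)) ∘ (1 : Perm Ω).symm) = 1 := pt_self t
  rw [this]
  exact one_ne_zero

end

/-- `Sp (S.tr)` is `Sp S` tensor the sign.

Proof. Let `t : Ω ≃ Cel S.hf` (exists by cardinality, `Shp.sum_hf`), `t' : Ω ≃ Cel S.tr.hf` the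
transposed tableau (`t' x = ⟨(t x).2, (t x).1⟩`, by `S.h`), `row x = (t x).2`, `col x = (t x).1`. Put
`ψ F w = ∑ g : Perm Ω, sign g * F (row ∘ g⁻¹) * pt t' (w ∘ g)`. It is linear, has values in
`Sp S.tr.hf` (`Sp_comp`), and `ψ (F ∘ g₀) w = sign g₀ * ψ F (w ∘ g₀)` (reindex). Moreover
`ψ (pt t) col > 0`: every term is `≥ 0` and the term `g = 1` is `1` (`pt_self`). Indeed if
`pt t (row ∘ g⁻¹) ≠ 0` then by `pt_ne_zero` there is `s` in the column group of `t` with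
`row ∘ g⁻¹ ∘ s = row`, the value is `sign s`, `r = s⁻¹ * g` satisfies `row ∘ r = row`, so `r` is in the
column group of `t'`, and `col ∘ g = col ∘ s ∘ r = col ∘ r`, `pt t' (col ∘ r) = sign r` (`pt_col`,
`pt_self`), the product is `sign g * sign s * sign r = 1`.
Then `{v ∈ Sp S.hf | ψ v = 0}` is invariant and not everything, so it is `0` by `Sp_submodule`, and the
image of `Sp S.hf` is a nonzero invariant subspace of `Sp S.tr.hf`, so it is everything by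
`Sp_submodule`. -/
theorem sgn_iso (S : Shp) {Ω : Type} [Fintype Ω] [DecidableEq Ω] (hΩ : Fintype.card Ω = S.size) :
    ∃ ψ : ((Ω → ℕ) → ℂ) →ₗ[ℂ] ((Ω → ℕ) → ℂ),
      (∀ (F : (Ω → ℕ) → ℂ) (g : Perm Ω) w,
        ψ (fun y => F (y ∘ g)) w = ((sign g : ℤ) : ℂ) * ψ F (w ∘ g)) ∧
      (∀ F, ψ F ∈ Sp (Ω := Ω) S.tr.hf) ∧ (∀ v ∈ Sp (Ω := Ω) S.hf, ψ v = 0 → v = 0) ∧
      ∀ v' ∈ Sp (Ω := Ω) S.tr.hf, ∃ v ∈ Sp (Ω := Ω) S.hf, ψ v = v' := by
  have hcard : Fintype.card Ω = Fintype.card (Cel S.hf) := by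
    rw [hΩ, Fintype.card_sigma, ← S.sum_hf]
    simp
  let t : Ω ≃ Cel S.hf := Fintype.equivOfCardEq hcard
  have hval := P7_val t
  have hne : P7_psi t (t.trans (P7_trC S)) (pt t) ≠ 0 := fun h => hval (by rw [h]; rfl)
  refine ⟨P7_psi t (t.trans (P7_trC S)), P7_comp _ _, P7_mem _ _, ?_, ?_⟩
  · intro v hv hv0
    by_contra hv1
    have h1 := Sp_submodule (h := S.hf)
      (Sp (Ω := Ω) S.hf ⊓ LinearMap.ker (P7_psi t (t.trans (P7_trC S)))) inf_le_left ?_ ?_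
    · have h2 : pt t ∈ Sp (Ω := Ω) S.hf ⊓ LinearMap.ker (P7_psi t (t.trans (P7_trC S))) := by
        rw [h1]
        exact pt_mem_Sp t
      exact hne h2.2
    · rintro F ⟨hF1, hF2⟩ g
      refine ⟨Sp_comp hF1 g, ?_⟩
      show P7_psi t (t.trans (P7_trC S)) (fun w => F (w ∘ g)) = 0
      funext w
      rw [P7_comp]
      have : P7_psi t (t.trans (P7_trC S)) F = 0 := hF2
      rw [this]
      simp
    · intro hbot
      have h2 : v ∈ Sp (Ω := Ω) S.hf ⊓ LinearMap.ker (P7_psi t (t.trans (P7_trC S))) := ⟨hv, hv0⟩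
      rw [hbot] at h2
      exact hv1 h2
  · have h1 := Sp_submodule (h := S.tr.hf)
      ((Sp (Ω := Ω) S.hf).map (P7_psi t (t.trans (P7_trC S)))) ?_ ?_ ?_
    · intro v' hv'
      rw [← h1] at hv'
      obtain ⟨v, hv, rfl⟩ := hv'
      exact ⟨v, hv, rfl⟩
    · rintro _ ⟨v, -, rfl⟩
      exact P7_mem _ _ _
    · rintro _ ⟨v, hv, rfl⟩ g
      refine ⟨((sign g : ℤ) : ℂ) • (fun w => v (w ∘ g)), Submodule.smul_mem _ _ (Sp_comp hv g), ?_⟩
      rw [map_smul]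
      funext w
      rw [Pi.smul_apply, P7_comp, smul_eq_mul, ← mul_assoc, ← Int.cast_mul, ← Units.val_mul,
        Int.units_mul_self]
      simp
    · intro hbot
      have h2 : P7_psi t (t.trans (P7_trC S)) (pt t) ∈
          (Sp (Ω := Ω) S.hf).map (P7_psi t (t.trans (P7_trC S))) := ⟨pt t, pt_mem_Sp t, rfl⟩
      rw [hbot] at h2
      exact hne h2

end Crest.Agent.SY
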