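import Crest.Agent.SY_P7
import Crest.Agent.SY_I

/-!
# S0298, task SY-P8: transposition of the types, twist of embeddings
-/

set_option autoImplicit false

namespace Crest.Agent.SY

open Equiv Equiv.Perm Crest.Agent.SX

private theorem sgn_sq {Ω : Type} [Fintype Ω] [DecidableEq Ω] (g : Perm Ω) :
    ((sign g : ℤ) : ℂ) * ((sign g : ℤ) : ℂ) = 1 := by
  rw [← Int.cast_mul, ← Units.val_mul, Int.units_mul_self]
  simp

/-- The twist of a representation embedded in `Sp S` is embedded in `Sp S.tr` (compose with `ψ` of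
`sgn_iso`). -/
theorem emb_twist (S : Shp) {Ω : Type} [Fintype Ω] [DecidableEq Ω]
    (hΩ : Fintype.card Ω = S.size) {W : Type} [AddCommGroup W] [Module ℂ W]
    (σ : Representation ℂ (Perm Ω) W) (f : W →ₗ[ℂ] ((Ω → ℕ) → ℂ)) (hinj : Function.Injective f)
    (hf : ∀ g w x, f (σ g w) x = f w (x ∘ g)) (hS : ∀ w, f w ∈ Sp (Ω := Ω) S.hf) :
    ∃ f' : W →ₗ[ℂ] ((Ω → ℕ) → ℂ), Function.Injective f' ∧
      (∀ g w x, f' (sgnTwist σ g w) x = f' w (x ∘ g)) ∧ ∀ w, f' w ∈ Sp (Ω := Ω) S.tr.hf := by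
  obtain ⟨ψ, h1, h2, h3, -⟩ := sgn_iso S hΩ
  refine ⟨ψ.comp f, ?_, ?_, fun w => h2 _⟩
  · rw [← LinearMap.ker_eq_bot, LinearMap.ker_eq_bot']
    intro w hw
    have h4 : f w = 0 := h3 _ (hS w) hw
    exact hinj (h4.trans (map_zero f).symm)
  · intro g w x
    have e1 : f (σ g w) = fun y => f w (y ∘ g) := by
      funext y
      exact hf g w y
    rw [sgnTwist_apply, map_smul, Pi.smul_apply, LinearMap.comp_apply, LinearMap.comp_apply, e1,
      h1, smul_eq_mul, ← mul_assoc, sgn_sq, one_mul]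

/-- TYPE OF THE TWISTED SPACE. A function of `X.map (thL t₀)` is `thL t₀ F`, `F = ∑ T_i v_i`,
`v_i ∈ Sp S.hf`, `v_i = ψ v_i'` with `v_i' ∈ Sp S.tr.hf`, `ψ` from `sgn_iso S.tr`, and
`T_i' = thL t₀ ∘ T_i ∘ ψ` satisfies `EqvFrom`: the two signs cancel (`th_comp` with
`g ↦ sumCongr g 1`). Stability also from `th_comp`. -/
theorem IsoI_tr (S : Shp) {Ω Z : Type} [Fintype Ω] [DecidableEq Ω] [Fintype Z] [DecidableEq Z]
    (hΩ : Fintype.card Ω = S.size) {k : ℕ} (t₀ : Ω ⊕ Z ≃ Cel (stair k))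
    (X : Submodule ℂ ((Ω ⊕ Z → ℕ) → ℂ)) (hI : IsoI (Ω := Ω) (Z := Z) S.hf X) :
    IsoI (Ω := Ω) (Z := Z) S.tr.hf (X.map (thL t₀)) := by
  have hsg : ∀ g : Perm Ω, sign (Perm.sumCongr g (1 : Perm Z)) = sign g := by
    intro g
    rw [Equiv.Perm.sign_sumCongr, Equiv.Perm.sign_one, mul_one]
  obtain ⟨hst, hsp⟩ := hI
  refine ⟨?_, ?_⟩
  · rintro _ ⟨F, hF, rfl⟩ g
    refine ⟨((sign g : ℤ) : ℂ) • fun x => F (x ∘ Perm.sumCongr g (1 : Perm Z)),
      Submodule.smul_mem _ _ (hst F hF g), ?_⟩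
    rw [map_smul]
    funext x
    rw [Pi.smul_apply, thL_apply, th_comp, hsg, smul_eq_mul, ← mul_assoc, sgn_sq, one_mul]
    rfl
  · rintro _ ⟨F, hF, rfl⟩
    obtain ⟨ψ, h1, h2, -, h4⟩ := sgn_iso S.tr (Ω := Ω) (by rw [S.size_tr]; exact hΩ)
    refine Submodule.span_induction
      (p := fun F _ => thL t₀ F ∈ Submodule.span ℂ {G : (Ω ⊕ Z → ℕ) → ℂ |
        ∃ T, EqvFrom (Ω := Ω) (Z := Z) S.tr.hf T ∧ ∃ v ∈ Sp (Ω := Ω) S.tr.hf, G = T v})
      ?_ ?_ ?_ ?_ (hsp F hF)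
    · rintro _ ⟨T, hT, v, hv, rfl⟩
      obtain ⟨u, hu, rfl⟩ := h4 v hv
      refine Submodule.subset_span ⟨(thL t₀).comp (T.comp ψ), ?_, u, hu, rfl⟩
      intro w hw g x
      have e1 : ψ (fun y => w (y ∘ g)) = ((sign g : ℤ) : ℂ) • fun y => ψ w (y ∘ g) := by
        funext y
        exact h1 w g y
      have e2 : T (fun y => ψ w (y ∘ g)) =
          fun x => T (ψ w) (x ∘ Perm.sumCongr g (1 : Perm Z)) := by
        funext x
        exact hT (ψ w) (h2 w) g x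
      rw [LinearMap.comp_apply, LinearMap.comp_apply, e1, map_smul, map_smul, e2, Pi.smul_apply,
        thL_apply, th_comp, hsg, smul_eq_mul, ← mul_assoc, sgn_sq, one_mul]
      rfl
    · rw [map_zero]
      exact Submodule.zero_mem _
    · intro F G _ _ h1 h2
      rw [map_add]
      exact Submodule.add_mem _ h1 h2
    · intro a F _ h1
      rw [map_smul]
      exact Submodule.smul_mem _ a h1

end Crest.Agent.SY
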