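import Crest.Agent.SY_P3

/-!
# S0298, task SY-P9: the general restriction rule
-/

set_option autoImplicit false

namespace Crest.Agent.SY

open Equiv Equiv.Perm Crest.Agent.SX TensorProduct

section aux
set_option linter.unusedSectionVars false
variable {A B ι : Type} [Fintype A] [DecidableEq A] [Fintype B] [DecidableEq B] [DecidableEq ι]

/-- partial `evp` in the letters of `B` -/
private noncomputable def syp9_L {hb : ι → ℕ} (t : B ≃ Cel hb) :
    ((A ⊕ B → ℕ) → ℂ) →ₗ[ℂ] ((A → ℕ) → ℂ) :=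
  LinearMap.pi fun wA => (evp t).comp
    (LinearMap.funLeft ℂ ℂ (fun wB : B → ℕ => (Sum.elim wA wB : A ⊕ B → ℕ)))

private theorem syp9_L_apply {hb : ι → ℕ} (t : B ≃ Cel hb) (F : (A ⊕ B → ℕ) → ℂ) (wA : A → ℕ) :
    syp9_L t F wA = evp t (fun wB => F (Sum.elim wA wB)) := rfl

/-- stacking the cells -/
private def syp9_cel (hb d : ι → ℕ) : Cel d ⊕ Cel hb ≃ Cel (fun i => hb i + d i) :=
  ((Equiv.sumComm _ _).trans (Equiv.sigmaSumDistrib (fun i => Fin (hb i)) (fun i => Fin (d i))).symm).trans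
    (Equiv.sigmaCongrRight fun _ => finSumFinEquiv)

private theorem syp9_cel_inl (hb d : ι → ℕ) (c : Cel d) :
    (syp9_cel hb d (Sum.inl c)).1 = c.1 ∧
      ((syp9_cel hb d (Sum.inl c)).2 : ℕ) = hb c.1 + (c.2 : ℕ) := by
  obtain ⟨i, a⟩ := c
  exact ⟨rfl, rfl⟩

private theorem syp9_cel_inr (hb d : ι → ℕ) (c : Cel hb) :
    (syp9_cel hb d (Sum.inr c)).1 = c.1 ∧
      ((syp9_cel hb d (Sum.inr c)).2 : ℕ) = (c.2 : ℕ) := by
  obtain ⟨i, a⟩ := c
  exact ⟨rfl, rfl⟩

private def syp9_t {hb d : ι → ℕ} (tA : A ≃ Cel d) (tB : B ≃ Cel hb) :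
    A ⊕ B ≃ Cel (fun i => hb i + d i) :=
  (Equiv.sumCongr tA tB).trans (syp9_cel hb d)

private theorem syp9_fix {hb d : ι → ℕ} (tA : A ≃ Cel d) (tB : B ≃ Cel hb) (wA : A → ℕ)
    (s : Perm (A ⊕ B)) (h1 : ∀ x, (syp9_t tA tB (s x)).1 = (syp9_t tA tB x).1)
    (h2 : ∀ x, (Sum.elim wA (fun b => ((tB b).2 : ℕ)) : A ⊕ B → ℕ) (s x) =
      ((syp9_t tA tB x).2 : ℕ)) (b : B) : s (Sum.inr b) = Sum.inr b := by
  set t := syp9_t tA tB with ht
  obtain ⟨y, hy⟩ := s.surjective (Sum.inr b)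
  have e1 := h1 y
  have e2 := h2 y
  rw [hy] at e1 e2
  have e3 : ((tB b).2 : ℕ) = ((t (Sum.inr b)).2 : ℕ) := ((syp9_cel_inr hb d (tB b)).2).symm
  have e4 : ((t (Sum.inr b)).2 : ℕ) = ((t y).2 : ℕ) := by
    rw [← e3]
    exact e2
  have e5 : t (Sum.inr b) = t y := by
    generalize t (Sum.inr b) = c at e1 e4
    generalize t y = c' at e1 e4
    obtain ⟨i, a⟩ := c
    obtain ⟨i', a'⟩ := c'
    simp only at e1 e4
    subst e1
    rw [Fin.ext e4]
  have e6 := t.injective e5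
  rw [← e6] at hy
  exact hy

private theorem syp9_skw {hb d : ι → ℕ} (tA : A ≃ Cel d) (tB : B ≃ Cel hb) (wA : A → ℕ) :
    skw tA hb wA = pt (syp9_t tA tB) (Sum.elim wA (fun b => ((tB b).2 : ℕ))) := by
  classical
  rw [pt_def]
  unfold skw
  refine Fintype.sum_of_injective (fun s' : Perm A => Perm.sumCongr s' (1 : Perm B)) ?_ _ _ ?_ ?_
  · intro s s' h
    ext a
    have := Equiv.congr_fun h (Sum.inl a)
    simpa using this
  · intro s hs
    rw [if_neg]
    rintro ⟨h1, h2⟩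
    apply hs
    have hfix := syp9_fix tA tB wA s h1 h2
    have hm : Set.MapsTo s (Set.range (Sum.inl : A → A ⊕ B)) (Set.range Sum.inl) := by
      rintro _ ⟨a, rfl⟩
      rcases hsa : s (Sum.inl a) with a' | b
      · exact ⟨a', rfl⟩
      · rw [← hfix b] at hsa
        have := s.injective hsa
        exact absurd this (by simp)
    obtain ⟨⟨s1, s2⟩, hs12⟩ := Equiv.Perm.mem_sumCongrHom_range_of_perm_mapsTo_inl hm
    refine ⟨s1, ?_⟩
    rw [← hs12]
    have : s2 = 1 := by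
      ext b
      have h3 := hfix b
      rw [← hs12] at h3
      simpa using h3
    rw [this]
    rfl
  · intro s'
    have hsg : sign (Perm.sumCongr s' (1 : Perm B)) = sign s' := by
      rw [Perm.sign_sumCongr, Perm.sign_one, mul_one]
    simp only [hsg]
    have hiff : ((∀ x, (tA (s' x)).1 = (tA x).1) ∧
        (∀ x, wA (s' x) = hb (tA x).1 + ((tA x).2 : ℕ))) ↔
        ((∀ x, (syp9_t tA tB (Perm.sumCongr s' (1 : Perm B) x)).1 = (syp9_t tA tB x).1) ∧
        (∀ x, (Sum.elim wA (fun b => ((tB b).2 : ℕ)) : A ⊕ B → ℕ)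
          (Perm.sumCongr s' (1 : Perm B) x) = ((syp9_t tA tB x).2 : ℕ))) := by
      constructor
      · rintro ⟨h1, h2⟩
        constructor
        · rintro (a | b)
          · exact h1 a
          · rfl
        · rintro (a | b)
          · exact h2 a
          · exact ((syp9_cel_inr hb d (tB b)).2).symm
      · rintro ⟨h1, h2⟩
        exact ⟨fun a => h1 (Sum.inl a), fun a => h2 (Sum.inl a)⟩
    by_cases hc : ((∀ x, (tA (s' x)).1 = (tA x).1) ∧
        (∀ x, wA (s' x) = hb (tA x).1 + ((tA x).2 : ℕ)))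
    · rw [if_pos hc, if_pos (hiff.1 hc)]
    · rw [if_neg hc, if_neg (fun h => hc (hiff.2 h))]

private theorem syp9_evp {hb d : ι → ℕ} (tA : A ≃ Cel d) (tB : B ≃ Cel hb) :
    syp9_L tB (pt (syp9_t tA tB)) =
      ((Finset.univ.filter (fun s : Perm B => ∀ x, (tB (s x)).1 = (tB x).1)).card : ℂ) •
        (skw tA hb : (A → ℕ) → ℂ) := by
  funext wA
  rw [syp9_L_apply, Pi.smul_apply, syp9_skw tA tB wA]
  show (∑ s : Perm B, if ∀ x, (tB (s x)).1 = (tB x).1 then
    ((sign s : ℤ) : ℂ) * pt (syp9_t tA tB) (Sum.elim wA (fun x => ((tB (s.symm x)).2 : ℕ)))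
      else 0) = _
  rw [← Finset.sum_filter]
  have key : ∀ s ∈ Finset.univ.filter (fun s : Perm B => ∀ x, (tB (s x)).1 = (tB x).1),
      ((sign s : ℤ) : ℂ) * pt (syp9_t tA tB) (Sum.elim wA (fun x => ((tB (s.symm x)).2 : ℕ))) =
      pt (syp9_t tA tB) (Sum.elim wA (fun b => ((tB b).2 : ℕ))) := by
    intro s hs
    have hs' : ∀ x, (tB (s x)).1 = (tB x).1 := (Finset.mem_filter.1 hs).2
    have e1 : (Sum.elim wA (fun x => ((tB (s.symm x)).2 : ℕ)) : A ⊕ B → ℕ) =
        (Sum.elim wA (fun b => ((tB b).2 : ℕ))) ∘ (Perm.sumCongr (1 : Perm A) s.symm) := by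
      funext x
      rcases x with x | x
      · rfl
      · rfl
    rw [e1, pt_col]
    · rw [Perm.sign_sumCongr, Perm.sign_one, one_mul, Perm.sign_symm, ← mul_assoc, ← Int.cast_mul,
        ← Units.val_mul, Int.units_mul_self]
      simp
    · rintro (a | b)
      · rfl
      · show (tB (s.symm b)).1 = (tB b).1
        have := hs' (s.symm b)
        rw [Equiv.apply_symm_apply] at this
        exact this.symm
  rw [Finset.sum_congr rfl key, Finset.sum_const, nsmul_eq_mul, smul_eq_mul]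

end aux

/-- GENERAL RESTRICTION RULE. `hb i` cells of column `i` are kept (top), the `d i` cells below them
are removed.

Proof. `range f` is a nonzero invariant subspace of `Sp`, so it is everything (`Sp_submodule`). Put
`F w = ∑_{t' : B ≃ Cel hb} Θ (fun wA => evp t' (fun wB => f w (Sum.elim wA wB))) ⊗ₜ ⟨pt t', _⟩`.
Equivariance: `hΘ`, `hf`, `evp_comp`, `pt_comp` (reindex `t' ↦ g₂.trans t'`).
`F ≠ 0`: let `t : A ⊕ B ≃ Cel (fun i => hb i + d i)`, `t (inl a) = (column of tA a, hb + row)`,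
`t (inr b) = (column of tB b, row)`, and `f w₀ = pt t`. If `F w₀ = 0` let `ℓ : U → ℂ` be linear with
`ℓ (Θ (skw tA hb)) ≠ 0`, `H wB = ℓ (Θ (fun wA => pt t (Sum.elim wA wB)))`; then
`∑_{t'} evp t' H • pt t' = 0` (`evp` is a finite combination of evaluations, so it commutes with
`ℓ ∘ Θ`), so `evp tB H = 0` by `evp_sum_zero`. But
`evp tB (fun wB => pt t (Sum.elim wA wB)) = N * skw tA hb wA`, `N ≥ 1` the order of the column group of
`tB`: in `evp tB` the word `wB` has the rows `row ∘ tB ∘ s⁻¹`, `s` in the column group of `tB`,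
`pt t (Sum.elim wA (row ∘ tB ∘ s⁻¹)) = sign s * pt t (Sum.elim wA (row ∘ tB))` (`pt_col`), and
`pt t (Sum.elim wA (row ∘ tB)) = skw tA hb wA` (a column permutation of `t` which gives this word
fixes the letters `inr b`). -/
theorem restrict_gen {A B ι : Type} [Fintype A] [DecidableEq A] [Fintype B] [DecidableEq B]
    [Fintype ι] [DecidableEq ι] {hb d : ι → ℕ} (tA : A ≃ Cel d) (tB : B ≃ Cel hb)
    {W U : Type} [AddCommGroup W] [Module ℂ W] [AddCommGroup U] [Module ℂ U]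
    (σ : Representation ℂ (Perm (A ⊕ B)) W) (f : W →ₗ[ℂ] ((A ⊕ B → ℕ) → ℂ)) (hf0 : f ≠ 0)
    (hf : ∀ g w x, f (σ g w) x = f w (x ∘ g))
    (hS : ∀ w, f w ∈ Sp (Ω := A ⊕ B) (fun i => hb i + d i))
    (τ : Representation ℂ (Perm A) U) (Θ : ((A → ℕ) → ℂ) →ₗ[ℂ] U)
    (hΘ : ∀ (g : Perm A) (F : (A → ℕ) → ℂ), Θ (fun w => F (w ∘ g)) = τ g (Θ F))
    (hΘ0 : Θ (skw tA hb) ≠ 0) :
    ∃ F : W →ₗ[ℂ] U ⊗[ℂ] Sp (Ω := B) hb, F ≠ 0 ∧ ∀ g₁ g₂ w,
      F (σ (Perm.sumCongr g₁ g₂) w) = TensorProduct.map (τ g₁) (SpRep B hb g₂) (F w) := by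
  classical
  have hrange : LinearMap.range f = Sp (Ω := A ⊕ B) (fun i => hb i + d i) := by
    refine Sp_submodule _ ?_ ?_ ?_
    · rintro _ ⟨w, rfl⟩
      exact hS w
    · rintro _ ⟨w, rfl⟩ g
      exact ⟨σ g w, funext fun x => hf g w x⟩
    · intro h
      exact hf0 (LinearMap.range_eq_bot.1 h)
  let F : W →ₗ[ℂ] U ⊗[ℂ] Sp (Ω := B) hb := ∑ t' : B ≃ Cel hb,
    ((TensorProduct.mk ℂ U (Sp (Ω := B) hb)).flip ⟨pt t', pt_mem_Sp t'⟩) ∘ₗ Θ ∘ₗ syp9_L t' ∘ₗ f
  have hF : ∀ w, F w = ∑ t' : B ≃ Cel hb,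
      Θ (syp9_L t' (f w)) ⊗ₜ[ℂ] (⟨pt t', pt_mem_Sp t'⟩ : Sp (Ω := B) hb) := by
    intro w
    simp only [F, LinearMap.sum_apply, LinearMap.comp_apply, LinearMap.flip_apply,
      TensorProduct.mk_apply]
  refine ⟨F, ?_, ?_⟩
  · intro hF0
    obtain ⟨w₀, hw₀⟩ : pt (syp9_t tA tB) ∈ LinearMap.range f := by
      rw [hrange]
      exact pt_mem_Sp _
    obtain ⟨ℓ, hℓ⟩ : ∃ ℓ : Module.Dual ℂ U, ℓ (Θ (skw tA hb)) ≠ 0 := by
      by_contra hcon
      push Not at hcon
      exact hΘ0 ((Module.forall_dual_apply_eq_zero_iff ℂ _).1 hcon)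
    have h1 := hF w₀
    rw [hF0, LinearMap.zero_apply, hw₀] at h1
    set H : (B → ℕ) → ℂ := fun wB => ℓ (Θ (fun wA => pt (syp9_t tA tB) (Sum.elim wA wB))) with hH
    have hev : ∀ t' : B ≃ Cel hb, evp t' H = ℓ (Θ (syp9_L t' (pt (syp9_t tA tB)))) := by
      intro t'
      have e1 : syp9_L (A := A) t' (pt (syp9_t tA tB)) =
          ∑ s : Perm B, (if ∀ x, (t' (s x)).1 = (t' x).1 then ((sign s : ℤ) : ℂ) else 0) •
            (fun wA => pt (syp9_t tA tB) (Sum.elim wA (fun x => ((t' (s.symm x)).2 : ℕ)))) := by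
        funext wA
        rw [syp9_L_apply, Finset.sum_apply]
        show (∑ s : Perm B, if ∀ x, (t' (s x)).1 = (t' x).1 then
          ((sign s : ℤ) : ℂ) * pt (syp9_t tA tB) (Sum.elim wA (fun x => ((t' (s.symm x)).2 : ℕ)))
            else 0) = _
        refine Finset.sum_congr rfl fun s _ => ?_
        rw [Pi.smul_apply, smul_eq_mul]
        split_ifs
        · rfl
        · rw [zero_mul]
      rw [e1, map_sum, map_sum]
      show (∑ s : Perm B, if ∀ x, (t' (s x)).1 = (t' x).1 then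
          ((sign s : ℤ) : ℂ) * H (fun x => ((t' (s.symm x)).2 : ℕ)) else 0) = _
      refine Finset.sum_congr rfl fun s _ => ?_
      rw [map_smul, map_smul, smul_eq_mul]
      split_ifs
      · rfl
      · rw [zero_mul]
    have h2 : ∑ t' : B ≃ Cel hb, evp t' H • pt t' = 0 := by
      have h3 := congrArg (fun z => ((TensorProduct.lid ℂ (Sp (Ω := B) hb))
        (TensorProduct.map ℓ LinearMap.id z)).1) h1
      simp only [map_zero, map_sum, TensorProduct.map_tmul, TensorProduct.lid_tmul,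
        LinearMap.id_apply, Submodule.coe_zero, Submodule.coe_sum, Submodule.coe_smul] at h3
      rw [h3]
      exact Finset.sum_congr rfl fun t' _ => by rw [hev]
    have h4 := evp_sum_zero H h2 tB
    rw [hev, syp9_evp, map_smul, map_smul, smul_eq_mul] at h4
    rcases mul_eq_zero.1 h4 with h5 | h5
    · have h6 : (Finset.univ.filter (fun s : Perm B => ∀ x, (tB (s x)).1 = (tB x).1)).card = 0 := by
        exact_mod_cast h5
      rw [Finset.card_eq_zero] at h6
      have h7 : (1 : Perm B) ∈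
          Finset.univ.filter (fun s : Perm B => ∀ x, (tB (s x)).1 = (tB x).1) := by
        simp
      rw [h6] at h7
      exact absurd h7 (Finset.notMem_empty _)
    · exact hℓ h5
  · intro g₁ g₂ w
    rw [hF, hF, map_sum]
    have hL : ∀ t' : B ≃ Cel hb, Θ (syp9_L t' (f (σ (Perm.sumCongr g₁ g₂) w))) =
        τ g₁ (Θ (syp9_L (g₂.trans t') (f w))) := by
      intro t'
      rw [← hΘ]
      congr 1
      funext wA
      rw [syp9_L_apply, syp9_L_apply, ← evp_comp]
      congr 1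
      funext wB
      rw [hf]
      have e2 : (Sum.elim wA wB : A ⊕ B → ℕ) ∘ (Perm.sumCongr g₁ g₂) =
          Sum.elim (wA ∘ g₁) (wB ∘ g₂) := by
        funext x
        rcases x with x | x
        · rfl
        · rfl
      rw [e2]
    simp only [hL, TensorProduct.map_tmul]
    refine Fintype.sum_equiv (Equiv.equivCongr g₂.symm (Equiv.refl (Cel hb))) _ _ fun t' => ?_
    have e1 : (Equiv.equivCongr g₂.symm (Equiv.refl (Cel hb))) t' = g₂.trans t' :=
      Equiv.ext fun x => rfl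
    rw [e1]
    congr 1
    apply Subtype.ext
    funext x
    rw [SpRep_apply]
    show pt t' x = pt (g₂.trans t') (x ∘ g₂)
    rw [pt_comp]
    have e3 : g₂.symm.trans (g₂.trans t') = t' := Equiv.ext fun y => by
      show t' (g₂ (g₂.symm y)) = t' y
      rw [Equiv.apply_symm_apply]
    rw [e3]

end Crest.Agent.SY
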