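import Crest.Agent.SX_T1
import Crest.Agent.SX_T2
import Crest.Agent.SY_P0

/-!
# S0298, the quaternion path block: definitions (owner: helper77)

`Dm p` (`p : Fin 4`) is an orthogonal basis of the `2 × 2` matrices for the determinant form; `Dm2` is
`Dm` with the second index exchanged. `ThG t₀ N D F` is the map `Θ` of `SX_T0` for words with values
`< N`, the matrices depending on the value modulo `4`. `Cq D s l a` is the chain product of the
matrices along the list `l`. `PathS D ρ` is the same thing as a sum over `u, u'`.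
-/

set_option autoImplicit false

namespace Crest.Agent.SY

open Equiv Equiv.Perm Crest.Agent.SX

/-- `Dm` with the second index exchanged. -/
def Dm2 (p : Fin 4) (b a : Bool) : ℤ := Dm p b (!a)

/-- `D p b a` or `D p a b`. -/
def Ds (D : Fin 4 → Bool → Bool → ℤ) (s : Bool) (p : Fin 4) (b a : Bool) : ℤ :=
  if s then D p a b else D p b a

/-- Chain product. `s = false`: we enter the first letter with its index `u'`, and leave it with its
index `u`; `s = true`: the other way. -/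
def Cq (D : Fin 4 → Bool → Bool → ℤ) : Bool → List (Fin 4) → Bool → ℤ
  | _, [], _ => 0
  | s, [p], a => Ds D s p false a
  | s, p :: q :: l, a => ∑ b : Bool, ∑ c : Bool, Ds D s p b a * eb b c * Cq D (!s) (q :: l) c

/-- The residue modulo `4`. -/
def m4 (n : ℕ) : Fin 4 := ⟨n % 4, Nat.mod_lt _ (by norm_num)⟩

/-- The map `Θ` for the matrices `D`, words with values `< N`. -/
noncomputable def ThG {A : Type} [Fintype A] [DecidableEq A] {k : ℕ} (t₀ : A ≃ Cel (two k)) (N : ℕ)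
    (D : Fin 4 → Bool → Bool → ℤ) : ((A → ℕ) → ℂ) →ₗ[ℂ] (WW A → ℂ) where
  toFun F := fun x => ∑ u : A → Bool, ∑ u' : A → Bool, ∑ r : A → Fin N,
    F (kw r) * ((∏ a, D (m4 (r a)) (u a) (u' a) : ℤ) : ℂ) * (eps2 t₀ u x.1 : ℂ) *
      (eps2 t₀ u' x.2 : ℂ)
  map_add' F G := by
    ext x
    simp [add_mul, Finset.sum_add_distrib]
  map_smul' a F := by
    ext x
    simp [mul_assoc, Finset.mul_sum]

theorem ThG_apply {A : Type} [Fintype A] [DecidableEq A] {k : ℕ} (t₀ : A ≃ Cel (two k)) (N : ℕ)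
    (D : Fin 4 → Bool → Bool → ℤ) (F : (A → ℕ) → ℂ) (x : WW A) :
    ThG t₀ N D F x = ∑ u : A → Bool, ∑ u' : A → Bool, ∑ r : A → Fin N,
      F (kw r) * ((∏ a, D (m4 (r a)) (u a) (u' a) : ℤ) : ℂ) * (eps2 t₀ u x.1 : ℂ) *
        (eps2 t₀ u' x.2 : ℂ) := rfl

/-- The sum over the path `0, 1, …, 2k+2`: `u`-dominoes `(2i, 2i+1)`, `u'`-dominoes `(2i+1, 2i+2)`. -/
def PathS (D : Fin 4 → Bool → Bool → ℤ) {k : ℕ} (ρ : Fin (2 * k + 3) → Fin 4) : ℤ :=
  ∑ u : Fin (2 * k + 3) → Bool, ∑ u' : Fin (2 * k + 3) → Bool, (∏ j, D (ρ j) (u j) (u' j)) *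
    ((if u ⟨2 * k + 2, by omega⟩ = false then 1 else 0) *
      ∏ i : Fin (k + 1), eb (u ⟨2 * i, by omega⟩) (u ⟨2 * i + 1, by omega⟩)) *
    ((if u' ⟨0, by omega⟩ = false then 1 else 0) *
      ∏ i : Fin (k + 1), eb (u' ⟨2 * i + 1, by omega⟩) (u' ⟨2 * i + 2, by omega⟩))

end Crest.Agent.SY
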