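import Crest.Agent.SY_Q0

/-!
# S0298, task SY-Q1: algebra of the chain product
-/

set_option autoImplicit false

namespace Crest.Agent.SY

open Equiv Equiv.Perm Crest.Agent.SX

private theorem Q1_cons (D : Fin 4 → Bool → Bool → ℤ) (s : Bool) (p : Fin 4) {l : List (Fin 4)} (hl : l ≠ [])
    (a : Bool) :
    Cq D s (p :: l) a = ∑ b : Bool, ∑ c : Bool, Ds D s p b a * eb b c * Cq D (!s) l c := by
  cases l with
  | nil => exact absurd rfl hl
  | cons q l => rw [Cq]

private def Q1_K (D : Fin 4 → Bool → Bool → ℤ) (s : Bool) (p q : Fin 4) (a d : Bool) : ℤ :=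
  ∑ b : Bool, ∑ c : Bool, Ds D s p b a * eb b c * Ds D (!s) q d c

private theorem Q1_K_swap (D : Fin 4 → Bool → Bool → ℤ) (hD : D = Dm ∨ D = Dm2) : ∀ (s : Bool) (p q : Fin 4),
    p ≠ q → ∀ a d : Bool, Q1_K D s p q a d = - Q1_K D s q p a d := by
  rcases hD with rfl | rfl <;> decide +kernel

private theorem Q1_two (D : Fin 4 → Bool → Bool → ℤ) (s : Bool) (l : List (Fin 4)) :
    ∃ T : Bool → ℤ, ∀ (p q : Fin 4) (a : Bool), Cq D s (p :: q :: l) a = ∑ d : Bool, Q1_K D s p q a d * T d := by
  cases l with
  | nil =>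
    refine ⟨fun d => if d = false then 1 else 0, fun p q a => ?_⟩
    simp [Cq, Q1_K]
  | cons r l =>
    refine ⟨fun d => ∑ e : Bool, eb d e * Cq D (!(!s)) (r :: l) e, fun p q a => ?_⟩
    rw [Q1_cons D s p (by simp) a]
    simp only [Q1_cons D (!s) q (by simp : r :: l ≠ []), Q1_K, Fintype.sum_bool]
    ring

/-- Exchanging two different neighbours changes the sign. Induction on `l₁`; for `l₁ = []` the matrix
`K(p,q)(a,d) = ∑ b c, Ds D s p b a * eb b c * Ds D (!s) q d c` satisfies `K(p,q) = - K(q,p)` for
`p ≠ q` (`decide`). -/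
theorem Cq_swap (D : Fin 4 → Bool → Bool → ℤ) (hD : D = Dm ∨ D = Dm2) (s : Bool)
    (l₁ l₂ : List (Fin 4)) (p q : Fin 4) (hpq : p ≠ q) (a : Bool) :
    Cq D s (l₁ ++ p :: q :: l₂) a = - Cq D s (l₁ ++ q :: p :: l₂) a := by
  induction l₁ generalizing s a with
  | nil =>
    obtain ⟨T, hT⟩ := Q1_two D s l₂
    rw [List.nil_append, List.nil_append, hT, hT, ← Finset.sum_neg_distrib]
    refine Finset.sum_congr rfl fun d _ => ?_
    rw [Q1_K_swap D hD s p q hpq a d, neg_mul]
  | cons r l₁ ih =>
    rw [List.cons_append, List.cons_append, Q1_cons D s r (by simp) a, Q1_cons D s r (by simp) a]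
    simp only [ih, mul_neg, Finset.sum_neg_distrib]

private def Q1_R (D : Fin 4 → Bool → Bool → ℤ) (p q : Fin 4) (a e : Bool) : ℤ :=
  ∑ b : Bool, ∑ c : Bool, ∑ d : Bool, D p b a * eb b c * D q c d * eb d e

private theorem Q1_step (D : Fin 4 → Bool → Bool → ℤ) (p q : Fin 4) {l : List (Fin 4)} (hl : l ≠ [])
    (a : Bool) : Cq D false (p :: q :: l) a = ∑ e : Bool, Q1_R D p q a e * Cq D false l e := by
  rw [Q1_cons D false p (by simp) a]
  simp only [Bool.not_false, Q1_cons D true q hl, Q1_R, Fintype.sum_bool, Ds, Bool.not_true,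
    if_true, if_false, Bool.false_eq_true]
  ring

private theorem Q1_R2 : ∀ (p q : Fin 4) (a e : Bool), Q1_R Dm2 p q a e = - Q1_R Dm p q (!a) (!e) := by
  decide +kernel

private theorem Q1_det : ∀ (p q : Fin 4), Q1_R Dm p q false false * Q1_R Dm p q true true -
    Q1_R Dm p q false true * Q1_R Dm p q true false ≠ 0 := by
  decide +kernel

private theorem Q1_base : ∀ (p : Fin 4), Dm p false false ≠ 0 ∨ Dm p false true ≠ 0 := by
  decide +kernel

private theorem Q1_main (n : ℕ) : ∀ l : List (Fin 4), l.length = 2 * n + 1 →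
    ((∀ a, Cq Dm2 false l a = Cq Dm false l (!a)) ∨ (∀ a, Cq Dm2 false l a = - Cq Dm false l (!a))) ∧
      (Cq Dm false l false ≠ 0 ∨ Cq Dm false l true ≠ 0) := by
  induction n with
  | zero =>
    intro l hl
    obtain ⟨p, rfl⟩ := List.length_eq_one_iff.mp hl
    refine ⟨Or.inl fun a => ?_, ?_⟩
    · simp [Cq, Ds, Dm2]
    · simpa [Cq, Ds] using Q1_base p
  | succ n ih =>
    intro l hl
    match l, hl with
    | p :: q :: l, hl =>
      have hl' : l.length = 2 * n + 1 := by
        simp only [List.length_cons] at hl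
        omega
      have hne : l ≠ [] := by
        rintro rfl
        simp at hl'
      obtain ⟨h1, h2⟩ := ih l hl'
      refine ⟨?_, ?_⟩
      · rcases h1 with h1 | h1
        · right
          intro a
          rw [Q1_step Dm2 p q hne, Q1_step Dm p q hne]
          simp only [h1, Q1_R2, Fintype.sum_bool, Bool.not_false, Bool.not_true]
          ring
        · left
          intro a
          rw [Q1_step Dm2 p q hne, Q1_step Dm p q hne]
          simp only [h1, Q1_R2, Fintype.sum_bool, Bool.not_false, Bool.not_true]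
          ring
      · by_contra hcon
        push Not at hcon
        obtain ⟨c1, c2⟩ := hcon
        rw [Q1_step Dm p q hne, Fintype.sum_bool] at c1 c2
        have hd := Q1_det p q
        have e1 : (Q1_R Dm p q false false * Q1_R Dm p q true true -
            Q1_R Dm p q false true * Q1_R Dm p q true false) * Cq Dm false l false = 0 := by
          linear_combination Q1_R Dm p q true true * c1 - Q1_R Dm p q false true * c2
        have e2 : (Q1_R Dm p q false false * Q1_R Dm p q true true -
            Q1_R Dm p q false true * Q1_R Dm p q true false) * Cq Dm false l true = 0 := by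
          linear_combination Q1_R Dm p q false false * c2 - Q1_R Dm p q true false * c1
        rcases h2 with h2 | h2
        · exact h2 ((mul_eq_zero.mp e1).resolve_left hd)
        · exact h2 ((mul_eq_zero.mp e2).resolve_left hd)

/-- For lists of odd length. `Cq D false (p :: q :: l) a = ∑ e, R D p q a e * Cq D false l e` with
`R D p q a e = ∑ b c d, D p b a * eb b c * D q c d * eb d e`, `R Dm p q` is invertible and
`R Dm2 p q a e = - R Dm p q (!a) (!e)` (`decide`), so `Cq Dm2 false l a = ± Cq Dm false l (!a)`, and the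
vector `Cq Dm false l` is not zero. -/
theorem Cq_ne_zero (l : List (Fin 4)) (hl : l.length % 2 = 1) :
    Cq Dm false l false ≠ 0 ∨ Cq Dm2 false l false ≠ 0 := by
  obtain ⟨h1, h2⟩ := Q1_main (l.length / 2) l (by omega)
  rcases h2 with h2 | h2
  · exact Or.inl h2
  · right
    rcases h1 with h1 | h1
    · rw [h1]
      exact h2
    · rw [h1]
      exact neg_ne_zero.mpr h2

end Crest.Agent.SY
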