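import Crest.Agent.SY_U
import Crest.Agent.SY_S0

/-!
# S0298: the predicate `GG` and the rules core, swap, skip (owner: helper61)
-/

set_option autoImplicit false

namespace Crest.Agent.SY

open Equiv Equiv.Perm TensorProduct Crest.Agent.SX

/-- The moved letters are exactly the boxes of the staircase on the levels in `J`. -/
def Adm (J : ℕ → Bool) {Ω Z : Type} (p : WW (Ω ⊕ Z)) : Prop :=
  (∀ a, J (p.1 (Sum.inl a) + p.2 (Sum.inl a) + 1) = true) ∧
    ∀ z, J (p.1 (Sum.inr z) + p.2 (Sum.inr z) + 1) = false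

/-- `σ` embeds in the Specht module `Sp h`. -/
def Emb {Ω κ W : Type} [Fintype Ω] [DecidableEq Ω] [AddCommGroup W] [Module ℂ W]
    (σ : Representation ℂ (Perm Ω) W) (h : κ → ℕ) : Prop :=
  ∃ f : W →ₗ[ℂ] ((Ω → ℕ) → ℂ), Function.Injective f ∧ (∀ g w x, f (σ g w) x = f w (x ∘ g)) ∧
    ∀ w, f w ∈ Sp (Ω := Ω) h

/-- The statement proved by induction on the derivation. -/
def GG (V : ValuationSubring ℂ) (J : ℕ → Bool) (k : ℕ) {ι ι' κ : Type} (g : ι → ℕ) (d : ι' → ℕ)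
    (h : κ → ℕ) : Prop :=
  ∀ (Ω Z : Type) [Fintype Ω] [DecidableEq Ω] [Fintype Z] [DecidableEq Z],
    2 * (Fintype.card Ω + Fintype.card Z) = k * (k + 1) → ∀ p : WW (Ω ⊕ Z), IsStair k p →
    Adm J p → ∀ (W : Type) [AddCommGroup W] [Module ℂ W] [FiniteDimensional ℂ W]
      (σ : Representation ℂ (Perm Ω) W), σ.IsIrreducible → Emb σ h → GoodT (vAdd V) k g d p σ

theorem Emb_relabel {Ω Ω' κ W : Type} [Fintype Ω] [DecidableEq Ω] [Fintype Ω'] [DecidableEq Ω']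
    [AddCommGroup W] [Module ℂ W] (e : Ω ≃ Ω')
    {σ : Representation ℂ (Perm Ω) W} {h : κ → ℕ} (hE : Emb σ h) : Emb (relabel e σ) h := by
  obtain ⟨f, h1, h2, h3⟩ := hE
  exact emb_relabel e σ f h1 h2 h3

/-- SWAP. -/
theorem GG_swap {V : ValuationSubring ℂ} {J : ℕ → Bool} {k : ℕ} {ι ι' κ : Type} {g : ι → ℕ}
    {d : ι' → ℕ} {h : κ → ℕ} (H : GG V J k g d h) : GG V J k d g h := by
  intro Ω Z _ _ _ _ hcard p hp hA W _ _ _ σ hσ hE
  have hp' : IsStair k ((p.2, p.1) : WW (Ω ⊕ Z)) := by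
    refine ⟨fun x y hxy => hp.1 ?_, fun a => ?_⟩
    · simp only [Prod.mk.injEq] at hxy ⊢
      exact ⟨hxy.2, hxy.1⟩
    · have := hp.2 a
      show p.2 a + p.1 a < k
      omega
  have hA' : Adm J ((p.2, p.1) : WW (Ω ⊕ Z)) := by
    refine ⟨fun a => ?_, fun z => ?_⟩
    · have := hA.1 a
      show J (p.2 (Sum.inl a) + p.1 (Sum.inl a) + 1) = true
      rwa [add_comm (p.2 (Sum.inl a))]
    · have := hA.2 z
      show J (p.2 (Sum.inr z) + p.1 (Sum.inr z) + 1) = false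
      rwa [add_comm (p.2 (Sum.inr z))]
  obtain ⟨X, Y, h1, h2, h3, h4, h5⟩ := H Ω Z hcard (p.2, p.1) hp' hA' W σ hσ hE
  exact ⟨Y, X, h2, h1, h4, h3, GoodZ_swap h5⟩

/-- CORE. -/
theorem GG_core (V : ValuationSubring ℂ) (hV : (2 : ℂ)⁻¹ ∉ V) (J : ℕ → Bool) (k : ℕ)
    (hJ : ∀ j, 1 ≤ j → j ≤ k → J j = true) {κ : Type} (h : κ → ℕ) :
    GG V J k (stair k) (stair k) h := by
  intro Ω Z _ _ _ _ hcard p hp hA W _ _ _ σ hσ hE
  have hZ : IsEmpty Z := by
    constructor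
    intro z
    have h1 := hp.2 (Sum.inr z)
    have h2 := hJ (p.1 (Sum.inr z) + p.2 (Sum.inr z) + 1) (by omega) (by omega)
    rw [hA.2 z] at h2
    exact Bool.false_ne_true h2
  let e : Ω ≃ Ω ⊕ Z := (Equiv.sumEmpty Ω Z).symm
  have he : ∀ a, e a = Sum.inl a := fun a => rfl
  have hG : Good (vAdd V) (stair k) (res e p) σ := by
    refine saxl_all V hV k Ω ?_ (res e p) ⟨?_, ?_⟩ W σ hσ
    · rw [← hcard, Fintype.card_eq_zero (α := Z), add_zero]
    · intro x y hxy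
      exact e.injective (hp.1 hxy)
    · intro a
      exact hp.2 _
  obtain ⟨j, hj, hje, hm, hs⟩ := hG
  refine ⟨Sp (stair k), Sp (stair k), le_rfl, le_rfl, ?_, ?_, ?_⟩
  iterate 2
    refine ⟨Sp_stabZ _, fun F hF => Submodule.subset_span
      ⟨LinearMap.funLeft ℂ ℂ (fun x : Ω ⊕ Z → ℕ => x ∘ e), ?_, fun w => F (w ∘ e.symm), ?_, ?_⟩⟩
    · intro v hv g x
      rfl
    · exact Sp_equiv e.symm hF
    · funext x
      show F x = F ((x ∘ e) ∘ e.symm)
      congr 1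
      funext y
      simp
  let j' : W →ₗ[ℂ] (WW (Ω ⊕ Z) → ℂ) := LinearMap.pi fun x => LinearMap.proj (res e x) ∘ₗ j
  have hj' : ∀ w x, j' w x = j w (res e x) := fun w x => rfl
  have hres : ∀ (g : Perm Ω) (x : WW (Ω ⊕ Z)), res e (pull (Perm.sumCongr g 1) x) =
      pull g (res e x) := fun g x => rfl
  refine ⟨j', ?_, ?_, ?_, ?_⟩
  · intro w w' hww
    apply hj
    funext y
    have h1 := congrFun hww (res e.symm y)
    rw [hj', hj'] at h1
    have h2 : res e (res e.symm y) = y := by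
      refine Prod.ext ?_ ?_ <;> funext b <;> simp
    rwa [h2] at h1
  · intro g w x
    rw [hj', hj', hres, hje]
  · intro w
    have h1 := Tens_mapL e _ _ (VV_eq_Tens (stair k) (hm w))
    exact Tens_mono (mapL_le e le_rfl) (mapL_le e le_rfl) h1
  · intro w hw x
    rw [hj']
    refine hs w (fun g => ?_) _
    have h1 := hw g
    rwa [hj', hres] at h1

/-- Splitting the moved letters. -/
theorem splitZ {Ω Z : Type} [Fintype Ω] [DecidableEq Ω] [Fintype Z] [DecidableEq Z] (K k : ℕ)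
    (hk : k ≤ K) (hΩ : 2 * (Fintype.card Ω + Fintype.card Z) = K * (K + 1)) (p : WW (Ω ⊕ Z))
    (hp : IsStair K p) (hz : ∀ z, p.1 (Sum.inr z) + p.2 (Sum.inr z) < k) :
    ∃ (A B : Type) (_ : Fintype A) (_ : DecidableEq A) (_ : Fintype B) (_ : DecidableEq B)
      (e : Ω ≃ A ⊕ B), 2 * (Fintype.card B + Fintype.card Z) = k * (k + 1) ∧
      2 * Fintype.card A + k * (k + 1) = K * (K + 1) ∧
      (∀ a, k ≤ p.1 (Sum.inl (e.symm (Sum.inl a))) + p.2 (Sum.inl (e.symm (Sum.inl a)))) ∧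
      ∀ b, p.1 (Sum.inl (e.symm (Sum.inr b))) + p.2 (Sum.inl (e.symm (Sum.inr b))) < k := by
  have h1 := stair_card_lt K k hk (by rw [Fintype.card_sum]; exact hΩ) p hp
  let e : Ω ≃ {x : Ω // ¬ (p.1 (Sum.inl x) + p.2 (Sum.inl x) < k)} ⊕
      {x : Ω // p.1 (Sum.inl x) + p.2 (Sum.inl x) < k} :=
    ((Equiv.sumComm _ _).trans (Equiv.sumCompl fun x : Ω =>
      p.1 (Sum.inl x) + p.2 (Sum.inl x) < k)).symm
  let f : {x : Ω // p.1 (Sum.inl x) + p.2 (Sum.inl x) < k} ⊕ Z ≃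
      {x : Ω ⊕ Z // p.1 x + p.2 x < k} :=
    { toFun := fun y => match y with
        | Sum.inl y => ⟨Sum.inl y.1, y.2⟩
        | Sum.inr z => ⟨Sum.inr z, hz z⟩
      invFun := fun y => match y with
        | ⟨Sum.inl y, h⟩ => Sum.inl ⟨y, h⟩
        | ⟨Sum.inr z, _⟩ => Sum.inr z
      left_inv := by rintro (y | z) <;> rfl
      right_inv := by rintro ⟨y | z, h⟩ <;> rfl }
  have h2 := Fintype.card_congr f
  rw [Fintype.card_sum] at h2
  have h3 := Fintype.card_congr e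
  rw [Fintype.card_sum] at h3
  refine ⟨{x : Ω // ¬ (p.1 (Sum.inl x) + p.2 (Sum.inl x) < k)},
    {x : Ω // p.1 (Sum.inl x) + p.2 (Sum.inl x) < k}, inferInstance, inferInstance, inferInstance,
    inferInstance, e, ?_, ?_, ?_, ?_⟩
  · rw [← h1, h2]
  · rw [← h1, ← hΩ, h3, ← h2]
    ring
  · intro a
    exact not_lt.1 a.2
  · intro b
    exact b.2

/-- Splitting the spectators. -/
theorem splitS {Ω Z : Type} [Fintype Ω] [DecidableEq Ω] [Fintype Z] [DecidableEq Z] (K k : ℕ)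
    (hk : k ≤ K) (hΩ : 2 * (Fintype.card Ω + Fintype.card Z) = K * (K + 1)) (p : WW (Ω ⊕ Z))
    (hp : IsStair K p) (hz : ∀ z, p.1 (Sum.inl z) + p.2 (Sum.inl z) < k) :
    ∃ (A B : Type) (_ : Fintype A) (_ : DecidableEq A) (_ : Fintype B) (_ : DecidableEq B)
      (e : Z ≃ A ⊕ B), 2 * (Fintype.card Ω + Fintype.card B) = k * (k + 1) ∧
      2 * Fintype.card A + k * (k + 1) = K * (K + 1) ∧
      (∀ a, k ≤ p.1 (Sum.inr (e.symm (Sum.inl a))) + p.2 (Sum.inr (e.symm (Sum.inl a)))) ∧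
      ∀ b, p.1 (Sum.inr (e.symm (Sum.inr b))) + p.2 (Sum.inr (e.symm (Sum.inr b))) < k := by
  have h1 := stair_card_lt K k hk (by rw [Fintype.card_sum]; exact hΩ) p hp
  let e : Z ≃ {x : Z // ¬ (p.1 (Sum.inr x) + p.2 (Sum.inr x) < k)} ⊕
      {x : Z // p.1 (Sum.inr x) + p.2 (Sum.inr x) < k} :=
    ((Equiv.sumComm _ _).trans (Equiv.sumCompl fun x : Z =>
      p.1 (Sum.inr x) + p.2 (Sum.inr x) < k)).symm
  let f : Ω ⊕ {x : Z // p.1 (Sum.inr x) + p.2 (Sum.inr x) < k} ≃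
      {x : Ω ⊕ Z // p.1 x + p.2 x < k} :=
    { toFun := fun y => match y with
        | Sum.inr y => ⟨Sum.inr y.1, y.2⟩
        | Sum.inl z => ⟨Sum.inl z, hz z⟩
      invFun := fun y => match y with
        | ⟨Sum.inr y, h⟩ => Sum.inr ⟨y, h⟩
        | ⟨Sum.inl z, _⟩ => Sum.inl z
      left_inv := by rintro (y | z) <;> rfl
      right_inv := by rintro ⟨y | z, h⟩ <;> rfl }
  have h2 := Fintype.card_congr f
  rw [Fintype.card_sum] at h2
  have h3 := Fintype.card_congr e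
  rw [Fintype.card_sum] at h3
  refine ⟨{x : Z // ¬ (p.1 (Sum.inr x) + p.2 (Sum.inr x) < k)},
    {x : Z // p.1 (Sum.inr x) + p.2 (Sum.inr x) < k}, inferInstance, inferInstance, inferInstance,
    inferInstance, e, ?_, ?_, ?_, ?_⟩
  · rw [← h1, h2]
  · rw [← h1, ← hΩ, h3, ← h2]
    ring
  · intro a
    exact not_lt.1 a.2
  · intro b
    exact b.2

end Crest.Agent.SY
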