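import Crest.Agent.SY_R1

/-!
# S0298: the rules skip and strip for `GG` (owner: helper61)
-/

set_option autoImplicit false

namespace Crest.Agent.SY

open Equiv Equiv.Perm TensorProduct Crest.Agent.SX

/-- Type of the space generated by the products with one column. -/
def T1Statement : Prop :=
  ∀ (A B Z : Type) [Fintype A] [DecidableEq A] [Fintype B] [DecidableEq B] [Fintype Z]
    [DecidableEq Z] (k : ℕ), Fintype.card A = k + 1 → ∀ (g : Shp), g.a 0 ≤ k + 1 → ∀
    (X : Submodule ℂ ((B ⊕ Z → ℕ) → ℂ)), X ≤ Sp (stair k) → IsoI g.hf X →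
    IsoI (g.col (k + 1)).hf (UpX (Sp (Ω := A) (fun _ : Unit => k + 1)) X)

/-- Restriction rule: every irreducible `σ` embedded in `Sp h` (letters `A ⊕ B`, `|A| = m`) has a
nonzero equivariant map to `1 ⊗ Sp h'`. -/
def ResH {κ κ' : Type} (h : κ → ℕ) (h' : κ' → ℕ) (m : ℕ) : Prop :=
  ∀ (A B : Type) [Fintype A] [DecidableEq A] [Fintype B] [DecidableEq B], Fintype.card A = m →
    ∀ (W : Type) [AddCommGroup W] [Module ℂ W] [FiniteDimensional ℂ W]
      (σ : Representation ℂ (Perm (A ⊕ B)) W), σ.IsIrreducible → Emb σ h →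
      ∃ F : W →ₗ[ℂ] ℂ ⊗[ℂ] Sp (Ω := B) h', F ≠ 0 ∧ ∀ g₁ g₂ w,
        F (σ (Perm.sumCongr g₁ g₂) w) =
          TensorProduct.map (Representation.trivial ℂ (Perm A) ℂ g₁) (SpRep B h' g₂) (F w)

/-- Restriction rule for two columns. -/
def ResP {κ κ' : Type} (h : κ → ℕ) (h' : κ' → ℕ) (k : ℕ) : Prop :=
  ∀ (A B : Type) [Fintype A] [DecidableEq A] [Fintype B] [DecidableEq B],
    Fintype.card A = 2 * k + 3 →
    ∀ (W : Type) [AddCommGroup W] [Module ℂ W] [FiniteDimensional ℂ W]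
      (σ : Representation ℂ (Perm (A ⊕ B)) W), σ.IsIrreducible → Emb σ h →
      ∃ F : W →ₗ[ℂ] VV (Ω := A) (two k) ⊗[ℂ] Sp (Ω := B) h', F ≠ 0 ∧ ∀ g₁ g₂ w,
        F (σ (Perm.sumCongr g₁ g₂) w) =
          TensorProduct.map (VVRep A (two k) g₁) (SpRep B h' g₂) (F w)

theorem Emb_Sp {Ω κ : Type} [Fintype Ω] [DecidableEq Ω] (h : κ → ℕ) : Emb (SpRep Ω h) h :=
  ⟨(Sp (Ω := Ω) h).subtype, Subtype.val_injective, fun _ _ _ => rfl, fun w => w.2⟩

theorem nonempty_of_ne {Ω κ U W : Type} [Fintype Ω] [DecidableEq Ω] {h : κ → ℕ}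
    [AddCommGroup U] [Module ℂ U] [AddCommGroup W] [Module ℂ W]
    (F : W →ₗ[ℂ] U ⊗[ℂ] Sp (Ω := Ω) h) (hF : F ≠ 0) : Nonempty (Ω ≃ Cel h) := by
  by_contra hne
  apply hF
  rw [not_nonempty_iff] at hne
  have h1 : Sp (Ω := Ω) h = ⊥ := by
    unfold Sp
    rw [Set.range_eq_empty, Submodule.span_empty]
  have h2 : Subsingleton (Sp (Ω := Ω) h) := by
    rw [h1]
    infer_instance
  ext w
  have h3 : ∀ T : U ⊗[ℂ] Sp (Ω := Ω) h, T = 0 := by
    intro T
    induction T using TensorProduct.induction_on with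
    | zero => rfl
    | tmul x y => rw [Subsingleton.elim y 0, TensorProduct.tmul_zero]
    | add a b ha hb => rw [ha, hb, add_zero]
  rw [h3 (F w)]
  rfl

/-- STRIP. -/
theorem GG_strip (hT1 : T1Statement) (V : ValuationSubring ℂ) (hV : (2 : ℂ)⁻¹ ∉ V)
    {J : ℕ → Bool} {k : ℕ} {κ κ' : Type} [Fintype κ'] [DecidableEq κ']
    {g d : Shp} (hg : g.a 0 ≤ k) (hd : d.a 0 ≤ k) {h : κ → ℕ} {h' : κ' → ℕ}
    (hres : ResH h h' (k + 1)) (hJ : J (k + 1) = true) (H : GG V J k g.hf d.hf h') :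
    GG V J (k + 1) (g.col (k + 1)).hf (d.col (k + 1)).hf h := by
  intro Ω Z _ _ _ _ hcard p hp hA W _ _ _ σ hσ hE
  have hz : ∀ z, p.1 (Sum.inr z) + p.2 (Sum.inr z) < k := by
    intro z
    have h1 := hp.2 (Sum.inr z)
    have h2 := hA.2 z
    by_contra h3
    have h4 : p.1 (Sum.inr z) + p.2 (Sum.inr z) = k := by omega
    rw [h4, hJ] at h2
    exact Bool.false_ne_true h2.symm
  obtain ⟨A, B, _, _, _, _, e, hcB, hcA, hpA, hpB⟩ := splitZ (k + 1) k (by omega) hcard p hp hz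
  have hA' : Fintype.card A = k + 1 := by nlinarith
  refine GoodT_relabel e (Equiv.refl Z) _ _ _ _ p σ ?_
  set p' : WW ((A ⊕ B) ⊕ Z) := res (Equiv.sumCongr e (Equiv.refl Z)).symm p with hp'
  have hinj : Function.Injective fun a => (p'.1 a, p'.2 a) := by
    intro x y hxy
    exact (Equiv.sumCongr e (Equiv.refl Z)).symm.injective (hp.1 hxy)
  have hsumA : ∀ a, p'.1 (ia a) + p'.2 (ia a) = k := by
    intro a
    have h1 : k ≤ p'.1 (ia a) + p'.2 (ia a) := hpA a
    have h2 : p'.1 (ia a) + p'.2 (ia a) < k + 1 := hp.2 _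
    omega
  have hsumB : ∀ b, p'.1 (Sum.inl (Sum.inr b)) + p'.2 (Sum.inl (Sum.inr b)) < k := fun b => hpB b
  obtain ⟨F, hF0, hF⟩ := hres A B hA' W (relabel e σ) (relabel_irr e σ hσ) (Emb_relabel e hE)
  have hne := nonempty_of_ne F hF0
  have hS2 : IsStair k (res ibz p') := by
    refine ⟨?_, ?_⟩
    · intro x y hxy
      have hib : Function.Injective (ibz : B ⊕ Z → (A ⊕ B) ⊕ Z) := by
        rintro (x | x) (y | y) hxy
        · simpa using hxy
        · simp at hxy
        · simp at hxy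
        · simpa using hxy
      exact hib (hinj hxy)
    · rintro (b | z)
      · exact hsumB b
      · exact hz z
  have hAd2 : Adm J (res ibz p') := ⟨fun b => hA.1 (e.symm (Sum.inr b)), fun z => hA.2 z⟩
  obtain ⟨X', Y', hX1, hY1, hX2, hY2, hG⟩ := H B Z hcB (res ibz p') hS2 hAd2
    (Sp (Ω := B) h') (SpRep B h') (Sp_irr hne) (Emb_Sp h')
  refine ⟨UpX (Sp (Ω := A) (fun _ : Unit => k + 1)) X', UpX (Sp (Ω := A) (fun _ : Unit => k + 1)) Y',
    ?_, ?_, hT1 A B Z k hA' g (by omega) X' hX1 hX2,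
    hT1 A B Z k hA' d (by omega) Y' hY1 hY2, ?_⟩
  · exact (UpX_le_Sp hX1).trans_eq (Sp_stair_succ k)
  · exact (UpX_le_Sp hY1).trans_eq (Sp_stair_succ k)
  · have hinj1 : Function.Injective (res ia p').1 := by
      intro a a' h
      have h1 : p'.1 (ia a) = p'.1 (ia a') := h
      have h2 : (fun x => (p'.1 x, p'.2 x)) (ia a) = (fun x => (p'.1 x, p'.2 x)) (ia a') := by
        have ha := hsumA a
        have ha' := hsumA a'
        simp only [Prod.mk.injEq]
        omega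
      exact Sum.inl_injective (Sum.inl_injective (hinj h2))
    have hinj2 : Function.Injective (res ia p').2 := by
      intro a a' h
      have h1 : p'.2 (ia a) = p'.2 (ia a') := h
      have h2 : (fun x => (p'.1 x, p'.2 x)) (ia a) = (fun x => (p'.1 x, p'.2 x)) (ia a') := by
        have ha := hsumA a
        have ha' := hsumA a'
        simp only [Prod.mk.injEq]
        omega
      exact Sum.inl_injective (Sum.inl_injective (hinj h2))
    have h1 : Good (vAdd V) (fun _ : Unit => k + 1) (res ia p')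
        (Representation.trivial ℂ (Perm A) ℂ) := by
      refine one_good (k + 1) hA' (vAdd V) (res ia p') hinj1 (fun a => ?_) hinj2 (fun a => ?_)
      · have h1 := hsumA a
        show p'.1 (ia a) < k + 1
        omega
      · have h1 := hsumA a
        show p'.2 (ia a) < k + 1
        omega
    refine step_Z (fun _ : Unit => k + 1) (vAdd V) (vAdd_ne_top hV) k p' (fun a => (hsumA a).ge)
      hsumB ?_ _ _ X' Y' (UpX_stab _ _) (UpX_stab _ _) (fun F hF G hG => UpX_mul_mem hF hG)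
      (fun F hF G hG => UpX_mul_mem hF hG) (relabel e σ) (relabel_irr e σ hσ)
      (Representation.trivial ℂ (Perm A) ℂ) (SpRep B h') h1 hG F hF0 hF
    rw [wt_one, Finset.sum_congr rfl fun a _ => hsumA a]
    simp [hA']

/-- PATH (the type statement for two columns is derived from `T1Statement` in `SY_R4`). -/
def T2Statement : Prop :=
  ∀ (A B Z : Type) [Fintype A] [DecidableEq A] [Fintype B] [DecidableEq B] [Fintype Z]
    [DecidableEq Z] (k : ℕ), Fintype.card A = 2 * k + 3 → ∀ (g : Shp), g.a 0 ≤ k → ∀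
    (X : Submodule ℂ ((B ⊕ Z → ℕ) → ℂ)), X ≤ Sp (stair k) → IsoI g.hf X →
    IsoI ((g.col (k + 1)).col (k + 2)).hf (UpX (Sp (Ω := A) (two k)) X)

theorem GG_path (hT2 : T2Statement) (V : ValuationSubring ℂ) (hV : (2 : ℂ)⁻¹ ∉ V)
    {J : ℕ → Bool} {k : ℕ} {κ κ' : Type} [Fintype κ'] [DecidableEq κ']
    {g d : Shp} (hg : g.a 0 ≤ k) (hd : d.a 0 ≤ k) {h : κ → ℕ} {h' : κ' → ℕ}
    (hres : ResP h h' k) (hJ1 : J (k + 1) = true) (hJ2 : J (k + 2) = true)
    (H : GG V J k g.hf d.hf h') :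
    GG V J (k + 2) ((g.col (k + 1)).col (k + 2)).hf ((d.col (k + 1)).col (k + 2)).hf h := by
  intro Ω Z _ _ _ _ hcard p hp hA W _ _ _ σ hσ hE
  have hz : ∀ z, p.1 (Sum.inr z) + p.2 (Sum.inr z) < k := by
    intro z
    have h1 := hp.2 (Sum.inr z)
    have h2 := hA.2 z
    by_contra h3
    have h4 : p.1 (Sum.inr z) + p.2 (Sum.inr z) = k ∨ p.1 (Sum.inr z) + p.2 (Sum.inr z) = k + 1 := by
      omega
    rcases h4 with h4 | h4
    · rw [h4, hJ1] at h2
      exact Bool.false_ne_true h2.symm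
    · rw [h4, hJ2] at h2
      exact Bool.false_ne_true h2.symm
  obtain ⟨A, B, _, _, _, _, e, hcB, hcA, hpA, hpB⟩ := splitZ (k + 2) k (by omega) hcard p hp hz
  have hA' : Fintype.card A = 2 * k + 3 := by nlinarith
  refine GoodT_relabel e (Equiv.refl Z) _ _ _ _ p σ ?_
  set p' : WW ((A ⊕ B) ⊕ Z) := res (Equiv.sumCongr e (Equiv.refl Z)).symm p with hp'
  have hinj : Function.Injective fun a => (p'.1 a, p'.2 a) := by
    intro x y hxy
    exact (Equiv.sumCongr e (Equiv.refl Z)).symm.injective (hp.1 hxy)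
  have hsumA : ∀ a, k ≤ p'.1 (ia a) + p'.2 (ia a) := fun a => hpA a
  have hsumB : ∀ b, p'.1 (Sum.inl (Sum.inr b)) + p'.2 (Sum.inl (Sum.inr b)) < k := fun b => hpB b
  obtain ⟨F, hF0, hF⟩ := hres A B hA' W (relabel e σ) (relabel_irr e σ hσ) (Emb_relabel e hE)
  have hne := nonempty_of_ne F hF0
  have hS2 : IsStair k (res ibz p') := by
    refine ⟨?_, ?_⟩
    · intro x y hxy
      have hib : Function.Injective (ibz : B ⊕ Z → (A ⊕ B) ⊕ Z) := by
        rintro (x | x) (y | y) hxy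
        · simpa using hxy
        · simp at hxy
        · simp at hxy
        · simpa using hxy
      exact hib (hinj hxy)
    · rintro (b | z)
      · exact hsumB b
      · exact hz z
  have hAd2 : Adm J (res ibz p') := ⟨fun b => hA.1 (e.symm (Sum.inr b)), fun z => hA.2 z⟩
  obtain ⟨X', Y', hX1, hY1, hX2, hY2, hG⟩ := H B Z hcB (res ibz p') hS2 hAd2
    (Sp (Ω := B) h') (SpRep B h') (Sp_irr hne) (Emb_Sp h')
  refine ⟨UpX (Sp (Ω := A) (two k)) X', UpX (Sp (Ω := A) (two k)) Y',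
    ?_, ?_, hT2 A B Z k hA' g hg X' hX1 hX2, hT2 A B Z k hA' d hd Y' hY1 hY2, ?_⟩
  · exact (UpX_le_Sp hX1).trans_eq (Sp_stair_two k)
  · exact (UpX_le_Sp hY1).trans_eq (Sp_stair_two k)
  · have hinjA : Function.Injective fun a => ((res ia p').1 a, (res ia p').2 a) := by
      intro a a' h
      exact Sum.inl_injective (Sum.inl_injective (hinj h))
    have hran : ∀ a, k ≤ (res ia p').1 a + (res ia p').2 a ∧
        (res ia p').1 a + (res ia p').2 a < k + 2 := fun a => ⟨hsumA a, hp.2 _⟩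
    have h1 : Good (vAdd V) (two k) (res ia p') (VVRep A (two k)) :=
      two_good k hA' (vAdd V) (res ia p') hinjA hran
    refine step_Z (two k) (vAdd V) (vAdd_ne_top hV) k p' hsumA
      hsumB ?_ _ _ X' Y' (UpX_stab _ _) (UpX_stab _ _) (fun F hF G hG => UpX_mul_mem hF hG)
      (fun F hF G hG => UpX_mul_mem hF hG) (relabel e σ) (relabel_irr e σ hσ)
      (VVRep A (two k)) (SpRep B h') h1 hG F hF0 hF
    obtain ⟨t1, t2⟩ := zigzag_two k hA' (res ia p') hinjA hran
    have e1 := sum_TwoW k _ t1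
    have e2 := sum_TwoW k _ t2
    rw [Finset.sum_add_distrib, wt_two]
    have e1' : ∑ a, p'.1 (ia a) = (k + 1) * (k + 1) := e1
    have e2' : ∑ a, p'.2 (ia a) = (k + 1) * (k + 1) := e2
    rw [e1', e2']
    ring

end Crest.Agent.SY
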