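import Crest.Agent.SY_R2

/-!
# S0298: the rules skip and twist for `GG` (owner: helper61)
-/

set_option autoImplicit false

namespace Crest.Agent.SY

open Equiv Equiv.Perm TensorProduct Crest.Agent.SX

section skip
variable {Ω A Z : Type}

/-- The span of the products with a function of the new spectators `A`. -/
def SkX (S : Submodule ℂ ((A → ℕ) → ℂ)) (X : Submodule ℂ ((Ω ⊕ Z → ℕ) → ℂ)) :
    Submodule ℂ ((Ω ⊕ (A ⊕ Z) → ℕ) → ℂ) :=
  Submodule.span ℂ {T | ∃ F ∈ S, ∃ G ∈ X,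
    T = fun x => F (x ∘ Sum.inr ∘ Sum.inl) * G (x ∘ Sum.map id Sum.inr)}

theorem SkX_stab (S : Submodule ℂ ((A → ℕ) → ℂ)) (X : Submodule ℂ ((Ω ⊕ Z → ℕ) → ℂ))
    (hX : StabZ X) : StabZ (SkX S X) := by
  intro F hF g
  refine Submodule.span_induction (p := fun F _ =>
    (fun x => F (x ∘ Perm.sumCongr g (1 : Perm (A ⊕ Z)))) ∈ SkX S X) ?_ ?_ ?_ ?_ hF
  · rintro _ ⟨F, hF, G, hG, rfl⟩
    refine Submodule.subset_span ⟨F, hF, _, hX G hG g, ?_⟩
    funext x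
    have e1 : (x ∘ Perm.sumCongr g (1 : Perm (A ⊕ Z))) ∘ Sum.map id Sum.inr =
        (x ∘ Sum.map id Sum.inr) ∘ Perm.sumCongr g (1 : Perm Z) := by
      funext y
      rcases y with y | y <;> rfl
    show F _ * G ((x ∘ Perm.sumCongr g (1 : Perm (A ⊕ Z))) ∘ Sum.map id Sum.inr) = _
    rw [e1]
    rfl
  · exact Submodule.zero_mem _
  · intro F G _ _ h1 h2
    exact Submodule.add_mem _ h1 h2
  · intro a F _ h1
    exact Submodule.smul_mem _ a h1

variable [Fintype Ω] [DecidableEq Ω] [Fintype A] [DecidableEq A] [Fintype Z] [DecidableEq Z]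
  {ι κ : Type}

theorem SkX_le {h : ι → ℕ} {h' : κ → ℕ} {X : Submodule ℂ ((Ω ⊕ Z → ℕ) → ℂ)}
    (hX : X ≤ Sp h') : SkX (Sp (Ω := A) h) X ≤ Sp (Sum.elim h h') := by
  refine Submodule.span_le.2 ?_
  rintro _ ⟨F, hF, G, hG, rfl⟩
  let e : A ⊕ (Ω ⊕ Z) ≃ Ω ⊕ (A ⊕ Z) :=
    ((Equiv.sumAssoc A Ω Z).symm.trans (Equiv.sumCongr (Equiv.sumComm A Ω) (Equiv.refl Z))).trans
      (Equiv.sumAssoc Ω A Z)
  have h1 := Sp_equiv e (Sp_mul hF (hX hG))
  refine (congrArg (· ∈ Sp (Ω := Ω ⊕ (A ⊕ Z)) (Sum.elim h h')) ?_).mp h1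
  funext x
  have e1 : ((x ∘ e) ∘ Sum.inr) = x ∘ Sum.map id Sum.inr := by
    funext y
    rcases y with y | y <;> rfl
  rw [e1]
  rfl

omit [Fintype A] [DecidableEq A] [Fintype Z] [DecidableEq Z] in
theorem SkX_iso {g : ι → ℕ} (S : Submodule ℂ ((A → ℕ) → ℂ)) {X : Submodule ℂ ((Ω ⊕ Z → ℕ) → ℂ)}
    (hX : IsoI g X) : IsoI g (SkX S X) := by
  refine ⟨SkX_stab S X hX.1, fun F hF => ?_⟩
  refine Submodule.span_induction (p := fun F _ => F ∈ Submodule.span ℂ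
    {G : (Ω ⊕ (A ⊕ Z) → ℕ) → ℂ | ∃ T, EqvFrom (Ω := Ω) (Z := A ⊕ Z) g T ∧
      ∃ v ∈ Sp (Ω := Ω) g, G = T v}) ?_ (Submodule.zero_mem _)
    (fun F G _ _ h1 h2 => Submodule.add_mem _ h1 h2) (fun a F _ h1 => Submodule.smul_mem _ a h1) hF
  rintro _ ⟨F, hF, G, hG, rfl⟩
  have h1 := hX.2 G hG
  refine Submodule.span_induction (p := fun (G : (Ω ⊕ Z → ℕ) → ℂ) _ =>
    (fun x : Ω ⊕ (A ⊕ Z) → ℕ => F (x ∘ Sum.inr ∘ Sum.inl) * G (x ∘ Sum.map id Sum.inr)) ∈
      Submodule.span ℂ {G : (Ω ⊕ (A ⊕ Z) → ℕ) → ℂ | ∃ T, EqvFrom (Ω := Ω) (Z := A ⊕ Z) g T ∧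
      ∃ v ∈ Sp (Ω := Ω) g, G = T v}) ?_ ?_ ?_ ?_ h1
  · rintro _ ⟨T, hT, v, hv, rfl⟩
    let T' : ((Ω → ℕ) → ℂ) →ₗ[ℂ] ((Ω ⊕ (A ⊕ Z) → ℕ) → ℂ) :=
      LinearMap.pi fun x => F (x ∘ Sum.inr ∘ Sum.inl) •
        (LinearMap.proj (x ∘ Sum.map id Sum.inr) ∘ₗ T)
    refine Submodule.subset_span ⟨T', ?_, v, hv, rfl⟩
    intro v hv g x
    show F _ * T (fun w => v (w ∘ g)) (x ∘ Sum.map id Sum.inr) = F _ * T v _
    rw [hT v hv g]
    have e1 : (x ∘ Perm.sumCongr g (1 : Perm (A ⊕ Z))) ∘ Sum.map id Sum.inr =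
        (x ∘ Sum.map id Sum.inr) ∘ Perm.sumCongr g (1 : Perm Z) := by
      funext y
      rcases y with y | y <;> rfl
    rw [e1]
    rfl
  · simp only [Pi.zero_apply, mul_zero]
    exact Submodule.zero_mem _
  · intro F G _ _ h1 h2
    simp only [Pi.add_apply, mul_add]
    exact Submodule.add_mem _ h1 h2
  · intro a G _ h1
    have := Submodule.smul_mem _ a h1
    refine (congrArg (· ∈ Submodule.span ℂ {G : (Ω ⊕ (A ⊕ Z) → ℕ) → ℂ |
      ∃ T, EqvFrom (Ω := Ω) (Z := A ⊕ Z) g T ∧ ∃ v ∈ Sp (Ω := Ω) g, G = T v}) ?_).mp this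
    funext x
    simp only [Pi.smul_apply, smul_eq_mul]
    ring

end skip

/-- SKIP. -/
theorem GG_skip (V : ValuationSubring ℂ)
    {J : ℕ → Bool} {k : ℕ} {ι ι' κ : Type} [Fintype ι] [Fintype ι']
    {g : ι → ℕ} {d : ι' → ℕ} {h : κ → ℕ} (hJ : J (k + 1) = false)
    (H : GG V J k g d h) : GG V J (k + 1) g d h := by
  intro Ω Z _ _ _ _ hcard p hp hA W _ _ _ σ hσ hE
  have hz : ∀ a, p.1 (Sum.inl a) + p.2 (Sum.inl a) < k := by
    intro a
    have h1 := hp.2 (Sum.inl a)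
    have h2 := hA.1 a
    by_contra h3
    have h4 : p.1 (Sum.inl a) + p.2 (Sum.inl a) = k := by omega
    rw [h4, hJ] at h2
    exact Bool.false_ne_true h2
  obtain ⟨A, Z', _, _, _, _, e, hcB, hcA, hpA, hpB⟩ := splitS (k + 1) k (by omega) hcard p hp hz
  have hA' : Fintype.card A = k + 1 := by nlinarith
  refine GoodT_relabel (Equiv.refl Ω) e _ _ _ _ p σ ?_
  have hrel : relabel (Equiv.refl Ω) σ = σ := by
    ext g w
    rw [relabel_apply]
    rfl
  rw [hrel]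
  set p' : WW (Ω ⊕ (A ⊕ Z')) := res (Equiv.sumCongr (Equiv.refl Ω) e).symm p with hp'
  have hinj : Function.Injective fun a => (p'.1 a, p'.2 a) := by
    intro x y hxy
    exact (Equiv.sumCongr (Equiv.refl Ω) e).symm.injective (hp.1 hxy)
  have hsumA : ∀ a, p'.1 (Sum.inr (Sum.inl a)) + p'.2 (Sum.inr (Sum.inl a)) = k := by
    intro a
    have h1 : k ≤ p'.1 (Sum.inr (Sum.inl a)) + p'.2 (Sum.inr (Sum.inl a)) := hpA a
    have h2 : p'.1 (Sum.inr (Sum.inl a)) + p'.2 (Sum.inr (Sum.inl a)) < k + 1 := hp.2 _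
    omega
  have hS2 : IsStair k (res (Sum.map id Sum.inr : Ω ⊕ Z' → Ω ⊕ (A ⊕ Z')) p') := by
    refine ⟨?_, ?_⟩
    · intro x y hxy
      have hib : Function.Injective (Sum.map id Sum.inr : Ω ⊕ Z' → Ω ⊕ (A ⊕ Z')) :=
        Function.Injective.sumMap Function.injective_id Sum.inr_injective
      exact hib (hinj hxy)
    · rintro (b | z)
      · exact hz b
      · exact hpB z
  have hAd2 : Adm J (res (Sum.map id Sum.inr : Ω ⊕ Z' → Ω ⊕ (A ⊕ Z')) p') :=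
    ⟨fun b => hA.1 b, fun z => hA.2 _⟩
  obtain ⟨X', Y', hX1, hY1, hX2, hY2, hG⟩ := H Ω Z' hcB _ hS2 hAd2 W σ hσ hE
  have hcol : Nonempty (A ≃ Cel (fun _ : Unit => k + 1)) := by
    refine Fintype.card_eq.1 ?_
    rw [Fintype.card_sigma]
    simp [hA']
  obtain ⟨t⟩ := hcol
  have hinj1 : Function.Injective (res (Sum.inr ∘ Sum.inl : A → Ω ⊕ (A ⊕ Z')) p').1 := by
    intro a a' h
    have h1 : p'.1 (Sum.inr (Sum.inl a)) = p'.1 (Sum.inr (Sum.inl a')) := h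
    have h2 : (fun x => (p'.1 x, p'.2 x)) (Sum.inr (Sum.inl a)) =
        (fun x => (p'.1 x, p'.2 x)) (Sum.inr (Sum.inl a')) := by
      have ha := hsumA a
      have ha' := hsumA a'
      simp only [Prod.mk.injEq]
      omega
    exact Sum.inl_injective (Sum.inr_injective (hinj h2))
  have hinj2 : Function.Injective (res (Sum.inr ∘ Sum.inl : A → Ω ⊕ (A ⊕ Z')) p').2 := by
    intro a a' h
    have h1 : p'.2 (Sum.inr (Sum.inl a)) = p'.2 (Sum.inr (Sum.inl a')) := h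
    have h2 : (fun x => (p'.1 x, p'.2 x)) (Sum.inr (Sum.inl a)) =
        (fun x => (p'.1 x, p'.2 x)) (Sum.inr (Sum.inl a')) := by
      have ha := hsumA a
      have ha' := hsumA a'
      simp only [Prod.mk.injEq]
      omega
    exact Sum.inl_injective (Sum.inr_injective (hinj h2))
  have hval : ∀ w : A → ℕ, pt t w = 0 ∨ pt t w = 1 ∨ pt t w = -1 := by
    intro w
    by_cases h : pt t w = 0
    · exact Or.inl h
    · obtain ⟨s, h1, h2⟩ := pt_ne_zero h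
      rw [pt_eq_sign t s h1 h2]
      rcases Int.units_eq_one_or (sign s) with h3 | h3 <;> rw [h3] <;> simp
  have hval0 : ∀ w : A → ℕ, Function.Injective w → (∀ a, w a < k + 1) → pt t w ≠ 0 := by
    intro w hw1 hw2
    have h1 : Good ⊥ (fun _ : Unit => k + 1) ((w, w) : WW A)
        (Representation.trivial ℂ (Perm A) ℂ) :=
      one_good (k + 1) hA' ⊥ (w, w) hw1 hw2 hw1 hw2
    obtain ⟨j, hj1, hj2, hj3, hj4⟩ := h1
    intro h0
    -- all functions of `VV` vanish at `(w, w)`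
    have hvv : ∀ F ∈ VV (Ω := A) (fun _ : Unit => k + 1), F (w, w) = 0 := by
      intro F hF
      refine Submodule.span_induction (p := fun F _ => F (w, w) = 0) ?_ rfl ?_ ?_ hF
      · rintro _ ⟨t₁, t₂, rfl⟩
        have h3 : pt t₁ w = 0 := by
          have e : t₁ = ((t₁.trans t.symm : Perm A).symm.symm).trans t := by
            apply Equiv.ext
            intro x
            show t₁ x = t (t.symm (t₁ x))
            rw [Equiv.apply_symm_apply]
          rw [e, ← pt_comp, pt_col t _ (fun x => rfl), h0, mul_zero]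
        simp only [h3, zero_mul]
      · intro F G _ _ h1 h2
        rw [Pi.add_apply, h1, h2, add_zero]
      · intro a F _ h1
        rw [Pi.smul_apply, h1, smul_zero]
    have h5 : j 1 = 0 := by
      funext x
      have := hj4 1 (fun g => by
        rw [← hj2]
        exact (AddSubgroup.mem_bot).2 (hvv _ (hj3 _))) x
      exact (AddSubgroup.mem_bot).1 this
    exact one_ne_zero (hj1 (h5.trans (map_zero j).symm))
  refine ⟨SkX (Sp (Ω := A) (fun _ : Unit => k + 1)) X', SkX (Sp (Ω := A) (fun _ : Unit => k + 1)) Y',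
    (SkX_le hX1).trans_eq (Sp_stair_succ k), (SkX_le hY1).trans_eq (Sp_stair_succ k),
    SkX_iso _ hX2, SkX_iso _ hY2, ?_⟩
  refine GoodZ_skip (vAdd V) p' (S := Sp (Ω := A) (fun _ : Unit => k + 1))
    (T := Sp (Ω := A) (fun _ : Unit => k + 1)) (X' := X') (Y' := Y')
    (X := SkX (Sp (Ω := A) (fun _ : Unit => k + 1)) X')
    (Y := SkX (Sp (Ω := A) (fun _ : Unit => k + 1)) Y')
    (fun F hF G hG => Submodule.subset_span ⟨F, hF, G, hG, rfl⟩)
    (fun F hF G hG => Submodule.subset_span ⟨F, hF, G, hG, rfl⟩)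
    (fun x => pt t x.1 * pt t x.2) (tmul_mem (pt_mem_Sp t) (pt_mem_Sp t)) ?_ ?_ σ hG
  · intro x
    rcases hval x.1 with e1 | e1 | e1 <;> rcases hval x.2 with e2 | e2 | e2 <;>
      simp [e1, e2]
  · refine mul_ne_zero (hval0 _ hinj1 fun a => ?_) (hval0 _ hinj2 fun a => ?_)
    · have h1 := hsumA a
      show p'.1 (Sum.inr (Sum.inl a)) < k + 1
      omega
    · have h1 := hsumA a
      show p'.2 (Sum.inr (Sum.inl a)) < k + 1
      omega

end Crest.Agent.SY
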