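import Crest.Agent.SY_R3

/-!
# S0298: the type of the two column step, from the one column step (owner: helper61)
-/

set_option autoImplicit false

namespace Crest.Agent.SY

open Equiv Equiv.Perm TensorProduct Crest.Agent.SX

/-- `Unit ⊕ Unit ≃ Bool`, the left point going to `false`. -/
def uu : Unit ⊕ Unit ≃ Bool where
  toFun x := match x with
    | Sum.inl _ => false
    | Sum.inr _ => true
  invFun b := if b then Sum.inr () else Sum.inl ()
  left_inv := by rintro (x | x) <;> rfl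
  right_inv := by rintro (_ | _) <;> rfl

theorem Sp_two {Λ : Type} [Fintype Λ] [DecidableEq Λ] (k : ℕ) :
    Sp (Ω := Λ) (Sum.elim (fun _ : Unit => k + 2) (fun _ : Unit => k + 1)) =
      Sp (Ω := Λ) (two k) := by
  have : (Sum.elim (fun _ : Unit => k + 2) (fun _ : Unit => k + 1)) = two k ∘ uu := by
    funext x
    rcases x with x | x <;> rfl
  rw [this, Sp_reindex]

theorem T2_of_T1 (hT1 : T1Statement) : T2Statement := by
  intro A B Z _ _ _ _ _ _ k hA g hg X' hX hI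
  have e₀ : A ≃ Fin (k + 2) ⊕ Fin (k + 1) := by
    refine Fintype.equivOfCardEq ?_
    rw [hA, Fintype.card_sum, Fintype.card_fin, Fintype.card_fin]
    ring
  have hI1 := hT1 (Fin (k + 1)) B Z k (Fintype.card_fin _) g (by omega) X' hX hI
  have hX1 : UpX (Sp (Ω := Fin (k + 1)) (fun _ : Unit => k + 1)) X' ≤ Sp (stair (k + 1)) :=
    (UpX_le_Sp hX).trans_eq (Sp_stair_succ k)
  have hI2 := hT1 (Fin (k + 2)) (Fin (k + 1) ⊕ B) Z (k + 1) (Fintype.card_fin _)
    (g.col (k + 1)) (by rw [Shp.col_a_zero]; omega) _ hX1 hI1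
  let e : Fin (k + 2) ⊕ (Fin (k + 1) ⊕ B) ≃ A ⊕ B :=
    (Equiv.sumAssoc _ _ _).symm.trans (Equiv.sumCongr e₀.symm (Equiv.refl B))
  have hI3 := IsoI_mapL e (Equiv.refl Z) hI2
  refine IsoI_mono (UpX_le _ hI3.1 ?_) (UpX_stab _ _) hI3
  intro F hF G hG
  rw [← Sp_two] at hF
  -- a fixed tableau
  obtain ⟨t₁⟩ : Nonempty (Fin (k + 2) ≃ Cel (fun _ : Unit => k + 2)) := by
    refine Fintype.card_eq.1 ?_
    rw [Fintype.card_sigma]
    simp
  obtain ⟨t₂⟩ : Nonempty (Fin (k + 1) ≃ Cel (fun _ : Unit => k + 1)) := by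
    refine Fintype.card_eq.1 ?_
    rw [Fintype.card_sigma]
    simp
  let t₀ := e₀.trans (glue t₁ t₂)
  -- the product for the fixed tableau
  have h0 : (fun x : (A ⊕ B) ⊕ Z → ℕ => pt t₀ (x ∘ ia) * G (x ∘ ibz)) ∈
      mapL (Equiv.sumCongr e (Equiv.refl Z))
        (UpX (Sp (Ω := Fin (k + 2)) (fun _ : Unit => k + 2))
          (UpX (Sp (Ω := Fin (k + 1)) (fun _ : Unit => k + 1)) X')) := by
    rw [mem_mapL]
    have h1 := UpX_mul_mem (pt_mem_Sp t₁) (UpX_mul_mem (pt_mem_Sp t₂) hG)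
    refine (congrArg (· ∈ UpX (Sp (Ω := Fin (k + 2)) (fun _ : Unit => k + 2))
          (UpX (Sp (Ω := Fin (k + 1)) (fun _ : Unit => k + 1)) X')) ?_).mp h1
    funext x
    have e1 : pt t₀ ((x ∘ (Equiv.sumCongr e (Equiv.refl Z)).symm) ∘ ia) =
        pt t₁ (x ∘ ia) * pt t₂ ((x ∘ ibz) ∘ ia) := by
      rw [← pt_relabel, pt_glue]
      have e2 : (((x ∘ (Equiv.sumCongr e (Equiv.refl Z)).symm) ∘ ia) ∘ e₀.symm) ∘ Sum.inl =
          x ∘ ia := by
        funext y
        show x (Sum.inl (e.symm (Sum.inl (e₀.symm (Sum.inl y))))) = x (Sum.inl (Sum.inl y))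
        simp [e]
      have e3 : (((x ∘ (Equiv.sumCongr e (Equiv.refl Z)).symm) ∘ ia) ∘ e₀.symm) ∘ Sum.inr =
          (x ∘ ibz) ∘ ia := by
        funext y
        show x (Sum.inl (e.symm (Sum.inl (e₀.symm (Sum.inr y))))) =
          x (Sum.inl (Sum.inr (Sum.inl y)))
        simp [e]
      rw [e2, e3]
    have e4 : ((x ∘ (Equiv.sumCongr e (Equiv.refl Z)).symm) ∘ ibz) = (x ∘ ibz) ∘ ibz := by
      funext y
      rcases y with y | y
      · show x (Sum.inl (e.symm (Sum.inr y))) = x (Sum.inl (Sum.inr (Sum.inr y)))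
        simp [e]
      · rfl
    rw [e1, e4, mul_assoc]
  refine Submodule.span_induction (p := fun F _ =>
    (fun x : (A ⊕ B) ⊕ Z → ℕ => F (x ∘ ia) * G (x ∘ ibz)) ∈
      mapL (Equiv.sumCongr e (Equiv.refl Z))
        (UpX (Sp (Ω := Fin (k + 2)) (fun _ : Unit => k + 2))
          (UpX (Sp (Ω := Fin (k + 1)) (fun _ : Unit => k + 1)) X'))) ?_ ?_ ?_ ?_ hF
  · rintro _ ⟨t, rfl⟩
    have h1 := hI3.1 _ h0 (Perm.sumCongr (t.trans t₀.symm : Perm A).symm 1)
    refine (congrArg (· ∈ mapL (Equiv.sumCongr e (Equiv.refl Z))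
        (UpX (Sp (Ω := Fin (k + 2)) (fun _ : Unit => k + 2))
          (UpX (Sp (Ω := Fin (k + 1)) (fun _ : Unit => k + 1)) X'))) ?_).mp h1
    funext x
    have e5 : (x ∘ Perm.sumCongr (Perm.sumCongr (t.trans t₀.symm : Perm A).symm (1 : Perm B))
        (1 : Perm Z)) ∘ ia = (x ∘ ia) ∘ (t.trans t₀.symm : Perm A).symm := rfl
    have e6 : (x ∘ Perm.sumCongr (Perm.sumCongr (t.trans t₀.symm : Perm A).symm (1 : Perm B))
        (1 : Perm Z)) ∘ ibz = x ∘ ibz := by
      funext y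
      rcases y with y | y <;> rfl
    rw [e5, e6, pt_comp]
    congr 2
    apply Equiv.ext
    intro y
    show t₀ (t₀.symm (t y)) = t y
    rw [Equiv.apply_symm_apply]
  · simp only [Pi.zero_apply, zero_mul]
    exact Submodule.zero_mem _
  · intro F G _ _ h1 h2
    simp only [Pi.add_apply, add_mul]
    exact Submodule.add_mem _ h1 h2
  · intro a F _ h1
    have := Submodule.smul_mem _ a h1
    refine (congrArg (· ∈ mapL (Equiv.sumCongr e (Equiv.refl Z))
        (UpX (Sp (Ω := Fin (k + 2)) (fun _ : Unit => k + 2))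
          (UpX (Sp (Ω := Fin (k + 1)) (fun _ : Unit => k + 1)) X'))) ?_).mp this
    funext x
    simp only [Pi.smul_apply, smul_eq_mul]
    ring

end Crest.Agent.SY
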