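import Crest.Agent.SY_R4

/-!
# S0298: the rule twist, `Der → GG` and the final theorem (owner: helper61)
-/

set_option autoImplicit false

namespace Crest.Agent.SY

open Equiv Equiv.Perm TensorProduct Crest.Agent.SX

/-- The sign twist of the type. -/
def T3Statement : Prop :=
  ∀ (Ω Z : Type) [Fintype Ω] [DecidableEq Ω] [Fintype Z] [DecidableEq Z] (k : ℕ)
    (t₀ : Ω ⊕ Z ≃ Cel (stair k)) (g : Shp) (X : Submodule ℂ ((Ω ⊕ Z → ℕ) → ℂ)),
    X ≤ Sp (stair k) → IsoI g.hf X → IsoI g.tr.hf (X.map (thL t₀))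

/-- The sign twist of an embedded representation. -/
def SgnStatement : Prop :=
  ∀ (Ω W : Type) [Fintype Ω] [DecidableEq Ω] [AddCommGroup W] [Module ℂ W]
    (σ : Representation ℂ (Perm Ω) W) (lam : Shp), Emb σ lam.hf → Emb (sgnTwist σ) lam.tr.hf

/-- Isotypic: maps into `Sp h`. -/
def IsoStatement : Prop :=
  ∀ (Ω Z : Type) [Fintype Ω] [DecidableEq Ω] [Fintype Z] [DecidableEq Z] (k : ℕ) (g : Shp)
    (X : Submodule ℂ ((Ω ⊕ Z → ℕ) → ℂ)), X ≤ Sp (stair k) → IsoI g.hf X → IsoT g.hf X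

/-- Restriction rule for strips. -/
def ResHStatement : Prop :=
  ∀ (lam al : Shp) (k : ℕ), (∀ c, al.a c ≤ lam.a c) → (∀ c, lam.a c ≤ al.a c + 1) →
    lam.size = al.size + (k + 1) → ResH lam.hf al.hf (k + 1)

/-- Restriction rule for two columns. -/
def ResPStatement : Prop :=
  ∀ (lam al : Shp) (k : ℕ), (∀ c, al.a c ≤ lam.a c) → (∀ c, lam.a c ≤ al.a c + 4) →
    lam.size = al.size + (2 * k + 3) → ResP lam.hf al.hf k

/-- Completeness of the Specht modules. -/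
def ComplStatement : Prop :=
  ∀ (Ω W : Type) [Fintype Ω] [DecidableEq Ω] [AddCommGroup W] [Module ℂ W] [FiniteDimensional ℂ W]
    (σ : Representation ℂ (Perm Ω) W), σ.IsIrreducible →
    ∃ lam : Shp, lam.size = Fintype.card Ω ∧ Emb σ lam.hf

theorem th_stab {Ω Z : Type} [Fintype Ω] [DecidableEq Ω] [Fintype Z] [DecidableEq Z] {k : ℕ}
    (t₀ : Ω ⊕ Z ≃ Cel (stair k)) (X : Submodule ℂ ((Ω ⊕ Z → ℕ) → ℂ)) :
    X.map (thL t₀) ≤ Sp (stair k) := by
  rintro _ ⟨F, hF, rfl⟩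
  exact th_mem t₀ F

/-- TWIST. -/
theorem GG_twist (hT3 : T3Statement) (hS : SgnStatement) (V : ValuationSubring ℂ)
    (hV : (2 : ℂ)⁻¹ ∉ V) {J : ℕ → Bool} {k : ℕ} {g d lam : Shp}
    (H : GG V J k g.hf d.hf lam.hf) : GG V J k g.hf d.tr.hf lam.tr.hf := by
  intro Ω Z _ _ _ _ hcard p hp hA W _ _ _ σ hσ hE
  obtain ⟨t₀⟩ : Nonempty (Ω ⊕ Z ≃ Cel (stair k)) := by
    refine Fintype.card_eq.1 ?_
    rw [Fintype.card_sum]
    have := card_stair k
    omega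
  obtain ⟨X, Y, hX1, hY1, hX2, hY2, hG⟩ := H Ω Z hcard p hp hA W (sgnTwist σ)
    (sgnTwist_irr σ hσ) (by have := hS Ω W σ lam.tr hE; rwa [Shp.tr_tr] at this)
  refine ⟨X, Y.map (thL t₀), hX1, th_stab t₀ Y, hX2, hT3 Ω Z k t₀ d Y hY1 hY2, ?_⟩
  have h1 := GoodZ_twist V hV t₀ p X Y hX1 hY1 (sgnTwist σ) hG
  rwa [sgnTwist_sgnTwist] at h1

theorem GG_twist' (hT3 : T3Statement) (hS : SgnStatement) (V : ValuationSubring ℂ)
    (hV : (2 : ℂ)⁻¹ ∉ V) {J : ℕ → Bool} {k : ℕ} {g d lam : Shp}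
    (H : GG V J k g.hf d.hf lam.hf) : GG V J k g.tr.hf d.hf lam.tr.hf :=
  GG_swap (GG_twist hT3 hS V hV (GG_swap H))

/-- The types at stage `k` fit in the staircase. -/
theorem Der_bounds {J : ℕ → Bool} {k : ℕ} {g g' lam : Shp} (h : Der J k g g' lam) :
    (g.a 0 ≤ k ∧ g.b 0 ≤ k) ∧ (g'.a 0 ≤ k ∧ g'.b 0 ≤ k) := by
  have key : ∀ (g : Shp) (k : ℕ), g.a 0 ≤ k ∧ g.b 0 ≤ k →
      (g.col (k + 1)).a 0 ≤ k + 1 ∧ (g.col (k + 1)).b 0 ≤ k + 1 := by
    rintro g k ⟨h1, h2⟩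
    refine ⟨by rw [Shp.col_a_zero], ?_⟩
    rw [Shp.col_b, if_pos (by omega)]
    omega
  induction h with
  | saxl k lam hJ hs => exact ⟨⟨by simp [Shp.st], by simp [Shp.st]⟩, by simp [Shp.st], by simp [Shp.st]⟩
  | skip k g g' lam hJ h ih =>
    obtain ⟨⟨h1, h2⟩, h3, h4⟩ := ih
    exact ⟨⟨by omega, by omega⟩, by omega, by omega⟩
  | strip k g g' lam al hJ h h1 h2 hs ih => exact ⟨key g k ih.1, key g' k ih.2⟩
  | path k g g' lam al hJ1 hJ2 h h1 h2 hs ih =>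
    exact ⟨key _ (k + 1) (key g k ih.1), key _ (k + 1) (key g' k ih.2)⟩
  | twist k g g' lam h ih => exact ⟨ih.1, ih.2.2, ih.2.1⟩
  | twist' k g g' lam h ih => exact ⟨⟨ih.1.2, ih.1.1⟩, ih.2⟩

/-- The sizes. -/
theorem Der_size {J : ℕ → Bool} {k : ℕ} {g g' lam : Shp} (h : Der J k g g' lam) :
    lam.size = ∑ j ∈ Finset.range k, if J (j + 1) = true then j + 1 else 0 := by
  induction h with
  | saxl k lam hJ hs =>
    have h1 : (∑ j ∈ Finset.range k, if J (j + 1) = true then j + 1 else 0) =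
        ∑ j ∈ Finset.range k, (j + 1) := by
      refine Finset.sum_congr rfl fun j hj => ?_
      rw [Finset.mem_range] at hj
      rw [if_pos (hJ (j + 1) (by omega) (by omega))]
    have h2 : ∀ k, 2 * ∑ j ∈ Finset.range k, (j + 1) = k * (k + 1) := by
      intro k
      induction k with
      | zero => rfl
      | succ k ih =>
        rw [Finset.sum_range_succ, mul_add, ih]
        ring
    have h3 := h2 k
    rw [h1]
    omega
  | skip k g g' lam hJ h ih =>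
    rw [Finset.sum_range_succ, ← ih, hJ]
    simp
  | strip k g g' lam al hJ h h1 h2 hs ih =>
    rw [Finset.sum_range_succ, ← ih, if_pos hJ, hs]
  | path k g g' lam al hJ1 hJ2 h h1 h2 hs ih =>
    rw [Finset.sum_range_succ, Finset.sum_range_succ, ← ih, if_pos hJ1, if_pos hJ2, hs]
    ring
  | twist k g g' lam h ih => rw [Shp.size_tr, ih]
  | twist' k g g' lam h ih => rw [Shp.size_tr, ih]

/-- The staircase. -/
theorem st_reindex {Λ : Type} [Fintype Λ] [DecidableEq Λ] (k : ℕ) :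
    ∃ e : Fin ((Shp.st k).b 0) ≃ Fin k, (Shp.st k).hf = stair k ∘ e := by
  have h0 : (Shp.st k).b 0 = k := by simp [Shp.st]
  refine ⟨(finCongr h0).trans Fin.revPerm, ?_⟩
  funext c
  have hc : (c : ℕ) < k := lt_of_lt_of_eq c.2 h0
  show k - (c : ℕ) = ((Fin.revPerm (finCongr h0 c) : Fin k) : ℕ) + 1
  rw [Fin.revPerm_apply, Fin.val_rev]
  show k - (c : ℕ) = k - ((c : ℕ) + 1) + 1
  omega

/-- SOUNDNESS OF THE DERIVATIONS. -/
theorem GG_of_Der (hT1 : T1Statement) (hT3 : T3Statement) (hS : SgnStatement)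
    (hH : ResHStatement) (hP : ResPStatement) (V : ValuationSubring ℂ) (hV : (2 : ℂ)⁻¹ ∉ V)
    {J : ℕ → Bool} {k : ℕ} {g g' lam : Shp} (h : Der J k g g' lam) :
    GG V J k g.hf g'.hf lam.hf := by
  induction h with
  | saxl k lam hJ hs =>
    obtain ⟨e, he⟩ := st_reindex (Λ := Unit) k
    intro Ω Z _ _ _ _ hcard p hp hA W _ _ _ σ hσ hE
    obtain ⟨X, Y, h1, h2, h3, h4, h5⟩ := GG_core V hV J k hJ lam.hf Ω Z hcard p hp hA W σ hσ hE
    refine ⟨X, Y, h1, h2, ?_, ?_, h5⟩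
    · rw [he]
      exact IsoI_reindex e h3
    · rw [he]
      exact IsoI_reindex e h4
  | skip k g g' lam hJ h ih => exact GG_skip V hJ ih
  | strip k g g' lam al hJ h h1 h2 hs ih =>
    have hb := Der_bounds h
    exact GG_strip hT1 V hV hb.1.1 hb.2.1 (hH lam al k h1 h2 hs) hJ ih
  | path k g g' lam al hJ1 hJ2 h h1 h2 hs ih =>
    have hb := Der_bounds h
    exact GG_path (T2_of_T1 hT1) V hV hb.1.1 hb.2.1 (hP lam al k h1 h2 hs) hJ1 hJ2 ih
  | twist k g g' lam h ih => exact GG_twist hT3 hS V hV ih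
  | twist' k g g' lam h ih => exact GG_twist' hT3 hS V hV ih

end Crest.Agent.SY
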