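import Crest.Agent.SY_R5

/-!
# S0298: the final theorem from the derivations (owner: helper61)
-/

set_option autoImplicit false

namespace Crest.Agent.SY

open Equiv Equiv.Perm TensorProduct Crest.Agent.SX

/-- The conclusion of S0298 for `n`. -/
def Concl (n : ℕ) : Prop :=
  ∃ (V : Type) (_ : AddCommGroup V) (_ : Module ℂ V) (_ : FiniteDimensional ℂ V)
      (ρ : Representation ℂ (Equiv.Perm (Fin n)) V), Representation.IsIrreducible ρ ∧
      ∀ (W : Type) [AddCommGroup W] [Module ℂ W] [FiniteDimensional ℂ W]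
        (σ : Representation ℂ (Equiv.Perm (Fin n)) W), Representation.IsIrreducible σ →
        Nontrivial (Representation.IntertwiningMap σ (Representation.tprod ρ ρ))

theorem nontrivial_of_irr {G W : Type} [Group G] [AddCommGroup W] [Module ℂ W]
    (σ : Representation ℂ G W) (hσ : σ.IsIrreducible) : Nontrivial W := by
  by_contra hn
  rw [not_nontrivial_iff_subsingleton] at hn
  have h1 := hσ
  have h2 : (⊥ : Subrepresentation σ) ≠ ⊤ := bot_ne_top
  apply h2
  apply SetLike.ext
  intro x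
  have hx : x = 0 := Subsingleton.elim _ _
  subst hx
  constructor
  · intro _; trivial
  · intro _; exact Submodule.zero_mem (⊥ : Subrepresentation σ).toSubmodule

/-- From an injective equivariant map into the tensor square to the intertwining map. -/
theorem nontrivial_of_psi {n : ℕ} {U W : Type} [AddCommGroup U] [Module ℂ U] [AddCommGroup W]
    [Module ℂ W] (σ : Representation ℂ (Perm (Fin n)) W) (hσ : σ.IsIrreducible)
    (ρ : Representation ℂ (Perm (Fin n)) U) (Ψ : W →ₗ[ℂ] U ⊗[ℂ] U) (h1 : Function.Injective Ψ)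
    (h2 : ∀ g w, Ψ (σ g w) = Representation.tprod ρ ρ g (Ψ w)) :
    Nontrivial (Representation.IntertwiningMap σ (Representation.tprod ρ ρ)) := by
  have := nontrivial_of_irr σ hσ
  let Ψ' : Representation.IntertwiningMap σ (Representation.tprod ρ ρ) :=
    { toLinearMap := Ψ
      isIntertwining' := by
        intro g
        ext w
        exact h2 g w }
  refine ⟨⟨Ψ', 0, fun h0 => ?_⟩⟩
  obtain ⟨w, hw⟩ := exists_ne (0 : W)
  have h3 : Ψ w = 0 := by
    have := congrArg (fun f : Representation.IntertwiningMap σ _ => f w) h0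
    exact this
  exact hw (h1 (by rw [h3, map_zero]))

/-- The boxes of the staircase. -/
abbrev Bx (k : ℕ) : Type := {x : Fin k × Fin k // (x.1 : ℕ) + x.2 < k}

theorem card_fib (k : ℕ) (J : ℕ → Bool) :
    Fintype.card {x : Bx k // J ((x.1.1 : ℕ) + x.1.2 + 1) = true} =
      ∑ j ∈ Finset.range k, if J (j + 1) = true then j + 1 else 0 := by
  classical
  have e : {x : Bx k // J ((x.1.1 : ℕ) + x.1.2 + 1) = true} ≃
      Σ j : {j : Fin k // J ((j : ℕ) + 1) = true}, Fin ((j.1 : ℕ) + 1) :=
    { toFun := fun x => ⟨⟨⟨(x.1.1.1 : ℕ) + x.1.1.2, x.1.2⟩, x.2⟩,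
        ⟨(x.1.1.1 : ℕ), by show (x.1.1.1 : ℕ) < (x.1.1.1 : ℕ) + x.1.1.2 + 1; omega⟩⟩
      invFun := fun y => ⟨⟨(⟨(y.2 : ℕ), by have := y.2.2; have := y.1.1.2; omega⟩,
        ⟨(y.1.1 : ℕ) - y.2, by have := y.1.1.2; omega⟩), by
          have := y.2.2; have := y.1.1.2; show (y.2 : ℕ) + ((y.1.1 : ℕ) - y.2) < k; omega⟩, by
          have h2 := y.2.2
          have h3 := y.1.2
          have : (y.2 : ℕ) + ((y.1.1 : ℕ) - y.2) = y.1.1 := by omega
          show J ((y.2 : ℕ) + ((y.1.1 : ℕ) - y.2) + 1) = true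
          rw [this]
          exact h3⟩
      left_inv := by
        rintro ⟨⟨⟨a, b⟩, h⟩, h'⟩
        apply Subtype.ext
        apply Subtype.ext
        apply Prod.ext
        · rfl
        · apply Fin.ext
          show (a : ℕ) + b - a = b
          omega
      right_inv := by
        rintro ⟨⟨⟨j, hj⟩, hJ⟩, ⟨a, ha⟩⟩
        have ha' : a < j + 1 := ha
        have h1 : a + (j - a) = j := by omega
        refine Sigma.ext ?_ ?_
        · apply Subtype.ext
          apply Fin.ext
          exact h1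
        · have : ∀ (m m' : ℕ) (hm : m = m') (h1 : a < m) (h2 : a < m'),
              HEq (⟨a, h1⟩ : Fin m) (⟨a, h2⟩ : Fin m') := by
            intro m m' hm h1 h2
            subst hm
            rfl
          exact this _ _ (by show a + (j - a) + 1 = j + 1; omega) _ _ }
  rw [Fintype.card_congr e, Fintype.card_sigma]
  simp only [Fintype.card_fin]
  rw [← Fin.sum_univ_eq_sum_range (fun j => if J (j + 1) = true then j + 1 else 0) k,
    ← Finset.sum_filter]
  exact (Finset.sum_subtype _ (by simp) (fun j : Fin k => (j : ℕ) + 1)).symm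

theorem card_Bx (k : ℕ) : 2 * Fintype.card (Bx k) = k * (k + 1) := by
  have h1 := card_fib k (fun _ => true)
  have h2 : Fintype.card {x : Bx k // (fun _ => true) ((x.1.1 : ℕ) + x.1.2 + 1) = true} =
      Fintype.card (Bx k) := by
    refine Fintype.card_congr (Equiv.subtypeUnivEquiv fun _ => rfl)
  rw [← h2, h1]
  have h3 : ∀ k, 2 * ∑ j ∈ Finset.range k, (j + 1) = k * (k + 1) := by
    intro k
    induction k with
    | zero => rfl
    | succ k ih =>
      rw [Finset.sum_range_succ, mul_add, ih]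
      ring
  simpa using h3 k

/-- The size of `col`. -/
theorem size_col' (g : Shp) (k : ℕ) (hg : g.a 0 ≤ k) : (g.col k).size = g.size + k := by
  rw [Shp.size_eq_sum (g.col k) (g.b 0 + 1) ?_, Finset.sum_range_succ']
  · have h1 : ∀ c, (g.col k).a (c + 1) = g.a c := fun c => by
      rw [Shp.col_a_succ, min_eq_left]
      exact (g.anti (Nat.zero_le c)).trans hg
    simp only [h1, Shp.col_a_zero]
    rfl
  · rw [Shp.col_b]
    split_ifs <;> omega

theorem Der_gsize {J : ℕ → Bool} {k : ℕ} {g g' lam : Shp} (h : Der J k g g' lam) :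
    g.size = lam.size ∧ g'.size = lam.size := by
  have hst : ∀ k, 2 * (Shp.st k).size = k * (k + 1) := by
    intro k
    have h1 := card_stair k
    obtain ⟨e, he⟩ := st_reindex (Λ := Unit) k
    have h2 : Fintype.card (Cel (stair k)) = (Shp.st k).size := by
      rw [Fintype.card_sigma, ← Shp.sum_hf, he]
      simp only [Fintype.card_fin, Function.comp_apply]
      exact (Equiv.sum_comp e (stair k)).symm
    rw [← h2, h1]
  induction h with
  | saxl k lam hJ hs =>
    have := hst k
    constructor <;> omega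
  | skip k g g' lam hJ h ih => exact ih
  | strip k g g' lam al hJ h h1 h2 hs ih =>
    have hb := Der_bounds h
    rw [size_col' g _ (by omega), size_col' g' _ (by omega), ih.1, ih.2]
    exact ⟨hs.symm, hs.symm⟩
  | path k g g' lam al hJ1 hJ2 h h1 h2 hs ih =>
    have hb := Der_bounds h
    rw [size_col' (g.col (k + 1)) _ (by rw [Shp.col_a_zero]; omega),
      size_col' (g'.col (k + 1)) _ (by rw [Shp.col_a_zero]; omega),
      size_col' g _ (by omega), size_col' g' _ (by omega), ih.1, ih.2, hs]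
    constructor <;> ring
  | twist k g g' lam h ih => rw [Shp.size_tr, Shp.size_tr]; exact ih
  | twist' k g g' lam h ih => rw [Shp.size_tr, Shp.size_tr]; exact ih

/-- FINAL THEOREM. -/
theorem Concl_of_Der (hT1 : T1Statement) (hT3 : T3Statement) (hS : SgnStatement)
    (hH : ResHStatement) (hP : ResPStatement) (hI : IsoStatement) (hC : ComplStatement)
    (n k : ℕ) (J : ℕ → Bool) (g : Shp) (H : ∀ lam : Shp, lam.size = n → Der J k g g lam) :
    Concl n := by
  classical
  obtain ⟨V, hV⟩ := exists_val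
  have h0 : ((Shp.empty).col n).size = n := by
    rw [size_col' _ _ (Nat.zero_le _)]
    show 0 + n = n
    omega
  have hD := H _ h0
  have hsize := Der_size hD
  have hgsize := (Der_gsize hD).1
  rw [h0] at hsize hgsize
  obtain ⟨eΩ⟩ : Nonempty (Fin n ≃ {x : Bx k // J ((x.1.1 : ℕ) + x.1.2 + 1) = true}) := by
    refine Fintype.card_eq.1 ?_
    rw [card_fib, ← hsize, Fintype.card_fin]
  obtain ⟨eg⟩ : Nonempty (Fin n ≃ Cel g.hf) := by
    refine Fintype.card_eq.1 ?_
    rw [Fintype.card_sigma, Fintype.card_fin]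
    simp only [Fintype.card_fin]
    rw [Shp.sum_hf, hgsize]
  let Z : Type := {x : Bx k // ¬ J ((x.1.1 : ℕ) + x.1.2 + 1) = true}
  let p : WW (Fin n ⊕ Z) :=
    (Sum.elim (fun i => ((eΩ i).1.1.1 : ℕ)) (fun z => (z.1.1.1 : ℕ)),
      Sum.elim (fun i => ((eΩ i).1.1.2 : ℕ)) (fun z => (z.1.1.2 : ℕ)))
  have hcard : 2 * (Fintype.card (Fin n) + Fintype.card Z) = k * (k + 1) := by
    rw [← card_Bx k, Fintype.card_congr eΩ]
    congr 1
    rw [← Fintype.card_sum]
    exact Fintype.card_congr (Equiv.sumCompl _)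
  have hinj0 : ∀ x y : Bx k, (x.1.1 : ℕ) = y.1.1 → (x.1.2 : ℕ) = y.1.2 → x = y := by
    intro x y h1 h2
    apply Subtype.ext
    apply Prod.ext
    · exact Fin.ext h1
    · exact Fin.ext h2
  have hp : IsStair k p := by
    constructor
    · rintro (x | x) (y | y) hxy
      · have h1 := hinj0 (eΩ x).1 (eΩ y).1 (Prod.mk.inj hxy).1 (Prod.mk.inj hxy).2
        rw [eΩ.injective (Subtype.ext h1)]
      · have h1 := hinj0 (eΩ x).1 y.1 (Prod.mk.inj hxy).1 (Prod.mk.inj hxy).2
        exact absurd (h1 ▸ (eΩ x).2) y.2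
      · have h1 := hinj0 x.1 (eΩ y).1 (Prod.mk.inj hxy).1 (Prod.mk.inj hxy).2
        exact absurd (h1 ▸ (eΩ y).2) x.2
      · have h1 := hinj0 x.1 y.1 (Prod.mk.inj hxy).1 (Prod.mk.inj hxy).2
        rw [Subtype.ext h1]
    · rintro (x | x)
      · exact (eΩ x).1.2
      · exact x.1.2
  have hA : Adm J p := by
    refine ⟨fun a => (eΩ a).2, fun z => ?_⟩
    have := z.2
    rwa [Bool.not_eq_true] at this
  have hirr : (SpRep (Fin n) g.hf).IsIrreducible := Sp_irr ⟨eg⟩
  refine ⟨Sp (Ω := Fin n) g.hf, inferInstance, inferInstance, inferInstance, SpRep (Fin n) g.hf,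
    hirr, ?_⟩
  intro W _ _ _ σ hσ
  obtain ⟨lam, hlam, hE⟩ := hC (Fin n) W σ hσ
  rw [Fintype.card_fin] at hlam
  have hGG := GG_of_Der hT1 hT3 hS hH hP V hV (H lam hlam)
  obtain ⟨X, Y, hX1, hY1, hX2, hY2, hG⟩ := hGG (Fin n) Z hcard p hp hA W σ hσ hE
  obtain ⟨Ψ, h1, h2⟩ := GoodZ_intertwine (hI _ _ k g X hX1 hX2) (hI _ _ k g Y hY1 hY2) σ hσ hG
  exact nontrivial_of_psi σ hσ (SpRep (Fin n) g.hf) Ψ h1 h2

end Crest.Agent.SY
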