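import Crest.Agent.SY_R6
import Crest.Agent.SY_P5
import Crest.Agent.SY_P6
import Crest.Agent.SY_P8
import Crest.Agent.SY_P10

/-!
# S0298: glue: `T1Statement`, `T3Statement`, `SgnStatement`, `IsoStatement`, `ComplStatement`
(owner: helper61)
-/

set_option autoImplicit false

namespace Crest.Agent.SY

open Equiv Equiv.Perm TensorProduct Crest.Agent.SX

theorem t1Statement : T1Statement := by
  intro A B Z _ _ _ _ _ _ k hA g hg X hX hI
  have h1 := IsoI_col (A := A) k (h := g.hf)
    (fun i => (g.anti (Nat.zero_le _)).trans hg) X hX hI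
  refine ⟨h1.1, fun F hF => ?_⟩
  unfold EqvFrom
  rw [← Sp_col (k + 1) (by omega) g hg]
  exact h1.2 F hF

theorem isoStatement : IsoStatement := by
  intro Ω Z _ _ _ _ k g X hX hI
  exact IsoT_of_IsoI k X hX hI

theorem complStatement : ComplStatement := by
  intro Ω W _ _ _ _ _ σ hσ
  have := nontrivial_of_irr σ hσ
  obtain ⟨S, f, h1, h2, h3, h4⟩ := completeness_shp σ hσ
  exact ⟨S, h1, f, h2, h3, h4⟩

theorem Sp_eq_bot {Ω : Type} [Fintype Ω] [DecidableEq Ω] (S : Shp)
    (hΩ : Fintype.card Ω ≠ S.size) : Sp (Ω := Ω) S.hf = ⊥ := by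
  have hne : IsEmpty (Ω ≃ Cel S.hf) := by
    constructor
    intro e
    apply hΩ
    rw [Fintype.card_congr e, Fintype.card_sigma]
    simp only [Fintype.card_fin]
    exact S.sum_hf
  unfold Sp
  rw [Set.range_eq_empty, Submodule.span_empty]

theorem sgnStatement : SgnStatement := by
  intro Ω W _ _ _ _ σ lam hE
  obtain ⟨f, h1, h2, h3⟩ := hE
  by_cases hΩ : Fintype.card Ω = lam.size
  · exact emb_twist lam hΩ σ f h1 h2 h3
  · have hbot := Sp_eq_bot lam hΩ
    refine ⟨0, ?_, fun g w x => rfl, fun w => Submodule.zero_mem _⟩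
    intro w w' _
    apply h1
    have e1 := h3 w
    have e2 := h3 w'
    rw [hbot, Submodule.mem_bot] at e1 e2
    rw [e1, e2]

theorem t3Statement : T3Statement := by
  intro Ω Z _ _ _ _ k t₀ g X hX hI
  by_cases hΩ : Fintype.card Ω = g.size
  · exact IsoI_tr g hΩ t₀ X hI
  · have hbot := Sp_eq_bot g hΩ
    have hX0 : X = ⊥ := by
      rw [eq_bot_iff]
      intro F hF
      have h1 := hI.2 F hF
      have h2 : Submodule.span ℂ {G : (Ω ⊕ Z → ℕ) → ℂ |
          ∃ T, EqvFrom (Ω := Ω) (Z := Z) g.hf T ∧ ∃ v ∈ Sp (Ω := Ω) g.hf, G = T v} ≤ ⊥ := by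
        refine Submodule.span_le.2 ?_
        rintro _ ⟨T, -, v, hv, rfl⟩
        rw [hbot, Submodule.mem_bot] at hv
        rw [hv, map_zero]
        exact Submodule.zero_mem _
      exact h2 h1
    rw [hX0, Submodule.map_bot]
    refine ⟨fun F hF g => ?_, fun F hF => ?_⟩
    · rw [Submodule.mem_bot] at hF
      rw [hF]
      exact Submodule.zero_mem _
    · rw [Submodule.mem_bot] at hF
      rw [hF]
      exact Submodule.zero_mem _

end Crest.Agent.SY
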