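import Crest.Agent.SY_R7
import Crest.Agent.SY_P11

/-!
# S0298: glue: restriction rules, final theorem for `Der` (owner: helper61)
-/

set_option autoImplicit false

namespace Crest.Agent.SY

open Equiv Equiv.Perm TensorProduct Crest.Agent.SX

theorem card_of_Emb {Ω W : Type} [Fintype Ω] [DecidableEq Ω] [AddCommGroup W] [Module ℂ W]
    (σ : Representation ℂ (Perm Ω) W) (hσ : σ.IsIrreducible) (lam : Shp) (hE : Emb σ lam.hf) :
    Fintype.card Ω = lam.size := by
  by_contra hΩ
  have hbot := Sp_eq_bot lam hΩ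
  have := nontrivial_of_irr σ hσ
  obtain ⟨w, hw⟩ := exists_ne (0 : W)
  obtain ⟨f, h1, -, h3⟩ := hE
  have h4 := h3 w
  rw [hbot, Submodule.mem_bot] at h4
  exact hw (h1 (by rw [h4, map_zero]))

theorem resHStatement : ResHStatement := by
  intro lam al k h1 h2 hs A B _ _ _ _ hA W _ _ _ σ hσ hE
  have hc := card_of_Emb σ hσ lam hE
  rw [Fintype.card_sum] at hc
  have := nontrivial_of_irr σ hσ
  obtain ⟨w, hw⟩ := exists_ne (0 : W)
  obtain ⟨f, hf1, hf2, hf3⟩ := hE
  exact strip_F lam al h1 h2 (by omega) (by omega) σ f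
    (fun h0 => hw (hf1 (by rw [h0]; rfl))) hf2 hf3

theorem resPStatement : ResPStatement := by
  intro lam al k h1 h2 hs A B _ _ _ _ hA W _ _ _ σ hσ hE
  have hc := card_of_Emb σ hσ lam hE
  rw [Fintype.card_sum] at hc
  have := nontrivial_of_irr σ hσ
  obtain ⟨w, hw⟩ := exists_ne (0 : W)
  obtain ⟨f, hf1, hf2, hf3⟩ := hE
  exact path_F k hA lam al h1 h2 (by omega) (by omega) σ f
    (fun h0 => hw (hf1 (by rw [h0]; rfl))) hf2 hf3

/-- SOUNDNESS: if every partition of `n` is derivable in a type `(g, g)`, then the conclusion of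
S0298 holds for `n`. -/
theorem Concl_of_Der' (n k : ℕ) (J : ℕ → Bool) (g : Shp)
    (H : ∀ lam : Shp, lam.size = n → Der J k g g lam) : Concl n :=
  Concl_of_Der t1Statement t3Statement sgnStatement resHStatement resPStatement isoStatement
    complStatement n k J g H

end Crest.Agent.SY
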