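import Crest.Agent.SY_G
import Crest.Agent.SX_Main

/-!
# S0298: spectator letters (owner: helper61)

`Ω` is the set of moved letters, `Z` the set of spectator letters, words are functions
`Ω ⊕ Z → ℕ`, and `g : Perm Ω` acts by `pull (sumCongr g 1)`.

* `Tens X Y`: span of the functions `x ↦ F x.1 * G x.2`, `F ∈ X`, `G ∈ Y`.
* `StabZ X`: `X` is stable under `Perm Ω`.
* `GoodZ R X Y p σ`: the analogue of `Good` with values in `Tens X Y`.
-/

set_option autoImplicit false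

namespace Crest.Agent.SY

open Equiv Equiv.Perm TensorProduct Crest.Agent.SX

/-- Span of the products `F ⊗ G`. -/
def Tens {Λ : Type} (X Y : Submodule ℂ ((Λ → ℕ) → ℂ)) : Submodule ℂ (WW Λ → ℂ) :=
  Submodule.span ℂ {T | ∃ F ∈ X, ∃ G ∈ Y, T = fun x => F x.1 * G x.2}

/-- Stability under the permutations of the moved letters. -/
def StabZ {Ω Z : Type} (X : Submodule ℂ ((Ω ⊕ Z → ℕ) → ℂ)) : Prop :=
  ∀ F ∈ X, ∀ g : Perm Ω, (fun x => F (x ∘ Perm.sumCongr g (1 : Perm Z))) ∈ X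

/-- `Good` with spectator letters. -/
def GoodZ (R : AddSubgroup ℂ) {Ω Z : Type} (X Y : Submodule ℂ ((Ω ⊕ Z → ℕ) → ℂ))
    (p : WW (Ω ⊕ Z)) {W : Type} [AddCommGroup W] [Module ℂ W]
    (σ : Representation ℂ (Perm Ω) W) : Prop :=
  ∃ j : W →ₗ[ℂ] (WW (Ω ⊕ Z) → ℂ), Function.Injective j ∧
    (∀ g w x, j (σ g w) x = j w (pull (Perm.sumCongr g 1) x)) ∧
    (∀ w, j w ∈ Tens X Y) ∧
    ∀ w, (∀ g, j w (pull (Perm.sumCongr g 1) p) ∈ R) → ∀ x, j w x ∈ R

theorem tmul_mem {Λ : Type} {X Y : Submodule ℂ ((Λ → ℕ) → ℂ)} {F G : (Λ → ℕ) → ℂ} (hF : F ∈ X)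
    (hG : G ∈ Y) : (fun x : WW Λ => F x.1 * G x.2) ∈ Tens X Y :=
  Submodule.subset_span ⟨F, hF, G, hG, rfl⟩

theorem Tens_mono {Λ : Type} {X Y X' Y' : Submodule ℂ ((Λ → ℕ) → ℂ)} (hX : X ≤ X') (hY : Y ≤ Y') :
    Tens X Y ≤ Tens X' Y' := by
  refine Submodule.span_mono ?_
  rintro _ ⟨F, hF, G, hG, rfl⟩
  exact ⟨F, hX hF, G, hY hG, rfl⟩

theorem VV_eq_Tens {Ω ι : Type} [Fintype Ω] [DecidableEq Ω] (h : ι → ℕ) :
    VV (Ω := Ω) h ≤ Tens (Sp (Ω := Ω) h) (Sp (Ω := Ω) h) := by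
  refine Submodule.span_le.2 ?_
  rintro _ ⟨t, t', rfl⟩
  exact tmul_mem (pt_mem_Sp t) (pt_mem_Sp t')

theorem Tens_le_VV {Ω ι : Type} [Fintype Ω] [DecidableEq Ω] (h : ι → ℕ) :
    Tens (Sp (Ω := Ω) h) (Sp (Ω := Ω) h) ≤ VV (Ω := Ω) h := by
  refine Submodule.span_le.2 ?_
  rintro _ ⟨F, hF, G, hG, rfl⟩
  refine Submodule.span_induction
    (p := fun F _ => (fun x : WW Ω => F x.1 * G x.2) ∈ VV (Ω := Ω) h) ?_ ?_ ?_ ?_ hF
  · rintro _ ⟨t, rfl⟩
    refine Submodule.span_induction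
      (p := fun G _ => (fun x : WW Ω => pt t x.1 * G x.2) ∈ VV (Ω := Ω) h) ?_ ?_ ?_ ?_ hG
    · rintro _ ⟨t', rfl⟩
      exact gen_mem_VV t t'
    · simp only [Pi.zero_apply, mul_zero]
      exact Submodule.zero_mem _
    · intro F G _ _ h1 h2
      simp only [Pi.add_apply, mul_add]
      exact Submodule.add_mem _ h1 h2
    · intro a F _ h1
      have e : (fun x : WW Ω => pt t x.1 * (a • F) x.2) =
          a • fun x : WW Ω => pt t x.1 * F x.2 := by
        ext x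
        simp only [Pi.smul_apply, smul_eq_mul]
        ring
      rw [e]
      exact Submodule.smul_mem _ a h1
  · simp only [Pi.zero_apply, zero_mul]
    exact Submodule.zero_mem _
  · intro F G _ _ h1 h2
    simp only [Pi.add_apply, add_mul]
    exact Submodule.add_mem _ h1 h2
  · intro a F _ h1
    have e : (fun x : WW Ω => (a • F) x.1 * G x.2) = a • fun x : WW Ω => F x.1 * G x.2 := by
      ext x
      simp only [Pi.smul_apply, smul_eq_mul]
      ring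
    rw [e]
    exact Submodule.smul_mem _ a h1

/-- Products over two disjoint sets of letters. `a : A → Λ`, `b : B → Λ` are the inclusions. -/
theorem Tens_mul {A B Λ : Type} (a : A → Λ) (b : B → Λ)
    {S T : Submodule ℂ ((A → ℕ) → ℂ)} {X Y : Submodule ℂ ((B → ℕ) → ℂ)}
    {X' Y' : Submodule ℂ ((Λ → ℕ) → ℂ)}
    (hX : ∀ F ∈ S, ∀ G ∈ X, (fun x : Λ → ℕ => F (x ∘ a) * G (x ∘ b)) ∈ X')
    (hY : ∀ F ∈ T, ∀ G ∈ Y, (fun x : Λ → ℕ => F (x ∘ a) * G (x ∘ b)) ∈ Y')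
    {P : WW A → ℂ} {Q : WW B → ℂ} (hP : P ∈ Tens S T) (hQ : Q ∈ Tens X Y) :
    (fun x : WW Λ => P (x.1 ∘ a, x.2 ∘ a) * Q (x.1 ∘ b, x.2 ∘ b)) ∈ Tens X' Y' := by
  refine Submodule.span_induction (p := fun P _ =>
    (fun x : WW Λ => P (x.1 ∘ a, x.2 ∘ a) * Q (x.1 ∘ b, x.2 ∘ b)) ∈ Tens X' Y') ?_ ?_ ?_ ?_ hP
  · rintro _ ⟨F, hF, G, hG, rfl⟩
    refine Submodule.span_induction (p := fun Q _ =>
      (fun x : WW Λ => (F (x.1 ∘ a) * G (x.2 ∘ a)) * Q (x.1 ∘ b, x.2 ∘ b)) ∈ Tens X' Y')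
      ?_ ?_ ?_ ?_ hQ
    · rintro _ ⟨F', hF', G', hG', rfl⟩
      have e : (fun x : WW Λ => (F (x.1 ∘ a) * G (x.2 ∘ a)) * (F' (x.1 ∘ b) * G' (x.2 ∘ b))) =
          fun x : WW Λ => (F (x.1 ∘ a) * F' (x.1 ∘ b)) * (G (x.2 ∘ a) * G' (x.2 ∘ b)) := by
        funext x
        ring
      have h1 := tmul_mem (hX F hF F' hF') (hY G hG G' hG')
      simp only at h1 ⊢
      rw [e]
      exact h1
    · simp only [Pi.zero_apply, mul_zero]
      exact Submodule.zero_mem _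
    · intro F G _ _ h1 h2
      simp only [Pi.add_apply, mul_add]
      exact Submodule.add_mem _ h1 h2
    · intro c Q' _ h1
      have e : (fun x : WW Λ => (F (x.1 ∘ a) * G (x.2 ∘ a)) * (c • Q') (x.1 ∘ b, x.2 ∘ b)) =
          c • fun x : WW Λ => (F (x.1 ∘ a) * G (x.2 ∘ a)) * Q' (x.1 ∘ b, x.2 ∘ b) := by
        funext x
        simp only [Pi.smul_apply, smul_eq_mul]
        ring
      rw [e]
      exact Submodule.smul_mem _ c h1
  · simp only [Pi.zero_apply, zero_mul]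
    exact Submodule.zero_mem _
  · intro F G _ _ h1 h2
    simp only [Pi.add_apply, add_mul]
    exact Submodule.add_mem _ h1 h2
  · intro c P' _ h1
    have e : (fun x : WW Λ => (c • P') (x.1 ∘ a, x.2 ∘ a) * Q (x.1 ∘ b, x.2 ∘ b)) =
        c • fun x : WW Λ => P' (x.1 ∘ a, x.2 ∘ a) * Q (x.1 ∘ b, x.2 ∘ b) := by
      funext x
      simp only [Pi.smul_apply, smul_eq_mul]
      ring
    rw [e]
    exact Submodule.smul_mem _ c h1

theorem Tens_pull {Ω Z : Type} {X Y : Submodule ℂ ((Ω ⊕ Z → ℕ) → ℂ)} (hX : StabZ X) (hY : StabZ Y)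
    {F : WW (Ω ⊕ Z) → ℂ} (hF : F ∈ Tens X Y) (g : Perm Ω) :
    (fun x => F (pull (Perm.sumCongr g 1) x)) ∈ Tens X Y := by
  refine Submodule.span_induction (p := fun F _ =>
    (fun x : WW (Ω ⊕ Z) => F (pull (Perm.sumCongr g 1) x)) ∈ Tens X Y) ?_ ?_ ?_ ?_ hF
  · rintro _ ⟨F, hF, G, hG, rfl⟩
    exact tmul_mem (hX F hF g) (hY G hG g)
  · exact Submodule.zero_mem _
  · intro F G _ _ h1 h2
    exact Submodule.add_mem _ h1 h2
  · intro c F _ h1
    exact Submodule.smul_mem _ c h1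

section step
variable {A B Z ι : Type} [Fintype A] [DecidableEq A] [Fintype B] [DecidableEq B] [Fintype ι]

/-- Inclusion of the top letters. -/
abbrev ia : A → (A ⊕ B) ⊕ Z := fun a => Sum.inl (Sum.inl a)

/-- Inclusion of the lower letters (moved and spectators). -/
abbrev ibz : B ⊕ Z → (A ⊕ B) ⊕ Z := Sum.map Sum.inr id

/-- Restriction of a pair of words along a map of letters. -/
abbrev res {Λ Λ' : Type} (f : Λ → Λ') (x : WW Λ') : WW Λ := (x.1 ∘ f, x.2 ∘ f)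

theorem sumCongr_mul_one {Ω Z : Type} (g g' : Perm Ω) :
    (Perm.sumCongr (g * g') (1 : Perm Z)) = Perm.sumCongr g 1 * Perm.sumCongr g' 1 := by
  ext x
  rcases x with x | x <;> rfl

/-- THE INDUCTION STEP WITH SPECTATORS. -/
theorem step_Z (h : ι → ℕ) (R : AddSubgroup ℂ) (hR : R ≠ ⊤) (θ : ℕ) (p : WW ((A ⊕ B) ⊕ Z))
    (hpA : ∀ a, θ ≤ p.1 (ia a) + p.2 (ia a))
    (hpB : ∀ b, p.1 (Sum.inl (Sum.inr b)) + p.2 (Sum.inl (Sum.inr b)) < θ)
    (hpw : ∑ a, (p.1 (ia a) + p.2 (ia a)) = 2 * wt h)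
    (X Y : Submodule ℂ (((A ⊕ B) ⊕ Z → ℕ) → ℂ)) (X' Y' : Submodule ℂ ((B ⊕ Z → ℕ) → ℂ))
    (hX : StabZ X) (hY : StabZ Y)
    (hX' : ∀ F ∈ Sp (Ω := A) h, ∀ G ∈ X', (fun x : (A ⊕ B) ⊕ Z → ℕ => F (x ∘ ia) * G (x ∘ ibz)) ∈ X)
    (hY' : ∀ F ∈ Sp (Ω := A) h, ∀ G ∈ Y', (fun x : (A ⊕ B) ⊕ Z → ℕ => F (x ∘ ia) * G (x ∘ ibz)) ∈ Y)
    {W U₁ U₂ : Type} [AddCommGroup W] [Module ℂ W]
    [AddCommGroup U₁] [Module ℂ U₁]
    [AddCommGroup U₂] [Module ℂ U₂] [FiniteDimensional ℂ U₂]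
    (σ : Representation ℂ (Perm (A ⊕ B)) W) (hσ : σ.IsIrreducible)
    (τ₁ : Representation ℂ (Perm A) U₁) (τ₂ : Representation ℂ (Perm B) U₂)
    (h1 : Good R h (res ia p) τ₁) (h2 : GoodZ R X' Y' (res ibz p) τ₂)
    (F : W →ₗ[ℂ] U₁ ⊗[ℂ] U₂) (hF0 : F ≠ 0)
    (hF : ∀ g₁ g₂ w, F (σ (Perm.sumCongr g₁ g₂) w) = TensorProduct.map (τ₁ g₁) (τ₂ g₂) (F w)) :
    GoodZ R X Y p σ := by
  classical
  obtain ⟨j₁, hj1, he1, hm1, hs1⟩ := h1
  obtain ⟨j₂, hj2, he2, hm2, hs2⟩ := h2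
  have hR' : ∃ y : ℂ, y ∉ R := by
    by_contra hc
    push Not at hc
    exact hR (by ext y; simp [hc y])
  obtain ⟨y, hy⟩ := hR'
  let pl : Perm (A ⊕ B) → WW ((A ⊕ B) ⊕ Z) → WW ((A ⊕ B) ⊕ Z) := fun g x =>
    pull (Perm.sumCongr g 1) x
  have hpl1 : ∀ x, pl 1 x = x := fun x => by
    show pull (Perm.sumCongr 1 1) x = x
    have : (Perm.sumCongr (1 : Perm (A ⊕ B)) (1 : Perm Z)) = 1 := by
      ext x
      rcases x with x | x <;> rfl
    rw [this]
    rfl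
  have hpl : ∀ g g' x, pl (g * g') x = pl g' (pl g x) := by
    intro g g' x
    show pull (Perm.sumCongr (g * g') 1) x = pull (Perm.sumCongr g' 1) (pull (Perm.sumCongr g 1) x)
    rw [sumCongr_mul_one, pull_mul]
  let H : Subgroup (Perm (A ⊕ B)) := (sumCongrHom A B).range
  have hHmem : ∀ m, m ∈ H ↔ ∃ (g₁ : Perm A) (g₂ : Perm B), m = Perm.sumCongr g₁ g₂ := by
    intro m
    constructor
    · rintro ⟨⟨g₁, g₂⟩, rfl⟩
      exact ⟨g₁, g₂, rfl⟩
    · rintro ⟨g₁, g₂, rfl⟩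
      exact ⟨(g₁, g₂), rfl⟩
  -- the matrix coefficient map
  let q : W →ₗ[ℂ] (WW ((A ⊕ B) ⊕ Z) → ℂ) :=
    LinearMap.pi fun x => q2 j₁ j₂ (res ia x) (res ibz x) ∘ₗ F
  have hq : ∀ w x, q w x = q2 j₁ j₂ (res ia x) (res ibz x) (F w) := fun w x => rfl
  have hqe : ∀ g₁ g₂ w x, q (σ (Perm.sumCongr g₁ g₂) w) x = q w (pl (Perm.sumCongr g₁ g₂) x) := by
    intro g₁ g₂ w x
    rw [hq, hq, hF]
    have hl : res ia (pl (Perm.sumCongr g₁ g₂) x) = pull g₁ (res ia x) := rfl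
    have hr : res ibz (pl (Perm.sumCongr g₁ g₂) x) = pull (Perm.sumCongr g₂ 1) (res ibz x) := by
      refine Prod.ext ?_ ?_
      · funext b
        rcases b with b | b <;> rfl
      · funext b
        rcases b with b | b <;> rfl
    rw [hl, hr]
    generalize F w = T
    induction T with
    | zero => simp
    | tmul u v => rw [TensorProduct.map_tmul, q2_tmul, q2_tmul, he1, he2]
    | add a b ha hb => rw [map_add, map_add, map_add, ha, hb]
  have hqH : ∀ m ∈ H, ∀ w x, q (σ m w) x = q w (pl m x) := by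
    intro m hm w x
    obtain ⟨g₁, g₂, rfl⟩ := (hHmem m).1 hm
    exact hqe g₁ g₂ w x
  have hqsharp : ∀ w, (∀ m ∈ H, q w (pl m p) ∈ R) → ∀ x, q w x ∈ R := by
    intro w hw
    have hq2 : ∀ (x : WW A) (y : WW (B ⊕ Z)), q2 j₁ j₂ x y (F w) ∈ R := by
      have s1 : ∀ (g₂ : Perm B) (x : WW A),
          q2 j₁ j₂ x (pull (Perm.sumCongr g₂ 1) (res ibz p)) (F w) ∈ R := by
        intro g₂ x
        rw [← e1_spec]
        apply hs1
        intro g₁
        rw [e1_spec]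
        have h3 := hw (Perm.sumCongr g₁ g₂) ((hHmem _).2 ⟨g₁, g₂, rfl⟩)
        rw [hq] at h3
        have hl : res ia (pl (Perm.sumCongr g₁ g₂) p) = pull g₁ (res ia p) := rfl
        have hr : res ibz (pl (Perm.sumCongr g₁ g₂) p) =
            pull (Perm.sumCongr g₂ 1) (res ibz p) := by
          refine Prod.ext ?_ ?_
          · funext b
            rcases b with b | b <;> rfl
          · funext b
            rcases b with b | b <;> rfl
        rw [hl, hr] at h3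
        exact h3
      intro x y
      rw [← e2_spec]
      apply hs2
      intro g₂
      rw [e2_spec]
      exact s1 g₂ x
    intro x
    exact hq2 _ _
  have hT : ∀ F ∈ Tens X Y, ∀ g, (fun x => F (pl g x)) ∈ Tens X Y := fun F hF g =>
    Tens_pull hX hY hF g
  have hqT : ∀ w, q w ∈ Tens X Y := by
    intro w
    have h3 : q w = fun x => q2 j₁ j₂ (res ia x) (res ibz x) (F w) := rfl
    rw [h3]
    generalize F w = T
    induction T with
    | zero =>
      simp only [map_zero]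
      exact Submodule.zero_mem _
    | tmul u v =>
      simp only [q2_tmul]
      exact Tens_mul ia ibz hX' hY' (VV_eq_Tens h (hm1 u)) (hm2 v)
    | add a b ha hb =>
      simp only [map_add]
      exact Submodule.add_mem _ ha hb
  have hqs : ∀ w m, q w (pl m p) ≠ 0 → m ∈ H := by
    intro w m hne
    have h3 : ∑ a, ((pl m p).1 (ia a) + (pl m p).2 (ia a)) = 2 * wt h := by
      by_contra hne2
      apply hne
      rw [hq]
      generalize F w = T
      induction T with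
      | zero => simp
      | tmul u v =>
        rw [q2_tmul]
        have h0 : j₁ u (res ia (pl m p)) = 0 := by
          by_contra h1
          obtain ⟨h2, h3⟩ := VV_weight (hm1 u) h1
          apply hne2
          rw [Finset.sum_add_distrib]
          have h4 : ∑ a : A, (pl m p).1 (ia a) = wt h := h2
          have h5 : ∑ a : A, (pl m p).2 (ia a) = wt h := h3
          rw [h4, h5]
          ring
        rw [h0, zero_mul]
      | add a b ha hb => rw [map_add, ha, hb, add_zero]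
    rw [hHmem]
    refine threshold_perm (fun x => p.1 (Sum.inl x) + p.2 (Sum.inl x)) θ hpA hpB m ?_
    rw [hpw, ← h3]
    rfl
  obtain ⟨j, hj0, hje, hjT, hjs⟩ := step_grp pl hpl1 hpl H R p σ q hqH (Tens X Y) hT hqT hqs hqsharp (by
    obtain ⟨w, hw⟩ : ∃ w, F w ≠ 0 := by
      by_contra hc
      push Not at hc
      exact hF0 (LinearMap.ext hc)
    obtain ⟨x₁, x₂, hx⟩ := q2_ne_zero j₁ j₂ hj1 hj2 (F w) hw
    -- a word on all letters restricting to `x₁`, `x₂`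
    let x : WW ((A ⊕ B) ⊕ Z) :=
      (Sum.elim (Sum.elim x₁.1 (fun b => x₂.1 (Sum.inl b))) (fun z => x₂.1 (Sum.inr z)),
        Sum.elim (Sum.elim x₁.2 (fun b => x₂.2 (Sum.inl b))) (fun z => x₂.2 (Sum.inr z)))
    have hxa : res ia x = x₁ := rfl
    have hxb : res ibz x = x₂ := by
      refine Prod.ext ?_ ?_
      · funext b
        rcases b with b | b <;> rfl
      · funext b
        rcases b with b | b <;> rfl
    by_contra hc
    push Not at hc
    have h4 := hqsharp ((y / q w x) • w) (fun m hm => by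
      rw [← hqH m hm, hc]
      exact R.zero_mem) x
    have hqx : q w x ≠ 0 := by
      rw [hq, hxa, hxb]
      exact hx
    rw [map_smul, Pi.smul_apply, smul_eq_mul, div_mul_cancel₀ _ hqx] at h4
    exact hy h4)
  exact ⟨j, injective_of_irrG pl σ hσ j hje hj0, hje, hjT, hjs⟩

end step

end Crest.Agent.SY
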