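import Crest.Agent.SY_Z1

/-!
# S0298: skipping a level; relabelling (owner: helper61)
-/

set_option autoImplicit false

namespace Crest.Agent.SY

open Equiv Equiv.Perm TensorProduct Crest.Agent.SX

/-- SKIP. The new letters `A` are spectators; `E` is a function on pairs of words on `A` in
`Tens S T` with values in `{0, 1, -1}` (any `c ∈ ℤ` is fine) and value `± 1` at `p`. -/
theorem GoodZ_skip {Ω A Z : Type} (R : AddSubgroup ℂ) (p : WW (Ω ⊕ (A ⊕ Z)))
    {S T : Submodule ℂ ((A → ℕ) → ℂ)} {X' Y' : Submodule ℂ ((Ω ⊕ Z → ℕ) → ℂ)}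
    {X Y : Submodule ℂ ((Ω ⊕ (A ⊕ Z) → ℕ) → ℂ)}
    (hX : ∀ F ∈ S, ∀ G ∈ X', (fun x : Ω ⊕ (A ⊕ Z) → ℕ =>
      F (x ∘ Sum.inr ∘ Sum.inl) * G (x ∘ Sum.map id Sum.inr)) ∈ X)
    (hY : ∀ F ∈ T, ∀ G ∈ Y', (fun x : Ω ⊕ (A ⊕ Z) → ℕ =>
      F (x ∘ Sum.inr ∘ Sum.inl) * G (x ∘ Sum.map id Sum.inr)) ∈ Y)
    (E : WW A → ℂ) (hE : E ∈ Tens S T) (hEv : ∀ x, E x = 0 ∨ E x = 1 ∨ E x = -1)
    (hEp : E (res (Sum.inr ∘ Sum.inl) p) ≠ 0)
    {W : Type} [AddCommGroup W] [Module ℂ W] (σ : Representation ℂ (Perm Ω) W)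
    (h : GoodZ R X' Y' (res (Sum.map id Sum.inr) p) σ) : GoodZ R X Y p σ := by
  obtain ⟨j, hj, he, hm, hs⟩ := h
  let j' : W →ₗ[ℂ] (WW (Ω ⊕ (A ⊕ Z)) → ℂ) :=
    LinearMap.pi fun x => E (res (Sum.inr ∘ Sum.inl) x) •
      (LinearMap.proj (res (Sum.map id Sum.inr) x) ∘ₗ j)
  have hj' : ∀ w x, j' w x = E (res (Sum.inr ∘ Sum.inl) x) * j w (res (Sum.map id Sum.inr) x) :=
    fun w x => rfl
  refine ⟨j', ?_, ?_, ?_, ?_⟩
  · intro w w' hww
    apply hj
    funext y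
    let x : WW (Ω ⊕ (A ⊕ Z)) :=
      (Sum.elim (fun a => y.1 (Sum.inl a)) (Sum.elim (fun a => p.1 (Sum.inr (Sum.inl a)))
        (fun z => y.1 (Sum.inr z))),
       Sum.elim (fun a => y.2 (Sum.inl a)) (Sum.elim (fun a => p.2 (Sum.inr (Sum.inl a)))
        (fun z => y.2 (Sum.inr z))))
    have hx1 : res (Sum.inr ∘ Sum.inl) x = res (Sum.inr ∘ Sum.inl) p := rfl
    have hx2 : res (Sum.map id Sum.inr) x = y := by
      refine Prod.ext ?_ ?_
      · funext b
        rcases b with b | b <;> rfl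
      · funext b
        rcases b with b | b <;> rfl
    have h1 := congrFun hww x
    rw [hj', hj', hx1, hx2] at h1
    exact mul_left_cancel₀ hEp h1
  · intro g w x
    rw [hj', hj', he]
    have e1 : res (Sum.inr ∘ Sum.inl) (pull (Perm.sumCongr g 1) x) =
        res (Sum.inr ∘ Sum.inl : A → Ω ⊕ (A ⊕ Z)) x := rfl
    have e2 : res (Sum.map id Sum.inr) (pull (Perm.sumCongr g 1) x) =
        pull (Perm.sumCongr g 1) (res (Sum.map id Sum.inr : Ω ⊕ Z → Ω ⊕ (A ⊕ Z)) x) := by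
      refine Prod.ext ?_ ?_
      · funext b
        rcases b with b | b <;> rfl
      · funext b
        rcases b with b | b <;> rfl
    rw [e1, e2]
  · intro w
    exact Tens_mul (Sum.inr ∘ Sum.inl) (Sum.map id Sum.inr) hX hY hE (hm w)
  · intro w hw x
    have h1 : ∀ y, j w y ∈ R := by
      refine hs w fun g => ?_
      have h2 := hw g
      rw [hj'] at h2
      have e1 : res (Sum.inr ∘ Sum.inl) (pull (Perm.sumCongr g 1) p) =
          res (Sum.inr ∘ Sum.inl : A → Ω ⊕ (A ⊕ Z)) p := rfl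
      have e2 : res (Sum.map id Sum.inr) (pull (Perm.sumCongr g 1) p) =
          pull (Perm.sumCongr g 1) (res (Sum.map id Sum.inr : Ω ⊕ Z → Ω ⊕ (A ⊕ Z)) p) := by
        refine Prod.ext ?_ ?_
        · funext b
          rcases b with b | b <;> rfl
        · funext b
          rcases b with b | b <;> rfl
      rw [e1, e2] at h2
      rcases hEv (res (Sum.inr ∘ Sum.inl) p) with h3 | h3 | h3
      · exact absurd h3 hEp
      · rwa [h3, one_mul] at h2
      · rw [h3, neg_one_mul] at h2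
        exact R.neg_mem_iff.1 h2
    rw [hj']
    rcases hEv (res (Sum.inr ∘ Sum.inl) x) with h3 | h3 | h3
    · rw [h3, zero_mul]
      exact R.zero_mem
    · rw [h3, one_mul]
      exact h1 _
    · rw [h3, neg_one_mul]
      exact R.neg_mem (h1 _)

/-- Transport of a space of functions on words along an equivalence of letters. -/
def mapL {Λ Λ' : Type} (e : Λ ≃ Λ') (X : Submodule ℂ ((Λ → ℕ) → ℂ)) :
    Submodule ℂ ((Λ' → ℕ) → ℂ) :=
  X.comap (LinearMap.funLeft ℂ ℂ (fun x : Λ → ℕ => x ∘ e.symm))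

theorem mem_mapL {Λ Λ' : Type} (e : Λ ≃ Λ') (X : Submodule ℂ ((Λ → ℕ) → ℂ))
    (F : (Λ' → ℕ) → ℂ) : F ∈ mapL e X ↔ (fun x : Λ → ℕ => F (x ∘ e.symm)) ∈ X := Iff.rfl

theorem mapL_of_mem {Λ Λ' : Type} (e : Λ ≃ Λ') (X : Submodule ℂ ((Λ → ℕ) → ℂ))
    {F : (Λ → ℕ) → ℂ} (hF : F ∈ X) : (fun x : Λ' → ℕ => F (x ∘ e)) ∈ mapL e X := by
  rw [mem_mapL]
  have : (fun x : Λ → ℕ => F ((x ∘ e.symm) ∘ e)) = F := by
    funext x
    congr 1
    funext a
    simp
  rw [this]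
  exact hF

theorem Tens_mapL {Λ Λ' : Type} (e : Λ ≃ Λ') (X Y : Submodule ℂ ((Λ → ℕ) → ℂ))
    {T : WW Λ → ℂ} (hT : T ∈ Tens X Y) :
    (fun x : WW Λ' => T (res e x)) ∈ Tens (mapL e X) (mapL e Y) := by
  refine Submodule.span_induction (p := fun T _ =>
    (fun x : WW Λ' => T (res e x)) ∈ Tens (mapL e X) (mapL e Y)) ?_ ?_ ?_ ?_ hT
  · rintro _ ⟨F, hF, G, hG, rfl⟩
    exact tmul_mem (mapL_of_mem e X hF) (mapL_of_mem e Y hG)
  · exact Submodule.zero_mem _
  · intro F G _ _ h1 h2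
    exact Submodule.add_mem _ h1 h2
  · intro c F _ h1
    exact Submodule.smul_mem _ c h1

/-- Relabelling the moved letters by `e` and the spectators by `f`. -/
theorem GoodZ_relabel {Ω Ω' Z Z' : Type} [Fintype Ω] [DecidableEq Ω] [Fintype Ω']
    [DecidableEq Ω'] (e : Ω ≃ Ω') (f : Z ≃ Z')
    (R : AddSubgroup ℂ) (X Y : Submodule ℂ ((Ω' ⊕ Z' → ℕ) → ℂ)) (p : WW (Ω ⊕ Z))
    {W : Type} [AddCommGroup W] [Module ℂ W] (σ : Representation ℂ (Perm Ω) W)
    (h : GoodZ R X Y (res (Equiv.sumCongr e f).symm p) (relabel e σ)) :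
    GoodZ R (mapL (Equiv.sumCongr e f).symm X) (mapL (Equiv.sumCongr e f).symm Y) p σ := by
  obtain ⟨j, hj, he, hm, hs⟩ := h
  set E := Equiv.sumCongr e f with hE
  let j' : W →ₗ[ℂ] (WW (Ω ⊕ Z) → ℂ) :=
    LinearMap.pi fun x => LinearMap.proj (res E.symm x) ∘ₗ j
  have hj' : ∀ w x, j' w x = j w (res E.symm x) := fun w x => rfl
  have hpe : ∀ (g : Perm Ω) (x : WW (Ω ⊕ Z)), res E.symm (pull (Perm.sumCongr g 1) x) =
      pull (Perm.sumCongr (e.permCongr g) 1) (res E.symm x) := by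
    intro g x
    refine Prod.ext ?_ ?_
    · funext b
      rcases b with b | b
      · show x.1 (Sum.inl (g (e.symm b))) = x.1 (E.symm (Sum.inl (e (g (e.symm b)))))
        simp [hE]
      · show x.1 (Sum.inr (f.symm b)) = x.1 (E.symm (Sum.inr b))
        simp [hE]
    · funext b
      rcases b with b | b
      · show x.2 (Sum.inl (g (e.symm b))) = x.2 (E.symm (Sum.inl (e (g (e.symm b)))))
        simp [hE]
      · show x.2 (Sum.inr (f.symm b)) = x.2 (E.symm (Sum.inr b))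
        simp [hE]
  have hrel : ∀ g w, σ g w = relabel e σ (e.permCongr g) w := by
    intro g w
    rw [relabel_apply]
    congr 2
    ext x
    simp
  refine ⟨j', ?_, ?_, ?_, ?_⟩
  · intro w w' hww
    apply hj
    funext y
    have h1 := congrFun hww (res E y)
    rw [hj', hj'] at h1
    have h2 : res E.symm (res E y) = y := by
      refine Prod.ext ?_ ?_ <;> funext b <;> simp
    rwa [h2] at h1
  · intro g w x
    rw [hj', hj', hrel, he, hpe]
  · intro w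
    exact Tens_mapL E.symm X Y (hm w)
  · intro w hw x
    rw [hj']
    refine hs w (fun g => ?_) _
    have h1 := hw (e.symm.permCongr g)
    rw [hj', hpe] at h1
    have h2 : e.permCongr (e.symm.permCongr g) = g := by
      ext x
      simp
    rwa [h2] at h1

theorem GoodZ_mono {Ω Z : Type} {R : AddSubgroup ℂ} {X Y X' Y' : Submodule ℂ ((Ω ⊕ Z → ℕ) → ℂ)}
    (hX : X ≤ X') (hY : Y ≤ Y') {p : WW (Ω ⊕ Z)} {W : Type} [AddCommGroup W] [Module ℂ W]
    {σ : Representation ℂ (Perm Ω) W} (h : GoodZ R X Y p σ) : GoodZ R X' Y' p σ := by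
  obtain ⟨j, h1, h2, h3, h4⟩ := h
  exact ⟨j, h1, h2, fun w => Tens_mono hX hY (h3 w), h4⟩

end Crest.Agent.SY
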