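import Crest.Agent.SY_Z2

/-!
# S0298: the sign twist with spectators (owner: helper61)
-/

set_option autoImplicit false

namespace Crest.Agent.SY

open Equiv Equiv.Perm TensorProduct Crest.Agent.SX

/-- `th` as a linear map. -/
noncomputable def thL {Λ : Type} [Fintype Λ] [DecidableEq Λ] {k : ℕ} (t₀ : Λ ≃ Cel (stair k)) :
    ((Λ → ℕ) → ℂ) →ₗ[ℂ] ((Λ → ℕ) → ℂ) where
  toFun := th t₀
  map_add' F G := by
    ext w
    simp [th, add_mul, Finset.sum_add_distrib]
  map_smul' a F := by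
    ext w
    simp [th, mul_assoc, Finset.mul_sum]

@[simp] theorem thL_apply {Λ : Type} [Fintype Λ] [DecidableEq Λ] {k : ℕ}
    (t₀ : Λ ≃ Cel (stair k)) (F : (Λ → ℕ) → ℂ) : thL t₀ F = th t₀ F := rfl

theorem th2_mem_Tens {Λ : Type} [Fintype Λ] [DecidableEq Λ] {k : ℕ} (t₀ : Λ ≃ Cel (stair k))
    {X Y : Submodule ℂ ((Λ → ℕ) → ℂ)} {T : WW Λ → ℂ} (hT : T ∈ Tens X Y) :
    th2 t₀ T ∈ Tens X (Y.map (thL t₀)) := by
  refine Submodule.span_induction
    (p := fun T _ => th2 t₀ T ∈ Tens X (Y.map (thL t₀))) ?_ ?_ ?_ ?_ hT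
  · rintro _ ⟨F, hF, G, hG, rfl⟩
    have e : th2 t₀ (fun x : WW Λ => F x.1 * G x.2) = fun x : WW Λ => F x.1 * th t₀ G x.2 := by
      ext x
      rw [th2_apply, th, Finset.mul_sum]
      exact Finset.sum_congr rfl fun v _ => mul_assoc _ _ _
    rw [e]
    exact tmul_mem hF (Submodule.mem_map_of_mem hG)
  · rw [map_zero]
    exact Submodule.zero_mem _
  · intro F G _ _ h1 h2
    rw [map_add]
    exact Submodule.add_mem _ h1 h2
  · intro a F _ h1
    rw [map_smul]
    exact Submodule.smul_mem _ a h1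

theorem th2_mem_V' {Λ : Type} [Fintype Λ] [DecidableEq Λ] {k : ℕ}
    (V : ValuationSubring ℂ) (t₀ : Λ ≃ Cel (stair k)) (F : WW Λ → ℂ)
    (hFV : ∀ x, F x ∈ V) (x : WW Λ) : th2 t₀ F x ∈ V := by
  rw [th2_apply]
  exact sum_mem fun v _ => V.mul_mem _ _ (hFV _) (intCast_mem V _)

variable {Ω Z : Type} [Fintype Ω] [DecidableEq Ω] [Fintype Z] [DecidableEq Z] {k : ℕ}

theorem th2_pullZ (t₀ : Ω ⊕ Z ≃ Cel (stair k)) (F : WW (Ω ⊕ Z) → ℂ) (g : Perm Ω)
    (x : WW (Ω ⊕ Z)) : th2 t₀ (fun x => F (pull (Perm.sumCongr g 1) x)) x =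
      ((sign g : ℤ) : ℂ) * th2 t₀ F (pull (Perm.sumCongr g 1) x) := by
  rw [th2_pull, Equiv.Perm.sign_sumCongr, Equiv.Perm.sign_one, mul_one]

/-- THE SIGN TWIST WITH SPECTATORS. -/
theorem GoodZ_twist (V : ValuationSubring ℂ) (hV : (2 : ℂ)⁻¹ ∉ V)
    (t₀ : Ω ⊕ Z ≃ Cel (stair k)) (p : WW (Ω ⊕ Z))
    (X Y : Submodule ℂ ((Ω ⊕ Z → ℕ) → ℂ)) (hX : X ≤ Sp (stair k)) (hY : Y ≤ Sp (stair k))
    {W : Type} [AddCommGroup W] [Module ℂ W] (σ : Representation ℂ (Perm Ω) W)
    (hG : GoodZ (vAdd V) X Y p σ) :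
    GoodZ (vAdd V) X (Y.map (thL t₀)) p (sgnTwist σ) := by
  obtain ⟨j, hinj, hequi, hmem0, hsharp⟩ := hG
  have hmem : ∀ w, j w ∈ VV (Ω := Ω ⊕ Z) (stair k) := fun w =>
    Tens_le_VV _ (Tens_mono hX hY (hmem0 w))
  refine ⟨(th2 t₀).comp j, ?_, ?_, fun w => th2_mem_Tens t₀ (hmem0 w), ?_⟩
  · -- injectivity
    obtain ⟨c, hc, hcc⟩ := th2_th2 (Ω := Ω ⊕ Z) t₀
    have hc0 : (c : ℂ) ≠ 0 := by
      intro h
      have : c = 0 := by exact_mod_cast h
      rw [this] at hc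
      exact absurd hc (by decide)
    rw [← LinearMap.ker_eq_bot, LinearMap.ker_eq_bot']
    intro w hw
    rw [LinearMap.comp_apply] at hw
    have h1 : ∀ x, j w x = 0 := by
      intro x
      have h2 := hcc (j w) (hmem w) x
      rw [hw, map_zero, Pi.zero_apply] at h2
      exact (mul_eq_zero.1 h2.symm).resolve_left hc0
    exact (LinearMap.ker_eq_bot'.1 (LinearMap.ker_eq_bot.2 hinj)) w (funext h1)
  · -- equivariance
    intro g w x
    rw [sgnTwist_apply, map_smul, Pi.smul_apply, LinearMap.comp_apply, LinearMap.comp_apply]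
    have h1 : j (σ g w) = fun x => j w (pull (Perm.sumCongr g 1) x) :=
      funext fun x => hequi g w x
    rw [h1, th2_pullZ, smul_eq_mul, ← mul_assoc, ← Int.cast_mul, ← Units.val_mul,
      Int.units_mul_self]
    simp
  · -- sharpness
    intro w hw
    by_cases hA : ∀ x, j w x ∈ V
    · intro x
      exact th2_mem_V' V t₀ _ hA x
    exfalso
    push Not at hA
    obtain ⟨x₁, hx₁⟩ := hA
    -- finite support
    have hfin : {x : WW (Ω ⊕ Z) | j w x ≠ 0}.Finite := by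
      have h1 : {x : WW (Ω ⊕ Z) | j w x ≠ 0} ⊆
          (Set.range fun q : ((Ω ⊕ Z) → Fin k) × ((Ω ⊕ Z) → Fin k) =>
          ((kw q.1, kw q.2) : WW (Ω ⊕ Z))) := by
        intro x hx
        obtain ⟨h1, h2⟩ := VV_bdd (hmem w) (n := k) (fun i => i.is_lt) hx
        exact ⟨(fun a => ⟨x.1 a, h1 a⟩, fun a => ⟨x.2 a, h2 a⟩), rfl⟩
      exact (Set.finite_range _).subset h1
    obtain ⟨x₀, hx₀, hmax⟩ := exists_max_val V (j w) hfin.toFinset
      (fun x hx => hfin.mem_toFinset.2 hx) ⟨x₁, fun h => hx₁ (by rw [h]; exact V.zero_mem)⟩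
    set z₀ := j w x₀ with hz₀
    have hz₀V : z₀ ∉ V := by
      intro h
      apply hx₁
      have e : j w x₁ = j w x₁ / z₀ * z₀ := by field_simp
      rw [e]
      exact V.mul_mem _ _ (hmax x₁) h
    have hz₀i : z₀⁻¹ ∈ V := (V.mem_or_inv_mem z₀).resolve_left hz₀V
    set w' := z₀⁻¹ • w with hw'
    have hF : ∀ x, j w' x = j w x / z₀ := by
      intro x
      rw [hw', map_smul, Pi.smul_apply, smul_eq_mul, div_eq_inv_mul]
    have hFV : ∀ x, j w' x ∈ V := fun x => by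
      rw [hF]
      exact hmax x
    have hF0 : j w' x₀ = 1 := by
      rw [hF, ← hz₀, div_self hx₀]
    -- the values of `j w'` on the orbit are non-units
    have hnon : ∀ g : Perm Ω, j w' (pull (Perm.sumCongr g 1) p) = 0 ∨
        (j w' (pull (Perm.sumCongr g 1) p))⁻¹ ∉ V := by
      intro g
      obtain ⟨z, hz, hz2⟩ := th2_congr V hV t₀ (j w') (hmem w') hFV (pull (Perm.sumCongr g 1) p)
      have e1 : th2 t₀ (j w') (pull (Perm.sumCongr g 1) p) =
          z₀⁻¹ * (th2 t₀ (j w) (pull (Perm.sumCongr g 1) p)) := by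
        rw [hw', map_smul, map_smul, Pi.smul_apply, smul_eq_mul]
      have hb : th2 t₀ (j w) (pull (Perm.sumCongr g 1) p) ∈ V := hw g
      have e2 : j w' (pull (Perm.sumCongr g 1) p) =
          z₀⁻¹ * (th2 t₀ (j w) (pull (Perm.sumCongr g 1) p)) + 2 * (-z) := by
        rw [← e1, hz2]
        ring
      rw [e2]
      refine nonunit_add (V.mul_mem _ _ hz₀i hb)
        (V.mul_mem _ _ (by exact_mod_cast (intCast_mem V 2)) (V.neg_mem _ hz)) ?_ ?_
      · by_cases h0 : th2 t₀ (j w) (pull (Perm.sumCongr g 1) p) = 0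
        · left
          rw [h0, mul_zero]
        · right
          intro h
          apply hz₀V
          have e3 : z₀ = (z₀⁻¹ * th2 t₀ (j w) (pull (Perm.sumCongr g 1) p))⁻¹ *
              th2 t₀ (j w) (pull (Perm.sumCongr g 1) p) := by
            field_simp
          rw [e3]
          exact V.mul_mem _ _ h hb
      · by_cases h0 : z = 0
        · left
          rw [h0]
          ring
        · right
          exact two_mul_nonunit hV (V.neg_mem _ hz) (neg_ne_zero.2 h0)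
    by_cases hall : ∀ g : Perm Ω, j w' (pull (Perm.sumCongr g 1) p) = 0
    · have h1 := hsharp ((2 : ℂ)⁻¹ • w') (fun g => by
        rw [map_smul, Pi.smul_apply, hall g, smul_zero]
        exact V.zero_mem) x₀
      rw [map_smul, Pi.smul_apply, hF0, smul_eq_mul, mul_one] at h1
      exact hV h1
    · push Not at hall
      obtain ⟨g₁, hg₁, hmax₁⟩ := exists_max_val V
        (fun g : Perm Ω => j w' (pull (Perm.sumCongr g 1) p))
        Finset.univ (fun g _ => Finset.mem_univ g) hall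
      have h1 := hsharp ((j w' (pull (Perm.sumCongr g₁ 1) p))⁻¹ • w') (fun g => by
        rw [map_smul, Pi.smul_apply, smul_eq_mul, ← div_eq_inv_mul]
        exact hmax₁ g) x₀
      rw [map_smul, Pi.smul_apply, hF0, smul_eq_mul, mul_one] at h1
      exact ((hnon g₁).resolve_left hg₁) h1

/-- Exchanging the two factors. -/
theorem GoodZ_swap {Ω Z : Type} {R : AddSubgroup ℂ} {X Y : Submodule ℂ ((Ω ⊕ Z → ℕ) → ℂ)}
    {p : WW (Ω ⊕ Z)} {W : Type} [AddCommGroup W] [Module ℂ W]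
    {σ : Representation ℂ (Perm Ω) W} (h : GoodZ R X Y p σ) : GoodZ R Y X (p.2, p.1) σ := by
  obtain ⟨j, h1, h2, h3, h4⟩ := h
  have hT : ∀ T ∈ Tens X Y, (fun x : WW (Ω ⊕ Z) => T (x.2, x.1)) ∈ Tens Y X := by
    intro T hT
    refine Submodule.span_induction
      (p := fun T _ => (fun x : WW (Ω ⊕ Z) => T (x.2, x.1)) ∈ Tens Y X) ?_ ?_ ?_ ?_ hT
    · rintro _ ⟨F, hF, G, hG, rfl⟩
      have := tmul_mem hG hF
      refine (congrArg (· ∈ Tens Y X) ?_).mp this
      funext x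
      exact mul_comm _ _
    · exact Submodule.zero_mem _
    · intro F G _ _ h1 h2
      exact Submodule.add_mem _ h1 h2
    · intro a F _ h1
      exact Submodule.smul_mem _ a h1
  let j' : W →ₗ[ℂ] (WW (Ω ⊕ Z) → ℂ) := LinearMap.pi fun x => LinearMap.proj (x.2, x.1) ∘ₗ j
  refine ⟨j', ?_, fun g w x => h2 g w (x.2, x.1), fun w => hT _ (h3 w), ?_⟩
  · intro w w' hww
    apply h1
    funext x
    exact congrFun hww (x.2, x.1)
  · intro w hw x
    exact h4 w (fun g => hw g) (x.2, x.1)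

end Crest.Agent.SY
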