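import Crest.Agent.SZ_Defs

/-!
# S0298 small `n`: product formula for polytabloids (task SZ-5a)
-/

set_option autoImplicit false

namespace Crest.Agent.SZ

open Equiv Equiv.Perm Crest.Agent.SX

/-- All cells `(column, row)` of the shape with columns `a`. -/
def cellsL (a : List ℕ) : List (ℕ × ℕ) :=
  (List.range a.length).flatMap fun i => (List.range (a.getD i 0)).map fun r => (i, r)

/-- Sign factor of a new letter, in cell `p` with value `v`, against the previous letters (cells and
values) of the same column; `0` if `v` is not smaller than the height of the column or if the value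
already occurs in the column. -/
def fac (a : List ℕ) (p : ℕ × ℕ) (v : ℕ) (prev : List ((ℕ × ℕ) × ℕ)) : ℤ :=
  if v < a.getD p.1 0 then
    (prev.map fun q => if q.1.1 = p.1 then
      (if q.2 = v then (0 : ℤ) else if decide (q.1.2 < p.2) = decide (q.2 < v) then 1 else -1)
      else 1).prod
  else 0

/-- The polytabloid of a tableau given by the list of the cells of the letters `0, 1, …`, at the word
given by the list of its values (in the same order), as a product of factors. -/
def ptL (a : List ℕ) : List ((ℕ × ℕ) × ℕ) → ℤ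
  | [] => 1
  | q :: qs => fac a q.1 q.2 qs * ptL a qs

/-- the factor of a pair of letters -/
def pf (p : ℕ × ℕ) (v : ℕ) (q : (ℕ × ℕ) × ℕ) : ℤ :=
  if q.1.1 = p.1 then
      (if q.2 = v then (0 : ℤ) else if decide (q.1.2 < p.2) = decide (q.2 < v) then 1 else -1)
      else 1

theorem fac_eq (a : List ℕ) (p : ℕ × ℕ) (v : ℕ) (prev : List ((ℕ × ℕ) × ℕ)) :
    fac a p v prev = (if v < a.getD p.1 0 then 1 else 0) * (prev.map (pf p v)).prod := by
  unfold fac
  split_ifs
  · rw [one_mul]; rfl
  · rw [zero_mul]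

/-- the list product as a product over pairs -/
theorem ptL_pairs (a : List ℕ) (n : ℕ) (p : Fin n → ℕ × ℕ) (w : Fin n → ℕ) :
    ptL a ((List.finRange n).map fun x => (p x, w x)) =
      ∏ x : Fin n, ((if w x < a.getD (p x).1 0 then 1 else 0) *
        ∏ y ∈ Finset.Ioi x, pf (p x) (w x) (p y, w y)) := by
  induction n with
  | zero => simp [ptL]
  | succ n ih =>
    have h1 := ih (fun x => p x.succ) (fun x => w x.succ)
    have h2 : (List.map (fun x => (p x, w x)) (List.map Fin.succ (List.finRange n))) =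
      (List.map (fun x => (p x.succ, w x.succ)) (List.finRange n)) := by
      rw [List.map_map]; rfl
    rw [List.finRange_succ, List.map_cons, ptL, h2, h1, Fin.prod_univ_succ, Fin.prod_Ioi_zero,
      fac_eq]
    have e1 : (List.map (pf (p 0) (w 0)) (List.map (fun x => (p x.succ, w x.succ))
        (List.finRange n))).prod = ∏ j : Fin n, pf (p 0) (w 0) (p j.succ, w j.succ) := by
      rw [Fin.prod_univ_def, List.map_map]
      rfl
    have e2 : ∀ x : Fin n, ∏ y ∈ Finset.Ioi x.succ, pf (p x.succ) (w x.succ) (p y, w y) =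
        ∏ y ∈ Finset.Ioi x, pf (p x.succ) (w x.succ) (p y.succ, w y.succ) := fun x => by
      rw [Fin.prod_Ioi_succ]
    have e3 : (∏ x : Fin n, ((if w x.succ < a.getD (p x.succ).1 0 then (1 : ℤ) else 0) *
        ∏ y ∈ Finset.Ioi x.succ, pf (p x.succ) (w x.succ) (p y, w y))) =
        ∏ x : Fin n, ((if w x.succ < a.getD (p x.succ).1 0 then 1 else 0) *
        ∏ y ∈ Finset.Ioi x, pf (p x.succ) (w x.succ) (p y.succ, w y.succ)) :=
      Finset.prod_congr rfl fun x _ => by rw [e2 x]
    rw [e3, ← e1]

/-- the sign as a monoid hom -/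
def sgH : ℤ →* ℤ where
  toFun := Int.sign
  map_one' := rfl
  map_mul' := Int.sign_mul

/-- sign of a permutation via an injective function -/
theorem sign_pairs {n : ℕ} (f : Fin n → ℤ) (hf : Function.Injective f) (s : Perm (Fin n)) :
    (sign s : ℤ) = ∏ x : Fin n, ∏ y ∈ Finset.Ioi x,
      (Int.sign (f (s y) - f (s x)) * Int.sign (f y - f x)) := by
  have h1 : (Matrix.vandermonde (f ∘ s)).det = (sign s : ℤ) * (Matrix.vandermonde f).det := by
    have : Matrix.vandermonde (f ∘ s) = (Matrix.vandermonde f).submatrix s id := by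
      ext i j
      simp [Matrix.vandermonde_apply]
    rw [this, Matrix.det_permute]
    simp
  rw [Matrix.det_vandermonde, Matrix.det_vandermonde] at h1
  have key : ∀ g : Fin n → ℤ, sgH (∏ x : Fin n, ∏ y ∈ Finset.Ioi x, (g y - g x)) =
      ∏ x : Fin n, ∏ y ∈ Finset.Ioi x, Int.sign (g y - g x) := by
    intro g
    rw [map_prod]
    refine Finset.prod_congr rfl fun x _ => ?_
    rw [map_prod]
    rfl
  have hs : sgH (sign s : ℤ) = (sign s : ℤ) := by
    rcases Int.units_eq_one_or (sign s) with h | h <;> rw [h] <;> rfl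
  have h2 := congrArg sgH h1
  rw [map_mul, key, key, hs] at h2
  have hsq : (∏ x : Fin n, ∏ y ∈ Finset.Ioi x, Int.sign (f y - f x)) *
      (∏ x : Fin n, ∏ y ∈ Finset.Ioi x, Int.sign (f y - f x)) = 1 := by
    rw [← Finset.prod_mul_distrib]
    refine Finset.prod_eq_one fun x _ => ?_
    rw [← Finset.prod_mul_distrib]
    refine Finset.prod_eq_one fun y hy => ?_
    have hxy : x < y := Finset.mem_Ioi.1 hy
    have hne : f y - f x ≠ 0 := by
      intro h
      exact hxy.ne' (hf (by omega))
    rcases lt_or_gt_of_ne hne with h | h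
    · rw [Int.sign_eq_neg_one_of_neg h]; rfl
    · rw [Int.sign_eq_one_of_pos h]; rfl
  have h3 : (∏ x : Fin n, ∏ y ∈ Finset.Ioi x,
      (Int.sign (f (s y) - f (s x)) * Int.sign (f y - f x))) =
      (∏ x : Fin n, ∏ y ∈ Finset.Ioi x, Int.sign ((f ∘ s) y - (f ∘ s) x)) *
      (∏ x : Fin n, ∏ y ∈ Finset.Ioi x, Int.sign (f y - f x)) := by
    rw [← Finset.prod_mul_distrib]
    refine Finset.prod_congr rfl fun x _ => ?_
    rw [← Finset.prod_mul_distrib]
    rfl
  rw [h3, h2, mul_assoc, hsq, mul_one]

/-- one factor -/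
theorem pf_sign {M cx cy rx ry wx wy : ℕ} (h1 : rx < M) (h2 : ry < M) (h3 : wx < M) (h4 : wy < M)
    (h5 : cy = cx → wy ≠ wx ∧ ry ≠ rx) :
    (Int.sign (((M * cy + wy : ℕ) : ℤ) - ((M * cx + wx : ℕ) : ℤ)) *
      Int.sign (((M * cy + ry : ℕ) : ℤ) - ((M * cx + rx : ℕ) : ℤ))) =
      pf (cx, rx) wx ((cy, ry), wy) := by
  unfold pf
  simp only
  rcases lt_trichotomy cy cx with h | h | h
  · rw [if_neg h.ne]
    have e1 : M * cy + M ≤ M * cx := by
      calc M * cy + M = M * (cy + 1) := by ring
        _ ≤ M * cx := Nat.mul_le_mul_left _ h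
    rw [Int.sign_eq_neg_one_of_neg (by omega), Int.sign_eq_neg_one_of_neg (by omega)]
    rfl
  · obtain ⟨h6, h7⟩ := h5 h
    subst h
    rw [if_pos rfl, if_neg h6]
    rcases lt_or_gt_of_ne h6 with h8 | h8 <;> rcases lt_or_gt_of_ne h7 with h9 | h9
    · rw [Int.sign_eq_neg_one_of_neg (by omega), Int.sign_eq_neg_one_of_neg (by omega), if_pos]
      · rfl
      · rw [decide_eq_true h8, decide_eq_true h9]
    · rw [Int.sign_eq_neg_one_of_neg (by omega), Int.sign_eq_one_of_pos (by omega), if_neg]
      · rfl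
      · rw [decide_eq_true h8, decide_eq_false (by omega)]; simp
    · rw [Int.sign_eq_one_of_pos (by omega), Int.sign_eq_neg_one_of_neg (by omega), if_neg]
      · rfl
      · rw [decide_eq_true h9, decide_eq_false (by omega)]; simp
    · rw [Int.sign_eq_one_of_pos (by omega), Int.sign_eq_one_of_pos (by omega), if_pos]
      · rfl
      · rw [decide_eq_false (by omega), decide_eq_false (by omega)]
  · rw [if_neg h.ne']
    have e1 : M * cx + M ≤ M * cy := by
      calc M * cx + M = M * (cx + 1) := by ring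
        _ ≤ M * cy := Nat.mul_le_mul_left _ h
    rw [Int.sign_eq_one_of_pos (by omega), Int.sign_eq_one_of_pos (by omega)]
    rfl

/-- PRODUCT FORMULA for a polytabloid (task SZ-5a). The tableau is `t`, the word is `w`. The left side
is the polytabloid (`pt_eq_sign`, `pt_ne_zero`). The right side: the product over the letters, each
against the later ones in the list. (Both sides are `0` unless on every column of height `m` the values
are exactly `0, …, m - 1`; then both are the sign of the column permutation: product over the pairs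
`x, y` in the same column of the sign of `(row x - row y) (w x - w y)`; cf. `Equiv.Perm.sign` as a
product over pairs, e.g. `Equiv.Perm.sign_aux`, `Equiv.Perm.prod_Iio_...`; or induct on swaps.) -/
theorem ptL_eq (a : List ℕ) (n : ℕ) (t : Fin n ≃ Cel a.get) (w : Fin n → ℕ) :
    pt t w = ((ptL a ((List.finRange n).map fun x =>
      ((((t x).1 : ℕ), ((t x).2 : ℕ)), w x)) : ℤ) : ℂ) := by
  classical
  rw [ptL_pairs a n (fun x => (((t x).1 : ℕ), ((t x).2 : ℕ))) w]
  have hget : ∀ x, a.getD ((t x).1 : ℕ) 0 = a.get (t x).1 := fun x => by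
    simp
  by_cases hex : ∃ s : Perm (Fin n), (∀ x, (t (s x)).1 = (t x).1) ∧
      ∀ x, w (s x) = ((t x).2 : ℕ)
  · obtain ⟨s, hs1, hs2⟩ := hex
    rw [pt_eq_sign t s hs1 hs2]
    congr 1
    have hc : ∀ y, (t (s.symm y)).1 = (t y).1 := fun y => by
      have := hs1 (s.symm y)
      rw [Equiv.apply_symm_apply] at this
      exact this.symm
    have hw : ∀ y, w y = ((t (s.symm y)).2 : ℕ) := fun y => by
      have := hs2 (s.symm y)
      rwa [Equiv.apply_symm_apply] at this
    obtain ⟨M, hM⟩ : ∃ M : ℕ, ∀ x, ((t x).2 : ℕ) < M := by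
      refine ⟨(Finset.univ.sup fun x => ((t x).2 : ℕ)) + 1, fun x => Nat.lt_succ_of_le ?_⟩
      exact Finset.le_sup (f := fun x => ((t x).2 : ℕ)) (Finset.mem_univ x)
    let f : Fin n → ℤ := fun x => ((M * ((t x).1 : ℕ) + ((t x).2 : ℕ) : ℕ) : ℤ)
    have hcel : ∀ c c' : Cel a.get, c.1 = c'.1 → (c.2 : ℕ) = (c'.2 : ℕ) → c = c' := by
      rintro ⟨i, r⟩ ⟨i', r'⟩ h1 h2
      simp only at h1 h2
      subst h1
      rw [Fin.ext h2]
    have hdm : ∀ x, (M * ((t x).1 : ℕ) + ((t x).2 : ℕ)) / M = ((t x).1 : ℕ) := fun x => by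
      have hMpos : 0 < M := lt_of_le_of_lt (Nat.zero_le _) (hM x)
      rw [Nat.mul_add_div hMpos, Nat.div_eq_of_lt (hM x), add_zero]
    have hf : Function.Injective f := by
      intro x y hxy
      have h1 : M * ((t x).1 : ℕ) + ((t x).2 : ℕ) = M * ((t y).1 : ℕ) + ((t y).2 : ℕ) :=
        Int.ofNat.inj hxy
      have h2 : ((t x).1 : ℕ) = ((t y).1 : ℕ) := by rw [← hdm x, ← hdm y, h1]
      have h3 : ((t x).2 : ℕ) = ((t y).2 : ℕ) := by rw [h2] at h1; omega
      exact t.injective (hcel _ _ (Fin.ext h2) h3)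
    have hfs : ∀ y, f (s.symm y) = ((M * ((t y).1 : ℕ) + w y : ℕ) : ℤ) := by
      intro y
      have h1 : ((t (s.symm y)).1 : ℕ) = ((t y).1 : ℕ) := congrArg _ (hc y)
      show ((M * ((t (s.symm y)).1 : ℕ) + ((t (s.symm y)).2 : ℕ) : ℕ) : ℤ) = _
      rw [h1, ← hw y]
    have e1 : (sign s : ℤ) = (sign s⁻¹ : ℤ) := by rw [Perm.sign_inv]
    rw [e1, sign_pairs f hf s⁻¹]
    refine Finset.prod_congr rfl fun x _ => ?_
    have e2 : w x < a.getD ((t x).1 : ℕ) 0 := by
      rw [hget, hw x, ← hc x]
      exact (t (s.symm x)).2.2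
    rw [if_pos e2, one_mul]
    refine Finset.prod_congr rfl fun y hy => ?_
    have hxy : x < y := Finset.mem_Ioi.1 hy
    have e3 : (s⁻¹ : Perm (Fin n)) y = s.symm y := rfl
    have e4 : (s⁻¹ : Perm (Fin n)) x = s.symm x := rfl
    rw [e3, e4, hfs, hfs]
    refine pf_sign (hM x) (hM y) ?_ ?_ ?_
    · rw [hw x]; exact hM _
    · rw [hw y]; exact hM _
    · intro h
      constructor
      · intro h'
        rw [hw, hw] at h'
        have := hcel (t (s.symm y)) (t (s.symm x)) (by rw [hc, hc]; exact Fin.ext h) h'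
        exact hxy.ne' (s.symm.injective (t.injective this))
      · intro h'
        exact hxy.ne' (t.injective (hcel _ _ (Fin.ext h) h'))
  · have hpt : pt t w = 0 := by
      by_contra h
      exact hex (pt_ne_zero h)
    rw [hpt]
    symm
    rw [Int.cast_eq_zero]
    by_contra hne0
    apply hex
    have hne := Finset.prod_ne_zero_iff.1 hne0
    have h1 : ∀ x, w x < a.get (t x).1 := by
      intro x
      have := hne x (Finset.mem_univ x)
      have h2 := left_ne_zero_of_mul this
      rw [hget] at h2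
      by_contra h3
      exact h2 (if_neg h3)
    have h2 : ∀ x y, x < y → (t y).1 = (t x).1 → w y ≠ w x := by
      intro x y hxy hc hw
      have h3 := right_ne_zero_of_mul (hne x (Finset.mem_univ x))
      rw [Finset.prod_ne_zero_iff] at h3
      refine h3 y (Finset.mem_Ioi.2 hxy) ?_
      unfold pf
      simp only
      rw [if_pos (by rw [hc]), if_pos hw]
    let u : Fin n → Cel a.get := fun x => ⟨(t x).1, ⟨w x, h1 x⟩⟩
    have hu : Function.Injective u := by
      intro x y hxy
      have e1 : (u x).1 = (u y).1 := congrArg Sigma.fst hxy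
      change (t x).1 = (t y).1 at e1
      have e2 : w x = w y := congrArg (fun c : Cel a.get => (c.2 : ℕ)) hxy
      rcases lt_trichotomy x y with h | h | h
      · exact absurd e2.symm (h2 x y h e1.symm)
      · exact h
      · exact absurd e2 (h2 y x h e1)
    have hcard : Fintype.card (Fin n) = Fintype.card (Cel a.get) := Fintype.card_congr t
    have hbij : Function.Bijective u := (Fintype.bijective_iff_injective_and_card u).2 ⟨hu, hcard⟩
    let U : Fin n ≃ Cel a.get := Equiv.ofBijective u hbij
    refine ⟨t.trans U.symm, ?_, ?_⟩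
    · intro x
      have h3 : U (U.symm (t x)) = t x := U.apply_symm_apply (t x)
      have h4 : (U (U.symm (t x))).1 = (t x).1 := congrArg Sigma.fst h3
      exact h4
    · intro x
      have : U (U.symm (t x)) = t x := U.apply_symm_apply (t x)
      exact congrArg (fun c : Cel a.get => (c.2 : ℕ)) this

end Crest.Agent.SZ
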