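import Crest.Agent.SZ_Mul
import Crest.Agent.SZ_PtL

/-!
# S0298 small `n`: direct certificates (task SZ-5b)
-/

set_option autoImplicit false

namespace Crest.Agent.SZ

open Equiv Equiv.Perm Crest.Agent.SX

/-- Signed depth-first search: the sum over all extensions of `prev` to words with labels in `S`
(the list `Ls` contains the cells of the remaining letters in the three tableaux). -/
def dfs (a b c : List ℕ) (S : List (ℕ × ℕ × ℕ)) :
    List ((ℕ × ℕ) × (ℕ × ℕ) × (ℕ × ℕ)) →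
      List (((ℕ × ℕ) × (ℕ × ℕ) × (ℕ × ℕ)) × (ℕ × ℕ × ℕ)) → ℤ
  | [], _ => 1
  | x :: xs, prev => (S.map fun l =>
      let f := fac a x.1 l.1 (prev.map fun q => (q.1.1, q.2.1))
      if f = 0 then 0 else
      let g := fac b x.2.1 l.2.1 (prev.map fun q => (q.1.2.1, q.2.2.1))
      if g = 0 then 0 else
      let h := fac c x.2.2 l.2.2 (prev.map fun q => (q.1.2.2, q.2.2.2))
      if h = 0 then 0 else f * g * h * dfs a b c S xs ((x, l) :: prev)).sum

/-- triples of cells -/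
abbrev TC : Type := (ℕ × ℕ) × (ℕ × ℕ) × (ℕ × ℕ)

/-- the product of the three polytabloids -/
def P3 (a b c : List ℕ) (q : List (TC × (ℕ × ℕ × ℕ))) : ℤ :=
  ptL a (q.map fun q => (q.1.1, q.2.1)) * ptL b (q.map fun q => (q.1.2.1, q.2.2.1)) *
    ptL c (q.map fun q => (q.1.2.2, q.2.2.2))

/-- sum over all words with labels in `S` -/
def sumW (S : List (ℕ × ℕ × ℕ)) : List TC → (List (TC × (ℕ × ℕ × ℕ)) → ℤ) → ℤ
  | [], G => G []
  | x :: xs, G => (S.map fun l => sumW S xs (fun q => G (q ++ [(x, l)]))).sum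

theorem dfs_eq (a b c : List ℕ) (S : List (ℕ × ℕ × ℕ)) (Ls : List TC) :
    ∀ prev : List (TC × (ℕ × ℕ × ℕ)),
      dfs a b c S Ls prev * P3 a b c prev = sumW S Ls (fun q => P3 a b c (q ++ prev)) := by
  induction Ls with
  | nil =>
    intro prev
    rw [dfs, sumW, one_mul, List.nil_append]
  | cons x xs ih =>
    intro prev
    rw [dfs, sumW, ← List.sum_map_mul_right]
    congr 1
    refine List.map_congr_left fun l _ => ?_
    have h1 : (fun q => P3 a b c (q ++ [(x, l)] ++ prev)) =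
        (fun q => P3 a b c (q ++ ((x, l) :: prev))) := by
      funext q
      rw [List.append_assoc, List.singleton_append]
    rw [h1, ← ih ((x, l) :: prev)]
    have h2 : P3 a b c ((x, l) :: prev) =
        (fac a x.1 l.1 (prev.map fun q => (q.1.1, q.2.1)) *
          fac b x.2.1 l.2.1 (prev.map fun q => (q.1.2.1, q.2.2.1)) *
          fac c x.2.2 l.2.2 (prev.map fun q => (q.1.2.2, q.2.2.2))) * P3 a b c prev := by
      unfold P3
      simp only [List.map_cons, ptL]
      ring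
    rw [h2]
    simp only
    split_ifs with hf hg hh
    · rw [hf]; ring
    · rw [hg]; ring
    · rw [hh]; ring
    · ring

/-- the value of a label -/
def lv {N : ℕ} (l : Fin N × Fin N × Fin N) : ℕ × ℕ × ℕ := ((l.1 : ℕ), (l.2.1 : ℕ), (l.2.2 : ℕ))

theorem lv_inj {N : ℕ} : Function.Injective (lv (N := N)) := by
  rintro ⟨x, y, z⟩ ⟨x', y', z'⟩ h
  simp only [lv, Prod.mk.injEq] at h
  obtain ⟨h1, h2, h3⟩ := h
  rw [Fin.ext h1, Fin.ext h2, Fin.ext h3]

theorem sum_S {N : ℕ} (S : List (ℕ × ℕ × ℕ)) (hS : S.Nodup)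
    (hN : ∀ l ∈ S, l.1 < N ∧ l.2.1 < N ∧ l.2.2 < N) (F : ℕ × ℕ × ℕ → ℤ) :
    (S.map F).sum = ∑ l : Fin N × Fin N × Fin N, (if lv l ∈ S then 1 else 0) * F (lv l) := by
  classical
  rw [← List.sum_toFinset F hS]
  have h1 : ∀ l : Fin N × Fin N × Fin N, (if lv l ∈ S then (1 : ℤ) else 0) * F (lv l) =
      if lv l ∈ S then F (lv l) else 0 := fun l => by
    split_ifs <;> simp
  simp only [h1]
  rw [← Finset.sum_filter]
  have h2 : S.toFinset = (Finset.univ.filter fun l : Fin N × Fin N × Fin N => lv l ∈ S).image lv := by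
    ext x
    simp only [List.mem_toFinset, Finset.mem_image, Finset.mem_filter, Finset.mem_univ, true_and]
    constructor
    · intro hx
      obtain ⟨h3, h4, h5⟩ := hN x hx
      exact ⟨(⟨x.1, h3⟩, ⟨x.2.1, h4⟩, ⟨x.2.2, h5⟩), hx, rfl⟩
    · rintro ⟨l, hl, rfl⟩
      exact hl
  rw [h2, Finset.sum_image fun x _ y _ h => lv_inj h]

theorem sumW_eq {N : ℕ} (S : List (ℕ × ℕ × ℕ)) (hS : S.Nodup)
    (hN : ∀ l ∈ S, l.1 < N ∧ l.2.1 < N ∧ l.2.2 < N) (n : ℕ) :
    ∀ (X : Fin n → TC) (G : List (TC × (ℕ × ℕ × ℕ)) → ℤ),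
      sumW S (List.ofFn X).reverse G =
        ∑ w : Fin n → Fin N × Fin N × Fin N, (∏ i, (if lv (w i) ∈ S then (1 : ℤ) else 0)) *
          G (List.ofFn fun i => (X i, lv (w i))) := by
  induction n with
  | zero =>
    intro X G
    simp [sumW]
  | succ n ih =>
    intro X G
    rw [List.ofFn_succ', List.concat_eq_append, List.reverse_append, List.reverse_singleton,
      List.singleton_append, sumW]
    have h1 : ∀ l : ℕ × ℕ × ℕ, sumW S (List.ofFn fun i => X (Fin.castSucc i)).reverse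
        (fun q => G (q ++ [(X (Fin.last n), l)])) = _ := fun l =>
      ih (fun i => X (Fin.castSucc i)) (fun q => G (q ++ [(X (Fin.last n), l)]))
    simp only [h1]
    rw [sum_S S hS hN]
    have e : ∀ g : (Fin (n + 1) → Fin N × Fin N × Fin N) → ℤ, ∑ w, g w =
        ∑ l : Fin N × Fin N × Fin N, ∑ w : Fin n → Fin N × Fin N × Fin N,
          g (Fin.snoc (α := fun _ => Fin N × Fin N × Fin N) w l) := by
      intro g
      rw [← Equiv.sum_comp (Fin.snocEquiv fun _ : Fin (n + 1) => Fin N × Fin N × Fin N) g,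
        Fintype.sum_prod_type]
      rfl
    rw [e]
    refine Finset.sum_congr rfl fun l _ => ?_
    rw [Finset.mul_sum]
    refine Finset.sum_congr rfl fun w _ => ?_
    rw [Fin.prod_univ_castSucc, List.ofFn_succ']
    simp only [Fin.snoc_castSucc, Fin.snoc_last]
    rw [List.concat_eq_append]
    ring

theorem mem_cellsL {a : List ℕ} {p : ℕ × ℕ} :
    p ∈ cellsL a ↔ p.1 < a.length ∧ p.2 < a.getD p.1 0 := by
  obtain ⟨i, r⟩ := p
  simp only [cellsL, List.mem_flatMap, List.mem_range, List.mem_map, Prod.mk.injEq]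
  constructor
  · rintro ⟨j, hj, r', hr', rfl, rfl⟩
    exact ⟨hj, hr'⟩
  · rintro ⟨h1, h2⟩
    exact ⟨i, h1, r, h2, rfl, rfl⟩

theorem nodup_cellsL (a : List ℕ) : (cellsL a).Nodup := by
  unfold cellsL
  rw [List.nodup_flatMap]
  constructor
  · intro i _
    refine List.Nodup.map ?_ List.nodup_range
    intro r r' h
    exact (Prod.mk.inj h).2
  · refine List.Pairwise.imp ?_ (List.nodup_range (n := a.length))
    intro i j hij
    show List.Disjoint _ _
    intro x hx hy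
    rw [List.mem_map] at hx hy
    obtain ⟨r, _, rfl⟩ := hx
    obtain ⟨r', _, h⟩ := hy
    exact hij (Prod.mk.inj h).1.symm

/-- tableaux from lists of cells -/
theorem exists_tab (a : List ℕ) (n : ℕ) (X : Fin n → ℕ × ℕ)
    (h : (List.ofFn X).Perm (cellsL a)) :
    ∃ t : Fin n ≃ Cel a.get, ∀ i, (((t i).1 : ℕ), ((t i).2 : ℕ)) = X i := by
  have hX : Function.Injective X := by
    rw [← List.nodup_ofFn]
    exact h.nodup_iff.2 (nodup_cellsL a)
  have hmem : ∀ i, (X i).1 < a.length ∧ (X i).2 < a.getD (X i).1 0 := fun i => by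
    rw [← mem_cellsL, ← h.mem_iff, List.mem_ofFn]
    exact ⟨i, rfl⟩
  have hget : ∀ (i : ℕ) (hi : i < a.length), a.getD i 0 = a.get ⟨i, hi⟩ := fun i hi => by
    simp [hi]
  let u : Fin n → Cel a.get := fun i =>
    ⟨⟨(X i).1, (hmem i).1⟩, ⟨(X i).2, by rw [← hget]; exact (hmem i).2⟩⟩
  have hu : ∀ i, (((u i).1 : ℕ), ((u i).2 : ℕ)) = X i := fun i => rfl
  have hcel : ∀ c c' : Cel a.get, c.1 = c'.1 → (c.2 : ℕ) = (c'.2 : ℕ) → c = c' := by
    rintro ⟨i, r⟩ ⟨i', r'⟩ h1 h2
    simp only at h1 h2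
    subst h1
    rw [Fin.ext h2]
  have hinj : Function.Injective u := by
    intro i j hij
    apply hX
    rw [← hu i, ← hu j, hij]
  have hsurj : Function.Surjective u := by
    intro c
    have h1 : ((c.1 : ℕ), (c.2 : ℕ)) ∈ cellsL a := by
      rw [mem_cellsL]
      refine ⟨c.1.2, ?_⟩
      show (c.2 : ℕ) < a.getD (c.1 : ℕ) 0
      rw [hget _ c.1.2]
      exact c.2.2
    rw [← h.mem_iff, List.mem_ofFn] at h1
    obtain ⟨i, hi⟩ := h1
    refine ⟨i, hcel _ _ (Fin.ext ?_) ?_⟩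
    · show (X i).1 = _
      rw [hi]
    · show (X i).2 = _
      rw [hi]
  exact ⟨Equiv.ofBijective u ⟨hinj, hsurj⟩, hu⟩

theorem sum_of_tab {a : List ℕ} {n : ℕ} (t : Fin n ≃ Cel a.get) : a.sum = n := by
  have h1 : Fintype.card (Fin n) = Fintype.card (Cel a.get) := Fintype.card_congr t
  rw [Fintype.card_fin, Fintype.card_sigma] at h1
  rw [h1]
  simp

theorem exists_bound (S : List (ℕ × ℕ × ℕ)) :
    ∃ N : ℕ, ∀ l ∈ S, l.1 < N ∧ l.2.1 < N ∧ l.2.2 < N := by
  induction S with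
  | nil => exact ⟨0, fun l hl => absurd hl (List.not_mem_nil)⟩
  | cons x xs ih =>
    obtain ⟨N, hN⟩ := ih
    refine ⟨N + x.1 + x.2.1 + x.2.2 + 1, fun l hl => ?_⟩
    rcases List.mem_cons.1 hl with rfl | hl
    · omega
    · have := hN l hl
      omega

theorem Kr_of_dfs (a b c : List ℕ) (n : ℕ) (X : Fin n → TC)
    (S : List (ℕ × ℕ × ℕ)) (hS : S.Nodup)
    (t₁ : Fin n ≃ Cel a.get) (h₁ : ∀ i, (((t₁ i).1 : ℕ), ((t₁ i).2 : ℕ)) = (X i).1)
    (t₂ : Fin n ≃ Cel b.get) (h₂ : ∀ i, (((t₂ i).1 : ℕ), ((t₂ i).2 : ℕ)) = (X i).2.1)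
    (t₃ : Fin n ≃ Cel c.get) (h₃ : ∀ i, (((t₃ i).1 : ℕ), ((t₃ i).2 : ℕ)) = (X i).2.2)
    (h : dfs a b c S (List.ofFn X).reverse [] ≠ 0) : Kr (Fin n) a.get b.get c.get := by
  classical
  obtain ⟨N, hN⟩ := exists_bound S
  have e1 := dfs_eq a b c S (List.ofFn X).reverse []
  have e2 : P3 a b c [] = 1 := by simp [P3, ptL]
  rw [e2, mul_one, sumW_eq S hS hN n X] at e1
  refine Kr_of_Phi (gen_mem_Sp3 t₁ t₂ t₃) N ?_
  intro h0
  apply h
  have h5 := congrArg (MvPolynomial.eval fun l : Fin N × Fin N × Fin N =>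
    (((if lv l ∈ S then (1 : ℤ) else 0 : ℤ)) : ℂ)) h0
  rw [map_zero] at h5
  unfold Phi at h5
  rw [map_sum] at h5
  rw [← Int.cast_inj (α := ℂ), Int.cast_zero, ← h5, e1, Int.cast_sum]
  refine Finset.sum_congr rfl fun w _ => ?_
  rw [map_mul, MvPolynomial.eval_C, map_prod]
  simp only [MvPolynomial.eval_X]
  rw [Int.cast_mul, Int.cast_prod, mul_comm]
  congr 1
  rw [List.append_nil]
  simp only [toW]
  rw [ptL_eq, ptL_eq, ptL_eq, ← Int.cast_mul, ← Int.cast_mul]
  congr 1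
  unfold P3
  simp only [List.ofFn_eq_map, List.map_map]
  congr 1
  · congr 1
    · congr 1
      refine List.map_congr_left fun x _ => ?_
      simp only [Function.comp_apply, h₁ x, lv]
    · congr 1
      refine List.map_congr_left fun x _ => ?_
      simp only [Function.comp_apply, h₂ x, lv]
  · congr 1
    refine List.map_congr_left fun x _ => ?_
    simp only [Function.comp_apply, h₃ x, lv]

/-- DIRECT CERTIFICATES (task SZ-5b). (`dfs` is the value of `Phi N (pt t₁ ⊗ pt t₂ ⊗ pt t₃)` at the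
point `X l = 1` for `l ∈ S`, `X l = 0` otherwise: split the sum over all words `Fin n → labels` letter
by letter, use `ptL_eq`; the order of the letters in the list is not important, for instance letter
`i` = entry number `i` of `Ls.reverse`. Then `Kr_of_Phi` and `Kr_relabel`.) -/
theorem KL_of_dfs (a b c : List ℕ) (Ls : List ((ℕ × ℕ) × (ℕ × ℕ) × (ℕ × ℕ)))
    (S : List (ℕ × ℕ × ℕ)) (hS : S.Nodup) (h1 : (Ls.map fun x => x.1).Perm (cellsL a))
    (h2 : (Ls.map fun x => x.2.1).Perm (cellsL b)) (h3 : (Ls.map fun x => x.2.2).Perm (cellsL c))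
    (h : dfs a b c S Ls [] ≠ 0) : KL a b c := by
  classical
  have key : ∀ (f : TC → ℕ × ℕ) (d : List ℕ), (Ls.map f).Perm (cellsL d) →
      (List.ofFn fun i : Fin Ls.reverse.length => f (Ls.reverse.get i)).Perm (cellsL d) := by
    intro f d hd
    have e1 : (List.ofFn fun i : Fin Ls.reverse.length => f (Ls.reverse.get i)) =
        Ls.reverse.map f := by
      conv_rhs => rw [← List.ofFn_get Ls.reverse]
      rw [List.map_ofFn]
      rfl
    rw [e1, List.map_reverse]
    exact (List.reverse_perm _).trans hd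
  obtain ⟨t₁, ht₁⟩ := exists_tab a _ _ (key (fun x => x.1) a h1)
  obtain ⟨t₂, ht₂⟩ := exists_tab b _ _ (key (fun x => x.2.1) b h2)
  obtain ⟨t₃, ht₃⟩ := exists_tab c _ _ (key (fun x => x.2.2) c h3)
  have hk : Kr (Fin Ls.reverse.length) a.get b.get c.get := by
    refine Kr_of_dfs a b c _ (fun i => Ls.reverse.get i) S hS t₁ ht₁ t₂ ht₂ t₃ ht₃ ?_
    have e1 : List.ofFn (fun i => Ls.reverse.get i) = Ls.reverse := List.ofFn_get _
    rw [e1, List.reverse_reverse]
    exact h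
  refine ⟨(sum_of_tab t₁).trans (sum_of_tab t₃).symm, (sum_of_tab t₂).trans (sum_of_tab t₃).symm,
    fun Ω _ _ hΩ => ?_⟩
  have e2 : Fintype.card (Fin Ls.reverse.length) = Fintype.card Ω := by
    rw [hΩ, Fintype.card_fin, sum_of_tab t₃]
  exact Kr_relabel (Fintype.equivOfCardEq e2) hk

end Crest.Agent.SZ
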