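import Crest.Agent.SZ_Defs

/-!
# S0298 small `n`: codes of partitions (task SZ-6a)
-/

set_option autoImplicit false

namespace Crest.Agent.SZ

open Equiv Equiv.Perm Crest.Agent.SX

/-- Sum of the base 64 digits. -/
def dsum : ℕ → ℕ → ℕ
  | 0, _ => 0
  | f + 1, a => a % 64 + dsum f (a / 64)

def trR : ℕ → ℕ → ℕ → ℕ
  | 0, _, _ => 0
  | f + 1, a, r => if r = 0 then 0 else 64 ^ (r - 1) + trR f (a / 64) (r - a % 64)

/-- Conjugation on codes. -/
def trC (a : ℕ) : ℕ := trR 64 a (dsum 64 a)

/-- The codes of the partitions of `n` with columns of height `≤ k`. -/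
def gen : ℕ → ℕ → List ℕ
  | 0, n => if n = 0 then [0] else []
  | k + 1, n => (List.range (n / (k + 1) + 1)).flatMap fun j =>
      (gen k (n - j * (k + 1))).map fun x => x + j * 64 ^ k

/-! ### SZ-6a -/

theorem enc_append (a b : List ℕ) : enc (a ++ b) = enc a + enc b := by
  simp [enc]

theorem enc_perm {a b : List ℕ} (h : a.Perm b) : enc a = enc b := by
  unfold enc
  exact (h.map _).sum_eq

/-- remove the ones, lower the other entries -/
private def sh (l : List ℕ) : List ℕ := (l.filter fun h => decide (1 < h)).map fun h => h - 1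

private theorem sh_nil : sh [] = [] := rfl

private theorem sh_cons_of_lt {h : ℕ} (l : List ℕ) (hh : 1 < h) : sh (h :: l) = (h - 1) :: sh l := by
  unfold sh
  rw [List.filter_cons_of_pos (by simpa using hh), List.map_cons]

private theorem sh_cons_of_le {h : ℕ} (l : List ℕ) (hh : ¬ 1 < h) : sh (h :: l) = sh l := by
  unfold sh
  rw [List.filter_cons_of_neg (by simpa using hh)]

private theorem sh_pos (l : List ℕ) : ∀ h ∈ sh l, 0 < h := by
  intro h hh
  unfold sh at hh
  rw [List.mem_map] at hh
  obtain ⟨k, hk, rfl⟩ := hh
  rw [List.mem_filter] at hk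
  have : 1 < k := by simpa using hk.2
  omega

private theorem sh_le {l : List ℕ} {f : ℕ} (hl : ∀ h ∈ l, h ≤ f + 1) : ∀ h ∈ sh l, h ≤ f := by
  intro h hh
  unfold sh at hh
  rw [List.mem_map] at hh
  obtain ⟨k, hk, rfl⟩ := hh
  rw [List.mem_filter] at hk
  have := hl k hk.1
  omega

private theorem enc_sh {l : List ℕ} (hl : ∀ h ∈ l, 0 < h) :
    enc l = l.count 1 + 64 * enc (sh l) := by
  induction l with
  | nil => simp [enc, sh]
  | cons h l ih =>
    have ih' := ih fun k hk => hl k (List.mem_cons_of_mem _ hk)
    have h0 : 0 < h := hl h List.mem_cons_self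
    have e : enc (h :: l) = 64 ^ (h - 1) + enc l := by simp [enc]
    rw [e, ih']
    by_cases h1 : 1 < h
    · rw [sh_cons_of_lt l h1, List.count_cons_of_ne (by omega)]
      have e2 : enc ((h - 1) :: sh l) = 64 ^ (h - 1 - 1) + enc (sh l) := by simp [enc]
      rw [e2]
      obtain ⟨k, rfl⟩ : ∃ k, h = k + 2 := ⟨h - 2, by omega⟩
      have e3 : k + 2 - 1 = k + 1 := by omega
      rw [e3, Nat.add_sub_cancel, pow_succ]
      ring
    · have h2 : h = 1 := by omega
      subst h2
      rw [sh_cons_of_le l h1, List.count_cons_self]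
      simp only [Nat.sub_self, pow_zero]
      ring

private theorem length_sh {l : List ℕ} (hl : ∀ h ∈ l, 0 < h) :
    (sh l).length + l.count 1 = l.length := by
  induction l with
  | nil => rfl
  | cons h l ih =>
    have ih' := ih fun k hk => hl k (List.mem_cons_of_mem _ hk)
    have h0 : 0 < h := hl h List.mem_cons_self
    by_cases h1 : 1 < h
    · rw [sh_cons_of_lt l h1, List.count_cons_of_ne (by omega), List.length_cons, List.length_cons]
      omega
    · have h2 : h = 1 := by omega
      subst h2
      rw [sh_cons_of_le l h1, List.count_cons_self, List.length_cons]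
      omega

private theorem count_sh (l : List ℕ) (d : ℕ) : (sh l).count (d + 1) = l.count (d + 2) := by
  induction l with
  | nil => rfl
  | cons h l ih =>
    by_cases h1 : 1 < h
    · rw [sh_cons_of_lt l h1, List.count_cons, List.count_cons, ih]
      congr 1
      by_cases h2 : h = d + 2
      · subst h2; simp
      · have h3 : ¬ h - 1 = d + 1 := by omega
        simp [h2, h3]
    · rw [sh_cons_of_le l h1, List.count_cons_of_ne (by omega), ih]

private theorem countP_sh (l : List ℕ) (i : ℕ) :
    (sh l).countP (fun h => decide (i < h)) = l.countP (fun h => decide (i + 1 < h)) := by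
  induction l with
  | nil => rfl
  | cons h l ih =>
    by_cases h1 : 1 < h
    · rw [sh_cons_of_lt l h1, List.countP_cons, List.countP_cons, ih]
      congr 1
      by_cases h2 : i + 1 < h
      · have h3 : i < h - 1 := by omega
        simp [h2, h3]
      · have h3 : ¬ i < h - 1 := by omega
        simp [h2, h3]
    · rw [sh_cons_of_le l h1, List.countP_cons, ih]
      have h2 : ¬ i + 1 < h := by omega
      simp [h2]

private theorem max_sh (l : List ℕ) : (sh l).foldr max 0 = l.foldr max 0 - 1 := by
  induction l with
  | nil => rfl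
  | cons h l ih =>
    by_cases h1 : 1 < h
    · rw [sh_cons_of_lt l h1, List.foldr_cons, List.foldr_cons, ih]
      omega
    · rw [sh_cons_of_le l h1, List.foldr_cons, ih]
      omega

private theorem le_max {l : List ℕ} {h : ℕ} (hh : h ∈ l) : h ≤ l.foldr max 0 := by
  induction l with
  | nil => simp at hh
  | cons k l ih =>
    rw [List.foldr_cons]
    rcases List.mem_cons.1 hh with rfl | h2
    · exact le_max_left _ _
    · exact (ih h2).trans (le_max_right _ _)

private theorem exists_lt_of_lt_max {l : List ℕ} {i : ℕ} (hi : i < l.foldr max 0) :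
    ∃ h ∈ l, i < h := by
  induction l with
  | nil => simp at hi
  | cons k l ih =>
    rw [List.foldr_cons] at hi
    rcases lt_max_iff.1 hi with h1 | h1
    · exact ⟨k, List.mem_cons_self, h1⟩
    · obtain ⟨h, hh, h2⟩ := ih h1
      exact ⟨h, List.mem_cons_of_mem _ hh, h2⟩

private theorem trL_cons {l : List ℕ} (hl : ∀ h ∈ l, 0 < h) (hne : l ≠ []) :
    trL l = l.length :: trL (sh l) := by
  have hM : 0 < l.foldr max 0 := by
    obtain ⟨h, hh⟩ := List.exists_mem_of_ne_nil l hne
    exact (hl h hh).trans_le (le_max hh)
  obtain ⟨M, hM'⟩ : ∃ M, l.foldr max 0 = M + 1 := ⟨l.foldr max 0 - 1, by omega⟩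
  unfold trL
  rw [max_sh, hM', List.range_succ_eq_map, List.map_cons, Nat.add_sub_cancel, List.map_map]
  congr 1
  · rw [List.countP_eq_length]
    intro h hh
    simpa using hl h hh
  · refine List.map_congr_left fun i _ => ?_
    rw [countP_sh]
    rfl

private theorem trL_nil : trL [] = [] := rfl

private theorem length_trL (l : List ℕ) : (trL l).length = l.foldr max 0 := by
  unfold trL
  rw [List.length_map, List.length_range]

theorem length_le_sum {l : List ℕ} (hl : ∀ h ∈ l, 0 < h) : l.length ≤ l.sum := by
  induction l with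
  | nil => simp
  | cons h l ih =>
    have ih' := ih fun k hk => hl k (List.mem_cons_of_mem _ hk)
    have h0 : 0 < h := hl h List.mem_cons_self
    rw [List.length_cons, List.sum_cons]
    omega

theorem le_sum {l : List ℕ} {h : ℕ} (hh : h ∈ l) : h ≤ l.sum := by
  induction l with
  | nil => simp at hh
  | cons k l ih =>
    rw [List.sum_cons]
    rcases List.mem_cons.1 hh with rfl | h2
    · omega
    · have := ih h2
      omega

private theorem enc_mod {l : List ℕ} (hl : ∀ h ∈ l, 0 < h) (hlen : l.length ≤ 63) :
    enc l % 64 = l.count 1 ∧ enc l / 64 = enc (sh l) := by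
  have h1 := enc_sh hl
  have h2 : l.count 1 ≤ l.length := List.count_le_length
  omega

private theorem digit {d : ℕ} : ∀ {a b : List ℕ}, (∀ h ∈ a, 0 < h) → (∀ h ∈ b, 0 < h) →
    a.length ≤ 63 → b.length ≤ 63 → enc a = enc b → a.count (d + 1) = b.count (d + 1) := by
  induction d with
  | zero =>
    intro a b ha hb ha' hb' h
    rw [zero_add, ← (enc_mod ha ha').1, ← (enc_mod hb hb').1, h]
  | succ d ih =>
    intro a b ha hb ha' hb' h
    have h1 := length_sh ha
    have h2 := length_sh hb
    have h3 := ih (sh_pos a) (sh_pos b) (by omega) (by omega)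
      (by rw [← (enc_mod ha ha').2, ← (enc_mod hb hb').2, h])
    rw [count_sh, count_sh] at h3
    exact h3

/-- The code determines the list up to order (the digit number `h - 1` is the number of entries `h`,
at most `63`). -/
theorem perm_of_enc {a b : List ℕ} (ha : ∀ h ∈ a, 0 < h) (hb : ∀ h ∈ b, 0 < h) (ha' : a.sum ≤ 63)
    (hb' : b.sum ≤ 63) (h : enc a = enc b) : a.Perm b := by
  rw [List.perm_iff_count]
  intro k
  rcases Nat.eq_zero_or_pos k with hk | hk
  · subst hk
    rw [List.count_eq_zero_of_not_mem fun h0 => absurd (ha 0 h0) (lt_irrefl _),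
      List.count_eq_zero_of_not_mem fun h0 => absurd (hb 0 h0) (lt_irrefl _)]
  · obtain ⟨d, rfl⟩ : ∃ d, k = d + 1 := ⟨k - 1, by omega⟩
    exact digit ha hb ((length_le_sum ha).trans ha') ((length_le_sum hb).trans hb') h

theorem dsum_enc (f : ℕ) : ∀ {a : List ℕ}, (∀ h ∈ a, 0 < h) → (∀ h ∈ a, h ≤ f) →
    a.length ≤ 63 → dsum f (enc a) = a.length := by
  induction f with
  | zero =>
    intro a ha ha' _
    have : a = [] := by
      rw [List.eq_nil_iff_forall_not_mem]
      intro h hh
      have h1 := ha h hh
      have h2 := ha' h hh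
      omega
    subst this
    rfl
  | succ f ih =>
    intro a ha ha' hlen
    have h1 := length_sh ha
    have h2 := enc_mod ha hlen
    show enc a % 64 + dsum f (enc a / 64) = a.length
    rw [h2.1, h2.2, ih (sh_pos a) (sh_le ha') (by omega)]
    omega

theorem trR_enc (f : ℕ) : ∀ {a : List ℕ}, (∀ h ∈ a, 0 < h) → (∀ h ∈ a, h ≤ f) →
    a.length ≤ 63 → trR f (enc a) a.length = enc (trL a) := by
  induction f with
  | zero =>
    intro a ha ha' _
    have : a = [] := by
      rw [List.eq_nil_iff_forall_not_mem]
      intro h hh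
      have h1 := ha h hh
      have h2 := ha' h hh
      omega
    subst this
    rfl
  | succ f ih =>
    intro a ha ha' hlen
    by_cases hne : a = []
    · subst hne
      rfl
    · have h1 := length_sh ha
      have h2 := enc_mod ha hlen
      have h3 : a.length ≠ 0 := by
        intro h0
        exact hne (List.length_eq_zero_iff.1 h0)
      show (if a.length = 0 then 0 else 64 ^ (a.length - 1) +
        trR f (enc a / 64) (a.length - enc a % 64)) = enc (trL a)
      rw [if_neg h3, h2.1, h2.2]
      have h4 : a.length - a.count 1 = (sh a).length := by omega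
      rw [h4, ih (sh_pos a) (sh_le ha') (by omega), trL_cons ha hne]
      simp [enc]

theorem trC_enc {a : List ℕ} (ha : ∀ h ∈ a, 0 < h) (ha' : a.sum ≤ 63) :
    enc (trL a) = trC (enc a) := by
  have h1 : ∀ h ∈ a, h ≤ 64 := fun h hh => by
    have := le_sum hh
    omega
  have h2 := (length_le_sum ha).trans ha'
  unfold trC
  rw [dsum_enc 64 ha h1 h2, trR_enc 64 ha h1 h2]

theorem trL_pos (a : List ℕ) : ∀ h ∈ trL a, 0 < h := by
  intro h hh
  unfold trL at hh
  rw [List.mem_map] at hh
  obtain ⟨i, hi, rfl⟩ := hh
  rw [List.mem_range] at hi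
  obtain ⟨k, hk, hik⟩ := exists_lt_of_lt_max hi
  rw [List.countP_pos_iff]
  exact ⟨k, hk, by simpa using hik⟩

private theorem perm_sh {l : List ℕ} (hl : ∀ h ∈ l, 0 < h) :
    ((sh l).map (· + 1) ++ List.replicate (l.count 1) 1).Perm l := by
  induction l with
  | nil => exact List.Perm.refl _
  | cons h l ih =>
    have ih' := ih fun k hk => hl k (List.mem_cons_of_mem _ hk)
    have h0 : 0 < h := hl h List.mem_cons_self
    by_cases h1 : 1 < h
    · rw [sh_cons_of_lt l h1, List.count_cons_of_ne (by omega), List.map_cons, List.cons_append]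
      have e : h - 1 + 1 = h := by omega
      rw [e]
      exact ih'.cons _
    · have h2 : h = 1 := by omega
      subst h2
      rw [sh_cons_of_le l h1, List.count_cons_self, List.replicate_succ]
      exact List.perm_middle.trans (ih'.cons _)

private theorem range_map_split (M n : ℕ) (hMn : M ≤ n) (c : ℕ → ℕ) (hc : ∀ i, M ≤ i → c i = 0) :
    (List.range n).map (fun i => c i + 1) =
      ((List.range M).map c).map (· + 1) ++ List.replicate (n - M) 1 := by
  obtain ⟨k, rfl⟩ : ∃ k, n = M + k := ⟨n - M, by omega⟩
  rw [List.range_add, List.map_append, List.map_map, List.map_map, Nat.add_sub_cancel_left]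
  congr 1
  rw [List.eq_replicate_iff]
  constructor
  · simp
  · intro b hb
    rw [List.mem_map] at hb
    obtain ⟨i, _, rfl⟩ := hb
    simp [hc (M + i) (Nat.le_add_right _ _)]

private theorem trL_cons_max {n : ℕ} {t : List ℕ} (hn : t.foldr max 0 ≤ n) :
    trL (n :: t) = (trL t).map (· + 1) ++ List.replicate (n - t.foldr max 0) 1 := by
  have h1 : (n :: t).foldr max 0 = n := by
    rw [List.foldr_cons]
    exact max_eq_left hn
  have h2 : trL (n :: t) = (List.range n).map fun i =>
      (t.countP fun h => decide (i < h)) + 1 := by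
    unfold trL
    rw [h1]
    refine List.map_congr_left fun i hi => ?_
    rw [List.mem_range] at hi
    rw [List.countP_cons]
    simp [hi]
  rw [h2, range_map_split (t.foldr max 0) n hn]
  · rfl
  · intro i hi
    rw [List.countP_eq_zero]
    intro h hh
    have := le_max hh
    simp only [decide_eq_true_eq]
    omega

private theorem trL_trL_aux (f : ℕ) : ∀ {a : List ℕ}, (∀ h ∈ a, 0 < h) → (∀ h ∈ a, h ≤ f) →
    (trL (trL a)).Perm a := by
  induction f with
  | zero =>
    intro a ha ha'
    have : a = [] := by
      rw [List.eq_nil_iff_forall_not_mem]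
      intro h hh
      have h1 := ha h hh
      have h2 := ha' h hh
      omega
    subst this
    exact List.Perm.refl _
  | succ f ih =>
    intro a ha ha'
    by_cases hne : a = []
    · subst hne
      exact List.Perm.refl _
    · have h1 := length_sh ha
      have h2 := ih (sh_pos a) (sh_le ha')
      have h3 : (trL (sh a)).foldr max 0 = (sh a).length := by
        rw [← length_trL]
        exact h2.length_eq
      rw [trL_cons ha hne, trL_cons_max (by rw [h3]; omega), h3]
      have h4 : a.length - (sh a).length = a.count 1 := by omega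
      rw [h4]
      exact ((h2.map _).append_right _).trans (perm_sh ha)

theorem trL_trL {a : List ℕ} (ha : ∀ h ∈ a, 0 < h) : (trL (trL a)).Perm a :=
  trL_trL_aux (a.foldr max 0) ha fun _ hh => le_max hh

end Crest.Agent.SZ
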