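import Crest.Agent.SZ_Mul
import Crest.Agent.SX_Main
import Crest.Agent.SX_Int

/-!
# S0298 small `n`: from equivariant maps; trivial and Saxl triples (task SZ-4a)
-/

set_option autoImplicit false

namespace Crest.Agent.SZ

open Equiv Equiv.Perm TensorProduct Crest.Agent.SX

variable {Ω ι κ : Type} [Fintype Ω] [DecidableEq Ω]

private theorem pt_sq {h : ι → ℕ} (t : Ω ≃ Cel h) (w : Ω → ℕ) (hw : pt t w ≠ 0) :
    pt t w * pt t w = 1 := by
  obtain ⟨s, h1, h2⟩ := pt_ne_zero hw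
  rw [pt_eq_sign t s h1 h2, ← Int.cast_mul, ← Units.val_mul, Int.units_mul_self]
  simp

open scoped Classical in
private theorem sum_sq_ne {G : Type} [Fintype G] (c : G → ℂ) (hc : ∀ g, c g ≠ 0 → c g * c g = 1)
    (g₀ : G) (h0 : c g₀ ≠ 0) : ∑ g, c g * c g ≠ 0 := by
  have h1 : ∀ g, c g * c g = if c g ≠ 0 then 1 else 0 := by
    intro g
    split_ifs with h
    · exact hc g h
    · rw [not_not] at h
      rw [h, mul_zero]
  rw [Finset.sum_congr rfl fun g _ => h1 g, Finset.sum_boole]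
  rw [Nat.cast_ne_zero, Finset.card_ne_zero]
  exact ⟨g₀, Finset.mem_filter.2 ⟨Finset.mem_univ _, h0⟩⟩

private theorem VV_mul_pt {a : ι → ℕ} {c : κ → ℕ} {F : WW Ω → ℂ} (hF : F ∈ VV (Ω := Ω) a)
    (t : Ω ≃ Cel c) : (fun x : W3 Ω => F (x.1, x.2.1) * pt t x.2.2) ∈ Sp3 (Ω := Ω) a a c := by
  refine Submodule.span_induction
    (p := fun F _ => (fun x : W3 Ω => F (x.1, x.2.1) * pt t x.2.2) ∈ Sp3 (Ω := Ω) a a c)
    ?_ ?_ ?_ ?_ hF
  · rintro _ ⟨t1, t2, rfl⟩
    exact gen_mem_Sp3 t1 t2 t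
  · have : (fun x : W3 Ω => (0 : WW Ω → ℂ) (x.1, x.2.1) * pt t x.2.2) = 0 := by
      funext x
      simp
    rw [this]
    exact Submodule.zero_mem _
  · intro F G _ _ h1 h2
    have : (fun x : W3 Ω => (F + G) (x.1, x.2.1) * pt t x.2.2) =
        (fun x : W3 Ω => F (x.1, x.2.1) * pt t x.2.2) +
          fun x : W3 Ω => G (x.1, x.2.1) * pt t x.2.2 := by
      funext x
      simp [add_mul]
    rw [this]
    exact Submodule.add_mem _ h1 h2
  · intro r F _ h1
    have : (fun x : W3 Ω => (r • F) (x.1, x.2.1) * pt t x.2.2) =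
        r • fun x : W3 Ω => F (x.1, x.2.1) * pt t x.2.2 := by
      funext x
      simp [mul_assoc]
    rw [this]
    exact Submodule.smul_mem _ r h1

/-- From an equivariant map to an invariant function. With `e = pt t`, `t : Ω ≃ Cel c`, take
`H (u, v, w) = ∑_g j e (pull g (u, v)) * e (w ∘ g)`. It is invariant, in `Sp3 a a c`, and for `w₀` = row
word of `t` and the vector `y = ∑_g e (w₀ ∘ g) • (g e)` of `Sp c` (`y w₀ = ∑_g (e (w₀ ∘ g))^2 > 0`)
we have `H (u, v, w₀) = j y (u, v)`, which is not identically `0`. -/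
theorem Kr_of_hom [Fintype κ] {a : ι → ℕ} {c : κ → ℕ} (t : Ω ≃ Cel c)
    (j : Sp (Ω := Ω) c →ₗ[ℂ] (WW Ω → ℂ)) (hj0 : Function.Injective j)
    (hj : ∀ g F x, j (SpRep Ω c g F) x = j F (pull g x)) (hV : ∀ F, j F ∈ VV (Ω := Ω) a) :
    Kr Ω a a c := by
  classical
  set e : Sp (Ω := Ω) c := ⟨pt t, pt_mem_Sp t⟩ with he
  refine ⟨∑ g : Perm Ω, fun x : W3 Ω => j e (pull g (x.1, x.2.1)) * pt t (x.2.2 ∘ g), ?_, ?_, ?_⟩
  · refine Submodule.sum_mem _ fun g _ => ?_
    have h1 : (fun x : W3 Ω => j e (pull g (x.1, x.2.1)) * pt t (x.2.2 ∘ g)) =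
        fun x : W3 Ω => (fun y => j e (pull g y)) (x.1, x.2.1) * pt (g.symm.trans t) x.2.2 := by
      funext x
      rw [pt_comp]
    rw [h1]
    exact VV_mul_pt (VV_pull (hV e) g) _
  · intro h0
    set w₀ : Ω → ℕ := fun x => ((t x).2 : ℕ) with hw₀
    have h1 : j (∑ g : Perm Ω, pt t (w₀ ∘ g) • SpRep Ω c g e) = 0 := by
      funext y
      have h2 := congrFun h0 (y.1, y.2, w₀)
      rw [Finset.sum_apply] at h2
      rw [map_sum, Finset.sum_apply, Pi.zero_apply]
      rw [Pi.zero_apply] at h2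
      rw [← h2]
      refine Finset.sum_congr rfl fun g _ => ?_
      rw [map_smul, Pi.smul_apply, hj, smul_eq_mul, mul_comm]
    have h3 : (∑ g : Perm Ω, pt t (w₀ ∘ g) • SpRep Ω c g e) = 0 := hj0 (by rw [h1, map_zero])
    have h4 := congrArg (fun F : Sp (Ω := Ω) c => F.1 w₀) h3
    have h5 : ((∑ g : Perm Ω, pt t (w₀ ∘ g) • SpRep Ω c g e : Sp (Ω := Ω) c)).1 w₀ =
        ∑ g : Perm Ω, pt t (w₀ ∘ g) * pt t (w₀ ∘ g) := by
      rw [Submodule.coe_sum, Finset.sum_apply]
      rfl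
    simp only [h5] at h4
    refine sum_sq_ne (fun g : Perm Ω => pt t (w₀ ∘ g)) (fun g hg => pt_sq t _ hg) 1 ?_ h4
    have h6 : pt t (w₀ ∘ (1 : Perm Ω)) = 1 := pt_self t
    simp only [h6]
    exact one_ne_zero
  · intro g x
    rw [Finset.sum_apply, Finset.sum_apply]
    exact Fintype.sum_equiv (Equiv.mulLeft g) _ _ fun g' => rfl

/-- Trivial triples. (`H (u, v, w) = [u = 0] * ∑_g pt t (v ∘ g) * pt t (w ∘ g)`, value `> 0` at
`(0, row word, row word)`.) -/
theorem KL_triv (a : List ℕ) : KL (List.replicate a.sum 1) a a := by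
  refine ⟨by simp, rfl, fun Ω _ _ hΩ => ?_⟩
  have hcard : ∀ l : List ℕ, l.sum = Fintype.card Ω → Nonempty (Ω ≃ Cel l.get) := by
    intro l hl
    apply Fintype.card_eq.1
    rw [Fintype.card_sigma]
    simp only [Fintype.card_fin]
    rw [← hl, ← List.sum_ofFn, List.ofFn_get]
  obtain ⟨t⟩ := hcard a hΩ.symm
  obtain ⟨t0⟩ := hcard (List.replicate a.sum 1) (by simp [hΩ])
  refine ⟨∑ g : Perm Ω, fun x : W3 Ω => pt t0 (x.1 ∘ g) * pt t (x.2.1 ∘ g) * pt t (x.2.2 ∘ g),
    ?_, ?_, ?_⟩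
  · refine Submodule.sum_mem _ fun g _ => ?_
    simp only [pt_comp]
    exact gen_mem_Sp3 _ _ _
  · intro h0
    set w₀ : Ω → ℕ := fun x => ((t x).2 : ℕ) with hw₀
    have h2 := congrFun h0 ((fun _ => 0), w₀, w₀)
    rw [Finset.sum_apply, Pi.zero_apply] at h2
    have h3 : ∀ g : Perm Ω, pt t0 ((fun _ : Ω => (0 : ℕ)) ∘ g) = 1 := by
      intro g
      have h4 : ((fun _ : Ω => (0 : ℕ)) ∘ g) = fun x => ((t0 x).2 : ℕ) := by
        funext x
        have h6 : (List.replicate a.sum 1).get (t0 x).1 = 1 := by simp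
        have h5 : ((t0 x).2 : ℕ) < 1 := lt_of_lt_of_eq (t0 x).2.isLt h6
        simp only [Function.comp_apply]
        omega
      rw [h4, pt_self]
    simp only [h3, one_mul] at h2
    refine sum_sq_ne (fun g : Perm Ω => pt t (w₀ ∘ g)) (fun g hg => pt_sq t _ hg) 1 ?_ h2
    have h6 : pt t (w₀ ∘ (1 : Perm Ω)) = 1 := pt_self t
    simp only [h6]
    exact one_ne_zero
  · intro g x
    rw [Finset.sum_apply, Finset.sum_apply]
    exact Fintype.sum_equiv (Equiv.mulLeft g) _ _ fun g' => rfl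

private theorem stair_sum (k : ℕ) : 2 * (stairL k).sum = k * (k + 1) := by
  unfold stairL
  induction k with
  | zero => simp
  | succ k ih =>
    rw [List.range_succ, List.map_append, List.sum_append, mul_add, ih]
    simp
    ring

private theorem exists_stair {Ω : Type} [Fintype Ω] (k : ℕ)
    (hΩ : 2 * Fintype.card Ω = k * (k + 1)) : ∃ p : WW Ω, IsStair k p := by
  have h1 : Fintype.card Ω = Fintype.card (Σ r : Fin k, Fin (k - r)) := by
    rw [Fintype.card_sigma]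
    simp only [Fintype.card_fin]
    have h2 : 2 * ∑ r : Fin k, (k - (r : ℕ)) = k * (k + 1) := by
      rw [Fin.sum_univ_eq_sum_range (fun r => k - r) k, ← Finset.sum_range_reflect]
      have h3 : ∀ j ∈ Finset.range k, k - (k - 1 - j) = j + 1 := by
        intro j hj
        have := Finset.mem_range.1 hj
        omega
      rw [Finset.sum_congr rfl h3, Finset.sum_add_distrib, mul_add, mul_comm 2 (∑ i ∈ _, i),
        Finset.sum_range_id_mul_two]
      simp
      rcases k with _ | k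
      · simp
      · simp
        ring
    omega
  obtain ⟨e⟩ := Fintype.card_eq.1 h1
  refine ⟨(fun x => ((e x).1 : ℕ), fun x => ((e x).2 : ℕ)), ?_, ?_⟩
  · intro x y hxy
    simp only [Prod.mk.injEq] at hxy
    apply e.injective
    obtain ⟨h3, h4⟩ := hxy
    generalize e x = u at h3 h4
    generalize e y = v at h3 h4
    obtain ⟨r, q⟩ := u
    obtain ⟨r', q'⟩ := v
    have h5 : r = r' := Fin.ext h3
    subst h5
    have h6 : q = q' := Fin.ext h4
    subst h6
    rfl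
  · intro x
    have h3 := (e x).2.isLt
    have h4 := (e x).1.isLt
    show ((e x).1 : ℕ) + ((e x).2 : ℕ) < k
    omega

/-- Saxl triples (from S0297: `exists_val`, `saxl_all`, `Sp_irr`, `Kr_of_hom`). -/
theorem KL_saxl (k : ℕ) (c : List ℕ) (hc : 2 * c.sum = k * (k + 1)) :
    KL (stairL k) (stairL k) c := by
  have hs := stair_sum k
  refine ⟨by omega, by omega, fun Ω _ _ hΩ => ?_⟩
  obtain ⟨V, hV⟩ := exists_val
  have hΩ' : 2 * Fintype.card Ω = k * (k + 1) := by rw [hΩ, hc]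
  obtain ⟨p, hp⟩ := exists_stair (Ω := Ω) k hΩ'
  have hne : Nonempty (Ω ≃ Cel c.get) := by
    apply Fintype.card_eq.1
    rw [Fintype.card_sigma]
    simp only [Fintype.card_fin]
    rw [hΩ, ← List.sum_ofFn, List.ofFn_get]
  obtain ⟨j, hj0, hj, hjV, -⟩ := saxl_all V hV k Ω hΩ' p hp (Sp (Ω := Ω) c.get) (SpRep Ω c.get)
    (Sp_irr hne)
  obtain ⟨t⟩ := hne
  have h1 : Kr Ω (stair k) (stair k) c.get := Kr_of_hom t j hj0 hj hjV
  have hlen : (stairL k).length = k := by simp [stairL]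
  have h2 := Kr_reindex (finCongr hlen) (finCongr hlen) (Equiv.refl _) h1
  have h3 : stair k ∘ (finCongr hlen) = (stairL k).get := by
    funext i
    have h4 : (stairL k).get i = (i : ℕ) + 1 := by
      rw [List.get_eq_getElem]
      simp [stairL]
    rw [h4]
    rfl
  rw [h3] at h2
  exact h2

end Crest.Agent.SZ
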