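import Crest.Agent.SZ_Tw
import Crest.Agent.SZ_HomA
import Crest.Agent.SZ_CodeA

/-!
# S0298 small `n`: rules for codes (task SZ-6b)
-/

set_option autoImplicit false

namespace Crest.Agent.SZ

open Equiv Equiv.Perm Crest.Agent.SX

/-! ### SZ-6b -/

theorem mem_gen (k n : ℕ) (c : List ℕ) (hc : ∀ h ∈ c, 0 < h) (hk : ∀ h ∈ c, h ≤ k)
    (hn : c.sum = n) : enc c ∈ gen k n := by
  induction k generalizing n c with
  | zero =>
    have h0 : c = [] := by
      rw [List.eq_nil_iff_forall_not_mem]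
      intro h hh
      have h1 := hc h hh
      have h2 := hk h hh
      omega
    subst h0
    subst hn
    simp [gen, enc]
  | succ k ih =>
    have hperm := List.filter_append_perm (fun h => h == k + 1) c
    have hrep : c.filter (fun h => h == k + 1) = List.replicate (c.count (k + 1)) (k + 1) :=
      List.filter_beq _
    rw [hrep] at hperm
    set j := c.count (k + 1) with hj
    set c' := c.filter (fun h => !(h == k + 1)) with hc'
    have hsum : j * (k + 1) + c'.sum = n := by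
      rw [← hn, ← hperm.sum_eq, List.sum_append, List.sum_replicate, smul_eq_mul]
    have henc : enc c = enc c' + j * 64 ^ k := by
      rw [← enc_perm hperm, enc_append, add_comm]
      congr 1
      simp [enc]
    have hmem : ∀ h ∈ c', h ∈ c ∧ h ≠ k + 1 := by
      intro h hh
      rw [hc', List.mem_filter] at hh
      refine ⟨hh.1, ?_⟩
      simpa using hh.2
    rw [henc, gen, List.mem_flatMap]
    refine ⟨j, ?_, ?_⟩
    · rw [List.mem_range]
      have h1 : j * (k + 1) ≤ n := by omega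
      have h2 : j ≤ n / (k + 1) := (Nat.le_div_iff_mul_le (Nat.succ_pos k)).2 h1
      omega
    · rw [List.mem_map]
      refine ⟨enc c', ih (n - j * (k + 1)) c' (fun h hh => hc h (hmem h hh).1) ?_ (by omega), rfl⟩
      intro h hh
      have h1 := hk h (hmem h hh).1
      have h2 := (hmem h hh).2
      omega

/-- Same with `gen n n`. -/
theorem mem_gen' (n : ℕ) (c : List ℕ) (hc : ∀ h ∈ c, 0 < h) (hn : c.sum = n) :
    enc c ∈ gen n n := by
  refine mem_gen n n c hc (fun h hh => ?_) hn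
  rw [← hn]
  exact List.single_le_sum (fun x _ => Nat.zero_le x) h hh

theorem KN_of_KL {a b c : List ℕ} (ha : ∀ h ∈ a, 0 < h) (hb : ∀ h ∈ b, 0 < h)
    (hc : ∀ h ∈ c, 0 < h) (h : KL a b c) : KN c.sum (enc a) (enc b) (enc c) := by
  exact ⟨a, b, c, ha, hb, hc, h.1, h.2.1, rfl, rfl, rfl, rfl, h⟩

theorem KL_of_KN {a b c : List ℕ} {n : ℕ} (hn : n ≤ 63) (ha : ∀ h ∈ a, 0 < h)
    (hb : ∀ h ∈ b, 0 < h) (hc : ∀ h ∈ c, 0 < h) (ha' : a.sum = n) (hb' : b.sum = n)
    (hc' : c.sum = n) (h : KN n (enc a) (enc b) (enc c)) : KL a b c := by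
  obtain ⟨la, lb, lc, h1, h2, h3, h4, h5, h6, h7, h8, h9, h10⟩ := h
  exact KL_perm h10 (perm_of_enc h1 ha (by omega) (by omega) h7)
    (perm_of_enc h2 hb (by omega) (by omega) h8) (perm_of_enc h3 hc (by omega) (by omega) h9)

theorem KN_add {n a b c n' a' b' c' : ℕ} (h : KN n a b c) (h' : KN n' a' b' c') :
    KN (n + n') (a + a') (b + b') (c + c') := by
  obtain ⟨la, lb, lc, h1, h2, h3, h4, h5, h6, h7, h8, h9, h10⟩ := h
  obtain ⟨la', lb', lc', h1', h2', h3', h4', h5', h6', h7', h8', h9', h10'⟩ := h'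
  have hpos : ∀ {l l' : List ℕ}, (∀ h ∈ l, 0 < h) → (∀ h ∈ l', 0 < h) → ∀ h ∈ l ++ l', 0 < h := by
    intro l l' hl hl' h hh
    rcases List.mem_append.1 hh with hh | hh
    · exact hl h hh
    · exact hl' h hh
  refine ⟨la ++ la', lb ++ lb', lc ++ lc', hpos h1 h1', hpos h2 h2', hpos h3 h3', ?_, ?_, ?_, ?_,
    ?_, ?_, KL_append h10 h10'⟩
  · rw [List.sum_append, h4, h4']
  · rw [List.sum_append, h5, h5']
  · rw [List.sum_append, h6, h6']
  · rw [enc_append, h7, h7']
  · rw [enc_append, h8, h8']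
  · rw [enc_append, h9, h9']

theorem KN_swap {n a b c : ℕ} (h : KN n a b c) : KN n b a c := by
  obtain ⟨la, lb, lc, h1, h2, h3, h4, h5, h6, h7, h8, h9, h10⟩ := h
  exact ⟨lb, la, lc, h2, h1, h3, h5, h4, h6, h8, h7, h9, KL_swap h10⟩

theorem KN_rot {n a b c : ℕ} (h : KN n a b c) : KN n b c a := by
  obtain ⟨la, lb, lc, h1, h2, h3, h4, h5, h6, h7, h8, h9, h10⟩ := h
  exact ⟨lb, lc, la, h2, h3, h1, h5, h6, h4, h8, h9, h7, KL_rot h10⟩

theorem KN_tw {n a b c : ℕ} (hn : n ≤ 63) (h : KN n a b c) : KN n (trC a) (trC b) c := by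
  obtain ⟨la, lb, lc, h1, h2, h3, h4, h5, h6, h7, h8, h9, h10⟩ := h
  refine ⟨trL la, trL lb, lc, trL_pos la, trL_pos lb, h3, ?_, ?_, h6, ?_, ?_, h9, KL_twist h10⟩
  · rw [trL_sum, h4]
  · rw [trL_sum, h5]
  · rw [trC_enc h1 (by omega), h7]
  · rw [trC_enc h2 (by omega), h8]

/-- One column. -/
theorem KN_col (h : ℕ) (hh : 0 < h) : KN h h (64 ^ (h - 1)) (64 ^ (h - 1)) := by
  have h1 := KL_triv [h]
  rw [List.sum_singleton] at h1
  refine ⟨List.replicate h 1, [h], [h], ?_, ?_, ?_, ?_, ?_, ?_, ?_, ?_, ?_, h1⟩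
  · intro x hx
    rw [List.eq_of_mem_replicate hx]
    exact one_pos
  · intro x hx
    rw [List.mem_singleton.1 hx]
    exact hh
  · intro x hx
    rw [List.mem_singleton.1 hx]
    exact hh
  · simp
  · simp
  · simp
  · simp [enc]
  · simp [enc]
  · simp [enc]

theorem KN_saxl (k : ℕ) (c : List ℕ) (hc : ∀ h ∈ c, 0 < h) (hs : 2 * c.sum = k * (k + 1)) :
    KN c.sum (enc (stairL k)) (enc (stairL k)) (enc c) := by
  have hpos : ∀ h ∈ stairL k, 0 < h := by
    intro h hh
    rw [stairL, List.mem_map] at hh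
    obtain ⟨a, -, rfl⟩ := hh
    exact Nat.succ_pos a
  have hsum : (stairL k).sum = c.sum := by
    have h1 : ∀ m : ℕ, 2 * (stairL m).sum = m * (m + 1) := by
      intro m
      induction m with
      | zero => simp [stairL]
      | succ m ih =>
        have h2 : stairL (m + 1) = stairL m ++ [m + 1] := by
          simp [stairL, List.range_succ]
        rw [h2, List.sum_append, List.sum_singleton, mul_add, ih]
        ring
    have h3 := h1 k
    omega
  exact ⟨stairL k, stairL k, c, hpos, hpos, hc, hsum, hsum, rfl, rfl, rfl, rfl, KL_saxl k c hs⟩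

end Crest.Agent.SZ
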