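import Crest.Agent.SX_C4

/-!
# S0298, small `n`: Kronecker positivity as functions on triples of words (helper64)

`Kr Ω a b c` says that the Kronecker coefficient `g(a, b, c)` of the shapes with columns of heights
`a`, `b`, `c` (`|Ω|` cells each) is positive: there is a nonzero function `H` on triples of words, in
the span of the products of three polytabloids, invariant under renaming the letters.

Rules proved in the files `SZ_*`: semigroup property (`Kr_mul`), conjugation of two shapes
(`Kr_twist`), permutations of the three shapes, trivial triples, Saxl triples (from S0297), explicit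
certificates. Then certificates for all partitions of `n` (`n ≤ 30`) are checked by the kernel.
-/

set_option autoImplicit false

namespace Crest.Agent.SZ

open Equiv Equiv.Perm Crest.Agent.SX

/-- Triples of words. -/
abbrev W3 (Ω : Type) : Type := (Ω → ℕ) × (Ω → ℕ) × (Ω → ℕ)

/-- Pulling back a triple of words along a map of letters (renaming or restriction). -/
def pull3 {Ω Ω' : Type} (g : Ω' → Ω) (x : W3 Ω) : W3 Ω' := (x.1 ∘ g, x.2.1 ∘ g, x.2.2 ∘ g)

/-- The triple of words given by a word with values in triples. -/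
def toW {Ω : Type} {N : ℕ} (w : Ω → Fin N × Fin N × Fin N) : W3 Ω :=
  (fun x => ((w x).1 : ℕ), fun x => ((w x).2.1 : ℕ), fun x => ((w x).2.2 : ℕ))

/-- The span of the products of three polytabloids. -/
noncomputable def Sp3 {Ω ι κ μ : Type} [Fintype Ω] [DecidableEq Ω] (a : ι → ℕ) (b : κ → ℕ)
    (c : μ → ℕ) : Submodule ℂ (W3 Ω → ℂ) :=
  Submodule.span ℂ {F | ∃ (t : Ω ≃ Cel a) (t' : Ω ≃ Cel b) (t'' : Ω ≃ Cel c),
    F = fun x => pt t x.1 * pt t' x.2.1 * pt t'' x.2.2}

/-- The Kronecker coefficient of the three shapes is positive. -/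
def Kr (Ω : Type) {ι κ μ : Type} [Fintype Ω] [DecidableEq Ω] (a : ι → ℕ) (b : κ → ℕ)
    (c : μ → ℕ) : Prop :=
  ∃ H ∈ Sp3 (Ω := Ω) a b c, H ≠ 0 ∧ ∀ (g : Perm Ω) x, H (pull3 g x) = H x

/-- The generating polynomial of a function on triples of words (letters `< N`). -/
noncomputable def Phi {Ω : Type} [Fintype Ω] [DecidableEq Ω] (N : ℕ) (F : W3 Ω → ℂ) :
    MvPolynomial (Fin N × Fin N × Fin N) ℂ :=
  ∑ w : Ω → Fin N × Fin N × Fin N, MvPolynomial.C (F (toW w)) * ∏ x, MvPolynomial.X (w x)

@[simp] theorem pull3_id {Ω : Type} (x : W3 Ω) : pull3 id x = x := rfl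

theorem pull3_pull3 {Ω Ω' Ω'' : Type} (g : Ω' → Ω) (g' : Ω'' → Ω') (x : W3 Ω) :
    pull3 g' (pull3 g x) = pull3 (g ∘ g') x := rfl

theorem gen_mem_Sp3 {Ω ι κ μ : Type} [Fintype Ω] [DecidableEq Ω] {a : ι → ℕ} {b : κ → ℕ}
    {c : μ → ℕ} (t : Ω ≃ Cel a) (t' : Ω ≃ Cel b) (t'' : Ω ≃ Cel c) :
    (fun x : W3 Ω => pt t x.1 * pt t' x.2.1 * pt t'' x.2.2) ∈ Sp3 (Ω := Ω) a b c :=
  Submodule.subset_span ⟨t, t', t'', rfl⟩

/-! ## Shapes given by lists of column heights -/

/-- Kronecker positivity for lists of column heights. -/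
def KL (a b c : List ℕ) : Prop :=
  a.sum = c.sum ∧ b.sum = c.sum ∧
    ∀ (Ω : Type) [Fintype Ω] [DecidableEq Ω], Fintype.card Ω = c.sum → Kr Ω a.get b.get c.get

/-- The conjugate of a list of column heights (the row lengths), zeros omitted. -/
def trL (a : List ℕ) : List ℕ :=
  (List.range (a.foldr max 0)).map fun i => a.countP fun h => decide (i < h)

/-- The columns `1, …, k` of a staircase. -/
def stairL (k : ℕ) : List ℕ := (List.range k).map (· + 1)

/-! ## Codes of partitions: base 64, the digit number `h - 1` is the number of columns of height `h` -/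

/-- The code of a list of positive column heights. -/
def enc (l : List ℕ) : ℕ := (l.map fun h => 64 ^ (h - 1)).sum

/-- Kronecker positivity for codes of partitions of `n`. -/
def KN (n a b c : ℕ) : Prop :=
  ∃ la lb lc : List ℕ, (∀ h ∈ la, 0 < h) ∧ (∀ h ∈ lb, 0 < h) ∧ (∀ h ∈ lc, 0 < h) ∧
    la.sum = n ∧ lb.sum = n ∧ lc.sum = n ∧ enc la = a ∧ enc lb = b ∧ enc lc = c ∧ KL la lb lc

end Crest.Agent.SZ
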