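/-!
# S0298 small `n`: kernel functions (efficient versions; no imports)
-/
set_option autoImplicit false
namespace Crest.Agent.SZ
local notation "ℕ" => Nat

/-- `(n, a, b, c)`. -/
structure KF where
  n : ℕ
  a : ℕ
  b : ℕ
  c : ℕ

noncomputable section

/-- conjugation on codes (digit sum `a % 63`) -/
def trK (a : ℕ) : ℕ :=
  @Nat.rec (fun _ => ℕ → ℕ → ℕ) (fun _ _ => 0)
    (fun _ ih a r => cond (Nat.beq r 0) 0
      (Nat.add (Nat.pow 64 (Nat.pred r)) (ih (Nat.div a 64) (Nat.sub r (Nat.mod a 64))))) 64 a
    (Nat.mod a 63)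

/-- size of the partition with code `a` whose columns have height `≤ m`, counted from `i + 1`:
`∑_{h} (i + h) * digit_h` -/
def szK (m i a : ℕ) : ℕ :=
  @Nat.rec (fun _ => ℕ → ℕ → ℕ) (fun _ _ => 0)
    (fun _ ih i a => Nat.add (Nat.mul (Nat.succ i) (Nat.mod a 64)) (ih (Nat.succ i) (Nat.div a 64)))
    m i a

/-- code of the staircase `ρ_k` -/
def roK (k : ℕ) : ℕ := Nat.div (Nat.sub (Nat.pow 64 k) 1) 63

/-- fuel, max part, n, acc, tail: the codes of all partitions of `n` with parts `≤ mx`, plus `acc` -/
def genK : ℕ → ℕ → ℕ → ℕ → List ℕ → List ℕ :=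
  @Nat.rec (fun _ => ℕ → ℕ → ℕ → List ℕ → List ℕ) (fun _ _ _ t => t)
    (fun _ ih mx n acc tail => cond (Nat.beq n 0) (List.cons acc tail)
      (@Nat.rec (fun _ => List ℕ) tail
        (fun p rest => cond (Nat.ble (Nat.succ p) n)
            (ih (Nat.succ p) (Nat.sub n (Nat.succ p)) (Nat.add acc (Nat.pow 64 p)) rest) rest) mx))

/-- the stack machine -/
def runK (lib : List KF) : ℕ → ℕ → List KF → List KF :=
  @Nat.rec (fun _ => ℕ → List KF → List KF) (fun _ _ => [])
    (fun _ ih p st =>
      (fun d q =>
        cond (Nat.ble 48 d)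
          (cond (Nat.beq d 48)
            (@List.rec KF (fun _ => List KF) []
              (fun x st1 _ => @List.rec KF (fun _ => List KF) []
                (fun y st2 _ => ih q (List.cons (KF.mk (Nat.add x.n y.n) (Nat.add x.a y.a)
                  (Nat.add x.b y.b) (Nat.add x.c y.c)) st2)) st1) st)
          (cond (Nat.beq d 49)
            (@List.rec KF (fun _ => List KF) []
              (fun x st1 _ => ih q (List.cons (KF.mk x.n x.b x.c x.a) st1)) st)
          (cond (Nat.beq d 50)
            (@List.rec KF (fun _ => List KF) []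
              (fun x st1 _ => ih q (List.cons (KF.mk x.n x.b x.a x.c) st1)) st)
          (cond (Nat.beq d 51)
            (@List.rec KF (fun _ => List KF) []
              (fun x st1 _ => ih q (List.cons (KF.mk x.n (trK x.a) (trK x.b) x.c) st1)) st)
          (cond (Nat.beq d 52)
            ((fun k m => (fun c => (fun s => cond (Nat.beq (Nat.mul 2 s) (Nat.mul k (Nat.succ k)))
                (ih (Nat.div q (Nat.pow 64 (Nat.add m 2)))
                  (List.cons (KF.mk s (roK k) (roK k) c) st)) []) (szK m 0 c))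
                (Nat.mod (Nat.div q 4096) (Nat.pow 64 m))) (Nat.mod q 64) (Nat.mod (Nat.div q 64) 64))
          (cond (Nat.beq d 53)
            (ih (Nat.div q 64) (@List.rec KF (fun _ => ℕ → List KF) (fun _ => [])
              (fun x _ ihl i => cond (Nat.beq i 0) (List.cons x st) (ihl (Nat.pred i))) lib
              (Nat.mod q 64))) []))))))
          (cond (Nat.beq d 0) st
            (ih q (List.cons (KF.mk d d (Nat.pow 64 (Nat.pred d)) (Nat.pow 64 (Nat.pred d))) st))))
      (Nat.mod p 64) (Nat.div p 64))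

/-- check of one program -/
def okK (lib : List KF) (n m c p : ℕ) : Bool :=
  @List.rec KF (fun _ => Bool) false
    (fun x _ _ => and (Nat.beq x.n n) (and (Nat.beq x.a m) (and (Nat.beq x.b m) (Nat.beq x.c c))))
    (runK lib 200 p [])

/-- the check for `n`, shape of code `m`, codes `cs`, programs `ps` -/
def chkK (lib : List KF) (n m : ℕ) (cs : List ℕ) : List ℕ → Bool :=
  @List.rec ℕ (fun _ => List ℕ → Bool) (fun _ => true)
    (fun c _ ih ps => cond (Nat.ble (Nat.succ (trK c)) c) (ih ps)
      (@List.rec ℕ (fun _ => Bool) false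
        (fun p ps' _ => cond (okK lib n m c p) (ih ps') false) ps)) cs

end
end Crest.Agent.SZ
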