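import Crest.Agent.SZ_Kern
import Crest.Agent.SZ_Code

/-!
# S0298 small `n`: soundness of the kernel functions
-/

set_option autoImplicit false

namespace Crest.Agent.SZ

open Equiv Equiv.Perm Crest.Agent.SX

/-! ## conjugation -/

theorem enc_mod63 (l : List ℕ) : enc l % 63 = l.length % 63 := by
  induction l with
  | nil => rfl
  | cons h t ih =>
    have h1 : enc (h :: t) = 64 ^ (h - 1) + enc t := by simp [enc]
    have h2 : 64 ^ (h - 1) % 63 = 1 := by
      rw [Nat.pow_mod]
      simp
    rw [h1, List.length_cons, Nat.add_mod, h2, ih]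
    omega

theorem trK_eq (a : ℕ) : trK a = trR 64 a (a % 63) := by
  have key : ∀ (f a r : ℕ), (@Nat.rec (fun _ => ℕ → ℕ → ℕ) (fun _ _ => 0)
    (fun _ ih a r => cond (Nat.beq r 0) 0
      (Nat.add (Nat.pow 64 (Nat.pred r)) (ih (Nat.div a 64) (Nat.sub r (Nat.mod a 64))))) f a r)
      = trR f a r := by
    intro f
    induction f with
    | zero => intro a r; rfl
    | succ f ih =>
      intro a r
      rw [trR]
      by_cases hr : r = 0
      · subst hr
        rfl
      · rw [if_neg hr]
        have hb : Nat.beq r 0 = false := by
          cases r with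
          | zero => exact absurd rfl hr
          | succ r => rfl
        show cond (Nat.beq r 0) 0 _ = _
        rw [hb, ← ih]
        rfl
  exact key 64 a (a % 63)

theorem trK_enc {a : List ℕ} (ha : ∀ h ∈ a, 0 < h) (ha' : a.sum ≤ 62) :
    trK (enc a) = enc (trL a) := by
  have h1 : ∀ h ∈ a, h ≤ 64 := fun h hh => by
    have := le_sum hh
    omega
  have h2 := (length_le_sum ha).trans ha'
  rw [trK_eq, enc_mod63, Nat.mod_eq_of_lt (by omega), trR_enc 64 ha h1 (by omega)]

/-! ## staircase -/

theorem roK_eq (k : ℕ) : roK k = enc (stairL k) := by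
  have h1 : 63 * enc (stairL k) + 1 = 64 ^ k := by
    induction k with
    | zero => rfl
    | succ k ih =>
      have h2 : stairL (k + 1) = stairL k ++ [k + 1] := by
        unfold stairL
        rw [List.range_succ, List.map_append]
        rfl
      have h3 : enc [k + 1] = 64 ^ k := by simp [enc]
      rw [h2, enc_append, h3, pow_succ]
      omega
  show (64 ^ k - 1) / 63 = _
  omega

/-! ## decoding -/

theorem szK_succ (m i a : ℕ) : szK (m + 1) i a = (i + 1) * (a % 64) + szK m (i + 1) (a / 64) := rfl

theorem exists_dec (m : ℕ) : ∀ (i c : ℕ), c < 64 ^ m → ∃ l : List ℕ, (∀ h ∈ l, i < h) ∧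
    (l.map fun h => 64 ^ (h - 1 - i)).sum = c ∧ l.sum = szK m i c := by
  induction m with
  | zero =>
    intro i c hc
    have : c = 0 := by simpa using hc
    subst this
    exact ⟨[], by simp, rfl, rfl⟩
  | succ m ih =>
    intro i c hc
    obtain ⟨l, h1, h2, h3⟩ := ih (i + 1) (c / 64) (by
      rw [pow_succ] at hc
      exact Nat.div_lt_of_lt_mul (by omega))
    refine ⟨List.replicate (c % 64) (i + 1) ++ l, ?_, ?_, ?_⟩
    · intro h hh
      rw [List.mem_append, List.mem_replicate] at hh
      rcases hh with hh | hh
      · omega
      · have := h1 h hh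
        omega
    · have h4 : (l.map fun h => 64 ^ (h - 1 - i)).sum = 64 * (c / 64) := by
        rw [← h2, ← List.sum_map_mul_left]
        congr 1
        refine List.map_congr_left fun h hh => ?_
        have := h1 h hh
        have h5 : h - 1 - i = (h - 1 - (i + 1)) + 1 := by omega
        rw [h5, pow_succ, mul_comm]
      rw [List.map_append, List.sum_append, h4]
      simp
      omega
    · rw [List.sum_append, h3, szK_succ, List.sum_replicate, smul_eq_mul, mul_comm]

/-! ## all partitions -/

/-- the inner loop of `genK` -/
def loopK (f n acc : ℕ) (tail : List ℕ) (mx : ℕ) : List ℕ :=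
  @Nat.rec (fun _ => List ℕ) tail
    (fun p rest => cond (Nat.ble (Nat.succ p) n)
      (genK f (Nat.succ p) (Nat.sub n (Nat.succ p)) (Nat.add acc (Nat.pow 64 p)) rest) rest) mx

theorem genK_succ (f mx n acc : ℕ) (tail : List ℕ) : genK (f + 1) mx n acc tail =
    cond (Nat.beq n 0) (acc :: tail) (loopK f n acc tail mx) := rfl

theorem loopK_succ (f n acc : ℕ) (tail : List ℕ) (p : ℕ) : loopK f n acc tail (p + 1) =
    cond (Nat.ble (p + 1) n)
      (genK f (p + 1) (n - (p + 1)) (acc + 64 ^ p) (loopK f n acc tail p))
      (loopK f n acc tail p) := rfl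

theorem genK_tail (f : ℕ) : ∀ (mx n acc : ℕ) (tail : List ℕ), ∀ x ∈ tail,
    x ∈ genK f mx n acc tail := by
  induction f with
  | zero => intro mx n acc tail x hx; exact hx
  | succ f ih =>
    intro mx n acc tail x hx
    rw [genK_succ]
    cases Nat.beq n 0 with
    | true => exact List.mem_cons_of_mem _ hx
    | false =>
      show x ∈ loopK f n acc tail mx
      induction mx with
      | zero => exact hx
      | succ p ihp =>
        rw [loopK_succ]
        cases Nat.ble (p + 1) n with
        | true => exact ih _ _ _ _ x ihp
        | false => exact ihp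

theorem loopK_mono (f n acc : ℕ) (tail : List ℕ) (p q : ℕ) (h : p ≤ q) :
    ∀ x ∈ loopK f n acc tail p, x ∈ loopK f n acc tail q := by
  induction q, h using Nat.le_induction with
  | base => exact fun x hx => hx
  | succ q hpq ih =>
    intro x hx
    rw [loopK_succ]
    cases Nat.ble (q + 1) n with
    | true => exact genK_tail _ _ _ _ _ x (ih x hx)
    | false => exact ih x hx

theorem mem_genK (f : ℕ) : ∀ (mx n acc : ℕ) (tail c : List ℕ), c.Pairwise (· ≥ ·) →
    (∀ h ∈ c, 0 < h) → (∀ h ∈ c, h ≤ mx) → c.sum = n → c.length < f →
    acc + enc c ∈ genK f mx n acc tail := by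
  induction f with
  | zero => intro mx n acc tail c _ _ _ _ h; exact absurd h (Nat.not_lt_zero _)
  | succ f ih =>
    intro mx n acc tail c hs hp hm hn hl
    rw [genK_succ]
    cases c with
    | nil =>
      have h0 : n = 0 := by rw [← hn]; rfl
      subst h0
      exact List.mem_cons_self
    | cons h t =>
      have hh : 0 < h := hp h List.mem_cons_self
      have hn' : h + t.sum = n := by rw [← hn, List.sum_cons]
      have hb : Nat.beq n 0 = false := by
        have : n ≠ 0 := by omega
        cases n with
        | zero => exact absurd rfl this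
        | succ n => rfl
      rw [hb]
      show acc + enc (h :: t) ∈ loopK f n acc tail mx
      obtain ⟨p, rfl⟩ : ∃ p, h = p + 1 := ⟨h - 1, by omega⟩
      refine loopK_mono f n acc tail (p + 1) mx (hm _ List.mem_cons_self) _ ?_
      rw [loopK_succ]
      have hb2 : Nat.ble (p + 1) n = true := by
        rw [Nat.ble_eq]
        omega
      rw [hb2]
      show _ ∈ genK f (p + 1) (n - (p + 1)) (acc + 64 ^ p) (loopK f n acc tail p)
      have h1 : acc + enc ((p + 1) :: t) = (acc + 64 ^ p) + enc t := by
        have : enc ((p + 1) :: t) = 64 ^ p + enc t := by simp [enc]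
        rw [this, add_assoc]
      rw [h1]
      rw [List.pairwise_cons] at hs
      refine ih (p + 1) (n - (p + 1)) _ _ t hs.2 (fun x hx => hp x (List.mem_cons_of_mem _ hx))
        (fun x hx => hs.1 x hx) (by omega) ?_
      rw [List.length_cons] at hl
      omega

theorem mem_genK' (n : ℕ) (hn : n ≤ 62) (c : List ℕ) (hc : ∀ h ∈ c, 0 < h) (hs : c.sum = n) :
    enc c ∈ genK 63 n n 0 [] := by
  have h1 := List.mergeSort_perm c (fun a b => decide (b ≤ a))
  have h2 := enc_perm h1
  rw [← h2, ← Nat.zero_add (enc _)]
  have h3 : (c.mergeSort (fun a b => decide (b ≤ a))).Pairwise (· ≥ ·) := by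
    have := List.pairwise_mergeSort (le := fun a b : ℕ => decide (b ≤ a))
      (by intro a b c h h'; simp only [decide_eq_true_eq] at *; omega)
      (by intro a b; simp only [Bool.or_eq_true, decide_eq_true_eq]; omega) c
    exact this.imp fun h => by simpa using h
  refine mem_genK 63 n n 0 [] _ h3 (fun h hh => hc h (h1.mem_iff.1 hh)) (fun h hh => ?_) ?_ ?_
  · rw [← hs]
    exact le_sum (h1.mem_iff.1 hh)
  · rw [h1.sum_eq, hs]
  · have h4 := length_le_sum hc
    rw [h1.length_eq]
    omega

/-! ## the machine -/

/-- `x` is a true fact (if its size is at most `62`). -/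
def KF.ok (x : KF) : Prop := x.n ≤ 62 → KN x.n x.a x.b x.c

theorem runK_ok (lib : List KF) (hlib : ∀ x ∈ lib, x.ok) (f : ℕ) : ∀ (p : ℕ) (st : List KF),
    (∀ x ∈ st, x.ok) → ∀ x ∈ runK lib f p st, x.ok := by
  induction f with
  | zero => intro p st _ x hx; exact absurd hx (List.not_mem_nil)
  | succ f ih =>
    intro p st hst
    set d := Nat.mod p 64 with hd
    set q := Nat.div p 64 with hq
    have hcons : ∀ (y : KF) (st' : List KF), y.ok → (∀ x ∈ st', x.ok) → ∀ x ∈ y :: st', x.ok := by
      intro y st' hy hst' x hx
      rcases List.mem_cons.1 hx with rfl | hx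
      · exact hy
      · exact hst' x hx
    have key : ∀ q : ℕ, ∀ L : List KF, (∀ x ∈ L, x.ok) → ∀ x ∈ runK lib f q L, x.ok := ih
    have e : runK lib (f + 1) p st =
        cond (Nat.ble 48 d)
          (cond (Nat.beq d 48)
            (@List.rec KF (fun _ => List KF) []
              (fun x st1 _ => @List.rec KF (fun _ => List KF) []
                (fun y st2 _ => runK lib f q (List.cons (KF.mk (Nat.add x.n y.n) (Nat.add x.a y.a)
                  (Nat.add x.b y.b) (Nat.add x.c y.c)) st2)) st1) st)
          (cond (Nat.beq d 49)
            (@List.rec KF (fun _ => List KF) []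
              (fun x st1 _ => runK lib f q (List.cons (KF.mk x.n x.b x.c x.a) st1)) st)
          (cond (Nat.beq d 50)
            (@List.rec KF (fun _ => List KF) []
              (fun x st1 _ => runK lib f q (List.cons (KF.mk x.n x.b x.a x.c) st1)) st)
          (cond (Nat.beq d 51)
            (@List.rec KF (fun _ => List KF) []
              (fun x st1 _ => runK lib f q (List.cons (KF.mk x.n (trK x.a) (trK x.b) x.c) st1)) st)
          (cond (Nat.beq d 52)
            ((fun k m => (fun c => (fun s => cond (Nat.beq (Nat.mul 2 s) (Nat.mul k (Nat.succ k)))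
                (runK lib f (Nat.div q (Nat.pow 64 (Nat.add m 2)))
                  (List.cons (KF.mk s (roK k) (roK k) c) st)) []) (szK m 0 c))
                (Nat.mod (Nat.div q 4096) (Nat.pow 64 m))) (Nat.mod q 64) (Nat.mod (Nat.div q 64) 64))
          (cond (Nat.beq d 53)
            (runK lib f (Nat.div q 64) (@List.rec KF (fun _ => ℕ → List KF) (fun _ => [])
              (fun x _ ihl i => cond (Nat.beq i 0) (List.cons x st) (ihl (Nat.pred i))) lib
              (Nat.mod q 64))) []))))))
          (cond (Nat.beq d 0) st
            (runK lib f q (List.cons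
              (KF.mk d d (Nat.pow 64 (Nat.pred d)) (Nat.pow 64 (Nat.pred d))) st))) := rfl
    rw [e]
    cases h48 : Nat.ble 48 d with
    | false =>
      show ∀ x : KF, x ∈ cond (Nat.beq d 0) _ _ → x.ok
      cases h0 : Nat.beq d 0 with
      | true => exact hst
      | false =>
        refine key _ _ (hcons _ _ ?_ hst)
        intro _
        have hd0 : 0 < d := by
          rcases Nat.eq_zero_or_pos d with h | h
          · rw [h] at h0
            cases h0
          · exact h
        exact KN_col d hd0
    | true =>
      show ∀ x : KF, x ∈ cond (Nat.beq d 48) _ _ → x.ok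
      cases Nat.beq d 48 with
      | true =>
        rcases st with _ | ⟨x, _ | ⟨y, st⟩⟩
        · intro x hx; exact absurd hx List.not_mem_nil
        · intro x hx; exact absurd hx List.not_mem_nil
        · have hx := hst x List.mem_cons_self
          have hy := hst y (List.mem_cons_of_mem _ List.mem_cons_self)
          refine key _ _ (hcons _ _ ?_ fun z hz => hst z
            (List.mem_cons_of_mem _ (List.mem_cons_of_mem _ hz)))
          intro hn
          have hn' : x.n + y.n ≤ 62 := hn
          exact KN_add (hx (by omega)) (hy (by omega))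
      | false =>
        show ∀ x : KF, x ∈ cond (Nat.beq d 49) _ _ → x.ok
        cases Nat.beq d 49 with
        | true =>
          rcases st with _ | ⟨x, st⟩
          · intro x hx; exact absurd hx List.not_mem_nil
          · have hx := hst x List.mem_cons_self
            refine key _ _ (hcons _ _ ?_ fun z hz => hst z (List.mem_cons_of_mem _ hz))
            intro hn
            exact KN_rot (hx hn)
        | false =>
        show ∀ x : KF, x ∈ cond (Nat.beq d 50) _ _ → x.ok
        cases Nat.beq d 50 with
        | true =>
          rcases st with _ | ⟨x, st⟩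
          · intro x hx; exact absurd hx List.not_mem_nil
          · have hx := hst x List.mem_cons_self
            refine key _ _ (hcons _ _ ?_ fun z hz => hst z (List.mem_cons_of_mem _ hz))
            intro hn
            exact KN_swap (hx hn)
        | false =>
        show ∀ x : KF, x ∈ cond (Nat.beq d 51) _ _ → x.ok
        cases Nat.beq d 51 with
        | true =>
          rcases st with _ | ⟨x, st⟩
          · intro x hx; exact absurd hx List.not_mem_nil
          · have hx := hst x List.mem_cons_self
            refine key _ _ (hcons _ _ ?_ fun z hz => hst z (List.mem_cons_of_mem _ hz))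
            intro hn
            have hn' : x.n ≤ 62 := hn
            obtain ⟨la, lb, lc, h1, h2, h3, h4, h5, h6, h7, h8, h9, h10⟩ := hx hn'
            refine ⟨trL la, trL lb, lc, trL_pos _, trL_pos _, h3, ?_, ?_, h6, ?_, ?_, h9,
              KL_twist h10⟩
            · rw [trL_sum, h4]
            · rw [trL_sum, h5]
            · show enc (trL la) = trK x.a
              rw [← h7, trK_enc h1 (by omega)]
            · show enc (trL lb) = trK x.b
              rw [← h8, trK_enc h2 (by omega)]
        | false =>
        show ∀ x : KF, x ∈ cond (Nat.beq d 52) _ _ → x.ok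
        cases Nat.beq d 52 with
        | true =>
          set k := Nat.mod q 64
          set m := Nat.mod (Nat.div q 64) 64
          set c := Nat.mod (Nat.div q 4096) (Nat.pow 64 m) with hc
          show ∀ x : KF, x ∈ cond (Nat.beq (Nat.mul 2 (szK m 0 c)) (Nat.mul k (Nat.succ k))) _ _ → x.ok
          cases hbq : Nat.beq (Nat.mul 2 (szK m 0 c)) (Nat.mul k (Nat.succ k)) with
          | false => intro x hx; exact absurd hx List.not_mem_nil
          | true =>
            refine key _ _ (hcons _ _ ?_ hst)
            intro _
            have hcm : c < 64 ^ m := Nat.mod_lt _ (Nat.pow_pos (by norm_num))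
            obtain ⟨l, h1, h2, h3⟩ := exists_dec m 0 c hcm
            have h4 : 2 * l.sum = k * (k + 1) := by
              rw [h3]
              exact Nat.eq_of_beq_eq_true hbq
            have h5 := KN_saxl k l h1 h4
            have h6 : enc l = c := by
              rw [← h2]
              rfl
            rw [h6, h3, ← roK_eq] at h5
            exact h5
        | false =>
        show ∀ x : KF, x ∈ cond (Nat.beq d 53) _ _ → x.ok
        cases Nat.beq d 53 with
        | false => intro x hx; exact absurd hx List.not_mem_nil
        | true =>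
          refine key _ _ ?_
          generalize Nat.mod q 64 = i
          have aux : ∀ (lib : List KF), (∀ x ∈ lib, x.ok) → ∀ i : ℕ,
              ∀ x ∈ (@List.rec KF (fun _ => ℕ → List KF) (fun _ => [])
              (fun x _ ihl i => cond (Nat.beq i 0) (List.cons x st) (ihl (Nat.pred i))) lib i),
              x.ok := by
            intro lib
            induction lib with
            | nil => intro _ i x hx; exact absurd hx List.not_mem_nil
            | cons y lib ihl =>
              intro hl i
              show ∀ x : KF, x ∈ cond (Nat.beq i 0) (y :: st) _ → x.ok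
              cases Nat.beq i 0 with
              | true => exact hcons _ _ (hl y List.mem_cons_self) hst
              | false => exact ihl (fun x hx => hl x (List.mem_cons_of_mem _ hx)) _
          exact aux lib hlib i

theorem okK_ok (lib : List KF) (hlib : ∀ x ∈ lib, x.ok) (n m c p : ℕ) (hn : n ≤ 62)
    (h : okK lib n m c p = true) : KN n m m c := by
  have h1 := runK_ok lib hlib 200 p [] (fun x hx => absurd hx List.not_mem_nil)
  unfold okK at h
  generalize runK lib 200 p [] = L at h h1
  cases L with
  | nil => cases h
  | cons x L =>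
    have h2 : and (Nat.beq x.n n) (and (Nat.beq x.a m) (and (Nat.beq x.b m) (Nat.beq x.c c))) =
      true := h
    simp only [Bool.and_eq_true] at h2
    obtain ⟨e1, e2, e3, e4⟩ := h2
    have e1 := Nat.eq_of_beq_eq_true e1
    have e2 := Nat.eq_of_beq_eq_true e2
    have e3 := Nat.eq_of_beq_eq_true e3
    have e4 := Nat.eq_of_beq_eq_true e4
    have h3 := h1 x List.mem_cons_self
    have h4 := h3 (by omega)
    rw [e1, e2, e3, e4] at h4
    exact h4

theorem chkK_ok (lib : List KF) (hlib : ∀ x ∈ lib, x.ok) (n m : ℕ) (hn : n ≤ 62) (cs : List ℕ) :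
    ∀ ps : List ℕ, chkK lib n m cs ps = true → ∀ c ∈ cs, ¬ trK c < c → KN n m m c := by
  induction cs with
  | nil => intro ps _ c hc; exact absurd hc List.not_mem_nil
  | cons c cs ih =>
    intro ps h
    have h1 : cond (Nat.ble (Nat.succ (trK c)) c) (chkK lib n m cs ps)
      (@List.rec ℕ (fun _ => Bool) false
        (fun p ps' _ => cond (okK lib n m c p) (chkK lib n m cs ps') false) ps) = true := h
    cases hb : Nat.ble (Nat.succ (trK c)) c with
    | true =>
      rw [hb] at h1
      intro x hx hlt
      rcases List.mem_cons.1 hx with rfl | hx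
      · exact absurd (Nat.le_of_ble_eq_true hb) (by omega)
      · exact ih ps h1 x hx hlt
    | false =>
      rw [hb] at h1
      cases ps with
      | nil => cases h1
      | cons p ps =>
        have h2 : cond (okK lib n m c p) (chkK lib n m cs ps) false = true := h1
        cases ho : okK lib n m c p with
        | false =>
          rw [ho] at h2
          cases h2
        | true =>
          rw [ho] at h2
          intro x hx hlt
          rcases List.mem_cons.1 hx with rfl | hx
          · exact okK_ok lib hlib n m _ p hn ho
          · exact ih ps h2 x hx hlt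

/-- THE CHECK. -/
theorem KL_of_chkK (lib : List KF) (hlib : ∀ x ∈ lib, x.ok) (n : ℕ) (hn : n ≤ 62) (a : List ℕ)
    (ha : ∀ h ∈ a, 0 < h) (ha' : a.sum = n) (m : ℕ) (hm : enc a = m) (hm' : trK m = m)
    (ps : List ℕ) (h : chkK lib n m (genK 63 n n 0 []) ps = true) (c : List ℕ)
    (hc : ∀ h ∈ c, 0 < h) (hc' : c.sum = n) : KL a a c := by
  have h0 := chkK_ok lib hlib n m hn _ ps h
  refine KL_of_KN (n := n) (by omega) ha ha hc ha' ha' hc' ?_
  rw [hm]
  by_cases hlt : trK (enc c) < enc c
  · have h1 : enc (trL c) = trK (enc c) := (trK_enc hc (by omega)).symm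
    have h2 : trK (enc (trL c)) = enc c := by
      rw [trK_enc (trL_pos c) (by rw [trL_sum]; omega)]
      exact enc_perm (trL_trL hc)
    have h3 := h0 (enc (trL c)) (mem_genK' n hn _ (trL_pos c) (by rw [trL_sum, hc'])) (by
      rw [h2, h1]
      omega)
    obtain ⟨la, lb, lc, g1, g2, g3, g4, g5, g6, g7, g8, g9, g10⟩ := KN_rot h3
    have h4 : KN n (enc (trL la)) (enc (trL lb)) (enc lc) :=
      ⟨trL la, trL lb, lc, trL_pos _, trL_pos _, g3, by rw [trL_sum, g4], by rw [trL_sum, g5], g6,
        rfl, rfl, rfl, KL_twist g10⟩
    rw [← trK_enc g1 (by omega), ← trK_enc g2 (by omega), g7, g8, g9, hm', h2] at h4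
    exact KN_rot (KN_rot h4)
  · exact h0 _ (mem_genK' n hn c hc hc') hlt

end Crest.Agent.SZ
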