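import Crest.Agent.SZ_Phi
import Crest.Agent.SX_Mul
import Crest.Agent.SX_Rel

/-!
# S0298 small `n`: the semigroup property (task SZ-2)
-/

set_option autoImplicit false

namespace Crest.Agent.SZ

open Equiv Equiv.Perm Crest.Agent.SX

section helpers

variable {A B ι κ μ ι' κ' μ' : Type} [Fintype A] [DecidableEq A] [Fintype B] [DecidableEq B]

/-- The cells after reindexing of the columns. -/
private def mE {ι κ : Type} (e : κ ≃ ι) (h : ι → ℕ) : Cel (h ∘ e) ≃ Cel h :=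
  Equiv.sigmaCongrLeft (β := fun i => Fin (h i)) e

private theorem mE_fst {ι κ : Type} (e : κ ≃ ι) (h : ι → ℕ) (c : Cel (h ∘ e)) :
    (mE e h c).1 = e c.1 := rfl

private theorem mE_snd {ι κ : Type} (e : κ ≃ ι) (h : ι → ℕ) (c : Cel (h ∘ e)) :
    ((mE e h c).2 : ℕ) = (c.2 : ℕ) := rfl

private theorem mE_pt (e : κ ≃ ι) (h : ι → ℕ) (t : A ≃ Cel (h ∘ e)) (w : A → ℕ) :
    pt (t.trans (mE e h)) w = pt t w := by
  classical
  rw [pt_def, pt_def]
  refine Finset.sum_congr rfl fun s _ => ?_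
  refine if_congr ?_ rfl rfl
  refine and_congr ?_ ?_
  · refine forall_congr' fun x => ?_
    rw [Equiv.trans_apply, Equiv.trans_apply, mE_fst, mE_fst]
    exact e.injective.eq_iff
  · refine forall_congr' fun x => ?_
    rw [Equiv.trans_apply, mE_snd]

private theorem mE_pt' (e : κ ≃ ι) (h : ι → ℕ) (t : A ≃ Cel h) (w : A → ℕ) :
    pt (t.trans (mE e h).symm) w = pt t w := by
  rw [← mE_pt e h, Equiv.trans_assoc, Equiv.symm_trans_self, Equiv.trans_refl]

private theorem Sp3_reindex {a : ι → ℕ} {b : κ → ℕ} {c : μ → ℕ} (e₁ : ι' ≃ ι) (e₂ : κ' ≃ κ)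
    (e₃ : μ' ≃ μ) {F : W3 A → ℂ} (hF : F ∈ Sp3 (Ω := A) a b c) :
    F ∈ Sp3 (Ω := A) (a ∘ e₁) (b ∘ e₂) (c ∘ e₃) := by
  refine Submodule.span_induction
    (p := fun F _ => F ∈ Sp3 (Ω := A) (a ∘ e₁) (b ∘ e₂) (c ∘ e₃)) ?_ ?_ ?_ ?_ hF
  · rintro _ ⟨t, t', t'', rfl⟩
    have h1 := gen_mem_Sp3 (t.trans (mE e₁ a).symm) (t'.trans (mE e₂ b).symm)
      (t''.trans (mE e₃ c).symm)
    simpa only [mE_pt'] using h1
  · exact Submodule.zero_mem _
  · intro F G _ _ h1 h2
    exact Submodule.add_mem _ h1 h2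
  · intro r F _ h1
    exact Submodule.smul_mem _ r h1

private theorem Sp3_relabel {a : ι → ℕ} {b : κ → ℕ} {c : μ → ℕ} (e : A ≃ B)
    {F : W3 A → ℂ} (hF : F ∈ Sp3 (Ω := A) a b c) :
    (fun x : W3 B => F (pull3 e x)) ∈ Sp3 (Ω := B) a b c := by
  refine Submodule.span_induction
    (p := fun F _ => (fun x : W3 B => F (pull3 e x)) ∈ Sp3 (Ω := B) a b c) ?_ ?_ ?_ ?_ hF
  · rintro _ ⟨t, t', t'', rfl⟩
    have h1 := gen_mem_Sp3 (e.symm.trans t) (e.symm.trans t') (e.symm.trans t'')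
    have h2 : ∀ {ι : Type} {h : ι → ℕ} (t : A ≃ Cel h) (w : B → ℕ),
        pt t (w ∘ e) = pt (e.symm.trans t) w := by
      intro ι h t w
      have := pt_relabel e.symm t w
      rwa [Equiv.symm_symm] at this
    have h3 : (fun x : W3 B => (fun x : W3 A => pt t x.1 * pt t' x.2.1 * pt t'' x.2.2)
        (pull3 e x)) = fun x : W3 B => pt (e.symm.trans t) x.1 * pt (e.symm.trans t') x.2.1 *
          pt (e.symm.trans t'') x.2.2 := by
      funext x
      simp only [pull3, h2]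
    rw [h3]
    exact h1
  · exact Submodule.zero_mem _
  · intro F G _ _ h1 h2
    exact Submodule.add_mem _ h1 h2
  · intro r F _ h1
    exact Submodule.smul_mem _ r h1

private theorem exists_bound {ι : Type} [Finite ι] (a : ι → ℕ) : ∃ N, ∀ i, a i ≤ N := by
  obtain ⟨N, hN⟩ := (Set.finite_range a).bddAbove
  exact ⟨N, fun i => hN ⟨i, rfl⟩⟩

private theorem exists_equiv_of_map_eq {α β γ : Type} [Fintype α] [Fintype β] (f : α → γ)
    (g : β → γ) (h : (Finset.univ : Finset α).val.map f = (Finset.univ : Finset β).val.map g) :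
    ∃ e : β ≃ α, f ∘ e = g := by
  classical
  have hc : ∀ v, Fintype.card {i // g i = v} = Fintype.card {i // f i = v} := by
    intro v
    have h1 := congrArg (Multiset.count v) h
    rw [Multiset.count_map, Multiset.count_map] at h1
    rw [Fintype.card_subtype, Fintype.card_subtype, Finset.card_def, Finset.card_def,
      Finset.filter_val, Finset.filter_val]
    simp only [eq_comm (a := v)] at h1
    exact h1.symm
  refine ⟨(Equiv.sigmaFiberEquiv g).symm.trans ((Equiv.sigmaCongrRight fun v =>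
    Fintype.equivOfCardEq (hc v)).trans (Equiv.sigmaFiberEquiv f)), ?_⟩
  funext i
  exact (Fintype.equivOfCardEq (hc (g i)) ⟨i, rfl⟩).2

private theorem perm_equiv {a a' : List ℕ} (h : a.Perm a') :
    ∃ e : Fin a'.length ≃ Fin a.length, a.get ∘ e = a'.get := by
  refine exists_equiv_of_map_eq a.get a'.get ?_
  rw [Fin.univ_val_map, Fin.univ_val_map, List.ofFn_get, List.ofFn_get]
  exact Multiset.coe_eq_coe.2 h

private theorem append_equiv (a a' : List ℕ) :
    ∃ e : Fin (a ++ a').length ≃ Fin a.length ⊕ Fin a'.length,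
      (Sum.elim a.get a'.get) ∘ e = (a ++ a').get := by
  refine exists_equiv_of_map_eq (Sum.elim a.get a'.get) (a ++ a').get ?_
  rw [Fin.univ_val_map, List.ofFn_get, ← Finset.univ_disjSum_univ, Finset.val_disjSum,
    Multiset.disjSum, Multiset.map_add, Multiset.map_map, Multiset.map_map]
  have h1 : (Sum.elim a.get a'.get) ∘ Sum.inl = a.get := rfl
  have h2 : (Sum.elim a.get a'.get) ∘ Sum.inr = a'.get := rfl
  rw [h1, h2, Fin.univ_val_map, Fin.univ_val_map, List.ofFn_get, List.ofFn_get]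
  rfl

end helpers

section
variable {A B ι κ μ ι' κ' μ' : Type} [Fintype A] [DecidableEq A] [Fintype B] [DecidableEq B]
  {a : ι → ℕ} {b : κ → ℕ} {c : μ → ℕ} {a' : ι' → ℕ} {b' : κ' → ℕ} {c' : μ' → ℕ}

/-- Products on disjoint letters (`pt_glue`, as in `VV_mul`). -/
theorem Sp3_mul {F : W3 A → ℂ} {G : W3 B → ℂ} (hF : F ∈ Sp3 (Ω := A) a b c)
    (hG : G ∈ Sp3 (Ω := B) a' b' c') :
    (fun x : W3 (A ⊕ B) => F (pull3 Sum.inl x) * G (pull3 Sum.inr x)) ∈
      Sp3 (Ω := A ⊕ B) (Sum.elim a a') (Sum.elim b b') (Sum.elim c c') := by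
  refine Submodule.span_induction
    (p := fun F _ => (fun x : W3 (A ⊕ B) => F (pull3 Sum.inl x) * G (pull3 Sum.inr x)) ∈
      Sp3 (Ω := A ⊕ B) (Sum.elim a a') (Sum.elim b b') (Sum.elim c c')) ?_ ?_ ?_ ?_ hF
  · rintro _ ⟨t1, t2, t3, rfl⟩
    refine Submodule.span_induction
      (p := fun G _ => (fun x : W3 (A ⊕ B) =>
        (fun x : W3 A => pt t1 x.1 * pt t2 x.2.1 * pt t3 x.2.2) (pull3 Sum.inl x) *
          G (pull3 Sum.inr x)) ∈
        Sp3 (Ω := A ⊕ B) (Sum.elim a a') (Sum.elim b b') (Sum.elim c c')) ?_ ?_ ?_ ?_ hG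
    · rintro _ ⟨t1', t2', t3', rfl⟩
      have : (fun x : W3 (A ⊕ B) =>
          (fun x : W3 A => pt t1 x.1 * pt t2 x.2.1 * pt t3 x.2.2) (pull3 Sum.inl x) *
          (fun x : W3 B => pt t1' x.1 * pt t2' x.2.1 * pt t3' x.2.2) (pull3 Sum.inr x)) =
          fun x : W3 (A ⊕ B) => pt (glue t1 t1') x.1 * pt (glue t2 t2') x.2.1 *
            pt (glue t3 t3') x.2.2 := by
        funext x
        rw [pt_glue, pt_glue, pt_glue]
        simp only [pull3]
        ring
      rw [this]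
      exact gen_mem_Sp3 _ _ _
    · simp only [Pi.zero_apply, mul_zero]
      exact Submodule.zero_mem _
    · intro F G _ _ h1 h2
      have := Submodule.add_mem _ h1 h2
      convert this using 1
      funext x
      simp [mul_add]
    · intro a F _ h1
      have := Submodule.smul_mem _ a h1
      convert this using 1
      funext x
      simp only [Pi.smul_apply, smul_eq_mul]
      ring
  · simp only [Pi.zero_apply, zero_mul]
    exact Submodule.zero_mem _
  · intro F G _ _ h1 h2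
    have := Submodule.add_mem _ h1 h2
    convert this using 1
    funext x
    simp [add_mul]
  · intro a F _ h1
    have := Submodule.smul_mem _ a h1
    convert this using 1
    funext x
    simp only [Pi.smul_apply, smul_eq_mul]
    ring

/-- THE SEMIGROUP PROPERTY. (With `H`, `H'` the invariant functions, take
`F x = H (pull3 inl x) * H' (pull3 inr x)`; `Phi N F = Phi N H * Phi N H' ≠ 0` by `Phi_ne_zero`,
`MvPolynomial` is a domain; `Kr_of_Phi`. `N` = a bound for all heights.) -/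
theorem Kr_mul [Finite ι] [Finite κ] [Finite μ] [Finite ι'] [Finite κ'] [Finite μ']
    (h : Kr A a b c) (h' : Kr B a' b' c') :
    Kr (A ⊕ B) (Sum.elim a a') (Sum.elim b b') (Sum.elim c c') := by
  obtain ⟨H, hH, hH0, hHi⟩ := h
  obtain ⟨H', hH', hH0', hHi'⟩ := h'
  obtain ⟨N1, h1⟩ := exists_bound a
  obtain ⟨N2, h2⟩ := exists_bound b
  obtain ⟨N3, h3⟩ := exists_bound c
  obtain ⟨N4, h4⟩ := exists_bound a'
  obtain ⟨N5, h5⟩ := exists_bound b'
  obtain ⟨N6, h6⟩ := exists_bound c'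
  set N := N1 + N2 + N3 + N4 + N5 + N6 with hN
  obtain ⟨x, hx⟩ := Function.ne_iff.1 hH0
  obtain ⟨x', hx'⟩ := Function.ne_iff.1 hH0'
  obtain ⟨w, rfl⟩ := Sp3_bdd hH (N := N) (fun i => (h1 i).trans (by omega))
    (fun i => (h2 i).trans (by omega)) (fun i => (h3 i).trans (by omega)) hx
  obtain ⟨w', rfl⟩ := Sp3_bdd hH' (N := N) (fun i => (h4 i).trans (by omega))
    (fun i => (h5 i).trans (by omega)) (fun i => (h6 i).trans (by omega)) hx'
  refine Kr_of_Phi (Sp3_mul hH hH') N ?_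
  rw [Phi_mul]
  exact mul_ne_zero (Phi_ne_zero N H hHi w hx) (Phi_ne_zero N H' hHi' w' hx')

/-- Renaming the set of letters. -/
theorem Kr_relabel (e : A ≃ B) (h : Kr A a b c) : Kr B a b c := by
  obtain ⟨H, hH, hH0, hHi⟩ := h
  refine ⟨fun x => H (pull3 e x), Sp3_relabel e hH, ?_, ?_⟩
  · obtain ⟨x, hx⟩ := Function.ne_iff.1 hH0
    refine Function.ne_iff.2 ⟨pull3 e.symm x, ?_⟩
    show H (pull3 e (pull3 e.symm x)) ≠ 0
    rw [pull3_pull3, Equiv.symm_comp_self, pull3_id]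
    exact hx
  · intro g x
    show H (pull3 e (pull3 g x)) = H (pull3 e x)
    rw [← hHi (e.symm.permCongr g) (pull3 e x), pull3_pull3, pull3_pull3]
    congr 2
    funext y
    simp [Equiv.permCongr_apply]

/-- Reindexing the columns. -/
theorem Kr_reindex (e₁ : ι' ≃ ι) (e₂ : κ' ≃ κ) (e₃ : μ' ≃ μ) (h : Kr A a b c) :
    Kr A (a ∘ e₁) (b ∘ e₂) (c ∘ e₃) := by
  obtain ⟨H, hH, hH0, hHi⟩ := h
  exact ⟨H, Sp3_reindex e₁ e₂ e₃ hH, hH0, hHi⟩

theorem Kr_swap (h : Kr A a b c) : Kr A b a c := by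
  obtain ⟨H, hH, hH0, hHi⟩ := h
  refine ⟨fun x => H (x.2.1, x.1, x.2.2), ?_, ?_, ?_⟩
  · refine Submodule.span_induction
      (p := fun F _ => (fun x : W3 A => F (x.2.1, x.1, x.2.2)) ∈ Sp3 (Ω := A) b a c)
      ?_ ?_ ?_ ?_ hH
    · rintro _ ⟨t, t', t'', rfl⟩
      have h1 := gen_mem_Sp3 t' t t''
      have h3 : (fun x : W3 A => (fun x : W3 A => pt t x.1 * pt t' x.2.1 * pt t'' x.2.2)
          (x.2.1, x.1, x.2.2)) = fun x : W3 A => pt t' x.1 * pt t x.2.1 * pt t'' x.2.2 := by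
        funext x
        ring
      rw [h3]
      exact h1
    · exact Submodule.zero_mem _
    · intro F G _ _ h1 h2
      exact Submodule.add_mem _ h1 h2
    · intro r F _ h1
      exact Submodule.smul_mem _ r h1
  · obtain ⟨x, hx⟩ := Function.ne_iff.1 hH0
    exact Function.ne_iff.2 ⟨(x.2.1, x.1, x.2.2), hx⟩
  · intro g x
    exact hHi g (x.2.1, x.1, x.2.2)

theorem Kr_rot (h : Kr A a b c) : Kr A b c a := by
  obtain ⟨H, hH, hH0, hHi⟩ := h
  refine ⟨fun x => H (x.2.2, x.1, x.2.1), ?_, ?_, ?_⟩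
  · refine Submodule.span_induction
      (p := fun F _ => (fun x : W3 A => F (x.2.2, x.1, x.2.1)) ∈ Sp3 (Ω := A) b c a)
      ?_ ?_ ?_ ?_ hH
    · rintro _ ⟨t, t', t'', rfl⟩
      have h1 := gen_mem_Sp3 t' t'' t
      have h3 : (fun x : W3 A => (fun x : W3 A => pt t x.1 * pt t' x.2.1 * pt t'' x.2.2)
          (x.2.2, x.1, x.2.1)) = fun x : W3 A => pt t' x.1 * pt t'' x.2.1 * pt t x.2.2 := by
        funext x
        ring
      rw [h3]
      exact h1
    · exact Submodule.zero_mem _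
    · intro F G _ _ h1 h2
      exact Submodule.add_mem _ h1 h2
    · intro r F _ h1
      exact Submodule.smul_mem _ r h1
  · obtain ⟨x, hx⟩ := Function.ne_iff.1 hH0
    exact Function.ne_iff.2 ⟨(x.2.1, x.2.2, x.1), hx⟩
  · intro g x
    exact hHi g (x.2.2, x.1, x.2.1)

end

theorem KL_append {a b c a' b' c' : List ℕ} (h : KL a b c) (h' : KL a' b' c') :
    KL (a ++ a') (b ++ b') (c ++ c') := by
  obtain ⟨h1, h2, h3⟩ := h
  obtain ⟨h1', h2', h3'⟩ := h'
  refine ⟨?_, ?_, ?_⟩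
  · rw [List.sum_append, List.sum_append, h1, h1']
  · rw [List.sum_append, List.sum_append, h2, h2']
  · intro Ω _ _ hΩ
    have k1 := Kr_mul (h3 (Fin c.sum) (Fintype.card_fin _)) (h3' (Fin c'.sum) (Fintype.card_fin _))
    obtain ⟨e₁, he₁⟩ := append_equiv a a'
    obtain ⟨e₂, he₂⟩ := append_equiv b b'
    obtain ⟨e₃, he₃⟩ := append_equiv c c'
    have k2 := Kr_reindex e₁ e₂ e₃ k1
    rw [he₁, he₂, he₃] at k2
    refine Kr_relabel (Fintype.equivOfCardEq ?_) k2
    rw [hΩ, List.sum_append, Fintype.card_sum, Fintype.card_fin, Fintype.card_fin]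

theorem KL_perm {a b c a' b' c' : List ℕ} (h : KL a b c) (ha : a.Perm a') (hb : b.Perm b')
    (hc : c.Perm c') : KL a' b' c' := by
  obtain ⟨h1, h2, h3⟩ := h
  refine ⟨?_, ?_, ?_⟩
  · rw [← ha.sum_eq, ← hc.sum_eq, h1]
  · rw [← hb.sum_eq, ← hc.sum_eq, h2]
  · intro Ω _ _ hΩ
    obtain ⟨e₁, he₁⟩ := perm_equiv ha
    obtain ⟨e₂, he₂⟩ := perm_equiv hb
    obtain ⟨e₃, he₃⟩ := perm_equiv hc
    have k2 := Kr_reindex e₁ e₂ e₃ (h3 Ω (by rw [hΩ, hc.sum_eq]))
    rwa [he₁, he₂, he₃] at k2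

theorem KL_swap {a b c : List ℕ} (h : KL a b c) : KL b a c := by
  obtain ⟨h1, h2, h3⟩ := h
  exact ⟨h2, h1, fun Ω _ _ hΩ => Kr_swap (h3 Ω hΩ)⟩

theorem KL_rot {a b c : List ℕ} (h : KL a b c) : KL b c a := by
  obtain ⟨h1, h2, h3⟩ := h
  exact ⟨h2.trans h1.symm, h1.symm, fun Ω _ _ hΩ => Kr_rot (h3 Ω (hΩ.trans h1))⟩

end Crest.Agent.SZ
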