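import Crest.Agent.SZ_Defs

/-!
# S0298 small `n`: the generating polynomial (task SZ-1)
-/

set_option autoImplicit false

namespace Crest.Agent.SZ

open Equiv Equiv.Perm Crest.Agent.SX

variable {Ω : Type} [Fintype Ω] [DecidableEq Ω]

theorem Phi_sum {I : Type} [Fintype I] (N : ℕ) (F : I → W3 Ω → ℂ) :
    Phi N (fun x => ∑ i, F i x) = ∑ i, Phi N (F i) := by
  unfold Phi
  rw [Finset.sum_comm]
  refine Finset.sum_congr rfl fun w _ => ?_
  rw [map_sum, Finset.sum_mul]

/-- Renaming the letters does not change the polynomial (reindex the sum over `w` by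
`Equiv.arrowCongr`; `toW (w ∘ g) = pull3 g (toW w)`). -/
theorem Phi_pull (N : ℕ) (F : W3 Ω → ℂ) (g : Perm Ω) :
    Phi N (fun x => F (pull3 g x)) = Phi N F := by
  unfold Phi
  refine Fintype.sum_equiv (Equiv.arrowCongr g.symm (Equiv.refl _)) _ _ fun w => ?_
  have h1 : pull3 g (toW w) = toW (Equiv.arrowCongr g.symm (Equiv.refl _) w) := rfl
  have h2 : (∏ x, MvPolynomial.X (R := ℂ) (w x)) =
      ∏ x, MvPolynomial.X (R := ℂ) ((Equiv.arrowCongr g.symm (Equiv.refl _) w) x) :=
    (Equiv.prod_comp g (fun x => MvPolynomial.X (R := ℂ) (w x))).symm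
  show MvPolynomial.C (F (pull3 g (toW w))) * ∏ x, MvPolynomial.X (w x) = _
  rw [h1, h2]

/-- The polynomial of a product on disjoint letters (`Equiv.sumArrowEquivProdArrow`). -/
theorem Phi_mul {A B : Type} [Fintype A] [DecidableEq A] [Fintype B] [DecidableEq B] (N : ℕ)
    (F : W3 A → ℂ) (G : W3 B → ℂ) :
    Phi N (fun x : W3 (A ⊕ B) => F (pull3 Sum.inl x) * G (pull3 Sum.inr x)) =
      Phi N F * Phi N G := by
  unfold Phi
  rw [Fintype.sum_mul_sum, ← Fintype.sum_prod_type' (f := fun (u : A → Fin N × Fin N × Fin N)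
    (v : B → Fin N × Fin N × Fin N) =>
      MvPolynomial.C (F (toW u)) * (∏ x, MvPolynomial.X (u x)) *
        (MvPolynomial.C (G (toW v)) * ∏ x, MvPolynomial.X (v x)))]
  refine Fintype.sum_equiv (Equiv.sumArrowEquivProdArrow A B _) _ _ fun w => ?_
  rw [Fintype.prod_sum_type, map_mul]
  have h1 : pull3 Sum.inl (toW w) = toW ((Equiv.sumArrowEquivProdArrow A B _ w).1) := rfl
  have h2 : pull3 Sum.inr (toW w) = toW ((Equiv.sumArrowEquivProdArrow A B _ w).2) := rfl
  rw [h1, h2]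
  have h3 : ∀ a, w (Sum.inl a) = (Equiv.sumArrowEquivProdArrow A B _ w).1 a := fun a => rfl
  have h4 : ∀ b, w (Sum.inr b) = (Equiv.sumArrowEquivProdArrow A B _ w).2 b := fun b => rfl
  simp only [h3, h4]
  ring

private theorem prod_X_eq {N : ℕ} (v : Ω → Fin N × Fin N × Fin N) :
    (∏ x, MvPolynomial.X (R := ℂ) (v x)) =
      MvPolynomial.monomial (∑ x, Finsupp.single (v x) 1) (1 : ℂ) := by
  classical
  have h : ∀ s : Finset Ω, (∏ x ∈ s, MvPolynomial.X (R := ℂ) (v x)) =
      MvPolynomial.monomial (∑ x ∈ s, Finsupp.single (v x) 1) (1 : ℂ) := by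
    intro s
    induction s using Finset.induction_on with
    | empty => simp
    | insert a s ha ih =>
      rw [Finset.prod_insert ha, Finset.sum_insert ha, ih, MvPolynomial.X,
        MvPolynomial.monomial_mul, one_mul]
  exact h Finset.univ

omit [DecidableEq Ω] in
private theorem exists_perm {T : Type} [DecidableEq T] (v w : Ω → T)
    (h : (∑ x, Finsupp.single (v x) 1 : T →₀ ℕ) = ∑ x, Finsupp.single (w x) 1) :
    ∃ g : Perm Ω, v = w ∘ g := by
  have hcard : ∀ c : T, Nonempty ({a // v a = c} ≃ {a // w a = c}) := by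
    intro c
    have h1 := DFunLike.congr_fun h c
    rw [Finsupp.finsetSum_apply, Finsupp.finsetSum_apply] at h1
    simp only [Finsupp.single_apply] at h1
    rw [← Finset.card_filter, ← Finset.card_filter] at h1
    refine ⟨Fintype.equivOfCardEq ?_⟩
    rw [Fintype.card_subtype, Fintype.card_subtype]
    exact h1
  refine ⟨Equiv.ofFiberEquiv (fun c => (hcard c).some), ?_⟩
  funext a
  exact (Equiv.ofFiberEquiv_map (fun c => (hcard c).some) a).symm

/-- An invariant function which does not vanish at some word with letters `< N` has a nonzero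
polynomial. (Coefficient of `∏ x, X (w x)`: the words with this monomial are the `w ∘ g`, `g : Perm Ω`
(two functions with the same multiset of values differ by a permutation), on which `H` has the same
value; so the coefficient is a positive integer times `H (toW w)`.) -/
theorem Phi_ne_zero (N : ℕ) (H : W3 Ω → ℂ) (hinv : ∀ (g : Perm Ω) x, H (pull3 g x) = H x)
    (w : Ω → Fin N × Fin N × Fin N) (hw : H (toW w) ≠ 0) : Phi N H ≠ 0 := by
  classical
  intro h0
  have h1 := congrArg (MvPolynomial.coeff (∑ x, Finsupp.single (w x) 1)) h0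
  unfold Phi at h1
  rw [MvPolynomial.coeff_sum, MvPolynomial.coeff_zero] at h1
  have h2 : ∀ v : Ω → Fin N × Fin N × Fin N,
      MvPolynomial.coeff (∑ x, Finsupp.single (w x) 1)
        (MvPolynomial.C (H (toW v)) * ∏ x, MvPolynomial.X (v x)) =
      if (∑ x, Finsupp.single (v x) 1 : (Fin N × Fin N × Fin N) →₀ ℕ) =
        ∑ x, Finsupp.single (w x) 1 then H (toW w) else 0 := by
    intro v
    rw [prod_X_eq, MvPolynomial.coeff_C_mul, MvPolynomial.coeff_monomial]
    split_ifs with h3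
    · obtain ⟨g, rfl⟩ := exists_perm v w h3
      rw [mul_one]
      exact hinv g (toW w)
    · rw [mul_zero]
  rw [Finset.sum_congr rfl (fun v _ => h2 v), ← Finset.sum_filter, Finset.sum_const,
    nsmul_eq_mul] at h1
  rcases mul_eq_zero.1 h1 with h3 | h3
  · have h4 : (Finset.univ.filter (fun v : Ω → Fin N × Fin N × Fin N =>
        (∑ x, Finsupp.single (v x) 1 : (Fin N × Fin N × Fin N) →₀ ℕ) =
          ∑ x, Finsupp.single (w x) 1)).card = 0 := by exact_mod_cast h3
    rw [Finset.card_eq_zero] at h4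
    have h5 : w ∈ (Finset.univ.filter (fun v : Ω → Fin N × Fin N × Fin N =>
        (∑ x, Finsupp.single (v x) 1 : (Fin N × Fin N × Fin N) →₀ ℕ) =
          ∑ x, Finsupp.single (w x) 1)) := by simp
    rw [h4] at h5
    exact absurd h5 (Finset.notMem_empty _)
  · exact hw h3

section
variable {ι κ μ : Type} {a : ι → ℕ} {b : κ → ℕ} {c : μ → ℕ}

theorem Sp3_pull {F : W3 Ω → ℂ} (hF : F ∈ Sp3 (Ω := Ω) a b c) (g : Perm Ω) :
    (fun x => F (pull3 g x)) ∈ Sp3 (Ω := Ω) a b c := by
  have h : Sp3 (Ω := Ω) a b c ≤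
      (Sp3 (Ω := Ω) a b c).comap (LinearMap.funLeft ℂ ℂ (pull3 g : W3 Ω → W3 Ω)) := by
    conv_lhs => unfold Sp3
    rw [Submodule.span_le]
    rintro _ ⟨t, t', t'', rfl⟩
    show (LinearMap.funLeft ℂ ℂ (pull3 g : W3 Ω → W3 Ω))
      (fun x => pt t x.1 * pt t' x.2.1 * pt t'' x.2.2) ∈ Sp3 (Ω := Ω) a b c
    have h1 : (LinearMap.funLeft ℂ ℂ (pull3 g : W3 Ω → W3 Ω))
        (fun x => pt t x.1 * pt t' x.2.1 * pt t'' x.2.2) =
        fun x => pt (g.symm.trans t) x.1 * pt (g.symm.trans t') x.2.1 *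
          pt (g.symm.trans t'') x.2.2 := by
      funext x
      show pt t (x.1 ∘ g) * pt t' (x.2.1 ∘ g) * pt t'' (x.2.2 ∘ g) = _
      rw [pt_comp, pt_comp, pt_comp]
    rw [h1]
    exact gen_mem_Sp3 _ _ _
  exact h hF

private theorem pt_lt {ι' : Type} {h : ι' → ℕ} (t : Ω ≃ Cel h) {u : Ω → ℕ} (hu : pt t u ≠ 0)
    {N : ℕ} (hN : ∀ i, h i ≤ N) (y : Ω) : u y < N := by
  obtain ⟨s, -, hs⟩ := pt_ne_zero hu
  have h1 := hs (s.symm y)
  rw [Equiv.apply_symm_apply] at h1
  rw [h1]
  exact lt_of_lt_of_le (t (s.symm y)).2.isLt (hN _)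

/-- Functions in `Sp3` vanish outside the words with letters smaller than the heights. -/
theorem Sp3_bdd {F : W3 Ω → ℂ} (hF : F ∈ Sp3 (Ω := Ω) a b c) {N : ℕ} (ha : ∀ i, a i ≤ N)
    (hb : ∀ i, b i ≤ N) (hc : ∀ i, c i ≤ N) {x : W3 Ω} (hx : F x ≠ 0) :
    ∃ w : Ω → Fin N × Fin N × Fin N, x = toW w := by
  by_contra hcon
  apply hx
  have h : Sp3 (Ω := Ω) a b c ≤ LinearMap.ker (LinearMap.proj x : (W3 Ω → ℂ) →ₗ[ℂ] ℂ) := by
    unfold Sp3
    rw [Submodule.span_le]
    rintro _ ⟨t, t', t'', rfl⟩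
    show pt t x.1 * pt t' x.2.1 * pt t'' x.2.2 = 0
    by_contra hne
    have h3 := right_ne_zero_of_mul hne
    have h12 := left_ne_zero_of_mul hne
    have h1 := left_ne_zero_of_mul h12
    have h2 := right_ne_zero_of_mul h12
    exact hcon ⟨fun y => (⟨x.1 y, pt_lt t h1 ha y⟩, ⟨x.2.1 y, pt_lt t' h2 hb y⟩,
      ⟨x.2.2 y, pt_lt t'' h3 hc y⟩), rfl⟩
  exact h hF

/-- `H = ∑_g F (pull3 g x)` works: its polynomial is `|Perm Ω|` times the one of `F`. -/
theorem Kr_of_Phi {F : W3 Ω → ℂ} (hF : F ∈ Sp3 (Ω := Ω) a b c) (N : ℕ) (h0 : Phi N F ≠ 0) :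
    Kr Ω a b c := by
  refine ⟨fun x => ∑ g : Perm Ω, F (pull3 g x), ?_, ?_, ?_⟩
  · have h1 : (fun x => ∑ g : Perm Ω, F (pull3 g x)) =
        ∑ g : Perm Ω, (fun x => F (pull3 g x)) := by
      funext x
      rw [Finset.sum_apply]
    rw [h1]
    exact Submodule.sum_mem _ fun g _ => Sp3_pull hF g
  · intro h1
    have h2 := Phi_sum N (fun (g : Perm Ω) (x : W3 Ω) => F (pull3 g x))
    rw [h1, Finset.sum_congr rfl (fun g _ => Phi_pull N F g), Finset.sum_const,
      nsmul_eq_mul] at h2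
    have h3 : Phi N (0 : W3 Ω → ℂ) = 0 := by
      unfold Phi
      refine Finset.sum_eq_zero fun w _ => ?_
      rw [Pi.zero_apply, map_zero, zero_mul]
    rw [h3] at h2
    rcases mul_eq_zero.1 h2.symm with h4 | h4
    · have h5 : (Finset.univ : Finset (Perm Ω)).card = 0 := by exact_mod_cast h4
      rw [Finset.card_eq_zero] at h5
      exact absurd (Finset.mem_univ (1 : Perm Ω)) (by rw [h5]; exact Finset.notMem_empty _)
    · exact h0 h4
  · intro g x
    refine Fintype.sum_equiv (Equiv.mulLeft g) _ _ fun g' => ?_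
    rfl

end

end Crest.Agent.SZ
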