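import Crest.Agent.SZ_Defs

/-!
# S0298 small `n`: transposed tableaux (task SZ-3b)
-/

set_option autoImplicit false

namespace Crest.Agent.SZ

open Equiv Equiv.Perm Crest.Agent.SX

variable {Ω : Type} [Fintype Ω] [DecidableEq Ω]

private theorem sz3b_lt_countP (r : ℕ) : ∀ (a : List ℕ), a.Pairwise (· ≥ ·) → ∀ i : ℕ,
    i < a.countP (fun h => decide (r < h)) ↔ ∃ hi : i < a.length, r < a[i] := by
  intro a
  induction a with
  | nil =>
    intro _ i
    simp
  | cons h l ih =>
    intro ha i
    rw [List.pairwise_cons] at ha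
    by_cases hr : r < h
    · rw [List.countP_cons_of_pos (by simpa using hr)]
      cases i with
      | zero => simp [hr]
      | succ j =>
        rw [Nat.add_lt_add_iff_right, ih ha.2 j]
        simp
    · have h0 : (h :: l).countP (fun h => decide (r < h)) = 0 := by
        rw [List.countP_eq_zero]
        intro x hx
        rcases List.mem_cons.1 hx with rfl | hx
        · simpa using hr
        · have := ha.1 x hx
          simp only [decide_eq_true_eq]
          omega
      rw [h0]
      constructor
      · intro h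
        omega
      · rintro ⟨hi, hlt⟩
        exfalso
        have hmem : (h :: l)[i] ∈ h :: l := List.getElem_mem hi
        rcases List.mem_cons.1 hmem with he | he
        · rw [he] at hlt
          exact hr hlt
        · have := ha.1 _ he
          omega

private theorem sz3b_le_max : ∀ (a : List ℕ) (x : ℕ), x ∈ a → x ≤ a.foldr max 0 := by
  intro a
  induction a with
  | nil => simp
  | cons h l ih =>
    intro x hx
    rw [List.foldr_cons]
    rcases List.mem_cons.1 hx with rfl | hx
    · exact le_max_left _ _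
    · exact (ih x hx).trans (le_max_right _ _)

private theorem sz3b_length (a : List ℕ) : (trL a).length = a.foldr max 0 := by
  simp [trL]

private theorem sz3b_get (a : List ℕ) (i : ℕ) (hi : i < (trL a).length) :
    (trL a)[i] = a.countP fun h => decide (i < h) := by
  simp [trL]

private theorem sz3b_ext {ι : Type} {h : ι → ℕ} (p q : Cel h) (h1 : p.1 = q.1)
    (h2 : (p.2 : ℕ) = q.2) : p = q := by
  obtain ⟨i, r⟩ := p
  obtain ⟨j, s⟩ := q
  simp only at h1
  subst h1
  simp only at h2
  rw [Fin.ext h2]

private theorem sz3b_aux1 (a : List ℕ) (p : Cel a.get) : (p.2 : ℕ) < (trL a).length := by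
  rw [sz3b_length]
  exact lt_of_lt_of_le p.2.2 (sz3b_le_max a _ (List.get_mem a p.1))

private theorem sz3b_aux2 (a : List ℕ) (ha : a.Pairwise (· ≥ ·)) (p : Cel a.get) :
    (p.1 : ℕ) < (trL a).get ⟨p.2, sz3b_aux1 a p⟩ := by
  rw [List.get_eq_getElem, sz3b_get, sz3b_lt_countP _ a ha]
  exact ⟨p.1.2, p.2.2⟩

private theorem sz3b_aux3 (a : List ℕ) (ha : a.Pairwise (· ≥ ·)) (q : Cel (trL a).get) :
    ∃ hi : (q.2 : ℕ) < a.length, (q.1 : ℕ) < a[(q.2 : ℕ)] := by
  have e : (trL a).get q.1 = a.countP fun h => decide ((q.1 : ℕ) < h) := by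
    rw [List.get_eq_getElem, sz3b_get]
  exact (sz3b_lt_countP _ a ha _).1 (lt_of_lt_of_eq q.2.2 e)

/-- the transposition of cells -/
private def sz3bE (a : List ℕ) (ha : a.Pairwise (· ≥ ·)) : Cel a.get ≃ Cel (trL a).get where
  toFun p := ⟨⟨p.2, sz3b_aux1 a p⟩, ⟨p.1, sz3b_aux2 a ha p⟩⟩
  invFun q := ⟨⟨q.2, (sz3b_aux3 a ha q).1⟩, ⟨q.1, (sz3b_aux3 a ha q).2⟩⟩
  left_inv _ := sz3b_ext _ _ rfl rfl
  right_inv _ := sz3b_ext _ _ rfl rfl

/-- A transposed tableau for a sorted list of column heights: the cell `(column i, row r)` goes to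
the cell `(column r, row i)`. -/
theorem exists_transpose (a : List ℕ) (ha : a.Pairwise (· ≥ ·)) (t : Ω ≃ Cel a.get) :
    ∃ t' : Ω ≃ Cel (trL a).get,
      (∀ x y, (t' x).1 = (t' y).1 ↔ ((t x).2 : ℕ) = (t y).2) ∧
      ∀ x y, ((t' x).2 : ℕ) = (t' y).2 ↔ (t x).1 = (t y).1 := by
  refine ⟨t.trans (sz3bE a ha), fun x y => ?_, fun x y => ?_⟩
  · have h : ∀ z, (((t.trans (sz3bE a ha)) z).1 : ℕ) = (t z).2 := fun z => rfl
    rw [Fin.ext_iff, h, h]
  · have h : ∀ z, (((t.trans (sz3bE a ha)) z).2 : ℕ) = (t z).1 := fun z => rfl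
    rw [Fin.ext_iff, h, h]

theorem trL_perm {a b : List ℕ} (h : a.Perm b) : trL a = trL b := by
  unfold trL
  have h1 : a.foldr max 0 = b.foldr max 0 := h.foldr_eq 0
  rw [h1]
  refine List.map_congr_left fun i _ => ?_
  exact h.countP_eq _

private theorem sz3b_ite_sum (h : ℕ) : ∀ M : ℕ,
    ((List.range M).map fun i => if i < h then 1 else 0).sum = min h M := by
  intro M
  induction M with
  | zero => simp
  | succ M ih =>
    rw [List.range_succ, List.map_append, List.sum_append, ih]
    simp only [List.map_cons, List.map_nil, List.sum_cons, List.sum_nil, add_zero]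
    split_ifs with hc
    · omega
    · omega

theorem trL_sum (a : List ℕ) : (trL a).sum = a.sum := by
  have key : ∀ (l : List ℕ) (M : ℕ), (∀ x ∈ l, x ≤ M) →
      ((List.range M).map fun i => l.countP fun h => decide (i < h)).sum = l.sum := by
    intro l
    induction l with
    | nil =>
      intro M _
      simp
    | cons h l ih =>
      intro M hM
      have h1 := ih M fun x hx => hM x (List.mem_cons_of_mem _ hx)
      have h2 : h ≤ M := hM h List.mem_cons_self
      have h3 : (fun i => (h :: l).countP fun h => decide (i < h)) =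
          fun i => (l.countP fun h => decide (i < h)) + if i < h then 1 else 0 := by
        funext i
        rw [List.countP_cons]
        simp
      rw [h3, List.sum_map_add, h1, List.sum_cons, add_comm]
      congr 1
      rw [sz3b_ite_sum, min_eq_left h2]
  exact key a _ (sz3b_le_max a)

end Crest.Agent.SZ
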