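import Crest.Agent.SZ_Mul
import Crest.Agent.SZ_Tr

/-!
# S0298 small `n`: conjugation of shapes (task SZ-3a; KL_twist: SZ-3c)
-/

set_option autoImplicit false

namespace Crest.Agent.SZ

open Equiv Equiv.Perm Crest.Agent.SX

variable {Ω ι κ μ : Type} [Fintype Ω] [DecidableEq Ω]

/-- The sign twist, for a tableau `t` and a transposed tableau `t'`:
`Θ F w = ∑_g sign g * F (row word of t ∘ g⁻¹) * pt t' (w ∘ g)`. -/
noncomputable def Th {a : ι → ℕ} {b : κ → ℕ} (t : Ω ≃ Cel a) (t' : Ω ≃ Cel b) :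
    ((Ω → ℕ) → ℂ) →ₗ[ℂ] ((Ω → ℕ) → ℂ) where
  toFun F := fun w => ∑ g : Perm Ω,
    ((sign g : ℤ) : ℂ) * F (fun x => ((t (g⁻¹ x)).2 : ℕ)) * pt t' (w ∘ g)
  map_add' F G := by
    funext w
    simp only [Pi.add_apply, mul_add, add_mul, Finset.sum_add_distrib]
  map_smul' a F := by
    funext w
    simp only [Pi.smul_apply, smul_eq_mul, RingHom.id_apply, Finset.mul_sum]
    exact Finset.sum_congr rfl fun g _ => by ring

private theorem Th_apply {a : ι → ℕ} {b : κ → ℕ} (t : Ω ≃ Cel a) (t' : Ω ≃ Cel b) (F : (Ω → ℕ) → ℂ)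
    (w : Ω → ℕ) : Th t t' F w = ∑ g : Perm Ω,
      ((sign g : ℤ) : ℂ) * F (fun x => ((t (g⁻¹ x)).2 : ℕ)) * pt t' (w ∘ g) := rfl

omit [Fintype Ω] [DecidableEq Ω] in
private theorem inv_app (g : Perm Ω) (x : Ω) : g⁻¹ (g x) = x := g.symm_apply_apply x

omit [Fintype Ω] [DecidableEq Ω] in
private theorem app_inv (g : Perm Ω) (x : Ω) : g (g⁻¹ x) = x := g.apply_symm_apply x

private theorem sign_sq_one (g : Perm Ω) : ((sign g : ℤ) : ℂ) * ((sign g : ℤ) : ℂ) = 1 := by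
  rw [← Int.cast_mul, ← Units.val_mul, Int.units_mul_self]
  simp

theorem Th_mem {a : ι → ℕ} {b : κ → ℕ} (t : Ω ≃ Cel a) (t' : Ω ≃ Cel b) (F : (Ω → ℕ) → ℂ) :
    Th t t' F ∈ Sp (Ω := Ω) b := by
  have e : Th t t' F = ∑ g : Perm Ω, (((sign g : ℤ) : ℂ) * F (fun x => ((t (g⁻¹ x)).2 : ℕ))) •
      (fun w : Ω → ℕ => pt t' (w ∘ g)) := by
    funext w
    rw [Finset.sum_apply]
    rfl
  rw [e]
  exact Submodule.sum_mem _ fun g _ => Submodule.smul_mem _ _ (Sp_comp (pt_mem_Sp t') g)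

/-- Semilinearity. -/
theorem Th_comp {a : ι → ℕ} {b : κ → ℕ} (t : Ω ≃ Cel a) (t' : Ω ≃ Cel b) (F : (Ω → ℕ) → ℂ)
    (g : Perm Ω) (w : Ω → ℕ) :
    Th t t' (fun x => F (x ∘ g)) w = ((sign g : ℤ) : ℂ) * Th t t' F (w ∘ g) := by
  rw [Th_apply, Th_apply, Finset.mul_sum]
  refine (Fintype.sum_equiv (Equiv.mulLeft g) _ _ fun g' => ?_).symm
  rw [Equiv.coe_mulLeft]
  have e1 : (fun x => ((t (g'⁻¹ x)).2 : ℕ)) = (fun x => ((t ((g * g')⁻¹ x)).2 : ℕ)) ∘ g := by
    funext x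
    rw [Function.comp_apply, mul_inv_rev, Perm.mul_apply, inv_app]
  have e2 : (w ∘ g) ∘ g' = w ∘ (g * g' : Perm Ω) := rfl
  rw [Perm.sign_mul, Units.val_mul, Int.cast_mul, ← e1, e2]
  ring

/-- `Th_comp` in the other direction. -/
private theorem Th_comp' {a : ι → ℕ} {b : κ → ℕ} (t : Ω ≃ Cel a) (t' : Ω ≃ Cel b) (F : (Ω → ℕ) → ℂ)
    (g : Perm Ω) (w : Ω → ℕ) :
    Th t t' F (w ∘ g) = ((sign g : ℤ) : ℂ) * Th t t' (fun x => F (x ∘ g)) w := by
  rw [Th_comp, ← mul_assoc, sign_sq_one, one_mul]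

private theorem Cel_ext {a : ι → ℕ} {c c' : Cel a} (h1 : c.1 = c'.1) (h2 : (c.2 : ℕ) = c'.2) : c = c' := by
  obtain ⟨i, x⟩ := c
  obtain ⟨i', x'⟩ := c'
  simp only at h1 h2
  subst h1
  rw [Fin.ext h2]

/-- `Θ (pt t) (row word of t') ≠ 0`. The term of `g` is `0` or `1`, and `1` for `g = 1`: if
`pt t (row_t ∘ g⁻¹) ≠ 0` there is `s` in the column group of `t` with `row_t (g⁻¹ (s x)) = row_t x`,
if `pt t' (row_t' ∘ g) ≠ 0` there is `s'` with `col_t' (s' x) = col_t' x` (so `row_t (s' x) = row_t x`)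
and `row_t' (g (s' x)) = row_t' x` (so `col_t (g (s' x)) = col_t x`); then `g⁻¹ s` preserves the rows
and `g s'` the columns of `t`, `(g s')⁻¹ s = s'⁻¹ (g⁻¹ s)` preserves rows and columns of `t`, hence is
`1`, `g = s s'⁻¹`, and the term is `sign g * sign s * sign s' = 1`. -/
theorem Th_pt {a : ι → ℕ} {b : κ → ℕ} (t : Ω ≃ Cel a) (t' : Ω ≃ Cel b)
    (h1 : ∀ x y, (t' x).1 = (t' y).1 ↔ ((t x).2 : ℕ) = (t y).2)
    (h2 : ∀ x y, ((t' x).2 : ℕ) = (t' y).2 ↔ (t x).1 = (t y).1) :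
    Th t t' (pt t) (fun x => ((t' x).2 : ℕ)) ≠ 0 := by
  classical
  rw [Th_apply]
  have key : ∀ g : Perm Ω, ∃ n : ℕ, ((sign g : ℤ) : ℂ) * pt t (fun x => ((t (g⁻¹ x)).2 : ℕ)) *
      pt t' ((fun x => ((t' x).2 : ℕ)) ∘ g) = (n : ℂ) ∧ (g = 1 → n = 1) := by
    intro g
    by_cases hg1 : pt t (fun x => ((t (g⁻¹ x)).2 : ℕ)) = 0
    · refine ⟨0, by rw [hg1]; simp, ?_⟩
      intro hg
      subst hg
      have h := pt_self t
      exact absurd (h.symm.trans hg1) one_ne_zero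
    by_cases hg2 : pt t' ((fun x => ((t' x).2 : ℕ)) ∘ g) = 0
    · refine ⟨0, by rw [hg2]; simp, ?_⟩
      intro hg
      subst hg
      have h := pt_self t'
      exact absurd (h.symm.trans hg2) one_ne_zero
    refine ⟨1, ?_, fun _ => rfl⟩
    obtain ⟨s, hs1, hs2⟩ := pt_ne_zero hg1
    obtain ⟨s', hs1', hs2'⟩ := pt_ne_zero hg2
    rw [pt_eq_sign t s hs1 hs2, pt_eq_sign t' s' hs1' hs2']
    simp only [Function.comp_apply] at hs2 hs2'
    have c1 : ∀ x, ((t (s' x)).2 : ℕ) = (t x).2 := fun x => (h1 _ _).1 (hs1' x)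
    have c2 : ∀ x, (t (g (s' x))).1 = (t x).1 := fun x => (h2 _ _).1 (hs2' x)
    have hsg : s = g * s' := by
      apply Equiv.ext
      intro x
      -- `u x = s'⁻¹ (g⁻¹ (s x))`
      have hu : t (s'⁻¹ (g⁻¹ (s x))) = t x := by
        apply Cel_ext
        · have := c2 (s'⁻¹ (g⁻¹ (s x)))
          rw [app_inv, app_inv] at this
          exact this.symm.trans (hs1 x)
        · have := c1 (s'⁻¹ (g⁻¹ (s x)))
          rw [app_inv] at this
          exact this.symm.trans (hs2 x)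
      have hu2 := t.injective hu
      have hu3 : g (s' (s'⁻¹ (g⁻¹ (s x)))) = g (s' x) := by rw [hu2]
      rw [app_inv, app_inv] at hu3
      exact hu3
    rw [hsg, Perm.sign_mul, Units.val_mul, Int.cast_mul]
    have e1 := sign_sq_one g
    have e2 := sign_sq_one s'
    push_cast
    linear_combination (((sign s' : ℤ) : ℂ) * ((sign s' : ℤ) : ℂ)) * e1 + e2
  choose n hn hn1 using key
  rw [Finset.sum_congr rfl fun g _ => hn g, ← Nat.cast_sum]
  rw [Nat.cast_ne_zero]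
  have h3 : n 1 ≤ ∑ g : Perm Ω, n g := Finset.single_le_sum (fun g _ => Nat.zero_le _) (Finset.mem_univ 1)
  rw [hn1 1 rfl] at h3
  omega

/-- Hence `Θ` is injective on `Sp a` (`Sp_submodule` applied to the kernel). -/
theorem Th_inj [Fintype ι] {a : ι → ℕ} {b : κ → ℕ} (t : Ω ≃ Cel a) (t' : Ω ≃ Cel b)
    (h1 : ∀ x y, (t' x).1 = (t' y).1 ↔ ((t x).2 : ℕ) = (t y).2)
    (h2 : ∀ x y, ((t' x).2 : ℕ) = (t' y).2 ↔ (t x).1 = (t y).1)
    (F : (Ω → ℕ) → ℂ) (hF : F ∈ Sp (Ω := Ω) a) (h0 : Th t t' F = 0) : F = 0 := by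
  classical
  by_contra hne
  set U : Submodule ℂ ((Ω → ℕ) → ℂ) := Sp (Ω := Ω) a ⊓ LinearMap.ker (Th t t') with hU
  have hFU : F ∈ U := ⟨hF, LinearMap.mem_ker.2 h0⟩
  have hU0 : U ≠ ⊥ := by
    intro h
    rw [h, Submodule.mem_bot] at hFU
    exact hne hFU
  have hinv : ∀ G ∈ U, ∀ g : Perm Ω, (fun w => G (w ∘ g)) ∈ U := by
    intro G hG g
    refine ⟨Sp_comp hG.1 g, LinearMap.mem_ker.2 ?_⟩
    funext w
    rw [Th_comp]
    have : Th t t' G = 0 := LinearMap.mem_ker.1 hG.2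
    rw [this]
    simp
  have h := Sp_submodule U inf_le_left hinv hU0
  have hpt : pt t ∈ U := by
    rw [h]
    exact pt_mem_Sp t
  have h3 : Th t t' (pt t) = 0 := LinearMap.mem_ker.1 hpt.2
  exact Th_pt t t' h1 h2 (by rw [h3]; rfl)

private theorem Sp3_fst {a : ι → ℕ} {b : κ → ℕ} {c : μ → ℕ} {H : W3 Ω → ℂ}
    (hH : H ∈ Sp3 (Ω := Ω) a b c) (q r : Ω → ℕ) : (fun p => H (p, q, r)) ∈ Sp (Ω := Ω) a := by
  refine Submodule.span_induction
    (p := fun F _ => (fun p : Ω → ℕ => F (p, q, r)) ∈ Sp (Ω := Ω) a) ?_ ?_ ?_ ?_ hH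
  · rintro _ ⟨t, t', t'', rfl⟩
    have e : (fun p : Ω → ℕ => pt t p * pt t' q * pt t'' r) = (pt t' q * pt t'' r) • pt t := by
      funext p
      simp only [Pi.smul_apply, smul_eq_mul]
      ring
    show (fun p : Ω → ℕ => pt t p * pt t' q * pt t'' r) ∈ _
    rw [e]
    exact Submodule.smul_mem _ _ (pt_mem_Sp t)
  · exact Submodule.zero_mem _
  · intro F G _ _ h1 h2
    exact Submodule.add_mem _ h1 h2
  · intro a F _ h1
    exact Submodule.smul_mem _ a h1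

private theorem Sp3_snd {a : ι → ℕ} {b : κ → ℕ} {c : μ → ℕ} {H : W3 Ω → ℂ}
    (hH : H ∈ Sp3 (Ω := Ω) a b c) (p r : Ω → ℕ) : (fun q => H (p, q, r)) ∈ Sp (Ω := Ω) b := by
  refine Submodule.span_induction
    (p := fun F _ => (fun q : Ω → ℕ => F (p, q, r)) ∈ Sp (Ω := Ω) b) ?_ ?_ ?_ ?_ hH
  · rintro _ ⟨t, t', t'', rfl⟩
    have e : (fun q : Ω → ℕ => pt t p * pt t' q * pt t'' r) = (pt t p * pt t'' r) • pt t' := by
      funext q
      simp only [Pi.smul_apply, smul_eq_mul]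
      ring
    show (fun q : Ω → ℕ => pt t p * pt t' q * pt t'' r) ∈ _
    rw [e]
    exact Submodule.smul_mem _ _ (pt_mem_Sp t')
  · exact Submodule.zero_mem _
  · intro F G _ _ h1 h2
    exact Submodule.add_mem _ h1 h2
  · intro a F _ h1
    exact Submodule.smul_mem _ a h1

private theorem Sp3_prod {a : ι → ℕ} {b : κ → ℕ} {c : μ → ℕ} {F G : (Ω → ℕ) → ℂ}
    (hF : F ∈ Sp (Ω := Ω) a) (hG : G ∈ Sp (Ω := Ω) b) (t'' : Ω ≃ Cel c) :
    (fun x : W3 Ω => F x.1 * G x.2.1 * pt t'' x.2.2) ∈ Sp3 (Ω := Ω) a b c := by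
  refine Submodule.span_induction
    (p := fun F _ => (fun x : W3 Ω => F x.1 * G x.2.1 * pt t'' x.2.2) ∈ Sp3 (Ω := Ω) a b c) ?_ ?_ ?_ ?_ hF
  · rintro _ ⟨t, rfl⟩
    refine Submodule.span_induction
      (p := fun G _ => (fun x : W3 Ω => pt t x.1 * G x.2.1 * pt t'' x.2.2) ∈ Sp3 (Ω := Ω) a b c) ?_ ?_ ?_ ?_ hG
    · rintro _ ⟨t', rfl⟩
      exact gen_mem_Sp3 t t' t''
    · have e : (fun x : W3 Ω => pt t x.1 * (0 : (Ω → ℕ) → ℂ) x.2.1 * pt t'' x.2.2) = 0 := by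
        funext x
        simp
      rw [e]
      exact Submodule.zero_mem _
    · intro F G _ _ h1 h2
      have e : (fun x : W3 Ω => pt t x.1 * (F + G) x.2.1 * pt t'' x.2.2) =
          (fun x : W3 Ω => pt t x.1 * F x.2.1 * pt t'' x.2.2) +
          (fun x : W3 Ω => pt t x.1 * G x.2.1 * pt t'' x.2.2) := by
        funext x
        simp only [Pi.add_apply]
        ring
      rw [e]
      exact Submodule.add_mem _ h1 h2
    · intro r F _ h1
      have e : (fun x : W3 Ω => pt t x.1 * (r • F) x.2.1 * pt t'' x.2.2) =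
          r • (fun x : W3 Ω => pt t x.1 * F x.2.1 * pt t'' x.2.2) := by
        funext x
        simp only [Pi.smul_apply, smul_eq_mul]
        ring
      rw [e]
      exact Submodule.smul_mem _ r h1
  · have e : (fun x : W3 Ω => (0 : (Ω → ℕ) → ℂ) x.1 * G x.2.1 * pt t'' x.2.2) = 0 := by
      funext x
      simp
    rw [e]
    exact Submodule.zero_mem _
  · intro F F' _ _ h1 h2
    have e : (fun x : W3 Ω => (F + F') x.1 * G x.2.1 * pt t'' x.2.2) =
        (fun x : W3 Ω => F x.1 * G x.2.1 * pt t'' x.2.2) +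
        (fun x : W3 Ω => F' x.1 * G x.2.1 * pt t'' x.2.2) := by
      funext x
      simp only [Pi.add_apply]
      ring
    rw [e]
    exact Submodule.add_mem _ h1 h2
  · intro r F _ h1
    have e : (fun x : W3 Ω => (r • F) x.1 * G x.2.1 * pt t'' x.2.2) =
        r • (fun x : W3 Ω => F x.1 * G x.2.1 * pt t'' x.2.2) := by
      funext x
      simp only [Pi.smul_apply, smul_eq_mul]
      ring
    rw [e]
    exact Submodule.smul_mem _ r h1

/-- `Θ₁ ⊗ Θ₂ ⊗ 1`. -/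
private noncomputable def Th3 {ι' κ' : Type} {a : ι → ℕ} {a' : ι' → ℕ} {b : κ → ℕ}
    {b' : κ' → ℕ} (t : Ω ≃ Cel a) (t' : Ω ≃ Cel a') (u : Ω ≃ Cel b) (u' : Ω ≃ Cel b')
    (H : W3 Ω → ℂ) (x : W3 Ω) : ℂ :=
  Th t t' (fun p => Th u u' (fun q => H (p, q, x.2.2)) x.2.1) x.1

private theorem Th3_mem {ι' κ' : Type} {a : ι → ℕ} {a' : ι' → ℕ} {b : κ → ℕ}
    {b' : κ' → ℕ} {c : μ → ℕ} (t : Ω ≃ Cel a) (t' : Ω ≃ Cel a') (u : Ω ≃ Cel b) (u' : Ω ≃ Cel b')
    {H : W3 Ω → ℂ} (hH : H ∈ Sp3 (Ω := Ω) a b c) : Th3 t t' u u' H ∈ Sp3 (Ω := Ω) a' b' c := by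
  refine Submodule.span_induction
    (p := fun H _ => Th3 t t' u u' H ∈ Sp3 (Ω := Ω) a' b' c) ?_ ?_ ?_ ?_ hH
  · rintro _ ⟨τ, τ', τ'', rfl⟩
    have e : Th3 t t' u u' (fun x : W3 Ω => pt τ x.1 * pt τ' x.2.1 * pt τ'' x.2.2) =
        fun x : W3 Ω => Th t t' (pt τ) x.1 * Th u u' (pt τ') x.2.1 * pt τ'' x.2.2 := by
      funext x
      unfold Th3
      simp only
      have e1 : (fun p : Ω → ℕ => Th u u' (fun q => pt τ p * pt τ' q * pt τ'' x.2.2) x.2.1) =
          (Th u u' (pt τ') x.2.1 * pt τ'' x.2.2) • pt τ := by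
        funext p
        have e2 : (fun q : Ω → ℕ => pt τ p * pt τ' q * pt τ'' x.2.2) =
            (pt τ p * pt τ'' x.2.2) • pt τ' := by
          funext q
          simp only [Pi.smul_apply, smul_eq_mul]
          ring
        rw [e2, map_smul]
        simp only [Pi.smul_apply, smul_eq_mul]
        ring
      rw [e1, map_smul]
      simp only [Pi.smul_apply, smul_eq_mul]
      ring
    rw [e]
    exact Sp3_prod (Th_mem t t' _) (Th_mem u u' _) τ''
  · have e : Th3 t t' u u' (0 : W3 Ω → ℂ) = 0 := by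
      funext x
      unfold Th3
      have e1 : (fun p : Ω → ℕ => Th u u' (fun q => (0 : W3 Ω → ℂ) (p, q, x.2.2)) x.2.1) = 0 := by
        funext p
        have e3 : (fun q : Ω → ℕ => (0 : W3 Ω → ℂ) (p, q, x.2.2)) = 0 := rfl
        rw [e3, map_zero]
        rfl
      rw [e1, map_zero]
      rfl
    rw [e]
    exact Submodule.zero_mem _
  · intro F G _ _ h1 h2
    have e : Th3 t t' u u' (F + G) = Th3 t t' u u' F + Th3 t t' u u' G := by
      funext x
      unfold Th3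
      rw [Pi.add_apply]
      have e1 : (fun p : Ω → ℕ => Th u u' (fun q => (F + G) (p, q, x.2.2)) x.2.1) =
          (fun p : Ω → ℕ => Th u u' (fun q => F (p, q, x.2.2)) x.2.1) +
          (fun p : Ω → ℕ => Th u u' (fun q => G (p, q, x.2.2)) x.2.1) := by
        funext p
        have e3 : (fun q : Ω → ℕ => (F + G) (p, q, x.2.2)) =
          (fun q : Ω → ℕ => F (p, q, x.2.2)) + (fun q : Ω → ℕ => G (p, q, x.2.2)) := rfl
        rw [e3, map_add]
        rfl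
      rw [e1, map_add]
      rfl
    rw [e]
    exact Submodule.add_mem _ h1 h2
  · intro r F _ h1
    have e : Th3 t t' u u' (r • F) = r • Th3 t t' u u' F := by
      funext x
      unfold Th3
      rw [Pi.smul_apply]
      have e1 : (fun p : Ω → ℕ => Th u u' (fun q => (r • F) (p, q, x.2.2)) x.2.1) =
          r • (fun p : Ω → ℕ => Th u u' (fun q => F (p, q, x.2.2)) x.2.1) := by
        funext p
        have e3 : (fun q : Ω → ℕ => (r • F) (p, q, x.2.2)) =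
          r • (fun q : Ω → ℕ => F (p, q, x.2.2)) := rfl
        rw [e3, map_smul]
        rfl
      rw [e1, map_smul]
      rfl
    rw [e]
    exact Submodule.smul_mem _ r h1

/-- Conjugation of the first shape twists by the sign; so we may conjugate two of the three shapes.
(`H' (u, v, w) = (Θ₁ ⊗ Θ₂) H (·, ·, w)`.) -/
theorem Kr_twist {ι' κ' : Type} [Fintype ι] [Fintype κ] {a : ι → ℕ} {a' : ι' → ℕ} {b : κ → ℕ}
    {b' : κ' → ℕ} {c : μ → ℕ} (t : Ω ≃ Cel a) (t' : Ω ≃ Cel a')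
    (h1 : ∀ x y, (t' x).1 = (t' y).1 ↔ ((t x).2 : ℕ) = (t y).2)
    (h2 : ∀ x y, ((t' x).2 : ℕ) = (t' y).2 ↔ (t x).1 = (t y).1) (u : Ω ≃ Cel b) (u' : Ω ≃ Cel b')
    (h3 : ∀ x y, (u' x).1 = (u' y).1 ↔ ((u x).2 : ℕ) = (u y).2)
    (h4 : ∀ x y, ((u' x).2 : ℕ) = (u' y).2 ↔ (u x).1 = (u y).1) (h : Kr Ω a b c) :
    Kr Ω a' b' c := by
  obtain ⟨H, hH, hH0, hinv⟩ := h
  refine ⟨Th3 t t' u u' H, Th3_mem t t' u u' hH, ?_, ?_⟩
  · intro h0
    apply hH0
    have k1 : ∀ q r : Ω → ℕ, (fun p => Th u u' (fun q' => H (p, q', r)) q) = 0 := by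
      intro q r
      refine Th_inj t t' h1 h2 _ ?_ ?_
      · have e : (fun p => Th u u' (fun q' => H (p, q', r)) q) = ∑ g : Perm Ω,
            (((sign g : ℤ) : ℂ) * pt u' (q ∘ g)) • (fun p => H (p, fun x => ((u (g⁻¹ x)).2 : ℕ), r)) := by
          funext p
          rw [Th_apply, Finset.sum_apply]
          refine Finset.sum_congr rfl fun g _ => ?_
          simp only [Pi.smul_apply, smul_eq_mul]
          ring
        rw [e]
        exact Submodule.sum_mem _ fun g _ => Submodule.smul_mem _ _ (Sp3_fst hH _ _)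
      · funext p
        exact congrFun h0 (p, q, r)
    have k2 : ∀ p r : Ω → ℕ, (fun q => H (p, q, r)) = 0 := by
      intro p r
      refine Th_inj u u' h3 h4 _ (Sp3_snd hH p r) ?_
      funext q
      exact congrFun (k1 q r) p
    funext x
    exact congrFun (k2 x.1 x.2.2) x.2.1
  · intro g x
    show Th t t' (fun p => Th u u' (fun q => H (p, q, x.2.2 ∘ g)) (x.2.1 ∘ g)) (x.1 ∘ g) =
      Th t t' (fun p => Th u u' (fun q => H (p, q, x.2.2)) x.2.1) x.1
    rw [Th_comp']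
    have e1 : (fun p : Ω → ℕ => Th u u' (fun q => H (p ∘ g, q, x.2.2 ∘ g)) (x.2.1 ∘ g)) =
        ((sign g : ℤ) : ℂ) • (fun p => Th u u' (fun q => H (p, q, x.2.2)) x.2.1) := by
      funext p
      rw [Th_comp', Pi.smul_apply, smul_eq_mul]
      congr 1
      have e2 : (fun q : Ω → ℕ => H (p ∘ g, q ∘ g, x.2.2 ∘ g)) = fun q => H (p, q, x.2.2) := by
        funext q
        exact hinv g (p, q, x.2.2)
      rw [e2]
    rw [e1, map_smul, Pi.smul_apply, smul_eq_mul, ← mul_assoc, sign_sq_one, one_mul]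

private theorem exists_tab {Ω : Type} [Fintype Ω] [DecidableEq Ω] (a : List ℕ) (h : Fintype.card Ω = a.sum) :
    Nonempty (Ω ≃ Cel a.get) := by
  refine ⟨Fintype.equivOfCardEq ?_⟩
  rw [h, Fintype.card_sigma]
  simp only [Fintype.card_fin]
  exact (Fin.sum_univ_getElem a).symm

theorem KL_twist {a b c : List ℕ} (h : KL a b c) : KL (trL a) (trL b) c := by
  set a' := a.mergeSort (fun x y => decide (x ≥ y)) with ha'
  set b' := b.mergeSort (fun x y => decide (x ≥ y)) with hb'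
  have pa : a.Perm a' := (List.mergeSort_perm a _).symm
  have pb : b.Perm b' := (List.mergeSort_perm b _).symm
  have sa : a'.Pairwise (· ≥ ·) := by
    have := List.pairwise_mergeSort (le := fun x y : ℕ => decide (x ≥ y))
      (fun x y z h1 h2 => by simp only [decide_eq_true_eq] at *; omega)
      (fun x y => by simp only [Bool.or_eq_true, decide_eq_true_eq]; omega) a
    simpa using this
  have sb : b'.Pairwise (· ≥ ·) := by
    have := List.pairwise_mergeSort (le := fun x y : ℕ => decide (x ≥ y))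
      (fun x y z h1 h2 => by simp only [decide_eq_true_eq] at *; omega)
      (fun x y => by simp only [Bool.or_eq_true, decide_eq_true_eq]; omega) b
    simpa using this
  have h' : KL a' b' c := KL_perm h pa pb (List.Perm.refl c)
  rw [trL_perm pa, trL_perm pb]
  refine ⟨(trL_sum a').trans h'.1, (trL_sum b').trans h'.2.1, ?_⟩
  intro Ω _ _ hΩ
  obtain ⟨t⟩ := exists_tab (Ω := Ω) a' (hΩ.trans h'.1.symm)
  obtain ⟨u⟩ := exists_tab (Ω := Ω) b' (hΩ.trans h'.2.1.symm)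
  obtain ⟨t', h1, h2⟩ := exists_transpose a' sa t
  obtain ⟨u', h3, h4⟩ := exists_transpose b' sb u
  exact Kr_twist t t' h1 h2 u u' h3 h4 (h'.2.2 Ω hΩ)

end Crest.Agent.SZ
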