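import Crest.Agent.SwC_Defs

/-!
General theory of averaging over an equivalence relation on a finite type, and two spectral lemmas.
-/

set_option autoImplicit false
set_option linter.unusedSectionVars false

open Finset

namespace Crest.Agent.SwC

section Avg

variable {X : Type*} [Fintype X] {r : X → X → Prop}

theorem self_mem_blk (hr : Equivalence r) (x : X) : x ∈ blk r x := mem_blk.2 (hr.refl x)

theorem blk_nonempty (hr : Equivalence r) (x : X) : (blk r x).Nonempty := ⟨x, self_mem_blk hr x⟩

theorem blk_card_pos (hr : Equivalence r) (x : X) : 0 < (blk r x).card :=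
  card_pos.2 (blk_nonempty hr x)

theorem blk_card_pos' (hr : Equivalence r) (x : X) : (0 : ℝ) < ((blk r x).card : ℝ) := by
  exact_mod_cast blk_card_pos hr x

theorem blk_eq (hr : Equivalence r) {x y : X} (h : r x y) : blk r x = blk r y := by
  ext z
  simp only [mem_blk]
  exact ⟨fun hz => hr.trans (hr.symm h) hz, fun hz => hr.trans h hz⟩

/-- `avg r f` is constant on classes. -/
theorem avg_eq (hr : Equivalence r) {x y : X} (f : X → ℝ) (h : r x y) : avg r f x = avg r f y := by
  unfold avg; rw [blk_eq hr h]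

/-- an `r`-invariant function is its own average. -/
theorem avg_of_inv (hr : Equivalence r) {f : X → ℝ} {x : X} (h : ∀ y, r x y → f y = f x) :
    avg r f x = f x := by
  unfold avg
  rw [Finset.sum_congr rfl (fun y hy => h y (mem_blk.1 hy))]
  rw [Finset.sum_const, nsmul_eq_mul]
  have := blk_card_pos' hr x
  field_simp

theorem avg_add (f g : X → ℝ) : avg r (fun x => f x + g x) = fun x => avg r f x + avg r g x := by
  funext x; simp only [avg, Finset.sum_add_distrib, add_div]

theorem avg_sub (f g : X → ℝ) : avg r (fun x => f x - g x) = fun x => avg r f x - avg r g x := by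
  funext x; simp only [avg, Finset.sum_sub_distrib, sub_div]

theorem avg_smul (c : ℝ) (f : X → ℝ) : avg r (fun x => c * f x) = fun x => c * avg r f x := by
  funext x; simp only [avg, ← Finset.mul_sum, mul_div_assoc]

theorem avg_const (hr : Equivalence r) (c : ℝ) : avg r (fun _ : X => c) = fun _ => c := by
  funext x; exact avg_of_inv hr (fun _ _ => rfl)

theorem avg_idem (hr : Equivalence r) (f : X → ℝ) : avg r (avg r f) = avg r f := by
  funext x
  exact avg_of_inv hr (fun y hy => (avg_eq hr f hy).symm)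

theorem avg_mono (hr : Equivalence r) {f g : X → ℝ} {x : X} (h : ∀ y, r x y → f y ≤ g y) :
    avg r f x ≤ avg r g x := by
  unfold avg
  apply div_le_div_of_nonneg_right _ (blk_card_pos' hr x).le
  exact Finset.sum_le_sum fun y hy => h y (mem_blk.1 hy)

theorem avg_le (hr : Equivalence r) {f : X → ℝ} {x : X} {c : ℝ} (h : ∀ y, r x y → f y ≤ c) :
    avg r f x ≤ c := by
  have := avg_mono hr (f := f) (g := fun _ => c) (x := x) h
  rwa [avg_const hr] at this

theorem le_avg (hr : Equivalence r) {f : X → ℝ} {x : X} {c : ℝ} (h : ∀ y, r x y → c ≤ f y) :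
    c ≤ avg r f x := by
  have := avg_mono hr (f := fun _ => c) (g := f) (x := x) h
  rwa [avg_const hr] at this

theorem abs_avg_le (hr : Equivalence r) {f : X → ℝ} {x : X} {c : ℝ}
    (h : ∀ y, r x y → |f y| ≤ c) : |avg r f x| ≤ c :=
  abs_le.2 ⟨le_avg hr fun y hy => (abs_le.1 (h y hy)).1, avg_le hr fun y hy => (abs_le.1 (h y hy)).2⟩

/-- self-adjointness of the averaging operator. -/
theorem sum_avg_mul (hr : Equivalence r) (f g : X → ℝ) :
    ∑ x, avg r f x * g x = ∑ x, f x * avg r g x := by
  classical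
  have key : ∀ f g : X → ℝ, ∑ x, avg r f x * g x =
      ∑ x, ∑ y, if r x y then f y * g x / ((blk r x).card : ℝ) else 0 := by
    intro f g
    refine Finset.sum_congr rfl fun x _ => ?_
    rw [← Finset.sum_filter]
    have : (univ.filter fun y => r x y) = blk r x := by ext y; simp
    rw [this]
    unfold avg
    rw [div_mul_eq_mul_div, Finset.sum_mul, Finset.sum_div]
  rw [key f g]
  have h2 : ∑ x, f x * avg r g x = ∑ x, avg r g x * f x :=
    Finset.sum_congr rfl fun x _ => mul_comm _ _
  rw [h2, key g f, Finset.sum_comm]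
  refine Finset.sum_congr rfl fun x _ => Finset.sum_congr rfl fun y _ => ?_
  by_cases h : r x y
  · rw [if_pos h, if_pos (hr.symm h), blk_eq hr h, mul_comm (f x)]
  · rw [if_neg h, if_neg (fun h' => h (hr.symm h'))]

theorem sum_avg (hr : Equivalence r) (f : X → ℝ) : ∑ x, avg r f x = ∑ x, f x := by
  have := sum_avg_mul hr f (fun _ => 1)
  simpa [avg_const hr] using this

/-- coarse average of a fine average. -/
theorem avg_avg_of_le {s : X → X → Prop} (hr : Equivalence r) (hs : Equivalence s)
    (h : ∀ x y, r x y → s x y) (f : X → ℝ) : avg s (avg r f) = avg s f := by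
  classical
  -- test against arbitrary functions
  have key : ∀ g : X → ℝ, ∑ x, avg s (avg r f) x * g x = ∑ x, avg s f x * g x := by
    intro g
    rw [sum_avg_mul hs, sum_avg_mul hr, sum_avg_mul hs]
    refine Finset.sum_congr rfl fun x _ => ?_
    rw [avg_of_inv hr (fun y hy => (avg_eq hs g (h _ _ hy)).symm)]
  funext x
  have := key (fun y => if y = x then 1 else 0)
  simpa using this

theorem avg_avg_of_le' {s : X → X → Prop} (hr : Equivalence r) (hs : Equivalence s)
    (h : ∀ x y, r x y → s x y) (f : X → ℝ) : avg r (avg s f) = avg s f := by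
  funext x
  exact avg_of_inv hr (fun y hy => (avg_eq hs f (h _ _ hy)).symm)

/-- pulling an invariant factor out. -/
theorem avg_mul_inv (hr : Equivalence r) {f g : X → ℝ} {x : X} (h : ∀ y, r x y → g y = g x) :
    avg r (fun y => g y * f y) x = g x * avg r f x := by
  have : ∑ y ∈ blk r x, g y * f y = g x * ∑ y ∈ blk r x, f y := by
    rw [Finset.mul_sum]
    exact Finset.sum_congr rfl (fun y hy => by rw [h y (mem_blk.1 hy)])
  unfold avg
  rw [this, mul_div_assoc]

theorem avg_congr {f g : X → ℝ} {x : X} (h : ∀ y, r x y → f y = g y) :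
    avg r f x = avg r g x := by
  unfold avg
  rw [Finset.sum_congr rfl (fun y hy => h y (mem_blk.1 hy))]

/-- Jensen / contraction: `(E f)^2 ≤ E f^2` pointwise. -/
theorem avg_sq_le (hr : Equivalence r) (f : X → ℝ) (x : X) :
    (avg r f x) ^ 2 ≤ avg r (fun y => f y ^ 2) x := by
  have h := avg_mono hr (f := fun y => 2 * avg r f x * f y - (avg r f x) ^ 2)
    (g := fun y => f y ^ 2) (x := x) (fun y _ => by nlinarith [sq_nonneg (f y - avg r f x)])
  have h2 : avg r (fun y => 2 * avg r f x * f y - (avg r f x) ^ 2) x = (avg r f x) ^ 2 := by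
    rw [avg_sub, avg_smul, avg_const hr]; ring
  linarith

theorem sum_avg_sq_le (hr : Equivalence r) (f : X → ℝ) : ∑ x, (avg r f x) ^ 2 ≤ ∑ x, f x ^ 2 := by
  rw [← sum_avg hr (fun y => f y ^ 2)]
  exact Finset.sum_le_sum fun x _ => avg_sq_le hr f x

theorem dif_eq (f : X → ℝ) : dif r f = fun x => f x - avg r f x := rfl

/-- `D` is self-adjoint. -/
theorem sum_dif_mul (hr : Equivalence r) (f g : X → ℝ) :
    ∑ x, dif r f x * g x = ∑ x, f x * dif r g x := by
  simp only [dif, sub_mul, mul_sub, Finset.sum_sub_distrib, sum_avg_mul hr]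

theorem avg_dif (hr : Equivalence r) (f : X → ℝ) : avg r (dif r f) = fun _ => 0 := by
  rw [dif_eq, avg_sub, avg_idem hr]; funext x; simp

/-- `D` is a projection. -/
theorem dif_idem (hr : Equivalence r) (f : X → ℝ) : dif r (dif r f) = dif r f := by
  funext x
  have := congrFun (avg_dif hr f) x
  show dif r f x - avg r (dif r f) x = _
  rw [this, sub_zero]

theorem sum_dif_sq (hr : Equivalence r) (f : X → ℝ) :
    ∑ x, (dif r f x) ^ 2 = ∑ x, f x * dif r f x := by
  simp_rw [sq]
  rw [sum_dif_mul hr, dif_idem hr]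

/-- equivariance under a bijection preserving the relation. -/
theorem avg_comp_equiv {Y : Type*} [Fintype Y] {s : Y → Y → Prop} (e : X ≃ Y)
    (h : ∀ x y, r x y ↔ s (e x) (e y)) (f : Y → ℝ) (x : X) :
    avg r (fun z => f (e z)) x = avg s f (e x) := by
  classical
  have hb : blk s (e x) = (blk r x).map e.toEmbedding := by
    ext y
    simp only [mem_blk, Finset.mem_map_equiv]
    rw [h, Equiv.apply_symm_apply]
  unfold avg
  rw [hb, Finset.sum_map, Finset.card_map]
  rfl

/-- transfer along an injection whose image is saturated. -/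
theorem avg_comp_inj {Y : Type*} [Fintype Y] {s : Y → Y → Prop} (φ : X → Y)
    (hφ : Function.Injective φ) (h : ∀ x z, s (φ x) z ↔ ∃ y, z = φ y ∧ r x y)
    (f : Y → ℝ) (x : X) :
    avg r (fun z => f (φ z)) x = avg s f (φ x) := by
  classical
  have hb : blk s (φ x) = (blk r x).image φ := by
    ext y
    simp only [mem_blk, Finset.mem_image]
    rw [h]
    constructor
    · rintro ⟨y, rfl, hy⟩; exact ⟨y, hy, rfl⟩
    · rintro ⟨y, hy, rfl⟩; exact ⟨y, rfl, hy⟩
  unfold avg
  rw [hb, Finset.sum_image (fun a _ b _ h => hφ h), Finset.card_image_of_injective _ hφ]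

/-- a sum is nonnegative if it is so on each class. -/
theorem sum_nonneg_of_class (hr : Equivalence r) (ψ : X → ℝ)
    (h : ∀ x, 0 ≤ ∑ y ∈ blk r x, ψ y) : 0 ≤ ∑ x, ψ x := by
  rw [← sum_avg hr ψ]
  exact Finset.sum_nonneg fun x _ => div_nonneg (h x) (Nat.cast_nonneg _)

/-- **Rectangle lemma.** If `r` and `s` have unique rectangle completions at the class of `x`,
the averages commute at `x`. -/
theorem avg_comm_of_rect {s : X → X → Prop} (hr : Equivalence r) (hs : Equivalence s) (x : X)
    (h : ∀ g, (∃ z, r x z ∧ s z g) → ∀ y z, r g y → s g z → ∃! l, s y l ∧ r z l)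
    (f : X → ℝ) :
    avg r (avg s f) x = avg s (avg r f) x := by
  classical
  have hx : ∃ z, r x z ∧ s z x := ⟨x, hr.refl x, hs.refl x⟩
  choose! L hL hLu using fun y z (hy : r x y) (hz : s x z) => h x hx y z hy hz
  simp only at hL hLu
  -- card of `blk s y` is the same for y in blk r x
  have bij_s : ∀ y, r x y → ∀ F : X → ℝ, ∑ l ∈ blk s y, F l = ∑ z ∈ blk s x, F (L y z) := by
    intro y hy F
    symm
    refine Finset.sum_bij (fun z _ => L y z) ?_ ?_ ?_ (fun _ _ => rfl)
    · intro z hz
      exact mem_blk.2 (hL y z hy (mem_blk.1 hz)).1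
    · intro z hz z' hz' hzz
      rw [mem_blk] at hz hz'
      have h1 := hL y z hy hz
      have h2 := hL y z' hy hz'
      rw [hzz] at h1
      -- r z l, r z' l, s x z, s x z'
      -- rectangle at x: y := x, ... z with r z z' and s z z'
      have hrz : r z z' := hr.trans h1.2 (hr.symm h2.2)
      have := h x hx x z (hr.refl x) hz
      exact this.unique ⟨hz, hr.refl z⟩ ⟨hz', hrz⟩
    · intro l hl
      rw [mem_blk] at hl
      -- need z with s x z, r z l : rectangle at y
      have hy' : ∃ z, r x z ∧ s z y := ⟨y, hy, hs.refl y⟩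
      obtain ⟨z, ⟨h1, h2⟩, -⟩ := h y hy' x l (hr.symm hy) hl
      refine ⟨z, mem_blk.2 h1, ?_⟩
      have := hLu y z hy h1 l ⟨hl, hr.symm h2⟩
      exact this.symm
  have bij_r : ∀ z, s x z → ∀ F : X → ℝ, ∑ l ∈ blk r z, F l = ∑ y ∈ blk r x, F (L y z) := by
    intro z hz F
    symm
    refine Finset.sum_bij (fun y _ => L y z) ?_ ?_ ?_ (fun _ _ => rfl)
    · intro y hy
      exact mem_blk.2 (hL y z (mem_blk.1 hy) hz).2
    · intro y hy y' hy' hyy
      rw [mem_blk] at hy hy'
      have h1 := hL y z hy hz
      have h2 := hL y' z hy' hz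
      rw [hyy] at h1
      have hsy : s y y' := hs.trans h1.1 (hs.symm h2.1)
      have := h x hx y x hy (hs.refl x)
      exact this.unique ⟨hs.refl y, hy⟩ ⟨hsy, hy'⟩
    · intro l hl
      rw [mem_blk] at hl
      have hz' : ∃ z', r x z' ∧ s z' z := ⟨x, hr.refl x, hz⟩
      obtain ⟨y, ⟨h1, h2⟩, -⟩ := h z hz' l x hl (hs.symm hz)
      refine ⟨y, mem_blk.2 h2, ?_⟩
      have := hLu y z h2 hz l ⟨hs.symm h1, hl⟩
      exact this.symm
  have card_s : ∀ y, r x y → ((blk s y).card : ℝ) = (blk s x).card := by
    intro y hy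
    have := bij_s y hy (fun _ => 1)
    simpa using this
  have card_r : ∀ z, s x z → ((blk r z).card : ℝ) = (blk r x).card := by
    intro z hz
    have := bij_r z hz (fun _ => 1)
    simpa using this
  have e1 : avg r (avg s f) x =
      (∑ y ∈ blk r x, ∑ z ∈ blk s x, f (L y z)) / ((blk r x).card * (blk s x).card : ℝ) := by
    unfold avg
    rw [Finset.sum_congr rfl (fun y hy => by
      rw [bij_s y (mem_blk.1 hy) f, card_s y (mem_blk.1 hy)])]
    rw [← Finset.sum_div, div_div, mul_comm ((blk s x).card : ℝ)]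
  have e2 : avg s (avg r f) x =
      (∑ z ∈ blk s x, ∑ y ∈ blk r x, f (L y z)) / ((blk r x).card * (blk s x).card : ℝ) := by
    unfold avg
    rw [Finset.sum_congr rfl (fun z hz => by
      rw [bij_r z (mem_blk.1 hz) f, card_r z (mem_blk.1 hz)])]
    rw [← Finset.sum_div, div_div]
  rw [e1, e2, Finset.sum_comm]

end Avg

end Crest.Agent.SwC
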