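import Crest.Agent.SwC_Avg

/-!
Basic facts on the block relations and on switches.
-/

set_option autoImplicit false
set_option linter.unusedSectionVars false

open Finset

namespace Crest.Agent.SwC

variable {V : Type*} [Fintype V] {d : V → ℤ}

theorem rel_equiv (u w : V) : Equivalence (rel (d := d) u w) where
  refl G := ⟨fun _ _ _ _ _ _ => rfl, rfl, fun _ _ _ => rfl⟩
  symm h := ⟨fun x y h1 h2 h3 h4 => (h.1 x y h1 h2 h3 h4).symm, h.2.1.symm,
    fun x h1 h2 => (h.2.2 x h1 h2).symm⟩
  trans h h' := ⟨fun x y h1 h2 h3 h4 => (h.1 x y h1 h2 h3 h4).trans (h'.1 x y h1 h2 h3 h4),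
    h.2.1.trans h'.2.1, fun x h1 h2 => (h.2.2 x h1 h2).trans (h'.2.2 x h1 h2)⟩

theorem relF_equiv (u w x y : V) : Equivalence (relF (d := d) u w x y) where
  refl G := ⟨(rel_equiv u w).refl G, rfl, rfl, rfl, rfl⟩
  symm h := ⟨(rel_equiv u w).symm h.1, h.2.1.symm, h.2.2.1.symm, h.2.2.2.1.symm, h.2.2.2.2.symm⟩
  trans h h' := ⟨(rel_equiv u w).trans h.1 h'.1, h.2.1.trans h'.2.1, h.2.2.1.trans h'.2.2.1,
    h.2.2.2.1.trans h'.2.2.2.1, h.2.2.2.2.trans h'.2.2.2.2⟩

theorem relS_equiv (u w x y : V) : Equivalence (relS (d := d) u w x y) where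
  refl G := ⟨(rel_equiv u w).refl G, Iff.rfl⟩
  symm h := ⟨(rel_equiv u w).symm h.1, h.2.symm⟩
  trans h h' := ⟨(rel_equiv u w).trans h.1 h'.1, h.2.trans h'.2⟩

theorem rel_comm (u w : V) (G H : Rz d) : rel u w G H ↔ rel w u G H := by
  unfold rel
  rw [G.symm u w, H.symm u w]
  constructor
  · rintro ⟨h1, h2, h3⟩
    exact ⟨fun x y a b c e => h1 x y b a e c, h2, fun x a b => by have := h3 x b a; omega⟩
  · rintro ⟨h1, h2, h3⟩
    exact ⟨fun x y a b c e => h1 x y b a e c, h2, fun x a b => by have := h3 x b a; omega⟩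

theorem rel_swap (u w : V) : rel (d := d) u w = rel w u := by
  funext G H; exact propext (rel_comm u w G H)

theorem Dist4.swap1 {u w x y : V} (h : Dist4 u w x y) : Dist4 w u x y := by
  unfold Dist4 at *; tauto

theorem Dist4.swap2 {u w x y : V} (h : Dist4 u w x y) : Dist4 u w y x := by
  unfold Dist4 at *; obtain ⟨a, b, c, e, f, g⟩ := h; exact ⟨a, b.symm, e, c, g, f⟩

theorem Dist4.flip {u w x y : V} (h : Dist4 u w x y) : Dist4 x y u w := by
  unfold Dist4 at *; obtain ⟨a, b, c, e, f, g⟩ := h
  exact ⟨b, a, c.symm, f.symm, e.symm, g.symm⟩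

theorem Dist4.swap1' {u w x y : V} (h : Dist4 u w x y) : Dist4 w u x y := by
  obtain ⟨a, b, c, e, f, g⟩ := h; exact ⟨a.symm, b, f, g, c, e⟩

theorem split_swap1 (u w x y : V) (G : Rz d) : split u w x y G ↔ split w u x y G := by
  constructor
  · rintro ⟨h, h'⟩; exact ⟨h.swap1', by tauto⟩
  · rintro ⟨h, h'⟩; exact ⟨h.swap1', by tauto⟩

theorem split_swap2 (u w x y : V) (G : Rz d) : split u w x y G ↔ split u w y x G := by
  constructor
  · rintro ⟨h, h'⟩; exact ⟨h.swap2, by tauto⟩
  · rintro ⟨h, h'⟩; exact ⟨h.swap2, by tauto⟩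

theorem split_flip (u w x y : V) (G : Rz d) : split u w x y G ↔ split x y u w G := by
  constructor
  · rintro ⟨h, h'⟩
    refine ⟨h.flip, ?_⟩
    rw [G.symm x u, G.symm x w, G.symm y u, G.symm y w]; tauto
  · rintro ⟨h, h'⟩
    refine ⟨h.flip, ?_⟩
    rw [G.symm x u, G.symm x w, G.symm y u, G.symm y w] at h'; tauto

theorem swt_apply {u w x y : V} {G : Rz d} (h : split u w x y G) (p q : V) :
    (swt u w x y G) p q = flip4 u w x y G.1 p q := by
  unfold swt; rw [dif_pos h]

theorem swt_apply_pos {u w x y : V} {G : Rz d} (h : split u w x y G) {p q : V}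
    (hs : slot4 u w x y p q) : (swt u w x y G) p q = 1 - G p q := by
  rw [swt_apply h]; unfold flip4; rw [if_pos hs]

theorem swt_apply_neg {u w x y : V} {G : Rz d} (h : split u w x y G) {p q : V}
    (hs : ¬ slot4 u w x y p q) : (swt u w x y G) p q = G p q := by
  rw [swt_apply h]; unfold flip4; rw [if_neg hs]

theorem swt_of_not {u w x y : V} {G : Rz d} (h : ¬ split u w x y G) : swt u w x y G = G := by
  unfold swt; rw [dif_neg h]

/-- values of the switched graph at the four slots -/
theorem swt_vals {u w x y : V} {G : Rz d} (h : split u w x y G) :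
    (swt u w x y G) u x = 1 - G u x ∧ (swt u w x y G) u y = 1 - G u y ∧
    (swt u w x y G) w x = 1 - G w x ∧ (swt u w x y G) w y = 1 - G w y := by
  refine ⟨swt_apply_pos h ?_, swt_apply_pos h ?_, swt_apply_pos h ?_, swt_apply_pos h ?_⟩ <;>
  · unfold slot4; tauto

theorem split_swt {u w x y : V} {G : Rz d} (h : split u w x y G) :
    split u w x y (swt u w x y G) := by
  obtain ⟨h1, h2, h3, h4⟩ := swt_vals h
  refine ⟨h.1, ?_⟩
  rw [h1, h2, h3, h4]
  rcases h.2 with h | h
  · right; omega
  · left; omega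

theorem split_swt_iff {u w x y : V} {G : Rz d} :
    split u w x y (swt u w x y G) ↔ split u w x y G := by
  constructor
  · intro h
    by_contra hn
    rw [swt_of_not hn] at h
    exact hn h
  · exact split_swt

theorem swt_swt (u w x y : V) (G : Rz d) : swt u w x y (swt u w x y G) = G := by
  by_cases h : split u w x y G
  · apply Rz.ext
    intro p q
    by_cases hs : slot4 u w x y p q
    · rw [swt_apply_pos (split_swt h) hs, swt_apply_pos h hs]; ring
    · rw [swt_apply_neg (split_swt h) hs, swt_apply_neg h hs]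
  · rw [swt_of_not h, swt_of_not h]

/-- the switch as a permutation of `Rz d` -/
noncomputable def swtE (u w x y : V) : Rz d ≃ Rz d where
  toFun := swt u w x y
  invFun := swt u w x y
  left_inv := swt_swt u w x y
  right_inv := swt_swt u w x y

@[simp] theorem swtE_apply (u w x y : V) (G : Rz d) : swtE u w x y G = swt u w x y G := rfl

theorem swt_swap1 (u w x y : V) (G : Rz d) : swt u w x y G = swt w u x y G := by
  by_cases h : split u w x y G
  · have h' := (split_swap1 _ _ _ _ _).1 h
    apply Rz.ext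
    intro p q
    by_cases hs : slot4 u w x y p q
    · have hs' : slot4 w u x y p q := by unfold slot4 at *; tauto
      rw [swt_apply_pos h hs, swt_apply_pos h' hs']
    · have hs' : ¬ slot4 w u x y p q := by unfold slot4 at *; tauto
      rw [swt_apply_neg h hs, swt_apply_neg h' hs']
  · have h' : ¬ split w u x y G := fun h' => h ((split_swap1 _ _ _ _ _).2 h')
    rw [swt_of_not h, swt_of_not h']

theorem swt_swap2 (u w x y : V) (G : Rz d) : swt u w x y G = swt u w y x G := by
  by_cases h : split u w x y G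
  · have h' := (split_swap2 _ _ _ _ _).1 h
    apply Rz.ext
    intro p q
    by_cases hs : slot4 u w x y p q
    · have hs' : slot4 u w y x p q := by unfold slot4 at *; tauto
      rw [swt_apply_pos h hs, swt_apply_pos h' hs']
    · have hs' : ¬ slot4 u w y x p q := by unfold slot4 at *; tauto
      rw [swt_apply_neg h hs, swt_apply_neg h' hs']
  · have h' : ¬ split u w y x G := fun h' => h ((split_swap2 _ _ _ _ _).2 h')
    rw [swt_of_not h, swt_of_not h']

theorem swt_flip (u w x y : V) (G : Rz d) : swt u w x y G = swt x y u w G := by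
  by_cases h : split u w x y G
  · have h' := (split_flip _ _ _ _ _).1 h
    apply Rz.ext
    intro p q
    by_cases hs : slot4 u w x y p q
    · have hs' : slot4 x y u w p q := by unfold slot4 at *; tauto
      rw [swt_apply_pos h hs, swt_apply_pos h' hs']
    · have hs' : ¬ slot4 x y u w p q := by unfold slot4 at *; tauto
      rw [swt_apply_neg h hs, swt_apply_neg h' hs']
  · have h' : ¬ split x y u w G := fun h' => h ((split_flip _ _ _ _ _).2 h')
    rw [swt_of_not h, swt_of_not h']

/-- a switch with diagonal `{u,w}` stays in the block of `{u,w}`. -/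
theorem rel_swt (u w x y : V) (G : Rz d) : rel u w G (swt u w x y G) := by
  by_cases h : split u w x y G
  swap
  · rw [swt_of_not h]; exact (rel_equiv u w).refl G
  obtain ⟨huw, hxy, hux, huy, hwx, hwy⟩ := h.1
  refine ⟨?_, ?_, ?_⟩
  · intro p q h1 h2 h3 h4
    rw [swt_apply_neg h]
    unfold slot4; tauto
  · rw [swt_apply_neg h]
    unfold slot4
    rintro (⟨-, h1 | h1⟩ | ⟨h1 | h1, -⟩)
    · exact hwx h1
    · exact hwy h1
    · exact hux h1
    · exact huy h1
  · intro p h1 h2
    obtain ⟨e1, e2, e3, e4⟩ := swt_vals h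
    by_cases hpx : p = x
    · subst hpx; rw [e1, e3]; rcases h.2 with h | h <;> omega
    · by_cases hpy : p = y
      · subst hpy; rw [e2, e4]; rcases h.2 with h | h <;> omega
      · rw [swt_apply_neg h, swt_apply_neg h]
        · unfold slot4; tauto
        · unfold slot4; tauto

/-- a switch with diagonal `{x,y}` stays in the block of `{x,y}`. -/
theorem rel_swt' (u w x y : V) (G : Rz d) : rel x y G (swt u w x y G) := by
  rw [swt_flip]; exact rel_swt x y u w G

end Crest.Agent.SwC
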