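import Crest.Agent.SwC_Basic

/-!
Commutation of block averages.
-/

set_option autoImplicit false
set_option linter.unusedSectionVars false

open Finset

namespace Crest.Agent.SwC

variable {V : Type*} [Fintype V] {d : V → ℤ}

/-- `L = H + K - G` when the modifications `G → H`, `G → K` have disjoint supports. -/
def merge (G H K : Rz d) (hs : ∀ p q, H p q = G p q ∨ K p q = G p q) : Rz d :=
  ⟨fun p q => H p q + K p q - G p q, by
    refine ⟨?_, ?_, ?_, ?_⟩
    · intro p q
      dsimp only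
      rcases hs p q with h | h
      · rw [h]; rcases K.zo p q with h' | h' <;> omega
      · rw [h]; rcases H.zo p q with h' | h' <;> omega
    · intro p q; dsimp only; rw [H.symm p q, K.symm p q, G.symm p q]
    · intro p; dsimp only; rw [H.diag, K.diag, G.diag]; rfl
    · intro p
      dsimp only
      rw [Finset.sum_sub_distrib, Finset.sum_add_distrib, H.deg, K.deg, G.deg]; ring⟩

theorem merge_apply (G H K : Rz d) (hs : ∀ p q, H p q = G p q ∨ K p q = G p q) (p q : V) :
    (merge G H K hs) p q = H p q + K p q - G p q := rfl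

/-- Relations given by a linear condition on the difference, with disjoint supports, commute. -/
theorem comm_of_lin {r s : Rz d → Rz d → Prop} (hr : Equivalence r) (hs : Equivalence s)
    (Λ Λ' : (V → V → ℤ) → Prop)
    (hrΛ : ∀ G H : Rz d, r G H ↔ Λ (fun p q => H p q - G p q))
    (hsΛ : ∀ G H : Rz d, s G H ↔ Λ' (fun p q => H p q - G p q))
    (hdisj : ∀ p q, (∀ g, Λ g → g p q = 0) ∨ (∀ g, Λ' g → g p q = 0)) (f : Rz d → ℝ) :
    avg r (avg s f) = avg s (avg r f) := by
  funext x
  refine avg_comm_of_rect hr hs x ?_ f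
  rintro g - y z hy hz
  have h1 := (hrΛ g y).1 hy
  have h2 := (hsΛ g z).1 hz
  have hh : ∀ p q, y p q = g p q ∨ z p q = g p q := by
    intro p q
    rcases hdisj p q with h | h
    · left; have : y p q - g p q = 0 := h _ h1; omega
    · right; have : z p q - g p q = 0 := h _ h2; omega
  refine ⟨merge g y z hh, ⟨?_, ?_⟩, ?_⟩
  · rw [hsΛ]
    have : (fun p q => (merge g y z hh) p q - y p q) = fun p q => z p q - g p q := by
      funext p q; rw [merge_apply]; ring
    rw [this]; exact h2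
  · rw [hrΛ]
    have : (fun p q => (merge g y z hh) p q - z p q) = fun p q => y p q - g p q := by
      funext p q; rw [merge_apply]; ring
    rw [this]; exact h1
  · rintro l ⟨hl1, hl2⟩
    rw [hsΛ] at hl1
    rw [hrΛ] at hl2
    apply Rz.ext
    intro p q
    rw [merge_apply]
    rcases hdisj p q with h | h
    · have a1 : y p q - g p q = 0 := h _ h1
      have a2 : l p q - z p q = 0 := h _ hl2
      omega
    · have a1 : z p q - g p q = 0 := h _ h2
      have a2 : l p q - y p q = 0 := h _ hl1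
      omega

/-- linear condition of `rel` -/
def LamR (u w : V) (g : V → V → ℤ) : Prop :=
  (∀ p q, g p q = g q p) ∧ (∀ p, g p p = 0) ∧
    (∀ x y, x ≠ u → x ≠ w → y ≠ u → y ≠ w → g x y = 0) ∧ g u w = 0 ∧
    ∀ x, x ≠ u → x ≠ w → g u x + g w x = 0

theorem rel_iff (u w : V) (G H : Rz d) : rel u w G H ↔ LamR u w (fun p q => H p q - G p q) := by
  unfold rel LamR
  constructor
  · rintro ⟨h1, h2, h3⟩
    refine ⟨fun p q => by dsimp only; rw [H.symm p q, G.symm p q],
      fun p => by dsimp only; rw [H.diag, G.diag]; rfl,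
      fun x y a b c e => by have := h1 x y a b c e; dsimp only; omega, by dsimp only; omega,
      fun x a b => by have := h3 x a b; dsimp only; omega⟩
  · rintro ⟨-, -, h1, h2, h3⟩
    dsimp only at h1 h2 h3
    exact ⟨fun x y a b c e => by have := h1 x y a b c e; omega, by omega,
      fun x a b => by have := h3 x a b; omega⟩

/-- linear condition of `relF` -/
def LamF (u w x y : V) (g : V → V → ℤ) : Prop :=
  LamR u w g ∧ g u x = 0 ∧ g w x = 0 ∧ g u y = 0 ∧ g w y = 0

theorem relF_iff (u w x y : V) (G H : Rz d) :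
    relF u w x y G H ↔ LamF u w x y (fun p q => H p q - G p q) := by
  unfold relF LamF
  rw [rel_iff]
  constructor
  · rintro ⟨h, h1, h2, h3, h4⟩
    exact ⟨h, by dsimp only; omega, by dsimp only; omega, by dsimp only; omega,
      by dsimp only; omega⟩
  · rintro ⟨h, h1, h2, h3, h4⟩
    dsimp only at h1 h2 h3 h4
    exact ⟨h, by omega, by omega, by omega, by omega⟩

theorem lam_disj {u w x y : V} (h : Dist4 u w x y) (p q : V) :
    (∀ g, LamR u w g → g p q = 0) ∨ (∀ g, LamF x y u w g → g p q = 0) := by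
  obtain ⟨huw, hxy, hux, huy, hwx, hwy⟩ := h
  -- a slot with one end in `{u,w}`, other end outside
  have key : ∀ p q, (p = u ∨ p = w) → q ≠ u → q ≠ w → ∀ g, LamF x y u w g → g p q = 0 := by
    rintro p q hp hq1 hq2 g ⟨⟨hsym, hdiag, g1, g2, g3⟩, f1, f2, f3, f4⟩
    have hpx : p ≠ x := by rcases hp with rfl | rfl <;> assumption
    have hpy : p ≠ y := by rcases hp with rfl | rfl <;> assumption
    by_cases hqx : q = x
    · subst hqx
      rw [hsym]
      rcases hp with rfl | rfl
      · exact f1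
      · exact f3
    · by_cases hqy : q = y
      · subst hqy
        rw [hsym]
        rcases hp with rfl | rfl
        · exact f2
        · exact f4
      · exact g1 p q hpx hpy hqx hqy
  by_cases hp : p = u ∨ p = w
  · by_cases hq : q = u ∨ q = w
    · left
      rintro g ⟨hsym, hdiag, g1, g2, g3⟩
      rcases hp with rfl | rfl <;> rcases hq with rfl | rfl
      · exact hdiag _
      · exact g2
      · rw [hsym]; exact g2
      · exact hdiag _
    · push Not at hq
      right
      exact key p q hp hq.1 hq.2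
  · by_cases hq : q = u ∨ q = w
    · push Not at hp
      right
      intro g hg
      rw [hg.1.1]
      exact key q p hq hp.1 hp.2 g hg
    · push Not at hp hq
      left
      rintro g ⟨hsym, hdiag, g1, g2, g3⟩
      exact g1 p q hp.1 hp.2 hq.1 hq.2

theorem comm_FF {u w x y : V} (h : Dist4 u w x y) (f : Rz d → ℝ) :
    avg (relF u w x y) (avg (relF x y u w) f) = avg (relF x y u w) (avg (relF u w x y) f) := by
  refine comm_of_lin (relF_equiv _ _ _ _) (relF_equiv _ _ _ _) (LamF u w x y) (LamF x y u w)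
    (relF_iff _ _ _ _) (relF_iff _ _ _ _) ?_ f
  intro p q
  rcases lam_disj h p q with h | h
  · exact Or.inl fun g hg => h g hg.1
  · exact Or.inr h

theorem comm_RF {u w x y : V} (h : Dist4 u w x y) (f : Rz d → ℝ) :
    avg (rel u w) (avg (relF x y u w) f) = avg (relF x y u w) (avg (rel u w) f) :=
  comm_of_lin (rel_equiv _ _) (relF_equiv _ _ _ _) (LamR u w) (LamF x y u w)
    (rel_iff _ _) (relF_iff _ _ _ _) (lam_disj h) f

/-- number of edges of the square -/
def sqq (u w x y : V) (G : Rz d) : ℤ := G u x + G u y + G w x + G w y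

theorem sqq_rel {u w x y : V} (h : Dist4 u w x y) {G H : Rz d} (hr : rel u w G H) :
    sqq u w x y G = sqq u w x y H := by
  obtain ⟨huw, hxy, hux, huy, hwx, hwy⟩ := h
  have h1 := hr.2.2 x hux.symm hwx.symm
  have h2 := hr.2.2 y huy.symm hwy.symm
  unfold sqq; omega

theorem sqq_rel' {u w x y : V} (h : Dist4 u w x y) {G H : Rz d} (hr : rel x y G H) :
    sqq u w x y G = sqq u w x y H := by
  obtain ⟨huw, hxy, hux, huy, hwx, hwy⟩ := h
  have h1 := hr.2.2 u hux huy
  have h2 := hr.2.2 w hwx hwy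
  rw [G.symm x u, G.symm y u, H.symm x u, H.symm y u] at h1
  rw [G.symm x w, G.symm y w, H.symm x w, H.symm y w] at h2
  unfold sqq; omega

theorem sq_omega (g1 g2 g3 g4 h1 h2 h3 h4 k1 k2 k3 k4 : ℤ)
    (bg1 : g1 = 0 ∨ g1 = 1) (bg2 : g2 = 0 ∨ g2 = 1) (bg3 : g3 = 0 ∨ g3 = 1)
    (bg4 : g4 = 0 ∨ g4 = 1)
    (bh1 : 0 ≤ h1) (bh2 : 0 ≤ h2) (bh3 : 0 ≤ h3) (bh4 : 0 ≤ h4)
    (bk1 : 0 ≤ k1) (bk2 : 0 ≤ k2) (bk3 : 0 ≤ k3) (bk4 : 0 ≤ k4)
    (ch1 : h1 ≤ 1) (ch2 : h2 ≤ 1) (ch3 : h3 ≤ 1) (ch4 : h4 ≤ 1)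
    (ck1 : k1 ≤ 1) (ck2 : k2 ≤ 1) (ck3 : k3 ≤ 1) (ck4 : k4 ≤ 1)
    (e1 : h1 + h3 = g1 + g3) (e2 : h2 + h4 = g2 + g4)
    (e3 : k1 + k2 = g1 + g2) (e4 : k3 + k4 = g3 + g4)
    (he : g1 + g2 + g3 + g4 ≠ 2)
    (c1 : ¬ (h1 = g1 ∧ h2 = g2 ∧ h3 = g3 ∧ h4 = g4))
    (c2 : ¬ (k1 = g1 ∧ k2 = g2 ∧ k3 = g3 ∧ k4 = g4)) :
    (h1 + h2 + k1 + k2 = g1 + g2 + g3 + g4 ∧ h3 + h4 + k3 + k4 = g1 + g2 + g3 + g4 ∧
    h1 + h3 + k1 + k3 = g1 + g2 + g3 + g4 ∧ h2 + h4 + k2 + k4 = g1 + g2 + g3 + g4) ∧
    (0 ≤ (g1 + g2 + g3 + g4) - h1 - k1 - g1 ∧ (g1 + g2 + g3 + g4) - h1 - k1 - g1 ≤ 1) ∧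
    (0 ≤ (g1 + g2 + g3 + g4) - h2 - k2 - g2 ∧ (g1 + g2 + g3 + g4) - h2 - k2 - g2 ≤ 1) ∧
    (0 ≤ (g1 + g2 + g3 + g4) - h3 - k3 - g3 ∧ (g1 + g2 + g3 + g4) - h3 - k3 - g3 ≤ 1) ∧
    (0 ≤ (g1 + g2 + g3 + g4) - h4 - k4 - g4 ∧ (g1 + g2 + g3 + g4) - h4 - k4 - g4 ≤ 1) := by
  rcases bg1 with rfl | rfl <;> rcases bg2 with rfl | rfl <;> rcases bg3 with rfl | rfl <;>
    rcases bg4 with rfl | rfl <;> omega


theorem nslot_of_ne {u w x y p q : V} (h1 : p ≠ u) (h2 : p ≠ w) (h3 : p ≠ x) (h4 : p ≠ y) :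
    ¬ slot4 u w x y p q := by
  unfold slot4; tauto

theorem nslot_of_ne' {u w x y p q : V} (h1 : q ≠ u) (h2 : q ≠ w) (h3 : q ≠ x) (h4 : q ≠ y) :
    ¬ slot4 u w x y p q := by
  unfold slot4; tauto

/-- both outside `{x,y}` -/
theorem nslot_xy {u w x y p q : V} (h1 : p ≠ x) (h2 : p ≠ y) (h3 : q ≠ x) (h4 : q ≠ y) :
    ¬ slot4 u w x y p q := by
  unfold slot4; tauto

/-- both outside `{u,w}` -/
theorem nslot_uw {u w x y p q : V} (h1 : p ≠ u) (h2 : p ≠ w) (h3 : q ≠ u) (h4 : q ≠ w) :
    ¬ slot4 u w x y p q := by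
  unfold slot4; tauto

theorem slot4_cases {u w x y p q : V} (h : slot4 u w x y p q) :
    ((p = u ∧ q = x) ∨ (p = u ∧ q = y) ∨ (p = w ∧ q = x) ∨
      (p = w ∧ q = y) ∨ (q = u ∧ p = x) ∨ (q = u ∧ p = y) ∨ (q = w ∧ p = x) ∨
      (q = w ∧ p = y)) := by
  unfold slot4 at h
  rcases h with ⟨h1 | h1, h2 | h2⟩ | ⟨h1 | h1, h2 | h2⟩ <;> simp [h1, h2]

theorem slot_ux (u w x y : V) : slot4 u w x y u x := Or.inl ⟨Or.inl rfl, Or.inl rfl⟩
theorem slot_uy (u w x y : V) : slot4 u w x y u y := Or.inl ⟨Or.inl rfl, Or.inr rfl⟩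
theorem slot_wx (u w x y : V) : slot4 u w x y w x := Or.inl ⟨Or.inr rfl, Or.inl rfl⟩
theorem slot_wy (u w x y : V) : slot4 u w x y w y := Or.inl ⟨Or.inr rfl, Or.inr rfl⟩

theorem zo_of {a : ℤ} (h : 0 ≤ a ∧ a ≤ 1) : a = 0 ∨ a = 1 := by omega

theorem sq_omega2 {a b c e a' b' c' e' : ℤ} (ha : a = 0 ∨ a = 1) (hb : b = 0 ∨ b = 1)
    (hc : c = 0 ∨ c = 1) (he : e = 0 ∨ e = 1)
    (ha' : 0 ≤ a' ∧ a' ≤ 1) (hb' : 0 ≤ b' ∧ b' ≤ 1) (hc' : 0 ≤ c' ∧ c' ≤ 1)
    (he' : 0 ≤ e' ∧ e' ≤ 1)
    (e1 : a + b = a' + b') (e2 : c + e = c' + e') (e3 : a + c = a' + c') (e4 : b + e = b' + e')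
    (hn : a + b + c + e ≠ 2) : a = a' ∧ b = b' ∧ c = c' ∧ e = e' := by
  rcases ha with rfl | rfl <;> rcases hb with rfl | rfl <;> rcases hc with rfl | rfl <;>
    rcases he with rfl | rfl <;> omega

/-- outside the square, one of `H`, `K` agrees with `G`. -/
theorem out_square {u w x y : V} (h : Dist4 u w x y) {G H K : Rz d}
    (hH : rel u w G H) (hK : rel x y G K) (p q : V) (hs : ¬ slot4 u w x y p q) :
    H p q = G p q ∨ K p q = G p q := by
  obtain ⟨huw, hxy, hux, huy, hwx, hwy⟩ := h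
  by_cases hp : p = u ∨ p = w
  · by_cases hq : q = u ∨ q = w
    · left
      rcases hp with rfl | rfl <;> rcases hq with rfl | rfl
      · rw [H.diag, G.diag]
      · exact hH.2.1.symm
      · rw [H.symm, G.symm]; exact hH.2.1.symm
      · rw [H.diag, G.diag]
    · right
      have hpx : p ≠ x := by rcases hp with rfl | rfl <;> assumption
      have hpy : p ≠ y := by rcases hp with rfl | rfl <;> assumption
      have hqx : q ≠ x := fun e => hs (Or.inl ⟨hp, Or.inl e⟩)
      have hqy : q ≠ y := fun e => hs (Or.inl ⟨hp, Or.inr e⟩)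
      exact (hK.1 p q hpx hpy hqx hqy).symm
  · by_cases hq : q = u ∨ q = w
    · right
      have hqx : q ≠ x := by rcases hq with rfl | rfl <;> assumption
      have hqy : q ≠ y := by rcases hq with rfl | rfl <;> assumption
      have hpx : p ≠ x := fun e => hs (Or.inr ⟨Or.inl e, hq⟩)
      have hpy : p ≠ y := fun e => hs (Or.inr ⟨Or.inr e, hq⟩)
      exact (hK.1 p q hpx hpy hqx hqy).symm
    · left
      push Not at hp hq
      exact (hH.1 p q hp.1 hp.2 hq.1 hq.2).symm

/-- row sums of a matrix supported on the square with zero row and column sums. -/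
theorem sum_square {u w x y : V} (h : Dist4 u w x y) (D : V → V → ℤ)
    (hz : ∀ p q, ¬ slot4 u w x y p q → D p q = 0)
    (h1 : D u x + D u y = 0) (h2 : D w x + D w y = 0)
    (h3 : D x u + D x w = 0) (h4 : D y u + D y w = 0) (p : V) : ∑ q, D p q = 0 := by
  classical
  obtain ⟨huw, hxy, hux, huy, hwx, hwy⟩ := h
  have aux : ∀ a b : V, a ≠ b → D p a + D p b = 0 →
      (∀ q, q ≠ a → q ≠ b → ¬ slot4 u w x y p q) → ∑ q, D p q = 0 := by
    intro a b hab hs hq
    have e1 := Finset.add_sum_erase univ (D p) (mem_univ a)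
    have e2 := Finset.add_sum_erase (univ.erase a) (D p) (a := b)
      (by simp [hab.symm])
    have e3 : ∑ q ∈ (univ.erase a).erase b, D p q = 0 := by
      refine Finset.sum_eq_zero fun q hqq => ?_
      simp only [Finset.mem_erase, Finset.mem_univ, and_true] at hqq
      exact hz p q (hq q hqq.2 hqq.1)
    linarith
  by_cases hpu : p = u
  · subst hpu
    refine aux x y hxy h1 (fun q a b => ?_)
    rintro (⟨-, c | c⟩ | ⟨c | c, -⟩)
    · exact a c
    · exact b c
    · exact hux c
    · exact huy c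
  · by_cases hpw : p = w
    · subst hpw
      refine aux x y hxy h2 (fun q a b => ?_)
      rintro (⟨-, c | c⟩ | ⟨c | c, -⟩)
      · exact a c
      · exact b c
      · exact hwx c
      · exact hwy c
    · by_cases hpx : p = x
      · subst hpx
        refine aux u w huw h3 (fun q a b => ?_)
        rintro (⟨c | c, -⟩ | ⟨-, c | c⟩)
        · exact hux c.symm
        · exact hwx c.symm
        · exact a c
        · exact b c
      · by_cases hpy : p = y
        · subst hpy
          refine aux u w huw h4 (fun q a b => ?_)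
          rintro (⟨c | c, -⟩ | ⟨-, c | c⟩)
          · exact huy c.symm
          · exact hwy c.symm
          · exact a c
          · exact b c
        · exact Finset.sum_eq_zero fun q _ => hz p q (nslot_of_ne hpu hpw hpx hpy)

open scoped Classical in
/-- the correction on the square for `comm_RR` -/
noncomputable def sqDelta (u w x y : V) (G H K : Rz d) (p q : V) : ℤ :=
  if slot4 u w x y p q then sqq u w x y G - 2 * H p q - 2 * K p q else 0

open scoped Classical in
/-- rectangle completion when both `H` and `K` differ from `G` on the square. -/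
theorem exists_mergeRR {u w x y : V} (h : Dist4 u w x y) (G H K : Rz d)
    (hG : sqq u w x y G ≠ 2) (hH : rel u w G H) (hK : rel x y G K)
    (c1 : ¬ (H u x = G u x ∧ H u y = G u y ∧ H w x = G w x ∧ H w y = G w y))
    (c2 : ¬ (K u x = G u x ∧ K u y = G u y ∧ K w x = G w x ∧ K w y = G w y)) :
    ∃ L : Rz d, rel x y H L ∧ rel u w K L := by
  have h' := h
  obtain ⟨huw, hxy, hux, huy, hwx, hwy⟩ := h'
  have eH1 := hH.2.2 x hux.symm hwx.symm
  have eH2 := hH.2.2 y huy.symm hwy.symm
  have eK1 : G u x + G u y = K u x + K u y := by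
    have := hK.2.2 u hux huy
    rwa [G.symm x u, G.symm y u, K.symm x u, K.symm y u] at this
  have eK2 : G w x + G w y = K w x + K w y := by
    have := hK.2.2 w hwx hwy
    rwa [G.symm x w, G.symm y w, K.symm x w, K.symm y w] at this
  have z0 : ∀ (A : Rz d) (p q : V), 0 ≤ A p q := fun A p q => by
    rcases A.zo p q with h | h <;> omega
  have z1 : ∀ (A : Rz d) (p q : V), A p q ≤ 1 := fun A p q => by
    rcases A.zo p q with h | h <;> omega
  obtain ⟨⟨s1, s2, s3, s4⟩, b1, b2, b3, b4⟩ := sq_omega (G u x) (G u y) (G w x) (G w y)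
    (H u x) (H u y) (H w x) (H w y) (K u x) (K u y) (K w x) (K w y)
    (G.zo _ _) (G.zo _ _) (G.zo _ _) (G.zo _ _)
    (z0 _ _ _) (z0 _ _ _) (z0 _ _ _) (z0 _ _ _) (z0 _ _ _) (z0 _ _ _) (z0 _ _ _) (z0 _ _ _)
    (z1 _ _ _) (z1 _ _ _) (z1 _ _ _) (z1 _ _ _) (z1 _ _ _) (z1 _ _ _) (z1 _ _ _) (z1 _ _ _)
    eH1.symm eH2.symm eK1.symm eK2.symm hG c1 c2
  have hout := out_square h hH hK
  have dsymm : ∀ p q, sqDelta u w x y G H K p q = sqDelta u w x y G H K q p := by
    intro p q
    unfold sqDelta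
    simp only [slot4_comm u w x y p q, H.symm p q, K.symm p q]
  have dux : sqDelta u w x y G H K u x = sqq u w x y G - 2 * H u x - 2 * K u x := by
    unfold sqDelta; rw [if_pos (slot_ux u w x y)]
  have duy : sqDelta u w x y G H K u y = sqq u w x y G - 2 * H u y - 2 * K u y := by
    unfold sqDelta; rw [if_pos (slot_uy u w x y)]
  have dwx : sqDelta u w x y G H K w x = sqq u w x y G - 2 * H w x - 2 * K w x := by
    unfold sqDelta; rw [if_pos (slot_wx u w x y)]
  have dwy : sqDelta u w x y G H K w y = sqq u w x y G - 2 * H w y - 2 * K w y := by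
    unfold sqDelta; rw [if_pos (slot_wy u w x y)]
  have hsqn : sqq u w x y G = G u x + G u y + G w x + G w y := rfl
  rw [← hsqn] at s1 s2 s3 s4 b1 b2 b3 b4
  have dzero : ∀ p q, ¬ slot4 u w x y p q → sqDelta u w x y G H K p q = 0 := by
    intro p q hs; unfold sqDelta; rw [if_neg hs]
  have r1 : sqDelta u w x y G H K u x + sqDelta u w x y G H K u y = 0 := by
    rw [dux, duy]; linarith
  have r2 : sqDelta u w x y G H K w x + sqDelta u w x y G H K w y = 0 := by
    rw [dwx, dwy]; linarith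
  have r3 : sqDelta u w x y G H K u x + sqDelta u w x y G H K w x = 0 := by
    rw [dux, dwx]; linarith
  have r4 : sqDelta u w x y G H K u y + sqDelta u w x y G H K w y = 0 := by
    rw [duy, dwy]; linarith
  -- row sums of the correction
  have dsum : ∀ p, ∑ q, sqDelta u w x y G H K p q = 0 :=
    sum_square h _ dzero r1 r2 (by rw [dsymm x u, dsymm x w]; exact r3)
      (by rw [dsymm y u, dsymm y w]; exact r4)
  set L : V → V → ℤ := fun p q => H p q + K p q - G p q + sqDelta u w x y G H K p q with hLdef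
  have hLR : IsRz d L := by
    refine ⟨?_, ?_, ?_, ?_⟩
    · intro p q
      by_cases hs : slot4 u w x y p q
      · have hp : ∀ a b, L a b = L b a := by
          intro a b
          simp only [hLdef]
          rw [H.symm a b, K.symm a b, G.symm a b, dsymm a b]
        have l1 : L u x = 0 ∨ L u x = 1 := by
          apply zo_of
          have : L u x = sqq u w x y G - H u x - K u x - G u x := by
            simp only [hLdef]; rw [dux]; ring
          rw [this]; exact b1
        have l2 : L u y = 0 ∨ L u y = 1 := by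
          apply zo_of
          have : L u y = sqq u w x y G - H u y - K u y - G u y := by
            simp only [hLdef]; rw [duy]; ring
          rw [this]; exact b2
        have l3 : L w x = 0 ∨ L w x = 1 := by
          apply zo_of
          have : L w x = sqq u w x y G - H w x - K w x - G w x := by
            simp only [hLdef]; rw [dwx]; ring
          rw [this]; exact b3
        have l4 : L w y = 0 ∨ L w y = 1 := by
          apply zo_of
          have : L w y = sqq u w x y G - H w y - K w y - G w y := by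
            simp only [hLdef]; rw [dwy]; ring
          rw [this]; exact b4
        rcases slot4_cases hs with ⟨rfl, rfl⟩ | ⟨rfl, rfl⟩ | ⟨rfl, rfl⟩ | ⟨rfl, rfl⟩ | ⟨rfl, rfl⟩ |
          ⟨rfl, rfl⟩ | ⟨rfl, rfl⟩ | ⟨rfl, rfl⟩
        · exact l1
        · exact l2
        · exact l3
        · exact l4
        · rw [hp]; exact l1
        · rw [hp]; exact l2
        · rw [hp]; exact l3
        · rw [hp]; exact l4
      · simp only [hLdef]
        rw [dzero p q hs]
        rcases hout p q hs with h | h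
        · rw [h]; rcases K.zo p q with h' | h' <;> rw [h'] <;> simp
        · rw [h]; rcases H.zo p q with h' | h' <;> rw [h'] <;> simp
    · intro p q
      simp only [hLdef]
      rw [H.symm p q, K.symm p q, G.symm p q, dsymm p q]
    · intro p
      simp only [hLdef]
      rw [H.diag, K.diag, G.diag, dzero]
      · rfl
      · intro hs
        rcases slot4_cases hs with ⟨h1, h2⟩ | ⟨h1, h2⟩ | ⟨h1, h2⟩ | ⟨h1, h2⟩ | ⟨h1, h2⟩ |
          ⟨h1, h2⟩ | ⟨h1, h2⟩ | ⟨h1, h2⟩
        · exact hux (h1.symm.trans h2)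
        · exact huy (h1.symm.trans h2)
        · exact hwx (h1.symm.trans h2)
        · exact hwy (h1.symm.trans h2)
        · exact hux (h1.symm.trans h2)
        · exact huy (h1.symm.trans h2)
        · exact hwx (h1.symm.trans h2)
        · exact hwy (h1.symm.trans h2)
    · intro p
      simp only [hLdef]
      rw [Finset.sum_add_distrib, Finset.sum_sub_distrib, Finset.sum_add_distrib, H.deg, K.deg,
        G.deg, dsum]; ring
  obtain ⟨Lr, hLa⟩ : ∃ Lr : Rz d, ∀ p q, Lr p q =
      H p q + K p q - G p q + sqDelta u w x y G H K p q := ⟨⟨L, hLR⟩, fun _ _ => rfl⟩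
  refine ⟨Lr, ⟨?_, ?_, ?_⟩, ⟨?_, ?_, ?_⟩⟩
  · intro p q a b c e
    rw [hLa, dzero p q (nslot_xy a b c e), hK.1 p q a b c e]; ring
  · rw [hLa, dzero x y, hK.2.1]
    · ring
    · rintro (⟨h1 | h1, -⟩ | ⟨-, h1 | h1⟩)
      · exact hux h1.symm
      · exact hwx h1.symm
      · exact huy h1.symm
      · exact hwy h1.symm
  · intro p a b
    rw [hLa, hLa]
    have e := hK.2.2 p a b
    have e' : sqDelta u w x y G H K x p + sqDelta u w x y G H K y p = 0 := by
      by_cases hpu : p = u
      · subst hpu; rw [dsymm x, dsymm y]; exact r1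
      · by_cases hpw : p = w
        · subst hpw; rw [dsymm x, dsymm y]; exact r2
        · rw [dzero x p (nslot_of_ne' hpu hpw a b), dzero y p (nslot_of_ne' hpu hpw a b)]; rfl
    linarith
  · intro p q a b c e
    rw [hLa, dzero p q (nslot_uw a b c e), hH.1 p q a b c e]; ring
  · rw [hLa, dzero u w, hH.2.1]
    · ring
    · rintro (⟨-, h1 | h1⟩ | ⟨h1 | h1, -⟩)
      · exact hwx h1
      · exact hwy h1
      · exact hux h1
      · exact huy h1
  · intro p a b
    rw [hLa, hLa]
    have e := hH.2.2 p a b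
    have e' : sqDelta u w x y G H K u p + sqDelta u w x y G H K w p = 0 := by
      by_cases hpu : p = x
      · subst hpu; exact r3
      · by_cases hpw : p = y
        · subst hpw; exact r4
        · rw [dzero u p (nslot_of_ne' a b hpu hpw), dzero w p (nslot_of_ne' a b hpu hpw)]; rfl
    linarith

/-- rectangle completion when `H` or `K` agrees with `G` on the square. -/
theorem exists_mergeRR' {u w x y : V} (h : Dist4 u w x y) (G H K : Rz d)
    (hH : rel u w G H) (hK : rel x y G K)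
    (c : (H u x = G u x ∧ H u y = G u y ∧ H w x = G w x ∧ H w y = G w y) ∨
      (K u x = G u x ∧ K u y = G u y ∧ K w x = G w x ∧ K w y = G w y)) :
    ∃ L : Rz d, rel x y H L ∧ rel u w K L := by
  have h' := h
  obtain ⟨huw, hxy, hux, huy, hwx, hwy⟩ := h'
  have hall : ∀ p q, H p q = G p q ∨ K p q = G p q := by
    intro p q
    rcases c with ⟨c1, c2, c3, c4⟩ | ⟨c1, c2, c3, c4⟩
    · have hF : relF u w x y G H := ⟨hH, c1.symm, c3.symm, c2.symm, c4.symm⟩
      rcases lam_disj h.flip p q with h1 | h1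
      · right
        have : K p q - G p q = 0 := h1 _ ((rel_iff _ _ _ _).1 hK)
        omega
      · left
        have : H p q - G p q = 0 := h1 _ ((relF_iff _ _ _ _ _ _).1 hF)
        omega
    · have hF : relF x y u w G K := ⟨hK, by rw [G.symm x u, K.symm x u, c1],
        by rw [G.symm y u, K.symm y u, c2], by rw [G.symm x w, K.symm x w, c3],
        by rw [G.symm y w, K.symm y w, c4]⟩
      rcases lam_disj h p q with h1 | h1
      · left
        have : H p q - G p q = 0 := h1 _ ((rel_iff _ _ _ _).1 hH)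
        omega
      · right
        have : K p q - G p q = 0 := h1 _ ((relF_iff _ _ _ _ _ _).1 hF)
        omega
  refine ⟨merge G H K hall, ?_, ?_⟩
  · rw [rel_iff]
    have : (fun p q => (merge G H K hall) p q - H p q) = fun p q => K p q - G p q := by
      funext p q; rw [merge_apply]; ring
    rw [this, ← rel_iff]; exact hK
  · rw [rel_iff]
    have : (fun p q => (merge G H K hall) p q - K p q) = fun p q => H p q - G p q := by
      funext p q; rw [merge_apply]; ring
    rw [this, ← rel_iff]; exact hH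

theorem comm_RR {u w x y : V} (h : Dist4 u w x y) (f : Rz d → ℝ) (G : Rz d)
    (hG : G u x + G u y + G w x + G w y ≠ 2) :
    avg (rel u w) (avg (rel x y) f) G = avg (rel x y) (avg (rel u w) f) G := by
  refine avg_comm_of_rect (rel_equiv u w) (rel_equiv x y) G ?_ f
  rintro g ⟨z0, hz1, hz2⟩ H K hH hK
  have hg : sqq u w x y g ≠ 2 := by
    rw [← sqq_rel' h hz2, ← sqq_rel h hz1]; exact hG
  have hex : ∃ L : Rz d, rel x y H L ∧ rel u w K L := by
    by_cases c : (H u x = g u x ∧ H u y = g u y ∧ H w x = g w x ∧ H w y = g w y) ∨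
      (K u x = g u x ∧ K u y = g u y ∧ K w x = g w x ∧ K w y = g w y)
    · exact exists_mergeRR' h g H K hH hK c
    · push Not at c
      exact exists_mergeRR h g H K hg hH hK (fun hc => c.1 hc.1 hc.2.1 hc.2.2.1 hc.2.2.2)
        (fun hc => c.2 hc.1 hc.2.1 hc.2.2.1 hc.2.2.2)
  obtain ⟨L, hL1, hL2⟩ := hex
  refine ⟨L, ⟨hL1, hL2⟩, ?_⟩
  rintro L' ⟨hL1', hL2'⟩
  obtain ⟨huw, hxy, hux, huy, hwx, hwy⟩ := h
  have r1 : rel x y L L' := (rel_equiv x y).trans ((rel_equiv x y).symm hL1) hL1'
  have r2 : rel u w L L' := (rel_equiv u w).trans ((rel_equiv u w).symm hL2) hL2'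
  have hn : sqq u w x y L ≠ 2 := by
    rw [← sqq_rel ⟨huw, hxy, hux, huy, hwx, hwy⟩ hL2,
      ← sqq_rel' ⟨huw, hxy, hux, huy, hwx, hwy⟩ hK]; exact hg
  have e1 := r1.2.2 u hux huy
  have e2 := r1.2.2 w hwx hwy
  have e3 := r2.2.2 x hux.symm hwx.symm
  have e4 := r2.2.2 y huy.symm hwy.symm
  rw [L.symm x u, L.symm y u, L'.symm x u, L'.symm y u] at e1
  rw [L.symm x w, L.symm y w, L'.symm x w, L'.symm y w] at e2
  have hsq : L u x = L' u x ∧ L u y = L' u y ∧ L w x = L' w x ∧ L w y = L' w y := by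
    unfold sqq at hn
    have zb : ∀ (A : Rz d) (p q : V), 0 ≤ A p q ∧ A p q ≤ 1 := fun A p q => by
      rcases A.zo p q with h | h <;> rw [h] <;> simp
    exact sq_omega2 (L.zo _ _) (L.zo _ _) (L.zo _ _) (L.zo _ _) (zb _ _ _) (zb _ _ _) (zb _ _ _)
      (zb _ _ _) e1 e2 e3 e4 hn
  have hF : relF u w x y L L' := ⟨r2, hsq.1, hsq.2.2.1, hsq.2.1, hsq.2.2.2⟩
  apply Rz.ext
  intro p q
  rcases lam_disj (Dist4.flip ⟨huw, hxy, hux, huy, hwx, hwy⟩) p q with h1 | h1
  · have : L' p q - L p q = 0 := h1 _ ((rel_iff _ _ _ _).1 r1)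
    omega
  · have : L' p q - L p q = 0 := h1 _ ((relF_iff _ _ _ _ _ _).1 hF)
    omega

end Crest.Agent.SwC
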