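import Mathlib

/-!
Definitions for the switch chain result (S0453).
-/

set_option autoImplicit false
set_option linter.unusedSectionVars false

open Finset

namespace Crest.Agent.SwC

section Avg

variable {X : Type*} [Fintype X]

/-- the block (equivalence class) of `x` as a finset -/
noncomputable def blk (r : X → X → Prop) (x : X) : Finset X := by
  classical exact univ.filter fun y => r x y

@[simp] theorem mem_blk {r : X → X → Prop} {x y : X} : y ∈ blk r x ↔ r x y := by
  classical
  simp [blk]

/-- average of `f` over the class of `x` -/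
noncomputable def avg (r : X → X → Prop) (f : X → ℝ) (x : X) : ℝ :=
  (∑ y ∈ blk r x, f y) / ((blk r x).card : ℝ)

/-- `D = 1 - E` -/
noncomputable def dif (r : X → X → Prop) (f : X → ℝ) (x : X) : ℝ := f x - avg r f x

end Avg

section Graph

variable {V : Type*} [Fintype V]

/-- adjacency matrices (entries 0/1, symmetric, zero diagonal) with prescribed row sums. -/
def IsRz (d : V → ℤ) (A : V → V → ℤ) : Prop :=
  (∀ x y, A x y = 0 ∨ A x y = 1) ∧ (∀ x y, A x y = A y x) ∧ (∀ x, A x x = 0) ∧
    ∀ x, ∑ y, A x y = d x

/-- realizations of the degree vector `d`, as integer 0/1 symmetric matrices. -/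
def Rz (d : V → ℤ) : Type _ := {A : V → V → ℤ // IsRz d A}

variable {d : V → ℤ}

instance : CoeFun (Rz d) (fun _ => V → V → ℤ) := ⟨fun G => G.1⟩

theorem Rz.ext {G H : Rz d} (h : ∀ x y, G x y = H x y) : G = H :=
  Subtype.ext (funext fun x => funext fun y => h x y)

theorem Rz.zo (G : Rz d) (x y : V) : G x y = 0 ∨ G x y = 1 := G.2.1 x y
theorem Rz.symm (G : Rz d) (x y : V) : G x y = G y x := G.2.2.1 x y
theorem Rz.diag (G : Rz d) (x : V) : G x x = 0 := G.2.2.2.1 x
theorem Rz.deg (G : Rz d) (x : V) : ∑ y, G x y = d x := G.2.2.2.2 x

instance : Finite (Rz d) := by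
  have h : (Set.univ.pi fun _ : V => Set.univ.pi fun _ : V => ({0, 1} : Set ℤ)).Finite :=
    Set.Finite.pi fun _ => Set.Finite.pi fun _ => Set.toFinite _
  refine (h.subset ?_).to_subtype
  intro A hA x _ y _
  rcases hA.1 x y with h | h <;> simp [h]

noncomputable instance : Fintype (Rz d) := Fintype.ofFinite _

noncomputable instance : DecidableEq (Rz d) := Classical.decEq _

/-- block relation: `H` is obtained from `G` by re-distributing, for the pair of rows `u,w`,
the columns where they differ. -/
def rel (u w : V) (G H : Rz d) : Prop :=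
  (∀ x y, x ≠ u → x ≠ w → y ≠ u → y ≠ w → G x y = H x y) ∧ G u w = H u w ∧
    ∀ x, x ≠ u → x ≠ w → G u x + G w x = H u x + H w x

/-- finer block relation: moreover the slots of `{u,w} × {x,y}` are frozen. -/
def relF (u w x y : V) (G H : Rz d) : Prop :=
  rel u w G H ∧ G u x = H u x ∧ G w x = H w x ∧ G u y = H u y ∧ G w y = H w y

/-- the four vertices are distinct -/
def Dist4 (u w x y : V) : Prop := u ≠ w ∧ x ≠ y ∧ u ≠ x ∧ u ≠ y ∧ w ≠ x ∧ w ≠ y

/-- the 4-cycle `u x w y` with diagonals `{u,w}`, `{x,y}` is alternating in `G`. -/
def split (u w x y : V) (G : Rz d) : Prop :=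
  Dist4 u w x y ∧
    ((G u x = 1 ∧ G w y = 1 ∧ G u y = 0 ∧ G w x = 0) ∨
      (G u x = 0 ∧ G w y = 0 ∧ G u y = 1 ∧ G w x = 1))

/-- the slots of the 4-cycle `u x w y`. -/
def slot4 (u w x y p q : V) : Prop :=
  ((p = u ∨ p = w) ∧ (q = x ∨ q = y)) ∨ ((p = x ∨ p = y) ∧ (q = u ∨ q = w))

open scoped Classical in
/-- flip the four slots of the 4-cycle `u x w y`. -/
noncomputable def flip4 (u w x y : V) (A : V → V → ℤ) : V → V → ℤ :=
  fun p q => if slot4 u w x y p q then 1 - A p q else A p q

theorem slot4_comm (u w x y p q : V) : slot4 u w x y p q ↔ slot4 u w x y q p := by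
  unfold slot4; tauto

theorem flip4_isRz {u w x y : V} {G : Rz d} (h : split u w x y G) :
    IsRz d (flip4 u w x y G.1) := by
  classical
  obtain ⟨⟨huw, hxy, hux, huy, hwx, hwy⟩, h⟩ := h
  refine ⟨?_, ?_, ?_, ?_⟩
  · intro p q
    unfold flip4
    split_ifs
    · rcases G.zo p q with h | h <;> simp [h]
    · exact G.zo p q
  · intro p q
    unfold flip4
    rw [G.symm p q]
    by_cases hs : slot4 u w x y p q
    · rw [if_pos hs, if_pos ((slot4_comm _ _ _ _ _ _).1 hs)]
    · rw [if_neg hs, if_neg (fun h => hs ((slot4_comm _ _ _ _ _ _).1 h))]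
  · intro p
    unfold flip4
    have hs : ¬ slot4 u w x y p p := by
      unfold slot4
      rintro (⟨h1 | h1, h2 | h2⟩ | ⟨h1 | h1, h2 | h2⟩) <;> subst h1 <;>
        first | contradiction | exact absurd h2.symm (by assumption)
    rw [if_neg hs]; exact G.diag p
  · intro p
    rw [← G.deg p]
    have key : ∀ q, flip4 u w x y G.1 p q =
        G p q + (if slot4 u w x y p q then 1 - 2 * G p q else 0) := by
      intro q
      unfold flip4
      split_ifs <;> ring
    have hsu : G u x + G u y = 1 := by rcases h with h | h <;> omega
    have hsw : G w x + G w y = 1 := by rcases h with h | h <;> omega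
    have hsx : G x u + G x w = 1 := by
      rw [G.symm x u, G.symm x w]; rcases h with h | h <;> omega
    have hsy : G y u + G y w = 1 := by
      rw [G.symm y u, G.symm y w]; rcases h with h | h <;> omega
    simp_rw [key]
    rw [Finset.sum_add_distrib]
    have hz : ∑ q, (if slot4 u w x y p q then 1 - 2 * G p q else 0) = 0 := by
      have aux : ∀ a b : V, a ≠ b → G p a + G p b = 1 →
          (∀ q, slot4 u w x y p q ↔ q = a ∨ q = b) →
          ∑ q, (if slot4 u w x y p q then 1 - 2 * G p q else 0) = 0 := by
        intro a b hab hs hq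
        have : ∀ q, (if slot4 u w x y p q then 1 - 2 * G p q else 0) =
            (if q = a then 1 - 2 * G p q else 0) + (if q = b then 1 - 2 * G p q else 0) := by
          intro q
          by_cases h1 : q = a
          · subst h1
            rw [if_pos ((hq q).2 (Or.inl rfl)), if_pos rfl, if_neg hab, add_zero]
          · by_cases h2 : q = b
            · subst h2
              rw [if_pos ((hq q).2 (Or.inr rfl)), if_neg h1, if_pos rfl, zero_add]
            · rw [if_neg (fun h => by rcases (hq q).1 h with h | h <;> contradiction),
                if_neg h1, if_neg h2, add_zero]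
        simp_rw [this]
        rw [Finset.sum_add_distrib]
        simp
        omega
      by_cases h1 : p = u
      · subst h1
        exact aux x y hxy hsu (fun q => by unfold slot4; tauto)
      · by_cases h2 : p = w
        · subst h2
          exact aux x y hxy hsw (fun q => by unfold slot4; tauto)
        · by_cases h3 : p = x
          · subst h3
            exact aux u w huw hsx (fun q => by unfold slot4; tauto)
          · by_cases h4 : p = y
            · subst h4
              exact aux u w huw hsy (fun q => by unfold slot4; tauto)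
            · apply Finset.sum_eq_zero
              intro q _
              rw [if_neg]
              unfold slot4; tauto
    rw [hz, add_zero]

open scoped Classical in
/-- the switch along the 4-cycle `u x w y` (identity if it is not alternating). -/
noncomputable def swt (u w x y : V) (G : Rz d) : Rz d :=
  if h : split u w x y G then ⟨flip4 u w x y G.1, flip4_isRz h⟩ else G

/-- finer relation: same block, and the same status of `split`. -/
def relS (u w x y : V) (G H : Rz d) : Prop :=
  rel u w G H ∧ (split u w x y G ↔ split u w x y H)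

/-- `E[f | block {u,w}, {x,y} split] - E[f | block {u,w}]` (to be used only at `G` with
`split u w x y G`). -/
noncomputable def tt (u w x y : V) (f : Rz d → ℝ) (G : Rz d) : ℝ :=
  avg (relS u w x y) f G - avg (rel u w) f G

end Graph

end Crest.Agent.SwC
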