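import Crest.Agent.SwC_Basic
import Crest.Prelude.Def_SwitchChain

/-!
S0453, tasks 9 and 10: edge sets versus matrices, kernel form versus switch form.
-/

set_option autoImplicit false
set_option linter.unusedSectionVars false

open Finset

namespace Crest.Agent.SwC

section Kernel

open Crest.SwitchChain

variable {n : ℕ}

/-- the 0/1 matrix of an edge set -/
noncomputable def matOf (E : Finset (Edge n)) : Fin n → Fin n → ℤ :=
  fun x y => open scoped Classical in if ∃ e ∈ E, e.1 = s(x, y) then 1 else 0

theorem matOf_eq_one {E : Finset (Edge n)} {x y : Fin n} :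
    matOf E x y = 1 ↔ ∃ e ∈ E, e.1 = s(x, y) := by
  unfold matOf; split_ifs with h <;> simp [h]

theorem matOf_eq_zero {E : Finset (Edge n)} {x y : Fin n} :
    matOf E x y = 0 ↔ ¬ ∃ e ∈ E, e.1 = s(x, y) := by
  unfold matOf; split_ifs with h
  · simp [h]
  · exact ⟨fun _ => h, fun _ => rfl⟩

theorem matOf_zo (E : Finset (Edge n)) (x y : Fin n) : matOf E x y = 0 ∨ matOf E x y = 1 := by
  unfold matOf; split_ifs <;> simp

theorem matOf_symm (E : Finset (Edge n)) (x y : Fin n) : matOf E x y = matOf E y x := by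
  unfold matOf; rw [Sym2.eq_swap]

theorem matOf_inj {E E' : Finset (Edge n)} (h : ∀ x y, matOf E x y = matOf E' x y) : E = E' := by
  have key : ∀ {A B : Finset (Edge n)}, (∀ x y, matOf A x y = matOf B x y) → A ⊆ B := by
    intro A B hAB e he
    obtain ⟨⟨x, y⟩, hxy⟩ := Sym2.mk_surjective e.1
    have h1 : matOf A x y = 1 := matOf_eq_one.2 ⟨e, he, hxy.symm⟩
    rw [hAB, matOf_eq_one] at h1
    obtain ⟨e', he', h2⟩ := h1
    have : e' = e := Subtype.ext (h2.trans hxy)
    exact this ▸ he'
  exact Subset.antisymm (key h) (key fun x y => (h x y).symm)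

theorem matOf_row (E : Finset (Edge n)) (x : Fin n) : ∑ y, matOf E x y = (deg E x : ℤ) := by
  classical
  unfold matOf deg
  rw [Finset.sum_boole]
  congr 1
  symm
  refine Finset.card_bij (fun e he => Sym2.Mem.other (mem_filter.1 he).2) ?_ ?_ ?_
  · intro e he
    rw [mem_filter]
    exact ⟨mem_univ _, e, (mem_filter.1 he).1, (Sym2.other_spec _).symm⟩
  · intro e he e' he' h
    apply Subtype.ext
    rw [← Sym2.other_spec (mem_filter.1 he).2, ← Sym2.other_spec (mem_filter.1 he').2, h]
  · intro y hy
    obtain ⟨-, e, he, h⟩ := mem_filter.1 hy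
    have hx : x ∈ e.1 := by rw [h]; exact Sym2.mem_mk_left x y
    refine ⟨e, mem_filter.2 ⟨he, hx⟩, ?_⟩
    have h1 := (Sym2.other_spec hx).trans h
    rcases Sym2.eq_iff.1 h1 with ⟨_, h⟩ | ⟨h2, h3⟩
    · exact h
    · rw [h3, h2]

theorem matOf_isRz {d : Fin n → ℕ} {E : Finset (Edge n)} (hE : E ∈ realizations d) :
    IsRz (fun v => (d v : ℤ)) (matOf E) := by
  refine ⟨matOf_zo E, matOf_symm E, ?_, ?_⟩
  · intro x
    rw [matOf_eq_zero]
    rintro ⟨e, -, he⟩
    apply e.2
    rw [he]
    simp
  · intro x
    rw [matOf_row]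
    rw [(mem_filter.1 hE).2 x]

/-- TASK 9. Bijection realizations ≃ Rz. -/
theorem exists_equiv (d : Fin n → ℕ) :
    ∃ e : {E : Finset (Edge n) // E ∈ realizations d} ≃ Rz (fun v => (d v : ℤ)),
      ∀ E x y, (e E) x y = matOf E.1 x y := by
  classical
  have hbij : Function.Bijective
      (fun E : {E : Finset (Edge n) // E ∈ realizations d} =>
        (⟨matOf E.1, matOf_isRz E.2⟩ : Rz (fun v => (d v : ℤ)))) := by
    constructor
    · intro E E' h
      apply Subtype.ext
      apply matOf_inj
      intro x y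
      have := congrArg (fun A : Rz (fun v => (d v : ℤ)) => A.1 x y) h
      exact this
    · intro (A : Rz (fun v => (d v : ℤ)))
      set E : Finset (Edge n) := univ.filter fun e => ∃ x y, e.1 = s(x, y) ∧ A x y = 1 with hEdef
      have hmat : ∀ x y, matOf E x y = A x y := by
        intro x y
        rcases A.zo x y with h | h
        · rw [h, matOf_eq_zero]
          rintro ⟨e, he, hxy⟩
          obtain ⟨-, x', y', h1, h2⟩ := mem_filter.1 he
          rw [hxy] at h1
          rcases Sym2.eq_iff.1 h1 with ⟨ha, hb⟩ | ⟨ha, hb⟩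
          · rw [ha, hb, h2] at h; exact one_ne_zero h
          · rw [A.symm, ha, hb, h2] at h; exact one_ne_zero h
        · rw [h, matOf_eq_one]
          have hne : x ≠ y := by
            rintro rfl
            rw [A.diag] at h; exact zero_ne_one h
          refine ⟨⟨s(x, y), by simpa using hne⟩, ?_, rfl⟩
          exact mem_filter.2 ⟨mem_univ _, x, y, rfl, h⟩
      have hE : E ∈ realizations d := by
        refine mem_filter.2 ⟨mem_univ _, ?_⟩
        intro v
        have h1 := matOf_row E v
        rw [Finset.sum_congr rfl (fun y _ => hmat v y), A.deg v] at h1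
        exact_mod_cast h1.symm
      refine ⟨⟨E, hE⟩, ?_⟩
      apply Rz.ext
      intro x y
      exact hmat x y
  exact ⟨Equiv.ofBijective _ hbij, fun E x y => rfl⟩

end Kernel

end Crest.Agent.SwC
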