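import Mathlib

/-! S0071, finishing lemmas (parameters 16 / 4 / 8). -/

set_option autoImplicit false

namespace Crest.TG11
open Finset

/-- Label weights: `w l = a 8^(l-I)` for `l < I + R`, the rest on the last label. -/
theorem exists_weights (I : ℕ) (a : ℝ) (ha0 : 0 < a) (hp2 : a ≤ 1 / 2) :
    ∃ R : ℕ, ∃ w : Fin (I + R + 1) → ℝ, (∀ l, 0 ≤ w l) ∧ ∑ l, w l = 1 ∧
      (∀ l : Fin (I + R + 1), (l : ℕ) < I + R →
        w l = a * (8 : ℝ) ^ (((l : ℕ) : ℤ) - (I : ℤ))) ∧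
      ∑ l, w l * ((16 : ℝ) ^ ((l : ℕ) - I))⁻¹ ≤ 4 * a := by
  obtain ⟨n, hn1, hn2⟩ := exists_nat_pow_near (x := (2 * a)⁻¹) (y := (8 : ℝ))
    (by rw [one_le_inv₀ (by positivity)]; linarith) (by norm_num)
  have hn1' : a * 8 ^ n ≤ 1 / 2 := by
    rw [le_inv_comm₀ (by positivity) (by positivity)] at hn1
    have h2 : 2 * a * 8 ^ n ≤ ((8 : ℝ) ^ n)⁻¹ * 8 ^ n :=
      mul_le_mul_of_nonneg_right hn1 (by positivity)
    rw [inv_mul_cancel₀ (by positivity)] at h2
    linarith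
  have hn2' : ((8 : ℝ) ^ (n + 1))⁻¹ ≤ 2 * a :=
    (inv_le_comm₀ (by positivity) (by positivity)).1 hn2.le
  -- the geometric weights
  have hS : ∀ N : ℕ, ∑ l ∈ range N, a * (8 : ℝ) ^ ((l : ℤ) - (I : ℤ)) ≤
      a / 7 * (8 : ℝ) ^ ((N : ℤ) - (I : ℤ)) := by
    intro N
    induction N with
    | zero =>
      rw [sum_range_zero]
      positivity
    | succ N ih =>
      rw [sum_range_succ]
      have e : (8 : ℝ) ^ (((N + 1 : ℕ) : ℤ) - (I : ℤ)) =
          8 * (8 : ℝ) ^ ((N : ℤ) - (I : ℤ)) := by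
        rw [show ((N + 1 : ℕ) : ℤ) - (I : ℤ) = ((N : ℤ) - (I : ℤ)) + 1 by push_cast; ring,
          zpow_add_one₀ (by norm_num)]
        ring
      rw [e]
      have h3 : 0 < (8 : ℝ) ^ ((N : ℤ) - (I : ℤ)) := by positivity
      nlinarith [ih, h3, ha0]
  have hE : ∀ r : ℕ, ∑ l ∈ range (I + r), a * (8 : ℝ) ^ ((l : ℤ) - (I : ℤ)) *
      ((16 : ℝ) ^ (l - I))⁻¹ ≤ a / 7 + a * ∑ s ∈ range r, (1 / 2 : ℝ) ^ s := by
    intro r
    induction r with
    | zero =>
      rw [sum_range_zero, mul_zero, add_zero, add_zero]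
      have h4 : ∑ l ∈ range I, a * (8 : ℝ) ^ ((l : ℤ) - (I : ℤ)) * ((16 : ℝ) ^ (l - I))⁻¹ =
          ∑ l ∈ range I, a * (8 : ℝ) ^ ((l : ℤ) - (I : ℤ)) := by
        refine sum_congr rfl fun l hl => ?_
        rw [mem_range] at hl
        rw [Nat.sub_eq_zero_of_le hl.le, pow_zero, inv_one, mul_one]
      rw [h4]
      refine (hS I).trans ?_
      rw [sub_self, zpow_zero, mul_one]
    | succ r ih =>
      rw [← add_assoc, sum_range_succ, sum_range_succ, mul_add, ← add_assoc]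
      refine add_le_add ih ?_
      have e1 : (((I + r : ℕ) : ℤ) - (I : ℤ)) = ((r : ℕ) : ℤ) := by push_cast; ring
      rw [e1, zpow_natCast, Nat.add_sub_cancel_left, mul_assoc, ← inv_pow, ← mul_pow]
      norm_num
  have hgeo : ∀ r : ℕ, ∑ s ∈ range r, (1 / 2 : ℝ) ^ s ≤ 2 := by
    intro r
    have h5 : ∀ r : ℕ, ∑ s ∈ range r, (1 / 2 : ℝ) ^ s = 2 - 2 * (1 / 2) ^ r := by
      intro r
      induction r with
      | zero => norm_num
      | succ r ih => rw [sum_range_succ, ih, pow_succ]; ring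
    rw [h5]
    have : 0 < (1 / 2 : ℝ) ^ r := by positivity
    linarith
  have hSR : ∑ l ∈ range (I + (n + 1)), a * (8 : ℝ) ^ ((l : ℤ) - (I : ℤ)) ≤ 1 := by
    refine (hS _).trans ?_
    have e1 : (((I + (n + 1) : ℕ) : ℤ) - (I : ℤ)) = ((n + 1 : ℕ) : ℤ) := by push_cast; ring
    rw [e1, zpow_natCast, pow_succ]
    have : a / 7 * (8 ^ n * 8) = (a * 8 ^ n) * (8 / 7) := by ring
    rw [this]
    nlinarith [hn1']
  let w : Fin (I + (n + 1) + 1) → ℝ := fun l => if (l : ℕ) < I + (n + 1) then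
    a * (8 : ℝ) ^ (((l : ℕ) : ℤ) - (I : ℤ)) else
    1 - ∑ l ∈ range (I + (n + 1)), a * (8 : ℝ) ^ ((l : ℤ) - (I : ℤ))
  have hw1 : ∀ l : Fin (I + (n + 1)), w l.castSucc = a * (8 : ℝ) ^ (((l : ℕ) : ℤ) - (I : ℤ)) :=
    fun l => if_pos l.2
  have hw2 : w (Fin.last _) =
      1 - ∑ l ∈ range (I + (n + 1)), a * (8 : ℝ) ^ ((l : ℤ) - (I : ℤ)) := by
    refine if_neg ?_
    rw [Fin.val_last]
    exact lt_irrefl _
  refine ⟨n + 1, w, ?_, ?_, ?_, ?_⟩
  · intro l
    simp only [w]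
    split_ifs
    · positivity
    · linarith
  · rw [Fin.sum_univ_castSucc, hw2]
    simp only [hw1]
    rw [Fin.sum_univ_eq_sum_range (fun l => a * (8 : ℝ) ^ ((l : ℤ) - (I : ℤ)))]
    ring
  · intro l hl
    exact if_pos hl
  · rw [Fin.sum_univ_castSucc, hw2]
    simp only [hw1, Fin.val_castSucc, Fin.val_last, Nat.add_sub_cancel_left]
    rw [Fin.sum_univ_eq_sum_range (fun l => a * (8 : ℝ) ^ ((l : ℤ) - (I : ℤ)) *
      ((16 : ℝ) ^ (l - I))⁻¹)]
    have h6 := hE (n + 1)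
    have h7 := hgeo (n + 1)
    have h8 : 0 ≤ ∑ l ∈ range (I + (n + 1)), a * (8 : ℝ) ^ ((l : ℤ) - (I : ℤ)) :=
      sum_nonneg fun l _ => by positivity
    have h9 : ((16 : ℝ) ^ (n + 1))⁻¹ ≤ a := by
      have e2 : ((16 : ℝ) ^ (n + 1))⁻¹ = ((8 : ℝ) ^ (n + 1))⁻¹ * (1 / 2) ^ (n + 1) := by
        rw [← inv_pow, ← inv_pow, ← mul_pow]
        norm_num
      have e3 : (1 / 2 : ℝ) ^ (n + 1) ≤ 1 / 2 := by
        rw [pow_succ]
        have : (1 / 2 : ℝ) ^ n ≤ 1 := pow_le_one₀ (by norm_num) (by norm_num)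
        linarith
      rw [e2]
      calc ((8 : ℝ) ^ (n + 1))⁻¹ * (1 / 2) ^ (n + 1) ≤ (2 * a) * (1 / 2) :=
            mul_le_mul hn2' e3 (by positivity) (by positivity)
        _ = a := by ring
    have h10 : (1 - ∑ l ∈ range (I + (n + 1)), a * (8 : ℝ) ^ ((l : ℤ) - (I : ℤ))) *
        ((16 : ℝ) ^ (n + 1))⁻¹ ≤ a := by
      refine le_trans ?_ h9
      have : 0 ≤ ((16 : ℝ) ^ (n + 1))⁻¹ := by positivity
      nlinarith
    nlinarith

/-- Abel summation: `u` antitone and nonnegative, partial sums of `c` at most `C m`. -/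
theorem abel (h : ℕ) (u c : ℕ → ℝ) (hu : Antitone u) (hu0 : ∀ e, 0 ≤ u e) (C : ℝ)
    (hc : ∀ m ≤ h, ∑ e ∈ range m, c e ≤ C * m) :
    ∑ e ∈ range h, c e * u e ≤ C * ∑ e ∈ range h, u e := by
  have key : ∀ m ≤ h, (C * m - ∑ e ∈ range m, c e) * u m ≤
      C * ∑ e ∈ range m, u e - ∑ e ∈ range m, c e * u e := by
    intro m
    induction m with
    | zero => intro _; simp
    | succ m ih =>
      intro hm
      have h1 := ih (by omega)
      have h2 : 0 ≤ C * ((m + 1 : ℕ) : ℝ) - ∑ e ∈ range (m + 1), c e := by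
        have := hc (m + 1) hm
        linarith
      have h3 : (C * ((m + 1 : ℕ) : ℝ) - ∑ e ∈ range (m + 1), c e) * u (m + 1) ≤
          (C * ((m + 1 : ℕ) : ℝ) - ∑ e ∈ range (m + 1), c e) * u m :=
        mul_le_mul_of_nonneg_left (hu (Nat.le_succ m)) h2
      refine h3.trans ?_
      rw [sum_range_succ, sum_range_succ, sum_range_succ]
      push_cast
      nlinarith [h1]
  have h1 := key h le_rfl
  have h2 : 0 ≤ (C * h - ∑ e ∈ range h, c e) * u h := by
    refine mul_nonneg ?_ (hu0 h)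
    have := hc h le_rfl
    linarith
  linarith

private theorem pow_clog16 {m : ℕ} (hm : 1 ≤ m) : 16 ^ Nat.clog 16 m ≤ 16 * m := by
  rcases Nat.lt_or_ge 1 m with h | h
  · have h1 : 16 ^ (Nat.clog 16 m).pred < m := Nat.pow_pred_clog_lt_self (by norm_num) h
    have h2 : 0 < Nat.clog 16 m := Nat.clog_pos (by norm_num) h
    have h3 : Nat.clog 16 m = (Nat.clog 16 m).pred + 1 := (Nat.succ_pred_eq_of_pos h2).symm
    rw [h3, pow_succ]
    omega
  · have : m = 1 := by omega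
    subst this
    norm_num

theorem abel_level (h : ℕ) (u : Fin h → ℝ) (hu : Antitone u) (hu0 : ∀ e, 0 ≤ u e)
    (E : Finset (Fin h)) (δ : ℝ) (hδ : 0 ≤ δ)
    (hE : ∀ i : ℕ, ((E.filter fun e : Fin h => Nat.clog 16 ((e : ℕ) + 1) ≤ i).card : ℝ) ≤ 16 ^ i * δ) :
    ∑ e ∈ E, u e ≤ 16 * δ * ∑ e, u e := by
  classical
  set u' : ℕ → ℝ := fun e => if he : e < h then u ⟨e, he⟩ else 0 with hu'
  set c : ℕ → ℝ := fun e => if he : e < h then (if (⟨e, he⟩ : Fin h) ∈ E then 1 else 0) else 0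
    with hcdef
  have hu'a : Antitone u' := by
    intro a b hab
    simp only [hu']
    by_cases hb : b < h
    · have ha : a < h := lt_of_le_of_lt hab hb
      rw [dif_pos hb, dif_pos ha]
      exact hu (by exact_mod_cast hab)
    · rw [dif_neg hb]
      split_ifs
      · exact hu0 _
      · exact le_rfl
  have hu'0 : ∀ e, 0 ≤ u' e := by
    intro e
    simp only [hu']
    split_ifs
    · exact hu0 _
    · exact le_rfl
  have hcs : ∀ m ≤ h, ∑ e ∈ range m, c e ≤ 16 * δ * m := by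
    intro m hm
    have e1 : ∑ e ∈ range m, c e = ((E.filter fun e : Fin h => (e : ℕ) < m).card : ℝ) := by
      have e2 : ∑ e ∈ range m, c e = ∑ e ∈ range h, (if e < m then c e else 0) := by
        rw [← Finset.sum_filter]
        refine Finset.sum_congr ?_ fun _ _ => rfl
        ext e
        simp only [mem_range, mem_filter]
        omega
      rw [e2, ← Fin.sum_univ_eq_sum_range (fun e => if e < m then c e else 0) h]
      rw [Finset.card_filter, Nat.cast_sum, ← Finset.sum_filter_add_sum_filter_not univ (· ∈ E)]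
      rw [Finset.filter_univ_mem]
      have h0 : ∑ x ∈ univ.filter (fun x : Fin h => x ∉ E), (if (x : ℕ) < m then c x else 0) = 0 := by
        refine Finset.sum_eq_zero fun x hx => ?_
        have hxE := (Finset.mem_filter.mp hx).2
        have : c x = 0 := by
          simp only [hcdef, dif_pos x.2]
          rw [if_neg hxE]
        rw [this]
        simp
      rw [h0, add_zero]
      refine Finset.sum_congr rfl fun x hx => ?_
      have : c x = 1 := by
        simp only [hcdef, dif_pos x.2]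
        rw [if_pos hx]
      rw [this]
      split_ifs <;> simp
    rw [e1]
    rcases Nat.eq_zero_or_pos m with rfl | hm0
    · simp
    · have h1 : ((E.filter fun e : Fin h => (e : ℕ) < m).card : ℝ) ≤
          ((E.filter fun e : Fin h => Nat.clog 16 ((e : ℕ) + 1) ≤ Nat.clog 16 m).card : ℝ) := by
        norm_cast
        refine Finset.card_le_card fun e he => ?_
        rw [Finset.mem_filter] at he ⊢
        exact ⟨he.1, Nat.clog_mono_right 16 he.2⟩
      refine h1.trans ((hE _).trans ?_)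
      have h2 : ((16 : ℝ)) ^ Nat.clog 16 m ≤ 16 * m := by exact_mod_cast pow_clog16 hm0
      calc (16 : ℝ) ^ Nat.clog 16 m * δ ≤ 16 * m * δ := mul_le_mul_of_nonneg_right h2 hδ
        _ = 16 * δ * m := by ring
  have key := abel h u' c hu'a hu'0 (16 * δ) hcs
  have e3 : ∑ e ∈ range h, u' e = ∑ e, u e := by
    rw [← Fin.sum_univ_eq_sum_range]
    refine Finset.sum_congr rfl fun x _ => ?_
    simp only [hu', dif_pos x.2]
  have e4 : ∑ e ∈ range h, c e * u' e = ∑ e ∈ E, u e := by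
    rw [← Fin.sum_univ_eq_sum_range (fun e => c e * u' e) h,
      ← Finset.sum_filter_add_sum_filter_not univ (· ∈ E), Finset.filter_univ_mem]
    have h0 : ∑ x ∈ univ.filter (fun x : Fin h => x ∉ E), c x * u' x = 0 := by
      refine Finset.sum_eq_zero fun x hx => ?_
      have hxE := (Finset.mem_filter.mp hx).2
      have : c x = 0 := by
        simp only [hcdef, dif_pos x.2]
        rw [if_neg hxE]
      rw [this, zero_mul]
    rw [h0, add_zero]
    refine Finset.sum_congr rfl fun x hx => ?_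
    have : c x = 1 := by
      simp only [hcdef, dif_pos x.2]
      rw [if_pos hx]
    rw [this, one_mul]
    simp only [hu', dif_pos x.2]
  rw [e3, e4] at key
  exact key

private theorem sum_min16 (B : ℕ) :
    ∑ s ∈ range (B + 3), min 1 (16 * ((4 : ℝ) ^ s)⁻¹) ≤
      3 + 1 / 3 * (1 - ((4 : ℝ) ^ B)⁻¹) := by
  induction B with
  | zero =>
    rw [sum_range_succ, sum_range_succ, sum_range_succ, sum_range_zero]
    have h1 : min 1 (16 * ((4 : ℝ) ^ 0)⁻¹) ≤ 1 := min_le_left _ _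
    have h2 : min 1 (16 * ((4 : ℝ) ^ 1)⁻¹) ≤ 1 := min_le_left _ _
    have h3 : min 1 (16 * ((4 : ℝ) ^ 2)⁻¹) ≤ 1 := min_le_left _ _
    norm_num at h1 h2 h3 ⊢
  | succ B ih =>
    rw [show B + 1 + 3 = (B + 3) + 1 by ring, sum_range_succ]
    have h1 : min 1 (16 * ((4 : ℝ) ^ (B + 3))⁻¹) ≤ 16 * ((4 : ℝ) ^ (B + 3))⁻¹ := min_le_right _ _
    have h2 : 16 * ((4 : ℝ) ^ (B + 3))⁻¹ = 1 / 4 * ((4 : ℝ) ^ B)⁻¹ := by
      rw [pow_add, mul_inv]
      norm_num
      ring
    have h3 : ((4 : ℝ) ^ (B + 1))⁻¹ = 1 / 4 * ((4 : ℝ) ^ B)⁻¹ := by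
      rw [pow_succ, mul_inv]
      norm_num
      ring
    rw [h3]
    have h4 := h1.trans (le_of_eq h2)
    linarith

/-- `∑ u e * f e = ∑_s ∑_{e : s < f e} u e ≤ ∑_s min(1, 16 / 4^s) ∑ u ≤ 4 ∑ u`. -/
theorem sum_excess (h : ℕ) (u : Fin h → ℝ) (hu : Antitone u) (hu0 : ∀ e, 0 ≤ u e) (f : Fin h → ℕ)
    (hf : ∀ i s : ℕ, ((univ.filter fun e : Fin h => Nat.clog 16 ((e : ℕ) + 1) ≤ i ∧ s < f e).card : ℝ)
      ≤ 16 ^ i * ((4 : ℝ) ^ s)⁻¹) :
    ∑ e, u e * (f e : ℝ) ≤ 4 * ∑ e, u e := by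
  classical
  set B : ℕ := univ.sup f with hB
  have hfB : ∀ e, f e ≤ B := fun e => Finset.le_sup (mem_univ e)
  have hS : 0 ≤ ∑ e, u e := Finset.sum_nonneg fun e _ => hu0 e
  have e1 : ∑ e, u e * (f e : ℝ) =
      ∑ s ∈ range (B + 3), ∑ e ∈ univ.filter (fun e : Fin h => s < f e), u e := by
    have e2 : ∀ s, ∑ e ∈ univ.filter (fun e : Fin h => s < f e), u e =
        ∑ e, if s < f e then u e else 0 := fun s => by rw [Finset.sum_filter]
    simp only [e2]
    rw [Finset.sum_comm]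
    refine Finset.sum_congr rfl fun e _ => ?_
    rw [← Finset.sum_filter, Finset.sum_const, nsmul_eq_mul, mul_comm]
    congr 2
    have : (range (B + 3)).filter (fun s => s < f e) = range (f e) := by
      ext s
      simp only [mem_filter, mem_range]
      have := hfB e
      omega
    rw [this, card_range]
  rw [e1]
  have h2 : ∀ s ∈ range (B + 3), ∑ e ∈ univ.filter (fun e : Fin h => s < f e), u e ≤
      min 1 (16 * ((4 : ℝ) ^ s)⁻¹) * ∑ e, u e := by
    intro s _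
    rw [min_mul_of_nonneg _ _ hS]
    refine le_min ?_ ?_
    · rw [one_mul]
      exact Finset.sum_le_sum_of_subset_of_nonneg (Finset.filter_subset _ _) fun e _ _ => hu0 e
    · refine abel_level h u hu hu0 _ _ (by positivity) fun i => ?_
      have h3 := hf i s
      have e3 : (univ.filter (fun e : Fin h => s < f e)).filter
          (fun e : Fin h => Nat.clog 16 ((e : ℕ) + 1) ≤ i) =
          univ.filter (fun e : Fin h => Nat.clog 16 ((e : ℕ) + 1) ≤ i ∧ s < f e) := by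
        ext e
        simp only [mem_filter, mem_univ, true_and]
        tauto
      rw [e3]
      exact h3
  refine (Finset.sum_le_sum h2).trans ?_
  rw [← Finset.sum_mul]
  refine mul_le_mul_of_nonneg_right ((sum_min16 B).trans ?_) hS
  have : 0 < ((4 : ℝ) ^ B)⁻¹ := by positivity
  linarith

/-- enumerate a finset by decreasing `u` -/
theorem exists_enum {X : Type} [DecidableEq X] (H0 : Finset X) (u : X → ℝ) :
    ∃ φ : Fin H0.card → X, Function.Injective φ ∧ (univ.image φ = H0) ∧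
      Antitone (fun e => u (φ e)) := by
  let e : Fin H0.card ≃ H0 := H0.equivFin.symm
  let f : Fin H0.card → ℝᵒᵈ := fun i => OrderDual.toDual (u (e i : X))
  refine ⟨fun i => (e (Tuple.sort f i) : X), ?_, ?_, ?_⟩
  · intro i j h
    exact (Tuple.sort f).injective (e.injective (Subtype.ext h))
  · ext x
    simp only [mem_image, mem_univ, true_and]
    constructor
    · rintro ⟨i, rfl⟩
      exact (e _).2
    · intro hx
      refine ⟨(Tuple.sort f).symm (e.symm ⟨x, hx⟩), ?_⟩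
      simp
  · intro i j hij
    have h := Tuple.monotone_sort f hij
    exact h

/-- levels of a set with respect to a decreasing weight -/
theorem exists_lev {X : Type} [DecidableEq X] (H : Finset X) (u : X → ℝ) (hu0 : ∀ x, 0 ≤ u x) :
    ∃ lev : X → ℕ, (∀ i, (H.filter (fun x => lev x ≤ i)).card ≤ 16 ^ i) ∧
      (∀ x, lev x ≤ Nat.clog 16 H.card) ∧
      ∀ t : X → ℕ, (∀ i s : ℕ, 4 ^ s * (H.filter (fun x => lev x ≤ i ∧ s < t x)).card ≤ 16 ^ i) →
        ∑ x ∈ H, u x * (t x : ℝ) ≤ 4 * ∑ x ∈ H, u x := by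
  classical
  obtain ⟨φ, hinj, himg, hanti⟩ := exists_enum H u
  let lev : X → ℕ := fun x => if h : ∃ e, φ e = x then Nat.clog 16 ((h.choose : ℕ) + 1) else 0
  have hlev : ∀ e, lev (φ e) = Nat.clog 16 ((e : ℕ) + 1) := by
    intro e
    have h : ∃ e', φ e' = φ e := ⟨e, rfl⟩
    have he : h.choose = e := hinj h.choose_spec
    show (if h : ∃ e', φ e' = φ e then Nat.clog 16 ((h.choose : ℕ) + 1) else 0) = _
    rw [dif_pos h, he]
  have hfil : ∀ (P : X → Prop) [DecidablePred P], (H.filter P).card =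
      (univ.filter (fun e => P (φ e))).card := by
    intro P _
    rw [← card_image_of_injective (univ.filter (fun e => P (φ e))) hinj]
    congr 1
    ext x
    simp only [mem_filter, mem_image, mem_univ, true_and]
    constructor
    · rintro ⟨h1, h2⟩
      rw [← himg, mem_image] at h1
      obtain ⟨e, -, rfl⟩ := h1
      exact ⟨e, h2, rfl⟩
    · rintro ⟨e, h1, rfl⟩
      refine ⟨?_, h1⟩
      rw [← himg]
      exact mem_image_of_mem _ (mem_univ _)
  refine ⟨lev, ?_, ?_, ?_⟩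
  · intro i
    rw [hfil]
    simp only [hlev]
    have h1 : (univ.filter (fun e : Fin H.card => Nat.clog 16 ((e : ℕ) + 1) ≤ i)).card ≤
        (range (16 ^ i)).card := by
      refine card_le_card_of_injOn (fun e => (e : ℕ)) ?_ ?_
      · intro e he
        have he' := (mem_filter.1 (mem_coe.1 he)).2
        have h2 : (e : ℕ) + 1 ≤ 16 ^ i := (Nat.clog_le_iff_le_pow (by norm_num)).1 he'
        exact mem_coe.2 (mem_range.2 (by show (e : ℕ) < 16 ^ i; omega))
      · intro e _ e' _ h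
        exact Fin.ext h
    rwa [card_range] at h1
  · intro x
    show (if h : ∃ e, φ e = x then Nat.clog 16 ((h.choose : ℕ) + 1) else 0) ≤ _
    split_ifs with h
    · exact Nat.clog_mono_right 16 h.choose.2
    · exact Nat.zero_le _
  · intro t ht
    have hs : ∀ f : X → ℝ, ∑ x ∈ H, f x = ∑ e, f (φ e) := by
      intro f
      conv_lhs => rw [← himg]
      rw [sum_image (fun a _ b _ h => hinj h)]
    rw [hs, hs]
    refine sum_excess H.card (fun e => u (φ e)) hanti (fun e => hu0 _) (fun e => t (φ e)) ?_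
    intro i s
    have h1 := ht i s
    rw [hfil] at h1
    simp only [hlev] at h1
    have h2 : (4 : ℝ) ^ s * ((univ.filter fun e : Fin H.card =>
        Nat.clog 16 ((e : ℕ) + 1) ≤ i ∧ s < t (φ e)).card : ℝ) ≤ 16 ^ i := by
      exact_mod_cast h1
    have h4 : (0 : ℝ) < 4 ^ s := by positivity
    rw [← div_eq_mul_inv, le_div_iff₀ h4]
    linarith [mul_comm ((4 : ℝ) ^ s) ((univ.filter fun e : Fin H.card =>
        Nat.clog 16 ((e : ℕ) + 1) ≤ i ∧ s < t (φ e)).card : ℝ)]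

/-- tangent line instead of Jensen -/
theorem tangent {X : Type} [DecidableEq X] (H : Finset X) (g : Finset X → ℝ) (hg0 : ∀ S, 0 ≤ g S)
    (t : X → ℕ) (c : ℕ) (b : ℝ) (hb : 1 ≤ b)
    (h : ∑ x ∈ H, (∑ S ∈ H.powerset.filter (fun S => x ∈ S), g S) * (t x : ℝ) ≤
      c * ∑ x ∈ H, (∑ S ∈ H.powerset.filter (fun S => x ∈ S), g S)) :
    ∑ S ∈ H.powerset.erase ∅, g S ≤
      ∑ S ∈ H.powerset.erase ∅, g S * ∏ x ∈ S, (b ^ c * (b ^ (t x))⁻¹) := by
  classical
  have hb0 : 0 < b := lt_of_lt_of_le one_pos hb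
  set L := Real.log b with hLdef
  have hL : 0 ≤ L := Real.log_nonneg hb
  have hterm : ∀ S : Finset X, 1 + L * ∑ x ∈ S, ((c : ℝ) - (t x : ℝ)) ≤
      ∏ x ∈ S, (b ^ c * (b ^ (t x))⁻¹) := by
    intro S
    have e1 : ∏ x ∈ S, (b ^ c * (b ^ (t x))⁻¹) = Real.exp (L * ∑ x ∈ S, ((c : ℝ) - (t x : ℝ))) := by
      rw [mul_sum, Real.exp_sum]
      refine prod_congr rfl fun x _ => ?_
      rw [mul_sub, Real.exp_sub, div_eq_mul_inv, mul_comm L, mul_comm L, Real.exp_nat_mul,
        Real.exp_nat_mul, hLdef, Real.exp_log hb0]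
    rw [e1]
    have := Real.add_one_le_exp (L * ∑ x ∈ S, ((c : ℝ) - (t x : ℝ)))
    linarith
  have hlin : ∑ S ∈ H.powerset.erase ∅, g S * ∑ x ∈ S, ((c : ℝ) - (t x : ℝ)) =
      ∑ x ∈ H, (∑ S ∈ H.powerset.filter (fun S => x ∈ S), g S) * ((c : ℝ) - (t x : ℝ)) := by
    have e1 : ∑ S ∈ H.powerset.erase ∅, g S * ∑ x ∈ S, ((c : ℝ) - (t x : ℝ)) =
        ∑ S ∈ H.powerset, g S * ∑ x ∈ S, ((c : ℝ) - (t x : ℝ)) := by
      refine sum_subset (erase_subset _ _) ?_
      intro S hS hS'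
      have : S = ∅ := by
        by_contra hne
        exact hS' (mem_erase.2 ⟨hne, hS⟩)
      rw [this]; simp
    rw [e1]
    have e2 : ∀ S ∈ H.powerset, g S * ∑ x ∈ S, ((c : ℝ) - (t x : ℝ)) =
        ∑ x ∈ H, if x ∈ S then g S * ((c : ℝ) - (t x : ℝ)) else 0 := by
      intro S hS
      rw [← sum_filter, mul_sum]
      refine sum_congr ?_ fun _ _ => rfl
      ext x
      rw [mem_filter]
      exact ⟨fun hx => ⟨mem_powerset.1 hS hx, hx⟩, fun hx => hx.2⟩
    rw [sum_congr rfl e2, sum_comm]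
    refine sum_congr rfl fun x _ => ?_
    rw [← sum_filter, sum_mul]
  have hnn : 0 ≤ ∑ S ∈ H.powerset.erase ∅, g S * ∑ x ∈ S, ((c : ℝ) - (t x : ℝ)) := by
    rw [hlin]
    have e3 : ∑ x ∈ H, (∑ S ∈ H.powerset.filter (fun S => x ∈ S), g S) * ((c : ℝ) - (t x : ℝ)) =
        c * ∑ x ∈ H, (∑ S ∈ H.powerset.filter (fun S => x ∈ S), g S) -
        ∑ x ∈ H, (∑ S ∈ H.powerset.filter (fun S => x ∈ S), g S) * (t x : ℝ) := by
      rw [mul_sum, ← sum_sub_distrib]
      refine sum_congr rfl fun x _ => ?_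
      ring
    rw [e3]
    linarith
  calc ∑ S ∈ H.powerset.erase ∅, g S
      ≤ ∑ S ∈ H.powerset.erase ∅, g S +
        L * ∑ S ∈ H.powerset.erase ∅, g S * ∑ x ∈ S, ((c : ℝ) - (t x : ℝ)) := by
        have := mul_nonneg hL hnn
        linarith
    _ = ∑ S ∈ H.powerset.erase ∅, g S * (1 + L * ∑ x ∈ S, ((c : ℝ) - (t x : ℝ))) := by
        rw [mul_sum, ← sum_add_distrib]
        refine sum_congr rfl fun S _ => ?_
        ring
    _ ≤ _ := sum_le_sum fun S _ => mul_le_mul_of_nonneg_left (hterm S) (hg0 S)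

end Crest.TG11
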