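import Mathlib
import Crest.Agent.TG_GreedyG
import Crest.Agent.TG_Greedy

/-! The greedy lemma for graphs (no hypothesis left). -/

set_option autoImplicit false

namespace Crest.TG

open Finset Crest.CombinatoricsR.RandomGraph

theorem greedyHyp (q : ℝ) (hq0 : 0 ≤ q) (hq1 : q ≤ 1) (n : ℕ) : GreedyHyp q n := by
  intro m D Δ T B hB hD hΔ hn
  exact greedy n m D Δ T q hq0 hq1 B hB hD hΔ hn

theorem greedy_graph {W : Type} [Fintype W] [DecidableEq W] (F : SimpleGraph W)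
    (U : Finset W) (hU : ∀ a b, F.Adj a b → a ∈ U) (σ : W → ℕ) (hσ : Function.Injective σ)
    (n D Δ T : ℕ)
    (hD : ∀ v (S : Finset W), (∀ u ∈ S, F.Adj v u ∧ σ u < σ v) → S.card ≤ D)
    (hΔ : ∀ v (S : Finset W), (∀ u ∈ S, F.Adj v u) → S.card ≤ Δ)
    (q : ℝ) (hq0 : 0 ≤ q) (hq1 : q ≤ 1) (hW : Fintype.card W ≤ n)
    (hn : U.card + D * Δ * T + T ≤ n) :
    1 - (U.card : ℝ) * (1 - q ^ D) ^ T ≤ gnpProb n q {G | F.IsContained G} :=
  greedy_graph_aux F U hU σ hσ n D Δ T hD hΔ q hq0 hq1 hW hn (greedyHyp q hq0 hq1 n)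

/-- with `x ≤ q ^ D` and `n * exp (-x T) ≤ ε` the probability is at least `1 - ε` -/
theorem greedy_graph_num {W : Type} [Fintype W] [DecidableEq W] (F : SimpleGraph W)
    (U : Finset W) (hU : ∀ a b, F.Adj a b → a ∈ U) (σ : W → ℕ) (hσ : Function.Injective σ)
    (n D Δ T : ℕ)
    (hD : ∀ v (S : Finset W), (∀ u ∈ S, F.Adj v u ∧ σ u < σ v) → S.card ≤ D)
    (hΔ : ∀ v (S : Finset W), (∀ u ∈ S, F.Adj v u) → S.card ≤ Δ)
    (q : ℝ) (hq0 : 0 ≤ q) (hq1 : q ≤ 1) (hW : Fintype.card W ≤ n)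
    (hn : U.card + D * Δ * T + T ≤ n)
    (x ε : ℝ) (hx : x ≤ q ^ D) (hε : (n : ℝ) * Real.exp (-(x * T)) ≤ ε) :
    1 - ε ≤ gnpProb n q {G | F.IsContained G} :=
  greedy_num F U hU σ hσ n D Δ T hD hΔ q hq0 hq1 hW hn (greedyHyp q hq0 hq1 n) x ε hx hε

end Crest.TG
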