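import Crest.Agent.TG8_Gamma
import Crest.Agent.TG_Label
import Crest.Agent.TG_GreedyH
import Crest.Agent.TG1_Deg
import Crest.Agent.TG13_Spread
import Crest.Agent.TG73_Split

/-! S0073: the dense range from GAMMA (independent assembly). -/

set_option autoImplicit false

namespace Crest.TG13
open Finset Crest.CombinatoricsR.RandomGraph

theorem dense_num : ∃ n0 : ℕ, 100 ≤ n0 ∧ ∀ n : ℕ, n0 ≤ n → ∀ (q : ℝ) (D0 cJ cW : ℕ),
    0 < q → q ≤ 1 / 2 → 1 ≤ (n : ℝ) ^ 3 * q ^ D0 →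
    cJ * ⌊(n : ℝ) ^ (19 / 20 : ℝ)⌋₊ ≤ 2 * D0 * cW → cW ≤ n →
    (cJ : ℝ) ≤ (n : ℝ) ^ (1 / 10 : ℝ) ∧
    cJ + D0 ≤ ⌊(n : ℝ) ^ (19 / 20 : ℝ)⌋₊ ∧
    2 * (cW / 256 + 1) + (D0 / 1000 + 1) * ⌊(n : ℝ) ^ (19 / 20 : ℝ)⌋₊ * ⌈(n : ℝ) ^ (1 / 50 : ℝ)⌉₊ +
      ⌈(n : ℝ) ^ (1 / 50 : ℝ)⌉₊ ≤ n ∧
    64 * (cW / 256 + 1) ≤ n ∧
    (n : ℝ) * Real.exp (-((n : ℝ) ^ (-(1 / 250 : ℝ)) * (⌈(n : ℝ) ^ (1 / 50 : ℝ)⌉₊ : ℕ))) ≤ 1 / 2 := by
  obtain ⟨n1, h1⟩ := Crest.TG63.ev_log 20 1 (1 / 20) (1 / 10) (by norm_num)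
  obtain ⟨n2, h2⟩ := Crest.TG63.ev_log' 5 1 (1 / 10) (by norm_num)
  obtain ⟨n3, h3⟩ := Crest.TG63.ev_log 2 0 (1 / 10) (19 / 20) (by norm_num)
  obtain ⟨n4, h4⟩ := Crest.TG63.ev_log 48 1 (97 / 100) 1 (by norm_num)
  obtain ⟨n5, h5⟩ := Crest.TG63.ev_log 8 0 (1 / 50) 1 (by norm_num)
  obtain ⟨n6, h6⟩ := Crest.TG63.ev_exp 2 1 1 (2 / 125) (by norm_num) (by norm_num)
  obtain ⟨n7, h7⟩ := Crest.TG63.ev_log 2 0 0 (19 / 20) (by norm_num)
  refine ⟨max 100 (max n1 (max n2 (max n3 (max n4 (max n5 (max n6 n7)))))), le_max_left _ _,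
    fun n hn q D0 cJ cW hq hq2 hD0 hJ hW => ?_⟩
  simp only [max_le_iff] at hn
  obtain ⟨hn100, hn1, hn2, hn3, hn4, hn5, hn6, hn7⟩ := hn
  replace h1 := h1 n hn1
  replace h2 := h2 n hn2
  replace h3 := h3 n hn3
  replace h4 := h4 n hn4
  replace h5 := h5 n hn5
  replace h6 := h6 n hn6
  replace h7 := h7 n hn7
  have hnR : (100 : ℝ) ≤ n := by exact_mod_cast hn100
  have hn0 : (0 : ℝ) < n := by linarith
  have hlog1 : 1 ≤ Real.log n := by
    rw [Real.le_log_iff_exp_le hn0]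
    have := Real.exp_one_lt_d9
    linarith
  simp only [pow_one, pow_zero, mul_one, Real.rpow_one, Real.rpow_zero, one_mul] at h1 h2 h3 h4 h5 h6 h7
  -- D0 ≤ 5 log n
  have hD0' : (D0 : ℝ) ≤ 5 * Real.log n := by
    have a1 : 1 ≤ (n : ℝ) ^ 3 * (1 / 2) ^ D0 :=
      hD0.trans (mul_le_mul_of_nonneg_left (pow_le_pow_left₀ hq.le hq2 D0) (by positivity))
    have a2 := Real.log_le_log (by norm_num) a1
    rw [Real.log_mul (by positivity) (by positivity), Real.log_pow, Real.log_pow, Real.log_one,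
      one_div, Real.log_inv] at a2
    have a3 : (0.6931471803 : ℝ) < Real.log 2 := Real.log_two_gt_d9
    have a4 : (0 : ℝ) ≤ D0 := Nat.cast_nonneg _
    have a5 : (D0 : ℝ) * 0.6931471803 ≤ (D0 : ℝ) * Real.log 2 := mul_le_mul_of_nonneg_left a3.le a4
    push_cast at a2
    nlinarith
  set X := (n : ℝ) ^ (19 / 20 : ℝ) with hX
  have hXpos : 0 < X := Real.rpow_pos_of_pos hn0 _
  have hfl : X / 2 ≤ (⌊X⌋₊ : ℝ) := by
    have := Nat.lt_floor_add_one X
    linarith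
  have hfl2 : (⌊X⌋₊ : ℝ) ≤ X := Nat.floor_le hXpos.le
  set Z := (n : ℝ) ^ (1 / 50 : ℝ) with hZ
  have hZpos : 0 < Z := Real.rpow_pos_of_pos hn0 _
  have hZ1 : 1 ≤ Z := Real.one_le_rpow (by linarith) (by norm_num)
  have hcl : (⌈Z⌉₊ : ℝ) ≤ 2 * Z := by
    have := Nat.ceil_lt_add_one hZpos.le
    linarith
  have hcl2 : Z ≤ (⌈Z⌉₊ : ℝ) := Nat.le_ceil Z
  have hcW : (cW : ℝ) ≤ n := by exact_mod_cast hW
  -- |J|
  have hJ1 : (cJ : ℝ) ≤ (n : ℝ) ^ (1 / 10 : ℝ) := by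
    have b1 : (cJ : ℝ) * (⌊X⌋₊ : ℝ) ≤ 2 * D0 * cW := by exact_mod_cast hJ
    have b2 : (cJ : ℝ) * (X / 2) ≤ 2 * (5 * Real.log n) * n := by
      calc (cJ : ℝ) * (X / 2) ≤ (cJ : ℝ) * (⌊X⌋₊ : ℝ) :=
            mul_le_mul_of_nonneg_left hfl (Nat.cast_nonneg _)
        _ ≤ 2 * D0 * cW := b1
        _ ≤ 2 * (5 * Real.log n) * n := by
            apply mul_le_mul _ hcW (Nat.cast_nonneg _) (by positivity)
            linarith
    have b3 : (n : ℝ) = X * (n : ℝ) ^ (1 / 20 : ℝ) := by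
      rw [hX, ← Real.rpow_add hn0]
      norm_num
    have b4 : (cJ : ℝ) * X ≤ (20 * Real.log n * (n : ℝ) ^ (1 / 20 : ℝ)) * X := by
      have : 2 * (5 * Real.log n) * (n : ℝ) =
          (10 * Real.log n * (n : ℝ) ^ (1 / 20 : ℝ)) * X := by
        nth_rewrite 2 [b3]
        ring
      rw [this] at b2
      linarith
    have b5 := le_of_mul_le_mul_right b4 hXpos
    exact b5.trans h1
  refine ⟨hJ1, ?_, ?_, ?_, ?_⟩
  · apply Nat.le_floor
    push_cast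
    have : (D0 : ℝ) ≤ (n : ℝ) ^ (1 / 10 : ℝ) := hD0'.trans h2
    linarith
  · have c1 : ((D0 / 1000 + 1 : ℕ) : ℝ) ≤ 6 * Real.log n := by
      have : (D0 / 1000 + 1 : ℕ) ≤ D0 + 1 := Nat.add_le_add_right (Nat.div_le_self _ _) 1
      have h : ((D0 / 1000 + 1 : ℕ) : ℝ) ≤ (D0 : ℝ) + 1 := by exact_mod_cast this
      linarith
    have c2 : ((D0 / 1000 + 1 : ℕ) : ℝ) * (⌊X⌋₊ : ℝ) * (⌈Z⌉₊ : ℝ) ≤ n / 4 := by
      have d1 : ((D0 / 1000 + 1 : ℕ) : ℝ) * (⌊X⌋₊ : ℝ) * (⌈Z⌉₊ : ℝ) ≤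
          (6 * Real.log n) * X * (2 * Z) := by
        apply mul_le_mul _ hcl (Nat.cast_nonneg _) (by positivity)
        apply mul_le_mul c1 hfl2 (Nat.cast_nonneg _) (by positivity)
      have d2 : X * Z = (n : ℝ) ^ (97 / 100 : ℝ) := by
        rw [hX, hZ, ← Real.rpow_add hn0]
        norm_num
      have d3 : (6 * Real.log n) * X * (2 * Z) = 12 * Real.log n * (n : ℝ) ^ (97 / 100 : ℝ) := by
        rw [← d2]
        ring
      rw [d3] at d1
      linarith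
    have c3 : (⌈Z⌉₊ : ℝ) ≤ n / 4 := by linarith
    have c4 : ((2 * (cW / 256 + 1) : ℕ) : ℝ) ≤ n / 4 := by
      have e1 : 2 * (cW / 256 + 1) * 4 ≤ n := by omega
      have e2 : ((2 * (cW / 256 + 1) : ℕ) : ℝ) * 4 ≤ n := by exact_mod_cast e1
      linarith
    have c5 : ((2 * (cW / 256 + 1) + (D0 / 1000 + 1) * ⌊X⌋₊ * ⌈Z⌉₊ + ⌈Z⌉₊ : ℕ) : ℝ) ≤ n := by
      push_cast at c1 c2 c4 ⊢
      linarith
    exact_mod_cast c5
  · omega
  · have f1 : (n : ℝ) ^ (2 / 125 : ℝ) ≤ (n : ℝ) ^ (-(1 / 250 : ℝ)) * (⌈Z⌉₊ : ℝ) := by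
      have g1 : (n : ℝ) ^ (2 / 125 : ℝ) = (n : ℝ) ^ (-(1 / 250 : ℝ)) * Z := by
        rw [hZ, ← Real.rpow_add hn0]
        norm_num
      rw [g1]
      exact mul_le_mul_of_nonneg_left hcl2 (Real.rpow_nonneg hn0.le _)
    have f2 : Real.exp (-((n : ℝ) ^ (-(1 / 250 : ℝ)) * (⌈Z⌉₊ : ℝ))) ≤
        Real.exp (-((n : ℝ) ^ (2 / 125 : ℝ))) := Real.exp_le_exp.2 (by linarith)
    have f3 : (n : ℝ) * Real.exp (-((n : ℝ) ^ (-(1 / 250 : ℝ)) * (⌈Z⌉₊ : ℝ))) ≤
        (n : ℝ) * Real.exp (-((n : ℝ) ^ (2 / 125 : ℝ))) := mul_le_mul_of_nonneg_left f2 hn0.le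
    linarith

theorem q_lower (n : ℕ) (hn : 1 ≤ n) (q : ℝ) (hq : 0 < q) (h : 1 < q ^ 1000 * n) :
    (n : ℝ) ^ (-(1 / (1000 : ℝ))) ≤ q := by
  have hn0 : (0 : ℝ) < n := by exact_mod_cast hn
  by_contra hcon
  push Not at hcon
  have h1 : q ^ 1000 ≤ ((n : ℝ) ^ (-(1 / (1000 : ℝ)))) ^ 1000 :=
    pow_le_pow_left₀ hq.le hcon.le _
  have h2 : ((n : ℝ) ^ (-(1 / (1000 : ℝ)))) ^ 1000 = (n : ℝ)⁻¹ := by
    rw [← Real.rpow_natCast ((n : ℝ) ^ (-(1 / (1000 : ℝ)))) 1000, ← Real.rpow_mul hn0.le,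
      ← Real.rpow_neg_one]
    norm_num
  rw [h2] at h1
  have h3 : q ^ 1000 * n ≤ (n : ℝ)⁻¹ * n := mul_le_mul_of_nonneg_right h1 hn0.le
  rw [inv_mul_cancel₀ hn0.ne'] at h3
  linarith

theorem cfl {α : Type*} {s : Finset α} {p q : α → Prop} {_ : DecidablePred p}
    {_ : DecidablePred q} (h : ∀ x, p x → q x) : (s.filter p).card ≤ (s.filter q).card := by
  apply card_le_card
  intro x hx
  rw [mem_filter] at hx ⊢
  exact ⟨hx.1, h x hx.2⟩

/-- the dense range of S0073 from the hub statement -/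
theorem dense (hA : Crest.TG8.GAMMA) : Crest.TG8.DENSE := by
  classical
  obtain ⟨m, hm, L0, hL0, nA, hA⟩ := hA
  obtain ⟨nN, hN100, hnum⟩ := dense_num
  obtain ⟨nS, hS⟩ := hub_spread
  refine ⟨Fintype.card (Bool × Fin 1000 × Fin 256 × Fin 256) * m, ?_, L0, hL0,
    max nA (max nN nS), ?_⟩
  · exact Nat.mul_pos Fintype.card_pos hm
  intro n hn2 hn W _ _ H _ hW hH q hq hLq hqn hFM
  have hnA : nA ≤ n := (le_max_left _ _).trans hn.le
  have hnN : nN ≤ n := (le_max_left _ _).trans ((le_max_right _ _).trans hn.le)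
  have hnS : nS ≤ n := (le_max_right _ _).trans ((le_max_right _ _).trans hn.le)
  have hn100 : 100 ≤ n := hN100.trans hnN
  have hn1 : 1 ≤ n := by omega
  have hnR : (1 : ℝ) ≤ n := by exact_mod_cast hn1
  have hn0 : (0 : ℝ) < n := by linarith
  have hq2 : q ≤ 1 / 2 := by nlinarith
  have hq1 : q < 1 := by linarith
  obtain ⟨ι⟩ : Nonempty (W ↪ Fin n) :=
    Function.Embedding.nonempty_of_card_le (by rwa [Fintype.card_fin])
  have hFM' : Crest.TG69.FM H n q := fun κ J hJ => hFM κ J hJ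
  obtain ⟨D0, hD0a, hD0b⟩ := Crest.TG1.exists_D0 n hn1 q hq hq1
  have hden : ∀ U : Finset W, (1 : ℝ) / 2 ≤
      (n : ℝ) ^ U.card * q ^ (H.edgeFinset.filter (fun e => ∀ x ∈ e, x ∈ U)).card := by
    intro U
    have := Crest.TG69.density H q hq.le ι hFM' U
    unfold Crest.TG69.edgesIn at this
    convert this using 3
  have hlow := Crest.TG1.low_degree H n (by omega) q hq hq1 D0 hD0b hden
  obtain ⟨σ0, hσ0⟩ := Crest.TG.Degen.exists_order H D0 (by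
    intro U hU
    obtain ⟨v, hv, hv2⟩ := hlow U hU
    refine ⟨v, hv, ?_⟩
    convert hv2 using 2)
  let σ : W → ℕ := fun v => (σ0 v : ℕ)
  have hσ : Function.Injective σ := fun a b h => σ0.injective (Fin.ext h)
  have hd : ∀ v, (univ.filter (fun u => H.Adj v u ∧ σ u < σ v)).card ≤ D0 := by
    intro v
    exact hσ0 v
  set Δ : ℕ := ⌊(n : ℝ) ^ (19 / 20 : ℝ)⌋₊ with hΔ
  set T : ℕ := ⌈(n : ℝ) ^ (1 / 50 : ℝ)⌉₊ with hT
  set J : Finset W := univ.filter (fun v => Δ < (univ.filter (fun u => H.Adj v u)).card) with hJ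
  have hJc := Crest.TG73.hub_card H σ hσ D0 Δ hd
  obtain ⟨e1, e2, e3, e4, e5⟩ := hnum n hnN q D0 J.card (Fintype.card W) hq hq2 hD0a hJc hW
  obtain ⟨lab, hlab⟩ := Crest.TG73.dense_split H σ hσ D0 Δ 1000 256 (by norm_num) (by norm_num)
    hd J hJ
  set D : ℕ := D0 / 1000 + 1 with hDdef
  have hqD : (n : ℝ) ^ (-(1 / 250 : ℝ)) ≤ q ^ D := by
    have := Crest.TG1.pow_back n hn1 q hq hq1 1000 (q_lower n hn1 q hq hqn) D0 1000 D
      (by norm_num) hD0a le_rfl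
    convert this using 2
    norm_num
  have hLq0 : 0 ≤ L0 * q := by positivity
  have hqLq : q ≤ L0 * q := by nlinarith
  have hxP : (n : ℝ) ^ (-(1 / 250 : ℝ)) ≤ (L0 * q) ^ D :=
    hqD.trans (pow_le_pow_left₀ hq.le hqLq D)
  have hqD' : (n : ℝ) ^ (-(1 / 100) : ℝ) ≤ q ^ D :=
    le_trans (Real.rpow_le_rpow_of_exponent_le hnR (by norm_num)) hqD
  have hqD'' : (n : ℝ) ^ (-(1 / 4 : ℝ)) ≤ q ^ D :=
    le_trans (Real.rpow_le_rpow_of_exponent_le hnR (by norm_num)) hqD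
  rw [← hΔ] at e2 e3
  rw [← hT] at e3 e5
  clear_value D T Δ
  have key : ∀ j : Bool × Fin 1000 × Fin 256 × Fin 256,
      Crest.TG.Label.LabelOK n (L0 * q) m (Crest.TG.Label.part H lab j) := by
    rintro ⟨b, i, g1, g2⟩
    obtain ⟨l1, l2, l3, l4, l5, l6⟩ := hlab i g1 g2
    cases b with
    | true =>
      -- LOW class
      apply Crest.TG.Label.LabelOK.pad hW hm
      apply Crest.TG.Label.PieceOK.label
      unfold Crest.TG.Label.PieceOK
      have := Crest.TG.greedy_graph_num (Crest.TG.Label.part H lab (true, i, g1, g2))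
        (univ.filter (fun v => ∃ u, H.Adj v u ∧ lab s(v, u) = (true, i, g1, g2)))
        (fun a b hab => mem_filter.2 ⟨mem_univ _, b, hab⟩) σ hσ n D Δ T
        (fun v S hS => (card_le_card (fun u hu =>
          mem_filter.2 ⟨mem_univ _, (hS u hu).1, (hS u hu).2⟩)).trans (l1 v))
        (fun v S hS => by
          refine ((card_le_card (fun u hu => ?_)).trans (l2 v)).trans (max_le le_rfl e2)
          exact mem_filter.2 ⟨mem_univ _, (hS u hu)⟩)
        (L0 * q) hLq0 hLq.le hW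
        (le_trans (Nat.add_le_add_right (Nat.add_le_add_right l3 _) _) e3)
        ((n : ℝ) ^ (-(1 / 250 : ℝ))) (1 / 2) hxP e5
      linarith
    | false =>
      -- HUB class
      have hc := hA n hnA W (Crest.TG.Label.part H lab (false, i, g1, g2)) J q D hq hLq hW
        (fun u v huv => by
          rcases l4 u v huv.1 huv.2 with h | h
          · exact Or.inr ⟨h.2.1, h.1⟩
          · exact Or.inl ⟨h.1, h.2.1⟩)
        e1
        (fun v hv => le_trans (cfl (fun u hu => hu)) (l5 v hv))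
        hqD'
        (le_trans (mul_le_mul_right (le_trans (cfl (fun u hu => hu)) l6) 64) e4)
        (fun S hSn => by
          have h1 := hS n hnS H ι q hq hq2 hFM' D hqD''
            (fun v => if v ∈ J then ∅ else
              univ.filter (fun u => H.Adj v u ∧ lab s(v, u) = (false, i, g1, g2)))
            (fun v u hu => by
              by_cases hv : v ∈ J
              · simp [hv] at hu
              · simp only [hv, if_false, mem_filter] at hu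
                exact hu.2.1)
            (fun v => by
              by_cases hv : v ∈ J
              · simp [hv]
              · simp only [hv, if_false]
                exact l5 v hv)
            univ S hSn
          refine le_trans ?_ h1
          exact_mod_cast card_le_card (fun v hv => by
            obtain ⟨hvJ, hv2⟩ := (mem_filter.1 hv).2
            refine mem_filter.2 ⟨mem_univ _, fun u hu => ?_⟩
            simp only [hvJ, if_false, mem_filter, mem_univ, true_and]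
            exact hv2 u hu))
      obtain ⟨c, hc⟩ := hc
      exact Crest.TG.Label.LabelOK.of_piece hm c hc
  have hcov := Crest.TG.Label.LabelOK.of_cover' (n := n) (p := L0 * q) hLq0 hLq.le (H := H)
    (fun j : Bool × Fin 1000 × Fin 256 × Fin 256 => Crest.TG.Label.part H lab j)
    (fun u v huv => ⟨lab s(u, v), huv, rfl⟩) key
  exact hcov.to_piece

end Crest.TG13
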