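import Crest.Agent.TG_OD

/-! Domination, convolution and sprinkling for product measures on `Finset α` (S0073, gamma). -/

set_option autoImplicit false

namespace Crest.TG29

open Finset Crest.TG

variable {α : Type*} [Fintype α] [DecidableEq α]

/-- Bernoulli weight of a subset. -/
noncomputable def wt (P : ℝ) (X : Finset α) : ℝ :=
  P ^ X.card * (1 - P) ^ (Fintype.card α - X.card)

open Classical in
/-- `mu P U` = probability that a `P`-random subset has the property `U`. -/
noncomputable def mu (P : ℝ) (U : Finset α → Prop) : ℝ :=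
  ∑ X : Finset α, wt P X * (if U X then 1 else 0)

theorem wt_eq_prod (P : ℝ) (X : Finset α) :
    wt P X = ∏ i, (if i ∈ X then P else 1 - P) := by
  unfold wt
  rw [Finset.prod_ite]
  simp only [prod_const]
  have h1 : (univ.filter fun i => i ∈ X) = X := by ext; simp
  have h2 : (univ.filter fun i => ¬ i ∈ X) = Xᶜ := by ext; simp
  rw [h1, h2, card_compl]

theorem wt_nonneg {P : ℝ} (h0 : 0 ≤ P) (h1 : P ≤ 1) (X : Finset α) : 0 ≤ wt P X := by
  unfold wt
  have : 0 ≤ 1 - P := by linarith
  positivity

theorem sum_finset_bool {M : Type*} [AddCommMonoid M] (f : Finset α → M) :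
    ∑ X : Finset α, f X = ∑ ω : α → Bool, f (univ.filter fun i => ω i = true) := by
  refine Finset.sum_bij' (fun X _ => fun i => decide (i ∈ X))
    (fun ω _ => univ.filter fun i => ω i = true) ?_ ?_ ?_ ?_ ?_
  · intro X _; exact mem_univ _
  · intro ω _; exact mem_univ _
  · intro X _; ext i; simp
  · intro ω _; ext i; simp
  · intro X _
    congr 1
    ext i; simp

theorem sum_push {L L' : Type*} [Fintype L] [Fintype L'] [DecidableEq L'] (w : L → ℝ) (f : L → L')
    (F : (α → L') → ℝ) :
    ∑ ω : α → L, (∏ i, w (ω i)) * F (fun i => f (ω i)) =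
      ∑ ω' : α → L', (∏ i, ∑ l with f l = ω' i, w l) * F ω' := by
  classical
  have h1 : ∀ ω' : α → L', (∏ i, ∑ l with f l = ω' i, w l) * F ω' =
      ∑ ω : α → L with (fun i => f (ω i)) = ω', (∏ i, w (ω i)) * F (fun i => f (ω i)) := by
    intro ω'
    rw [Finset.prod_univ_sum, Finset.sum_mul]
    have h2 : (Fintype.piFinset fun i => univ.filter fun l => f l = ω' i) =
        univ.filter fun ω : α → L => (fun i => f (ω i)) = ω' := by
      ext ω
      simp [Fintype.mem_piFinset, funext_iff]
    rw [h2]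
    apply sum_congr rfl
    intro ω hω
    rw [mem_filter] at hω
    rw [hω.2]
  rw [sum_congr rfl fun ω' _ => h1 ω']
  rw [Finset.sum_fiberwise]

/-- union of an `a`-random and a `b`-random set -/
theorem conv (a b : ℝ) (f : Finset α → ℝ) :
    ∑ A : Finset α, ∑ R : Finset α, wt a A * wt b R * f (A ∪ R) =
      ∑ X : Finset α, wt (a + b - a * b) X * f X := by
  classical
  rw [sum_finset_bool]
  have h1 : ∀ ω : α → Bool, ∑ R : Finset α,
      wt a (univ.filter fun i => ω i = true) * wt b R * f ((univ.filter fun i => ω i = true) ∪ R) =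
      ∑ η : α → Bool, (∏ i, ((if ω i = true then a else 1 - a) * (if η i = true then b else 1 - b))) *
        f (univ.filter fun i => (ω i || η i) = true) := by
    intro ω
    rw [sum_finset_bool]
    apply sum_congr rfl
    intro η _
    have e1 : wt a (univ.filter fun i => ω i = true) = ∏ i, (if ω i = true then a else 1 - a) := by
      rw [wt_eq_prod]; apply prod_congr rfl; intro i _; simp
    have e2 : wt b (univ.filter fun i => η i = true) = ∏ i, (if η i = true then b else 1 - b) := by
      rw [wt_eq_prod]; apply prod_congr rfl; intro i _; simp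
    have e3 : (univ.filter fun i => ω i = true) ∪ (univ.filter fun i => η i = true) =
        univ.filter fun i => (ω i || η i) = true := by
      ext i; simp
    rw [e1, e2, e3, prod_mul_distrib]
  rw [sum_congr rfl fun ω _ => h1 ω]
  have h2 := sum_push (α := α) (L := Bool × Bool) (L' := Bool)
    (fun l => (if l.1 = true then a else 1 - a) * (if l.2 = true then b else 1 - b))
    (fun l => (l.1 || l.2)) (fun ω => f (univ.filter fun i => ω i = true))
  have h3 : ∑ ω : α → Bool, ∑ η : α → Bool,
      (∏ i, ((if ω i = true then a else 1 - a) * (if η i = true then b else 1 - b))) *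
        f (univ.filter fun i => (ω i || η i) = true) =
      ∑ ω : α → Bool × Bool, (∏ i, (if (ω i).1 = true then a else 1 - a) *
        (if (ω i).2 = true then b else 1 - b)) *
        f (univ.filter fun i => ((ω i).1 || (ω i).2) = true) := by
    rw [← Fintype.sum_prod_type']
    refine Fintype.sum_equiv (Equiv.arrowProdEquivProdArrow α (fun _ => Bool) (fun _ => Bool)).symm _ _ ?_
    intro x
    rfl
  rw [h3, h2, sum_finset_bool]
  apply sum_congr rfl
  intro ω _
  rw [wt_eq_prod]
  congr 1
  apply prod_congr rfl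
  intro i _
  cases hω : ω i
  · simp only [mem_filter, mem_univ, hω, true_and]
    rw [show (univ.filter fun l : Bool × Bool => (l.1 || l.2) = false) = {(false, false)} by decide]
    simp
    ring
  · simp only [mem_filter, mem_univ, hω, true_and]
    rw [show (univ.filter fun l : Bool × Bool => (l.1 || l.2) = true) =
      {(true, true), (true, false), (false, true)} by decide]
    rw [sum_insert (by decide), sum_insert (by decide), sum_singleton]
    simp
    ring


theorem sum_wt (P : ℝ) : ∑ X : Finset α, wt P X = 1 := by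
  rw [sum_finset_bool]
  have h : ∀ ω : α → Bool, wt P (univ.filter fun i => ω i = true) =
      ∏ i, (if ω i = true then P else 1 - P) := by
    intro ω
    rw [wt_eq_prod]; apply prod_congr rfl; intro i _; simp
  rw [sum_congr rfl fun ω _ => h ω]
  have := (Finset.prod_univ_sum (fun _ : α => (univ : Finset Bool))
    (fun (_ : α) (l : Bool) => if l = true then P else 1 - P)).symm
  rw [Fintype.piFinset_univ] at this
  rw [this]
  simp

theorem mu_nonneg {P : ℝ} (h0 : 0 ≤ P) (h1 : P ≤ 1) (U : Finset α → Prop) : 0 ≤ mu P U := by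
  classical
  unfold mu
  apply sum_nonneg
  intro X _
  apply mul_nonneg (wt_nonneg h0 h1 X)
  split_ifs <;> norm_num

theorem mu_mono_event {P : ℝ} (h0 : 0 ≤ P) (h1 : P ≤ 1) (U V : Finset α → Prop)
    (h : ∀ X, U X → V X) : mu P U ≤ mu P V := by
  classical
  unfold mu
  apply sum_le_sum
  intro X _
  apply mul_le_mul_of_nonneg_left _ (wt_nonneg h0 h1 X)
  by_cases hU : U X
  · rw [if_pos hU, if_pos (h X hU)]
  · rw [if_neg hU]
    split_ifs <;> norm_num

theorem mu_not (P : ℝ) (U : Finset α → Prop) : mu P (fun X => ¬ U X) = 1 - mu P U := by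
  classical
  rw [← sum_wt (α := α) P]
  unfold mu
  rw [← sum_sub_distrib]
  apply sum_congr rfl
  intro X _
  by_cases hU : U X
  · simp [hU]
  · simp [hU]

theorem mu_le_one {P : ℝ} (h0 : 0 ≤ P) (h1 : P ≤ 1) (U : Finset α → Prop) : mu P U ≤ 1 := by
  have := mu_nonneg h0 h1 (fun X => ¬ U X)
  rw [mu_not] at this
  linarith

theorem mu_conv (a b : ℝ) (U : Finset α → Prop) :
    ∑ A : Finset α, wt a A * mu b (fun R => U (A ∪ R)) = mu (a + b - a * b) U := by
  classical
  unfold mu
  rw [← conv a b (fun X => if U X then (1 : ℝ) else 0)]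
  apply sum_congr rfl
  intro A _
  rw [mul_sum]
  apply sum_congr rfl
  intro R _
  ring

/-- (H2) -/
theorem mu_half (a b : ℝ) (ha0 : 0 ≤ a) (ha1 : a ≤ 1) (hb0 : 0 ≤ b) (hb1 : b ≤ 1)
    (U : Finset α → Prop) :
    mu a (fun A => 1 / 2 ≤ mu b (fun R => U (A ∪ R))) ≤ 2 * mu (a + b - a * b) U := by
  classical
  rw [← mu_conv, mul_sum]
  show ∑ X : Finset α, wt a X * _ ≤ _
  apply sum_le_sum
  intro A _
  have h1 := wt_nonneg ha0 ha1 A
  have h2 := mu_nonneg hb0 hb1 (fun R => U (A ∪ R))
  split_ifs with h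
  · nlinarith
  · rw [mul_zero]; positivity

/-- monotonicity in the density via convolution -/
theorem mu_mono (x y : ℝ) (hx0 : 0 ≤ x) (hxy : x ≤ y) (hy1 : y ≤ 1)
    (U : Finset α → Prop) (hU : ∀ X Y : Finset α, X ⊆ Y → U X → U Y) : mu x U ≤ mu y U := by
  classical
  rcases hxy.eq_or_lt with h | h
  · rw [h]
  have hx1 : x < 1 := lt_of_lt_of_le h hy1
  set b := (y - x) / (1 - x) with hb
  have h1x : 0 < 1 - x := by linarith
  have hb0 : 0 ≤ b := div_nonneg (by linarith) h1x.le
  have hb1 : b ≤ 1 := by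
    rw [hb, div_le_one h1x]; linarith
  have hy : x + b - x * b = y := by
    have : b * (1 - x) = y - x := div_mul_cancel₀ _ h1x.ne'
    linarith
  rw [← hy, ← mu_conv]
  unfold mu
  apply sum_le_sum
  intro A _
  apply mul_le_mul_of_nonneg_left _ (wt_nonneg hx0 hx1.le A)
  split_ifs with hA
  · show (1 : ℝ) ≤ mu b (fun R => U (A ∪ R))
    have h3 : mu b (fun R : Finset α => U (A ∪ R)) = mu b (fun _ : Finset α => True) := by
      unfold mu
      apply sum_congr rfl
      intro R _
      rw [if_pos (hU A (A ∪ R) subset_union_left hA), if_pos trivial]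
    rw [h3]
    unfold mu
    simp only [if_true, mul_one]
    rw [sum_wt]
  · exact mu_nonneg hb0 hb1 _

/-- sprinkling, product form -/
theorem mu_union_compl (a b : ℝ) (ha0 : 0 ≤ a) (ha1 : a ≤ 1) (hb0 : 0 ≤ b) (hb1 : b ≤ 1)
    (U : Finset α → Prop) (hU : ∀ X Y : Finset α, X ⊆ Y → U X → U Y) :
    1 - mu (a + b - a * b) U ≤ (1 - mu a U) * (1 - mu b U) := by
  classical
  rw [← mu_not, ← mu_not, ← mu_not, ← mu_conv]
  unfold mu
  rw [sum_mul]
  apply sum_le_sum
  intro A _
  rw [mul_assoc]
  apply mul_le_mul_of_nonneg_left _ (wt_nonneg ha0 ha1 A)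
  by_cases hA : U A
  · rw [if_neg (not_not.2 hA), zero_mul]
    apply le_of_eq
    apply sum_eq_zero
    intro R _
    have : U (A ∪ R) := hU A _ subset_union_left hA
    simp [this]
  · rw [if_pos hA, one_mul]
    apply sum_le_sum
    intro R _
    apply mul_le_mul_of_nonneg_left _ (wt_nonneg hb0 hb1 R)
    by_cases hR : U R
    · have : U (A ∪ R) := hU R _ subset_union_right hR
      simp [this, hR]
    · simp only [hR, not_false_eq_true, if_true]
      split_ifs <;> norm_num

/-- (H3) sprinkling -/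
theorem mu_sprinkle (x : ℝ) (hx0 : 0 ≤ x) (hx1 : x ≤ 1) (M : ℕ)
    (U : Finset α → Prop) (hU : ∀ X Y : Finset α, X ⊆ Y → U X → U Y) :
    1 - mu (1 - (1 - x) ^ M) U ≤ (1 - mu x U) ^ M := by
  classical
  induction M with
  | zero =>
    simp only [pow_zero]
    have := mu_nonneg (α := α) (P := 1 - 1) (by norm_num) (by norm_num) U
    linarith
  | succ M ih =>
    have h1 : (0 : ℝ) ≤ (1 - x) ^ M := pow_nonneg (by linarith) _
    have h2 : (1 - x) ^ M ≤ 1 := pow_le_one₀ (by linarith) (by linarith)
    have h3 := mu_union_compl (1 - (1 - x) ^ M) x (by linarith) (by linarith) hx0 hx1 U hU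
    have h4 : 1 - (1 - x) ^ M + x - (1 - (1 - x) ^ M) * x = 1 - (1 - x) ^ (M + 1) := by
      rw [pow_succ]; ring
    rw [h4] at h3
    refine h3.trans ?_
    rw [pow_succ]
    apply mul_le_mul_of_nonneg_right ih
    have := mu_le_one hx0 hx1 U
    linarith

theorem mu_sprinkle_min (x y : ℝ) (hx0 : 0 ≤ x) (hx1 : x ≤ 1) (M : ℕ) (hy : M * x ≤ y) (hy1 : y ≤ 1)
    (U : Finset α → Prop) (hU : ∀ X Y : Finset α, X ⊆ Y → U X → U Y) :
    min (1 / 2) (M * mu x U / 2) ≤ mu y U := by
  have h1 := mu_sprinkle x hx0 hx1 M U hU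
  have hb : 1 - (1 - x) ^ M ≤ M * x := by
    have := one_add_mul_le_pow (a := -x) (by linarith) M
    have h2 : (1 + -x) ^ M = (1 - x) ^ M := by ring_nf
    rw [h2] at this
    linarith
  have h0 : 0 ≤ 1 - (1 - x) ^ M := by
    have : (1 - x) ^ M ≤ 1 := pow_le_one₀ (by linarith) (by linarith)
    linarith
  have h2 := mu_mono (1 - (1 - x) ^ M) y h0 (hb.trans hy) hy1 U hU
  have hm0 := mu_nonneg hx0 hx1 U
  have hm1 := mu_le_one hx0 hx1 U
  set m := mu x U
  have h3 : (1 - m) ^ M ≤ Real.exp (-(M * m)) := by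
    have h4 : 1 - m ≤ Real.exp (-m) := by
      have := Real.add_one_le_exp (-m); linarith
    calc (1 - m) ^ M ≤ (Real.exp (-m)) ^ M := pow_le_pow_left₀ (by linarith) h4 M
      _ = Real.exp (-(M * m)) := by rw [← Real.exp_nat_mul]; ring_nf
  have h5 : min (1 / 2) (M * m / 2) ≤ 1 - Real.exp (-(M * m)) := by
    set z : ℝ := M * m with hz
    have hz0 : 0 ≤ z := by positivity
    by_cases hz1 : z ≤ 1
    · refine (min_le_right _ _).trans ?_
      have h6 : Real.exp (-z) ≤ 1 - z / 2 := by
        have h7 : Real.exp (-z) = (Real.exp z)⁻¹ := Real.exp_neg z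
        have h8 : 1 + z ≤ Real.exp z := by have := Real.add_one_le_exp z; linarith
        rw [h7]
        calc (Real.exp z)⁻¹ ≤ (1 + z)⁻¹ := inv_anti₀ (by linarith) h8
          _ ≤ 1 - z / 2 := by
            rw [inv_le_iff_one_le_mul₀ (by linarith)]
            nlinarith
      linarith
    · push Not at hz1
      refine (min_le_left _ _).trans ?_
      have h6 : Real.exp (-z) ≤ Real.exp (-1) := Real.exp_le_exp.2 (by linarith)
      have h7 : Real.exp (-1) ≤ 1 / 2 := by
        have h8 : Real.exp (-1) = (Real.exp 1)⁻¹ := Real.exp_neg 1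
        have h9 : (2 : ℝ) ≤ Real.exp 1 := by have := Real.add_one_le_exp 1; linarith
        rw [h8, one_div]
        exact inv_anti₀ (by norm_num) h9
      linarith
  linarith


theorem pr_const {P : ℝ} (h1 : P < 1) (X : Finset α) :
    pr (fun _ => P / (1 - P)) X = wt P X := by
  unfold pr wt
  have h : 0 < 1 - P := by linarith
  have h2 : 1 + P / (1 - P) = (1 - P)⁻¹ := by field_simp; ring
  have h3 : X.card ≤ Fintype.card α := card_le_univ X
  rw [prod_const, prod_const, h2, card_univ]
  rw [div_pow, inv_pow, div_inv_eq_mul]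
  have h4 : (1 - P) ^ Fintype.card α = (1 - P) ^ X.card * (1 - P) ^ (Fintype.card α - X.card) := by
    rw [← pow_add]; congr 1; omega
  rw [h4]
  have h5 : (1 - P) ^ X.card ≠ 0 := (pow_pos h _).ne'
  field_simp

theorem pr_thin {θ : ℝ} (h0 : 0 ≤ θ) (h1 : θ < 1) (Y X : Finset α) :
    pr (fun i => if i ∈ Y then θ / (1 - θ) else 0) X =
      if X ⊆ Y then θ ^ X.card * (1 - θ) ^ (Y.card - X.card) else 0 := by
  unfold pr
  have h : 0 < 1 - θ := by linarith
  have h2 : 1 + θ / (1 - θ) = (1 - θ)⁻¹ := by field_simp; ring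
  have h6 : ∏ i, (1 + if i ∈ Y then θ / (1 - θ) else 0) = ((1 - θ)⁻¹) ^ Y.card := by
    have : ∀ i, (1 + if i ∈ Y then θ / (1 - θ) else 0) = if i ∈ Y then (1 - θ)⁻¹ else 1 := by
      intro i; split_ifs
      · exact h2
      · ring
    rw [prod_congr rfl fun i _ => this i, prod_ite, prod_const, prod_const_one, mul_one]
    congr 2
    ext; simp
  rw [h6]
  split_ifs with hXY
  · have h7 : ∏ i ∈ X, (if i ∈ Y then θ / (1 - θ) else 0) = (θ / (1 - θ)) ^ X.card := by
      rw [prod_congr rfl fun i hi => if_pos (hXY hi), prod_const]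
    rw [h7, div_pow, inv_pow, div_inv_eq_mul]
    have h4 : (1 - θ) ^ Y.card = (1 - θ) ^ X.card * (1 - θ) ^ (Y.card - X.card) := by
      rw [← pow_add]; congr 1; have := card_le_card hXY; omega
    rw [h4]
    have h5 : (1 - θ) ^ X.card ≠ 0 := (pow_pos h _).ne'
    field_simp
  · obtain ⟨i, hiX, hiY⟩ := not_subset.1 hXY
    rw [prod_eq_zero hiX (if_neg hiY), zero_div]

theorem sum_pr_univ (t : α → ℝ) (ht : ∀ i, 0 ≤ t i) : ∑ X : Finset α, pr t X = 1 := by
  have := sum_pr_powerset t (univ : Finset α)
  rw [powerset_univ] at this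
  rw [this, div_self (prod_pos_one_add t ht univ).ne']

/-- (H1) thinning domination -/
theorem thin (n : ℕ) (hn : 0 < n) {V : Type*} [Fintype V] (hV : Fintype.card V ≤ n)
    (Y : V → Finset α) (C q θ P : ℝ) (hC : 1 ≤ C) (hq0 : 0 ≤ q) (hθ0 : 0 ≤ θ) (hθ1 : θ < 1)
    (hsp : ∀ S : Finset α, S.Nonempty →
      ((univ.filter fun v => S ⊆ Y v).card : ℝ) ≤ C * n * q ^ S.card)
    (hP : C * (θ / (1 - θ)) * q ≤ P) (hP1 : P < 1)
    (U : Finset α → Prop) [DecidablePred U] (hU : ∀ X Z : Finset α, X ⊆ Z → U X → U Z)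
    (hU0 : ¬ U ∅) :
    ∑ v, ∑ A ∈ (Y v).powerset, θ ^ A.card * (1 - θ) ^ ((Y v).card - A.card) *
      (if U A then (1 : ℝ) else 0) ≤ n * mu P U := by
  classical
  have hκ : 0 ≤ θ / (1 - θ) := div_nonneg hθ0 (by linarith)
  have hP0 : 0 ≤ P := le_trans (by positivity) hP
  have hPo : P ≤ P / (1 - P) := by
    rw [le_div_iff₀ (by linarith)]; nlinarith
  have hnR : (0 : ℝ) < n := by exact_mod_cast hn
  have hVR : (Fintype.card V : ℝ) ≤ n := by exact_mod_cast hV
  set D : Finset (Finset α) := univ.filter fun X => ¬ U X with hD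
  set w : Option V → ℝ := fun j => match j with
    | some _ => 1 / n
    | none => 1 - Fintype.card V / n with hw
  set t : Option V → α → ℝ := fun j i => match j with
    | some v => if i ∈ Y v then θ / (1 - θ) else 0
    | none => 0 with ht
  have hod := od_dom D (by
      intro R hR X hX
      rw [hD, mem_filter] at hR ⊢
      exact ⟨mem_univ _, fun h => hR.2 (hU X R hX h)⟩)
    (univ : Finset (Option V)) w (by
      intro j _
      cases j with
      | some v => show (0 : ℝ) ≤ 1 / n; positivity
      | none =>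
        show (0 : ℝ) ≤ 1 - Fintype.card V / n
        rw [sub_nonneg, div_le_one hnR]; exact hVR)
    (by
      rw [Fintype.sum_option]
      show (1 : ℝ) - Fintype.card V / n + ∑ _v : V, 1 / (n : ℝ) = 1
      rw [sum_const, card_univ, nsmul_eq_mul]
      ring) t (by
      intro j _ i
      cases j with
      | some v =>
        show (0 : ℝ) ≤ if i ∈ Y v then θ / (1 - θ) else 0
        split_ifs
        · exact hκ
        · exact le_rfl
      | none => exact le_rfl)
    (fun _ => P / (1 - P)) (fun _ => hP0.trans hPo) (by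
      intro S
      rcases S.eq_empty_or_nonempty with rfl | hS
      · simp only [prod_empty, mul_one]
        rw [Fintype.sum_option]
        show (1 : ℝ) - Fintype.card V / n + ∑ _v : V, 1 / (n : ℝ) ≤ 1
        rw [sum_const, card_univ, nsmul_eq_mul]
        apply le_of_eq
        ring
      · rw [Fintype.sum_option]
        have h1 : ∏ i ∈ S, t none i = 0 := by
          obtain ⟨i, hi⟩ := hS
          exact prod_eq_zero hi rfl
        rw [h1, mul_zero, zero_add, prod_const]
        have h2 : ∀ v : V, w (some v) * ∏ i ∈ S, t (some v) i =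
            (1 / n) * (if S ⊆ Y v then (θ / (1 - θ)) ^ S.card else 0) := by
          intro v
          congr 1
          show ∏ i ∈ S, (if i ∈ Y v then θ / (1 - θ) else 0) = _
          split_ifs with h
          · rw [prod_congr rfl fun i hi => if_pos (h hi), prod_const]
          · obtain ⟨i, hiX, hiY⟩ := not_subset.1 h
            rw [prod_eq_zero hiX (if_neg hiY)]
        rw [sum_congr rfl fun v _ => h2 v, ← mul_sum, ← sum_filter, sum_const, nsmul_eq_mul]
        have h3 := hsp S hS
        have h4 : (C * (θ / (1 - θ)) * q) ^ S.card ≤ (P / (1 - P)) ^ S.card :=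
          pow_le_pow_left₀ (by positivity) (hP.trans hPo) _
        refine le_trans ?_ h4
        have h5 : C ≤ C ^ S.card := by
          calc C = C ^ 1 := (pow_one C).symm
            _ ≤ C ^ S.card := pow_le_pow_right₀ hC (card_pos.2 hS)
        calc 1 / (n : ℝ) * (((univ.filter fun v => S ⊆ Y v).card : ℝ) * (θ / (1 - θ)) ^ S.card)
            ≤ 1 / (n : ℝ) * ((C * n * q ^ S.card) * (θ / (1 - θ)) ^ S.card) := by
              gcongr
          _ = C * (θ / (1 - θ)) ^ S.card * q ^ S.card := by
              field_simp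
          _ ≤ C ^ S.card * (θ / (1 - θ)) ^ S.card * q ^ S.card := by gcongr
          _ = (C * (θ / (1 - θ)) * q) ^ S.card := by rw [mul_pow, mul_pow])
  have hL : ∑ X ∈ D, pr (fun _ => P / (1 - P)) X = 1 - mu P U := by
    rw [← mu_not]
    unfold mu
    rw [hD, sum_filter]
    apply sum_congr rfl
    intro X _
    rw [pr_const hP1]
    by_cases h : U X
    · simp [h]
    · simp [h]
  have hR : ∀ v, ∑ X ∈ D, pr (t (some v)) X =
      1 - ∑ A ∈ (Y v).powerset, θ ^ A.card * (1 - θ) ^ ((Y v).card - A.card) *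
      (if U A then (1 : ℝ) else 0) := by
    intro v
    have h1 : ∑ X : Finset α, pr (t (some v)) X = 1 := sum_pr_univ _ (by
      intro i
      show (0 : ℝ) ≤ if i ∈ Y v then θ / (1 - θ) else 0
      split_ifs
      · exact hκ
      · exact le_rfl)
    have h2 : ∑ A ∈ (Y v).powerset, θ ^ A.card * (1 - θ) ^ ((Y v).card - A.card) *
        (if U A then (1 : ℝ) else 0) = ∑ X ∈ univ.filter (fun X => U X), pr (t (some v)) X := by
      rw [sum_filter]
      have h3 : ∀ X : Finset α, (if U X then pr (t (some v)) X else 0) =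
          if X ∈ (Y v).powerset then (θ ^ X.card * (1 - θ) ^ ((Y v).card - X.card) *
            (if U X then (1 : ℝ) else 0)) else 0 := by
        intro X
        have h4 : pr (t (some v)) X = _ := pr_thin hθ0 hθ1 (Y v) X
        rw [h4]
        by_cases hX : X ⊆ Y v <;> by_cases hUX : U X <;> simp [hX, hUX, mem_powerset]
      rw [sum_congr rfl fun X _ => h3 X, ← sum_filter]
      apply sum_congr _ fun _ _ => rfl
      ext; simp
    rw [h2, hD, ← h1, ← sum_filter_add_sum_filter_not univ (fun X => U X)]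
    ring
  have hN : ∑ X ∈ D, pr (t none) X = 1 := by
    have h1 : ∑ X : Finset α, pr (t none) X = 1 := sum_pr_univ _ (fun i => le_rfl)
    rw [hD, ← h1, ← sum_filter_add_sum_filter_not univ (fun X => ¬ U X)]
    rw [left_eq_add]
    apply sum_eq_zero
    intro X hX
    rw [mem_filter, not_not] at hX
    have hne : X ≠ ∅ := fun h => hU0 (h ▸ hX.2)
    obtain ⟨i, hi⟩ := nonempty_iff_ne_empty.2 hne
    unfold pr
    rw [prod_eq_zero hi rfl, zero_div]
  rw [hL, Fintype.sum_option, hN] at hod
  simp only [hR] at hod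
  have h9 : ∑ v : V, w (some v) * (1 - ∑ A ∈ (Y v).powerset, θ ^ A.card *
      (1 - θ) ^ ((Y v).card - A.card) * (if U A then (1 : ℝ) else 0)) =
      Fintype.card V / n - (1 / n) * ∑ v, ∑ A ∈ (Y v).powerset, θ ^ A.card *
        (1 - θ) ^ ((Y v).card - A.card) * (if U A then (1 : ℝ) else 0) := by
    rw [mul_sum]
    rw [show (Fintype.card V : ℝ) / n = ∑ _v : V, 1 / (n : ℝ) by
      rw [sum_const, card_univ, nsmul_eq_mul]; ring]
    rw [← sum_sub_distrib]
    apply sum_congr rfl
    intro v _
    show (1 / (n : ℝ)) * _ = _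
    ring
  rw [h9] at hod
  have h10 : w none * 1 = 1 - Fintype.card V / n := by
    rw [mul_one]
  rw [h10] at hod
  have h11 : (1 / (n : ℝ)) * (∑ v, ∑ A ∈ (Y v).powerset, θ ^ A.card *
      (1 - θ) ^ ((Y v).card - A.card) * (if U A then (1 : ℝ) else 0)) ≤ mu P U := by
    linarith
  rw [one_div, inv_mul_le_iff₀ hnR] at h11
  exact h11

end Crest.TG29
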