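import Crest.Agent.TG8_Gamma
import Crest.Agent.TG_GreedyH

set_option autoImplicit false

namespace Crest.TG
open Finset Crest.CombinatoricsR.RandomGraph

/-- helper8's black box `GREEDY` -/
theorem greedy8 : Crest.TG8.GREEDY := by
  intro W _ _ F _ U hU σ hσ n D Δ T hD hΔ q hq0 hq1 hW hn
  refine greedy_graph F U hU σ hσ n D Δ T ?_ ?_ q hq0 hq1 hW hn
  · intro v S hS
    refine (Finset.card_le_card ?_).trans (hD v)
    intro u hu
    exact Finset.mem_filter.2 ⟨Finset.mem_univ _, hS u hu⟩
  · intro v S hS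
    refine (Finset.card_le_card ?_).trans (hΔ v)
    intro u hu
    exact Finset.mem_filter.2 ⟨Finset.mem_univ _, hS u hu⟩

end Crest.TG
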