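import Crest.Agent.TG8_Gamma
import Crest.Agent.TG73_Main
import Crest.Agent.TG_Degen2
import Crest.Agent.TG1_Deg
import Crest.Agent.TG69_FM
import Crest.Agent.TG69_Spread
import Crest.Agent.TG_GreedyH
import Crest.Agent.TG32_Num

set_option autoImplicit false
set_option linter.unusedSectionVars false
set_option linter.unusedVariables false

namespace Crest.TG32
open Finset Crest.CombinatoricsR.RandomGraph Crest.TG.Degen

variable {W : Type} [Fintype W] [DecidableEq W]

/-- type I graph -/
def GI {N k1 k2 : ℕ} (H : SimpleGraph W) (σ : W ≃ Fin N) (J : Finset W)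
    (grp : W → W → Fin k1) (part : W → Fin k2) (a : Fin k1) (g g' : Fin k2) : SimpleGraph W :=
  SimpleGraph.fromRel (fun v u => TypeI H σ J grp part a g g' v u)

/-- arcs of type II -/
def ArcII {N k1 k2 : ℕ} (H : SimpleGraph W) (σ : W ≃ Fin N) (J : Finset W)
    (grp : W → W → Fin k1) (part : W → Fin k2) (a : Fin k1) (g : Fin k2) (v u : W) : Prop :=
  H.Adj v u ∧ σ u < σ v ∧ (v ∉ J ∧ u ∈ J) ∧ grp v u = a ∧ part v = g

/-- type II graph -/
def GII {N k1 k2 : ℕ} (H : SimpleGraph W) (σ : W ≃ Fin N) (J : Finset W)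
    (grp : W → W → Fin k1) (part : W → Fin k2) (a : Fin k1) (g : Fin k2) : SimpleGraph W :=
  SimpleGraph.fromRel (fun v u => ArcII H σ J grp part a g v u)

theorem GI_adj {N k1 k2 : ℕ} (H : SimpleGraph W) (σ : W ≃ Fin N) (J : Finset W)
    (grp : W → W → Fin k1) (part : W → Fin k2) (a : Fin k1) (g g' : Fin k2) (v u : W) :
    (GI H σ J grp part a g g').Adj v u ↔
      (TypeI H σ J grp part a g g' v u ∨ TypeI H σ J grp part a g g' u v) := by
  unfold GI
  rw [SimpleGraph.fromRel_adj]
  constructor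
  · exact fun h => h.2
  · intro h
    refine ⟨?_, h⟩
    rcases h with h | h
    · exact h.1.ne
    · exact h.1.ne'

theorem GII_adj {N k1 k2 : ℕ} (H : SimpleGraph W) (σ : W ≃ Fin N) (J : Finset W)
    (grp : W → W → Fin k1) (part : W → Fin k2) (a : Fin k1) (g : Fin k2) (v u : W) :
    (GII H σ J grp part a g).Adj v u ↔
      (ArcII H σ J grp part a g v u ∨ ArcII H σ J grp part a g u v) := by
  unfold GII
  rw [SimpleGraph.fromRel_adj]
  constructor
  · exact fun h => h.2
  · intro h
    refine ⟨?_, h⟩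
    rcases h with h | h
    · exact h.1.ne
    · exact h.1.ne'

/-- a cover from a labelling of the edges of `F` -/
theorem cov_of_labelling {m n : ℕ} {L q : ℝ} (F : SimpleGraph W)
    (h : ∃ c : F.edgeSet → Fin m, ∀ i : Fin m,
      1 / 2 ≤ gnpProb n (L * q) {G | (pieceGraph F c i).IsContained G}) :
    TG73.Cov m L n F q := by
  obtain ⟨c, hc⟩ := h
  refine ⟨fun i => pieceGraph F c i, ?_, hc⟩
  intro a b hab
  have he : s(a, b) ∈ F.edgeSet := by simpa using hab
  refine ⟨c ⟨s(a, b), he⟩, ?_⟩
  rw [pieceGraph_adj]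
  exact ⟨he, rfl⟩

theorem cov_family {ι : Type} [Fintype ι] {k n : ℕ} {L q : ℝ} {H : SimpleGraph W}
    (F : ι → SimpleGraph W) (hF : ∀ j, TG73.Cov k L n (F j) q)
    (h : ∀ a b, H.Adj a b → ∃ j, (F j).Adj a b) :
    TG73.Cov (Fintype.card ι * k) L n H q := by
  classical
  let e := (Fintype.equivFin ι).symm
  refine TG73.Cov.iUnion (fun j => F (e j)) (fun j => hF (e j)) ?_
  intro a b hab
  obtain ⟨j, hj⟩ := h a b hab
  refine ⟨Fintype.equivFin ι j, ?_⟩
  simpa [e] using hj

set_option maxHeartbeats 1000000 in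
theorem dense (hG : Crest.TG8.GAMMA) : TG73.DenseCore 1000 := by
  classical
  obtain ⟨m, hm, L0, hL0, n1, hgam⟩ := hG
  obtain ⟨n2, hn2, hnum⟩ := Crest.TG94.exists_threshold nums 600
  refine ⟨1000 * 256 * 256 * 1 + 1000 * 256 * m, L0, by linarith, max n1 n2, ?_⟩
  intro n hn W _ _ H hW q hq hLq hFM hq1000
  have hn1 : n1 ≤ n := (le_max_left _ _).trans hn.le
  have hn2' : n2 ≤ n := (le_max_right _ _).trans hn.le
  obtain ⟨hn600, hJn, hB, hC, hC', hDn, hE⟩ := hnum n hn2'
  have hn5 : 5 ≤ n := by omega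
  have hnR : (600 : ℝ) ≤ n := by exact_mod_cast hn600
  have hn0 : (0 : ℝ) < n := by linarith
  have hn1R : (1 : ℝ) ≤ n := by linarith
  have hqhalf : q ≤ 1 / 2 := by
    have : 2 * q ≤ L0 * q := mul_le_mul_of_nonneg_right hL0 hq.le
    linarith
  have hq1 : q < 1 := by linarith
  have hlog1 : 1 ≤ Real.log n := by
    rw [Real.le_log_iff_exp_le hn0]
    have := Real.exp_one_lt_d9
    linarith
  -- embedding
  obtain ⟨ι⟩ : Nonempty (W ↪ Fin n) := by
    apply Function.Embedding.nonempty_of_card_le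
    simpa using hW
  have hFM' : Crest.TG69.FM H n q := by
    intro κ J hJ
    refine hFM κ J ?_
    convert hJ
  -- degeneracy
  obtain ⟨D0, hD0a, hD0b⟩ := Crest.TG1.exists_D0 n (by omega) q hq hq1
  have hlow := Crest.TG1.low_degree H n hn5 q hq hq1 D0 hD0b (by
    intro U
    have := Crest.TG69.density H q hq.le ι hFM' U
    unfold Crest.TG69.edgesIn at this
    convert this)
  obtain ⟨σ, hσ⟩ := exists_order H D0 hlow
  -- D0 ≤ 5 log n
  have hD0log : (D0 : ℝ) ≤ 5 * Real.log n := by
    have h1 : (1 : ℝ) ≤ (n : ℝ) ^ 3 * (1 / 2) ^ D0 :=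
      hD0a.trans (mul_le_mul_of_nonneg_left (pow_le_pow_left₀ hq.le hqhalf D0) (by positivity))
    have h2 := Real.log_le_log (by norm_num) h1
    rw [Real.log_one, Real.log_mul (by positivity) (by positivity), Real.log_pow, Real.log_pow,
      one_div, Real.log_inv] at h2
    have h3 := Real.log_two_gt_d9
    push_cast at h2
    have h4 : (D0 : ℝ) * Real.log 2 ≤ 3 * Real.log n := by linarith
    have h5 : (D0 : ℝ) * 0.6931471803 ≤ (D0 : ℝ) * Real.log 2 :=
      mul_le_mul_of_nonneg_left h3.le (Nat.cast_nonneg _)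
    nlinarith
  set D : ℕ := D0 / 1000 + 1 with hDdef
  have hDle : (D : ℝ) ≤ 5 * Real.log n + 1 := by
    have h1 : D ≤ D0 + 1 := by
      have := Nat.div_le_self D0 1000
      omega
    have h2 : (D : ℝ) ≤ (D0 : ℝ) + 1 := by exact_mod_cast h1
    linarith
  have hqb : (n : ℝ) ^ (-(1 / (1000 : ℝ))) ≤ q := by
    have h1 : ((n : ℝ) ^ (-(1 / (1000 : ℝ)))) ^ 1000 ≤ q ^ 1000 := by
      rw [← Real.rpow_natCast ((n : ℝ) ^ (-(1 / (1000 : ℝ)))) 1000, ← Real.rpow_mul hn0.le]
      have h2 : -(1 / (1000 : ℝ)) * ((1000 : ℕ) : ℝ) = -1 := by norm_num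
      rw [h2, Real.rpow_neg_one]
      simpa using hq1000
    exact (pow_le_pow_iff_left₀ (Real.rpow_nonneg hn0.le _) hq.le (by norm_num)).mp h1
  have hqD : (n : ℝ) ^ (-(3 / ((1000 : ℕ) : ℝ) + 1 / 1000)) ≤ q ^ D :=
    Crest.TG1.pow_back n (by omega) q hq hq1 1000 hqb D0 1000 D (by norm_num) hD0a le_rfl
  have hqD' : (n : ℝ) ^ (-(1 / 100) : ℝ) ≤ q ^ D := by
    refine le_trans (Real.rpow_le_rpow_of_exponent_le hn1R ?_) hqD
    norm_num
  -- the hubs
  set Δ : ℕ := ⌊(n : ℝ) ^ (19 / 20 : ℝ)⌋₊ with hΔdef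
  have hΔle : (Δ : ℝ) ≤ (n : ℝ) ^ (19 / 20 : ℝ) := Nat.floor_le (by positivity)
  have hΔlt : (n : ℝ) ^ (19 / 20 : ℝ) < (Δ : ℝ) + 1 := Nat.lt_floor_add_one _
  set J : Finset W := univ.filter (fun v => Δ < (univ.filter (fun u => H.Adj v u)).card) with hJdef
  have hJcard0 : J.card * (Δ + 1) ≤ 2 * D0 * Fintype.card W := by
    have := card_high_degree H σ D0 Δ (by intro v; convert hσ v)
    rw [hJdef]
    convert this
  have hJcard : (J.card : ℝ) ≤ (n : ℝ) ^ (1 / 10 : ℝ) := by
    have h1 : (J.card : ℝ) * ((Δ : ℝ) + 1) ≤ 2 * D0 * n := by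
      have h2 : J.card * (Δ + 1) ≤ 2 * D0 * n :=
        hJcard0.trans (Nat.mul_le_mul_left _ hW)
      exact_mod_cast h2
    have h3 : (J.card : ℝ) * (n : ℝ) ^ (19 / 20 : ℝ) ≤ 10 * Real.log n * n := by
      have h4 : (J.card : ℝ) * (n : ℝ) ^ (19 / 20 : ℝ) ≤ (J.card : ℝ) * ((Δ : ℝ) + 1) :=
        mul_le_mul_of_nonneg_left hΔlt.le (Nat.cast_nonneg _)
      nlinarith
    have h5 : (n : ℝ) = (n : ℝ) ^ (1 / 20 : ℝ) * (n : ℝ) ^ (19 / 20 : ℝ) := by
      rw [← Real.rpow_add hn0]
      norm_num
    have h6 : 0 < (n : ℝ) ^ (19 / 20 : ℝ) := Real.rpow_pos_of_pos hn0 _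
    have h7 : (J.card : ℝ) * (n : ℝ) ^ (19 / 20 : ℝ)
        ≤ (10 * (n : ℝ) ^ (1 / 20 : ℝ) * Real.log n) * (n : ℝ) ^ (19 / 20 : ℝ) := by
      refine h3.trans (le_of_eq ?_)
      nth_rewrite 2 [h5]
      ring
    exact (le_of_mul_le_mul_right h7 h6).trans hJn
  have hDJ : D + J.card ≤ Δ := by
    rw [hΔdef]
    apply Nat.le_floor
    push_cast
    linarith
  -- labels
  obtain ⟨grp, part, hpart, hgrp, -⟩ := dense_labels H σ D0 1000 256 1 (by norm_num) (by norm_num) J hσ
  have hpartR : ∀ g, 256 * (univ.filter (fun v => part v = g)).card ≤ n + 256 := by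
    intro g
    have := hpart g
    omega
  -- type I classes
  have hI : ∀ x : Fin 1000 × Fin 256 × Fin 256,
      TG73.Cov 1 L0 n (GI H σ J grp part x.1 x.2.1 x.2.2) q := by
    rintro ⟨a, g, g'⟩
    apply TG73.Cov.single
    have hD1 : ∀ v, (univ.filter (fun u => H.Adj v u ∧ σ u < σ v ∧ grp v u = a)).card ≤ D := by
      intro v
      exact hgrp v a
    have hdeg := typeI_degree H σ J grp part a g g' Δ D (by
      intro v hv
      by_contra hcon
      apply hv
      rw [hJdef, Finset.mem_filter]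
      refine ⟨mem_univ _, ?_⟩
      push Not at hcon
      convert hcon) (by intro v; convert hD1 v)
    set T : ℕ := ⌊(n : ℝ) ^ (1 / 100 : ℝ)⌋₊ with hTdef
    have hTle : (T : ℝ) ≤ (n : ℝ) ^ (1 / 100 : ℝ) := Nat.floor_le (by positivity)
    have hTlt : (n : ℝ) ^ (1 / 100 : ℝ) < (T : ℝ) + 1 := Nat.lt_floor_add_one _
    have key := Crest.TG.greedy_graph_num (GI H σ J grp part a g g')
      ((univ.filter (fun v => part v = g)) ∪ (univ.filter (fun v => part v = g')))
      (by
        intro v u h
        rw [GI_adj] at h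
        simp only [Finset.mem_union, Finset.mem_filter, Finset.mem_univ, true_and]
        rcases h with h | h
        · exact Or.inl h.2.2.2.2.1
        · exact Or.inr h.2.2.2.2.2)
      (fun v => (σ v : ℕ)) (by intro v u h; exact σ.injective (Fin.ext h))
      n D Δ T
      (by
        intro v S hS
        refine le_trans (Finset.card_le_card ?_) (hD1 v)
        intro u hu
        obtain ⟨h1, h2⟩ := hS u hu
        rw [GI_adj] at h1
        simp only [Finset.mem_filter, Finset.mem_univ, true_and]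
        have h2' : σ u < σ v := h2
        rcases h1 with h | h
        · exact ⟨h.1, h2', h.2.2.2.1⟩
        · exact absurd h.2.1 (not_lt.mpr h2'.le))
      (by
        intro v S hS
        have h1 := hdeg v
        have h2 : max Δ (D + J.card) = Δ := max_eq_left hDJ
        rw [h2] at h1
        refine le_trans (Finset.card_le_card ?_) h1
        intro u hu
        have h3 := hS u hu
        rw [GI_adj] at h3
        simp only [Finset.mem_filter, Finset.mem_univ, true_and]
        exact h3)
      (L0 * q) (by positivity) hLq.le hW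
      (by
        have h1 := Finset.card_union_le (univ.filter (fun v => part v = g))
          (univ.filter (fun v => part v = g'))
        have h2 := hpartR g
        have h3 := hpartR g'
        have h4 : 256 * ((univ.filter (fun v => part v = g)) ∪
          (univ.filter (fun v => part v = g'))).card ≤ 2 * n + 512 := by omega
        have h4R : 256 * (((univ.filter (fun v => part v = g)) ∪
          (univ.filter (fun v => part v = g'))).card : ℝ) ≤ 2 * n + 512 := by exact_mod_cast h4
        have h5 : (D : ℝ) * Δ * T ≤ n / 8 := by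
          refine le_trans ?_ hC
          rw [mul_assoc]
          apply mul_le_mul hDle _ (by positivity) (by linarith)
          exact mul_le_mul hΔle hTle (Nat.cast_nonneg _) (by positivity)
        have h6 : (T : ℝ) ≤ n / 8 := hTle.trans hC'
        have h7 : ((((univ.filter (fun v => part v = g)) ∪
          (univ.filter (fun v => part v = g'))).card + D * Δ * T + T : ℕ) : ℝ) ≤ n := by
          push_cast
          linarith
        exact_mod_cast h7)
      ((n : ℝ) ^ (-(3 / ((1000 : ℕ) : ℝ) + 1 / 1000))) (1 / 2)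
      (hqD.trans (pow_le_pow_left₀ hq.le (by nlinarith) D))
      (by
        refine le_trans (mul_le_mul_of_nonneg_left (Real.exp_le_exp.mpr ?_) hn0.le) hDn
        apply neg_le_neg
        apply mul_le_mul_of_nonneg_left _ (Real.rpow_nonneg hn0.le _)
        linarith)
    linarith
  -- type II classes
  have hII : ∀ x : Fin 1000 × Fin 256, TG73.Cov m L0 n (GII H σ J grp part x.1 x.2) q := by
    rintro ⟨a, g⟩
    apply cov_of_labelling
    have hadjJ : ∀ v u, v ∉ J → (GII H σ J grp part a g).Adj v u →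
        (H.Adj v u ∧ σ u < σ v ∧ (v ∉ J ∧ u ∈ J) ∧ grp v u = a ∧ part v = g) := by
      intro v u hv h
      rw [GII_adj] at h
      rcases h with h | h
      · exact h
      · exact absurd h.2.2.1.2 hv
    have hcardY : ∀ v, v ∉ J →
        (univ.filter (fun u => (GII H σ J grp part a g).Adj v u)).card ≤ D := by
      intro v hv
      refine le_trans (Finset.card_le_card ?_) (hgrp v a)
      intro u hu
      simp only [Finset.mem_filter, Finset.mem_univ, true_and] at hu ⊢
      obtain ⟨h1, h2, h3, h4, h5⟩ := hadjJ v u hv hu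
      exact ⟨h1, h2, h4⟩
    refine hgam n hn1 W (GII H σ J grp part a g) J q D hq hLq hW ?_ hJcard hcardY hqD' ?_ ?_
    · intro u v h
      rw [GII_adj] at h
      rcases h with h | h
      · exact Or.inr ⟨h.2.2.1.1, h.2.2.1.2⟩
      · exact Or.inl ⟨h.2.2.1.2, h.2.2.1.1⟩
    · have h1 : (univ.filter (fun v => v ∉ J ∧ ∃ u, (GII H σ J grp part a g).Adj v u)).card
          ≤ (univ.filter (fun v => part v = g)).card := by
        apply Finset.card_le_card
        intro v hv
        simp only [Finset.mem_filter, Finset.mem_univ, true_and] at hv ⊢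
        obtain ⟨hv, u, hu⟩ := hv
        exact (hadjJ v u hv hu).2.2.2.2
      have h2 := hpartR g
      omega
    · intro S hS
      have := Crest.TG69.spread_hub H q hq hq1.le (by omega) ι hFM' J D
        (by
          have h1 : (D : ℝ) * Real.log n ≤ (5 * Real.log n + 1) * Real.log n :=
            mul_le_mul_of_nonneg_right hDle (by linarith)
          have h2 : 20 * (n : ℝ) * (n : ℝ) ^ (-(1 / 100) : ℝ) ≤ 20 * n * q ^ D :=
            mul_le_mul_of_nonneg_left hqD' (by positivity)
          linarith)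
        (fun v => univ.filter (fun u => (GII H σ J grp part a g).Adj v u))
        (by
          intro v hv u hu
          simp only [Finset.mem_filter, Finset.mem_univ, true_and] at hu
          exact (hadjJ v u hv hu).2.2.1.2)
        (by
          intro v hv u hu
          simp only [Finset.mem_filter, Finset.mem_univ, true_and] at hu
          exact (hadjJ v u hv hu).1)
        hcardY S hS
      refine le_trans (le_of_eq ?_) this
      congr 2
      ext v
      simp only [Finset.mem_filter, Finset.mem_univ, true_and, Finset.subset_iff]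
  -- assembly
  have hcI := cov_family (H := SimpleGraph.fromRel (fun v u => ∃ a g g', TypeI H σ J grp part a g g' v u))
    (fun x : Fin 1000 × Fin 256 × Fin 256 => GI H σ J grp part x.1 x.2.1 x.2.2) hI (by
      intro v u h
      rw [SimpleGraph.fromRel_adj] at h
      rcases h.2 with ⟨a, g, g', h⟩ | ⟨a, g, g', h⟩
      · exact ⟨(a, g, g'), (GI_adj H σ J grp part a g g' v u).mpr (Or.inl h)⟩
      · exact ⟨(a, g, g'), (GI_adj H σ J grp part a g g' v u).mpr (Or.inr h)⟩)
  have hcII := cov_family (H := SimpleGraph.fromRel (fun v u => ∃ a g, ArcII H σ J grp part a g v u))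
    (fun x : Fin 1000 × Fin 256 => GII H σ J grp part x.1 x.2) hII (by
      intro v u h
      rw [SimpleGraph.fromRel_adj] at h
      rcases h.2 with ⟨a, g, h⟩ | ⟨a, g, h⟩
      · exact ⟨(a, g), (GII_adj H σ J grp part a g v u).mpr (Or.inl h)⟩
      · exact ⟨(a, g), (GII_adj H σ J grp part a g v u).mpr (Or.inr h)⟩)
  have hfin := TG73.Cov.union (H := H) hcI hcII (by
    have harc : ∀ v u, H.Adj v u → σ u < σ v →
        (∃ a g g', TypeI H σ J grp part a g g' v u) ∨ (∃ a g, ArcII H σ J grp part a g v u) := by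
      intro v u h1 h2
      by_cases h3 : v ∉ J ∧ u ∈ J
      · right
        exact ⟨grp v u, part v, h1, h2, h3, rfl, rfl⟩
      · left
        exact ⟨grp v u, part v, part u, h1, h2, h3, rfl, rfl, rfl⟩
    intro v u h
    rw [SimpleGraph.fromRel_adj, SimpleGraph.fromRel_adj]
    rcases lt_trichotomy (σ u) (σ v) with h1 | h1 | h1
    · rcases harc v u h h1 with h2 | h2
      · exact Or.inl ⟨h.ne, Or.inl h2⟩
      · exact Or.inr ⟨h.ne, Or.inl h2⟩
    · exact absurd (σ.injective h1) h.ne'
    · rcases harc u v h.symm h1 with h2 | h2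
      · exact Or.inl ⟨h.ne, Or.inr h2⟩
      · exact Or.inr ⟨h.ne, Or.inr h2⟩)
  have hk1 : Fintype.card (Fin 1000 × Fin 256 × Fin 256) * 1 + Fintype.card (Fin 1000 × Fin 256) * m
      = 1000 * 256 * 256 * 1 + 1000 * 256 * m := by
    simp only [Fintype.card_prod, Fintype.card_fin]
  rw [hk1] at hfin
  exact hfin

end Crest.TG32
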