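import Crest.Agent.TG73_Main
import Crest.Agent.TG68_Mix
import Crest.Agent.TG8_Gamma
import Crest.Agent.TG13_Spread
import Crest.Agent.TG89_SetB
import Crest.Agent.TG30_G8
import Crest.Agent.TG73_Split
import Crest.Agent.TG69_FM

/-! S0073: the dense range from the depth-one statement GAMMA -/

set_option autoImplicit false

namespace TG82D
open Finset Crest.CombinatoricsR.RandomGraph

/-- the class of a label -/
def cls {W α : Type} (H : SimpleGraph W) (lab : Sym2 W → α) (l : α) : SimpleGraph W where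
  Adj v u := H.Adj v u ∧ lab s(v, u) = l
  symm := ⟨fun v u h => ⟨h.1.symm, by rw [Sym2.eq_swap]; exact h.2⟩⟩
  loopless := ⟨fun v h => H.loopless.irrefl v h.1⟩

theorem denseRaw (hG : Crest.TG8.GAMMA) : TG68.DenseRaw 1000 := by
  classical
  obtain ⟨m, hm, L0, hL0, n0, hG⟩ := hG
  obtain ⟨n1, h1⟩ := Crest.TG13.hub_spread
  obtain ⟨n2, h2⟩ := Crest.TG89.B.setup
  obtain ⟨n3, h3⟩ := Crest.TG89.B.low_num
  refine ⟨1000 * 256 * 256 * 1 + 1000 * 256 * 256 * m, n0 + n1 + n2 + n3 + 256, L0 + 1,
    by linarith, ?_⟩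
  intro n hn2 hn W _ _ H _ hW hH q hq hLq hqn hFM
  have hL0q : L0 * q < 1 := by nlinarith
  have hq3 : 3 * q < 1 := by nlinarith
  have hLq0 : 0 ≤ (L0 + 1) * q := mul_nonneg (by linarith) hq.le
  have hFM' : Crest.TG69.FM H n q := by
    intro κ J hJ
    exact hFM κ J hJ
  obtain ⟨ι⟩ : Nonempty (W ↪ Fin n) := by
    apply Function.Embedding.nonempty_of_card_le
    simpa using hW
  have hden : ∀ U : Finset W, (1:ℝ)/2 ≤ (n:ℝ) ^ U.card *
      q ^ (H.edgeFinset.filter (fun e => ∀ x ∈ e, x ∈ U)).card := by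
    intro U
    exact Crest.TG69.density H q hq.le ι hFM' U
  obtain ⟨d, -, ⟨σ, hσ⟩, hqD, hd, hJc, hJd⟩ := h2 n (by omega) W H hW q hq hq3
    (by rw [mul_comm]; exact hqn) hden
  set Δ := ⌊(n:ℝ)^(19/20:ℝ)⌋₊ with hΔ
  set J : Finset W := univ.filter (fun v => Δ < (univ.filter (fun u => H.Adj v u)).card) with hJ
  set D := d / 1000 + 1 with hD
  have hσinj : Function.Injective (fun v : W => ((σ v : Fin _) : ℕ)) := by
    intro a b hab
    exact σ.injective (Fin.ext hab)
  obtain ⟨lab, hlab⟩ := Crest.TG73.dense_split H (fun v => ((σ v : Fin _) : ℕ)) hσinj d Δ 1000 256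
    (by norm_num) (by norm_num) (by
      intro v
      refine le_trans (card_le_card ?_) (hσ v)
      intro u hu
      rw [mem_filter] at hu ⊢
      exact ⟨hu.1, hu.2.1, by rw [Fin.lt_def]; exact hu.2.2⟩) J hJ
  have hlogn : (0:ℝ) ≤ Real.log n := Real.log_nonneg (by
    have : 1 ≤ n := by omega
    exact_mod_cast this)
  have hDlog : (D : ℝ) ≤ Real.log n + 2 := by
    have h4 : ((d / 1000 : ℕ) : ℝ) ≤ (d : ℝ) / 1000 := Nat.cast_div_le
    rw [hD]
    push_cast
    linarith
  -- low classes
  have hlow : ∀ i a b, TG73.Cov 1 (L0 + 1) n (cls H lab (true, i, a, b)) q := by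
    intro i a b
    obtain ⟨c1, c2, c3, -, -, -⟩ := hlab i a b
    set F := cls H lab (true, i, a, b) with hF
    set U : Finset W := univ.filter (fun v => ∃ u, F.Adj v u) with hU
    have hUc : U.card ≤ 2 * (Fintype.card W / 256 + 1) := by
      refine le_trans (card_le_card ?_) c3
      intro v hv
      rw [mem_filter] at hv ⊢
      exact ⟨mem_univ _, hv.2⟩
    have hU2 : 2 * U.card ≤ n := by omega
    have hPD : (n:ℝ) ^ (-(1/100 : ℝ)) ≤ ((L0 + 1) * q) ^ D := by
      refine hqD.trans (pow_le_pow_left₀ hq.le ?_ _)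
      nlinarith
    obtain ⟨T, hT1, hT2⟩ := h3 n (by omega) ((L0 + 1) * q) D U.card hLq0 hLq.le hPD hDlog hU2
    refine TG73.Cov.single (hT2.trans ?_)
    refine Crest.TG.greedy8 W F U ?_ (fun v => ((σ v : Fin _) : ℕ)) hσinj n D Δ T ?_ ?_ _ hLq0
      hLq.le hW hT1
    · intro x y hxy
      rw [hU, mem_filter]
      exact ⟨mem_univ _, y, hxy⟩
    · intro v
      refine le_trans (card_le_card ?_) (c1 v)
      intro u hu
      rw [mem_filter] at hu ⊢
      exact ⟨mem_univ _, hu.2.1, hu.2.2⟩
    · intro v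
      refine le_trans (card_le_card ?_) ((c2 v).trans (max_le le_rfl hJd))
      intro u hu
      rw [mem_filter] at hu ⊢
      exact ⟨mem_univ _, hu.2⟩
  -- hub classes
  have hhub : ∀ i a b, TG73.Cov m (L0 + 1) n (cls H lab (false, i, a, b)) q := by
    intro i a b
    obtain ⟨-, -, -, c4, c5, c6⟩ := hlab i a b
    set F := cls H lab (false, i, a, b) with hF
    have h4 := hG n (by omega) W F J q D hq hL0q hW ?_ hJc ?_ hqD ?_ ?_
    · exact (TG68.cov_of_label h4).mono hW le_rfl (by linarith) (by linarith) hq.le hLq.le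
    · intro u v huv
      rcases c4 u v huv.1 huv.2 with h | h
      · exact Or.inr ⟨h.2.1, h.1⟩
      · exact Or.inl ⟨h.1, h.2.1⟩
    · intro v hv
      refine le_trans (card_le_card ?_) (c5 v hv)
      intro u hu
      rw [mem_filter] at hu ⊢
      exact ⟨mem_univ _, hu.2⟩
    · have h5 : (univ.filter (fun v => v ∉ J ∧ ∃ u, F.Adj v u)).card ≤ Fintype.card W / 256 + 1 := by
        refine le_trans (card_le_card ?_) c6
        intro v hv
        rw [mem_filter] at hv ⊢
        exact ⟨mem_univ _, hv.2⟩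
      omega
    · intro S hS
      set Y : W → Finset W := fun v => if v ∈ J then ∅ else univ.filter (fun u => F.Adj v u) with hY
      have hn0 : (1:ℝ) ≤ n := by
        have : 1 ≤ n := by omega
        exact_mod_cast this
      have h6 := h1 n (by omega) H ι q hq (by linarith) hFM' D (by
        refine le_trans ?_ hqD
        exact Real.rpow_le_rpow_of_exponent_le hn0 (by norm_num)) Y (by
        intro v u hu
        rw [hY] at hu
        dsimp only at hu
        split_ifs at hu
        · simp at hu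
        · rw [mem_filter] at hu
          exact hu.2.1) (by
        intro v
        rw [hY]
        dsimp only
        split_ifs with hv
        · simp
        · refine le_trans (card_le_card ?_) (c5 v hv)
          intro u hu
          rw [mem_filter] at hu ⊢
          exact ⟨mem_univ _, hu.2⟩) univ S hS
      refine le_trans ?_ h6
      have h7 : (univ.filter (fun v => v ∉ J ∧ ∀ u ∈ S, F.Adj v u)).card ≤
          (univ.filter (fun v => S ⊆ Y v)).card := by
        apply card_le_card
        intro v hv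
        rw [mem_filter] at hv ⊢
        refine ⟨mem_univ _, fun u hu => ?_⟩
        rw [hY]
        dsimp only
        rw [if_neg hv.2.1, mem_filter]
        exact ⟨mem_univ _, hv.2.2 u hu⟩
      exact_mod_cast h7
  -- glue
  let e : Fin (1000 * 256 * 256) ≃ Fin 1000 × Fin 256 × Fin 256 :=
    (Fintype.equivFinOfCardEq (by simp)).symm
  have hcov : TG73.Cov (1000 * 256 * 256 * 1 + 1000 * 256 * 256 * m) (L0 + 1) n H q := by
    refine TG73.Cov.union (H₁ := ⨆ l : Fin 1000 × Fin 256 × Fin 256, cls H lab (true, l))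
      (H₂ := ⨆ l : Fin 1000 × Fin 256 × Fin 256, cls H lab (false, l))
      (TG73.Cov.iUnion (fun j => cls H lab (true, e j)) (fun j => hlow _ _ _) ?_)
      (TG73.Cov.iUnion (fun j => cls H lab (false, e j)) (fun j => hhub _ _ _) ?_) ?_
    · intro a b hab
      rw [SimpleGraph.iSup_adj] at hab
      obtain ⟨l, hl⟩ := hab
      exact ⟨e.symm l, by simpa using hl⟩
    · intro a b hab
      rw [SimpleGraph.iSup_adj] at hab
      obtain ⟨l, hl⟩ := hab
      exact ⟨e.symm l, by simpa using hl⟩
    · intro a b hab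
      rcases hl : lab s(a, b) with ⟨t, l⟩
      cases t
      · right
        rw [SimpleGraph.iSup_adj]
        exact ⟨l, hab, hl⟩
      · left
        rw [SimpleGraph.iSup_adj]
        exact ⟨l, hab, hl⟩
  exact hcov.labelling hLq0 hLq.le

end TG82D
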