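import Mathlib
import Crest.Agent.TG_Greedy
import Crest.Agent.TG_GreedyG
import Crest.Agent.TG63_Num
import Crest.Agent.TG94_Num

/-! Low classes of the dense range of S0073: numerics on top of the greedy lemma. -/

set_option autoImplicit false
set_option linter.unusedVariables false
set_option linter.unusedSectionVars false

namespace Crest.TG96
open Finset Crest.CombinatoricsR.RandomGraph

/-- numerics of the hub set -/
theorem hub_small : ∃ n0 : ℕ, ∀ n : ℕ, n0 ≤ n → ∀ d Jc N : ℕ, (d : ℝ) ≤ (n : ℝ) ^ (1 / 100 : ℝ) →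
    N ≤ n → Jc * ⌊(n : ℝ) ^ (19 / 20 : ℝ)⌋₊ ≤ 2 * d * N →
    (Jc : ℝ) ≤ (n : ℝ) ^ (1 / 10 : ℝ) ∧ Jc + d ≤ ⌊(n : ℝ) ^ (19 / 20 : ℝ)⌋₊ := by
  obtain ⟨n1, h1⟩ := Crest.TG63.ev_log 4 0 (1 / 100 + 1) (1 / 10 + 19 / 20) (by norm_num)
  obtain ⟨n2, h2⟩ := Crest.TG63.ev_log 2 0 (1 / 10) (19 / 20) (by norm_num)
  refine ⟨max (max n1 n2) 2, ?_⟩
  intro n hn d Jc N hd hN hJ
  have hn1 := h1 n (le_trans (le_trans (le_max_left _ _) (le_max_left _ _)) hn)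
  have hn2 := h2 n (le_trans (le_trans (le_max_right _ _) (le_max_left _ _)) hn)
  have hn2' : 2 ≤ n := le_trans (le_max_right _ _) hn
  have hn0 : (0 : ℝ) < n := by positivity
  have hn1' : (1 : ℝ) ≤ n := by exact_mod_cast (by omega : 1 ≤ n)
  rw [pow_zero, mul_one] at hn1 hn2
  set A : ℝ := (n : ℝ) ^ (19 / 20 : ℝ) with hA
  have hA1 : (1 : ℝ) ≤ A := Real.one_le_rpow hn1' (by norm_num)
  have hfl : A / 2 ≤ (⌊A⌋₊ : ℝ) := by
    have h3 := Nat.lt_floor_add_one A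
    have h4 : (1 : ℝ) ≤ (⌊A⌋₊ : ℝ) := by
      exact_mod_cast (Nat.one_le_floor_iff A).2 hA1
    linarith
  have hJ' : (Jc : ℝ) * (⌊A⌋₊ : ℝ) ≤ 2 * d * N := by exact_mod_cast hJ
  have hN' : (N : ℝ) ≤ n := by exact_mod_cast hN
  have h5 : (Jc : ℝ) * A ≤ (n : ℝ) ^ (1 / 10 : ℝ) * A := by
    have h6 : (Jc : ℝ) * (A / 2) ≤ 2 * d * N :=
      (mul_le_mul_of_nonneg_left hfl (Nat.cast_nonneg _)).trans hJ'
    have h7 : 2 * (d : ℝ) * N ≤ 2 * (n : ℝ) ^ (1 / 100 : ℝ) * n := by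
      have := Real.rpow_nonneg hn0.le (1 / 100 : ℝ)
      gcongr
    have h8 : (n : ℝ) ^ (1 / 100 + 1 : ℝ) = (n : ℝ) ^ (1 / 100 : ℝ) * n := by
      rw [Real.rpow_add hn0, Real.rpow_one]
    have h9 : (n : ℝ) ^ (1 / 10 + 19 / 20 : ℝ) = (n : ℝ) ^ (1 / 10 : ℝ) * A := by
      rw [Real.rpow_add hn0]
    rw [h8, h9] at hn1
    nlinarith
  have hJr : (Jc : ℝ) ≤ (n : ℝ) ^ (1 / 10 : ℝ) := le_of_mul_le_mul_right h5 (by linarith)
  refine ⟨hJr, Nat.le_floor ?_⟩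
  push_cast
  have h10 : (n : ℝ) ^ (1 / 100 : ℝ) ≤ (n : ℝ) ^ (1 / 10 : ℝ) :=
    Real.rpow_le_rpow_of_exponent_le hn1' (by norm_num)
  linarith

/-- the low classes embed with probability at least `1/2` -/
theorem low_half : ∃ n0 : ℕ, ∀ n : ℕ, n0 ≤ n →
    ∀ (W : Type) [Fintype W] [DecidableEq W] (F : SimpleGraph W) (U : Finset W)
      (σ : W → ℕ) (D Δ : ℕ) (P : ℝ),
      (∀ a b, F.Adj a b → a ∈ U) → Function.Injective σ →
      (∀ v (S : Finset W), (∀ u ∈ S, F.Adj v u ∧ σ u < σ v) → S.card ≤ D) →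
      (∀ v (S : Finset W), (∀ u ∈ S, F.Adj v u) → S.card ≤ Δ) →
      0 ≤ P → P ≤ 1 → Fintype.card W ≤ n → 4 * U.card ≤ n →
      (n : ℝ) ^ (-(1 / 100) : ℝ) ≤ P ^ D → (D : ℝ) ≤ 2 * (n : ℝ) ^ (1 / 100 : ℝ) →
      (Δ : ℝ) ≤ (n : ℝ) ^ (19 / 20 : ℝ) →
      (1 : ℝ) / 2 ≤ gnpProb n P {G | F.IsContained G} := by
  obtain ⟨n1, h1⟩ := Crest.TG63.ev_log 24 1 (97 / 100) 1 (by norm_num)
  refine ⟨max n1 8, ?_⟩
  intro n hn W _ _ F U σ D Δ P hU hσ hD hΔ hP0 hP1 hW hUc hPD hDn hΔn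
  have hn1 := h1 n (le_trans (le_max_left _ _) hn)
  have hn8 : 8 ≤ n := le_trans (le_max_right _ _) hn
  have hn0 : (0 : ℝ) < n := by positivity
  have hn1' : (1 : ℝ) ≤ n := by exact_mod_cast (by omega : 1 ≤ n)
  have hlogn : 2 ≤ Real.log n := by
    have h3 : Real.exp 2 ≤ 8 := by
      have := Real.exp_one_lt_d9
      have h4 : Real.exp 2 = Real.exp 1 * Real.exp 1 := by rw [← Real.exp_add]; norm_num
      rw [h4]
      nlinarith [Real.exp_pos 1]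
    rw [Real.le_log_iff_exp_le hn0]
    have : (8 : ℝ) ≤ n := by exact_mod_cast hn8
    linarith
  rw [pow_one, Real.rpow_one] at hn1
  set e1 : ℝ := (n : ℝ) ^ (1 / 100 : ℝ) with he1
  set e2 : ℝ := (n : ℝ) ^ (19 / 20 : ℝ) with he2
  have he1' : 1 ≤ e1 := Real.one_le_rpow hn1' (by norm_num)
  have he2' : 1 ≤ e2 := Real.one_le_rpow hn1' (by norm_num)
  set T : ℕ := ⌈e1 * (2 * Real.log n)⌉₊ with hT
  have hT1 : e1 * (2 * Real.log n) ≤ T := Nat.le_ceil _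
  have hT2 : (T : ℝ) ≤ e1 * (2 * Real.log n) + 1 := (Nat.ceil_lt_add_one (by positivity)).le
  have hT3 : (T : ℝ) ≤ e1 * (3 * Real.log n) := by nlinarith
  have h97 : (n : ℝ) ^ (97 / 100 : ℝ) = e1 * e1 * e2 := by
    rw [he1, he2, ← Real.rpow_add hn0, ← Real.rpow_add hn0]; norm_num
  have hprod : (D : ℝ) * Δ * T ≤ 6 * Real.log n * (n : ℝ) ^ (97 / 100 : ℝ) := by
    rw [h97]
    calc (D : ℝ) * Δ * T ≤ (2 * e1) * e2 * (e1 * (3 * Real.log n)) := by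
          gcongr
      _ = _ := by ring
  have hTle : (T : ℝ) ≤ 3 * Real.log n * (n : ℝ) ^ (97 / 100 : ℝ) := by
    rw [h97]
    have h5 : e1 ≤ e1 * e1 * e2 := by nlinarith [mul_pos (by linarith : (0:ℝ) < e1) (by linarith : (0:ℝ) < e2)]
    calc (T : ℝ) ≤ e1 * (3 * Real.log n) := hT3
      _ ≤ (e1 * e1 * e2) * (3 * Real.log n) := by gcongr
      _ = _ := by ring
  have hcond : U.card + D * Δ * T + T ≤ n := by
    have h6 : ((U.card + D * Δ * T + T : ℕ) : ℝ) ≤ n := by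
      push_cast
      have h7 : 4 * (U.card : ℝ) ≤ n := by exact_mod_cast hUc
      have h8 : 24 * Real.log n * (n : ℝ) ^ (97 / 100 : ℝ) ≤ n := hn1
      nlinarith
    exact_mod_cast h6
  have hG : Crest.TG.GreedyHyp P n := by
    intro m D' Δ' T' B hB hD' hΔ' hn'
    exact Crest.TG.greedy n m D' Δ' T' P hP0 hP1 B hB hD' hΔ' hn'
  have hfin := Crest.TG.greedy_num F U hU σ hσ n D Δ T hD hΔ P hP0 hP1 hW hcond hG
    ((n : ℝ) ^ (-(1 / 100) : ℝ)) (1 / 2) hPD (by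
      have h9 : 2 * Real.log n ≤ (n : ℝ) ^ (-(1 / 100) : ℝ) * T := by
        have h10 : (n : ℝ) ^ (-(1 / 100) : ℝ) * e1 = 1 := by
          rw [he1, ← Real.rpow_add hn0]; norm_num
        calc 2 * Real.log n = (n : ℝ) ^ (-(1 / 100) : ℝ) * e1 * (2 * Real.log n) := by
              rw [h10, one_mul]
          _ = (n : ℝ) ^ (-(1 / 100) : ℝ) * (e1 * (2 * Real.log n)) := by ring
          _ ≤ _ := mul_le_mul_of_nonneg_left hT1 (Real.rpow_nonneg hn0.le _)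
      have h11 : Real.exp (-((n : ℝ) ^ (-(1 / 100) : ℝ) * T)) ≤ Real.exp (-(2 * Real.log n)) :=
        Real.exp_le_exp.2 (by linarith)
      have h12 : Real.exp (-(2 * Real.log n)) = (n : ℝ)⁻¹ * (n : ℝ)⁻¹ := by
        have : -(2 * Real.log n) = -Real.log n + -Real.log n := by ring
        rw [this, Real.exp_add, Real.exp_neg, Real.exp_log hn0]
      calc (n : ℝ) * Real.exp (-((n : ℝ) ^ (-(1 / 100) : ℝ) * T))
          ≤ n * ((n : ℝ)⁻¹ * (n : ℝ)⁻¹) := by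
            rw [← h12]; exact mul_le_mul_of_nonneg_left h11 hn0.le
        _ = (n : ℝ)⁻¹ := by field_simp
        _ ≤ 1 / 2 := by
            rw [one_div]
            apply inv_anti₀ (by norm_num)
            exact_mod_cast (by omega : 2 ≤ n))
  linarith

end Crest.TG96
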