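import Mathlib
import Crest.Agent.TG73_Main
import Crest.Agent.TG73_Split
import Crest.Agent.TG8_Gamma
import Crest.Agent.TG69_Spread
import Crest.Agent.TG96_Sub
import Crest.Agent.TG96_Low
import Crest.Agent.TG6_Ext

/-! S0073: the dense range from `GAMMA`. -/

set_option autoImplicit false
set_option linter.unusedVariables false
set_option linter.unusedSectionVars false

namespace Crest.TG96
open Finset Crest.CombinatoricsR.RandomGraph

/-- the subgraph of the edges with label `x` -/
def labG {W Λ : Type} (H : SimpleGraph W) (lab : Sym2 W → Λ) (x : Λ) : SimpleGraph W where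
  Adj v u := H.Adj v u ∧ lab s(v, u) = x
  symm := ⟨fun v u h => ⟨h.1.symm, by rw [Sym2.eq_swap]; exact h.2⟩⟩
  loopless := ⟨fun v h => H.loopless.irrefl v h.1⟩

theorem dense_of_gamma (hG : Crest.TG8.GAMMA) : _root_.TG73.DenseCore 1000 := by
  classical
  obtain ⟨m, hm, L0, hL0, n1, hγ⟩ := hG
  obtain ⟨n2, hord⟩ := order_exists_le
  obtain ⟨n3, hhub⟩ := hub_small
  obtain ⟨n4, hlow⟩ := low_half
  obtain ⟨n5, hnum⟩ := Crest.TG63.ev_log 2 1 (2 / 100) 1 (by norm_num)
  refine ⟨Fintype.card (Bool × Fin 400 × Fin 128 × Fin 128) * m, L0, by linarith,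
    max (max (max n1 n2) (max n3 n4)) (max n5 128), ?_⟩
  intro n hn W _ _ H hW q hq0 hLq hFM hqn
  have hn1 : n1 ≤ n := by omega
  have hn2 : n2 ≤ n := by omega
  have hn3 : n3 ≤ n := by omega
  have hn4 : n4 ≤ n := by omega
  have hn5 : n5 ≤ n := by omega
  have hn128 : 128 ≤ n := by omega
  have hn0 : (0 : ℝ) < n := by exact_mod_cast (by omega : 0 < n)
  have hn1' : (1 : ℝ) ≤ n := by exact_mod_cast (by omega : 1 ≤ n)
  obtain ⟨ι⟩ : Nonempty (W ↪ Fin n) :=
    Function.Embedding.nonempty_of_card_le (by rwa [Fintype.card_fin])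
  have hFM' : Crest.TG69.FM H n q := by
    intro κ J hJ
    have h := hFM κ J (by convert hJ)
    convert h
  have hq2 : q ≤ 1 / 2 := by nlinarith
  have hqn' : 1 ≤ q ^ 1000 * (n : ℝ) := by
    rw [div_le_iff₀ hn0] at hqn
    exact hqn
  obtain ⟨d, σ, hσ, hqd, hdn⟩ := hord n hn2 W H q hq0 hq2 hqn'
    (fun U _ => Crest.TG69.density H q hq0.le ι hFM' U)
  set D : ℕ := d / 400 + 1 with hD
  set Δ : ℕ := ⌊(n : ℝ) ^ (19 / 20 : ℝ)⌋₊ with hΔ
  let τ : W → ℕ := fun v => (σ v : ℕ)
  have hτ : Function.Injective τ := fun a b hab => σ.injective (Fin.ext hab)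
  have hτd : ∀ v, (univ.filter (fun u => H.Adj v u ∧ τ u < τ v)).card ≤ d := by
    intro v
    exact hσ v
  set J : Finset W := univ.filter (fun v => Δ < (univ.filter (fun u => H.Adj v u)).card) with hJ
  have hJc := Crest.TG73.hub_card H τ hτ d Δ hτd
  obtain ⟨hJ1, hJ2⟩ := hhub n hn3 d J.card (Fintype.card W) hdn hW hJc
  obtain ⟨lab, hlab⟩ := Crest.TG73.dense_split H τ hτ d Δ 400 128 (by norm_num) (by norm_num)
    hτd J hJ
  have hDle : (D : ℝ) ≤ 2 * (n : ℝ) ^ (1 / 100 : ℝ) := by
    have h1 : (1 : ℝ) ≤ (n : ℝ) ^ (1 / 100 : ℝ) := Real.one_le_rpow hn1' (by norm_num)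
    have h2 : ((d / 400 : ℕ) : ℝ) ≤ d := by exact_mod_cast Nat.div_le_self _ _
    rw [hD]; push_cast at h2 ⊢; linarith
  have hΔle : (Δ : ℝ) ≤ (n : ℝ) ^ (19 / 20 : ℝ) := Nat.floor_le (Real.rpow_nonneg hn0.le _)
  have hP0 : 0 ≤ L0 * q := mul_nonneg (by linarith) hq0.le
  have hqP : q ≤ L0 * q := by nlinarith
  have hPD : (n : ℝ) ^ (-(1 / 100) : ℝ) ≤ (L0 * q) ^ D :=
    hqd.trans (pow_le_pow_left₀ hq0.le hqP D)
  have hlogn : 0 ≤ Real.log n := Real.log_nonneg hn1'
  have hDlog : (D : ℝ) * Real.log n ≤ 20 * n * q ^ D := by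
    have h1 := hnum n hn5
    rw [pow_one, Real.rpow_one] at h1
    have h2 : (n : ℝ) ^ (2 / 100 : ℝ) * (n : ℝ) ^ (-(1 / 100) : ℝ) = (n : ℝ) ^ (1 / 100 : ℝ) := by
      rw [← Real.rpow_add hn0]; norm_num
    have h3 : (0 : ℝ) < (n : ℝ) ^ (-(1 / 100) : ℝ) := Real.rpow_pos_of_pos hn0 _
    calc (D : ℝ) * Real.log n ≤ 2 * (n : ℝ) ^ (1 / 100 : ℝ) * Real.log n :=
          mul_le_mul_of_nonneg_right hDle hlogn
      _ = 2 * Real.log n * (n : ℝ) ^ (2 / 100 : ℝ) * (n : ℝ) ^ (-(1 / 100) : ℝ) := by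
          rw [mul_assoc (2 * Real.log n), h2]; ring
      _ ≤ n * (n : ℝ) ^ (-(1 / 100) : ℝ) := mul_le_mul_of_nonneg_right h1 h3.le
      _ ≤ n * q ^ D := mul_le_mul_of_nonneg_left hqd hn0.le
      _ ≤ 20 * n * q ^ D := by nlinarith [mul_nonneg hn0.le (pow_nonneg hq0.le D)]
  have hdiv : Fintype.card W / 128 ≤ n / 128 := Nat.div_le_div_right hW
  -- each label class is covered
  have hclass : ∀ x : Bool × Fin 400 × Fin 128 × Fin 128,
      _root_.TG73.Cov m L0 n (labG H lab x) q := by
    rintro ⟨x, i, a, b⟩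
    obtain ⟨c1, c2, c3, c4, c5, c6⟩ := hlab i a b
    cases x with
    | true =>
      refine (_root_.TG73.Cov.single ?_).mono hW hm (by linarith) le_rfl hq0.le hLq.le
      refine hlow n hn4 W (labG H lab (true, i, a, b))
        (univ.filter (fun v => ∃ u, H.Adj v u ∧ lab s(v, u) = (true, i, a, b)))
        τ D Δ (L0 * q) ?_ hτ ?_ ?_ hP0 hLq.le hW ?_ hPD hDle hΔle
      · intro v u h
        rw [mem_filter]
        exact ⟨mem_univ _, u, h⟩
      · intro v S hS
        refine (card_le_card ?_).trans (c1 v)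
        intro u hu
        rw [mem_filter]
        exact ⟨mem_univ _, (hS u hu).1, (hS u hu).2⟩
      · intro v S hS
        refine (card_le_card ?_).trans ((c2 v).trans (max_le le_rfl hJ2))
        intro u hu
        rw [mem_filter]
        exact ⟨mem_univ _, hS u hu⟩
      · omega
    | false =>
      have hadj : ∀ u v, (labG H lab (false, i, a, b)).Adj u v → (u ∈ J ∧ v ∉ J) ∨ (u ∉ J ∧ v ∈ J) := by
        intro u v h
        rcases c4 u v h.1 h.2 with h1 | h1
        · exact Or.inr ⟨h1.2.1, h1.1⟩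
        · exact Or.inl ⟨h1.1, h1.2.1⟩
      have h5 : ∀ v, v ∉ J →
          (univ.filter (fun u => (labG H lab (false, i, a, b)).Adj v u)).card ≤ D := by
        intro v hv
        refine le_trans (card_le_card ?_) (c5 v hv)
        intro u hu
        rw [mem_filter] at hu ⊢
        exact hu
      have h6 : 64 * (univ.filter
          (fun v => v ∉ J ∧ ∃ u, (labG H lab (false, i, a, b)).Adj v u)).card ≤ n := by
        have h1 : (univ.filter
          (fun v => v ∉ J ∧ ∃ u, (labG H lab (false, i, a, b)).Adj v u)).card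
              ≤ Fintype.card W / 128 + 1 := by
          refine le_trans (card_le_card ?_) c6
          intro u hu
          rw [mem_filter] at hu ⊢
          exact hu
        omega
      have h7 : ∀ S : Finset W, S.Nonempty → ((univ.filter
          (fun v => v ∉ J ∧ ∀ u ∈ S, (labG H lab (false, i, a, b)).Adj v u)).card : ℝ) ≤
            20 * n * q ^ S.card := by
        intro S hS
        have h1 := Crest.TG69.spread_hub H q hq0 (by linarith) (by omega) ι hFM' J D hDlog
          (fun v => univ.filter (fun u => (labG H lab (false, i, a, b)).Adj v u))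
          (by
            intro v hv u hu
            rw [mem_filter] at hu
            rcases hadj v u hu.2 with h2 | h2
            · exact absurd h2.1 hv
            · exact h2.2)
          (by
            intro v hv u hu
            rw [mem_filter] at hu
            exact hu.2.1)
          h5 S hS
        refine le_trans ?_ h1
        apply Nat.cast_le.2
        apply card_le_card
        intro v hv
        rw [mem_filter] at hv ⊢
        refine ⟨mem_univ _, hv.2.1, ?_⟩
        intro u hu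
        rw [mem_filter]
        exact ⟨mem_univ _, hv.2.2 u hu⟩
      obtain ⟨c, hc⟩ := hγ n hn1 W (labG H lab (false, i, a, b)) J q D hq0 hLq hW hadj hJ1
        h5 hqd h6 h7
      refine ⟨fun j => pieceGraph (labG H lab (false, i, a, b)) c j, ?_, hc⟩
      intro v u hvu
      exact ⟨c ⟨s(v, u), hvu⟩, (TG6.pieceGraph_adj _ c _ v u).2 ⟨hvu, rfl⟩⟩
  let e := Fintype.equivFin (Bool × Fin 400 × Fin 128 × Fin 128)
  refine _root_.TG73.Cov.iUnion (fun j => labG H lab (e.symm j)) (fun j => hclass _) ?_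
  intro a b hab
  refine ⟨e (lab s(a, b)), hab, ?_⟩
  rw [e.symm_apply_apply]

end Crest.TG96
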