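import Crest.Agent.KK_Pr

/-!
# S0071, capture theorem with the chain of staircases: definitions

Paper proof: notes rid=S0071 (helper25 06:09Z; simplification helper53 18:14Z).
-/

set_option autoImplicit false

namespace Crest.TG71.Cap
open Finset

/-- A family of finite sets with a level function on each member. -/
structure Sys (α : Type) [Fintype α] [DecidableEq α] where
  F : Finset (Finset α)
  ℓ : Finset α → α → ℕ
  I : ℕ
  hI : ∀ H ∈ F, ∀ x ∈ H, ℓ H x ≤ I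
  hL : ∀ H ∈ F, ∀ i, (H.filter (fun x => ℓ H x ≤ i)).card ≤ 16 ^ i
  R : ℕ

namespace Sys
variable {α : Type} [Fintype α] [DecidableEq α] (S : Sys α)

/-- the last label -/
def K : ℕ := S.I + S.R

/-- the staircase -/
def d (k i : ℕ) : ℕ := min (i + k) S.K

/-- the fragment of `H` at stage `k` -/
def T (k : ℕ) (τ : α → Fin (S.K + 1)) (H : Finset α) : Finset α :=
  H.filter (fun x => S.d k (S.ℓ H x) < (τ x : ℕ))

/-- `H` is admissible at stage `k` -/
def Adm (k : ℕ) (τ : α → Fin (S.K + 1)) (H : Finset α) : Prop :=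
  ∀ i ≤ S.I, ∀ r < S.d k i,
    4 ^ r * (H.filter (fun x => S.ℓ H x ≤ i ∧ min r (S.d k (S.ℓ H x)) < (τ x : ℕ))).card
      ≤ 16 ^ i * 4 ^ S.I

/-- `H` is a candidate at stage `k` for the hidden member `H0` -/
def Val (k : ℕ) (τ : α → Fin (S.K + 1)) (H0 H : Finset α) : Prop :=
  H ∈ S.F ∧ S.Adm k τ H ∧ S.T k τ H ⊆ H0

/-- the cost of the fragment -/
def cost (k : ℕ) (τ : α → Fin (S.K + 1)) (H : Finset α) : ℕ :=
  ∑ x ∈ S.T k τ H, (S.I + 1 - S.ℓ H x)

/-- `H` is a cheapest candidate -/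
def Best (k : ℕ) (τ : α → Fin (S.K + 1)) (H0 H : Finset α) : Prop :=
  S.Val k τ H0 H ∧ ∀ H', S.Val k τ H0 H' → S.cost k τ H ≤ S.cost k τ H'

/-- the labels capture some member -/
def Capt (τ : α → Fin (S.K + 1)) : Prop :=
  ∃ H ∈ S.F, ∀ i ≤ S.I, ∀ r < S.K,
    4 ^ r * (H.filter (fun x => S.ℓ H x ≤ i ∧ r < (τ x : ℕ))).card ≤ 16 ^ i * 4 ^ S.I

/-- number of fragment elements of level `i` -/
def num (k : ℕ) (τ : α → Fin (S.K + 1)) (H : Finset α) (i : ℕ) : ℕ :=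
  ((S.T k τ H).filter (fun x => S.ℓ H x = i)).card

/-- lower bound for the size of the fragment at stage `k` -/
def vmin (k : ℕ) : ℕ := if k ≤ S.I then 4 * 16 ^ (S.I - k) else 1

/-- possible level sizes at stage `k` -/
def Nset (k : ℕ) : Finset (Fin (S.I + 1) → ℕ) :=
  (Fintype.piFinset fun i : Fin (S.I + 1) => range (16 ^ (i : ℕ) + 1)).filter
    (fun n => S.vmin k ≤ ∑ i, n i ∧ ∀ i : Fin (S.I + 1), S.K ≤ (i : ℕ) + k → n i = 0)

/-- the cheapest fragments with level sizes `n` that fit into some hidden member;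
`U k n τ` is the part of the cover belonging to stage `k` and level sizes `n` -/
def IsFrag (k : ℕ) (n : Fin (S.I + 1) → ℕ) (τ : α → Fin (S.K + 1)) (T : Finset α) : Prop :=
  ∃ H0 ∈ S.F, ∃ H, S.Best k τ H0 H ∧ S.T k τ H = T ∧ ∀ i : Fin (S.I + 1), S.num k τ H i = n i

/-- planting the fragment of the member `H` -/
def plant (k : ℕ) (τ : α → Fin (S.K + 1)) (H : Finset α) : α → Fin (S.K + 1) :=
  fun x => if x ∈ H then
    ⟨min (τ x : ℕ) (S.d k (S.ℓ H x)), lt_of_le_of_lt (min_le_left _ _) (τ x).2⟩ else τ x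

/-- number of fragment elements with new label `≤ r` -/
def NN (k : ℕ) (n : Fin (S.I + 1) → ℕ) (r : ℕ) : ℕ :=
  ∑ i : Fin (S.I + 1), if S.d k i ≤ r then n i else 0

/-- the condition used by the decoder -/
def Dec (k : ℕ) (n : Fin (S.I + 1) → ℕ) (τ' : α → Fin (S.K + 1)) (H : Finset α) : Prop :=
  H ∈ S.F ∧ (∀ x ∈ H, (τ' x : ℕ) ≤ S.d k (S.ℓ H x)) ∧
  ∀ i ≤ S.I, ∀ r < S.d k i,
    4 ^ r * ((H.filter (fun x => S.ℓ H x ≤ i ∧ r < (τ' x : ℕ))).card + S.NN k n r)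
      ≤ 16 ^ i * 4 ^ S.I

/-- the possible positions of level `i` of the fragment, given the decoder's member `H` -/
def V (k : ℕ) (τ' : α → Fin (S.K + 1)) (H : Finset α) (i : ℕ) : Finset α :=
  H.filter (fun x => S.ℓ H x = i ∧ (τ' x : ℕ) = S.d k i)

/-- the label weights -/
def WOK (p : ℝ) (w : Fin (S.K + 1) → ℝ) : Prop :=
  (∀ l, 0 ≤ w l) ∧ ∑ l, w l = 1 ∧
    ∀ l : Fin (S.K + 1), (l : ℕ) < S.K → 2 ^ 22 * p * 8 ^ (l : ℕ) ≤ w l * 8 ^ S.I

/-- the family is not `p`-small -/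
def NotSmall (p : ℝ) : Prop :=
  ∀ G : Finset (Finset α), (∀ H ∈ S.F, ∃ T ∈ G, T ⊆ H) → 1 / 2 < ∑ T ∈ G, p ^ T.card

end Sys

end Crest.TG71.Cap
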