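import Crest.Agent.TG_CapDefs

/-!
# S0071, capture theorem: if nothing is captured there is a bad fragment (P1)
-/

set_option autoImplicit false

namespace Crest.TG71.Cap
open Finset
namespace Sys
variable {α : Type} [Fintype α] [DecidableEq α] (S : Sys α)

/-- no fragment elements where the staircase has reached the last label -/
theorem num_eq_zero (k : ℕ) (τ : α → Fin (S.K + 1)) (H : Finset α) (i : ℕ) (h : S.K ≤ i + k) :
    S.num k τ H i = 0 := by
  unfold num
  rw [card_eq_zero, filter_eq_empty_iff]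
  intro x hx h2
  unfold T at hx
  rw [mem_filter] at hx
  obtain ⟨h0, h1⟩ := hx
  unfold d at h1
  rw [h2, min_eq_right h] at h1
  have h3 := (τ x).2
  omega

theorem num_le (k : ℕ) (τ : α → Fin (S.K + 1)) (H : Finset α) (hH : H ∈ S.F) (i : ℕ) :
    S.num k τ H i ≤ 16 ^ i := by
  refine le_trans (card_le_card ?_) (S.hL H hH i)
  intro x hx
  unfold T at hx
  simp only [mem_filter] at hx ⊢
  exact ⟨hx.1.1, hx.2.le⟩

/-- at stage 0 all thresholds are vacuous -/
theorem val_zero (τ : α → Fin (S.K + 1)) (H0 : Finset α) (h0 : H0 ∈ S.F) :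
    S.Val 0 τ H0 H0 := by
  refine ⟨h0, ?_, filter_subset _ _⟩
  intro i hi r hr
  have h1 : (H0.filter (fun x => S.ℓ H0 x ≤ i ∧ min r (S.d 0 (S.ℓ H0 x)) < (τ x : ℕ))).card
      ≤ 16 ^ i := by
    refine le_trans (card_le_card ?_) (S.hL H0 h0 i)
    intro x hx
    simp only [mem_filter] at hx ⊢
    exact ⟨hx.1, hx.2.1⟩
  have h2 : r ≤ S.I := by
    have : S.d 0 i ≤ i := by
      unfold d
      simp
    omega
  have h3 : 4 ^ r ≤ 4 ^ S.I := Nat.pow_le_pow_right (by norm_num) h2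
  calc _ ≤ 4 ^ S.I * 16 ^ i := Nat.mul_le_mul h3 h1
    _ = 16 ^ i * 4 ^ S.I := Nat.mul_comm _ _

theorem capt_of_val (τ : α → Fin (S.K + 1)) (H0 H : Finset α) (h : S.Val S.K τ H0 H) :
    S.Capt τ := by
  refine ⟨H, h.1, ?_⟩
  intro i hi r hr
  have hd : ∀ j, S.d S.K j = S.K := by
    intro j
    unfold d
    exact min_eq_right (Nat.le_add_left _ _)
  have h1 := h.2.1 i hi r (by rw [hd]; exact hr)
  simp only [hd, min_eq_left hr.le] at h1
  exact h1

theorem T_succ (k : ℕ) (τ : α → Fin (S.K + 1)) (H : Finset α) :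
    S.T (k + 1) τ H ⊆ S.T k τ H := by
  intro x hx
  unfold T d at *
  simp only [mem_filter] at hx ⊢
  refine ⟨hx.1, ?_⟩
  omega

theorem sum_num (k : ℕ) (τ : α → Fin (S.K + 1)) (H : Finset α) (hH : H ∈ S.F) :
    ∑ i : Fin (S.I + 1), S.num k τ H i = (S.T k τ H).card := by
  classical
  unfold num
  rw [card_eq_sum_card_fiberwise (s := S.T k τ H)
    (f := fun x => (Fin.ofNat (S.I + 1) (S.ℓ H x) : Fin (S.I + 1)))
    (t := univ) (fun e _ => by simp)]
  refine sum_congr rfl fun i _ => ?_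
  congr 1
  ext x
  simp only [mem_filter]
  constructor
  · rintro ⟨h1, h2⟩
    refine ⟨h1, ?_⟩
    have := S.hI H hH x (filter_subset _ _ h1)
    rw [Fin.ext_iff, Fin.val_ofNat, Nat.mod_eq_of_lt (by omega), h2]
  · rintro ⟨h1, h2⟩
    refine ⟨h1, ?_⟩
    have := S.hI H hH x (filter_subset _ _ h1)
    rw [Fin.ext_iff, Fin.val_ofNat, Nat.mod_eq_of_lt (by omega)] at h2
    exact h2

/-- If `H` is a candidate at stage `k` but not at stage `k+1` then its fragment is large. -/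
theorem step (k : ℕ) (hk : k < S.K) (τ : α → Fin (S.K + 1)) (H0 H : Finset α)
    (h : S.Val k τ H0 H) (h' : ¬ S.Val (k + 1) τ H0 H) :
    S.vmin k ≤ ∑ i : Fin (S.I + 1), S.num k τ H i := by
  have hA : ¬ S.Adm (k + 1) τ H := by
    intro hA
    exact h' ⟨h.1, hA, (S.T_succ k τ H).trans h.2.2⟩
  unfold Adm at hA
  push Not at hA
  obtain ⟨i, hi, r, hr, hlt⟩ := hA
  have hd : ∀ j, S.d k j ≤ S.d (k + 1) j := fun j => by unfold d; omega
  have hr2 : S.d k i ≤ r := by
    by_contra hc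
    push Not at hc
    have h1 := h.2.1 i hi r hc
    have h2 : (H.filter (fun x => S.ℓ H x ≤ i ∧ min r (S.d (k + 1) (S.ℓ H x)) < (τ x : ℕ))).card ≤
        (H.filter (fun x => S.ℓ H x ≤ i ∧ min r (S.d k (S.ℓ H x)) < (τ x : ℕ))).card := by
      apply card_le_card
      intro x hx
      simp only [mem_filter] at hx ⊢
      obtain ⟨h0, he1, he2⟩ := hx
      refine ⟨h0, he1, lt_of_le_of_lt ?_ he2⟩
      have := hd (S.ℓ H x)
      omega
    have h3 := Nat.mul_le_mul_left (4 ^ r) h2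
    omega
  have hik : i + k < S.K := by unfold d at hr hr2; omega
  have hrr : r = i + k := by unfold d at hr hr2; omega
  subst hrr
  rw [S.sum_num k τ H h.1]
  set c := (H.filter (fun x => S.ℓ H x ≤ i ∧ min (i + k) (S.d (k + 1) (S.ℓ H x)) < (τ x : ℕ))).card
    with hcdef
  have hc1 : c ≤ (S.T k τ H).card := by
    apply card_le_card
    intro x hx
    unfold T
    simp only [mem_filter] at hx ⊢
    obtain ⟨h0, he1, he2⟩ := hx
    refine ⟨h0, lt_of_le_of_lt ?_ he2⟩
    unfold d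
    omega
  have hc2 : c ≤ 16 ^ i := by
    refine le_trans (card_le_card ?_) (S.hL H h.1 i)
    intro x hx
    simp only [mem_filter] at hx ⊢
    exact ⟨hx.1, hx.2.1⟩
  have hI : S.I < i + k := by
    by_contra hc
    push Not at hc
    have h1 : 4 ^ (i + k) ≤ 4 ^ S.I := Nat.pow_le_pow_right (by norm_num) hc
    have h2 : 4 ^ (i + k) * c ≤ 4 ^ S.I * 16 ^ i := Nat.mul_le_mul h1 hc2
    rw [Nat.mul_comm (4 ^ S.I)] at h2
    omega
  unfold vmin
  split_ifs with hkI
  · obtain ⟨j, hj⟩ := Nat.exists_eq_add_of_le hkI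
    obtain ⟨m, hm⟩ := Nat.exists_eq_add_of_lt hI
    have hi' : i = j + (m + 1) := by omega
    have h7 : S.I - k = j := by omega
    rw [h7]
    -- 16 ^ i * 4 ^ I < 4 ^ (i + k) * c, with i + k = I + (m + 1)
    have e1 : i + k = S.I + (m + 1) := by omega
    rw [e1, pow_add, hi', pow_add] at hlt
    have e2 : (16 : ℕ) ^ (m + 1) = 4 ^ (m + 1) * 4 ^ (m + 1) := by
      rw [← mul_pow]; norm_num
    rw [e2] at hlt
    have e3 : 16 ^ j * (4 ^ (m + 1) * 4 ^ (m + 1)) * 4 ^ S.I =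
        (4 ^ S.I * 4 ^ (m + 1)) * (4 ^ (m + 1) * 16 ^ j) := by ring
    rw [e3] at hlt
    have h5 : 4 ^ (m + 1) * 16 ^ j < c := Nat.lt_of_mul_lt_mul_left hlt
    have h6 : 4 * 16 ^ j ≤ 4 ^ (m + 1) * 16 ^ j := by
      apply Nat.mul_le_mul_right
      calc 4 = 4 ^ 1 := (pow_one _).symm
        _ ≤ 4 ^ (m + 1) := Nat.pow_le_pow_right (by norm_num) (by omega)
    omega
  · have h8 : 0 < c := by
      rcases Nat.eq_zero_or_pos c with h0 | h0
      · rw [h0] at hlt
        omega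
      · exact h0
    omega

/-- **P1.** If nothing is captured there is, for every member `H0`, a bad fragment inside `H0`. -/
theorem exists_bad (τ : α → Fin (S.K + 1)) (hc : ¬ S.Capt τ) (H0 : Finset α) (h0 : H0 ∈ S.F) :
    ∃ k ∈ range S.K, ∃ n ∈ S.Nset k, ∃ T, S.IsFrag k n τ T ∧ T ⊆ H0 := by
  classical
  have hK : ∀ H, ¬ S.Val S.K τ H0 H := fun g hg => hc (S.capt_of_val τ H0 g hg)
  have hex : ∃ k, ∀ H, ¬ S.Val k τ H0 H := ⟨S.K, hK⟩
  set m := Nat.find hex with hm
  have hm1 : ∀ H, ¬ S.Val m τ H0 H := Nat.find_spec hex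
  have hmK : m ≤ S.K := Nat.find_min' hex hK
  have hm0 : m ≠ 0 := by
    intro h00
    rw [h00] at hm1
    exact hm1 H0 (S.val_zero τ H0 h0)
  obtain ⟨k, hk⟩ : ∃ k, m = k + 1 := ⟨m - 1, by omega⟩
  have hkK : k < S.K := by omega
  have hval : ∃ H, S.Val k τ H0 H := by
    have := Nat.find_min hex (show k < Nat.find hex by omega)
    push Not at this
    exact this
  obtain ⟨g1, hg1⟩ := hval
  obtain ⟨g, hg, hgmin⟩ := Finset.exists_min_image (univ.filter fun H => S.Val k τ H0 H)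
    (fun H => S.cost k τ H) ⟨g1, by simpa using hg1⟩
  rw [mem_filter] at hg
  refine ⟨k, mem_range.2 hkK, fun i => S.num k τ g i, ?_, S.T k τ g,
    ⟨H0, h0, g, ⟨hg.2, fun g' hg' => ?_⟩, rfl, fun i => rfl⟩, hg.2.2.2⟩
  · unfold Nset
    rw [mem_filter, Fintype.mem_piFinset]
    refine ⟨fun i => ?_, ?_, fun i hi => ?_⟩
    · rw [mem_range]
      exact Nat.lt_succ_of_le (S.num_le k τ g hg.2.1 i)
    · refine S.step k hkK τ H0 g hg.2 ?_
      rw [← hk]
      exact hm1 g
    · exact S.num_eq_zero k τ g i hi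
  · exact hgmin g' (by simpa using hg')

end Sys
end Crest.TG71.Cap
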