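import Crest.Agent.TG_CapDefs

set_option autoImplicit false

namespace Crest.TG71.Cap
open Finset

namespace Sys
variable {α : Type} [Fintype α] [DecidableEq α] (S : Sys α)

theorem plant_val (k : ℕ) (τ : α → Fin (S.K + 1)) (H : Finset α) (x : α) (hx : x ∈ H) :
    (S.plant k τ H x : ℕ) = min (τ x : ℕ) (S.d k (S.ℓ H x)) := by
  unfold plant
  rw [if_pos hx]

theorem plant_of_not (k : ℕ) (τ : α → Fin (S.K + 1)) (H : Finset α) (x : α)
    (h : x ∉ S.T k τ H) : S.plant k τ H x = τ x := by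
  by_cases hx : x ∈ H
  · apply Fin.ext
    rw [S.plant_val _ _ _ _ hx]
    apply min_eq_left
    by_contra hlt
    exact h (mem_filter.2 ⟨hx, not_le.1 hlt⟩)
  · unfold plant
    rw [if_neg hx]

theorem plant_of_mem (k : ℕ) (τ : α → Fin (S.K + 1)) (H : Finset α) (x : α)
    (h : x ∈ S.T k τ H) : (S.plant k τ H x : ℕ) = S.d k (S.ℓ H x) := by
  have h' := mem_filter.1 h
  rw [S.plant_val _ _ _ _ h'.1]
  exact min_eq_right (le_of_lt h'.2)

/-- `NN k n r` counts the fragment elements with new label `≤ r`. -/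
theorem NN_eq' (k : ℕ) (n : Fin (S.I + 1) → ℕ) (τ : α → Fin (S.K + 1)) (H : Finset α)
    (hI : ∀ x ∈ H, S.ℓ H x ≤ S.I)
    (hn : ∀ i : Fin (S.I + 1), S.num k τ H i = n i) (r : ℕ) :
    S.NN k n r = ((S.T k τ H).filter (fun x => S.d k (S.ℓ H x) ≤ r)).card := by
  classical
  have h1 := Finset.card_eq_sum_card_fiberwise
    (s := (S.T k τ H).filter (fun x => S.d k (S.ℓ H x) ≤ r))
    (t := range (S.I + 1)) (f := fun x => S.ℓ H x) (by
      intro x hx
      have hx' := mem_filter.1 (mem_coe.1 hx)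
      have := hI x (mem_filter.1 hx'.1).1
      exact mem_coe.2 (mem_range.2 (Nat.lt_succ_of_le this)))
  rw [h1, Finset.sum_range]
  unfold NN
  refine sum_congr rfl fun b _ => ?_
  by_cases hb : S.d k b ≤ r
  · rw [if_pos hb, ← hn b]
    unfold num
    apply congrArg card
    ext x
    simp only [mem_filter]
    constructor
    · rintro ⟨h1, h2⟩
      exact ⟨⟨h1, by rw [h2]; exact hb⟩, h2⟩
    · rintro ⟨⟨h1, _⟩, h2⟩
      exact ⟨h1, h2⟩
  · rw [if_neg hb, eq_comm, card_eq_zero, filter_eq_empty_iff]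
    intro x hx hbx
    apply hb
    have := (mem_filter.1 hx).2
    rw [hbx] at this
    exact this

/-- the member whose fragment is planted satisfies the decoder condition -/
theorem dec_plant (k : ℕ) (n : Fin (S.I + 1) → ℕ) (τ : α → Fin (S.K + 1)) (H : Finset α)
    (hF : H ∈ S.F) (hI : ∀ x ∈ H, S.ℓ H x ≤ S.I)
    (h : S.Adm k τ H) (hn : ∀ i : Fin (S.I + 1), S.num k τ H i = n i) :
    S.Dec k n (S.plant k τ H) H := by
  refine ⟨hF, fun x hx => ?_, fun i hi r hr => ?_⟩
  · rw [S.plant_val _ _ _ _ hx]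
    exact min_le_right _ _
  · rw [S.NN_eq' k n τ H hI hn r]
    refine le_trans (Nat.mul_le_mul_left _ ?_) (h i hi r hr)
    rw [← card_union_of_disjoint]
    · apply card_le_card
      intro x hx
      rw [mem_union, mem_filter, mem_filter] at hx
      rw [mem_filter]
      rcases hx with ⟨h1, h2, h3⟩ | ⟨h1, h2⟩
      · rw [S.plant_val _ _ _ _ h1] at h3
        refine ⟨h1, h2, ?_⟩
        have := lt_of_lt_of_le h3 (min_le_left _ _)
        exact lt_of_le_of_lt (min_le_left _ _) this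
      · have h1' := mem_filter.1 h1
        refine ⟨h1'.1, ?_, lt_of_le_of_lt (min_le_right _ _) h1'.2⟩
        by_contra hcon
        push Not at hcon
        unfold d at h2 hr
        omega
    · rw [disjoint_left]
      intro x h1 h2
      rw [mem_filter] at h1 h2
      have h3 := h1.2.2
      rw [S.plant_val _ _ _ _ h1.1] at h3
      have h5 : r < S.d k (S.ℓ H x) := lt_of_lt_of_le h3 (min_le_right _ _)
      omega

/-- Every fragment element (old labels) of a decoded `H'` belongs to the planted fragment, at a level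
at most its level in `H'`. -/
theorem mem_of_dec (k : ℕ) (n : Fin (S.I + 1) → ℕ) (τ : α → Fin (S.K + 1)) (H H' : Finset α)
    (hd : S.Dec k n (S.plant k τ H) H') (x : α) (hx : x ∈ S.T k τ H') :
    x ∈ S.T k τ H ∧ S.ℓ H x ≤ S.ℓ H' x := by
  have hx' := mem_filter.1 hx
  have h2 := hd.2.1 x hx'.1
  have he2 := hx'.2
  have hT : x ∈ S.T k τ H := by
    by_contra hc
    rw [S.plant_of_not _ _ _ _ hc] at h2
    omega
  refine ⟨hT, ?_⟩
  have h5 := S.plant_of_mem k τ H x hT
  rw [h5] at h2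
  have h6 : (τ x : ℕ) < S.K + 1 := (τ x).2
  unfold d at h2 he2
  omega

/-- every decoded member is a candidate -/
theorem val_of_dec (k : ℕ) (n : Fin (S.I + 1) → ℕ) (τ : α → Fin (S.K + 1)) (H0 H H' : Finset α)
    (hI : ∀ x ∈ H, S.ℓ H x ≤ S.I)
    (h : S.Val k τ H0 H) (hn : ∀ i : Fin (S.I + 1), S.num k τ H i = n i)
    (hd : S.Dec k n (S.plant k τ H) H') : S.Val k τ H0 H' := by
  refine ⟨hd.1, ?_, ?_⟩
  · intro i hi r hr
    have h1 := hd.2.2 i hi r hr
    refine le_trans (Nat.mul_le_mul_left _ ?_) h1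
    rw [S.NN_eq' k n τ H hI hn r]
    refine le_trans (card_le_card ?_) (card_union_le _ _)
    intro x hx
    rw [mem_filter] at hx
    rw [mem_union, mem_filter, mem_filter]
    by_cases hc : r < (S.plant k τ H x : ℕ)
    · left
      exact ⟨hx.1, hx.2.1, hc⟩
    · right
      have h2 := hd.2.1 x hx.1
      have hT : x ∈ S.T k τ H := by
        by_contra hcc
        rw [S.plant_of_not _ _ _ _ hcc] at h2 hc
        have := hx.2.2
        omega
      refine ⟨hT, ?_⟩
      have h5 := S.plant_of_mem k τ H x hT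
      omega
  · intro x hx
    exact h.2.2 (S.mem_of_dec k n τ H H' hd x hx).1

/-- Minimality: the fragment of a decoded member is the planted fragment, with the same levels. -/
theorem best_dec (k : ℕ) (n : Fin (S.I + 1) → ℕ) (τ : α → Fin (S.K + 1)) (H0 H H' : Finset α)
    (hI : ∀ H ∈ S.F, ∀ x ∈ H, S.ℓ H x ≤ S.I)
    (h : S.Best k τ H0 H) (hn : ∀ i : Fin (S.I + 1), S.num k τ H i = n i)
    (hd : S.Dec k n (S.plant k τ H) H') :
    S.T k τ H' = S.T k τ H ∧ ∀ x ∈ S.T k τ H, S.ℓ H' x = S.ℓ H x := by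
  have hHF := h.1.1
  have hval := S.val_of_dec k n τ H0 H H' (hI H hHF) h.1 hn hd
  have hcost := h.2 H' hval
  have hsub : S.T k τ H' ⊆ S.T k τ H := fun x hx => (S.mem_of_dec k n τ H H' hd x hx).1
  have hle : ∀ x ∈ S.T k τ H', S.I + 1 - S.ℓ H' x ≤ S.I + 1 - S.ℓ H x := by
    intro x hx
    have := (S.mem_of_dec k n τ H H' hd x hx).2
    omega
  have h1 : S.cost k τ H' ≤ ∑ x ∈ S.T k τ H', (S.I + 1 - S.ℓ H x) := sum_le_sum hle
  have h2 : ∑ x ∈ S.T k τ H', (S.I + 1 - S.ℓ H x) +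
      ∑ x ∈ S.T k τ H \ S.T k τ H', (S.I + 1 - S.ℓ H x) = S.cost k τ H := by
    unfold cost
    rw [add_comm]
    exact sum_sdiff hsub
  have heq : S.T k τ H' = S.T k τ H := by
    apply subset_antisymm hsub
    intro x hx
    by_contra hc
    have h3 : S.I + 1 - S.ℓ H x ≤ ∑ x ∈ S.T k τ H \ S.T k τ H', (S.I + 1 - S.ℓ H x) :=
      single_le_sum (f := fun x => S.I + 1 - S.ℓ H x) (fun _ _ => Nat.zero_le _)
        (mem_sdiff.2 ⟨hx, hc⟩)
    have h4 := hI H hHF x (mem_filter.1 hx).1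
    omega
  refine ⟨heq, fun x hx => ?_⟩
  by_contra hne
  have hx' : x ∈ S.T k τ H' := by rw [heq]; exact hx
  have h5 := (S.mem_of_dec k n τ H H' hd x hx').2
  have h6 : S.cost k τ H' < ∑ x ∈ S.T k τ H', (S.I + 1 - S.ℓ H x) := by
    refine sum_lt_sum hle ⟨x, hx', ?_⟩
    have h7 := hI H hHF x (mem_filter.1 hx).1
    omega
  omega

/-- P2: the decoded member determines the fragment, which lies in the sets `V`. -/
theorem frag_dec (k : ℕ) (n : Fin (S.I + 1) → ℕ) (τ : α → Fin (S.K + 1)) (H0 H H' : Finset α)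
    (hB : S.Best k τ H0 H) (hn : ∀ i : Fin (S.I + 1), S.num k τ H i = n i)
    (hD : S.Dec k n (S.plant k τ H) H') :
    S.T k τ H' = S.T k τ H ∧ (∀ x ∈ S.T k τ H, S.ℓ H' x = S.ℓ H x) ∧
      ∀ i : Fin (S.I + 1), (S.T k τ H).filter (fun x => S.ℓ H' x = i) ⊆
        S.V k (S.plant k τ H) H' i ∧
        ((S.T k τ H).filter (fun x => S.ℓ H' x = i)).card = n i := by
  obtain ⟨h1, h2⟩ := S.best_dec k n τ H0 H H' S.hI hB hn hD
  refine ⟨h1, h2, fun i => ⟨?_, ?_⟩⟩
  · intro x hx
    rw [mem_filter] at hx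
    have hx1 : x ∈ S.T k τ H' := by rw [h1]; exact hx.1
    have hxH' : x ∈ H' := (mem_filter.1 hx1).1
    unfold V
    rw [mem_filter]
    refine ⟨hxH', hx.2, ?_⟩
    rw [S.plant_of_mem k τ H x hx.1, ← h2 x hx.1, hx.2]
  · rw [← hn i]
    unfold num
    apply congrArg card
    apply filter_congr
    intro x hx
    rw [h2 x hx]

/-- every fragment element of a decoded member lies in one of the sets `V` -/
theorem T_subset_V (k : ℕ) (n : Fin (S.I + 1) → ℕ) (τ : α → Fin (S.K + 1)) (H0 H H' : Finset α)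
    (hB : S.Best k τ H0 H) (hn : ∀ i : Fin (S.I + 1), S.num k τ H i = n i)
    (hD : S.Dec k n (S.plant k τ H) H') (x : α) (hx : x ∈ S.T k τ H) :
    x ∈ S.V k (S.plant k τ H) H' (S.ℓ H' x) := by
  obtain ⟨h1, h2⟩ := S.best_dec k n τ H0 H H' S.hI hB hn hD
  have hx1 : x ∈ S.T k τ H' := by rw [h1]; exact hx
  unfold V
  rw [mem_filter]
  refine ⟨(mem_filter.1 hx1).1, rfl, ?_⟩
  rw [S.plant_of_mem k τ H x hx, h2 x hx]

/-- size of the decoder lists -/
theorem card_V_le (k : ℕ) (n : Fin (S.I + 1) → ℕ) (τ' : α → Fin (S.K + 1)) (H : Finset α)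
    (hD : S.Dec k n τ' H) (i : ℕ) (hi : i ≤ S.I) (hik : i + k < S.K) :
    (S.V k τ' H i).card ≤ min (16 ^ i) (4 * 16 ^ i * 4 ^ S.I / 4 ^ (i + k)) := by
  have h1 : (S.V k τ' H i).card ≤ 16 ^ i := by
    refine le_trans (card_le_card ?_) (S.hL H hD.1 i)
    intro x hx
    unfold V at hx
    rw [mem_filter] at hx ⊢
    exact ⟨hx.1, hx.2.1.le⟩
  refine le_min h1 ?_
  rw [Nat.le_div_iff_mul_le (by positivity)]
  rcases Nat.eq_zero_or_pos (i + k) with h0 | h0
  · have hi0 : i = 0 := by omega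
    subst hi0
    rw [h0]
    have h4 : 1 ≤ 4 ^ S.I := Nat.one_le_pow _ _ (by norm_num)
    simp only [pow_zero] at h1 ⊢
    omega
  · have hd : S.d k i = i + k := by
      unfold d
      exact min_eq_left hik.le
    have h2 := hD.2.2 i hi (i + k - 1) (by rw [hd]; omega)
    have h3 : (S.V k τ' H i).card ≤
        (H.filter (fun x => S.ℓ H x ≤ i ∧ i + k - 1 < (τ' x : ℕ))).card := by
      apply card_le_card
      intro x hx
      unfold V at hx
      rw [mem_filter] at hx ⊢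
      refine ⟨hx.1, hx.2.1.le, ?_⟩
      rw [hx.2.2, hd]
      omega
    have h4 : 4 ^ (i + k) = 4 * 4 ^ (i + k - 1) := by
      rw [← pow_succ']
      congr 1
      omega
    rw [h4]
    calc (S.V k τ' H i).card * (4 * 4 ^ (i + k - 1))
        = 4 * (4 ^ (i + k - 1) * (S.V k τ' H i).card) := by ring
      _ ≤ 4 * (4 ^ (i + k - 1) * ((H.filter (fun x => S.ℓ H x ≤ i ∧
            i + k - 1 < (τ' x : ℕ))).card + S.NN k n (i + k - 1))) := by
          apply Nat.mul_le_mul_left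
          apply Nat.mul_le_mul_left
          omega
      _ ≤ 4 * (16 ^ i * 4 ^ S.I) := Nat.mul_le_mul_left _ h2
      _ = 4 * 16 ^ i * 4 ^ S.I := by ring

end Sys

end Crest.TG71.Cap
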