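import Mathlib

/-! S0073 sparse range: the potential sum over the centres. -/

set_option autoImplicit false

namespace Crest.TG.Sparse
open Finset

theorem star_sum {W : Type} (C : Finset W) (deg : W → ℕ) (n : ℕ) (q K : ℝ) (hq : 0 < q)
    (hK : 2 ≤ K) (hdeg : ∀ u ∈ C, 1 ≤ deg u) (hdn : ∀ u ∈ C, deg u ≤ n)
    (hc : ∀ d : ℕ, 1 ≤ d → ((C.filter (fun u => d ≤ deg u)).card : ℝ) ≤
      2 * Real.exp 1 * ((n : ℝ) * (n.choose d : ℝ) * q ^ d))
    (s : ℕ → ℝ)
    (hs : ∀ u ∈ C, s (deg u) = min (1 / 2) ((n.choose (deg u) : ℝ) * q ^ (deg u) * K ^ (deg u))) :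
    ∑ u ∈ C, 1 / s (deg u) ≤ 2 * (C.card : ℝ) + 2 * Real.exp 1 * n * (2 / K) := by
  classical
  have hK0 : (0 : ℝ) < K := by linarith
  have hg0 : ∀ d : ℕ, d ≤ n → 0 < (n.choose d : ℝ) * q ^ d * K ^ d := by
    intro d hd
    have : 0 < n.choose d := Nat.choose_pos hd
    have : (0 : ℝ) < (n.choose d : ℝ) := by exact_mod_cast this
    positivity
  have h1 : ∀ u ∈ C, 1 / s (deg u) ≤
      2 + 1 / ((n.choose (deg u) : ℝ) * q ^ (deg u) * K ^ (deg u)) := by
    intro u hu
    rw [hs u hu]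
    have hp := hg0 _ (hdn u hu)
    rcases min_cases (1 / 2 : ℝ) ((n.choose (deg u) : ℝ) * q ^ (deg u) * K ^ (deg u)) with h | h
    · rw [h.1]
      have : 0 < 1 / ((n.choose (deg u) : ℝ) * q ^ (deg u) * K ^ (deg u)) := by positivity
      norm_num
      norm_num at this
      linarith
    · rw [h.1]
      linarith
  refine (Finset.sum_le_sum h1).trans ?_
  rw [Finset.sum_add_distrib, Finset.sum_const, nsmul_eq_mul]
  have h2 : ∑ u ∈ C, 1 / ((n.choose (deg u) : ℝ) * q ^ (deg u) * K ^ (deg u)) ≤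
      2 * Real.exp 1 * n * (2 / K) := by
    have h3 : ∑ u ∈ C, 1 / ((n.choose (deg u) : ℝ) * q ^ (deg u) * K ^ (deg u)) =
        ∑ d ∈ C.image deg, (C.filter (fun u => deg u = d)).card •
          (1 / ((n.choose d : ℝ) * q ^ d * K ^ d)) :=
      Finset.sum_comp (fun d : ℕ => 1 / ((n.choose d : ℝ) * q ^ d * K ^ d)) deg
    rw [h3]
    have h4 : ∀ d ∈ C.image deg, (C.filter (fun u => deg u = d)).card •
          (1 / ((n.choose d : ℝ) * q ^ d * K ^ d)) ≤ 2 * Real.exp 1 * n * (1 / K) ^ d := by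
      intro d hd
      obtain ⟨u, hu, rfl⟩ := Finset.mem_image.1 hd
      have hp := hg0 _ (hdn u hu)
      have h5 := hc (deg u) (hdeg u hu)
      have h6 : ((C.filter (fun v => deg v = deg u)).card : ℝ) ≤
          ((C.filter (fun v => deg u ≤ deg v)).card : ℝ) := by
        exact_mod_cast Finset.card_le_card (fun v hv => by
          rw [Finset.mem_filter] at hv ⊢
          exact ⟨hv.1, hv.2.ge⟩)
      rw [nsmul_eq_mul]
      have hKd : (0 : ℝ) < K ^ (deg u) := by positivity
      have hch : (0 : ℝ) < (n.choose (deg u) : ℝ) := by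
        exact_mod_cast Nat.choose_pos (hdn u hu)
      have hqd : (0 : ℝ) < q ^ (deg u) := by positivity
      calc ((C.filter (fun v => deg v = deg u)).card : ℝ) *
            (1 / ((n.choose (deg u) : ℝ) * q ^ (deg u) * K ^ (deg u)))
          ≤ (2 * Real.exp 1 * ((n : ℝ) * (n.choose (deg u) : ℝ) * q ^ (deg u))) *
            (1 / ((n.choose (deg u) : ℝ) * q ^ (deg u) * K ^ (deg u))) := by
            apply mul_le_mul_of_nonneg_right (h6.trans h5)
            positivity
        _ = 2 * Real.exp 1 * n * (1 / K) ^ (deg u) := by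
            rw [div_pow, one_pow]
            field_simp
    refine (Finset.sum_le_sum h4).trans ?_
    rw [← Finset.mul_sum]
    apply mul_le_mul_of_nonneg_left _ (by positivity)
    have h5 : C.image deg ⊆ Finset.Ico 1 (n + 1) := by
      intro d hd
      obtain ⟨u, hu, rfl⟩ := Finset.mem_image.1 hd
      rw [Finset.mem_Ico]
      exact ⟨hdeg u hu, Nat.lt_succ_of_le (hdn u hu)⟩
    have hx1 : (1 / K : ℝ) ≤ 1 / 2 := by
      rw [div_le_div_iff₀ hK0 (by norm_num)]
      linarith
    have hx0 : (0 : ℝ) < 1 / K := by positivity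
    calc ∑ i ∈ C.image deg, (1 / K) ^ i ≤ ∑ i ∈ Finset.Ico 1 (n + 1), (1 / K) ^ i :=
          Finset.sum_le_sum_of_subset_of_nonneg h5 (fun i _ _ => by positivity)
      _ ≤ (1 / K) ^ 1 / (1 - 1 / K) := geom_sum_Ico_le_of_lt_one hx0.le (by linarith)
      _ ≤ 2 / K := by
          rw [pow_one, div_le_iff₀ (by linarith)]
          have : 2 / K * (1 - 1 / K) = (1 / K) * (2 * (1 - 1 / K)) := by ring
          rw [this]
          have : (1 : ℝ) ≤ 2 * (1 - 1 / K) := by linarith
          nlinarith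
  linarith

end Crest.TG.Sparse
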