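import Crest.Agent.TH_G1

/-! # TH_G2 (task TH-G2): Gaussian cell weights -/

set_option autoImplicit false
open Matrix MeasureTheory Set Filter
open scoped Topology ENNReal

namespace Crest.Agent.TH
variable {η : ℝ} {N : ℕ}

/-! ### auxiliary facts -/

private theorem G2_cgk (t : ℝ) : Continuous (gk t) := by
  unfold gk
  fun_prop

private theorem G2_cgk1 (t : ℝ) : Continuous (gk1 t) := by
  have h := G2_cgk t
  unfold gk1
  fun_prop

private theorem G2_cgk2 (t : ℝ) : Continuous (gk2 t) := by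
  have h := G2_cgk t
  unfold gk2
  fun_prop

private theorem G2_ii (t p a b : ℝ) :
    IntervalIntegrable (fun x => gk t (x - p)) volume a b :=
  ((G2_cgk t).comp (continuous_id.sub continuous_const)).intervalIntegrable a b

private theorem G2_ii1 (t p a b : ℝ) :
    IntervalIntegrable (fun x => gk1 t (x - p)) volume a b :=
  ((G2_cgk1 t).comp (continuous_id.sub continuous_const)).intervalIntegrable a b

private theorem G2_ii2 (t p a b : ℝ) :
    IntervalIntegrable (fun x => gk2 t (x - p)) volume a b :=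
  ((G2_cgk2 t).comp (continuous_id.sub continuous_const)).intervalIntegrable a b

private theorem G2_dwt_eq (p : ℝ) {t : ℝ} (ht : 0 < t) (k : Fin (2 * N)) :
    dwt η p t k = gk t (lft η k + η - p) - gk t (lft η k - p) := by
  unfold dwt
  exact intervalIntegral.integral_eq_sub_of_hasDerivAt (f := fun x => gk t (x - p))
    (fun x _ => (hasDerivAt_gk ht (x - p)).comp_sub_const x p) (G2_ii1 t p _ _)

private theorem G2_ddwt_eq (p : ℝ) {t : ℝ} (ht : 0 < t) (k : Fin (2 * N)) :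
    ddwt η p t k = gk1 t (lft η k + η - p) - gk1 t (lft η k - p) := by
  unfold ddwt
  exact intervalIntegral.integral_eq_sub_of_hasDerivAt (f := fun x => gk1 t (x - p))
    (fun x _ => (hasDerivAt_gk1 ht (x - p)).comp_sub_const x p) (G2_ii2 t p _ _)

private noncomputable def G2_Phi (z : ℝ) : ℝ := ∫ x in (0 : ℝ)..z, gk 1 x

private theorem G2_Phi_deriv (z : ℝ) : HasDerivAt G2_Phi (gk 1 z) z :=
  intervalIntegral.integral_hasDerivAt_right ((G2_cgk 1).intervalIntegrable _ _)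
    ((G2_cgk 1).stronglyMeasurableAtFilter _ _) (G2_cgk 1).continuousAt

private theorem G2_scale {t : ℝ} (ht : 0 < t) (y : ℝ) :
    gk t y = gk 1 (y / Real.sqrt t) / Real.sqrt t := by
  unfold gk
  have h1 : Real.sqrt t ^ 2 = t := Real.sq_sqrt ht.le
  have h2 : Real.sqrt (2 * Real.pi * t) = Real.sqrt (2 * Real.pi * 1) * Real.sqrt t := by
    rw [mul_one, Real.sqrt_mul (by positivity)]
  rw [h2, div_div]
  congr 2
  rw [div_pow, h1]
  field_simp

private theorem G2_wt_eq (p : ℝ) {t : ℝ} (ht : 0 < t) (k : Fin (2 * N)) :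
    wt η p t k = G2_Phi ((lft η k + η - p) / Real.sqrt t) -
      G2_Phi ((lft η k - p) / Real.sqrt t) := by
  unfold wt
  have hs : Real.sqrt t ≠ 0 := (Real.sqrt_pos.2 ht).ne'
  rw [intervalIntegral.integral_comp_sub_right (fun y => gk t y) p]
  have h1 : ∀ y, gk t y = (Real.sqrt t)⁻¹ * gk 1 (y / Real.sqrt t) := by
    intro y
    rw [G2_scale ht y, div_eq_inv_mul]
  simp only [h1]
  rw [intervalIntegral.integral_const_mul, intervalIntegral.integral_comp_div _ hs, smul_eq_mul,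
    ← mul_assoc, inv_mul_cancel₀ hs, one_mul]
  unfold G2_Phi
  rw [intervalIntegral.integral_interval_sub_left ((G2_cgk 1).intervalIntegrable _ _)
    ((G2_cgk 1).intervalIntegrable _ _)]

private theorem G2_Phi_t {t : ℝ} (ht : 0 < t) (y : ℝ) :
    HasDerivAt (fun t => G2_Phi (y / Real.sqrt t)) (gk1 t y / 2) t := by
  have hs : Real.sqrt t ≠ 0 := (Real.sqrt_pos.2 ht).ne'
  have h1 : HasDerivAt (fun t => y / Real.sqrt t)
      ((0 * Real.sqrt t - y * (1 / (2 * Real.sqrt t))) / Real.sqrt t ^ 2) t :=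
    (hasDerivAt_const t y).div (Real.hasDerivAt_sqrt ht.ne') hs
  have h2 := (G2_Phi_deriv (y / Real.sqrt t)).comp t h1
  refine h2.congr_deriv ?_
  unfold gk1
  rw [G2_scale ht y, Real.sq_sqrt ht.le]
  field_simp
  ring

private theorem G2_lft_abs (hη : 0 < η) (k : Fin (2 * N)) {x : ℝ}
    (hx : x ∈ Icc (lft η k) (lft η k + η)) : |x| ≤ N * η := by
  obtain ⟨h1, h2⟩ := hx
  unfold lft at h1 h2
  have hk : ((k : ℕ) : ℝ) + 1 ≤ 2 * N := by
    have : (k : ℕ) + 1 ≤ 2 * N := k.2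
    exact_mod_cast this
  have hk0 : (0 : ℝ) ≤ ((k : ℕ) : ℝ) := Nat.cast_nonneg _
  rw [abs_le]
  constructor
  · nlinarith
  · nlinarith

private theorem G2_gk_nonneg {t : ℝ} (ht : 0 < t) (x : ℝ) : 0 ≤ gk t x := (gk_pos ht x).le

private theorem G2_decay {t₁ t₂ t M x p : ℝ} (h₁ : 0 < t₁) (h1 : t₁ ≤ t) (h2 : t ≤ t₂)
    (hx : |x| ≤ M) :
    gk t (x - p) ≤ Real.exp (M + t₂ / 2) / Real.sqrt (2 * Real.pi * t₁) * Real.exp (-|p|) := by
  have ht : 0 < t := h₁.trans_le h1
  have ht2 : 0 < t₂ := ht.trans_le h2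
  unfold gk
  rw [div_mul_eq_mul_div, ← Real.exp_add]
  apply div_le_div₀ (Real.exp_pos _).le
  · apply Real.exp_le_exp.2
    have h3 : |p| - M ≤ |x - p| := by
      have := abs_sub_abs_le_abs_sub p x
      rw [abs_sub_comm p x] at this
      linarith
    have h4 : (x - p) ^ 2 / (2 * t₂) ≤ (x - p) ^ 2 / (2 * t) := by
      apply div_le_div_of_nonneg_left (sq_nonneg _) (by positivity) (by linarith)
    have h5 : |x - p| - t₂ / 2 ≤ (x - p) ^ 2 / (2 * t₂) := by
      rw [le_div_iff₀ (by positivity)]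
      have h6 : (x - p) ^ 2 = |x - p| ^ 2 := (sq_abs _).symm
      rw [h6]
      nlinarith [sq_nonneg (|x - p| - t₂)]
    have h7 : -(x - p) ^ 2 / (2 * t) = -((x - p) ^ 2 / (2 * t)) := by ring
    rw [h7]
    linarith
  · exact Real.sqrt_pos.2 (by positivity)
  · apply Real.sqrt_le_sqrt
    have := Real.pi_pos
    nlinarith

private theorem G2_wt_nonneg (hη : 0 < η) (p : ℝ) {t : ℝ} (ht : 0 < t) (k : Fin (2 * N)) :
    0 ≤ wt η p t k :=
  intervalIntegral.integral_nonneg (by linarith) fun x _ => G2_gk_nonneg ht _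

private theorem G2_abs_le (hη : 0 < η) (f g : ℝ → ℝ) (hf : Continuous f) (hg : Continuous g)
    (k : Fin (2 * N)) (h : ∀ x ∈ Icc (lft η k) (lft η k + η), |f x| ≤ g x) :
    |∫ x in (lft η k)..(lft η k + η), f x| ≤ ∫ x in (lft η k)..(lft η k + η), g x := by
  have hle : lft η k ≤ lft η k + η := by linarith
  refine (intervalIntegral.abs_integral_le_integral_abs hle).trans ?_
  exact intervalIntegral.integral_mono_on hle (hf.abs.intervalIntegrable _ _)
    (hg.intervalIntegrable _ _) h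

theorem wt_pos (hη : 0 < η) (p : ℝ) {t : ℝ} (ht : 0 < t) (k : Fin (2 * N)) : 0 < wt η p t k := by
  unfold wt
  exact intervalIntegral.intervalIntegral_pos_of_pos (G2_ii t p _ _) (fun x => gk_pos ht _)
    (by linarith)

/-- the cells are disjoint -/
theorem sum_wt_le_one (hη : 0 < η) (p : ℝ) {t : ℝ} (ht : 0 < t) :
    ∑ k : Fin (2 * N), wt η p t k ≤ 1 := by
  set a : ℕ → ℝ := fun j => ((j : ℝ) - N) * η with ha
  have h1 : ∑ k : Fin (2 * N), wt η p t k =
      ∑ j ∈ Finset.range (2 * N), ∫ x in (a j)..(a (j + 1)), gk t (x - p) := by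
    rw [← Fin.sum_univ_eq_sum_range (fun j => ∫ x in (a j)..(a (j + 1)), gk t (x - p))]
    refine Finset.sum_congr rfl fun k _ => ?_
    unfold wt lft
    rw [ha]
    congr 1
    push_cast
    ring
  rw [h1, intervalIntegral.sum_integral_adjacent_intervals
    (fun j _ => G2_ii t p _ _)]
  have h2 : a 0 ≤ a (2 * N) := by
    rw [ha]
    push_cast
    have : (0 : ℝ) ≤ N := Nat.cast_nonneg _
    nlinarith
  rw [intervalIntegral.integral_of_le h2]
  have h3 : Integrable (fun x => gk t (x - p)) := (integrable_gk ht).comp_sub_right p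
  refine (setIntegral_le_integral h3 (Eventually.of_forall fun x => G2_gk_nonneg ht _)).trans ?_
  rw [integral_sub_right_eq_self (gk t) p, integral_gk ht]

theorem hasDerivAt_wt_p (p : ℝ) {t : ℝ} (ht : 0 < t) (k : Fin (2 * N)) :
    HasDerivAt (fun p => wt η p t k) (-dwt η p t k) p := by
  have h1 : (fun p => wt η p t k) = fun p => G2_Phi ((lft η k + η - p) / Real.sqrt t) -
      G2_Phi ((lft η k - p) / Real.sqrt t) := by
    funext p
    exact G2_wt_eq p ht k
  have h2 : ∀ c : ℝ, HasDerivAt (fun p => G2_Phi ((c - p) / Real.sqrt t)) (-gk t (c - p)) p := by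
    intro c
    have h3 : HasDerivAt (fun p => (c - p) / Real.sqrt t) (-1 / Real.sqrt t) p :=
      ((hasDerivAt_id p).const_sub c).div_const _
    have h4 := (G2_Phi_deriv ((c - p) / Real.sqrt t)).comp p h3
    refine h4.congr_deriv ?_
    rw [G2_scale ht]
    ring
  rw [h1, G2_dwt_eq p ht k]
  refine ((h2 _).sub (h2 _)).congr_deriv ?_
  ring

theorem hasDerivAt_dwt_p (p : ℝ) {t : ℝ} (ht : 0 < t) (k : Fin (2 * N)) :
    HasDerivAt (fun p => dwt η p t k) (-ddwt η p t k) p := by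
  have h1 : (fun p => dwt η p t k) = fun p => gk t (lft η k + η - p) - gk t (lft η k - p) := by
    funext p
    exact G2_dwt_eq p ht k
  rw [h1, G2_ddwt_eq p ht k]
  refine (((hasDerivAt_gk ht (lft η k + η - p)).comp_const_sub (lft η k + η) p).sub
    ((hasDerivAt_gk ht (lft η k - p)).comp_const_sub (lft η k) p)).congr_deriv ?_
  ring

theorem hasDerivAt_wt_t (p : ℝ) {t : ℝ} (ht : 0 < t) (k : Fin (2 * N)) :
    HasDerivAt (fun t => wt η p t k) (ddwt η p t k / 2) t := by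
  have h1 : (fun t => wt η p t k) =ᶠ[𝓝 t] fun t => G2_Phi ((lft η k + η - p) / Real.sqrt t) -
      G2_Phi ((lft η k - p) / Real.sqrt t) := by
    filter_upwards [Ioi_mem_nhds ht] with s hs
    exact G2_wt_eq p hs k
  refine HasDerivAt.congr_of_eventuallyEq ?_ h1
  rw [G2_ddwt_eq p ht k]
  refine ((G2_Phi_t ht _).sub (G2_Phi_t ht _)).congr_deriv ?_
  ring

theorem continuousOn_wt (k : Fin (2 * N)) :
    ContinuousOn (fun q : ℝ × ℝ => wt η q.1 q.2 k) (univ ×ˢ Ioi 0) := by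
  have hP : Continuous G2_Phi := continuous_iff_continuousAt.2 fun z =>
    (G2_Phi_deriv z).continuousAt
  have h2 : ∀ c : ℝ, ContinuousOn (fun q : ℝ × ℝ => G2_Phi ((c - q.1) / Real.sqrt q.2))
      (univ ×ˢ Ioi 0) := by
    intro c
    refine hP.comp_continuousOn (ContinuousOn.div (by fun_prop) (by fun_prop) ?_)
    rintro ⟨x, y⟩ ⟨-, hy⟩
    exact (Real.sqrt_pos.2 hy).ne'
  refine ((h2 (lft η k + η)).sub (h2 (lft η k))).congr ?_
  rintro ⟨x, y⟩ ⟨-, hy⟩
  exact G2_wt_eq x hy k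

theorem continuousOn_dwt (k : Fin (2 * N)) :
    ContinuousOn (fun q : ℝ × ℝ => dwt η q.1 q.2 k) (univ ×ˢ Ioi 0) := by
  have h2 : ∀ c : ℝ, ContinuousOn (fun q : ℝ × ℝ => gk q.2 (c - q.1)) (univ ×ˢ Ioi 0) := by
    intro c
    have h3 : ContinuousOn (fun q : ℝ × ℝ => (q.2, c - q.1)) (univ ×ˢ Ioi 0) := by fun_prop
    have h5 : MapsTo (fun q : ℝ × ℝ => (q.2, c - q.1)) (univ ×ˢ Ioi 0) (Ioi 0 ×ˢ univ) := by
      intro q hq
      exact ⟨hq.2, mem_univ _⟩
    have h6 := ContinuousOn.comp (g := fun q : ℝ × ℝ => gk q.1 q.2) continuousOn_gk h3 h5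
    exact h6
  refine ((h2 (lft η k + η)).sub (h2 (lft η k))).congr ?_
  rintro ⟨x, y⟩ ⟨-, hy⟩
  exact G2_dwt_eq x hy k

theorem continuousOn_ddwt (k : Fin (2 * N)) :
    ContinuousOn (fun q : ℝ × ℝ => ddwt η q.1 q.2 k) (univ ×ˢ Ioi 0) := by
  have h2 : ∀ c : ℝ, ContinuousOn (fun q : ℝ × ℝ => gk1 q.2 (c - q.1)) (univ ×ˢ Ioi 0) := by
    intro c
    have h3 : ContinuousOn (fun q : ℝ × ℝ => (q.2, c - q.1)) (univ ×ˢ Ioi 0) := by fun_prop
    have h5 : MapsTo (fun q : ℝ × ℝ => (q.2, c - q.1)) (univ ×ˢ Ioi 0) (Ioi 0 ×ˢ univ) := by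
      intro q hq
      exact ⟨hq.2, mem_univ _⟩
    have h6 := ContinuousOn.comp (g := fun q : ℝ × ℝ => gk q.1 q.2) continuousOn_gk h3 h5
    have h4 : ContinuousOn (fun q : ℝ × ℝ => gk q.2 (c - q.1)) (univ ×ˢ Ioi 0) := h6
    unfold gk1
    refine ContinuousOn.mul (ContinuousOn.neg (ContinuousOn.div (by fun_prop) (by fun_prop) ?_)) h4
    rintro ⟨x, y⟩ ⟨-, hy⟩
    exact (mem_Ioi.1 hy).ne'
  refine ((h2 (lft η k + η)).sub (h2 (lft η k))).congr ?_
  rintro ⟨x, y⟩ ⟨-, hy⟩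
  exact G2_ddwt_eq x hy k

/-- uniform decay for `t` in a compact subset of `(0,∞)`, and `|dwt| ≤ C (1+|p|) wt`,
`|ddwt| ≤ C (1+|p|)² wt` (from `|x - p|/t`, `|(x-p)²/t² - 1/t|` bounded on the cell). -/
theorem wt_bounds (hη : 0 < η) {t₁ t₂ : ℝ} (h₁ : 0 < t₁) (h₁₂ : t₁ ≤ t₂) : ∃ C : ℝ, 0 < C ∧
    ∀ t ∈ Icc t₁ t₂, ∀ (p : ℝ) (k : Fin (2 * N)),
      wt η p t k ≤ C * Real.exp (-|p|) ∧ |dwt η p t k| ≤ C * Real.exp (-|p|) ∧
      |ddwt η p t k| ≤ C * Real.exp (-|p|) ∧ |dwt η p t k| ≤ C * (1 + |p|) * wt η p t k ∧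
      |ddwt η p t k| ≤ C * (1 + |p|) ^ 2 * wt η p t k := by
  set M : ℝ := N * η with hM
  have hM0 : 0 ≤ M := by positivity
  set C₀ : ℝ := Real.exp (M + t₂ / 2) / Real.sqrt (2 * Real.pi * t₁) with hC₀
  set C₁ : ℝ := Real.exp (M + 2 * t₂ / 2) / Real.sqrt (2 * Real.pi * (2 * t₁)) with hC₁
  have h₂ : 0 < t₂ := h₁.trans_le h₁₂
  have hC₀' : 0 < C₀ := by
    rw [hC₀]
    have : 0 < Real.sqrt (2 * Real.pi * t₁) := Real.sqrt_pos.2 (by positivity)
    positivity
  have hC₁' : 0 < C₁ := by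
    rw [hC₁]
    have : 0 < Real.sqrt (2 * Real.pi * (2 * t₁)) := Real.sqrt_pos.2 (by positivity)
    positivity
  have hs₁ : 0 < Real.sqrt t₁ := Real.sqrt_pos.2 h₁
  refine ⟨η * C₀ + 2 * C₀ + 2 * (2 / Real.sqrt t₁ * C₁) + (M + 1) / t₁ +
    ((M + 1) ^ 2 / t₁ ^ 2 + 1 / t₁), by positivity, ?_⟩
  intro t ht p k
  have ht0 : 0 < t := h₁.trans_le ht.1
  have hle : lft η k ≤ lft η k + η := by linarith
  have hmem1 : lft η k ∈ Icc (lft η k) (lft η k + η) := ⟨le_refl _, hle⟩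
  have hmem2 : lft η k + η ∈ Icc (lft η k) (lft η k + η) := ⟨hle, le_refl _⟩
  have hg : ∀ x ∈ Icc (lft η k) (lft η k + η), gk t (x - p) ≤ C₀ * Real.exp (-|p|) :=
    fun x hx => G2_decay h₁ ht.1 ht.2 (G2_lft_abs hη k hx)
  have hg1 : ∀ x ∈ Icc (lft η k) (lft η k + η),
      |gk1 t (x - p)| ≤ 2 / Real.sqrt t₁ * C₁ * Real.exp (-|p|) := by
    intro x hx
    refine (abs_gk1_le ht0 (x - p)).trans ?_
    have h3 := G2_decay (t := 2 * t) (t₁ := 2 * t₁) (t₂ := 2 * t₂) (p := p) (by linarith)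
      (by linarith [ht.1]) (by linarith [ht.2]) (G2_lft_abs hη k hx)
    rw [mul_assoc]
    apply mul_le_mul _ h3 (G2_gk_nonneg (by linarith) _) (by positivity)
    exact div_le_div_of_nonneg_left (by norm_num) hs₁ (Real.sqrt_le_sqrt ht.1)
  have hE : 0 < Real.exp (-|p|) := Real.exp_pos _
  have hp : 0 ≤ |p| := abs_nonneg p
  have hw : 0 ≤ wt η p t k := G2_wt_nonneg hη p ht0 k
  have hA : 0 ≤ 2 / Real.sqrt t₁ * C₁ := by positivity
  have hB : 0 ≤ (M + 1) / t₁ := by positivity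
  have hD : 0 ≤ (M + 1) ^ 2 / t₁ ^ 2 + 1 / t₁ := by positivity
  have hηC : 0 ≤ η * C₀ := by positivity
  have hxp : ∀ x ∈ Icc (lft η k) (lft η k + η), |x - p| ≤ (M + 1) * (1 + |p|) := by
    intro x hx
    have h4 := G2_lft_abs hη k hx
    have h5 : |x - p| ≤ |x| + |p| := abs_sub _ _
    nlinarith
  refine ⟨?_, ?_, ?_, ?_, ?_⟩
  · have h3 : wt η p t k ≤ ∫ x in (lft η k)..(lft η k + η), C₀ * Real.exp (-|p|) :=
      intervalIntegral.integral_mono_on hle (G2_ii t p _ _) intervalIntegrable_const hg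
    rw [intervalIntegral.integral_const, smul_eq_mul] at h3
    refine h3.trans ?_
    nlinarith
  · rw [G2_dwt_eq p ht0 k]
    have h3 := hg _ hmem1
    have h4 := hg _ hmem2
    have h5 := G2_gk_nonneg ht0 (lft η k + η - p)
    have h6 := G2_gk_nonneg ht0 (lft η k - p)
    have h7 : |gk t (lft η k + η - p) - gk t (lft η k - p)| ≤ 2 * C₀ * Real.exp (-|p|) := by
      rw [abs_le]
      constructor <;> nlinarith
    refine h7.trans ?_
    nlinarith
  · rw [G2_ddwt_eq p ht0 k]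
    have h3 := hg1 _ hmem1
    have h4 := hg1 _ hmem2
    have h7 := abs_sub (gk1 t (lft η k + η - p)) (gk1 t (lft η k - p))
    refine h7.trans ?_
    nlinarith
  · have h3 : |dwt η p t k| ≤
        ∫ x in (lft η k)..(lft η k + η), (M + 1) / t₁ * (1 + |p|) * gk t (x - p) := by
      apply G2_abs_le hη _ _ ((G2_cgk1 t).comp (continuous_id.sub continuous_const))
        (continuous_const.mul ((G2_cgk t).comp (continuous_id.sub continuous_const)))
      intro x hx
      show |gk1 t (x - p)| ≤ _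
      unfold gk1
      rw [abs_mul, abs_neg, abs_div, abs_of_pos ht0, abs_of_nonneg (G2_gk_nonneg ht0 _)]
      apply mul_le_mul_of_nonneg_right _ (G2_gk_nonneg ht0 _)
      calc |x - p| / t ≤ |x - p| / t₁ :=
            div_le_div_of_nonneg_left (abs_nonneg _) h₁ ht.1
        _ ≤ (M + 1) * (1 + |p|) / t₁ := div_le_div_of_nonneg_right (hxp x hx) h₁.le
        _ = (M + 1) / t₁ * (1 + |p|) := by ring
    rw [intervalIntegral.integral_const_mul] at h3
    refine h3.trans ?_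
    show (M + 1) / t₁ * (1 + |p|) * wt η p t k ≤ _
    apply mul_le_mul_of_nonneg_right _ hw
    apply mul_le_mul_of_nonneg_right _ (by positivity)
    nlinarith
  · have h3 : |ddwt η p t k| ≤
        ∫ x in (lft η k)..(lft η k + η),
          ((M + 1) ^ 2 / t₁ ^ 2 + 1 / t₁) * (1 + |p|) ^ 2 * gk t (x - p) := by
      apply G2_abs_le hη _ _ ((G2_cgk2 t).comp (continuous_id.sub continuous_const))
        (continuous_const.mul ((G2_cgk t).comp (continuous_id.sub continuous_const)))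
      intro x hx
      show |gk2 t (x - p)| ≤ _
      unfold gk2
      rw [abs_mul, abs_of_nonneg (G2_gk_nonneg ht0 _)]
      apply mul_le_mul_of_nonneg_right _ (G2_gk_nonneg ht0 _)
      have h8 : |(x - p) ^ 2 / t ^ 2 - 1 / t| ≤ (x - p) ^ 2 / t ^ 2 + 1 / t := by
        have h9 : 0 ≤ (x - p) ^ 2 / t ^ 2 := by positivity
        have h10 : 0 ≤ 1 / t := by positivity
        rw [abs_le]
        constructor <;> linarith
      refine h8.trans ?_
      have h11 : (x - p) ^ 2 ≤ ((M + 1) * (1 + |p|)) ^ 2 := by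
        rw [← sq_abs (x - p)]
        exact pow_le_pow_left₀ (abs_nonneg _) (hxp x hx) 2
      have h12 : (x - p) ^ 2 / t ^ 2 ≤ ((M + 1) * (1 + |p|)) ^ 2 / t₁ ^ 2 := by
        apply div_le_div₀ (sq_nonneg _) h11 (by positivity)
        exact pow_le_pow_left₀ h₁.le ht.1 2
      have h13 : 1 / t ≤ 1 / t₁ := one_div_le_one_div_of_le h₁ ht.1
      have h14 : (1 : ℝ) ≤ (1 + |p|) ^ 2 := by nlinarith
      have h15 : 1 / t₁ ≤ 1 / t₁ * (1 + |p|) ^ 2 := by
        have : 0 ≤ 1 / t₁ := by positivity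
        nlinarith
      calc (x - p) ^ 2 / t ^ 2 + 1 / t ≤ ((M + 1) * (1 + |p|)) ^ 2 / t₁ ^ 2 +
            1 / t₁ * (1 + |p|) ^ 2 := by linarith
        _ = ((M + 1) ^ 2 / t₁ ^ 2 + 1 / t₁) * (1 + |p|) ^ 2 := by ring
    rw [intervalIntegral.integral_const_mul] at h3
    refine h3.trans ?_
    show ((M + 1) ^ 2 / t₁ ^ 2 + 1 / t₁) * (1 + |p|) ^ 2 * wt η p t k ≤ _
    apply mul_le_mul_of_nonneg_right _ hw
    apply mul_le_mul_of_nonneg_right _ (by positivity)
    nlinarith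

theorem integral_wt_p (hη : 0 < η) {t : ℝ} (ht : 0 < t) (k : Fin (2 * N)) :
    Integrable (fun p => wt η p t k) ∧ ∫ p, wt η p t k = η := by
  have hle : lft η k ≤ lft η k + η := by linarith
  set ν : Measure ℝ := volume.restrict (Ioc (lft η k) (lft η k + η)) with hν
  have hF : Integrable (fun q : ℝ × ℝ => gk t (q.2 - q.1)) (volume.prod ν) := by
    rw [integrable_prod_iff']
    · refine ⟨Eventually.of_forall fun x => ?_, ?_⟩
      · exact (integrable_gk ht).comp_sub_left x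
      · have h1 : (fun x : ℝ => ∫ p : ℝ, ‖gk t (x - p)‖) = fun _ => (1 : ℝ) := by
          funext x
          have h2 : ∀ p : ℝ, ‖gk t (x - p)‖ = gk t (x - p) := fun p => by
            rw [Real.norm_eq_abs, abs_of_nonneg (G2_gk_nonneg ht _)]
          simp only [h2]
          rw [integral_sub_left_eq_self (gk t) volume x, integral_gk ht]
        show Integrable (fun x : ℝ => ∫ p : ℝ, ‖gk t (x - p)‖) ν
        rw [h1, hν]
        exact integrable_const _
    · exact ((G2_cgk t).comp (continuous_snd.sub continuous_fst)).aestronglyMeasurable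
  have hwt : (fun p => wt η p t k) = fun p => ∫ x, gk t (x - p) ∂ν := by
    funext p
    unfold wt
    rw [intervalIntegral.integral_of_le hle]
  rw [hwt]
  refine ⟨hF.integral_prod_left, ?_⟩
  rw [integral_integral_swap (f := fun p x => gk t (x - p)) hF]
  have h3 : ∀ x : ℝ, ∫ p : ℝ, gk t (x - p) = 1 := by
    intro x
    rw [integral_sub_left_eq_self (gk t) volume x, integral_gk ht]
  simp only [h3]
  rw [integral_const, hν, measureReal_restrict_apply_univ, Real.volume_real_Ioc_of_le hle]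
  simp

/-- `∫∫ wt(k₀; p₀) wt(k₁; p₁) dp = η²` -/
theorem integral_wt_wt (hη : 0 < η) {s t : ℝ} (hs : 0 < s) (ht : 0 < t) (k₀ k₁ : Fin (2 * N)) :
    Integrable (fun p : ℝ × ℝ => wt η p.1 s k₀ * wt η p.2 t k₁) ∧
      ∫ p : ℝ × ℝ, wt η p.1 s k₀ * wt η p.2 t k₁ = η ^ 2 := by
  obtain ⟨h1, h2⟩ := integral_wt_p (N := N) hη hs k₀
  obtain ⟨h3, h4⟩ := integral_wt_p (N := N) hη ht k₁
  refine ⟨h1.mul_prod h3, ?_⟩
  have h5 := integral_prod_mul (μ := (volume : Measure ℝ)) (ν := (volume : Measure ℝ))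
    (fun p => wt η p s k₀) (fun p => wt η p t k₁)
  rw [h2, h4] at h5
  rw [sq]
  exact h5

/-- on the plane: `∫∫ wt(k₁; p₁) wt(k₂; -p₀-p₁) dp = η²` -/
theorem integral_wt_wt' (hη : 0 < η) {s t : ℝ} (hs : 0 < s) (ht : 0 < t) (k₁ k₂ : Fin (2 * N)) :
    Integrable (fun p : ℝ × ℝ => wt η p.2 s k₁ * wt η (-p.1 - p.2) t k₂) ∧
      ∫ p : ℝ × ℝ, wt η p.2 s k₁ * wt η (-p.1 - p.2) t k₂ = η ^ 2 := by
  obtain ⟨h1, h2⟩ := integral_wt_p (N := N) hη hs k₁
  obtain ⟨h3, h4⟩ := integral_wt_p (N := N) hη ht k₂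
  have h5 : ∀ y : ℝ, Integrable (fun x : ℝ => wt η (-x - y) t k₂) ∧
      ∫ x : ℝ, wt η (-x - y) t k₂ = η := by
    intro y
    have h6 : (fun x : ℝ => wt η (-x - y) t k₂) = fun x : ℝ => wt η (-y - x) t k₂ := by
      funext x
      congr 1
      ring
    rw [h6]
    refine ⟨h3.comp_sub_left (-y), ?_⟩
    rw [integral_sub_left_eq_self (fun p => wt η p t k₂) volume (-y), h4]
  have hcont : Continuous (fun p : ℝ × ℝ => wt η p.2 s k₁ * wt η (-p.1 - p.2) t k₂) := by
    have hc : ∀ (r : ℝ), 0 < r → ∀ k : Fin (2 * N), Continuous fun p : ℝ => wt η p r k := by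
      intro r hr k
      exact continuous_iff_continuousAt.2 fun p => (hasDerivAt_wt_p p hr k).continuousAt
    exact ((hc s hs k₁).comp continuous_snd).mul
      ((hc t ht k₂).comp (continuous_fst.neg.sub continuous_snd))
  have hI : Integrable (fun p : ℝ × ℝ => wt η p.2 s k₁ * wt η (-p.1 - p.2) t k₂)
      ((volume : Measure ℝ).prod (volume : Measure ℝ)) := by
    rw [integrable_prod_iff' hcont.aestronglyMeasurable]
    refine ⟨Eventually.of_forall fun y => (h5 y).1.const_mul (wt η y s k₁), ?_⟩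
    have h7 : (fun y : ℝ => ∫ x : ℝ, ‖wt η y s k₁ * wt η (-x - y) t k₂‖) =
        fun y => wt η y s k₁ * η := by
      funext y
      have h8 : ∀ x : ℝ, ‖wt η y s k₁ * wt η (-x - y) t k₂‖ =
          wt η y s k₁ * wt η (-x - y) t k₂ := fun x => by
        rw [Real.norm_eq_abs, abs_of_nonneg
          (mul_nonneg (G2_wt_nonneg hη _ hs _) (G2_wt_nonneg hη _ ht _))]
      simp only [h8]
      rw [integral_const_mul, (h5 y).2]
    show Integrable (fun y : ℝ => ∫ x : ℝ, ‖wt η y s k₁ * wt η (-x - y) t k₂‖) volume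
    rw [h7]
    exact h1.mul_const η
  refine ⟨hI, ?_⟩
  have h9 := integral_prod_symm _ hI
  refine h9.trans ?_
  have h10 : (fun y : ℝ => ∫ x : ℝ, wt η y s k₁ * wt η (-x - y) t k₂) =
      fun y => wt η y s k₁ * η := by
    funext y
    rw [integral_const_mul, (h5 y).2]
  show ∫ y : ℝ, ∫ x : ℝ, wt η y s k₁ * wt η (-x - y) t k₂ = η ^ 2
  rw [h10, integral_mul_const, h2, sq]

theorem wt_le_two (hη : 0 < η) (p : ℝ) {t : ℝ} (ht : 0 < t) (k : Fin (2 * N)) :
    wt η p t k ≤ Real.sqrt 2 * wt η p (2 * t) k := by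
  have hle : lft η k ≤ lft η k + η := by linarith
  unfold wt
  rw [← intervalIntegral.integral_const_mul]
  apply intervalIntegral.integral_mono_on hle (G2_ii t p _ _) ((G2_ii (2 * t) p _ _).const_mul _)
  intro x _
  have h1 := gk_le_scale (s := t) (t := 2 * t) ht (by linarith) (x - p)
  have h2 : 2 * t / t = 2 := by field_simp
  rw [h2] at h1
  exact h1

/-- `√t |dwt(t)| ≤ 2 wt(2t)` (`abs_gk1_le`) -/
theorem abs_dwt_le (hη : 0 < η) (p : ℝ) {t : ℝ} (ht : 0 < t) (k : Fin (2 * N)) :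
    |dwt η p t k| ≤ 2 / Real.sqrt t * wt η p (2 * t) k := by
  unfold dwt wt
  rw [← intervalIntegral.integral_const_mul]
  apply G2_abs_le hη _ _ ((G2_cgk1 t).comp (continuous_id.sub continuous_const))
    (continuous_const.mul ((G2_cgk (2 * t)).comp (continuous_id.sub continuous_const)))
  intro x _
  exact abs_gk1_le ht (x - p)

end Crest.Agent.TH
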