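import Crest.Agent.TH_ADefs
import Crest.Agent.TH_G2

/-! # TH_A1 (task TH-A1): the kernel identities for part (A) -/

set_option autoImplicit false
open Matrix MeasureTheory Set Filter
open scoped Topology ENNReal

namespace Crest.Agent.TH
variable {N : ℕ} {η : ℝ}

/-! ### auxiliary facts on the kernel in `s` -/

private theorem A1_gk3_eq {s : ℝ} (hs : 0 < s) (t : ℝ) :
    Real.sqrt (Real.pi / 2) * Real.sqrt s * gk3 s t =
      (1 / 2) * (3 * t / s ^ 2 - t ^ 3 / s ^ 3) * Real.exp (-t ^ 2 / (2 * s)) := by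
  unfold gk3 gk
  have e1 : Real.sqrt (2 * Real.pi * s) = 2 * Real.sqrt (Real.pi / 2) * Real.sqrt s := by
    rw [show 2 * Real.pi * s = 2 ^ 2 * (Real.pi / 2) * s by ring, Real.sqrt_mul (by positivity),
      Real.sqrt_mul (by positivity), Real.sqrt_sq (by norm_num)]
  have h1 : 0 < Real.sqrt (Real.pi / 2) := Real.sqrt_pos.2 (by positivity)
  have h2 : 0 < Real.sqrt s := Real.sqrt_pos.2 hs
  rw [e1]
  field_simp

private theorem A1_deriv {s t : ℝ} (hs : 0 < s) (ht : t ≠ 0) :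
    HasDerivAt (fun s => (1 - t ^ 2 / s) * Real.exp (-t ^ 2 / (2 * s)) / t)
      ((1 / 2) * (3 * t / s ^ 2 - t ^ 3 / s ^ 3) * Real.exp (-t ^ 2 / (2 * s))) s := by
  have h1 : HasDerivAt (fun s : ℝ => 1 - t ^ 2 / s) (t ^ 2 / s ^ 2) s := by
    have h0 := ((hasDerivAt_const s (t ^ 2)).div (hasDerivAt_id s) hs.ne').const_sub 1
    refine h0.congr_deriv ?_
    simp
    field_simp
  have h2 : HasDerivAt (fun s : ℝ => -t ^ 2 / (2 * s)) (t ^ 2 / (2 * s ^ 2)) s := by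
    have h0 : HasDerivAt (fun s : ℝ => 2 * s) 2 s := by
      simpa using (hasDerivAt_id s).const_mul 2
    refine ((hasDerivAt_const s (-t ^ 2)).div h0 (by positivity)).congr_deriv ?_
    field_simp
    ring
  refine ((h1.mul h2.exp).div_const t).congr_deriv ?_
  field_simp
  ring

private theorem A1_bound {s t u T : ℝ} (hu : 0 < u) (hs : u ^ 2 ≤ s) (hT : |t| ≤ T) :
    |Real.sqrt (Real.pi / 2) * Real.sqrt s * gk3 s t| ≤ (3 * T + T ^ 3 / u ^ 2) * s ^ (-2 : ℝ) := by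
  have hs0 : 0 < s := lt_of_lt_of_le (by positivity) hs
  have hT0 : 0 ≤ T := (abs_nonneg t).trans hT
  rw [A1_gk3_eq hs0, abs_mul, abs_mul, abs_of_pos (Real.exp_pos _)]
  have e1 : Real.exp (-t ^ 2 / (2 * s)) ≤ 1 := by
    rw [Real.exp_le_one_iff, neg_div]
    have : 0 ≤ t ^ 2 / (2 * s) := by positivity
    linarith
  have e2 : |3 * t / s ^ 2 - t ^ 3 / s ^ 3| ≤ 3 * T / s ^ 2 + T ^ 3 / (u ^ 2 * s ^ 2) := by
    refine (abs_sub _ _).trans (add_le_add ?_ ?_)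
    · rw [abs_div, abs_mul, abs_of_pos (show (0 : ℝ) < 3 by norm_num),
        abs_of_pos (show 0 < s ^ 2 by positivity)]
      gcongr
    · rw [abs_div, abs_pow, abs_of_pos (show 0 < s ^ 3 by positivity)]
      apply div_le_div₀ (by positivity) (pow_le_pow_left₀ (abs_nonneg _) hT 3) (by positivity)
      have : s ^ 3 = s * s ^ 2 := by ring
      rw [this]
      gcongr
  have e3 : s ^ (-2 : ℝ) = 1 / s ^ 2 := by
    rw [Real.rpow_neg hs0.le, one_div]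
    norm_num
  rw [e3]
  have e4 : 0 ≤ |3 * t / s ^ 2 - t ^ 3 / s ^ 3| := abs_nonneg _
  have e5 : 3 * T / s ^ 2 + T ^ 3 / (u ^ 2 * s ^ 2) = (3 * T + T ^ 3 / u ^ 2) * (1 / s ^ 2) := by
    field_simp
  rw [← e5]
  have e6 : |(1 / 2 : ℝ)| = 1 / 2 := abs_of_pos (by norm_num)
  rw [e6]
  have e7 := Real.exp_pos (-t ^ 2 / (2 * s))
  nlinarith [mul_nonneg e4 e7.le]

private theorem A1_intOn {u : ℝ} (hu : 0 < u) (C : ℝ) :
    IntegrableOn (fun s : ℝ => C * s ^ (-2 : ℝ)) (Ioi (u ^ 2)) :=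
  (integrableOn_Ioi_rpow_of_lt (by norm_num) (by positivity)).const_mul C

private theorem A1_meas_gk3 : Measurable (fun q : ℝ × ℝ => gk3 q.1 q.2) := by
  unfold gk3 gk
  fun_prop

/-- `gk3 s t = s^{-2} G'''(t/√s)`, substitute `x = t/√s`: `∫_{u²}^∞ √s gk3 s t ds = (2/t)(G''(t/u) - G''(0))`,
`G''(x) = (x²-1) e^{-x²/2}/√(2π)`; an antiderivative of `s ↦ √s gk3 s t` is
`-(2/t) G''(t/√s)`. -/
theorem Kt_repr {u t : ℝ} (hu : 0 < u) (ht : t ≠ 0) :
    IntegrableOn (fun s => Real.sqrt (Real.pi / 2) * Real.sqrt s * gk3 s t) (Ioi (u ^ 2)) ∧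
    Kt u t = ∫ s in Ioi (u ^ 2), Real.sqrt (Real.pi / 2) * Real.sqrt s * gk3 s t := by
  have hu2 : 0 < u ^ 2 := by positivity
  have hint : IntegrableOn (fun s => Real.sqrt (Real.pi / 2) * Real.sqrt s * gk3 s t)
      (Ioi (u ^ 2)) := by
    refine Integrable.mono' (A1_intOn hu (3 * |t| + |t| ^ 3 / u ^ 2)) ?_ ?_
    · have h1 : Measurable (fun s : ℝ => gk3 s t) :=
        A1_meas_gk3.comp (measurable_id.prodMk measurable_const)
      exact ((Real.continuous_sqrt.measurable.const_mul _).mul h1).aestronglyMeasurable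
    · rw [ae_restrict_iff' measurableSet_Ioi]
      exact Eventually.of_forall fun s hs => A1_bound hu (mem_Ioi.1 hs).le le_rfl
  refine ⟨hint, ?_⟩
  have heq : ∀ s ∈ Ioi (u ^ 2), Real.sqrt (Real.pi / 2) * Real.sqrt s * gk3 s t =
      (1 / 2) * (3 * t / s ^ 2 - t ^ 3 / s ^ 3) * Real.exp (-t ^ 2 / (2 * s)) :=
    fun s hs => A1_gk3_eq (hu2.trans hs) t
  have hlim : Tendsto (fun s : ℝ => (1 - t ^ 2 / s) * Real.exp (-t ^ 2 / (2 * s)) / t) atTop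
      (𝓝 ((1 - 0) * Real.exp 0 / t)) := by
    have h1 : Tendsto (fun s : ℝ => t ^ 2 / s) atTop (𝓝 0) :=
      tendsto_const_nhds.div_atTop tendsto_id
    have h2 : Tendsto (fun s : ℝ => -t ^ 2 / (2 * s)) atTop (𝓝 0) :=
      tendsto_const_nhds.div_atTop (tendsto_id.const_mul_atTop (by norm_num))
    exact ((tendsto_const_nhds.sub h1).mul ((Real.continuous_exp.tendsto 0).comp h2)).div_const t
  have hint' : IntegrableOn (fun s => (1 / 2) * (3 * t / s ^ 2 - t ^ 3 / s ^ 3) *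
      Real.exp (-t ^ 2 / (2 * s))) (Ioi (u ^ 2)) := hint.congr_fun heq measurableSet_Ioi
  rw [setIntegral_congr_fun measurableSet_Ioi heq,
    integral_Ioi_of_hasDerivAt_of_tendsto (A1_deriv hu2 ht).continuousAt.continuousWithinAt
      (fun s hs => A1_deriv (hu2.trans hs) ht) hint' hlim]
  unfold Kt
  rw [Real.exp_zero]
  ring

/-- `|Kt u t| ≤ 2/u`-type bound, so that all integrals below converge -/
theorem abs_Kt_le {u t : ℝ} (hu : 0 < u) : |Kt u t| ≤ 4 / u := by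
  by_cases ht : t = 0
  · subst ht
    unfold Kt
    simp only [div_zero, abs_zero]
    positivity
  unfold Kt
  obtain ⟨x, hx⟩ : ∃ x, t = x * u := ⟨t / u, by field_simp⟩
  subst hx
  have hx0 : x ≠ 0 := by
    rintro rfl
    exact ht (zero_mul u)
  have e1 : (x * u) ^ 2 / u ^ 2 = x ^ 2 := by field_simp
  have e2 : -(x * u) ^ 2 / (2 * u ^ 2) = -(x ^ 2 / 2) := by field_simp
  rw [e1, e2, abs_div, abs_mul, abs_of_pos hu, div_le_div_iff₀ (by positivity) hu]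
  have h1 : |1 - (1 - x ^ 2) * Real.exp (-(x ^ 2 / 2))| ≤ 4 * |x| := by
    obtain ⟨y, hy⟩ : ∃ y, y = x ^ 2 / 2 := ⟨_, rfl⟩
    have hy0 : 0 ≤ y := by rw [hy]; positivity
    have hx2 : x ^ 2 = 2 * y := by rw [hy]; ring
    rw [hx2, show 2 * y / 2 = y by ring]
    have hE := Real.exp_pos (-y)
    have hE1 : Real.exp (-y) ≤ 1 := by
      rw [Real.exp_le_one_iff]
      linarith
    have hE2 : 1 - y ≤ Real.exp (-y) := by
      have := Real.add_one_le_exp (-y)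
      linarith
    have hE3 : 2 * y * Real.exp (-y) ≤ 1 := by
      apply mul_exp_neg_le
      have := exp_ge_quad hy0
      nlinarith [sq_nonneg (y - 1)]
    have hE4 : 2 * y * Real.exp (-y) ≤ 2 * y := by nlinarith
    have e3 : 1 - (1 - 2 * y) * Real.exp (-y) = (1 - Real.exp (-y)) + 2 * y * Real.exp (-y) := by
      ring
    rw [e3, abs_of_nonneg (by nlinarith [mul_nonneg hy0 hE.le])]
    have hxa : |x| ^ 2 = 2 * y := by rw [sq_abs, hx2]
    rcases le_total |x| 1 with h | h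
    · nlinarith [abs_nonneg x]
    · nlinarith
  nlinarith [abs_nonneg x]

theorem measurable_Kt (u : ℝ) : Measurable (Kt u) := by
  unfold Kt
  fun_prop

/-! ### `Jc` as an integral over a product -/

/-- the (nonnegative) measure on one cell. -/
private noncomputable def A1_mu (η : ℝ) (k : Fin (2 * N)) : Measure ℝ :=
  volume.restrict (uIoc (lft η k) (lft η k + η))

private noncomputable def A1_nu (η : ℝ) (k₀ k₁ k₂ : Fin (2 * N)) : Measure (ℝ × ℝ × ℝ) :=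
  (A1_mu η k₀).prod ((A1_mu η k₁).prod (A1_mu η k₂))

open Classical in
private noncomputable def A1_ep (η : ℝ) : ℝ := if 0 ≤ η then 1 else -1

private instance A1_fin1 (k : Fin (2 * N)) : IsFiniteMeasure (A1_mu η k) := by
  unfold A1_mu uIoc
  infer_instance

private instance A1_fin3 (k₀ k₁ k₂ : Fin (2 * N)) : IsFiniteMeasure (A1_nu η k₀ k₁ k₂) := by
  unfold A1_nu
  infer_instance

private theorem A1_ii (k : Fin (2 * N)) (f : ℝ → ℝ) :
    ∫ x in (lft η k)..(lft η k + η), f x = A1_ep η * ∫ x, f x ∂(A1_mu η k) := by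
  rw [intervalIntegral.intervalIntegral_eq_integral_uIoc, smul_eq_mul]
  unfold A1_ep A1_mu
  congr 1
  by_cases h : 0 ≤ η
  · rw [if_pos h, if_pos (by linarith)]
  · rw [if_neg h, if_neg (by linarith)]

private theorem A1_Jc {κ : ℝ → ℝ} (hm : Measurable κ) {C : ℝ} (hC : ∀ t, |κ t| ≤ C)
    (k₀ k₁ k₂ : Fin (2 * N)) :
    Integrable (fun z : ℝ × ℝ × ℝ => κ (z.1 + z.2.1 + z.2.2)) (A1_nu η k₀ k₁ k₂) ∧
    Jc η k₀ k₁ k₂ κ = A1_ep η ^ 3 * ∫ z, κ (z.1 + z.2.1 + z.2.2) ∂(A1_nu η k₀ k₁ k₂) := by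
  have hmz : Measurable (fun z : ℝ × ℝ × ℝ => κ (z.1 + z.2.1 + z.2.2)) := by
    apply hm.comp
    fun_prop
  have hint : Integrable (fun z : ℝ × ℝ × ℝ => κ (z.1 + z.2.1 + z.2.2)) (A1_nu η k₀ k₁ k₂) :=
    (integrable_const C).mono' hmz.aestronglyMeasurable (Eventually.of_forall fun z => hC _)
  refine ⟨hint, ?_⟩
  have hin : ∀ x₀ : ℝ, Integrable (fun y : ℝ × ℝ => κ (x₀ + y.1 + y.2))
      ((A1_mu η k₁).prod (A1_mu η k₂)) := by
    intro x₀
    have hm2 : Measurable (fun y : ℝ × ℝ => κ (x₀ + y.1 + y.2)) := by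
      apply hm.comp
      fun_prop
    exact (integrable_const C).mono' hm2.aestronglyMeasurable (Eventually.of_forall fun z => hC _)
  unfold A1_nu at hint ⊢
  rw [integral_prod _ hint]
  have h1 : ∀ x₀ : ℝ, ∫ y : ℝ × ℝ, κ (x₀ + y.1 + y.2) ∂((A1_mu η k₁).prod (A1_mu η k₂)) =
      ∫ x₁, ∫ x₂, κ (x₀ + x₁ + x₂) ∂(A1_mu η k₂) ∂(A1_mu η k₁) := fun x₀ =>
    integral_prod _ (hin x₀)
  simp only [h1]
  unfold Jc
  simp only [A1_ii]
  simp only [integral_const_mul]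
  ring

private theorem A1_Jc_mul (κ : ℝ → ℝ) (c : ℝ) (k₀ k₁ k₂ : Fin (2 * N)) :
    Jc η k₀ k₁ k₂ (fun t => c * κ t) = c * Jc η k₀ k₁ k₂ κ := by
  unfold Jc
  simp only [intervalIntegral.integral_const_mul]

private theorem A1_Jc_sum {Q : ℕ} (κ : Fin Q → ℝ → ℝ) (a : Fin Q → ℝ) (hm : ∀ q, Measurable (κ q))
    (C : Fin Q → ℝ) (hC : ∀ q t, |κ q t| ≤ C q) (k₀ k₁ k₂ : Fin (2 * N)) :
    Jc η k₀ k₁ k₂ (fun t => ∑ q, a q * κ q t) = ∑ q, a q * Jc η k₀ k₁ k₂ (κ q) := by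
  have hm' : Measurable (fun t => ∑ q, a q * κ q t) :=
    Finset.measurable_sum _ fun q _ => (hm q).const_mul (a q)
  have hC' : ∀ t, |∑ q, a q * κ q t| ≤ ∑ q, |a q| * C q := by
    intro t
    refine (Finset.abs_sum_le_sum_abs _ _).trans (Finset.sum_le_sum fun q _ => ?_)
    rw [abs_mul]
    exact mul_le_mul_of_nonneg_left (hC q t) (abs_nonneg _)
  rw [(A1_Jc hm' hC' k₀ k₁ k₂).2, integral_finsetSum]
  · rw [Finset.mul_sum]
    refine Finset.sum_congr rfl fun q _ => ?_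
    rw [integral_const_mul, (A1_Jc (hm q) (hC q) k₀ k₁ k₂).2]
    ring
  · intro q _
    exact (A1_Jc (hm q) (hC q) k₀ k₁ k₂).1.const_mul (a q)

/-! ### Fubini for the `s` integral -/

open Classical in
private noncomputable def A1_H (u s t : ℝ) : ℝ :=
  if u ≤ Real.sqrt s then Real.sqrt (Real.pi / 2) * Real.sqrt s * gk3 s t else 0

private theorem A1_H_meas (u : ℝ) : Measurable (fun q : ℝ × ℝ => A1_H u q.1 q.2) := by
  unfold A1_H
  refine Measurable.ite ?_ ?_ measurable_const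
  · exact measurableSet_le measurable_const (Real.continuous_sqrt.measurable.comp measurable_fst)
  · exact ((Real.continuous_sqrt.measurable.comp measurable_fst).const_mul _).mul A1_meas_gk3

private theorem A1_H_bound {u s t T : ℝ} (hu : 0 < u) (hT : |t| ≤ T) :
    |A1_H u s t| ≤ (if u ^ 2 ≤ s then (3 * T + T ^ 3 / u ^ 2) * s ^ (-2 : ℝ) else 0) := by
  unfold A1_H
  have hiff : u ≤ Real.sqrt s ↔ u ^ 2 ≤ s := Real.le_sqrt' hu
  by_cases h : u ≤ Real.sqrt s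
  · rw [if_pos h, if_pos (hiff.1 h)]
    exact A1_bound hu (hiff.1 h) hT
  · rw [if_neg h, if_neg (fun h' => h (hiff.2 h')), abs_zero]

private theorem A1_H_integral {u : ℝ} (hu : 0 < u) (t : ℝ) :
    ∫ s in Ioi (0 : ℝ), A1_H u s t = Kt u t := by
  have hu2 : 0 < u ^ 2 := by positivity
  have h1 : ∀ s, A1_H u s t = (Ici (u ^ 2)).indicator
      (fun s => Real.sqrt (Real.pi / 2) * Real.sqrt s * gk3 s t) s := by
    intro s
    unfold A1_H
    by_cases h : u ^ 2 ≤ s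
    · rw [if_pos ((Real.le_sqrt' hu).2 h), indicator_of_mem (by exact h)]
    · rw [if_neg (fun h' => h ((Real.le_sqrt' hu).1 h')), indicator_of_notMem (by exact h)]
  simp only [h1]
  rw [setIntegral_indicator measurableSet_Ici]
  have h2 : Ioi (0 : ℝ) ∩ Ici (u ^ 2) = Ici (u ^ 2) := by
    ext s
    simp only [mem_inter_iff, mem_Ioi, mem_Ici, and_iff_right_iff_imp]
    intro h
    linarith
  rw [h2, integral_Ici_eq_integral_Ioi]
  by_cases ht : t = 0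
  · subst ht
    unfold Kt gk3
    simp
  · exact (Kt_repr hu ht).2.symm

private theorem A1_mu_ae (k : Fin (2 * N)) :
    ∀ᵐ x ∂(A1_mu η k), |x| ≤ |lft η k| + |lft η k + η| := by
  unfold A1_mu
  filter_upwards [ae_restrict_mem measurableSet_uIoc] with x hx
  rw [mem_uIoc] at hx
  rw [abs_le]
  have h1 := abs_nonneg (lft η k)
  have h2 := abs_nonneg (lft η k + η)
  have h3 := le_abs_self (lft η k)
  have h4 := le_abs_self (lft η k + η)
  have h5 := neg_abs_le (lft η k)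
  have h6 := neg_abs_le (lft η k + η)
  rcases hx with ⟨a, b⟩ | ⟨a, b⟩ <;> constructor <;> linarith

private theorem A1_nu_ae (k₀ k₁ k₂ : Fin (2 * N)) :
    ∀ᵐ z ∂(A1_nu η k₀ k₁ k₂), |z.1 + z.2.1 + z.2.2| ≤ (|lft η k₀| + |lft η k₀ + η|) +
      (|lft η k₁| + |lft η k₁ + η|) + (|lft η k₂| + |lft η k₂ + η|) := by
  unfold A1_nu
  have h0 := (Measure.quasiMeasurePreserving_fst (μ := A1_mu η k₀)
    (ν := (A1_mu η k₁).prod (A1_mu η k₂))).ae (A1_mu_ae k₀)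
  have h1 := (Measure.quasiMeasurePreserving_snd (μ := A1_mu η k₀)
    (ν := (A1_mu η k₁).prod (A1_mu η k₂))).ae ((Measure.quasiMeasurePreserving_fst
      (μ := A1_mu η k₁) (ν := A1_mu η k₂)).ae (A1_mu_ae k₁))
  have h2 := (Measure.quasiMeasurePreserving_snd (μ := A1_mu η k₀)
    (ν := (A1_mu η k₁).prod (A1_mu η k₂))).ae ((Measure.quasiMeasurePreserving_snd
      (μ := A1_mu η k₁) (ν := A1_mu η k₂)).ae (A1_mu_ae k₂))
  filter_upwards [h0, h1, h2] with z a b c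
  exact (abs_add_three _ _ _).trans (add_le_add (add_le_add a b) c)

private theorem A1_H_integrable {u : ℝ} (hu : 0 < u) (k₀ k₁ k₂ : Fin (2 * N)) :
    Integrable (Function.uncurry fun (s : ℝ) (z : ℝ × ℝ × ℝ) => A1_H u s (z.1 + z.2.1 + z.2.2))
      ((volume.restrict (Ioi (0 : ℝ))).prod (A1_nu η k₀ k₁ k₂)) := by
  set T := (|lft η k₀| + |lft η k₀ + η|) +
      (|lft η k₁| + |lft η k₁ + η|) + (|lft η k₂| + |lft η k₂ + η|) with hT
  set g : ℝ → ℝ := fun s => if u ^ 2 ≤ s then (3 * T + T ^ 3 / u ^ 2) * s ^ (-2 : ℝ) else 0 with hg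
  have hgi : Integrable g (volume.restrict (Ioi (0 : ℝ))) := by
    have h1 : g = (Ici (u ^ 2)).indicator (fun s => (3 * T + T ^ 3 / u ^ 2) * s ^ (-2 : ℝ)) := by
      funext s
      by_cases h : u ^ 2 ≤ s
      · rw [hg, indicator_of_mem (by exact h)]
        simp only [if_pos h]
      · rw [hg, indicator_of_notMem (by exact h)]
        simp only [if_neg h]
    rw [h1, integrable_indicator_iff measurableSet_Ici]
    have h2 : IntegrableOn (fun s : ℝ => (3 * T + T ^ 3 / u ^ 2) * s ^ (-2 : ℝ)) (Ici (u ^ 2)) := by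
      rw [integrableOn_Ici_iff_integrableOn_Ioi]
      exact A1_intOn hu _
    exact h2.restrict
  refine (hgi.comp_fst (A1_nu η k₀ k₁ k₂)).mono' ?_ ?_
  · refine Measurable.aestronglyMeasurable ?_
    exact (A1_H_meas u).comp (measurable_fst.prodMk (by fun_prop))
  · have h3 := (Measure.quasiMeasurePreserving_snd (μ := volume.restrict (Ioi (0 : ℝ)))
      (ν := A1_nu η k₀ k₁ k₂)).ae (A1_nu_ae k₀ k₁ k₂)
    filter_upwards [h3] with p hp
    exact A1_H_bound hu hp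

private theorem A1_H_swap {u : ℝ} (hu : 0 < u) (k₀ k₁ k₂ : Fin (2 * N)) :
    IntegrableOn (fun s => Jc η k₀ k₁ k₂ (A1_H u s)) (Ioi 0) ∧
    ∫ s in Ioi (0 : ℝ), Jc η k₀ k₁ k₂ (A1_H u s) = Jc η k₀ k₁ k₂ (Kt u) := by
  have hb : ∀ s, 0 < s → ∃ C, ∀ t, |A1_H u s t| ≤ C := by
    intro s hs
    refine ⟨Real.sqrt (Real.pi / 2) * Real.sqrt s * (10 / (s * Real.sqrt s) *
      (1 / Real.sqrt (2 * Real.pi * (2 * s)))), fun t => ?_⟩
    unfold A1_H
    split_ifs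
    · rw [abs_mul, abs_of_nonneg (by positivity : 0 ≤ Real.sqrt (Real.pi / 2) * Real.sqrt s)]
      refine mul_le_mul_of_nonneg_left ((abs_gk3_le hs t).trans ?_) (by positivity)
      refine mul_le_mul_of_nonneg_left ?_ (by positivity)
      unfold gk
      refine div_le_div_of_nonneg_right ?_ (Real.sqrt_nonneg _)
      rw [Real.exp_le_one_iff, neg_div]
      have : 0 ≤ t ^ 2 / (2 * (2 * s)) := by positivity
      linarith
    · rw [abs_zero]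
      positivity
  have hms : ∀ s, Measurable (A1_H u s) := fun s =>
    (A1_H_meas u).comp (measurable_const.prodMk measurable_id)
  have hJ : ∀ s ∈ Ioi (0 : ℝ), Jc η k₀ k₁ k₂ (A1_H u s) =
      A1_ep η ^ 3 * ∫ z, A1_H u s (z.1 + z.2.1 + z.2.2) ∂(A1_nu η k₀ k₁ k₂) := by
    intro s hs
    obtain ⟨C, hC⟩ := hb s hs
    exact (A1_Jc (hms s) hC k₀ k₁ k₂).2
  have hI := A1_H_integrable (η := η) hu k₀ k₁ k₂
  constructor
  · refine IntegrableOn.congr_fun ?_ (fun s hs => (hJ s hs).symm) measurableSet_Ioi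
    exact (hI.integral_prod_left).const_mul (A1_ep η ^ 3)
  · have hsw := integral_integral_swap (μ := volume.restrict (Ioi (0 : ℝ)))
      (ν := A1_nu η k₀ k₁ k₂) hI
    rw [setIntegral_congr_fun measurableSet_Ioi hJ, integral_const_mul, hsw,
      (A1_Jc (measurable_Kt u) (fun t => abs_Kt_le hu) k₀ k₁ k₂).2]
    simp only [A1_H_integral hu]

private theorem A1_Jc_H (u s : ℝ) (k₀ k₁ k₂ : Fin (2 * N)) :
    Jc η k₀ k₁ k₂ (A1_H u s) = (if u ≤ Real.sqrt s then 1 else 0) *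
      (Real.sqrt (Real.pi / 2) * Real.sqrt s * Jc η k₀ k₁ k₂ (gk3 s)) := by
  by_cases h : u ≤ Real.sqrt s
  · have h1 : A1_H u s = fun t => (Real.sqrt (Real.pi / 2) * Real.sqrt s) * gk3 s t := by
      funext t
      unfold A1_H
      rw [if_pos h]
    rw [h1, A1_Jc_mul, if_pos h, one_mul]
  · have h1 : A1_H u s = fun t => (0 : ℝ) * gk3 s t := by
      funext t
      unfold A1_H
      rw [if_neg h, zero_mul]
    rw [h1, A1_Jc_mul, if_neg h, zero_mul, zero_mul]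

/-- `∑_q a_q Kt(r_q, t) = ∫_0^∞ √(π/2) √s m(√s) gk3 s t ds` integrated over the cells (Fubini; the
`s`-integrand vanishes outside `[r_0², r_{Q-1}²)` because the total jump is `0`). -/
theorem TS_Kt {Q n : ℕ} (J : JumpData N Q n) (F₀ F₁ F₂ : Matrix (Fin (2 * N)) (Fin (2 * N)) ℝ) :
    IntegrableOn (fun s => Real.sqrt (Real.pi / 2) * Real.sqrt s *
        TS η F₀ F₁ F₂ (fun k₂ k₀ t => mstep J k₂ k₀ (Real.sqrt s) * gk3 s t)) (Ioi 0) ∧
    TS η F₀ F₁ F₂ (fun k₂ k₀ t => ∑ q, J.a q k₂ k₀ * Kt (J.r q) t) =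
      ∫ s in Ioi (0 : ℝ), Real.sqrt (Real.pi / 2) * Real.sqrt s *
        TS η F₀ F₁ F₂ (fun k₂ k₀ t => mstep J k₂ k₀ (Real.sqrt s) * gk3 s t) := by
  have hrhs : ∀ s, Real.sqrt (Real.pi / 2) * Real.sqrt s *
        TS η F₀ F₁ F₂ (fun k₂ k₀ t => mstep J k₂ k₀ (Real.sqrt s) * gk3 s t) =
      ∑ k₀, ∑ k₁, ∑ k₂, F₀ k₀ k₁ * F₁ k₁ k₂ * F₂ k₂ k₀ *
        ∑ q, J.a q k₂ k₀ * Jc η k₀ k₁ k₂ (A1_H (J.r q) s) := by
    intro s
    unfold TS
    rw [Finset.mul_sum]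
    refine Finset.sum_congr rfl fun k₀ _ => ?_
    rw [Finset.mul_sum]
    refine Finset.sum_congr rfl fun k₁ _ => ?_
    rw [Finset.mul_sum]
    refine Finset.sum_congr rfl fun k₂ _ => ?_
    rw [A1_Jc_mul]
    unfold mstep
    rw [mul_left_comm]
    congr 1
    rw [Finset.sum_mul, Finset.mul_sum]
    refine Finset.sum_congr rfl fun q _ => ?_
    rw [A1_Jc_H]
    split_ifs <;> ring
  have hlhs : TS η F₀ F₁ F₂ (fun k₂ k₀ t => ∑ q, J.a q k₂ k₀ * Kt (J.r q) t) =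
      ∑ k₀, ∑ k₁, ∑ k₂, F₀ k₀ k₁ * F₁ k₁ k₂ * F₂ k₂ k₀ *
        ∑ q, J.a q k₂ k₀ * Jc η k₀ k₁ k₂ (Kt (J.r q)) := by
    unfold TS
    refine Finset.sum_congr rfl fun k₀ _ => Finset.sum_congr rfl fun k₁ _ =>
      Finset.sum_congr rfl fun k₂ _ => ?_
    rw [A1_Jc_sum (fun q => Kt (J.r q)) (fun q => J.a q k₂ k₀) (fun q => measurable_Kt _)
      (fun q => 4 / J.r q) (fun q t => abs_Kt_le (J.r_pos q))]
  have hI : ∀ k₀ k₁ k₂ q, IntegrableOn (fun s => J.a q k₂ k₀ *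
      Jc η k₀ k₁ k₂ (A1_H (J.r q) s)) (Ioi 0) := fun k₀ k₁ k₂ q =>
    (A1_H_swap (J.r_pos q) k₀ k₁ k₂).1.const_mul _
  have hI2 : ∀ k₀ k₁ k₂, IntegrableOn (fun s => F₀ k₀ k₁ * F₁ k₁ k₂ * F₂ k₂ k₀ *
      ∑ q, J.a q k₂ k₀ * Jc η k₀ k₁ k₂ (A1_H (J.r q) s)) (Ioi 0) := fun k₀ k₁ k₂ =>
    (integrable_finsetSum _ fun q _ => hI k₀ k₁ k₂ q).const_mul _
  have hI3 : ∀ k₀ k₁, IntegrableOn (fun s => ∑ k₂, F₀ k₀ k₁ * F₁ k₁ k₂ * F₂ k₂ k₀ *
      ∑ q, J.a q k₂ k₀ * Jc η k₀ k₁ k₂ (A1_H (J.r q) s)) (Ioi 0) := fun k₀ k₁ =>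
    integrable_finsetSum _ fun k₂ _ => hI2 k₀ k₁ k₂
  have hI4 : ∀ k₀, IntegrableOn (fun s => ∑ k₁, ∑ k₂, F₀ k₀ k₁ * F₁ k₁ k₂ * F₂ k₂ k₀ *
      ∑ q, J.a q k₂ k₀ * Jc η k₀ k₁ k₂ (A1_H (J.r q) s)) (Ioi 0) := fun k₀ =>
    integrable_finsetSum _ fun k₁ _ => hI3 k₀ k₁
  simp only [hrhs]
  refine ⟨integrable_finsetSum _ fun k₀ _ => hI4 k₀, ?_⟩
  rw [hlhs, integral_finsetSum _ fun k₀ _ => hI4 k₀]
  refine Finset.sum_congr rfl fun k₀ _ => ?_
  rw [integral_finsetSum _ fun k₁ _ => hI3 k₀ k₁]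
  refine Finset.sum_congr rfl fun k₁ _ => ?_
  rw [integral_finsetSum _ fun k₂ _ => hI2 k₀ k₁ k₂]
  refine Finset.sum_congr rfl fun k₂ _ => ?_
  rw [integral_const_mul, integral_finsetSum _ fun q _ => hI k₀ k₁ k₂ q]
  congr 1
  refine Finset.sum_congr rfl fun q _ => ?_
  rw [integral_const_mul, (A1_H_swap (J.r_pos q) k₀ k₁ k₂).2]

/-! ### the Gaussian triple product -/

private theorem A1_gk3_bdd {t : ℝ} (ht : 0 < t) : ∃ C : ℝ, ∀ x, |gk3 t x| ≤ C := by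
  refine ⟨10 / (t * Real.sqrt t) * (1 / Real.sqrt (2 * Real.pi * (2 * t))), fun x => ?_⟩
  refine (abs_gk3_le ht x).trans ?_
  refine mul_le_mul_of_nonneg_left ?_ (by positivity)
  unfold gk
  refine div_le_div_of_nonneg_right ?_ (Real.sqrt_nonneg _)
  rw [Real.exp_le_one_iff, neg_div]
  have : 0 ≤ x ^ 2 / (2 * (2 * t)) := by positivity
  linarith

private theorem A1_G_integrable {τ : ℝ} (hτ : 0 < τ) (k₀ k₁ k₂ : Fin (2 * N)) :
    Integrable (Function.uncurry fun (p : ℝ × ℝ) (z : ℝ × ℝ × ℝ) =>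
      gk1 τ (z.1 - p.1) * gk1 τ (z.2.1 - p.2) * gk1 τ (z.2.2 + p.1 + p.2))
      ((volume : Measure (ℝ × ℝ)).prod (A1_nu η k₀ k₁ k₂)) := by
  have hc := continuous_gk1 hτ
  have hi := integrable_gk1 hτ
  have h1 : Integrable (fun q : (ℝ × ℝ) × (ℝ × ℝ × ℝ) =>
      gk1 τ (q.2.1 - q.1.1) * gk1 τ (q.2.2.1 - q.1.2))
      ((volume : Measure (ℝ × ℝ)).prod (A1_nu η k₀ k₁ k₂)) := by
    rw [integrable_prod_iff']
    · constructor
      · refine Eventually.of_forall fun z => ?_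
        exact (hi.comp_sub_left z.1).mul_prod (hi.comp_sub_left z.2.1)
      · have h2 : (fun z : ℝ × ℝ × ℝ => ∫ p : ℝ × ℝ,
            ‖gk1 τ (z.1 - p.1) * gk1 τ (z.2.1 - p.2)‖) =
            fun _ => (∫ x, |gk1 τ x|) * (∫ x, |gk1 τ x|) := by
          funext z
          have h3 : ∀ p : ℝ × ℝ, ‖gk1 τ (z.1 - p.1) * gk1 τ (z.2.1 - p.2)‖ =
              |gk1 τ (z.1 - p.1)| * |gk1 τ (z.2.1 - p.2)| := fun p => by
            rw [Real.norm_eq_abs, abs_mul]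
          simp only [h3]
          have h4 := integral_prod_mul (μ := (volume : Measure ℝ)) (ν := (volume : Measure ℝ))
            (fun x => |gk1 τ (z.1 - x)|) (fun x => |gk1 τ (z.2.1 - x)|)
          rw [integral_sub_left_eq_self (fun x => |gk1 τ x|) volume z.1,
            integral_sub_left_eq_self (fun x => |gk1 τ x|) volume z.2.1] at h4
          exact h4
        rw [h2]
        exact integrable_const _
    · refine Continuous.aestronglyMeasurable ?_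
      exact (hc.comp (by fun_prop)).mul (hc.comp (by fun_prop))
  obtain ⟨C, hC⟩ := abs_gk1_le_const hτ
  refine h1.mul_bdd (c := C) ?_ ?_
  · refine Continuous.aestronglyMeasurable ?_
    exact hc.comp (by fun_prop)
  · exact Eventually.of_forall fun p => hC _

private theorem A1_prod_dwt (hη : 0 < η) (τ : ℝ) (k₀ k₁ k₂ : Fin (2 * N)) (p : ℝ × ℝ) :
    dwt η p.1 τ k₀ * dwt η p.2 τ k₁ * dwt η (-p.1 - p.2) τ k₂ =
      ∫ z, gk1 τ (z.1 - p.1) * gk1 τ (z.2.1 - p.2) * gk1 τ (z.2.2 + p.1 + p.2)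
        ∂(A1_nu η k₀ k₁ k₂) := by
  have hep : A1_ep η = 1 := by
    unfold A1_ep
    rw [if_pos hη.le]
  unfold dwt A1_nu
  simp only [A1_ii, hep, one_mul]
  have h1 : ∀ z : ℝ × ℝ × ℝ, gk1 τ (z.1 - p.1) * gk1 τ (z.2.1 - p.2) *
      gk1 τ (z.2.2 + p.1 + p.2) = gk1 τ (z.1 - p.1) * ((fun y : ℝ × ℝ => gk1 τ (y.1 - p.2) *
      gk1 τ (y.2 - (-p.1 - p.2))) z.2) := by
    intro z
    simp only
    rw [show z.2.2 - (-p.1 - p.2) = z.2.2 + p.1 + p.2 by ring]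
    ring
  simp only [h1]
  have h2 := integral_prod_mul (μ := A1_mu η k₀) (ν := (A1_mu η k₁).prod (A1_mu η k₂))
    (fun x => gk1 τ (x - p.1)) (fun y : ℝ × ℝ => gk1 τ (y.1 - p.2) *
      gk1 τ (y.2 - (-p.1 - p.2)))
  have h3 := integral_prod_mul (μ := A1_mu η k₁) (ν := A1_mu η k₂)
    (fun x => gk1 τ (x - p.2)) (fun y : ℝ => gk1 τ (y - (-p.1 - p.2)))
  rw [h2, h3, mul_assoc]

private theorem A1_triple (hη : 0 < η) {τ : ℝ} (hτ : 0 < τ) (k₀ k₁ k₂ : Fin (2 * N)) :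
    Integrable (fun p : ℝ × ℝ => dwt η p.1 τ k₀ * dwt η p.2 τ k₁ * dwt η (-p.1 - p.2) τ k₂) ∧
    ∫ p : ℝ × ℝ, dwt η p.1 τ k₀ * dwt η p.2 τ k₁ * dwt η (-p.1 - p.2) τ k₂ =
      Jc η k₀ k₁ k₂ (gk3 (3 * τ)) := by
  have hG := A1_G_integrable (η := η) hτ k₀ k₁ k₂
  have hep : A1_ep η = 1 := by
    unfold A1_ep
    rw [if_pos hη.le]
  simp only [A1_prod_dwt hη]
  refine ⟨hG.integral_prod_left, ?_⟩
  have hsw := integral_integral_swap (μ := (volume : Measure (ℝ × ℝ)))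
      (ν := A1_nu η k₀ k₁ k₂) hG
  rw [hsw]
  obtain ⟨C, hC⟩ := A1_gk3_bdd (show 0 < 3 * τ by positivity)
  have hm : Measurable (gk3 (3 * τ)) := A1_meas_gk3.comp (measurable_const.prodMk measurable_id)
  rw [(A1_Jc hm hC k₀ k₁ k₂).2, hep, one_pow, one_mul]
  refine integral_congr_ae (Eventually.of_forall fun z => ?_)
  exact (gk1_triple hτ z.1 z.2.1 z.2.2).2

/-- `gk1_triple` integrated over the cells -/
theorem TS_gk3 (hη : 0 < η) (F₀ F₁ F₂ c : Matrix (Fin (2 * N)) (Fin (2 * N)) ℝ) {τ : ℝ} (hτ : 0 < τ) :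
    Integrable (fun p : ℝ × ℝ => dT F₀ F₁ (Matrix.of fun k₂ k₀ => F₂ k₂ k₀ * c k₂ k₀)
        (dwt η p.1 τ) (dwt η p.2 τ) (dwt η (-p.1 - p.2) τ)) ∧
    TS η F₀ F₁ F₂ (fun k₂ k₀ t => c k₂ k₀ * gk3 (3 * τ) t) =
      ∫ p : ℝ × ℝ, dT F₀ F₁ (Matrix.of fun k₂ k₀ => F₂ k₂ k₀ * c k₂ k₀)
        (dwt η p.1 τ) (dwt η p.2 τ) (dwt η (-p.1 - p.2) τ) := by
  have h0 : ∀ p : ℝ × ℝ, dT F₀ F₁ (Matrix.of fun k₂ k₀ => F₂ k₂ k₀ * c k₂ k₀)
        (dwt η p.1 τ) (dwt η p.2 τ) (dwt η (-p.1 - p.2) τ) =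
      ∑ k₀, ∑ k₁, ∑ k₂, (F₀ k₀ k₁ * F₁ k₁ k₂ * F₂ k₂ k₀ * c k₂ k₀) *
        (dwt η p.1 τ k₀ * dwt η p.2 τ k₁ * dwt η (-p.1 - p.2) τ k₂) := by
    intro p
    unfold dT
    refine Finset.sum_congr rfl fun k₀ _ => Finset.sum_congr rfl fun k₁ _ =>
      Finset.sum_congr rfl fun k₂ _ => ?_
    rw [Matrix.of_apply]
    ring
  simp only [h0]
  have i1 : ∀ k₀ k₁ k₂, Integrable (fun p : ℝ × ℝ => (F₀ k₀ k₁ * F₁ k₁ k₂ * F₂ k₂ k₀ * c k₂ k₀) *
        (dwt η p.1 τ k₀ * dwt η p.2 τ k₁ * dwt η (-p.1 - p.2) τ k₂)) := fun k₀ k₁ k₂ =>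
    (A1_triple hη hτ k₀ k₁ k₂).1.const_mul _
  have i2 : ∀ k₀ k₁, Integrable (fun p : ℝ × ℝ => ∑ k₂, (F₀ k₀ k₁ * F₁ k₁ k₂ * F₂ k₂ k₀ *
        c k₂ k₀) * (dwt η p.1 τ k₀ * dwt η p.2 τ k₁ * dwt η (-p.1 - p.2) τ k₂)) := fun k₀ k₁ =>
    integrable_finsetSum _ fun k₂ _ => i1 k₀ k₁ k₂
  have i3 : ∀ k₀, Integrable (fun p : ℝ × ℝ => ∑ k₁, ∑ k₂, (F₀ k₀ k₁ * F₁ k₁ k₂ * F₂ k₂ k₀ *
        c k₂ k₀) * (dwt η p.1 τ k₀ * dwt η p.2 τ k₁ * dwt η (-p.1 - p.2) τ k₂)) := fun k₀ =>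
    integrable_finsetSum _ fun k₁ _ => i2 k₀ k₁
  refine ⟨integrable_finsetSum _ fun k₀ _ => i3 k₀, ?_⟩
  unfold TS
  rw [integral_finsetSum _ fun k₀ _ => i3 k₀]
  refine Finset.sum_congr rfl fun k₀ _ => ?_
  rw [integral_finsetSum _ fun k₁ _ => i2 k₀ k₁]
  refine Finset.sum_congr rfl fun k₁ _ => ?_
  rw [integral_finsetSum _ fun k₂ _ => i1 k₀ k₁ k₂]
  refine Finset.sum_congr rfl fun k₂ _ => ?_
  rw [integral_const_mul, (A1_triple hη hτ k₀ k₁ k₂).2, A1_Jc_mul]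
  ring

end Crest.Agent.TH
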