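import Crest.Agent.TH_Res

/-! # TH_FopDeriv (task TH-M5): calculus of `v ↦ fop v H`, `gn v H b` -/

set_option autoImplicit false
open Matrix MeasureTheory Set Filter
open scoped Topology

namespace Crest.Agent.TH
variable {ι κ : Type*} [Fintype ι] [DecidableEq ι] [Fintype κ] [DecidableEq κ]

private theorem conj_mul_conj {U : Matrix ι ι ℝ} (hU : Uᵀ * U = 1) (a b : ι → ℝ) :
    (U * diagonal a * Uᵀ) * (U * diagonal b * Uᵀ) = U * diagonal (fun i => a i * b i) * Uᵀ := by
  calc (U * diagonal a * Uᵀ) * (U * diagonal b * Uᵀ)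
      = U * diagonal a * (Uᵀ * U) * diagonal b * Uᵀ := by simp only [Matrix.mul_assoc]
    _ = U * (diagonal a * diagonal b) * Uᵀ := by
        rw [hU, Matrix.mul_one, Matrix.mul_assoc U]
    _ = _ := by rw [Matrix.diagonal_mul_diagonal]

private theorem conj_apply (U : Matrix ι ι ℝ) (a : ι → ℝ) (i j : ι) :
    (U * diagonal a * Uᵀ) i j = ∑ k, U i k * a k * U j k := by
  rw [Matrix.mul_apply]
  refine Finset.sum_congr rfl fun k _ => ?_
  rw [Matrix.mul_diagonal, Matrix.transpose_apply]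

/-- spectral form: with `H = U diag(x) Uᵀ`, `fop v H = U diag(v²/(v²+x)) Uᵀ`, `hop v H = U diag(x/(v²+x)) Uᵀ`. -/
theorem exists_spectral {H : Matrix ι ι ℝ} (hH : H.PosSemidef) :
    ∃ (U : Matrix ι ι ℝ) (x : ι → ℝ), (∀ i, 0 ≤ x i) ∧ U * Uᵀ = 1 ∧ Uᵀ * U = 1 ∧
      H = U * diagonal x * Uᵀ ∧
      (∀ v : ℝ, 0 < v → hop v H = U * diagonal (fun i => x i / (v ^ 2 + x i)) * Uᵀ) ∧
      (∀ v : ℝ, 0 < v → fop v H = U * diagonal (fun i => v ^ 2 / (v ^ 2 + x i)) * Uᵀ) := by
  have hA := hH.1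
  obtain ⟨U, x, hx, hU1, hU2, hHU⟩ : ∃ (U : Matrix ι ι ℝ) (x : ι → ℝ), (∀ i, 0 ≤ x i) ∧
      U * Uᵀ = 1 ∧ Uᵀ * U = 1 ∧ H = U * diagonal x * Uᵀ := by
    refine ⟨(hA.eigenvectorUnitary : Matrix ι ι ℝ), hA.eigenvalues,
      fun i => hH.eigenvalues_nonneg i, ?_, ?_, ?_⟩
    · have h := Unitary.coe_mul_star_self hA.eigenvectorUnitary
      rwa [Unitary.coe_star, Matrix.star_eq_conjTranspose,
        Matrix.conjTranspose_eq_transpose_of_trivial] at h
    · have h := Unitary.coe_star_mul_self hA.eigenvectorUnitary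
      rwa [Matrix.star_eq_conjTranspose, Matrix.conjTranspose_eq_transpose_of_trivial] at h
    · have h := hA.spectral_theorem
      rw [Unitary.conjStarAlgAut_apply, Matrix.star_eq_conjTranspose,
        Matrix.conjTranspose_eq_transpose_of_trivial] at h
      exact h
  have hinv : ∀ v : ℝ, 0 < v → (v ^ 2 • (1 : Matrix ι ι ℝ) + H)⁻¹ =
      U * diagonal (fun i => (v ^ 2 + x i)⁻¹) * Uᵀ := by
    intro v hv
    apply Matrix.inv_eq_right_inv
    have h1 : v ^ 2 • (1 : Matrix ι ι ℝ) + H = U * diagonal (fun i => v ^ 2 + x i) * Uᵀ := by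
      have h2 : diagonal (fun i => v ^ 2 + x i) = v ^ 2 • (1 : Matrix ι ι ℝ) + diagonal x := by
        rw [← Matrix.diagonal_one, ← Matrix.diagonal_smul, Matrix.diagonal_add]
        congr 1
        ext i
        simp
      rw [h2, Matrix.mul_add, Matrix.add_mul, ← hHU, Matrix.mul_smul, Matrix.smul_mul,
        Matrix.mul_one, hU1]
    rw [h1, conj_mul_conj hU2]
    have h3 : (fun i => (v ^ 2 + x i) * (v ^ 2 + x i)⁻¹) = fun _ => (1 : ℝ) := by
      ext i
      have : 0 < v ^ 2 + x i := by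
        have := hx i
        positivity
      exact mul_inv_cancel₀ this.ne'
    rw [h3, Matrix.diagonal_one, Matrix.mul_one, hU1]
  refine ⟨U, x, hx, hU1, hU2, hHU, fun v hv => ?_, fun v hv => ?_⟩
  · rw [hop, hinv v hv]
    conv_lhs => rw [hHU]
    rw [conj_mul_conj hU2]
    rfl
  · rw [fop, hinv v hv, ← Matrix.smul_mul, ← Matrix.mul_smul, ← Matrix.diagonal_smul]
    rfl

/-- `d/dv fop v H = (2/v) f h`, entrywise. -/
theorem fop_hasDerivAt {H : Matrix ι ι ℝ} (hH : H.PosSemidef) {v : ℝ} (hv : 0 < v) (i j : ι) :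
    HasDerivAt (fun v => fop v H i j) ((2 / v) * (fop v H * hop v H) i j) v := by
  obtain ⟨U, x, hx, hU1, hU2, hHU, hh, hf⟩ := exists_spectral hH
  have h1 : (2 / v) * (fop v H * hop v H) i j =
      ∑ k, U i k * ((2 / v) * (v ^ 2 / (v ^ 2 + x k) * (x k / (v ^ 2 + x k)))) * U j k := by
    rw [hh v hv, hf v hv, conj_mul_conj hU2, conj_apply, Finset.mul_sum]
    exact Finset.sum_congr rfl fun k _ => by ring
  rw [h1]
  have h2 : (fun v => ∑ k, U i k * (v ^ 2 / (v ^ 2 + x k)) * U j k) =ᶠ[𝓝 v]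
      fun v => fop v H i j := by
    filter_upwards [lt_mem_nhds hv] with w hw
    rw [hf w hw, conj_apply]
  refine HasDerivAt.congr_of_eventuallyEq ?_ h2.symm
  refine HasDerivAt.fun_sum fun k _ => ?_
  refine HasDerivAt.mul_const (HasDerivAt.const_mul _ ?_) _
  have hpos : 0 < v ^ 2 + x k := by
    have := hx k
    positivity
  have h3 : HasDerivAt (fun v : ℝ => v ^ 2) (2 * v) v := by
    simpa using hasDerivAt_pow 2 v
  have h4 : HasDerivAt (fun v : ℝ => v ^ 2 / (v ^ 2 + x k))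
      ((2 * v * (v ^ 2 + x k) - v ^ 2 * (2 * v)) / (v ^ 2 + x k) ^ 2) v :=
    h3.div (h3.add_const (x k)) hpos.ne'
  have h5 : (2 * v * (v ^ 2 + x k) - v ^ 2 * (2 * v)) / (v ^ 2 + x k) ^ 2 =
      2 / v * (v ^ 2 / (v ^ 2 + x k) * (x k / (v ^ 2 + x k))) := by
    field_simp
    ring
  rw [← h5]
  exact h4

theorem fop_tendsto_atTop {H : Matrix ι ι ℝ} (hH : H.PosSemidef) (i j : ι) :
    Tendsto (fun v => fop v H i j) atTop (𝓝 ((1 : Matrix ι ι ℝ) i j)) := by
  obtain ⟨U, x, hx, hU1, hU2, hHU, hh, hf⟩ := exists_spectral hH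
  have h2 : (fun v => ∑ k, U i k * (v ^ 2 / (v ^ 2 + x k)) * U j k) =ᶠ[atTop]
      fun v => fop v H i j := by
    filter_upwards [eventually_gt_atTop 0] with w hw
    rw [hf w hw, conj_apply]
  refine Tendsto.congr' h2 ?_
  have h3 : (1 : Matrix ι ι ℝ) i j = ∑ k, U i k * 1 * U j k := by
    rw [← hU1, Matrix.mul_apply]
    simp
  rw [h3]
  refine tendsto_finsetSum _ fun k _ => ?_
  refine Tendsto.mul_const _ (Tendsto.const_mul _ ?_)
  have h4 : Tendsto (fun v : ℝ => 1 - x k / (v ^ 2 + x k)) atTop (𝓝 (1 - 0)) := by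
    refine Tendsto.sub tendsto_const_nhds ?_
    refine Tendsto.div_atTop tendsto_const_nhds ?_
    exact tendsto_atTop_add_const_right _ _ (tendsto_pow_atTop two_ne_zero)
  rw [sub_zero] at h4
  refine Tendsto.congr' ?_ h4
  filter_upwards [eventually_gt_atTop 0] with v hv
  have hpos : 0 < v ^ 2 + x k := by
    have := hx k
    positivity
  field_simp
  ring

/-- the entries of `fop` are bounded by `1`. -/
theorem abs_fop_le {H : Matrix ι ι ℝ} (hH : H.PosSemidef) {v : ℝ} (hv : 0 < v) (i j : ι) :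
    |fop v H i j| ≤ 1 := by
  obtain ⟨U, x, hx, hU1, hU2, hHU, hh, hf⟩ := exists_spectral hH
  have hrow : ∀ i, ∑ k, U i k ^ 2 = 1 := by
    intro i
    have := congrFun (congrFun hU1 i) i
    rw [Matrix.mul_apply, Matrix.one_apply_eq] at this
    rw [← this]
    exact Finset.sum_congr rfl fun k _ => by rw [Matrix.transpose_apply, sq]
  rw [hf v hv, conj_apply]
  refine (Finset.abs_sum_le_sum_abs _ _).trans ?_
  have h1 : ∀ k ∈ Finset.univ, |U i k * (v ^ 2 / (v ^ 2 + x k)) * U j k| ≤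
      (U i k ^ 2 + U j k ^ 2) / 2 := by
    intro k _
    have hpos : 0 < v ^ 2 + x k := by
      have := hx k
      positivity
    have h2 : |v ^ 2 / (v ^ 2 + x k)| ≤ 1 := by
      rw [abs_of_nonneg (by positivity), div_le_one hpos]
      have := hx k
      linarith
    rw [abs_mul, abs_mul]
    have h3 : |U i k| * |v ^ 2 / (v ^ 2 + x k)| * |U j k| ≤ |U i k| * |U j k| := by
      refine mul_le_mul_of_nonneg_right ?_ (abs_nonneg _)
      exact mul_le_of_le_one_right (abs_nonneg _) h2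
    have h4 : |U i k| * |U j k| ≤ (U i k ^ 2 + U j k ^ 2) / 2 := by
      rw [← sq_abs (U i k), ← sq_abs (U j k)]
      nlinarith [sq_nonneg (|U i k| - |U j k|)]
    exact h3.trans h4
  refine (Finset.sum_le_sum h1).trans ?_
  rw [← Finset.sum_div, Finset.sum_add_distrib, hrow, hrow]
  norm_num

/-- if `AᵀA ≤ H` then `A * fop v H → 0` as `v → 0+` (`‖A f‖² ≤ tr (f H f) = v² tr (h f) ≤ v² card ι`). -/
theorem mul_fop_tendsto_zero {H : Matrix ι ι ℝ} (hH : H.PosSemidef) (A : Matrix κ ι ℝ)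
    (hA : (H - Aᵀ * A).PosSemidef) (i : κ) (j : ι) :
    Tendsto (fun v => (A * fop v H) i j) (𝓝[>] 0) (𝓝 0) := by
  obtain ⟨U, x, hx, hU1, hU2, hHU, hh, hf⟩ := exists_spectral hH
  have hrow : ∀ i, ∑ k, U i k ^ 2 = 1 := by
    intro i
    have := congrFun (congrFun hU1 i) i
    rw [Matrix.mul_apply, Matrix.one_apply_eq] at this
    rw [← this]
    exact Finset.sum_congr rfl fun k _ => by rw [Matrix.transpose_apply, sq]
  have key : ∀ v : ℝ, 0 < v → |(A * fop v H) i j| ≤ v := by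
    intro v hv
    have h1 : ((A * fop v H) i j) ^ 2 ≤ ((fop v H)ᵀ * (Aᵀ * A) * fop v H) j j := by
      have e : (fop v H)ᵀ * (Aᵀ * A) * fop v H = (A * fop v H)ᵀ * (A * fop v H) := by
        rw [Matrix.transpose_mul]
        simp only [Matrix.mul_assoc]
      have e2 : ((A * fop v H)ᵀ * (A * fop v H)) j j =
          ∑ k, (A * fop v H) k j * (A * fop v H) k j := by
        rw [Matrix.mul_apply]
        rfl
      rw [e, e2]
      have h5 := Finset.single_le_sum (f := fun k => (A * fop v H) k j * (A * fop v H) k j)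
        (fun k _ => mul_self_nonneg _) (Finset.mem_univ i)
      rw [sq]
      exact h5
    have h2 : ((fop v H)ᵀ * (Aᵀ * A) * fop v H) j j ≤ ((fop v H)ᵀ * H * fop v H) j j := by
      have h3 := (hA.conjTranspose_mul_mul_same (fop v H)).diag_nonneg (i := j)
      rw [Matrix.conjTranspose_eq_transpose_of_trivial, Matrix.mul_sub, Matrix.sub_mul,
        Matrix.sub_apply] at h3
      linarith
    have h3 : ((fop v H)ᵀ * H * fop v H) j j ≤ v ^ 2 := by
      have e : (fop v H)ᵀ * H * fop v H =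
          U * diagonal (fun i => v ^ 2 / (v ^ 2 + x i) * x i * (v ^ 2 / (v ^ 2 + x i))) * Uᵀ := by
        rw [fop_transpose hv hH, hf v hv]
        conv_lhs => rw [hHU]
        rw [conj_mul_conj hU2, conj_mul_conj hU2]
      rw [e, conj_apply]
      have h5 : ∀ k ∈ Finset.univ, U j k * (v ^ 2 / (v ^ 2 + x k) * x k *
          (v ^ 2 / (v ^ 2 + x k))) * U j k ≤ v ^ 2 * U j k ^ 2 := by
        intro k _
        have hxk := hx k
        have hpos : 0 < v ^ 2 + x k := by positivity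
        have h6 : v ^ 2 / (v ^ 2 + x k) * x k * (v ^ 2 / (v ^ 2 + x k)) ≤ v ^ 2 := by
          have h7 : v ^ 2 / (v ^ 2 + x k) ≤ 1 := by
            rw [div_le_one hpos]
            linarith
          have h8 : x k / (v ^ 2 + x k) ≤ 1 := by
            rw [div_le_one hpos]
            nlinarith
          have h9 : v ^ 2 / (v ^ 2 + x k) * x k * (v ^ 2 / (v ^ 2 + x k)) =
              v ^ 2 * ((x k / (v ^ 2 + x k)) * (v ^ 2 / (v ^ 2 + x k))) := by ring
          rw [h9]
          exact mul_le_of_le_one_right (by positivity)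
            (mul_le_one₀ h8 (by positivity) h7)
        nlinarith [mul_le_mul_of_nonneg_left h6 (sq_nonneg (U j k))]
      refine (Finset.sum_le_sum h5).trans ?_
      rw [← Finset.mul_sum, hrow, mul_one]
    exact abs_le_of_sq_le_sq' (h1.trans (h2.trans h3)) hv.le |> abs_le.2
  have h0 : Tendsto (fun v : ℝ => v) (𝓝[>] 0) (𝓝 0) := tendsto_nhdsWithin_of_tendsto_nhds tendsto_id
  refine squeeze_zero_norm' ?_ h0
  filter_upwards [self_mem_nhdsWithin] with v hv
  exact key v hv

private theorem gn_eq_sum (U : Matrix ι ι ℝ) (a b : ι → ℝ) :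
    (diagonal b * (U * diagonal a * Uᵀ) * diagonal b * (U * diagonal a * Uᵀ)).trace =
      ∑ k, ∑ l, (Uᵀ * diagonal b * U) k l ^ 2 * (a k * a l) := by
  set C : Matrix ι ι ℝ := Uᵀ * diagonal b * U with hC
  have hCs : Cᵀ = C := by
    rw [hC, Matrix.transpose_mul, Matrix.transpose_mul, Matrix.transpose_transpose,
      Matrix.diagonal_transpose, Matrix.mul_assoc]
  have h1 : (diagonal b * (U * diagonal a * Uᵀ) * diagonal b * (U * diagonal a * Uᵀ)).trace =
      (C * diagonal a * C * diagonal a).trace := by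
    have e1 : diagonal b * (U * diagonal a * Uᵀ) * diagonal b * (U * diagonal a * Uᵀ) =
        (diagonal b * U * diagonal a * Uᵀ * diagonal b * U * diagonal a) * Uᵀ := by
      simp only [Matrix.mul_assoc]
    rw [e1, Matrix.trace_mul_comm, hC]
    simp only [Matrix.mul_assoc]
  rw [h1, Matrix.trace]
  refine Finset.sum_congr rfl fun k _ => ?_
  rw [Matrix.diag_apply, Matrix.mul_diagonal, Matrix.mul_apply, Finset.sum_mul]
  refine Finset.sum_congr rfl fun l _ => ?_
  rw [Matrix.mul_diagonal]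
  have h2 : C l k = C k l := by
    rw [← Matrix.transpose_apply C k l, hCs]
  rw [h2]
  ring

/-- `gn` in the eigenbasis is `∑ h_k h_l |b_kl|²`, hence nonnegative. -/
theorem gn_nonneg {H : Matrix ι ι ℝ} (hH : H.PosSemidef) {v : ℝ} (hv : 0 < v) (b : ι → ℝ) :
    0 ≤ gn v H b := by
  obtain ⟨U, x, hx, hU1, hU2, hHU, hh, hf⟩ := exists_spectral hH
  rw [gn, hh v hv, gn_eq_sum]
  refine Finset.sum_nonneg fun k _ => Finset.sum_nonneg fun l _ => ?_
  have h1 := hx k
  have h2 := hx l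
  positivity

/-- `v² gn v H b` is integrable on `(0,∞)`: it is continuous there, bounded by `C v²` near `0` and by
`C v^{-2}` at infinity (`h_k = x_k/(v²+x_k)`). -/
theorem gn_integrableOn {H : Matrix ι ι ℝ} (hH : H.PosSemidef) (b : ι → ℝ) :
    IntegrableOn (fun v => v ^ 2 * gn v H b) (Ioi 0) := by
  obtain ⟨U, x, hx, hU1, hU2, hHU, hh, hf⟩ := exists_spectral hH
  have h1 : EqOn (fun v : ℝ => ∑ k, ∑ l, (Uᵀ * diagonal b * U) k l ^ 2 *
      (v ^ 2 * (x k / (v ^ 2 + x k) * (x l / (v ^ 2 + x l)))))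
      (fun v => v ^ 2 * gn v H b) (Ioi 0) := by
    intro v hv
    simp only
    rw [gn, hh v hv, gn_eq_sum, Finset.mul_sum]
    refine Finset.sum_congr rfl fun k _ => ?_
    rw [Finset.mul_sum]
    refine Finset.sum_congr rfl fun l _ => ?_
    ring
  refine IntegrableOn.congr_fun ?_ h1 measurableSet_Ioi
  refine integrable_finsetSum _ fun k _ => integrable_finsetSum _ fun l _ => ?_
  refine Integrable.const_mul ?_ _
  have hk := hx k
  have hl := hx l
  rcases hk.eq_or_lt with hk0 | hk0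
  · rw [← hk0]
    simp
  have hint : Integrable (fun v : ℝ => (max 1 (x k) * x l) * (1 + v ^ 2)⁻¹)
      (volume.restrict (Ioi 0)) :=
    (integrable_inv_one_add_sq.const_mul _).restrict
  refine hint.mono' (by fun_prop) ?_
  refine Filter.Eventually.of_forall fun v => ?_
  have hpk : 0 < v ^ 2 + x k := by positivity
  rcases hl.eq_or_lt with hl0 | hl0
  · rw [← hl0]
    simp
  have hpl : 0 < v ^ 2 + x l := by positivity
  rw [Real.norm_of_nonneg (by positivity)]
  have h2 : x k / (v ^ 2 + x k) ≤ max 1 (x k) * (1 + v ^ 2)⁻¹ := by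
    rw [← div_eq_mul_inv, div_le_div_iff₀ hpk (by positivity)]
    have h3 := le_max_left 1 (x k)
    have h4 := le_max_right 1 (x k)
    nlinarith [mul_le_mul_of_nonneg_right h4 (sq_nonneg v), mul_le_mul_of_nonneg_right h3 hk]
  have h3 : v ^ 2 * (x l / (v ^ 2 + x l)) ≤ x l := by
    rw [mul_div_assoc', div_le_iff₀ hpl]
    nlinarith [mul_nonneg hl hl]
  calc v ^ 2 * (x k / (v ^ 2 + x k) * (x l / (v ^ 2 + x l)))
      = (x k / (v ^ 2 + x k)) * (v ^ 2 * (x l / (v ^ 2 + x l))) := by ring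
    _ ≤ (max 1 (x k) * (1 + v ^ 2)⁻¹) * x l := by
        refine mul_le_mul h2 h3 (by positivity) (by positivity)
    _ = _ := by ring

end Crest.Agent.TH
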