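import Crest.Agent.TH_Term
import Crest.Agent.TH_FopDeriv

/-! # TH_DB (task TH-M6): the main finite dimensional inequality -/

set_option autoImplicit false
open Matrix MeasureTheory Set Filter
open scoped Topology

namespace Crest.Agent.TH
variable {ι₀ ι₁ ι₂ : Type*} [Fintype ι₀] [DecidableEq ι₀] [Fintype ι₁] [DecidableEq ι₁]
  [Fintype ι₂] [DecidableEq ι₂]

section aux
variable {l m n : Type*} [Fintype m]

/-- entrywise derivative of a matrix valued function -/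
private def HasD {l m : Type*} (X : ℝ → Matrix l m ℝ) (X' : Matrix l m ℝ) (v : ℝ) : Prop :=
  ∀ i j, HasDerivAt (fun v => X v i j) (X' i j) v

private theorem HasD.mul {X : ℝ → Matrix l m ℝ} {Y : ℝ → Matrix m n ℝ} {X' : Matrix l m ℝ}
    {Y' : Matrix m n ℝ} {v : ℝ} (hX : HasD X X' v) (hY : HasD Y Y' v) :
    HasD (fun v => X v * Y v) (X' * Y v + X v * Y') v := by
  intro i j
  have h : HasDerivAt (fun v => ∑ k, X v i k * Y v k j)
      (∑ k, (X' i k * Y v k j + X v i k * Y' k j)) v :=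
    HasDerivAt.fun_sum fun k _ => (hX i k).mul (hY k j)
  simp only [Matrix.add_apply, Matrix.mul_apply]
  rw [← Finset.sum_add_distrib]
  exact h

private theorem HasD.const_mul (C : Matrix l m ℝ) {Y : ℝ → Matrix m n ℝ}
    {Y' : Matrix m n ℝ} {v : ℝ} (hY : HasD Y Y' v) :
    HasD (fun v => C * Y v) (C * Y') v := by
  intro i j
  have h : HasDerivAt (fun v => ∑ k, C i k * Y v k j) (∑ k, (C i k * Y' k j)) v :=
    HasDerivAt.fun_sum fun k _ => (hY k j).const_mul _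
  simp only [Matrix.mul_apply]
  exact h

private theorem HasD.mul_const {X : ℝ → Matrix l m ℝ} (C : Matrix m n ℝ) {X' : Matrix l m ℝ}
    {v : ℝ} (hX : HasD X X' v) :
    HasD (fun v => X v * C) (X' * C) v := by
  intro i j
  have h : HasDerivAt (fun v => ∑ k, X v i k * C k j) (∑ k, (X' i k * C k j)) v :=
    HasDerivAt.fun_sum fun k _ => (hX i k).mul_const _
  simp only [Matrix.mul_apply]
  exact h

private theorem HasD.trace {X : ℝ → Matrix m m ℝ} {X' : Matrix m m ℝ} {v : ℝ}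
    (hX : HasD X X' v) : HasDerivAt (fun v => (X v).trace) X'.trace v := by
  unfold Matrix.trace
  exact HasDerivAt.fun_sum fun k _ => hX k k

/-- entrywise limit of a matrix valued function -/
private def Tend {l m : Type*} (F : Filter ℝ) (X : ℝ → Matrix l m ℝ) (X0 : Matrix l m ℝ) : Prop :=
  ∀ i j, Tendsto (fun v => X v i j) F (𝓝 (X0 i j))

private theorem Tend.mul {F : Filter ℝ} {X : ℝ → Matrix l m ℝ} {Y : ℝ → Matrix m n ℝ}
    {X0 : Matrix l m ℝ} {Y0 : Matrix m n ℝ} (hX : Tend F X X0) (hY : Tend F Y Y0) :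
    Tend F (fun v => X v * Y v) (X0 * Y0) := by
  intro i j
  simp only [Matrix.mul_apply]
  exact tendsto_finsetSum _ fun k _ => (hX i k).mul (hY k j)

private theorem Tend.const {l m : Type*} {F : Filter ℝ} (C : Matrix l m ℝ) :
    Tend F (fun _ => C) C := fun _ _ => tendsto_const_nhds

private theorem Tend.trace {F : Filter ℝ} {X : ℝ → Matrix m m ℝ} {X0 : Matrix m m ℝ}
    (hX : Tend F X X0) : Tendsto (fun v => (X v).trace) F (𝓝 X0.trace) := by
  unfold Matrix.trace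
  exact tendsto_finsetSum _ fun k _ => hX k k

/-- bounded entries for `v > 0` -/
private def Bdd {l m : Type*} (X : ℝ → Matrix l m ℝ) : Prop :=
  ∃ C : ℝ, 0 ≤ C ∧ ∀ v, 0 < v → ∀ i j, |X v i j| ≤ C

private theorem Bdd.mul {X : ℝ → Matrix l m ℝ} {Y : ℝ → Matrix m n ℝ}
    (hX : Bdd X) (hY : Bdd Y) : Bdd (fun v => X v * Y v) := by
  obtain ⟨C, hC, hX⟩ := hX
  obtain ⟨D, hD, hY⟩ := hY
  refine ⟨(Fintype.card m : ℝ) * (C * D), by positivity, fun v hv i j => ?_⟩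
  show |(X v * Y v) i j| ≤ _
  rw [Matrix.mul_apply]
  refine (Finset.abs_sum_le_sum_abs _ _).trans ?_
  have h : ∀ k ∈ (Finset.univ : Finset m), |X v i k * Y v k j| ≤ C * D := by
    intro k _
    rw [abs_mul]
    exact mul_le_mul (hX v hv i k) (hY v hv k j) (abs_nonneg _) hC
  refine (Finset.sum_le_sum h).trans ?_
  rw [Finset.sum_const, nsmul_eq_mul, Finset.card_univ]

private theorem Bdd.const {l m : Type*} [Fintype l] [Fintype m] (C : Matrix l m ℝ) :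
    Bdd (fun _ => C) := by
  refine ⟨∑ i, ∑ j, |C i j|, Finset.sum_nonneg fun i _ => Finset.sum_nonneg fun j _ => abs_nonneg _,
    fun v _ i j => ?_⟩
  refine le_trans ?_ (Finset.single_le_sum (f := fun i => ∑ j, |C i j|)
    (fun i _ => Finset.sum_nonneg fun j _ => abs_nonneg _) (Finset.mem_univ i))
  exact Finset.single_le_sum (f := fun j => |C i j|) (fun j _ => abs_nonneg _) (Finset.mem_univ j)

private theorem tend_zero_trace {l : Type*} [Fintype l] {X : ℝ → Matrix l m ℝ}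
    {Y : ℝ → Matrix m l ℝ} (hX : Tend (𝓝[>] 0) X 0) (hY : Bdd Y) :
    Tendsto (fun v => (X v * Y v).trace) (𝓝[>] 0) (𝓝 0) := by
  obtain ⟨C, hC, hY⟩ := hY
  have h1 : Tendsto (fun v => ∑ i, ∑ k, |X v i k| * C) (𝓝[>] 0) (𝓝 0) := by
    have h2 : Tendsto (fun v => ∑ i, ∑ k, |X v i k| * C) (𝓝[>] 0)
        (𝓝 (∑ i : l, ∑ k : m, |(0 : Matrix l m ℝ) i k| * C)) :=
      tendsto_finsetSum _ fun i _ => tendsto_finsetSum _ fun k _ => ((hX i k).abs).mul_const _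
    simpa using h2
  refine squeeze_zero_norm' ?_ h1
  filter_upwards [self_mem_nhdsWithin] with v hv
  rw [Real.norm_eq_abs]
  unfold Matrix.trace
  refine (Finset.abs_sum_le_sum_abs _ _).trans ?_
  refine Finset.sum_le_sum fun i _ => ?_
  rw [Matrix.diag_apply, Matrix.mul_apply]
  refine (Finset.abs_sum_le_sum_abs _ _).trans ?_
  refine Finset.sum_le_sum fun k _ => ?_
  rw [abs_mul]
  exact mul_le_mul_of_nonneg_left (hY v hv k i) (abs_nonneg _)

private theorem psd_sum {a b c : Type*} [Fintype a] [Fintype b] [Fintype c]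
    (X : Matrix a b ℝ) (Y : Matrix b c ℝ) : (Xᵀ * X + Y * Yᵀ).PosSemidef := by
  have h1 := Matrix.posSemidef_conjTranspose_mul_self X
  have h2 := Matrix.posSemidef_self_mul_conjTranspose Y
  rw [Matrix.conjTranspose_eq_transpose_of_trivial] at h1 h2
  exact h1.add h2

end aux

private theorem bdd_fop {ι : Type*} [Fintype ι] [DecidableEq ι] {H : Matrix ι ι ℝ}
    (hH : H.PosSemidef) : Bdd (fun v => fop v H) :=
  ⟨1, zero_le_one, fun _ hv i j => abs_fop_le hH hv i j⟩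

private theorem hasD_P {ι : Type*} [Fintype ι] [DecidableEq ι] {H : Matrix ι ι ℝ}
    (hH : H.PosSemidef) (b : ι → ℝ) {v : ℝ} (hv : 0 < v) :
    HasD (fun v => fop v H * diagonal b * fop v H)
      ((2 / v) • (fop v H * hop v H * diagonal b * fop v H) +
        (2 / v) • (fop v H * diagonal b * (hop v H * fop v H))) v := by
  have h1 : HasD (fun v => fop v H) ((2 / v) • (fop v H * hop v H)) v := by
    intro i j
    have := fop_hasDerivAt hH hv i j
    rwa [Matrix.smul_apply, smul_eq_mul]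
  have h2 := (h1.mul_const (diagonal b)).mul h1
  have h3 : (2 / v) • (fop v H * hop v H) * diagonal b * fop v H +
      fop v H * diagonal b * ((2 / v) • (fop v H * hop v H)) =
      (2 / v) • (fop v H * hop v H * diagonal b * fop v H) +
        (2 / v) • (fop v H * diagonal b * (hop v H * fop v H)) := by
    rw [hop_mul_fop_comm hv hH, Matrix.smul_mul, Matrix.smul_mul, Matrix.mul_smul]
  rw [h3] at h2
  exact h2

/-- the contribution of one index to the derivative. -/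
private theorem one_index {v B : ℝ} (hv : 0 < v) (hB : 0 ≤ B) (A₀ : Matrix ι₀ ι₁ ℝ)
    (A₁ : Matrix ι₁ ι₂ ℝ) (A₂ : Matrix ι₂ ι₀ ℝ) (b₀ : ι₀ → ℝ) (b₁ : ι₁ → ℝ) (b₂ : ι₂ → ℝ)
    (hb₀ : ∀ k, |b₀ k| ≤ B) (hb₂ : ∀ k, |b₂ k| ≤ B)
    (H₀ : Matrix ι₀ ι₀ ℝ) (H₁ : Matrix ι₁ ι₁ ℝ) (H₂ : Matrix ι₂ ι₂ ℝ)
    (h₀ : H₀ = A₂ᵀ * A₂ + A₀ * A₀ᵀ) (h₁ : H₁ = A₀ᵀ * A₀ + A₁ * A₁ᵀ) (h₂ : H₂ = A₁ᵀ * A₁ + A₂ * A₂ᵀ) :
    |(A₀ * ((2 / v) • (fop v H₁ * hop v H₁ * diagonal b₁ * fop v H₁) +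
        (2 / v) • (fop v H₁ * diagonal b₁ * (hop v H₁ * fop v H₁))) * A₁ *
        (fop v H₂ * diagonal b₂ * fop v H₂) * A₂ * (fop v H₀ * diagonal b₀ * fop v H₀)).trace| ≤
      2 / v * (B * v ^ 3 * Real.sqrt (S1 v H₁ b₁) * Real.sqrt (S0 v H₀ b₀) +
        B * v ^ 3 * Real.sqrt (S1 v H₁ b₁) * Real.sqrt (S0 v H₂ b₂)) := by
  have t1 := term_bound hv hB A₀ A₁ A₂ b₀ b₁ b₂ hb₂ H₀ H₁ H₂ h₀ h₁ h₂
  have t2 := term_bound' hv hB A₀ A₁ A₂ b₀ b₁ b₂ hb₀ H₀ H₁ H₂ h₀ h₁ h₂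
  have e1 : (A₀ * ((2 / v) • (fop v H₁ * hop v H₁ * diagonal b₁ * fop v H₁) +
        (2 / v) • (fop v H₁ * diagonal b₁ * (hop v H₁ * fop v H₁))) * A₁ *
        (fop v H₂ * diagonal b₂ * fop v H₂) * A₂ * (fop v H₀ * diagonal b₀ * fop v H₀)).trace =
      2 / v * ((A₀ * (fop v H₁ * hop v H₁ * diagonal b₁ * fop v H₁) * A₁ *
        (fop v H₂ * diagonal b₂ * fop v H₂) * A₂ * (fop v H₀ * diagonal b₀ * fop v H₀)).trace +
        (A₀ * (fop v H₁ * diagonal b₁ * (hop v H₁ * fop v H₁)) * A₁ *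
        (fop v H₂ * diagonal b₂ * fop v H₂) * A₂ * (fop v H₀ * diagonal b₀ * fop v H₀)).trace) := by
    rw [← smul_add, Matrix.mul_smul, Matrix.smul_mul, Matrix.smul_mul, Matrix.smul_mul,
      Matrix.smul_mul, Matrix.trace_smul, smul_eq_mul, Matrix.mul_add, Matrix.add_mul,
      Matrix.add_mul, Matrix.add_mul, Matrix.add_mul, Matrix.trace_add]
  rw [e1, abs_mul, abs_of_nonneg (by positivity : (0 : ℝ) ≤ 2 / v)]
  exact mul_le_mul_of_nonneg_left ((abs_add_le _ _).trans (add_le_add t1 t2)) (by positivity)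

/-- **The d-bound.**  Let `Pᵢ(v) = fᵢ bᵢ fᵢ` (`fᵢ = fop v Hᵢ`) and
`D(v) = tr (A₀ P₁ A₁ P₂ A₂ P₀)`.  By `fop_hasDerivAt` (`f' = (2/v) f h`) the derivative of `D` is
`(2/v)` times the sum of six terms, which are bounded by `term_bound`, `term_bound'` (and their cyclic
rotations, `Matrix.trace_mul_cycle`) by `B v³ √S₁(i) √S₀(j)`, `i ≠ j`; by `2√(xy) ≤ x + y` and
`S1_add_S0_le`, `|D'(v)| ≤ 2 B v² (gn H₀ + gn H₁ + gn H₂)`.  `D(v) → tr (A₀ b₁ A₁ b₂ A₂ b₀)` as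
`v → ∞` (`fop_tendsto_atTop`) and `D(v) → 0` as `v → 0+` (`mul_fop_tendsto_zero`: `A₀ f₁ → 0`, the other
factors are bounded).  Conclude by the fundamental theorem of calculus on `(0, ∞)`
(`integral_Ioi_of_hasDerivAt_of_tendsto` or on `[a,b]` and limits). -/
theorem DB {B : ℝ} (hB : 0 ≤ B) (A₀ : Matrix ι₀ ι₁ ℝ) (A₁ : Matrix ι₁ ι₂ ℝ)
    (A₂ : Matrix ι₂ ι₀ ℝ) (b₀ : ι₀ → ℝ) (b₁ : ι₁ → ℝ) (b₂ : ι₂ → ℝ)
    (hb₀ : ∀ k, |b₀ k| ≤ B) (hb₁ : ∀ k, |b₁ k| ≤ B) (hb₂ : ∀ k, |b₂ k| ≤ B)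
    (H₀ : Matrix ι₀ ι₀ ℝ) (H₁ : Matrix ι₁ ι₁ ℝ) (H₂ : Matrix ι₂ ι₂ ℝ)
    (h₀ : H₀ = A₂ᵀ * A₂ + A₀ * A₀ᵀ) (h₁ : H₁ = A₀ᵀ * A₀ + A₁ * A₁ᵀ) (h₂ : H₂ = A₁ᵀ * A₁ + A₂ * A₂ᵀ) :
    |(A₀ * diagonal b₁ * A₁ * diagonal b₂ * A₂ * diagonal b₀).trace| ≤
      B * ∫ v in Ioi (0 : ℝ), 2 * v ^ 2 * (gn v H₀ b₀ + gn v H₁ b₁ + gn v H₂ b₂) := by
  have p₀ : H₀.PosSemidef := by rw [h₀]; exact psd_sum A₂ A₀
  have p₁ : H₁.PosSemidef := by rw [h₁]; exact psd_sum A₀ A₁
  have p₂ : H₂.PosSemidef := by rw [h₂]; exact psd_sum A₁ A₂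
  obtain ⟨D, hD⟩ : ∃ D : ℝ → ℝ, D = fun v => (A₀ * (fop v H₁ * diagonal b₁ * fop v H₁) * A₁ *
      (fop v H₂ * diagonal b₂ * fop v H₂) * A₂ * (fop v H₀ * diagonal b₀ * fop v H₀)).trace :=
    ⟨_, rfl⟩
  obtain ⟨g, hg⟩ : ∃ g : ℝ → ℝ, g = fun v =>
      B * (2 * v ^ 2 * (gn v H₀ b₀ + gn v H₁ b₁ + gn v H₂ b₂)) := ⟨_, rfl⟩
  -- derivative bound
  have hder : ∀ v, 0 < v → ∃ d, HasDerivAt D d v ∧ |d| ≤ g v := by
    intro v hv
    have d₁ := hasD_P p₁ b₁ hv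
    have d₂ := hasD_P p₂ b₂ hv
    have d₀ := hasD_P p₀ b₀ hv
    have hX := ((((d₁.const_mul A₀).mul_const A₁).mul d₂).mul_const A₂).mul d₀
    have hT := hX.trace
    rw [← hD] at hT
    refine ⟨_, hT, ?_⟩
    · have k₁ := one_index hv hB A₀ A₁ A₂ b₀ b₁ b₂ hb₀ hb₂ H₀ H₁ H₂ h₀ h₁ h₂
      have k₂ := one_index hv hB A₁ A₂ A₀ b₁ b₂ b₀ hb₁ hb₀ H₁ H₂ H₀ h₁ h₂ h₀
      have k₀ := one_index hv hB A₂ A₀ A₁ b₂ b₀ b₁ hb₂ hb₁ H₂ H₀ H₁ h₂ h₀ h₁
      have c₂ : ∀ (Q : Matrix ι₂ ι₂ ℝ), (A₀ * (fop v H₁ * diagonal b₁ * fop v H₁) * A₁ * Q * A₂ *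
          (fop v H₀ * diagonal b₀ * fop v H₀)).trace =
          (A₁ * Q * A₂ * (fop v H₀ * diagonal b₀ * fop v H₀) * A₀ *
            (fop v H₁ * diagonal b₁ * fop v H₁)).trace := by
        intro Q
        have e1 : A₀ * (fop v H₁ * diagonal b₁ * fop v H₁) * A₁ * Q * A₂ *
          (fop v H₀ * diagonal b₀ * fop v H₀) = (A₀ * (fop v H₁ * diagonal b₁ * fop v H₁)) *
            (A₁ * Q * A₂ * (fop v H₀ * diagonal b₀ * fop v H₀)) := by
          simp only [Matrix.mul_assoc]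
        rw [e1, Matrix.trace_mul_comm]
        simp only [Matrix.mul_assoc]
      have c₀ : ∀ (Q : Matrix ι₀ ι₀ ℝ), (A₀ * (fop v H₁ * diagonal b₁ * fop v H₁) * A₁ *
          (fop v H₂ * diagonal b₂ * fop v H₂) * A₂ * Q).trace =
          (A₂ * Q * A₀ * (fop v H₁ * diagonal b₁ * fop v H₁) * A₁ *
            (fop v H₂ * diagonal b₂ * fop v H₂)).trace := by
        intro Q
        have e1 : A₀ * (fop v H₁ * diagonal b₁ * fop v H₁) * A₁ *
          (fop v H₂ * diagonal b₂ * fop v H₂) * A₂ * Q =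
            (A₀ * (fop v H₁ * diagonal b₁ * fop v H₁) * A₁ *
              (fop v H₂ * diagonal b₂ * fop v H₂)) * (A₂ * Q) := by
          simp only [Matrix.mul_assoc]
        rw [e1, Matrix.trace_mul_comm]
        simp only [Matrix.mul_assoc]
      rw [← c₂] at k₂
      rw [← c₀] at k₀
      rw [Matrix.add_mul, Matrix.add_mul, Matrix.trace_add, Matrix.trace_add]
      have q₁ := S1_nonneg hv p₁ b₁
      have q₂ := S1_nonneg hv p₂ b₂
      have q₀ := S1_nonneg hv p₀ b₀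
      have r₁ := S0_nonneg hv p₁ b₁
      have r₂ := S0_nonneg hv p₂ b₂
      have r₀ := S0_nonneg hv p₀ b₀
      have u₁ := S1_add_S0_le hv p₁ b₁
      have u₂ := S1_add_S0_le hv p₂ b₂
      have u₀ := S1_add_S0_le hv p₀ b₀
      have amgm : ∀ x y : ℝ, 0 ≤ x → 0 ≤ y → Real.sqrt x * Real.sqrt y ≤ (x + y) / 2 := by
        intro x y hx hy
        have h1 := Real.sq_sqrt hx
        have h2 := Real.sq_sqrt hy
        nlinarith [sq_nonneg (Real.sqrt x - Real.sqrt y)]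
      refine (abs_add_le _ _).trans ?_
      refine (add_le_add_left (abs_add_le _ _) _).trans ?_
      refine (add_le_add (add_le_add k₁ k₂) k₀).trans ?_
      have m10 := amgm _ _ q₁ r₀
      have m12 := amgm _ _ q₁ r₂
      have m21 := amgm _ _ q₂ r₁
      have m20 := amgm _ _ q₂ r₀
      have m02 := amgm _ _ q₀ r₂
      have m01 := amgm _ _ q₀ r₁
      have hBv : 0 ≤ 2 * B * v ^ 2 := by positivity
      have hvv : 2 / v * (B * v ^ 3) = 2 * B * v ^ 2 := by field_simp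
      rw [hg]
      simp only
      have e1 : 2 / v * (B * v ^ 3 * Real.sqrt (S1 v H₁ b₁) * Real.sqrt (S0 v H₀ b₀) +
          B * v ^ 3 * Real.sqrt (S1 v H₁ b₁) * Real.sqrt (S0 v H₂ b₂)) +
          2 / v * (B * v ^ 3 * Real.sqrt (S1 v H₂ b₂) * Real.sqrt (S0 v H₁ b₁) +
          B * v ^ 3 * Real.sqrt (S1 v H₂ b₂) * Real.sqrt (S0 v H₀ b₀)) +
          2 / v * (B * v ^ 3 * Real.sqrt (S1 v H₀ b₀) * Real.sqrt (S0 v H₂ b₂) +
          B * v ^ 3 * Real.sqrt (S1 v H₀ b₀) * Real.sqrt (S0 v H₁ b₁)) =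
          2 * B * v ^ 2 * (Real.sqrt (S1 v H₁ b₁) * Real.sqrt (S0 v H₀ b₀) +
            Real.sqrt (S1 v H₁ b₁) * Real.sqrt (S0 v H₂ b₂) +
            Real.sqrt (S1 v H₂ b₂) * Real.sqrt (S0 v H₁ b₁) +
            Real.sqrt (S1 v H₂ b₂) * Real.sqrt (S0 v H₀ b₀) +
            Real.sqrt (S1 v H₀ b₀) * Real.sqrt (S0 v H₂ b₂) +
            Real.sqrt (S1 v H₀ b₀) * Real.sqrt (S0 v H₁ b₁)) := by
        rw [← hvv]; ring
      rw [e1]
      have e2 : B * (2 * v ^ 2 * (gn v H₀ b₀ + gn v H₁ b₁ + gn v H₂ b₂)) =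
          2 * B * v ^ 2 * (gn v H₀ b₀ + gn v H₁ b₁ + gn v H₂ b₂) := by ring
      rw [e2]
      refine mul_le_mul_of_nonneg_left ?_ hBv
      linarith
  have hg0 : ∀ v ∈ Ioi (0 : ℝ), 0 ≤ g v := by
    intro v hv
    obtain ⟨d, _, hd⟩ := hder v hv
    exact (abs_nonneg d).trans hd
  have hgi : IntegrableOn g (Ioi 0) := by
    have h1 := ((gn_integrableOn p₀ b₀).add (gn_integrableOn p₁ b₁)).add (gn_integrableOn p₂ b₂)
    have h2 : IntegrableOn (fun v => (2 * B) * (v ^ 2 * gn v H₀ b₀ + v ^ 2 * gn v H₁ b₁ +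
        v ^ 2 * gn v H₂ b₂)) (Ioi 0) := h1.const_mul (2 * B)
    refine h2.congr_fun (fun v _ => ?_) measurableSet_Ioi
    rw [hg]
    simp only
    ring
  have hint : ∀ a b, 0 < a → a ≤ b → ∫ y in a..b, g y ≤ ∫ y in Ioi (0 : ℝ), g y := by
    intro a b ha hab
    rw [intervalIntegral.integral_of_le hab]
    refine setIntegral_mono_set hgi ?_ ?_
    · exact (ae_restrict_iff' measurableSet_Ioi).2 (Eventually.of_forall hg0)
    · exact Eventually.of_forall fun x hx => lt_trans ha hx.1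
  have hdiff : ∀ a b, 0 < a → a ≤ b → |D b - D a| ≤ ∫ y in Ioi (0 : ℝ), g y := by
    intro a b ha hab
    have hpos : ∀ x ∈ Icc a b, 0 < x := fun x hx => lt_of_lt_of_le ha hx.1
    have hcont : ContinuousOn D (Icc a b) := by
      intro x hx
      obtain ⟨d, hd, _⟩ := hder x (hpos x hx)
      exact hd.continuousAt.continuousWithinAt
    have hφ : IntegrableOn g (Icc a b) := hgi.mono_set fun x hx => hpos x hx
    have hd : ∀ x : ℝ, ∃ d, 0 < x → HasDerivAt D d x ∧ |d| ≤ g x := by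
      intro x
      by_cases hx : 0 < x
      · obtain ⟨d, hd⟩ := hder x hx
        exact ⟨d, fun _ => hd⟩
      · exact ⟨0, fun h => absurd h hx⟩
    choose D' hD' using hd
    have i1 : D b - D a ≤ ∫ y in a..b, g y :=
      intervalIntegral.sub_le_integral_of_hasDeriv_right_of_le hab hcont
        (fun x hx => (hD' x (lt_trans ha hx.1)).1.hasDerivWithinAt) hφ
        (fun x hx => (le_abs_self _).trans (hD' x (lt_trans ha hx.1)).2)
    have i2 : -D b - -D a ≤ ∫ y in a..b, g y :=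
      intervalIntegral.sub_le_integral_of_hasDeriv_right_of_le (g := fun x => - D x)
        (g' := fun x => - D' x) hab hcont.neg
        (fun x hx => (hD' x (lt_trans ha hx.1)).1.neg.hasDerivWithinAt) hφ
        (fun x hx => (neg_le_abs _).trans (hD' x (lt_trans ha hx.1)).2)
    have i3 := hint a b ha hab
    rw [abs_le]
    constructor <;> linarith
  have hzero : Tendsto D (𝓝[>] 0) (𝓝 0) := by
    have hA : Tend (𝓝[>] 0) (fun v => A₀ * fop v H₁) 0 := by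
      intro i j
      refine mul_fop_tendsto_zero p₁ A₀ ?_ i j
      rw [h₁, add_sub_cancel_left]
      have h3 := Matrix.posSemidef_self_mul_conjTranspose A₁
      rwa [Matrix.conjTranspose_eq_transpose_of_trivial] at h3
    have hB : Bdd (fun v => diagonal b₁ * fop v H₁ * A₁ *
        (fop v H₂ * diagonal b₂ * fop v H₂) * A₂ * (fop v H₀ * diagonal b₀ * fop v H₀)) :=
      (((((Bdd.const (diagonal b₁)).mul (bdd_fop p₁)).mul (Bdd.const A₁)).mul
        (((bdd_fop p₂).mul (Bdd.const (diagonal b₂))).mul (bdd_fop p₂))).mul (Bdd.const A₂)).mul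
        (((bdd_fop p₀).mul (Bdd.const (diagonal b₀))).mul (bdd_fop p₀))
    have h3 := tend_zero_trace hA hB
    rw [hD]
    refine h3.congr fun v => ?_
    simp only [Matrix.mul_assoc]
  have hinf : Tendsto D atTop
      (𝓝 (A₀ * diagonal b₁ * A₁ * diagonal b₂ * A₂ * diagonal b₀).trace) := by
    have f₀ : Tend atTop (fun v => fop v H₀) 1 := fun i j => fop_tendsto_atTop p₀ i j
    have f₁ : Tend atTop (fun v => fop v H₁) 1 := fun i j => fop_tendsto_atTop p₁ i j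
    have f₂ : Tend atTop (fun v => fop v H₂) 1 := fun i j => fop_tendsto_atTop p₂ i j
    have h3 := ((((((Tend.const (F := atTop) A₀).mul ((f₁.mul (Tend.const (diagonal b₁))).mul f₁)).mul
      (Tend.const A₁)).mul ((f₂.mul (Tend.const (diagonal b₂))).mul f₂)).mul
      (Tend.const A₂)).mul ((f₀.mul (Tend.const (diagonal b₀))).mul f₀)).trace
    rw [Matrix.one_mul, Matrix.mul_one, Matrix.one_mul, Matrix.mul_one, Matrix.one_mul,
      Matrix.mul_one] at h3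
    rw [hD]
    exact h3
  have hb : ∀ b, 0 < b → |D b| ≤ ∫ y in Ioi (0 : ℝ), g y := by
    intro b hb
    have h3 : Tendsto (fun a => |D b - D a|) (𝓝[>] 0) (𝓝 |D b - 0|) :=
      (tendsto_const_nhds.sub hzero).abs
    rw [sub_zero] at h3
    refine le_of_tendsto h3 ?_
    have h4 : Ioc (0 : ℝ) b ∈ 𝓝[>] (0 : ℝ) := Ioc_mem_nhdsGT hb
    filter_upwards [h4] with a ha
    exact hdiff a b ha.1 ha.2
  have hfin : |(A₀ * diagonal b₁ * A₁ * diagonal b₂ * A₂ * diagonal b₀).trace| ≤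
      ∫ y in Ioi (0 : ℝ), g y := by
    refine le_of_tendsto hinf.abs ?_
    filter_upwards [eventually_gt_atTop (0 : ℝ)] with b hb'
    exact hb b hb'
  refine hfin.trans (le_of_eq ?_)
  rw [hg, integral_const_mul]

end Crest.Agent.TH
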