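import Crest.Agent.TH_MC1b
import Crest.Agent.TH_DB
import Crest.Agent.TH_G2

/-! # TH_DBu (task TH-A3): the d-bound in unnormalized form, and for Gaussian weights -/

set_option autoImplicit false
open Matrix MeasureTheory Set Filter
open scoped Topology ENNReal

namespace Crest.Agent.TH
section gen
variable {ι : Type*} [Fintype ι] [DecidableEq ι]

private theorem dbu_H {w : ι → ℝ} {K : Matrix ι ι ℝ} (hK : K.PosSemidef) :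
    (diagonal (fun k => Real.sqrt (w k)) * K * diagonal (fun k => Real.sqrt (w k))).PosSemidef := by
  have h := hK.mul_mul_conjTranspose_same (diagonal (fun k => Real.sqrt (w k)))
  rwa [conjTranspose_eq_transpose_of_trivial, diagonal_transpose] at h

private theorem dbu_DD {w₁ : ι → ℝ} (hw : ∀ k, 0 < w₁ k) :
    diagonal (fun k => Real.sqrt (w₁ k)) * diagonal (fun k => Real.sqrt (w₁ k)) = diagonal w₁ := by
  rw [diagonal_mul_diagonal]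
  congr 1
  funext k
  exact Real.mul_self_sqrt (hw k).le

/-- `qf_eq_gn` and `gn_integrableOn`. -/
theorem qf_integrableOn {w₁ : ι → ℝ} (hw : ∀ k, 0 < w₁ k) {K : Matrix ι ι ℝ}
    (hK : K.PosSemidef) (φ : ι → ℝ) : IntegrableOn (fun v => v ^ 2 * qf v w₁ φ K) (Ioi 0) := by
  refine (gn_integrableOn (dbu_H (w := w₁) hK) (fun k => φ k / w₁ k)).congr_fun ?_ measurableSet_Ioi
  intro v hv
  simp only
  rw [qf_eq_gn hv hw hK φ]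

private theorem dbu_Hsum (F G : Matrix ι ι ℝ) {w₀ w₁ w₂ : ι → ℝ}
    (hw₀ : ∀ k, 0 < w₀ k) (hw₂ : ∀ k, 0 < w₂ k) :
    diagonal (fun k => Real.sqrt (w₁ k)) * Kmat F G w₀ w₂ * diagonal (fun k => Real.sqrt (w₁ k)) =
      (diagonal (fun k => Real.sqrt (w₀ k)) * F * diagonal (fun k => Real.sqrt (w₁ k)))ᵀ *
        (diagonal (fun k => Real.sqrt (w₀ k)) * F * diagonal (fun k => Real.sqrt (w₁ k))) +
      (diagonal (fun k => Real.sqrt (w₁ k)) * G * diagonal (fun k => Real.sqrt (w₂ k))) *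
        (diagonal (fun k => Real.sqrt (w₁ k)) * G * diagonal (fun k => Real.sqrt (w₂ k)))ᵀ := by
  unfold Kmat
  rw [← dbu_DD hw₀, ← dbu_DD hw₂]
  simp only [transpose_mul, diagonal_transpose, Matrix.mul_add, Matrix.add_mul, Matrix.mul_assoc]

private theorem dbu_trace (F₀ F₁ F₂ : Matrix ι ι ℝ) {w₀ w₁ w₂ φ₀ φ₁ φ₂ : ι → ℝ}
    (hw₀ : ∀ k, 0 < w₀ k) (hw₁ : ∀ k, 0 < w₁ k) (hw₂ : ∀ k, 0 < w₂ k) :
    ((diagonal (fun k => Real.sqrt (w₀ k)) * F₀ * diagonal (fun k => Real.sqrt (w₁ k))) *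
      diagonal (fun k => φ₁ k / w₁ k) *
      (diagonal (fun k => Real.sqrt (w₁ k)) * F₁ * diagonal (fun k => Real.sqrt (w₂ k))) *
      diagonal (fun k => φ₂ k / w₂ k) *
      (diagonal (fun k => Real.sqrt (w₂ k)) * F₂ * diagonal (fun k => Real.sqrt (w₀ k))) *
      diagonal (fun k => φ₀ k / w₀ k)).trace = dT F₀ F₁ F₂ φ₀ φ₁ φ₂ := by
  unfold dT
  have key : ∀ {w φ : ι → ℝ}, (∀ k, 0 < w k) → ∀ k, Real.sqrt (w k) * (φ k / w k) * Real.sqrt (w k) = φ k := by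
    intro w φ hw k
    have h2 := Real.mul_self_sqrt (hw k).le
    have h3 := (hw k).ne'
    rw [show Real.sqrt (w k) * (φ k / w k) * Real.sqrt (w k) =
      (Real.sqrt (w k) * Real.sqrt (w k)) * (φ k / w k) by ring, h2]
    field_simp
  have dFd : ∀ (a b : ι → ℝ) (F : Matrix ι ι ℝ), diagonal a * F * diagonal b =
      Matrix.of (fun i j => a i * F i j * b j) := by
    intro a b F
    ext i j
    rw [Matrix.mul_diagonal, Matrix.diagonal_mul, Matrix.of_apply]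
  rw [dFd, dFd, dFd]
  unfold Matrix.trace
  refine Finset.sum_congr rfl fun k₀ _ => ?_
  rw [Matrix.diag_apply, Matrix.mul_diagonal, Matrix.mul_apply, Finset.sum_mul]
  have h1 : ∀ k₂, ((Matrix.of (fun i j => Real.sqrt (w₀ i) * F₀ i j * Real.sqrt (w₁ j))) *
      diagonal (fun k => φ₁ k / w₁ k) *
      (Matrix.of (fun i j => Real.sqrt (w₁ i) * F₁ i j * Real.sqrt (w₂ j))) *
      diagonal (fun k => φ₂ k / w₂ k)) k₀ k₂ =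
      ∑ k₁, (Real.sqrt (w₀ k₀) * F₀ k₀ k₁ * Real.sqrt (w₁ k₁)) * (φ₁ k₁ / w₁ k₁) *
        (Real.sqrt (w₁ k₁) * F₁ k₁ k₂ * Real.sqrt (w₂ k₂)) * (φ₂ k₂ / w₂ k₂) := by
    intro k₂
    rw [Matrix.mul_diagonal, Matrix.mul_apply, Finset.sum_mul]
    refine Finset.sum_congr rfl fun k₁ _ => ?_
    rw [Matrix.mul_diagonal, Matrix.of_apply, Matrix.of_apply]
  simp only [h1, Matrix.of_apply, Finset.sum_mul]
  rw [Finset.sum_comm]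
  refine Finset.sum_congr rfl fun k₁ _ => ?_
  refine Finset.sum_congr rfl fun k₂ _ => ?_
  have e0 := key (φ := φ₀) hw₀ k₀
  have e1 := key (φ := φ₁) hw₁ k₁
  have e2 := key (φ := φ₂) hw₂ k₂
  calc _ = F₀ k₀ k₁ * (Real.sqrt (w₁ k₁) * (φ₁ k₁ / w₁ k₁) * Real.sqrt (w₁ k₁)) * F₁ k₁ k₂ *
        (Real.sqrt (w₂ k₂) * (φ₂ k₂ / w₂ k₂) * Real.sqrt (w₂ k₂)) * F₂ k₂ k₀ *
        (Real.sqrt (w₀ k₀) * (φ₀ k₀ / w₀ k₀) * Real.sqrt (w₀ k₀)) := by ring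
    _ = _ := by rw [e0, e1, e2]

/-- `DB` for `A₀ = √w₀ F₀ √w₁`, `A₁ = √w₁ F₁ √w₂`, `A₂ = √w₂ F₂ √w₀`, `bᵢ = φᵢ / wᵢ`, and `qf_eq_gn`. -/
theorem DBu {B : ℝ} (hB : 0 ≤ B) (F₀ F₁ F₂ : Matrix ι ι ℝ) {w₀ w₁ w₂ φ₀ φ₁ φ₂ : ι → ℝ}
    (hw₀ : ∀ k, 0 < w₀ k) (hw₁ : ∀ k, 0 < w₁ k) (hw₂ : ∀ k, 0 < w₂ k)
    (hφ₀ : ∀ k, |φ₀ k| ≤ B * w₀ k) (hφ₁ : ∀ k, |φ₁ k| ≤ B * w₁ k) (hφ₂ : ∀ k, |φ₂ k| ≤ B * w₂ k) :
    |dT F₀ F₁ F₂ φ₀ φ₁ φ₂| ≤ B * ∫ v in Ioi (0 : ℝ), 2 * v ^ 2 *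
      (qf v w₀ φ₀ (Kmat F₂ F₀ w₂ w₁) + qf v w₁ φ₁ (Kmat F₀ F₁ w₀ w₂) + qf v w₂ φ₂ (Kmat F₁ F₂ w₁ w₀)) := by
  have hb : ∀ {w φ : ι → ℝ}, (∀ k, 0 < w k) → (∀ k, |φ k| ≤ B * w k) → ∀ k, |φ k / w k| ≤ B := by
    intro w φ hw hφ k
    rw [abs_div, abs_of_pos (hw k), div_le_iff₀ (hw k)]
    exact hφ k
  have hD := DB hB
    (diagonal (fun k => Real.sqrt (w₀ k)) * F₀ * diagonal (fun k => Real.sqrt (w₁ k)))
    (diagonal (fun k => Real.sqrt (w₁ k)) * F₁ * diagonal (fun k => Real.sqrt (w₂ k)))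
    (diagonal (fun k => Real.sqrt (w₂ k)) * F₂ * diagonal (fun k => Real.sqrt (w₀ k)))
    (fun k => φ₀ k / w₀ k) (fun k => φ₁ k / w₁ k) (fun k => φ₂ k / w₂ k)
    (hb hw₀ hφ₀) (hb hw₁ hφ₁) (hb hw₂ hφ₂)
    (diagonal (fun k => Real.sqrt (w₀ k)) * Kmat F₂ F₀ w₂ w₁ * diagonal (fun k => Real.sqrt (w₀ k)))
    (diagonal (fun k => Real.sqrt (w₁ k)) * Kmat F₀ F₁ w₀ w₂ * diagonal (fun k => Real.sqrt (w₁ k)))
    (diagonal (fun k => Real.sqrt (w₂ k)) * Kmat F₁ F₂ w₁ w₀ * diagonal (fun k => Real.sqrt (w₂ k)))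
    (dbu_Hsum F₂ F₀ hw₂ hw₁) (dbu_Hsum F₀ F₁ hw₀ hw₂) (dbu_Hsum F₁ F₂ hw₁ hw₀)
  rw [dbu_trace F₀ F₁ F₂ hw₀ hw₁ hw₂] at hD
  refine hD.trans (le_of_eq ?_)
  have e : EqOn (fun v : ℝ => 2 * v ^ 2 *
      (gn v (diagonal (fun k => Real.sqrt (w₀ k)) * Kmat F₂ F₀ w₂ w₁ *
          diagonal (fun k => Real.sqrt (w₀ k))) (fun k => φ₀ k / w₀ k) +
        gn v (diagonal (fun k => Real.sqrt (w₁ k)) * Kmat F₀ F₁ w₀ w₂ *
          diagonal (fun k => Real.sqrt (w₁ k))) (fun k => φ₁ k / w₁ k) +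
        gn v (diagonal (fun k => Real.sqrt (w₂ k)) * Kmat F₁ F₂ w₁ w₀ *
          diagonal (fun k => Real.sqrt (w₂ k))) (fun k => φ₂ k / w₂ k)))
      (fun v : ℝ => 2 * v ^ 2 * (qf v w₀ φ₀ (Kmat F₂ F₀ w₂ w₁) + qf v w₁ φ₁ (Kmat F₀ F₁ w₀ w₂) +
        qf v w₂ φ₂ (Kmat F₁ F₂ w₁ w₀))) (Ioi 0) := by
    intro v hv
    have hv' : 0 < v := hv
    simp only
    rw [qf_eq_gn hv' hw₀ (Kmat_posSemidef F₂ F₀ (fun k => (hw₂ k).le) (fun k => (hw₁ k).le)) φ₀,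
      qf_eq_gn hv' hw₁ (Kmat_posSemidef F₀ F₁ (fun k => (hw₀ k).le) (fun k => (hw₂ k).le)) φ₁,
      qf_eq_gn hv' hw₂ (Kmat_posSemidef F₁ F₂ (fun k => (hw₁ k).le) (fun k => (hw₀ k).le)) φ₂]
  rw [setIntegral_congr_fun measurableSet_Ioi e]

end gen

variable {N : ℕ}

private theorem dT_smul {ι : Type*} [Fintype ι] (c : ℝ) (F₀ F₁ F₂ : Matrix ι ι ℝ) (φ₀ φ₁ φ₂ : ι → ℝ) :
    dT F₀ F₁ F₂ (fun k => c * φ₀ k) (fun k => c * φ₁ k) (fun k => c * φ₂ k) =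
      c ^ 3 * dT F₀ F₁ F₂ φ₀ φ₁ φ₂ := by
  unfold dT
  simp only [Finset.mul_sum]
  refine Finset.sum_congr rfl fun k₀ _ => Finset.sum_congr rfl fun k₁ _ =>
    Finset.sum_congr rfl fun k₂ _ => ?_
  ring

/-- Apply `DBu` with `wᵢ = wt pᵢ (2τ)`, `φᵢ = √τ dwt pᵢ τ`, `B = 2` (`abs_dwt_le`), then `qf_comp` with
`c = √2` (`wt_le_two`) and `qf_smul`: `|dT| ≤ (8/√τ) ∫ (gainD + gainD + gainD)`; note
`v² qf v (wt p₁ τ) (dwt p₁ τ) (Kmat F₀ F₁ (wt p₀ (2τ)) (wt p₂ (2τ))) = gainD η 2 v F₀ F₁ p₀ p₁ τ` when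
`p₀+p₁+p₂ = 0`, etc. -/
theorem form_pt {η : ℝ} (hη : 0 < η) (F₀ F₁ F₂ : Matrix (Fin (2 * N)) (Fin (2 * N)) ℝ) (p₀ p₁ : ℝ) {τ : ℝ}
    (hτ : 0 < τ) :
    ENNReal.ofReal |dT F₀ F₁ F₂ (dwt η p₀ τ) (dwt η p₁ τ) (dwt η (-p₀ - p₁) τ)| ≤
      ENNReal.ofReal (8 / Real.sqrt τ) * ∫⁻ v in Ioi (0 : ℝ),
        (ENNReal.ofReal (gainD η 2 v F₂ F₀ (-p₀ - p₁) p₀ τ) + ENNReal.ofReal (gainD η 2 v F₀ F₁ p₀ p₁ τ) +
          ENNReal.ofReal (gainD η 2 v F₁ F₂ p₁ (-p₀ - p₁) τ)) := by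
  have h2τ : 0 < 2 * τ := by linarith
  have hs : 0 < Real.sqrt τ := Real.sqrt_pos.2 hτ
  have hss : Real.sqrt τ ^ 2 = τ := Real.sq_sqrt hτ.le
  have hwp : ∀ (p t : ℝ), 0 < t → ∀ k : Fin (2 * N), 0 < wt η p t k := fun p t ht k => wt_pos hη p ht k
  set p₂ : ℝ := -p₀ - p₁ with hp₂
  have hφ : ∀ p : ℝ, ∀ k : Fin (2 * N), |Real.sqrt τ * dwt η p τ k| ≤ 2 * wt η p (2 * τ) k := by
    intro p k
    rw [abs_mul, abs_of_pos hs]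
    calc Real.sqrt τ * |dwt η p τ k| ≤ Real.sqrt τ * (2 / Real.sqrt τ * wt η p (2 * τ) k) :=
          mul_le_mul_of_nonneg_left (abs_dwt_le hη p hτ k) hs.le
      _ = 2 * wt η p (2 * τ) k := by field_simp
  have hD := DBu (B := 2) (by norm_num) F₀ F₁ F₂ (hwp p₀ (2 * τ) h2τ) (hwp p₁ (2 * τ) h2τ)
    (hwp p₂ (2 * τ) h2τ) (hφ p₀) (hφ p₁) (hφ p₂)
  rw [dT_smul, abs_mul, abs_of_pos (by positivity : 0 < Real.sqrt τ ^ 3)] at hD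
  -- psd facts
  have hK : ∀ (F G : Matrix (Fin (2 * N)) (Fin (2 * N)) ℝ) (p q : ℝ),
      (Kmat F G (wt η p (2 * τ)) (wt η q (2 * τ))).PosSemidef := fun F G p q =>
    Kmat_posSemidef F G (fun k => (hwp p (2 * τ) h2τ k).le) (fun k => (hwp q (2 * τ) h2τ k).le)
  -- comparison
  have hcomp : ∀ (F G : Matrix (Fin (2 * N)) (Fin (2 * N)) ℝ) (p q r v : ℝ), 0 < v →
      qf v (wt η r (2 * τ)) (fun k => Real.sqrt τ * dwt η r τ k)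
        (Kmat F G (wt η p (2 * τ)) (wt η q (2 * τ))) ≤
      2 * τ * qf v (wt η r τ) (dwt η r τ) (Kmat F G (wt η p (2 * τ)) (wt η q (2 * τ))) := by
    intro F G p q r v hv
    rw [qf_smul, hss]
    have h1 := qf_comp hv (c := Real.sqrt 2) (by
        rw [show (1 : ℝ) = Real.sqrt 1 by simp]
        exact Real.sqrt_le_sqrt (by norm_num))
      (hwp r (2 * τ) h2τ) (hwp r τ hτ) (fun k => wt_le_two hη r hτ k) (hK F G p q) (dwt η r τ)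
    rw [Real.sq_sqrt (by norm_num : (0 : ℝ) ≤ 2)] at h1
    nlinarith
  -- gains
  have hg0 : ∀ v, gainD η 2 v F₂ F₀ p₂ p₀ τ =
      v ^ 2 * qf v (wt η p₀ τ) (dwt η p₀ τ) (Kmat F₂ F₀ (wt η p₂ (2 * τ)) (wt η p₁ (2 * τ))) := by
    intro v
    unfold gainD Kf
    rw [show -p₂ - p₀ = p₁ by rw [hp₂]; ring]
  have hg1 : ∀ v, gainD η 2 v F₀ F₁ p₀ p₁ τ =
      v ^ 2 * qf v (wt η p₁ τ) (dwt η p₁ τ) (Kmat F₀ F₁ (wt η p₀ (2 * τ)) (wt η p₂ (2 * τ))) := by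
    intro v
    rfl
  have hg2 : ∀ v, gainD η 2 v F₁ F₂ p₁ p₂ τ =
      v ^ 2 * qf v (wt η p₂ τ) (dwt η p₂ τ) (Kmat F₁ F₂ (wt η p₁ (2 * τ)) (wt η p₀ (2 * τ))) := by
    intro v
    unfold gainD Kf
    rw [show -p₁ - p₂ = p₀ by rw [hp₂]; ring]
  have i0 : IntegrableOn (fun v => gainD η 2 v F₂ F₀ p₂ p₀ τ) (Ioi 0) := by
    simp only [hg0]
    exact qf_integrableOn (hwp p₀ τ hτ) (hK F₂ F₀ p₂ p₁) _
  have i1 : IntegrableOn (fun v => gainD η 2 v F₀ F₁ p₀ p₁ τ) (Ioi 0) := by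
    simp only [hg1]
    exact qf_integrableOn (hwp p₁ τ hτ) (hK F₀ F₁ p₀ p₂) _
  have i2 : IntegrableOn (fun v => gainD η 2 v F₁ F₂ p₁ p₂ τ) (Ioi 0) := by
    simp only [hg2]
    exact qf_integrableOn (hwp p₂ τ hτ) (hK F₁ F₂ p₁ p₀) _
  have n0 : ∀ v ∈ Ioi (0 : ℝ), 0 ≤ gainD η 2 v F₂ F₀ p₂ p₀ τ := by
    intro v hv
    rw [hg0]
    exact mul_nonneg (sq_nonneg _) (qf_nonneg hv (hwp p₀ τ hτ) (hK F₂ F₀ p₂ p₁) _)
  have n1 : ∀ v ∈ Ioi (0 : ℝ), 0 ≤ gainD η 2 v F₀ F₁ p₀ p₁ τ := by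
    intro v hv
    rw [hg1]
    exact mul_nonneg (sq_nonneg _) (qf_nonneg hv (hwp p₁ τ hτ) (hK F₀ F₁ p₀ p₂) _)
  have n2 : ∀ v ∈ Ioi (0 : ℝ), 0 ≤ gainD η 2 v F₁ F₂ p₁ p₂ τ := by
    intro v hv
    rw [hg2]
    exact mul_nonneg (sq_nonneg _) (qf_nonneg hv (hwp p₂ τ hτ) (hK F₁ F₂ p₁ p₀) _)
  -- integrability of the left-hand integrand
  have j0 := qf_integrableOn (hwp p₀ (2 * τ) h2τ) (hK F₂ F₀ p₂ p₁) (fun k => Real.sqrt τ * dwt η p₀ τ k)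
  have j1 := qf_integrableOn (hwp p₁ (2 * τ) h2τ) (hK F₀ F₁ p₀ p₂) (fun k => Real.sqrt τ * dwt η p₁ τ k)
  have j2 := qf_integrableOn (hwp p₂ (2 * τ) h2τ) (hK F₁ F₂ p₁ p₀) (fun k => Real.sqrt τ * dwt η p₂ τ k)
  set I : ℝ := ∫ v in Ioi (0 : ℝ), (gainD η 2 v F₂ F₀ p₂ p₀ τ + gainD η 2 v F₀ F₁ p₀ p₁ τ +
    gainD η 2 v F₁ F₂ p₁ p₂ τ) with hI
  have hle : (∫ v in Ioi (0 : ℝ), 2 * v ^ 2 *
      (qf v (wt η p₀ (2 * τ)) (fun k => Real.sqrt τ * dwt η p₀ τ k)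
          (Kmat F₂ F₀ (wt η p₂ (2 * τ)) (wt η p₁ (2 * τ))) +
        qf v (wt η p₁ (2 * τ)) (fun k => Real.sqrt τ * dwt η p₁ τ k)
          (Kmat F₀ F₁ (wt η p₀ (2 * τ)) (wt η p₂ (2 * τ))) +
        qf v (wt η p₂ (2 * τ)) (fun k => Real.sqrt τ * dwt η p₂ τ k)
          (Kmat F₁ F₂ (wt η p₁ (2 * τ)) (wt η p₀ (2 * τ))))) ≤ 4 * τ * I := by
    rw [hI, ← integral_const_mul]
    refine setIntegral_mono_on ?_ (((i0.add i1).add i2).const_mul _) measurableSet_Ioi ?_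
    · have hthis := ((j0.add j1).add j2).const_mul 2
      refine IntegrableOn.congr_fun hthis ?_ measurableSet_Ioi
      intro v _
      simp only [Pi.add_apply]
      ring
    · intro v hv
      have hv' : 0 < v := hv
      rw [hg0, hg1, hg2]
      have c0 := hcomp F₂ F₀ p₂ p₁ p₀ v hv'
      have c1 := hcomp F₀ F₁ p₀ p₂ p₁ v hv'
      have c2 := hcomp F₁ F₂ p₁ p₀ p₂ v hv'
      have hv2 : 0 ≤ 2 * v ^ 2 := by positivity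
      have := mul_le_mul_of_nonneg_left (add_le_add (add_le_add c0 c1) c2) hv2
      refine this.trans (le_of_eq ?_)
      ring
  have hmain : |dT F₀ F₁ F₂ (dwt η p₀ τ) (dwt η p₁ τ) (dwt η p₂ τ)| ≤ 8 / Real.sqrt τ * I := by
    have h1 : Real.sqrt τ ^ 3 * |dT F₀ F₁ F₂ (dwt η p₀ τ) (dwt η p₁ τ) (dwt η p₂ τ)| ≤ 8 * τ * I := by
      refine hD.trans ?_
      calc _ ≤ 2 * (4 * τ * I) := mul_le_mul_of_nonneg_left hle (by norm_num)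
        _ = 8 * τ * I := by ring
    have h3 : 0 < Real.sqrt τ ^ 3 := by positivity
    rw [← le_div_iff₀' h3] at h1
    refine h1.trans (le_of_eq ?_)
    have e3 : Real.sqrt τ ^ 3 = τ * Real.sqrt τ := by rw [pow_succ, hss]
    rw [e3]
    field_simp
  have hlint : ENNReal.ofReal I = ∫⁻ v in Ioi (0 : ℝ),
        (ENNReal.ofReal (gainD η 2 v F₂ F₀ p₂ p₀ τ) + ENNReal.ofReal (gainD η 2 v F₀ F₁ p₀ p₁ τ) +
          ENNReal.ofReal (gainD η 2 v F₁ F₂ p₁ p₂ τ)) := by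
    have isum : IntegrableOn (fun v => gainD η 2 v F₂ F₀ p₂ p₀ τ + gainD η 2 v F₀ F₁ p₀ p₁ τ +
        gainD η 2 v F₁ F₂ p₁ p₂ τ) (Ioi 0) := (i0.add i1).add i2
    rw [hI, ofReal_integral_eq_lintegral_ofReal isum (by
      refine (ae_restrict_iff' measurableSet_Ioi).2 (Filter.Eventually.of_forall ?_)
      intro v hv
      exact add_nonneg (add_nonneg (n0 v hv) (n1 v hv)) (n2 v hv))]
    refine setLIntegral_congr_fun measurableSet_Ioi ?_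
    intro v hv
    simp only
    rw [ENNReal.ofReal_add (add_nonneg (n0 v hv) (n1 v hv)) (n2 v hv),
      ENNReal.ofReal_add (n0 v hv) (n1 v hv)]
  rw [← hlint, ← ENNReal.ofReal_mul (by positivity)]
  exact ENNReal.ofReal_le_ofReal hmain

end Crest.Agent.TH
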