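import Crest.Agent.TH_A1
import Crest.Agent.TH_DBu

/-! # TH_A4 (task TH-A4): the smooth part is bounded by the total gains -/

set_option autoImplicit false
set_option linter.unusedSectionVars false
open Matrix MeasureTheory Set Filter
open scoped Topology ENNReal

namespace Crest.Agent.TH
variable {N : ℕ} {η : ℝ}

section meas
variable {α ι : Type*} [MeasurableSpace α] [Fintype ι] [DecidableEq ι]

private theorem A4_mul {A B : α → Matrix ι ι ℝ} (hA : ∀ i j, Measurable fun q => A q i j)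
    (hB : ∀ i j, Measurable fun q => B q i j) (i j : ι) : Measurable fun q => (A q * B q) i j := by
  simp only [Matrix.mul_apply]
  exact Finset.measurable_sum _ fun k _ => (hA i k).mul (hB k j)

private theorem A4_add {A B : α → Matrix ι ι ℝ} (hA : ∀ i j, Measurable fun q => A q i j)
    (hB : ∀ i j, Measurable fun q => B q i j) (i j : ι) : Measurable fun q => (A q + B q) i j := by
  simp only [Matrix.add_apply]
  exact (hA i j).add (hB i j)

private theorem A4_diag {w : α → ι → ℝ} (hw : ∀ i, Measurable fun q => w q i) (i j : ι) :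
    Measurable fun q => (diagonal (w q)) i j := by
  by_cases h : i = j
  · subst h
    simp only [Matrix.diagonal_apply_eq]
    exact hw i
  · simp only [Matrix.diagonal_apply_ne _ h]
    exact measurable_const

private theorem A4_transpose {A : α → Matrix ι ι ℝ} (hA : ∀ i j, Measurable fun q => A q i j)
    (i j : ι) : Measurable fun q => (A q)ᵀ i j := by
  simp only [Matrix.transpose_apply]
  exact hA j i

private theorem A4_smul_one {c : α → ℝ} (hc : Measurable c) (i j : ι) :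
    Measurable fun q => (c q • (1 : Matrix ι ι ℝ)) i j := by
  simp only [Matrix.smul_apply, smul_eq_mul]
  exact hc.mul_const _

private theorem A4_det {A : α → Matrix ι ι ℝ} (hA : ∀ i j, Measurable fun q => A q i j) :
    Measurable fun q => (A q).det := by
  simp only [Matrix.det_apply']
  refine Finset.measurable_sum _ fun σ _ => Measurable.const_mul ?_ _
  exact Finset.measurable_prod _ fun i _ => hA (σ i) i

private theorem A4_inv {A : α → Matrix ι ι ℝ} (hA : ∀ i j, Measurable fun q => A q i j)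
    (i j : ι) : Measurable fun q => (A q)⁻¹ i j := by
  simp only [Matrix.inv_def, Matrix.smul_apply, smul_eq_mul, Ring.inverse_eq_inv',
    Matrix.adjugate_apply]
  refine (A4_det hA).inv.mul (A4_det fun i' j' => ?_)
  by_cases h : i' = j
  · subst h
    simp only [Matrix.updateRow_self]
    exact measurable_const
  · simp only [Matrix.updateRow_ne h]
    exact hA i' j'

private theorem A4_trace {A : α → Matrix ι ι ℝ} (hA : ∀ i j, Measurable fun q => A q i j) :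
    Measurable fun q => (A q).trace := by
  simp only [Matrix.trace, Matrix.diag_apply]
  exact Finset.measurable_sum _ fun i _ => hA i i

private theorem A4_int {f : α × ℝ → ℝ} (hf : Measurable f) (a b : ℝ) :
    Measurable fun q => ∫ x in a..b, f (q, x) := by
  unfold intervalIntegral
  exact (hf.stronglyMeasurable.integral_prod_right' (ν := volume.restrict (Ioc a b))).measurable.sub
    (hf.stronglyMeasurable.integral_prod_right' (ν := volume.restrict (Ioc b a))).measurable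

private theorem A4_wt {p t : α → ℝ} (hp : Measurable p) (ht : Measurable t) (k : Fin (2 * N)) :
    Measurable fun q => wt η (p q) (t q) k := by
  unfold wt
  refine A4_int (f := fun z : α × ℝ => gk (t z.1) (z.2 - p z.1)) ?_ _ _
  unfold gk
  have hp' : Measurable fun z : α × ℝ => p z.1 := hp.comp measurable_fst
  have ht' : Measurable fun z : α × ℝ => t z.1 := ht.comp measurable_fst
  fun_prop

private theorem A4_dwt {p t : α → ℝ} (hp : Measurable p) (ht : Measurable t) (k : Fin (2 * N)) :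
    Measurable fun q => dwt η (p q) (t q) k := by
  unfold dwt
  refine A4_int (f := fun z : α × ℝ => gk1 (t z.1) (z.2 - p z.1)) ?_ _ _
  unfold gk1 gk
  have hp' : Measurable fun z : α × ℝ => p z.1 := hp.comp measurable_fst
  have ht' : Measurable fun z : α × ℝ => t z.1 := ht.comp measurable_fst
  fun_prop

end meas

/-- measurability of the gain in all variables (`F2t` is piecewise constant in `t`). -/
theorem measurable_gain (F G : ℝ → Matrix (Fin (2 * N)) (Fin (2 * N)) ℝ) (hF : ∀ i j, Measurable fun t => F t i j)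
    (hG : ∀ i j, Measurable fun t => G t i j) (Λ : ℝ) :
    Measurable (fun q : (ℝ × ℝ) × (ℝ × ℝ) => gainD η Λ q.1.1 (F q.2.2) (G q.2.2) q.1.2 q.2.1 q.2.2) := by
  have hv : Measurable (fun q : (ℝ × ℝ) × (ℝ × ℝ) => q.1.1) := measurable_fst.comp measurable_fst
  have hp0 : Measurable (fun q : (ℝ × ℝ) × (ℝ × ℝ) => q.1.2) := measurable_snd.comp measurable_fst
  have hp1 : Measurable (fun q : (ℝ × ℝ) × (ℝ × ℝ) => q.2.1) := measurable_fst.comp measurable_snd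
  have ht : Measurable (fun q : (ℝ × ℝ) × (ℝ × ℝ) => q.2.2) := measurable_snd.comp measurable_snd
  have hp2 : Measurable (fun q : (ℝ × ℝ) × (ℝ × ℝ) => -q.1.2 - q.2.1) := hp0.neg.sub hp1
  have hΛt : Measurable (fun q : (ℝ × ℝ) × (ℝ × ℝ) => Λ * q.2.2) := ht.const_mul Λ
  have hF' : ∀ i j, Measurable (fun q : (ℝ × ℝ) × (ℝ × ℝ) => F q.2.2 i j) :=
    fun i j => (hF i j).comp ht
  have hG' : ∀ i j, Measurable (fun q : (ℝ × ℝ) × (ℝ × ℝ) => G q.2.2 i j) :=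
    fun i j => (hG i j).comp ht
  have hw := A4_diag (A4_wt (N := N) (η := η) hp1 ht)
  have hφ := A4_diag (A4_dwt (N := N) (η := η) hp1 ht)
  have hK : ∀ i j, Measurable (fun q : (ℝ × ℝ) × (ℝ × ℝ) =>
      Kf η Λ (F q.2.2) (G q.2.2) q.1.2 q.2.1 q.2.2 i j) := by
    unfold Kf Kmat
    exact A4_add (A4_mul (A4_mul (A4_transpose hF') (A4_diag (A4_wt hp0 hΛt))) hF')
      (A4_mul (A4_mul hG' (A4_diag (A4_wt hp2 hΛt))) (A4_transpose hG'))
  have hM : ∀ i j, Measurable (fun q : (ℝ × ℝ) × (ℝ × ℝ) =>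
      Mmat q.1.1 (wt η q.2.1 q.2.2) (Kf η Λ (F q.2.2) (G q.2.2) q.1.2 q.2.1 q.2.2) i j) := by
    unfold Mmat
    exact A4_mul hK (A4_inv (A4_add (A4_smul_one (hv.pow_const 2)) (A4_mul hw hK)))
  unfold gainD qf
  exact (hv.pow_const 2).mul (A4_trace (A4_mul (A4_mul (A4_mul hφ hM) hφ) hM))

/-- the rotation `(x,y) ↦ (-x-y,x)` preserves the area -/
private theorem A4_rot : MeasurePreserving (fun z : ℝ × ℝ => (-z.1 - z.2, z.1)) := by
  have h1 : MeasurePreserving (fun z : ℝ × ℝ => (z.2 + z.1, -z.1)) (volume.prod volume)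
      (volume.prod volume) := measurePreserving_add_prod_neg (volume : Measure ℝ) volume
  have h2 : MeasurePreserving (fun z : ℝ × ℝ => (-z.1, -z.2)) (volume.prod volume)
      (volume.prod volume) :=
    (Measure.measurePreserving_neg (volume : Measure ℝ)).prod (Measure.measurePreserving_neg volume)
  have h3 := h2.comp h1
  have h4 : ((fun z : ℝ × ℝ => (-z.1, -z.2)) ∘ fun z : ℝ × ℝ => (z.2 + z.1, -z.1)) =
      fun z : ℝ × ℝ => (-z.1 - z.2, z.1) := by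
    funext z
    simp only [Function.comp]
    rw [neg_neg]
    congr 1
    ring
  rw [h4] at h3
  exact h3

private theorem A4_F2t {Q n : ℕ} (J : JumpData N Q n) (F₂ : Matrix (Fin (2 * N)) (Fin (2 * N)) ℝ)
    (i j : Fin (2 * N)) : Measurable fun t => F2t J F₂ t i j := by
  unfold F2t mstep
  simp only [Matrix.of_apply]
  refine Measurable.const_mul (Finset.measurable_sum _ fun q _ => ?_) _
  refine Measurable.ite ?_ measurable_const measurable_const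
  exact measurableSet_le measurable_const (by fun_prop)

/-- Tonelli and the linear changes of variables for one gain. -/
private theorem A4_tonelli (F G : ℝ → Matrix (Fin (2 * N)) (Fin (2 * N)) ℝ)
    (hF : ∀ i j, Measurable fun t => F t i j) (hG : ∀ i j, Measurable fun t => G t i j)
    {R : ℝ × ℝ → ℝ × ℝ} (hR : MeasurePreserving R) :
    ∫⁻ t in Ioi (0 : ℝ), ∫⁻ p : ℝ × ℝ, ∫⁻ v in Ioi (0 : ℝ),
      ENNReal.ofReal (gainD η 2 v (F t) (G t) (R p).1 (R p).2 t) =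
    ∫⁻ v in Ioi (0 : ℝ), ∫⁻ t in Ioi (0 : ℝ), ∫⁻ p : ℝ × ℝ,
      ENNReal.ofReal (gainD η 2 v (F t) (G t) p.1 p.2 t) := by
  have hm := measurable_gain (η := η) F G hF hG 2
  have hm' := ENNReal.measurable_ofReal.comp hm
  -- change of variables
  have h1 : ∀ t : ℝ, ∫⁻ p : ℝ × ℝ, ∫⁻ v in Ioi (0 : ℝ),
      ENNReal.ofReal (gainD η 2 v (F t) (G t) (R p).1 (R p).2 t) =
      ∫⁻ p : ℝ × ℝ, ∫⁻ v in Ioi (0 : ℝ), ENNReal.ofReal (gainD η 2 v (F t) (G t) p.1 p.2 t) := by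
    intro t
    refine hR.lintegral_comp (f := fun p : ℝ × ℝ => ∫⁻ v in Ioi (0 : ℝ),
      ENNReal.ofReal (gainD η 2 v (F t) (G t) p.1 p.2 t)) ?_
    refine Measurable.lintegral_prod_right' (f := fun z : (ℝ × ℝ) × ℝ =>
      ENNReal.ofReal (gainD η 2 z.2 (F t) (G t) z.1.1 z.1.2 t)) ?_
    exact hm'.comp (g := fun q : (ℝ × ℝ) × (ℝ × ℝ) =>
      ENNReal.ofReal (gainD η 2 q.1.1 (F q.2.2) (G q.2.2) q.1.2 q.2.1 q.2.2))
      (f := fun z : (ℝ × ℝ) × ℝ => ((z.2, z.1.1), (z.1.2, t))) (by fun_prop)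
  have h2 : ∀ t : ℝ, ∫⁻ p : ℝ × ℝ, ∫⁻ v in Ioi (0 : ℝ),
        ENNReal.ofReal (gainD η 2 v (F t) (G t) p.1 p.2 t) =
      ∫⁻ v in Ioi (0 : ℝ), ∫⁻ p : ℝ × ℝ, ENNReal.ofReal (gainD η 2 v (F t) (G t) p.1 p.2 t) := by
    intro t
    refine lintegral_lintegral_swap (Measurable.aemeasurable ?_)
    exact hm'.comp (g := fun q : (ℝ × ℝ) × (ℝ × ℝ) =>
      ENNReal.ofReal (gainD η 2 q.1.1 (F q.2.2) (G q.2.2) q.1.2 q.2.1 q.2.2))
      (f := fun z : (ℝ × ℝ) × ℝ => ((z.2, z.1.1), (z.1.2, t))) (by fun_prop)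
  simp only [h1, h2]
  refine lintegral_lintegral_swap (Measurable.aemeasurable ?_)
  refine Measurable.lintegral_prod_right' (f := fun z : (ℝ × ℝ) × (ℝ × ℝ) =>
      ENNReal.ofReal (gainD η 2 z.1.2 (F z.1.1) (G z.1.1) z.2.1 z.2.2 z.1.1)) ?_
  exact hm'.comp (g := fun q : (ℝ × ℝ) × (ℝ × ℝ) =>
      ENNReal.ofReal (gainD η 2 q.1.1 (F q.2.2) (G q.2.2) q.1.2 q.2.1 q.2.2))
      (f := fun z : (ℝ × ℝ) × (ℝ × ℝ) => ((z.1.2, z.2.1), (z.2.2, z.1.1))) (by fun_prop)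

private theorem A4_subst (g : ℝ → ℝ≥0∞) :
    ∫⁻ s in Ioi (0 : ℝ), g s = ∫⁻ t in Ioi (0 : ℝ), 3 * g (3 * t) := by
  have himg : (fun t : ℝ => 3 * t) '' Ioi (0 : ℝ) = Ioi 0 := by
    ext s
    constructor
    · rintro ⟨t, ht, rfl⟩
      have ht' : (0 : ℝ) < t := ht
      exact mul_pos (by norm_num) ht'
    · intro hs
      have hs' : (0 : ℝ) < s := hs
      exact ⟨s / 3, div_pos hs' (by norm_num), by ring⟩
  have h1 := lintegral_image_eq_lintegral_abs_deriv_mul (f := fun t : ℝ => 3 * t)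
    (f' := fun _ => (3 : ℝ)) (s := Ioi (0 : ℝ)) measurableSet_Ioi
    (fun x _ => by
      have := ((hasDerivAt_id x).const_mul (3 : ℝ)).hasDerivWithinAt (s := Ioi (0 : ℝ))
      simpa using this)
    (fun x _ y _ hxy => by
      have : (3 : ℝ) * x = 3 * y := hxy
      linarith) g
  rw [himg] at h1
  rw [h1]
  refine lintegral_congr fun t => ?_
  congr 1
  rw [abs_of_pos (by norm_num)]
  norm_num

/-- `TS_Kt`, `TS_gk3` (with `s = 3τ`, `ds = 3 dτ`), `form_pt`, Tonelli, and the measure preserving linear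
changes `(p₀,p₁) ↦ (-p₀-p₁,p₀)`, `(p₁,-p₀-p₁)`; constant `√(π/2) · 8 √3 · 3 ≤ 60`. -/
theorem TS_Kt_le (hη : 0 < η) {Q n : ℕ} (J : JumpData N Q n)
    (F₀ F₁ F₂ : Matrix (Fin (2 * N)) (Fin (2 * N)) ℝ) :
    ENNReal.ofReal |TS η F₀ F₁ F₂ (fun k₂ k₀ t => ∑ q, J.a q k₂ k₀ * Kt (J.r q) t)| ≤
      60 * ((∫⁻ v in Ioi (0 : ℝ), ∫⁻ t in Ioi (0 : ℝ), ∫⁻ p : ℝ × ℝ,
          ENNReal.ofReal (gainD η 2 v (F2t J F₂ t) F₀ p.1 p.2 t)) +
        (∫⁻ v in Ioi (0 : ℝ), ∫⁻ t in Ioi (0 : ℝ), ∫⁻ p : ℝ × ℝ,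
          ENNReal.ofReal (gainD η 2 v F₀ F₁ p.1 p.2 t)) +
        ∫⁻ v in Ioi (0 : ℝ), ∫⁻ t in Ioi (0 : ℝ), ∫⁻ p : ℝ × ℝ,
          ENNReal.ofReal (gainD η 2 v F₁ (F2t J F₂ t) p.1 p.2 t)) := by
  have hc : ∀ (A : Matrix (Fin (2 * N)) (Fin (2 * N)) ℝ) (i j : Fin (2 * N)),
      Measurable fun _ : ℝ => A i j := fun A i j => measurable_const
  have hF2 := A4_F2t J F₂
  have hrot := A4_rot
  -- the three pieces
  have t1 := A4_tonelli (η := η) (F2t J F₂) (fun _ => F₀) hF2 (hc F₀) hrot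
  have t2 := A4_tonelli (η := η) (fun _ => F₀) (fun _ => F₁) (hc F₀) (hc F₁)
    (MeasurePreserving.id (volume : Measure (ℝ × ℝ)))
  have t3 := A4_tonelli (η := η) (fun _ => F₁) (F2t J F₂) (hc F₁) hF2 (hrot.comp hrot)
  -- measurability in `(p, v)` for fixed `t`, and in `t`
  have hmv : ∀ (F G : ℝ → Matrix (Fin (2 * N)) (Fin (2 * N)) ℝ),
      (∀ i j, Measurable fun t => F t i j) → (∀ i j, Measurable fun t => G t i j) →
      ∀ {R : ℝ × ℝ → ℝ × ℝ}, Measurable R →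
      Measurable fun z : (ℝ × (ℝ × ℝ)) × ℝ =>
        ENNReal.ofReal (gainD η 2 z.2 (F z.1.1) (G z.1.1) (R z.1.2).1 (R z.1.2).2 z.1.1) := by
    intro F G hF hG R hR
    have hm' := ENNReal.measurable_ofReal.comp (measurable_gain (η := η) F G hF hG 2)
    exact hm'.comp (g := fun q : (ℝ × ℝ) × (ℝ × ℝ) =>
      ENNReal.ofReal (gainD η 2 q.1.1 (F q.2.2) (G q.2.2) q.1.2 q.2.1 q.2.2))
      (f := fun z : (ℝ × (ℝ × ℝ)) × ℝ => ((z.2, (R z.1.2).1), ((R z.1.2).2, z.1.1)))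
      (by fun_prop)
  have m1 := hmv (F2t J F₂) (fun _ => F₀) hF2 (hc F₀) hrot.measurable
  have m2 := hmv (fun _ => F₀) (fun _ => F₁) (hc F₀) (hc F₁) measurable_id
  have m3 := hmv (fun _ => F₁) (F2t J F₂) (hc F₁) hF2 (hrot.comp hrot).measurable
  -- names
  set A : ℝ → ℝ × ℝ → ℝ → ℝ≥0∞ := fun t p v =>
    ENNReal.ofReal (gainD η 2 v (F2t J F₂ t) F₀ (-p.1 - p.2) p.1 t) with hA
  set B : ℝ → ℝ × ℝ → ℝ → ℝ≥0∞ := fun t p v =>
    ENNReal.ofReal (gainD η 2 v F₀ F₁ p.1 p.2 t) with hB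
  set D : ℝ → ℝ × ℝ → ℝ → ℝ≥0∞ := fun t p v =>
    ENNReal.ofReal (gainD η 2 v F₁ (F2t J F₂ t) p.2 (-p.1 - p.2) t) with hD
  have hrr : ∀ p : ℝ × ℝ, ((fun z : ℝ × ℝ => (-z.1 - z.2, z.1)) ∘ fun z : ℝ × ℝ =>
      (-z.1 - z.2, z.1)) p = (p.2, -p.1 - p.2) := by
    intro p
    simp only [Function.comp]
    congr 1
    ring
  have mA : Measurable fun z : (ℝ × (ℝ × ℝ)) × ℝ => A z.1.1 z.1.2 z.2 := m1
  have mB : Measurable fun z : (ℝ × (ℝ × ℝ)) × ℝ => B z.1.1 z.1.2 z.2 := m2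
  have mD : Measurable fun z : (ℝ × (ℝ × ℝ)) × ℝ => D z.1.1 z.1.2 z.2 := by
    have := m3
    simp only [hrr] at this
    exact this
  have t1' : ∫⁻ t in Ioi (0 : ℝ), ∫⁻ p : ℝ × ℝ, ∫⁻ v in Ioi (0 : ℝ), A t p v =
      ∫⁻ v in Ioi (0 : ℝ), ∫⁻ t in Ioi (0 : ℝ), ∫⁻ p : ℝ × ℝ,
          ENNReal.ofReal (gainD η 2 v (F2t J F₂ t) F₀ p.1 p.2 t) := t1
  have t2' : ∫⁻ t in Ioi (0 : ℝ), ∫⁻ p : ℝ × ℝ, ∫⁻ v in Ioi (0 : ℝ), B t p v =
      ∫⁻ v in Ioi (0 : ℝ), ∫⁻ t in Ioi (0 : ℝ), ∫⁻ p : ℝ × ℝ,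
          ENNReal.ofReal (gainD η 2 v F₀ F₁ p.1 p.2 t) := t2
  have t3' : ∫⁻ t in Ioi (0 : ℝ), ∫⁻ p : ℝ × ℝ, ∫⁻ v in Ioi (0 : ℝ), D t p v =
      ∫⁻ v in Ioi (0 : ℝ), ∫⁻ t in Ioi (0 : ℝ), ∫⁻ p : ℝ × ℝ,
          ENNReal.ofReal (gainD η 2 v F₁ (F2t J F₂ t) p.1 p.2 t) := by
    have := t3
    simp only [hrr] at this
    exact this
  rw [← t1', ← t2', ← t3']
  -- the sum as one integral
  have hin : ∀ (U V : ℝ → ℝ × ℝ → ℝ → ℝ≥0∞),
      (Measurable fun z : (ℝ × (ℝ × ℝ)) × ℝ => U z.1.1 z.1.2 z.2) →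
      (∫⁻ t in Ioi (0 : ℝ), ∫⁻ p : ℝ × ℝ, ∫⁻ v in Ioi (0 : ℝ), U t p v) +
        (∫⁻ t in Ioi (0 : ℝ), ∫⁻ p : ℝ × ℝ, ∫⁻ v in Ioi (0 : ℝ), V t p v) =
      ∫⁻ t in Ioi (0 : ℝ), ∫⁻ p : ℝ × ℝ, ∫⁻ v in Ioi (0 : ℝ), (U t p v + V t p v) := by
    intro U V hU
    have hU2 : Measurable fun z : ℝ × (ℝ × ℝ) => ∫⁻ v in Ioi (0 : ℝ), U z.1 z.2 v :=
      Measurable.lintegral_prod_right' (f := fun z : (ℝ × (ℝ × ℝ)) × ℝ => U z.1.1 z.1.2 z.2) hU
    have hU3 : Measurable fun t : ℝ => ∫⁻ p : ℝ × ℝ, ∫⁻ v in Ioi (0 : ℝ), U t p v :=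
      Measurable.lintegral_prod_right' (f := fun z : ℝ × (ℝ × ℝ) =>
        ∫⁻ v in Ioi (0 : ℝ), U z.1 z.2 v) hU2
    rw [← lintegral_add_left hU3]
    refine lintegral_congr fun t => ?_
    have hU4 : Measurable fun p : ℝ × ℝ => ∫⁻ v in Ioi (0 : ℝ), U t p v :=
      hU2.comp (measurable_const.prodMk measurable_id : Measurable fun p : ℝ × ℝ => (t, p))
    rw [← lintegral_add_left hU4]
    refine lintegral_congr fun p => ?_
    have hU5 : Measurable fun v : ℝ => U t p v :=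
      hU.comp (measurable_const.prodMk measurable_id : Measurable fun v : ℝ => ((t, p), v))
    rw [← lintegral_add_left hU5]
  rw [hin A B mA, hin (fun t p v => A t p v + B t p v) D (mA.add mB)]
  -- the left side
  obtain ⟨-, hTS⟩ := TS_Kt (η := η) J F₀ F₁ F₂
  rw [hTS, ← Real.enorm_eq_ofReal_abs]
  refine (enorm_integral_le_lintegral_enorm _).trans ?_
  rw [A4_subst, ← lintegral_const_mul' _ _ (by norm_num : (60 : ℝ≥0∞) ≠ ⊤)]
  refine setLIntegral_mono' measurableSet_Ioi fun t ht => ?_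
  have ht0 : (0 : ℝ) < t := ht
  obtain ⟨-, hgk⟩ := TS_gk3 (η := η) hη F₀ F₁ F₂
    (Matrix.of fun k₂ k₀ => mstep J k₂ k₀ (Real.sqrt (3 * t))) ht0
  have hgk' : TS η F₀ F₁ F₂ (fun k₂ k₀ t' => mstep J k₂ k₀ (Real.sqrt (3 * t)) * gk3 (3 * t) t') =
      ∫ p : ℝ × ℝ, dT F₀ F₁ (F2t J F₂ t) (dwt η p.1 t) (dwt η p.2 t) (dwt η (-p.1 - p.2) t) := hgk
  rw [hgk', enorm_mul]
  have h1 : ‖∫ p : ℝ × ℝ, dT F₀ F₁ (F2t J F₂ t) (dwt η p.1 t) (dwt η p.2 t)
      (dwt η (-p.1 - p.2) t)‖ₑ ≤ ENNReal.ofReal (8 / Real.sqrt t) *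
      ∫⁻ p : ℝ × ℝ, ∫⁻ v in Ioi (0 : ℝ), (A t p v + B t p v + D t p v) := by
    refine (enorm_integral_le_lintegral_enorm _).trans ?_
    rw [← lintegral_const_mul' _ _ ENNReal.ofReal_ne_top]
    refine lintegral_mono fun p => ?_
    rw [Real.enorm_eq_ofReal_abs]
    exact form_pt hη F₀ F₁ (F2t J F₂ t) p.1 p.2 ht0
  have h2 : (3 : ℝ≥0∞) * ‖Real.sqrt (Real.pi / 2) * Real.sqrt (3 * t)‖ₑ *
      ENNReal.ofReal (8 / Real.sqrt t) ≤ 60 := by
    have e3 : (3 : ℝ≥0∞) = ENNReal.ofReal 3 := by norm_num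
    have e60 : (60 : ℝ≥0∞) = ENNReal.ofReal 60 := by norm_num
    rw [Real.enorm_eq_ofReal_abs, abs_of_nonneg (by positivity), e3, e60,
      ← ENNReal.ofReal_mul (by norm_num), ← ENNReal.ofReal_mul (by positivity)]
    refine ENNReal.ofReal_le_ofReal ?_
    have hs : Real.sqrt (3 * t) = Real.sqrt 3 * Real.sqrt t := Real.sqrt_mul (by norm_num) t
    have hst : 0 < Real.sqrt t := Real.sqrt_pos.mpr ht0
    have e4 : 3 * (Real.sqrt (Real.pi / 2) * Real.sqrt (3 * t)) * (8 / Real.sqrt t) =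
        24 * (Real.sqrt (Real.pi / 2) * Real.sqrt 3) := by
      rw [hs]
      field_simp
      ring
    rw [e4, ← Real.sqrt_mul (by positivity)]
    have e5 : Real.sqrt (Real.pi / 2 * 3) ≤ 5 / 2 := by
      rw [Real.sqrt_le_left (by norm_num)]
      have := Real.pi_lt_d2
      nlinarith
    linarith
  calc (3 : ℝ≥0∞) * (‖Real.sqrt (Real.pi / 2) * Real.sqrt (3 * t)‖ₑ *
        ‖∫ p : ℝ × ℝ, dT F₀ F₁ (F2t J F₂ t) (dwt η p.1 t) (dwt η p.2 t) (dwt η (-p.1 - p.2) t)‖ₑ)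
      ≤ 3 * (‖Real.sqrt (Real.pi / 2) * Real.sqrt (3 * t)‖ₑ * (ENNReal.ofReal (8 / Real.sqrt t) *
      ∫⁻ p : ℝ × ℝ, ∫⁻ v in Ioi (0 : ℝ), (A t p v + B t p v + D t p v))) :=
        mul_le_mul_right (mul_le_mul_right h1 _) _
    _ = ((3 : ℝ≥0∞) * ‖Real.sqrt (Real.pi / 2) * Real.sqrt (3 * t)‖ₑ *
      ENNReal.ofReal (8 / Real.sqrt t)) *
      ∫⁻ p : ℝ × ℝ, ∫⁻ v in Ioi (0 : ℝ), (A t p v + B t p v + D t p v) := by
        simp only [mul_assoc]
    _ ≤ 60 * ∫⁻ p : ℝ × ℝ, ∫⁻ v in Ioi (0 : ℝ), (A t p v + B t p v + D t p v) :=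
        mul_le_mul_left h2 _

end Crest.Agent.TH
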