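import Crest.Agent.TH_A6

/-! # TH_A5 (task TH-A8): the flow with changes of the second function -/

set_option autoImplicit false
open Matrix MeasureTheory Set Filter
open scoped Topology ENNReal

namespace Crest.Agent.TH
variable {N : ℕ} {η : ℝ}

/-! ### auxiliary facts -/

private noncomputable def A5_I (η Λ v : ℝ) (F G : Matrix (Fin (2 * N)) (Fin (2 * N)) ℝ) (q : (ℝ × ℝ) × ℝ) : ℝ :=
  ((2 * Λ + 1) * D02 η Λ v F G q.1.1 q.1.2 (-q.1.1 - q.1.2) q.2 -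
    Λ * D00 η Λ v F G q.1.1 q.1.2 (-q.1.1 - q.1.2) q.2 -
    Λ * D22 η Λ v F G q.1.1 q.1.2 (-q.1.1 - q.1.2) q.2 -
    D11 η Λ v F G q.1.1 q.1.2 (-q.1.1 - q.1.2) q.2) / 2

private theorem A5_I_int {Λ v : ℝ} (hη : 0 < η) (hΛ : 0 < Λ) (hv : 0 < v)
    (F G : Matrix (Fin (2 * N)) (Fin (2 * N)) ℝ) {t₁ t₂ : ℝ} (h₁ : 0 < t₁) (h₁₂ : t₁ ≤ t₂) :
    IntervalIntegrable (fun t => ∫ p : ℝ × ℝ, A5_I η Λ v F G (p, t)) volume t₁ t₂ := by
  obtain ⟨C, hC0, hC⟩ := flow_bounds F G hη hΛ hv h₁ h₁₂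
  obtain ⟨c1, c2, c3, c4, c5, c6, c7, c8, c9, c10, c11, c12⟩ := flow_continuous F G hη hΛ hv
  have hE : ∀ p₀ p₁ : ℝ, 0 ≤ Env p₀ p₁ := fun p₀ p₁ => by
    unfold Env; positivity
  have gc : ContinuousOn (A5_I η Λ v F G) (univ ×ˢ Ioi 0) :=
    ((((continuousOn_const.mul c6).sub (continuousOn_const.mul c5)).sub (continuousOn_const.mul c7)).sub
      c8).div_const 2
  have gb : ∀ t ∈ Icc t₁ t₂, ∀ p₀ p₁ : ℝ, |A5_I η Λ v F G ((p₀, p₁), t)| ≤ (4 * Λ + 2) * C * Env p₀ p₁ := by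
    intro t ht p₀ p₁
    obtain ⟨b1, b2, b3, b4, b5, b6, b7, b8, b9, b10, b11, b12⟩ := hC t ht p₀ p₁
    have hCE := mul_nonneg hC0 (hE p₀ p₁)
    have q0 : |Λ * D00 η Λ v F G p₀ p₁ (-p₀ - p₁) t| ≤ Λ * (C * Env p₀ p₁) := by
      rw [abs_mul, abs_of_pos hΛ]
      exact mul_le_mul_of_nonneg_left b5 hΛ.le
    have q2 : |Λ * D22 η Λ v F G p₀ p₁ (-p₀ - p₁) t| ≤ Λ * (C * Env p₀ p₁) := by
      rw [abs_mul, abs_of_pos hΛ]
      exact mul_le_mul_of_nonneg_left b7 hΛ.le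
    have q1 : |(2 * Λ + 1) * D02 η Λ v F G p₀ p₁ (-p₀ - p₁) t| ≤ (2 * Λ + 1) * (C * Env p₀ p₁) := by
      rw [abs_mul, abs_of_pos (by linarith : 0 < 2 * Λ + 1)]
      exact mul_le_mul_of_nonneg_left b6 (by linarith)
    have hΛCE : 0 ≤ Λ * (C * Env p₀ p₁) := mul_nonneg hΛ.le hCE
    show |((2 * Λ + 1) * D02 η Λ v F G p₀ p₁ (-p₀ - p₁) t -
      Λ * D00 η Λ v F G p₀ p₁ (-p₀ - p₁) t - Λ * D22 η Λ v F G p₀ p₁ (-p₀ - p₁) t -
      D11 η Λ v F G p₀ p₁ (-p₀ - p₁) t) / 2| ≤ (4 * Λ + 2) * C * Env p₀ p₁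
    rw [abs_le] at q0 q1 q2 b8 ⊢
    constructor <;> nlinarith [q0.1, q0.2, q1.1, q1.2, q2.1, q2.2, b8.1, b8.2]
  have gint : Integrable (fun q : (ℝ × ℝ) × ℝ => A5_I η Λ v F G q)
      ((volume : Measure (ℝ × ℝ)).prod (volume.restrict (Ioc t₁ t₂))) := by
    have hdom : Integrable (fun q : (ℝ × ℝ) × ℝ => (4 * Λ + 2) * C * Env q.1.1 q.1.2 * (1 : ℝ))
        ((volume : Measure (ℝ × ℝ)).prod (volume.restrict (Ioc t₁ t₂))) := by
      refine Integrable.mul_prod (f := fun p : ℝ × ℝ => (4 * Λ + 2) * C * Env p.1 p.2)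
        (g := fun _ : ℝ => (1 : ℝ)) ?_ ?_
      · exact Env_integrable.const_mul _
      · have : IsFiniteMeasure (volume.restrict (Ioc t₁ t₂)) :=
          ⟨by rw [Measure.restrict_apply_univ, Real.volume_Ioc]; exact ENNReal.ofReal_lt_top⟩
        exact integrable_const _
    have hr : (volume : Measure (ℝ × ℝ)).prod (volume.restrict (Ioc t₁ t₂)) =
        ((volume : Measure (ℝ × ℝ)).prod (volume : Measure ℝ)).restrict (univ ×ˢ Ioc t₁ t₂) := by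
      rw [← Measure.prod_restrict, Measure.restrict_univ]
    refine Integrable.mono' hdom ?_ ?_
    · rw [hr]
      refine ContinuousOn.aestronglyMeasurable (gc.mono ?_) (MeasurableSet.univ.prod measurableSet_Ioc)
      exact prod_mono le_rfl fun x hx => h₁.trans hx.1
    · rw [hr]
      refine (ae_restrict_iff' (MeasurableSet.univ.prod measurableSet_Ioc)).mpr ?_
      refine Eventually.of_forall fun q hq => ?_
      rw [Real.norm_eq_abs, mul_one]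
      exact gb q.2 ⟨hq.2.1.le, hq.2.2⟩ q.1.1 q.1.2
  rw [intervalIntegrable_iff_integrableOn_Ioc_of_le h₁₂]
  exact gint.integral_prod_right

private theorem A5_V1_zero (η Λ p₂ t : ℝ) : V1 η Λ (0 : Matrix (Fin (2 * N)) (Fin (2 * N)) ℝ) p₂ t = 0 := by
  unfold V1
  simp

private theorem A5_Y1_zero (η Λ p₀ t : ℝ) : Y1 η Λ (0 : Matrix (Fin (2 * N)) (Fin (2 * N)) ℝ) p₀ t = 0 := by
  unfold Y1
  simp

private theorem A5_potT_eq {Λ v : ℝ} (hη : 0 < η) (hΛ : 0 < Λ) (hv : 0 < v)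
    (F G : Matrix (Fin (2 * N)) (Fin (2 * N)) ℝ) {t : ℝ} (ht : 0 < t) :
    (∫ p : ℝ × ℝ, potT η Λ v F G p.1 p.2 t) =
      (∫ p : ℝ × ℝ, Pot3 η Λ v F G p.1 p.2 (-p.1 - p.2) t) +
      (∫ p : ℝ × ℝ, Pot3 η Λ v F 0 p.1 p.2 (-p.1 - p.2) t) / 2 +
      (∫ p : ℝ × ℝ, Pot3 η Λ v 0 G p.1 p.2 (-p.1 - p.2) t) / 2 := by
  have i1 := (flow_integrable F G hη hΛ hv ht).1
  have i2 := (flow_integrable F 0 hη hΛ hv ht).1
  have i3 := (flow_integrable 0 G hη hΛ hv ht).1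
  unfold potT
  simp_rw [potF_eq]
  have h := integral_add (i1.add (i2.div_const 2)) (i3.div_const 2)
  simp only [Pi.add_apply] at h
  rw [h, integral_add i1 (i2.div_const 2), integral_div, integral_div]

private theorem A5_anti {Λ v : ℝ} (hη : 0 < η) (hΛ : 1 ≤ Λ) (hv : 0 < v)
    (F G : Matrix (Fin (2 * N)) (Fin (2 * N)) ℝ) {t₁ t₂ : ℝ} (h₁ : 0 < t₁) (h₁₂ : t₁ ≤ t₂) :
    (∫ p : ℝ × ℝ, potT η Λ v F G p.1 p.2 t₂) ≤ ∫ p : ℝ × ℝ, potT η Λ v F G p.1 p.2 t₁ := by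
  have hΛ0 : 0 < Λ := by linarith
  rw [A5_potT_eq hη hΛ0 hv F G h₁, A5_potT_eq hη hΛ0 hv F G (h₁.trans_le h₁₂)]
  have e1 := potential_difference F G hη hΛ0 hv h₁ h₁₂
  have e2 := potential_difference F 0 hη hΛ0 hv h₁ h₁₂
  have e3 := potential_difference 0 G hη hΛ0 hv h₁ h₁₂
  have j1 := A5_I_int hη hΛ0 hv F G h₁ h₁₂
  have j2 := A5_I_int hη hΛ0 hv F 0 h₁ h₁₂
  have j3 := A5_I_int hη hΛ0 hv 0 G h₁ h₁₂
  have key : (∫ t in t₁..t₂, ∫ p : ℝ × ℝ, A5_I η Λ v F G (p, t)) +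
      (∫ t in t₁..t₂, ∫ p : ℝ × ℝ, A5_I η Λ v F 0 (p, t)) / 2 +
      (∫ t in t₁..t₂, ∫ p : ℝ × ℝ, A5_I η Λ v 0 G (p, t)) / 2 ≤ 0 := by
    rw [← intervalIntegral.integral_div, ← intervalIntegral.integral_div,
      ← intervalIntegral.integral_add j1 (j2.div_const 2),
      ← intervalIntegral.integral_add (j1.add (j2.div_const 2)) (j3.div_const 2)]
    rw [← neg_nonneg, ← intervalIntegral.integral_neg]
    refine intervalIntegral.integral_nonneg h₁₂ fun t ht => ?_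
    have ht0 : 0 < t := h₁.trans_le ht.1
    obtain ⟨-, a0, a1, a2, a3, -⟩ := flow_integrable F G hη hΛ0 hv ht0
    obtain ⟨-, b0, b1, b2, b3, -⟩ := flow_integrable F 0 hη hΛ0 hv ht0
    obtain ⟨-, c0, c1, c2, c3, -⟩ := flow_integrable 0 G hη hΛ0 hv ht0
    have kA : Integrable (fun p : ℝ × ℝ => A5_I η Λ v F G (p, t)) :=
      ((((a1.const_mul (2 * Λ + 1)).sub (a0.const_mul Λ)).sub (a2.const_mul Λ)).sub a3).div_const 2
    have kB : Integrable (fun p : ℝ × ℝ => A5_I η Λ v F 0 (p, t)) :=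
      ((((b1.const_mul (2 * Λ + 1)).sub (b0.const_mul Λ)).sub (b2.const_mul Λ)).sub b3).div_const 2
    have kC : Integrable (fun p : ℝ × ℝ => A5_I η Λ v 0 G (p, t)) :=
      ((((c1.const_mul (2 * Λ + 1)).sub (c0.const_mul Λ)).sub (c2.const_mul Λ)).sub c3).div_const 2
    have hc := integral_add (kA.add (kB.div_const 2)) (kC.div_const 2)
    simp only [Pi.add_apply] at hc
    rw [neg_nonneg, ← integral_div, ← integral_div, ← integral_add kA (kB.div_const 2), ← hc]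
    refine integral_nonpos fun p => ?_
    have z1 : D02 η Λ v F 0 p.1 p.2 (-p.1 - p.2) t = 0 := by
      unfold D02; rw [A5_V1_zero]; simp
    have z2 : D22 η Λ v F 0 p.1 p.2 (-p.1 - p.2) t = 0 := by
      unfold D22; rw [A5_V1_zero]; simp
    have z3 : D02 η Λ v 0 G p.1 p.2 (-p.1 - p.2) t = 0 := by
      unfold D02; rw [A5_Y1_zero]; simp
    have z4 : D00 η Λ v 0 G p.1 p.2 (-p.1 - p.2) t = 0 := by
      unfold D00; rw [A5_Y1_zero]; simp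
    have d1 := abs_D02_le F G hη hΛ0 hv p.1 p.2 (-p.1 - p.2) ht0
    have d2 := D00_le F G hη hΛ0 hv p.1 p.2 (-p.1 - p.2) ht0
    have d3 := D22_le F G hη hΛ0 hv p.1 p.2 (-p.1 - p.2) ht0
    have d4 := D11_nonneg F G hη hΛ0 hv p.1 p.2 (-p.1 - p.2) ht0
    have d5 := D11_nonneg F 0 hη hΛ0 hv p.1 p.2 (-p.1 - p.2) ht0
    have d6 := D11_nonneg 0 G hη hΛ0 hv p.1 p.2 (-p.1 - p.2) ht0
    show A5_I η Λ v F G (p, t) + A5_I η Λ v F 0 (p, t) / 2 + A5_I η Λ v 0 G (p, t) / 2 ≤ 0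
    unfold A5_I
    simp only [z1, z2, z3, z4]
    have d7 := (le_abs_self _).trans d1
    have d8 : (2 * Λ + 1) * D02 η Λ v F G p.1 p.2 (-p.1 - p.2) t ≤
        (2 * Λ + 1) * ((D00 η Λ v F G p.1 p.2 (-p.1 - p.2) t + D22 η Λ v F G p.1 p.2 (-p.1 - p.2) t) / 2) :=
      mul_le_mul_of_nonneg_left d7 (by linarith)
    have d9 : (2 * Λ + 1) * ((D00 η Λ v F G p.1 p.2 (-p.1 - p.2) t + D22 η Λ v F G p.1 p.2 (-p.1 - p.2) t) / 2) ≤
        (3 * Λ) * ((D00 η Λ v F G p.1 p.2 (-p.1 - p.2) t + D22 η Λ v F G p.1 p.2 (-p.1 - p.2) t) / 2) :=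
      mul_le_mul_of_nonneg_right (by linarith) (by linarith [d2.1, d3.1])
    have d10 := mul_le_mul_of_nonneg_left d2.2 hΛ0.le
    have d11 := mul_le_mul_of_nonneg_left d3.2 hΛ0.le
    linarith
  unfold A5_I at key
  linarith

private theorem A5_nonneg {Λ v : ℝ} (hη : 0 < η) (hΛ : 0 < Λ) (hv : 0 < v)
    (F G : Matrix (Fin (2 * N)) (Fin (2 * N)) ℝ) {t : ℝ} (ht : 0 < t) :
    0 ≤ ∫ p : ℝ × ℝ, potT η Λ v F G p.1 p.2 t :=
  integral_nonneg fun p => potT_nonneg F G hη hΛ hv p.1 p.2 ht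

/-- Fatou in the parameter of the truncation of the time interval -/
private theorem A5_fatou (g : ℝ → ℝ → ℝ≥0∞) (R : ℕ → ℝ → ℝ≥0∞) (B : ℝ≥0∞) (k₀ : ℕ)
    (hR : ∀ k, k₀ ≤ k → AEMeasurable (R k) (volume.restrict (Ioi (0 : ℝ))))
    (h1 : ∀ k, k₀ ≤ k → ∀ v : ℝ, 0 < v → ∫⁻ t in Ioc (1 / ((k : ℝ) + 1)) ((k : ℝ) + 1), g v t ≤ R k v)
    (h2 : ∀ k, k₀ ≤ k → ∫⁻ v in Ioi (0 : ℝ), R k v ≤ B) :
    ∫⁻ v in Ioi (0 : ℝ), ∫⁻ t in Ioi (0 : ℝ), g v t ≤ B := by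
  have hU : (⋃ k : ℕ, Ioc (1 / (((k + k₀ : ℕ) : ℝ) + 1)) (((k + k₀ : ℕ) : ℝ) + 1)) = Ioi (0 : ℝ) := by
    ext x
    simp only [mem_iUnion, mem_Ioc, mem_Ioi]
    constructor
    · rintro ⟨k, h, -⟩
      exact lt_trans (by positivity) h
    · intro hx
      obtain ⟨n, hn⟩ := exists_nat_gt (max (1 / x) x)
      refine ⟨n, ?_, ?_⟩
      · have h1 : 1 / x < n := lt_of_le_of_lt (le_max_left _ _) hn
        rw [div_lt_iff₀ hx] at h1
        rw [div_lt_iff₀ (by positivity)]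
        push_cast
        have h3 : (0 : ℝ) ≤ k₀ := Nat.cast_nonneg _
        nlinarith
      · have h1 : x < n := lt_of_le_of_lt (le_max_right _ _) hn
        push_cast
        have h3 : (0 : ℝ) ≤ k₀ := Nat.cast_nonneg _
        linarith
  have hmono : Monotone fun k : ℕ => Ioc (1 / (((k + k₀ : ℕ) : ℝ) + 1)) (((k + k₀ : ℕ) : ℝ) + 1) := by
    intro k l hkl
    have h3 : (k : ℝ) ≤ l := by exact_mod_cast hkl
    apply Ioc_subset_Ioc
    · apply one_div_le_one_div_of_le (by positivity)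
      push_cast
      linarith
    · push_cast
      linarith
  have key : ∀ v : ℝ, 0 < v → ∫⁻ t in Ioi (0 : ℝ), g v t ≤ liminf (fun k => R (k + k₀) v) atTop := by
    intro v hv
    have h3 : ∫⁻ t in Ioi (0 : ℝ), g v t =
        ⨆ k : ℕ, ∫⁻ t in Ioc (1 / (((k + k₀ : ℕ) : ℝ) + 1)) (((k + k₀ : ℕ) : ℝ) + 1), g v t := by
      rw [← hU]
      exact setLIntegral_iUnion_of_directed _ (hmono.directed_le)
    have h4 : Tendsto (fun k : ℕ => ∫⁻ t in Ioc (1 / (((k + k₀ : ℕ) : ℝ) + 1)) (((k + k₀ : ℕ) : ℝ) + 1), g v t)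
        atTop (𝓝 (∫⁻ t in Ioi (0 : ℝ), g v t)) := by
      rw [h3]
      refine tendsto_atTop_iSup (fun k l hkl => ?_)
      exact lintegral_mono_set (hmono hkl)
    rw [← h4.liminf_eq]
    exact liminf_le_liminf (Eventually.of_forall fun k => h1 (k + k₀) (Nat.le_add_left _ _) v hv)
  calc ∫⁻ v in Ioi (0 : ℝ), ∫⁻ t in Ioi (0 : ℝ), g v t
      ≤ ∫⁻ v in Ioi (0 : ℝ), liminf (fun k => R (k + k₀) v) atTop :=
        setLIntegral_mono' measurableSet_Ioi fun v hv => key v hv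
    _ ≤ liminf (fun k => ∫⁻ v in Ioi (0 : ℝ), R (k + k₀) v) atTop :=
        lintegral_liminf_le' fun k => hR _ (Nat.le_add_left _ _)
    _ ≤ liminf (fun _ : ℕ => B) atTop :=
        liminf_le_liminf (Eventually.of_forall fun k => h2 _ (Nat.le_add_left _ _))
    _ = B := liminf_const B

private theorem A5_sum_lint {α : Type*} [MeasurableSpace α] (μ : Measure α) (f : ℕ → α → ℝ≥0∞) (n : ℕ) :
    ∑ q ∈ Finset.range n, ∫⁻ x, f q x ∂μ ≤ ∫⁻ x, ∑ q ∈ Finset.range n, f q x ∂μ := by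
  induction n with
  | zero => simp
  | succ n ih =>
    simp_rw [Finset.sum_range_succ]
    exact (add_le_add ih le_rfl).trans (le_lintegral_add _ _)

private theorem A5_ofReal_sum (f : ℕ → ℝ) (n : ℕ) :
    ENNReal.ofReal (∑ q ∈ Finset.range n, f q) ≤ ∑ q ∈ Finset.range n, ENNReal.ofReal (f q) := by
  induction n with
  | zero => simp
  | succ n ih =>
    simp_rw [Finset.sum_range_succ]
    exact ENNReal.ofReal_add_le.trans (add_le_add ih le_rfl)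

private theorem A5_tele (A B : ℕ → ℝ) (m : ℕ) :
    ∑ q ∈ Finset.range (m + 1), (A q - B q) =
      A 0 + (∑ q ∈ Finset.range m, (A (q + 1) - B q)) - B m := by
  induction m with
  | zero => simp
  | succ m ih =>
    rw [Finset.sum_range_succ, ih, Finset.sum_range_succ _ m]
    ring

private theorem A5_n3_mono (F Gh : Matrix (Fin (2 * N)) (Fin (2 * N)) ℝ) (h : ∀ i j, |F i j| ≤ Gh i j) :
    n3 η F ≤ n3 η Gh := by
  unfold n3
  refine mul_le_mul_of_nonneg_left ?_ (sq_nonneg η)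
  refine Finset.sum_le_sum fun a _ => Finset.sum_le_sum fun b _ => ?_
  exact pow_le_pow_left₀ (abs_nonneg _) ((h a b).trans (le_abs_self _)) 3

private theorem A5_lin (μ : Measure ℝ) {a b : ℝ → ℝ} {s : ℕ → ℝ → ℝ} (ha : Integrable a μ)
    (hs : ∀ q, Integrable (s q) μ) (hb : Integrable b μ) (m : ℕ) :
    ∫ v, (a v + (∑ q ∈ Finset.range m, s q v) - b v) ∂μ =
      (∫ v, a v ∂μ) + (∑ q ∈ Finset.range m, ∫ v, s q v ∂μ) - ∫ v, b v ∂μ := by
  have hS : Integrable (fun v => ∑ q ∈ Finset.range m, s q v) μ :=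
    integrable_finsetSum _ fun q _ => hs q
  have h1 := integral_sub (ha.add hS) hb
  simp only [Pi.add_apply] at h1
  rw [h1, integral_add ha hS, integral_finsetSum _ fun q _ => hs q]

/-- the pointwise bound (Lemma A) -/
private theorem A5_A {v : ℝ} (hη : 0 < η) (hv : 0 < v) (F : Matrix (Fin (2 * N)) (Fin (2 * N)) ℝ) (Q : ℕ)
    (τ : ℕ → ℝ) (hτ0 : ∀ q, 0 < τ q) (hτ : ∀ q, τ q ≤ τ (q + 1))
    (G : ℕ → Matrix (Fin (2 * N)) (Fin (2 * N)) ℝ) :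
    ∑ q ∈ Finset.range Q, ∫⁻ t in Ioc (τ q) (τ (q + 1)), ∫⁻ p : ℝ × ℝ,
        ENNReal.ofReal (gainD η 2 v F (G q) p.1 p.2 t) ≤
      ENNReal.ofReal (2 * ∑ q ∈ Finset.range Q, ((∫ p : ℝ × ℝ, potT η 2 v F (G q) p.1 p.2 (τ q)) -
        ∫ p : ℝ × ℝ, potT η 2 v F (G q) p.1 p.2 (τ (q + 1)))) := by
  rw [Finset.mul_sum, ENNReal.ofReal_sum_of_nonneg]
  · refine Finset.sum_le_sum fun q _ => ?_
    exact flow_static F (G q) hη (by norm_num) hv (hτ0 q) (hτ q)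
  · intro q _
    have := A5_anti hη (by norm_num : (1 : ℝ) ≤ 2) hv F (G q) (hτ0 q) (hτ q)
    linarith

/-- integrability of the right hand side of Lemma A -/
private theorem A5_int (hη : 0 < η) (F : Matrix (Fin (2 * N)) (Fin (2 * N)) ℝ) (Q : ℕ)
    (τ : ℕ → ℝ) (hτ0 : ∀ q, 0 < τ q)
    (G : ℕ → Matrix (Fin (2 * N)) (Fin (2 * N)) ℝ) :
    IntegrableOn (fun v => 2 * ∑ q ∈ Finset.range Q, ((∫ p : ℝ × ℝ, potT η 2 v F (G q) p.1 p.2 (τ q)) -
        ∫ p : ℝ × ℝ, potT η 2 v F (G q) p.1 p.2 (τ (q + 1)))) (Ioi 0) := by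
  refine Integrable.const_mul ?_ 2
  refine integrable_finsetSum _ fun q _ => ?_
  exact (energy_le hη (by norm_num) F (G q) (hτ0 q)).1.sub (energy_le hη (by norm_num) F (G q) (hτ0 (q + 1))).1

/-- Lemma B -/
private theorem A5_B (hη : 0 < η) (F Gh : Matrix (Fin (2 * N)) (Fin (2 * N)) ℝ) (m : ℕ)
    (τ : ℕ → ℝ) (hτ0 : ∀ q, 0 < τ q) (hτ : ∀ q, τ q ≤ τ (q + 1))
    (G : ℕ → Matrix (Fin (2 * N)) (Fin (2 * N)) ℝ) (hG : ∀ q i j, |G q i j| ≤ Gh i j) :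
    ∫⁻ v in Ioi (0 : ℝ), ENNReal.ofReal (2 * ∑ q ∈ Finset.range (m + 1),
        ((∫ p : ℝ × ℝ, potT η 2 v F (G q) p.1 p.2 (τ q)) -
        ∫ p : ℝ × ℝ, potT η 2 v F (G q) p.1 p.2 (τ (q + 1)))) ≤
      2 * (ENNReal.ofReal (3 * (n3 η F + n3 η Gh)) + 10 * ∫⁻ z : ℝ × ℝ,
        (∑ q ∈ Finset.range m, ENNReal.ofReal |cf η (G (q + 1) - G q) z|) * maxE η F Gh z) := by
  have h2 : (0 : ℝ) < 2 := by norm_num
  rw [← ofReal_integral_eq_lintegral_ofReal (A5_int hη F (m + 1) τ hτ0 G)]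
  swap
  · refine (ae_restrict_iff' measurableSet_Ioi).mpr (Eventually.of_forall fun v hv => ?_)
    refine mul_nonneg (by norm_num) (Finset.sum_nonneg fun q _ => ?_)
    have := A5_anti hη (by norm_num : (1 : ℝ) ≤ 2) (mem_Ioi.mp hv) F (G q) (hτ0 q) (hτ q)
    linarith
  have iA : ∀ q, IntegrableOn (fun v => ∫ p : ℝ × ℝ, potT η 2 v F (G q) p.1 p.2 (τ q)) (Ioi 0) :=
    fun q => (energy_le hη h2 F (G q) (hτ0 q)).1
  have iB : ∀ q, IntegrableOn (fun v => ∫ p : ℝ × ℝ, potT η 2 v F (G q) p.1 p.2 (τ (q + 1))) (Ioi 0) :=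
    fun q => (energy_le hη h2 F (G q) (hτ0 (q + 1))).1
  have iA' : ∀ q, IntegrableOn (fun v => ∫ p : ℝ × ℝ, potT η 2 v F (G (q + 1)) p.1 p.2 (τ (q + 1))) (Ioi 0) :=
    fun q => iA (q + 1)
  have e1 : ∫ v in Ioi (0 : ℝ), 2 * ∑ q ∈ Finset.range (m + 1),
        ((∫ p : ℝ × ℝ, potT η 2 v F (G q) p.1 p.2 (τ q)) -
        ∫ p : ℝ × ℝ, potT η 2 v F (G q) p.1 p.2 (τ (q + 1))) =
      2 * ((∫ v in Ioi (0 : ℝ), ∫ p : ℝ × ℝ, potT η 2 v F (G 0) p.1 p.2 (τ 0)) +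
        (∑ q ∈ Finset.range m, ∫ v in Ioi (0 : ℝ), ((∫ p : ℝ × ℝ, potT η 2 v F (G (q + 1)) p.1 p.2 (τ (q + 1))) -
          ∫ p : ℝ × ℝ, potT η 2 v F (G q) p.1 p.2 (τ (q + 1)))) -
        ∫ v in Ioi (0 : ℝ), ∫ p : ℝ × ℝ, potT η 2 v F (G m) p.1 p.2 (τ (m + 1))) := by
    rw [integral_const_mul]
    congr 1
    simp_rw [A5_tele (fun q => ∫ p : ℝ × ℝ, potT η 2 _ F (G q) p.1 p.2 (τ q))
      (fun q => ∫ p : ℝ × ℝ, potT η 2 _ F (G q) p.1 p.2 (τ (q + 1))) m]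
    exact A5_lin _ (iA 0) (fun q => (iA' q).sub (iB q)) (iB m) m
  rw [e1]
  have hB : 0 ≤ ∫ v in Ioi (0 : ℝ), ∫ p : ℝ × ℝ, potT η 2 v F (G m) p.1 p.2 (τ (m + 1)) :=
    setIntegral_nonneg measurableSet_Ioi fun v hv => A5_nonneg hη h2 hv F (G m) (hτ0 (m + 1))
  calc ENNReal.ofReal (2 * ((∫ v in Ioi (0 : ℝ), ∫ p : ℝ × ℝ, potT η 2 v F (G 0) p.1 p.2 (τ 0)) +
        (∑ q ∈ Finset.range m, ∫ v in Ioi (0 : ℝ), ((∫ p : ℝ × ℝ, potT η 2 v F (G (q + 1)) p.1 p.2 (τ (q + 1))) -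
          ∫ p : ℝ × ℝ, potT η 2 v F (G q) p.1 p.2 (τ (q + 1)))) -
        ∫ v in Ioi (0 : ℝ), ∫ p : ℝ × ℝ, potT η 2 v F (G m) p.1 p.2 (τ (m + 1))))
      ≤ ENNReal.ofReal (2 * (3 * (n3 η F + n3 η Gh) +
        (∑ q ∈ Finset.range m, ∫ v in Ioi (0 : ℝ), ((∫ p : ℝ × ℝ, potT η 2 v F (G (q + 1)) p.1 p.2 (τ (q + 1))) -
          ∫ p : ℝ × ℝ, potT η 2 v F (G q) p.1 p.2 (τ (q + 1)))))) := by
        apply ENNReal.ofReal_le_ofReal
        have h3 := (energy_le hη h2 F (G 0) (hτ0 0)).2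
        have h4 := A5_n3_mono (η := η) (G 0) Gh (hG 0)
        linarith
    _ ≤ 2 * (ENNReal.ofReal (3 * (n3 η F + n3 η Gh)) +
        ∑ q ∈ Finset.range m, 10 * ∫⁻ z : ℝ × ℝ, ENNReal.ofReal |cf η (G (q + 1) - G q) z| * maxE η F Gh z) := by
        rw [ENNReal.ofReal_mul (by norm_num), ENNReal.ofReal_ofNat]
        refine mul_le_mul' le_rfl (ENNReal.ofReal_add_le.trans (add_le_add le_rfl ?_))
        refine (A5_ofReal_sum _ m).trans (Finset.sum_le_sum fun q _ => ?_)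
        exact cost_int hη h2 F (G q) (G (q + 1)) Gh (hG q) (hG (q + 1)) (hτ0 (q + 1))
    _ ≤ 2 * (ENNReal.ofReal (3 * (n3 η F + n3 η Gh)) + 10 * ∫⁻ z : ℝ × ℝ,
        (∑ q ∈ Finset.range m, ENNReal.ofReal |cf η (G (q + 1) - G q) z|) * maxE η F Gh z) := by
        refine mul_le_mul' le_rfl (add_le_add le_rfl ?_)
        rw [← Finset.mul_sum]
        refine mul_le_mul' le_rfl ?_
        simp_rw [Finset.sum_mul]
        exact A5_sum_lint _ _ m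

/-- `flow_static` on each interval, for each `v`; with `Φ_q(τ) = ∫∫ potT v F (G q) τ` the right hand sides sum to
`2 [Φ_0(τ_0) - Φ_{Q-1}(τ_Q) + ∑_{q<Q-1} (Φ_{q+1}(τ_{q+1}) - Φ_q(τ_{q+1}))]`; integrate over `v` and use
`energy_le`, `cost_int` (`Λ = 2`). -/
theorem flow_changes (hη : 0 < η) (F Gh : Matrix (Fin (2 * N)) (Fin (2 * N)) ℝ) (Q : ℕ) (τ : ℕ → ℝ)
    (hτ0 : ∀ q, 0 < τ q) (hτ : ∀ q, τ q ≤ τ (q + 1)) (G : ℕ → Matrix (Fin (2 * N)) (Fin (2 * N)) ℝ)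
    (hG : ∀ q i j, |G q i j| ≤ Gh i j) :
    ∑ q ∈ Finset.range Q, ∫⁻ v in Ioi (0 : ℝ), ∫⁻ t in Ioc (τ q) (τ (q + 1)), ∫⁻ p : ℝ × ℝ,
        ENNReal.ofReal (gainD η 2 v F (G q) p.1 p.2 t) ≤
      2 * (ENNReal.ofReal (3 * (n3 η F + n3 η Gh)) + 10 * ∫⁻ z : ℝ × ℝ,
        (∑ q ∈ Finset.range (Q - 1), ENNReal.ofReal |cf η (G (q + 1) - G q) z|) * maxE η F Gh z) := by
  rcases Nat.eq_zero_or_pos Q with rfl | hQ
  · simp
  obtain ⟨m, rfl⟩ : ∃ m, Q = m + 1 := ⟨Q - 1, by omega⟩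
  rw [Nat.add_sub_cancel]
  refine le_trans (A5_sum_lint _ _ (m + 1)) ?_
  refine le_trans ?_ (A5_B hη F Gh m τ hτ0 hτ G hG)
  exact setLIntegral_mono' measurableSet_Ioi fun v hv => A5_A hη hv F (m + 1) τ hτ0 hτ G

/-- static version over all times, any `Λ ≥ 1` (monotone limit of `flow_static`, `energy_le`,
`potT ≥ 0`). -/
theorem flow_total (hη : 0 < η) {Λ : ℝ} (hΛ : 1 ≤ Λ) (F G : Matrix (Fin (2 * N)) (Fin (2 * N)) ℝ) :
    ∫⁻ v in Ioi (0 : ℝ), ∫⁻ t in Ioi (0 : ℝ), ∫⁻ p : ℝ × ℝ,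
        ENNReal.ofReal (gainD η Λ v F G p.1 p.2 t) ≤ ENNReal.ofReal (6 * (n3 η F + n3 η G)) := by
  have hΛ0 : 0 < Λ := by linarith
  have hp : ∀ k : ℕ, 0 < 1 / ((k : ℝ) + 1) := fun k => by positivity
  refine A5_fatou (fun v t => ∫⁻ p : ℝ × ℝ, ENNReal.ofReal (gainD η Λ v F G p.1 p.2 t))
    (fun k v => ENNReal.ofReal (2 * ∫ p : ℝ × ℝ, potT η Λ v F G p.1 p.2 (1 / ((k : ℝ) + 1)))) _ 0 ?_ ?_ ?_
  · intro k _
    exact ((energy_le hη hΛ0 F G (hp k)).1.const_mul 2).aestronglyMeasurable.aemeasurable.ennreal_ofReal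
  · intro k _ v hv
    have h12 : 1 / ((k : ℝ) + 1) ≤ (k : ℝ) + 1 := by
      rw [div_le_iff₀ (by positivity)]
      have : (0 : ℝ) ≤ k := Nat.cast_nonneg _
      nlinarith
    refine (flow_static F G hη hΛ hv (hp k) h12).trans ?_
    apply ENNReal.ofReal_le_ofReal
    have := A5_nonneg hη hΛ0 hv F G (t := (k : ℝ) + 1) (by positivity)
    linarith
  · intro k _
    rw [← ofReal_integral_eq_lintegral_ofReal ((energy_le hη hΛ0 F G (hp k)).1.const_mul 2)]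
    · apply ENNReal.ofReal_le_ofReal
      rw [integral_const_mul]
      have := (energy_le hη hΛ0 F G (hp k)).2
      linarith
    · refine (ae_restrict_iff' measurableSet_Ioi).mpr (Eventually.of_forall fun v hv => ?_)
      exact mul_nonneg (by norm_num) (A5_nonneg hη hΛ0 hv F G (hp k))

/-- symmetry `0 ↔ 2` (`Kmat_swap`) -/
theorem gainD_swap (Λ v : ℝ) (F G : Matrix (Fin (2 * N)) (Fin (2 * N)) ℝ) (p₀ p₁ t : ℝ) :
    gainD η Λ v F G p₀ p₁ t = gainD η Λ v Gᵀ Fᵀ (-p₀ - p₁) p₁ t := by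
  have h : -(-p₀ - p₁) - p₁ = p₀ := by ring
  unfold gainD Kf Kmat
  rw [h, Matrix.transpose_transpose, Matrix.transpose_transpose, add_comm]

/-! ### the jumps -/

section jumps
variable {Q n : ℕ}

open Classical in
/-- the value of the step function on the interval number `j` -/
private noncomputable def A5_C (J : JumpData N Q n) (j : ℕ) (k₂ k₀ : Fin (2 * N)) : ℝ :=
  ∑ q : Fin Q, if (q : ℕ) < j then J.a q k₂ k₀ else 0

private theorem A5_C_abs (J : JumpData N Q n) (j : ℕ) (k₂ k₀ : Fin (2 * N)) : |A5_C J j k₂ k₀| ≤ 1 := by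
  unfold A5_C
  rcases Nat.eq_zero_or_pos j with rfl | hj
  · simp
  rcases le_or_gt Q j with h | h
  · have e : ∑ q : Fin Q, (if (q : ℕ) < j then J.a q k₂ k₀ else 0) = ∑ q, J.a q k₂ k₀ :=
      Finset.sum_congr rfl fun q _ => if_pos (q.2.trans_le h)
    rw [e, J.total]
    simp
  · have e : ∑ q : Fin Q, (if (q : ℕ) < j then J.a q k₂ k₀ else 0) =
        ∑ q ∈ Finset.Iic (⟨j - 1, by omega⟩ : Fin Q), J.a q k₂ k₀ := by
      rw [← Finset.sum_filter]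
      apply Finset.sum_congr
      · ext q
        simp only [Finset.mem_filter, Finset.mem_univ, true_and, Finset.mem_Iic, Fin.le_def]
        omega
      · intros
        rfl
    rw [e]
    exact J.partial_le _ _ _

private theorem A5_C_succ (J : JumpData N Q n) {j : ℕ} (hj : j < Q) (k₂ k₀ : Fin (2 * N)) :
    A5_C J (j + 1) k₂ k₀ - A5_C J j k₂ k₀ = J.a ⟨j, hj⟩ k₂ k₀ := by
  unfold A5_C
  rw [← Finset.sum_sub_distrib, Finset.sum_eq_single ⟨j, hj⟩]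
  · simp
  · intro q _ hq
    have h1 : (q : ℕ) ≠ j := fun h => hq (Fin.ext h)
    by_cases h : (q : ℕ) < j
    · rw [if_pos (by omega), if_pos h, sub_self]
    · rw [if_neg (by omega), if_neg h, sub_self]
  · simp

private theorem A5_sum_a (J : JumpData N Q n) (k₂ k₀ : Fin (2 * N)) : ∑ q, |J.a q k₂ k₀| ≤ 4 * n := by
  have h2 : ∀ q, |J.a q k₂ k₀| ≤ 2 := by
    intro q
    have h0 := A5_C_succ J q.2 k₂ k₀
    have h1 := A5_C_abs J ((q : ℕ) + 1) k₂ k₀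
    have h2 := A5_C_abs J (q : ℕ) k₂ k₀
    rw [Fin.eta] at h0
    rw [← h0]
    rw [abs_le] at *
    constructor <;> linarith [h1.1, h1.2, h2.1, h2.2]
  calc ∑ q, |J.a q k₂ k₀| = ∑ q ∈ Finset.univ.filter (fun q => J.a q k₂ k₀ ≠ 0), |J.a q k₂ k₀| := by
        rw [Finset.sum_filter]
        refine Finset.sum_congr rfl fun q _ => ?_
        by_cases h : J.a q k₂ k₀ = 0
        · simp [h]
        · simp [h]
    _ ≤ ∑ _q ∈ Finset.univ.filter (fun q => J.a q k₂ k₀ ≠ 0), (2 : ℝ) := Finset.sum_le_sum fun q _ => h2 q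
    _ = (Finset.univ.filter (fun q => J.a q k₂ k₀ ≠ 0)).card * 2 := by rw [Finset.sum_const, nsmul_eq_mul]
    _ ≤ 4 * n := by
        have h3 := J.count k₂ k₀
        have h4 : ((Finset.univ.filter (fun q => J.a q k₂ k₀ ≠ 0)).card : ℝ) ≤ 2 * n := by exact_mod_cast h3
        linarith

private noncomputable def A5_G (J : JumpData N Q n) (F₂ : Matrix (Fin (2 * N)) (Fin (2 * N)) ℝ) (j : ℕ) :
    Matrix (Fin (2 * N)) (Fin (2 * N)) ℝ :=
  Matrix.of fun k₂ k₀ => F₂ k₂ k₀ * A5_C J j k₂ k₀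

private theorem A5_G_abs (J : JumpData N Q n) (F₂ : Matrix (Fin (2 * N)) (Fin (2 * N)) ℝ) (j : ℕ)
    (k₂ k₀ : Fin (2 * N)) : |A5_G J F₂ j k₂ k₀| ≤ F₂.map abs k₂ k₀ := by
  have h := A5_C_abs J j k₂ k₀
  show |F₂ k₂ k₀ * A5_C J j k₂ k₀| ≤ |F₂ k₂ k₀|
  rw [abs_mul]
  exact mul_le_of_le_one_right (abs_nonneg _) h

private theorem A5_lft_uniq (hη : 0 < η) {x : ℝ} {a a' : Fin (2 * N)}
    (h : x ∈ Ico (lft η a) (lft η a + η)) (h' : x ∈ Ico (lft η a') (lft η a' + η)) : a' = a := by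
  have key : ∀ b b' : Fin (2 * N), b < b' → lft η b + η ≤ lft η b' := by
    intro b b' hb
    unfold lft
    have h1 : ((b : ℕ) : ℝ) + 1 ≤ (b' : ℕ) := by exact_mod_cast hb
    nlinarith
  rcases lt_trichotomy a' a with h1 | h1 | h1
  · have := key _ _ h1
    exact absurd (h'.2.trans_le this) (not_lt.mpr h.1)
  · exact h1
  · have := key _ _ h1
    exact absurd (h.2.trans_le this) (not_lt.mpr h'.1)

private theorem A5_cell (hη : 0 < η) (z : ℝ × ℝ) :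
    (∀ A : Matrix (Fin (2 * N)) (Fin (2 * N)) ℝ, cf η A z = 0) ∨
      ∃ a b, ∀ A : Matrix (Fin (2 * N)) (Fin (2 * N)) ℝ, cf η A z = A a b := by
  by_cases h : ∃ a b : Fin (2 * N), z.1 ∈ Ico (lft η a) (lft η a + η) ∧ z.2 ∈ Ico (lft η b) (lft η b + η)
  · right
    obtain ⟨a, b, ha, hb⟩ := h
    refine ⟨a, b, fun A => ?_⟩
    unfold cf
    rw [Finset.sum_eq_single a, Finset.sum_eq_single b, if_pos ⟨ha, hb⟩]
    · intro b' _ hb'
      exact if_neg fun h => hb' (A5_lft_uniq hη hb h.2)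
    · simp
    · intro a' _ ha'
      refine Finset.sum_eq_zero fun b' _ => ?_
      exact if_neg fun h => ha' (A5_lft_uniq hη ha h.1)
    · simp
  · left
    intro A
    unfold cf
    refine Finset.sum_eq_zero fun a _ => Finset.sum_eq_zero fun b _ => ?_
    exact if_neg fun h' => h ⟨a, b, h'⟩

private theorem A5_changes_le (hη : 0 < η) (J : JumpData N Q n) (F₂ : Matrix (Fin (2 * N)) (Fin (2 * N)) ℝ)
    (z : ℝ × ℝ) :
    ∑ j ∈ Finset.range Q, ENNReal.ofReal |cf η (A5_G J F₂ (j + 1) - A5_G J F₂ j) z| ≤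
      4 * n * ENNReal.ofReal |cf η F₂ z| := by
  rcases A5_cell (N := N) hη z with h | ⟨a, b, h⟩
  · simp [h]
  · rw [h F₂]
    have e1 : ∀ j ∈ Finset.range Q, ENNReal.ofReal |cf η (A5_G J F₂ (j + 1) - A5_G J F₂ j) z| =
        ENNReal.ofReal (|F₂ a b| * |A5_C J (j + 1) a b - A5_C J j a b|) := by
      intro j _
      rw [h, ← abs_mul, mul_sub]
      rfl
    rw [Finset.sum_congr rfl e1, ← ENNReal.ofReal_sum_of_nonneg
      (fun j _ => mul_nonneg (abs_nonneg _) (abs_nonneg _)), ← Finset.mul_sum, Finset.sum_range]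
    have e2 : ∑ q : Fin Q, |A5_C J ((q : ℕ) + 1) a b - A5_C J (q : ℕ) a b| = ∑ q : Fin Q, |J.a q a b| :=
      Finset.sum_congr rfl fun q _ => by rw [A5_C_succ J q.2 a b]
    rw [e2]
    calc ENNReal.ofReal (|F₂ a b| * ∑ q : Fin Q, |J.a q a b|) ≤ ENNReal.ofReal (|F₂ a b| * (4 * n)) :=
          ENNReal.ofReal_le_ofReal (mul_le_mul_of_nonneg_left (A5_sum_a J a b) (abs_nonneg _))
      _ = 4 * n * ENNReal.ofReal |F₂ a b| := by
          rw [mul_comm, ENNReal.ofReal_mul (by positivity), ENNReal.ofReal_mul (by norm_num),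
            ENNReal.ofReal_natCast, ENNReal.ofReal_ofNat]

private noncomputable def A5_τ (J : JumpData N Q n) (e M : ℝ) (j : ℕ) : ℝ :=
  if j = 0 then e else if h : j - 1 < Q then (J.r ⟨j - 1, h⟩) ^ 2 / 3 else M

private theorem A5_τ_zero (J : JumpData N Q n) (e M : ℝ) : A5_τ J e M 0 = e := by
  simp [A5_τ]

private theorem A5_τ_lt (J : JumpData N Q n) (e M : ℝ) {j : ℕ} (hj : j < Q) :
    A5_τ J e M (j + 1) = J.r ⟨j, hj⟩ ^ 2 / 3 := by
  simp [A5_τ, hj]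

private theorem A5_τ_ge (J : JumpData N Q n) (e M : ℝ) {j : ℕ} (hj : Q ≤ j) : A5_τ J e M (j + 1) = M := by
  simp [A5_τ, not_lt.mpr hj]

private theorem A5_τ_pos (J : JumpData N Q n) {e M : ℝ} (he : 0 < e) (hM : 0 < M) (j : ℕ) :
    0 < A5_τ J e M j := by
  rcases j with _ | j
  · rwa [A5_τ_zero]
  · rcases lt_or_ge j Q with h | h
    · rw [A5_τ_lt J e M h]
      have := J.r_pos ⟨j, h⟩
      positivity
    · rwa [A5_τ_ge J e M h]

private theorem A5_τ_mono (J : JumpData N Q n) {e M : ℝ} (heM : e ≤ M) (h1 : ∀ q, e ≤ J.r q ^ 2 / 3)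
    (h2 : ∀ q, J.r q ^ 2 / 3 ≤ M) (j : ℕ) : A5_τ J e M j ≤ A5_τ J e M (j + 1) := by
  rcases j with _ | j
  · rw [A5_τ_zero]
    rcases lt_or_ge 0 Q with h | h
    · rw [A5_τ_lt J e M h]
      exact h1 _
    · rwa [A5_τ_ge J e M h]
  · rcases lt_or_ge (j + 1) Q with h | h
    · rw [A5_τ_lt J e M h, A5_τ_lt J e M (by omega : j < Q)]
      have h3 : J.r ⟨j, by omega⟩ ≤ J.r ⟨j + 1, h⟩ := J.r_mono.monotone (Fin.le_def.mpr (Nat.le_succ j))
      have h4 := pow_le_pow_left₀ (J.r_pos _).le h3 2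
      linarith
    · rw [A5_τ_ge J e M h]
      rcases lt_or_ge j Q with h' | h'
      · rw [A5_τ_lt J e M h']
        exact h2 _
      · rw [A5_τ_ge J e M h']

private theorem A5_F2t (J : JumpData N Q n) (F₂ : Matrix (Fin (2 * N)) (Fin (2 * N)) ℝ) {e M : ℝ} {j : ℕ}
    (hj : j ≤ Q) {t : ℝ} (ht : t ∈ Ioo (A5_τ J e M j) (A5_τ J e M (j + 1))) :
    F2t J F₂ t = A5_G J F₂ j := by
  have key : ∀ q : Fin Q, J.r q ≤ Real.sqrt (3 * t) ↔ (q : ℕ) < j := by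
    intro q
    rw [Real.le_sqrt' (J.r_pos q)]
    constructor
    · intro h
      by_contra hq
      rw [not_lt] at hq
      have hjQ : j < Q := hq.trans_lt q.2
      have h2 := ht.2
      rw [A5_τ_lt J e M hjQ] at h2
      have h3 : J.r ⟨j, hjQ⟩ ≤ J.r q := J.r_mono.monotone (Fin.le_def.mpr hq)
      have h4 := pow_le_pow_left₀ (J.r_pos _).le h3 2
      linarith
    · intro h
      obtain ⟨i, rfl⟩ : ∃ i, j = i + 1 := ⟨j - 1, by omega⟩
      have hi : i < Q := by omega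
      have h1 := ht.1
      rw [A5_τ_lt J e M hi] at h1
      have h3 : J.r q ≤ J.r ⟨i, hi⟩ := J.r_mono.monotone (Fin.le_def.mpr (by simp only; omega))
      have h4 := pow_le_pow_left₀ (J.r_pos _).le h3 2
      linarith
  ext a b
  show F₂ a b * mstep J a b (Real.sqrt (3 * t)) = F₂ a b * A5_C J j a b
  unfold mstep A5_C
  simp only [key]

private theorem A5_split (f : ℝ → ℝ≥0∞) (τ : ℕ → ℝ) (hτ : ∀ q, τ q ≤ τ (q + 1)) (m : ℕ) :
    ∫⁻ t in Ioc (τ 0) (τ m), f t ≤ ∑ q ∈ Finset.range m, ∫⁻ t in Ioc (τ q) (τ (q + 1)), f t := by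
  induction m with
  | zero => simp
  | succ m ih =>
    rw [Finset.sum_range_succ, ← Ioc_union_Ioc_eq_Ioc (monotone_nat_of_le_succ hτ (Nat.zero_le m)) (hτ m)]
    exact (lintegral_union_le _ _ _).trans (add_le_add ih le_rfl)

end jumps

/-- the gain with the time dependent `F₂` in the second slot: apply `flow_changes` with the times
`τ_q = r_q²/3` on which `mstep` is constant; `∑_q |a_q| ≤ 4 n`.  Outside `[r_0²/3, r_{Q-1}²/3)` the function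
`F2t` vanishes, and the static bound (`flow_static` with `G = 0`) is used there:
the time intervals `(0, τ_0]` and `[τ_last, ∞)` can be added as two further intervals with `G = 0`
(change from `0` to `F₂ c_0` counted in the jumps). -/
theorem T2_le (hη : 0 < η) {Q n : ℕ} (J : JumpData N Q n) (F₁ F₂ : Matrix (Fin (2 * N)) (Fin (2 * N)) ℝ) :
    ∫⁻ v in Ioi (0 : ℝ), ∫⁻ t in Ioi (0 : ℝ), ∫⁻ p : ℝ × ℝ,
        ENNReal.ofReal (gainD η 2 v F₁ (F2t J F₂ t) p.1 p.2 t) ≤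
      2 * (ENNReal.ofReal (3 * (n3 η F₁ + n3 η F₂)) + 40 * n * ∫⁻ z : ℝ × ℝ,
        ENNReal.ofReal |cf η F₂ z| * maxE η F₁ (F₂.map abs) z) := by
  have hk : ∃ k₀ : ℕ, ∀ k : ℕ, k₀ ≤ k → ∀ q : Fin Q, 1 / ((k : ℝ) + 1) ≤ J.r q ^ 2 / 3 ∧
      J.r q ^ 2 / 3 ≤ (k : ℝ) + 1 := by
    have h1 : ∀ᶠ k : ℕ in atTop, ∀ q : Fin Q, 1 / ((k : ℝ) + 1) ≤ J.r q ^ 2 / 3 ∧
        J.r q ^ 2 / 3 ≤ (k : ℝ) + 1 := by
      rw [eventually_all]
      intro q
      have hr : 0 < J.r q ^ 2 / 3 := by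
        have := J.r_pos q
        positivity
      have h2 := (tendsto_one_div_add_atTop_nhds_zero_nat (𝕜 := ℝ)).eventually_le_const hr
      have h3 := (tendsto_natCast_atTop_atTop (R := ℝ)).eventually_ge_atTop (J.r q ^ 2 / 3)
      filter_upwards [h2, h3] with k h2 h3
      exact ⟨h2, by linarith⟩
    exact eventually_atTop.mp h1
  obtain ⟨k₀, hk₀⟩ := hk
  have hp : ∀ k : ℕ, 0 < 1 / ((k : ℝ) + 1) := fun k => by positivity
  have hp' : ∀ k : ℕ, 0 < (k : ℝ) + 1 := fun k => by positivity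
  have hτ0 : ∀ (k : ℕ) (j : ℕ), 0 < A5_τ J (1 / ((k : ℝ) + 1)) ((k : ℝ) + 1) j := fun k j => A5_τ_pos J (hp k) (hp' k) j
  have hτ : ∀ k : ℕ, k₀ ≤ k → ∀ j, A5_τ J (1 / ((k : ℝ) + 1)) ((k : ℝ) + 1) j ≤
      A5_τ J (1 / ((k : ℝ) + 1)) ((k : ℝ) + 1) (j + 1) := by
    intro k hk j
    have h12 : 1 / ((k : ℝ) + 1) ≤ (k : ℝ) + 1 := by
      rw [div_le_iff₀ (by positivity)]
      have : (0 : ℝ) ≤ k := Nat.cast_nonneg _
      nlinarith
    exact A5_τ_mono J h12 (fun q => (hk₀ k hk q).1) (fun q => (hk₀ k hk q).2) j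
  have hGh : n3 η (F₂.map abs) = n3 η F₂ := by
    unfold n3
    simp
  refine A5_fatou (fun v t => ∫⁻ p : ℝ × ℝ, ENNReal.ofReal (gainD η 2 v F₁ (F2t J F₂ t) p.1 p.2 t))
    (fun k v => ENNReal.ofReal (2 * ∑ q ∈ Finset.range (Q + 1),
        ((∫ p : ℝ × ℝ, potT η 2 v F₁ (A5_G J F₂ q) p.1 p.2 (A5_τ J (1 / ((k : ℝ) + 1)) ((k : ℝ) + 1) q)) -
        ∫ p : ℝ × ℝ, potT η 2 v F₁ (A5_G J F₂ q) p.1 p.2
          (A5_τ J (1 / ((k : ℝ) + 1)) ((k : ℝ) + 1) (q + 1))))) _ k₀ ?_ ?_ ?_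
  · intro k _
    exact (A5_int hη F₁ (Q + 1) _ (hτ0 k) _).aestronglyMeasurable.aemeasurable.ennreal_ofReal
  · intro k hk v hv
    refine le_trans ?_ (A5_A hη hv F₁ (Q + 1) _ (hτ0 k) (hτ k hk) _)
    have h3 := A5_split (fun t => ∫⁻ p : ℝ × ℝ, ENNReal.ofReal (gainD η 2 v F₁ (F2t J F₂ t) p.1 p.2 t))
      (A5_τ J (1 / ((k : ℝ) + 1)) ((k : ℝ) + 1)) (hτ k hk) (Q + 1)
    rw [A5_τ_zero, A5_τ_ge J _ _ (le_refl Q)] at h3
    refine h3.trans (Finset.sum_le_sum fun j hj => ?_)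
    rw [Finset.mem_range] at hj
    rw [← setLIntegral_congr (Ioo_ae_eq_Ioc), ← setLIntegral_congr (Ioo_ae_eq_Ioc)]
    refine le_of_eq (setLIntegral_congr_fun measurableSet_Ioo fun t ht => ?_)
    rw [A5_F2t J F₂ (by omega) ht]
  · intro k hk
    refine (A5_B hη F₁ (F₂.map abs) Q _ (hτ0 k) (hτ k hk) _ (fun q i j => A5_G_abs J F₂ q i j)).trans ?_
    rw [hGh]
    refine mul_le_mul' le_rfl (add_le_add le_rfl ?_)
    calc 10 * ∫⁻ z : ℝ × ℝ, (∑ q ∈ Finset.range Q, ENNReal.ofReal |cf η (A5_G J F₂ (q + 1) - A5_G J F₂ q) z|) *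
          maxE η F₁ (F₂.map abs) z
        ≤ 10 * ∫⁻ z : ℝ × ℝ, (4 * n) * (ENNReal.ofReal |cf η F₂ z| * maxE η F₁ (F₂.map abs) z) := by
          refine mul_le_mul' le_rfl (lintegral_mono fun z => ?_)
          rw [← mul_assoc]
          exact mul_le_mul' (A5_changes_le hη J F₂ z) le_rfl
      _ = 40 * n * ∫⁻ z : ℝ × ℝ, ENNReal.ofReal |cf η F₂ z| * maxE η F₁ (F₂.map abs) z := by
          rw [lintegral_const_mul' _ _ (by finiteness), ← mul_assoc, ← mul_assoc]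
          congr 2
          norm_num

private theorem A5_mp : MeasurePreserving (fun p : ℝ × ℝ => (-p.1 - p.2, p.2)) volume volume := by
  have h1 : MeasurePreserving (fun p : ℝ × ℝ => (p.1, -p.2 - p.1)) (volume.prod volume) (volume.prod volume) := by
    refine MeasurePreserving.skew_product (f := id) (g := fun y x : ℝ => -x - y) (MeasurePreserving.id _) ?_ ?_
    · fun_prop
    · refine Eventually.of_forall fun y => ?_
      exact ((measurePreserving_sub_right volume y).comp (Measure.measurePreserving_neg volume)).map_eq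
  have h2 : MeasurePreserving (Prod.swap : ℝ × ℝ → ℝ × ℝ) (volume.prod volume) (volume.prod volume) :=
    Measure.measurePreserving_swap
  exact (h2.comp (h1.comp h2))

private noncomputable def A5_e : ℝ × ℝ ≃ᵐ ℝ × ℝ where
  toFun p := (-p.1 - p.2, p.2)
  invFun p := (-p.1 - p.2, p.2)
  left_inv p := by ext <;> simp
  right_inv p := by ext <;> simp
  measurable_toFun := by
    show Measurable fun p : ℝ × ℝ => (-p.1 - p.2, p.2)
    fun_prop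
  measurable_invFun := by
    show Measurable fun p : ℝ × ℝ => (-p.1 - p.2, p.2)
    fun_prop

private theorem A5_lint (f : ℝ × ℝ → ℝ≥0∞) : ∫⁻ p : ℝ × ℝ, f (-p.1 - p.2, p.2) = ∫⁻ p : ℝ × ℝ, f p :=
  A5_mp.lintegral_comp_emb A5_e.measurableEmbedding f

/-- the transposed jump data -/
private noncomputable def A5_JT {Q n : ℕ} (J : JumpData N Q n) : JumpData N Q n where
  r := J.r
  a := fun q k₂ k₀ => J.a q k₀ k₂
  r_pos := J.r_pos
  r_mono := J.r_mono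
  partial_le := fun k₂ k₀ q => J.partial_le k₀ k₂ q
  total := fun k₂ k₀ => J.total k₀ k₂
  count := fun k₂ k₀ => J.count k₀ k₂

/-- the same in the first slot, by `gainD_swap` (and `p₀ ↦ -p₀-p₁`). -/
theorem T0_le (hη : 0 < η) {Q n : ℕ} (J : JumpData N Q n) (F₀ F₂ : Matrix (Fin (2 * N)) (Fin (2 * N)) ℝ) :
    ∫⁻ v in Ioi (0 : ℝ), ∫⁻ t in Ioi (0 : ℝ), ∫⁻ p : ℝ × ℝ,
        ENNReal.ofReal (gainD η 2 v (F2t J F₂ t) F₀ p.1 p.2 t) ≤
      2 * (ENNReal.ofReal (3 * (n3 η F₀ + n3 η F₂)) + 40 * n * ∫⁻ z : ℝ × ℝ,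
        ENNReal.ofReal |cf η F₂ᵀ z| * maxE η F₀ᵀ (F₂ᵀ.map abs) z) := by
  have hn : ∀ A : Matrix (Fin (2 * N)) (Fin (2 * N)) ℝ, n3 η Aᵀ = n3 η A := by
    intro A
    unfold n3
    rw [Finset.sum_comm]
    rfl
  have h := T2_le hη (A5_JT J) F₀ᵀ F₂ᵀ
  rw [hn, hn] at h
  refine le_trans (le_of_eq ?_) h
  refine lintegral_congr fun v => lintegral_congr fun t => ?_
  rw [← A5_lint (fun p => ENNReal.ofReal (gainD η 2 v F₀ᵀ (F2t (A5_JT J) F₂ᵀ t) p.1 p.2 t))]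
  refine lintegral_congr fun p => ?_
  rw [gainD_swap]
  rfl

end Crest.Agent.TH
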