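import Crest.Agent.TH_CDefs

/-! # TH_G1 (task TH-G1): Gaussian kernel facts -/

set_option autoImplicit false
open Matrix MeasureTheory Set Filter
open scoped Topology ENNReal

namespace Crest.Agent.TH

theorem gk_pos {t : ℝ} (ht : 0 < t) (x : ℝ) : 0 < gk t x := by
  unfold gk
  have : 0 < Real.sqrt (2 * Real.pi * t) := Real.sqrt_pos.mpr (by positivity)
  positivity

theorem gk_neg (t x : ℝ) : gk t (-x) = gk t x := by
  unfold gk
  rw [neg_sq]

theorem gk1_neg (t x : ℝ) : gk1 t (-x) = -gk1 t x := by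
  unfold gk1
  rw [gk_neg]
  ring

theorem gk2_neg (t x : ℝ) : gk2 t (-x) = gk2 t x := by
  unfold gk2
  rw [gk_neg]
  ring

theorem gk3_neg (t x : ℝ) : gk3 t (-x) = -gk3 t x := by
  unfold gk3
  rw [gk_neg]
  ring

theorem hasDerivAt_gk {t : ℝ} (ht : 0 < t) (x : ℝ) : HasDerivAt (gk t) (gk1 t x) x := by
  have h1 : HasDerivAt (fun x : ℝ => -x ^ 2 / (2 * t)) (-(2 * x) / (2 * t)) x := by
    exact (((hasDerivAt_pow 2 x).neg).div_const (2 * t)).congr_deriv (by norm_num)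
  have h2 := (h1.exp).div_const (Real.sqrt (2 * Real.pi * t))
  have h3 : gk1 t x = Real.exp (-x ^ 2 / (2 * t)) * (-(2 * x) / (2 * t)) /
      Real.sqrt (2 * Real.pi * t) := by
    unfold gk1 gk
    field_simp
  rw [h3]
  exact h2

theorem hasDerivAt_gk1 {t : ℝ} (ht : 0 < t) (x : ℝ) : HasDerivAt (gk1 t) (gk2 t x) x := by
  have h1 : HasDerivAt (fun x : ℝ => -(x / t)) (-(1 / t)) x :=
    ((hasDerivAt_id x).div_const t).neg
  have h2 := h1.mul (hasDerivAt_gk ht x)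
  have h3 : gk2 t x = -(1 / t) * gk t x + -(x / t) * gk1 t x := by
    unfold gk2 gk1
    field_simp
    ring
  rw [h3]
  exact h2

theorem hasDerivAt_gk2 {t : ℝ} (ht : 0 < t) (x : ℝ) : HasDerivAt (gk2 t) (gk3 t x) x := by
  have h1 : HasDerivAt (fun x : ℝ => x ^ 2 / t ^ 2 - 1 / t) (2 * x / t ^ 2) x := by
    exact (((hasDerivAt_pow 2 x).div_const (t ^ 2)).sub_const (1 / t)).congr_deriv (by norm_num)
  have h2 := h1.mul (hasDerivAt_gk ht x)
  have h3 : gk3 t x = 2 * x / t ^ 2 * gk t x + (x ^ 2 / t ^ 2 - 1 / t) * gk1 t x := by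
    unfold gk3 gk1
    field_simp
    ring
  rw [h3]
  exact h2

theorem hasDerivAt_gk3 {t : ℝ} (ht : 0 < t) (x : ℝ) : HasDerivAt (gk3 t) (gk4 t x) x := by
  have h1 : HasDerivAt (fun x : ℝ => 3 * x / t ^ 2 - x ^ 3 / t ^ 3) (3 / t ^ 2 - 3 * x ^ 2 / t ^ 3) x := by
    have ha := ((hasDerivAt_id x).const_mul 3).div_const (t ^ 2)
    have hb := (hasDerivAt_pow 3 x).div_const (t ^ 3)
    exact (ha.sub hb).congr_deriv (by norm_num)
  have h2 := h1.mul (hasDerivAt_gk ht x)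
  have h3 : gk4 t x = (3 / t ^ 2 - 3 * x ^ 2 / t ^ 3) * gk t x +
      (3 * x / t ^ 2 - x ^ 3 / t ^ 3) * gk1 t x := by
    unfold gk4 gk1
    field_simp
    ring
  rw [h3]
  exact h2

/-- heat equation -/
theorem hasDerivAt_gk_t {t : ℝ} (ht : 0 < t) (x : ℝ) :
    HasDerivAt (fun t => gk t x) (gk2 t x / 2) t := by
  have hs : 0 < Real.sqrt (2 * Real.pi * t) := Real.sqrt_pos.mpr (by positivity)
  have hpt : 0 < 2 * Real.pi * t := by positivity
  have h1 : HasDerivAt (fun t : ℝ => -x ^ 2 / (2 * t)) (x ^ 2 / (2 * t ^ 2)) t := by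
    have h0 : HasDerivAt (fun t : ℝ => 2 * t) 2 t := by
      simpa using (hasDerivAt_id t).const_mul 2
    exact ((hasDerivAt_const t (-x ^ 2)).div h0 (by positivity)).congr_deriv (by
      field_simp
      ring)
  have h2 : HasDerivAt (fun t : ℝ => Real.sqrt (2 * Real.pi * t))
      (2 * Real.pi / (2 * Real.sqrt (2 * Real.pi * t))) t := by
    have h0 : HasDerivAt (fun t : ℝ => 2 * Real.pi * t) (2 * Real.pi) t := by
      simpa using (hasDerivAt_id t).const_mul (2 * Real.pi)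
    exact h0.sqrt (ne_of_gt hpt)
  have h3 := (h1.exp).div h2 (ne_of_gt hs)
  have h4 : gk2 t x / 2 = (Real.exp (-x ^ 2 / (2 * t)) * (x ^ 2 / (2 * t ^ 2)) *
      Real.sqrt (2 * Real.pi * t) - Real.exp (-x ^ 2 / (2 * t)) *
      (2 * Real.pi / (2 * Real.sqrt (2 * Real.pi * t)))) / Real.sqrt (2 * Real.pi * t) ^ 2 := by
    unfold gk2 gk
    have hsq : Real.sqrt (2 * Real.pi * t) ^ 2 = 2 * Real.pi * t := Real.sq_sqrt hpt.le
    set S := Real.sqrt (2 * Real.pi * t) with hS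
    have hSne : S ≠ 0 := ne_of_gt hs
    have e1 : (2 * Real.pi / (2 * S)) / S ^ 2 = 1 / (2 * t) / S := by
      rw [hsq]
      field_simp
    have e2 : (Real.exp (-x ^ 2 / (2 * t)) * (x ^ 2 / (2 * t ^ 2)) * S -
        Real.exp (-x ^ 2 / (2 * t)) * (2 * Real.pi / (2 * S))) / S ^ 2 =
        Real.exp (-x ^ 2 / (2 * t)) * (x ^ 2 / (2 * t ^ 2)) / S -
        Real.exp (-x ^ 2 / (2 * t)) * ((2 * Real.pi / (2 * S)) / S ^ 2) := by
      field_simp
    rw [e2, e1]
    field_simp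
  rw [h4]
  exact h3

theorem integrable_pow_gk {t : ℝ} (ht : 0 < t) (n : ℕ) : Integrable (fun x => x ^ n * gk t x) := by
  have h := integrable_rpow_mul_exp_neg_mul_sq (b := 1 / (2 * t)) (by positivity)
    (s := (n : ℝ)) (by
      have : (0 : ℝ) ≤ n := Nat.cast_nonneg n
      linarith)
  have h2 := h.div_const (Real.sqrt (2 * Real.pi * t))
  refine h2.congr (Eventually.of_forall fun x => ?_)
  simp only [Real.rpow_natCast]
  unfold gk
  have : -(1 / (2 * t)) * x ^ 2 = -x ^ 2 / (2 * t) := by ring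
  rw [this]
  ring

theorem integrable_gk {t : ℝ} (ht : 0 < t) : Integrable (gk t) := by
  have := integrable_pow_gk ht 0
  simpa using this

theorem integral_gk {t : ℝ} (ht : 0 < t) : ∫ x, gk t x = 1 := by
  have h := integral_gaussian (1 / (2 * t))
  have e : ∀ x : ℝ, gk t x = Real.exp (-(1 / (2 * t)) * x ^ 2) / Real.sqrt (2 * Real.pi * t) := by
    intro x
    unfold gk
    congr 2
    ring
  simp_rw [e]
  rw [integral_div, h]
  have : Real.pi / (1 / (2 * t)) = 2 * Real.pi * t := by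
    field_simp
  rw [this]
  exact div_self (ne_of_gt (Real.sqrt_pos.mpr (by positivity)))

theorem integrable_gk1 {t : ℝ} (ht : 0 < t) : Integrable (gk1 t) := by
  have h := (integrable_pow_gk ht 1).const_mul (-(1 / t))
  refine h.congr (Eventually.of_forall fun x => ?_)
  simp only [gk1]
  ring

theorem integrable_gk2 {t : ℝ} (ht : 0 < t) : Integrable (gk2 t) := by
  have h := ((integrable_pow_gk ht 2).const_mul (1 / t ^ 2)).sub
    ((integrable_pow_gk ht 0).const_mul (1 / t))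
  refine h.congr (Eventually.of_forall fun x => ?_)
  simp only [gk2, Pi.sub_apply]
  ring

theorem integrable_gk3 {t : ℝ} (ht : 0 < t) : Integrable (gk3 t) := by
  have h := ((integrable_pow_gk ht 1).const_mul (3 / t ^ 2)).sub
    ((integrable_pow_gk ht 3).const_mul (1 / t ^ 3))
  refine h.congr (Eventually.of_forall fun x => ?_)
  simp only [gk3, Pi.sub_apply]
  ring

/-- moments recursion -/
theorem moment_succ {t : ℝ} (ht : 0 < t) (n : ℕ) :
    ∫ x, x ^ (n + 1) * gk t x = n * t * ∫ x, x ^ (n - 1) * gk t x := by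
  have hd : ∀ x : ℝ, HasDerivAt (fun x => x ^ n * gk t x)
      ((n : ℝ) * (x ^ (n - 1) * gk t x) - (1 / t) * (x ^ (n + 1) * gk t x)) x := by
    intro x
    have h1 := (hasDerivAt_pow n x).mul (hasDerivAt_gk ht x)
    refine h1.congr_deriv ?_
    unfold gk1
    field_simp
    ring
  have hi := ((integrable_pow_gk ht (n - 1)).const_mul (n : ℝ)).sub
    ((integrable_pow_gk ht (n + 1)).const_mul (1 / t))
  have h0 := integral_eq_zero_of_hasDerivAt_of_integrable hd hi (integrable_pow_gk ht n)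
  rw [integral_sub ((integrable_pow_gk ht (n - 1)).const_mul (n : ℝ))
    ((integrable_pow_gk ht (n + 1)).const_mul (1 / t)), integral_const_mul, integral_const_mul] at h0
  have h1 : (1 / t) * ∫ x, x ^ (n + 1) * gk t x = n * ∫ x, x ^ (n - 1) * gk t x := by linarith
  have h2 : ∫ x, x ^ (n + 1) * gk t x = t * ((1 / t) * ∫ x, x ^ (n + 1) * gk t x) := by
    field_simp
  rw [h2, h1]
  ring

theorem moment0 {t : ℝ} (ht : 0 < t) : ∫ x, x ^ 0 * gk t x = 1 := by
  simpa using integral_gk ht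

theorem moment1 {t : ℝ} (ht : 0 < t) : ∫ x, x ^ 1 * gk t x = 0 := by
  have := moment_succ ht 0
  simpa using this

theorem moment2 {t : ℝ} (ht : 0 < t) : ∫ x, x ^ 2 * gk t x = t := by
  have := moment_succ ht 1
  rw [show (1 : ℕ) - 1 = 0 from rfl, moment0 ht] at this
  simpa using this

theorem moment3 {t : ℝ} (ht : 0 < t) : ∫ x, x ^ 3 * gk t x = 0 := by
  have := moment_succ ht 2
  rw [show (2 : ℕ) - 1 = 1 from rfl, moment1 ht] at this
  simpa using this

theorem moment4 {t : ℝ} (ht : 0 < t) : ∫ x, x ^ 4 * gk t x = 3 * t ^ 2 := by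
  have := moment_succ ht 3
  rw [show (3 : ℕ) - 1 = 2 from rfl, moment2 ht] at this
  rw [this]
  push_cast
  ring

/-- integrals of a polynomial of degree `≤ 4` times a shifted Gaussian. -/
theorem integral_poly_gk {r : ℝ} (hr : 0 < r) (m c₀ c₁ c₂ c₃ c₄ : ℝ) :
    ∫ y, (c₀ + c₁ * (y - m) + c₂ * (y - m) ^ 2 + c₃ * (y - m) ^ 3 + c₄ * (y - m) ^ 4) *
      gk r (y - m) = c₀ + c₂ * r + c₄ * (3 * r ^ 2) := by
  have h0 : ∫ y, (c₀ + c₁ * (y - m) + c₂ * (y - m) ^ 2 + c₃ * (y - m) ^ 3 + c₄ * (y - m) ^ 4) *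
      gk r (y - m) = ∫ z, (c₀ + c₁ * z + c₂ * z ^ 2 + c₃ * z ^ 3 + c₄ * z ^ 4) * gk r z :=
    integral_sub_right_eq_self
      (fun z => (c₀ + c₁ * z + c₂ * z ^ 2 + c₃ * z ^ 3 + c₄ * z ^ 4) * gk r z) m
  rw [h0]
  have e : ∀ z : ℝ, (c₀ + c₁ * z + c₂ * z ^ 2 + c₃ * z ^ 3 + c₄ * z ^ 4) * gk r z =
      c₀ * (z ^ 0 * gk r z) + c₁ * (z ^ 1 * gk r z) + c₂ * (z ^ 2 * gk r z) +
        c₃ * (z ^ 3 * gk r z) + c₄ * (z ^ 4 * gk r z) := by
    intro z
    ring
  simp_rw [e]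
  have i0 := (integrable_pow_gk hr 0).const_mul c₀
  have i1 := (integrable_pow_gk hr 1).const_mul c₁
  have i2 := (integrable_pow_gk hr 2).const_mul c₂
  have i3 := (integrable_pow_gk hr 3).const_mul c₃
  have i4 := (integrable_pow_gk hr 4).const_mul c₄
  have i01 : Integrable (fun z => c₀ * (z ^ 0 * gk r z) + c₁ * (z ^ 1 * gk r z)) := i0.add i1
  have i02 : Integrable (fun z => c₀ * (z ^ 0 * gk r z) + c₁ * (z ^ 1 * gk r z) +
    c₂ * (z ^ 2 * gk r z)) := i01.add i2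
  have i03 : Integrable (fun z => c₀ * (z ^ 0 * gk r z) + c₁ * (z ^ 1 * gk r z) +
    c₂ * (z ^ 2 * gk r z) + c₃ * (z ^ 3 * gk r z)) := i02.add i3
  rw [integral_add i03 i4, integral_add i02 i3, integral_add i01 i2, integral_add i0 i1]
  simp only [integral_const_mul]
  rw [moment0 hr, moment1 hr, moment2 hr, moment3 hr, moment4 hr]
  ring

theorem gk_mul_gk {s t : ℝ} (hs : 0 < s) (ht : 0 < t) (x y : ℝ) :
    gk s (x - y) * gk t y = gk (s + t) x * gk (s * t / (s + t)) (y - t * x / (s + t)) := by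
  unfold gk
  have hst : 0 < s + t := by positivity
  have e1 : Real.exp (-(x - y) ^ 2 / (2 * s)) * Real.exp (-y ^ 2 / (2 * t)) =
      Real.exp (-x ^ 2 / (2 * (s + t))) *
        Real.exp (-(y - t * x / (s + t)) ^ 2 / (2 * (s * t / (s + t)))) := by
    rw [← Real.exp_add, ← Real.exp_add]
    congr 1
    field_simp
    ring
  have e2 : Real.sqrt (2 * Real.pi * s) * Real.sqrt (2 * Real.pi * t) =
      Real.sqrt (2 * Real.pi * (s + t)) * Real.sqrt (2 * Real.pi * (s * t / (s + t))) := by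
    rw [← Real.sqrt_mul (by positivity), ← Real.sqrt_mul (by positivity)]
    congr 1
    field_simp
  rw [div_mul_div_comm, div_mul_div_comm, e1, e2]

/-- semigroup property -/
theorem gk_conv {s t : ℝ} (hs : 0 < s) (ht : 0 < t) (x : ℝ) :
    ∫ y, gk s (x - y) * gk t y = gk (s + t) x := by
  have hst : 0 < s + t := by positivity
  have hr : 0 < s * t / (s + t) := by positivity
  have e : ∀ y, gk s (x - y) * gk t y = gk (s + t) x *
      ((1 + 0 * (y - t * x / (s + t)) + 0 * (y - t * x / (s + t)) ^ 2 +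
        0 * (y - t * x / (s + t)) ^ 3 + 0 * (y - t * x / (s + t)) ^ 4) *
        gk (s * t / (s + t)) (y - t * x / (s + t))) := by
    intro y
    rw [gk_mul_gk hs ht]
    ring
  simp_rw [e]
  rw [integral_const_mul, integral_poly_gk hr]
  ring

theorem gk1_conv {s t : ℝ} (hs : 0 < s) (ht : 0 < t) (x : ℝ) :
    ∫ y, gk1 s (x - y) * gk1 t y = gk2 (s + t) x := by
  have hst : 0 < s + t := by positivity
  have hr : 0 < s * t / (s + t) := by positivity
  have e : ∀ y, gk1 s (x - y) * gk1 t y = gk (s + t) x *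
      ((x ^ 2 / (s + t) ^ 2 + ((x / (t * (s + t))) - x / (s * (s + t))) * (y - t * x / (s + t)) +
        (-(1 / (s * t))) * (y - t * x / (s + t)) ^ 2 +
        0 * (y - t * x / (s + t)) ^ 3 + 0 * (y - t * x / (s + t)) ^ 4) *
        gk (s * t / (s + t)) (y - t * x / (s + t))) := by
    intro y
    have h := gk_mul_gk hs ht x y
    have h1 : gk1 s (x - y) * gk1 t y = ((x - y) / s * (y / t)) * (gk s (x - y) * gk t y) := by
      unfold gk1
      ring
    rw [h1, h]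
    rw [mul_left_comm]
    congr 1
    congr 1
    field_simp
    ring
  simp_rw [e]
  rw [integral_const_mul, integral_poly_gk hr]
  unfold gk2
  rw [mul_comm]
  congr 1
  field_simp
  ring

/-- `g_t' * (g_s * g_t')`‑type identity used for smoothing: `∫ gk1 s (x-y) gk t y dy = gk1 (s+t) x`. -/
theorem gk1_conv_gk {s t : ℝ} (hs : 0 < s) (ht : 0 < t) (x : ℝ) :
    ∫ y, gk1 s (x - y) * gk t y = gk1 (s + t) x := by
  have hst : 0 < s + t := by positivity
  have hr : 0 < s * t / (s + t) := by positivity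
  have e : ∀ y, gk1 s (x - y) * gk t y = gk (s + t) x *
      ((-(x / (s + t)) + (1 / s) * (y - t * x / (s + t)) +
        0 * (y - t * x / (s + t)) ^ 2 +
        0 * (y - t * x / (s + t)) ^ 3 + 0 * (y - t * x / (s + t)) ^ 4) *
        gk (s * t / (s + t)) (y - t * x / (s + t))) := by
    intro y
    have h := gk_mul_gk hs ht x y
    have h1 : gk1 s (x - y) * gk t y = (-((x - y) / s)) * (gk s (x - y) * gk t y) := by
      unfold gk1
      ring
    rw [h1, h]
    rw [mul_left_comm]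
    congr 1
    congr 1
    field_simp
    ring
  simp_rw [e]
  rw [integral_const_mul, integral_poly_gk hr]
  unfold gk1
  ring

theorem gk3_conv_gk1 {s t : ℝ} (hs : 0 < s) (ht : 0 < t) (x : ℝ) :
    ∫ y, gk3 s (x - y) * gk1 t y = gk4 (s + t) x := by
  have hst : 0 < s + t := by positivity
  have hr : 0 < s * t / (s + t) := by positivity
  -- with `a = x / (s+t)`: `(3 (s a - z) / s² - (s a - z)³ / s³) * (-(t a + z) / t)`
  have e : ∀ y, gk3 s (x - y) * gk1 t y = gk (s + t) x *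
      (((-(3 * (x / (s + t)) ^ 2 / s) + (x / (s + t)) ^ 4) +
        (3 * (x / (s + t)) / s ^ 2 - 3 * (x / (s + t)) / (s * t) - 3 * (x / (s + t)) ^ 3 / s
          + (x / (s + t)) ^ 3 / t) * (y - t * x / (s + t)) +
        (3 / (s ^ 2 * t) + 3 * (x / (s + t)) ^ 2 / s ^ 2 - 3 * (x / (s + t)) ^ 2 / (s * t)) *
          (y - t * x / (s + t)) ^ 2 +
        (-((x / (s + t)) / s ^ 3) + 3 * (x / (s + t)) / (s ^ 2 * t)) *
          (y - t * x / (s + t)) ^ 3 +
        (-(1 / (s ^ 3 * t))) * (y - t * x / (s + t)) ^ 4) *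
        gk (s * t / (s + t)) (y - t * x / (s + t))) := by
    intro y
    have h := gk_mul_gk hs ht x y
    have h1 : gk3 s (x - y) * gk1 t y = ((3 * (x - y) / s ^ 2 - (x - y) ^ 3 / s ^ 3) * (-(y / t))) *
        (gk s (x - y) * gk t y) := by
      unfold gk3 gk1
      ring
    rw [h1, h]
    rw [mul_left_comm]
    congr 1
    congr 1
    obtain ⟨a, ha⟩ : ∃ a, x = a * (s + t) := ⟨x / (s + t), by field_simp⟩
    obtain ⟨z, hz⟩ : ∃ z, y = z + t * a := ⟨y - t * a, by ring⟩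
    subst ha
    subst hz
    have e1 : a * (s + t) / (s + t) = a := by field_simp
    have e2 : t * (a * (s + t)) / (s + t) = t * a := by field_simp
    have e3 : a * (s + t) - (z + t * a) = s * a - z := by ring
    rw [e1, e2, e3]
    field_simp
    ring
  simp_rw [e]
  rw [integral_const_mul, integral_poly_gk hr]
  unfold gk4
  rw [mul_comm]
  congr 1
  field_simp
  ring

theorem gk1_conv_gk2 {s t : ℝ} (hs : 0 < s) (ht : 0 < t) (x : ℝ) :
    ∫ y, gk1 s (x - y) * gk2 t y = gk3 (s + t) x := by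
  have hst : 0 < s + t := by positivity
  have hr : 0 < s * t / (s + t) := by positivity
  -- `-(s a - z)/s * ((t a + z)²/t² - 1/t)`
  have e : ∀ y, gk1 s (x - y) * gk2 t y = gk (s + t) x *
      ((((x / (s + t)) / t - (x / (s + t)) ^ 3) +
        (-(2 * (x / (s + t)) ^ 2 / t) + (x / (s + t)) ^ 2 / s - 1 / (s * t)) *
          (y - t * x / (s + t)) +
        (-((x / (s + t)) / t ^ 2) + 2 * (x / (s + t)) / (s * t)) *
          (y - t * x / (s + t)) ^ 2 +
        (1 / (s * t ^ 2)) * (y - t * x / (s + t)) ^ 3 +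
        0 * (y - t * x / (s + t)) ^ 4) *
        gk (s * t / (s + t)) (y - t * x / (s + t))) := by
    intro y
    have h := gk_mul_gk hs ht x y
    have h1 : gk1 s (x - y) * gk2 t y = (-((x - y) / s) * (y ^ 2 / t ^ 2 - 1 / t)) *
        (gk s (x - y) * gk t y) := by
      unfold gk2 gk1
      ring
    rw [h1, h]
    rw [mul_left_comm]
    congr 1
    congr 1
    obtain ⟨a, ha⟩ : ∃ a, x = a * (s + t) := ⟨x / (s + t), by field_simp⟩
    obtain ⟨z, hz⟩ : ∃ z, y = z + t * a := ⟨y - t * a, by ring⟩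
    subst ha
    subst hz
    have e1 : a * (s + t) / (s + t) = a := by field_simp
    have e2 : t * (a * (s + t)) / (s + t) = t * a := by field_simp
    have e3 : a * (s + t) - (z + t * a) = s * a - z := by ring
    rw [e1, e2, e3]
    field_simp
    ring
  simp_rw [e]
  rw [integral_const_mul, integral_poly_gk hr]
  unfold gk3
  rw [mul_comm]
  congr 1
  field_simp
  ring

theorem gk_le_scale {s t : ℝ} (hs : 0 < s) (hst : s ≤ t) (x : ℝ) :
    gk s x ≤ Real.sqrt (t / s) * gk t x := by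
  have ht : 0 < t := lt_of_lt_of_le hs hst
  unfold gk
  have e1 : Real.sqrt (2 * Real.pi * t) = Real.sqrt (t / s) * Real.sqrt (2 * Real.pi * s) := by
    rw [← Real.sqrt_mul (by positivity)]
    congr 1
    field_simp
  have h1 : 0 < Real.sqrt (t / s) := Real.sqrt_pos.mpr (by positivity)
  have h2 : 0 < Real.sqrt (2 * Real.pi * s) := Real.sqrt_pos.mpr (by positivity)
  rw [e1]
  have e2 : Real.sqrt (t / s) * (Real.exp (-x ^ 2 / (2 * t)) /
      (Real.sqrt (t / s) * Real.sqrt (2 * Real.pi * s))) =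
      Real.exp (-x ^ 2 / (2 * t)) / Real.sqrt (2 * Real.pi * s) := by
    field_simp
  rw [e2]
  apply div_le_div_of_nonneg_right _ h2.le
  apply Real.exp_le_exp.mpr
  rw [neg_div, neg_div]
  apply neg_le_neg
  apply div_le_div_of_nonneg_left (sq_nonneg x) (by positivity)
  linarith

/-- `gk t x = √2 e^{-x²/4t} gk (2t) x` -/
theorem gk_eq_two {t : ℝ} (ht : 0 < t) (x : ℝ) :
    gk t x = Real.sqrt 2 * Real.exp (-(x ^ 2 / (4 * t))) * gk (2 * t) x := by
  unfold gk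
  have e1 : Real.sqrt (2 * Real.pi * (2 * t)) = Real.sqrt 2 * Real.sqrt (2 * Real.pi * t) := by
    rw [← Real.sqrt_mul (by positivity)]
    congr 1
    ring
  have h1 : 0 < Real.sqrt 2 := Real.sqrt_pos.mpr (by positivity)
  have h2 : 0 < Real.sqrt (2 * Real.pi * t) := Real.sqrt_pos.mpr (by positivity)
  have e2 : Real.exp (-x ^ 2 / (2 * t)) =
      Real.exp (-(x ^ 2 / (4 * t))) * Real.exp (-x ^ 2 / (2 * (2 * t))) := by
    rw [← Real.exp_add]
    congr 1
    field_simp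
    ring
  rw [e1, e2]
  field_simp

theorem sqrt2_le : Real.sqrt 2 ≤ 3 / 2 := by
  rw [show (3 / 2 : ℝ) = Real.sqrt ((3 / 2) ^ 2) by rw [Real.sqrt_sq (by norm_num)]]
  exact Real.sqrt_le_sqrt (by norm_num)

/-- `p e^{-u} ≤ c` if `p ≤ c (1 + u + u²/2 + u³/6 + ...)`. -/
theorem mul_exp_neg_le {p c u : ℝ} (h : p ≤ c * Real.exp u) : p * Real.exp (-u) ≤ c := by
  rw [Real.exp_neg, ← div_eq_mul_inv, div_le_iff₀ (Real.exp_pos u)]
  exact h

theorem exp_ge_quad {u : ℝ} (hu : 0 ≤ u) : 1 + u + u ^ 2 / 2 ≤ Real.exp u :=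
  Real.quadratic_le_exp_of_nonneg hu

theorem exp_ge_cubic {u : ℝ} (hu : 0 ≤ u) : 1 + u + u ^ 2 / 2 + u ^ 3 / 6 ≤ Real.exp u := by
  have h := Real.sum_le_exp_of_nonneg hu 4
  simp [Finset.sum_range_succ, Nat.factorial] at h
  linarith

theorem bound_aux {t : ℝ} (ht : 0 < t) (x q c : ℝ) (h : |q| * Real.sqrt 2 ≤ c * Real.exp (x ^ 2 / (4 * t))) :
    |q * gk t x| ≤ c * gk (2 * t) x := by
  have hg := gk_pos (show 0 < 2 * t by positivity) x
  have hg1 := gk_pos ht x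
  rw [abs_mul, abs_of_pos hg1, gk_eq_two ht x]
  have : |q| * (Real.sqrt 2 * Real.exp (-(x ^ 2 / (4 * t))) * gk (2 * t) x) =
      (|q| * Real.sqrt 2 * Real.exp (-(x ^ 2 / (4 * t)))) * gk (2 * t) x := by ring
  rw [this]
  exact mul_le_mul_of_nonneg_right (mul_exp_neg_le h) hg.le

theorem exp_ge_quartic {u : ℝ} (hu : 0 ≤ u) :
    1 + u + u ^ 2 / 2 + u ^ 3 / 6 + u ^ 4 / 24 ≤ Real.exp u := by
  have h := Real.sum_le_exp_of_nonneg hu 5
  simp [Finset.sum_range_succ, Nat.factorial] at h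
  linarith

/-- `|g_t'| ≤ (2/√t) g_{2t}` -/
theorem abs_gk1_le {t : ℝ} (ht : 0 < t) (x : ℝ) : |gk1 t x| ≤ 2 / Real.sqrt t * gk (2 * t) x := by
  unfold gk1
  apply bound_aux ht
  obtain ⟨r, hr, hrt⟩ : ∃ r, 0 < r ∧ t = r ^ 2 :=
    ⟨Real.sqrt t, Real.sqrt_pos.mpr ht, (Real.sq_sqrt ht.le).symm⟩
  obtain ⟨y, hy⟩ : ∃ y, x = y * r := ⟨x / r, by field_simp⟩
  subst hrt
  subst hy
  rw [Real.sqrt_sq hr.le]
  have e1 : |-(y * r / r ^ 2)| = |y| / r := by
    rw [abs_neg, show y * r / r ^ 2 = y / r by field_simp, abs_div, abs_of_pos hr]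
  have e2 : (y * r) ^ 2 / (4 * r ^ 2) = y ^ 2 / 4 := by field_simp
  rw [e1, e2]
  have h1 := exp_ge_quad (show 0 ≤ y ^ 2 / 4 by positivity)
  have h2 := sqrt2_le
  have h3 : |y| * Real.sqrt 2 ≤ 2 * Real.exp (y ^ 2 / 4) := by
    have h4 : |y| * Real.sqrt 2 ≤ |y| * (3 / 2) := mul_le_mul_of_nonneg_left h2 (abs_nonneg y)
    have h5 : |y| ^ 2 = y ^ 2 := sq_abs y
    nlinarith [sq_nonneg (|y| - 3 / 2), sq_nonneg (y ^ 2 / 4)]
  calc |y| / r * Real.sqrt 2 = (|y| * Real.sqrt 2) / r := by ring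
    _ ≤ (2 * Real.exp (y ^ 2 / 4)) / r := div_le_div_of_nonneg_right h3 hr.le
    _ = 2 / r * Real.exp (y ^ 2 / 4) := by ring

theorem abs_gk2_le {t : ℝ} (ht : 0 < t) (x : ℝ) : |gk2 t x| ≤ 2 / t * gk (2 * t) x := by
  unfold gk2
  apply bound_aux ht
  obtain ⟨u, hu⟩ : ∃ u, u = x ^ 2 / (4 * t) := ⟨_, rfl⟩
  have hu0 : 0 ≤ u := by rw [hu]; positivity
  rw [← hu]
  have hx : x ^ 2 = 4 * t * u := by rw [hu]; field_simp
  rw [hx]
  have e1 : 4 * t * u / t ^ 2 - 1 / t = (4 * u - 1) / t := by field_simp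
  rw [e1, abs_div, abs_of_pos ht]
  have h1 := exp_ge_cubic hu0
  have h2 := sqrt2_le
  have h20 := Real.sqrt_nonneg 2
  have h3 : |4 * u - 1| * Real.sqrt 2 ≤ 2 * Real.exp u := by
    have h4 : |4 * u - 1| * Real.sqrt 2 ≤ |4 * u - 1| * (3 / 2) :=
      mul_le_mul_of_nonneg_left h2 (abs_nonneg _)
    have h5 : |4 * u - 1| ≤ 4 / 3 * Real.exp u := by
      rw [abs_le]
      constructor
      · nlinarith [pow_nonneg hu0 2, pow_nonneg hu0 3]
      · nlinarith [mul_nonneg hu0 (sq_nonneg (u - 5 / 4)), sq_nonneg (u - 5 / 4)]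
    linarith
  calc |4 * u - 1| / t * Real.sqrt 2 = (|4 * u - 1| * Real.sqrt 2) / t := by ring
    _ ≤ (2 * Real.exp u) / t := div_le_div_of_nonneg_right h3 ht.le
    _ = 2 / t * Real.exp u := by ring

theorem abs_gk3_le {t : ℝ} (ht : 0 < t) (x : ℝ) :
    |gk3 t x| ≤ 10 / (t * Real.sqrt t) * gk (2 * t) x := by
  unfold gk3
  apply bound_aux ht
  obtain ⟨r, hr, hrt⟩ : ∃ r, 0 < r ∧ t = r ^ 2 :=
    ⟨Real.sqrt t, Real.sqrt_pos.mpr ht, (Real.sq_sqrt ht.le).symm⟩
  obtain ⟨y, hy⟩ : ∃ y, x = y * r := ⟨x / r, by field_simp⟩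
  subst hrt
  subst hy
  rw [Real.sqrt_sq hr.le]
  have e1 : |3 * (y * r) / (r ^ 2) ^ 2 - (y * r) ^ 3 / (r ^ 2) ^ 3| =
      (|y| * |3 - y ^ 2|) / (r ^ 2 * r) := by
    rw [show 3 * (y * r) / (r ^ 2) ^ 2 - (y * r) ^ 3 / (r ^ 2) ^ 3 =
      (y * (3 - y ^ 2)) / (r ^ 2 * r) by field_simp, abs_div, abs_mul,
      abs_of_pos (show 0 < r ^ 2 * r by positivity)]
  have e2 : (y * r) ^ 2 / (4 * r ^ 2) = y ^ 2 / 4 := by field_simp
  rw [e1, e2]
  have h1 := exp_ge_quad (show 0 ≤ y ^ 2 / 4 by positivity)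
  have h2 := sqrt2_le
  have h3 : (|y| * |3 - y ^ 2|) * Real.sqrt 2 ≤ 10 * Real.exp (y ^ 2 / 4) := by
    have h4 : (|y| * |3 - y ^ 2|) * Real.sqrt 2 ≤ (|y| * |3 - y ^ 2|) * (3 / 2) :=
      mul_le_mul_of_nonneg_left h2 (by positivity)
    have h5 : |y| ^ 2 = y ^ 2 := sq_abs y
    have h6 : |3 - y ^ 2| = |3 - |y| ^ 2| := by rw [h5]
    rw [h6] at h4 ⊢
    have h7 : (y ^ 2 / 4) = |y| ^ 2 / 4 := by rw [h5]
    rw [h7] at h1 ⊢
    obtain ⟨z, hz⟩ : ∃ z, z = |y| := ⟨_, rfl⟩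
    have hz0 : 0 ≤ z := by rw [hz]; exact abs_nonneg y
    rw [← hz] at h1 h4 ⊢
    have h8 : z * |3 - z ^ 2| ≤ 20 / 3 * Real.exp (z ^ 2 / 4) := by
      rw [← abs_of_nonneg hz0, ← abs_mul, abs_of_nonneg hz0, abs_le]
      constructor
      · nlinarith [mul_nonneg hz0 hz0, sq_nonneg (z * (z - 12 / 5)), sq_nonneg z]
      · nlinarith [mul_nonneg hz0 hz0, sq_nonneg (z - 1), sq_nonneg (z ^ 2), pow_nonneg hz0 3]
    linarith
  calc |y| * |3 - y ^ 2| / (r ^ 2 * r) * Real.sqrt 2 =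
      (|y| * |3 - y ^ 2| * Real.sqrt 2) / (r ^ 2 * r) := by ring
    _ ≤ (10 * Real.exp (y ^ 2 / 4)) / (r ^ 2 * r) := div_le_div_of_nonneg_right h3 (by positivity)
    _ = 10 / (r ^ 2 * r) * Real.exp (y ^ 2 / 4) := by ring

theorem abs_gk4_le {t : ℝ} (ht : 0 < t) (x : ℝ) : |gk4 t x| ≤ 10 / t ^ 2 * gk (2 * t) x := by
  unfold gk4
  apply bound_aux ht
  obtain ⟨u, hu⟩ : ∃ u, u = x ^ 2 / (4 * t) := ⟨_, rfl⟩
  have hu0 : 0 ≤ u := by rw [hu]; positivity
  rw [← hu]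
  have hx : x ^ 2 = 4 * t * u := by rw [hu]; field_simp
  have hx4 : x ^ 4 = (4 * t * u) ^ 2 := by rw [← hx]; ring
  rw [hx4, hx]
  have e1 : (4 * t * u) ^ 2 / t ^ 4 - 6 * (4 * t * u) / t ^ 3 + 3 / t ^ 2 =
      (16 * u ^ 2 - 24 * u + 3) / t ^ 2 := by field_simp; ring
  have ht2 : 0 < t ^ 2 := by positivity
  rw [e1, abs_div, abs_of_pos ht2]
  have h1 := exp_ge_quartic hu0
  have h2 := sqrt2_le
  have h3 : |16 * u ^ 2 - 24 * u + 3| * Real.sqrt 2 ≤ 10 * Real.exp u := by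
    have h4 : |16 * u ^ 2 - 24 * u + 3| * Real.sqrt 2 ≤ |16 * u ^ 2 - 24 * u + 3| * (3 / 2) :=
      mul_le_mul_of_nonneg_left h2 (abs_nonneg _)
    have h5 : |16 * u ^ 2 - 24 * u + 3| ≤ 20 / 3 * Real.exp u := by
      rw [abs_le]
      constructor
      · nlinarith [pow_nonneg hu0 2, pow_nonneg hu0 3, pow_nonneg hu0 4, sq_nonneg (u - 1 / 2)]
      · have hg : 0 ≤ (5 / 12) * u ^ 3 + (5 / 3) * u ^ 2 - 19 * u + 46 := by
          nlinarith [mul_nonneg hu0 (sq_nonneg (u - 14 / 5)), sq_nonneg (u - 14 / 5)]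
        have := mul_nonneg hu0 hg
        nlinarith
    linarith
  calc |16 * u ^ 2 - 24 * u + 3| / t ^ 2 * Real.sqrt 2 =
      (|16 * u ^ 2 - 24 * u + 3| * Real.sqrt 2) / t ^ 2 := by ring
    _ ≤ (10 * Real.exp u) / t ^ 2 := div_le_div_of_nonneg_right h3 ht2.le
    _ = 10 / t ^ 2 * Real.exp u := by ring

theorem continuous_gk1 {t : ℝ} (ht : 0 < t) : Continuous (gk1 t) :=
  continuous_iff_continuousAt.mpr fun x => (hasDerivAt_gk1 ht x).continuousAt

theorem abs_gk1_le_const {t : ℝ} (ht : 0 < t) : ∃ C : ℝ, ∀ x, |gk1 t x| ≤ C := by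
  refine ⟨2 / Real.sqrt t * (1 / Real.sqrt (2 * Real.pi * (2 * t))), fun x => ?_⟩
  refine (abs_gk1_le ht x).trans ?_
  refine mul_le_mul_of_nonneg_left ?_ (by positivity)
  unfold gk
  refine div_le_div_of_nonneg_right ?_ (Real.sqrt_nonneg _)
  rw [Real.exp_le_one_iff]
  rw [neg_div]
  have : 0 ≤ x ^ 2 / (2 * (2 * t)) := by positivity
  linarith

/-- triple convolution on the plane `p₀ + p₁ + p₂ = 0`. -/
theorem gk1_triple {t : ℝ} (ht : 0 < t) (x₀ x₁ x₂ : ℝ) :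
    Integrable (fun p : ℝ × ℝ => gk1 t (x₀ - p.1) * gk1 t (x₁ - p.2) * gk1 t (x₂ + p.1 + p.2)) ∧
    ∫ p : ℝ × ℝ, gk1 t (x₀ - p.1) * gk1 t (x₁ - p.2) * gk1 t (x₂ + p.1 + p.2) =
      gk3 (3 * t) (x₀ + x₁ + x₂) := by
  have hc := continuous_gk1 ht
  have hi := integrable_gk1 ht
  have i0 : Integrable (fun p : ℝ => gk1 t (x₀ - p)) := hi.comp_sub_left x₀
  have i1 : Integrable (fun p : ℝ => gk1 t (x₁ - p)) := hi.comp_sub_left x₁
  have i01 : Integrable (fun p : ℝ × ℝ => gk1 t (x₀ - p.1) * gk1 t (x₁ - p.2)) :=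
    i0.mul_prod i1
  obtain ⟨C, hC⟩ := abs_gk1_le_const ht
  have hint : Integrable (fun p : ℝ × ℝ =>
      gk1 t (x₀ - p.1) * gk1 t (x₁ - p.2) * gk1 t (x₂ + p.1 + p.2)) := by
    refine i01.mul_bdd (c := C) ?_ ?_
    · exact (hc.comp ((continuous_const.add continuous_fst).add continuous_snd)).aestronglyMeasurable
    · exact Eventually.of_forall fun p => hC _
  refine ⟨hint, ?_⟩
  have h2 : (volume : Measure (ℝ × ℝ)) = (volume : Measure ℝ).prod (volume : Measure ℝ) := rfl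
  rw [h2, integral_prod _ hint]
  have e1 : ∀ a : ℝ, ∫ b, gk1 t (x₀ - a) * gk1 t (x₁ - b) * gk1 t (x₂ + a + b) =
      gk1 t (x₀ - a) * gk2 (2 * t) (x₁ + x₂ + a) := by
    intro a
    have e2 : ∀ b : ℝ, gk1 t (x₀ - a) * gk1 t (x₁ - b) * gk1 t (x₂ + a + b) =
        gk1 t (x₀ - a) * (fun q => gk1 t (x₁ + x₂ + a - q) * gk1 t q) (b + (x₂ + a)) := by
      intro b
      simp only
      rw [show x₁ + x₂ + a - (b + (x₂ + a)) = x₁ - b by ring,
        show x₂ + a + b = b + (x₂ + a) by ring]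
      ring
    simp_rw [e2]
    rw [integral_const_mul]
    congr 1
    rw [integral_add_right_eq_self (fun q => gk1 t (x₁ + x₂ + a - q) * gk1 t q) (x₂ + a)]
    rw [gk1_conv ht ht]
    congr 1
    ring
  simp_rw [e1]
  have e3 : ∀ a : ℝ, gk1 t (x₀ - a) * gk2 (2 * t) (x₁ + x₂ + a) =
      (fun q => gk1 t (x₀ + x₁ + x₂ - q) * gk2 (2 * t) q) (a + (x₁ + x₂)) := by
    intro a
    simp only
    rw [show x₀ + x₁ + x₂ - (a + (x₁ + x₂)) = x₀ - a by ring,
      show a + (x₁ + x₂) = x₁ + x₂ + a by ring]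
  simp_rw [e3]
  rw [integral_add_right_eq_self (fun q => gk1 t (x₀ + x₁ + x₂ - q) * gk2 (2 * t) q) (x₁ + x₂)]
  rw [gk1_conv_gk2 ht (by positivity)]
  congr 1
  ring

theorem continuousOn_gk : ContinuousOn (fun q : ℝ × ℝ => gk q.1 q.2) (Ioi 0 ×ˢ univ) := by
  unfold gk
  apply ContinuousOn.div
  · apply Real.continuous_exp.comp_continuousOn
    apply ContinuousOn.div
    · exact ((continuous_snd.pow 2).neg).continuousOn
    · exact (continuous_const.mul continuous_fst).continuousOn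
    · rintro ⟨a, b⟩ h
      have : 0 < a := (mem_prod.mp h).1
      simp only
      positivity
  · exact (Real.continuous_sqrt.comp (continuous_const.mul continuous_fst)).continuousOn
  · rintro ⟨a, b⟩ h
    have : 0 < a := (mem_prod.mp h).1
    simp only
    exact ne_of_gt (Real.sqrt_pos.mpr (by positivity))

end Crest.Agent.TH
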