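import Crest.Agent.TH_HL
import Crest.Agent.TH_G1

/-! # TH_Max (task TH-X2): the Gaussian maximal functions -/

set_option autoImplicit false
open MeasureTheory Set Filter
open scoped Topology ENNReal

namespace Crest.Agent.TH

/-- Gaussian maximal function (rational variances). -/
noncomputable def HM (h : ℝ → ℝ≥0∞) (x : ℝ) : ℝ≥0∞ :=
  ⨆ (t : {t : ℚ // 0 < t}), ∫⁻ y, ENNReal.ofReal (gk ((t : ℚ) : ℝ) (x - y)) * h y

/-- in the first, resp. second variable of a function on the plane -/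
noncomputable def HM1 (h : ℝ × ℝ → ℝ≥0∞) (z : ℝ × ℝ) : ℝ≥0∞ := HM (fun x => h (x, z.2)) z.1
noncomputable def HM2 (h : ℝ × ℝ → ℝ≥0∞) (z : ℝ × ℝ) : ℝ≥0∞ := HM (fun y => h (z.1, y)) z.2

/-- all real variances: `gk t ≤ √2 gk t'` for rational `t' ∈ (t, 2t)`. -/
theorem le_HM (h : ℝ → ℝ≥0∞) (x : ℝ) {t : ℝ} (ht : 0 < t) :
    ∫⁻ y, ENNReal.ofReal (gk t (x - y)) * h y ≤ 2 * HM h x := by
  obtain ⟨q, hq1, hq2⟩ := exists_rat_btwn (show t < 2 * t by linarith)
  have hq0 : (0 : ℚ) < q := by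
    have h1 : (0 : ℝ) < (q : ℝ) := ht.trans hq1
    exact_mod_cast h1
  have hpt : ∀ y : ℝ, ENNReal.ofReal (gk t (x - y)) * h y ≤
      2 * (ENNReal.ofReal (gk (q : ℝ) (x - y)) * h y) := by
    intro y
    rw [← mul_assoc]
    refine mul_le_mul_left ?_ _
    have h1 : gk t (x - y) ≤ 2 * gk (q : ℝ) (x - y) := by
      refine (gk_le_scale ht hq1.le (x - y)).trans ?_
      have h2 : Real.sqrt ((q : ℝ) / t) ≤ 2 := by
        rw [Real.sqrt_le_left (by norm_num)]
        rw [div_le_iff₀ ht]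
        linarith
      exact mul_le_mul_of_nonneg_right h2 (gk_pos (ht.trans hq1) _).le
    calc ENNReal.ofReal (gk t (x - y)) ≤ ENNReal.ofReal (2 * gk (q : ℝ) (x - y)) :=
          ENNReal.ofReal_le_ofReal h1
      _ = 2 * ENNReal.ofReal (gk (q : ℝ) (x - y)) := by
          rw [ENNReal.ofReal_mul (by norm_num)]
          norm_num
  calc ∫⁻ y, ENNReal.ofReal (gk t (x - y)) * h y
      ≤ ∫⁻ y, 2 * (ENNReal.ofReal (gk (q : ℝ) (x - y)) * h y) := lintegral_mono hpt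
    _ = 2 * ∫⁻ y, ENNReal.ofReal (gk (q : ℝ) (x - y)) * h y :=
        lintegral_const_mul' _ _ (by norm_num)
    _ ≤ 2 * HM h x := by
        refine mul_le_mul_right ?_ _
        exact le_iSup (fun t : {t : ℚ // 0 < t} =>
          ∫⁻ y, ENNReal.ofReal (gk ((t : ℚ) : ℝ) (x - y)) * h y) ⟨q, hq0⟩

private theorem Max_tendsto_gk {t : ℝ} (ht : 0 < t) : Tendsto (gk t) atTop (𝓝 0) := by
  have h1 : Tendsto (fun x : ℝ => -x ^ 2 / (2 * t)) atTop atBot := by
    have h2 : Tendsto (fun x : ℝ => x ^ 2 / (2 * t)) atTop atTop :=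
      (tendsto_pow_atTop (by norm_num)).atTop_div_const (by positivity)
    have h3 := tendsto_neg_atTop_atBot.comp h2
    refine h3.congr fun x => ?_
    simp only [Function.comp]
    ring
  have h2 := (Real.tendsto_exp_atBot.comp h1).div_const (Real.sqrt (2 * Real.pi * t))
  rw [zero_div] at h2
  exact h2

private theorem Max_tail {t : ℝ} (ht : 0 < t) {s : ℝ} (hs : 0 ≤ s) :
    ∫⁻ r in Ioi s, ENNReal.ofReal (-gk1 t r) = ENNReal.ofReal (gk t s) := by
  have hd : ∀ r ∈ Ioi s, HasDerivAt (fun r => -gk t r) (-gk1 t r) r := fun r _ =>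
    (hasDerivAt_gk ht r).neg
  have hpos : ∀ r ∈ Ioi s, 0 ≤ -gk1 t r := by
    intro r hr
    have hr' : 0 < r := lt_of_le_of_lt hs hr
    unfold gk1
    have h1 := gk_pos ht r
    have h2 : 0 < r / t := div_pos hr' ht
    nlinarith [mul_pos h2 h1]
  have hc : ContinuousWithinAt (fun r => -gk t r) (Ici s) s :=
    ((hasDerivAt_gk ht s).neg).continuousAt.continuousWithinAt
  have hl : Tendsto (fun r => -gk t r) atTop (𝓝 0) := by
    have := (Max_tendsto_gk ht).neg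
    rwa [neg_zero] at this
  have hint := integrableOn_Ioi_deriv_of_nonneg hc hd hpos hl
  have hval := integral_Ioi_of_hasDerivAt_of_nonneg hc hd hpos hl
  rw [← ofReal_integral_eq_lintegral_ofReal hint
    ((ae_restrict_iff' measurableSet_Ioi).mpr (ae_of_all _ hpos)), hval]
  congr 1
  ring

private theorem Max_super {t : ℝ} (ht : 0 < t) {h : ℝ → ℝ≥0∞} (hh : Measurable h) (x : ℝ) :
    ∫⁻ y, ENNReal.ofReal (gk t (x - y)) * h y =
      ∫⁻ r in Ioi (0 : ℝ), ENNReal.ofReal (-gk1 t r) * ∫⁻ y in Ioo (x - r) (x + r), h y := by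
  have hg1m : Measurable (fun r => ENNReal.ofReal (-gk1 t r)) := by
    unfold gk1 gk
    fun_prop
  have h1 : ∀ y : ℝ, ENNReal.ofReal (gk t (x - y)) * h y =
      ∫⁻ r in Ioi (0 : ℝ), ENNReal.ofReal (-gk1 t r) * (if |x - y| < r then h y else 0) := by
    intro y
    have h2 : ∀ r : ℝ, ENNReal.ofReal (-gk1 t r) * (if |x - y| < r then h y else 0) =
        (Ioi |x - y|).indicator (fun r => ENNReal.ofReal (-gk1 t r)) r * h y := by
      intro r
      by_cases hr : |x - y| < r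
      · rw [if_pos hr, Set.indicator_of_mem (by exact hr)]
      · rw [if_neg hr, Set.indicator_of_notMem (by exact hr)]
        simp
    simp only [h2]
    rw [lintegral_mul_const _ (hg1m.indicator measurableSet_Ioi), lintegral_indicator measurableSet_Ioi,
      Measure.restrict_restrict measurableSet_Ioi]
    have h3 : Ioi |x - y| ∩ Ioi (0 : ℝ) = Ioi |x - y| := by
      refine Set.inter_eq_left.mpr fun r hr => ?_
      exact (abs_nonneg (x - y)).trans_lt (Set.mem_Ioi.mp hr)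
    rw [h3, Max_tail ht (abs_nonneg _)]
    congr 2
    rcases abs_choice (x - y) with h4 | h4
    · rw [h4]
    · rw [h4, gk_neg]
  simp only [h1]
  rw [lintegral_lintegral_swap]
  · refine lintegral_congr fun r => ?_
    rw [lintegral_const_mul]
    · congr 1
      rw [← lintegral_indicator measurableSet_Ioo]
      refine lintegral_congr fun y => ?_
      have h5 : (|x - y| < r) ↔ y ∈ Ioo (x - r) (x + r) := by
        rw [abs_lt, Set.mem_Ioo]
        constructor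
        · rintro ⟨ha, hb⟩
          exact ⟨by linarith, by linarith⟩
        · rintro ⟨ha, hb⟩
          exact ⟨by linarith, by linarith⟩
      by_cases hr : |x - y| < r
      · rw [if_pos hr, Set.indicator_of_mem (h5.mp hr)]
      · rw [if_neg hr, Set.indicator_of_notMem (fun h6 => hr (h5.mpr h6))]
    · refine Measurable.ite ?_ hh measurable_const
      exact measurableSet_lt (by fun_prop) measurable_const
  · refine Measurable.aemeasurable ?_
    refine (hg1m.comp measurable_snd).mul ?_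
    refine Measurable.ite ?_ (hh.comp measurable_fst) measurable_const
    exact measurableSet_lt (by fun_prop) measurable_snd

private theorem Max_mass {t : ℝ} (ht : 0 < t) :
    ∫⁻ r in Ioi (0 : ℝ), ENNReal.ofReal (-gk1 t r) * ENNReal.ofReal (2 * r) = 1 := by
  have h1 := Max_super ht (h := fun _ => 1) measurable_const 0
  have h2 : ∫⁻ y : ℝ, ENNReal.ofReal (gk t (0 - y)) * 1 = 1 := by
    simp only [mul_one, zero_sub, gk_neg]
    rw [← ofReal_integral_eq_lintegral_ofReal (integrable_gk ht) (ae_of_all _ fun x => (gk_pos ht x).le),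
      integral_gk ht, ENNReal.ofReal_one]
  rw [h2] at h1
  rw [h1]
  refine lintegral_congr fun r => ?_
  congr 1
  rw [setLIntegral_const, one_mul, Real.volume_Ioo]
  congr 1
  ring

/-- Gaussian averages are superpositions of interval averages:
`gk t x = ∫_0^∞ (-gk1 t r) 1_{|x| < r} dr`, `∫_0^∞ 2 r (-gk1 t r) dr = 1`. -/
theorem HM_le_MH {h : ℝ → ℝ≥0∞} (hh : Measurable h) (x : ℝ) : HM h x ≤ 2 * MH h x := by
  refine iSup_le fun t => ?_
  have ht : (0 : ℝ) < ((t : ℚ) : ℝ) := by exact_mod_cast t.2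
  rw [Max_super ht hh x]
  have hg1m : Measurable (fun r => ENNReal.ofReal (-gk1 ((t : ℚ) : ℝ) r)) := by
    unfold gk1 gk
    fun_prop
  calc ∫⁻ r in Ioi (0 : ℝ), ENNReal.ofReal (-gk1 ((t : ℚ) : ℝ) r) * ∫⁻ y in Ioo (x - r) (x + r), h y
      ≤ ∫⁻ r in Ioi (0 : ℝ), (ENNReal.ofReal (-gk1 ((t : ℚ) : ℝ) r) * ENNReal.ofReal (2 * r)) * (2 * MH h x) := by
        refine setLIntegral_mono' measurableSet_Ioi fun r hr => ?_
        rw [mul_assoc]
        refine mul_le_mul_right ?_ _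
        have hr0 : (0 : ℝ) < r := hr
        obtain ⟨q, hq1, hq2⟩ := exists_rat_btwn (show r < 2 * r by linarith)
        have hq0 : (0 : ℚ) < q := by
          have h1 : (0 : ℝ) < (q : ℝ) := hr0.trans hq1
          exact_mod_cast h1
        have hq0' : (0 : ℝ) < (q : ℝ) := by exact_mod_cast hq0
        have h1 : ∫⁻ y in Ioo (x - r) (x + r), h y ≤ ∫⁻ y in Ioo (x - (q : ℝ)) (x + (q : ℝ)), h y :=
          lintegral_mono_set (Set.Ioo_subset_Ioo (by linarith) (by linarith))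
        have h2 : (ENNReal.ofReal (2 * (q : ℝ)))⁻¹ * ∫⁻ y in Ioo (x - (q : ℝ)) (x + (q : ℝ)), h y ≤ MH h x :=
          le_iSup (fun r : {r : ℚ // 0 < r} => (ENNReal.ofReal (2 * (r : ℚ) : ℝ))⁻¹ *
            ∫⁻ y in Ioo (x - (r : ℚ)) (x + (r : ℚ)), h y) ⟨q, hq0⟩
        have h3 : ENNReal.ofReal (2 * (q : ℝ)) ≠ 0 := by
          rw [ne_eq, ENNReal.ofReal_eq_zero, not_le]
          positivity
        have h4 : ∫⁻ y in Ioo (x - (q : ℝ)) (x + (q : ℝ)), h y ≤ ENNReal.ofReal (2 * (q : ℝ)) * MH h x := by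
          calc ∫⁻ y in Ioo (x - (q : ℝ)) (x + (q : ℝ)), h y
              = ENNReal.ofReal (2 * (q : ℝ)) * ((ENNReal.ofReal (2 * (q : ℝ)))⁻¹ *
                  ∫⁻ y in Ioo (x - (q : ℝ)) (x + (q : ℝ)), h y) := by
                rw [← mul_assoc, ENNReal.mul_inv_cancel h3 ENNReal.ofReal_ne_top, one_mul]
            _ ≤ ENNReal.ofReal (2 * (q : ℝ)) * MH h x := mul_le_mul_right h2 _
        refine h1.trans (h4.trans ?_)
        have h5 : ENNReal.ofReal (2 * (q : ℝ)) ≤ ENNReal.ofReal (2 * r) * 2 := by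
          have h6 : (2 : ℝ≥0∞) = ENNReal.ofReal 2 := by norm_num
          rw [h6, ← ENNReal.ofReal_mul (by positivity)]
          exact ENNReal.ofReal_le_ofReal (by linarith)
        calc ENNReal.ofReal (2 * (q : ℝ)) * MH h x ≤ (ENNReal.ofReal (2 * r) * 2) * MH h x :=
              mul_le_mul_left h5 _
          _ = ENNReal.ofReal (2 * r) * (2 * MH h x) := by rw [mul_assoc]
    _ = (∫⁻ r in Ioi (0 : ℝ), (ENNReal.ofReal (-gk1 ((t : ℚ) : ℝ) r) * ENNReal.ofReal (2 * r))) *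
          (2 * MH h x) := by
        rw [lintegral_mul_const]
        exact hg1m.mul (by fun_prop)
    _ = 2 * MH h x := by rw [Max_mass ht, one_mul]

theorem HM_strong : ∃ C : ℝ≥0∞, C ≠ ⊤ ∧ ∀ (h : ℝ → ℝ≥0∞), Measurable h →
    ∫⁻ x, HM h x ^ (3 / 2 : ℝ) ≤ C * ∫⁻ x, h x ^ (3 / 2 : ℝ) := by
  obtain ⟨C, hC, hmain⟩ := MH_strong
  refine ⟨2 ^ (3 / 2 : ℝ) * C, ENNReal.mul_ne_top (ENNReal.rpow_ne_top_of_nonneg (by norm_num) (by norm_num)) hC,
    fun h hh => ?_⟩
  calc ∫⁻ x, HM h x ^ (3 / 2 : ℝ) ≤ ∫⁻ x, 2 ^ (3 / 2 : ℝ) * MH h x ^ (3 / 2 : ℝ) := by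
        refine lintegral_mono fun x => ?_
        rw [← ENNReal.mul_rpow_of_nonneg _ _ (by norm_num)]
        exact ENNReal.rpow_le_rpow (HM_le_MH hh x) (by norm_num)
    _ = 2 ^ (3 / 2 : ℝ) * ∫⁻ x, MH h x ^ (3 / 2 : ℝ) :=
        lintegral_const_mul' _ _ (ENNReal.rpow_ne_top_of_nonneg (by norm_num) (by norm_num))
    _ ≤ 2 ^ (3 / 2 : ℝ) * (C * ∫⁻ x, h x ^ (3 / 2 : ℝ)) := mul_le_mul_right (hmain h hh) _
    _ = 2 ^ (3 / 2 : ℝ) * C * ∫⁻ x, h x ^ (3 / 2 : ℝ) := by rw [mul_assoc]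

theorem measurable_HM1 {h : ℝ × ℝ → ℝ≥0∞} (hh : Measurable h) : Measurable (HM1 h) := by
  unfold HM1 HM
  refine Measurable.iSup fun t => ?_
  refine Measurable.lintegral_prod_right' (f := fun p : (ℝ × ℝ) × ℝ =>
    ENNReal.ofReal (gk ((t : ℚ) : ℝ) (p.1.1 - p.2)) * h (p.2, p.1.2)) ?_
  refine Measurable.mul ?_ (hh.comp (by fun_prop))
  unfold gk
  fun_prop

theorem measurable_HM2 {h : ℝ × ℝ → ℝ≥0∞} (hh : Measurable h) : Measurable (HM2 h) := by
  unfold HM2 HM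
  refine Measurable.iSup fun t => ?_
  refine Measurable.lintegral_prod_right' (f := fun p : (ℝ × ℝ) × ℝ =>
    ENNReal.ofReal (gk ((t : ℚ) : ℝ) (p.1.2 - p.2)) * h (p.1.1, p.2)) ?_
  refine Measurable.mul ?_ (hh.comp (by fun_prop))
  unfold gk
  fun_prop

theorem HM1_strong : ∃ C : ℝ≥0∞, C ≠ ⊤ ∧ ∀ (h : ℝ × ℝ → ℝ≥0∞), Measurable h →
    ∫⁻ z, HM1 h z ^ (3 / 2 : ℝ) ≤ C * ∫⁻ z, h z ^ (3 / 2 : ℝ) := by
  obtain ⟨C, hC, hmain⟩ := HM_strong
  refine ⟨C, hC, fun h hh => ?_⟩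
  rw [Measure.volume_eq_prod, lintegral_prod_symm' _ ((measurable_HM1 hh).pow_const _),
    lintegral_prod_symm' _ (hh.pow_const _), ← lintegral_const_mul' _ _ hC]
  refine lintegral_mono fun y => ?_
  exact hmain (fun x => h (x, y)) (hh.comp (by fun_prop))

theorem HM2_strong : ∃ C : ℝ≥0∞, C ≠ ⊤ ∧ ∀ (h : ℝ × ℝ → ℝ≥0∞), Measurable h →
    ∫⁻ z, HM2 h z ^ (3 / 2 : ℝ) ≤ C * ∫⁻ z, h z ^ (3 / 2 : ℝ) := by
  obtain ⟨C, hC, hmain⟩ := HM_strong
  refine ⟨C, hC, fun h hh => ?_⟩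
  rw [Measure.volume_eq_prod, lintegral_prod _ ((measurable_HM2 hh).pow_const _).aemeasurable,
    lintegral_prod _ (hh.pow_const _).aemeasurable, ← lintegral_const_mul' _ _ hC]
  refine lintegral_mono fun x => ?_
  exact hmain (fun y => h (x, y)) (hh.comp (by fun_prop))

end Crest.Agent.TH
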