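import Crest.Agent.TH_CDefs
import Crest.Agent.TH_Max

/-! # TH_ADefs: definitions for the parts (A) and (B) -/

set_option autoImplicit false
open Matrix MeasureTheory Set Filter
open scoped Topology ENNReal

namespace Crest.Agent.TH
variable {N : ℕ}

open Classical in
/-- the step function on the plane with value `A a b` on the product of the cells `a`, `b`. -/
noncomputable def cf (η : ℝ) (A : Matrix (Fin (2 * N)) (Fin (2 * N)) ℝ) (z : ℝ × ℝ) : ℝ :=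
  ∑ a, ∑ b, if z.1 ∈ Ico (lft η a) (lft η a + η) ∧ z.2 ∈ Ico (lft η b) (lft η b + η) then A a b else 0

/-- its square, as an extended nonnegative function -/
noncomputable def sq (η : ℝ) (A : Matrix (Fin (2 * N)) (Fin (2 * N)) ℝ) (z : ℝ × ℝ) : ℝ≥0∞ :=
  ENNReal.ofReal (cf η A z ^ 2)

open Classical in
/-- the step function `m(k₂,k₀; r) = ∑_{r_q ≤ r} a_q(k₂,k₀)` -/
noncomputable def mstep {Q n : ℕ} (J : JumpData N Q n) (k₂ k₀ : Fin (2 * N)) (r : ℝ) : ℝ :=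
  ∑ q, if J.r q ≤ r then J.a q k₂ k₀ else 0

/-- `F₂` multiplied by `m(·; √(3τ))` -/
noncomputable def F2t {Q n : ℕ} (J : JumpData N Q n) (F₂ : Matrix (Fin (2 * N)) (Fin (2 * N)) ℝ) (τ : ℝ) :
    Matrix (Fin (2 * N)) (Fin (2 * N)) ℝ :=
  Matrix.of fun k₂ k₀ => F₂ k₂ k₀ * mstep J k₂ k₀ (Real.sqrt (3 * τ))

/-- the maximal expression of the cost: for `z = (x,y)`,
`(HM1 (F²)(-x-y, x) + HM2 (Ĝ²)(x,y))^{1/2} (HM1 (Ĝ²)(x,y))^{1/2}` -/
noncomputable def maxE (η : ℝ) (F Gh : Matrix (Fin (2 * N)) (Fin (2 * N)) ℝ) (z : ℝ × ℝ) : ℝ≥0∞ :=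
  (HM1 (sq η F) (-z.1 - z.2, z.1) + HM2 (sq η Gh) z) ^ (1 / 2 : ℝ) * (HM1 (sq η Gh) z) ^ (1 / 2 : ℝ)

end Crest.Agent.TH
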