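import Crest.Agent.TH_FL3

/-! # TH_Flow (task TH-FL4): the flow inequality -/

set_option autoImplicit false
open Matrix MeasureTheory Set Filter
open scoped Topology ENNReal

namespace Crest.Agent.TH
variable {N : ℕ} {η Λ v : ℝ} (F G : Matrix (Fin (2 * N)) (Fin (2 * N)) ℝ)

private theorem flw_Y1_symm (p₀ t : ℝ) : (Y1 η Λ F p₀ t)ᵀ = Y1 η Λ F p₀ t := by
  unfold Y1
  rw [transpose_mul, transpose_mul, transpose_transpose, diagonal_transpose, Matrix.mul_assoc]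

private theorem flw_V1_symm (p₂ t : ℝ) : (V1 η Λ G p₂ t)ᵀ = V1 η Λ G p₂ t := by
  unfold V1
  rw [transpose_mul, transpose_mul, transpose_transpose, diagonal_transpose, Matrix.mul_assoc]

private theorem flw_Kpsd (hη : 0 < η) (hΛ : 0 < Λ) (p₀ p₂ : ℝ) {t : ℝ} (ht : 0 < t) :
    (K3 η Λ F G p₀ p₂ t).PosSemidef :=
  Kmat_posSemidef F G (fun k => (wt_pos hη p₀ (mul_pos hΛ ht) k).le)
    (fun k => (wt_pos hη p₂ (mul_pos hΛ ht) k).le)

private theorem flw_Wpsd (hη : 0 < η) (hΛ : 0 < Λ) (hv : 0 < v) (p₀ p₁ p₂ : ℝ) {t : ℝ}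
    (ht : 0 < t) : (W3 η Λ v F G p₀ p₁ p₂ t).PosSemidef :=
  Wmat_posSemidef hv (fun k => wt_pos hη p₁ ht k) (flw_Kpsd F G hη hΛ p₀ p₂ ht)

private theorem flw_Mpsd (hη : 0 < η) (hΛ : 0 < Λ) (hv : 0 < v) (p₀ p₁ p₂ : ℝ) {t : ℝ}
    (ht : 0 < t) : (M3 η Λ v F G p₀ p₁ p₂ t).PosSemidef :=
  Mmat_posSemidef hv (fun k => wt_pos hη p₁ ht k) (flw_Kpsd F G hη hΛ p₀ p₂ ht)

section flwalg
variable {ι : Type*} [Fintype ι] [DecidableEq ι]

private theorem flw_WZWZ {W Z : Matrix ι ι ℝ} (hW : W.PosSemidef) (hZ : Zᵀ = Z) :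
    0 ≤ (W * Z * W * Z).trace := by
  have h := trace_SXSY_nonneg hZ hW hW
  have e : (W * Z * W * Z).trace = (Z * W * Z * W).trace := by
    rw [Matrix.mul_assoc, Matrix.mul_assoc, Matrix.trace_mul_comm]
    simp only [Matrix.mul_assoc]
  rwa [e]

private theorem flw_cyc (A B C D : Matrix ι ι ℝ) :
    (A * B * C * D).trace = (C * D * A * B).trace := by
  rw [Matrix.mul_assoc (A * B) C D, Matrix.trace_mul_comm, ← Matrix.mul_assoc]

private theorem flw_abs {W Y V : Matrix ι ι ℝ} (hW : W.PosSemidef) (hY : Yᵀ = Y) (hV : Vᵀ = V) :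
    |(W * Y * W * V).trace| ≤ ((W * Y * W * Y).trace + (W * V * W * V).trace) / 2 := by
  have h1 := flw_WZWZ hW (Z := Y + V) (by rw [transpose_add, hY, hV])
  have h2 := flw_WZWZ hW (Z := Y - V) (by rw [transpose_sub, hY, hV])
  have e1 : (W * (Y + V) * W * (Y + V)).trace = (W * Y * W * Y).trace + (W * V * W * V).trace +
      2 * (W * Y * W * V).trace := by
    have : W * (Y + V) * W * (Y + V) = W * Y * W * Y + W * V * W * V + W * Y * W * V +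
        W * V * W * Y := by
      simp only [Matrix.mul_add, Matrix.add_mul]
      abel
    rw [this, trace_add, trace_add, trace_add, flw_cyc W V W Y]
    ring
  have e2 : (W * (Y - V) * W * (Y - V)).trace = (W * Y * W * Y).trace + (W * V * W * V).trace -
      2 * (W * Y * W * V).trace := by
    have : W * (Y - V) * W * (Y - V) = W * Y * W * Y + W * V * W * V - W * Y * W * V -
        W * V * W * Y := by
      simp only [Matrix.mul_sub, Matrix.sub_mul]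
      abel
    rw [this, trace_sub, trace_sub, trace_add, flw_cyc W V W Y]
    ring
  rw [e1] at h1
  rw [e2] at h2
  rw [abs_le]
  constructor <;> linarith

private theorem flw_mono {W W' Z : Matrix ι ι ℝ} (hW : W.PosSemidef)
    (hWW : (W' - W).PosSemidef) (hZ : Zᵀ = Z) :
    (W * Z * W * Z).trace ≤ (W' * Z * W' * Z).trace := by
  have h := trace_SXSY_mono hZ hW hW hWW hWW
  have e : ∀ W : Matrix ι ι ℝ, (W * Z * W * Z).trace = (Z * W * Z * W).trace := by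
    intro W
    rw [Matrix.mul_assoc, Matrix.mul_assoc, Matrix.trace_mul_comm]
    simp only [Matrix.mul_assoc]
  rw [e, e]
  exact h

end flwalg

/-- `|D02| ≤ (D00 + D22)/2`: with `X = 𝒲^{1/2} Y1 𝒲^{1/2}`, `Y = 𝒲^{1/2} V1 𝒲^{1/2}`. -/
theorem abs_D02_le (hη : 0 < η) (hΛ : 0 < Λ) (hv : 0 < v) (p₀ p₁ p₂ : ℝ) {t : ℝ} (ht : 0 < t) :
    |D02 η Λ v F G p₀ p₁ p₂ t| ≤ (D00 η Λ v F G p₀ p₁ p₂ t + D22 η Λ v F G p₀ p₁ p₂ t) / 2 := by
  have h := flw_abs (flw_Wpsd F G hη hΛ hv p₀ p₁ p₂ ht) (flw_Y1_symm (η := η) (Λ := Λ) F p₀ t)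
    (flw_V1_symm (η := η) (Λ := Λ) G p₂ t)
  unfold D02 D00 D22
  have hv2 : 0 ≤ v ^ 2 := sq_nonneg v
  rw [abs_mul, abs_of_nonneg hv2, ← mul_add, mul_div_assoc]
  exact mul_le_mul_of_nonneg_left h hv2

/-- `0 ≤ D00(F,G) ≤ D00(F,0)`: `Wmat_anti` and `trace_SXSY_mono`. -/
theorem D00_le (hη : 0 < η) (hΛ : 0 < Λ) (hv : 0 < v) (p₀ p₁ p₂ : ℝ) {t : ℝ} (ht : 0 < t) :
    0 ≤ D00 η Λ v F G p₀ p₁ p₂ t ∧ D00 η Λ v F G p₀ p₁ p₂ t ≤ D00 η Λ v F 0 p₀ p₁ p₂ t := by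
  have hs : 0 < Λ * t := mul_pos hΛ ht
  have hv2 : 0 ≤ v ^ 2 := sq_nonneg v
  have hW := flw_Wpsd F G hη hΛ hv p₀ p₁ p₂ ht
  have hY := flw_Y1_symm (η := η) (Λ := Λ) F p₀ t
  refine ⟨mul_nonneg hv2 (flw_WZWZ hW hY), mul_le_mul_of_nonneg_left ?_ hv2⟩
  refine flw_mono hW ?_ hY
  refine Wmat_anti hv (fun k => wt_pos hη p₁ ht k) (flw_Kpsd F 0 hη hΛ p₀ p₂ ht) ?_
  have h1 := Kmat_posSemidef 0 G (w₀ := wt η p₀ (Λ * t)) (w₂ := wt η p₂ (Λ * t))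
    (fun k => (wt_pos hη p₀ hs k).le) (fun k => (wt_pos hη p₂ hs k).le)
  have e : K3 η Λ F G p₀ p₂ t - K3 η Λ F 0 p₀ p₂ t =
      Kmat 0 G (wt η p₀ (Λ * t)) (wt η p₂ (Λ * t)) := by
    unfold K3 Kmat
    simp
  rw [e]
  exact h1

theorem D22_le (hη : 0 < η) (hΛ : 0 < Λ) (hv : 0 < v) (p₀ p₁ p₂ : ℝ) {t : ℝ} (ht : 0 < t) :
    0 ≤ D22 η Λ v F G p₀ p₁ p₂ t ∧ D22 η Λ v F G p₀ p₁ p₂ t ≤ D22 η Λ v 0 G p₀ p₁ p₂ t := by
  have hs : 0 < Λ * t := mul_pos hΛ ht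
  have hv2 : 0 ≤ v ^ 2 := sq_nonneg v
  have hW := flw_Wpsd F G hη hΛ hv p₀ p₁ p₂ ht
  have hV := flw_V1_symm (η := η) (Λ := Λ) G p₂ t
  refine ⟨mul_nonneg hv2 (flw_WZWZ hW hV), mul_le_mul_of_nonneg_left ?_ hv2⟩
  refine flw_mono hW ?_ hV
  refine Wmat_anti hv (fun k => wt_pos hη p₁ ht k) (flw_Kpsd 0 G hη hΛ p₀ p₂ ht) ?_
  have h1 := Kmat_posSemidef F 0 (w₀ := wt η p₀ (Λ * t)) (w₂ := wt η p₂ (Λ * t))
    (fun k => (wt_pos hη p₀ hs k).le) (fun k => (wt_pos hη p₂ hs k).le)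
  have e : K3 η Λ F G p₀ p₂ t - K3 η Λ 0 G p₀ p₂ t =
      Kmat F 0 (wt η p₀ (Λ * t)) (wt η p₂ (Λ * t)) := by
    unfold K3 Kmat
    simp
  rw [e]
  exact h1

theorem D11_nonneg (hη : 0 < η) (hΛ : 0 < Λ) (hv : 0 < v) (p₀ p₁ p₂ : ℝ) {t : ℝ} (ht : 0 < t) :
    0 ≤ D11 η Λ v F G p₀ p₁ p₂ t := by
  refine mul_nonneg (sq_nonneg v) ?_
  exact trace_SXSY_nonneg (diagonal_transpose _) (flw_Mpsd F G hη hΛ hv p₀ p₁ p₂ ht)
    (flw_Mpsd F G hη hΛ hv p₀ p₁ p₂ ht)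

/-- `gainD = D11`, `potF = Pot3` on the plane (definitional) -/
theorem gainD_eq (p₀ p₁ t : ℝ) : gainD η Λ v F G p₀ p₁ t = D11 η Λ v F G p₀ p₁ (-p₀ - p₁) t := by
  rfl

theorem potF_eq (p₀ p₁ t : ℝ) : potF η Λ v F G p₀ p₁ t = Pot3 η Λ v F G p₀ p₁ (-p₀ - p₁) t := by
  rfl

theorem potT_integrable (hη : 0 < η) (hΛ : 0 < Λ) (hv : 0 < v) {t : ℝ} (ht : 0 < t) :
    Integrable (fun p : ℝ × ℝ => potT η Λ v F G p.1 p.2 t) := by
  have h1 := (flow_integrable F G hη hΛ hv ht).1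
  have h2 := (flow_integrable F 0 hη hΛ hv ht).1
  have h3 := (flow_integrable 0 G hη hΛ hv ht).1
  exact (h1.add (h2.div_const 2)).add (h3.div_const 2)

theorem potT_nonneg (hη : 0 < η) (hΛ : 0 < Λ) (hv : 0 < v) (p₀ p₁ : ℝ) {t : ℝ} (ht : 0 < t) :
    0 ≤ potT η Λ v F G p₀ p₁ t := by
  have h : ∀ F G : Matrix (Fin (2 * N)) (Fin (2 * N)) ℝ, 0 ≤ potF η Λ v F G p₀ p₁ t := fun F G =>
    pot_diag_nonneg hv (fun k => wt_pos hη p₁ ht k) (flw_Kpsd F G hη hΛ p₀ (-p₀ - p₁) ht)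
  unfold potT
  have h1 := h F G
  have h2 := h F 0
  have h3 := h 0 G
  linarith

/-- the integrand of `potential_difference` -/
private noncomputable def flA (η Λ v : ℝ) (F G : Matrix (Fin (2 * N)) (Fin (2 * N)) ℝ) (t : ℝ)
    (p : ℝ × ℝ) : ℝ :=
  ((2 * Λ + 1) * D02 η Λ v F G p.1 p.2 (-p.1 - p.2) t -
    Λ * D00 η Λ v F G p.1 p.2 (-p.1 - p.2) t - Λ * D22 η Λ v F G p.1 p.2 (-p.1 - p.2) t -
    D11 η Λ v F G p.1 p.2 (-p.1 - p.2) t) / 2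

private theorem flA_integrable (hη : 0 < η) (hΛ : 0 < Λ) (hv : 0 < v) {t : ℝ} (ht : 0 < t) :
    Integrable (flA η Λ v F G t) := by
  obtain ⟨-, h00, h02, h22, h11, -⟩ := flow_integrable F G hη hΛ hv ht
  exact ((((h02.const_mul (2 * Λ + 1)).sub (h00.const_mul Λ)).sub (h22.const_mul Λ)).sub
    h11).div_const 2

private theorem flA_cont (hη : 0 < η) (hΛ : 0 < Λ) (hv : 0 < v) {t₁ t₂ : ℝ} (h₁ : 0 < t₁)
    (h₁₂ : t₁ ≤ t₂) : ContinuousOn (fun t => ∫ p, flA η Λ v F G t p) (Icc t₁ t₂) := by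
  obtain ⟨C, hC0, hC⟩ := flow_bounds F G hη hΛ hv h₁ h₁₂
  obtain ⟨-, -, -, -, c00, c02, c22, c11, -⟩ := flow_continuous (N := N) F G hη hΛ hv
  refine continuousOn_of_dominated (bound := fun p : ℝ × ℝ =>
    ((2 * Λ + 1) * (C * Env p.1 p.2) + Λ * (C * Env p.1 p.2) + Λ * (C * Env p.1 p.2) +
      C * Env p.1 p.2) / 2) ?_ ?_ ?_ ?_
  · intro t ht
    exact (flA_integrable F G hη hΛ hv (h₁.trans_le ht.1)).aestronglyMeasurable
  · intro t ht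
    refine Eventually.of_forall fun p => ?_
    obtain ⟨-, -, -, -, b00, b02, b22, b11, -⟩ := hC t ht p.1 p.2
    have hΛ1 : 0 ≤ 2 * Λ + 1 := by linarith
    unfold flA
    rw [Real.norm_eq_abs, abs_div, abs_of_pos (show (0 : ℝ) < 2 by norm_num)]
    refine div_le_div_of_nonneg_right ?_ (by norm_num)
    refine (abs_sub _ _).trans (add_le_add ((abs_sub _ _).trans (add_le_add ((abs_sub _ _).trans
      (add_le_add ?_ ?_)) ?_)) b11)
    · rw [abs_mul, abs_of_nonneg hΛ1]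
      exact mul_le_mul_of_nonneg_left b02 hΛ1
    · rw [abs_mul, abs_of_pos hΛ]
      exact mul_le_mul_of_nonneg_left b00 hΛ.le
    · rw [abs_mul, abs_of_pos hΛ]
      exact mul_le_mul_of_nonneg_left b22 hΛ.le
  · have hE := Env_integrable.const_mul C
    exact ((((hE.const_mul (2 * Λ + 1)).add (hE.const_mul Λ)).add (hE.const_mul Λ)).add
      hE).div_const 2
  · refine Eventually.of_forall fun p => ?_
    have hcomp : ∀ {f : (ℝ × ℝ) × ℝ → ℝ}, ContinuousOn f (univ ×ˢ Ioi 0) →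
        ContinuousOn (fun t => f (p, t)) (Icc t₁ t₂) := by
      intro f hf
      refine hf.comp (continuous_const.prodMk continuous_id).continuousOn ?_
      intro t ht
      exact ⟨mem_univ _, h₁.trans_le ht.1⟩
    have k00 := hcomp c00
    have k02 := hcomp c02
    have k22 := hcomp c22
    have k11 := hcomp c11
    exact ((((k02.const_mul (2 * Λ + 1)).sub (k00.const_mul Λ)).sub (k22.const_mul Λ)).sub
      k11).div_const 2

private theorem flA_F0 (hη : 0 < η) (hΛ : 0 < Λ) (hv : 0 < v) {t : ℝ} (ht : 0 < t) (p : ℝ × ℝ) :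
    flA η Λ v F (0 : Matrix (Fin (2 * N)) (Fin (2 * N)) ℝ) t p ≤
      -(Λ * D00 η Λ v F G p.1 p.2 (-p.1 - p.2) t) / 2 := by
  have hV : V1 η Λ (0 : Matrix (Fin (2 * N)) (Fin (2 * N)) ℝ) (-p.1 - p.2) t = 0 := by
    unfold V1; simp
  have h02 : D02 η Λ v F 0 p.1 p.2 (-p.1 - p.2) t = 0 := by
    unfold D02; rw [hV]; simp
  have h22 : D22 η Λ v F 0 p.1 p.2 (-p.1 - p.2) t = 0 := by
    unfold D22; rw [hV]; simp
  have h11 := D11_nonneg F 0 hη hΛ hv p.1 p.2 (-p.1 - p.2) ht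
  have h00 := (D00_le F G hη hΛ hv p.1 p.2 (-p.1 - p.2) ht).2
  have h := mul_le_mul_of_nonneg_left h00 hΛ.le
  unfold flA
  rw [h02, h22]
  linarith

private theorem flA_0G (hη : 0 < η) (hΛ : 0 < Λ) (hv : 0 < v) {t : ℝ} (ht : 0 < t) (p : ℝ × ℝ) :
    flA η Λ v (0 : Matrix (Fin (2 * N)) (Fin (2 * N)) ℝ) G t p ≤
      -(Λ * D22 η Λ v F G p.1 p.2 (-p.1 - p.2) t) / 2 := by
  have hY : Y1 η Λ (0 : Matrix (Fin (2 * N)) (Fin (2 * N)) ℝ) p.1 t = 0 := by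
    unfold Y1; simp
  have h02 : D02 η Λ v 0 G p.1 p.2 (-p.1 - p.2) t = 0 := by
    unfold D02; rw [hY]; simp
  have h00 : D00 η Λ v 0 G p.1 p.2 (-p.1 - p.2) t = 0 := by
    unfold D00; rw [hY]; simp
  have h11 := D11_nonneg 0 G hη hΛ hv p.1 p.2 (-p.1 - p.2) ht
  have h22 := (D22_le F G hη hΛ hv p.1 p.2 (-p.1 - p.2) ht).2
  have h := mul_le_mul_of_nonneg_left h22 hΛ.le
  unfold flA
  rw [h02, h00]
  linarith

private theorem flA_sum (hη : 0 < η) (hΛ : 1 ≤ Λ) (hv : 0 < v) {t : ℝ} (ht : 0 < t) (p : ℝ × ℝ) :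
    D11 η Λ v F G p.1 p.2 (-p.1 - p.2) t ≤ 2 * -(flA η Λ v F G t p + flA η Λ v F 0 t p / 2 +
      flA η Λ v 0 G t p / 2) := by
  have hΛ0 : 0 < Λ := by linarith
  have h1 := flA_F0 F G hη hΛ0 hv ht p
  have h2 := flA_0G F G hη hΛ0 hv ht p
  have h3 := abs_D02_le F G hη hΛ0 hv p.1 p.2 (-p.1 - p.2) ht
  have h4 := (D00_le F G hη hΛ0 hv p.1 p.2 (-p.1 - p.2) ht).1
  have h5 := (D22_le F G hη hΛ0 hv p.1 p.2 (-p.1 - p.2) ht).1
  have h6 := le_trans (le_abs_self _) h3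
  have h7 : (2 * Λ + 1) * D02 η Λ v F G p.1 p.2 (-p.1 - p.2) t ≤
      (2 * Λ + 1) * ((D00 η Λ v F G p.1 p.2 (-p.1 - p.2) t +
        D22 η Λ v F G p.1 p.2 (-p.1 - p.2) t) / 2) :=
    mul_le_mul_of_nonneg_left h6 (by linarith)
  have h8 : 0 ≤ (Λ - 1) * (D00 η Λ v F G p.1 p.2 (-p.1 - p.2) t +
        D22 η Λ v F G p.1 p.2 (-p.1 - p.2) t) := mul_nonneg (by linarith) (by linarith)
  have h9 : flA η Λ v F G t p = ((2 * Λ + 1) * D02 η Λ v F G p.1 p.2 (-p.1 - p.2) t -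
    Λ * D00 η Λ v F G p.1 p.2 (-p.1 - p.2) t - Λ * D22 η Λ v F G p.1 p.2 (-p.1 - p.2) t -
    D11 η Λ v F G p.1 p.2 (-p.1 - p.2) t) / 2 := rfl
  rw [h9]
  nlinarith [h1, h2, h7, h8]

/-- **Flow inequality.**  Add `potential_difference` for `(F,G)` and half of it for `(F,0)` and `(0,G)`
(where `D02 = 0`, `D22 = 0`, resp. `D00 = 0`); by `abs_D02_le`, `D00_le`, `D22_le` and `Λ ≥ 1`,
`(2Λ+1) |D02| ≤ (3Λ/2)(D00 + D22) ≤ Λ (D00 + D22) + (Λ/2)(D00(F,0) + D22(0,G))`, so the integrand is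
`≤ - D11(F,G)/2`. -/
theorem flow_static (hη : 0 < η) (hΛ : 1 ≤ Λ) (hv : 0 < v) {t₁ t₂ : ℝ} (h₁ : 0 < t₁) (h₁₂ : t₁ ≤ t₂) :
    ∫⁻ t in Ioc t₁ t₂, ∫⁻ p : ℝ × ℝ, ENNReal.ofReal (gainD η Λ v F G p.1 p.2 t) ≤
      ENNReal.ofReal (2 * ((∫ p : ℝ × ℝ, potT η Λ v F G p.1 p.2 t₁) -
        ∫ p : ℝ × ℝ, potT η Λ v F G p.1 p.2 t₂)) := by
  have hΛ0 : 0 < Λ := by linarith
  have h₂ : 0 < t₂ := h₁.trans_le h₁₂
  set g : ℝ → ℝ := fun t => -((∫ p, flA η Λ v F G t p) + (∫ p, flA η Λ v F 0 t p) / 2 +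
    (∫ p, flA η Λ v 0 G t p) / 2) with hg
  have c1 := flA_cont F G hη hΛ0 hv h₁ h₁₂
  have c2 := flA_cont F 0 hη hΛ0 hv h₁ h₁₂
  have c3 := flA_cont 0 G hη hΛ0 hv h₁ h₁₂
  have hgc : ContinuousOn g (Icc t₁ t₂) := ((c1.add (c2.div_const 2)).add (c3.div_const 2)).neg
  -- pointwise in time
  have hle : ∀ t, 0 < t → ∫ p : ℝ × ℝ, D11 η Λ v F G p.1 p.2 (-p.1 - p.2) t ≤ 2 * g t := by
    intro t ht
    have i1 := flA_integrable F G hη hΛ0 hv ht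
    have i2 := flA_integrable F 0 hη hΛ0 hv ht
    have i3 := flA_integrable 0 G hη hΛ0 hv ht
    have i12 : Integrable (fun p => flA η Λ v F G t p + flA η Λ v F 0 t p / 2) :=
      i1.add (i2.div_const 2)
    have i123 : Integrable (fun p => flA η Λ v F G t p + flA η Λ v F 0 t p / 2 +
      flA η Λ v 0 G t p / 2) := i12.add (i3.div_const 2)
    have e : 2 * g t = ∫ p, 2 * -(flA η Λ v F G t p + flA η Λ v F 0 t p / 2 +
        flA η Λ v 0 G t p / 2) := by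
      rw [integral_const_mul, integral_neg, integral_add i12 (i3.div_const 2),
        integral_add i1 (i2.div_const 2), integral_div, integral_div]
    rw [e]
    exact integral_mono (flow_integrable F G hη hΛ0 hv ht).2.2.2.2.1 (i123.neg.const_mul 2)
      (fun p => flA_sum F G hη hΛ hv ht p)
  have hnn : ∀ t, 0 < t → 0 ≤ ∫ p : ℝ × ℝ, D11 η Λ v F G p.1 p.2 (-p.1 - p.2) t := fun t ht =>
    integral_nonneg fun p => D11_nonneg F G hη hΛ0 hv p.1 p.2 (-p.1 - p.2) ht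
  -- integral of `g`
  have hint : ∫ t in t₁..t₂, g t = (∫ p : ℝ × ℝ, potT η Λ v F G p.1 p.2 t₁) -
        ∫ p : ℝ × ℝ, potT η Λ v F G p.1 p.2 t₂ := by
    have q1 := c1.intervalIntegrable_of_Icc (μ := volume) h₁₂
    have q2 := c2.intervalIntegrable_of_Icc (μ := volume) h₁₂
    have q3 := c3.intervalIntegrable_of_Icc (μ := volume) h₁₂
    have d1 := potential_difference F G hη hΛ0 hv h₁ h₁₂
    have d2 := potential_difference F 0 hη hΛ0 hv h₁ h₁₂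
    have d3 := potential_difference 0 G hη hΛ0 hv h₁ h₁₂
    have hpot : ∀ t, 0 < t → ∫ p : ℝ × ℝ, potT η Λ v F G p.1 p.2 t =
        (∫ p : ℝ × ℝ, Pot3 η Λ v F G p.1 p.2 (-p.1 - p.2) t) +
        (∫ p : ℝ × ℝ, Pot3 η Λ v F 0 p.1 p.2 (-p.1 - p.2) t) / 2 +
        (∫ p : ℝ × ℝ, Pot3 η Λ v 0 G p.1 p.2 (-p.1 - p.2) t) / 2 := by
      intro t ht
      have j1 := (flow_integrable F G hη hΛ0 hv ht).1
      have j2 := (flow_integrable F 0 hη hΛ0 hv ht).1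
      have j3 := (flow_integrable 0 G hη hΛ0 hv ht).1
      have j12 : Integrable (fun p : ℝ × ℝ => Pot3 η Λ v F G p.1 p.2 (-p.1 - p.2) t +
        Pot3 η Λ v F 0 p.1 p.2 (-p.1 - p.2) t / 2) := j1.add (j2.div_const 2)
      have e : ∀ p : ℝ × ℝ, potT η Λ v F G p.1 p.2 t = Pot3 η Λ v F G p.1 p.2 (-p.1 - p.2) t +
        Pot3 η Λ v F 0 p.1 p.2 (-p.1 - p.2) t / 2 +
        Pot3 η Λ v 0 G p.1 p.2 (-p.1 - p.2) t / 2 := fun p => rfl
      simp_rw [e]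
      rw [integral_add j12 (j3.div_const 2), integral_add j1 (j2.div_const 2), integral_div,
        integral_div]
    rw [hpot t₁ h₁, hpot t₂ h₂]
    have q12 := q1.add (q2.div_const 2)
    have e1 : ∫ t in t₁..t₂, g t = -((∫ t in t₁..t₂, ∫ p, flA η Λ v F G t p) +
        (∫ t in t₁..t₂, ∫ p, flA η Λ v F 0 t p) / 2 +
        (∫ t in t₁..t₂, ∫ p, flA η Λ v 0 G t p) / 2) := by
      rw [hg, intervalIntegral.integral_neg, intervalIntegral.integral_add q12 (q3.div_const 2),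
        intervalIntegral.integral_add q1 (q2.div_const 2), intervalIntegral.integral_div,
        intervalIntegral.integral_div]
    have f1 : (∫ t in t₁..t₂, ∫ p, flA η Λ v F G t p) =
      (∫ p : ℝ × ℝ, Pot3 η Λ v F G p.1 p.2 (-p.1 - p.2) t₂) -
        (∫ p : ℝ × ℝ, Pot3 η Λ v F G p.1 p.2 (-p.1 - p.2) t₁) := d1.symm
    have f2 : (∫ t in t₁..t₂, ∫ p, flA η Λ v F 0 t p) =
      (∫ p : ℝ × ℝ, Pot3 η Λ v F 0 p.1 p.2 (-p.1 - p.2) t₂) -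
        (∫ p : ℝ × ℝ, Pot3 η Λ v F 0 p.1 p.2 (-p.1 - p.2) t₁) := d2.symm
    have f3 : (∫ t in t₁..t₂, ∫ p, flA η Λ v 0 G t p) =
      (∫ p : ℝ × ℝ, Pot3 η Λ v 0 G p.1 p.2 (-p.1 - p.2) t₂) -
        (∫ p : ℝ × ℝ, Pot3 η Λ v 0 G p.1 p.2 (-p.1 - p.2) t₁) := d3.symm
    rw [e1, f1, f2, f3]
    ring
  -- conclusion
  have hIoc : ∀ t ∈ Ioc t₁ t₂, 0 < t := fun t ht => h₁.trans ht.1
  have hgI : IntegrableOn (fun t => 2 * g t) (Ioc t₁ t₂) :=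
    ((hgc.integrableOn_Icc).mono_set Ioc_subset_Icc_self).const_mul 2
  calc ∫⁻ t in Ioc t₁ t₂, ∫⁻ p : ℝ × ℝ, ENNReal.ofReal (gainD η Λ v F G p.1 p.2 t)
      ≤ ∫⁻ t in Ioc t₁ t₂, ENNReal.ofReal (2 * g t) := by
        refine setLIntegral_mono' measurableSet_Ioc fun t ht => ?_
        have ht0 := hIoc t ht
        have e : ∫⁻ p : ℝ × ℝ, ENNReal.ofReal (gainD η Λ v F G p.1 p.2 t) =
            ENNReal.ofReal (∫ p : ℝ × ℝ, D11 η Λ v F G p.1 p.2 (-p.1 - p.2) t) := by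
          rw [ofReal_integral_eq_lintegral_ofReal (flow_integrable F G hη hΛ0 hv ht0).2.2.2.2.1
            (Eventually.of_forall fun p => D11_nonneg F G hη hΛ0 hv p.1 p.2 (-p.1 - p.2) ht0)]
          rfl
        rw [e]
        exact ENNReal.ofReal_le_ofReal (hle t ht0)
    _ = ENNReal.ofReal (∫ t in Ioc t₁ t₂, 2 * g t) := by
        rw [ofReal_integral_eq_lintegral_ofReal hgI]
        refine (ae_restrict_iff' measurableSet_Ioc).2 (Eventually.of_forall fun t ht => ?_)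
        exact (hnn t (hIoc t ht)).trans (hle t (hIoc t ht))
    _ = ENNReal.ofReal (2 * ((∫ p : ℝ × ℝ, potT η Λ v F G p.1 p.2 t₁) -
        ∫ p : ℝ × ℝ, potT η Λ v F G p.1 p.2 t₂)) := by
        rw [integral_const_mul, ← intervalIntegral.integral_of_le h₁₂, hint]

end Crest.Agent.TH
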