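import Crest.Agent.TH_Cost
import Crest.Agent.TH_ADefs
import Crest.Agent.TH_Flow

/-! # TH_A6 (task TH-A7): the integrated cost and the initial energy -/

set_option autoImplicit false
open Matrix MeasureTheory Set Filter
open scoped Topology ENNReal

namespace Crest.Agent.TH
variable {N : ℕ} {η Λ : ℝ}

private theorem A6_wt_cont {t : ℝ} (ht : 0 < t) (k : Fin (2 * N)) :
    Continuous (fun p => wt η p t k) :=
  continuous_iff_continuousAt.2 fun p => (hasDerivAt_wt_p p ht k).continuousAt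

private theorem A6_H_cont (hΛ : 0 < Λ) (F G : Matrix (Fin (2 * N)) (Fin (2 * N)) ℝ) {t : ℝ}
    (ht : 0 < t) :
    Continuous (fun p : ℝ × ℝ => diagonal (wt η p.2 t) * Kf η Λ F G p.1 p.2 t) := by
  have h1 : Continuous (fun p : ℝ × ℝ => (wt η p.2 t : Fin (2 * N) → ℝ)) :=
    continuous_pi fun k => (A6_wt_cont ht k).comp continuous_snd
  have h0 : Continuous (fun p : ℝ × ℝ => (wt η p.1 (Λ * t) : Fin (2 * N) → ℝ)) :=
    continuous_pi fun k => (A6_wt_cont (mul_pos hΛ ht) k).comp continuous_fst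
  have h2 : Continuous (fun p : ℝ × ℝ => (wt η (-p.1 - p.2) (Λ * t) : Fin (2 * N) → ℝ)) :=
    continuous_pi fun k => (A6_wt_cont (mul_pos hΛ ht) k).comp
      (continuous_fst.neg.sub continuous_snd)
  unfold Kf Kmat
  exact h1.matrix_diagonal.matrix_mul
    (((continuous_const.matrix_mul h0.matrix_diagonal).matrix_mul continuous_const).add
      ((continuous_const.matrix_mul h2.matrix_diagonal).matrix_mul continuous_const))

private theorem A6_potF_meas (hΛ : 0 < Λ) (F G : Matrix (Fin (2 * N)) (Fin (2 * N)) ℝ) {t : ℝ}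
    (ht : 0 < t) :
    Measurable (fun q : ℝ × (ℝ × ℝ) => potF η Λ q.1 F G q.2.1 q.2.2 t) := by
  have hH := A6_H_cont (η := η) hΛ F G ht
  have h1 : Measurable fun q : ℝ × (ℝ × ℝ) =>
      (diagonal (wt η q.2.2 t) * Kf η Λ F G q.2.1 q.2.2 t).trace :=
    (hH.comp continuous_snd).matrix_trace.measurable
  have h2 : Continuous fun q : ℝ × (ℝ × ℝ) =>
      (1 + q.1 • (diagonal (wt η q.2.2 t) * Kf η Λ F G q.2.1 q.2.2 t)).det :=
    (continuous_const.add (continuous_fst.smul (hH.comp continuous_snd))).matrix_det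
  have h3 : Measurable fun q : ℝ × (ℝ × ℝ) =>
      (1 + (q.1 ^ 2)⁻¹ • (diagonal (wt η q.2.2 t) * Kf η Λ F G q.2.1 q.2.2 t)).det :=
    h2.measurable.comp (((measurable_fst.pow_const 2).inv).prodMk measurable_snd)
  unfold potF pot
  exact h1.sub ((measurable_fst.pow_const 2).mul h3.log)

private theorem A6_potT_meas (hΛ : 0 < Λ) (F G : Matrix (Fin (2 * N)) (Fin (2 * N)) ℝ) {t : ℝ}
    (ht : 0 < t) :
    Measurable (fun q : ℝ × (ℝ × ℝ) => potT η Λ q.1 F G q.2.1 q.2.2 t) := by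
  unfold potT
  exact ((A6_potF_meas hΛ F G ht).add ((A6_potF_meas hΛ F 0 ht).div_const 2)).add
    ((A6_potF_meas hΛ 0 G ht).div_const 2)

private theorem A6_jensen {ι : Type*} (s : Finset ι) (w z : ι → ℝ) (hw : ∀ i ∈ s, 0 ≤ w i)
    (hw1 : ∑ i ∈ s, w i ≤ 1) (hz : ∀ i ∈ s, 0 ≤ z i) :
    (∑ i ∈ s, w i * z i) ^ (3 / 2 : ℝ) ≤ ∑ i ∈ s, w i * z i ^ (3 / 2 : ℝ) := by
  set W := ∑ i ∈ s, w i with hW
  have hW0 : 0 ≤ W := Finset.sum_nonneg hw
  have hS0 : 0 ≤ ∑ i ∈ s, w i * z i ^ (3 / 2 : ℝ) :=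
    Finset.sum_nonneg fun i hi => mul_nonneg (hw i hi) (Real.rpow_nonneg (hz i hi) _)
  rcases hW0.eq_or_lt with h0 | h0
  · have h1 : ∀ i ∈ s, w i = 0 := (Finset.sum_eq_zero_iff_of_nonneg hw).1 (hW ▸ h0.symm)
    rw [Finset.sum_eq_zero fun i hi => by rw [h1 i hi, zero_mul],
      Real.zero_rpow (by norm_num)]
    exact hS0
  · have h1 := Real.rpow_arith_mean_le_arith_mean_rpow s (fun i => w i / W) z
      (fun i hi => div_nonneg (hw i hi) hW0) (by rw [← Finset.sum_div]; exact div_self h0.ne') hz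
      (p := (3 / 2 : ℝ)) (by norm_num)
    have h2 : ∑ i ∈ s, w i / W * z i = (∑ i ∈ s, w i * z i) / W := by
      rw [Finset.sum_div]
      exact Finset.sum_congr rfl fun i _ => by ring
    have h3 : ∑ i ∈ s, w i / W * z i ^ (3 / 2 : ℝ) = (∑ i ∈ s, w i * z i ^ (3 / 2 : ℝ)) / W := by
      rw [Finset.sum_div]
      exact Finset.sum_congr rfl fun i _ => by ring
    rw [h2, h3] at h1
    have h4 : 0 ≤ ∑ i ∈ s, w i * z i := Finset.sum_nonneg fun i hi => mul_nonneg (hw i hi) (hz i hi)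
    rw [Real.div_rpow h4 hW0, div_le_div_iff₀ (Real.rpow_pos_of_pos h0 _) h0] at h1
    have h5 : W ^ (3 / 2 : ℝ) ≤ W := by
      have := Real.rpow_le_rpow_of_exponent_ge h0 hw1 (show (1 : ℝ) ≤ 3 / 2 by norm_num)
      rwa [Real.rpow_one] at this
    have h6 : (∑ i ∈ s, w i * z i) ^ (3 / 2 : ℝ) * W ≤ (∑ i ∈ s, w i * z i ^ (3 / 2 : ℝ)) * W :=
      h1.trans (mul_le_mul_of_nonneg_left h5 hS0)
    exact le_of_mul_le_mul_right h6 h0

private theorem A6_add_rpow {a b : ℝ} (ha : 0 ≤ a) (hb : 0 ≤ b) :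
    (a + b) ^ (3 / 2 : ℝ) ≤ 3 / 2 * (a ^ (3 / 2 : ℝ) + b ^ (3 / 2 : ℝ)) := by
  have h0 := Real.rpow_arith_mean_le_arith_mean_rpow (Finset.univ : Finset (Fin 2))
    (fun _ => 1 / 2) ![a, b] (fun i _ => by norm_num) (by norm_num)
    (fun i _ => by fin_cases i <;> simpa) (p := (3 / 2 : ℝ)) (by norm_num)
  have h1 : (1 / 2 * a + 1 / 2 * b) ^ (3 / 2 : ℝ) ≤
      1 / 2 * a ^ (3 / 2 : ℝ) + 1 / 2 * b ^ (3 / 2 : ℝ) := by
    simpa [Fin.sum_univ_two] using h0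
  have h2 : (a + b) ^ (3 / 2 : ℝ) = 2 ^ (3 / 2 : ℝ) * (1 / 2 * a + 1 / 2 * b) ^ (3 / 2 : ℝ) := by
    rw [← Real.mul_rpow (by norm_num) (by positivity)]
    congr 1
    ring
  have h3 : (2 : ℝ) ^ (3 / 2 : ℝ) = 2 * Real.sqrt 2 := by
    rw [show (3 / 2 : ℝ) = 1 + 1 / 2 by norm_num, Real.rpow_add (by norm_num), Real.rpow_one,
      Real.sqrt_eq_rpow]
  have h4 := sqrt2_le
  have h5 : 0 ≤ a ^ (3 / 2 : ℝ) + b ^ (3 / 2 : ℝ) :=
    add_nonneg (Real.rpow_nonneg ha _) (Real.rpow_nonneg hb _)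
  have h6 : 0 ≤ Real.sqrt 2 := Real.sqrt_nonneg 2
  rw [h2, h3]
  calc 2 * Real.sqrt 2 * (1 / 2 * a + 1 / 2 * b) ^ (3 / 2 : ℝ) ≤
      2 * Real.sqrt 2 * (1 / 2 * a ^ (3 / 2 : ℝ) + 1 / 2 * b ^ (3 / 2 : ℝ)) :=
        mul_le_mul_of_nonneg_left h1 (by positivity)
    _ = Real.sqrt 2 * (a ^ (3 / 2 : ℝ) + b ^ (3 / 2 : ℝ)) := by ring
    _ ≤ _ := mul_le_mul_of_nonneg_right h4 h5

private theorem A6_cube (x : ℝ) : (x ^ 2) ^ (3 / 2 : ℝ) = |x| ^ 3 := by
  rw [← sq_abs, ← Real.rpow_natCast |x| 2, ← Real.rpow_mul (abs_nonneg x), ← Real.rpow_natCast |x| 3]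
  norm_num

private theorem A6_jensen2 {ι κ : Type*} [Fintype ι] [Fintype κ] {u : ι → ℝ} {w : κ → ℝ}
    (hu : ∀ i, 0 < u i) (hw : ∀ j, 0 < w j) (hu1 : ∑ i, u i ≤ 1) (hw1 : ∑ j, w j ≤ 1)
    (A : ι → κ → ℝ) :
    (∑ i, ∑ j, u i * w j * A i j ^ 2) ^ (3 / 2 : ℝ) ≤ ∑ i, ∑ j, u i * w j * |A i j| ^ 3 := by
  have h1 := A6_jensen (Finset.univ ×ˢ Finset.univ : Finset (ι × κ)) (fun x => u x.1 * w x.2)
    (fun x => A x.1 x.2 ^ 2) (fun x _ => (mul_pos (hu x.1) (hw x.2)).le) (by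
      rw [Finset.sum_product]
      simp only [← Finset.mul_sum]
      rw [← Finset.sum_mul]
      exact mul_le_one₀ hu1 (Finset.sum_nonneg fun j _ => (hw j).le) hw1) (fun x _ => sq_nonneg _)
  rw [Finset.sum_product, Finset.sum_product] at h1
  simp only [A6_cube] at h1
  exact h1

private theorem A6_lin3 {f g h : ℝ → ℝ} {s : Set ℝ} (hf : IntegrableOn f s) (hg : IntegrableOn g s)
    (hh : IntegrableOn h s) : ∫ v in s, (f v + g v / 2 + h v / 2) =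
      (∫ v in s, f v) + (∫ v in s, g v) / 2 + (∫ v in s, h v) / 2 := by
  have h1 := integral_add (hf.add (hg.div_const 2)) (hh.div_const 2)
  simp only [Pi.add_apply] at h1
  rw [h1, integral_add hf (hg.div_const 2), integral_div, integral_div]

private theorem A6_pt (hη : 0 < η) (hΛ : 0 < Λ) (F G : Matrix (Fin (2 * N)) (Fin (2 * N)) ℝ) {t : ℝ}
    (ht : 0 < t) (p₀ p₁ : ℝ) :
    IntegrableOn (fun v => potT η Λ v F G p₀ p₁ t) (Ioi 0) ∧
    ∫ v in Ioi (0 : ℝ), potT η Λ v F G p₀ p₁ t ≤ 2 * Real.pi / 3 *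
      ((∑ k, ∑ i, wt η p₀ (Λ * t) k * wt η p₁ t i * |F k i| ^ 3) +
        ∑ i, ∑ j, wt η p₁ t i * wt η (-p₀ - p₁) (Λ * t) j * |G i j| ^ 3) := by
  have hΛt : 0 < Λ * t := mul_pos hΛ ht
  have w0 : ∀ k : Fin (2 * N), 0 < wt η p₀ (Λ * t) k := fun k => wt_pos hη p₀ hΛt k
  have w1 : ∀ k : Fin (2 * N), 0 < wt η p₁ t k := fun k => wt_pos hη p₁ ht k
  have w2 : ∀ k : Fin (2 * N), 0 < wt η (-p₀ - p₁) (Λ * t) k := fun k => wt_pos hη (-p₀ - p₁) hΛt k
  obtain ⟨i1, b1⟩ := pot_integral_weights F G w0 w1 w2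
  obtain ⟨i2, b2⟩ := pot_integral_weights F 0 w0 w1 w2
  obtain ⟨i3, b3⟩ := pot_integral_weights 0 G w0 w1 w2
  have j1 := A6_jensen2 w0 w1 (sum_wt_le_one hη p₀ hΛt) (sum_wt_le_one hη p₁ ht) (fun k i => F k i)
  have j2 := A6_jensen2 w1 w2 (sum_wt_le_one hη p₁ ht) (sum_wt_le_one hη (-p₀ - p₁) hΛt)
    (fun k i => G k i)
  simp only [Matrix.zero_apply, ne_eq, OfNat.ofNat_ne_zero, not_false_eq_true, zero_pow, mul_zero,
    Finset.sum_const_zero, add_zero, zero_add] at b2 b3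
  set SF := ∑ k, ∑ i, wt η p₀ (Λ * t) k * wt η p₁ t i * F k i ^ 2 with hSF
  set SG := ∑ i, ∑ j, wt η p₁ t i * wt η (-p₀ - p₁) (Λ * t) j * G i j ^ 2 with hSG
  have hSF0 : 0 ≤ SF := Finset.sum_nonneg fun k _ => Finset.sum_nonneg fun i _ =>
    mul_nonneg (mul_pos (w0 k) (w1 i)).le (sq_nonneg _)
  have hSG0 : 0 ≤ SG := Finset.sum_nonneg fun k _ => Finset.sum_nonneg fun i _ =>
    mul_nonneg (mul_pos (w1 k) (w2 i)).le (sq_nonneg _)
  have k1 := A6_add_rpow hSF0 hSG0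
  refine ⟨(i1.add (i2.div_const 2)).add (i3.div_const 2), ?_⟩
  have e1 : ∫ v in Ioi (0 : ℝ), potT η Λ v F G p₀ p₁ t =
      (∫ v in Ioi (0 : ℝ), pot v (diagonal (wt η p₁ t) *
        Kmat F G (wt η p₀ (Λ * t)) (wt η (-p₀ - p₁) (Λ * t)))) +
      (∫ v in Ioi (0 : ℝ), pot v (diagonal (wt η p₁ t) *
        Kmat F 0 (wt η p₀ (Λ * t)) (wt η (-p₀ - p₁) (Λ * t)))) / 2 +
      (∫ v in Ioi (0 : ℝ), pot v (diagonal (wt η p₁ t) *
        Kmat 0 G (wt η p₀ (Λ * t)) (wt η (-p₀ - p₁) (Λ * t)))) / 2 := by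
    exact A6_lin3 i1 i2 i3
  rw [e1]
  have hpi := Real.pi_pos
  set a := SF ^ (3 / 2 : ℝ)
  set b := SG ^ (3 / 2 : ℝ)
  have hm : Real.pi / 3 * (SF + SG) ^ (3 / 2 : ℝ) ≤ Real.pi / 3 * (3 / 2 * (a + b)) :=
    mul_le_mul_of_nonneg_left k1 (by positivity)
  have hm2 : 2 * Real.pi / 3 * (a + b) ≤ 2 * Real.pi / 3 *
      ((∑ k, ∑ i, wt η p₀ (Λ * t) k * wt η p₁ t i * |F k i| ^ 3) +
        ∑ i, ∑ j, wt η p₁ t i * wt η (-p₀ - p₁) (Λ * t) j * |G i j| ^ 3) :=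
    mul_le_mul_of_nonneg_left (add_le_add j1 j2) (by positivity)
  refine le_trans ?_ hm2
  linarith

/-- the bound of `A6_pt` is integrable with integral `2π/3 (n3 F + n3 G)`. -/
private theorem A6_B (hη : 0 < η) (hΛ : 0 < Λ) (F G : Matrix (Fin (2 * N)) (Fin (2 * N)) ℝ) {t : ℝ}
    (ht : 0 < t) :
    Integrable (fun p : ℝ × ℝ => 2 * Real.pi / 3 *
      ((∑ k, ∑ i, wt η p.1 (Λ * t) k * wt η p.2 t i * |F k i| ^ 3) +
        ∑ i, ∑ j, wt η p.2 t i * wt η (-p.1 - p.2) (Λ * t) j * |G i j| ^ 3)) ∧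
    ∫ p : ℝ × ℝ, 2 * Real.pi / 3 *
      ((∑ k, ∑ i, wt η p.1 (Λ * t) k * wt η p.2 t i * |F k i| ^ 3) +
        ∑ i, ∑ j, wt η p.2 t i * wt η (-p.1 - p.2) (Λ * t) j * |G i j| ^ 3) =
      2 * Real.pi / 3 * (n3 η F + n3 η G) := by
  have hΛt : 0 < Λ * t := mul_pos hΛ ht
  have h1 := fun k i : Fin (2 * N) => integral_wt_wt (N := N) hη hΛt ht k i
  have h2 := fun k i : Fin (2 * N) => integral_wt_wt' (N := N) hη ht hΛt k i
  have i1 : Integrable (fun p : ℝ × ℝ => ∑ k, ∑ i, wt η p.1 (Λ * t) k * wt η p.2 t i * |F k i| ^ 3) :=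
    integrable_finsetSum _ fun k _ => integrable_finsetSum _ fun i _ => (h1 k i).1.mul_const _
  have i2 : Integrable (fun p : ℝ × ℝ =>
      ∑ i, ∑ j, wt η p.2 t i * wt η (-p.1 - p.2) (Λ * t) j * |G i j| ^ 3) :=
    integrable_finsetSum _ fun k _ => integrable_finsetSum _ fun i _ => (h2 k i).1.mul_const _
  refine ⟨(i1.add i2).const_mul _, ?_⟩
  rw [integral_const_mul]
  congr 1
  rw [integral_add i1 i2]
  congr 1
  · rw [integral_finsetSum _ fun k _ => integrable_finsetSum _ fun i _ => (h1 k i).1.mul_const _]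
    unfold n3
    rw [Finset.mul_sum]
    refine Finset.sum_congr rfl fun k _ => ?_
    rw [integral_finsetSum _ fun i _ => (h1 k i).1.mul_const _, Finset.mul_sum]
    refine Finset.sum_congr rfl fun i _ => ?_
    rw [integral_mul_const, (h1 k i).2]
  · rw [integral_finsetSum _ fun k _ => integrable_finsetSum _ fun i _ => (h2 k i).1.mul_const _]
    unfold n3
    rw [Finset.mul_sum]
    refine Finset.sum_congr rfl fun k _ => ?_
    rw [integral_finsetSum _ fun i _ => (h2 k i).1.mul_const _, Finset.mul_sum]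
    refine Finset.sum_congr rfl fun i _ => ?_
    rw [integral_mul_const, (h2 k i).2]

/-- `potT` is integrable on `(0,∞) × ℝ²`. -/
private theorem A6_int (hη : 0 < η) (hΛ : 0 < Λ) (F G : Matrix (Fin (2 * N)) (Fin (2 * N)) ℝ) {t : ℝ}
    (ht : 0 < t) :
    Integrable (fun q : ℝ × (ℝ × ℝ) => potT η Λ q.1 F G q.2.1 q.2.2 t)
      ((volume.restrict (Ioi 0)).prod volume) := by
  rw [integrable_prod_iff' (A6_potT_meas hΛ F G ht).aestronglyMeasurable]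
  refine ⟨Eventually.of_forall fun p => (A6_pt hη hΛ F G ht p.1 p.2).1, ?_⟩
  refine Integrable.mono' (A6_B hη hΛ F G ht).1 ?_ ?_
  · exact ((A6_potT_meas hΛ F G ht).norm.stronglyMeasurable.integral_prod_left'
      (f := fun q : ℝ × (ℝ × ℝ) => ‖potT η Λ q.1 F G q.2.1 q.2.2 t‖)).aestronglyMeasurable
  · refine Eventually.of_forall fun p => ?_
    have e1 : ∫ v in Ioi (0 : ℝ), ‖potT η Λ v F G p.1 p.2 t‖ = ∫ v in Ioi (0 : ℝ), potT η Λ v F G p.1 p.2 t := by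
      refine setIntegral_congr_fun measurableSet_Ioi fun v hv => ?_
      show ‖potT η Λ v F G p.1 p.2 t‖ = potT η Λ v F G p.1 p.2 t
      rw [Real.norm_eq_abs, abs_of_nonneg (potT_nonneg F G hη hΛ hv p.1 p.2 ht)]
    rw [e1, Real.norm_eq_abs, abs_of_nonneg]
    · exact (A6_pt hη hΛ F G ht p.1 p.2).2
    · exact setIntegral_nonneg measurableSet_Ioi fun v hv => potT_nonneg F G hη hΛ hv p.1 p.2 ht

/-! ### Gaussian integrals -/

private theorem A6_cgk (t : ℝ) : Continuous (gk t) := by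
  unfold gk
  fun_prop

private theorem A6_mgk (t : ℝ) : Measurable (fun x => ENNReal.ofReal (gk t x)) :=
  (A6_cgk t).measurable.ennreal_ofReal

private theorem A6_gk_le {t : ℝ} (ht : 0 < t) (x : ℝ) : gk t x ≤ 1 / Real.sqrt (2 * Real.pi * t) := by
  unfold gk
  refine div_le_div_of_nonneg_right ?_ (Real.sqrt_nonneg _)
  rw [Real.exp_le_one_iff]
  have : 0 ≤ x ^ 2 / (2 * t) := by positivity
  have h : -x ^ 2 / (2 * t) = -(x ^ 2 / (2 * t)) := by ring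
  rw [h]
  linarith

private theorem A6_E0 {s : ℝ} (hs : 0 < s) : ∫⁻ a, ENNReal.ofReal (gk s a) = 1 := by
  rw [← ofReal_integral_eq_lintegral_ofReal (integrable_gk hs)
    (ae_of_all _ fun x => (gk_pos hs x).le), integral_gk hs, ENNReal.ofReal_one]

private theorem A6_E0a {s : ℝ} (hs : 0 < s) (c : ℝ) : ∫⁻ a, ENNReal.ofReal (gk s (c + a)) = 1 := by
  rw [lintegral_add_left_eq_self (fun a => ENNReal.ofReal (gk s a)) c, A6_E0 hs]

private theorem A6_E0b {s : ℝ} (hs : 0 < s) (c : ℝ) : ∫⁻ a, ENNReal.ofReal (gk s (c - a)) = 1 := by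
  rw [lintegral_sub_left_eq_self (fun a => ENNReal.ofReal (gk s a)) c, A6_E0 hs]

private theorem A6_conv {s τ : ℝ} (hs : 0 < s) (hτ : 0 < τ) (x : ℝ) :
    ∫⁻ y, ENNReal.ofReal (gk s (x - y)) * ENNReal.ofReal (gk τ y) = ENNReal.ofReal (gk (s + τ) x) := by
  have h1 : ∀ y, ENNReal.ofReal (gk s (x - y)) * ENNReal.ofReal (gk τ y) =
      ENNReal.ofReal (gk s (x - y) * gk τ y) := fun y => by
    rw [ENNReal.ofReal_mul (gk_pos hs _).le]
  simp only [h1]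
  have hI : Integrable (fun y => gk s (x - y) * gk τ y) := by
    refine (integrable_gk hτ).bdd_mul (c := 1 / Real.sqrt (2 * Real.pi * s)) ?_ ?_
    · exact ((A6_cgk s).comp (continuous_const.sub continuous_id)).aestronglyMeasurable
    · refine ae_of_all _ fun y => ?_
      rw [Real.norm_eq_abs, abs_of_nonneg (gk_pos hs _).le]
      exact A6_gk_le hs _
  rw [← ofReal_integral_eq_lintegral_ofReal hI
    (ae_of_all _ fun y => (mul_pos (gk_pos hs _) (gk_pos hτ _)).le), gk_conv hs hτ]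

private theorem A6_E1 {s τ : ℝ} (hs : 0 < s) (hτ : 0 < τ) (c d : ℝ) :
    ∫⁻ a, ENNReal.ofReal (gk s (c - a)) * ENNReal.ofReal (gk τ (d + a)) =
      ENNReal.ofReal (gk (s + τ) (c + d)) := by
  have h := lintegral_add_left_eq_self (μ := (volume : Measure ℝ))
    (fun y => ENNReal.ofReal (gk s (c + d - y)) * ENNReal.ofReal (gk τ y)) d
  rw [A6_conv hs hτ (c + d)] at h
  rw [← h]
  refine lintegral_congr fun a => ?_
  have e : c + d - (d + a) = c - a := by ring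
  rw [e]

private theorem A6_E2 {s τ : ℝ} (hs : 0 < s) (hτ : 0 < τ) (c d : ℝ) :
    ∫⁻ a, ENNReal.ofReal (gk s (c + a)) * ENNReal.ofReal (gk τ (d + a)) =
      ENNReal.ofReal (gk (s + τ) (c - d)) := by
  have h := A6_E1 hs hτ (-c) d
  rw [← gk_neg (s + τ) (-c + d)] at h
  have e : -(-c + d) = c - d := by ring
  rw [e] at h
  rw [← h]
  refine lintegral_congr fun a => ?_
  rw [← gk_neg s (c + a)]
  congr 3
  ring

private theorem A6_E3 {s τ : ℝ} (hs : 0 < s) (hτ : 0 < τ) (c d : ℝ) :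
    ∫⁻ a, ENNReal.ofReal (gk s (c - a)) * ENNReal.ofReal (gk τ (d - a)) =
      ENNReal.ofReal (gk (s + τ) (c - d)) := by
  have h := A6_E1 hs hτ c (-d)
  rw [← sub_eq_add_neg] at h
  rw [← h]
  refine lintegral_congr fun a => ?_
  rw [← gk_neg τ (d - a)]
  congr 3
  ring

private theorem A6_C1 (hΛ : 0 < Λ) {t : ℝ} (ht : 0 < t) (x y x₀ : ℝ) :
    ∫⁻ p : ℝ × ℝ, (ENNReal.ofReal (gk t (x - p.2)) * ENNReal.ofReal (gk (Λ * t) (y - (-p.1 - p.2)))) *
        ENNReal.ofReal (gk (Λ * t) (x₀ - p.1)) =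
      ENNReal.ofReal (gk (t + (Λ * t + Λ * t)) ((-x - y) - x₀)) := by
  have hΛt : 0 < Λ * t := mul_pos hΛ ht
  have hm : Measurable (fun p : ℝ × ℝ => (ENNReal.ofReal (gk t (x - p.2)) *
      ENNReal.ofReal (gk (Λ * t) (y - (-p.1 - p.2)))) * ENNReal.ofReal (gk (Λ * t) (x₀ - p.1))) :=
    (((A6_mgk t).comp (by fun_prop)).mul ((A6_mgk _).comp (by fun_prop))).mul
      ((A6_mgk _).comp (by fun_prop))
  rw [Measure.volume_eq_prod, lintegral_prod_symm' _ hm]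
  have h1 : ∀ b : ℝ, ∫⁻ a : ℝ, (ENNReal.ofReal (gk t (x - b)) *
      ENNReal.ofReal (gk (Λ * t) (y - (-a - b)))) * ENNReal.ofReal (gk (Λ * t) (x₀ - a)) =
      ENNReal.ofReal (gk t (x - b)) * ENNReal.ofReal (gk (Λ * t + Λ * t) ((x₀ + y) + b)) := by
    intro b
    have h2 := A6_E1 hΛt hΛt x₀ (y + b)
    have e : x₀ + (y + b) = (x₀ + y) + b := by ring
    rw [e] at h2
    rw [← h2, ← lintegral_const_mul' _ _ ENNReal.ofReal_ne_top]
    refine lintegral_congr fun a => ?_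
    rw [mul_assoc]
    congr 1
    rw [mul_comm]
    congr 3
    ring
  simp only [h1]
  rw [A6_E1 ht (add_pos hΛt hΛt), ← gk_neg]
  congr 2
  ring

private theorem A6_C2 (hΛ : 0 < Λ) {t : ℝ} (ht : 0 < t) (x y y' : ℝ) :
    ∫⁻ p : ℝ × ℝ, (ENNReal.ofReal (gk t (x - p.2)) * ENNReal.ofReal (gk (Λ * t) (y - (-p.1 - p.2)))) *
        ENNReal.ofReal (gk (Λ * t) (y' - (-p.1 - p.2))) =
      ENNReal.ofReal (gk (Λ * t + Λ * t) (y - y')) := by
  have hΛt : 0 < Λ * t := mul_pos hΛ ht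
  have hm : Measurable (fun p : ℝ × ℝ => (ENNReal.ofReal (gk t (x - p.2)) *
      ENNReal.ofReal (gk (Λ * t) (y - (-p.1 - p.2)))) *
      ENNReal.ofReal (gk (Λ * t) (y' - (-p.1 - p.2)))) :=
    (((A6_mgk t).comp (by fun_prop)).mul ((A6_mgk _).comp (by fun_prop))).mul
      ((A6_mgk _).comp (by fun_prop))
  rw [Measure.volume_eq_prod, lintegral_prod_symm' _ hm]
  have h1 : ∀ b : ℝ, ∫⁻ a : ℝ, (ENNReal.ofReal (gk t (x - b)) *
      ENNReal.ofReal (gk (Λ * t) (y - (-a - b)))) * ENNReal.ofReal (gk (Λ * t) (y' - (-a - b))) =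
      ENNReal.ofReal (gk t (x - b)) * ENNReal.ofReal (gk (Λ * t + Λ * t) (y - y')) := by
    intro b
    have h2 := A6_E2 hΛt hΛt (y + b) (y' + b)
    have e : (y + b) - (y' + b) = y - y' := by ring
    rw [e] at h2
    rw [← h2, ← lintegral_const_mul' _ _ ENNReal.ofReal_ne_top]
    refine lintegral_congr fun a => ?_
    rw [mul_assoc]
    have e1 : y - (-a - b) = y + b + a := by ring
    have e2 : y' - (-a - b) = y' + b + a := by ring
    rw [e1, e2]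
  simp only [h1]
  rw [lintegral_mul_const' _ _ ENNReal.ofReal_ne_top, A6_E0b ht, one_mul]

private theorem A6_C3 (hΛ : 0 < Λ) {t : ℝ} (ht : 0 < t) (x y x' : ℝ) :
    ∫⁻ p : ℝ × ℝ, (ENNReal.ofReal (gk t (x - p.2)) * ENNReal.ofReal (gk (Λ * t) (y - (-p.1 - p.2)))) *
        ENNReal.ofReal (gk t (x' - p.2)) =
      ENNReal.ofReal (gk (t + t) (x - x')) := by
  have hΛt : 0 < Λ * t := mul_pos hΛ ht
  have hm : Measurable (fun p : ℝ × ℝ => (ENNReal.ofReal (gk t (x - p.2)) *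
      ENNReal.ofReal (gk (Λ * t) (y - (-p.1 - p.2)))) *
      ENNReal.ofReal (gk t (x' - p.2))) :=
    (((A6_mgk t).comp (by fun_prop)).mul ((A6_mgk _).comp (by fun_prop))).mul
      ((A6_mgk _).comp (by fun_prop))
  rw [Measure.volume_eq_prod, lintegral_prod_symm' _ hm]
  have h1 : ∀ b : ℝ, ∫⁻ a : ℝ, (ENNReal.ofReal (gk t (x - b)) *
      ENNReal.ofReal (gk (Λ * t) (y - (-a - b)))) * ENNReal.ofReal (gk t (x' - b)) =
      ENNReal.ofReal (gk t (x - b)) * ENNReal.ofReal (gk t (x' - b)) := by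
    intro b
    rw [lintegral_mul_const' _ _ ENNReal.ofReal_ne_top, lintegral_const_mul' _ _ ENNReal.ofReal_ne_top]
    have e1 : ∀ a : ℝ, y - (-a - b) = y + b + a := fun a => by ring
    simp only [e1]
    rw [A6_E0a hΛt, mul_one]
  simp only [h1]
  exact A6_E3 ht ht x x'

/-! ### cells -/

private theorem A6_cell (hη : 0 < η) {x : ℝ} (a b : Fin (2 * N))
    (ha : x ∈ Ico (lft η a) (lft η a + η)) (hb : x ∈ Ico (lft η b) (lft η b + η)) : a = b := by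
  obtain ⟨h1, h2⟩ := ha
  obtain ⟨h3, h4⟩ := hb
  unfold lft at h1 h2 h3 h4
  have h5 : (((a : ℕ) : ℝ) - N) * η < (((b : ℕ) : ℝ) + 1 - N) * η := by linarith
  have h6 : (((b : ℕ) : ℝ) - N) * η < (((a : ℕ) : ℝ) + 1 - N) * η := by linarith
  have h7 := lt_of_mul_lt_mul_right h5 hη.le
  have h8 := lt_of_mul_lt_mul_right h6 hη.le
  have h9 : (a : ℕ) < (b : ℕ) + 1 := by
    have : ((a : ℕ) : ℝ) < ((b : ℕ) : ℝ) + 1 := by linarith
    exact_mod_cast this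
  have h10 : (b : ℕ) < (a : ℕ) + 1 := by
    have : ((b : ℕ) : ℝ) < ((a : ℕ) : ℝ) + 1 := by linarith
    exact_mod_cast this
  exact Fin.ext (by omega)

private theorem A6_one {ι : Type*} [Fintype ι] {P : ι → Prop} [DecidablePred P] (hP : ∀ a b, P a → P b → a = b)
    {M M' : Type*} [AddCommMonoid M] [AddCommMonoid M'] (φ : M → M') (h0 : φ 0 = 0) (v : ι → M) :
    φ (∑ a, if P a then v a else 0) = ∑ a, if P a then φ (v a) else 0 := by
  by_cases h : ∃ a, P a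
  · obtain ⟨a, ha⟩ := h
    rw [Finset.sum_eq_single a, Finset.sum_eq_single a, if_pos ha, if_pos ha]
    · intro b _ hb
      rw [if_neg (fun h => hb (hP b a h ha))]
    · intro h
      exact absurd (Finset.mem_univ a) h
    · intro b _ hb
      rw [if_neg (fun h => hb (hP b a h ha))]
    · intro h
      exact absurd (Finset.mem_univ a) h
  · push Not at h
    simp [h, h0]

open Classical in
private theorem A6_cf (A : Matrix (Fin (2 * N)) (Fin (2 * N)) ℝ) (z : ℝ × ℝ) :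
    cf η A z = ∑ a, if z.1 ∈ Ico (lft η a) (lft η a + η) then
      (∑ b, if z.2 ∈ Ico (lft η b) (lft η b + η) then A a b else 0) else 0 := by
  unfold cf
  refine Finset.sum_congr rfl fun a _ => ?_
  split_ifs with h
  · exact Finset.sum_congr rfl fun b _ => by simp only [h, true_and]
  · simp only [h, false_and, if_false, Finset.sum_const_zero]

open Classical in
private theorem A6_phi (hη : 0 < η) (A : Matrix (Fin (2 * N)) (Fin (2 * N)) ℝ) (z : ℝ × ℝ)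
    {M' : Type*} [AddCommMonoid M'] (φ : ℝ → M') (h0 : φ 0 = 0) :
    φ (cf η A z) = ∑ a, ∑ b, if z ∈ Ico (lft η a) (lft η a + η) ×ˢ Ico (lft η b) (lft η b + η) then
      φ (A a b) else 0 := by
  rw [A6_cf]
  refine (A6_one (P := fun a : Fin (2 * N) => z.1 ∈ Ico (lft η a) (lft η a + η))
    (fun a b => A6_cell hη a b) φ h0
    (fun a => ∑ b, if z.2 ∈ Ico (lft η b) (lft η b + η) then A a b else 0)).trans ?_
  refine Finset.sum_congr rfl fun a _ => ?_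
  by_cases h : z.1 ∈ Ico (lft η a) (lft η a + η)
  · rw [if_pos h]
    refine (A6_one (P := fun b : Fin (2 * N) => z.2 ∈ Ico (lft η b) (lft η b + η))
      (fun a b => A6_cell hη a b) φ h0 (fun b => A a b)).trans ?_
    refine Finset.sum_congr rfl fun b _ => ?_
    simp only [Set.mem_prod, h, true_and]
  · rw [if_neg h]
    simp only [Set.mem_prod, h, false_and, if_false, Finset.sum_const_zero]

open Classical in
private theorem A6_sq2 (hη : 0 < η) (A : Matrix (Fin (2 * N)) (Fin (2 * N)) ℝ) {x y : ℝ}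
    {b : Fin (2 * N)} (hy : y ∈ Ico (lft η b) (lft η b + η)) :
    sq η A (x, y) = ∑ a, if x ∈ Ico (lft η a) (lft η a + η) then ENNReal.ofReal (A a b ^ 2) else 0 := by
  unfold sq
  rw [A6_phi hη A (x, y) (fun r => ENNReal.ofReal (r ^ 2)) (by norm_num)]
  refine Finset.sum_congr rfl fun a _ => ?_
  rw [Finset.sum_eq_single b]
  · simp only [Set.mem_prod, hy, and_true]
  · intro b' _ hb'
    rw [if_neg]
    rintro ⟨_, h⟩
    exact hb' (A6_cell hη b' b h hy)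
  · intro h
    exact absurd (Finset.mem_univ b) h

open Classical in
private theorem A6_sq1 (hη : 0 < η) (A : Matrix (Fin (2 * N)) (Fin (2 * N)) ℝ) {x y : ℝ}
    {a : Fin (2 * N)} (hx : x ∈ Ico (lft η a) (lft η a + η)) :
    sq η A (x, y) = ∑ b, if y ∈ Ico (lft η b) (lft η b + η) then ENNReal.ofReal (A a b ^ 2) else 0 := by
  unfold sq
  rw [A6_phi hη A (x, y) (fun r => ENNReal.ofReal (r ^ 2)) (by norm_num), Finset.sum_eq_single a]
  · refine Finset.sum_congr rfl fun b _ => ?_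
    simp only [Set.mem_prod, hx, true_and]
  · intro a' _ ha'
    refine Finset.sum_eq_zero fun b _ => ?_
    rw [if_neg]
    rintro ⟨h, _⟩
    exact ha' (A6_cell hη a' a h hx)
  · intro h
    exact absurd (Finset.mem_univ a) h

private theorem A6_cf_meas (A : Matrix (Fin (2 * N)) (Fin (2 * N)) ℝ) : Measurable (cf η A) := by
  unfold cf
  refine Finset.measurable_fun_sum _ fun a _ => Finset.measurable_fun_sum _ fun b _ => ?_
  exact Measurable.ite ((measurableSet_Ico.preimage measurable_fst).inter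
    (measurableSet_Ico.preimage measurable_snd)) measurable_const measurable_const

private theorem A6_sq_meas (A : Matrix (Fin (2 * N)) (Fin (2 * N)) ℝ) : Measurable (sq η A) :=
  ((A6_cf_meas A).pow_const 2).ennreal_ofReal

private theorem A6_wtE (hη : 0 < η) (p : ℝ) {t : ℝ} (ht : 0 < t) (k : Fin (2 * N)) :
    ENNReal.ofReal (wt η p t k) =
      ∫⁻ x in Ico (lft η k) (lft η k + η), ENNReal.ofReal (gk t (x - p)) := by
  unfold wt
  rw [intervalIntegral.integral_of_le (by linarith), ← ofReal_integral_eq_lintegral_ofReal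
    ((integrable_gk ht).comp_sub_right p).integrableOn (ae_of_all _ fun x => (gk_pos ht _).le),
    Measure.restrict_congr_set (Ico_ae_eq_Ioc (μ := (volume : Measure ℝ)))]

private theorem A6_S (hη : 0 < η) (p : ℝ) {τ : ℝ} (hτ : 0 < τ) (c : Fin (2 * N) → ℝ)
    (hc : ∀ a, 0 ≤ c a) (f : ℝ → ℝ≥0∞)
    (hf : ∀ x, f x = ∑ a : Fin (2 * N), (Ico (lft η a) (lft η a + η)).indicator
      (fun _ => ENNReal.ofReal (c a)) x) :
    ∫⁻ x, ENNReal.ofReal (gk τ (x - p)) * f x = ENNReal.ofReal (∑ a, c a * wt η p τ a) := by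
  have h1 : ∀ x, ENNReal.ofReal (gk τ (x - p)) * f x = ∑ a : Fin (2 * N),
      (Ico (lft η a) (lft η a + η)).indicator
        (fun x => ENNReal.ofReal (gk τ (x - p)) * ENNReal.ofReal (c a)) x := by
    intro x
    rw [hf x, Finset.mul_sum]
    refine Finset.sum_congr rfl fun a _ => ?_
    by_cases h : x ∈ Ico (lft η a) (lft η a + η)
    · rw [Set.indicator_of_mem h, Set.indicator_of_mem h]
    · rw [Set.indicator_of_notMem h, Set.indicator_of_notMem h, mul_zero]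
  simp only [h1]
  have hm : ∀ a : Fin (2 * N), Measurable ((Ico (lft η a) (lft η a + η)).indicator
      (fun x => ENNReal.ofReal (gk τ (x - p)) * ENNReal.ofReal (c a))) := fun a =>
    Measurable.indicator (((A6_mgk τ).comp (measurable_id.sub_const p)).mul_const
      (ENNReal.ofReal (c a))) measurableSet_Ico
  rw [lintegral_finsetSum _ fun a _ => hm a,
    ENNReal.ofReal_sum_of_nonneg fun a _ => mul_nonneg (hc a) (wt_pos hη p hτ a).le]
  refine Finset.sum_congr rfl fun a _ => ?_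
  rw [lintegral_indicator measurableSet_Ico, lintegral_mul_const' _ _ ENNReal.ofReal_ne_top,
    ← A6_wtE hη p hτ, ENNReal.ofReal_mul (hc a), mul_comm]

private theorem A6_S2 (hη : 0 < η) (A : Matrix (Fin (2 * N)) (Fin (2 * N)) ℝ) (p : ℝ) {τ : ℝ}
    (hτ : 0 < τ) {y : ℝ} {b : Fin (2 * N)} (hy : y ∈ Ico (lft η b) (lft η b + η)) :
    ∫⁻ x, ENNReal.ofReal (gk τ (x - p)) * sq η A (x, y) =
      ENNReal.ofReal (∑ a, A a b ^ 2 * wt η p τ a) := by
  classical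
  refine A6_S hη p hτ (fun a => A a b ^ 2) (fun a => sq_nonneg _) (fun x => sq η A (x, y)) fun x => ?_
  show sq η A (x, y) = _
  rw [A6_sq2 hη A hy]
  exact Finset.sum_congr rfl fun a _ => by rw [Set.indicator_apply]

private theorem A6_S1 (hη : 0 < η) (A : Matrix (Fin (2 * N)) (Fin (2 * N)) ℝ) (p : ℝ) {τ : ℝ}
    (hτ : 0 < τ) {x : ℝ} {a : Fin (2 * N)} (hx : x ∈ Ico (lft η a) (lft η a + η)) :
    ∫⁻ y, ENNReal.ofReal (gk τ (y - p)) * sq η A (x, y) =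
      ENNReal.ofReal (∑ b, A a b ^ 2 * wt η p τ b) := by
  classical
  refine A6_S hη p hτ (fun b => A a b ^ 2) (fun b => sq_nonneg _) (fun y => sq η A (x, y)) fun y => ?_
  show sq η A (x, y) = _
  rw [A6_sq1 hη A hx]
  exact Finset.sum_congr rfl fun b _ => by rw [Set.indicator_apply]

/-! ### the key bound -/

private noncomputable def A6w (Λ t : ℝ) (p z : ℝ × ℝ) : ℝ≥0∞ :=
  ENNReal.ofReal (gk t (z.1 - p.2)) * ENNReal.ofReal (gk (Λ * t) (z.2 - (-p.1 - p.2)))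

private noncomputable def A6U1 (η Λ t : ℝ) (F : Matrix (Fin (2 * N)) (Fin (2 * N)) ℝ)
    (p z : ℝ × ℝ) : ℝ≥0∞ :=
  ∫⁻ x₀, ENNReal.ofReal (gk (Λ * t) (x₀ - p.1)) * sq η F (x₀, z.1)

private noncomputable def A6U2 (η Λ t : ℝ) (Gh : Matrix (Fin (2 * N)) (Fin (2 * N)) ℝ)
    (p z : ℝ × ℝ) : ℝ≥0∞ :=
  ∫⁻ y', ENNReal.ofReal (gk (Λ * t) (y' - (-p.1 - p.2))) * sq η Gh (z.1, y')

private noncomputable def A6V (η t : ℝ) (Gh : Matrix (Fin (2 * N)) (Fin (2 * N)) ℝ)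
    (p z : ℝ × ℝ) : ℝ≥0∞ :=
  ∫⁻ x', ENNReal.ofReal (gk t (x' - p.2)) * sq η Gh (x', z.2)

private theorem A6w_ne_top (Λ t : ℝ) (p z : ℝ × ℝ) : A6w Λ t p z ≠ ⊤ :=
  ENNReal.mul_ne_top ENNReal.ofReal_ne_top ENNReal.ofReal_ne_top

private theorem A6w_meas (Λ t : ℝ) : Measurable (fun q : (ℝ × ℝ) × (ℝ × ℝ) => A6w Λ t q.1 q.2) := by
  unfold A6w
  exact ((A6_mgk t).comp (by fun_prop)).mul ((A6_mgk _).comp (by fun_prop))

private theorem A6U1_meas (η Λ t : ℝ) (F : Matrix (Fin (2 * N)) (Fin (2 * N)) ℝ) :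
    Measurable (fun q : (ℝ × ℝ) × (ℝ × ℝ) => A6U1 η Λ t F q.1 q.2) := by
  unfold A6U1
  refine Measurable.lintegral_prod_right' (f := fun q : ((ℝ × ℝ) × (ℝ × ℝ)) × ℝ =>
    ENNReal.ofReal (gk (Λ * t) (q.2 - q.1.1.1)) * sq η F (q.2, q.1.2.1)) ?_
  exact ((A6_mgk _).comp (by fun_prop)).mul ((A6_sq_meas F).comp (by fun_prop))

private theorem A6U2_meas (η Λ t : ℝ) (Gh : Matrix (Fin (2 * N)) (Fin (2 * N)) ℝ) :
    Measurable (fun q : (ℝ × ℝ) × (ℝ × ℝ) => A6U2 η Λ t Gh q.1 q.2) := by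
  unfold A6U2
  refine Measurable.lintegral_prod_right' (f := fun q : ((ℝ × ℝ) × (ℝ × ℝ)) × ℝ =>
    ENNReal.ofReal (gk (Λ * t) (q.2 - (-q.1.1.1 - q.1.1.2))) * sq η Gh (q.1.2.1, q.2)) ?_
  exact ((A6_mgk _).comp (by fun_prop)).mul ((A6_sq_meas Gh).comp (by fun_prop))

private theorem A6V_meas (η t : ℝ) (Gh : Matrix (Fin (2 * N)) (Fin (2 * N)) ℝ) :
    Measurable (fun q : (ℝ × ℝ) × (ℝ × ℝ) => A6V η t Gh q.1 q.2) := by
  unfold A6V
  refine Measurable.lintegral_prod_right' (f := fun q : ((ℝ × ℝ) × (ℝ × ℝ)) × ℝ =>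
    ENNReal.ofReal (gk t (q.2 - q.1.1.2)) * sq η Gh (q.2, q.1.2.2)) ?_
  exact ((A6_mgk _).comp (by fun_prop)).mul ((A6_sq_meas Gh).comp (by fun_prop))

private theorem A6_rearr (a b c : ℝ≥0∞) : a * (b * c) = (a * b) * c := (mul_assoc a b c).symm

private theorem A6_D1 (hΛ : 0 < Λ) {t : ℝ} (ht : 0 < t) (F : Matrix (Fin (2 * N)) (Fin (2 * N)) ℝ)
    (z : ℝ × ℝ) : ∫⁻ p, A6w Λ t p z * A6U1 η Λ t F p z ≤ 2 * HM1 (sq η F) (-z.1 - z.2, z.1) := by
  have hΛt : 0 < Λ * t := mul_pos hΛ ht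
  have h1 : ∀ p : ℝ × ℝ, A6w Λ t p z * A6U1 η Λ t F p z = ∫⁻ x₀, (A6w Λ t p z *
      ENNReal.ofReal (gk (Λ * t) (x₀ - p.1))) * sq η F (x₀, z.1) := by
    intro p
    unfold A6U1
    rw [← lintegral_const_mul' _ _ (A6w_ne_top Λ t p z)]
    simp only [A6_rearr]
  simp only [h1]
  rw [lintegral_lintegral_swap]
  · have h2 : ∀ x₀ : ℝ, ∫⁻ p : ℝ × ℝ, (A6w Λ t p z * ENNReal.ofReal (gk (Λ * t) (x₀ - p.1))) *
        sq η F (x₀, z.1) = ENNReal.ofReal (gk (t + (Λ * t + Λ * t)) ((-z.1 - z.2) - x₀)) *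
        sq η F (x₀, z.1) := by
      intro x₀
      rw [lintegral_mul_const' _ _ (by unfold sq; exact ENNReal.ofReal_ne_top)]
      congr 1
      exact A6_C1 hΛ ht z.1 z.2 x₀
    simp only [h2]
    exact le_HM (fun x₀ => sq η F (x₀, z.1)) (-z.1 - z.2) (by positivity)
  · refine Measurable.aemeasurable ?_
    have m1 : Measurable (fun q : (ℝ × ℝ) × ℝ => A6w Λ t q.1 z) :=
      (A6w_meas Λ t).comp (f := fun q : (ℝ × ℝ) × ℝ => (q.1, z)) (by fun_prop)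
    have m2 : Measurable (fun q : (ℝ × ℝ) × ℝ => ENNReal.ofReal (gk (Λ * t) (q.2 - q.1.1))) :=
      (A6_mgk _).comp (by fun_prop)
    have m3 : Measurable (fun q : (ℝ × ℝ) × ℝ => sq η F (q.2, z.1)) :=
      (A6_sq_meas F).comp (by fun_prop)
    exact (m1.mul m2).mul m3

private theorem A6_D2 (hΛ : 0 < Λ) {t : ℝ} (ht : 0 < t) (Gh : Matrix (Fin (2 * N)) (Fin (2 * N)) ℝ)
    (z : ℝ × ℝ) : ∫⁻ p, A6w Λ t p z * A6U2 η Λ t Gh p z ≤ 2 * HM2 (sq η Gh) z := by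
  have hΛt : 0 < Λ * t := mul_pos hΛ ht
  have h1 : ∀ p : ℝ × ℝ, A6w Λ t p z * A6U2 η Λ t Gh p z = ∫⁻ y', (A6w Λ t p z *
      ENNReal.ofReal (gk (Λ * t) (y' - (-p.1 - p.2)))) * sq η Gh (z.1, y') := by
    intro p
    unfold A6U2
    rw [← lintegral_const_mul' _ _ (A6w_ne_top Λ t p z)]
    simp only [A6_rearr]
  simp only [h1]
  rw [lintegral_lintegral_swap]
  · have h2 : ∀ y' : ℝ, ∫⁻ p : ℝ × ℝ, (A6w Λ t p z * ENNReal.ofReal (gk (Λ * t) (y' - (-p.1 - p.2)))) *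
        sq η Gh (z.1, y') = ENNReal.ofReal (gk (Λ * t + Λ * t) (z.2 - y')) * sq η Gh (z.1, y') := by
      intro y'
      rw [lintegral_mul_const' _ _ (by unfold sq; exact ENNReal.ofReal_ne_top)]
      congr 1
      exact A6_C2 hΛ ht z.1 z.2 y'
    simp only [h2]
    exact le_HM (fun y' => sq η Gh (z.1, y')) z.2 (by positivity)
  · refine Measurable.aemeasurable ?_
    have m1 : Measurable (fun q : (ℝ × ℝ) × ℝ => A6w Λ t q.1 z) :=
      (A6w_meas Λ t).comp (f := fun q : (ℝ × ℝ) × ℝ => (q.1, z)) (by fun_prop)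
    have m2 : Measurable (fun q : (ℝ × ℝ) × ℝ =>
        ENNReal.ofReal (gk (Λ * t) (q.2 - (-q.1.1 - q.1.2)))) :=
      (A6_mgk _).comp (by fun_prop)
    have m3 : Measurable (fun q : (ℝ × ℝ) × ℝ => sq η Gh (z.1, q.2)) :=
      (A6_sq_meas Gh).comp (by fun_prop)
    exact (m1.mul m2).mul m3

private theorem A6_D3 (hΛ : 0 < Λ) {t : ℝ} (ht : 0 < t) (Gh : Matrix (Fin (2 * N)) (Fin (2 * N)) ℝ)
    (z : ℝ × ℝ) : ∫⁻ p, A6w Λ t p z * A6V η t Gh p z ≤ 2 * HM1 (sq η Gh) z := by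
  have hΛt : 0 < Λ * t := mul_pos hΛ ht
  have h1 : ∀ p : ℝ × ℝ, A6w Λ t p z * A6V η t Gh p z = ∫⁻ x', (A6w Λ t p z *
      ENNReal.ofReal (gk t (x' - p.2))) * sq η Gh (x', z.2) := by
    intro p
    unfold A6V
    rw [← lintegral_const_mul' _ _ (A6w_ne_top Λ t p z)]
    simp only [A6_rearr]
  simp only [h1]
  rw [lintegral_lintegral_swap]
  · have h2 : ∀ x' : ℝ, ∫⁻ p : ℝ × ℝ, (A6w Λ t p z * ENNReal.ofReal (gk t (x' - p.2))) *
        sq η Gh (x', z.2) = ENNReal.ofReal (gk (t + t) (z.1 - x')) * sq η Gh (x', z.2) := by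
      intro x'
      rw [lintegral_mul_const' _ _ (by unfold sq; exact ENNReal.ofReal_ne_top)]
      congr 1
      exact A6_C3 hΛ ht z.1 z.2 x'
    simp only [h2]
    exact le_HM (fun x' => sq η Gh (x', z.2)) z.1 (by positivity)
  · refine Measurable.aemeasurable ?_
    have m1 : Measurable (fun q : (ℝ × ℝ) × ℝ => A6w Λ t q.1 z) :=
      (A6w_meas Λ t).comp (f := fun q : (ℝ × ℝ) × ℝ => (q.1, z)) (by fun_prop)
    have m2 : Measurable (fun q : (ℝ × ℝ) × ℝ => ENNReal.ofReal (gk t (q.2 - q.1.2))) :=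
      (A6_mgk _).comp (by fun_prop)
    have m3 : Measurable (fun q : (ℝ × ℝ) × ℝ => sq η Gh (q.2, z.2)) :=
      (A6_sq_meas Gh).comp (by fun_prop)
    exact (m1.mul m2).mul m3

private theorem A6_CS {w U V : ℝ × ℝ → ℝ≥0∞} (hw : Measurable w) (hU : Measurable U)
    (hV : Measurable V) : ∫⁻ p, w p * (U p ^ (1 / 2 : ℝ) * V p ^ (1 / 2 : ℝ)) ≤
      (∫⁻ p, w p * U p) ^ (1 / 2 : ℝ) * (∫⁻ p, w p * V p) ^ (1 / 2 : ℝ) := by
  have h1 := ENNReal.lintegral_mul_norm_pow_le (μ := (volume : Measure (ℝ × ℝ)))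
    (hw.mul hU).aemeasurable (hw.mul hV).aemeasurable (p := 1 / 2) (q := 1 / 2) (by norm_num)
    (by norm_num) (by norm_num)
  refine le_trans (le_of_eq (lintegral_congr fun p => ?_)) h1
  simp only [Pi.mul_apply]
  rw [ENNReal.mul_rpow_of_nonneg _ _ (by norm_num), ENNReal.mul_rpow_of_nonneg _ _ (by norm_num)]
  have h2 : w p ^ (1 / 2 : ℝ) * w p ^ (1 / 2 : ℝ) = w p := by
    rw [← ENNReal.rpow_add_of_nonneg _ _ (by norm_num) (by norm_num)]
    norm_num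
  calc w p * (U p ^ (1 / 2 : ℝ) * V p ^ (1 / 2 : ℝ)) =
      (w p ^ (1 / 2 : ℝ) * w p ^ (1 / 2 : ℝ)) * (U p ^ (1 / 2 : ℝ) * V p ^ (1 / 2 : ℝ)) := by rw [h2]
    _ = _ := by ring

private theorem A6_h4 (X Y : ℝ≥0∞) : (2 * X) ^ (1 / 2 : ℝ) * (2 * Y) ^ (1 / 2 : ℝ) =
    2 * (X ^ (1 / 2 : ℝ) * Y ^ (1 / 2 : ℝ)) := by
  have h3 : (2 : ℝ≥0∞) ^ (1 / 2 : ℝ) * (2 : ℝ≥0∞) ^ (1 / 2 : ℝ) = 2 := by
    rw [← ENNReal.rpow_add_of_nonneg _ _ (by norm_num) (by norm_num)]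
    norm_num
  rw [ENNReal.mul_rpow_of_nonneg _ _ (by norm_num), ENNReal.mul_rpow_of_nonneg _ _ (by norm_num),
    mul_mul_mul_comm, h3]

private theorem A6w_measL (Λ t : ℝ) (z : ℝ × ℝ) : Measurable (fun p : ℝ × ℝ => A6w Λ t p z) := by
  have h := (A6w_meas Λ t).comp (measurable_id.prodMk (measurable_const (a := z)))
  exact h

private theorem A6_pz (hΛ : 0 < Λ) (F Gh : Matrix (Fin (2 * N)) (Fin (2 * N)) ℝ) {t : ℝ}
    (ht : 0 < t) (z : ℝ × ℝ) :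
    ∫⁻ p, A6w Λ t p z * ((A6U1 η Λ t F p z + A6U2 η Λ t Gh p z) ^ (1 / 2 : ℝ) *
      A6V η t Gh p z ^ (1 / 2 : ℝ)) ≤ 2 * maxE η F Gh z := by
  have mw : Measurable (fun p : ℝ × ℝ => A6w Λ t p z) := A6w_measL Λ t z
  have mU1 : Measurable (fun p : ℝ × ℝ => A6U1 η Λ t F p z) := by
    have h := (A6U1_meas η Λ t F).comp (measurable_id.prodMk (measurable_const (a := z)))
    exact h
  have mU2 : Measurable (fun p : ℝ × ℝ => A6U2 η Λ t Gh p z) := by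
    have h := (A6U2_meas η Λ t Gh).comp (measurable_id.prodMk (measurable_const (a := z)))
    exact h
  have mV : Measurable (fun p : ℝ × ℝ => A6V η t Gh p z) := by
    have h := (A6V_meas η t Gh).comp (measurable_id.prodMk (measurable_const (a := z)))
    exact h
  have mU : Measurable (fun p : ℝ × ℝ => A6U1 η Λ t F p z + A6U2 η Λ t Gh p z) := mU1.add mU2
  have h1 : ∫⁻ p, A6w Λ t p z * (A6U1 η Λ t F p z + A6U2 η Λ t Gh p z) ≤
      2 * (HM1 (sq η F) (-z.1 - z.2, z.1) + HM2 (sq η Gh) z) := by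
    have mm : Measurable (fun p : ℝ × ℝ => A6w Λ t p z * A6U1 η Λ t F p z) := mw.mul mU1
    simp only [mul_add]
    rw [lintegral_add_left mm]
    exact add_le_add (A6_D1 hΛ ht F z) (A6_D2 hΛ ht Gh z)
  have h2 := A6_D3 (η := η) hΛ ht Gh z
  have h5 := mul_le_mul' (ENNReal.rpow_le_rpow h1 (show (0 : ℝ) ≤ 1 / 2 by norm_num))
    (ENNReal.rpow_le_rpow h2 (show (0 : ℝ) ≤ 1 / 2 by norm_num))
  rw [A6_h4] at h5
  exact (A6_CS mw mU mV).trans h5

private theorem A6_key (hη : 0 < η) (hΛ : 0 < Λ) (F Gh : Matrix (Fin (2 * N)) (Fin (2 * N)) ℝ) {t : ℝ}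
    (ht : 0 < t) (i j : Fin (2 * N)) :
    ∫⁻ p : ℝ × ℝ, (ENNReal.ofReal (wt η p.2 t i) * ENNReal.ofReal (wt η (-p.1 - p.2) (Λ * t) j)) *
      ((ENNReal.ofReal ((∑ k, F k i ^ 2 * wt η p.1 (Λ * t) k) +
          ∑ j', Gh i j' ^ 2 * wt η (-p.1 - p.2) (Λ * t) j')) ^ (1 / 2 : ℝ) *
        (ENNReal.ofReal (∑ i', Gh i' j ^ 2 * wt η p.2 t i')) ^ (1 / 2 : ℝ)) ≤
    2 * ∫⁻ z in Ico (lft η i) (lft η i + η) ×ˢ Ico (lft η j) (lft η j + η), maxE η F Gh z := by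
  have hΛt : 0 < Λ * t := mul_pos hΛ ht
  set R : Set (ℝ × ℝ) := Ico (lft η i) (lft η i + η) ×ˢ Ico (lft η j) (lft η j + η) with hR
  have hRm : MeasurableSet R := measurableSet_Ico.prod measurableSet_Ico
  have h1 : ∀ p : ℝ × ℝ, (ENNReal.ofReal (wt η p.2 t i) *
      ENNReal.ofReal (wt η (-p.1 - p.2) (Λ * t) j)) *
      ((ENNReal.ofReal ((∑ k, F k i ^ 2 * wt η p.1 (Λ * t) k) +
          ∑ j', Gh i j' ^ 2 * wt η (-p.1 - p.2) (Λ * t) j')) ^ (1 / 2 : ℝ) *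
        (ENNReal.ofReal (∑ i', Gh i' j ^ 2 * wt η p.2 t i')) ^ (1 / 2 : ℝ)) =
      ∫⁻ z in R, A6w Λ t p z * ((A6U1 η Λ t F p z + A6U2 η Λ t Gh p z) ^ (1 / 2 : ℝ) *
        A6V η t Gh p z ^ (1 / 2 : ℝ)) := by
    intro p
    set X := (ENNReal.ofReal ((∑ k, F k i ^ 2 * wt η p.1 (Λ * t) k) +
          ∑ j', Gh i j' ^ 2 * wt η (-p.1 - p.2) (Λ * t) j')) ^ (1 / 2 : ℝ) *
        (ENNReal.ofReal (∑ i', Gh i' j ^ 2 * wt η p.2 t i')) ^ (1 / 2 : ℝ) with hX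
    have h2 : ∫⁻ z in R, A6w Λ t p z * ((A6U1 η Λ t F p z + A6U2 η Λ t Gh p z) ^ (1 / 2 : ℝ) *
        A6V η t Gh p z ^ (1 / 2 : ℝ)) = ∫⁻ z in R, A6w Λ t p z * X := by
      refine setLIntegral_congr_fun hRm fun z hz => ?_
      obtain ⟨hz1, hz2⟩ := hz
      have e1 : A6U1 η Λ t F p z = ENNReal.ofReal (∑ k, F k i ^ 2 * wt η p.1 (Λ * t) k) :=
        A6_S2 hη F p.1 hΛt hz1
      have e2 : A6U2 η Λ t Gh p z =
          ENNReal.ofReal (∑ j', Gh i j' ^ 2 * wt η (-p.1 - p.2) (Λ * t) j') :=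
        A6_S1 hη Gh (-p.1 - p.2) hΛt hz1
      have e3 : A6V η t Gh p z = ENNReal.ofReal (∑ i', Gh i' j ^ 2 * wt η p.2 t i') :=
        A6_S2 hη Gh p.2 ht hz2
      show A6w Λ t p z * ((A6U1 η Λ t F p z + A6U2 η Λ t Gh p z) ^ (1 / 2 : ℝ) *
        A6V η t Gh p z ^ (1 / 2 : ℝ)) = A6w Λ t p z * X
      rw [e1, e2, e3, hX, ENNReal.ofReal_add]
      · exact Finset.sum_nonneg fun k _ => mul_nonneg (sq_nonneg _) (wt_pos hη _ hΛt k).le
      · exact Finset.sum_nonneg fun k _ => mul_nonneg (sq_nonneg _) (wt_pos hη _ hΛt k).le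
    have mwz : Measurable (fun z : ℝ × ℝ => A6w Λ t p z) :=
      (A6w_meas Λ t).comp (f := fun z : ℝ × ℝ => (p, z)) (by fun_prop)
    rw [h2, lintegral_mul_const _ mwz]
    congr 1
    have h3 : (volume : Measure (ℝ × ℝ)).restrict R =
        ((volume : Measure ℝ).restrict (Ico (lft η i) (lft η i + η))).prod
          ((volume : Measure ℝ).restrict (Ico (lft η j) (lft η j + η))) := by
      rw [Measure.prod_restrict, hR, Measure.volume_eq_prod]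
    rw [h3, A6_wtE hη p.2 ht, A6_wtE hη (-p.1 - p.2) hΛt]
    unfold A6w
    rw [lintegral_prod_mul (f := fun x => ENNReal.ofReal (gk t (x - p.2)))
      (g := fun y => ENNReal.ofReal (gk (Λ * t) (y - (-p.1 - p.2))))
      ((A6_mgk _).comp (measurable_id.sub_const _)).aemeasurable
      ((A6_mgk _).comp (measurable_id.sub_const _)).aemeasurable]
  simp only [h1]
  rw [lintegral_lintegral_swap]
  · have hmE : Measurable (maxE η F Gh) := by
      unfold maxE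
      exact ((((measurable_HM1 (A6_sq_meas F)).comp (by fun_prop)).add
        (measurable_HM2 (A6_sq_meas Gh))).pow_const _).mul
        ((measurable_HM1 (A6_sq_meas Gh)).pow_const _)
    rw [← lintegral_const_mul _ hmE]
    exact lintegral_mono fun z => A6_pz hΛ F Gh ht z
  · refine Measurable.aemeasurable ?_
    exact (A6w_meas Λ t).mul ((((A6U1_meas η Λ t F).add (A6U2_meas η Λ t Gh)).pow_const _).mul
      ((A6V_meas η t Gh).pow_const _))

/-! ### the cost for fixed `p` -/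

private theorem A6_pcost (hη : 0 < η) (hΛ : 0 < Λ) (F G G' Gh : Matrix (Fin (2 * N)) (Fin (2 * N)) ℝ)
    (hG : ∀ i j, |G i j| ≤ Gh i j) (hG' : ∀ i j, |G' i j| ≤ Gh i j) {t : ℝ} (ht : 0 < t) (p₀ p₁ : ℝ) :
    ∫ v in Ioi (0 : ℝ), (potT η Λ v F G' p₀ p₁ t - potT η Λ v F G p₀ p₁ t) ≤
      3 / 2 * Real.pi * ∑ i, ∑ j, |G' i j - G i j| * ((wt η p₁ t i * wt η (-p₀ - p₁) (Λ * t) j) *
        (Real.sqrt ((∑ k, F k i ^ 2 * wt η p₀ (Λ * t) k) +
          ∑ j', Gh i j' ^ 2 * wt η (-p₀ - p₁) (Λ * t) j') *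
        Real.sqrt (∑ i', Gh i' j ^ 2 * wt η p₁ t i'))) := by
  have hΛt : 0 < Λ * t := mul_pos hΛ ht
  have w0 : ∀ k : Fin (2 * N), 0 < wt η p₀ (Λ * t) k := fun k => wt_pos hη p₀ hΛt k
  have w1 : ∀ k : Fin (2 * N), 0 < wt η p₁ t k := fun k => wt_pos hη p₁ ht k
  have w2 : ∀ k : Fin (2 * N), 0 < wt η (-p₀ - p₁) (Λ * t) k := fun k => wt_pos hη (-p₀ - p₁) hΛt k
  obtain ⟨i1, b1⟩ := cost_weights F G G' Gh w0 w1 w2 hG hG'
  obtain ⟨i2, b2⟩ := cost_weights 0 G G' Gh w0 w1 w2 hG hG'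
  have e1 : ∫ v in Ioi (0 : ℝ), (potT η Λ v F G' p₀ p₁ t - potT η Λ v F G p₀ p₁ t) =
      (∫ v in Ioi (0 : ℝ), (pot v (diagonal (wt η p₁ t) *
          Kmat F G' (wt η p₀ (Λ * t)) (wt η (-p₀ - p₁) (Λ * t))) - pot v (diagonal (wt η p₁ t) *
          Kmat F G (wt η p₀ (Λ * t)) (wt η (-p₀ - p₁) (Λ * t))))) +
      (∫ v in Ioi (0 : ℝ), (pot v (diagonal (wt η p₁ t) *
          Kmat 0 G' (wt η p₀ (Λ * t)) (wt η (-p₀ - p₁) (Λ * t))) - pot v (diagonal (wt η p₁ t) *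
          Kmat 0 G (wt η p₀ (Λ * t)) (wt η (-p₀ - p₁) (Λ * t))))) / 2 := by
    rw [← integral_div, ← integral_add i1 (i2.div_const 2)]
    refine integral_congr_ae (ae_of_all _ fun v => ?_)
    show potT η Λ v F G' p₀ p₁ t - potT η Λ v F G p₀ p₁ t = _
    unfold potT potF Kf
    ring
  rw [e1]
  have b3 : Real.pi * ∑ i, ∑ j, wt η p₁ t i * wt η (-p₀ - p₁) (Λ * t) j * |G' i j - G i j| *
        Real.sqrt ((∑ k, (0 : Matrix (Fin (2 * N)) (Fin (2 * N)) ℝ) k i ^ 2 * wt η p₀ (Λ * t) k) +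
          ∑ j', Gh i j' ^ 2 * wt η (-p₀ - p₁) (Λ * t) j') *
        Real.sqrt (∑ i', wt η p₁ t i' * Gh i' j ^ 2) ≤
      Real.pi * ∑ i, ∑ j, wt η p₁ t i * wt η (-p₀ - p₁) (Λ * t) j * |G' i j - G i j| *
        Real.sqrt ((∑ k, F k i ^ 2 * wt η p₀ (Λ * t) k) +
          ∑ j', Gh i j' ^ 2 * wt η (-p₀ - p₁) (Λ * t) j') *
        Real.sqrt (∑ i', wt η p₁ t i' * Gh i' j ^ 2) := by
    refine mul_le_mul_of_nonneg_left ?_ Real.pi_pos.le
    refine Finset.sum_le_sum fun i _ => Finset.sum_le_sum fun j _ => ?_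
    refine mul_le_mul_of_nonneg_right ?_ (Real.sqrt_nonneg _)
    refine mul_le_mul_of_nonneg_left ?_
      (mul_nonneg (mul_pos (w1 i) (w2 j)).le (abs_nonneg _))
    refine Real.sqrt_le_sqrt (add_le_add_left ?_ _)
    refine Finset.sum_le_sum fun k _ => ?_
    refine mul_le_mul_of_nonneg_right ?_ (w0 k).le
    simp only [Matrix.zero_apply]
    nlinarith [sq_nonneg (F k i)]
  have e2 : ∑ i, ∑ j, |G' i j - G i j| * ((wt η p₁ t i * wt η (-p₀ - p₁) (Λ * t) j) *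
        (Real.sqrt ((∑ k, F k i ^ 2 * wt η p₀ (Λ * t) k) +
          ∑ j', Gh i j' ^ 2 * wt η (-p₀ - p₁) (Λ * t) j') *
        Real.sqrt (∑ i', Gh i' j ^ 2 * wt η p₁ t i'))) =
      ∑ i, ∑ j, wt η p₁ t i * wt η (-p₀ - p₁) (Λ * t) j * |G' i j - G i j| *
        Real.sqrt ((∑ k, F k i ^ 2 * wt η p₀ (Λ * t) k) +
          ∑ j', Gh i j' ^ 2 * wt η (-p₀ - p₁) (Λ * t) j') *
        Real.sqrt (∑ i', wt η p₁ t i' * Gh i' j ^ 2) := by
    refine Finset.sum_congr rfl fun i _ => Finset.sum_congr rfl fun j _ => ?_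
    have e3 : ∑ i', Gh i' j ^ 2 * wt η p₁ t i' = ∑ i', wt η p₁ t i' * Gh i' j ^ 2 :=
      Finset.sum_congr rfl fun i' _ => mul_comm _ _
    rw [e3]
    ring
  rw [e2]
  linarith

private theorem A6_final (hη : 0 < η) (D F Gh : Matrix (Fin (2 * N)) (Fin (2 * N)) ℝ) :
    ∑ i, ∑ j, ENNReal.ofReal |D i j| *
      (∫⁻ z in Ico (lft η i) (lft η i + η) ×ˢ Ico (lft η j) (lft η j + η), maxE η F Gh z) =
    ∫⁻ z : ℝ × ℝ, ENNReal.ofReal |cf η D z| * maxE η F Gh z := by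
  classical
  have hmE : Measurable (maxE η F Gh) := by
    unfold maxE
    exact ((((measurable_HM1 (A6_sq_meas F)).comp (by fun_prop)).add
      (measurable_HM2 (A6_sq_meas Gh))).pow_const _).mul
      ((measurable_HM1 (A6_sq_meas Gh)).pow_const _)
  have hRm : ∀ i j : Fin (2 * N), MeasurableSet
      (Ico (lft η i) (lft η i + η) ×ˢ Ico (lft η j) (lft η j + η)) := fun i j =>
    measurableSet_Ico.prod measurableSet_Ico
  have h1 : ∀ z : ℝ × ℝ, ENNReal.ofReal |cf η D z| * maxE η F Gh z = ∑ i, ∑ j,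
      (Ico (lft η i) (lft η i + η) ×ˢ Ico (lft η j) (lft η j + η)).indicator
        (fun z => ENNReal.ofReal |D i j| * maxE η F Gh z) z := by
    intro z
    rw [A6_phi hη D z (fun r => ENNReal.ofReal |r|) (by norm_num), Finset.sum_mul]
    refine Finset.sum_congr rfl fun i _ => ?_
    rw [Finset.sum_mul]
    refine Finset.sum_congr rfl fun j _ => ?_
    rw [Set.indicator_apply]
    split_ifs with h
    · rfl
    · rw [zero_mul]
  have hm : ∀ i j : Fin (2 * N), Measurable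
      ((Ico (lft η i) (lft η i + η) ×ˢ Ico (lft η j) (lft η j + η)).indicator
        (fun z => ENNReal.ofReal |D i j| * maxE η F Gh z)) := fun i j =>
    (hmE.const_mul _).indicator (hRm i j)
  simp only [h1]
  rw [lintegral_finsetSum _ fun i _ => Finset.measurable_fun_sum _ fun j _ => hm i j]
  refine Finset.sum_congr rfl fun i _ => ?_
  rw [lintegral_finsetSum _ fun j _ => hm i j]
  refine Finset.sum_congr rfl fun j _ => ?_
  rw [lintegral_indicator (hRm i j), lintegral_const_mul' _ _ ENNReal.ofReal_ne_top]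

/-- For fixed `p`, `cost_weights` for `(F,G)` and `(0,G)` (no change for `(F,0)`); then integrate over `p`
(Fubini for `v`, `p`: the integrands are differences of integrable nonnegative functions).
`w₁(i;p₁) w₂(j;p₂) = ∫∫_{cells} g_t(x-p₁) g_{Λt}(y-p₂) dx dy`; for fixed `(x,y)` in the cells, by
Cauchy–Schwarz in `p` (total mass `1` for `g_t(x-p₁) g_{Λt}(y-p₂) dp₁ dp₂`, `p₀ = -p₁-p₂`)
`∫∫ g g √(A_i+B_i) √C_j ≤ √(∫∫ g g (A_i+B_i)) √(∫∫ g g C_j)`, with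
`∫∫ g g A_i = ∫ F(x₀,x)² g_{(2Λ+1)t}(x₀+x+y) dx₀ ≤ 2 HM1(F²)(-x-y,x)`,
`∫∫ g g B_i = ∫ Ĝ(x,y')² g_{2Λt}(y-y') dy' ≤ 2 HM2(Ĝ²)(x,y)`,
`∫∫ g g C_j = ∫ Ĝ(x',y)² g_{2t}(x-x') dx' ≤ 2 HM1(Ĝ²)(x,y)`. Total constant `(3/2)·π·2 ≤ 10`. -/
theorem cost_int (hη : 0 < η) (hΛ : 0 < Λ) (F G G' Gh : Matrix (Fin (2 * N)) (Fin (2 * N)) ℝ)
    (hG : ∀ i j, |G i j| ≤ Gh i j) (hG' : ∀ i j, |G' i j| ≤ Gh i j) {t : ℝ} (ht : 0 < t) :
    ENNReal.ofReal (∫ v in Ioi (0 : ℝ), ((∫ p : ℝ × ℝ, potT η Λ v F G' p.1 p.2 t) -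
        ∫ p : ℝ × ℝ, potT η Λ v F G p.1 p.2 t)) ≤
      10 * ∫⁻ z : ℝ × ℝ, ENNReal.ofReal |cf η (G' - G) z| * maxE η F Gh z := by
  have hΛt : 0 < Λ * t := mul_pos hΛ ht
  have hI1 := A6_int hη hΛ F G ht
  have hI2 := A6_int hη hΛ F G' ht
  have hD : Integrable (fun q : ℝ × (ℝ × ℝ) => potT η Λ q.1 F G' q.2.1 q.2.2 t -
      potT η Λ q.1 F G q.2.1 q.2.2 t) ((volume.restrict (Ioi 0)).prod volume) := hI2.sub hI1
  have e1 : ∫ v in Ioi (0 : ℝ), ((∫ p : ℝ × ℝ, potT η Λ v F G' p.1 p.2 t) -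
        ∫ p : ℝ × ℝ, potT η Λ v F G p.1 p.2 t) =
      ∫ v in Ioi (0 : ℝ), ∫ p : ℝ × ℝ, (potT η Λ v F G' p.1 p.2 t - potT η Λ v F G p.1 p.2 t) := by
    refine setIntegral_congr_fun measurableSet_Ioi fun v hv => ?_
    exact (integral_sub (potT_integrable F G' hη hΛ hv ht) (potT_integrable F G hη hΛ hv ht)).symm
  rw [e1, integral_integral_swap
    (f := fun v (p : ℝ × ℝ) => potT η Λ v F G' p.1 p.2 t - potT η Λ v F G p.1 p.2 t) hD]
  set g : ℝ × ℝ → ℝ := fun p => ∫ v in Ioi (0 : ℝ),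
    (potT η Λ v F G' p.1 p.2 t - potT η Λ v F G p.1 p.2 t) with hg
  have hgi : Integrable g := hD.integral_prod_right
  set κ : Fin (2 * N) → Fin (2 * N) → ℝ × ℝ → ℝ≥0∞ := fun i j p =>
    (ENNReal.ofReal (wt η p.2 t i) * ENNReal.ofReal (wt η (-p.1 - p.2) (Λ * t) j)) *
      ((ENNReal.ofReal ((∑ k, F k i ^ 2 * wt η p.1 (Λ * t) k) +
          ∑ j', Gh i j' ^ 2 * wt η (-p.1 - p.2) (Λ * t) j')) ^ (1 / 2 : ℝ) *
        (ENNReal.ofReal (∑ i', Gh i' j ^ 2 * wt η p.2 t i')) ^ (1 / 2 : ℝ)) with hκ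
  have m0 : ∀ k : Fin (2 * N), Measurable (fun p : ℝ × ℝ => wt η p.1 (Λ * t) k) := fun k =>
    ((A6_wt_cont hΛt k).comp continuous_fst).measurable
  have m1 : ∀ k : Fin (2 * N), Measurable (fun p : ℝ × ℝ => wt η p.2 t k) := fun k =>
    ((A6_wt_cont ht k).comp continuous_snd).measurable
  have m2 : ∀ k : Fin (2 * N), Measurable (fun p : ℝ × ℝ => wt η (-p.1 - p.2) (Λ * t) k) := fun k =>
    ((A6_wt_cont hΛt k).comp (continuous_fst.neg.sub continuous_snd)).measurable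
  have mκ : ∀ i j, Measurable (κ i j) := by
    intro i j
    have a1 : Measurable (fun p : ℝ × ℝ => (∑ k, F k i ^ 2 * wt η p.1 (Λ * t) k) +
          ∑ j', Gh i j' ^ 2 * wt η (-p.1 - p.2) (Λ * t) j') :=
      (Finset.measurable_fun_sum _ fun k _ => (m0 k).const_mul _).add
        (Finset.measurable_fun_sum _ fun k _ => (m2 k).const_mul _)
    have a2 : Measurable (fun p : ℝ × ℝ => ∑ i', Gh i' j ^ 2 * wt η p.2 t i') :=
      Finset.measurable_fun_sum _ fun k _ => (m1 k).const_mul _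
    exact ((m1 i).ennreal_ofReal.mul (m2 j).ennreal_ofReal).mul
      ((a1.ennreal_ofReal.pow_const _).mul (a2.ennreal_ofReal.pow_const _))
  have hpt : ∀ p, ENNReal.ofReal (max (g p) 0) ≤ ENNReal.ofReal (3 / 2 * Real.pi) *
      ∑ i, ∑ j, ENNReal.ofReal |G' i j - G i j| * κ i j p := by
    intro p
    have w0 : ∀ k : Fin (2 * N), 0 < wt η p.1 (Λ * t) k := fun k => wt_pos hη p.1 hΛt k
    have w1 : ∀ k : Fin (2 * N), 0 < wt η p.2 t k := fun k => wt_pos hη p.2 ht k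
    have w2 : ∀ k : Fin (2 * N), 0 < wt η (-p.1 - p.2) (Λ * t) k := fun k =>
      wt_pos hη (-p.1 - p.2) hΛt k
    have hb := A6_pcost hη hΛ F G G' Gh hG hG' ht p.1 p.2
    have hn : 0 ≤ 3 / 2 * Real.pi * ∑ i, ∑ j, |G' i j - G i j| *
        ((wt η p.2 t i * wt η (-p.1 - p.2) (Λ * t) j) *
        (Real.sqrt ((∑ k, F k i ^ 2 * wt η p.1 (Λ * t) k) +
          ∑ j', Gh i j' ^ 2 * wt η (-p.1 - p.2) (Λ * t) j') *
        Real.sqrt (∑ i', Gh i' j ^ 2 * wt η p.2 t i'))) := by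
      refine mul_nonneg (by positivity) (Finset.sum_nonneg fun i _ => Finset.sum_nonneg fun j _ => ?_)
      exact mul_nonneg (abs_nonneg _) (mul_nonneg (mul_pos (w1 i) (w2 j)).le
        (mul_nonneg (Real.sqrt_nonneg _) (Real.sqrt_nonneg _)))
    refine (ENNReal.ofReal_le_ofReal (max_le hb hn)).trans (le_of_eq ?_)
    rw [ENNReal.ofReal_mul (by positivity)]
    congr 1
    rw [ENNReal.ofReal_sum_of_nonneg fun i _ => Finset.sum_nonneg fun j _ =>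
      mul_nonneg (abs_nonneg _) (mul_nonneg (mul_pos (w1 i) (w2 j)).le
        (mul_nonneg (Real.sqrt_nonneg _) (Real.sqrt_nonneg _)))]
    refine Finset.sum_congr rfl fun i _ => ?_
    rw [ENNReal.ofReal_sum_of_nonneg fun j _ =>
      mul_nonneg (abs_nonneg _) (mul_nonneg (mul_pos (w1 i) (w2 j)).le
        (mul_nonneg (Real.sqrt_nonneg _) (Real.sqrt_nonneg _)))]
    refine Finset.sum_congr rfl fun j _ => ?_
    rw [ENNReal.ofReal_mul (abs_nonneg _), ENNReal.ofReal_mul (mul_pos (w1 i) (w2 j)).le,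
      ENNReal.ofReal_mul (w1 i).le, ENNReal.ofReal_mul (Real.sqrt_nonneg _)]
    have hs1 : 0 ≤ (∑ k, F k i ^ 2 * wt η p.1 (Λ * t) k) +
          ∑ j', Gh i j' ^ 2 * wt η (-p.1 - p.2) (Λ * t) j' :=
      add_nonneg (Finset.sum_nonneg fun k _ => mul_nonneg (sq_nonneg _) (w0 k).le)
        (Finset.sum_nonneg fun k _ => mul_nonneg (sq_nonneg _) (w2 k).le)
    have hs2 : 0 ≤ ∑ i', Gh i' j ^ 2 * wt η p.2 t i' :=
      Finset.sum_nonneg fun k _ => mul_nonneg (sq_nonneg _) (w1 k).le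
    rw [Real.sqrt_eq_rpow, Real.sqrt_eq_rpow, ← ENNReal.ofReal_rpow_of_nonneg hs1 (by norm_num),
      ← ENNReal.ofReal_rpow_of_nonneg hs2 (by norm_num)]
  calc ENNReal.ofReal (∫ p, g p) ≤ ENNReal.ofReal (∫ p, max (g p) 0) :=
        ENNReal.ofReal_le_ofReal (integral_mono hgi hgi.pos_part fun p => le_max_left _ _)
    _ = ∫⁻ p, ENNReal.ofReal (max (g p) 0) :=
        ofReal_integral_eq_lintegral_ofReal hgi.pos_part (ae_of_all _ fun p => le_max_right _ _)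
    _ ≤ ∫⁻ p, ENNReal.ofReal (3 / 2 * Real.pi) *
        ∑ i, ∑ j, ENNReal.ofReal |G' i j - G i j| * κ i j p := lintegral_mono hpt
    _ = ENNReal.ofReal (3 / 2 * Real.pi) *
        ∑ i, ∑ j, ENNReal.ofReal |G' i j - G i j| * ∫⁻ p, κ i j p := by
        rw [lintegral_const_mul' _ _ ENNReal.ofReal_ne_top]
        congr 1
        rw [lintegral_finsetSum _ fun i _ => Finset.measurable_fun_sum _ fun j _ =>
          (mκ i j).const_mul _]
        refine Finset.sum_congr rfl fun i _ => ?_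
        rw [lintegral_finsetSum _ fun j _ => (mκ i j).const_mul _]
        refine Finset.sum_congr rfl fun j _ => ?_
        rw [lintegral_const_mul' _ _ ENNReal.ofReal_ne_top]
    _ ≤ ENNReal.ofReal (3 / 2 * Real.pi) *
        ∑ i, ∑ j, ENNReal.ofReal |G' i j - G i j| * (2 *
          ∫⁻ z in Ico (lft η i) (lft η i + η) ×ˢ Ico (lft η j) (lft η j + η), maxE η F Gh z) := by
        refine mul_le_mul_right ?_ _
        refine Finset.sum_le_sum fun i _ => Finset.sum_le_sum fun j _ => mul_le_mul_right ?_ _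
        exact A6_key hη hΛ F Gh ht i j
    _ = (ENNReal.ofReal (3 / 2 * Real.pi) * 2) *
        ∫⁻ z : ℝ × ℝ, ENNReal.ofReal |cf η (G' - G) z| * maxE η F Gh z := by
        rw [← A6_final hη (G' - G) F Gh, mul_assoc]
        congr 1
        rw [Finset.mul_sum]
        refine Finset.sum_congr rfl fun i _ => ?_
        rw [Finset.mul_sum]
        refine Finset.sum_congr rfl fun j _ => ?_
        rw [Matrix.sub_apply, mul_left_comm]
    _ ≤ 10 * ∫⁻ z : ℝ × ℝ, ENNReal.ofReal |cf η (G' - G) z| * maxE η F Gh z := by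
        refine mul_le_mul_left ?_ _
        have h2 : (2 : ℝ≥0∞) = ENNReal.ofReal 2 := by norm_num
        have h10 : (10 : ℝ≥0∞) = ENNReal.ofReal 10 := by norm_num
        rw [h2, h10, ← ENNReal.ofReal_mul (by positivity)]
        refine ENNReal.ofReal_le_ofReal ?_
        have := Real.pi_lt_d2
        linarith

/-- the energy at any time: `≤ 3 (n3 F + n3 G)`: `pot_integral_weights`, `(a+b)^{3/2} ≤ √2 (a^{3/2}+b^{3/2})`,
Jensen `(∑ w₀ w₁ F²)^{3/2} ≤ ∑ w₀ w₁ |F|³` (`sum_wt_le_one`), `integral_wt_wt`, `integral_wt_wt'`. -/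
theorem energy_le (hη : 0 < η) (hΛ : 0 < Λ) (F G : Matrix (Fin (2 * N)) (Fin (2 * N)) ℝ) {t : ℝ}
    (ht : 0 < t) :
    IntegrableOn (fun v => ∫ p : ℝ × ℝ, potT η Λ v F G p.1 p.2 t) (Ioi 0) ∧
    ∫ v in Ioi (0 : ℝ), ∫ p : ℝ × ℝ, potT η Λ v F G p.1 p.2 t ≤ 3 * (n3 η F + n3 η G) := by
  have hI := A6_int hη hΛ F G ht
  refine ⟨hI.integral_prod_left, ?_⟩
  rw [integral_integral_swap (f := fun v (p : ℝ × ℝ) => potT η Λ v F G p.1 p.2 t) hI]
  have hB := A6_B hη hΛ F G ht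
  have h1 : ∫ p : ℝ × ℝ, ∫ v in Ioi (0 : ℝ), potT η Λ v F G p.1 p.2 t ≤
      2 * Real.pi / 3 * (n3 η F + n3 η G) := by
    rw [← hB.2]
    exact integral_mono hI.integral_prod_right hB.1 fun p => (A6_pt hη hΛ F G ht p.1 p.2).2
  have h2 : 0 ≤ n3 η F + n3 η G := by
    unfold n3
    positivity
  have h3 : 2 * Real.pi / 3 ≤ 3 := by
    have := Real.pi_lt_d2
    linarith
  exact h1.trans (mul_le_mul_of_nonneg_right h3 h2)

end Crest.Agent.TH
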