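import Crest.Agent.TH_BDefs
import Crest.Agent.TH_G1

/-! # TH_K1 (task TH-K1): the kernel `Dk` and the first formula for `gam`

With `x = y/u`: `Dk u y = u⁻¹ d(x)`, `d(x) = ((1-x²) e^{-x²/2} - 1_{|x|<1})/x`; `d` is odd, bounded, smooth
off `±1` (with a removable singularity at `0`), with jumps `+1` at `x = ±1`;
`d'(x) = (x²-2-x⁻²) e^{-x²/2}` for `|x| > 1` and `(x²-2-x⁻²) e^{-x²/2} + x⁻²` for `0 < |x| < 1`. -/

set_option autoImplicit false
open Matrix MeasureTheory Set Filter
open scoped Topology ENNReal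

namespace Crest.Agent.TH

private noncomputable def k1q (u y : ℝ) : ℝ := (1 - y ^ 2 / u ^ 2) * Real.exp (-y ^ 2 / (2 * u ^ 2))
private noncomputable def k1d (u y : ℝ) : ℝ :=
  (y ^ 2 / u ^ 4 - 2 / u ^ 2 - 1 / y ^ 2) * Real.exp (-y ^ 2 / (2 * u ^ 2))
private noncomputable def k1M (u y : ℝ) : ℝ := (k1q u y - 1) / y

theorem Kt_add_Dk {u t : ℝ} (hu : 0 < u) : Kt u t + Dk u t = if u ≤ |t| then 1 / t else 0 := by
  unfold Kt Dk
  by_cases h : u ≤ |t|
  · rw [if_pos h, if_neg (not_lt.mpr h)]
    ring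
  · rw [if_neg h, if_pos (not_le.mp h)]
    ring

private theorem Dk_of_lt {u y : ℝ} (h : |y| < u) : Dk u y = k1M u y := by
  unfold Dk k1M k1q
  rw [if_pos h]

private theorem Dk_of_ge {u y : ℝ} (h : u ≤ |y|) : Dk u y = k1q u y / y := by
  unfold Dk k1q
  rw [if_neg (not_lt.mpr h), sub_zero]

theorem Dk_neg (u y : ℝ) : Dk u (-y) = -Dk u y := by
  unfold Dk
  rw [abs_neg, neg_sq, div_neg]

theorem measurable_Dk (u : ℝ) : Measurable (Dk u) := by
  unfold Dk
  refine Measurable.div (Measurable.sub (by fun_prop) ?_) measurable_id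
  exact Measurable.ite (measurableSet_lt (by fun_prop) measurable_const) measurable_const
    measurable_const

private theorem k1_z {u : ℝ} (hu : 0 < u) (y : ℝ) : -y ^ 2 / (2 * u ^ 2) = -((y ^ 2 / u ^ 2) / 2) := by
  field_simp

private theorem k1_z4 {u : ℝ} (hu : 0 < u) (y : ℝ) :
    -y ^ 2 / (4 * u ^ 2) = -((y ^ 2 / u ^ 2) / 4) := by
  field_simp

private theorem exp_lb (z : ℝ) : 1 - z ≤ Real.exp (-z) := by
  have := Real.add_one_le_exp (-z)
  linarith

private theorem k1q_bd {z : ℝ} (h0 : 0 ≤ z) (h1 : z ≤ 1) :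
    |(1 - z) * Real.exp (-(z / 2)) - 1| ≤ 3 / 2 * z := by
  have e1 : Real.exp (-(z / 2)) ≤ 1 := Real.exp_le_one_iff.mpr (by linarith)
  have e2 := exp_lb (z / 2)
  rw [abs_le]
  constructor <;> nlinarith

private theorem zlt {u y : ℝ} (hu : 0 < u) (h : |y| < u) : y ^ 2 / u ^ 2 < 1 := by
  rw [div_lt_one (by positivity)]
  exact sq_lt_sq' (by linarith [(abs_lt.mp h).1]) (abs_lt.mp h).2

private theorem zge {u y : ℝ} (hu : 0 < u) (h : u ≤ |y|) : 1 ≤ y ^ 2 / u ^ 2 := by
  rw [one_le_div (by positivity), ← sq_abs y]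
  exact pow_le_pow_left₀ hu.le h 2

private theorem k1M_bd {u : ℝ} (hu : 0 < u) {y : ℝ} (h : |y| ≤ u) :
    |k1M u y| ≤ 3 / 2 / u ^ 2 * |y| := by
  rcases eq_or_ne y 0 with rfl | hy
  · simp [k1M]
  · have hz : y ^ 2 / u ^ 2 ≤ 1 := by
      rw [div_le_one (by positivity), ← sq_abs y]
      exact pow_le_pow_left₀ (abs_nonneg y) h 2
    have := k1q_bd (by positivity) hz
    unfold k1M k1q
    rw [abs_div, div_le_iff₀ (abs_pos.mpr hy), k1_z hu]
    refine this.trans (le_of_eq ?_)
    rw [← sq_abs y]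
    ring

theorem abs_Dk_le {u : ℝ} (hu : 0 < u) (y : ℝ) : |Dk u y| ≤ 10 / u * Real.exp (-y ^ 2 / (4 * u ^ 2)) := by
  rw [k1_z4 hu]
  set z := y ^ 2 / u ^ 2 with hz
  have hz0 : 0 ≤ z := by positivity
  rcases lt_or_ge |y| u with h | h
  · rw [Dk_of_lt h]
    have h1 := k1M_bd hu h.le
    have h2 := zlt hu h
    have h3 := exp_lb (z / 4)
    have h4 : 3 / 2 / u ^ 2 * |y| ≤ 3 / 2 / u := by
      rw [div_mul_eq_mul_div, div_le_div_iff₀ (by positivity) hu]
      nlinarith [abs_nonneg y]
    have h5 : 10 / u * (3 / 4) ≤ 10 / u * Real.exp (-(z / 4)) := by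
      refine mul_le_mul_of_nonneg_left ?_ (by positivity)
      linarith
    have h6 : 3 / 2 / u ≤ 10 / u * (3 / 4) := by
      rw [div_mul_eq_mul_div]
      gcongr
      norm_num
    linarith
  · rw [Dk_of_ge h]
    have hy : 0 < |y| := lt_of_lt_of_le hu h
    have h1 := zge hu h
    unfold k1q
    rw [abs_div, abs_mul, Real.abs_exp, k1_z hu, ← hz, div_le_iff₀ hy]
    have h2 : |1 - z| ≤ z := by
      rw [abs_le]; constructor <;> linarith
    have h3 : Real.exp (-(z / 2)) = Real.exp (-(z / 4)) * Real.exp (-(z / 4)) := by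
      rw [← Real.exp_add]; congr 1; ring
    have h4 : |y| / u * Real.exp (-(z / 4)) ≤ 1 := by
      rw [Real.exp_neg, ← div_eq_mul_inv, div_le_one (Real.exp_pos _)]
      have := Real.add_one_le_exp (z / 4)
      have hx : z = (|y| / u) ^ 2 := by rw [hz, div_pow, sq_abs]
      nlinarith [sq_nonneg (|y| / u - 2)]
    have h5 : z = |y| / u * (|y| / u) := by rw [hz, ← sq_abs]; ring
    calc |1 - z| * Real.exp (-(z / 2)) ≤ z * Real.exp (-(z / 2)) := by gcongr
      _ = (|y| / u * (|y| / u)) * (Real.exp (-(z / 4)) * Real.exp (-(z / 4))) := by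
          rw [h3, ← h5]
      _ = (|y| / u * Real.exp (-(z / 4))) * (|y| / u * Real.exp (-(z / 4))) := by ring
      _ ≤ 1 * (|y| / u * Real.exp (-(z / 4))) := by
          refine mul_le_mul_of_nonneg_right h4 (by positivity)
      _ ≤ 10 / u * Real.exp (-(z / 4)) * |y| := by
          have : 0 ≤ |y| / u * Real.exp (-(z / 4)) := by positivity
          calc _ ≤ 10 * (|y| / u * Real.exp (-(z / 4))) := by linarith
            _ = _ := by ring

private theorem gaussInt {u : ℝ} (hu : 0 < u) (c : ℝ) :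
    Integrable (fun y : ℝ => c * Real.exp (-y ^ 2 / (4 * u ^ 2))) := by
  have h := (integrable_exp_neg_mul_sq (b := 1 / (4 * u ^ 2)) (by positivity)).const_mul c
  refine h.congr (Eventually.of_forall fun y => ?_)
  show c * _ = c * _
  congr 2
  ring

theorem integrable_Dk {u : ℝ} (hu : 0 < u) : Integrable (Dk u) := by
  refine (gaussInt hu (10 / u)).mono' (measurable_Dk u).aestronglyMeasurable ?_
  exact Eventually.of_forall fun y => abs_Dk_le hu y

theorem integral_Dk {u : ℝ} (hu : 0 < u) : ∫ y, Dk u y = 0 := by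
  have h := integral_neg_eq_self (Dk u) volume
  simp only [Dk_neg, integral_neg] at h
  linarith

private theorem k1q_deriv {u : ℝ} (hu : 0 < u) (y : ℝ) :
    HasDerivAt (k1q u) (-(2 * y / u ^ 2) * Real.exp (-y ^ 2 / (2 * u ^ 2)) +
      (1 - y ^ 2 / u ^ 2) * (Real.exp (-y ^ 2 / (2 * u ^ 2)) * (-(2 * y) / (2 * u ^ 2)))) y := by
  have h1 : HasDerivAt (fun x : ℝ => -x ^ 2 / (2 * u ^ 2)) (-(2 * y) / (2 * u ^ 2)) y :=
    (((hasDerivAt_pow 2 y).neg).div_const (2 * u ^ 2)).congr_deriv (by norm_num)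
  have h2 : HasDerivAt (fun x : ℝ => 1 - x ^ 2 / u ^ 2) (-(2 * y / u ^ 2)) y := by
    have := (((hasDerivAt_pow 2 y).div_const (u ^ 2)).const_sub 1)
    exact this.congr_deriv (by norm_num)
  exact h2.mul h1.exp

private theorem k1N_deriv {u : ℝ} (hu : 0 < u) {y : ℝ} (hy : y ≠ 0) :
    HasDerivAt (fun y => k1q u y / y) (k1d u y) y := by
  refine ((k1q_deriv hu y).div (hasDerivAt_id y) hy).congr_deriv ?_
  unfold k1d k1q
  simp only [id]
  field_simp
  ring

private theorem k1M_deriv {u : ℝ} (hu : 0 < u) {y : ℝ} (hy : y ≠ 0) :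
    HasDerivAt (k1M u) (k1d u y + 1 / y ^ 2) y := by
  have h := (k1N_deriv hu hy).sub (hasDerivAt_inv hy)
  have e : k1M u = fun y => k1q u y / y - y⁻¹ := by
    funext y
    unfold k1M
    rw [sub_div, one_div]
  rw [e]
  refine h.congr_deriv ?_
  rw [one_div, sub_neg_eq_add]

private theorem k1M_cont {u : ℝ} (hu : 0 < u) : Continuous (k1M u) := by
  rw [continuous_iff_continuousAt]
  intro y
  rcases eq_or_ne y 0 with rfl | hy
  · have h0 : k1M u 0 = 0 := by simp [k1M]
    rw [ContinuousAt, h0]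
    refine squeeze_zero_norm' (a := fun y => 3 / 2 / u ^ 2 * |y|) ?_ ?_
    · filter_upwards [Metric.ball_mem_nhds (0 : ℝ) hu] with y hy
      rw [Metric.mem_ball, dist_zero_right, Real.norm_eq_abs] at hy
      exact k1M_bd hu hy.le
    · have : Continuous fun y : ℝ => 3 / 2 / u ^ 2 * |y| := by fun_prop
      simpa using this.tendsto 0
  · exact (k1M_deriv hu hy).continuousAt

private theorem Dk_ev_lt {u y : ℝ} (h : |y| < u) : Dk u =ᶠ[𝓝 y] k1M u := by
  have : {x : ℝ | |x| < u} ∈ 𝓝 y := (isOpen_lt continuous_abs continuous_const).mem_nhds h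
  filter_upwards [this] with x hx
  exact Dk_of_lt hx

private theorem Dk_ev_gt {u y : ℝ} (h : u < |y|) : Dk u =ᶠ[𝓝 y] fun x => k1q u x / x := by
  have : {x : ℝ | u < |x|} ∈ 𝓝 y := (isOpen_lt continuous_const continuous_abs).mem_nhds h
  filter_upwards [this] with x hx
  exact Dk_of_ge (le_of_lt hx)

private theorem Dk_deriv_lt {u : ℝ} (hu : 0 < u) {y : ℝ} (h : |y| < u) (hy : y ≠ 0) :
    HasDerivAt (Dk u) (k1d u y + 1 / y ^ 2) y :=
  (k1M_deriv hu hy).congr_of_eventuallyEq (Dk_ev_lt h)

private theorem Dk_deriv_gt {u : ℝ} (hu : 0 < u) {y : ℝ} (h : u < |y|) :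
    HasDerivAt (Dk u) (k1d u y) y :=
  (k1N_deriv hu (abs_pos.mp (hu.trans h))).congr_of_eventuallyEq (Dk_ev_gt h)

private theorem rDk_neg (u y : ℝ) : rDk u (-y) = rDk u y := by
  unfold rDk
  have h := deriv_comp_neg (Dk u) y
  have e : (fun x => Dk u (-x)) = fun x => -Dk u x := funext fun x => Dk_neg u x
  rw [e] at h
  have h2 : deriv (fun x => -Dk u x) y = -deriv (Dk u) y := deriv.fun_neg
  rw [h2] at h
  linarith

private theorem rDk_u {u : ℝ} (hu : 0 < u) : rDk u u = 0 := by
  unfold rDk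
  apply deriv_zero_of_not_differentiableAt
  intro hd
  have hc := hd.continuousAt
  have h0 : Dk u u = 0 := by
    rw [Dk_of_ge (by rw [abs_of_pos hu])]
    unfold k1q
    rw [div_self (by positivity)]
    simp
  rw [ContinuousAt, h0] at hc
  have h1 : Tendsto (Dk u) (𝓝[<] u) (𝓝 0) := hc.mono_left nhdsWithin_le_nhds
  have h2 : Tendsto (k1M u) (𝓝[<] u) (𝓝 (k1M u u)) :=
    ((k1M_cont hu).tendsto u).mono_left nhdsWithin_le_nhds
  have h3 : Tendsto (Dk u) (𝓝[<] u) (𝓝 (k1M u u)) := by
    refine h2.congr' ?_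
    have : Ioo 0 u ∈ 𝓝[<] u := Ioo_mem_nhdsLT hu
    filter_upwards [this] with x hx
    exact (Dk_of_lt (by rw [abs_of_pos hx.1]; exact hx.2)).symm
  have h4 := tendsto_nhds_unique h1 h3
  unfold k1M k1q at h4
  rw [div_self (by positivity)] at h4
  simp only [sub_self, zero_mul, zero_sub] at h4
  have h5 : 0 < 1 / u := by positivity
  rw [neg_div] at h4
  linarith

theorem abs_rDk_le {u : ℝ} (hu : 0 < u) (y : ℝ) :
    |rDk u y| ≤ 20 / u ^ 2 * Real.exp (-y ^ 2 / (4 * u ^ 2)) := by
  rw [k1_z4 hu]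
  set z := y ^ 2 / u ^ 2 with hz
  have hz0 : 0 ≤ z := by positivity
  rcases lt_trichotomy |y| u with h | h | h
  · have h2 := zlt hu h
    rw [← hz] at h2
    have h3 := exp_lb (z / 4)
    have h5 : 20 / u ^ 2 * (3 / 4) ≤ 20 / u ^ 2 * Real.exp (-(z / 4)) := by
      refine mul_le_mul_of_nonneg_left ?_ (by positivity)
      linarith
    refine le_trans ?_ h5
    rcases eq_or_ne y 0 with rfl | hy
    · have h6 : ‖deriv (Dk u) 0‖ ≤ 3 / 2 / u ^ 2 := by
        refine norm_deriv_le_of_lip' (by positivity) ?_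
        have h0 : Dk u 0 = 0 := by simp [Dk]
        filter_upwards [Metric.ball_mem_nhds (0 : ℝ) hu] with y hy
        rw [Metric.mem_ball, dist_zero_right, Real.norm_eq_abs] at hy
        rw [h0, sub_zero, sub_zero, Real.norm_eq_abs, Real.norm_eq_abs, Dk_of_lt hy]
        exact k1M_bd hu hy.le
      rw [Real.norm_eq_abs] at h6
      refine h6.trans ?_
      rw [div_mul_eq_mul_div]
      gcongr
      norm_num
    · have hd : rDk u y = k1d u y + 1 / y ^ 2 := (Dk_deriv_lt hu h hy).deriv
      have hzp : 0 < z := by positivity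
      have e1 : Real.exp (-(z / 2)) ≤ 1 := Real.exp_le_one_iff.mpr (by linarith)
      have e2 := exp_lb (z / 2)
      have e3 : rDk u y = ((z - 2) * Real.exp (-(z / 2)) + (1 - Real.exp (-(z / 2))) / z) / u ^ 2 := by
        rw [hd]
        unfold k1d
        rw [k1_z hu, ← hz]
        have e4 : y ^ 2 = z * u ^ 2 := by rw [hz]; field_simp
        rw [e4]
        field_simp
        ring
      have e5 : 0 ≤ (1 - Real.exp (-(z / 2))) / z := div_nonneg (by linarith) hz0
      have e6 : (1 - Real.exp (-(z / 2))) / z ≤ 1 / 2 := by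
        rw [div_le_iff₀ hzp]; linarith
      rw [e3, abs_div, abs_of_pos (show (0 : ℝ) < u ^ 2 by positivity), div_mul_eq_mul_div]
      gcongr
      rw [abs_le]
      have e7 := Real.exp_pos (-(z / 2))
      constructor <;> nlinarith
  · have h1 : rDk u y = 0 := by
      rcases abs_eq hu.le |>.mp h with rfl | rfl
      · exact rDk_u hu
      · rw [rDk_neg]; exact rDk_u hu
    rw [h1, abs_zero]
    positivity
  · have hd : rDk u y = k1d u y := (Dk_deriv_gt hu h).deriv
    have h1 := zge hu h.le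
    rw [← hz] at h1
    have hzp : 0 < z := by linarith
    have e3 : rDk u y = ((z - 2 - 1 / z) * Real.exp (-(z / 2))) / u ^ 2 := by
      rw [hd]
      unfold k1d
      rw [k1_z hu, ← hz]
      have e4 : y ^ 2 = z * u ^ 2 := by rw [hz]; field_simp
      rw [e4]
      field_simp
    have e5 : 1 / z ≤ 1 := by rw [div_le_one hzp]; exact h1
    have e6 : 0 < 1 / z := by positivity
    rw [e3, abs_div, abs_of_pos (show (0 : ℝ) < u ^ 2 by positivity), div_mul_eq_mul_div]
    gcongr
    rw [abs_mul, Real.abs_exp]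
    have h3 : Real.exp (-(z / 2)) = Real.exp (-(z / 4)) * Real.exp (-(z / 4)) := by
      rw [← Real.exp_add]; congr 1; ring
    have h4 : |z - 2 - 1 / z| * Real.exp (-(z / 4)) ≤ 20 := by
      rw [Real.exp_neg, ← div_eq_mul_inv, div_le_iff₀ (Real.exp_pos _)]
      have := Real.add_one_le_exp (z / 4)
      have : |z - 2 - 1 / z| ≤ z + 3 := by
        rw [abs_le]; constructor <;> linarith
      linarith
    rw [h3, ← mul_assoc]
    exact mul_le_mul_of_nonneg_right h4 (Real.exp_pos _).le

private theorem rDk_int {u : ℝ} (hu : 0 < u) : Integrable (rDk u) := by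
  refine (gaussInt hu (20 / u ^ 2)).mono' (measurable_deriv _).aestronglyMeasurable ?_
  exact Eventually.of_forall fun y => abs_rDk_le hu y

/-- integration by parts on `(-∞,-u)`, `(-u,u)`, `(u,∞)` -/
theorem gam_eq {u s : ℝ} (hu : 0 < u) (hs : 0 < s) (t : ℝ) :
    gam u s t = Real.sqrt s / u * (gk (s / 2) (t - u) + gk (s / 2) (t + u)) +
      Real.sqrt s * ∫ y, rDk u y * gk (s / 2) (t - y) := by
  have hs2 : 0 < s / 2 := by positivity
  set G : ℝ → ℝ := fun y => gk (s / 2) (t - y) with hG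
  set G1 : ℝ → ℝ := fun y => gk1 (s / 2) (t - y) with hG1
  have hGd : ∀ y, HasDerivAt G (-G1 y) y := by
    intro y
    have h := (hasDerivAt_gk hs2 (t - y)).comp y ((hasDerivAt_id y).const_sub t)
    exact h.congr_deriv (by ring)
  have hGc : Continuous G := continuous_iff_continuousAt.mpr fun y => (hGd y).continuousAt
  have hG1c : Continuous G1 := (continuous_gk1 hs2).comp (by fun_prop)
  obtain ⟨C1, hC1⟩ := abs_gk1_le_const hs2
  have hGb : ∀ y, ‖G y‖ ≤ 1 / Real.sqrt (2 * Real.pi * (s / 2)) := by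
    intro y
    rw [Real.norm_eq_abs, abs_of_pos (gk_pos hs2 _)]
    show gk (s / 2) (t - y) ≤ _
    unfold gk
    refine div_le_div_of_nonneg_right ?_ (Real.sqrt_nonneg _)
    rw [Real.exp_le_one_iff]
    have : 0 ≤ (t - y) ^ 2 / (2 * (s / 2)) := by positivity
    rw [neg_div]
    linarith
  have iDG : Integrable fun y => Dk u y * G y := by
    have := (integrable_Dk hu).bdd_mul hGc.aestronglyMeasurable (Eventually.of_forall hGb)
    refine this.congr (Eventually.of_forall fun y => ?_)
    exact mul_comm _ _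
  have irG : Integrable fun y => rDk u y * G y := by
    have := (rDk_int hu).bdd_mul hGc.aestronglyMeasurable (Eventually.of_forall hGb)
    refine this.congr (Eventually.of_forall fun y => ?_)
    exact mul_comm _ _
  have iDG1 : Integrable fun y => Dk u y * G1 y := by
    have := (integrable_Dk hu).bdd_mul hG1c.aestronglyMeasurable
      (Eventually.of_forall fun y => hC1 (t - y))
    refine this.congr (Eventually.of_forall fun y => ?_)
    exact mul_comm _ _
  set f : ℝ → ℝ := fun y => Dk u y * G y with hf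
  set f' : ℝ → ℝ := fun y => rDk u y * G y + Dk u y * (-G1 y) with hf'
  have if' : Integrable f' := by
    have := irG.sub iDG1
    refine this.congr (Eventually.of_forall fun y => ?_)
    show rDk u y * G y - Dk u y * G1 y = rDk u y * G y + Dk u y * (-G1 y)
    ring
  have hfd : ∀ y, u < |y| → HasDerivAt f (f' y) y := by
    intro y hy
    have h1 : HasDerivAt (Dk u) (rDk u y) y := (Dk_deriv_gt hu hy).differentiableAt.hasDerivAt
    exact h1.mul (hGd y)
  have hDu : Dk u u = 0 := by
    rw [Dk_of_ge (by rw [abs_of_pos hu])]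
    unfold k1q
    rw [div_self (by positivity)]
    simp
  have hDu' : Dk u (-u) = 0 := by rw [Dk_neg, hDu, neg_zero]
  -- right piece
  have hR : ∫ y in Ioi u, f' y = 0 := by
    have h1 : ∀ x ∈ Ioi u, HasDerivAt f (f' x) x := fun x hx =>
      hfd x (lt_of_lt_of_le hx (le_abs_self x))
    have h2 : ContinuousWithinAt f (Ici u) u := by
      have h3 : ContinuousWithinAt (fun y => k1q u y / y * G y) (Ici u) u :=
        ((k1N_deriv hu hu.ne').continuousAt.mul (hGd u).continuousAt).continuousWithinAt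
      refine h3.congr ?_ ?_
      · intro y hy
        show Dk u y * G y = _
        rw [Dk_of_ge (le_trans hy (le_abs_self y))]
      · show Dk u u * G u = _
        rw [Dk_of_ge (le_abs_self u)]
    have h4 := integral_Ioi_of_hasDerivAt_of_tendsto h2 h1 if'.integrableOn
      (tendsto_zero_of_hasDerivAt_of_integrableOn_Ioi h1 if'.integrableOn iDG.integrableOn)
    rw [h4]
    show 0 - Dk u u * G u = 0
    rw [hDu]; ring
  have hL : ∫ y in Iic (-u), f' y = 0 := by
    have h1 : ∀ x ∈ Iio (-u), HasDerivAt f (f' x) x := fun x hx => by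
      refine hfd x ?_
      have : x < -u := hx
      exact lt_of_lt_of_le (by linarith) (neg_le_abs x)
    have h2 : ContinuousWithinAt f (Iic (-u)) (-u) := by
      have h3 : ContinuousWithinAt (fun y => k1q u y / y * G y) (Iic (-u)) (-u) :=
        ((k1N_deriv hu (neg_ne_zero.mpr hu.ne')).continuousAt.mul
          (hGd (-u)).continuousAt).continuousWithinAt
      refine h3.congr ?_ ?_
      · intro y hy
        show Dk u y * G y = _
        have : y ≤ -u := hy
        rw [Dk_of_ge (le_trans (by linarith) (neg_le_abs y))]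
      · show Dk u (-u) * G (-u) = _
        rw [Dk_of_ge (by rw [abs_neg]; exact le_abs_self u)]
    have h1' : ∀ x ∈ Iic (-u - 1), HasDerivAt f (f' x) x := fun x hx => by
      have h5 : x ≤ -u - 1 := hx
      exact h1 x (show x < -u by linarith)
    have h4 := integral_Iic_of_hasDerivAt_of_tendsto h2 h1 if'.integrableOn
      (tendsto_zero_of_hasDerivAt_of_integrableOn_Iic h1' if'.integrableOn iDG.integrableOn)
    rw [h4]
    show Dk u (-u) * G (-u) - 0 = 0
    rw [hDu']; ring
  have hMd : ∫ y in (-u)..u, f' y = -(1 / u) * (G u + G (-u)) := by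
    have h1 := integral_eq_of_hasDerivAt_off_countable_of_le (fun y => k1M u y * G y) f'
      (show -u ≤ u by linarith) (countable_singleton (0 : ℝ))
      ((k1M_cont hu).mul hGc).continuousOn (fun x hx => by
        have hx0 : x ≠ 0 := fun h => hx.2 (by rw [h]; exact mem_singleton _)
        have hxu : |x| < u := abs_lt.mpr hx.1
        have h2 : HasDerivAt (k1M u) (rDk u x) x := by
          have := k1M_deriv hu hx0
          rwa [← (Dk_deriv_lt hu hxu hx0).deriv] at this
        have h3 := h2.mul (hGd x)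
        refine h3.congr_deriv ?_
        show _ = rDk u x * G x + Dk u x * (-G1 x)
        rw [Dk_of_lt hxu]) if'.intervalIntegrable
    rw [h1]
    have e1 : k1M u u = -(1 / u) := by
      unfold k1M k1q
      rw [div_self (by positivity)]
      ring
    have e2 : k1M u (-u) = 1 / u := by
      unfold k1M k1q
      rw [neg_sq, div_self (by positivity), div_neg]
      ring
    simp only [e1, e2]
    ring
  have htot : ∫ y, f' y = -(1 / u) * (G u + G (-u)) := by
    have h1 : ∫ y, f' y = (∫ y in Iic (-u), f' y) + ∫ y in Ioi (-u), f' y :=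
      (intervalIntegral.integral_Iic_add_Ioi if'.integrableOn if'.integrableOn).symm
    have h2 : ∫ y in Ioi (-u), f' y = (∫ y in (-u)..u, f' y) + ∫ y in Ioi u, f' y :=
      (intervalIntegral.integral_interval_add_Ioi if'.integrableOn if'.integrableOn).symm
    rw [h1, h2, hR, hL, hMd]
    ring
  have hsub : ∫ y, f' y = (∫ y, rDk u y * G y) - ∫ y, Dk u y * G1 y := by
    rw [← integral_sub irG iDG1]
    refine integral_congr_ae (Eventually.of_forall fun y => ?_)
    show rDk u y * G y + Dk u y * (-G1 y) = _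
    ring
  have e3 : ∫ y, Dk u y * G1 y = (∫ y, rDk u y * G y) + 1 / u * (G u + G (-u)) := by
    linarith
  show Real.sqrt s * ∫ y, Dk u y * G1 y = _
  rw [e3]
  have e4 : G (-u) = gk (s / 2) (t + u) := by
    show gk (s / 2) (t - -u) = _
    rw [sub_neg_eq_add]
  rw [e4]
  show Real.sqrt s * ((∫ y, rDk u y * gk (s / 2) (t - y)) + 1 / u * (gk (s / 2) (t - u) + _)) = _
  ring

end Crest.Agent.TH
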