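import Crest.Agent.TH_BDefs
import Crest.Agent.TH_G1
import Crest.Agent.TH_K1

/-! # TH_K2 (task TH-K2): the derivative of `gam` in `u` -/

set_option autoImplicit false
open Matrix MeasureTheory Set Filter
open scoped Topology ENNReal

namespace Crest.Agent.TH

/-- the derivative -/
noncomputable def dgam (u s t : ℝ) : ℝ :=
  -(Real.sqrt s / u) * (gk1 (s / 2) (t - u) - gk1 (s / 2) (t + u)) +
    2 * Real.sqrt (Real.pi / 2) * Real.sqrt s * u ^ 2 * gk4 (u ^ 2 + s / 2) t

private theorem k2_sqrt_le : 2 * Real.sqrt (Real.pi / 2) ≤ 3 := by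
  have h1 : Real.sqrt (Real.pi / 2) ≤ 3 / 2 := by
    rw [show (3 / 2 : ℝ) = Real.sqrt ((3 / 2) ^ 2) by rw [Real.sqrt_sq (by norm_num)]]
    refine Real.sqrt_le_sqrt ?_
    have := Real.pi_le_four
    nlinarith [Real.pi_lt_d2]
  linarith

/-- `gk` is at most `e^{-x²/2t}/√t'` if `t' ≤ t` -/
private theorem k2_gk_le {t t' : ℝ} (ht' : 0 < t') (h : t' ≤ t) (x : ℝ) :
    gk t x ≤ Real.exp (-x ^ 2 / (2 * t)) / Real.sqrt t' := by
  unfold gk
  refine div_le_div_of_nonneg_left (Real.exp_pos _).le (Real.sqrt_pos.2 ht') ?_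
  refine Real.sqrt_le_sqrt ?_
  nlinarith [Real.pi_gt_three]

/-- `x = t ± u`, `|u| ≤ w`: `x² ≥ t²/2 - w²`. -/
private theorem k2_sq_ge {t x w : ℝ} (_hw : 0 ≤ w) (h : |x - t| ≤ w) : t ^ 2 / 2 - w ^ 2 ≤ x ^ 2 := by
  have h1 : (x - t) ^ 2 ≤ w ^ 2 := by
    rw [← sq_abs]
    exact pow_le_pow_left₀ (abs_nonneg _) h 2
  nlinarith [sq_nonneg (2 * x - t)]

private theorem k2_exp_half : Real.exp (1 / 2) ≤ 2 := by
  have h1 : Real.exp (1 / 2) ^ 2 ≤ 2 ^ 2 := by
    rw [← Real.exp_nat_mul]
    have := Real.exp_one_lt_d9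
    norm_num at this ⊢
    linarith
  exact (pow_le_pow_iff_left₀ (Real.exp_pos _).le (by norm_num) two_ne_zero).1 h1

private theorem k2_exp_one : Real.exp 1 ≤ 3 := by
  have := Real.exp_one_lt_d9
  norm_num at this ⊢
  linarith

private theorem k2_cont_gk {s : ℝ} (hs : 0 < s) (t : ℝ) :
    ContinuousOn (fun u : ℝ => gk (u ^ 2 + s / 2) t) (Ioi 0) := by
  unfold gk
  refine ContinuousOn.div (Real.continuous_exp.comp_continuousOn
    (ContinuousOn.div continuousOn_const (by fun_prop) ?_)) (by fun_prop) ?_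
  · intro u hu
    have : (0 : ℝ) < u := hu
    positivity
  · intro u hu
    have : (0 : ℝ) < u := hu
    exact ne_of_gt (Real.sqrt_pos.mpr (by positivity))

theorem continuousOn_dgam {s : ℝ} (hs : 0 < s) (t : ℝ) : ContinuousOn (fun u => dgam u s t) (Ioi 0) := by
  have hs2 : 0 < s / 2 := by positivity
  have hT : ∀ u ∈ Ioi (0 : ℝ), u ^ 2 + s / 2 ≠ 0 := fun u hu => by
    have : (0 : ℝ) < u := hu
    positivity
  have c1 := continuous_gk1 hs2
  unfold dgam
  refine ContinuousOn.add (ContinuousOn.mul ?_ ?_) (ContinuousOn.mul ?_ ?_)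
  · refine ContinuousOn.neg (ContinuousOn.div continuousOn_const continuousOn_id ?_)
    intro u hu
    exact ne_of_gt hu
  · exact ((c1.comp (continuous_const.sub continuous_id)).sub
      (c1.comp (continuous_const.add continuous_id))).continuousOn
  · fun_prop
  · unfold gk4
    refine ContinuousOn.mul ?_ ?_
    · refine ContinuousOn.add (ContinuousOn.sub ?_ ?_) ?_
      · refine ContinuousOn.div continuousOn_const (by fun_prop) fun u hu => pow_ne_zero _ (hT u hu)
      · refine ContinuousOn.div continuousOn_const (by fun_prop) fun u hu => pow_ne_zero _ (hT u hu)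
      · refine ContinuousOn.div continuousOn_const (by fun_prop) fun u hu => pow_ne_zero _ (hT u hu)
    · exact k2_cont_gk hs t

/-- for `0 < u ≤ √s`: `|dgam u s t| ≤ (C/s) e^{-t²/8s}` (mean value theorem for `g'(t-u) - g'(t+u)`:
`|gk2 (s/2) (t')| ≤ (C/(s√s)) e^{-t'²/(2s)}`, `|t'| ≥ |t| - √s`). -/
theorem abs_dgam_low : ∃ C : ℝ, 0 < C ∧ ∀ u s t : ℝ, 0 < u → u ≤ Real.sqrt s →
    |dgam u s t| ≤ C / s * Real.exp (-t ^ 2 / (8 * s)) := by
  refine ⟨136, by norm_num, fun u s t hu hus => ?_⟩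
  have hr : 0 < Real.sqrt s := hu.trans_le hus
  have hs : 0 < s := Real.sqrt_pos.1 hr
  have hs2 : 0 < s / 2 := by positivity
  have hrs : Real.sqrt s * Real.sqrt s = s := Real.mul_self_sqrt hs.le
  have hus2 : u ^ 2 ≤ s := by
    rw [← Real.sq_sqrt hs.le]
    exact pow_le_pow_left₀ hu.le hus 2
  set E := Real.exp (-t ^ 2 / (8 * s)) with hE
  have hE0 : 0 < E := Real.exp_pos _
  -- first term: mean value theorem
  have h1 : |gk1 (s / 2) (t - u) - gk1 (s / 2) (t + u)| ≤ 16 * u / (s * Real.sqrt s) * E := by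
    obtain ⟨c, hc, hc2⟩ := exists_hasDerivAt_eq_slope (gk1 (s / 2)) (gk2 (s / 2))
      (show t - u < t + u by linarith) (continuous_gk1 hs2).continuousOn
      (fun x _ => hasDerivAt_gk1 hs2 x)
    have h2 : gk1 (s / 2) (t - u) - gk1 (s / 2) (t + u) = -(gk2 (s / 2) c * (2 * u)) := by
      rw [hc2, show t + u - (t - u) = 2 * u by ring, div_mul_cancel₀ _ (by positivity)]
      ring
    rw [h2, abs_neg, abs_mul, abs_of_pos (show 0 < 2 * u by positivity)]
    have h3 := abs_gk2_le hs2 c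
    have h4 := k2_gk_le (t := 2 * (s / 2)) (t' := s) hs (by linarith) c
    have h5 : Real.exp (-c ^ 2 / (2 * (2 * (s / 2)))) ≤ 2 * E := by
      have h6 : t ^ 2 / 2 - u ^ 2 ≤ c ^ 2 := k2_sq_ge hu.le (by
        rw [abs_le]
        constructor <;> linarith [hc.1, hc.2])
      calc Real.exp (-c ^ 2 / (2 * (2 * (s / 2)))) ≤ Real.exp (1 / 2 + -t ^ 2 / (8 * s)) := by
            refine Real.exp_le_exp.2 ?_
            rw [div_add_div _ _ (by norm_num) (by positivity), div_le_div_iff₀ (by positivity)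
              (by positivity)]
            nlinarith [sq_nonneg t, mul_pos hs hs]
        _ = Real.exp (1 / 2) * E := Real.exp_add _ _
        _ ≤ 2 * E := mul_le_mul_of_nonneg_right k2_exp_half hE0.le
    calc |gk2 (s / 2) c| * (2 * u)
        ≤ (2 / (s / 2) * (2 * E / Real.sqrt s)) * (2 * u) := by
          refine mul_le_mul_of_nonneg_right ?_ (by positivity)
          refine h3.trans (mul_le_mul_of_nonneg_left ?_ (by positivity))
          exact h4.trans (div_le_div_of_nonneg_right h5 hr.le)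
      _ = 16 * u / (s * Real.sqrt s) * E := by
          field_simp
          ring
  have h2 : |2 * Real.sqrt (Real.pi / 2) * Real.sqrt s * u ^ 2 * gk4 (u ^ 2 + s / 2) t| ≤
      120 / s * E := by
    have hT : 0 < u ^ 2 + s / 2 := by positivity
    have h3 := abs_gk4_le hT t
    have h4 := k2_gk_le (t := 2 * (u ^ 2 + s / 2)) (t' := s) hs (by nlinarith [sq_nonneg u]) t
    have h5 : Real.exp (-t ^ 2 / (2 * (2 * (u ^ 2 + s / 2)))) ≤ E := by
      refine Real.exp_le_exp.2 ?_
      rw [neg_div, neg_div, neg_le_neg_iff]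
      exact div_le_div_of_nonneg_left (sq_nonneg t) (by positivity) (by linarith)
    have h6 : 10 / (u ^ 2 + s / 2) ^ 2 ≤ 40 / s ^ 2 := by
      rw [div_le_div_iff₀ (by positivity) (by positivity)]
      nlinarith [mul_nonneg (sq_nonneg u) hs.le, sq_nonneg (u ^ 2)]
    rw [abs_mul, abs_of_nonneg (show 0 ≤ 2 * Real.sqrt (Real.pi / 2) * Real.sqrt s * u ^ 2 by
      positivity)]
    have h7 : |gk4 (u ^ 2 + s / 2) t| ≤ 40 / s ^ 2 * (E / Real.sqrt s) :=
      h3.trans (mul_le_mul h6 (h4.trans (div_le_div_of_nonneg_right h5 hr.le))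
        (gk_pos (by positivity) t).le (by positivity))
    calc 2 * Real.sqrt (Real.pi / 2) * Real.sqrt s * u ^ 2 * |gk4 (u ^ 2 + s / 2) t|
        ≤ 3 * Real.sqrt s * s * (40 / s ^ 2 * (E / Real.sqrt s)) := by
          refine mul_le_mul ?_ h7 (abs_nonneg _) (by positivity)
          exact mul_le_mul (mul_le_mul_of_nonneg_right k2_sqrt_le hr.le) hus2 (by positivity)
            (by positivity)
      _ = 120 / s * E := by
          field_simp
          ring
  unfold dgam
  refine (abs_add_le _ _).trans ?_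
  rw [abs_mul, abs_neg, abs_of_pos (show 0 < Real.sqrt s / u by positivity)]
  have h3 : Real.sqrt s / u * |gk1 (s / 2) (t - u) - gk1 (s / 2) (t + u)| ≤ 16 / s * E := by
    refine (mul_le_mul_of_nonneg_left h1 (by positivity)).trans_eq ?_
    field_simp
  have h4 : (136 : ℝ) / s * E = 16 / s * E + 120 / s * E := by ring
  rw [h4]
  exact add_le_add h3 h2

/-- for `√s ≤ w`: `∫_w^{2w} |dgam u s t| du ≤ (C/w) e^{-t²/32w²}`: `∫ |g'_{s/2}(t∓u)| (√s/u) du` with the
bound `(√s/w) · C s^{-1/2} …` and `t² ≤ 2(t-u)² + 8w²`; the second term is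
`≤ C √s w² w^{-5} e^{-t²/(4·4.5 w²)} w`. -/
theorem integral_dgam_high : ∃ C : ℝ, 0 < C ∧ ∀ w s t : ℝ, 0 < s → Real.sqrt s ≤ w →
    ∫ u in w..(2 * w), |dgam u s t| ≤ C / w * Real.exp (-t ^ 2 / (32 * w ^ 2)) := by
  refine ⟨144, by norm_num, fun w s t hs hsw => ?_⟩
  have hr : 0 < Real.sqrt s := Real.sqrt_pos.2 hs
  have hw : 0 < w := hr.trans_le hsw
  have hs2 : 0 < s / 2 := by positivity
  have hsw2 : s ≤ w ^ 2 := by
    rw [← Real.sq_sqrt hs.le]
    exact pow_le_pow_left₀ hr.le hsw 2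
  set E := Real.exp (-t ^ 2 / (32 * w ^ 2)) with hE
  have hE0 : 0 < E := Real.exp_pos _
  -- pointwise bound of `g'`
  have h1 : ∀ x, |x - t| ≤ 2 * w → |gk1 (s / 2) x| ≤ 12 / Real.sqrt s * E * gk (2 * s) x := by
    intro x hx
    have h2 := abs_gk1_le hs2 x
    have h3 : gk (2 * (s / 2)) x = Real.sqrt 2 * Real.exp (-(x ^ 2 / (4 * s))) * gk (2 * s) x := by
      rw [show 2 * (s / 2) = s by ring]
      exact gk_eq_two hs x
    have h4 : Real.exp (-(x ^ 2 / (4 * s))) ≤ 3 * E := by
      have h5 := k2_sq_ge (show 0 ≤ 2 * w by positivity) hx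
      calc Real.exp (-(x ^ 2 / (4 * s))) ≤ Real.exp (1 + -t ^ 2 / (32 * w ^ 2)) := by
            refine Real.exp_le_exp.2 ?_
            have h6 : x ^ 2 / (4 * w ^ 2) ≤ x ^ 2 / (4 * s) :=
              div_le_div_of_nonneg_left (sq_nonneg x) (by positivity) (by linarith)
            have h7 : t ^ 2 / (8 * w ^ 2) - 1 ≤ x ^ 2 / (4 * w ^ 2) := by
              rw [div_sub_one (by positivity), div_le_div_iff₀ (by positivity) (by positivity)]
              nlinarith [mul_pos hw hw]
            have h8 : t ^ 2 / (32 * w ^ 2) ≤ t ^ 2 / (8 * w ^ 2) :=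
              div_le_div_of_nonneg_left (sq_nonneg t) (by positivity) (by nlinarith [mul_pos hw hw])
            rw [neg_div]
            linarith
        _ = Real.exp 1 * E := Real.exp_add _ _
        _ ≤ 3 * E := mul_le_mul_of_nonneg_right k2_exp_one hE0.le
    have hg := gk_pos (show 0 < 2 * s by positivity) x
    have h5 : Real.sqrt (s / 2) = Real.sqrt s / Real.sqrt 2 := Real.sqrt_div hs.le 2
    have h22 : Real.sqrt 2 * Real.sqrt 2 = 2 := Real.mul_self_sqrt (by norm_num)
    have h20 : 0 < Real.sqrt 2 := Real.sqrt_pos.2 (by norm_num)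
    rw [h3, h5] at h2
    refine h2.trans ?_
    calc 2 / (Real.sqrt s / Real.sqrt 2) * (Real.sqrt 2 * Real.exp (-(x ^ 2 / (4 * s))) *
          gk (2 * s) x) = (2 * (Real.sqrt 2 * Real.sqrt 2) / Real.sqrt s) *
            Real.exp (-(x ^ 2 / (4 * s))) * gk (2 * s) x := by
          field_simp
      _ ≤ (2 * 2 / Real.sqrt s) * (3 * E) * gk (2 * s) x := by
          rw [h22]
          gcongr
      _ = _ := by ring
  -- second term
  have h2 : ∀ u, w ≤ u → u ≤ 2 * w →
      |2 * Real.sqrt (Real.pi / 2) * Real.sqrt s * u ^ 2 * gk4 (u ^ 2 + s / 2) t| ≤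
      120 / w ^ 2 * E := by
    intro u hu1 hu2
    have hu : 0 < u := hw.trans_le hu1
    have hT : 0 < u ^ 2 + s / 2 := by positivity
    have hwu : w ^ 2 ≤ u ^ 2 := pow_le_pow_left₀ hw.le hu1 2
    have hu4 : u ^ 2 ≤ 4 * w ^ 2 := by
      have := pow_le_pow_left₀ hu.le hu2 2
      nlinarith
    have h3 := abs_gk4_le hT t
    have h4 := k2_gk_le (t := 2 * (u ^ 2 + s / 2)) (t' := w ^ 2) (by positivity)
      (by nlinarith) t
    rw [Real.sqrt_sq hw.le] at h4
    have h5 : Real.exp (-t ^ 2 / (2 * (2 * (u ^ 2 + s / 2)))) ≤ E := by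
      refine Real.exp_le_exp.2 ?_
      rw [neg_div, neg_div, neg_le_neg_iff]
      exact div_le_div_of_nonneg_left (sq_nonneg t) (by positivity) (by nlinarith)
    have h6 : 10 / (u ^ 2 + s / 2) ^ 2 ≤ 10 / w ^ 4 := by
      refine div_le_div_of_nonneg_left (by norm_num) (by positivity) ?_
      have : (w ^ 2) ^ 2 ≤ (u ^ 2 + s / 2) ^ 2 := pow_le_pow_left₀ (by positivity) (by linarith) 2
      calc w ^ 4 = (w ^ 2) ^ 2 := by ring
        _ ≤ _ := this
    rw [abs_mul, abs_of_nonneg (show 0 ≤ 2 * Real.sqrt (Real.pi / 2) * Real.sqrt s * u ^ 2 by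
      positivity)]
    have h7 : |gk4 (u ^ 2 + s / 2) t| ≤ 10 / w ^ 4 * (E / w) :=
      h3.trans (mul_le_mul h6 (h4.trans (div_le_div_of_nonneg_right h5 hw.le))
        (gk_pos (by positivity) t).le (by positivity))
    calc 2 * Real.sqrt (Real.pi / 2) * Real.sqrt s * u ^ 2 * |gk4 (u ^ 2 + s / 2) t|
        ≤ 3 * w * (4 * w ^ 2) * (10 / w ^ 4 * (E / w)) := by
          refine mul_le_mul ?_ h7 (abs_nonneg _) (by positivity)
          exact mul_le_mul (mul_le_mul k2_sqrt_le hsw hr.le (by norm_num)) hu4 (by positivity)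
            (by positivity)
      _ = 120 / w ^ 2 * E := by
          field_simp
          ring
  -- total pointwise bound
  have h3 : ∀ u ∈ Icc w (2 * w), |dgam u s t| ≤
      12 / w * E * (gk (2 * s) (t - u) + gk (2 * s) (t + u)) + 120 / w ^ 2 * E := by
    intro u hu
    have hu0 : 0 < u := hw.trans_le hu.1
    unfold dgam
    refine (abs_add_le _ _).trans (add_le_add ?_ (h2 u hu.1 hu.2))
    rw [abs_mul, abs_neg, abs_of_pos (show 0 < Real.sqrt s / u by positivity)]
    have h4 := h1 (t - u) (by rw [sub_sub_cancel_left, abs_neg, abs_of_pos hu0]; exact hu.2)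
    have h5 := h1 (t + u) (by rw [add_sub_cancel_left, abs_of_pos hu0]; exact hu.2)
    have hg1 := gk_pos (show 0 < 2 * s by positivity) (t - u)
    have hg2 := gk_pos (show 0 < 2 * s by positivity) (t + u)
    calc Real.sqrt s / u * |gk1 (s / 2) (t - u) - gk1 (s / 2) (t + u)|
        ≤ Real.sqrt s / w * (12 / Real.sqrt s * E * gk (2 * s) (t - u) +
          12 / Real.sqrt s * E * gk (2 * s) (t + u)) := by
          refine mul_le_mul (div_le_div_of_nonneg_left hr.le hw hu.1)
            ((abs_sub _ _).trans (add_le_add h4 h5)) (abs_nonneg _) (by positivity)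
      _ = 12 / w * E * (gk (2 * s) (t - u) + gk (2 * s) (t + u)) := by
          field_simp
  have hw2 : w ≤ 2 * w := by linarith
  have hI1 : Integrable (fun u => gk (2 * s) (t - u)) := by
    exact (integrable_gk (show 0 < 2 * s by positivity)).comp_sub_left t
  have hI2 : Integrable (fun u => gk (2 * s) (t + u)) :=
    (integrable_gk (show 0 < 2 * s by positivity)).comp_add_left t
  have hv1 : ∫ u in w..(2 * w), gk (2 * s) (t - u) ≤ 1 := by
    rw [intervalIntegral.integral_of_le hw2, ← integral_gk (show 0 < 2 * s by positivity),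
      ← integral_sub_left_eq_self (fun x => gk (2 * s) x) volume t]
    exact setIntegral_le_integral hI1 (Eventually.of_forall fun u =>
      (gk_pos (by positivity) _).le)
  have hv2 : ∫ u in w..(2 * w), gk (2 * s) (t + u) ≤ 1 := by
    rw [intervalIntegral.integral_of_le hw2, ← integral_gk (show 0 < 2 * s by positivity),
      ← integral_add_left_eq_self (fun x => gk (2 * s) x) t]
    exact setIntegral_le_integral hI2 (Eventually.of_forall fun u =>
      (gk_pos (by positivity) _).le)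
  have hcont : ContinuousOn (fun u => |dgam u s t|) (uIcc w (2 * w)) := by
    refine ContinuousOn.abs ((continuousOn_dgam hs t).mono ?_)
    rw [uIcc_of_le hw2]
    intro u hu
    exact hw.trans_le hu.1
  have hJ1 : IntervalIntegrable (fun u => gk (2 * s) (t - u)) volume w (2 * w) :=
    hI1.intervalIntegrable
  have hJ2 : IntervalIntegrable (fun u => gk (2 * s) (t + u)) volume w (2 * w) :=
    hI2.intervalIntegrable
  have hJ : IntervalIntegrable (fun u => 12 / w * E * (gk (2 * s) (t - u) + gk (2 * s) (t + u)))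
      volume w (2 * w) := (hJ1.add hJ2).const_mul _
  have hJc : IntervalIntegrable (fun _ : ℝ => 120 / w ^ 2 * E) volume w (2 * w) :=
    intervalIntegrable_const
  have hmono := intervalIntegral.integral_mono_on hw2 hcont.intervalIntegrable
    (g := fun u => 12 / w * E * (gk (2 * s) (t - u) + gk (2 * s) (t + u)) + 120 / w ^ 2 * E)
    (hJ.add hJc) h3
  refine hmono.trans ?_
  rw [intervalIntegral.integral_add hJ hJc, intervalIntegral.integral_const_mul,
    intervalIntegral.integral_add hJ1 hJ2, intervalIntegral.integral_const]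
  have e : (2 * w - w) • (120 / w ^ 2 * E) = 120 / w * E := by
    rw [smul_eq_mul]
    field_simp
    ring
  rw [e]
  have h4 : 12 / w * E * ((∫ u in w..(2 * w), gk (2 * s) (t - u)) +
      ∫ u in w..(2 * w), gk (2 * s) (t + u)) ≤ 12 / w * E * 2 :=
    mul_le_mul_of_nonneg_left (by linarith) (by positivity)
  have h5 : (144 : ℝ) / w * E = 12 / w * E * 2 + 120 / w * E := by ring
  rw [h5]
  linarith

/-! ### the derivative of `gam` -/

private noncomputable def hh (s t y : ℝ) : ℝ := gk1 (s / 2) (t - y) - gk1 (s / 2) (t + y)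

private theorem k2_ind_le {u : ℝ} (hu : 0 < u) (y : ℝ) :
    |if u ≤ |y| then 1 / y else 0| ≤ 1 / u := by
  split_ifs with h
  · rw [abs_div, abs_one]
    exact one_div_le_one_div_of_le hu h
  · rw [abs_zero]
    positivity

private theorem k2_Dk_le {u : ℝ} (hu : 0 < u) (y : ℝ) : |Dk u y| ≤ 10 / u := by
  refine (abs_Dk_le hu y).trans (mul_le_of_le_one_right (by positivity) ?_)
  refine Real.exp_le_one_iff.2 ?_
  rw [neg_div]
  have : 0 ≤ y ^ 2 / (4 * u ^ 2) := by positivity
  linarith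

private theorem k2_Kt_le {u : ℝ} (hu : 0 < u) (y : ℝ) : |Kt u y| ≤ 11 / u := by
  have h1 := Kt_add_Dk (t := y) hu
  have h2 := k2_Dk_le hu y
  have h4 := k2_ind_le hu y
  have h5 : Kt u y = (if u ≤ |y| then 1 / y else 0) - Dk u y := by linarith
  rw [h5]
  refine (abs_sub _ _).trans ?_
  have h6 : (11 : ℝ) / u = 1 / u + 10 / u := by ring
  rw [h6]
  exact add_le_add h4 h2

private theorem k2_meas_Kt (u : ℝ) : Measurable (Kt u) := by
  unfold Kt
  fun_prop

private theorem k2_meas_ind (u : ℝ) : Measurable (fun y : ℝ => if u ≤ |y| then 1 / y else 0) :=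
  Measurable.ite (measurableSet_le measurable_const measurable_id.abs)
    (measurable_const.div measurable_id) measurable_const

private theorem k2_int_g {s : ℝ} (hs : 0 < s) (t : ℝ) :
    Integrable (fun y => gk1 (s / 2) (t - y)) :=
  (integrable_gk1 (show 0 < s / 2 by positivity)).comp_sub_left t

private theorem k2_int_g' {s : ℝ} (hs : 0 < s) (t : ℝ) :
    Integrable (fun y => gk1 (s / 2) (t + y)) :=
  (integrable_gk1 (show 0 < s / 2 by positivity)).comp_add_left t

private theorem k2_int_ind {u s : ℝ} (hu : 0 < u) (hs : 0 < s) (t : ℝ) :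
    Integrable (fun y => (if u ≤ |y| then 1 / y else 0) * gk1 (s / 2) (t - y)) :=
  (k2_int_g hs t).bdd_mul (c := 1 / u) (k2_meas_ind u).aestronglyMeasurable
    (Eventually.of_forall fun y => k2_ind_le hu y)

private theorem k2_int_Kt {u s : ℝ} (hu : 0 < u) (hs : 0 < s) (t : ℝ) :
    Integrable (fun y => Kt u y * gk1 (s / 2) (t - y)) :=
  (k2_int_g hs t).bdd_mul (c := 11 / u) (k2_meas_Kt u).aestronglyMeasurable
    (Eventually.of_forall fun y => k2_Kt_le hu y)

private theorem k2_int_Dk {u s : ℝ} (hu : 0 < u) (hs : 0 < s) (t : ℝ) :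
    Integrable (fun y => Dk u y * gk1 (s / 2) (t - y)) :=
  (k2_int_g hs t).bdd_mul (c := 10 / u) (measurable_Dk u).aestronglyMeasurable
    (Eventually.of_forall fun y => k2_Dk_le hu y)

private theorem k2_int_ind_eq {u s : ℝ} (hu : 0 < u) (hs : 0 < s) (t : ℝ) :
    ∫ y, (if u ≤ |y| then 1 / y else 0) * gk1 (s / 2) (t - y) =
      ∫ y in Ioi u, y⁻¹ * hh s t y := by
  set f : ℝ → ℝ := fun y => (if u ≤ |y| then 1 / y else 0) * gk1 (s / 2) (t - y) with hf
  have hfi : Integrable f := k2_int_ind hu hs t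
  have h1 := intervalIntegral.integral_Iic_add_Ioi (b := 0) hfi.integrableOn hfi.integrableOn
  have h2 := integral_comp_neg_Ioi 0 f
  rw [neg_zero] at h2
  rw [← h1, ← h2, ← integral_add hfi.comp_neg.integrableOn hfi.integrableOn]
  have h3 : EqOn (fun y => f (-y) + f y) (indicator (Ici u) fun y => y⁻¹ * hh s t y) (Ioi 0) := by
    intro y hy
    have hy' : (0 : ℝ) < y := hy
    simp only [hf, abs_neg, abs_of_pos hy']
    by_cases h : u ≤ y
    · rw [indicator_of_mem (show y ∈ Ici u from h)]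
      simp only [if_pos h, hh, sub_neg_eq_add, one_div, inv_neg]
      ring
    · rw [indicator_of_notMem (show y ∉ Ici u from h)]
      simp only [if_neg h]
      ring
  rw [setIntegral_congr_fun measurableSet_Ioi h3, setIntegral_indicator measurableSet_Ici,
    ← integral_Ici_eq_integral_Ioi]
  congr 2
  ext y
  constructor
  · exact fun h => h.2
  · exact fun h => ⟨lt_of_lt_of_le hu h, h⟩

private theorem gam_split {u s : ℝ} (hu : 0 < u) (hs : 0 < s) (t : ℝ) :
    gam u s t = Real.sqrt s * ((∫ y in Ioi u, y⁻¹ * hh s t y) -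
      ∫ y, Kt u y * gk1 (s / 2) (t - y)) := by
  rw [gam, ← k2_int_ind_eq hu hs t, ← integral_sub (k2_int_ind hu hs t) (k2_int_Kt hu hs t)]
  congr 1
  refine integral_congr_ae (Eventually.of_forall fun y => ?_)
  simp only
  have h1 := Kt_add_Dk (t := y) hu
  rw [← h1]
  ring

private theorem k2_sqrt_eq : 2 * Real.sqrt (Real.pi / 2) = Real.sqrt (2 * Real.pi) := by
  rw [show 2 * Real.pi = 2 ^ 2 * (Real.pi / 2) by ring, Real.sqrt_mul (by positivity),
    Real.sqrt_sq (by norm_num)]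

private theorem hasDerivAt_Kt {u : ℝ} (hu : 0 < u) (y : ℝ) :
    HasDerivAt (fun u => Kt u y) (-(2 * Real.sqrt (Real.pi / 2) * u ^ 2 * gk3 (u ^ 2) y)) u := by
  rcases eq_or_ne y 0 with rfl | hy
  · have h1 : (fun u => Kt u 0) = fun _ => 0 := by
      ext v
      simp [Kt]
    rw [h1]
    have h2 : gk3 (u ^ 2) 0 = 0 := by simp [gk3]
    rw [h2, mul_zero, neg_zero]
    exact hasDerivAt_const _ _
  · have hu0 := hu.ne'
    have h0 : HasDerivAt (fun u : ℝ => u ^ 2) (2 * u) u := by
      simpa using hasDerivAt_pow 2 u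
    have h1 : HasDerivAt (fun u : ℝ => y ^ 2 / u ^ 2) (-(2 * y ^ 2 / u ^ 3)) u := by
      have h := (hasDerivAt_const u (y ^ 2)).div h0 (pow_ne_zero 2 hu0)
      have e : (0 * u ^ 2 - y ^ 2 * (2 * u)) / (u ^ 2) ^ 2 = -(2 * y ^ 2 / u ^ 3) := by
        field_simp
        ring
      rw [← e]
      exact h
    have h2 : HasDerivAt (fun u : ℝ => -y ^ 2 / (2 * u ^ 2)) (y ^ 2 / u ^ 3) u := by
      have h := (hasDerivAt_const u (-y ^ 2)).div (h0.const_mul 2) (by positivity)
      have e : (0 * (2 * u ^ 2) - -y ^ 2 * (2 * (2 * u))) / (2 * u ^ 2) ^ 2 = y ^ 2 / u ^ 3 := by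
        field_simp
        ring
      rw [← e]
      exact h
    have h3 : HasDerivAt (fun u => (1 - (1 - y ^ 2 / u ^ 2) * Real.exp (-y ^ 2 / (2 * u ^ 2))) / y)
        ((-(-(-(2 * y ^ 2 / u ^ 3)) * Real.exp (-y ^ 2 / (2 * u ^ 2)) + (1 - y ^ 2 / u ^ 2) *
          (Real.exp (-y ^ 2 / (2 * u ^ 2)) * (y ^ 2 / u ^ 3)))) / y) u :=
      (((h1.const_sub 1).mul h2.exp).const_sub 1).div_const y
    have e : -(2 * Real.sqrt (Real.pi / 2) * u ^ 2 * gk3 (u ^ 2) y) =
        (-(-(-(2 * y ^ 2 / u ^ 3)) * Real.exp (-y ^ 2 / (2 * u ^ 2)) + (1 - y ^ 2 / u ^ 2) *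
          (Real.exp (-y ^ 2 / (2 * u ^ 2)) * (y ^ 2 / u ^ 3)))) / y := by
      unfold gk3 gk
      have hP : 0 < Real.sqrt (2 * Real.pi) := Real.sqrt_pos.2 (by positivity)
      rw [k2_sqrt_eq, Real.sqrt_mul (by positivity) (u ^ 2), Real.sqrt_sq hu.le]
      generalize Real.sqrt (2 * Real.pi) = P at hP
      generalize Real.exp (-y ^ 2 / (2 * u ^ 2)) = X
      field_simp
      ring
    rw [e]
    exact h3

private theorem k2_gk3_le {u : ℝ} (hu : 0 < u) (y : ℝ) :
    |-(2 * Real.sqrt (Real.pi / 2) * u ^ 2 * gk3 (u ^ 2) y)| ≤ 30 / u ^ 2 := by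
  have h1 := abs_gk3_le (show 0 < u ^ 2 by positivity) y
  have h2 := k2_gk_le (t := 2 * u ^ 2) (t' := u ^ 2) (by positivity) (by nlinarith [sq_nonneg u]) y
  rw [Real.sqrt_sq hu.le] at h1 h2
  have h3 : Real.exp (-y ^ 2 / (2 * (2 * u ^ 2))) ≤ 1 := by
    refine Real.exp_le_one_iff.2 ?_
    rw [neg_div]
    have : 0 ≤ y ^ 2 / (2 * (2 * u ^ 2)) := by positivity
    linarith
  rw [abs_neg, abs_mul, abs_of_nonneg (show 0 ≤ 2 * Real.sqrt (Real.pi / 2) * u ^ 2 by positivity)]
  have h4 : |gk3 (u ^ 2) y| ≤ 10 / (u ^ 2 * u) * (1 / u) :=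
    h1.trans (mul_le_mul_of_nonneg_left (h2.trans (div_le_div_of_nonneg_right h3 hu.le))
      (by positivity))
  calc 2 * Real.sqrt (Real.pi / 2) * u ^ 2 * |gk3 (u ^ 2) y|
      ≤ 3 * u ^ 2 * (10 / (u ^ 2 * u) * (1 / u)) :=
        mul_le_mul (mul_le_mul_of_nonneg_right k2_sqrt_le (by positivity)) h4 (abs_nonneg _)
          (by positivity)
    _ = 30 / u ^ 2 := by
        field_simp
        ring

private theorem hasDerivAt_int_Kt {u s : ℝ} (hu : 0 < u) (hs : 0 < s) (t : ℝ) :
    HasDerivAt (fun u => ∫ y, Kt u y * gk1 (s / 2) (t - y))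
      (-(2 * Real.sqrt (Real.pi / 2) * u ^ 2 * gk4 (u ^ 2 + s / 2) t)) u := by
  have hs2 : 0 < s / 2 := by positivity
  have hu2 : 0 < u ^ 2 := by positivity
  have hc3 : Continuous (gk3 (u ^ 2)) :=
    continuous_iff_continuousAt.mpr fun x => (hasDerivAt_gk3 hu2 x).continuousAt
  have h := (hasDerivAt_integral_of_dominated_loc_of_deriv_le (μ := volume) (𝕜 := ℝ)
    (F := fun u y => Kt u y * gk1 (s / 2) (t - y)) (x₀ := u) (s := Ioi (u / 2))
    (F' := fun u y => -(2 * Real.sqrt (Real.pi / 2) * u ^ 2 * gk3 (u ^ 2) y) *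
      gk1 (s / 2) (t - y))
    (bound := fun y => 120 / u ^ 2 * |gk1 (s / 2) (t - y)|)
    (Ioi_mem_nhds (by linarith))
    (Eventually.of_forall fun v => ((k2_meas_Kt v).mul
      ((continuous_gk1 hs2).comp (continuous_const.sub continuous_id)).measurable).aestronglyMeasurable)
    (k2_int_Kt hu hs t)
    ((((hc3.const_smul (2 * Real.sqrt (Real.pi / 2) * u ^ 2)).neg).mul
      ((continuous_gk1 hs2).comp (continuous_const.sub continuous_id))).aestronglyMeasurable)
    (Eventually.of_forall fun y v hv => ?_)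
    ((k2_int_g hs t).abs.const_mul _)
    (Eventually.of_forall fun y v hv => ?_)).2
  · have e : ∫ y, -(2 * Real.sqrt (Real.pi / 2) * u ^ 2 * gk3 (u ^ 2) y) * gk1 (s / 2) (t - y) =
        -(2 * Real.sqrt (Real.pi / 2) * u ^ 2 * gk4 (u ^ 2 + s / 2) t) := by
      rw [← gk3_conv_gk1 hu2 hs2 t,
        ← integral_sub_left_eq_self (fun y => gk3 (u ^ 2) (t - y) * gk1 (s / 2) y) volume t,
        ← integral_const_mul, ← integral_neg]
      refine integral_congr_ae (Eventually.of_forall fun y => ?_)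
      simp only [sub_sub_cancel]
      ring
    rw [← e]
    exact h
  · have hv0 : 0 < v := lt_trans (by positivity) hv
    have hv1 : u / 2 < v := hv
    rw [norm_mul, Real.norm_eq_abs, Real.norm_eq_abs]
    refine mul_le_mul_of_nonneg_right ((k2_gk3_le hv0 y).trans ?_) (abs_nonneg _)
    rw [div_le_div_iff₀ (by positivity) (by positivity)]
    nlinarith
  · have hv0 : 0 < v := lt_trans (by positivity) hv
    exact (hasDerivAt_Kt hv0 y).mul_const _

private theorem continuousOn_f {s : ℝ} (hs : 0 < s) (t : ℝ) :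
    ContinuousOn (fun y => y⁻¹ * hh s t y) (Ioi 0) := by
  have c1 := continuous_gk1 (show 0 < s / 2 by positivity)
  refine ContinuousOn.mul (continuousOn_inv₀.mono ?_) ?_
  · intro y hy
    exact ne_of_gt hy
  · exact ((c1.comp (continuous_const.sub continuous_id)).sub
      (c1.comp (continuous_const.add continuous_id))).continuousOn

private theorem integrableOn_f {s a : ℝ} (hs : 0 < s) (ha : 0 < a) (t : ℝ) :
    IntegrableOn (fun y => y⁻¹ * hh s t y) (Ioi a) := by
  have h1 : Integrable (fun y => hh s t y) := (k2_int_g hs t).sub (k2_int_g' hs t)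
  refine Integrable.mono' ((h1.abs.const_mul a⁻¹).restrict (s := Ioi a)) ?_ ?_
  · exact ((continuousOn_f hs t).mono fun y hy => ha.trans hy).aestronglyMeasurable
      measurableSet_Ioi
  · refine (ae_restrict_iff' measurableSet_Ioi).2 (Eventually.of_forall fun y hy => ?_)
    have hy0 : 0 < y := ha.trans hy
    rw [norm_mul, Real.norm_eq_abs, Real.norm_eq_abs, abs_of_pos (inv_pos.2 hy0)]
    exact mul_le_mul_of_nonneg_right (inv_anti₀ ha (le_of_lt hy)) (abs_nonneg _)

private theorem hasDerivAt_int_f {u s : ℝ} (hu : 0 < u) (hs : 0 < s) (t : ℝ) :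
    HasDerivAt (fun u => ∫ y in Ioi u, y⁻¹ * hh s t y) (-(u⁻¹ * hh s t u)) u := by
  have ha : 0 < u / 2 := by positivity
  have h1 : (fun v => (∫ y in Ioi (u / 2), y⁻¹ * hh s t y) - ∫ y in (u / 2)..v, y⁻¹ * hh s t y)
      =ᶠ[𝓝 u] fun v => ∫ y in Ioi v, y⁻¹ * hh s t y := by
    filter_upwards [Ioi_mem_nhds (show u / 2 < u by linarith)] with v hv
    rw [← intervalIntegral.integral_Ioi_sub_Ioi (integrableOn_f hs ha t) (le_of_lt hv)]
    ring
  have hc := continuousOn_f hs t
  have h2 : HasDerivAt (fun v => ∫ y in (u / 2)..v, y⁻¹ * hh s t y) (u⁻¹ * hh s t u) u := by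
    refine intervalIntegral.integral_hasDerivAt_right ?_ ?_ ?_
    · refine (hc.mono ?_).intervalIntegrable
      rw [uIcc_of_le (by linarith)]
      intro y hy
      exact ha.trans_le hy.1
    · exact hc.stronglyMeasurableAtFilter isOpen_Ioi u hu
    · exact hc.continuousAt (Ioi_mem_nhds hu)
  have h3 := h2.const_sub (∫ y in Ioi (u / 2), y⁻¹ * hh s t y)
  exact h3.congr_of_eventuallyEq h1.symm

/-- `Dk u y = 1_{|y| ≥ u}/y - Kt u y`; `d/du ∫_{|y|≥u} y⁻¹ g'(t-y) dy = -(1/u)(g'(t-u) - g'(t+u))`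
(fundamental theorem of calculus) and `∂_u Kt u y = -2 √(π/2) u² gk3 (u²) y` (direct computation), with
`∫ gk3 (u²) y * gk1 (s/2) (t-y) dy = gk4 (u²+s/2) t`. -/
theorem hasDerivAt_gam {u s : ℝ} (hu : 0 < u) (hs : 0 < s) (t : ℝ) :
    HasDerivAt (fun u => gam u s t) (dgam u s t) u := by
  have h1 : (fun v => Real.sqrt s * ((∫ y in Ioi v, y⁻¹ * hh s t y) -
      ∫ y, Kt v y * gk1 (s / 2) (t - y))) =ᶠ[𝓝 u] fun v => gam v s t := by
    filter_upwards [Ioi_mem_nhds hu] with v hv
    exact (gam_split hv hs t).symm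
  have h2 := ((hasDerivAt_int_f hu hs t).sub (hasDerivAt_int_Kt hu hs t)).const_mul (Real.sqrt s)
  have h3 : Real.sqrt s * (-(u⁻¹ * hh s t u) -
      -(2 * Real.sqrt (Real.pi / 2) * u ^ 2 * gk4 (u ^ 2 + s / 2) t)) = dgam u s t := by
    unfold dgam hh
    ring
  rw [← h3]
  exact h2.congr_of_eventuallyEq h1.symm

/-- `|gam u s t| ≤ √s ‖D_u‖₁ sup |g'|… → 0`; better: `D_u` is odd so
`gam u s t = √s ∫ D_u(y) (g'(t-y) - g'(t)) dy`. -/
theorem gam_tendsto_zero {s : ℝ} (hs : 0 < s) (t : ℝ) :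
    Tendsto (fun u => gam u s t) (𝓝[>] 0) (𝓝 0) := by
  have hs2 : 0 < s / 2 := by positivity
  have hr : 0 < Real.sqrt s := Real.sqrt_pos.2 hs
  set M : ℝ := 4 / s * (1 / Real.sqrt s) with hM
  have hM0 : 0 < M := by positivity
  have hg2 : ∀ x, ‖gk2 (s / 2) x‖ ≤ M := by
    intro x
    rw [Real.norm_eq_abs]
    have h1 := abs_gk2_le hs2 x
    have h2 := k2_gk_le (t := 2 * (s / 2)) (t' := s) hs (by linarith) x
    have h3 : Real.exp (-x ^ 2 / (2 * (2 * (s / 2)))) ≤ 1 := by
      refine Real.exp_le_one_iff.2 ?_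
      rw [neg_div]
      have : 0 ≤ x ^ 2 / (2 * (2 * (s / 2))) := by positivity
      linarith
    refine h1.trans ?_
    rw [hM, show (2 : ℝ) / (s / 2) = 4 / s by field_simp; norm_num]
    exact mul_le_mul_of_nonneg_left (h2.trans (div_le_div_of_nonneg_right h3 hr.le)) (by positivity)
  have hmvt : ∀ y, |gk1 (s / 2) (t - y) - gk1 (s / 2) t| ≤ M * |y| := by
    intro y
    have h := Convex.norm_image_sub_le_of_norm_hasDerivWithin_le (s := univ) (x := t) (y := t - y)
      (fun x _ => (hasDerivAt_gk1 hs2 x).hasDerivWithinAt) (fun x _ => hg2 x) convex_univ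
      (mem_univ _) (mem_univ _)
    rwa [Real.norm_eq_abs, Real.norm_eq_abs, sub_sub_cancel_left, abs_neg] at h
  have key : ∀ u, 0 < u → ‖gam u s t‖ ≤ Real.sqrt s * (30 * M * Real.sqrt (8 * Real.pi)) * u := by
    intro u hu
    have h1 : gam u s t =
        Real.sqrt s * ∫ y, Dk u y * (gk1 (s / 2) (t - y) - gk1 (s / 2) t) := by
      rw [gam]
      congr 1
      have h2 : ∫ y, Dk u y * (gk1 (s / 2) (t - y) - gk1 (s / 2) t) =
          (∫ y, Dk u y * gk1 (s / 2) (t - y)) - ∫ y, Dk u y * gk1 (s / 2) t := by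
        rw [← integral_sub (k2_int_Dk hu hs t) ((integrable_Dk hu).mul_const _)]
        refine integral_congr_ae (Eventually.of_forall fun y => ?_)
        simp only
        ring
      rw [h2, integral_mul_const, integral_Dk hu, zero_mul, sub_zero]
    rw [h1, norm_mul, Real.norm_eq_abs, abs_of_pos hr, mul_assoc]
    refine mul_le_mul_of_nonneg_left ?_ hr.le
    have hb : 0 < 1 / (8 * u ^ 2) := by positivity
    have h3 : ∀ y, ‖Dk u y * (gk1 (s / 2) (t - y) - gk1 (s / 2) t)‖ ≤
        30 * M * Real.exp (-(1 / (8 * u ^ 2)) * y ^ 2) := by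
      intro y
      rw [norm_mul, Real.norm_eq_abs, Real.norm_eq_abs]
      have h4 := abs_Dk_le hu y
      have h5 := hmvt y
      have h6 : Real.exp (-y ^ 2 / (4 * u ^ 2)) = Real.exp (-(1 / (8 * u ^ 2)) * y ^ 2) *
          Real.exp (-(y ^ 2 / (8 * u ^ 2))) := by
        rw [← Real.exp_add]
        congr 1
        field_simp
        ring
      have h7 : |y| * Real.exp (-(y ^ 2 / (8 * u ^ 2))) ≤ 3 * u := by
        refine mul_exp_neg_le ?_
        have h8 : 1 + y ^ 2 / (8 * u ^ 2) ≤ Real.exp (y ^ 2 / (8 * u ^ 2)) := by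
          rw [add_comm]
          exact Real.add_one_le_exp _
        refine le_trans ?_ (mul_le_mul_of_nonneg_left h8 (by positivity))
        have h9 : 3 * u * (1 + y ^ 2 / (8 * u ^ 2)) - |y| =
            (3 * (2 * |y| / 4 - 2 * u / 3) ^ 2 / u / 2 + 7 / 3 * u) := by
          rw [← sq_abs y]
          field_simp
          ring
        have h10 : 0 ≤ 3 * (2 * |y| / 4 - 2 * u / 3) ^ 2 / u / 2 + 7 / 3 * u := by positivity
        linarith
      calc |Dk u y| * |gk1 (s / 2) (t - y) - gk1 (s / 2) t|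
          ≤ (10 / u * Real.exp (-y ^ 2 / (4 * u ^ 2))) * (M * |y|) :=
            mul_le_mul h4 h5 (abs_nonneg _) (by positivity)
        _ = (10 / u * M * Real.exp (-(1 / (8 * u ^ 2)) * y ^ 2)) *
            (|y| * Real.exp (-(y ^ 2 / (8 * u ^ 2)))) := by
            rw [h6]
            ring
        _ ≤ (10 / u * M * Real.exp (-(1 / (8 * u ^ 2)) * y ^ 2)) * (3 * u) :=
            mul_le_mul_of_nonneg_left h7 (by positivity)
        _ = 30 * M * Real.exp (-(1 / (8 * u ^ 2)) * y ^ 2) := by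
            field_simp
            ring
    have h4 := norm_integral_le_of_norm_le ((integrable_exp_neg_mul_sq hb).const_mul (30 * M))
      (Eventually.of_forall h3)
    refine h4.trans_eq ?_
    rw [integral_const_mul, integral_gaussian, show Real.pi / (1 / (8 * u ^ 2)) =
      (8 * Real.pi) * u ^ 2 by field_simp, Real.sqrt_mul (by positivity), Real.sqrt_sq hu.le]
    ring
  have h0 : Tendsto (fun u : ℝ => Real.sqrt s * (30 * M * Real.sqrt (8 * Real.pi)) * u) (𝓝[>] 0)
      (𝓝 0) := by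
    have h1 : Tendsto (fun u : ℝ => Real.sqrt s * (30 * M * Real.sqrt (8 * Real.pi)) * u) (𝓝 0)
        (𝓝 (Real.sqrt s * (30 * M * Real.sqrt (8 * Real.pi)) * 0)) :=
      tendsto_const_nhds.mul tendsto_id
    rw [mul_zero] at h1
    exact h1.mono_left nhdsWithin_le_nhds
  refine squeeze_zero_norm' ?_ h0
  filter_upwards [self_mem_nhdsWithin] with u hu
  exact key u hu

end Crest.Agent.TH
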