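import Crest.Agent.TH_K1
import Crest.Agent.TH_K2

/-! # TH_B1 (task TH-B1): heat representation of the rough part -/

set_option autoImplicit false
open Matrix MeasureTheory Set Filter
open scoped Topology ENNReal

namespace Crest.Agent.TH
variable {N : ℕ} {η : ℝ}

private theorem B1_exp_le (t x : ℝ) (_ht : 0 < t) : 1 + x ^ 2 / (2 * t) ≤ Real.exp (x ^ 2 / (2 * t)) := by
  have := Real.add_one_le_exp (x ^ 2 / (2 * t))
  linarith

private theorem B1_gk_eq (t x : ℝ) : gk t x = (Real.exp (x ^ 2 / (2 * t)))⁻¹ / Real.sqrt (2 * Real.pi * t) := by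
  unfold gk
  rw [← Real.exp_neg]
  congr 2
  ring

private theorem B1_gk_le {t : ℝ} (ht : 0 < t) (x : ℝ) : |gk t x| ≤ 1 / Real.sqrt (2 * Real.pi * t) := by
  rw [abs_of_pos (gk_pos ht x), B1_gk_eq]
  have h1 := B1_exp_le t x ht
  have h2 : 0 ≤ x ^ 2 / (2 * t) := by positivity
  gcongr
  exact inv_le_one_of_one_le₀ (by linarith)

private theorem B1_gk1_le {t : ℝ} (ht : 0 < t) (x : ℝ) :
    |gk1 t x| ≤ 1 / (Real.sqrt t * Real.sqrt (2 * Real.pi * t)) := by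
  unfold gk1
  rw [abs_mul, abs_of_pos (gk_pos ht x), B1_gk_eq, abs_neg, abs_div, abs_of_pos ht]
  have hs : 0 < Real.sqrt t := Real.sqrt_pos.2 ht
  have hss : Real.sqrt t * Real.sqrt t = t := Real.mul_self_sqrt ht.le
  have h1 := B1_exp_le t x ht
  have hE : 0 < Real.exp (x ^ 2 / (2 * t)) := Real.exp_pos _
  have hp : 0 < Real.sqrt (2 * Real.pi * t) := Real.sqrt_pos.2 (by positivity)
  have h3 : |x| / Real.sqrt t ≤ 1 + x ^ 2 / (2 * t) := by
    have h4 : (|x| / Real.sqrt t) ^ 2 = x ^ 2 / t := by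
      rw [div_pow, sq_abs, Real.sq_sqrt ht.le]
    have h5 : x ^ 2 / (2 * t) = (x ^ 2 / t) / 2 := by
      field_simp
    rw [h5, ← h4]
    nlinarith [sq_nonneg (|x| / Real.sqrt t - 1)]
  have h6 : |x| / t = |x| / Real.sqrt t / Real.sqrt t := by
    rw [div_div, hss]
  rw [h6]
  have h7 : |x| / Real.sqrt t * (Real.exp (x ^ 2 / (2 * t)))⁻¹ ≤ 1 := by
    rw [← div_eq_mul_inv, div_le_one hE]
    linarith
  calc |x| / Real.sqrt t / Real.sqrt t * ((Real.exp (x ^ 2 / (2 * t)))⁻¹ / Real.sqrt (2 * Real.pi * t))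
      = (|x| / Real.sqrt t * (Real.exp (x ^ 2 / (2 * t)))⁻¹) / (Real.sqrt t * Real.sqrt (2 * Real.pi * t)) := by
        field_simp
    _ ≤ 1 / (Real.sqrt t * Real.sqrt (2 * Real.pi * t)) := by gcongr

private theorem B1_gk2_le {t : ℝ} (ht : 0 < t) (x : ℝ) :
    |gk2 t x| ≤ 2 / (t * Real.sqrt (2 * Real.pi * t)) := by
  unfold gk2
  rw [abs_mul, abs_of_pos (gk_pos ht x), B1_gk_eq]
  have h1 := B1_exp_le t x ht
  have hE : 0 < Real.exp (x ^ 2 / (2 * t)) := Real.exp_pos _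
  have hp : 0 < Real.sqrt (2 * Real.pi * t) := Real.sqrt_pos.2 (by positivity)
  have h3 : |x ^ 2 / t ^ 2 - 1 / t| ≤ 2 / t * Real.exp (x ^ 2 / (2 * t)) := by
    have h4 : |x ^ 2 / t ^ 2 - 1 / t| ≤ x ^ 2 / t ^ 2 + 1 / t := by
      refine (abs_sub _ _).trans ?_
      rw [abs_of_nonneg (by positivity : 0 ≤ x ^ 2 / t ^ 2), abs_of_nonneg (by positivity : 0 ≤ 1 / t)]
    have h5 : x ^ 2 / t ^ 2 + 1 / t = 1 / t * (2 * (x ^ 2 / (2 * t)) + 1) := by
      field_simp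
    have h6 : (0 : ℝ) < 1 / t := by positivity
    calc |x ^ 2 / t ^ 2 - 1 / t| ≤ 1 / t * (2 * (x ^ 2 / (2 * t)) + 1) := h4.trans h5.le
      _ ≤ 1 / t * (2 * Real.exp (x ^ 2 / (2 * t))) := by
        gcongr
        linarith
      _ = 2 / t * Real.exp (x ^ 2 / (2 * t)) := by ring
  calc |x ^ 2 / t ^ 2 - 1 / t| * ((Real.exp (x ^ 2 / (2 * t)))⁻¹ / Real.sqrt (2 * Real.pi * t))
      ≤ (2 / t * Real.exp (x ^ 2 / (2 * t))) * ((Real.exp (x ^ 2 / (2 * t)))⁻¹ / Real.sqrt (2 * Real.pi * t)) := by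
        gcongr
    _ = 2 / (t * Real.sqrt (2 * Real.pi * t)) := by
        field_simp

private theorem B1_cont_gk (t : ℝ) : Continuous (gk t) := by
  unfold gk
  fun_prop

private theorem B1_cont_gk1 (t : ℝ) : Continuous (gk1 t) := by
  unfold gk1
  exact (by fun_prop : Continuous fun x : ℝ => -(x / t)).mul (B1_cont_gk t)

private theorem B1_cont_gk2 (t : ℝ) : Continuous (gk2 t) := by
  unfold gk2
  exact (by fun_prop : Continuous fun x : ℝ => x ^ 2 / t ^ 2 - 1 / t).mul (B1_cont_gk t)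

/-- `gam(u,s) * ψ_s = s (D_u * g_s'')` (`ψ_s = √s g'_{s/2}`, `g'_{s/2} * g'_{s/2} = g_s''`). -/
theorem cpsi_gam {u s : ℝ} (hu : 0 < u) (hs : 0 < s) (t : ℝ) :
    cpsi (gam u s) s t = s * ∫ y, Dk u y * gk2 s (t - y) := by
  have hs2 : 0 < s / 2 := by positivity
  have hss : Real.sqrt s * Real.sqrt s = s := Real.mul_self_sqrt hs.le
  have hint : Integrable (Function.uncurry fun y z : ℝ => Dk u z * gk1 (s / 2) (t - y - z) * gk1 (s / 2) y)
      (volume.prod volume) := by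
    have h1 : Integrable (fun p : ℝ × ℝ => gk1 (s / 2) p.1 * Dk u p.2) (volume.prod volume) :=
      (integrable_gk1 hs2).mul_prod (integrable_Dk hu)
    have h2 := h1.bdd_mul (c := 1 / (Real.sqrt (s / 2) * Real.sqrt (2 * Real.pi * (s / 2))))
      (f := fun p : ℝ × ℝ => gk1 (s / 2) (t - p.1 - p.2))
      (((B1_cont_gk1 (s / 2)).comp (by fun_prop)).aestronglyMeasurable)
      (Eventually.of_forall fun p => B1_gk1_le hs2 _)
    refine h2.congr (Eventually.of_forall fun p => ?_)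
    simp only [Function.uncurry]
    ring
  calc cpsi (gam u s) s t
      = ∫ y, ∫ z, s * (Dk u z * gk1 (s / 2) (t - y - z) * gk1 (s / 2) y) := by
        unfold cpsi gam psi
        refine integral_congr_ae (Eventually.of_forall fun y => ?_)
        simp only
        rw [integral_const_mul, integral_mul_const]
        linear_combination (∫ z, Dk u z * gk1 (s / 2) (t - y - z)) * gk1 (s / 2) y * hss
    _ = ∫ z, ∫ y, s * (Dk u z * gk1 (s / 2) (t - y - z) * gk1 (s / 2) y) := by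
        refine integral_integral_swap ?_
        exact hint.const_mul s
    _ = ∫ z, s * (Dk u z * gk2 s (t - z)) := by
        refine integral_congr_ae (Eventually.of_forall fun z => ?_)
        simp only
        rw [integral_const_mul]
        congr 1
        have h3 := gk1_conv hs2 hs2 (t - z)
        rw [add_halves] at h3
        rw [← h3, ← integral_const_mul]
        refine integral_congr_ae (Eventually.of_forall fun y => ?_)
        simp only
        rw [show t - z - y = t - y - z by ring]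
        ring
    _ = s * ∫ y, Dk u y * gk2 s (t - y) := integral_const_mul _ _

/-! ### the law of the sum of three points of the cells -/

private noncomputable def B1_m (η : ℝ) (k : Fin (2 * N)) : Measure ℝ :=
  volume.restrict (Ioc (lft η k) (lft η k + η))

private instance B1_m_fin (η : ℝ) (k : Fin (2 * N)) : IsFiniteMeasure (B1_m η k) := by
  unfold B1_m
  infer_instance

private instance B1_m_noAtoms (η : ℝ) (k : Fin (2 * N)) : NullSingletonClass (B1_m η k) := by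
  unfold B1_m
  infer_instance

private noncomputable def B1_mu (η : ℝ) (k₀ k₁ k₂ : Fin (2 * N)) : Measure ℝ :=
  ((B1_m η k₀).prod ((B1_m η k₁).prod (B1_m η k₂))).map (fun p => p.1 + p.2.1 + p.2.2)

private instance B1_mu_fin (η : ℝ) (k₀ k₁ k₂ : Fin (2 * N)) : IsFiniteMeasure (B1_mu η k₀ k₁ k₂) := by
  unfold B1_mu
  infer_instance

private theorem B1_sum_meas : Measurable (fun p : ℝ × ℝ × ℝ => p.1 + p.2.1 + p.2.2) := by fun_prop

private theorem B1_mu_ae (k₀ k₁ k₂ : Fin (2 * N)) (c : ℝ) : ∀ᵐ t ∂(B1_mu η k₀ k₁ k₂), t ≠ c := by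
  unfold B1_mu
  have hm : MeasurableSet {t : ℝ | t ≠ c} := (measurableSet_singleton c).compl
  rw [ae_map_iff B1_sum_meas.aemeasurable hm, ae_iff]
  have h1 : MeasurableSet {p : ℝ × ℝ × ℝ | ¬ (p.1 + p.2.1 + p.2.2 ≠ c)} := by
    have : {p : ℝ × ℝ × ℝ | ¬ (p.1 + p.2.1 + p.2.2 ≠ c)} =
        (fun p : ℝ × ℝ × ℝ => p.1 + p.2.1 + p.2.2) ⁻¹' {c} := by
      ext p
      simp
    rw [this]
    exact B1_sum_meas (measurableSet_singleton c)
  rw [Measure.prod_apply_symm h1]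
  refine (lintegral_congr fun y => ?_).trans lintegral_zero
  have h2 : (fun x => (x, y)) ⁻¹' {p : ℝ × ℝ × ℝ | ¬ (p.1 + p.2.1 + p.2.2 ≠ c)} = {c - y.1 - y.2} := by
    ext x
    simp only [mem_preimage, mem_ofPred_eq, not_not, mem_singleton_iff]
    constructor <;> intro h <;> linarith
  rw [h2]
  exact measure_singleton _

private theorem B1_Jc_eq (hη : 0 < η) (k₀ k₁ k₂ : Fin (2 * N)) {κ : ℝ → ℝ} (hκ : Measurable κ) {C : ℝ}
    (hC : ∀ t, |κ t| ≤ C) : Jc η k₀ k₁ k₂ κ = ∫ t, κ t ∂(B1_mu η k₀ k₁ k₂) := by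
  unfold B1_mu Jc
  rw [integral_map B1_sum_meas.aemeasurable hκ.aestronglyMeasurable, integral_prod]
  · rw [intervalIntegral.integral_of_le (by linarith)]
    refine integral_congr_ae (Eventually.of_forall fun x₀ => ?_)
    simp only
    rw [integral_prod]
    · rw [intervalIntegral.integral_of_le (by linarith)]
      refine integral_congr_ae (Eventually.of_forall fun x₁ => ?_)
      simp only
      rw [intervalIntegral.integral_of_le (by linarith)]
      rfl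
    · refine Integrable.of_bound ?_ C (Eventually.of_forall fun p => hC _)
      exact (hκ.comp (by fun_prop)).aestronglyMeasurable
  · refine Integrable.of_bound ?_ C (Eventually.of_forall fun p => hC _)
    exact (hκ.comp B1_sum_meas).aestronglyMeasurable

private theorem B1_mu_integrable (k₀ k₁ k₂ : Fin (2 * N)) {κ : ℝ → ℝ} (hκ : Measurable κ) {C : ℝ}
    (hC : ∀ t, |κ t| ≤ C) : Integrable κ (B1_mu η k₀ k₁ k₂) :=
  Integrable.of_bound hκ.aestronglyMeasurable C (Eventually.of_forall fun _ => hC _)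

/-! ### `b_s(y) = ∫ g_s''(t-y) dμ(t)` is bounded -/

private theorem B1_gk_int (hη : 0 < η) {s : ℝ} (hs : 0 < s) (k : Fin (2 * N)) (a : ℝ) :
    0 ≤ (∫ x in (lft η k)..(lft η k + η), gk s (x + a)) ∧
      (∫ x in (lft η k)..(lft η k + η), gk s (x + a)) ≤ 1 := by
  rw [intervalIntegral.integral_of_le (by linarith)]
  constructor
  · exact integral_nonneg (fun x => (gk_pos hs _).le)
  · calc (∫ x in Ioc (lft η k) (lft η k + η), gk s (x + a)) ≤ ∫ x, gk s (x + a) := by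
          refine setIntegral_le_integral ((integrable_gk hs).comp_add_right a) ?_
          exact Eventually.of_forall (fun x => (gk_pos hs _).le)
      _ = ∫ x, gk s x := integral_add_right_eq_self (fun x => gk s x) a
      _ = 1 := integral_gk hs

private theorem B1_Jc_gk2 (hη : 0 < η) {s : ℝ} (hs : 0 < s) (k₀ k₁ k₂ : Fin (2 * N)) (y : ℝ) :
    |Jc η k₀ k₁ k₂ (fun t => gk2 s (t - y))| ≤ 4 := by
  unfold Jc
  have h2 : ∀ x₀ x₁ : ℝ, (∫ x₂ in (lft η k₂)..(lft η k₂ + η), gk2 s (x₀ + x₁ + x₂ - y)) =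
      gk1 s (x₁ + (x₀ + (lft η k₂ + η) - y)) - gk1 s (x₁ + (x₀ + lft η k₂ - y)) := by
    intro x₀ x₁
    rw [intervalIntegral.integral_eq_sub_of_hasDerivAt (f := fun x₂ => gk1 s (x₀ + x₁ + x₂ - y))]
    · rw [show x₁ + (x₀ + (lft η k₂ + η) - y) = x₀ + x₁ + (lft η k₂ + η) - y by ring,
        show x₁ + (x₀ + lft η k₂ - y) = x₀ + x₁ + lft η k₂ - y by ring]
    · intro x₂ _
      have h : HasDerivAt (fun x₂ => gk1 s (x₀ + x₁ + x₂ - y)) (gk2 s (x₀ + x₁ + x₂ - y) * 1) x₂ :=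
        HasDerivAt.comp (h₂ := gk1 s) (h := fun x => x₀ + x₁ + x - y) x₂
          (hasDerivAt_gk1 hs (x₀ + x₁ + x₂ - y)) (((hasDerivAt_id' x₂).const_add (x₀ + x₁)).sub_const y)
      simpa using h
    · exact ((B1_cont_gk2 s).comp (by fun_prop)).intervalIntegrable _ _
  have h1 : ∀ a : ℝ, (∫ x₁ in (lft η k₁)..(lft η k₁ + η), gk1 s (x₁ + a)) =
      gk s (lft η k₁ + η + a) - gk s (lft η k₁ + a) := by
    intro a
    rw [intervalIntegral.integral_eq_sub_of_hasDerivAt (f := fun x₁ => gk s (x₁ + a))]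
    · intro x₁ _
      have h : HasDerivAt (fun x₁ => gk s (x₁ + a)) (gk1 s (x₁ + a) * 1) x₁ :=
        HasDerivAt.comp (h₂ := gk s) (h := fun x => x + a) x₁
          (hasDerivAt_gk hs (x₁ + a)) ((hasDerivAt_id' x₁).add_const a)
      simpa using h
    · exact ((B1_cont_gk1 s).comp (by fun_prop)).intervalIntegrable _ _
  have h3 : ∀ x₀ : ℝ, (∫ x₁ in (lft η k₁)..(lft η k₁ + η), ∫ x₂ in (lft η k₂)..(lft η k₂ + η),
      gk2 s (x₀ + x₁ + x₂ - y)) =
      (gk s (x₀ + (lft η k₁ + η + (lft η k₂ + η) - y)) - gk s (x₀ + (lft η k₁ + (lft η k₂ + η) - y))) -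
      (gk s (x₀ + (lft η k₁ + η + lft η k₂ - y)) - gk s (x₀ + (lft η k₁ + lft η k₂ - y))) := by
    intro x₀
    simp_rw [h2 x₀]
    have hc1 : ∀ a : ℝ, IntervalIntegrable (fun x => gk1 s (x + a)) volume (lft η k₁) (lft η k₁ + η) :=
      fun a => ((B1_cont_gk1 s).comp (by fun_prop)).intervalIntegrable _ _
    rw [intervalIntegral.integral_sub (hc1 _) (hc1 _), h1, h1]
    ring_nf
  simp_rw [h3]
  have hc : ∀ a : ℝ, IntervalIntegrable (fun x => gk s (x + a)) volume (lft η k₀) (lft η k₀ + η) :=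
    fun a => ((B1_cont_gk s).comp (by fun_prop)).intervalIntegrable _ _
  rw [intervalIntegral.integral_sub ((hc _).sub (hc _)) ((hc _).sub (hc _)),
    intervalIntegral.integral_sub (hc _) (hc _), intervalIntegral.integral_sub (hc _) (hc _)]
  have e := B1_gk_int (N := N) hη hs k₀
  obtain ⟨a1, a2⟩ := e (lft η k₁ + η + (lft η k₂ + η) - y)
  obtain ⟨b1, b2⟩ := e (lft η k₁ + (lft η k₂ + η) - y)
  obtain ⟨c1, c2⟩ := e (lft η k₁ + η + lft η k₂ - y)
  obtain ⟨d1, d2⟩ := e (lft η k₁ + lft η k₂ - y)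
  rw [abs_le]
  constructor <;> linarith

/-! ### the functions `J` and `J2` -/

private noncomputable def B1_J (u : ℝ) (μ : Measure ℝ) (s : ℝ) : ℝ :=
  ∫ p : ℝ × ℝ, Dk u p.1 * gk s (p.2 - p.1) ∂(volume.prod μ)

private noncomputable def B1_J2 (u : ℝ) (μ : Measure ℝ) (s : ℝ) : ℝ :=
  ∫ p : ℝ × ℝ, Dk u p.1 * gk2 s (p.2 - p.1) ∂(volume.prod μ)

private theorem B1_base {u : ℝ} (hu : 0 < u) (μ : Measure ℝ) [IsFiniteMeasure μ] :
    Integrable (fun p : ℝ × ℝ => Dk u p.1) (volume.prod μ) := by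
  have := (integrable_Dk hu).mul_prod (integrable_const (μ := μ) (1 : ℝ))
  simpa using this

private theorem B1_int {u : ℝ} (hu : 0 < u) (μ : Measure ℝ) [IsFiniteMeasure μ] {g : ℝ → ℝ}
    (hg : Continuous g) {C : ℝ} (hC : ∀ x, |g x| ≤ C) :
    Integrable (fun p : ℝ × ℝ => Dk u p.1 * g (p.2 - p.1)) (volume.prod μ) := by
  have h2 := (B1_base hu μ).bdd_mul (c := C) (f := fun p : ℝ × ℝ => g (p.2 - p.1))
    ((hg.comp (by fun_prop)).aestronglyMeasurable) (Eventually.of_forall fun p => hC _)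
  refine h2.congr (Eventually.of_forall fun p => ?_)
  simp only
  ring

private theorem B1_J_deriv {u : ℝ} (hu : 0 < u) (μ : Measure ℝ) [IsFiniteMeasure μ] {s : ℝ} (hs : 0 < s) :
    HasDerivAt (B1_J u μ) (B1_J2 u μ s / 2) s := by
  have hmem : Ioi (s / 2) ∈ 𝓝 s := Ioi_mem_nhds (by linarith)
  have hpos : 0 < s / 2 := by positivity
  have h := hasDerivAt_integral_of_dominated_loc_of_deriv_le (μ := volume.prod μ)
    (F := fun (r : ℝ) (p : ℝ × ℝ) => Dk u p.1 * gk r (p.2 - p.1))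
    (F' := fun (r : ℝ) (p : ℝ × ℝ) => Dk u p.1 * (gk2 r (p.2 - p.1) / 2))
    (x₀ := s) (s := Ioi (s / 2))
    (bound := fun p => |Dk u p.1| * (1 / ((s / 2) * Real.sqrt (2 * Real.pi * (s / 2)))))
    hmem
    (by
      filter_upwards [hmem] with r hr
      exact (B1_int hu μ (B1_cont_gk r) (B1_gk_le (hpos.trans hr))).aestronglyMeasurable)
    (B1_int hu μ (B1_cont_gk s) (B1_gk_le hs))
    (by
      have h1 := (B1_int hu μ (B1_cont_gk2 s) (B1_gk2_le hs)).div_const 2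
      refine h1.aestronglyMeasurable.congr (Eventually.of_forall fun p => ?_)
      simp only
      ring)
    (by
      refine Eventually.of_forall fun p r hr => ?_
      have hr0 : 0 < r := hpos.trans hr
      have hr1 : s / 2 ≤ r := le_of_lt hr
      rw [Real.norm_eq_abs, abs_mul]
      refine mul_le_mul_of_nonneg_left ?_ (abs_nonneg _)
      rw [abs_div, abs_of_pos (by norm_num : (0 : ℝ) < 2)]
      have h1 := B1_gk2_le hr0 (p.2 - p.1)
      have h2 : 2 / (r * Real.sqrt (2 * Real.pi * r)) ≤ 2 / ((s / 2) * Real.sqrt (2 * Real.pi * (s / 2))) := by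
        gcongr
      have h3 : 2 / ((s / 2) * Real.sqrt (2 * Real.pi * (s / 2))) =
        2 * (1 / ((s / 2) * Real.sqrt (2 * Real.pi * (s / 2)))) := by ring
      linarith)
    ((B1_base hu μ).abs.mul_const _)
    (by
      refine Eventually.of_forall fun p r hr => ?_
      exact (hasDerivAt_gk_t (hpos.trans hr) (p.2 - p.1)).const_mul (Dk u p.1))
  have h4 : ∫ p : ℝ × ℝ, Dk u p.1 * (gk2 s (p.2 - p.1) / 2) ∂(volume.prod μ) = B1_J2 u μ s / 2 := by
    unfold B1_J2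
    rw [← integral_div]
    refine integral_congr_ae (Eventually.of_forall fun p => ?_)
    simp only
    ring
  rw [← h4]
  exact h.2

private theorem B1_J_top {u : ℝ} (hu : 0 < u) (μ : Measure ℝ) [IsFiniteMeasure μ] :
    Tendsto (B1_J u μ) atTop (𝓝 0) := by
  have h1 : Tendsto (fun s : ℝ => (∫ p : ℝ × ℝ, |Dk u p.1| ∂(volume.prod μ)) *
      (1 / Real.sqrt (2 * Real.pi * s))) atTop (𝓝 0) := by
    have h2 : Tendsto (fun s : ℝ => Real.sqrt (2 * Real.pi * s)) atTop atTop :=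
      Real.tendsto_sqrt_atTop.comp (tendsto_id.const_mul_atTop (by positivity))
    have h3 := h2.inv_tendsto_atTop
    have h4 := h3.const_mul (∫ p : ℝ × ℝ, |Dk u p.1| ∂(volume.prod μ))
    rw [mul_zero] at h4
    refine h4.congr fun s => ?_
    simp [one_div]
  refine squeeze_zero_norm' ?_ h1
  filter_upwards [eventually_gt_atTop 0] with s hs
  unfold B1_J
  rw [← integral_mul_const]
  refine norm_integral_le_of_norm_le ((B1_base hu μ).abs.mul_const _) (Eventually.of_forall fun p => ?_)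
  rw [Real.norm_eq_abs, abs_mul]
  exact mul_le_mul_of_nonneg_left (B1_gk_le hs _) (abs_nonneg _)

private theorem B1_J2_le {u : ℝ} (hu : 0 < u) (μ : Measure ℝ) [IsFiniteMeasure μ] {s : ℝ} (hs : 0 < s) :
    |B1_J2 u μ s| ≤ (∫ p : ℝ × ℝ, |Dk u p.1| ∂(volume.prod μ)) * (2 / (s * Real.sqrt (2 * Real.pi * s))) := by
  unfold B1_J2
  rw [← integral_mul_const, ← Real.norm_eq_abs]
  refine norm_integral_le_of_norm_le ((B1_base hu μ).abs.mul_const _) (Eventually.of_forall fun p => ?_)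
  rw [Real.norm_eq_abs, abs_mul]
  exact mul_le_mul_of_nonneg_left (B1_gk2_le hs _) (abs_nonneg _)

private theorem B1_J2_le' (hη : 0 < η) {u : ℝ} (hu : 0 < u) (k₀ k₁ k₂ : Fin (2 * N)) {s : ℝ} (hs : 0 < s) :
    |B1_J2 u (B1_mu η k₀ k₁ k₂) s| ≤ ∫ y, |Dk u y| * 4 := by
  unfold B1_J2
  rw [integral_prod _ (B1_int hu _ (B1_cont_gk2 s) (B1_gk2_le hs)), ← Real.norm_eq_abs]
  refine norm_integral_le_of_norm_le ((integrable_Dk hu).abs.mul_const _) (Eventually.of_forall fun y => ?_)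
  simp only
  rw [integral_const_mul, Real.norm_eq_abs, abs_mul]
  refine mul_le_mul_of_nonneg_left ?_ (abs_nonneg _)
  rw [← B1_Jc_eq hη k₀ k₁ k₂ (κ := fun t => gk2 s (t - y))
    ((B1_cont_gk2 s).comp (by fun_prop)).measurable (fun t => B1_gk2_le hs _)]
  exact B1_Jc_gk2 hη hs k₀ k₁ k₂ y

/-! ### limit at `0` -/

private theorem B1_abs_Dk_le {u : ℝ} (hu : 0 < u) (y : ℝ) : |Dk u y| ≤ 10 / u := by
  refine (abs_Dk_le hu y).trans ?_
  have h1 : Real.exp (-y ^ 2 / (4 * u ^ 2)) ≤ 1 := by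
    apply Real.exp_le_one_iff.2
    rw [neg_div]
    have : 0 ≤ y ^ 2 / (4 * u ^ 2) := by positivity
    linarith
  have h2 : 0 ≤ 10 / u := by positivity
  nlinarith

private theorem B1_Dk_cont {u t : ℝ} (h0 : t ≠ 0) (h1 : t ≠ u) (h2 : t ≠ -u) : ContinuousAt (Dk u) t := by
  have hne : |t| ≠ u := by
    intro h
    rcases abs_choice t with h' | h'
    · exact h1 (h' ▸ h)
    · exact h2 (by linarith [h' ▸ h])
  have hcont : ∀ c : ℝ, ContinuousAt (fun x : ℝ => ((1 - x ^ 2 / u ^ 2) * Real.exp (-x ^ 2 / (2 * u ^ 2)) - c) / x) t := by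
    intro c
    apply ContinuousAt.div _ continuousAt_id h0
    fun_prop
  rcases lt_or_gt_of_ne hne with h | h
  · refine (hcont 1).congr ?_
    filter_upwards [(continuous_abs.tendsto t).eventually (gt_mem_nhds h)] with x hx
    unfold Dk
    rw [if_pos hx]
  · refine (hcont 0).congr ?_
    filter_upwards [(continuous_abs.tendsto t).eventually (lt_mem_nhds h)] with x hx
    unfold Dk
    rw [if_neg (not_lt.2 (le_of_lt hx))]

private theorem B1_inner {u : ℝ} {s : ℝ} (hs : 0 < s) (t : ℝ) :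
    ∫ y, Dk u y * gk s (t - y) = ∫ w, Dk u (t - Real.sqrt s * w) * gk 1 w := by
  have h0 : 0 < Real.sqrt s := Real.sqrt_pos.2 hs
  have h1 : ∫ y, Dk u y * gk s (t - y) = ∫ z, Dk u (t - z) * gk s z := by
    rw [← integral_sub_left_eq_self (fun z => Dk u (t - z) * gk s z) volume t]
    refine integral_congr_ae (Eventually.of_forall fun y => ?_)
    simp only [sub_sub_cancel]
  have h2 := Measure.integral_comp_mul_left (fun z => Dk u (t - z) * gk s z) (Real.sqrt s)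
  rw [h1]
  have h3 : ∫ z, Dk u (t - z) * gk s z = Real.sqrt s * ∫ w, Dk u (t - Real.sqrt s * w) * gk s (Real.sqrt s * w) := by
    rw [h2, abs_of_pos (inv_pos.2 h0), smul_eq_mul, ← mul_assoc, mul_inv_cancel₀ h0.ne', one_mul]
  rw [h3, ← integral_const_mul]
  refine integral_congr_ae (Eventually.of_forall fun w => ?_)
  simp only
  have h4 : Real.sqrt s * gk s (Real.sqrt s * w) = gk 1 w := by
    unfold gk
    rw [mul_pow, Real.sq_sqrt hs.le]
    have h5 : -(s * w ^ 2) / (2 * s) = -w ^ 2 / (2 * 1) := by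
      field_simp
    have h6 : Real.sqrt (2 * Real.pi * s) = Real.sqrt (2 * Real.pi * 1) * Real.sqrt s := by
      rw [mul_one, Real.sqrt_mul (by positivity)]
    rw [h5, h6]
    have h7 : 0 < Real.sqrt (2 * Real.pi * 1) := Real.sqrt_pos.2 (by positivity)
    field_simp
  rw [← h4]
  ring

private theorem B1_J_eq {u : ℝ} (hu : 0 < u) (μ : Measure ℝ) [IsFiniteMeasure μ] {s : ℝ} (hs : 0 < s) :
    B1_J u μ s = ∫ p : ℝ × ℝ, Dk u (p.2 - Real.sqrt s * p.1) * gk 1 p.1 ∂(volume.prod μ) := by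
  have hb : Integrable (fun p : ℝ × ℝ => gk 1 p.1) (volume.prod μ) := by
    have := (integrable_gk one_pos).mul_prod (integrable_const (μ := μ) (1 : ℝ))
    simpa using this
  have hm : Measurable (fun p : ℝ × ℝ => Dk u (p.2 - Real.sqrt s * p.1)) :=
    (measurable_Dk u).comp (by fun_prop)
  have hi : Integrable (fun p : ℝ × ℝ => Dk u (p.2 - Real.sqrt s * p.1) * gk 1 p.1) (volume.prod μ) :=
    hb.bdd_mul (c := 10 / u) hm.aestronglyMeasurable (Eventually.of_forall fun p => B1_abs_Dk_le hu _)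
  unfold B1_J
  rw [integral_prod_symm _ hi, integral_prod_symm _ (B1_int hu μ (B1_cont_gk s) (B1_gk_le hs))]
  refine integral_congr_ae (Eventually.of_forall fun t => ?_)
  exact B1_inner hs t

private theorem B1_J_zero {u : ℝ} (hu : 0 < u) (μ : Measure ℝ) [IsFiniteMeasure μ]
    (hμ : ∀ c : ℝ, ∀ᵐ t ∂μ, t ≠ c) :
    Tendsto (B1_J u μ) (𝓝[>] 0) (𝓝 (∫ t, Dk u t ∂μ)) := by
  have hb : Integrable (fun p : ℝ × ℝ => gk 1 p.1) (volume.prod μ) := by
    have := (integrable_gk one_pos).mul_prod (integrable_const (μ := μ) (1 : ℝ))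
    simpa using this
  have hlim : ∫ p : ℝ × ℝ, Dk u p.2 * gk 1 p.1 ∂(volume.prod μ) = ∫ t, Dk u t ∂μ := by
    have h := integral_prod_mul (μ := (volume : Measure ℝ)) (ν := μ) (fun x => gk 1 x) (fun y => Dk u y)
    rw [integral_gk one_pos, one_mul] at h
    rw [← h]
    refine integral_congr_ae (Eventually.of_forall fun p => ?_)
    simp only
    ring
  rw [← hlim]
  have h1 : Tendsto (fun s => ∫ p : ℝ × ℝ, Dk u (p.2 - Real.sqrt s * p.1) * gk 1 p.1 ∂(volume.prod μ)) (𝓝[>] 0)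
      (𝓝 (∫ p : ℝ × ℝ, Dk u p.2 * gk 1 p.1 ∂(volume.prod μ))) := by
    refine tendsto_integral_filter_of_dominated_convergence (fun p => 10 / u * gk 1 p.1) ?_ ?_ ?_ ?_
    · refine Eventually.of_forall fun s => ?_
      have hm : Measurable (fun p : ℝ × ℝ => Dk u (p.2 - Real.sqrt s * p.1)) :=
        (measurable_Dk u).comp (by fun_prop)
      exact (hm.mul ((B1_cont_gk 1).measurable.comp measurable_fst)).aestronglyMeasurable
    · refine Eventually.of_forall fun s => Eventually.of_forall fun p => ?_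
      rw [Real.norm_eq_abs, abs_mul, abs_of_pos (gk_pos one_pos _)]
      exact mul_le_mul_of_nonneg_right (B1_abs_Dk_le hu _) (gk_pos one_pos _).le
    · exact hb.const_mul _
    · have q : ∀ c : ℝ, ∀ᵐ p ∂((volume : Measure ℝ).prod μ), p.2 ≠ c := fun c =>
        Measure.quasiMeasurePreserving_snd.ae (hμ c)
      filter_upwards [q 0, q u, q (-u)] with p p0 p1 p2
      refine Tendsto.mul_const _ ?_
      have h3 : Tendsto (fun s => p.2 - Real.sqrt s * p.1) (𝓝[>] 0) (𝓝 p.2) := by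
        have h4 : Continuous (fun s : ℝ => p.2 - Real.sqrt s * p.1) := by fun_prop
        exact (h4.tendsto' 0 p.2 (by simp)).mono_left nhdsWithin_le_nhds
      exact (B1_Dk_cont p0 p1 p2).tendsto.comp h3
  refine h1.congr' ?_
  filter_upwards [self_mem_nhdsWithin] with s hs
  exact (B1_J_eq hu μ hs).symm

private theorem B1_G_meas (u : ℝ) (s : ℝ) : Measurable (fun t => ∫ y, Dk u y * gk2 s (t - y)) := by
  have h : StronglyMeasurable (Function.uncurry fun t y : ℝ => Dk u y * gk2 s (t - y)) := by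
    refine Measurable.stronglyMeasurable ?_
    exact ((measurable_Dk u).comp measurable_snd).mul ((B1_cont_gk2 s).measurable.comp (by fun_prop))
  exact h.integral_prod_right.measurable

private theorem B1_G_le {u : ℝ} (hu : 0 < u) {s : ℝ} (hs : 0 < s) (t : ℝ) :
    |∫ y, Dk u y * gk2 s (t - y)| ≤ ∫ y, |Dk u y| * (2 / (s * Real.sqrt (2 * Real.pi * s))) := by
  rw [← Real.norm_eq_abs]
  refine norm_integral_le_of_norm_le ((integrable_Dk hu).abs.mul_const _) (Eventually.of_forall fun y => ?_)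
  rw [Real.norm_eq_abs, abs_mul]
  exact mul_le_mul_of_nonneg_left (B1_gk2_le hs _) (abs_nonneg _)

private theorem B1_cpsi_meas {u : ℝ} (hu : 0 < u) {s : ℝ} (hs : 0 < s) : Measurable (cpsi (gam u s) s) := by
  have h : cpsi (gam u s) s = fun t => s * ∫ y, Dk u y * gk2 s (t - y) := funext (cpsi_gam hu hs)
  rw [h]
  exact (B1_G_meas u s).const_mul s

private theorem B1_cpsi_le {u : ℝ} (hu : 0 < u) {s : ℝ} (hs : 0 < s) (t : ℝ) :
    |cpsi (gam u s) s t| ≤ s * ∫ y, |Dk u y| * (2 / (s * Real.sqrt (2 * Real.pi * s))) := by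
  rw [cpsi_gam hu hs, abs_mul, abs_of_pos hs]
  exact mul_le_mul_of_nonneg_left (B1_G_le hu hs t) hs.le

private theorem B1_Jc_J2 (hη : 0 < η) (k₀ k₁ k₂ : Fin (2 * N)) {u : ℝ} (hu : 0 < u) {s : ℝ} (hs : 0 < s) :
    1 / s * Jc η k₀ k₁ k₂ (cpsi (gam u s) s) = B1_J2 u (B1_mu η k₀ k₁ k₂) s := by
  rw [B1_Jc_eq hη k₀ k₁ k₂ (B1_cpsi_meas hu hs) (B1_cpsi_le hu hs)]
  have h : cpsi (gam u s) s = fun t => s * ∫ y, Dk u y * gk2 s (t - y) := funext (cpsi_gam hu hs)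
  rw [h, integral_const_mul, ← mul_assoc, one_div, inv_mul_cancel₀ hs.ne', one_mul]
  unfold B1_J2
  rw [integral_prod_symm _ (B1_int hu _ (B1_cont_gk2 s) (B1_gk2_le hs))]

private theorem B1_J2_int (hη : 0 < η) (k₀ k₁ k₂ : Fin (2 * N)) {u : ℝ} (hu : 0 < u) :
    IntegrableOn (B1_J2 u (B1_mu η k₀ k₁ k₂)) (Ioi 0) := by
  have hm : AEStronglyMeasurable (B1_J2 u (B1_mu η k₀ k₁ k₂)) (volume.restrict (Ioi 0)) := by
    have h1 : AEStronglyMeasurable (fun s => 2 * deriv (B1_J u (B1_mu η k₀ k₁ k₂)) s) (volume.restrict (Ioi 0)) :=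
      ((measurable_deriv _).const_mul 2).aestronglyMeasurable
    refine h1.congr ?_
    filter_upwards [ae_restrict_mem measurableSet_Ioi] with s hs
    rw [(B1_J_deriv hu _ hs).deriv]
    ring
  have hsub1 : Ioc (0 : ℝ) 1 ⊆ Ioi 0 := fun x hx => hx.1
  have hsub2 : Ioi (1 : ℝ) ⊆ Ioi 0 := Ioi_subset_Ioi zero_le_one
  rw [← Ioc_union_Ioi_eq_Ioi (zero_le_one (α := ℝ))]
  refine IntegrableOn.union ?_ ?_
  · refine Integrable.of_bound (hm.mono_set hsub1) (∫ y, |Dk u y| * 4) ?_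
    filter_upwards [ae_restrict_mem measurableSet_Ioc] with s hs
    exact B1_J2_le' hη hu k₀ k₁ k₂ hs.1
  · have h2 : IntegrableOn (fun s : ℝ => s ^ (-(3 / 2) : ℝ)) (Ioi 1) :=
      integrableOn_Ioi_rpow_of_lt (by norm_num) one_pos
    refine Integrable.mono' (h2.const_mul ((∫ p : ℝ × ℝ, |Dk u p.1| ∂(volume.prod (B1_mu η k₀ k₁ k₂))) * 2))
      (hm.mono_set hsub2) ?_
    filter_upwards [ae_restrict_mem measurableSet_Ioi] with s hs
    have hs0 : (0 : ℝ) < s := lt_trans one_pos hs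
    refine (B1_J2_le hu _ hs0).trans ?_
    rw [mul_assoc (∫ p : ℝ × ℝ, |Dk u p.1| ∂(volume.prod (B1_mu η k₀ k₁ k₂)))]
    refine mul_le_mul_of_nonneg_left ?_ (integral_nonneg fun p => abs_nonneg _)
    rw [div_eq_mul_inv]
    refine mul_le_mul_of_nonneg_left ?_ (by norm_num)
    rw [Real.rpow_neg hs0.le]
    refine inv_anti₀ (by positivity) ?_
    have h3 : s ^ (3 / 2 : ℝ) = s * Real.sqrt s := by
      rw [Real.sqrt_eq_rpow, show (3 / 2 : ℝ) = 1 + 1 / 2 by norm_num, Real.rpow_add hs0, Real.rpow_one]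
    rw [h3]
    refine mul_le_mul_of_nonneg_left ?_ hs0.le
    refine Real.sqrt_le_sqrt ?_
    nlinarith [Real.pi_gt_three]

/-- For a triple of cells, `β(t) = ` the convolution of the three indicator functions is compactly supported,
`C¹` with Lipschitz derivative, and `Jc k κ = ∫ κ β`.  `Jc (D_u * g_s)` has derivative `½ Jc (D_u * g_s'')` in
`s`, tends to `Jc D_u` as `s → 0` and to `0` as `s → ∞`; the derivative is bounded by
`C ‖D_u‖₁` (two derivatives on `β`) near `0` and by `C s^{-3/2}` at infinity. Hence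
`Jc D_u = -½ ∫_0^∞ Jc (D_u * g_s'') ds`. -/
theorem Jc_Dk (hη : 0 < η) (k₀ k₁ k₂ : Fin (2 * N)) {u : ℝ} (hu : 0 < u) :
    IntegrableOn (fun s => 1 / s * Jc η k₀ k₁ k₂ (cpsi (gam u s) s)) (Ioi 0) ∧
    Jc η k₀ k₁ k₂ (Dk u) = -(1 / 2) * ∫ s in Ioi (0 : ℝ), 1 / s * Jc η k₀ k₁ k₂ (cpsi (gam u s) s) := by
  have hi := B1_J2_int hη k₀ k₁ k₂ hu
  have hcongr : ∀ s ∈ Ioi (0 : ℝ), 1 / s * Jc η k₀ k₁ k₂ (cpsi (gam u s) s) = B1_J2 u (B1_mu η k₀ k₁ k₂) s :=
    fun s hs => B1_Jc_J2 hη k₀ k₁ k₂ hu hs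
  refine ⟨hi.congr_fun (fun s hs => (hcongr s hs).symm) measurableSet_Ioi, ?_⟩
  rw [setIntegral_congr_fun measurableSet_Ioi hcongr, B1_Jc_eq hη k₀ k₁ k₂ (measurable_Dk u) (B1_abs_Dk_le hu)]
  set L := ∫ t, Dk u t ∂(B1_mu η k₀ k₁ k₂) with hL
  have h := integral_Ioi_of_hasDerivAt_of_tendsto (a := (0 : ℝ)) (m := (0 : ℝ))
    (f := fun s => if s ≤ 0 then L else B1_J u (B1_mu η k₀ k₁ k₂) s)
    (f' := fun s => B1_J2 u (B1_mu η k₀ k₁ k₂) s / 2) ?_ ?_ (hi.div_const 2) ?_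
  · rw [integral_div] at h
    simp only [le_refl, if_true] at h
    linarith
  · rw [← continuousWithinAt_Ioi_iff_Ici]
    unfold ContinuousWithinAt
    simp only [le_refl, if_true]
    refine (B1_J_zero hu (B1_mu η k₀ k₁ k₂) (B1_mu_ae k₀ k₁ k₂)).congr' ?_
    filter_upwards [self_mem_nhdsWithin] with s hs
    rw [if_neg (not_le.2 hs)]
  · intro s hs
    refine (B1_J_deriv hu (B1_mu η k₀ k₁ k₂) hs).congr_of_eventuallyEq ?_
    filter_upwards [Ioi_mem_nhds hs] with r hr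
    rw [if_neg (not_le.2 hr)]
  · refine (B1_J_top hu (B1_mu η k₀ k₁ k₂)).congr' ?_
    filter_upwards [eventually_gt_atTop 0] with s hs
    rw [if_neg (not_le.2 hs)]

/-! ### linearity -/

private theorem B1_Jc_lin (hη : 0 < η) (k₀ k₁ k₂ : Fin (2 * N)) {Q : ℕ} (c : Fin Q → ℝ) (κ : Fin Q → ℝ → ℝ)
    (C : Fin Q → ℝ) (hm : ∀ q, Measurable (κ q)) (hC : ∀ q t, |κ q t| ≤ C q) :
    Jc η k₀ k₁ k₂ (fun t => ∑ q, c q * κ q t) = ∑ q, c q * Jc η k₀ k₁ k₂ (κ q) := by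
  rw [B1_Jc_eq hη k₀ k₁ k₂ (C := ∑ q, |c q| * C q)
    (Finset.measurable_sum _ fun q _ => (hm q).const_mul _)]
  · rw [integral_finsetSum]
    · refine Finset.sum_congr rfl fun q _ => ?_
      rw [integral_const_mul, B1_Jc_eq hη k₀ k₁ k₂ (hm q) (hC q)]
    · intro q _
      exact (B1_mu_integrable k₀ k₁ k₂ (hm q) (hC q)).const_mul _
  · intro t
    refine (Finset.abs_sum_le_sum_abs _ _).trans (Finset.sum_le_sum fun q _ => ?_)
    rw [abs_mul]
    exact mul_le_mul_of_nonneg_left (hC q t) (abs_nonneg _)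

private theorem B1_gam_meas (u s : ℝ) : Measurable (gam u s) := by
  unfold gam
  have h : StronglyMeasurable (Function.uncurry fun t y : ℝ => Dk u y * gk1 (s / 2) (t - y)) := by
    refine Measurable.stronglyMeasurable ?_
    exact ((measurable_Dk u).comp measurable_snd).mul ((B1_cont_gk1 (s / 2)).measurable.comp (by fun_prop))
  exact (h.integral_prod_right.measurable).const_mul _

private theorem B1_gam_le {u : ℝ} (hu : 0 < u) {s : ℝ} (hs : 0 < s) (t : ℝ) :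
    |gam u s t| ≤ Real.sqrt s * ∫ y, |Dk u y| * (1 / (Real.sqrt (s / 2) * Real.sqrt (2 * Real.pi * (s / 2)))) := by
  have hs2 : 0 < s / 2 := by positivity
  unfold gam
  rw [abs_mul, abs_of_nonneg (Real.sqrt_nonneg s)]
  refine mul_le_mul_of_nonneg_left ?_ (Real.sqrt_nonneg s)
  rw [← Real.norm_eq_abs]
  refine norm_integral_le_of_norm_le ((integrable_Dk hu).abs.mul_const _) (Eventually.of_forall fun y => ?_)
  rw [Real.norm_eq_abs, abs_mul]
  exact mul_le_mul_of_nonneg_left (B1_gk1_le hs2 _) (abs_nonneg _)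

private theorem B1_psi_int {s : ℝ} (hs : 0 < s) : Integrable (psi s) := by
  unfold psi
  exact (integrable_gk1 (by positivity : 0 < s / 2)).const_mul _

private theorem B1_cpsi_lin {Q : ℕ} (c r : Fin Q → ℝ) (hr : ∀ q, 0 < r q) {s : ℝ} (hs : 0 < s) (t : ℝ) :
    cpsi (fun t => ∑ q, c q * gam (r q) s t) s t = ∑ q, c q * cpsi (gam (r q) s) s t := by
  unfold cpsi
  have h1 : ∀ q, Integrable (fun y => gam (r q) s (t - y) * psi s y) := by
    intro q
    exact (B1_psi_int hs).bdd_mul (((B1_gam_meas (r q) s).comp (by fun_prop)).aestronglyMeasurable)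
      (Eventually.of_forall fun y => B1_gam_le (hr q) hs _)
  simp_rw [← integral_const_mul]
  rw [← integral_finsetSum]
  · refine integral_congr_ae (Eventually.of_forall fun y => ?_)
    simp only
    rw [Finset.sum_mul]
    refine Finset.sum_congr rfl fun q _ => ?_
    ring
  · intro q _
    exact (h1 q).const_mul _

/-- the contribution of the radius `q`. -/
private noncomputable def B1_T (η : ℝ) (F₀ F₁ F₂ : Matrix (Fin (2 * N)) (Fin (2 * N)) ℝ) {Q n : ℕ} (J : JumpData N Q n)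
    (q : Fin Q) (s : ℝ) : ℝ :=
  ∑ k₀, ∑ k₁, ∑ k₂, F₀ k₀ k₁ * F₁ k₁ k₂ * F₂ k₂ k₀ * (J.a q k₂ k₀ * Jc η k₀ k₁ k₂ (cpsi (gam (J.r q) s) s))

private theorem B1_sum_swap {Q : ℕ} (f : Fin (2 * N) → Fin (2 * N) → Fin (2 * N) → ℝ)
    (g : Fin (2 * N) → Fin (2 * N) → Fin (2 * N) → Fin Q → ℝ) :
    ∑ k₀, ∑ k₁, ∑ k₂, f k₀ k₁ k₂ * ∑ q, g k₀ k₁ k₂ q = ∑ q, ∑ k₀, ∑ k₁, ∑ k₂, f k₀ k₁ k₂ * g k₀ k₁ k₂ q := by
  simp_rw [Finset.mul_sum]
  calc _ = ∑ k₀, ∑ k₁, ∑ q, ∑ k₂, f k₀ k₁ k₂ * g k₀ k₁ k₂ q :=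
        Finset.sum_congr rfl fun _ _ => Finset.sum_congr rfl fun _ _ => Finset.sum_comm
    _ = ∑ k₀, ∑ q, ∑ k₁, ∑ k₂, f k₀ k₁ k₂ * g k₀ k₁ k₂ q := Finset.sum_congr rfl fun _ _ => Finset.sum_comm
    _ = _ := Finset.sum_comm

private theorem B1_TS (hη : 0 < η) (F₀ F₁ F₂ : Matrix (Fin (2 * N)) (Fin (2 * N)) ℝ) {Q n : ℕ} (J : JumpData N Q n)
    (e : Fin Q → ℝ) {s : ℝ} (hs : 0 < s) :
    TS η F₀ F₁ F₂ (fun k₂ k₀ => cpsi (fun t => ∑ q, e q * J.a q k₂ k₀ * gam (J.r q) s t) s) =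
      ∑ q, e q * B1_T η F₀ F₁ F₂ J q s := by
  unfold TS B1_T
  have h1 : ∀ k₀ k₁ k₂ : Fin (2 * N), Jc η k₀ k₁ k₂ (cpsi (fun t => ∑ q, e q * J.a q k₂ k₀ * gam (J.r q) s t) s) =
      ∑ q, e q * J.a q k₂ k₀ * Jc η k₀ k₁ k₂ (cpsi (gam (J.r q) s) s) := by
    intro k₀ k₁ k₂
    have h2 : cpsi (fun t => ∑ q, e q * J.a q k₂ k₀ * gam (J.r q) s t) s =
        fun t => ∑ q, e q * J.a q k₂ k₀ * cpsi (gam (J.r q) s) s t :=
      funext (B1_cpsi_lin _ _ J.r_pos hs)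
    rw [h2]
    exact B1_Jc_lin hη k₀ k₁ k₂ _ _ _ (fun q => B1_cpsi_meas (J.r_pos q) hs) (fun q => B1_cpsi_le (J.r_pos q) hs)
  simp_rw [h1]
  rw [B1_sum_swap]
  refine Finset.sum_congr rfl fun q _ => ?_
  simp_rw [Finset.mul_sum]
  refine Finset.sum_congr rfl fun k₀ _ => Finset.sum_congr rfl fun k₁ _ => Finset.sum_congr rfl fun k₂ _ => ?_
  ring

open Classical in
private noncomputable def B1_el {Q n : ℕ} (J : JumpData N Q n) (s : ℝ) (q : Fin Q) : ℝ :=
  if J.r q < Real.sqrt s then 1 else 0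

open Classical in
private noncomputable def B1_eo {Q n : ℕ} (J : JumpData N Q n) (j : ℕ) (s : ℝ) (q : Fin Q) : ℝ :=
  if 2 ^ j * Real.sqrt s ≤ J.r q ∧ J.r q < 2 ^ (j + 1) * Real.sqrt s then 1 else 0

private theorem B1_low (hη : 0 < η) (F₀ F₁ F₂ : Matrix (Fin (2 * N)) (Fin (2 * N)) ℝ) {Q n : ℕ} (J : JumpData N Q n)
    {s : ℝ} (hs : 0 < s) :
    TS η F₀ F₁ F₂ (fun k₂ k₀ => cpsi (lowG J s k₂ k₀) s) = ∑ q, B1_el J s q * B1_T η F₀ F₁ F₂ J q s := by
  rw [← B1_TS hη F₀ F₁ F₂ J _ hs]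
  congr 1
  funext k₂ k₀
  congr 1
  funext t
  unfold lowG B1_el
  refine Finset.sum_congr rfl fun q _ => ?_
  split_ifs <;> ring

private theorem B1_oct (hη : 0 < η) (F₀ F₁ F₂ : Matrix (Fin (2 * N)) (Fin (2 * N)) ℝ) {Q n : ℕ} (J : JumpData N Q n)
    (j : ℕ) {s : ℝ} (hs : 0 < s) :
    TS η F₀ F₁ F₂ (fun k₂ k₀ => cpsi (octG J j s k₂ k₀) s) = ∑ q, B1_eo J j s q * B1_T η F₀ F₁ F₂ J q s := by
  rw [← B1_TS hη F₀ F₁ F₂ J _ hs]
  congr 1
  funext k₂ k₀
  congr 1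
  funext t
  unfold octG B1_eo
  refine Finset.sum_congr rfl fun q _ => ?_
  split_ifs <;> ring

private theorem B1_count {Q n : ℕ} (J : JumpData N Q n) {s : ℝ} (hs : 0 < s) (q : Fin Q) (M : ℕ) :
    B1_el J s q + ∑ j ∈ Finset.range M, B1_eo J j s q = if J.r q < 2 ^ M * Real.sqrt s then 1 else 0 := by
  have h0 : 0 < Real.sqrt s := Real.sqrt_pos.2 hs
  induction M with
  | zero => simp [B1_el]
  | succ M ih =>
    rw [Finset.sum_range_succ, ← add_assoc, ih]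
    unfold B1_eo
    have h1 : (2 : ℝ) ^ M * Real.sqrt s ≤ 2 ^ (M + 1) * Real.sqrt s := by
      rw [pow_succ]
      nlinarith [pow_pos (two_pos : (0:ℝ) < 2) M]
    by_cases h2 : J.r q < 2 ^ M * Real.sqrt s
    · rw [if_pos h2, if_pos (lt_of_lt_of_le h2 h1), if_neg (fun h => absurd h2 (not_lt.2 h.1))]
      ring
    · by_cases h3 : J.r q < 2 ^ (M + 1) * Real.sqrt s
      · rw [if_neg h2, if_pos h3, if_pos ⟨not_lt.1 h2, h3⟩]
        ring
      · rw [if_neg h2, if_neg h3, if_neg (fun h => h3 h.2)]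
        ring

private theorem B1_pt (hη : 0 < η) (F₀ F₁ F₂ : Matrix (Fin (2 * N)) (Fin (2 * N)) ℝ) {Q n : ℕ} (J : JumpData N Q n)
    {s : ℝ} (hs : 0 < s) :
    ENNReal.ofReal |∑ q, B1_T η F₀ F₁ F₂ J q s| ≤
      ENNReal.ofReal |TS η F₀ F₁ F₂ (fun k₂ k₀ => cpsi (lowG J s k₂ k₀) s)| +
      ∑' j : ℕ, ENNReal.ofReal |TS η F₀ F₁ F₂ (fun k₂ k₀ => cpsi (octG J j s k₂ k₀) s)| := by
  have h0 : 0 < Real.sqrt s := Real.sqrt_pos.2 hs
  obtain ⟨M, hM⟩ : ∃ M : ℕ, ∀ q, J.r q < 2 ^ M * Real.sqrt s := by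
    obtain ⟨M, hM⟩ := pow_unbounded_of_one_lt ((∑ q, J.r q) / Real.sqrt s) (one_lt_two (α := ℝ))
    refine ⟨M, fun q => ?_⟩
    rw [div_lt_iff₀ h0] at hM
    exact lt_of_le_of_lt (Finset.single_le_sum (fun i _ => (J.r_pos i).le) (Finset.mem_univ q)) hM
  have h1 : ∑ q, B1_T η F₀ F₁ F₂ J q s = TS η F₀ F₁ F₂ (fun k₂ k₀ => cpsi (lowG J s k₂ k₀) s) +
      ∑ j ∈ Finset.range M, TS η F₀ F₁ F₂ (fun k₂ k₀ => cpsi (octG J j s k₂ k₀) s) := by
    rw [B1_low hη F₀ F₁ F₂ J hs]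
    simp_rw [B1_oct hη F₀ F₁ F₂ J _ hs]
    rw [Finset.sum_comm, ← Finset.sum_add_distrib]
    refine Finset.sum_congr rfl fun q _ => ?_
    rw [← Finset.sum_mul, ← add_mul, B1_count J hs q M, if_pos (hM q), one_mul]
  rw [h1]
  refine (ENNReal.ofReal_le_ofReal (abs_add_le _ _)).trans ?_
  rw [ENNReal.ofReal_add (abs_nonneg _) (abs_nonneg _)]
  refine add_le_add le_rfl ?_
  refine (ENNReal.ofReal_le_ofReal (Finset.abs_sum_le_sum_abs _ _)).trans ?_
  rw [ENNReal.ofReal_sum_of_nonneg (fun _ _ => abs_nonneg _)]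
  exact ENNReal.sum_le_tsum _

private theorem B1_T_int (hη : 0 < η) (F₀ F₁ F₂ : Matrix (Fin (2 * N)) (Fin (2 * N)) ℝ) {Q n : ℕ}
    (J : JumpData N Q n) (q : Fin Q) :
    IntegrableOn (fun s => 1 / s * B1_T η F₀ F₁ F₂ J q s) (Ioi 0) := by
  unfold B1_T
  have h : (fun s : ℝ => 1 / s * ∑ k₀, ∑ k₁, ∑ k₂, F₀ k₀ k₁ * F₁ k₁ k₂ * F₂ k₂ k₀ *
      (J.a q k₂ k₀ * Jc η k₀ k₁ k₂ (cpsi (gam (J.r q) s) s))) =
      fun s : ℝ => ∑ k₀, ∑ k₁, ∑ k₂, F₀ k₀ k₁ * F₁ k₁ k₂ * F₂ k₂ k₀ * J.a q k₂ k₀ *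
      (1 / s * Jc η k₀ k₁ k₂ (cpsi (gam (J.r q) s) s)) := by
    funext s
    simp_rw [Finset.mul_sum]
    refine Finset.sum_congr rfl fun k₀ _ => Finset.sum_congr rfl fun k₁ _ => Finset.sum_congr rfl fun k₂ _ => ?_
    ring
  rw [h]
  refine integrable_finsetSum _ fun k₀ _ => integrable_finsetSum _ fun k₁ _ => integrable_finsetSum _ fun k₂ _ => ?_
  exact ((Jc_Dk hη k₀ k₁ k₂ (J.r_pos q)).1).const_mul _

private theorem B1_T_eq (hη : 0 < η) (F₀ F₁ F₂ : Matrix (Fin (2 * N)) (Fin (2 * N)) ℝ) {Q n : ℕ}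
    (J : JumpData N Q n) :
    TS η F₀ F₁ F₂ (fun k₂ k₀ t => ∑ q, J.a q k₂ k₀ * Dk (J.r q) t) =
      -(1 / 2) * ∫ s in Ioi (0 : ℝ), ∑ q, 1 / s * B1_T η F₀ F₁ F₂ J q s := by
  rw [integral_finsetSum _ (fun q _ => B1_T_int hη F₀ F₁ F₂ J q)]
  unfold TS
  have h1 : ∀ k₀ k₁ k₂ : Fin (2 * N), Jc η k₀ k₁ k₂ (fun t => ∑ q, J.a q k₂ k₀ * Dk (J.r q) t) =
      ∑ q, J.a q k₂ k₀ * Jc η k₀ k₁ k₂ (Dk (J.r q)) := fun k₀ k₁ k₂ =>
    B1_Jc_lin hη k₀ k₁ k₂ _ _ _ (fun q => measurable_Dk _) (fun q => B1_abs_Dk_le (J.r_pos q))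
  simp_rw [h1]
  rw [B1_sum_swap, Finset.mul_sum]
  refine Finset.sum_congr rfl fun q _ => ?_
  have h : (fun s : ℝ => 1 / s * B1_T η F₀ F₁ F₂ J q s) =
      fun s : ℝ => ∑ k₀, ∑ k₁, ∑ k₂, F₀ k₀ k₁ * F₁ k₁ k₂ * F₂ k₂ k₀ * J.a q k₂ k₀ *
      (1 / s * Jc η k₀ k₁ k₂ (cpsi (gam (J.r q) s) s)) := by
    funext s
    unfold B1_T
    simp_rw [Finset.mul_sum]
    refine Finset.sum_congr rfl fun k₀ _ => Finset.sum_congr rfl fun k₁ _ => Finset.sum_congr rfl fun k₂ _ => ?_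
    ring
  have hi : ∀ k₀ k₁ k₂ : Fin (2 * N), Integrable (fun s => F₀ k₀ k₁ * F₁ k₁ k₂ * F₂ k₂ k₀ * J.a q k₂ k₀ *
      (1 / s * Jc η k₀ k₁ k₂ (cpsi (gam (J.r q) s) s))) (volume.restrict (Ioi 0)) := fun k₀ k₁ k₂ =>
    ((Jc_Dk hη k₀ k₁ k₂ (J.r_pos q)).1).const_mul _
  rw [h, integral_finsetSum _ (fun k₀ _ => integrable_finsetSum _ fun k₁ _ => integrable_finsetSum _ fun k₂ _ => hi k₀ k₁ k₂),
    Finset.mul_sum]
  refine Finset.sum_congr rfl fun k₀ _ => ?_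
  rw [integral_finsetSum _ (fun k₁ _ => integrable_finsetSum _ fun k₂ _ => hi k₀ k₁ k₂), Finset.mul_sum]
  refine Finset.sum_congr rfl fun k₁ _ => ?_
  rw [integral_finsetSum _ (fun k₂ _ => hi k₀ k₁ k₂), Finset.mul_sum]
  refine Finset.sum_congr rfl fun k₂ _ => ?_
  rw [integral_const_mul, (Jc_Dk hη k₀ k₁ k₂ (J.r_pos q)).2]
  ring

private theorem B1_aem (hη : 0 < η) (F₀ F₁ F₂ : Matrix (Fin (2 * N)) (Fin (2 * N)) ℝ) {Q n : ℕ}
    (J : JumpData N Q n) (e : ℝ → Fin Q → ℝ) (he : ∀ q, Measurable (fun s => e s q)) (f : ℝ → ℝ)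
    (hf : ∀ s, 0 < s → f s = ∑ q, e s q * B1_T η F₀ F₁ F₂ J q s) :
    AEMeasurable (fun s => ENNReal.ofReal (1 / s) * ENNReal.ofReal |f s|) (volume.restrict (Ioi 0)) := by
  have h1 : AEMeasurable (fun s => ENNReal.ofReal |∑ q, e s q * (1 / s * B1_T η F₀ F₁ F₂ J q s)|)
      (volume.restrict (Ioi 0)) := by
    refine ENNReal.measurable_ofReal.comp_aemeasurable (continuous_abs.measurable.comp_aemeasurable ?_)
    refine Finset.aemeasurable_fun_sum _ fun q _ => ?_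
    exact (he q).aemeasurable.mul (B1_T_int hη F₀ F₁ F₂ J q).aestronglyMeasurable.aemeasurable
  refine h1.congr ?_
  filter_upwards [ae_restrict_mem measurableSet_Ioi] with s hs
  have hs0 : (0 : ℝ) < s := hs
  rw [← ENNReal.ofReal_mul (by positivity), hf s hs0]
  congr 1
  have h2 : ∑ q, e s q * (1 / s * B1_T η F₀ F₁ F₂ J q s) = 1 / s * ∑ q, e s q * B1_T η F₀ F₁ F₂ J q s := by
    rw [Finset.mul_sum]
    refine Finset.sum_congr rfl fun q _ => ?_
    ring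
  rw [h2, abs_mul, abs_of_pos (by positivity : 0 < 1 / s)]

/-- linearity, and the splitting of the radii into `r < √s` and the octaves `[2^j √s, 2^{j+1} √s)`. -/
theorem TS_Dk_le (hη : 0 < η) {Q n : ℕ} (J : JumpData N Q n)
    (F₀ F₁ F₂ : Matrix (Fin (2 * N)) (Fin (2 * N)) ℝ) :
    ENNReal.ofReal |TS η F₀ F₁ F₂ (fun k₂ k₀ t => ∑ q, J.a q k₂ k₀ * Dk (J.r q) t)| ≤
      (∫⁻ s in Ioi (0 : ℝ), ENNReal.ofReal (1 / s) *
        ENNReal.ofReal |TS η F₀ F₁ F₂ (fun k₂ k₀ => cpsi (lowG J s k₂ k₀) s)|) +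
      ∑' j : ℕ, ∫⁻ s in Ioi (0 : ℝ), ENNReal.ofReal (1 / s) *
        ENNReal.ofReal |TS η F₀ F₁ F₂ (fun k₂ k₀ => cpsi (octG J j s k₂ k₀) s)| := by
  have hl : AEMeasurable (fun s => ENNReal.ofReal (1 / s) *
        ENNReal.ofReal |TS η F₀ F₁ F₂ (fun k₂ k₀ => cpsi (lowG J s k₂ k₀) s)|) (volume.restrict (Ioi 0)) := by
    refine B1_aem hη F₀ F₁ F₂ J (fun s q => B1_el J s q) (fun q => ?_) _ (fun s hs => B1_low hη F₀ F₁ F₂ J hs)
    unfold B1_el
    refine Measurable.ite ?_ measurable_const measurable_const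
    exact measurableSet_lt measurable_const Real.continuous_sqrt.measurable
  have ho : ∀ j : ℕ, AEMeasurable (fun s => ENNReal.ofReal (1 / s) *
        ENNReal.ofReal |TS η F₀ F₁ F₂ (fun k₂ k₀ => cpsi (octG J j s k₂ k₀) s)|) (volume.restrict (Ioi 0)) := by
    intro j
    refine B1_aem hη F₀ F₁ F₂ J (fun s q => B1_eo J j s q) (fun q => ?_) _ (fun s hs => B1_oct hη F₀ F₁ F₂ J j hs)
    unfold B1_eo
    refine Measurable.ite ?_ measurable_const measurable_const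
    exact (measurableSet_le (Real.continuous_sqrt.measurable.const_mul _) measurable_const).inter
      (measurableSet_lt measurable_const (Real.continuous_sqrt.measurable.const_mul _))
  rw [← lintegral_tsum ho, ← lintegral_add_left' hl]
  calc ENNReal.ofReal |TS η F₀ F₁ F₂ (fun k₂ k₀ t => ∑ q, J.a q k₂ k₀ * Dk (J.r q) t)|
      ≤ ENNReal.ofReal |∫ s in Ioi (0 : ℝ), ∑ q, 1 / s * B1_T η F₀ F₁ F₂ J q s| := by
        refine ENNReal.ofReal_le_ofReal ?_
        rw [B1_T_eq hη, abs_mul]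
        have h1 : |-(1 / 2 : ℝ)| = 1 / 2 := by norm_num
        rw [h1]
        have h2 := abs_nonneg (∫ s in Ioi (0 : ℝ), ∑ q, 1 / s * B1_T η F₀ F₁ F₂ J q s)
        linarith
    _ ≤ ∫⁻ s in Ioi (0 : ℝ), ENNReal.ofReal |∑ q, 1 / s * B1_T η F₀ F₁ F₂ J q s| := by
        have h := enorm_integral_le_lintegral_enorm (μ := volume.restrict (Ioi (0 : ℝ)))
          (fun s => ∑ q, 1 / s * B1_T η F₀ F₁ F₂ J q s)
        simpa only [Real.enorm_eq_ofReal_abs] using h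
    _ ≤ _ := by
        refine setLIntegral_mono_ae' measurableSet_Ioi (Eventually.of_forall fun s hs => ?_)
        have hs0 : (0 : ℝ) < s := hs
        rw [← Finset.mul_sum, abs_mul, abs_of_pos (by positivity : 0 < 1 / s), ENNReal.ofReal_mul (by positivity)]
        refine (mul_le_mul_right (B1_pt hη F₀ F₁ F₂ J hs0) _).trans ?_
        rw [mul_add, ENNReal.tsum_mul_left]

end Crest.Agent.TH
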