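import Crest.Agent.TH_BDefs
import Crest.Agent.TH_G2

/-! # TH_B3 (task TH-B4): localization identity -/

set_option autoImplicit false
open Matrix MeasureTheory Set Filter
open scoped Topology ENNReal

namespace Crest.Agent.TH
variable {N : ℕ} {η : ℝ}

private theorem B3_cgk (t : ℝ) : Continuous (gk t) := by
  unfold gk
  fun_prop

private theorem B3_cgk1 (t : ℝ) : Continuous (gk1 t) := by
  have h := B3_cgk t
  unfold gk1
  fun_prop

private theorem B3_cpsi0 (s : ℝ) : Continuous (psi s) := by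
  have h := B3_cgk1 (s / 2)
  unfold psi
  fun_prop

private theorem B3_ipsi {s : ℝ} (hs : 0 < s) : Integrable (psi s) := by
  unfold psi
  exact (integrable_gk1 (half_pos hs)).const_mul _

private theorem B3_psi_bdd {s : ℝ} (hs : 0 < s) : ∃ C : ℝ, ∀ x, |psi s x| ≤ C := by
  obtain ⟨C, hC⟩ := abs_gk1_le_const (half_pos hs)
  refine ⟨Real.sqrt s * C, fun x => ?_⟩
  unfold psi
  rw [abs_mul, abs_of_nonneg (Real.sqrt_nonneg s)]
  exact mul_le_mul_of_nonneg_left (hC x) (Real.sqrt_nonneg s)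

private theorem B3_gk_bdd {t : ℝ} (ht : 0 < t) : ∃ C : ℝ, ∀ x, |gk t x| ≤ C := by
  refine ⟨1 / Real.sqrt (2 * Real.pi * t), fun x => ?_⟩
  rw [abs_of_pos (gk_pos ht x)]
  unfold gk
  apply div_le_div_of_nonneg_right _ (Real.sqrt_nonneg _)
  rw [Real.exp_le_one_iff]
  have : 0 ≤ x ^ 2 / (2 * t) := by positivity
  rw [neg_div]
  linarith

private theorem B3_cpsi_meas {γ : ℝ → ℝ} (hγm : Measurable γ) (s : ℝ) : Measurable (cpsi γ s) := by
  have h1 : Measurable (fun p : ℝ × ℝ => γ (p.1 - p.2) * psi s p.2) :=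
    (hγm.comp (measurable_fst.sub measurable_snd)).mul ((B3_cpsi0 s).measurable.comp measurable_snd)
  have h2 := h1.stronglyMeasurable.integral_prod_right' (ν := (volume : Measure ℝ))
  exact h2.measurable

private theorem B3_cpsi_bdd {γ : ℝ → ℝ} {B : ℝ} (hγb : ∀ t, |γ t| ≤ B) {s : ℝ} (hs : 0 < s) (t : ℝ) :
    |cpsi γ s t| ≤ B * ∫ y, |psi s y| := by
  unfold cpsi
  rw [← integral_const_mul, ← Real.norm_eq_abs]
  apply norm_integral_le_of_norm_le ((B3_ipsi hs).abs.const_mul B)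
  refine Eventually.of_forall fun y => ?_
  rw [norm_mul, Real.norm_eq_abs, Real.norm_eq_abs]
  exact mul_le_mul_of_nonneg_right (hγb _) (abs_nonneg _)

private theorem B3_bdd {α : Type*} [MeasurableSpace α] (μ : Measure α) [IsFiniteMeasure μ] {f : α → ℝ}
    (hf : Measurable f) {C : ℝ} (hC : ∀ x, |f x| ≤ C) : Integrable f μ :=
  Integrable.of_bound hf.aestronglyMeasurable C (Eventually.of_forall hC)

set_option maxHeartbeats 1600000 in
private theorem B3_key (hη : 0 < η) {γ : ℝ → ℝ} {B : ℝ} (hγm : Measurable γ) (hγb : ∀ t, |γ t| ≤ B)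
    {s w : ℝ} (hs : 0 < s) (hw : 0 < w) (a₀ a₁ a₂ : ℝ) :
    Integrable (fun p : ℝ × ℝ => (Real.sqrt s * ∫ x in a₁..(a₁ + η), gk1 (s / 2) (x - p.2)) *
      ∫ x₂ in a₂..(a₂ + η), ∫ x₀ in a₀..(a₀ + η), γ (x₀ + x₂ + p.2) * gk (w ^ 2) (x₀ - p.1)) ∧
    (∫ x₀ in a₀..(a₀ + η), ∫ x₁ in a₁..(a₁ + η), ∫ x₂ in a₂..(a₂ + η), cpsi γ s (x₀ + x₁ + x₂)) =
      ∫ p : ℝ × ℝ, (Real.sqrt s * ∫ x in a₁..(a₁ + η), gk1 (s / 2) (x - p.2)) *
        ∫ x₂ in a₂..(a₂ + η), ∫ x₀ in a₀..(a₀ + η), γ (x₀ + x₂ + p.2) * gk (w ^ 2) (x₀ - p.1) := by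
  have hB : 0 ≤ B := (abs_nonneg _).trans (hγb 0)
  have hw2 : 0 < w ^ 2 := by positivity
  obtain ⟨C₁, hC₁⟩ := B3_psi_bdd hs
  obtain ⟨C₂, hC₂⟩ := B3_gk_bdd hw2
  have hC₁0 : 0 ≤ C₁ := (abs_nonneg _).trans (hC₁ 0)
  have hC₂0 : 0 ≤ C₂ := (abs_nonneg _).trans (hC₂ 0)
  have hle : ∀ a : ℝ, a ≤ a + η := fun a => by linarith
  simp only [intervalIntegral.integral_of_le (hle _)]
  set ν₀ : Measure ℝ := volume.restrict (Ioc a₀ (a₀ + η)) with hν₀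
  set ν₁ : Measure ℝ := volume.restrict (Ioc a₁ (a₁ + η)) with hν₁
  set ν₂ : Measure ℝ := volume.restrict (Ioc a₂ (a₂ + η)) with hν₂
  have : IsFiniteMeasure ν₀ := by rw [hν₀]; infer_instance
  have : IsFiniteMeasure ν₁ := by rw [hν₁]; infer_instance
  have : IsFiniteMeasure ν₂ := by rw [hν₂]; infer_instance
  -- the big function
  let G : (ℝ × ℝ) → (ℝ × (ℝ × ℝ)) → ℝ := fun p x =>
    gk (w ^ 2) (x.1 - p.1) * (γ (x.1 + x.2.2 + p.2) * psi s (x.2.1 - p.2))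
  have hGm : Measurable (Function.uncurry G) := by
    apply Measurable.mul
    · exact (B3_cgk _).measurable.comp (by fun_prop)
    · apply Measurable.mul
      · exact hγm.comp (by fun_prop)
      · exact (B3_cpsi0 s).measurable.comp (by fun_prop)
  have hsec : ∀ x : ℝ × (ℝ × ℝ), Integrable (fun p : ℝ × ℝ => G p x) := by
    intro x
    have h1 : Integrable (fun p₀ : ℝ => gk (w ^ 2) (x.1 - p₀)) := (integrable_gk hw2).comp_sub_left x.1
    have h2 : Integrable (fun p₁ : ℝ => γ (x.1 + x.2.2 + p₁) * psi s (x.2.1 - p₁)) := by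
      apply Integrable.bdd_mul (c := B) ((B3_ipsi hs).comp_sub_left x.2.1)
      · exact (hγm.comp (by fun_prop)).aestronglyMeasurable
      · exact Eventually.of_forall fun p => hγb _
    exact h1.mul_prod h2
  have hsecI : ∀ x : ℝ × (ℝ × ℝ), ∫ p : ℝ × ℝ, G p x = cpsi γ s (x.1 + x.2.1 + x.2.2) := by
    intro x
    have h3 := integral_prod_mul (μ := (volume : Measure ℝ)) (ν := (volume : Measure ℝ))
      (fun p₀ : ℝ => gk (w ^ 2) (x.1 - p₀)) (fun p₁ : ℝ => γ (x.1 + x.2.2 + p₁) * psi s (x.2.1 - p₁))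
    refine h3.trans ?_
    rw [integral_sub_left_eq_self (fun p => gk (w ^ 2) p) volume x.1, integral_gk hw2, one_mul]
    unfold cpsi
    rw [← integral_sub_left_eq_self (fun y => γ (x.1 + x.2.1 + x.2.2 - y) * psi s y) volume x.2.1]
    congr 1
    funext p
    congr 2
    ring
  have hnorm : ∀ x : ℝ × (ℝ × ℝ), ‖∫ p : ℝ × ℝ, ‖G p x‖‖ ≤ B * ∫ y, |psi s y| := by
    intro x
    have h3 := integral_prod_mul (μ := (volume : Measure ℝ)) (ν := (volume : Measure ℝ))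
      (fun p₀ : ℝ => |gk (w ^ 2) (x.1 - p₀)|) (fun p₁ : ℝ => |γ (x.1 + x.2.2 + p₁) * psi s (x.2.1 - p₁)|)
    have h4 : ∫ p : ℝ × ℝ, ‖G p x‖ = ∫ p : ℝ × ℝ, |gk (w ^ 2) (x.1 - p.1)| *
        |γ (x.1 + x.2.2 + p.2) * psi s (x.2.1 - p.2)| := by
      congr 1
      funext p
      simp only [G]
      rw [norm_mul, Real.norm_eq_abs, Real.norm_eq_abs]
    have h5 : (∫ p₀ : ℝ, |gk (w ^ 2) (x.1 - p₀)|) = 1 := by
      simp only [fun y => abs_of_pos (gk_pos hw2 y)]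
      rw [integral_sub_left_eq_self (fun p => gk (w ^ 2) p) volume x.1, integral_gk hw2]
    have h6 : ∫ p : ℝ × ℝ, ‖G p x‖ = ∫ p₁ : ℝ, |γ (x.1 + x.2.2 + p₁) * psi s (x.2.1 - p₁)| := by
      rw [h4]
      refine h3.trans ?_
      rw [h5, one_mul]
    rw [h6, Real.norm_eq_abs, abs_of_nonneg (integral_nonneg fun _ => abs_nonneg _)]
    rw [← integral_sub_left_eq_self (fun y => |psi s y|) volume x.2.1, ← integral_const_mul]
    apply integral_mono_of_nonneg (Eventually.of_forall fun _ => abs_nonneg _)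
    · exact ((B3_ipsi hs).abs.comp_sub_left x.2.1).const_mul B
    · refine Eventually.of_forall fun p => ?_
      show |γ (x.1 + x.2.2 + p) * psi s (x.2.1 - p)| ≤ B * |psi s (x.2.1 - p)|
      rw [abs_mul]
      exact mul_le_mul_of_nonneg_right (hγb _) (abs_nonneg _)
  have hGI : Integrable (Function.uncurry G)
      ((volume : Measure (ℝ × ℝ)).prod (ν₀.prod (ν₁.prod ν₂))) := by
    rw [integrable_prod_iff' hGm.aestronglyMeasurable]
    refine ⟨Eventually.of_forall hsec, ?_⟩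
    refine Integrable.of_bound ?_ (B * ∫ y, |psi s y|) (Eventually.of_forall hnorm)
    exact (hGm.aestronglyMeasurable.norm.prod_swap).integral_prod_right'
  -- integral over `x` for fixed `p`
  have hX : ∀ p : ℝ × ℝ, ∫ x, G p x ∂(ν₀.prod (ν₁.prod ν₂)) =
      (Real.sqrt s * ∫ x, gk1 (s / 2) (x - p.2) ∂ν₁) *
        ∫ x₂, ∫ x₀, γ (x₀ + x₂ + p.2) * gk (w ^ 2) (x₀ - p.1) ∂ν₀ ∂ν₂ := by
    intro p
    have h1 : Integrable (G p) (ν₀.prod (ν₁.prod ν₂)) := by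
      have hm : Measurable (G p) := hGm.of_uncurry_left
      refine B3_bdd _ hm (C := C₂ * (B * C₁)) ?_
      intro x
      show |gk (w ^ 2) (x.1 - p.1) * (γ (x.1 + x.2.2 + p.2) * psi s (x.2.1 - p.2))| ≤ _
      rw [abs_mul, abs_mul]
      exact mul_le_mul (hC₂ _) (mul_le_mul (hγb _) (hC₁ _) (abs_nonneg _) hB)
        (mul_nonneg (abs_nonneg _) (abs_nonneg _)) hC₂0
    rw [integral_prod _ h1]
    have h2 : ∀ x₀ : ℝ, ∫ y, G p (x₀, y) ∂(ν₁.prod ν₂) =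
        (∫ x₁, psi s (x₁ - p.2) ∂ν₁) * ∫ x₂, γ (x₀ + x₂ + p.2) * gk (w ^ 2) (x₀ - p.1) ∂ν₂ := by
      intro x₀
      have h3 := integral_prod_mul (μ := ν₁) (ν := ν₂) (fun x₁ => psi s (x₁ - p.2))
        (fun x₂ => γ (x₀ + x₂ + p.2) * gk (w ^ 2) (x₀ - p.1))
      rw [← h3]
      congr 1
      funext y
      simp only [G]
      ring
    simp only [h2]
    rw [integral_const_mul]
    have h4 : (∫ x₁, psi s (x₁ - p.2) ∂ν₁) = Real.sqrt s * ∫ x, gk1 (s / 2) (x - p.2) ∂ν₁ := by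
      unfold psi
      rw [integral_const_mul]
    rw [h4]
    congr 1
    apply integral_integral_swap
    refine B3_bdd _ ?_ (C := B * C₂) ?_
    · apply Measurable.mul
      · exact hγm.comp (by fun_prop)
      · exact (B3_cgk _).measurable.comp (by fun_prop)
    · intro x
      show |γ (x.1 + x.2 + p.2) * gk (w ^ 2) (x.1 - p.1)| ≤ _
      rw [abs_mul]
      exact mul_le_mul (hγb _) (hC₂ _) (abs_nonneg _) hB
  constructor
  · have h1 := hGI.integral_prod_left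
    refine h1.congr (Eventually.of_forall fun p => ?_)
    exact hX p
  · have h1 := integral_integral_swap hGI
    simp only [hX, hsecI] at h1
    rw [h1]
    have hcm := B3_cpsi_meas hγm s
    have hcb := B3_cpsi_bdd hγb hs
    have h2 : Integrable (fun x : ℝ × (ℝ × ℝ) => cpsi γ s (x.1 + x.2.1 + x.2.2))
        (ν₀.prod (ν₁.prod ν₂)) :=
      B3_bdd _ (hcm.comp (by fun_prop)) (fun x => hcb _)
    rw [integral_prod _ h2]
    congr 1
    funext x₀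
    have h3 : Integrable (fun x : ℝ × ℝ => cpsi γ s (x₀ + x.1 + x.2)) (ν₁.prod ν₂) :=
      B3_bdd _ (hcm.comp (by fun_prop)) (fun x => hcb _)
    exact (integral_prod _ h3).symm

/-- `(γ * ψ_s)(x₀+x₁+x₂) = ∫ γ(x₀+x₂+p₁) ψ_s(x₁-p₁) dp₁`, `∫_{cell k₁} ψ_s(x₁-p₁) dx₁ = √s dwt p₁ (s/2) k₁`,
`∫ g_{w²}(x₀-p₀) dp₀ = 1`; Fubini (everything is absolutely integrable for bounded integrable `γ`). -/
theorem TS_cpsi (hη : 0 < η) (F₀ F₁ F₂ : Matrix (Fin (2 * N)) (Fin (2 * N)) ℝ)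
    (γ : Fin (2 * N) → Fin (2 * N) → ℝ → ℝ) (hγm : ∀ k₂ k₀, Measurable (γ k₂ k₀))
    (hγ : ∀ k₂ k₀, Integrable (γ k₂ k₀)) (hγb : ∃ B, ∀ k₂ k₀ t, |γ k₂ k₀ t| ≤ B)
    {s w : ℝ} (hs : 0 < s) (hw : 0 < w) :
    Integrable (fun p : ℝ × ℝ => ∑ k₀, ∑ k₁, ∑ k₂, F₀ k₀ k₁ * (Real.sqrt s * dwt η p.2 (s / 2) k₁) *
      F₁ k₁ k₂ * ZB η F₂ γ w p.1 p.2 k₂ k₀) ∧
    TS η F₀ F₁ F₂ (fun k₂ k₀ => cpsi (γ k₂ k₀) s) =
      ∫ p : ℝ × ℝ, ∑ k₀, ∑ k₁, ∑ k₂, F₀ k₀ k₁ * (Real.sqrt s * dwt η p.2 (s / 2) k₁) *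
        F₁ k₁ k₂ * ZB η F₂ γ w p.1 p.2 k₂ k₀ := by
  obtain ⟨B, hB⟩ := hγb
  have hkey : ∀ k₀ k₁ k₂ : Fin (2 * N),
      Integrable (fun p : ℝ × ℝ => F₀ k₀ k₁ * (Real.sqrt s * dwt η p.2 (s / 2) k₁) *
        F₁ k₁ k₂ * ZB η F₂ γ w p.1 p.2 k₂ k₀) ∧
      F₀ k₀ k₁ * F₁ k₁ k₂ * F₂ k₂ k₀ * Jc η k₀ k₁ k₂ (cpsi (γ k₂ k₀) s) =
        ∫ p : ℝ × ℝ, F₀ k₀ k₁ * (Real.sqrt s * dwt η p.2 (s / 2) k₁) *
          F₁ k₁ k₂ * ZB η F₂ γ w p.1 p.2 k₂ k₀ := by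
    intro k₀ k₁ k₂
    obtain ⟨h1, h2⟩ := B3_key hη (hγm k₂ k₀) (hB k₂ k₀) hs hw (lft η k₀) (lft η k₁) (lft η k₂)
    have h3 : (fun p : ℝ × ℝ => F₀ k₀ k₁ * (Real.sqrt s * dwt η p.2 (s / 2) k₁) *
        F₁ k₁ k₂ * ZB η F₂ γ w p.1 p.2 k₂ k₀) = fun p : ℝ × ℝ => F₀ k₀ k₁ * F₁ k₁ k₂ * F₂ k₂ k₀ *
        ((Real.sqrt s * ∫ x in (lft η k₁)..(lft η k₁ + η), gk1 (s / 2) (x - p.2)) *
        ∫ x₂ in (lft η k₂)..(lft η k₂ + η), ∫ x₀ in (lft η k₀)..(lft η k₀ + η),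
          γ k₂ k₀ (x₀ + x₂ + p.2) * gk (w ^ 2) (x₀ - p.1)) := by
      funext p
      unfold dwt ZB
      rw [Matrix.of_apply]
      ring
    rw [h3]
    refine ⟨h1.const_mul _, ?_⟩
    rw [integral_const_mul, ← h2]
    rfl
  constructor
  · refine integrable_finsetSum _ fun k₀ _ => integrable_finsetSum _ fun k₁ _ =>
      integrable_finsetSum _ fun k₂ _ => (hkey k₀ k₁ k₂).1
  · unfold TS
    rw [integral_finsetSum _ fun k₀ _ => integrable_finsetSum _ fun k₁ _ =>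
      integrable_finsetSum _ fun k₂ _ => (hkey k₀ k₁ k₂).1]
    refine Finset.sum_congr rfl fun k₀ _ => ?_
    rw [integral_finsetSum _ fun k₁ _ =>
      integrable_finsetSum _ fun k₂ _ => (hkey k₀ k₁ k₂).1]
    refine Finset.sum_congr rfl fun k₁ _ => ?_
    rw [integral_finsetSum _ fun k₂ _ => (hkey k₀ k₁ k₂).1]
    exact Finset.sum_congr rfl fun k₂ _ => (hkey k₀ k₁ k₂).2

end Crest.Agent.TH
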