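import Crest.Agent.TH_BDefs
import Crest.Agent.TH_G2

/-! # TH_B6 (task TH-B5): the second factor -/

set_option autoImplicit false
open Matrix MeasureTheory Set Filter
open scoped Topology ENNReal

namespace Crest.Agent.TH

private theorem B6_cgk (t : ℝ) : Continuous (gk t) := by
  unfold gk
  fun_prop

private theorem B6_gk_nonneg (t x : ℝ) : 0 ≤ gk t x := by
  unfold gk
  positivity

/-- `g_{w²}(y)² ≤ 32 e^{-y²/2w²} e^{τ²/32w²} g_{32w²}(τ-y) g_{32w²}(y)` -/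
private theorem B6_core {w : ℝ} (hw : 0 < w) (y τ : ℝ) :
    gk (w ^ 2) y ^ 2 ≤ 32 * Real.exp (-y ^ 2 / (2 * w ^ 2)) * Real.exp (τ ^ 2 / (32 * w ^ 2)) *
      (gk (32 * w ^ 2) (τ - y) * gk (32 * w ^ 2) y) := by
  have e1 : gk (w ^ 2) y ^ 2 = Real.exp (-y ^ 2 / w ^ 2) / (2 * Real.pi * w ^ 2) := by
    unfold gk
    rw [div_pow, Real.sq_sqrt (by positivity), ← Real.exp_nat_mul]
    congr 2
    push_cast
    field_simp
  have e2 : 32 * Real.exp (-y ^ 2 / (2 * w ^ 2)) * Real.exp (τ ^ 2 / (32 * w ^ 2)) *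
      (gk (32 * w ^ 2) (τ - y) * gk (32 * w ^ 2) y) =
      Real.exp (-y ^ 2 / (2 * w ^ 2) + τ ^ 2 / (32 * w ^ 2) + (-(τ - y) ^ 2 / (2 * (32 * w ^ 2)) +
        -y ^ 2 / (2 * (32 * w ^ 2)))) / (2 * Real.pi * w ^ 2) := by
    unfold gk
    rw [div_mul_div_comm, Real.mul_self_sqrt (by positivity), Real.exp_add, Real.exp_add, Real.exp_add]
    field_simp
  rw [e1, e2]
  refine div_le_div_of_nonneg_right ?_ (by positivity)
  apply Real.exp_le_exp.2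
  have e3 : -y ^ 2 / (2 * w ^ 2) + τ ^ 2 / (32 * w ^ 2) + (-(τ - y) ^ 2 / (2 * (32 * w ^ 2)) +
        -y ^ 2 / (2 * (32 * w ^ 2))) - -y ^ 2 / w ^ 2 = (29 * y ^ 2 + (τ + y) ^ 2) / (64 * w ^ 2) := by
    field_simp
    ring
  have e4 : 0 ≤ (29 * y ^ 2 + (τ + y) ^ 2) / (64 * w ^ 2) := by positivity
  linarith

variable {N : ℕ} {η : ℝ}

private theorem B6_wt_set (hη : 0 < η) (p t : ℝ) (k : Fin (2 * N)) :
    wt η p t k = ∫ x in Ico (lft η k) (lft η k + η), gk t (x - p) := by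
  unfold wt
  rw [intervalIntegral.integral_of_le (by linarith), integral_Ico_eq_integral_Ioc]

private theorem B6_wt_lint (hη : 0 < η) (p : ℝ) {t : ℝ} (ht : 0 < t) (k : Fin (2 * N)) :
    ENNReal.ofReal (wt η p t k) =
      ∫⁻ x in Ico (lft η k) (lft η k + η), ENNReal.ofReal (gk t (x - p)) := by
  rw [B6_wt_set hη, ofReal_integral_eq_lintegral_ofReal]
  · exact ((integrable_gk ht).comp_sub_right p).integrableOn
  · exact ae_of_all _ fun x => B6_gk_nonneg _ _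

private theorem B6_meas_cell2 (k₂ k₀ : Fin (2 * N)) : MeasurableSet (cell2 η k₂ k₀) :=
  measurableSet_Ico.prod measurableSet_Ico

private theorem B6_vol_cell2 (k₂ k₀ : Fin (2 * N)) : volume (cell2 η k₂ k₀) ≠ ⊤ := by
  unfold cell2
  rw [Measure.volume_eq_prod, Measure.prod_prod, Real.volume_Ico, Real.volume_Ico]
  exact ENNReal.mul_ne_top ENNReal.ofReal_ne_top ENNReal.ofReal_ne_top

/-- bounded measurable times continuous is integrable on the cell -/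
private theorem B6_int_cell2 (k₂ k₀ : Fin (2 * N)) {f g : ℝ × ℝ → ℝ} (hf : Measurable f) (hg : Continuous g)
    {B : ℝ} (hB : ∀ z, |f z| ≤ B) : IntegrableOn (fun z => f z * g z) (cell2 η k₂ k₀) := by
  have hK : IsCompact (Icc (lft η k₂) (lft η k₂ + η) ×ˢ Icc (lft η k₀) (lft η k₀ + η)) :=
    isCompact_Icc.prod isCompact_Icc
  have hg1 : IntegrableOn g (cell2 η k₂ k₀) :=
    (hg.continuousOn.integrableOn_compact hK).mono_set
      (Set.prod_mono Ico_subset_Icc_self Ico_subset_Icc_self)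
  refine Integrable.bdd_mul hg1 hf.aestronglyMeasurable (c := B) (ae_of_all _ fun z => ?_)
  exact hB z

private theorem B6_cell_ineq (hη : 0 < η) (k₂ k₀ : Fin (2 * N)) {γ : ℝ → ℝ} (hγ : Measurable γ)
    {B : ℝ} (hB : ∀ t, |γ t| ≤ B) {w : ℝ} (hw : 0 < w) (p₀ p₁ : ℝ) :
    IntegrableOn (fun z : ℝ × ℝ => γ (z.2 + z.1 + p₁) ^ 2 *
      (32 * Real.exp (-(z.2 - p₀) ^ 2 / (2 * w ^ 2)) * Real.exp ((z.2 + z.1 + p₁) ^ 2 / (32 * w ^ 2))))
      (cell2 η k₂ k₀) ∧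
    (∫ x₂ in (lft η k₂)..(lft η k₂ + η), ∫ x₀ in (lft η k₀)..(lft η k₀ + η),
      γ (x₀ + x₂ + p₁) * gk (w ^ 2) (x₀ - p₀)) ^ 2 /
        (wt η (-p₀ - p₁) (32 * w ^ 2) k₂ * wt η p₀ (32 * w ^ 2) k₀) ≤
    ∫ z in cell2 η k₂ k₀, γ (z.2 + z.1 + p₁) ^ 2 *
      (32 * Real.exp (-(z.2 - p₀) ^ 2 / (2 * w ^ 2)) * Real.exp ((z.2 + z.1 + p₁) ^ 2 / (32 * w ^ 2))) := by
  have hw2 : 0 < 32 * w ^ 2 := by positivity
  have hm : Measurable (fun z : ℝ × ℝ => γ (z.2 + z.1 + p₁)) := hγ.comp (by fun_prop)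
  have hR : IntegrableOn (fun z : ℝ × ℝ => γ (z.2 + z.1 + p₁) ^ 2 *
      (32 * Real.exp (-(z.2 - p₀) ^ 2 / (2 * w ^ 2)) * Real.exp ((z.2 + z.1 + p₁) ^ 2 / (32 * w ^ 2))))
      (cell2 η k₂ k₀) := by
    refine B6_int_cell2 k₂ k₀ (hm.pow_const 2) (by fun_prop) (B := B ^ 2) fun z => ?_
    rw [abs_pow]
    exact pow_le_pow_left₀ (abs_nonneg _) (hB _) 2
  refine ⟨hR, ?_⟩
  have hg := B6_cgk (w ^ 2)
  have hg' := B6_cgk (32 * w ^ 2)
  have hf : IntegrableOn (fun z : ℝ × ℝ => γ (z.2 + z.1 + p₁) * gk (w ^ 2) (z.2 - p₀)) (cell2 η k₂ k₀) :=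
    B6_int_cell2 k₂ k₀ hm (by fun_prop) (B := B) fun z => hB _
  have hh : IntegrableOn (fun z : ℝ × ℝ => gk (32 * w ^ 2) (z.1 - (-p₀ - p₁)) * gk (32 * w ^ 2) (z.2 - p₀))
      (cell2 η k₂ k₀) := by
    have h := B6_int_cell2 (η := η) k₂ k₀ (f := fun _ => (1 : ℝ))
      (g := fun z : ℝ × ℝ => gk (32 * w ^ 2) (z.1 - (-p₀ - p₁)) * gk (32 * w ^ 2) (z.2 - p₀))
      measurable_const (by fun_prop) (B := 1) (fun z => by simp)
    simpa using h
  have hI : (∫ x₂ in (lft η k₂)..(lft η k₂ + η), ∫ x₀ in (lft η k₀)..(lft η k₀ + η),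
      γ (x₀ + x₂ + p₁) * gk (w ^ 2) (x₀ - p₀)) =
      ∫ z in cell2 η k₂ k₀, γ (z.2 + z.1 + p₁) * gk (w ^ 2) (z.2 - p₀) := by
    have h2 := setIntegral_prod (μ := (volume : Measure ℝ)) (ν := (volume : Measure ℝ))
      (s := Ico (lft η k₂) (lft η k₂ + η)) (t := Ico (lft η k₀) (lft η k₀ + η))
      (fun z : ℝ × ℝ => γ (z.2 + z.1 + p₁) * gk (w ^ 2) (z.2 - p₀)) hf
    have h3 : (∫ z in cell2 η k₂ k₀, γ (z.2 + z.1 + p₁) * gk (w ^ 2) (z.2 - p₀)) =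
      ∫ x₂ in Ico (lft η k₂) (lft η k₂ + η), ∫ x₀ in Ico (lft η k₀) (lft η k₀ + η),
        γ (x₀ + x₂ + p₁) * gk (w ^ 2) (x₀ - p₀) := h2
    rw [h3, intervalIntegral.integral_of_le (by linarith), integral_Ico_eq_integral_Ioc]
    refine integral_congr_ae (ae_of_all _ fun x => ?_)
    simp only
    rw [intervalIntegral.integral_of_le (by linarith), integral_Ico_eq_integral_Ioc]
  have hW : wt η (-p₀ - p₁) (32 * w ^ 2) k₂ * wt η p₀ (32 * w ^ 2) k₀ =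
      ∫ z in cell2 η k₂ k₀, gk (32 * w ^ 2) (z.1 - (-p₀ - p₁)) * gk (32 * w ^ 2) (z.2 - p₀) := by
    rw [B6_wt_set hη, B6_wt_set hη]
    exact (setIntegral_prod_mul (μ := (volume : Measure ℝ)) (ν := (volume : Measure ℝ))
      (fun x => gk (32 * w ^ 2) (x - (-p₀ - p₁))) (fun x => gk (32 * w ^ 2) (x - p₀)) _ _).symm
  have hWpos : 0 < wt η (-p₀ - p₁) (32 * w ^ 2) k₂ * wt η p₀ (32 * w ^ 2) k₀ :=
    mul_pos (wt_pos hη _ hw2 _) (wt_pos hη _ hw2 _)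
  rw [hI]
  set I := ∫ z in cell2 η k₂ k₀, γ (z.2 + z.1 + p₁) * gk (w ^ 2) (z.2 - p₀) with hIdef
  set W := wt η (-p₀ - p₁) (32 * w ^ 2) k₂ * wt η p₀ (32 * w ^ 2) k₀ with hWdef
  have key : ∫ z in cell2 η k₂ k₀, (2 * (I / W) * (γ (z.2 + z.1 + p₁) * gk (w ^ 2) (z.2 - p₀)) -
      (I / W) ^ 2 * (gk (32 * w ^ 2) (z.1 - (-p₀ - p₁)) * gk (32 * w ^ 2) (z.2 - p₀))) ≤
      ∫ z in cell2 η k₂ k₀, γ (z.2 + z.1 + p₁) ^ 2 *
      (32 * Real.exp (-(z.2 - p₀) ^ 2 / (2 * w ^ 2)) * Real.exp ((z.2 + z.1 + p₁) ^ 2 / (32 * w ^ 2))) := by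
    refine integral_mono ((hf.const_mul _).sub (hh.const_mul _)) hR fun z => ?_
    simp only
    have c1 := B6_core hw (z.2 - p₀) (z.2 + z.1 + p₁)
    have c2 : z.2 + z.1 + p₁ - (z.2 - p₀) = z.1 - (-p₀ - p₁) := by ring
    rw [c2] at c1
    set a := γ (z.2 + z.1 + p₁)
    set g := gk (w ^ 2) (z.2 - p₀)
    set h := gk (32 * w ^ 2) (z.1 - (-p₀ - p₁)) * gk (32 * w ^ 2) (z.2 - p₀) with hhdef
    set E := 32 * Real.exp (-(z.2 - p₀) ^ 2 / (2 * w ^ 2)) * Real.exp ((z.2 + z.1 + p₁) ^ 2 / (32 * w ^ 2))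
    have hhpos : 0 < h := mul_pos (gk_pos hw2 _) (gk_pos hw2 _)
    have c3 : a ^ 2 * g ^ 2 ≤ a ^ 2 * (E * h) := mul_le_mul_of_nonneg_left c1 (sq_nonneg a)
    have c4 : (2 * (I / W) * (a * g) - (I / W) ^ 2 * h) * h ≤ (a ^ 2 * E) * h := by
      nlinarith [sq_nonneg (a * g - (I / W) * h)]
    exact le_of_mul_le_mul_right c4 hhpos
  rw [integral_sub (hf.const_mul _) (hh.const_mul _), integral_const_mul, integral_const_mul, ← hIdef,
    ← hW] at key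
  refine le_trans (le_of_eq ?_) key
  field_simp
  ring

/-- Step 1 (Cauchy–Schwarz on the cells): with `τ = x₀+x₂+p₁`, `y = x₀-p₀` (so `x₂ + p₀ + p₁ = τ - y`)
`∑ ZB²/(w₂ w₀) ≤ ∑ F₂² ∫∫_{cell} γ(τ)² g_{w²}(y)² / (g_{32w²}(y) g_{32w²}(τ-y)) dx₂ dx₀`
and `g_{w²}(y)²/(g_{32w²}(y) g_{32w²}(τ-y)) ≤ 32 e^{-y²/2w²} e^{τ²/32w²}`. -/
theorem ZB_sq_le {N : ℕ} {η : ℝ} (hη : 0 < η) (F₂ : Matrix (Fin (2 * N)) (Fin (2 * N)) ℝ)
    (γ : Fin (2 * N) → Fin (2 * N) → ℝ → ℝ) (hγm : ∀ k₂ k₀, Measurable (γ k₂ k₀))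
    {w : ℝ} (hw : 0 < w) (hγb : ∃ B, ∀ k₂ k₀ t, |γ k₂ k₀ t| ≤ B) (p₀ p₁ : ℝ) :
    ENNReal.ofReal (∑ k₂, ∑ k₀, ZB η F₂ γ w p₀ p₁ k₂ k₀ ^ 2 /
        (wt η (-p₀ - p₁) (32 * w ^ 2) k₂ * wt η p₀ (32 * w ^ 2) k₀)) ≤
      ∑ k₂, ∑ k₀, ENNReal.ofReal (F₂ k₂ k₀ ^ 2) * ∫⁻ z in cell2 η k₂ k₀,
        ENNReal.ofReal (γ k₂ k₀ (z.2 + z.1 + p₁) ^ 2 *
          (32 * Real.exp (-(z.2 - p₀) ^ 2 / (2 * w ^ 2)) * Real.exp ((z.2 + z.1 + p₁) ^ 2 / (32 * w ^ 2)))) := by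
  obtain ⟨B, hB⟩ := hγb
  have hw2 : 0 < 32 * w ^ 2 := by positivity
  have hnn : ∀ k₂ k₀, 0 ≤ ZB η F₂ γ w p₀ p₁ k₂ k₀ ^ 2 /
        (wt η (-p₀ - p₁) (32 * w ^ 2) k₂ * wt η p₀ (32 * w ^ 2) k₀) := fun k₂ k₀ =>
    div_nonneg (sq_nonneg _) (mul_pos (wt_pos hη _ hw2 _) (wt_pos hη _ hw2 _)).le
  rw [ENNReal.ofReal_sum_of_nonneg fun k₂ _ => Finset.sum_nonneg fun k₀ _ => hnn k₂ k₀]
  refine Finset.sum_le_sum fun k₂ _ => ?_
  rw [ENNReal.ofReal_sum_of_nonneg fun k₀ _ => hnn k₂ k₀]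
  refine Finset.sum_le_sum fun k₀ _ => ?_
  obtain ⟨h1, h2⟩ := B6_cell_ineq hη k₂ k₀ (hγm k₂ k₀) (hB k₂ k₀) hw p₀ p₁
  rw [← ofReal_integral_eq_lintegral_ofReal h1 (ae_of_all _ fun z => by positivity),
    ← ENNReal.ofReal_mul (sq_nonneg _)]
  refine ENNReal.ofReal_le_ofReal ?_
  have h3 := mul_le_mul_of_nonneg_left h2 (sq_nonneg (F₂ k₂ k₀))
  refine le_trans (le_of_eq ?_) h3
  unfold ZB
  rw [Matrix.of_apply]
  ring

private theorem B6_lconv {s t : ℝ} (hs : 0 < s) (ht : 0 < t) (x : ℝ) :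
    ∫⁻ y, ENNReal.ofReal (gk s (x - y)) * ENNReal.ofReal (gk t y) = ENNReal.ofReal (gk (s + t) x) := by
  have hc := B6_cgk s
  have hc' := B6_cgk t
  have hi : Integrable (fun y => gk s (x - y) * gk t y) := by
    have hst : 0 < s + t := by positivity
    have hr : 0 < s * t / (s + t) := by positivity
    simp_rw [gk_mul_gk hs ht]
    exact ((integrable_gk hr).comp_sub_right _).const_mul _
  rw [← gk_conv hs ht x, ofReal_integral_eq_lintegral_ofReal hi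
    (ae_of_all _ fun y => mul_nonneg (B6_gk_nonneg _ _) (B6_gk_nonneg _ _))]
  refine lintegral_congr fun y => ?_
  rw [ENNReal.ofReal_mul (B6_gk_nonneg _ _)]

private theorem B6_wt_conv (hη : 0 < η) {a T : ℝ} (ha : 0 < a) (hT : 0 < T) (c : ℝ) (k : Fin (2 * N)) :
    ∫⁻ p, ENNReal.ofReal (gk a (c - p)) * ENNReal.ofReal (wt η p T k) =
      ∫⁻ x in Ico (lft η k) (lft η k + η), ENNReal.ofReal (gk (a + T) (c - x)) := by
  have hc := B6_cgk a
  have hc' := B6_cgk T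
  have e1 : ∀ p, ENNReal.ofReal (gk a (c - p)) * ENNReal.ofReal (wt η p T k) =
      ∫⁻ x in Ico (lft η k) (lft η k + η), ENNReal.ofReal (gk a (c - p)) * ENNReal.ofReal (gk T (x - p)) := by
    intro p
    rw [B6_wt_lint hη p hT, lintegral_const_mul' _ _ ENNReal.ofReal_ne_top]
  simp_rw [e1]
  rw [lintegral_lintegral_swap (by fun_prop)]
  refine lintegral_congr fun x => ?_
  rw [← B6_lconv ha hT (c - x)]
  rw [← lintegral_add_right_eq_self (μ := (volume : Measure ℝ))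
    (fun p => ENNReal.ofReal (gk a (c - p)) * ENNReal.ofReal (gk T (x - p))) x]
  refine lintegral_congr fun p => ?_
  rw [show c - (p + x) = c - x - p by ring, show x - (p + x) = -p by ring, gk_neg]

private theorem B6_wt_conv' (hη : 0 < η) {a T : ℝ} (ha : 0 < a) (hT : 0 < T) (c d : ℝ) (k : Fin (2 * N)) :
    ∫⁻ p, ENNReal.ofReal (gk a (c - p)) * ENNReal.ofReal (wt η (-p - d) T k) =
      ∫⁻ x in Ico (lft η k) (lft η k + η), ENNReal.ofReal (gk (a + T) (c + d + x)) := by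
  have e1 : ∫⁻ p, ENNReal.ofReal (gk a (c - p)) * ENNReal.ofReal (wt η (-p - d) T k) =
      ∫⁻ q, ENNReal.ofReal (gk a (-(c + d) - q)) * ENNReal.ofReal (wt η q T k) := by
    rw [← lintegral_sub_left_eq_self (μ := (volume : Measure ℝ))
      (fun q => ENNReal.ofReal (gk a (-(c + d) - q)) * ENNReal.ofReal (wt η q T k)) (-d)]
    refine lintegral_congr fun p => ?_
    rw [show -(c + d) - (-d - p) = -(c - p) by ring, gk_neg, show -d - p = -p - d by ring]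
  rw [e1, B6_wt_conv hη ha hT]
  refine lintegral_congr fun x => ?_
  rw [show -(c + d) - x = -(c + d + x) by ring, gk_neg]

private theorem B6_disj (hη : 0 < η) {a a' : Fin (2 * N)} {x : ℝ} (h : x ∈ Ico (lft η a) (lft η a + η))
    (h' : x ∈ Ico (lft η a') (lft η a' + η)) : a = a' := by
  unfold lft at h h'
  rw [mem_Ico] at h h'
  have h1 : ((a : ℕ) : ℝ) < (a' : ℕ) + 1 := by
    have : (((a : ℕ) : ℝ) - N) * η < (((a' : ℕ) : ℝ) - N + 1) * η := by linarith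
    have := lt_of_mul_lt_mul_right this hη.le
    linarith
  have h2 : ((a' : ℕ) : ℝ) < (a : ℕ) + 1 := by
    have : (((a' : ℕ) : ℝ) - N) * η < (((a : ℕ) : ℝ) - N + 1) * η := by linarith
    have := lt_of_mul_lt_mul_right this hη.le
    linarith
  have h3 : (a : ℕ) < (a' : ℕ) + 1 := by exact_mod_cast h1
  have h4 : (a' : ℕ) < (a : ℕ) + 1 := by exact_mod_cast h2
  exact Fin.ext (by omega)

private theorem B6_cf_eq (hη : 0 < η) (A : Matrix (Fin (2 * N)) (Fin (2 * N)) ℝ) {a b : Fin (2 * N)} {x y : ℝ}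
    (hx : x ∈ Ico (lft η a) (lft η a + η)) (hy : y ∈ Ico (lft η b) (lft η b + η)) :
    cf η A (x, y) = A a b := by
  unfold cf
  rw [Finset.sum_eq_single a, Finset.sum_eq_single b]
  · rw [if_pos ⟨hx, hy⟩]
  · intro b' _ hb'
    rw [if_neg]
    rintro ⟨_, h2⟩
    exact hb' (B6_disj hη h2 hy)
  · intro h; exact absurd (Finset.mem_univ _) h
  · intro a' _ ha'
    refine Finset.sum_eq_zero fun b' _ => ?_
    rw [if_neg]
    rintro ⟨h1, _⟩
    exact ha' (B6_disj hη h1 hx)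
  · intro h; exact absurd (Finset.mem_univ _) h

private theorem B6_sum_le (hη : 0 < η) (A : Matrix (Fin (2 * N)) (Fin (2 * N)) ℝ) (x y : ℝ) :
    ∑ a, ∑ b, ENNReal.ofReal (A a b ^ 2) * ((Ico (lft η a) (lft η a + η)).indicator 1 x *
      (Ico (lft η b) (lft η b + η)).indicator 1 y) ≤ sq η A (x, y) := by
  by_cases hx : ∃ a : Fin (2 * N), x ∈ Ico (lft η a) (lft η a + η)
  · by_cases hy : ∃ b : Fin (2 * N), y ∈ Ico (lft η b) (lft η b + η)
    · obtain ⟨a, ha⟩ := hx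
      obtain ⟨b, hb⟩ := hy
      rw [Finset.sum_eq_single a, Finset.sum_eq_single b]
      · rw [indicator_of_mem ha, indicator_of_mem hb, sq, B6_cf_eq hη A ha hb]
        simp
      · intro b' _ hb'
        rw [indicator_of_notMem (fun h => hb' (B6_disj hη h hb))]
        simp
      · intro h; exact absurd (Finset.mem_univ _) h
      · intro a' _ ha'
        refine Finset.sum_eq_zero fun b' _ => ?_
        rw [indicator_of_notMem (fun h => ha' (B6_disj hη h ha))]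
        simp
      · intro h; exact absurd (Finset.mem_univ _) h
    · push Not at hy
      have : ∑ a, ∑ b, ENNReal.ofReal (A a b ^ 2) * ((Ico (lft η a) (lft η a + η)).indicator (1 : ℝ → ℝ≥0∞) x *
        (Ico (lft η b) (lft η b + η)).indicator (1 : ℝ → ℝ≥0∞) y) = 0 := by
        refine Finset.sum_eq_zero fun a _ => Finset.sum_eq_zero fun b _ => ?_
        rw [indicator_of_notMem (hy b)]
        simp
      rw [this]
      exact zero_le
  · push Not at hx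
    have : ∑ a, ∑ b, ENNReal.ofReal (A a b ^ 2) * ((Ico (lft η a) (lft η a + η)).indicator (1 : ℝ → ℝ≥0∞) x *
      (Ico (lft η b) (lft η b + η)).indicator (1 : ℝ → ℝ≥0∞) y) = 0 := by
      refine Finset.sum_eq_zero fun a _ => Finset.sum_eq_zero fun b _ => ?_
      rw [indicator_of_notMem (hx a)]
      simp
    rw [this]
    exact zero_le

private theorem B6_meas_sq (A : Matrix (Fin (2 * N)) (Fin (2 * N)) ℝ) : Measurable (sq η A) := by
  unfold sq cf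
  refine ENNReal.measurable_ofReal.comp (Measurable.pow_const ?_ 2)
  refine Finset.measurable_sum _ fun a _ => Finset.measurable_sum _ fun b _ => ?_
  refine Measurable.ite ?_ measurable_const measurable_const
  exact (measurableSet_Ico.preimage measurable_fst).inter (measurableSet_Ico.preimage measurable_snd)

/-- `∑ A² ∫_{cell a} g_{T₁}(c₁-x) ∫_{cell b} g_{T₂}(c₂-y) ≤ 4 HM1 (HM2 A²) (c₁,c₂)` -/
private theorem B6_HM (hη : 0 < η) (A : Matrix (Fin (2 * N)) (Fin (2 * N)) ℝ) {T₁ T₂ : ℝ} (h₁ : 0 < T₁)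
    (h₂ : 0 < T₂) (c₁ c₂ : ℝ) :
    ∑ a, ∑ b, ENNReal.ofReal (A a b ^ 2) *
      ((∫⁻ x in Ico (lft η a) (lft η a + η), ENNReal.ofReal (gk T₁ (c₁ - x))) *
      ∫⁻ y in Ico (lft η b) (lft η b + η), ENNReal.ofReal (gk T₂ (c₂ - y))) ≤
      4 * HM1 (HM2 (sq η A)) (c₁, c₂) := by
  have hc1 := B6_cgk T₁
  have hc2 := B6_cgk T₂
  have hsq := B6_meas_sq (η := η) A
  have e1 : ∀ a b : Fin (2 * N), ENNReal.ofReal (A a b ^ 2) *
      ((∫⁻ x in Ico (lft η a) (lft η a + η), ENNReal.ofReal (gk T₁ (c₁ - x))) *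
      ∫⁻ y in Ico (lft η b) (lft η b + η), ENNReal.ofReal (gk T₂ (c₂ - y))) =
      ∫⁻ x, ∫⁻ y, ENNReal.ofReal (A a b ^ 2) * ((Ico (lft η a) (lft η a + η)).indicator 1 x *
      (Ico (lft η b) (lft η b + η)).indicator 1 y) * (ENNReal.ofReal (gk T₁ (c₁ - x)) *
        ENNReal.ofReal (gk T₂ (c₂ - y))) := by
    intro a b
    rw [← lintegral_indicator measurableSet_Ico, ← lintegral_indicator measurableSet_Ico]
    have e2 : ∀ x, (∫⁻ y, ENNReal.ofReal (A a b ^ 2) * ((Ico (lft η a) (lft η a + η)).indicator 1 x *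
      (Ico (lft η b) (lft η b + η)).indicator 1 y) * (ENNReal.ofReal (gk T₁ (c₁ - x)) *
        ENNReal.ofReal (gk T₂ (c₂ - y)))) = (Ico (lft η a) (lft η a + η)).indicator
          (fun x => ENNReal.ofReal (gk T₁ (c₁ - x))) x * (ENNReal.ofReal (A a b ^ 2) * ∫⁻ y,
          (Ico (lft η b) (lft η b + η)).indicator (fun y => ENNReal.ofReal (gk T₂ (c₂ - y))) y) := by
      intro x
      rw [← mul_assoc, ← lintegral_const_mul' _ _ (by
        refine ENNReal.mul_ne_top ?_ ENNReal.ofReal_ne_top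
        by_cases hx : x ∈ Ico (lft η a) (lft η a + η)
        · rw [indicator_of_mem hx]; exact ENNReal.ofReal_ne_top
        · rw [indicator_of_notMem hx]; exact ENNReal.zero_ne_top)]
      refine lintegral_congr fun y => ?_
      by_cases hx : x ∈ Ico (lft η a) (lft η a + η)
      · by_cases hy : y ∈ Ico (lft η b) (lft η b + η)
        · rw [indicator_of_mem hx, indicator_of_mem hx, indicator_of_mem hy, indicator_of_mem hy]
          simp only [Pi.one_apply, mul_one]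
          ring
        · rw [indicator_of_notMem hy, indicator_of_notMem hy]
          simp
      · rw [indicator_of_notMem hx, indicator_of_notMem hx]
        simp
    simp_rw [e2]
    rw [lintegral_mul_const _ (by fun_prop (disch := exact measurableSet_Ico))]
    ring
  simp_rw [e1]
  have hmi : ∀ a b : Fin (2 * N), Measurable (fun q : ℝ × ℝ => ENNReal.ofReal (A a b ^ 2) *
      ((Ico (lft η a) (lft η a + η)).indicator 1 q.1 * (Ico (lft η b) (lft η b + η)).indicator 1 q.2) *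
      (ENNReal.ofReal (gk T₁ (c₁ - q.1)) * ENNReal.ofReal (gk T₂ (c₂ - q.2)))) := by
    intro a b
    refine Measurable.mul (Measurable.mul measurable_const (Measurable.mul ?_ ?_)) (by fun_prop)
    · exact (measurable_one.indicator measurableSet_Ico).comp measurable_fst
    · exact (measurable_one.indicator measurableSet_Ico).comp measurable_snd
  have e3 : ∑ a, ∑ b, (∫⁻ x, ∫⁻ y, ENNReal.ofReal (A a b ^ 2) * ((Ico (lft η a) (lft η a + η)).indicator 1 x *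
      (Ico (lft η b) (lft η b + η)).indicator 1 y) * (ENNReal.ofReal (gk T₁ (c₁ - x)) *
        ENNReal.ofReal (gk T₂ (c₂ - y)))) =
      ∫⁻ x, ∫⁻ y, (∑ a, ∑ b, ENNReal.ofReal (A a b ^ 2) * ((Ico (lft η a) (lft η a + η)).indicator 1 x *
      (Ico (lft η b) (lft η b + η)).indicator 1 y)) * (ENNReal.ofReal (gk T₁ (c₁ - x)) *
        ENNReal.ofReal (gk T₂ (c₂ - y))) := by
    have e4 : ∀ x y, (∑ a, ∑ b, ENNReal.ofReal (A a b ^ 2) * ((Ico (lft η a) (lft η a + η)).indicator 1 x *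
      (Ico (lft η b) (lft η b + η)).indicator 1 y)) * (ENNReal.ofReal (gk T₁ (c₁ - x)) *
        ENNReal.ofReal (gk T₂ (c₂ - y))) = ∑ a, ∑ b, ENNReal.ofReal (A a b ^ 2) *
        ((Ico (lft η a) (lft η a + η)).indicator 1 x *
      (Ico (lft η b) (lft η b + η)).indicator 1 y) * (ENNReal.ofReal (gk T₁ (c₁ - x)) *
        ENNReal.ofReal (gk T₂ (c₂ - y))) := by
      intro x y
      rw [Finset.sum_mul]
      refine Finset.sum_congr rfl fun a _ => ?_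
      rw [Finset.sum_mul]
    simp_rw [e4]
    have e5 : ∀ x, (∫⁻ y, ∑ a, ∑ b, ENNReal.ofReal (A a b ^ 2) *
        ((Ico (lft η a) (lft η a + η)).indicator 1 x *
      (Ico (lft η b) (lft η b + η)).indicator 1 y) * (ENNReal.ofReal (gk T₁ (c₁ - x)) *
        ENNReal.ofReal (gk T₂ (c₂ - y)))) = ∑ a, ∑ b, ∫⁻ y, ENNReal.ofReal (A a b ^ 2) *
        ((Ico (lft η a) (lft η a + η)).indicator 1 x *
      (Ico (lft η b) (lft η b + η)).indicator 1 y) * (ENNReal.ofReal (gk T₁ (c₁ - x)) *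
        ENNReal.ofReal (gk T₂ (c₂ - y))) := by
      intro x
      have hmi' : ∀ a b : Fin (2 * N), Measurable (fun y : ℝ => ENNReal.ofReal (A a b ^ 2) *
          ((Ico (lft η a) (lft η a + η)).indicator 1 x * (Ico (lft η b) (lft η b + η)).indicator 1 y) *
          (ENNReal.ofReal (gk T₁ (c₁ - x)) * ENNReal.ofReal (gk T₂ (c₂ - y)))) := fun a b =>
        (hmi a b).comp (measurable_const.prodMk measurable_id)
      rw [lintegral_finsetSum _ fun a _ => Finset.measurable_sum _ fun b _ => hmi' a b]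
      refine Finset.sum_congr rfl fun a _ => ?_
      rw [lintegral_finsetSum _ fun b _ => hmi' a b]
    simp_rw [e5]
    rw [lintegral_finsetSum _ fun a _ => Finset.measurable_sum _ fun b _ => (hmi a b).lintegral_prod_right']
    refine Finset.sum_congr rfl fun a _ => ?_
    rw [lintegral_finsetSum _ fun b _ => (hmi a b).lintegral_prod_right']
  rw [e3]
  calc ∫⁻ x, ∫⁻ y, (∑ a, ∑ b, ENNReal.ofReal (A a b ^ 2) * ((Ico (lft η a) (lft η a + η)).indicator 1 x *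
      (Ico (lft η b) (lft η b + η)).indicator 1 y)) * (ENNReal.ofReal (gk T₁ (c₁ - x)) *
        ENNReal.ofReal (gk T₂ (c₂ - y)))
      ≤ ∫⁻ x, ∫⁻ y, sq η A (x, y) * (ENNReal.ofReal (gk T₁ (c₁ - x)) * ENNReal.ofReal (gk T₂ (c₂ - y))) := by
        refine lintegral_mono fun x => lintegral_mono fun y => ?_
        exact mul_le_mul_left (B6_sum_le hη A x y) _
    _ = ∫⁻ x, ENNReal.ofReal (gk T₁ (c₁ - x)) * ∫⁻ y, ENNReal.ofReal (gk T₂ (c₂ - y)) * sq η A (x, y) := by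
        refine lintegral_congr fun x => ?_
        rw [← lintegral_const_mul' _ _ ENNReal.ofReal_ne_top]
        refine lintegral_congr fun y => ?_
        ring
    _ ≤ ∫⁻ x, ENNReal.ofReal (gk T₁ (c₁ - x)) * (2 * HM2 (sq η A) (x, c₂)) := by
        refine lintegral_mono fun x => mul_le_mul_right ?_ _
        exact le_HM (fun y => sq η A (x, y)) c₂ h₂
    _ = 2 * ∫⁻ x, ENNReal.ofReal (gk T₁ (c₁ - x)) * HM2 (sq η A) (x, c₂) := by
        rw [← lintegral_const_mul' _ _ (by norm_num)]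
        refine lintegral_congr fun x => ?_
        ring
    _ ≤ 2 * (2 * HM1 (HM2 (sq η A)) (c₁, c₂)) := by
        refine mul_le_mul_right ?_ _
        exact le_HM (fun x => HM2 (sq η A) (x, c₂)) c₁ h₁
    _ = 4 * HM1 (HM2 (sq η A)) (c₁, c₂) := by
        rw [← mul_assoc]
        norm_num

private theorem B6_cwt {t : ℝ} (ht : 0 < t) (k : Fin (2 * N)) : Continuous (fun p => wt η p t k) :=
  continuous_iff_continuousAt.2 fun p => (hasDerivAt_wt_p p ht k).continuousAt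

private theorem B6_trace_eq (F G : Matrix (Fin (2 * N)) (Fin (2 * N)) ℝ) (w₀ w₁ w₂ : Fin (2 * N) → ℝ) :
    (diagonal w₁ * Kmat F G w₀ w₂).trace =
      (∑ a, ∑ b, F a b ^ 2 * (w₀ a * w₁ b)) + ∑ a, ∑ b, G a b ^ 2 * (w₂ b * w₁ a) := by
  rw [Finset.sum_comm, ← Finset.sum_add_distrib, Matrix.trace]
  refine Finset.sum_congr rfl fun i _ => ?_
  rw [Matrix.diag_apply, Matrix.diagonal_mul, Kmat, Matrix.add_apply, Matrix.mul_apply, Matrix.mul_apply,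
    mul_add, Finset.mul_sum, Finset.mul_sum]
  congr 1
  · refine Finset.sum_congr rfl fun k _ => ?_
    rw [Matrix.mul_diagonal, Matrix.transpose_apply]
    ring
  · refine Finset.sum_congr rfl fun k _ => ?_
    rw [Matrix.mul_diagonal, Matrix.transpose_apply]
    ring

private theorem B6_exp_gk {T : ℝ} (hT : 0 < T) (x : ℝ) :
    Real.exp (-x ^ 2 / (2 * T)) = Real.sqrt (2 * Real.pi * T) * gk T x := by
  have h : 0 < Real.sqrt (2 * Real.pi * T) := Real.sqrt_pos.2 (by positivity)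
  unfold gk
  field_simp

private theorem B6_int1 (hη : 0 < η) {a T : ℝ} (ha : 0 < a) (hT : 0 < T) (c : ℝ) (k : Fin (2 * N)) :
    ∫⁻ p, ENNReal.ofReal (Real.exp (-(c - p) ^ 2 / (2 * a))) * ENNReal.ofReal (wt η p T k) =
      ENNReal.ofReal (Real.sqrt (2 * Real.pi * a)) *
        ∫⁻ x in Ico (lft η k) (lft η k + η), ENNReal.ofReal (gk (a + T) (c - x)) := by
  rw [← B6_wt_conv hη ha hT, ← lintegral_const_mul' _ _ ENNReal.ofReal_ne_top]
  refine lintegral_congr fun p => ?_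
  rw [B6_exp_gk ha, ENNReal.ofReal_mul (Real.sqrt_nonneg _), mul_assoc]

private theorem B6_int2 (hη : 0 < η) {a T : ℝ} (ha : 0 < a) (hT : 0 < T) (c d : ℝ) (k : Fin (2 * N)) :
    ∫⁻ p, ENNReal.ofReal (Real.exp (-(c - p) ^ 2 / (2 * a))) * ENNReal.ofReal (wt η (-p - d) T k) =
      ENNReal.ofReal (Real.sqrt (2 * Real.pi * a)) *
        ∫⁻ x in Ico (lft η k) (lft η k + η), ENNReal.ofReal (gk (a + T) (c + d + x)) := by
  rw [← B6_wt_conv' hη ha hT, ← lintegral_const_mul' _ _ ENNReal.ofReal_ne_top]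
  refine lintegral_congr fun p => ?_
  rw [B6_exp_gk ha, ENNReal.ofReal_mul (Real.sqrt_nonneg _), mul_assoc]

private theorem B6_pi_sq : Real.pi ^ 2 ≤ 10 := by
  have h1 := Real.pi_lt_d2
  have h2 := Real.pi_pos
  nlinarith

private theorem B6_partF (hη : 0 < η) {w s : ℝ} (hw : 0 < w) (hs : 0 < s)
    (A : Matrix (Fin (2 * N)) (Fin (2 * N)) ℝ) (z : ℝ × ℝ) :
    ∫⁻ p : ℝ × ℝ, ∑ a, ∑ b, ENNReal.ofReal (A a b ^ 2) *
      ((ENNReal.ofReal (Real.exp (-(z.2 - p.1) ^ 2 / (2 * w ^ 2))) *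
        ENNReal.ofReal (wt η p.1 (32 * w ^ 2) a)) *
      (ENNReal.ofReal (Real.exp (-(z.2 + z.1 + p.2) ^ 2 / (16 * w ^ 2))) *
        ENNReal.ofReal (wt η p.2 (s / 2) b))) ≤
      ENNReal.ofReal (160 * w ^ 2) * HM1 (HM2 (sq η A)) (z.2, -z.2 - z.1) := by
  have hT : 0 < 32 * w ^ 2 := by positivity
  have hw2 : 0 < w ^ 2 := by positivity
  have hw8 : 0 < 8 * w ^ 2 := by positivity
  have hs2 : 0 < s / 2 := by positivity
  have c1 : ∀ a, Continuous (fun p => wt η p (32 * w ^ 2) (a : Fin (2 * N))) := fun a => B6_cwt hT a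
  have c2 : ∀ a, Continuous (fun p => wt η p (s / 2) (a : Fin (2 * N))) := fun a => B6_cwt hs2 a
  have m1 : ∀ a : Fin (2 * N), Measurable (fun x : ℝ =>
      ENNReal.ofReal (Real.exp (-(z.2 - x) ^ 2 / (2 * w ^ 2))) * ENNReal.ofReal (wt η x (32 * w ^ 2) a)) := by
    intro a
    have := (c1 a).measurable
    fun_prop
  have m2 : ∀ a : Fin (2 * N), Measurable (fun x : ℝ =>
      ENNReal.ofReal (Real.exp (-(z.2 + z.1 + x) ^ 2 / (16 * w ^ 2))) * ENNReal.ofReal (wt η x (s / 2) a)) := by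
    intro a
    have := (c2 a).measurable
    fun_prop
  have m3 : ∀ a b : Fin (2 * N), Measurable (fun p : ℝ × ℝ => ENNReal.ofReal (A a b ^ 2) *
      ((ENNReal.ofReal (Real.exp (-(z.2 - p.1) ^ 2 / (2 * w ^ 2))) *
        ENNReal.ofReal (wt η p.1 (32 * w ^ 2) a)) *
      (ENNReal.ofReal (Real.exp (-(z.2 + z.1 + p.2) ^ 2 / (16 * w ^ 2))) *
        ENNReal.ofReal (wt η p.2 (s / 2) b)))) := fun a b =>
    measurable_const.mul (((m1 a).comp measurable_fst).mul ((m2 b).comp measurable_snd))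
  rw [lintegral_finsetSum _ fun a _ => Finset.measurable_sum _ fun b _ => m3 a b]
  have e1 : ∀ b : Fin (2 * N), ∫⁻ x, ENNReal.ofReal (Real.exp (-(z.2 + z.1 + x) ^ 2 / (16 * w ^ 2))) *
      ENNReal.ofReal (wt η x (s / 2) b) = ENNReal.ofReal (Real.sqrt (2 * Real.pi * (8 * w ^ 2))) *
        ∫⁻ x in Ico (lft η b) (lft η b + η), ENNReal.ofReal (gk (8 * w ^ 2 + s / 2) (-z.2 - z.1 - x)) := by
    intro b
    rw [← B6_int1 hη hw8 hs2]
    refine lintegral_congr fun x => ?_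
    congr 3
    have : -z.2 - z.1 - x = -(z.2 + z.1 + x) := by ring
    rw [this, neg_sq]
    ring
  have e2 : ∀ a b : Fin (2 * N), ∫⁻ p : ℝ × ℝ, ENNReal.ofReal (A a b ^ 2) *
      ((ENNReal.ofReal (Real.exp (-(z.2 - p.1) ^ 2 / (2 * w ^ 2))) *
        ENNReal.ofReal (wt η p.1 (32 * w ^ 2) a)) *
      (ENNReal.ofReal (Real.exp (-(z.2 + z.1 + p.2) ^ 2 / (16 * w ^ 2))) *
        ENNReal.ofReal (wt η p.2 (s / 2) b))) =
      (ENNReal.ofReal (Real.sqrt (2 * Real.pi * w ^ 2)) * ENNReal.ofReal (Real.sqrt (2 * Real.pi * (8 * w ^ 2)))) *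
      (ENNReal.ofReal (A a b ^ 2) *
        ((∫⁻ x in Ico (lft η a) (lft η a + η), ENNReal.ofReal (gk (w ^ 2 + 32 * w ^ 2) (z.2 - x))) *
        ∫⁻ x in Ico (lft η b) (lft η b + η), ENNReal.ofReal (gk (8 * w ^ 2 + s / 2) (-z.2 - z.1 - x)))) := by
    intro a b
    rw [lintegral_const_mul' _ _ ENNReal.ofReal_ne_top, Measure.volume_eq_prod,
      lintegral_prod_mul (m1 a).aemeasurable (m2 b).aemeasurable, e1, B6_int1 hη hw2 hT]
    ring
  have e3 : ∀ a : Fin (2 * N), ∫⁻ p : ℝ × ℝ, ∑ b, ENNReal.ofReal (A a b ^ 2) *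
      ((ENNReal.ofReal (Real.exp (-(z.2 - p.1) ^ 2 / (2 * w ^ 2))) *
        ENNReal.ofReal (wt η p.1 (32 * w ^ 2) a)) *
      (ENNReal.ofReal (Real.exp (-(z.2 + z.1 + p.2) ^ 2 / (16 * w ^ 2))) *
        ENNReal.ofReal (wt η p.2 (s / 2) b))) =
      (ENNReal.ofReal (Real.sqrt (2 * Real.pi * w ^ 2)) * ENNReal.ofReal (Real.sqrt (2 * Real.pi * (8 * w ^ 2)))) *
      ∑ b, (ENNReal.ofReal (A a b ^ 2) *
        ((∫⁻ x in Ico (lft η a) (lft η a + η), ENNReal.ofReal (gk (w ^ 2 + 32 * w ^ 2) (z.2 - x))) *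
        ∫⁻ x in Ico (lft η b) (lft η b + η), ENNReal.ofReal (gk (8 * w ^ 2 + s / 2) (-z.2 - z.1 - x)))) := by
    intro a
    rw [lintegral_finsetSum _ fun b _ => m3 a b, Finset.mul_sum]
    exact Finset.sum_congr rfl fun b _ => e2 a b
  simp_rw [e3]
  rw [← Finset.mul_sum]
  refine (mul_le_mul_right (B6_HM hη A (by positivity) (by positivity) z.2 (-z.2 - z.1)) _).trans ?_
  rw [← mul_assoc]
  refine mul_le_mul_left ?_ _
  rw [← ENNReal.ofReal_mul (Real.sqrt_nonneg _), show (4 : ℝ≥0∞) = ENNReal.ofReal 4 by norm_num,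
    ← ENNReal.ofReal_mul (by positivity)]
  refine ENNReal.ofReal_le_ofReal ?_
  have h1 : Real.sqrt (2 * Real.pi * w ^ 2) * Real.sqrt (2 * Real.pi * (8 * w ^ 2)) ≤ 40 * w ^ 2 := by
    rw [← Real.sqrt_mul (by positivity)]
    refine Real.sqrt_le_iff.2 ⟨by positivity, ?_⟩
    have := B6_pi_sq
    have h4 : 0 ≤ w ^ 4 := by positivity
    nlinarith [mul_le_mul_of_nonneg_right this h4]
  linarith

private theorem B6_gk_shift {w : ℝ} (hw : 0 < w) (τ d : ℝ) :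
    gk (w ^ 2 + 32 * w ^ 2) (τ + d) ≤
      Real.sqrt 2 * Real.exp (τ ^ 2 / (66 * w ^ 2)) * gk (66 * w ^ 2) d := by
  have h0 : w ^ 2 + 32 * w ^ 2 = 33 * w ^ 2 := by ring
  rw [h0]
  have h1 : Real.sqrt (2 * Real.pi * (66 * w ^ 2)) = Real.sqrt 2 * Real.sqrt (2 * Real.pi * (33 * w ^ 2)) := by
    rw [← Real.sqrt_mul (by norm_num)]
    congr 1
    ring
  have h2 : 0 < Real.sqrt (2 * Real.pi * (33 * w ^ 2)) := Real.sqrt_pos.2 (by positivity)
  have h3 : 0 < Real.sqrt 2 := Real.sqrt_pos.2 (by norm_num)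
  unfold gk
  rw [h1]
  have h4 : Real.sqrt 2 * Real.exp (τ ^ 2 / (66 * w ^ 2)) * (Real.exp (-d ^ 2 / (2 * (66 * w ^ 2))) /
      (Real.sqrt 2 * Real.sqrt (2 * Real.pi * (33 * w ^ 2)))) =
      Real.exp (τ ^ 2 / (66 * w ^ 2) + -d ^ 2 / (2 * (66 * w ^ 2))) /
        Real.sqrt (2 * Real.pi * (33 * w ^ 2)) := by
    rw [Real.exp_add]
    field_simp
  rw [h4]
  refine div_le_div_of_nonneg_right (Real.exp_le_exp.2 ?_) h2.le
  have h5 : τ ^ 2 / (66 * w ^ 2) + -d ^ 2 / (2 * (66 * w ^ 2)) - -(τ + d) ^ 2 / (2 * (33 * w ^ 2)) =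
      (2 * τ + d) ^ 2 / (132 * w ^ 2) := by
    field_simp
    ring
  have h6 : 0 ≤ (2 * τ + d) ^ 2 / (132 * w ^ 2) := by positivity
  linarith

private theorem B6_partG (hη : 0 < η) {w s : ℝ} (hw : 0 < w) (hs : 0 < s)
    (A : Matrix (Fin (2 * N)) (Fin (2 * N)) ℝ) (z : ℝ × ℝ) :
    ∫⁻ p : ℝ × ℝ, ∑ a, ∑ b, ENNReal.ofReal (A a b ^ 2) *
      ((ENNReal.ofReal (Real.exp (-(z.2 - p.1) ^ 2 / (2 * w ^ 2))) *
        ENNReal.ofReal (wt η (-p.1 - p.2) (32 * w ^ 2) b)) *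
      (ENNReal.ofReal (Real.exp (-(z.2 + z.1 + p.2) ^ 2 / (16 * w ^ 2))) *
        ENNReal.ofReal (wt η p.2 (s / 2) a))) ≤
      ENNReal.ofReal (160 * w ^ 2) * HM1 (HM2 (sq η A)) (-z.2 - z.1, z.1) := by
  have hT : 0 < 32 * w ^ 2 := by positivity
  have hw2 : 0 < w ^ 2 := by positivity
  have hw16 : 0 < 16 * w ^ 2 := by positivity
  have hs2 : 0 < s / 2 := by positivity
  have c1 : ∀ a, Continuous (fun p => wt η p (32 * w ^ 2) (a : Fin (2 * N))) := fun a => B6_cwt hT a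
  have c2 : ∀ a, Continuous (fun p => wt η p (s / 2) (a : Fin (2 * N))) := fun a => B6_cwt hs2 a
  have hcg := B6_cgk (16 * w ^ 2)
  have m1 : ∀ a : Fin (2 * N), Measurable (fun p : ℝ × ℝ =>
      ENNReal.ofReal (Real.exp (-(z.2 - p.1) ^ 2 / (2 * w ^ 2))) *
        ENNReal.ofReal (wt η (-p.1 - p.2) (32 * w ^ 2) a)) := by
    intro a
    have h : Measurable (fun p : ℝ × ℝ => wt η (-p.1 - p.2) (32 * w ^ 2) a) :=
      (c1 a).measurable.comp (by fun_prop)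
    fun_prop
  have m2 : ∀ a : Fin (2 * N), Measurable (fun x : ℝ =>
      ENNReal.ofReal (Real.exp (-(z.2 + z.1 + x) ^ 2 / (16 * w ^ 2))) * ENNReal.ofReal (wt η x (s / 2) a)) := by
    intro a
    have := (c2 a).measurable
    fun_prop
  have m3 : ∀ a b : Fin (2 * N), Measurable (fun p : ℝ × ℝ => ENNReal.ofReal (A a b ^ 2) *
      ((ENNReal.ofReal (Real.exp (-(z.2 - p.1) ^ 2 / (2 * w ^ 2))) *
        ENNReal.ofReal (wt η (-p.1 - p.2) (32 * w ^ 2) b)) *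
      (ENNReal.ofReal (Real.exp (-(z.2 + z.1 + p.2) ^ 2 / (16 * w ^ 2))) *
        ENNReal.ofReal (wt η p.2 (s / 2) a)))) := fun a b =>
    measurable_const.mul ((m1 b).mul ((m2 a).comp measurable_snd))
  rw [lintegral_finsetSum _ fun a _ => Finset.measurable_sum _ fun b _ => m3 a b]
  have e2 : ∀ a b : Fin (2 * N), ∫⁻ p : ℝ × ℝ, ENNReal.ofReal (A a b ^ 2) *
      ((ENNReal.ofReal (Real.exp (-(z.2 - p.1) ^ 2 / (2 * w ^ 2))) *
        ENNReal.ofReal (wt η (-p.1 - p.2) (32 * w ^ 2) b)) *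
      (ENNReal.ofReal (Real.exp (-(z.2 + z.1 + p.2) ^ 2 / (16 * w ^ 2))) *
        ENNReal.ofReal (wt η p.2 (s / 2) a))) ≤
      ENNReal.ofReal (40 * w ^ 2) *
      (ENNReal.ofReal (A a b ^ 2) *
        ((∫⁻ x in Ico (lft η a) (lft η a + η), ENNReal.ofReal (gk (16 * w ^ 2 + s / 2) (-z.2 - z.1 - x))) *
        ∫⁻ x in Ico (lft η b) (lft η b + η), ENNReal.ofReal (gk (66 * w ^ 2) (z.1 - x)))) := by
    intro a b
    rw [lintegral_const_mul' _ _ ENNReal.ofReal_ne_top, mul_left_comm]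
    refine mul_le_mul_right ?_ _
    have hm : Measurable (fun p : ℝ × ℝ => (ENNReal.ofReal (Real.exp (-(z.2 - p.1) ^ 2 / (2 * w ^ 2))) *
        ENNReal.ofReal (wt η (-p.1 - p.2) (32 * w ^ 2) b)) *
      (ENNReal.ofReal (Real.exp (-(z.2 + z.1 + p.2) ^ 2 / (16 * w ^ 2))) *
        ENNReal.ofReal (wt η p.2 (s / 2) a))) := (m1 b).mul ((m2 a).comp measurable_snd)
    rw [Measure.volume_eq_prod, lintegral_prod_symm' _ hm]
    have i1 : ∀ y : ℝ, ∫⁻ x : ℝ, (ENNReal.ofReal (Real.exp (-(z.2 - x) ^ 2 / (2 * w ^ 2))) *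
        ENNReal.ofReal (wt η (-x - y) (32 * w ^ 2) b)) *
      (ENNReal.ofReal (Real.exp (-(z.2 + z.1 + y) ^ 2 / (16 * w ^ 2))) *
        ENNReal.ofReal (wt η y (s / 2) a)) ≤
        (ENNReal.ofReal (40 * w ^ 2) * ∫⁻ x in Ico (lft η b) (lft η b + η),
          ENNReal.ofReal (gk (66 * w ^ 2) (z.1 - x))) *
        (ENNReal.ofReal (gk (16 * w ^ 2) (-z.2 - z.1 - y)) * ENNReal.ofReal (wt η y (s / 2) a)) := by
      intro y
      rw [lintegral_mul_const' _ _ (ENNReal.mul_ne_top ENNReal.ofReal_ne_top ENNReal.ofReal_ne_top),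
        B6_int2 hη hw2 hT]
      have i2 : ∫⁻ x in Ico (lft η b) (lft η b + η), ENNReal.ofReal (gk (w ^ 2 + 32 * w ^ 2) (z.2 + y + x)) ≤
          ENNReal.ofReal (Real.sqrt 2 * Real.exp ((z.2 + z.1 + y) ^ 2 / (66 * w ^ 2))) *
          ∫⁻ x in Ico (lft η b) (lft η b + η), ENNReal.ofReal (gk (66 * w ^ 2) (z.1 - x)) := by
        rw [← lintegral_const_mul' _ _ ENNReal.ofReal_ne_top]
        refine lintegral_mono fun x => ?_
        rw [← ENNReal.ofReal_mul (by positivity)]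
        refine ENNReal.ofReal_le_ofReal ?_
        have h := B6_gk_shift hw (z.2 + z.1 + y) (x - z.1)
        rw [show z.2 + z.1 + y + (x - z.1) = z.2 + y + x by ring] at h
        rw [show z.1 - x = -(x - z.1) by ring, gk_neg]
        exact h
      set Z := ∫⁻ x in Ico (lft η b) (lft η b + η), ENNReal.ofReal (gk (66 * w ^ 2) (z.1 - x)) with hZ
      calc _ ≤ ENNReal.ofReal (Real.sqrt (2 * Real.pi * w ^ 2)) *
            (ENNReal.ofReal (Real.sqrt 2 * Real.exp ((z.2 + z.1 + y) ^ 2 / (66 * w ^ 2))) * Z) *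
            (ENNReal.ofReal (Real.exp (-(z.2 + z.1 + y) ^ 2 / (16 * w ^ 2))) *
              ENNReal.ofReal (wt η y (s / 2) a)) := mul_le_mul_left (mul_le_mul_right i2 _) _
        _ = (ENNReal.ofReal (Real.sqrt (2 * Real.pi * w ^ 2)) *
            ENNReal.ofReal (Real.sqrt 2 * Real.exp ((z.2 + z.1 + y) ^ 2 / (66 * w ^ 2))) *
            ENNReal.ofReal (Real.exp (-(z.2 + z.1 + y) ^ 2 / (16 * w ^ 2)))) * Z *
              ENNReal.ofReal (wt η y (s / 2) a) := by ring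
        _ ≤ (ENNReal.ofReal (40 * w ^ 2) * ENNReal.ofReal (gk (16 * w ^ 2) (-z.2 - z.1 - y))) * Z *
              ENNReal.ofReal (wt η y (s / 2) a) := by
            refine mul_le_mul_left (mul_le_mul_left ?_ _) _
            rw [← ENNReal.ofReal_mul (Real.sqrt_nonneg _), ← ENNReal.ofReal_mul (by positivity),
              ← ENNReal.ofReal_mul (by positivity)]
            refine ENNReal.ofReal_le_ofReal ?_
            have j1 : Real.exp ((z.2 + z.1 + y) ^ 2 / (66 * w ^ 2)) *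
                Real.exp (-(z.2 + z.1 + y) ^ 2 / (16 * w ^ 2)) ≤
                Real.sqrt (2 * Real.pi * (16 * w ^ 2)) * gk (16 * w ^ 2) (-z.2 - z.1 - y) := by
              rw [← B6_exp_gk hw16, ← Real.exp_add]
              refine Real.exp_le_exp.2 ?_
              have j2 : -(-z.2 - z.1 - y) ^ 2 / (2 * (16 * w ^ 2)) -
                  ((z.2 + z.1 + y) ^ 2 / (66 * w ^ 2) + -(z.2 + z.1 + y) ^ 2 / (16 * w ^ 2)) =
                  (z.2 + z.1 + y) ^ 2 * (17 / (1056 * w ^ 2)) := by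
                field_simp
                ring
              have j3 : 0 ≤ (z.2 + z.1 + y) ^ 2 * (17 / (1056 * w ^ 2)) := by positivity
              linarith
            have j4 : Real.sqrt (2 * Real.pi * w ^ 2) * Real.sqrt 2 *
                Real.sqrt (2 * Real.pi * (16 * w ^ 2)) ≤ 40 * w ^ 2 := by
              rw [← Real.sqrt_mul (by positivity), ← Real.sqrt_mul (by positivity)]
              refine Real.sqrt_le_iff.2 ⟨by positivity, ?_⟩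
              have := B6_pi_sq
              have h4 : 0 ≤ w ^ 4 := by positivity
              nlinarith [mul_le_mul_of_nonneg_right this h4]
            calc Real.sqrt (2 * Real.pi * w ^ 2) * (Real.sqrt 2 *
                  Real.exp ((z.2 + z.1 + y) ^ 2 / (66 * w ^ 2))) *
                  Real.exp (-(z.2 + z.1 + y) ^ 2 / (16 * w ^ 2))
                = (Real.sqrt (2 * Real.pi * w ^ 2) * Real.sqrt 2) *
                  (Real.exp ((z.2 + z.1 + y) ^ 2 / (66 * w ^ 2)) *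
                  Real.exp (-(z.2 + z.1 + y) ^ 2 / (16 * w ^ 2))) := by ring
              _ ≤ (Real.sqrt (2 * Real.pi * w ^ 2) * Real.sqrt 2) *
                  (Real.sqrt (2 * Real.pi * (16 * w ^ 2)) * gk (16 * w ^ 2) (-z.2 - z.1 - y)) :=
                  mul_le_mul_of_nonneg_left j1 (by positivity)
              _ = (Real.sqrt (2 * Real.pi * w ^ 2) * Real.sqrt 2 *
                  Real.sqrt (2 * Real.pi * (16 * w ^ 2))) * gk (16 * w ^ 2) (-z.2 - z.1 - y) := by ring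
              _ ≤ 40 * w ^ 2 * gk (16 * w ^ 2) (-z.2 - z.1 - y) :=
                  mul_le_mul_of_nonneg_right j4 (B6_gk_nonneg _ _)
        _ = _ := by ring
    refine (lintegral_mono i1).trans ?_
    rw [lintegral_const_mul _ (by
      have := (c2 a).measurable
      fun_prop), B6_wt_conv hη hw16 hs2]
    refine le_of_eq ?_
    ring
  have e3 : ∑ a, (∫⁻ p : ℝ × ℝ, ∑ b, ENNReal.ofReal (A a b ^ 2) *
      ((ENNReal.ofReal (Real.exp (-(z.2 - p.1) ^ 2 / (2 * w ^ 2))) *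
        ENNReal.ofReal (wt η (-p.1 - p.2) (32 * w ^ 2) b)) *
      (ENNReal.ofReal (Real.exp (-(z.2 + z.1 + p.2) ^ 2 / (16 * w ^ 2))) *
        ENNReal.ofReal (wt η p.2 (s / 2) a)))) ≤
      ∑ a, (ENNReal.ofReal (40 * w ^ 2) *
      ∑ b, (ENNReal.ofReal (A a b ^ 2) *
        ((∫⁻ x in Ico (lft η a) (lft η a + η), ENNReal.ofReal (gk (16 * w ^ 2 + s / 2) (-z.2 - z.1 - x))) *
        ∫⁻ x in Ico (lft η b) (lft η b + η), ENNReal.ofReal (gk (66 * w ^ 2) (z.1 - x))))) := by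
    refine Finset.sum_le_sum fun a _ => ?_
    rw [lintegral_finsetSum _ fun b _ => m3 a b, Finset.mul_sum]
    exact Finset.sum_le_sum fun b _ => e2 a b
  refine e3.trans ?_
  rw [← Finset.mul_sum]
  refine (mul_le_mul_right (B6_HM hη A (by positivity) (by positivity) (-z.2 - z.1) z.1) _).trans ?_
  rw [← mul_assoc]
  refine mul_le_mul_left ?_ _
  rw [show (4 : ℝ≥0∞) = ENNReal.ofReal 4 by norm_num, ← ENNReal.ofReal_mul (by positivity)]
  refine ENNReal.ofReal_le_ofReal (le_of_eq (by ring))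

private theorem B6_sumF {A : Matrix (Fin (2 * N)) (Fin (2 * N)) ℝ} {u v : Fin (2 * N) → ℝ} {e₁ e₂ : ℝ}
    (h₁ : 0 ≤ e₁) (h₂ : 0 ≤ e₂) (hu : ∀ a, 0 ≤ u a) (hv : ∀ a, 0 ≤ v a) :
    0 ≤ e₁ * e₂ * ∑ a, ∑ b, A a b ^ 2 * (u a * v b) ∧
    ENNReal.ofReal (e₁ * e₂ * ∑ a, ∑ b, A a b ^ 2 * (u a * v b)) =
      ∑ a, ∑ b, ENNReal.ofReal (A a b ^ 2) * ((ENNReal.ofReal e₁ * ENNReal.ofReal (u a)) *
        (ENNReal.ofReal e₂ * ENNReal.ofReal (v b))) := by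
  have h0 : ∀ a b, 0 ≤ A a b ^ 2 * (u a * v b) := fun a b =>
    mul_nonneg (sq_nonneg _) (mul_nonneg (hu a) (hv b))
  have h3 : 0 ≤ e₁ * e₂ := mul_nonneg h₁ h₂
  refine ⟨mul_nonneg h3 (Finset.sum_nonneg fun a _ => Finset.sum_nonneg fun b _ => h0 a b), ?_⟩
  rw [ENNReal.ofReal_mul h3, ENNReal.ofReal_sum_of_nonneg fun a _ => Finset.sum_nonneg fun b _ => h0 a b,
    Finset.mul_sum]
  refine Finset.sum_congr rfl fun a _ => ?_
  rw [ENNReal.ofReal_sum_of_nonneg fun b _ => h0 a b, Finset.mul_sum]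
  refine Finset.sum_congr rfl fun b _ => ?_
  rw [ENNReal.ofReal_mul h₁, ENNReal.ofReal_mul (sq_nonneg _), ENNReal.ofReal_mul (hu a)]
  ring

private theorem B6_sumG {A : Matrix (Fin (2 * N)) (Fin (2 * N)) ℝ} {u v : Fin (2 * N) → ℝ} {e₁ e₂ : ℝ}
    (h₁ : 0 ≤ e₁) (h₂ : 0 ≤ e₂) (hu : ∀ a, 0 ≤ u a) (hv : ∀ a, 0 ≤ v a) :
    0 ≤ e₁ * e₂ * ∑ a, ∑ b, A a b ^ 2 * (u b * v a) ∧
    ENNReal.ofReal (e₁ * e₂ * ∑ a, ∑ b, A a b ^ 2 * (u b * v a)) =
      ∑ a, ∑ b, ENNReal.ofReal (A a b ^ 2) * ((ENNReal.ofReal e₁ * ENNReal.ofReal (u b)) *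
        (ENNReal.ofReal e₂ * ENNReal.ofReal (v a))) := by
  have h0 : ∀ a b, 0 ≤ A a b ^ 2 * (u b * v a) := fun a b =>
    mul_nonneg (sq_nonneg _) (mul_nonneg (hu b) (hv a))
  have h3 : 0 ≤ e₁ * e₂ := mul_nonneg h₁ h₂
  refine ⟨mul_nonneg h3 (Finset.sum_nonneg fun a _ => Finset.sum_nonneg fun b _ => h0 a b), ?_⟩
  rw [ENNReal.ofReal_mul h3, ENNReal.ofReal_sum_of_nonneg fun a _ => Finset.sum_nonneg fun b _ => h0 a b,
    Finset.mul_sum]
  refine Finset.sum_congr rfl fun a _ => ?_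
  rw [ENNReal.ofReal_sum_of_nonneg fun b _ => h0 a b, Finset.mul_sum]
  refine Finset.sum_congr rfl fun b _ => ?_
  rw [ENNReal.ofReal_mul h₁, ENNReal.ofReal_mul (sq_nonneg _), ENNReal.ofReal_mul (hu b)]
  ring

set_option maxHeartbeats 1000000 in
private noncomputable def B6_tr (η w s : ℝ) (F₀ F₁ : Matrix (Fin (2 * N)) (Fin (2 * N)) ℝ) (p : ℝ × ℝ) : ℝ :=
  (diagonal (wt η p.2 (s / 2)) * Kmat F₀ F₁ (wt η p.1 (32 * w ^ 2)) (wt η (-p.1 - p.2) (32 * w ^ 2))).trace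

private theorem B6_ofReal_trace (hη : 0 < η) {w s : ℝ} (hw : 0 < w) (hs : 0 < s)
    (F₀ F₁ : Matrix (Fin (2 * N)) (Fin (2 * N)) ℝ) (z p : ℝ × ℝ) :
    ENNReal.ofReal (Real.exp (-(z.2 - p.1) ^ 2 / (2 * w ^ 2)) *
        Real.exp (-(z.2 + z.1 + p.2) ^ 2 / (16 * w ^ 2)) * B6_tr η w s F₀ F₁ p) =
      (∑ a, ∑ b, ENNReal.ofReal (F₀ a b ^ 2) *
      ((ENNReal.ofReal (Real.exp (-(z.2 - p.1) ^ 2 / (2 * w ^ 2))) *
        ENNReal.ofReal (wt η p.1 (32 * w ^ 2) a)) *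
      (ENNReal.ofReal (Real.exp (-(z.2 + z.1 + p.2) ^ 2 / (16 * w ^ 2))) *
        ENNReal.ofReal (wt η p.2 (s / 2) b)))) +
      ∑ a, ∑ b, ENNReal.ofReal (F₁ a b ^ 2) *
      ((ENNReal.ofReal (Real.exp (-(z.2 - p.1) ^ 2 / (2 * w ^ 2))) *
        ENNReal.ofReal (wt η (-p.1 - p.2) (32 * w ^ 2) b)) *
      (ENNReal.ofReal (Real.exp (-(z.2 + z.1 + p.2) ^ 2 / (16 * w ^ 2))) *
        ENNReal.ofReal (wt η p.2 (s / 2) a))) := by
  have hT : 0 < 32 * w ^ 2 := by positivity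
  have hs2 : 0 < s / 2 := by positivity
  have p0 : ∀ a : Fin (2 * N), 0 ≤ wt η p.1 (32 * w ^ 2) a := fun a => (wt_pos hη _ hT a).le
  have p1 : ∀ a : Fin (2 * N), 0 ≤ wt η p.2 (s / 2) a := fun a => (wt_pos hη _ hs2 a).le
  have p2 : ∀ a : Fin (2 * N), 0 ≤ wt η (-p.1 - p.2) (32 * w ^ 2) a := fun a => (wt_pos hη _ hT a).le
  obtain ⟨a1, a2⟩ := B6_sumF (A := F₀) (Real.exp_pos (-(z.2 - p.1) ^ 2 / (2 * w ^ 2))).le
    (Real.exp_pos (-(z.2 + z.1 + p.2) ^ 2 / (16 * w ^ 2))).le p0 p1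
  obtain ⟨b1, b2⟩ := B6_sumG (A := F₁) (Real.exp_pos (-(z.2 - p.1) ^ 2 / (2 * w ^ 2))).le
    (Real.exp_pos (-(z.2 + z.1 + p.2) ^ 2 / (16 * w ^ 2))).le p2 p1
  rw [B6_tr, B6_trace_eq, mul_add, ENNReal.ofReal_add a1 b1, a2, b2]

private theorem B6_avg (hη : 0 < η) {w s : ℝ} (hw : 0 < w) (hs : 0 < s)
    (F₀ F₁ : Matrix (Fin (2 * N)) (Fin (2 * N)) ℝ) (z : ℝ × ℝ) :
    ∫⁻ p : ℝ × ℝ, ENNReal.ofReal (Real.exp (-(z.2 - p.1) ^ 2 / (2 * w ^ 2)) *
        Real.exp (-(z.2 + z.1 + p.2) ^ 2 / (16 * w ^ 2)) * B6_tr η w s F₀ F₁ p) ≤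
      ENNReal.ofReal 160 * ENNReal.ofReal (w ^ 2) * MM η F₀ F₁ z ^ (2 : ℝ) := by
  have hT : 0 < 32 * w ^ 2 := by positivity
  have hs2 : 0 < s / 2 := by positivity
  rw [lintegral_congr fun p => B6_ofReal_trace hη hw hs F₀ F₁ z p]
  have m3 : Measurable (fun p : ℝ × ℝ => ∑ a, ∑ b, ENNReal.ofReal (F₀ a b ^ 2) *
      ((ENNReal.ofReal (Real.exp (-(z.2 - p.1) ^ 2 / (2 * w ^ 2))) *
        ENNReal.ofReal (wt η p.1 (32 * w ^ 2) a)) *
      (ENNReal.ofReal (Real.exp (-(z.2 + z.1 + p.2) ^ 2 / (16 * w ^ 2))) *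
        ENNReal.ofReal (wt η p.2 (s / 2) b)))) := by
    refine Finset.measurable_sum _ fun a _ => Finset.measurable_sum _ fun b _ => ?_
    have h1 : Measurable (fun p : ℝ × ℝ => wt η p.1 (32 * w ^ 2) a) :=
      (B6_cwt hT a).measurable.comp measurable_fst
    have h2 : Measurable (fun p : ℝ × ℝ => wt η p.2 (s / 2) b) :=
      (B6_cwt hs2 b).measurable.comp measurable_snd
    fun_prop
  rw [lintegral_add_left m3]
  have h1 := B6_partF hη hw hs F₀ z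
  have h2 := B6_partG hη hw hs F₁ z
  refine (add_le_add h1 h2).trans (le_of_eq ?_)
  have h3 : MM η F₀ F₁ z ^ (2 : ℝ) =
      HM1 (HM2 (sq η F₀)) (z.2, -z.2 - z.1) + HM1 (HM2 (sq η F₁)) (-z.2 - z.1, z.1) := by
    unfold MM
    rw [← ENNReal.rpow_mul]
    norm_num
  rw [h3, ENNReal.ofReal_mul (by norm_num), mul_add]

set_option maxHeartbeats 1000000 in
/-- Step 2 (the average of the trace): for `z = (x₂,x₀)`, `s ≤ w²`,
`∫∫ e^{-(x₀-p₀)²/2w²} e^{-τ²/16w²} tr(W₁K)(p) dp ≤ C w² (HM1 (HM2 F₀²)(x₀,-x₀-x₂) + HM1 (HM2 F₁²)(-x₀-x₂,x₂))`,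
where `tr(W₁K) = ∑ w₀ w₁ F₀² + ∑ w₁ w₂ F₁²`, `w₀ = wt p₀ (32w²)`, `w₁ = wt p₁ (s/2)`,
`w₂ = wt (-p₀-p₁) (32w²)`: `F₀`-part: `p₀`, `p₁` integrals decouple, giving
`g_{33w²}(x₀'-x₀) g_{8w²+s/2}(x₁'+x₀+x₂)`; `F₁`-part: the `p₀` integral gives `g_{33w²}(x₂'-x₂+τ)
≤ √2 e^{τ²/66w²} g_{66w²}(x₂'-x₂)` and the rest `g_{16w²+s/2}(x₁'+x₀+x₂)`. -/
theorem trace_average : ∃ C : ℝ≥0∞, C ≠ ⊤ ∧ ∀ (N : ℕ) (η : ℝ), 0 < η → ∀ (w s : ℝ), 0 < w → 0 < s →
    s ≤ w ^ 2 → ∀ (F₀ F₁ : Matrix (Fin (2 * N)) (Fin (2 * N)) ℝ) (z : ℝ × ℝ),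
    ∫⁻ p : ℝ × ℝ, ENNReal.ofReal (Real.exp (-(z.2 - p.1) ^ 2 / (2 * w ^ 2)) *
        Real.exp (-(z.2 + z.1 + p.2) ^ 2 / (16 * w ^ 2)) *
        (diagonal (wt η p.2 (s / 2)) * Kmat F₀ F₁ (wt η p.1 (32 * w ^ 2)) (wt η (-p.1 - p.2) (32 * w ^ 2))).trace) ≤
      C * ENNReal.ofReal (w ^ 2) * MM η F₀ F₁ z ^ (2 : ℝ) := by
  refine ⟨ENNReal.ofReal 160, ENNReal.ofReal_ne_top, fun N η hη w s hw hs _ F₀ F₁ z => ?_⟩
  exact B6_avg hη hw hs F₀ F₁ z

private theorem B6_tr_nonneg (hη : 0 < η) {w s : ℝ} (hw : 0 < w) (hs : 0 < s)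
    (F₀ F₁ : Matrix (Fin (2 * N)) (Fin (2 * N)) ℝ) (p : ℝ × ℝ) : 0 ≤ B6_tr η w s F₀ F₁ p := by
  have hT : 0 < 32 * w ^ 2 := by positivity
  have hs2 : 0 < s / 2 := by positivity
  rw [B6_tr, B6_trace_eq]
  refine add_nonneg ?_ ?_
  · exact Finset.sum_nonneg fun a _ => Finset.sum_nonneg fun b _ => mul_nonneg (sq_nonneg _)
      (mul_nonneg (wt_pos hη _ hT a).le (wt_pos hη _ hs2 b).le)
  · exact Finset.sum_nonneg fun a _ => Finset.sum_nonneg fun b _ => mul_nonneg (sq_nonneg _)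
      (mul_nonneg (wt_pos hη _ hT b).le (wt_pos hη _ hs2 a).le)

private theorem B6_tr_meas {w s : ℝ} (hw : 0 < w) (hs : 0 < s)
    (F₀ F₁ : Matrix (Fin (2 * N)) (Fin (2 * N)) ℝ) : Measurable (B6_tr η w s F₀ F₁) := by
  have hT : 0 < 32 * w ^ 2 := by positivity
  have hs2 : 0 < s / 2 := by positivity
  have e : B6_tr η w s F₀ F₁ = fun p => (∑ a, ∑ b, F₀ a b ^ 2 * (wt η p.1 (32 * w ^ 2) a * wt η p.2 (s / 2) b)) +
      ∑ a, ∑ b, F₁ a b ^ 2 * (wt η (-p.1 - p.2) (32 * w ^ 2) b * wt η p.2 (s / 2) a) := by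
    funext p
    rw [B6_tr, B6_trace_eq]
  rw [e]
  refine Measurable.add ?_ ?_
  · refine Finset.measurable_sum _ fun a _ => Finset.measurable_sum _ fun b _ => ?_
    exact measurable_const.mul (((B6_cwt hT a).measurable.comp measurable_fst).mul
      ((B6_cwt hs2 b).measurable.comp measurable_snd))
  · refine Finset.measurable_sum _ fun a _ => Finset.measurable_sum _ fun b _ => ?_
    exact measurable_const.mul (((B6_cwt hT b).measurable.comp (by fun_prop)).mul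
      ((B6_cwt hs2 a).measurable.comp measurable_snd))

private theorem B6_MM_meas (F₀ F₁ : Matrix (Fin (2 * N)) (Fin (2 * N)) ℝ) : Measurable (MM η F₀ F₁) := by
  unfold MM
  refine Measurable.pow_const (Measurable.add ?_ ?_) _
  · exact (measurable_HM1 (measurable_HM2 (B6_meas_sq F₀))).comp (by fun_prop)
  · exact (measurable_HM1 (measurable_HM2 (B6_meas_sq F₁))).comp (by fun_prop)

private theorem B6_num {w A : ℝ} (hw : 0 < w) (hA : 0 ≤ A) :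
    Real.sqrt 160 * (w * Real.sqrt ((A / w) ^ 3 * 1024 * Real.sqrt (2 * Real.pi * w ^ 2))) ≤
      1000 * A ^ (3 / 2 : ℝ) := by
  have h1 : Real.sqrt (2 * Real.pi * w ^ 2) = Real.sqrt (2 * Real.pi) * w := by
    rw [Real.sqrt_mul (by positivity), Real.sqrt_sq hw.le]
  have h2 : Real.sqrt (2 * Real.pi) ≤ 3 := by
    refine Real.sqrt_le_iff.2 ⟨by norm_num, ?_⟩
    have := Real.pi_lt_d2
    linarith
  have h3 : w * Real.sqrt ((A / w) ^ 3 * 1024 * Real.sqrt (2 * Real.pi * w ^ 2)) =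
      Real.sqrt (A ^ 3 * 1024 * Real.sqrt (2 * Real.pi)) := by
    rw [h1]
    nth_rewrite 1 [← Real.sqrt_sq hw.le]
    rw [← Real.sqrt_mul (by positivity)]
    congr 1
    field_simp
  have h4 : (A ^ (3 / 2 : ℝ)) ^ 2 = A ^ 3 := by
    rw [← Real.rpow_natCast, ← Real.rpow_mul hA, ← Real.rpow_natCast]
    norm_num
  rw [h3, ← Real.sqrt_mul (by norm_num)]
  refine Real.sqrt_le_iff.2 ⟨by positivity, ?_⟩
  rw [mul_pow, h4]
  have h5 : 0 ≤ A ^ 3 := by positivity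
  nlinarith [mul_le_mul_of_nonneg_left h2 h5]

private theorem B6_point {w A : ℝ} (hw : 0 < w) (hA : 0 ≤ A) {g t : ℝ}
    (hg : |g| ≤ A / w * Real.exp (-t ^ 2 / (32 * w ^ 2))) :
    g ^ 4 * Real.exp (t ^ 2 / (8 * w ^ 2)) ≤ (A / w) ^ 3 * (|g| * Real.exp (t ^ 2 / (32 * w ^ 2))) := by
  have h1 : |g| * Real.exp (t ^ 2 / (32 * w ^ 2)) ≤ A / w := by
    have h2 := mul_le_mul_of_nonneg_right hg (Real.exp_pos (t ^ 2 / (32 * w ^ 2))).le
    rw [mul_assoc, ← Real.exp_add] at h2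
    have h3 : -t ^ 2 / (32 * w ^ 2) + t ^ 2 / (32 * w ^ 2) = 0 := by ring
    rwa [h3, Real.exp_zero, mul_one] at h2
  have h4 : g ^ 4 * Real.exp (t ^ 2 / (8 * w ^ 2)) =
      (|g| * Real.exp (t ^ 2 / (32 * w ^ 2))) ^ 3 * (|g| * Real.exp (t ^ 2 / (32 * w ^ 2))) := by
    have h5 : Real.exp (t ^ 2 / (8 * w ^ 2)) = Real.exp (t ^ 2 / (32 * w ^ 2)) ^ 4 := by
      rw [← Real.exp_nat_mul]
      congr 1
      push_cast
      field_simp
      ring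
    have h6 : g ^ 4 = |g| ^ 4 := by
      rw [← abs_pow, abs_of_nonneg (by positivity)]
    rw [h5, h6]
    ring
  rw [h4]
  exact mul_le_mul_of_nonneg_right (pow_le_pow_left₀ (by positivity) h1 3) (by positivity)

/-- the estimate for fixed `z` -/
private theorem B6_Q (hη : 0 < η) {w s A : ℝ} (hw : 0 < w) (hs : 0 < s) (hA : 0 ≤ A)
    (F₀ F₁ : Matrix (Fin (2 * N)) (Fin (2 * N)) ℝ) {γ : ℝ → ℝ} (hγm : Measurable γ)
    (hγ : ∀ t, |γ t| ≤ A / w * Real.exp (-t ^ 2 / (32 * w ^ 2))) (z : ℝ × ℝ) :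
    ∫⁻ p : ℝ × ℝ, ENNReal.ofReal (Real.sqrt (B6_tr η w s F₀ F₁ p)) *
      ENNReal.ofReal (γ (z.2 + z.1 + p.2) ^ 2 *
        (32 * Real.exp (-(z.2 - p.1) ^ 2 / (2 * w ^ 2)) * Real.exp ((z.2 + z.1 + p.2) ^ 2 / (32 * w ^ 2)))) ≤
      ENNReal.ofReal 1000 * ENNReal.ofReal (A ^ (3 / 2 : ℝ)) *
        (∫⁻ t, ENNReal.ofReal (|γ t| * Real.exp (t ^ 2 / (32 * w ^ 2)))) ^ (1 / 2 : ℝ) * MM η F₀ F₁ z := by
  have htr := B6_tr_nonneg hη hw hs F₀ F₁
  have htm := B6_tr_meas (η := η) hw hs F₀ F₁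
  have hgm : Measurable (fun p : ℝ × ℝ => γ (z.2 + z.1 + p.2)) := hγm.comp (by fun_prop)
  set f : ℝ × ℝ → ℝ≥0∞ := fun p => ENNReal.ofReal (Real.sqrt (Real.exp (-(z.2 - p.1) ^ 2 / (2 * w ^ 2)) *
        Real.exp (-(z.2 + z.1 + p.2) ^ 2 / (16 * w ^ 2)) * B6_tr η w s F₀ F₁ p)) with hf
  set g : ℝ × ℝ → ℝ≥0∞ := fun p => ENNReal.ofReal (Real.sqrt (γ (z.2 + z.1 + p.2) ^ 4 * 1024 *
    Real.exp (-(z.2 - p.1) ^ 2 / (2 * w ^ 2)) * Real.exp ((z.2 + z.1 + p.2) ^ 2 / (8 * w ^ 2)))) with hg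
  have hfm : Measurable f := by
    rw [hf]
    fun_prop
  have hgm' : Measurable g := by
    rw [hg]
    fun_prop
  have e1 : ∀ p : ℝ × ℝ, ENNReal.ofReal (Real.sqrt (B6_tr η w s F₀ F₁ p)) *
      ENNReal.ofReal (γ (z.2 + z.1 + p.2) ^ 2 *
        (32 * Real.exp (-(z.2 - p.1) ^ 2 / (2 * w ^ 2)) * Real.exp ((z.2 + z.1 + p.2) ^ 2 / (32 * w ^ 2)))) =
      (f * g) p := by
    intro p
    rw [Pi.mul_apply, hf, hg]
    simp only
    rw [← ENNReal.ofReal_mul (Real.sqrt_nonneg _), ← ENNReal.ofReal_mul (Real.sqrt_nonneg _)]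
    congr 1
    rw [← Real.sqrt_mul (by have := htr p; positivity)]
    set a := γ (z.2 + z.1 + p.2)
    set T := B6_tr η w s F₀ F₁ p
    set e := Real.exp (-(z.2 - p.1) ^ 2 / (2 * w ^ 2))
    have h1 : Real.exp (-(z.2 + z.1 + p.2) ^ 2 / (16 * w ^ 2)) *
        Real.exp ((z.2 + z.1 + p.2) ^ 2 / (8 * w ^ 2)) =
        Real.exp ((z.2 + z.1 + p.2) ^ 2 / (32 * w ^ 2)) ^ 2 := by
      rw [← Real.exp_add, ← Real.exp_nat_mul]
      congr 1
      push_cast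
      field_simp
      ring
    have h2 : e * Real.exp (-(z.2 + z.1 + p.2) ^ 2 / (16 * w ^ 2)) * T *
        (a ^ 4 * 1024 * e * Real.exp ((z.2 + z.1 + p.2) ^ 2 / (8 * w ^ 2))) =
        T * (a ^ 2 * (32 * e * Real.exp ((z.2 + z.1 + p.2) ^ 2 / (32 * w ^ 2)))) ^ 2 := by
      calc _ = T * (a ^ 4 * 1024 * e ^ 2) * (Real.exp (-(z.2 + z.1 + p.2) ^ 2 / (16 * w ^ 2)) *
          Real.exp ((z.2 + z.1 + p.2) ^ 2 / (8 * w ^ 2))) := by ring
        _ = _ := by rw [h1]; ring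
    rw [h2, Real.sqrt_mul (htr p), Real.sqrt_sq (by positivity)]
  rw [lintegral_congr e1]
  refine (ENNReal.lintegral_mul_le_Lp_mul_Lq volume Real.HolderConjugate.two_two hfm.aemeasurable
    hgm'.aemeasurable).trans ?_
  have e2 : ∫⁻ p, f p ^ (2 : ℝ) ≤ ENNReal.ofReal 160 * ENNReal.ofReal (w ^ 2) * MM η F₀ F₁ z ^ (2 : ℝ) := by
    refine le_trans (le_of_eq (lintegral_congr fun p => ?_)) (B6_avg hη hw hs F₀ F₁ z)
    rw [hf]
    simp only
    rw [ENNReal.ofReal_rpow_of_nonneg (Real.sqrt_nonneg _) (by norm_num)]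
    congr 1
    rw [Real.rpow_two, Real.sq_sqrt]
    have := htr p
    positivity
  have e3 : ∫⁻ p, g p ^ (2 : ℝ) ≤ ENNReal.ofReal ((A / w) ^ 3 * 1024 * Real.sqrt (2 * Real.pi * w ^ 2)) *
      ∫⁻ t, ENNReal.ofReal (|γ t| * Real.exp (t ^ 2 / (32 * w ^ 2))) := by
    have hAw : 0 ≤ (A / w) ^ 3 * 1024 := by positivity
    calc ∫⁻ p, g p ^ (2 : ℝ) ≤ ∫⁻ p : ℝ × ℝ, ENNReal.ofReal ((A / w) ^ 3 * 1024) *
          (ENNReal.ofReal (Real.exp (-(z.2 - p.1) ^ 2 / (2 * w ^ 2))) *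
          ENNReal.ofReal (|γ (z.2 + z.1 + p.2)| * Real.exp ((z.2 + z.1 + p.2) ^ 2 / (32 * w ^ 2)))) := by
          refine lintegral_mono fun p => ?_
          rw [hg]
          simp only
          rw [ENNReal.ofReal_rpow_of_nonneg (Real.sqrt_nonneg _) (by norm_num), Real.rpow_two,
            Real.sq_sqrt (by positivity), ← ENNReal.ofReal_mul (Real.exp_pos _).le,
            ← ENNReal.ofReal_mul hAw]
          refine ENNReal.ofReal_le_ofReal ?_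
          have h1 := B6_point hw hA (hγ (z.2 + z.1 + p.2))
          have h2 := mul_le_mul_of_nonneg_left h1
            (show 0 ≤ 1024 * Real.exp (-(z.2 - p.1) ^ 2 / (2 * w ^ 2)) by positivity)
          calc _ = 1024 * Real.exp (-(z.2 - p.1) ^ 2 / (2 * w ^ 2)) *
                (γ (z.2 + z.1 + p.2) ^ 4 * Real.exp ((z.2 + z.1 + p.2) ^ 2 / (8 * w ^ 2))) := by ring
            _ ≤ _ := h2
            _ = _ := by ring
      _ = ENNReal.ofReal ((A / w) ^ 3 * 1024) *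
          ((∫⁻ x : ℝ, ENNReal.ofReal (Real.exp (-(z.2 - x) ^ 2 / (2 * w ^ 2)))) *
          ∫⁻ y : ℝ, ENNReal.ofReal (|γ (z.2 + z.1 + y)| * Real.exp ((z.2 + z.1 + y) ^ 2 / (32 * w ^ 2)))) := by
          rw [lintegral_const_mul' _ _ ENNReal.ofReal_ne_top, Measure.volume_eq_prod]
          congr 1
          refine lintegral_prod_mul (f := fun x : ℝ => ENNReal.ofReal (Real.exp (-(z.2 - x) ^ 2 / (2 * w ^ 2))))
            (g := fun y : ℝ => ENNReal.ofReal (|γ (z.2 + z.1 + y)| *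
              Real.exp ((z.2 + z.1 + y) ^ 2 / (32 * w ^ 2)))) ?_ ?_
          · exact Measurable.aemeasurable (by fun_prop)
          · refine Measurable.aemeasurable ?_
            have : Measurable (fun y : ℝ => γ (z.2 + z.1 + y)) := hγm.comp (by fun_prop)
            fun_prop
      _ = _ := by
          have h3 : ∫⁻ x : ℝ, ENNReal.ofReal (Real.exp (-(z.2 - x) ^ 2 / (2 * w ^ 2))) =
              ENNReal.ofReal (Real.sqrt (2 * Real.pi * w ^ 2)) := by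
            have hw2 : 0 < w ^ 2 := by positivity
            have h4 : ∀ x : ℝ, ENNReal.ofReal (Real.exp (-(z.2 - x) ^ 2 / (2 * w ^ 2))) =
                ENNReal.ofReal (Real.sqrt (2 * Real.pi * w ^ 2)) * ENNReal.ofReal (gk (w ^ 2) (z.2 - x)) := by
              intro x
              rw [B6_exp_gk hw2, ENNReal.ofReal_mul (Real.sqrt_nonneg _)]
            simp_rw [h4]
            rw [lintegral_const_mul' _ _ ENNReal.ofReal_ne_top,
              lintegral_sub_left_eq_self (μ := (volume : Measure ℝ)) (fun x => ENNReal.ofReal (gk (w ^ 2) x)) z.2,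
              ← ofReal_integral_eq_lintegral_ofReal (integrable_gk hw2)
                (ae_of_all _ fun x => B6_gk_nonneg _ _), integral_gk hw2]
            simp
          have h5 : ∫⁻ y : ℝ, ENNReal.ofReal (|γ (z.2 + z.1 + y)| * Real.exp ((z.2 + z.1 + y) ^ 2 / (32 * w ^ 2))) =
              ∫⁻ t, ENNReal.ofReal (|γ t| * Real.exp (t ^ 2 / (32 * w ^ 2))) :=
            lintegral_add_left_eq_self (μ := (volume : Measure ℝ))
              (fun t => ENNReal.ofReal (|γ t| * Real.exp (t ^ 2 / (32 * w ^ 2)))) (z.2 + z.1)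
          rw [h3, h5, ← mul_assoc, ← ENNReal.ofReal_mul hAw]
  set I := ∫⁻ t, ENNReal.ofReal (|γ t| * Real.exp (t ^ 2 / (32 * w ^ 2))) with hI
  have e4 : (∫⁻ p, f p ^ (2 : ℝ)) ^ (1 / 2 : ℝ) ≤
      ENNReal.ofReal (Real.sqrt 160) * ENNReal.ofReal w * MM η F₀ F₁ z := by
    refine (ENNReal.rpow_le_rpow e2 (by norm_num)).trans (le_of_eq ?_)
    rw [ENNReal.mul_rpow_of_nonneg _ _ (by norm_num), ENNReal.mul_rpow_of_nonneg _ _ (by norm_num),
      ← ENNReal.rpow_mul, ENNReal.ofReal_rpow_of_nonneg (by norm_num) (by norm_num),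
      ENNReal.ofReal_rpow_of_nonneg (by positivity) (by norm_num), ← Real.sqrt_eq_rpow, ← Real.sqrt_eq_rpow,
      Real.sqrt_sq hw.le]
    norm_num
  have e5 : (∫⁻ p, g p ^ (2 : ℝ)) ^ (1 / 2 : ℝ) ≤
      ENNReal.ofReal (Real.sqrt ((A / w) ^ 3 * 1024 * Real.sqrt (2 * Real.pi * w ^ 2))) * I ^ (1 / 2 : ℝ) := by
    refine (ENNReal.rpow_le_rpow e3 (by norm_num)).trans (le_of_eq ?_)
    rw [ENNReal.mul_rpow_of_nonneg _ _ (by norm_num),
      ENNReal.ofReal_rpow_of_nonneg (by positivity) (by norm_num), ← Real.sqrt_eq_rpow]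
  refine (mul_le_mul' e4 e5).trans ?_
  calc _ = (ENNReal.ofReal (Real.sqrt 160) * (ENNReal.ofReal w *
        ENNReal.ofReal (Real.sqrt ((A / w) ^ 3 * 1024 * Real.sqrt (2 * Real.pi * w ^ 2))))) *
        I ^ (1 / 2 : ℝ) * MM η F₀ F₁ z := by ring
    _ ≤ _ := by
        refine mul_le_mul_left (mul_le_mul_left ?_ _) _
        rw [← ENNReal.ofReal_mul hw.le, ← ENNReal.ofReal_mul (Real.sqrt_nonneg _),
          ← ENNReal.ofReal_mul (by norm_num)]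
        exact ENNReal.ofReal_le_ofReal (B6_num hw hA)

private theorem B6_final (hη : 0 < η) {w s A : ℝ} (hw : 0 < w) (hs : 0 < s) (hA : 0 ≤ A)
    (F₀ F₁ F₂ : Matrix (Fin (2 * N)) (Fin (2 * N)) ℝ)
    (γ : Fin (2 * N) → Fin (2 * N) → ℝ → ℝ) (hγm : ∀ k₂ k₀, Measurable (γ k₂ k₀))
    (hγ : ∀ k₂ k₀ t, |γ k₂ k₀ t| ≤ A / w * Real.exp (-t ^ 2 / (32 * w ^ 2))) :
    ∫⁻ p : ℝ × ℝ, ENNReal.ofReal (Real.sqrt (B6_tr η w s F₀ F₁ p) *
        ∑ k₂, ∑ k₀, ZB η F₂ γ w p.1 p.2 k₂ k₀ ^ 2 /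
          (wt η (-p.1 - p.2) (32 * w ^ 2) k₂ * wt η p.1 (32 * w ^ 2) k₀)) ≤
      ENNReal.ofReal 1000 * ENNReal.ofReal (A ^ (3 / 2 : ℝ)) * ∑ k₂, ∑ k₀, ENNReal.ofReal (F₂ k₂ k₀ ^ 2) *
        (∫⁻ t, ENNReal.ofReal (|γ k₂ k₀ t| * Real.exp (t ^ 2 / (32 * w ^ 2)))) ^ (1 / 2 : ℝ) *
        ∫⁻ z in cell2 η k₂ k₀, MM η F₀ F₁ z := by
  have htm := B6_tr_meas (η := η) hw hs F₀ F₁
  have hb : ∃ B, ∀ k₂ k₀ t, |γ k₂ k₀ t| ≤ B := by
    refine ⟨A / w, fun k₂ k₀ t => (hγ k₂ k₀ t).trans ?_⟩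
    have h1 : Real.exp (-t ^ 2 / (32 * w ^ 2)) ≤ 1 := by
      rw [Real.exp_le_one_iff, neg_div]
      have : 0 ≤ t ^ 2 / (32 * w ^ 2) := by positivity
      linarith
    exact mul_le_of_le_one_right (by positivity) h1
  have hjm : ∀ k₂ k₀ : Fin (2 * N), Measurable (fun q : (ℝ × ℝ) × (ℝ × ℝ) =>
      ENNReal.ofReal (Real.sqrt (B6_tr η w s F₀ F₁ q.1)) *
      ENNReal.ofReal (γ k₂ k₀ (q.2.2 + q.2.1 + q.1.2) ^ 2 *
        (32 * Real.exp (-(q.2.2 - q.1.1) ^ 2 / (2 * w ^ 2)) *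
          Real.exp ((q.2.2 + q.2.1 + q.1.2) ^ 2 / (32 * w ^ 2))))) := by
    intro k₂ k₀
    have h1 : Measurable (fun q : (ℝ × ℝ) × (ℝ × ℝ) => γ k₂ k₀ (q.2.2 + q.2.1 + q.1.2)) :=
      (hγm k₂ k₀).comp (by fun_prop)
    fun_prop
  have e1 : ∀ p : ℝ × ℝ, ENNReal.ofReal (Real.sqrt (B6_tr η w s F₀ F₁ p) *
        ∑ k₂, ∑ k₀, ZB η F₂ γ w p.1 p.2 k₂ k₀ ^ 2 /
          (wt η (-p.1 - p.2) (32 * w ^ 2) k₂ * wt η p.1 (32 * w ^ 2) k₀)) ≤
      ∑ k₂, ∑ k₀, ENNReal.ofReal (F₂ k₂ k₀ ^ 2) * ∫⁻ z in cell2 η k₂ k₀,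
        ENNReal.ofReal (Real.sqrt (B6_tr η w s F₀ F₁ p)) *
        ENNReal.ofReal (γ k₂ k₀ (z.2 + z.1 + p.2) ^ 2 *
          (32 * Real.exp (-(z.2 - p.1) ^ 2 / (2 * w ^ 2)) * Real.exp ((z.2 + z.1 + p.2) ^ 2 / (32 * w ^ 2)))) := by
    intro p
    rw [ENNReal.ofReal_mul (Real.sqrt_nonneg _)]
    refine (mul_le_mul_right (ZB_sq_le hη F₂ γ hγm hw hb p.1 p.2) _).trans (le_of_eq ?_)
    rw [Finset.mul_sum]
    refine Finset.sum_congr rfl fun k₂ _ => ?_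
    rw [Finset.mul_sum]
    refine Finset.sum_congr rfl fun k₀ _ => ?_
    rw [lintegral_const_mul' _ _ ENNReal.ofReal_ne_top]
    ring
  refine (lintegral_mono e1).trans ?_
  have hm2 : ∀ k₂ k₀ : Fin (2 * N), Measurable (fun p : ℝ × ℝ => ENNReal.ofReal (F₂ k₂ k₀ ^ 2) *
      ∫⁻ z in cell2 η k₂ k₀, ENNReal.ofReal (Real.sqrt (B6_tr η w s F₀ F₁ p)) *
        ENNReal.ofReal (γ k₂ k₀ (z.2 + z.1 + p.2) ^ 2 *
          (32 * Real.exp (-(z.2 - p.1) ^ 2 / (2 * w ^ 2)) *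
            Real.exp ((z.2 + z.1 + p.2) ^ 2 / (32 * w ^ 2))))) := fun k₂ k₀ =>
    measurable_const.mul (hjm k₂ k₀).lintegral_prod_right'
  rw [lintegral_finsetSum _ fun k₂ _ => Finset.measurable_sum _ fun k₀ _ => hm2 k₂ k₀, Finset.mul_sum]
  refine Finset.sum_le_sum fun k₂ _ => ?_
  rw [lintegral_finsetSum _ fun k₀ _ => hm2 k₂ k₀, Finset.mul_sum]
  refine Finset.sum_le_sum fun k₀ _ => ?_
  rw [lintegral_const_mul' _ _ ENNReal.ofReal_ne_top,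
    lintegral_lintegral_swap (hjm k₂ k₀).aemeasurable]
  set I := ∫⁻ t, ENNReal.ofReal (|γ k₂ k₀ t| * Real.exp (t ^ 2 / (32 * w ^ 2))) with hI
  calc _ ≤ ENNReal.ofReal (F₂ k₂ k₀ ^ 2) * ∫⁻ z in cell2 η k₂ k₀,
        ENNReal.ofReal 1000 * ENNReal.ofReal (A ^ (3 / 2 : ℝ)) * I ^ (1 / 2 : ℝ) * MM η F₀ F₁ z := by
        refine mul_le_mul_right (lintegral_mono fun z => ?_) _
        exact B6_Q hη hw hs hA F₀ F₁ (hγm k₂ k₀) (hγ k₂ k₀) z
    _ = _ := by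
        rw [lintegral_const_mul _ (B6_MM_meas F₀ F₁)]
        ring

set_option maxHeartbeats 1000000 in
/-- Step 3: for fixed `z`, Cauchy–Schwarz in `p`:
`∫ γ(τ)² 32 e^{-y²/2w²} e^{τ²/32w²} √tr dp ≤ (∫ γ⁴ 32² e^{-y²/2w²} e^{τ²/8w²} dp)^{1/2} (∫ e^{-y²/2w²} e^{-τ²/16w²} tr dp)^{1/2}`,
and `γ⁴ e^{τ²/8w²} ≤ (A/w)³ |γ| e^{τ²/32w²}` by the sup bound. -/
theorem second_factor : ∃ C : ℝ≥0∞, C ≠ ⊤ ∧ ∀ (N : ℕ) (η : ℝ), 0 < η → ∀ (w s A : ℝ), 0 < w → 0 < s →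
    s ≤ w ^ 2 → 0 ≤ A → ∀ (F₀ F₁ F₂ : Matrix (Fin (2 * N)) (Fin (2 * N)) ℝ)
    (γ : Fin (2 * N) → Fin (2 * N) → ℝ → ℝ), (∀ k₂ k₀, Measurable (γ k₂ k₀)) →
    (∀ k₂ k₀ t, |γ k₂ k₀ t| ≤ A / w * Real.exp (-t ^ 2 / (32 * w ^ 2))) →
    ∫⁻ p : ℝ × ℝ, ENNReal.ofReal (Real.sqrt (diagonal (wt η p.2 (s / 2)) *
          Kmat F₀ F₁ (wt η p.1 (32 * w ^ 2)) (wt η (-p.1 - p.2) (32 * w ^ 2))).trace *
        ∑ k₂, ∑ k₀, ZB η F₂ γ w p.1 p.2 k₂ k₀ ^ 2 /
          (wt η (-p.1 - p.2) (32 * w ^ 2) k₂ * wt η p.1 (32 * w ^ 2) k₀)) ≤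
      C * ENNReal.ofReal (A ^ (3 / 2 : ℝ)) * ∑ k₂, ∑ k₀, ENNReal.ofReal (F₂ k₂ k₀ ^ 2) *
        (∫⁻ t, ENNReal.ofReal (|γ k₂ k₀ t| * Real.exp (t ^ 2 / (32 * w ^ 2)))) ^ (1 / 2 : ℝ) *
        ∫⁻ z in cell2 η k₂ k₀, MM η F₀ F₁ z := by
  refine ⟨ENNReal.ofReal 1000, ENNReal.ofReal_ne_top, fun N η hη w s A hw hs _ hA F₀ F₁ F₂ γ hγm hγ => ?_⟩
  exact B6_final hη hw hs hA F₀ F₁ F₂ γ hγm hγ

end Crest.Agent.TH
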