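import Crest.Agent.TH_ADefs

/-! # TH_BDefs: definitions for part (B) -/

set_option autoImplicit false
open Matrix MeasureTheory Set Filter
open scoped Topology ENNReal

namespace Crest.Agent.TH
variable {N : ℕ}

/-- `γ_{u,s} = √s (D_u * g'_{s/2})`. -/
noncomputable def gam (u s t : ℝ) : ℝ := Real.sqrt s * ∫ y, Dk u y * gk1 (s / 2) (t - y)

/-- `ψ_s = √s g'_{s/2}`. -/
noncomputable def psi (s t : ℝ) : ℝ := Real.sqrt s * gk1 (s / 2) t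

/-- `γ * ψ_s`. -/
noncomputable def cpsi (γ : ℝ → ℝ) (s t : ℝ) : ℝ := ∫ y, γ (t - y) * psi s y

open Classical in
/-- the jumps with radii in `[2^j √s, 2^{j+1} √s)`. -/
noncomputable def octG {Q n : ℕ} (J : JumpData N Q n) (j : ℕ) (s : ℝ) (k₂ k₀ : Fin (2 * N)) (t : ℝ) : ℝ :=
  ∑ q, if 2 ^ j * Real.sqrt s ≤ J.r q ∧ J.r q < 2 ^ (j + 1) * Real.sqrt s then
    J.a q k₂ k₀ * gam (J.r q) s t else 0

open Classical in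
/-- the jumps with radii `< √s`. -/
noncomputable def lowG {Q n : ℕ} (J : JumpData N Q n) (s : ℝ) (k₂ k₀ : Fin (2 * N)) (t : ℝ) : ℝ :=
  ∑ q, if J.r q < Real.sqrt s then J.a q k₂ k₀ * gam (J.r q) s t else 0

/-- the localized coefficient: `F₂(k₂,k₀) ∫∫_{cells} γ(x₀+x₂+p₁) g_{w²}(x₀-p₀) dx₀ dx₂`. -/
noncomputable def ZB (η : ℝ) (F₂ : Matrix (Fin (2 * N)) (Fin (2 * N)) ℝ)
    (γ : Fin (2 * N) → Fin (2 * N) → ℝ → ℝ) (w p₀ p₁ : ℝ) : Matrix (Fin (2 * N)) (Fin (2 * N)) ℝ :=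
  Matrix.of fun k₂ k₀ => F₂ k₂ k₀ * ∫ x₂ in (lft η k₂)..(lft η k₂ + η), ∫ x₀ in (lft η k₀)..(lft η k₀ + η),
    γ k₂ k₀ (x₀ + x₂ + p₁) * gk (w ^ 2) (x₀ - p₀)

/-- the cell `k₂ × k₀` in the `z = (x₂,x₀)` plane -/
def cell2 (η : ℝ) (k₂ k₀ : Fin (2 * N)) : Set (ℝ × ℝ) :=
  Ico (lft η k₂) (lft η k₂ + η) ×ˢ Ico (lft η k₀) (lft η k₀ + η)

/-- the two dimensional maximal expression at `z = (x₂,x₀)`:
`(HM1 (HM2 F₀²)(x₀,-x₀-x₂) + HM1 (HM2 F₁²)(-x₀-x₂,x₂))^{1/2}` -/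
noncomputable def MM (η : ℝ) (F₀ F₁ : Matrix (Fin (2 * N)) (Fin (2 * N)) ℝ) (z : ℝ × ℝ) : ℝ≥0∞ :=
  (HM1 (HM2 (sq η F₀)) (z.2, -z.2 - z.1) + HM1 (HM2 (sq η F₁)) (-z.2 - z.1, z.1)) ^ (1 / 2 : ℝ)

/-- derivative of `D_u` away from the jumps, see `TH_K1`. -/
noncomputable def rDk (u y : ℝ) : ℝ := deriv (Dk u) y

end Crest.Agent.TH
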