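import Crest.Agent.TH_Defs

/-! # TH_CDefs: definitions for the continuous part (S0096)

`gk t` is the Gaussian density of variance `t`, `gk1 … gk4` its `x`-derivatives.  The line is cut into cells
`[lft k, lft k + η)`, `k : Fin (2 N)`, `lft k = (k - N) η`; `wt η p t k` is the mass of the cell `k` for the
Gaussian `gk t (x - p)`, `dwt`, `ddwt` the corresponding integrals of `gk1`, `gk2`
(`∂_p wt = - dwt`, `∂_p dwt = - ddwt`, `∂_t wt = ddwt / 2`). -/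

set_option autoImplicit false

open Matrix MeasureTheory Set

namespace Crest.Agent.TH

noncomputable def gk (t x : ℝ) : ℝ := Real.exp (-x ^ 2 / (2 * t)) / Real.sqrt (2 * Real.pi * t)
noncomputable def gk1 (t x : ℝ) : ℝ := -(x / t) * gk t x
noncomputable def gk2 (t x : ℝ) : ℝ := (x ^ 2 / t ^ 2 - 1 / t) * gk t x
noncomputable def gk3 (t x : ℝ) : ℝ := (3 * x / t ^ 2 - x ^ 3 / t ^ 3) * gk t x
noncomputable def gk4 (t x : ℝ) : ℝ := (x ^ 4 / t ^ 4 - 6 * x ^ 2 / t ^ 3 + 3 / t ^ 2) * gk t x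

/-- left end of the cell `k`. -/
noncomputable def lft (η : ℝ) {N : ℕ} (k : Fin (2 * N)) : ℝ := ((k : ℝ) - N) * η

noncomputable def wt (η : ℝ) {N : ℕ} (p t : ℝ) (k : Fin (2 * N)) : ℝ :=
  ∫ x in (lft η k)..(lft η k + η), gk t (x - p)

noncomputable def dwt (η : ℝ) {N : ℕ} (p t : ℝ) (k : Fin (2 * N)) : ℝ :=
  ∫ x in (lft η k)..(lft η k + η), gk1 t (x - p)

noncomputable def ddwt (η : ℝ) {N : ℕ} (p t : ℝ) (k : Fin (2 * N)) : ℝ :=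
  ∫ x in (lft η k)..(lft η k + η), gk2 t (x - p)

section mats
variable {ι : Type*} [Fintype ι] [DecidableEq ι]

/-- `K = Fᵀ W₀ F + G W₂ Gᵀ`. -/
noncomputable def Kmat (F G : Matrix ι ι ℝ) (w₀ w₂ : ι → ℝ) : Matrix ι ι ℝ :=
  Fᵀ * diagonal w₀ * F + G * diagonal w₂ * Gᵀ

/-- `M = K (v² + W₁ K)⁻¹ = (v² K⁻¹ + W₁)⁻¹`. -/
noncomputable def Mmat (v : ℝ) (w₁ : ι → ℝ) (K : Matrix ι ι ℝ) : Matrix ι ι ℝ :=
  K * (v ^ 2 • (1 : Matrix ι ι ℝ) + diagonal w₁ * K)⁻¹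

/-- `𝒲 = (v² + W₁ K)⁻¹ W₁ = (v² W₁⁻¹ + K)⁻¹`. -/
noncomputable def Wmat (v : ℝ) (w₁ : ι → ℝ) (K : Matrix ι ι ℝ) : Matrix ι ι ℝ :=
  (v ^ 2 • (1 : Matrix ι ι ℝ) + diagonal w₁ * K)⁻¹ * diagonal w₁

/-- the quadratic form `tr (φ M φ M)`. -/
noncomputable def qf (v : ℝ) (w₁ φ : ι → ℝ) (K : Matrix ι ι ℝ) : ℝ :=
  (diagonal φ * Mmat v w₁ K * diagonal φ * Mmat v w₁ K).trace

/-- trilinear sum `∑ F₀(k₀,k₁) φ₁(k₁) F₁(k₁,k₂) φ₂(k₂) F₂(k₂,k₀) φ₀(k₀)`. -/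
noncomputable def dT (F₀ F₁ F₂ : Matrix ι ι ℝ) (φ₀ φ₁ φ₂ : ι → ℝ) : ℝ :=
  ∑ k₀, ∑ k₁, ∑ k₂, F₀ k₀ k₁ * φ₁ k₁ * F₁ k₁ k₂ * φ₂ k₂ * F₂ k₂ k₀ * φ₀ k₀

end mats

section flow
variable {N : ℕ}

/-- `K` of the flow: `w₀ = wt p₀ (Λ t)`, `w₂ = wt (-p₀-p₁) (Λ t)`. -/
noncomputable def Kf (η Λ : ℝ) (F G : Matrix (Fin (2 * N)) (Fin (2 * N)) ℝ) (p₀ p₁ t : ℝ) :
    Matrix (Fin (2 * N)) (Fin (2 * N)) ℝ :=
  Kmat F G (wt η p₀ (Λ * t)) (wt η (-p₀ - p₁) (Λ * t))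

/-- the gain of the flow, `v² tr (ẇ₁ M ẇ₁ M)`. -/
noncomputable def gainD (η Λ v : ℝ) (F G : Matrix (Fin (2 * N)) (Fin (2 * N)) ℝ) (p₀ p₁ t : ℝ) : ℝ :=
  v ^ 2 * qf v (wt η p₁ t) (dwt η p₁ t) (Kf η Λ F G p₀ p₁ t)

/-- the potential `pot v (W₁ K)`. -/
noncomputable def potF (η Λ v : ℝ) (F G : Matrix (Fin (2 * N)) (Fin (2 * N)) ℝ) (p₀ p₁ t : ℝ) : ℝ :=
  pot v (diagonal (wt η p₁ t) * Kf η Λ F G p₀ p₁ t)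

/-- the total potential. -/
noncomputable def potT (η Λ v : ℝ) (F G : Matrix (Fin (2 * N)) (Fin (2 * N)) ℝ) (p₀ p₁ t : ℝ) : ℝ :=
  potF η Λ v F G p₀ p₁ t + potF η Λ v F 0 p₀ p₁ t / 2 + potF η Λ v 0 G p₀ p₁ t / 2

/-- cube of the `L³` norm of the step function `F`: `η² ∑ |F|³`. -/
noncomputable def n3 (η : ℝ) (F : Matrix (Fin (2 * N)) (Fin (2 * N)) ℝ) : ℝ :=
  η ^ 2 * ∑ a, ∑ b, |F a b| ^ 3

/-- `∫∫∫_{cells} κ (x₀+x₁+x₂)`. -/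
noncomputable def Jc (η : ℝ) (k₀ k₁ k₂ : Fin (2 * N)) (κ : ℝ → ℝ) : ℝ :=
  ∫ x₀ in (lft η k₀)..(lft η k₀ + η), ∫ x₁ in (lft η k₁)..(lft η k₁ + η),
    ∫ x₂ in (lft η k₂)..(lft η k₂ + η), κ (x₀ + x₁ + x₂)

/-- the trilinear sum with a kernel depending on the cell `(k₂,k₀)`. -/
noncomputable def TS (η : ℝ) (F₀ F₁ F₂ : Matrix (Fin (2 * N)) (Fin (2 * N)) ℝ)
    (κ : Fin (2 * N) → Fin (2 * N) → ℝ → ℝ) : ℝ :=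
  ∑ k₀, ∑ k₁, ∑ k₂, F₀ k₀ k₁ * F₁ k₁ k₂ * F₂ k₂ k₀ * Jc η k₀ k₁ k₂ (κ k₂ k₀)

end flow

/-- `K̃_u(t) = (1 - (1 - t²/u²) e^{-t²/2u²}) / t = ∫_{u²}^∞ √(π/2) s^{1/2} g_s'''(t) ds`. -/
noncomputable def Kt (u t : ℝ) : ℝ := (1 - (1 - t ^ 2 / u ^ 2) * Real.exp (-t ^ 2 / (2 * u ^ 2))) / t

open Classical in
/-- `D_u(t) = ((1 - t²/u²) e^{-t²/2u²} - 1_{|t|<u}) / t`, so `Kt u t + Dk u t = 1_{|t| ≥ u} / t`. -/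
noncomputable def Dk (u t : ℝ) : ℝ :=
  ((1 - t ^ 2 / u ^ 2) * Real.exp (-t ^ 2 / (2 * u ^ 2)) - (if |t| < u then 1 else 0)) / t

/-- jump data: radii `r 0 < r 1 < ⋯` and, for each cell `(k₂,k₀)`, jumps `a q k₂ k₀` of a step function with
values in `[-1,1]`, with zero total, and at most `2 n` nonzero jumps. -/
structure JumpData (N Q n : ℕ) where
  r : Fin Q → ℝ
  a : Fin Q → Fin (2 * N) → Fin (2 * N) → ℝ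
  r_pos : ∀ q, 0 < r q
  r_mono : StrictMono r
  partial_le : ∀ (k₂ k₀ : Fin (2 * N)) (q : Fin Q), |∑ q' ∈ Finset.Iic q, a q' k₂ k₀| ≤ 1
  total : ∀ (k₂ k₀ : Fin (2 * N)), ∑ q, a q k₂ k₀ = 0
  count : ∀ (k₂ k₀ : Fin (2 * N)), (Finset.univ.filter (fun q => a q k₂ k₀ ≠ 0)).card ≤ 2 * n

end Crest.Agent.TH
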