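import Crest.Agent.TH_Pot

/-! # TH_Conv (task TH-M7c): convexity of the potential -/

set_option autoImplicit false
open Matrix MeasureTheory Set Filter
open scoped Topology

namespace Crest.Agent.TH
variable {ι κ : Type*} [Fintype ι] [DecidableEq ι] [Fintype κ] [DecidableEq κ]

open scoped MatrixOrder Matrix.Norms.L2Operator in
private theorem conv_psd_factor {A : Matrix ι ι ℝ} (hA : A.PosSemidef) :
    ∃ S : Matrix ι ι ℝ, A = Sᴴ * S := by
  obtain ⟨B, hB⟩ := CStarAlgebra.nonneg_iff_eq_star_mul_self.mp hA.nonneg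
  exact ⟨B, by rw [hB, star_eq_conjTranspose]⟩

private theorem conv_log_det_le {C : Matrix ι ι ℝ} (hC : C.PosDef) :
    Real.log C.det ≤ C.trace - Fintype.card ι := by
  rw [hC.isHermitian.det_eq_prod_eigenvalues, hC.isHermitian.trace_eq_sum_eigenvalues]
  simp only [RCLike.ofReal_real_eq_id, id_eq]
  rw [Real.log_prod (fun i _ => (hC.eigenvalues_pos i).ne')]
  have h1 : ∑ i, Real.log (hC.isHermitian.eigenvalues i) ≤ ∑ i, (hC.isHermitian.eigenvalues i - 1) :=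
    Finset.sum_le_sum (fun i _ => Real.log_le_sub_one_of_pos (hC.eigenvalues_pos i))
  refine le_trans h1 (le_of_eq ?_)
  rw [Finset.sum_sub_distrib]
  simp

private theorem conv_logdet_sub_le {A B : Matrix ι ι ℝ} (hA : A.PosDef) (hB : B.PosDef) :
    Real.log A.det - Real.log B.det ≤ (B⁻¹ * A).trace - Fintype.card ι := by
  obtain ⟨S, hS⟩ := conv_psd_factor hB.posSemidef
  have hBdet : 0 < B.det := hB.det_pos
  have hAdet : 0 < A.det := hA.det_pos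
  have hBS : B.det = S.det * S.det := by
    rw [hS, det_mul, det_conjTranspose]; simp
  have hSdet : S.det ≠ 0 := by
    intro h
    rw [hBS, h] at hBdet
    simp at hBdet
  have hSu : IsUnit S.det := isUnit_iff_ne_zero.2 hSdet
  have hinj : Function.Injective (S⁻¹).mulVec := by
    intro x y hxy
    have h1 := congrArg (fun z => S.mulVec z) hxy
    simpa [Matrix.mulVec_mulVec, Matrix.mul_nonsing_inv S hSu] using h1
  have hC : ((S⁻¹)ᴴ * A * S⁻¹).PosDef := hA.conjTranspose_mul_mul_same hinj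
  have h1 := conv_log_det_le hC
  have hdet : ((S⁻¹)ᴴ * A * S⁻¹).det = A.det / B.det := by
    rw [det_mul, det_mul, det_conjTranspose, det_nonsing_inv, hBS, Ring.inverse_eq_inv']
    simp only [star_trivial]
    field_simp
  have hinv : B⁻¹ = S⁻¹ * (S⁻¹)ᴴ := by
    rw [hS, Matrix.mul_inv_rev, conjTranspose_nonsing_inv]
  have htr : ((S⁻¹)ᴴ * A * S⁻¹).trace = (B⁻¹ * A).trace := by
    rw [hinv, Matrix.trace_mul_comm, ← Matrix.mul_assoc]
  rw [hdet, htr, Real.log_div hAdet.ne' hBdet.ne'] at h1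
  exact h1

private theorem conv_posDef {v : ℝ} (hv : 0 < v) {H : Matrix ι ι ℝ} (hH : H.PosSemidef) :
    (1 + (v ^ 2)⁻¹ • H).PosDef :=
  Matrix.PosDef.add_posSemidef Matrix.PosDef.one (hH.smul (by positivity))

private theorem conv_hop {v : ℝ} (hv : 0 < v) {H : Matrix ι ι ℝ} (hH : H.PosSemidef) :
    hop v H = 1 - (1 + (v ^ 2)⁻¹ • H)⁻¹ := by
  have h1 : IsUnit (1 + (v ^ 2)⁻¹ • H).det := isUnit_iff_ne_zero.2 (conv_posDef hv hH).det_pos.ne'
  have hv2 : v ^ 2 ≠ 0 := by positivity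
  have h2 : v ^ 2 • (1 : Matrix ι ι ℝ) + H = v ^ 2 • (1 + (v ^ 2)⁻¹ • H) := by
    rw [smul_add, smul_smul, mul_inv_cancel₀ hv2, one_smul]
  have h3 : (v ^ 2 • (1 + (v ^ 2)⁻¹ • H))⁻¹ = (v ^ 2)⁻¹ • (1 + (v ^ 2)⁻¹ • H)⁻¹ := by
    apply Matrix.inv_eq_right_inv
    rw [smul_mul_smul_comm, mul_inv_cancel₀ hv2, one_smul, Matrix.mul_nonsing_inv _ h1]
  unfold hop
  rw [h2, h3]
  have h4 : H * ((v ^ 2)⁻¹ • (1 + (v ^ 2)⁻¹ • H)⁻¹) =
      ((1 + (v ^ 2)⁻¹ • H) - 1) * (1 + (v ^ 2)⁻¹ • H)⁻¹ := by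
    rw [add_sub_cancel_left, mul_smul_comm, smul_mul_assoc]
  rw [h4, sub_mul, Matrix.mul_nonsing_inv _ h1, one_mul]

/-- first order convexity inequality: `pot v H' - pot v H ≤ tr (hop v H' (H' - H))`. -/
theorem pot_sub_le {v : ℝ} (hv : 0 < v) {H H' : Matrix ι ι ℝ} (hH : H.PosSemidef)
    (hH' : H'.PosSemidef) : pot v H' - pot v H ≤ (hop v H' * (H' - H)).trace := by
  have hv2 : v ^ 2 ≠ 0 := by positivity
  have hv2' : 0 < v ^ 2 := by positivity
  have h1 := conv_logdet_sub_le (conv_posDef hv hH) (conv_posDef hv hH')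
  have hu : IsUnit (1 + (v ^ 2)⁻¹ • H').det :=
    isUnit_iff_ne_zero.2 (conv_posDef hv hH').det_pos.ne'
  have h2 : ((1 + (v ^ 2)⁻¹ • H')⁻¹ * (1 + (v ^ 2)⁻¹ • H)).trace - Fintype.card ι =
      (v ^ 2)⁻¹ * ((1 + (v ^ 2)⁻¹ • H')⁻¹ * (H - H')).trace := by
    have h3 : (1 + (v ^ 2)⁻¹ • H')⁻¹ * (1 + (v ^ 2)⁻¹ • H) =
        1 + (v ^ 2)⁻¹ • ((1 + (v ^ 2)⁻¹ • H')⁻¹ * (H - H')) := by
      have h4 : (1 + (v ^ 2)⁻¹ • H) = (1 + (v ^ 2)⁻¹ • H') + (v ^ 2)⁻¹ • (H - H') := by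
        rw [smul_sub]; abel
      rw [h4, mul_add, Matrix.nonsing_inv_mul _ hu, mul_smul_comm]
    rw [h3, Matrix.trace_add, Matrix.trace_one, Matrix.trace_smul, smul_eq_mul]
    ring
  rw [h2] at h1
  rw [conv_hop hv hH']
  unfold pot
  have h5 : v ^ 2 * (Real.log (1 + (v ^ 2)⁻¹ • H).det - Real.log (1 + (v ^ 2)⁻¹ • H').det) ≤
      ((1 + (v ^ 2)⁻¹ • H')⁻¹ * (H - H')).trace := by
    have h6 := mul_le_mul_of_nonneg_left h1 hv2'.le
    rwa [← mul_assoc, mul_inv_cancel₀ hv2, one_mul] at h6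
  have h7 : ((1 - (1 + (v ^ 2)⁻¹ • H')⁻¹) * (H' - H)).trace =
      H'.trace - H.trace + ((1 + (v ^ 2)⁻¹ • H')⁻¹ * (H - H')).trace := by
    have h8 : (1 - (1 + (v ^ 2)⁻¹ • H')⁻¹) * (H' - H) =
        (H' - H) + (1 + (v ^ 2)⁻¹ • H')⁻¹ * (H - H') := by
      rw [sub_mul, one_mul, ← neg_sub H' H, mul_neg]
      abel
    rw [h8, Matrix.trace_add, Matrix.trace_sub]
  rw [h7]
  linarith

/-- `pot` is convex (concavity of `log det`); midpoint version. -/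
theorem pot_midpoint {v : ℝ} (hv : 0 < v) {H H' : Matrix ι ι ℝ} (hH : H.PosSemidef)
    (hH' : H'.PosSemidef) : pot v ((1 / 2 : ℝ) • (H + H')) ≤ (pot v H + pot v H') / 2 := by
  have hm : ((1 / 2 : ℝ) • (H + H')).PosSemidef := (hH.add hH').smul (by norm_num)
  have h1 := pot_sub_le hv hH hm
  have h2 := pot_sub_le hv hH' hm
  have h3 : (hop v ((1 / 2 : ℝ) • (H + H')) * ((1 / 2 : ℝ) • (H + H') - H)).trace +
      (hop v ((1 / 2 : ℝ) • (H + H')) * ((1 / 2 : ℝ) • (H + H') - H')).trace = 0 := by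
    rw [← Matrix.trace_add, ← mul_add]
    have h4 : ((1 / 2 : ℝ) • (H + H') - H) + ((1 / 2 : ℝ) • (H + H') - H') = 0 := by
      have h5 : (1 / 2 : ℝ) • (H + H') + (1 / 2 : ℝ) • (H + H') = H + H' := by
        rw [← add_smul]; norm_num
      calc ((1 / 2 : ℝ) • (H + H') - H) + ((1 / 2 : ℝ) • (H + H') - H')
          = ((1 / 2 : ℝ) • (H + H') + (1 / 2 : ℝ) • (H + H')) - (H + H') := by abel
        _ = 0 := by rw [h5, sub_self]
    rw [h4, mul_zero, Matrix.trace_zero]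
  linarith

end Crest.Agent.TH
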