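import Crest.Agent.TH_ADefs

/-! # TH_Hold (task TH-A9): `L³` bounds of the step functions and of the maximal expression -/

set_option autoImplicit false
open Matrix MeasureTheory Set Filter
open scoped Topology ENNReal

namespace Crest.Agent.TH

private theorem hold_cell_meas {N : ℕ} (η : ℝ) (a b : Fin (2 * N)) :
    MeasurableSet {z : ℝ × ℝ | z.1 ∈ Ico (lft η a) (lft η a + η) ∧ z.2 ∈ Ico (lft η b) (lft η b + η)} :=
  (measurableSet_Ico.preimage measurable_fst).inter (measurableSet_Ico.preimage measurable_snd)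

theorem measurable_cf {N : ℕ} (η : ℝ) (A : Matrix (Fin (2 * N)) (Fin (2 * N)) ℝ) : Measurable (cf η A) := by
  classical
  unfold cf
  refine Finset.measurable_sum _ fun a _ => Finset.measurable_sum _ fun b _ => ?_
  exact Measurable.ite (hold_cell_meas η a b) measurable_const measurable_const

/-- a point lies in at most one cell -/
private theorem hold_cell_unique {N : ℕ} {η : ℝ} (hη : 0 < η) {x : ℝ} {a a' : Fin (2 * N)}
    (h : x ∈ Ico (lft η a) (lft η a + η)) (h' : x ∈ Ico (lft η a') (lft η a' + η)) : a = a' := by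
  have key : ∀ b b' : Fin (2 * N), x ∈ Ico (lft η b) (lft η b + η) →
      x ∈ Ico (lft η b') (lft η b' + η) → (b : ℕ) ≤ (b' : ℕ) := by
    intro b b' hb hb'
    unfold lft at hb hb'
    have h1 : ((b : ℝ) - N) * η < ((b' : ℝ) - N) * η + η := lt_of_le_of_lt hb.1 hb'.2
    have h2 : ((b : ℝ) - N) * η < (((b' : ℝ) + 1) - N) * η := by
      calc ((b : ℝ) - N) * η < ((b' : ℝ) - N) * η + η := h1
        _ = (((b' : ℝ) + 1) - N) * η := by ring
    have h3 := lt_of_mul_lt_mul_right h2 hη.le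
    have h4 : ((b : ℕ) : ℝ) < ((b' : ℕ) : ℝ) + 1 := by linarith
    have h5 : (b : ℕ) < (b' : ℕ) + 1 := by exact_mod_cast h4
    omega
  exact Fin.ext (le_antisymm (key a a' h h') (key a' a h' h))

open Classical in
/-- functions of step functions -/
private theorem hold_comp {N : ℕ} {η : ℝ} (hη : 0 < η) (A : Matrix (Fin (2 * N)) (Fin (2 * N)) ℝ)
    (φ : ℝ → ℝ≥0∞) (h0 : φ 0 = 0) (z : ℝ × ℝ) :
    φ (cf η A z) = ∑ a, ∑ b, if z.1 ∈ Ico (lft η a) (lft η a + η) ∧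
      z.2 ∈ Ico (lft η b) (lft η b + η) then φ (A a b) else 0 := by
  by_cases h : ∃ a b : Fin (2 * N), z.1 ∈ Ico (lft η a) (lft η a + η) ∧
      z.2 ∈ Ico (lft η b) (lft η b + η)
  · obtain ⟨a, b, ha, hb⟩ := h
    have h1 : cf η A z = A a b := by
      unfold cf
      rw [Finset.sum_eq_single a, Finset.sum_eq_single b]
      · rw [if_pos ⟨ha, hb⟩]
      · intro b' _ hb'
        rw [if_neg]
        rintro ⟨_, h2⟩
        exact hb' (hold_cell_unique hη h2 hb)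
      · intro h2; exact absurd (Finset.mem_univ _) h2
      · intro a' _ ha'
        refine Finset.sum_eq_zero fun b' _ => ?_
        rw [if_neg]
        rintro ⟨h2, _⟩
        exact ha' (hold_cell_unique hη h2 ha)
      · intro h2; exact absurd (Finset.mem_univ _) h2
    rw [h1, Finset.sum_eq_single a, Finset.sum_eq_single b]
    · rw [if_pos ⟨ha, hb⟩]
    · intro b' _ hb'
      rw [if_neg]
      rintro ⟨_, h2⟩
      exact hb' (hold_cell_unique hη h2 hb)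
    · intro h2; exact absurd (Finset.mem_univ _) h2
    · intro a' _ ha'
      refine Finset.sum_eq_zero fun b' _ => ?_
      rw [if_neg]
      rintro ⟨h2, _⟩
      exact ha' (hold_cell_unique hη h2 ha)
    · intro h2; exact absurd (Finset.mem_univ _) h2
  · have h1 : ∀ a b : Fin (2 * N), ¬ (z.1 ∈ Ico (lft η a) (lft η a + η) ∧
      z.2 ∈ Ico (lft η b) (lft η b + η)) := fun a b h2 => h ⟨a, b, h2⟩
    unfold cf
    simp only [h1, if_false, Finset.sum_const_zero, h0]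

/-- integrals of functions of step functions -/
private theorem hold_lint {N : ℕ} {η : ℝ} (hη : 0 < η) (A : Matrix (Fin (2 * N)) (Fin (2 * N)) ℝ)
    (φ : ℝ → ℝ≥0∞) (h0 : φ 0 = 0) :
    ∫⁻ z : ℝ × ℝ, φ (cf η A z) = ∑ a, ∑ b, φ (A a b) * ENNReal.ofReal (η ^ 2) := by
  classical
  simp only [hold_comp hη A φ h0]
  rw [lintegral_finsetSum]
  · refine Finset.sum_congr rfl fun a _ => ?_
    rw [lintegral_finsetSum]
    · refine Finset.sum_congr rfl fun b _ => ?_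
      have h1 : ∀ z : ℝ × ℝ, (if z.1 ∈ Ico (lft η a) (lft η a + η) ∧
          z.2 ∈ Ico (lft η b) (lft η b + η) then φ (A a b) else 0) =
          (Ico (lft η a) (lft η a + η) ×ˢ Ico (lft η b) (lft η b + η)).indicator
            (fun _ => φ (A a b)) z := by
        intro z
        by_cases hz : z.1 ∈ Ico (lft η a) (lft η a + η) ∧ z.2 ∈ Ico (lft η b) (lft η b + η)
        · rw [if_pos hz, Set.indicator_of_mem (Set.mem_prod.mpr hz)]
        · rw [if_neg hz, Set.indicator_of_notMem (fun h2 => hz (Set.mem_prod.mp h2))]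
      simp only [h1]
      rw [lintegral_indicator (measurableSet_Ico.prod measurableSet_Ico), setLIntegral_const,
        Measure.volume_eq_prod, Measure.prod_prod, Real.volume_Ico, Real.volume_Ico,
        add_sub_cancel_left, add_sub_cancel_left, ← ENNReal.ofReal_mul hη.le, ← pow_two]
    · intro b _
      exact Measurable.ite (hold_cell_meas η a b) measurable_const measurable_const
  · intro a _
    refine Finset.measurable_sum _ fun b _ => ?_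
    exact Measurable.ite (hold_cell_meas η a b) measurable_const measurable_const

private theorem hold_n3 {N : ℕ} {η : ℝ} (A : Matrix (Fin (2 * N)) (Fin (2 * N)) ℝ) :
    ∑ a, ∑ b, ENNReal.ofReal (|A a b| ^ 3) * ENNReal.ofReal (η ^ 2) = ENNReal.ofReal (n3 η A) := by
  unfold n3
  have h1 : ∀ a b : Fin (2 * N), 0 ≤ |A a b| ^ 3 := fun a b => pow_nonneg (abs_nonneg _) 3
  rw [ENNReal.ofReal_mul (sq_nonneg η), ENNReal.ofReal_sum_of_nonneg
    (fun a _ => Finset.sum_nonneg fun b _ => h1 a b), mul_comm (ENNReal.ofReal (η ^ 2)) _,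
    Finset.sum_mul]
  refine Finset.sum_congr rfl fun a _ => ?_
  rw [ENNReal.ofReal_sum_of_nonneg (fun b _ => h1 a b), Finset.sum_mul]

/-- `∫ |cf A|³ = η² ∑ |A|³`, also `∫ (sq A)^{3/2} = n3 A`. -/
theorem lintegral_sq_rpow {N : ℕ} {η : ℝ} (hη : 0 < η) (A : Matrix (Fin (2 * N)) (Fin (2 * N)) ℝ) :
    ∫⁻ z : ℝ × ℝ, sq η A z ^ (3 / 2 : ℝ) = ENNReal.ofReal (n3 η A) := by
  have h1 : ∀ x : ℝ, ENNReal.ofReal (x ^ 2) ^ (3 / 2 : ℝ) = ENNReal.ofReal (|x| ^ 3) := by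
    intro x
    rw [ENNReal.ofReal_rpow_of_nonneg (sq_nonneg x) (by norm_num)]
    congr 1
    rw [← sq_abs, ← Real.rpow_natCast, ← Real.rpow_mul (abs_nonneg x), ← Real.rpow_natCast]
    norm_num
  unfold sq
  rw [hold_lint hη A (fun x => ENNReal.ofReal (x ^ 2) ^ (3 / 2 : ℝ)) (by norm_num)]
  simp only [h1]
  exact hold_n3 A

theorem lintegral_cf_cube {N : ℕ} {η : ℝ} (hη : 0 < η) (A : Matrix (Fin (2 * N)) (Fin (2 * N)) ℝ) :
    ∫⁻ z : ℝ × ℝ, ENNReal.ofReal |cf η A z| ^ (3 : ℝ) = ENNReal.ofReal (n3 η A) := by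
  have h1 : ∀ x : ℝ, ENNReal.ofReal |x| ^ (3 : ℝ) = ENNReal.ofReal (|x| ^ 3) := by
    intro x
    rw [ENNReal.ofReal_rpow_of_nonneg (abs_nonneg x) (by norm_num)]
    congr 1
    rw [← Real.rpow_natCast]
    norm_num
  rw [hold_lint hη A (fun x => ENNReal.ofReal |x| ^ (3 : ℝ)) (by norm_num)]
  simp only [h1]
  exact hold_n3 A

theorem n3_transpose {N : ℕ} (η : ℝ) (A : Matrix (Fin (2 * N)) (Fin (2 * N)) ℝ) : n3 η Aᵀ = n3 η A := by
  unfold n3
  rw [Finset.sum_comm]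
  rfl

theorem n3_nonneg {N : ℕ} (η : ℝ) (A : Matrix (Fin (2 * N)) (Fin (2 * N)) ℝ) : 0 ≤ n3 η A := by
  unfold n3
  exact mul_nonneg (sq_nonneg η) (Finset.sum_nonneg fun a _ => Finset.sum_nonneg fun b _ =>
    pow_nonneg (abs_nonneg _) 3)

private theorem hold_n3_abs {N : ℕ} (η : ℝ) (A : Matrix (Fin (2 * N)) (Fin (2 * N)) ℝ) :
    n3 η (A.map abs) = n3 η A := by
  unfold n3
  simp only [Matrix.map_apply, abs_abs]

/-- the rotation `(x,y) ↦ (-x-y,x)` preserves the area -/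
private theorem hold_rot : MeasurePreserving (fun z : ℝ × ℝ => (-z.1 - z.2, z.1)) := by
  have h1 : MeasurePreserving (fun z : ℝ × ℝ => (z.2 + z.1, -z.1)) (volume.prod volume)
      (volume.prod volume) := measurePreserving_add_prod_neg (volume : Measure ℝ) volume
  have h2 : MeasurePreserving (fun z : ℝ × ℝ => (-z.1, -z.2)) (volume.prod volume)
      (volume.prod volume) :=
    (Measure.measurePreserving_neg (volume : Measure ℝ)).prod (Measure.measurePreserving_neg volume)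
  have h3 := h2.comp h1
  have h4 : ((fun z : ℝ × ℝ => (-z.1, -z.2)) ∘ fun z : ℝ × ℝ => (z.2 + z.1, -z.1)) =
      fun z : ℝ × ℝ => (-z.1 - z.2, z.1) := by
    funext z
    simp only [Function.comp]
    rw [neg_neg]
    congr 1
    ring
  rw [h4] at h3
  exact h3

/-- Hölder's inequality with exponents `(3,3,3)` -/
private theorem hold_three {f g h : ℝ × ℝ → ℝ≥0∞} (hf : Measurable f) (hg : Measurable g)
    (hh : Measurable h) :
    ∫⁻ z, f z ^ (1 / 3 : ℝ) * (g z ^ (1 / 3 : ℝ) * h z ^ (1 / 3 : ℝ)) ≤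
      (∫⁻ z, f z) ^ (1 / 3 : ℝ) * ((∫⁻ z, g z) ^ (1 / 3 : ℝ) * (∫⁻ z, h z) ^ (1 / 3 : ℝ)) := by
  have h1 := ENNReal.lintegral_prod_norm_pow_le (μ := (volume : Measure (ℝ × ℝ)))
    (Finset.univ : Finset (Fin 3)) (f := ![f, g, h]) (p := fun _ => (1 / 3 : ℝ))
    (by
      intro i _
      fin_cases i
      · exact hf.aemeasurable
      · exact hg.aemeasurable
      · exact hh.aemeasurable)
    (by simp) (by intro i _; norm_num)
  simp only [Fin.prod_univ_three, Matrix.cons_val_zero, Matrix.cons_val_one, Matrix.cons_val_two,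
    Matrix.head_cons, Matrix.tail_cons] at h1
  simpa [mul_assoc] using h1

private theorem hold_measurable_sq {N : ℕ} (η : ℝ) (A : Matrix (Fin (2 * N)) (Fin (2 * N)) ℝ) :
    Measurable (sq η A) := by
  unfold sq
  exact ENNReal.measurable_ofReal.comp ((measurable_cf η A).pow_const 2)

/-- Hölder with exponents `(3,3,3)`, `HM1_strong`, `HM2_strong`, and the measure preserving map
`(x,y) ↦ (-x-y,x)`. -/
theorem maxE_holder : ∃ C : ℝ, 0 ≤ C ∧ ∀ (η : ℝ), 0 < η → ∀ (N : ℕ) (F G : Matrix (Fin (2 * N)) (Fin (2 * N)) ℝ),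
    ∫⁻ z : ℝ × ℝ, ENNReal.ofReal |cf η G z| * maxE η F (G.map abs) z ≤
      ENNReal.ofReal (C * n3 η G ^ (2 / 3 : ℝ) * (n3 η F ^ (1 / 3 : ℝ) + n3 η G ^ (1 / 3 : ℝ))) := by
  obtain ⟨C₁, hC₁, hM₁⟩ := HM1_strong
  obtain ⟨C₂, hC₂, hM₂⟩ := HM2_strong
  -- real constants
  set c₁ : ℝ := C₁.toReal with hc₁
  set c₂ : ℝ := C₂.toReal with hc₂
  have hc₁0 : 0 ≤ c₁ := ENNReal.toReal_nonneg
  have hc₂0 : 0 ≤ c₂ := ENNReal.toReal_nonneg
  have hC₁' : C₁ = ENNReal.ofReal c₁ := (ENNReal.ofReal_toReal hC₁).symm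
  have hC₂' : C₂ = ENNReal.ofReal c₂ := (ENNReal.ofReal_toReal hC₂).symm
  set K : ℝ := c₁ ^ (1 / 3 : ℝ) + c₂ ^ (1 / 3 : ℝ) with hK
  have hK1 : 0 ≤ c₁ ^ (1 / 3 : ℝ) := Real.rpow_nonneg hc₁0 _
  have hK2 : 0 ≤ c₂ ^ (1 / 3 : ℝ) := Real.rpow_nonneg hc₂0 _
  have hK0 : 0 ≤ K := add_nonneg hK1 hK2
  refine ⟨K * K, mul_nonneg hK0 hK0, fun η hη N F G => ?_⟩
  set Gh := G.map abs with hGh
  have hmF := hold_measurable_sq η F
  have hmG := hold_measurable_sq η Gh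
  have hm1F : Measurable (fun z : ℝ × ℝ => HM1 (sq η F) (-z.1 - z.2, z.1)) :=
    (measurable_HM1 hmF).comp hold_rot.measurable
  have hm1G := measurable_HM1 hmG
  have hm2G := measurable_HM2 hmG
  have hmc : Measurable (fun z => ENNReal.ofReal |cf η G z| ^ (3 : ℝ)) :=
    (ENNReal.measurable_ofReal.comp (measurable_cf η G).abs).pow_const _
  -- the three norms
  have hA : (∫⁻ z : ℝ × ℝ, HM1 (sq η F) (-z.1 - z.2, z.1) ^ (3 / 2 : ℝ)) ≤
      ENNReal.ofReal (c₁ * n3 η F) := by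
    have h1 := hold_rot.lintegral_comp (f := fun z => HM1 (sq η F) z ^ (3 / 2 : ℝ))
      ((measurable_HM1 hmF).pow_const _)
    calc (∫⁻ z : ℝ × ℝ, HM1 (sq η F) (-z.1 - z.2, z.1) ^ (3 / 2 : ℝ))
        = ∫⁻ z, HM1 (sq η F) z ^ (3 / 2 : ℝ) := h1
      _ ≤ C₁ * ∫⁻ z, sq η F z ^ (3 / 2 : ℝ) := hM₁ _ hmF
      _ = ENNReal.ofReal (c₁ * n3 η F) := by
        rw [lintegral_sq_rpow hη, hC₁', ← ENNReal.ofReal_mul hc₁0]
  have hB : (∫⁻ z : ℝ × ℝ, HM2 (sq η Gh) z ^ (3 / 2 : ℝ)) ≤ ENNReal.ofReal (c₂ * n3 η G) := by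
    calc (∫⁻ z : ℝ × ℝ, HM2 (sq η Gh) z ^ (3 / 2 : ℝ))
        ≤ C₂ * ∫⁻ z, sq η Gh z ^ (3 / 2 : ℝ) := hM₂ _ hmG
      _ = ENNReal.ofReal (c₂ * n3 η G) := by
        rw [lintegral_sq_rpow hη, hC₂', ← ENNReal.ofReal_mul hc₂0, hGh, hold_n3_abs]
  have hD : (∫⁻ z : ℝ × ℝ, HM1 (sq η Gh) z ^ (3 / 2 : ℝ)) ≤ ENNReal.ofReal (c₁ * n3 η G) := by
    calc (∫⁻ z : ℝ × ℝ, HM1 (sq η Gh) z ^ (3 / 2 : ℝ))
        ≤ C₁ * ∫⁻ z, sq η Gh z ^ (3 / 2 : ℝ) := hM₁ _ hmG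
      _ = ENNReal.ofReal (c₁ * n3 η G) := by
        rw [lintegral_sq_rpow hη, hC₁', ← ENNReal.ofReal_mul hc₁0, hGh, hold_n3_abs]
  -- real quantities
  set x : ℝ := n3 η G ^ (1 / 3 : ℝ) with hx
  set y : ℝ := n3 η F ^ (1 / 3 : ℝ) with hy
  have hx0 : 0 ≤ x := Real.rpow_nonneg (n3_nonneg η G) _
  have hy0 : 0 ≤ y := Real.rpow_nonneg (n3_nonneg η F) _
  have hxx : n3 η G ^ (2 / 3 : ℝ) = x * x := by
    rw [hx]
    rcases (n3_nonneg η G).eq_or_lt with h0 | h0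
    · rw [← h0, Real.zero_rpow (by norm_num), Real.zero_rpow (by norm_num), mul_zero]
    · rw [← Real.rpow_add h0]
      norm_num
  have hroot : ∀ {I : ℝ≥0∞} {c n : ℝ}, 0 ≤ c → 0 ≤ n → I ≤ ENNReal.ofReal (c * n) →
      I ^ (1 / 3 : ℝ) ≤ ENNReal.ofReal (c ^ (1 / 3 : ℝ) * n ^ (1 / 3 : ℝ)) := by
    intro I c n hc hn hI
    calc I ^ (1 / 3 : ℝ) ≤ ENNReal.ofReal (c * n) ^ (1 / 3 : ℝ) :=
          ENNReal.rpow_le_rpow hI (by norm_num)
      _ = ENNReal.ofReal (c ^ (1 / 3 : ℝ) * n ^ (1 / 3 : ℝ)) := by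
          rw [ENNReal.ofReal_rpow_of_nonneg (mul_nonneg hc hn) (by norm_num), Real.mul_rpow hc hn]
  have hcG : (∫⁻ z : ℝ × ℝ, ENNReal.ofReal |cf η G z| ^ (3 : ℝ)) ^ (1 / 3 : ℝ) = ENNReal.ofReal x := by
    rw [lintegral_cf_cube hη, ENNReal.ofReal_rpow_of_nonneg (n3_nonneg η G) (by norm_num)]
  have hpt : ∀ z : ℝ × ℝ, ENNReal.ofReal |cf η G z| * maxE η F Gh z ≤
      (ENNReal.ofReal |cf η G z| ^ (3 : ℝ)) ^ (1 / 3 : ℝ) *
        ((HM1 (sq η F) (-z.1 - z.2, z.1) ^ (3 / 2 : ℝ)) ^ (1 / 3 : ℝ) *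
          (HM1 (sq η Gh) z ^ (3 / 2 : ℝ)) ^ (1 / 3 : ℝ)) +
      (ENNReal.ofReal |cf η G z| ^ (3 : ℝ)) ^ (1 / 3 : ℝ) *
        ((HM2 (sq η Gh) z ^ (3 / 2 : ℝ)) ^ (1 / 3 : ℝ) *
          (HM1 (sq η Gh) z ^ (3 / 2 : ℝ)) ^ (1 / 3 : ℝ)) := by
    intro z
    have e1 : ∀ u : ℝ≥0∞, (u ^ (3 : ℝ)) ^ (1 / 3 : ℝ) = u := by
      intro u
      rw [← ENNReal.rpow_mul]
      norm_num
    have e2 : ∀ u : ℝ≥0∞, (u ^ (3 / 2 : ℝ)) ^ (1 / 3 : ℝ) = u ^ (1 / 2 : ℝ) := by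
      intro u
      rw [← ENNReal.rpow_mul]
      norm_num
    rw [e1, e2, e2, e2, ← mul_add, ← add_mul]
    unfold maxE
    refine mul_le_mul_right (mul_le_mul_left ?_ _) _
    exact ENNReal.rpow_add_le_add_rpow _ _ (by norm_num) (by norm_num)
  calc ∫⁻ z : ℝ × ℝ, ENNReal.ofReal |cf η G z| * maxE η F Gh z
      ≤ ∫⁻ z : ℝ × ℝ, ((ENNReal.ofReal |cf η G z| ^ (3 : ℝ)) ^ (1 / 3 : ℝ) *
        ((HM1 (sq η F) (-z.1 - z.2, z.1) ^ (3 / 2 : ℝ)) ^ (1 / 3 : ℝ) *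
          (HM1 (sq η Gh) z ^ (3 / 2 : ℝ)) ^ (1 / 3 : ℝ)) +
      (ENNReal.ofReal |cf η G z| ^ (3 : ℝ)) ^ (1 / 3 : ℝ) *
        ((HM2 (sq η Gh) z ^ (3 / 2 : ℝ)) ^ (1 / 3 : ℝ) *
          (HM1 (sq η Gh) z ^ (3 / 2 : ℝ)) ^ (1 / 3 : ℝ))) := lintegral_mono hpt
    _ = (∫⁻ z : ℝ × ℝ, ((ENNReal.ofReal |cf η G z| ^ (3 : ℝ)) ^ (1 / 3 : ℝ) *
        ((HM1 (sq η F) (-z.1 - z.2, z.1) ^ (3 / 2 : ℝ)) ^ (1 / 3 : ℝ) *
          (HM1 (sq η Gh) z ^ (3 / 2 : ℝ)) ^ (1 / 3 : ℝ)))) +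
      ∫⁻ z : ℝ × ℝ, (ENNReal.ofReal |cf η G z| ^ (3 : ℝ)) ^ (1 / 3 : ℝ) *
        ((HM2 (sq η Gh) z ^ (3 / 2 : ℝ)) ^ (1 / 3 : ℝ) *
          (HM1 (sq η Gh) z ^ (3 / 2 : ℝ)) ^ (1 / 3 : ℝ)) := by
        rw [lintegral_add_left]
        exact (hmc.pow_const _).mul (((hm1F.pow_const _).pow_const _).mul
          ((hm1G.pow_const _).pow_const _))
    _ ≤ (ENNReal.ofReal x * (ENNReal.ofReal (c₁ ^ (1 / 3 : ℝ) * y) *
          ENNReal.ofReal (c₁ ^ (1 / 3 : ℝ) * x))) +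
        (ENNReal.ofReal x * (ENNReal.ofReal (c₂ ^ (1 / 3 : ℝ) * x) *
          ENNReal.ofReal (c₁ ^ (1 / 3 : ℝ) * x))) := by
        refine add_le_add ?_ ?_
        · refine (hold_three hmc (hm1F.pow_const _) (hm1G.pow_const _)).trans ?_
          rw [hcG]
          exact mul_le_mul_right (mul_le_mul' (hroot hc₁0 (n3_nonneg η F) hA)
            (hroot hc₁0 (n3_nonneg η G) hD)) _
        · refine (hold_three hmc (hm2G.pow_const _) (hm1G.pow_const _)).trans ?_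
          rw [hcG]
          exact mul_le_mul_right (mul_le_mul' (hroot hc₂0 (n3_nonneg η G) hB)
            (hroot hc₁0 (n3_nonneg η G) hD)) _
    _ = ENNReal.ofReal (x * ((c₁ ^ (1 / 3 : ℝ) * y) * (c₁ ^ (1 / 3 : ℝ) * x)) +
          x * ((c₂ ^ (1 / 3 : ℝ) * x) * (c₁ ^ (1 / 3 : ℝ) * x))) := by
        have e : ∀ a b c : ℝ, 0 ≤ a → 0 ≤ b → ENNReal.ofReal (a * (b * c)) =
            ENNReal.ofReal a * (ENNReal.ofReal b * ENNReal.ofReal c) := by
          intro a b c ha hb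
          rw [ENNReal.ofReal_mul ha, ENNReal.ofReal_mul hb]
        rw [ENNReal.ofReal_add (by positivity) (by positivity), e _ _ _ hx0 (by positivity),
          e _ _ _ hx0 (by positivity)]
    _ ≤ ENNReal.ofReal (K * K * n3 η G ^ (2 / 3 : ℝ) * (y + x)) := by
        refine ENNReal.ofReal_le_ofReal ?_
        rw [hxx, hK]
        set p := c₁ ^ (1 / 3 : ℝ)
        set q := c₂ ^ (1 / 3 : ℝ)
        have e1 : x * (p * y * (p * x)) + x * (q * x * (p * x)) =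
            (p * p) * (x * x * y) + (q * p) * (x * x * x) := by ring
        have e2 : (p + q) * (p + q) * (x * x) * (y + x) =
            (p * p) * (x * x * y) + (q * p) * (x * x * x) +
            ((q * p + p * q + q * q) * (x * x * y) + (p * p + p * q + q * q) * (x * x * x)) := by
          ring
        rw [e1, e2]
        have : 0 ≤ ((q * p + p * q + q * q) * (x * x * y) + (p * p + p * q + q * q) * (x * x * x)) := by
          positivity
        linarith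

end Crest.Agent.TH
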