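import Crest.Agent.TH_K1
import Crest.Agent.TH_K2

/-! # TH_K3 (task TH-K3): the kernel bounds -/

set_option autoImplicit false
open Matrix MeasureTheory Set Filter
open scoped Topology ENNReal

namespace Crest.Agent.TH
variable {N : ℕ}

/-! ### auxiliary facts -/

private theorem k3_gk_int {s t : ℝ} (hs : 0 < s) (ht : 0 < t) (x : ℝ) :
    Integrable (fun y => gk s (x - y) * gk t y) := by
  simp only [gk_mul_gk hs ht]
  have h : 0 < s * t / (s + t) := by positivity
  exact ((integrable_gk h).comp_sub_right (t * x / (s + t))).const_mul _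

/-- `e^{-y²/(2a)} = √(2πa) g_a(y)` -/
private theorem k3_exp_eq {a : ℝ} (ha : 0 < a) (y : ℝ) :
    Real.exp (-y ^ 2 / (2 * a)) = Real.sqrt (2 * Real.pi * a) * gk a y := by
  unfold gk
  have : 0 < Real.sqrt (2 * Real.pi * a) := Real.sqrt_pos.mpr (by positivity)
  field_simp

private theorem k3_measurable_gam {u s : ℝ} (hs : 0 < s) : Measurable (fun t => gam u s t) := by
  unfold gam
  apply Measurable.const_mul
  have h : StronglyMeasurable (fun t => ∫ y, Dk u y * gk1 (s / 2) (t - y)) := by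
    apply StronglyMeasurable.integral_prod_right (f := fun t y => Dk u y * gk1 (s / 2) (t - y))
    apply Measurable.stronglyMeasurable
    exact ((measurable_Dk u).comp measurable_snd).mul
      ((continuous_gk1 (by positivity : 0 < s / 2)).measurable.comp
        (measurable_fst.sub measurable_snd))
  exact h.measurable

/-- the pointwise bound for high frequencies -/
private theorem k3_high_aux {w u s : ℝ} (hs : 0 < s) (hsw : Real.sqrt s ≤ w) (hwu : w ≤ u)
    (huw : u ≤ 2 * w) (t : ℝ) :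
    |gam u s t| ≤ Real.sqrt s / w * (gk (s / 2) (t - u) + gk (s / 2) (t + u)) +
      20 * Real.sqrt s / w ^ 2 * Real.exp (-t ^ 2 / (17 * w ^ 2)) := by
  have hss : 0 < Real.sqrt s := Real.sqrt_pos.2 hs
  have hw : 0 < w := hss.trans_le hsw
  have hu : 0 < u := hw.trans_le hwu
  have hs2 : 0 < s / 2 := by positivity
  have hu2 : 0 < 2 * u ^ 2 := by positivity
  have hsq : s ≤ w ^ 2 := by
    have := mul_self_le_mul_self hss.le hsw
    rwa [Real.mul_self_sqrt hs.le, ← pow_two] at this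
  rw [gam_eq hu hs t]
  have h1 : |∫ y, rDk u y * gk (s / 2) (t - y)| ≤
      ∫ y, (20 / u ^ 2 * Real.sqrt (2 * Real.pi * (2 * u ^ 2))) *
        (gk (s / 2) (t - y) * gk (2 * u ^ 2) y) := by
    have h2 : Integrable (fun y => (20 / u ^ 2 * Real.sqrt (2 * Real.pi * (2 * u ^ 2))) *
        (gk (s / 2) (t - y) * gk (2 * u ^ 2) y)) := (k3_gk_int hs2 hu2 t).const_mul _
    rw [← Real.norm_eq_abs]
    refine norm_integral_le_of_norm_le h2 (ae_of_all _ fun y => ?_)
    have h3 := abs_rDk_le hu y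
    have h4 := k3_exp_eq hu2 y
    have h5 : -y ^ 2 / (4 * u ^ 2) = -y ^ 2 / (2 * (2 * u ^ 2)) := by
      congr 1
      ring
    rw [h5, h4] at h3
    have h6 := gk_pos hs2 (t - y)
    rw [Real.norm_eq_abs, abs_mul, abs_of_pos h6]
    calc |rDk u y| * gk (s / 2) (t - y) ≤
        (20 / u ^ 2 * (Real.sqrt (2 * Real.pi * (2 * u ^ 2)) * gk (2 * u ^ 2) y)) *
          gk (s / 2) (t - y) := mul_le_mul_of_nonneg_right h3 h6.le
      _ = _ := by ring
  rw [integral_const_mul, gk_conv hs2 hu2] at h1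
  have h7 : Real.sqrt (2 * Real.pi * (2 * u ^ 2)) * gk (s / 2 + 2 * u ^ 2) t ≤
      Real.exp (-t ^ 2 / (17 * w ^ 2)) := by
    unfold gk
    have h8 : 0 < Real.sqrt (2 * Real.pi * (s / 2 + 2 * u ^ 2)) :=
      Real.sqrt_pos.mpr (by positivity)
    have h9 : Real.sqrt (2 * Real.pi * (2 * u ^ 2)) ≤
        Real.sqrt (2 * Real.pi * (s / 2 + 2 * u ^ 2)) := by
      apply Real.sqrt_le_sqrt
      have := Real.pi_pos
      nlinarith
    have h10 : Real.exp (-t ^ 2 / (2 * (s / 2 + 2 * u ^ 2))) ≤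
        Real.exp (-t ^ 2 / (17 * w ^ 2)) := by
      apply Real.exp_le_exp.2
      rw [neg_div, neg_div, neg_le_neg_iff]
      apply div_le_div_of_nonneg_left (sq_nonneg t) (by positivity)
      nlinarith
    rw [← mul_div_assoc, div_le_iff₀ h8, mul_comm]
    exact mul_le_mul h10 h9 (Real.sqrt_nonneg _) (Real.exp_pos _).le
  have h11 : Real.sqrt s * |∫ y, rDk u y * gk (s / 2) (t - y)| ≤
      20 * Real.sqrt s / w ^ 2 * Real.exp (-t ^ 2 / (17 * w ^ 2)) := by
    calc Real.sqrt s * |∫ y, rDk u y * gk (s / 2) (t - y)| ≤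
        Real.sqrt s * (20 / u ^ 2 * Real.sqrt (2 * Real.pi * (2 * u ^ 2)) *
          gk (s / 2 + 2 * u ^ 2) t) := mul_le_mul_of_nonneg_left h1 hss.le
      _ = Real.sqrt s * (20 / u ^ 2) * (Real.sqrt (2 * Real.pi * (2 * u ^ 2)) *
          gk (s / 2 + 2 * u ^ 2) t) := by ring
      _ ≤ Real.sqrt s * (20 / u ^ 2) * Real.exp (-t ^ 2 / (17 * w ^ 2)) :=
          mul_le_mul_of_nonneg_left h7 (by positivity)
      _ ≤ Real.sqrt s * (20 / w ^ 2) * Real.exp (-t ^ 2 / (17 * w ^ 2)) := by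
          gcongr
      _ = _ := by ring
  have h12 : |Real.sqrt s / u * (gk (s / 2) (t - u) + gk (s / 2) (t + u))| ≤
      Real.sqrt s / w * (gk (s / 2) (t - u) + gk (s / 2) (t + u)) := by
    have h13 := gk_pos hs2 (t - u)
    have h14 := gk_pos hs2 (t + u)
    rw [abs_of_nonneg (by positivity)]
    gcongr
  refine (abs_add_le _ _).trans ?_
  rw [abs_mul (Real.sqrt s) (∫ y, rDk u y * gk (s / 2) (t - y)), abs_of_pos hss]
  exact add_le_add h12 h11

/-- `e^{-(t-u)²/s} ≤ e^{1/4} e^{-t²/32w²}` for `|u| ≤ 2w`, `s ≤ w²`. -/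
private theorem k3_shift {w u s t : ℝ} (hs : 0 < s) (hw : 0 < w) (hsq : s ≤ w ^ 2)
    (hu : u ^ 2 ≤ 4 * w ^ 2) : t ^ 2 / (32 * w ^ 2) ≤ (t - u) ^ 2 / (16 * w ^ 2) + 1 / 4 ∧
      (t - u) ^ 2 / (16 * w ^ 2) ≤ (t - u) ^ 2 / (16 * s) := by
  constructor
  · rw [div_add_div _ _ (by positivity) (by norm_num), div_le_div_iff₀ (by positivity)
      (by positivity)]
    have h1 : t ^ 2 ≤ 2 * (t - u) ^ 2 + 2 * u ^ 2 := by nlinarith [sq_nonneg (t - 2 * u)]
    have hw2 : 0 < w ^ 2 := by positivity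
    nlinarith [mul_le_mul_of_nonneg_left (h1.trans (by linarith : 2 * (t - u) ^ 2 + 2 * u ^ 2 ≤
      2 * (t - u) ^ 2 + 8 * w ^ 2)) hw2.le]
  · apply div_le_div_of_nonneg_left (sq_nonneg _) (by positivity)
    linarith

/-- high frequencies, one jump: for `√s ≤ w ≤ u ≤ 2w`. -/
theorem gam_high : ∃ C : ℝ, 0 < C ∧ ∀ w u s : ℝ, 0 < s → Real.sqrt s ≤ w → w ≤ u → u ≤ 2 * w →
    (∀ t, |gam u s t| ≤ C / w * Real.exp (-t ^ 2 / (32 * w ^ 2))) ∧
    ∫⁻ t, ENNReal.ofReal (|gam u s t| * Real.exp (t ^ 2 / (32 * w ^ 2))) ≤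
      ENNReal.ofReal (C * (Real.sqrt s / w)) := by
  have hq : 0 < Real.exp (1 / 4) := Real.exp_pos _
  refine ⟨(2 * Real.exp (1 / 4) + 20) + (2 * (Real.exp (1 / 4) * Real.sqrt 2) +
    20 * Real.sqrt (40 * Real.pi)), by positivity, fun w u s hs hsw hwu huw => ?_⟩
  have hss : 0 < Real.sqrt s := Real.sqrt_pos.2 hs
  have hw : 0 < w := hss.trans_le hsw
  have hu : 0 < u := hw.trans_le hwu
  have hs2 : 0 < s / 2 := by positivity
  have hsq : s ≤ w ^ 2 := by
    have := mul_self_le_mul_self hss.le hsw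
    rwa [Real.mul_self_sqrt hs.le, ← pow_two] at this
  have hu4 : u ^ 2 ≤ 4 * w ^ 2 := by nlinarith
  have hu4' : (-u) ^ 2 ≤ 4 * w ^ 2 := by rw [neg_sq]; exact hu4
  have hw2 : 0 < w ^ 2 := by positivity
  -- the Gaussian factor
  have hg : ∀ x : ℝ, gk (s / 2) x = Real.exp (-(x ^ 2 / s)) / Real.sqrt (Real.pi * s) := by
    intro x
    unfold gk
    rw [show 2 * Real.pi * (s / 2) = Real.pi * s by ring, show 2 * (s / 2) = s by ring, neg_div]
  have hsp : 0 < Real.sqrt (Real.pi * s) := Real.sqrt_pos.2 (by positivity)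
  have hsp' : Real.sqrt s ≤ Real.sqrt (Real.pi * s) := by
    apply Real.sqrt_le_sqrt
    nlinarith [Real.pi_gt_three]
  constructor
  · intro t
    refine (k3_high_aux hs hsw hwu huw t).trans ?_
    have hone : ∀ v : ℝ, v ^ 2 ≤ 4 * w ^ 2 → Real.sqrt s * gk (s / 2) (t - v) ≤
        Real.exp (1 / 4) * Real.exp (-t ^ 2 / (32 * w ^ 2)) := by
      intro v hv
      obtain ⟨h1, h2⟩ := k3_shift (t := t) hs hw hsq hv
      have h3 : Real.exp (-((t - v) ^ 2 / s)) ≤
          Real.exp (1 / 4) * Real.exp (-t ^ 2 / (32 * w ^ 2)) := by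
        rw [← Real.exp_add]
        apply Real.exp_le_exp.2
        have h4 : (t - v) ^ 2 / (16 * s) ≤ (t - v) ^ 2 / s := by
          apply div_le_div_of_nonneg_left (sq_nonneg _) hs
          linarith
        rw [neg_div]
        linarith
      rw [hg, ← mul_div_assoc, div_le_iff₀ hsp]
      rw [mul_comm (Real.sqrt s)]
      exact mul_le_mul h3 hsp' hss.le (by positivity)
    have h1 := hone u hu4
    have h2 := hone (-u) hu4'
    rw [sub_neg_eq_add] at h2
    have h3 : Real.exp (-t ^ 2 / (17 * w ^ 2)) ≤ Real.exp (-t ^ 2 / (32 * w ^ 2)) := by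
      apply Real.exp_le_exp.2
      rw [neg_div, neg_div, neg_le_neg_iff]
      apply div_le_div_of_nonneg_left (sq_nonneg t) (by positivity)
      linarith
    have h4 : 20 * Real.sqrt s / w ^ 2 * Real.exp (-t ^ 2 / (17 * w ^ 2)) ≤
        20 / w * Real.exp (-t ^ 2 / (32 * w ^ 2)) := by
      apply mul_le_mul _ h3 (Real.exp_pos _).le (by positivity)
      rw [div_le_div_iff₀ hw2 hw, pow_two]
      have := mul_le_mul_of_nonneg_right hsw hw.le
      nlinarith
    have hE : 0 < Real.exp (-t ^ 2 / (32 * w ^ 2)) := Real.exp_pos _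
    calc Real.sqrt s / w * (gk (s / 2) (t - u) + gk (s / 2) (t + u)) +
        20 * Real.sqrt s / w ^ 2 * Real.exp (-t ^ 2 / (17 * w ^ 2))
        = (Real.sqrt s * gk (s / 2) (t - u) + Real.sqrt s * gk (s / 2) (t + u)) / w +
        20 * Real.sqrt s / w ^ 2 * Real.exp (-t ^ 2 / (17 * w ^ 2)) := by ring
      _ ≤ (Real.exp (1 / 4) * Real.exp (-t ^ 2 / (32 * w ^ 2)) +
          Real.exp (1 / 4) * Real.exp (-t ^ 2 / (32 * w ^ 2))) / w +
          20 / w * Real.exp (-t ^ 2 / (32 * w ^ 2)) := by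
        gcongr
      _ = (2 * Real.exp (1 / 4) + 20) / w * Real.exp (-t ^ 2 / (32 * w ^ 2)) := by ring
      _ ≤ _ := by
        apply mul_le_mul_of_nonneg_right _ hE.le
        apply div_le_div_of_nonneg_right _ hw.le
        have : 0 ≤ 2 * (Real.exp (1 / 4) * Real.sqrt 2) + 20 * Real.sqrt (40 * Real.pi) := by
          positivity
        linarith
  · -- the integrated bound
    have h20 : 0 < 20 * w ^ 2 := by positivity
    set α : ℝ := Real.sqrt s / w * (Real.exp (1 / 4) * Real.sqrt 2) with hα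
    set β : ℝ := 20 * Real.sqrt s / w ^ 2 * Real.sqrt (2 * Real.pi * (20 * w ^ 2)) with hβ
    have hα0 : 0 ≤ α := by positivity
    have hβ0 : 0 ≤ β := by positivity
    have hptw : ∀ t, |gam u s t| * Real.exp (t ^ 2 / (32 * w ^ 2)) ≤
        α * gk s (t - u) + α * gk s (t + u) + β * gk (20 * w ^ 2) t := by
      intro t
      have hE : 0 < Real.exp (t ^ 2 / (32 * w ^ 2)) := Real.exp_pos _
      have hone : ∀ v : ℝ, v ^ 2 ≤ 4 * w ^ 2 → gk (s / 2) (t - v) *
          Real.exp (t ^ 2 / (32 * w ^ 2)) ≤ Real.exp (1 / 4) * Real.sqrt 2 * gk s (t - v) := by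
        intro v hv
        obtain ⟨h1, h2⟩ := k3_shift (t := t) hs hw hsq hv
        have h3 : Real.exp (-((t - v) ^ 2 / s)) * Real.exp (t ^ 2 / (32 * w ^ 2)) ≤
            Real.exp (1 / 4) * Real.exp (-(t - v) ^ 2 / (2 * s)) := by
          rw [← Real.exp_add, ← Real.exp_add]
          apply Real.exp_le_exp.2
          have h4 : (t - v) ^ 2 / (16 * s) + (t - v) ^ 2 / (2 * s) ≤ (t - v) ^ 2 / s := by
            rw [div_add_div _ _ (by positivity) (by positivity), div_le_div_iff₀ (by positivity) hs]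
            nlinarith [sq_nonneg (t - v), mul_nonneg (sq_nonneg (t - v)) (mul_pos hs hs).le]
          rw [neg_div]
          linarith
        have h5 : gk s (t - v) = Real.exp (-(t - v) ^ 2 / (2 * s)) /
            (Real.sqrt 2 * Real.sqrt (Real.pi * s)) := by
          unfold gk
          rw [← Real.sqrt_mul (by norm_num)]
          congr 2
          ring
        rw [hg, h5]
        have h20 : 0 < Real.sqrt 2 := by positivity
        rw [div_mul_eq_mul_div, div_le_iff₀ hsp]
        calc _ ≤ _ := h3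
          _ = _ := by field_simp
      have h1 := hone u hu4
      have h2 := hone (-u) hu4'
      rw [sub_neg_eq_add] at h2
      have h3 : Real.exp (-t ^ 2 / (17 * w ^ 2)) * Real.exp (t ^ 2 / (32 * w ^ 2)) ≤
          Real.sqrt (2 * Real.pi * (20 * w ^ 2)) * gk (20 * w ^ 2) t := by
        rw [← k3_exp_eq h20, ← Real.exp_add]
        apply Real.exp_le_exp.2
        have h4 : t ^ 2 / (32 * w ^ 2) + t ^ 2 / (2 * (20 * w ^ 2)) ≤ t ^ 2 / (17 * w ^ 2) := by
          rw [div_add_div _ _ (by positivity) (by positivity),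
            div_le_div_iff₀ (by positivity) (by positivity)]
          have h5 : 0 ≤ t ^ 2 * (w ^ 2 * w ^ 2) := by positivity
          nlinarith
        rw [neg_div, neg_div]
        linarith
      calc |gam u s t| * Real.exp (t ^ 2 / (32 * w ^ 2))
          ≤ (Real.sqrt s / w * (gk (s / 2) (t - u) + gk (s / 2) (t + u)) +
            20 * Real.sqrt s / w ^ 2 * Real.exp (-t ^ 2 / (17 * w ^ 2))) *
            Real.exp (t ^ 2 / (32 * w ^ 2)) :=
            mul_le_mul_of_nonneg_right (k3_high_aux hs hsw hwu huw t) hE.le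
        _ = Real.sqrt s / w * (gk (s / 2) (t - u) * Real.exp (t ^ 2 / (32 * w ^ 2)) +
            gk (s / 2) (t + u) * Real.exp (t ^ 2 / (32 * w ^ 2))) +
            20 * Real.sqrt s / w ^ 2 * (Real.exp (-t ^ 2 / (17 * w ^ 2)) *
            Real.exp (t ^ 2 / (32 * w ^ 2))) := by ring
        _ ≤ Real.sqrt s / w * (Real.exp (1 / 4) * Real.sqrt 2 * gk s (t - u) +
            Real.exp (1 / 4) * Real.sqrt 2 * gk s (t + u)) +
            20 * Real.sqrt s / w ^ 2 * (Real.sqrt (2 * Real.pi * (20 * w ^ 2)) *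
            gk (20 * w ^ 2) t) := by
            gcongr
        _ = _ := by rw [hα, hβ]; ring
    have i1 : Integrable (fun t => α * gk s (t - u)) :=
      ((integrable_gk hs).comp_sub_right u).const_mul _
    have i2 : Integrable (fun t => α * gk s (t + u)) :=
      ((integrable_gk hs).comp_add_right u).const_mul _
    have i3 : Integrable (fun t => β * gk (20 * w ^ 2) t) := (integrable_gk h20).const_mul _
    have i12 : Integrable (fun t => α * gk s (t - u) + α * gk s (t + u)) := i1.add i2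
    have i123 : Integrable (fun t => α * gk s (t - u) + α * gk s (t + u) +
      β * gk (20 * w ^ 2) t) := i12.add i3
    have hval : ∫ t, (α * gk s (t - u) + α * gk s (t + u) + β * gk (20 * w ^ 2) t) =
        α + α + β := by
      rw [integral_add i12 i3, integral_add i1 i2, integral_const_mul, integral_const_mul,
        integral_const_mul, integral_sub_right_eq_self (gk s) u,
        integral_add_right_eq_self (gk s) u, integral_gk hs, integral_gk h20]
      ring
    calc ∫⁻ t, ENNReal.ofReal (|gam u s t| * Real.exp (t ^ 2 / (32 * w ^ 2)))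
        ≤ ∫⁻ t, ENNReal.ofReal (α * gk s (t - u) + α * gk s (t + u) + β * gk (20 * w ^ 2) t) :=
          lintegral_mono fun t => ENNReal.ofReal_le_ofReal (hptw t)
      _ = ENNReal.ofReal (∫ t, (α * gk s (t - u) + α * gk s (t + u) +
            β * gk (20 * w ^ 2) t)) := by
          rw [ofReal_integral_eq_lintegral_ofReal i123]
          exact ae_of_all _ fun t => by
            have h1 := gk_pos hs (t - u)
            have h2 := gk_pos hs (t + u)
            have h3 := gk_pos h20 t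
            show 0 ≤ _
            positivity
      _ ≤ _ := by
          rw [hval]
          apply ENNReal.ofReal_le_ofReal
          have hβ' : β = 20 * Real.sqrt (40 * Real.pi) * (Real.sqrt s / w) := by
            have h5 : Real.sqrt (2 * Real.pi * (20 * w ^ 2)) = Real.sqrt (40 * Real.pi) * w := by
              rw [show 2 * Real.pi * (20 * w ^ 2) = (40 * Real.pi) * w ^ 2 by ring,
                Real.sqrt_mul (by positivity), Real.sqrt_sq hw.le]
            rw [hβ, h5]
            field_simp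
          rw [hβ', hα]
          have h6 : 0 ≤ Real.sqrt s / w := by positivity
          nlinarith [mul_nonneg h6 hq.le]

/-- low frequencies, one jump: `u ≤ √s` (`gam u s t = ∫_0^u dgam`, `abs_dgam_low`). -/
theorem gam_low : ∃ C : ℝ, 0 < C ∧ ∀ u s : ℝ, 0 < u → u ≤ Real.sqrt s →
    (∀ t, |gam u s t| ≤ C * (u / s) * Real.exp (-t ^ 2 / (8 * s))) ∧
    ∫⁻ t, ENNReal.ofReal (|gam u s t| * Real.exp (t ^ 2 / (32 * s))) ≤
      ENNReal.ofReal (C * (u / Real.sqrt s)) := by
  obtain ⟨C, hC, hd⟩ := abs_dgam_low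
  refine ⟨C + C * Real.sqrt (2 * Real.pi * 6), by positivity, fun u s hu hus => ?_⟩
  have hss : 0 < Real.sqrt s := hu.trans_le hus
  have hs : 0 < s := Real.sqrt_pos.1 hss
  have hb : ∀ t, |gam u s t| ≤ C * (u / s) * Real.exp (-t ^ 2 / (8 * s)) := by
    intro t
    set D : ℝ := C / s * Real.exp (-t ^ 2 / (8 * s)) with hD
    have hD0 : 0 < D := by positivity
    have h1 : ∀ ε : ℝ, 0 < ε → ε ≤ u → |gam u s t - gam ε s t| ≤ D * u := by
      intro ε hε hεu
      have h2 := Convex.norm_image_sub_le_of_norm_hasDerivWithin_le (f := fun u => gam u s t)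
        (f' := fun u => dgam u s t) (s := Icc ε u) (C := D)
        (fun x hx => (hasDerivAt_gam (hε.trans_le hx.1) hs t).hasDerivWithinAt)
        (fun x hx => by
          rw [Real.norm_eq_abs]
          exact hd x s t (hε.trans_le hx.1) (hx.2.trans hus))
        (convex_Icc ε u) (left_mem_Icc.2 hεu) (right_mem_Icc.2 hεu)
      rw [Real.norm_eq_abs, Real.norm_eq_abs, abs_of_nonneg (show 0 ≤ u - ε by linarith)] at h2
      refine h2.trans ?_
      nlinarith
    have h3 : Tendsto (fun ε => |gam u s t - gam ε s t|) (𝓝[>] 0) (𝓝 |gam u s t - 0|) :=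
      ((tendsto_const_nhds.sub (gam_tendsto_zero hs t))).abs
    have h4 : |gam u s t - 0| ≤ D * u := by
      refine le_of_tendsto h3 ?_
      filter_upwards [Ioc_mem_nhdsGT hu] with ε hε
      exact h1 ε hε.1 hε.2
    rw [sub_zero] at h4
    refine h4.trans (le_of_eq ?_)
    rw [hD]
    ring
  refine ⟨fun t => ?_, ?_⟩
  · refine (hb t).trans ?_
    have : 0 ≤ C * Real.sqrt (2 * Real.pi * 6) := by positivity
    gcongr
    linarith
  · have h6 : 0 < 6 * s := by positivity
    set β : ℝ := C * (u / s) * Real.sqrt (2 * Real.pi * (6 * s)) with hβ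
    have hβ0 : 0 ≤ β := by positivity
    have hptw : ∀ t, |gam u s t| * Real.exp (t ^ 2 / (32 * s)) ≤ β * gk (6 * s) t := by
      intro t
      have h1 : Real.exp (-t ^ 2 / (8 * s)) * Real.exp (t ^ 2 / (32 * s)) ≤
          Real.sqrt (2 * Real.pi * (6 * s)) * gk (6 * s) t := by
        rw [← k3_exp_eq h6, ← Real.exp_add]
        apply Real.exp_le_exp.2
        have h4 : t ^ 2 / (32 * s) + t ^ 2 / (2 * (6 * s)) ≤ t ^ 2 / (8 * s) := by
          rw [div_add_div _ _ (by positivity) (by positivity),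
            div_le_div_iff₀ (by positivity) (by positivity)]
          have h5 : 0 ≤ t ^ 2 * (s * s) := by positivity
          nlinarith
        rw [neg_div, neg_div]
        linarith
      calc |gam u s t| * Real.exp (t ^ 2 / (32 * s))
          ≤ (C * (u / s) * Real.exp (-t ^ 2 / (8 * s))) * Real.exp (t ^ 2 / (32 * s)) :=
            mul_le_mul_of_nonneg_right (hb t) (Real.exp_pos _).le
        _ = C * (u / s) * (Real.exp (-t ^ 2 / (8 * s)) * Real.exp (t ^ 2 / (32 * s))) := by ring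
        _ ≤ C * (u / s) * (Real.sqrt (2 * Real.pi * (6 * s)) * gk (6 * s) t) :=
            mul_le_mul_of_nonneg_left h1 (by positivity)
        _ = _ := by rw [hβ]; ring
    have i3 : Integrable (fun t => β * gk (6 * s) t) := (integrable_gk h6).const_mul _
    calc ∫⁻ t, ENNReal.ofReal (|gam u s t| * Real.exp (t ^ 2 / (32 * s)))
        ≤ ∫⁻ t, ENNReal.ofReal (β * gk (6 * s) t) :=
          lintegral_mono fun t => ENNReal.ofReal_le_ofReal (hptw t)
      _ = ENNReal.ofReal (∫ t, β * gk (6 * s) t) := by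
          rw [ofReal_integral_eq_lintegral_ofReal i3]
          exact ae_of_all _ fun t => mul_nonneg hβ0 (gk_pos h6 t).le
      _ ≤ _ := by
          rw [integral_const_mul, integral_gk h6]
          apply ENNReal.ofReal_le_ofReal
          have hβ' : β = C * Real.sqrt (2 * Real.pi * 6) * (u / Real.sqrt s) := by
            have h5 : Real.sqrt (2 * Real.pi * (6 * s)) =
                Real.sqrt (2 * Real.pi * 6) * Real.sqrt s := by
              rw [← Real.sqrt_mul (by positivity)]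
              congr 1
              ring
            have h7 : u / s = u / (Real.sqrt s * Real.sqrt s) := by rw [Real.mul_self_sqrt hs.le]
            rw [hβ, h5, h7]
            field_simp
          rw [hβ']
          have h6 : 0 ≤ u / Real.sqrt s := by positivity
          nlinarith [mul_nonneg h6 hC.le]

/-! ### jump data -/

private theorem k3_lower {N Q n : ℕ} (J : JumpData N Q n) (k₂ k₀ : Fin (2 * N))
    (T : Finset (Fin Q)) (hT : ∀ q ∈ T, ∀ q' ≤ q, q' ∈ T) : |∑ q ∈ T, J.a q k₂ k₀| ≤ 1 := by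
  classical
  rcases T.eq_empty_or_nonempty with rfl | hne
  · simp
  · have h1 : T = Finset.Iic (T.max' hne) := by
      ext q
      rw [Finset.mem_Iic]
      exact ⟨fun h => Finset.le_max' T q h, fun h => hT _ (Finset.max'_mem T hne) q h⟩
    rw [h1]
    exact J.partial_le k₂ k₀ _

private theorem k3_lt {N Q n : ℕ} (J : JumpData N Q n) (k₂ k₀ : Fin (2 * N)) (p : ℝ → Prop)
    [DecidablePred p] (hp : ∀ x y, x ≤ y → p y → p x) :
    |∑ q ∈ Finset.univ.filter (fun q => p (J.r q)), J.a q k₂ k₀| ≤ 1 := by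
  apply k3_lower
  intro q hq q' hq'
  rw [Finset.mem_filter] at hq ⊢
  exact ⟨Finset.mem_univ _, hp _ _ (J.r_mono.monotone hq') hq.2⟩

private theorem k3_a_le {N Q n : ℕ} (J : JumpData N Q n) (k₂ k₀ : Fin (2 * N)) (q : Fin Q) :
    |J.a q k₂ k₀| ≤ 2 := by
  classical
  have h1 := k3_lower J k₂ k₀ (Finset.Iic q) (fun a ha b hb =>
    Finset.mem_Iic.2 (hb.trans (Finset.mem_Iic.1 ha)))
  have h2 := k3_lower J k₂ k₀ (Finset.Iio q) (fun a ha b hb =>
    Finset.mem_Iio.2 (hb.trans_lt (Finset.mem_Iio.1 ha)))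
  have h3 : Finset.Iic q = insert q (Finset.Iio q) := by
    ext x
    rw [Finset.mem_insert, Finset.mem_Iic, Finset.mem_Iio, le_iff_eq_or_lt]
  rw [h3, Finset.sum_insert (by simp)] at h1
  rw [abs_le] at h1 h2 ⊢
  constructor <;> linarith [h1.1, h1.2, h2.1, h2.2]

/-- Abel summation -/
private theorem k3_abel {κ : Type*} (S : Finset κ) (a r : κ → ℝ) (g g' : ℝ → ℝ) {α β B : ℝ}
    (hαβ : α ≤ β) (hr : ∀ q ∈ S, α ≤ r q ∧ r q ≤ β)
    (hg : ∀ u ∈ Icc α β, HasDerivAt g (g' u) u) (hc : ContinuousOn g' (Icc α β))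
    (hB : ∀ u, |∑ q ∈ S with r q < u, a q| ≤ B) :
    |∑ q ∈ S, a q * g (r q)| ≤ B * |g β| + B * ∫ u in α..β, |g' u| := by
  classical
  have hB0 : 0 ≤ B := (abs_nonneg _).trans (hB 0)
  have hint : IntegrableOn g' (Ioc α β) :=
    (hc.integrableOn_compact isCompact_Icc).mono_set Ioc_subset_Icc_self
  have h1 : ∀ q ∈ S, g (r q) = g β - ∫ u in Ioc α β, (Ioi (r q)).indicator g' u := by
    intro q hq
    obtain ⟨ha, hb⟩ := hr q hq
    have h2 : ∫ u in (r q)..β, g' u = g β - g (r q) := by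
      apply intervalIntegral.integral_eq_sub_of_hasDerivAt
      · intro x hx
        rw [uIcc_of_le hb] at hx
        exact hg x ⟨ha.trans hx.1, hx.2⟩
      · apply ContinuousOn.intervalIntegrable
        rw [uIcc_of_le hb]
        exact hc.mono (Icc_subset_Icc_left ha)
    rw [setIntegral_indicator measurableSet_Ioi, Ioc_inter_Ioi, sup_eq_right.2 ha,
      ← intervalIntegral.integral_of_le hb, h2]
    ring
  have h3 : ∑ q ∈ S, a q * g (r q) = (∑ q ∈ S, a q) * g β -
      ∫ u in Ioc α β, ∑ q ∈ S, a q * (Ioi (r q)).indicator g' u := by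
    rw [integral_finsetSum]
    · rw [Finset.sum_mul, ← Finset.sum_sub_distrib]
      refine Finset.sum_congr rfl fun q hq => ?_
      rw [integral_const_mul, h1 q hq]
      ring
    · intro q _
      exact (hint.indicator measurableSet_Ioi).const_mul _
  have h4 : ∀ u, ∑ q ∈ S, a q * (Ioi (r q)).indicator g' u =
      (∑ q ∈ S with r q < u, a q) * g' u := by
    intro u
    rw [Finset.sum_filter, Finset.sum_mul]
    refine Finset.sum_congr rfl fun q _ => ?_
    by_cases h : r q < u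
    · rw [indicator_of_mem (mem_Ioi.2 h), if_pos h]
    · rw [indicator_of_notMem (by simpa using h), if_neg h]
      ring
  have h5 : |∫ u in Ioc α β, ∑ q ∈ S, a q * (Ioi (r q)).indicator g' u| ≤
      ∫ u in Ioc α β, B * |g' u| := by
    rw [← Real.norm_eq_abs]
    refine norm_integral_le_of_norm_le (hint.abs.const_mul B) (ae_of_all _ fun u => ?_)
    rw [h4 u, Real.norm_eq_abs, abs_mul]
    exact mul_le_mul_of_nonneg_right (hB u) (abs_nonneg _)
  have h6 : |∑ q ∈ S, a q| ≤ B := by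
    have h7 := hB (β + 1)
    rwa [Finset.filter_true_of_mem (fun q hq => by linarith [(hr q hq).2])] at h7
  rw [h3]
  refine (abs_sub _ _).trans ?_
  rw [abs_mul, intervalIntegral.integral_of_le hαβ, ← integral_const_mul]
  exact add_le_add (mul_le_mul_of_nonneg_right h6 (abs_nonneg _)) h5

/-- sup bound of the octave sums: Abel summation: with `w = 2^j √s`,
`∑_{q ∈ oct} a_q gam(r_q) = M(2w) gam(2w) - ∫_w^{2w} M(u) dgam(u) du`, `M(u) = ∑_{q ∈ oct, r_q ≤ u} a_q`,
`|M| ≤ 2` by `J.partial_le`; `gam_high` and `integral_dgam_high`. -/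
theorem octG_sup : ∃ C : ℝ, 0 < C ∧ ∀ (N Q n : ℕ) (J : JumpData N Q n) (j : ℕ) (s : ℝ), 0 < s →
    ∀ k₂ k₀ t, |octG J j s k₂ k₀ t| ≤
      C / (2 ^ j * Real.sqrt s) * Real.exp (-t ^ 2 / (32 * (2 ^ j) ^ 2 * s)) := by
  classical
  obtain ⟨C₁, hC₁, h₁⟩ := gam_high
  obtain ⟨C₂, hC₂, h₂⟩ := integral_dgam_high
  refine ⟨2 * C₁ + 2 * C₂, by positivity, fun N Q n J j s hs k₂ k₀ t => ?_⟩
  have hss : 0 < Real.sqrt s := Real.sqrt_pos.2 hs
  have hj : (1 : ℝ) ≤ 2 ^ j := one_le_pow₀ (by norm_num)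
  obtain ⟨w, hwdef⟩ : ∃ w, w = 2 ^ j * Real.sqrt s := ⟨_, rfl⟩
  have hsw : Real.sqrt s ≤ w := by rw [hwdef]; nlinarith
  have hw : 0 < w := hss.trans_le hsw
  have h2w : 2 ^ (j + 1) * Real.sqrt s = 2 * w := by rw [hwdef]; ring
  have hww : 32 * (2 ^ j) ^ 2 * s = 32 * w ^ 2 := by
    rw [hwdef, mul_pow, Real.sq_sqrt hs.le]
    ring
  have e1 : octG J j s k₂ k₀ t = ∑ q ∈ Finset.univ.filter (fun q => w ≤ J.r q ∧ J.r q < 2 * w),
      J.a q k₂ k₀ * gam (J.r q) s t := by
    unfold octG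
    rw [Finset.sum_filter, h2w, ← hwdef]
  rw [e1, ← hwdef, hww]
  have hB : ∀ u : ℝ, |∑ q ∈ (Finset.univ.filter (fun q => w ≤ J.r q ∧ J.r q < 2 * w)) with
      J.r q < u, J.a q k₂ k₀| ≤ 2 := by
    intro u
    have ha := k3_lt J k₂ k₀ (fun x => x < 2 * w ∧ x < u)
      (fun x y hxy h => ⟨hxy.trans_lt h.1, hxy.trans_lt h.2⟩)
    have hb := k3_lt J k₂ k₀ (fun x => (x < 2 * w ∧ x < u) ∧ x < w)
      (fun x y hxy h => ⟨⟨hxy.trans_lt h.1.1, hxy.trans_lt h.1.2⟩, hxy.trans_lt h.2⟩)
    have hc := Finset.sum_filter_add_sum_filter_not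
      (Finset.univ.filter (fun q => J.r q < 2 * w ∧ J.r q < u)) (fun q => J.r q < w)
      (fun q => J.a q k₂ k₀)
    have e2 : (Finset.univ.filter (fun q => J.r q < 2 * w ∧ J.r q < u)).filter
        (fun q => J.r q < w) =
        Finset.univ.filter (fun q => (J.r q < 2 * w ∧ J.r q < u) ∧ J.r q < w) := by
      ext q
      simp
    have e3 : (Finset.univ.filter (fun q => J.r q < 2 * w ∧ J.r q < u)).filter
        (fun q => ¬ J.r q < w) =
        (Finset.univ.filter (fun q => w ≤ J.r q ∧ J.r q < 2 * w)).filter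
          (fun q => J.r q < u) := by
      ext q
      simp only [Finset.mem_filter, Finset.mem_univ, true_and, not_lt]
      tauto
    rw [e2, e3] at hc
    rw [abs_le] at ha hb ⊢
    constructor <;> linarith [ha.1, ha.2, hb.1, hb.2]
  have h3 := k3_abel (Finset.univ.filter (fun q => w ≤ J.r q ∧ J.r q < 2 * w))
    (fun q => J.a q k₂ k₀) J.r (fun u => gam u s t) (fun u => dgam u s t)
    (α := w) (β := 2 * w) (B := 2) (by linarith)
    (fun q hq => by
      rw [Finset.mem_filter] at hq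
      exact ⟨hq.2.1, hq.2.2.le⟩)
    (fun u hu => hasDerivAt_gam (hw.trans_le hu.1) hs t)
    ((continuousOn_dgam hs t).mono fun u hu => hw.trans_le hu.1) hB
  refine h3.trans ?_
  have h4 := (h₁ w (2 * w) s hs hsw (by linarith) le_rfl).1 t
  have h5 := h₂ w s t hs hsw
  calc 2 * |gam (2 * w) s t| + 2 * ∫ u in w..(2 * w), |dgam u s t|
      ≤ 2 * (C₁ / w * Real.exp (-t ^ 2 / (32 * w ^ 2))) +
        2 * (C₂ / w * Real.exp (-t ^ 2 / (32 * w ^ 2))) := by linarith
    _ = _ := by ring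

/-- sup bound of the low sum -/
theorem lowG_sup : ∃ C : ℝ, 0 < C ∧ ∀ (N Q n : ℕ) (J : JumpData N Q n) (s : ℝ), 0 < s →
    ∀ k₂ k₀ t, |lowG J s k₂ k₀ t| ≤ C / Real.sqrt s * Real.exp (-t ^ 2 / (32 * s)) := by
  classical
  obtain ⟨C₁, hC₁, h₁⟩ := gam_low
  obtain ⟨C₂, hC₂, h₂⟩ := abs_dgam_low
  refine ⟨C₁ + C₂, by positivity, fun N Q n J s hs k₂ k₀ t => ?_⟩
  have hss : 0 < Real.sqrt s := Real.sqrt_pos.2 hs
  have e1 : lowG J s k₂ k₀ t = ∑ q ∈ Finset.univ.filter (fun q => J.r q < Real.sqrt s),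
      J.a q k₂ k₀ * gam (J.r q) s t := by
    unfold lowG
    rw [Finset.sum_filter]
  obtain ⟨α, hα0, hαs, hα⟩ : ∃ α : ℝ, 0 < α ∧ α ≤ Real.sqrt s ∧ ∀ q, α ≤ J.r q := by
    rcases Nat.eq_zero_or_pos Q with hQ | hQ
    · exact ⟨Real.sqrt s, hss, le_rfl, fun q => by
        subst hQ
        exact q.elim0⟩
    · refine ⟨min (J.r ⟨0, hQ⟩) (Real.sqrt s), lt_min (J.r_pos _) hss, min_le_right _ _,
        fun q => (min_le_left _ _).trans (J.r_mono.monotone ?_)⟩
      exact Nat.zero_le _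
  have hB : ∀ u : ℝ, |∑ q ∈ (Finset.univ.filter (fun q => J.r q < Real.sqrt s)) with
      J.r q < u, J.a q k₂ k₀| ≤ 1 := by
    intro u
    have ha := k3_lt J k₂ k₀ (fun x => x < Real.sqrt s ∧ x < u)
      (fun x y hxy h => ⟨hxy.trans_lt h.1, hxy.trans_lt h.2⟩)
    rw [Finset.filter_filter]
    exact ha
  have h3 := k3_abel (Finset.univ.filter (fun q => J.r q < Real.sqrt s))
    (fun q => J.a q k₂ k₀) J.r (fun u => gam u s t) (fun u => dgam u s t)
    (α := α) (β := Real.sqrt s) (B := 1) hαs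
    (fun q hq => by
      rw [Finset.mem_filter] at hq
      exact ⟨hα q, hq.2.le⟩)
    (fun u hu => hasDerivAt_gam (hα0.trans_le hu.1) hs t)
    ((continuousOn_dgam hs t).mono fun u hu => hα0.trans_le hu.1) hB
  rw [e1]
  refine h3.trans ?_
  have h4 := (h₁ (Real.sqrt s) s hss le_rfl).1 t
  have h5 : ‖∫ u in α..(Real.sqrt s), |dgam u s t|‖ ≤
      (C₂ / s * Real.exp (-t ^ 2 / (8 * s))) * |Real.sqrt s - α| := by
    apply intervalIntegral.norm_integral_le_of_norm_le_const
    intro x hx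
    rw [uIoc_of_le hαs] at hx
    rw [Real.norm_eq_abs, abs_abs]
    exact h₂ x s t (hα0.trans hx.1) hx.2
  have h6 : |Real.sqrt s - α| ≤ Real.sqrt s := by
    rw [abs_of_nonneg (by linarith)]
    linarith
  have h7 : ∫ u in α..(Real.sqrt s), |dgam u s t| ≤
      (C₂ / s * Real.exp (-t ^ 2 / (8 * s))) * Real.sqrt s :=
    (le_abs_self _).trans (h5.trans (mul_le_mul_of_nonneg_left h6 (by positivity)))
  have h8 : Real.exp (-t ^ 2 / (8 * s)) ≤ Real.exp (-t ^ 2 / (32 * s)) := by
    apply Real.exp_le_exp.2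
    rw [neg_div, neg_div, neg_le_neg_iff]
    apply div_le_div_of_nonneg_left (sq_nonneg t) (by positivity)
    linarith
  have h9 : Real.sqrt s / s = 1 / Real.sqrt s := by
    rw [div_eq_div_iff hs.ne' hss.ne', one_mul]
    exact Real.mul_self_sqrt hs.le
  calc 1 * |gam (Real.sqrt s) s t| + 1 * ∫ u in α..(Real.sqrt s), |dgam u s t|
      ≤ C₁ * (Real.sqrt s / s) * Real.exp (-t ^ 2 / (8 * s)) +
        (C₂ / s * Real.exp (-t ^ 2 / (8 * s))) * Real.sqrt s := by linarith
    _ = (C₁ + C₂) * (Real.sqrt s / s) * Real.exp (-t ^ 2 / (8 * s)) := by ring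
    _ = (C₁ + C₂) / Real.sqrt s * Real.exp (-t ^ 2 / (8 * s)) := by rw [h9]; ring
    _ ≤ _ := mul_le_mul_of_nonneg_left h8 (by positivity)

private theorem k3_rpow_sum {κ : Type*} (S : Finset κ) (f : κ → ℝ≥0∞) :
    (∑ q ∈ S, f q) ^ (1 / 2 : ℝ) ≤ ∑ q ∈ S, f q ^ (1 / 2 : ℝ) := by
  classical
  induction S using Finset.induction_on with
  | empty => simp
  | insert a S ha ih =>
    rw [Finset.sum_insert ha, Finset.sum_insert ha]
    exact (ENNReal.rpow_add_le_add_rpow _ _ (by norm_num) (by norm_num)).trans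
      (add_le_add_right ih _)

/-- the general counting bound -/
private theorem k3_count {N Q n : ℕ} (J : JumpData N Q n) (k₂ k₀ : Fin (2 * N))
    (cond : ℝ → Fin Q → Prop) [∀ s q, Decidable (cond s q)] (E : ℝ → ℝ → ℝ)
    (hE0 : ∀ s t, 0 ≤ E s t) (hEm : ∀ s, Measurable (E s)) (c : ℝ → Fin Q → ℝ)
    (hc0 : ∀ s q, 0 < s → 0 ≤ c s q)
    (hc : ∀ s q, 0 < s → cond s q →
      ∫⁻ t, ENNReal.ofReal (|gam (J.r q) s t| * E s t) ≤ ENNReal.ofReal (c s q))
    (K : ℝ≥0∞)
    (hmeas : ∀ q, Measurable (fun s => if cond s q then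
      ENNReal.ofReal (1 / s * (2 * c s q) ^ (1 / 2 : ℝ)) else 0))
    (hK : ∀ q, ∫⁻ s in Ioi (0 : ℝ), (if cond s q then
      ENNReal.ofReal (1 / s * (2 * c s q) ^ (1 / 2 : ℝ)) else 0) ≤ K) :
    ∫⁻ s in Ioi (0 : ℝ), ENNReal.ofReal (1 / s) *
      (∫⁻ t, ENNReal.ofReal (|∑ q, if cond s q then J.a q k₂ k₀ * gam (J.r q) s t else 0| *
        E s t)) ^ (1 / 2 : ℝ) ≤ 2 * n * K := by
  classical
  have hpt : ∀ s ∈ Ioi (0 : ℝ), ENNReal.ofReal (1 / s) *
      (∫⁻ t, ENNReal.ofReal (|∑ q, if cond s q then J.a q k₂ k₀ * gam (J.r q) s t else 0| *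
        E s t)) ^ (1 / 2 : ℝ) ≤
      ∑ q ∈ Finset.univ.filter (fun q => J.a q k₂ k₀ ≠ 0), (if cond s q then
        ENNReal.ofReal (1 / s * (2 * c s q) ^ (1 / 2 : ℝ)) else 0) := by
    intro s hs
    have hs : 0 < s := hs
    have h1 : ∀ t, ENNReal.ofReal (|∑ q, if cond s q then J.a q k₂ k₀ * gam (J.r q) s t else 0| *
        E s t) ≤ ∑ q, (if cond s q then ENNReal.ofReal |J.a q k₂ k₀| *
          ENNReal.ofReal (|gam (J.r q) s t| * E s t) else 0) := by
      intro t
      have h2 : |∑ q, if cond s q then J.a q k₂ k₀ * gam (J.r q) s t else 0| * E s t ≤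
          ∑ q, if cond s q then |J.a q k₂ k₀| * (|gam (J.r q) s t| * E s t) else 0 := by
        refine (mul_le_mul_of_nonneg_right (Finset.abs_sum_le_sum_abs _ _) (hE0 s t)).trans ?_
        rw [Finset.sum_mul]
        refine Finset.sum_le_sum fun q _ => ?_
        split_ifs
        · rw [abs_mul, mul_assoc]
        · simp
      refine (ENNReal.ofReal_le_ofReal h2).trans ?_
      rw [ENNReal.ofReal_sum_of_nonneg]
      · refine Finset.sum_le_sum fun q _ => ?_
        split_ifs
        · rw [ENNReal.ofReal_mul (abs_nonneg _)]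
        · simp
      · intro q _
        split_ifs
        · exact mul_nonneg (abs_nonneg _) (mul_nonneg (abs_nonneg _) (hE0 s t))
        · exact le_rfl
    have hm : ∀ q, Measurable (fun t => ENNReal.ofReal (|gam (J.r q) s t| * E s t)) := by
      intro q
      have hg : Measurable (fun t => gam (J.r q) s t) := k3_measurable_gam hs
      exact (hg.abs.mul (hEm s)).ennreal_ofReal
    have h3 : ∫⁻ t, ENNReal.ofReal
        (|∑ q, if cond s q then J.a q k₂ k₀ * gam (J.r q) s t else 0| * E s t) ≤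
        ∑ q, (if cond s q ∧ J.a q k₂ k₀ ≠ 0 then ENNReal.ofReal (2 * c s q) else 0) := by
      refine (lintegral_mono h1).trans ?_
      rw [lintegral_finsetSum]
      · refine Finset.sum_le_sum fun q _ => ?_
        by_cases hq : cond s q
        · simp only [hq, if_true, true_and]
          rw [lintegral_const_mul _ (hm q)]
          by_cases ha : J.a q k₂ k₀ = 0
          · simp [ha]
          · rw [if_pos ha, ENNReal.ofReal_mul (by norm_num)]
            exact mul_le_mul' (ENNReal.ofReal_le_ofReal (k3_a_le J k₂ k₀ q)) (hc s q hs hq)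
        · simp [hq]
      · intro q _
        by_cases hq : cond s q
        · simp only [hq, if_true]
          exact (hm q).const_mul _
        · simp only [hq, if_false]
          exact measurable_const
    have h4 : (∫⁻ t, ENNReal.ofReal
        (|∑ q, if cond s q then J.a q k₂ k₀ * gam (J.r q) s t else 0| * E s t)) ^ (1 / 2 : ℝ) ≤
        ∑ q ∈ Finset.univ.filter (fun q => J.a q k₂ k₀ ≠ 0), (if cond s q then
          ENNReal.ofReal ((2 * c s q) ^ (1 / 2 : ℝ)) else 0) := by
      refine (ENNReal.rpow_le_rpow h3 (by norm_num)).trans ?_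
      refine (k3_rpow_sum _ _).trans ?_
      rw [Finset.sum_filter]
      refine Finset.sum_le_sum fun q _ => ?_
      by_cases ha : J.a q k₂ k₀ = 0
      · simp [ha]
      · by_cases hq : cond s q
        · simp only [hq, ha, ne_eq, not_false_eq_true, and_self, if_true]
          rw [ENNReal.ofReal_rpow_of_nonneg (by have := hc0 s q hs; positivity) (by norm_num)]
        · simp [hq]
    refine (mul_le_mul_right h4 _).trans ?_
    rw [Finset.mul_sum]
    refine Finset.sum_le_sum fun q _ => ?_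
    split_ifs
    · rw [← ENNReal.ofReal_mul (by positivity)]
    · simp
  refine (setLIntegral_mono' measurableSet_Ioi hpt).trans ?_
  rw [lintegral_finsetSum _ (fun q _ => hmeas q)]
  refine (Finset.sum_le_card_nsmul _ _ K fun q _ => hK q).trans ?_
  rw [nsmul_eq_mul]
  apply mul_le_mul_left
  have := J.count k₂ k₀
  exact_mod_cast this

/-- integrated counting bound: `(∫ |octG| e^{…})^{1/2} ≤ C 2^{-j/2} #{q : a_q ≠ 0, r_q ∈ oct}` and
`∫ ds/s 1_{2^j√s ≤ r < 2^{j+1}√s} = log 4`. -/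
theorem octG_count : ∃ C : ℝ, 0 < C ∧ ∀ (N Q n : ℕ) (J : JumpData N Q n) (j : ℕ) (k₂ k₀ : Fin (2 * N)),
    ∫⁻ s in Ioi (0 : ℝ), ENNReal.ofReal (1 / s) *
        (∫⁻ t, ENNReal.ofReal (|octG J j s k₂ k₀ t| * Real.exp (t ^ 2 / (32 * (2 ^ j) ^ 2 * s)))) ^ (1 / 2 : ℝ) ≤
      ENNReal.ofReal (C * n * (2 : ℝ) ^ (-(j : ℝ) / 2)) := by
  classical
  obtain ⟨C, hC, h⟩ := gam_high
  refine ⟨6 * (2 * C) ^ (1 / 2 : ℝ), by positivity, fun N Q n J j k₂ k₀ => ?_⟩
  have h2j : (0 : ℝ) < 2 ^ j := by positivity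
  have hj : (1 : ℝ) ≤ 2 ^ j := one_le_pow₀ (by norm_num)
  have hconst : (2 * (C / 2 ^ j)) ^ (1 / 2 : ℝ) =
      (2 * C) ^ (1 / 2 : ℝ) * (2 : ℝ) ^ (-(j : ℝ) / 2) := by
    have e1 : (2 * (C / 2 ^ j) : ℝ) = (2 * C) * (2 : ℝ) ^ (-(j : ℝ)) := by
      rw [Real.rpow_neg (by norm_num), Real.rpow_natCast]
      ring
    rw [e1, Real.mul_rpow (by positivity) (by positivity), ← Real.rpow_mul (by norm_num)]
    congr 2
    ring
  have hcond : ∀ (s : ℝ) (q : Fin Q), 0 < s →
      (2 ^ j * Real.sqrt s ≤ J.r q ∧ J.r q < 2 ^ (j + 1) * Real.sqrt s) →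
      s ∈ Ioc (J.r q ^ 2 / (2 ^ j) ^ 2 / 4) (J.r q ^ 2 / (2 ^ j) ^ 2) := by
    intro s q hs ⟨h1, h2⟩
    have hss : 0 < Real.sqrt s := Real.sqrt_pos.2 hs
    have hr := J.r_pos q
    have h3 : (2 ^ j * Real.sqrt s) ^ 2 ≤ J.r q ^ 2 := by
      apply pow_le_pow_left₀ (by positivity) h1
    have h4 : J.r q ^ 2 < (2 ^ (j + 1) * Real.sqrt s) ^ 2 := by
      apply pow_lt_pow_left₀ h2 hr.le (by norm_num)
    rw [mul_pow, Real.sq_sqrt hs.le] at h3 h4
    constructor
    · rw [div_div, div_lt_iff₀ (by positivity)]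
      calc J.r q ^ 2 < (2 ^ (j + 1)) ^ 2 * s := h4
        _ = _ := by ring
    · rw [le_div_iff₀ (by positivity)]
      linarith
  have hmain := k3_count J k₂ k₀
    (fun s q => 2 ^ j * Real.sqrt s ≤ J.r q ∧ J.r q < 2 ^ (j + 1) * Real.sqrt s)
    (fun s t => Real.exp (t ^ 2 / (32 * (2 ^ j) ^ 2 * s)))
    (fun s t => (Real.exp_pos _).le) (fun s => by fun_prop)
    (fun _ _ => C / 2 ^ j) (fun _ _ _ => by positivity)
    (fun s q hs hq => by
      have hss : 0 < Real.sqrt s := Real.sqrt_pos.2 hs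
      have h1 := (h (2 ^ j * Real.sqrt s) (J.r q) s hs (by nlinarith) hq.1
        (by have := hq.2.le; rw [pow_succ] at this; linarith)).2
      have h2 : 32 * (2 ^ j * Real.sqrt s) ^ 2 = 32 * (2 ^ j) ^ 2 * s := by
        rw [mul_pow, Real.sq_sqrt hs.le]
        ring
      have h3 : Real.sqrt s / (2 ^ j * Real.sqrt s) = 1 / 2 ^ j := by
        field_simp
      rw [h2, h3] at h1
      refine h1.trans (le_of_eq ?_)
      congr 1
      ring)
    (ENNReal.ofReal (3 * (2 * (C / 2 ^ j)) ^ (1 / 2 : ℝ)))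
    (fun q => by
      apply Measurable.ite
      · have m1 : MeasurableSet {s : ℝ | 2 ^ j * Real.sqrt s ≤ J.r q} :=
          measurableSet_le (by fun_prop) measurable_const
        have m2 : MeasurableSet {s : ℝ | J.r q < 2 ^ (j + 1) * Real.sqrt s} :=
          measurableSet_lt measurable_const (by fun_prop)
        exact m1.inter m2
      · fun_prop
      · exact measurable_const)
    (fun q => by
      have hr := J.r_pos q
      obtain ⟨b, hb⟩ : ∃ b, b = J.r q ^ 2 / (2 ^ j) ^ 2 := ⟨_, rfl⟩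
      have hb0 : 0 < b := by rw [hb]; positivity
      have hk0 : 0 ≤ (2 * (C / 2 ^ j)) ^ (1 / 2 : ℝ) := by positivity
      have h1 : ∀ s ∈ Ioi (0 : ℝ), (if 2 ^ j * Real.sqrt s ≤ J.r q ∧
          J.r q < 2 ^ (j + 1) * Real.sqrt s then
          ENNReal.ofReal (1 / s * (2 * (C / 2 ^ j)) ^ (1 / 2 : ℝ)) else 0) ≤
          (Ioc (b / 4) b).indicator (fun _ =>
            ENNReal.ofReal (4 / b * (2 * (C / 2 ^ j)) ^ (1 / 2 : ℝ))) s := by
        intro s hs
        have hs : 0 < s := hs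
        split_ifs with hq
        · have h2 := hcond s q hs hq
          rw [← hb] at h2
          rw [indicator_of_mem h2]
          apply ENNReal.ofReal_le_ofReal
          apply mul_le_mul_of_nonneg_right _ hk0
          rw [div_le_div_iff₀ hs hb0]
          linarith [h2.1]
        · exact zero_le
      refine (setLIntegral_mono' measurableSet_Ioi h1).trans ?_
      refine (setLIntegral_le_lintegral _ _).trans ?_
      rw [lintegral_indicator_const measurableSet_Ioc, Real.volume_Ioc,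
        ← ENNReal.ofReal_mul (by positivity)]
      apply ENNReal.ofReal_le_ofReal
      apply le_of_eq
      field_simp
      ring)
  refine le_trans (le_of_eq ?_) (hmain.trans ?_)
  · apply setLIntegral_congr_fun measurableSet_Ioi
    intro s hs
    simp only [octG]
  · rw [hconst, show (2 : ℝ≥0∞) * n = ENNReal.ofReal (2 * n) by
      rw [ENNReal.ofReal_mul (by norm_num), ENNReal.ofReal_natCast]
      norm_num, ← ENNReal.ofReal_mul (by positivity)]
    apply ENNReal.ofReal_le_ofReal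
    apply le_of_eq
    ring

theorem lowG_count : ∃ C : ℝ, 0 < C ∧ ∀ (N Q n : ℕ) (J : JumpData N Q n) (k₂ k₀ : Fin (2 * N)),
    ∫⁻ s in Ioi (0 : ℝ), ENNReal.ofReal (1 / s) *
        (∫⁻ t, ENNReal.ofReal (|lowG J s k₂ k₀ t| * Real.exp (t ^ 2 / (32 * s)))) ^ (1 / 2 : ℝ) ≤
      ENNReal.ofReal (C * n) := by
  classical
  obtain ⟨C, hC, h⟩ := gam_low
  refine ⟨8 * (2 * C) ^ (1 / 2 : ℝ), by positivity, fun N Q n J k₂ k₀ => ?_⟩
  have hmain := k3_count J k₂ k₀
    (fun s q => J.r q < Real.sqrt s)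
    (fun s t => Real.exp (t ^ 2 / (32 * s)))
    (fun s t => (Real.exp_pos _).le) (fun s => by fun_prop)
    (fun s q => C * (J.r q / Real.sqrt s))
    (fun s q hs => by
      have := J.r_pos q
      positivity)
    (fun s q hs hq => (h (J.r q) s (J.r_pos q) hq.le).2)
    (ENNReal.ofReal (4 * (2 * C) ^ (1 / 2 : ℝ)))
    (fun q => by
      apply Measurable.ite
      · exact measurableSet_lt measurable_const (by fun_prop)
      · fun_prop
      · exact measurable_const)
    (fun q => by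
      have hr := J.r_pos q
      have hr2 : 0 < J.r q ^ 2 := by positivity
      have hk0 : 0 ≤ (2 * C) ^ (1 / 2 : ℝ) * J.r q ^ (1 / 2 : ℝ) := by positivity
      have h1 : ∀ s ∈ Ioi (0 : ℝ), (if J.r q < Real.sqrt s then
          ENNReal.ofReal (1 / s * (2 * (C * (J.r q / Real.sqrt s))) ^ (1 / 2 : ℝ)) else 0) ≤
          (Ioi (J.r q ^ 2)).indicator (fun s =>
            ENNReal.ofReal (((2 * C) ^ (1 / 2 : ℝ) * J.r q ^ (1 / 2 : ℝ)) *
              s ^ (-(5 / 4) : ℝ))) s := by
        intro s hs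
        have hs : 0 < s := hs
        split_ifs with hq
        · have h2 : s ∈ Ioi (J.r q ^ 2) := (Real.lt_sqrt hr.le).1 hq
          rw [indicator_of_mem h2]
          apply ENNReal.ofReal_le_ofReal
          apply le_of_eq
          have e1 : (2 * (C * (J.r q / Real.sqrt s)) : ℝ) =
              (2 * C) * J.r q * s ^ (-(1 / 2) : ℝ) := by
            rw [Real.rpow_neg hs.le, ← Real.sqrt_eq_rpow]
            ring
          have e2 : 1 / s = s ^ (-1 : ℝ) := by
            rw [Real.rpow_neg_one, one_div]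
          rw [e1, Real.mul_rpow (by positivity) (by positivity),
            Real.mul_rpow (by positivity) hr.le, ← Real.rpow_mul hs.le, e2]
          have e3 : s ^ (-(5 / 4) : ℝ) = s ^ (-1 : ℝ) * s ^ (-(1 / 2) * (1 / 2) : ℝ) := by
            rw [← Real.rpow_add hs]
            norm_num
          rw [e3]
          ring
        · exact zero_le
      refine (setLIntegral_mono' measurableSet_Ioi h1).trans ?_
      refine (setLIntegral_le_lintegral _ _).trans ?_
      rw [lintegral_indicator measurableSet_Ioi]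
      have hi : IntegrableOn (fun s : ℝ => ((2 * C) ^ (1 / 2 : ℝ) * J.r q ^ (1 / 2 : ℝ)) *
          s ^ (-(5 / 4) : ℝ)) (Ioi (J.r q ^ 2)) :=
        (integrableOn_Ioi_rpow_of_lt (by norm_num) hr2).const_mul _
      rw [← ofReal_integral_eq_lintegral_ofReal hi]
      · apply ENNReal.ofReal_le_ofReal
        rw [integral_const_mul, integral_Ioi_rpow_of_lt (by norm_num) hr2]
        have e4 : (J.r q ^ 2) ^ (-(5 / 4) + 1 : ℝ) = J.r q ^ (-(1 / 2) : ℝ) := by
          rw [← Real.rpow_natCast, ← Real.rpow_mul hr.le]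
          norm_num
        have e5 : J.r q ^ (1 / 2 : ℝ) * J.r q ^ (-(1 / 2) : ℝ) = 1 := by
          rw [← Real.rpow_add hr]
          norm_num
        rw [e4]
        apply le_of_eq
        calc (2 * C) ^ (1 / 2 : ℝ) * J.r q ^ (1 / 2 : ℝ) *
            (-J.r q ^ (-(1 / 2) : ℝ) / (-(5 / 4) + 1)) =
            4 * (2 * C) ^ (1 / 2 : ℝ) * (J.r q ^ (1 / 2 : ℝ) * J.r q ^ (-(1 / 2) : ℝ)) := by
              ring
          _ = _ := by rw [e5, mul_one]
      · exact (ae_restrict_iff' measurableSet_Ioi).2 (ae_of_all _ fun s hs =>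
          mul_nonneg hk0 (Real.rpow_nonneg (hr2.le.trans (le_of_lt hs)) _)))
  refine le_trans (le_of_eq ?_) (hmain.trans ?_)
  · apply setLIntegral_congr_fun measurableSet_Ioi
    intro s hs
    simp only [lowG]
  · rw [show (2 : ℝ≥0∞) * n = ENNReal.ofReal (2 * n) by
      rw [ENNReal.ofReal_mul (by norm_num), ENNReal.ofReal_natCast]
      norm_num, ← ENNReal.ofReal_mul (by positivity)]
    apply ENNReal.ofReal_le_ofReal
    apply le_of_eq
    ring

end Crest.Agent.TH
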