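import Crest.Agent.TH_SQL
import Crest.Agent.TH_K3
import Crest.Agent.TH_B1
import Crest.Agent.TH_Hold

/-! # TH_PartB (task TH-B8): the rough part -/

set_option autoImplicit false
open Matrix MeasureTheory Set Filter
open scoped Topology ENNReal

namespace Crest.Agent.TH

/-- a point lies in at most one cell -/
private theorem pb_cell_unique {N : ℕ} {η : ℝ} (hη : 0 < η) {x : ℝ} {a a' : Fin (2 * N)}
    (h : x ∈ Ico (lft η a) (lft η a + η)) (h' : x ∈ Ico (lft η a') (lft η a' + η)) : a = a' := by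
  have key : ∀ b b' : Fin (2 * N), x ∈ Ico (lft η b) (lft η b + η) →
      x ∈ Ico (lft η b') (lft η b' + η) → (b : ℕ) ≤ (b' : ℕ) := by
    intro b b' hb hb'
    unfold lft at hb hb'
    have h1 : ((b : ℝ) - N) * η < ((b' : ℝ) - N) * η + η := lt_of_le_of_lt hb.1 hb'.2
    have h2 : ((b : ℝ) - N) * η < (((b' : ℝ) + 1) - N) * η := by
      calc ((b : ℝ) - N) * η < ((b' : ℝ) - N) * η + η := h1
        _ = (((b' : ℝ) + 1) - N) * η := by ring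
    have h3 := lt_of_mul_lt_mul_right h2 hη.le
    have h4 : ((b : ℕ) : ℝ) < ((b' : ℕ) : ℝ) + 1 := by linarith
    have h5 : (b : ℕ) < (b' : ℕ) + 1 := by exact_mod_cast h4
    omega
  exact Fin.ext (le_antisymm (key a a' h h') (key a' a h' h))

open Classical in
/-- functions of step functions -/
private theorem pb_comp {N : ℕ} {η : ℝ} (hη : 0 < η) (A : Matrix (Fin (2 * N)) (Fin (2 * N)) ℝ)
    (φ : ℝ → ℝ≥0∞) (h0 : φ 0 = 0) (z : ℝ × ℝ) :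
    φ (cf η A z) = ∑ a, ∑ b, if z.1 ∈ Ico (lft η a) (lft η a + η) ∧
      z.2 ∈ Ico (lft η b) (lft η b + η) then φ (A a b) else 0 := by
  by_cases h : ∃ a b : Fin (2 * N), z.1 ∈ Ico (lft η a) (lft η a + η) ∧
      z.2 ∈ Ico (lft η b) (lft η b + η)
  · obtain ⟨a, b, ha, hb⟩ := h
    have h1 : cf η A z = A a b := by
      unfold cf
      rw [Finset.sum_eq_single a, Finset.sum_eq_single b]
      · rw [if_pos ⟨ha, hb⟩]
      · intro b' _ hb'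
        rw [if_neg]
        rintro ⟨_, h2⟩
        exact hb' (pb_cell_unique hη h2 hb)
      · intro h2; exact absurd (Finset.mem_univ _) h2
      · intro a' _ ha'
        refine Finset.sum_eq_zero fun b' _ => ?_
        rw [if_neg]
        rintro ⟨h2, _⟩
        exact ha' (pb_cell_unique hη h2 ha)
      · intro h2; exact absurd (Finset.mem_univ _) h2
    rw [h1, Finset.sum_eq_single a, Finset.sum_eq_single b]
    · rw [if_pos ⟨ha, hb⟩]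
    · intro b' _ hb'
      rw [if_neg]
      rintro ⟨_, h2⟩
      exact hb' (pb_cell_unique hη h2 hb)
    · intro h2; exact absurd (Finset.mem_univ _) h2
    · intro a' _ ha'
      refine Finset.sum_eq_zero fun b' _ => ?_
      rw [if_neg]
      rintro ⟨h2, _⟩
      exact ha' (pb_cell_unique hη h2 ha)
    · intro h2; exact absurd (Finset.mem_univ _) h2
  · have h1 : ∀ a b : Fin (2 * N), ¬ (z.1 ∈ Ico (lft η a) (lft η a + η) ∧
      z.2 ∈ Ico (lft η b) (lft η b + η)) := fun a b h2 => h ⟨a, b, h2⟩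
    unfold cf
    simp only [h1, if_false, Finset.sum_const_zero, h0]

/-- the rotation `(x,y) ↦ (-x-y,x)` preserves the area -/
private theorem pb_rot : MeasurePreserving (fun z : ℝ × ℝ => (-z.1 - z.2, z.1)) := by
  have h1 : MeasurePreserving (fun z : ℝ × ℝ => (z.2 + z.1, -z.1)) (volume.prod volume)
      (volume.prod volume) := measurePreserving_add_prod_neg (volume : Measure ℝ) volume
  have h2 : MeasurePreserving (fun z : ℝ × ℝ => (-z.1, -z.2)) (volume.prod volume)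
      (volume.prod volume) :=
    (Measure.measurePreserving_neg (volume : Measure ℝ)).prod (Measure.measurePreserving_neg volume)
  have h3 := h2.comp h1
  have h4 : ((fun z : ℝ × ℝ => (-z.1, -z.2)) ∘ fun z : ℝ × ℝ => (z.2 + z.1, -z.1)) =
      fun z : ℝ × ℝ => (-z.1 - z.2, z.1) := by
    funext z
    simp only [Function.comp]
    rw [neg_neg]
    congr 1
    ring
  rw [h4] at h3
  exact h3

private theorem pb_rot2 : MeasurePreserving (fun z : ℝ × ℝ => (z.2, -z.2 - z.1)) := by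
  have h3 := pb_rot.comp pb_rot
  have h4 : ((fun z : ℝ × ℝ => (-z.1 - z.2, z.1)) ∘ fun z : ℝ × ℝ => (-z.1 - z.2, z.1)) =
      fun z : ℝ × ℝ => (z.2, -z.2 - z.1) := by
    funext z
    simp only [Function.comp]
    refine Prod.ext ?_ ?_
    · change -(-z.1 - z.2) - z.1 = z.2
      ring
    · change -z.1 - z.2 = -z.2 - z.1
      ring
  rw [h4] at h3
  exact h3

private theorem pb_rot1 : MeasurePreserving (fun z : ℝ × ℝ => (-z.2 - z.1, z.1)) := by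
  have h4 : (fun z : ℝ × ℝ => (-z.1 - z.2, z.1)) = fun z : ℝ × ℝ => (-z.2 - z.1, z.1) := by
    funext z
    refine Prod.ext ?_ rfl
    change -z.1 - z.2 = -z.2 - z.1
    ring
  rw [← h4]
  exact pb_rot

private theorem pb_measurable_sq {N : ℕ} (η : ℝ) (A : Matrix (Fin (2 * N)) (Fin (2 * N)) ℝ) :
    Measurable (sq η A) := by
  unfold sq
  exact ENNReal.measurable_ofReal.comp ((measurable_cf η A).pow_const 2)

private theorem pb_measurable_MM {N : ℕ} (η : ℝ) (F₀ F₁ : Matrix (Fin (2 * N)) (Fin (2 * N)) ℝ) :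
    Measurable (MM η F₀ F₁) := by
  unfold MM
  refine Measurable.pow_const (Measurable.add ?_ ?_) _
  · exact (measurable_HM1 (measurable_HM2 (pb_measurable_sq η F₀))).comp pb_rot2.measurable
  · exact (measurable_HM1 (measurable_HM2 (pb_measurable_sq η F₁))).comp pb_rot1.measurable

/-- the sum over the cells is (at most) the integral. -/
private theorem pb_sum_le {N : ℕ} {η : ℝ} (hη : 0 < η)
    (F₂ : Matrix (Fin (2 * N)) (Fin (2 * N)) ℝ) {g : ℝ × ℝ → ℝ≥0∞} (hg : Measurable g) :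
    ∑ k₂, ∑ k₀, ENNReal.ofReal (F₂ k₂ k₀ ^ 2) * ∫⁻ z in cell2 η k₂ k₀, g z =
      ∫⁻ z, (sq η F₂ * g) z := by
  classical
  have h1 : ∀ z : ℝ × ℝ, (sq η F₂ * g) z = ∑ k₂, ∑ k₀, (cell2 η k₂ k₀).indicator
      (fun z => ENNReal.ofReal (F₂ k₂ k₀ ^ 2) * g z) z := by
    intro z
    have h2 := pb_comp hη F₂ (fun x => ENNReal.ofReal (x ^ 2)) (by simp) z
    change ENNReal.ofReal (cf η F₂ z ^ 2) * g z = _
    rw [h2, Finset.sum_mul]
    refine Finset.sum_congr rfl fun a _ => ?_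
    rw [Finset.sum_mul]
    refine Finset.sum_congr rfl fun b _ => ?_
    by_cases hz : z.1 ∈ Ico (lft η a) (lft η a + η) ∧ z.2 ∈ Ico (lft η b) (lft η b + η)
    · have hz' : z ∈ cell2 η a b := Set.mem_prod.mpr hz
      rw [if_pos hz, Set.indicator_of_mem hz']
    · have hz' : z ∉ cell2 η a b := fun h2 => hz (Set.mem_prod.mp h2)
      rw [if_neg hz, Set.indicator_of_notMem hz', zero_mul]
  have hc : ∀ k₂ k₀ : Fin (2 * N), MeasurableSet (cell2 η k₂ k₀) := fun k₂ k₀ =>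
    measurableSet_Ico.prod measurableSet_Ico
  have hm : ∀ k₂ k₀ : Fin (2 * N), Measurable ((cell2 η k₂ k₀).indicator
      (fun z => ENNReal.ofReal (F₂ k₂ k₀ ^ 2) * g z)) := fun k₂ k₀ =>
    (hg.const_mul _).indicator (hc k₂ k₀)
  rw [lintegral_congr h1, lintegral_finsetSum]
  · refine Finset.sum_congr rfl fun k₂ _ => ?_
    rw [lintegral_finsetSum]
    · refine Finset.sum_congr rfl fun k₀ _ => ?_
      rw [lintegral_indicator (hc k₂ k₀), lintegral_const_mul _ hg]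
    · exact fun k₀ _ => hm k₂ k₀
  · exact fun k₂ _ => Finset.measurable_sum _ fun k₀ _ => hm k₂ k₀

/-- `∫ |cf F₂|² MM ≤ C (n3 F₂)^{2/3} (n3 F₀ + n3 F₁)^{1/3}` (Hölder, `HM1_strong`, `HM2_strong`,
`lintegral_sq_rpow`, measure preserving linear maps); the sum over the cells is the integral. -/
theorem MM_holder : ∃ C : ℝ≥0∞, C ≠ ⊤ ∧ ∀ (N : ℕ) (η : ℝ), 0 < η →
    ∀ (F₀ F₁ F₂ : Matrix (Fin (2 * N)) (Fin (2 * N)) ℝ),
    ∑ k₂, ∑ k₀, ENNReal.ofReal (F₂ k₂ k₀ ^ 2) * ∫⁻ z in cell2 η k₂ k₀, MM η F₀ F₁ z ≤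
      C * ENNReal.ofReal (n3 η F₂ ^ (2 / 3 : ℝ) * (n3 η F₀ + n3 η F₁) ^ (1 / 3 : ℝ)) := by
  obtain ⟨C₁, hC₁, hM₁⟩ := HM1_strong
  obtain ⟨C₂, hC₂, hM₂⟩ := HM2_strong
  refine ⟨((2 : ℝ≥0∞) ^ ((3 / 2 : ℝ) - 1) * (C₁ * C₂)) ^ (1 / 3 : ℝ),
    ENNReal.rpow_ne_top_of_nonneg (by norm_num) (ENNReal.mul_ne_top
      (ENNReal.rpow_ne_top_of_nonneg (by norm_num) (by norm_num)) (ENNReal.mul_ne_top hC₁ hC₂)),
    fun N η hη F₀ F₁ F₂ => ?_⟩
  have hmM := pb_measurable_MM η F₀ F₁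
  have hm₀ := measurable_HM1 (measurable_HM2 (pb_measurable_sq η F₀))
  have hm₁ := measurable_HM1 (measurable_HM2 (pb_measurable_sq η F₁))
  rw [pb_sum_le hη F₂ hmM]
  have hconj : (3 / 2 : ℝ).HolderConjugate 3 := by
    rw [Real.holderConjugate_iff]
    norm_num
  have hH := ENNReal.lintegral_mul_le_Lp_mul_Lq (volume : Measure (ℝ × ℝ)) hconj
    (pb_measurable_sq η F₂).aemeasurable hmM.aemeasurable
  refine hH.trans ?_
  rw [lintegral_sq_rpow hη]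
  -- the cube of `MM`
  have hF : ∀ F : Matrix (Fin (2 * N)) (Fin (2 * N)) ℝ,
      ∫⁻ z, HM1 (HM2 (sq η F)) z ^ (3 / 2 : ℝ) ≤ C₁ * C₂ * ENNReal.ofReal (n3 η F) := by
    intro F
    calc ∫⁻ z, HM1 (HM2 (sq η F)) z ^ (3 / 2 : ℝ)
        ≤ C₁ * ∫⁻ z, HM2 (sq η F) z ^ (3 / 2 : ℝ) :=
          hM₁ _ (measurable_HM2 (pb_measurable_sq η F))
      _ ≤ C₁ * (C₂ * ∫⁻ z, sq η F z ^ (3 / 2 : ℝ)) :=
          mul_le_mul_right (hM₂ _ (pb_measurable_sq η F)) _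
      _ = _ := by rw [lintegral_sq_rpow hη, mul_assoc]
  have h0 : 0 ≤ n3 η F₀ := n3_nonneg η F₀
  have h1 : 0 ≤ n3 η F₁ := n3_nonneg η F₁
  have hMM : ∫⁻ z, MM η F₀ F₁ z ^ (3 : ℝ) ≤
      (2 : ℝ≥0∞) ^ ((3 / 2 : ℝ) - 1) * (C₁ * C₂) * ENNReal.ofReal (n3 η F₀ + n3 η F₁) := by
    calc ∫⁻ z, MM η F₀ F₁ z ^ (3 : ℝ)
        ≤ ∫⁻ z : ℝ × ℝ, (2 : ℝ≥0∞) ^ ((3 / 2 : ℝ) - 1) *
          (HM1 (HM2 (sq η F₀)) (z.2, -z.2 - z.1) ^ (3 / 2 : ℝ) +
            HM1 (HM2 (sq η F₁)) (-z.2 - z.1, z.1) ^ (3 / 2 : ℝ)) := by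
          refine lintegral_mono fun z => ?_
          unfold MM
          rw [← ENNReal.rpow_mul, show (1 / 2 : ℝ) * 3 = 3 / 2 by norm_num]
          exact ENNReal.rpow_add_le_mul_rpow_add_rpow _ _ (by norm_num)
      _ = (2 : ℝ≥0∞) ^ ((3 / 2 : ℝ) - 1) *
          ((∫⁻ z : ℝ × ℝ, HM1 (HM2 (sq η F₀)) (z.2, -z.2 - z.1) ^ (3 / 2 : ℝ)) +
            ∫⁻ z : ℝ × ℝ, HM1 (HM2 (sq η F₁)) (-z.2 - z.1, z.1) ^ (3 / 2 : ℝ)) := by
          rw [lintegral_const_mul' _ _ (ENNReal.rpow_ne_top_of_nonneg (by norm_num) (by norm_num)),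
            lintegral_add_left]
          exact (hm₀.comp pb_rot2.measurable).pow_const _
      _ = (2 : ℝ≥0∞) ^ ((3 / 2 : ℝ) - 1) *
          ((∫⁻ z : ℝ × ℝ, HM1 (HM2 (sq η F₀)) z ^ (3 / 2 : ℝ)) +
            ∫⁻ z : ℝ × ℝ, HM1 (HM2 (sq η F₁)) z ^ (3 / 2 : ℝ)) := by
          have e0 := pb_rot2.lintegral_comp (f := fun z => HM1 (HM2 (sq η F₀)) z ^ (3 / 2 : ℝ))
            (hm₀.pow_const _)
          have e1 := pb_rot1.lintegral_comp (f := fun z => HM1 (HM2 (sq η F₁)) z ^ (3 / 2 : ℝ))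
            (hm₁.pow_const _)
          rw [e0, e1]
      _ ≤ (2 : ℝ≥0∞) ^ ((3 / 2 : ℝ) - 1) * (C₁ * C₂ * ENNReal.ofReal (n3 η F₀) +
            C₁ * C₂ * ENNReal.ofReal (n3 η F₁)) :=
          mul_le_mul_right (add_le_add (hF F₀) (hF F₁)) _
      _ = _ := by
          rw [← mul_add, ← ENNReal.ofReal_add h0 h1, ← mul_assoc]
  calc ENNReal.ofReal (n3 η F₂) ^ (1 / (3 / 2) : ℝ) * (∫⁻ z, MM η F₀ F₁ z ^ (3 : ℝ)) ^ (1 / 3 : ℝ)
      ≤ ENNReal.ofReal (n3 η F₂) ^ (1 / (3 / 2) : ℝ) *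
        ((2 : ℝ≥0∞) ^ ((3 / 2 : ℝ) - 1) * (C₁ * C₂) *
          ENNReal.ofReal (n3 η F₀ + n3 η F₁)) ^ (1 / 3 : ℝ) :=
        mul_le_mul_right (ENNReal.rpow_le_rpow hMM (by norm_num)) _
    _ = _ := by
        rw [ENNReal.mul_rpow_of_nonneg _ _ (by norm_num : (0 : ℝ) ≤ 1 / 3),
          ENNReal.ofReal_rpow_of_nonneg (n3_nonneg η F₂) (by norm_num),
          ENNReal.ofReal_rpow_of_nonneg (add_nonneg h0 h1) (by norm_num),
          show (1 / (3 / 2) : ℝ) = 2 / 3 by norm_num,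
          ENNReal.ofReal_mul (Real.rpow_nonneg (n3_nonneg η F₂) _)]
        ring

private theorem pb_measurable_gam (u : ℝ) : Measurable (fun q : ℝ × ℝ => gam u q.1 q.2) := by
  unfold gam
  refine Measurable.mul (by fun_prop) ?_
  have h1 : Measurable (fun q : (ℝ × ℝ) × ℝ => Dk u q.2 * gk1 (q.1.1 / 2) (q.1.2 - q.2)) := by
    refine Measurable.mul ((measurable_Dk u).comp measurable_snd) ?_
    unfold gk1 gk
    fun_prop
  exact (h1.stronglyMeasurable.integral_prod_right').measurable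

private theorem pb_measurable_octG {N Q n : ℕ} (J : JumpData N Q n) (j : ℕ) (k₂ k₀ : Fin (2 * N)) :
    Measurable (fun q : ℝ × ℝ => octG J j q.1 k₂ k₀ q.2) := by
  classical
  unfold octG
  refine Finset.measurable_sum _ fun i _ => Measurable.ite ?_
    ((pb_measurable_gam (J.r i)).const_mul _) measurable_const
  have h3 : MeasurableSet {q : ℝ × ℝ | 2 ^ j * Real.sqrt q.1 ≤ J.r i} :=
    measurableSet_le (by fun_prop) (by fun_prop)
  have h4 : MeasurableSet {q : ℝ × ℝ | J.r i < 2 ^ (j + 1) * Real.sqrt q.1} :=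
    measurableSet_lt (by fun_prop) (by fun_prop)
  exact h3.inter h4

private theorem pb_measurable_lowG {N Q n : ℕ} (J : JumpData N Q n) (k₂ k₀ : Fin (2 * N)) :
    Measurable (fun q : ℝ × ℝ => lowG J q.1 k₂ k₀ q.2) := by
  classical
  unfold lowG
  refine Finset.measurable_sum _ fun i _ => Measurable.ite ?_
    ((pb_measurable_gam (J.r i)).const_mul _) measurable_const
  exact measurableSet_lt (by fun_prop) (by fun_prop)

/-- `TS_Dk_le`, `SQL` with `L = 2^j` for `octG`, `L = 1` for `lowG`, the bounds of `TH_K3` and `MM_holder`;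
the sum over `j` of `(2^{-j/2})^{1/2}` converges. -/
theorem partB : ∃ C : ℝ, 0 ≤ C ∧ ∀ (η : ℝ), 0 < η → ∀ (N Q n : ℕ), 1 ≤ n → ∀ (J : JumpData N Q n)
    (F₀ F₁ F₂ : Matrix (Fin (2 * N)) (Fin (2 * N)) ℝ),
    |TS η F₀ F₁ F₂ (fun k₂ k₀ t => ∑ q, J.a q k₂ k₀ * Dk (J.r q) t)| ≤
      C * ((n3 η F₀ + n3 η F₁) * (n * n3 η F₂ ^ (2 / 3 : ℝ) *
        (n3 η F₀ + n3 η F₁) ^ (1 / 3 : ℝ))) ^ (1 / 2 : ℝ) := by
  obtain ⟨CS, hCS, hSQL⟩ := SQL
  obtain ⟨CM, hCM, hMM⟩ := MM_holder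
  obtain ⟨Ao, hAo, hos⟩ := octG_sup
  obtain ⟨Al, hAl, hls⟩ := lowG_sup
  obtain ⟨Bo, hBo, hoc⟩ := octG_count
  obtain ⟨Bl, hBl, hlc⟩ := lowG_count
  -- the constants
  set Ko : ℝ≥0∞ := CS * (ENNReal.ofReal (Ao ^ (3 / 2 : ℝ)) * (ENNReal.ofReal Bo * CM)) ^ (1 / 2 : ℝ)
    with hKo
  set Kl : ℝ≥0∞ := CS * (ENNReal.ofReal (Al ^ (3 / 2 : ℝ)) * (ENNReal.ofReal Bl * CM)) ^ (1 / 2 : ℝ)
    with hKl
  have hKot : Ko ≠ ⊤ := ENNReal.mul_ne_top hCS (ENNReal.rpow_ne_top_of_nonneg (by norm_num)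
    (ENNReal.mul_ne_top ENNReal.ofReal_ne_top (ENNReal.mul_ne_top ENNReal.ofReal_ne_top hCM)))
  have hKlt : Kl ≠ ⊤ := ENNReal.mul_ne_top hCS (ENNReal.rpow_ne_top_of_nonneg (by norm_num)
    (ENNReal.mul_ne_top ENNReal.ofReal_ne_top (ENNReal.mul_ne_top ENNReal.ofReal_ne_top hCM)))
  have hρ0 : (0 : ℝ) < (2 : ℝ) ^ (-(1 / 4) : ℝ) := Real.rpow_pos_of_pos two_pos _
  have hρ1 : (2 : ℝ) ^ (-(1 / 4) : ℝ) < 1 :=
    Real.rpow_lt_one_of_one_lt_of_neg one_lt_two (by norm_num)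
  set ρ : ℝ := (2 : ℝ) ^ (-(1 / 4) : ℝ) with hρ
  set T : ℝ≥0∞ := ∑' j : ℕ, ENNReal.ofReal (ρ ^ j) with hT
  have hTt : T ≠ ⊤ := by
    rw [hT, ← ENNReal.ofReal_tsum_of_nonneg (fun j => pow_nonneg hρ0.le j)
      (summable_geometric_of_lt_one hρ0.le hρ1)]
    exact ENNReal.ofReal_ne_top
  have hKt : Kl + Ko * T ≠ ⊤ := ENNReal.add_ne_top.mpr ⟨hKlt, ENNReal.mul_ne_top hKot hTt⟩
  refine ⟨(Kl + Ko * T).toReal, ENNReal.toReal_nonneg, fun η hη N Q n hn J F₀ F₁ F₂ => ?_⟩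
  set a : ℝ := n3 η F₀ + n3 η F₁ with ha
  have ha0 : 0 ≤ a := add_nonneg (n3_nonneg η F₀) (n3_nonneg η F₁)
  set b : ℝ := n3 η F₂ ^ (2 / 3 : ℝ) * a ^ (1 / 3 : ℝ) with hb
  have hb0 : 0 ≤ b := mul_nonneg (Real.rpow_nonneg (n3_nonneg η F₂) _) (Real.rpow_nonneg ha0 _)
  have hn0 : (0 : ℝ) ≤ (n : ℝ) := Nat.cast_nonneg n
  set X : ℝ := (a * (n * n3 η F₂ ^ (2 / 3 : ℝ) * a ^ (1 / 3 : ℝ))) ^ (1 / 2 : ℝ) with hX
  have hXeq : X = (a * (n * b)) ^ (1 / 2 : ℝ) := by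
    rw [hX, hb]
    congr 1
    ring
  have hX0 : 0 ≤ X := by
    rw [hXeq]
    exact Real.rpow_nonneg (mul_nonneg ha0 (mul_nonneg hn0 hb0)) _
  -- the general estimate
  have gen : ∀ (A B δ : ℝ), 0 ≤ A → 0 ≤ B → 0 ≤ δ → ∀ (I : Fin (2 * N) → Fin (2 * N) → ℝ≥0∞),
      (∀ k₂ k₀, I k₂ k₀ ≤ ENNReal.ofReal (B * n * δ)) →
      CS * (ENNReal.ofReal a) ^ (1 / 2 : ℝ) *
        (ENNReal.ofReal (A ^ (3 / 2 : ℝ)) * ∑ k₂, ∑ k₀, ENNReal.ofReal (F₂ k₂ k₀ ^ 2) *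
          I k₂ k₀ * ∫⁻ z in cell2 η k₂ k₀, MM η F₀ F₁ z) ^ (1 / 2 : ℝ) ≤
      CS * (ENNReal.ofReal (A ^ (3 / 2 : ℝ)) * (ENNReal.ofReal B * CM)) ^ (1 / 2 : ℝ) *
        ENNReal.ofReal (δ ^ (1 / 2 : ℝ)) * ENNReal.ofReal X := by
    intro A B δ hA hB hδ I hI
    have h1 : ∑ k₂, ∑ k₀, ENNReal.ofReal (F₂ k₂ k₀ ^ 2) *
          I k₂ k₀ * ∫⁻ z in cell2 η k₂ k₀, MM η F₀ F₁ z ≤
        ENNReal.ofReal (B * n * δ) * (CM * ENNReal.ofReal b) := by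
      calc ∑ k₂, ∑ k₀, ENNReal.ofReal (F₂ k₂ k₀ ^ 2) *
            I k₂ k₀ * ∫⁻ z in cell2 η k₂ k₀, MM η F₀ F₁ z
          ≤ ∑ k₂, ∑ k₀, ENNReal.ofReal (B * n * δ) * (ENNReal.ofReal (F₂ k₂ k₀ ^ 2) *
              ∫⁻ z in cell2 η k₂ k₀, MM η F₀ F₁ z) := by
            refine Finset.sum_le_sum fun k₂ _ => Finset.sum_le_sum fun k₀ _ => ?_
            rw [← mul_assoc, mul_comm (ENNReal.ofReal (F₂ k₂ k₀ ^ 2))]
            exact mul_le_mul_left (mul_le_mul_left (hI k₂ k₀) _) _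
        _ = ENNReal.ofReal (B * n * δ) * ∑ k₂, ∑ k₀, (ENNReal.ofReal (F₂ k₂ k₀ ^ 2) *
              ∫⁻ z in cell2 η k₂ k₀, MM η F₀ F₁ z) := by
            rw [Finset.mul_sum]
            refine Finset.sum_congr rfl fun k₂ _ => ?_
            rw [Finset.mul_sum]
        _ ≤ _ := mul_le_mul_right (hMM N η hη F₀ F₁ F₂) _
    have h2 : (ENNReal.ofReal (A ^ (3 / 2 : ℝ)) * ∑ k₂, ∑ k₀, ENNReal.ofReal (F₂ k₂ k₀ ^ 2) *
          I k₂ k₀ * ∫⁻ z in cell2 η k₂ k₀, MM η F₀ F₁ z) ≤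
        (ENNReal.ofReal (A ^ (3 / 2 : ℝ)) * (ENNReal.ofReal B * CM)) *
          (ENNReal.ofReal δ * ENNReal.ofReal (n * b)) := by
      refine (mul_le_mul_right h1 _).trans (le_of_eq ?_)
      rw [ENNReal.ofReal_mul (mul_nonneg hB hn0), ENNReal.ofReal_mul hB, ENNReal.ofReal_mul hn0]
      ring
    calc CS * (ENNReal.ofReal a) ^ (1 / 2 : ℝ) *
        (ENNReal.ofReal (A ^ (3 / 2 : ℝ)) * ∑ k₂, ∑ k₀, ENNReal.ofReal (F₂ k₂ k₀ ^ 2) *
          I k₂ k₀ * ∫⁻ z in cell2 η k₂ k₀, MM η F₀ F₁ z) ^ (1 / 2 : ℝ)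
        ≤ CS * (ENNReal.ofReal a) ^ (1 / 2 : ℝ) *
          ((ENNReal.ofReal (A ^ (3 / 2 : ℝ)) * (ENNReal.ofReal B * CM)) *
          (ENNReal.ofReal δ * ENNReal.ofReal (n * b))) ^ (1 / 2 : ℝ) :=
          mul_le_mul_right (ENNReal.rpow_le_rpow h2 (by norm_num)) _
      _ = _ := by
          rw [ENNReal.mul_rpow_of_nonneg _ _ (by norm_num : (0 : ℝ) ≤ 1 / 2),
            ENNReal.mul_rpow_of_nonneg (ENNReal.ofReal δ) _ (by norm_num : (0 : ℝ) ≤ 1 / 2),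
            ENNReal.ofReal_rpow_of_nonneg ha0 (by norm_num),
            ENNReal.ofReal_rpow_of_nonneg hδ (by norm_num),
            ENNReal.ofReal_rpow_of_nonneg (mul_nonneg hn0 hb0) (by norm_num), hXeq,
            Real.mul_rpow ha0 (mul_nonneg hn0 hb0), ENNReal.ofReal_mul (Real.rpow_nonneg ha0 _)]
          ring
  -- the low part
  have hlow : (∫⁻ s in Ioi (0 : ℝ), ENNReal.ofReal (1 / s) *
        ENNReal.ofReal |TS η F₀ F₁ F₂ (fun k₂ k₀ => cpsi (lowG J s k₂ k₀) s)|) ≤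
      Kl * ENNReal.ofReal X := by
    have h1 := hSQL N η hη 1 Al le_rfl hAl.le F₀ F₁ F₂ (fun s k₂ k₀ => lowG J s k₂ k₀)
      (fun k₂ k₀ => pb_measurable_lowG J k₂ k₀) (fun s hs k₂ k₀ t => by
        have h2 := hls N Q n J s hs k₂ k₀ t
        simpa using h2)
    refine h1.trans ?_
    have h3 := gen Al Bl 1 hAl.le hBl.le zero_le_one
      (fun k₂ k₀ => ∫⁻ s in Ioi (0 : ℝ), ENNReal.ofReal (1 / s) *
            (∫⁻ t, ENNReal.ofReal (|lowG J s k₂ k₀ t| *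
              Real.exp (t ^ 2 / (32 * 1 ^ 2 * s)))) ^ (1 / 2 : ℝ))
      (fun k₂ k₀ => by
        have h4 := hlc N Q n J k₂ k₀
        simpa using h4)
    refine h3.trans (le_of_eq ?_)
    rw [Real.one_rpow, ENNReal.ofReal_one, mul_one]
  -- the octaves
  have hoct : ∀ j : ℕ, (∫⁻ s in Ioi (0 : ℝ), ENNReal.ofReal (1 / s) *
        ENNReal.ofReal |TS η F₀ F₁ F₂ (fun k₂ k₀ => cpsi (octG J j s k₂ k₀) s)|) ≤
      Ko * ENNReal.ofReal (ρ ^ j) * ENNReal.ofReal X := by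
    intro j
    have h1 := hSQL N η hη (2 ^ j) Ao (one_le_pow₀ one_le_two) hAo.le F₀ F₁ F₂
      (fun s k₂ k₀ => octG J j s k₂ k₀)
      (fun k₂ k₀ => pb_measurable_octG J j k₂ k₀) (fun s hs k₂ k₀ t => hos N Q n J j s hs k₂ k₀ t)
    refine h1.trans ?_
    have h3 := gen Ao Bo ((2 : ℝ) ^ (-(j : ℝ) / 2)) hAo.le hBo.le (by positivity)
      (fun k₂ k₀ => ∫⁻ s in Ioi (0 : ℝ), ENNReal.ofReal (1 / s) *
            (∫⁻ t, ENNReal.ofReal (|octG J j s k₂ k₀ t| *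
              Real.exp (t ^ 2 / (32 * (2 ^ j) ^ 2 * s)))) ^ (1 / 2 : ℝ))
      (fun k₂ k₀ => hoc N Q n J j k₂ k₀)
    refine h3.trans (le_of_eq ?_)
    rw [hKo, hρ]
    congr 3
    rw [← Real.rpow_natCast, ← Real.rpow_mul two_pos.le, ← Real.rpow_mul two_pos.le]
    congr 1
    ring
  have hfin : ENNReal.ofReal |TS η F₀ F₁ F₂ (fun k₂ k₀ t => ∑ q, J.a q k₂ k₀ * Dk (J.r q) t)| ≤
      (Kl + Ko * T) * ENNReal.ofReal X := by
    refine (TS_Dk_le hη J F₀ F₁ F₂).trans ?_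
    calc _ ≤ Kl * ENNReal.ofReal X + ∑' j : ℕ, Ko * ENNReal.ofReal (ρ ^ j) * ENNReal.ofReal X :=
          add_le_add hlow (ENNReal.tsum_le_tsum hoct)
      _ = _ := by
          rw [ENNReal.tsum_mul_right, ENNReal.tsum_mul_left, ← hT, add_mul]
  have h1 := ENNReal.toReal_mono (ENNReal.mul_ne_top hKt ENNReal.ofReal_ne_top) hfin
  rw [ENNReal.toReal_ofReal (abs_nonneg _), ENNReal.toReal_mul, ENNReal.toReal_ofReal hX0] at h1
  exact h1

end Crest.Agent.TH
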