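import Crest.Agent.TH_PartA
import Crest.Agent.TH_PartB

/-! # TH_Core (task TH-C1): the discrete core theorem -/

set_option autoImplicit false
open Matrix MeasureTheory Set Filter
open scoped Topology ENNReal

namespace Crest.Agent.TH

section additivity

private theorem core_int {α : Type*} [MeasurableSpace α] {f : α × ℝ → ℝ} (hf : Measurable f)
    (a b : ℝ) : Measurable fun q => ∫ x in a..b, f (q, x) := by
  unfold intervalIntegral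
  exact (hf.stronglyMeasurable.integral_prod_right' (ν := volume.restrict (Ioc a b))).measurable.sub
    (hf.stronglyMeasurable.integral_prod_right' (ν := volume.restrict (Ioc b a))).measurable

private theorem core_bdd {f : ℝ → ℝ} {B : ℝ} (hB : ∀ x, |f x| ≤ B) (a b : ℝ) :
    |∫ x in a..b, f x| ≤ B * |b - a| := by
  have h := intervalIntegral.norm_integral_le_of_norm_le_const (a := a) (b := b) (f := f) (C := B)
    (fun x _ => by rw [Real.norm_eq_abs]; exact hB x)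
  rwa [Real.norm_eq_abs] at h

private theorem core_ii {f : ℝ → ℝ} (hf : Measurable f) {B : ℝ} (hB : ∀ x, |f x| ≤ B) (a b : ℝ) :
    IntervalIntegrable f volume a b := by
  rw [intervalIntegrable_iff]
  refine Measure.integrableOn_of_bounded (M := B) ?_ hf.aestronglyMeasurable ?_
  · rw [uIoc, Real.volume_Ioc]; exact ENNReal.ofReal_ne_top
  · exact Filter.Eventually.of_forall fun x => by rw [Real.norm_eq_abs]; exact hB x

/-- additivity of `Jc` for bounded measurable kernels -/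
private theorem Jc_add_core (η : ℝ) {N : ℕ} (k₀ k₁ k₂ : Fin (2 * N)) {κ κ' : ℝ → ℝ}
    (h : Measurable κ) (h' : Measurable κ') {B B' : ℝ} (hB : ∀ x, |κ x| ≤ B)
    (hB' : ∀ x, |κ' x| ≤ B') :
    Jc η k₀ k₁ k₂ (fun t => κ t + κ' t) = Jc η k₀ k₁ k₂ κ + Jc η k₀ k₁ k₂ κ' := by
  -- inner integrals
  have hm2 : ∀ {φ : ℝ → ℝ}, Measurable φ → Measurable fun q : ℝ × ℝ =>
      ∫ x₂ in (lft η k₂)..(lft η k₂ + η), φ (q.1 + q.2 + x₂) := by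
    intro φ hφ
    exact core_int (f := fun z : (ℝ × ℝ) × ℝ => φ (z.1.1 + z.1.2 + z.2))
      (hφ.comp (by fun_prop)) _ _
  have hm1 : ∀ {φ : ℝ → ℝ}, Measurable φ → Measurable fun x₀ : ℝ =>
      ∫ x₁ in (lft η k₁)..(lft η k₁ + η), ∫ x₂ in (lft η k₂)..(lft η k₂ + η), φ (x₀ + x₁ + x₂) := by
    intro φ hφ
    exact core_int (f := fun z : ℝ × ℝ => ∫ x₂ in (lft η k₂)..(lft η k₂ + η), φ (z.1 + z.2 + x₂))
      (hm2 hφ) _ _
  have hb2 : ∀ {φ : ℝ → ℝ} {M : ℝ}, (∀ x, |φ x| ≤ M) → ∀ x₀ x₁ : ℝ,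
      |∫ x₂ in (lft η k₂)..(lft η k₂ + η), φ (x₀ + x₁ + x₂)| ≤
        M * |lft η k₂ + η - lft η k₂| := by
    intro φ M hM x₀ x₁
    exact core_bdd (fun x => hM _) _ _
  have hb1 : ∀ {φ : ℝ → ℝ} {M : ℝ}, (∀ x, |φ x| ≤ M) → ∀ x₀ : ℝ,
      |∫ x₁ in (lft η k₁)..(lft η k₁ + η), ∫ x₂ in (lft η k₂)..(lft η k₂ + η), φ (x₀ + x₁ + x₂)| ≤
        M * |lft η k₂ + η - lft η k₂| * |lft η k₁ + η - lft η k₁| := by
    intro φ M hM x₀
    exact core_bdd (fun x => hb2 hM _ _) _ _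
  unfold Jc
  have e2 : ∀ x₀ x₁ : ℝ, (∫ x₂ in (lft η k₂)..(lft η k₂ + η), (κ (x₀ + x₁ + x₂) + κ' (x₀ + x₁ + x₂))) =
      (∫ x₂ in (lft η k₂)..(lft η k₂ + η), κ (x₀ + x₁ + x₂)) +
        ∫ x₂ in (lft η k₂)..(lft η k₂ + η), κ' (x₀ + x₁ + x₂) := by
    intro x₀ x₁
    exact intervalIntegral.integral_add
      (core_ii (h.comp (measurable_const_add _)) (fun x => hB _) _ _)
      (core_ii (h'.comp (measurable_const_add _)) (fun x => hB' _) _ _)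
  simp only [e2]
  have e1 : ∀ x₀ : ℝ, (∫ x₁ in (lft η k₁)..(lft η k₁ + η),
      ((∫ x₂ in (lft η k₂)..(lft η k₂ + η), κ (x₀ + x₁ + x₂)) +
        ∫ x₂ in (lft η k₂)..(lft η k₂ + η), κ' (x₀ + x₁ + x₂))) =
      (∫ x₁ in (lft η k₁)..(lft η k₁ + η), ∫ x₂ in (lft η k₂)..(lft η k₂ + η), κ (x₀ + x₁ + x₂)) +
      ∫ x₁ in (lft η k₁)..(lft η k₁ + η), ∫ x₂ in (lft η k₂)..(lft η k₂ + η), κ' (x₀ + x₁ + x₂) := by
    intro x₀
    exact intervalIntegral.integral_add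
      (core_ii ((hm2 h).comp measurable_prodMk_left) (fun x => hb2 hB _ _) _ _)
      (core_ii ((hm2 h').comp measurable_prodMk_left) (fun x => hb2 hB' _ _) _ _)
  simp only [e1]
  exact intervalIntegral.integral_add
      (core_ii (hm1 h) (fun x => hb1 hB _) _ _)
      (core_ii (hm1 h') (fun x => hb1 hB' _) _ _)

private theorem TS_add_core (η : ℝ) {N : ℕ} (F₀ F₁ F₂ : Matrix (Fin (2 * N)) (Fin (2 * N)) ℝ)
    {κ κ' : Fin (2 * N) → Fin (2 * N) → ℝ → ℝ} (h : ∀ a b, Measurable (κ a b))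
    (h' : ∀ a b, Measurable (κ' a b)) (hB : ∀ a b, ∃ B, ∀ x, |κ a b x| ≤ B)
    (hB' : ∀ a b, ∃ B, ∀ x, |κ' a b x| ≤ B) :
    TS η F₀ F₁ F₂ (fun a b t => κ a b t + κ' a b t) = TS η F₀ F₁ F₂ κ + TS η F₀ F₁ F₂ κ' := by
  unfold TS
  rw [← Finset.sum_add_distrib]
  refine Finset.sum_congr rfl fun k₀ _ => ?_
  rw [← Finset.sum_add_distrib]
  refine Finset.sum_congr rfl fun k₁ _ => ?_
  rw [← Finset.sum_add_distrib]
  refine Finset.sum_congr rfl fun k₂ _ => ?_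
  obtain ⟨B, hB⟩ := hB k₂ k₀
  obtain ⟨B', hB'⟩ := hB' k₂ k₀
  rw [Jc_add_core η k₀ k₁ k₂ (h k₂ k₀) (h' k₂ k₀) hB hB']
  ring

end additivity

private theorem TS_smul_core (η : ℝ) {N : ℕ} (s₀ s₁ s₂ : ℝ)
    (F₀ F₁ F₂ : Matrix (Fin (2 * N)) (Fin (2 * N)) ℝ) (κ : Fin (2 * N) → Fin (2 * N) → ℝ → ℝ) :
    TS η (s₀ • F₀) (s₁ • F₁) (s₂ • F₂) κ = s₀ * s₁ * s₂ * TS η F₀ F₁ F₂ κ := by
  unfold TS
  simp only [Finset.mul_sum, Matrix.smul_apply, smul_eq_mul]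
  refine Finset.sum_congr rfl fun k₀ _ => Finset.sum_congr rfl fun k₁ _ =>
    Finset.sum_congr rfl fun k₂ _ => ?_
  ring

private theorem n3_smul_core (η : ℝ) {N : ℕ} {s : ℝ} (hs : 0 ≤ s)
    (F : Matrix (Fin (2 * N)) (Fin (2 * N)) ℝ) : n3 η (s • F) = s ^ 3 * n3 η F := by
  unfold n3
  simp only [Matrix.smul_apply, smul_eq_mul, abs_mul, abs_of_nonneg hs, mul_pow,
    ← Finset.mul_sum]
  ring

private theorem n3_zero_core {η : ℝ} (hη : 0 < η) {N : ℕ}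
    {F : Matrix (Fin (2 * N)) (Fin (2 * N)) ℝ} (h : n3 η F = 0) : F = 0 := by
  unfold n3 at h
  have h1 : ∑ a, ∑ b, |F a b| ^ 3 = 0 := by
    rcases mul_eq_zero.1 h with h | h
    · exact absurd h (by positivity)
    · exact h
  ext a b
  have h2 := (Finset.sum_eq_zero_iff_of_nonneg (fun a _ => Finset.sum_nonneg fun b _ =>
    pow_nonneg (abs_nonneg (F a b)) 3)).1 h1 a (Finset.mem_univ _)
  have h3 := (Finset.sum_eq_zero_iff_of_nonneg (fun b _ =>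
    pow_nonneg (abs_nonneg (F a b)) 3)).1 h2 b (Finset.mem_univ _)
  exact abs_eq_zero.1 (pow_eq_zero_iff (three_ne_zero) |>.1 h3)

private theorem cube_root {x : ℝ} (hx : 0 ≤ x) : (x ^ 3) ^ (1 / 3 : ℝ) = x := by
  rw [← Real.rpow_natCast, ← Real.rpow_mul hx]
  norm_num

private theorem cube_root_sq {x : ℝ} (hx : 0 ≤ x) : (x ^ 3) ^ (2 / 3 : ℝ) = x ^ 2 := by
  rw [← Real.rpow_natCast, ← Real.rpow_mul hx, ← Real.rpow_natCast]
  norm_num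

open Classical in
/-- **Core theorem.**  `Kt u t + Dk u t = 1_{u ≤ |t|}/t`; add `partA` and `partB`.  By homogeneity: if one of
the norms vanishes, that matrix is `0` and so is the left side; otherwise rescale so that
`n3 F₀ = n3 F₁ = √n` (`‖F₀‖₃ = n^{1/6}`), `n3 F₂ = 1/n` (`‖F₂‖₃ = n^{-1/3}`); then both right hand sides are `≤ C √n`
and the product of the three norms is `1`. -/
theorem core : ∃ C : ℝ, 0 ≤ C ∧ ∀ (η : ℝ), 0 < η → ∀ (N Q n : ℕ), 1 ≤ n → ∀ (J : JumpData N Q n)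
    (F₀ F₁ F₂ : Matrix (Fin (2 * N)) (Fin (2 * N)) ℝ),
    |TS η F₀ F₁ F₂ (fun k₂ k₀ t => ∑ q, J.a q k₂ k₀ * (if J.r q ≤ |t| then 1 / t else 0))| ≤
      C * Real.sqrt n * n3 η F₀ ^ (1 / 3 : ℝ) * n3 η F₁ ^ (1 / 3 : ℝ) * n3 η F₂ ^ (1 / 3 : ℝ) := by
  obtain ⟨CA, hCA, hA⟩ := partA
  obtain ⟨CB, hCB, hB⟩ := partB
  refine ⟨6 * CA + 2 * CB, by positivity, fun η hη N Q n hn J F₀ F₁ F₂ => ?_⟩
  -- splitting of the kernel
  have hsplit : ∀ (G₀ G₁ G₂ : Matrix (Fin (2 * N)) (Fin (2 * N)) ℝ),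
      TS η G₀ G₁ G₂ (fun k₂ k₀ t => ∑ q, J.a q k₂ k₀ * (if J.r q ≤ |t| then 1 / t else 0)) =
      TS η G₀ G₁ G₂ (fun k₂ k₀ t => ∑ q, J.a q k₂ k₀ * Kt (J.r q) t) +
      TS η G₀ G₁ G₂ (fun k₂ k₀ t => ∑ q, J.a q k₂ k₀ * Dk (J.r q) t) := by
    intro G₀ G₁ G₂
    have hDb : ∀ {u : ℝ}, 0 < u → ∀ x, |Dk u x| ≤ 10 / u := by
      intro u hu x
      refine (abs_Dk_le hu x).trans ?_
      have h1 : Real.exp (-x ^ 2 / (4 * u ^ 2)) ≤ 1 := by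
        rw [Real.exp_le_one_iff]
        apply div_nonpos_of_nonpos_of_nonneg
        · nlinarith [sq_nonneg x]
        · positivity
      calc 10 / u * Real.exp (-x ^ 2 / (4 * u ^ 2)) ≤ 10 / u * 1 :=
            mul_le_mul_of_nonneg_left h1 (by positivity)
        _ = 10 / u := mul_one _
    have hKm : ∀ u, Measurable (Kt u) := by
      intro u
      unfold Kt
      fun_prop
    have hKb : ∀ {u : ℝ}, 0 < u → ∀ x, |Kt u x| ≤ 11 / u := by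
      intro u hu x
      have h1 : Kt u x = (if u ≤ |x| then 1 / x else 0) - Dk u x := by
        rw [← Kt_add_Dk hu]; ring
      have h2 : |(if u ≤ |x| then 1 / x else 0 : ℝ)| ≤ 1 / u := by
        split_ifs with h
        · rw [abs_div, abs_one]
          exact one_div_le_one_div_of_le hu h
        · rw [abs_zero]; positivity
      calc |Kt u x| ≤ |(if u ≤ |x| then 1 / x else 0 : ℝ)| + |Dk u x| := by
            rw [h1]; exact abs_sub _ _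
        _ ≤ 1 / u + 10 / u := add_le_add h2 (hDb hu x)
        _ = 11 / u := by ring
    have hadd := TS_add_core η G₀ G₁ G₂
      (κ := fun k₂ k₀ t => ∑ q, J.a q k₂ k₀ * Kt (J.r q) t)
      (κ' := fun k₂ k₀ t => ∑ q, J.a q k₂ k₀ * Dk (J.r q) t)
      (fun a b => Finset.measurable_sum _ fun q _ => (hKm _).const_mul _)
      (fun a b => Finset.measurable_sum _ fun q _ => (measurable_Dk _).const_mul _)
      (fun a b => ⟨∑ q, |J.a q a b| * (11 / J.r q), fun x =>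
        (Finset.abs_sum_le_sum_abs _ _).trans (Finset.sum_le_sum fun q _ => by
          rw [abs_mul]
          exact mul_le_mul_of_nonneg_left (hKb (J.r_pos q) x) (abs_nonneg _))⟩)
      (fun a b => ⟨∑ q, |J.a q a b| * (10 / J.r q), fun x =>
        (Finset.abs_sum_le_sum_abs _ _).trans (Finset.sum_le_sum fun q _ => by
          rw [abs_mul]
          exact mul_le_mul_of_nonneg_left (hDb (J.r_pos q) x) (abs_nonneg _))⟩)
    rw [← hadd]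
    congr 1
    funext k₂ k₀ t
    rw [← Finset.sum_add_distrib]
    refine Finset.sum_congr rfl fun q _ => ?_
    rw [← mul_add, Kt_add_Dk (J.r_pos q)]
  -- degenerate cases
  have hzero : ∀ {G : Matrix (Fin (2 * N)) (Fin (2 * N)) ℝ}, n3 η G = 0 → G = 0 :=
    fun h => n3_zero_core hη h
  have hRHS : 0 ≤ (6 * CA + 2 * CB) * Real.sqrt n * n3 η F₀ ^ (1 / 3 : ℝ) *
      n3 η F₁ ^ (1 / 3 : ℝ) * n3 η F₂ ^ (1 / 3 : ℝ) := by
    have h0 := Real.rpow_nonneg (n3_nonneg η F₀) (1 / 3 : ℝ)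
    have h1 := Real.rpow_nonneg (n3_nonneg η F₁) (1 / 3 : ℝ)
    have h2 := Real.rpow_nonneg (n3_nonneg η F₂) (1 / 3 : ℝ)
    have h3 := Real.sqrt_nonneg n
    positivity
  by_cases hz0 : n3 η F₀ = 0
  · have : TS η F₀ F₁ F₂ (fun k₂ k₀ t => ∑ q, J.a q k₂ k₀ * (if J.r q ≤ |t| then 1 / t else 0)) = 0 := by
      rw [hzero hz0]
      simp [TS]
    rw [this, abs_zero]; exact hRHS
  by_cases hz1 : n3 η F₁ = 0
  · have : TS η F₀ F₁ F₂ (fun k₂ k₀ t => ∑ q, J.a q k₂ k₀ * (if J.r q ≤ |t| then 1 / t else 0)) = 0 := by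
      rw [hzero hz1]
      simp [TS]
    rw [this, abs_zero]; exact hRHS
  by_cases hz2 : n3 η F₂ = 0
  · have : TS η F₀ F₁ F₂ (fun k₂ k₀ t => ∑ q, J.a q k₂ k₀ * (if J.r q ≤ |t| then 1 / t else 0)) = 0 := by
      rw [hzero hz2]
      simp [TS]
    rw [this, abs_zero]; exact hRHS
  -- main case
  obtain ⟨α, hα, hαe⟩ : ∃ α : ℝ, 0 < α ∧ n3 η F₀ = α ^ 3 := by
    have hp : 0 < n3 η F₀ := lt_of_le_of_ne (n3_nonneg η F₀) (Ne.symm hz0)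
    refine ⟨n3 η F₀ ^ (1 / 3 : ℝ), Real.rpow_pos_of_pos hp _, ?_⟩
    rw [← Real.rpow_natCast, ← Real.rpow_mul hp.le]
    norm_num
  obtain ⟨β, hβ, hβe⟩ : ∃ α : ℝ, 0 < α ∧ n3 η F₁ = α ^ 3 := by
    have hp : 0 < n3 η F₁ := lt_of_le_of_ne (n3_nonneg η F₁) (Ne.symm hz1)
    refine ⟨n3 η F₁ ^ (1 / 3 : ℝ), Real.rpow_pos_of_pos hp _, ?_⟩
    rw [← Real.rpow_natCast, ← Real.rpow_mul hp.le]
    norm_num
  obtain ⟨γ, hγ, hγe⟩ : ∃ α : ℝ, 0 < α ∧ n3 η F₂ = α ^ 3 := by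
    have hp : 0 < n3 η F₂ := lt_of_le_of_ne (n3_nonneg η F₂) (Ne.symm hz2)
    refine ⟨n3 η F₂ ^ (1 / 3 : ℝ), Real.rpow_pos_of_pos hp _, ?_⟩
    rw [← Real.rpow_natCast, ← Real.rpow_mul hp.le]
    norm_num
  have hn1 : (1 : ℝ) ≤ n := by exact_mod_cast hn
  obtain ⟨m, hm1, hme⟩ : ∃ m : ℝ, 1 ≤ m ∧ (n : ℝ) = m ^ 6 := by
    refine ⟨(n : ℝ) ^ (1 / 6 : ℝ), Real.one_le_rpow hn1 (by norm_num), ?_⟩
    rw [← Real.rpow_natCast, ← Real.rpow_mul (by positivity)]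
    norm_num
  have hm0 : 0 < m := by linarith
  have hsq : Real.sqrt n = m ^ 3 := by
    rw [hme, show m ^ 6 = (m ^ 3) ^ 2 by ring, Real.sqrt_sq (by positivity)]
  set s₀ : ℝ := m / α with hs₀
  set s₁ : ℝ := m / β with hs₁
  set s₂ : ℝ := (m ^ 2)⁻¹ / γ with hs₂
  have hs₀0 : 0 < s₀ := by positivity
  have hs₁0 : 0 < s₁ := by positivity
  have hs₂0 : 0 < s₂ := by positivity
  have hn0 : n3 η (s₀ • F₀) = m ^ 3 := by
    rw [n3_smul_core η hs₀0.le, hαe, hs₀]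
    field_simp
  have hn1' : n3 η (s₁ • F₁) = m ^ 3 := by
    rw [n3_smul_core η hs₁0.le, hβe, hs₁]
    field_simp
  have hn2 : n3 η (s₂ • F₂) = ((m ^ 2)⁻¹) ^ 3 := by
    rw [n3_smul_core η hs₂0.le, hγe, hs₂]
    field_simp
  have hAs := hA η hη N Q n hn J (s₀ • F₀) (s₁ • F₁) (s₂ • F₂)
  have hBs := hB η hη N Q n hn J (s₀ • F₀) (s₁ • F₁) (s₂ • F₂)
  have hm2 : 0 ≤ (m ^ 2)⁻¹ := by positivity
  rw [hn0, hn1', hn2, cube_root hm0.le, cube_root hm2, cube_root_sq hm2, hme] at hAs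
  rw [hn0, hn1', hn2, cube_root_sq hm2, hme] at hBs
  have hA1 : |TS η (s₀ • F₀) (s₁ • F₁) (s₂ • F₂) (fun k₂ k₀ t => ∑ q, J.a q k₂ k₀ * Kt (J.r q) t)| ≤
      6 * CA * m ^ 3 := by
    refine hAs.trans ?_
    have e1 : m ^ 6 * (m ^ 2)⁻¹ ^ 2 * (m + m + (m ^ 2)⁻¹) = 2 * m ^ 3 + 1 := by
      field_simp
      ring
    rw [e1]
    have e2 : (m ^ 2)⁻¹ ^ 3 ≤ 1 := by
      apply pow_le_one₀ hm2
      apply inv_le_one_of_one_le₀
      nlinarith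
    have e3 : 1 ≤ m ^ 3 := one_le_pow₀ hm1
    have e4 : m ^ 3 + m ^ 3 + (m ^ 2)⁻¹ ^ 3 + (2 * m ^ 3 + 1) ≤ 6 * m ^ 3 := by linarith
    calc CA * (m ^ 3 + m ^ 3 + (m ^ 2)⁻¹ ^ 3 + (2 * m ^ 3 + 1)) ≤ CA * (6 * m ^ 3) :=
          mul_le_mul_of_nonneg_left e4 hCA
      _ = 6 * CA * m ^ 3 := by ring
  have hB1 : |TS η (s₀ • F₀) (s₁ • F₁) (s₂ • F₂) (fun k₂ k₀ t => ∑ q, J.a q k₂ k₀ * Dk (J.r q) t)| ≤
      2 * CB * m ^ 3 := by
    refine hBs.trans ?_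
    have e1 : (m ^ 3 + m ^ 3) ^ (1 / 3 : ℝ) ≤ 2 * m := by
      calc (m ^ 3 + m ^ 3) ^ (1 / 3 : ℝ) ≤ ((2 * m) ^ 3) ^ (1 / 3 : ℝ) := by
            apply Real.rpow_le_rpow (by positivity) _ (by norm_num)
            have : 0 < m ^ 3 := by positivity
            nlinarith
        _ = 2 * m := cube_root (by positivity)
    have e2 : (m ^ 3 + m ^ 3) * (m ^ 6 * (m ^ 2)⁻¹ ^ 2 * (m ^ 3 + m ^ 3) ^ (1 / 3 : ℝ)) ≤
        (2 * m ^ 3) ^ 2 := by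
      calc (m ^ 3 + m ^ 3) * (m ^ 6 * (m ^ 2)⁻¹ ^ 2 * (m ^ 3 + m ^ 3) ^ (1 / 3 : ℝ))
          ≤ (m ^ 3 + m ^ 3) * (m ^ 6 * (m ^ 2)⁻¹ ^ 2 * (2 * m)) := by gcongr
        _ = (2 * m ^ 3) ^ 2 := by
          field_simp
          ring
    have e3 : ((m ^ 3 + m ^ 3) * (m ^ 6 * (m ^ 2)⁻¹ ^ 2 * (m ^ 3 + m ^ 3) ^ (1 / 3 : ℝ))) ^ (1 / 2 : ℝ) ≤
        2 * m ^ 3 := by
      rw [← Real.sqrt_eq_rpow]
      calc Real.sqrt ((m ^ 3 + m ^ 3) * (m ^ 6 * (m ^ 2)⁻¹ ^ 2 * (m ^ 3 + m ^ 3) ^ (1 / 3 : ℝ)))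
          ≤ Real.sqrt ((2 * m ^ 3) ^ 2) := Real.sqrt_le_sqrt e2
        _ = 2 * m ^ 3 := Real.sqrt_sq (by positivity)
    calc CB * ((m ^ 3 + m ^ 3) * (m ^ 6 * (m ^ 2)⁻¹ ^ 2 * (m ^ 3 + m ^ 3) ^ (1 / 3 : ℝ))) ^ (1 / 2 : ℝ)
        ≤ CB * (2 * m ^ 3) := mul_le_mul_of_nonneg_left e3 hCB
      _ = 2 * CB * m ^ 3 := by ring
  have htot : |TS η (s₀ • F₀) (s₁ • F₁) (s₂ • F₂)
      (fun k₂ k₀ t => ∑ q, J.a q k₂ k₀ * (if J.r q ≤ |t| then 1 / t else 0))| ≤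
      (6 * CA + 2 * CB) * m ^ 3 := by
    rw [hsplit]
    calc _ ≤ _ := abs_add_le _ _
      _ ≤ 6 * CA * m ^ 3 + 2 * CB * m ^ 3 := add_le_add hA1 hB1
      _ = (6 * CA + 2 * CB) * m ^ 3 := by ring
  rw [TS_smul_core, abs_mul, abs_of_pos (by positivity : 0 < s₀ * s₁ * s₂)] at htot
  rw [hαe, hβe, hγe, cube_root hα.le, cube_root hβ.le, cube_root hγ.le, hsq]
  have hprod : s₀ * s₁ * s₂ * (α * β * γ) = 1 := by
    rw [hs₀, hs₁, hs₂]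
    field_simp
  calc |TS η F₀ F₁ F₂ (fun k₂ k₀ t => ∑ q, J.a q k₂ k₀ * (if J.r q ≤ |t| then 1 / t else 0))|
      = (s₀ * s₁ * s₂ * |TS η F₀ F₁ F₂
        (fun k₂ k₀ t => ∑ q, J.a q k₂ k₀ * (if J.r q ≤ |t| then 1 / t else 0))|) * (α * β * γ) := by
        rw [mul_right_comm, hprod, one_mul]
    _ ≤ ((6 * CA + 2 * CB) * m ^ 3) * (α * β * γ) :=
        mul_le_mul_of_nonneg_right htot (by positivity)
    _ = (6 * CA + 2 * CB) * m ^ 3 * α * β * γ := by ring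

end Crest.Agent.TH
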