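import Crest.Agent.TH_MC1b
import Crest.Agent.TH_Conv
import Crest.Agent.TH_FopDeriv

/-! # TH_Cost (task TH-A6): the cost of changing one of the two functions -/

set_option autoImplicit false
open Matrix MeasureTheory Set Filter
open scoped Topology ENNReal

namespace Crest.Agent.TH
variable {ι κ : Type*} [Fintype ι] [DecidableEq ι] [Fintype κ] [DecidableEq κ]

private theorem cost_scalar {x : ℝ} (hx : 0 ≤ x) :
    IntegrableOn (fun v : ℝ => x / (v ^ 2 + x)) (Ioi 0) ∧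
      ∫ v in Ioi (0 : ℝ), x / (v ^ 2 + x) = Real.pi / 2 * Real.sqrt x := by
  rcases hx.eq_or_lt with h0 | h0
  · subst h0
    simp
  · set s := Real.sqrt x with hs
    have hs0 : 0 < s := Real.sqrt_pos.2 h0
    have hs2 : s ^ 2 = x := Real.sq_sqrt hx
    have hd : ∀ v ∈ Ici (0:ℝ), HasDerivAt (fun v => s * Real.arctan (v / s)) (x / (v ^ 2 + x)) v := by
      intro v _
      have d7 : HasDerivAt (fun v : ℝ => v / s) (1 / s) v := (hasDerivAt_id v).div_const s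
      refine (d7.arctan.const_mul s).congr_deriv ?_
      rw [← hs2]
      field_simp
      ring
    have hlim : Tendsto (fun v => s * Real.arctan (v / s)) atTop (𝓝 (s * (Real.pi / 2))) :=
      ((tendsto_nhds_of_tendsto_nhdsWithin Real.tendsto_arctan_atTop).comp
        (tendsto_id.atTop_div_const hs0)).const_mul s
    have hnn : ∀ v ∈ Ioi (0:ℝ), 0 ≤ x / (v ^ 2 + x) := fun v _ => by positivity
    refine ⟨integrableOn_Ioi_deriv_of_nonneg' hd hnn hlim, ?_⟩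
    rw [integral_Ioi_of_hasDerivAt_of_nonneg' hd hnn hlim]
    simp
    ring

omit [Fintype κ] [DecidableEq κ] in
private theorem cost_entry {U : Matrix ι ι ℝ} (hU1 : U * Uᵀ = 1) {x : ι → ℝ} (hx : ∀ i, 0 ≤ x i)
    (Y : Matrix ι κ ℝ) (i : ι) (j : κ) :
    |(U * diagonal (fun k => Real.sqrt (x k)) * Uᵀ * Y) i j| ≤
      Real.sqrt ((U * diagonal x * Uᵀ) i i) * Real.sqrt (∑ i', Y i' j ^ 2) := by
  have e1 : (U * diagonal (fun k => Real.sqrt (x k)) * Uᵀ * Y) i j =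
      ∑ k, (U i k * Real.sqrt (x k)) * (Uᵀ * Y) k j := by
    rw [Matrix.mul_assoc, Matrix.mul_apply]
    refine Finset.sum_congr rfl fun k _ => ?_
    rw [Matrix.mul_diagonal]
  have e2 : (U * diagonal x * Uᵀ) i i = ∑ k, (U i k * Real.sqrt (x k)) ^ 2 := by
    rw [Matrix.mul_apply]
    refine Finset.sum_congr rfl fun k _ => ?_
    rw [Matrix.mul_diagonal, Matrix.transpose_apply, mul_pow, Real.sq_sqrt (hx k)]
    ring
  have e3 : ∑ i', Y i' j ^ 2 = ∑ k, ((Uᵀ * Y) k j) ^ 2 := by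
    have h : ((Uᵀ * Y)ᵀ * (Uᵀ * Y)) j j = (Yᵀ * Y) j j := by
      rw [Matrix.transpose_mul, Matrix.transpose_transpose, Matrix.mul_assoc, ← Matrix.mul_assoc U,
        hU1, Matrix.one_mul]
    rw [Matrix.mul_apply, Matrix.mul_apply] at h
    simp only [Matrix.transpose_apply, ← sq] at h
    exact h.symm
  rw [e1, e2, e3, ← Real.sqrt_mul (Finset.sum_nonneg fun k _ => sq_nonneg _)]
  exact Real.abs_le_sqrt (Finset.sum_mul_sq_le_sq_mul_sq _ _ _)

omit [DecidableEq ι] [DecidableEq κ] in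
private theorem cost_trace (R : Matrix ι ι ℝ) (hR : Rᵀ = R) (E : Matrix ι ι ℝ) (X X' : Matrix ι κ ℝ) :
    (R * ((E + X' * X'ᵀ) - (E + X * Xᵀ))).trace =
      ∑ i, ∑ j, (X' i j - X i j) * ((R * X') i j + (R * X) i j) := by
  have e0 : (E + X' * X'ᵀ) - (E + X * Xᵀ) = (X' - X) * X'ᵀ + X * (X' - X)ᵀ := by
    rw [Matrix.sub_mul, Matrix.transpose_sub, Matrix.mul_sub]
    abel
  have e1 : (R * ((X' - X) * X'ᵀ)).trace = (R * X' * (X' - X)ᵀ).trace := by
    rw [← Matrix.trace_transpose, Matrix.transpose_mul, Matrix.transpose_mul, hR,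
      Matrix.transpose_transpose, Matrix.trace_mul_comm, Matrix.mul_assoc]
  have e2 : ∀ Z : Matrix ι κ ℝ, (R * Z * (X' - X)ᵀ).trace =
      ∑ i, ∑ j, (X' i j - X i j) * (R * Z) i j := by
    intro Z
    rw [Matrix.trace]
    refine Finset.sum_congr rfl fun i _ => ?_
    rw [Matrix.diag_apply, Matrix.mul_apply]
    refine Finset.sum_congr rfl fun j _ => ?_
    rw [Matrix.transpose_apply, Matrix.sub_apply]
    ring
  rw [e0, Matrix.mul_add, Matrix.trace_add, e1, ← Matrix.mul_assoc, e2, e2, ← Finset.sum_add_distrib]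
  refine Finset.sum_congr rfl fun i _ => ?_
  rw [← Finset.sum_add_distrib]
  refine Finset.sum_congr rfl fun j _ => ?_
  ring

/-- `pot_sub_le`; `∫_0^∞ hop v H' dv = (π/2) H'^{1/2}` (spectral form, `∫_0^∞ x/(v²+x) dv = (π/2)√x`);
`H' - H = (X'-X) X'ᵀ + X (X'-X)ᵀ`; and `|(H'^{1/2} Y)_{ij}| ≤ √(H'_ii) (∑_{i'} Y_{i'j}²)^{1/2}`
(Cauchy–Schwarz in the eigenbasis). -/
theorem cost_matrix (E : Matrix ι ι ℝ) (hE : E.PosSemidef) (X X' : Matrix ι κ ℝ) :
    IntegrableOn (fun v => pot v (E + X' * X'ᵀ) - pot v (E + X * Xᵀ)) (Ioi 0) ∧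
    ∫ v in Ioi (0 : ℝ), (pot v (E + X' * X'ᵀ) - pot v (E + X * Xᵀ)) ≤
      Real.pi / 2 * ∑ i, ∑ j, |X' i j - X i j| * Real.sqrt ((E + X' * X'ᵀ) i i) *
        (Real.sqrt (∑ i', X' i' j ^ 2) + Real.sqrt (∑ i', X i' j ^ 2)) := by
  have hp' : (E + X' * X'ᵀ).PosSemidef := hE.add (by
    simpa using Matrix.posSemidef_self_mul_conjTranspose X')
  have hp : (E + X * Xᵀ).PosSemidef := hE.add (by
    simpa using Matrix.posSemidef_self_mul_conjTranspose X)
  have hI' := (pot_integral_le hp').1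
  have hI := (pot_integral_le hp).1
  refine ⟨hI'.sub hI, ?_⟩
  obtain ⟨U, x, hx, hU1, hU2, hHU, hh, -⟩ := exists_spectral hp'
  set D : Matrix ι ι ℝ := (E + X' * X'ᵀ) - (E + X * Xᵀ) with hD
  set c : ι → ℝ := fun k => (Uᵀ * D * U) k k with hc
  have htr : ∀ a : ι → ℝ, (U * diagonal a * Uᵀ * D).trace = ∑ k, a k * c k := by
    intro a
    rw [Matrix.mul_assoc, Matrix.mul_assoc, Matrix.trace_mul_comm, Matrix.mul_assoc, Matrix.trace]
    refine Finset.sum_congr rfl fun k _ => ?_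
    rw [Matrix.diag_apply, Matrix.diagonal_mul]
  have hint : IntegrableOn (fun v : ℝ => ∑ k, x k / (v ^ 2 + x k) * c k) (Ioi 0) := by
    refine integrable_finsetSum _ fun k _ => ?_
    exact (cost_scalar (hx k)).1.mul_const (c k)
  have h1 : ∫ v in Ioi (0 : ℝ), (pot v (E + X' * X'ᵀ) - pot v (E + X * Xᵀ)) ≤
      ∫ v in Ioi (0 : ℝ), ∑ k, x k / (v ^ 2 + x k) * c k := by
    refine setIntegral_mono_on (hI'.sub hI) hint measurableSet_Ioi fun v hv => ?_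
    have h := pot_sub_le (v := v) hv hp hp'
    rw [hh v hv, ← hD, htr] at h
    exact h
  have h2 : ∫ v in Ioi (0 : ℝ), ∑ k, x k / (v ^ 2 + x k) * c k =
      Real.pi / 2 * ∑ k, Real.sqrt (x k) * c k := by
    rw [integral_finsetSum _ fun k _ => (cost_scalar (hx k)).1.mul_const (c k), Finset.mul_sum]
    refine Finset.sum_congr rfl fun k _ => ?_
    rw [integral_mul_const, (cost_scalar (hx k)).2]
    ring
  set R : Matrix ι ι ℝ := U * diagonal (fun k => Real.sqrt (x k)) * Uᵀ with hR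
  have hRt : Rᵀ = R := by
    rw [hR, Matrix.transpose_mul, Matrix.transpose_mul, Matrix.transpose_transpose,
      Matrix.diagonal_transpose, Matrix.mul_assoc]
  have h3 : ∑ k, Real.sqrt (x k) * c k =
      ∑ i, ∑ j, (X' i j - X i j) * ((R * X') i j + (R * X) i j) := by
    rw [← htr (fun k => Real.sqrt (x k)), ← hR, hD, cost_trace R hRt]
  rw [h2, h3] at h1
  refine h1.trans ?_
  refine mul_le_mul_of_nonneg_left ?_ (by positivity)
  refine Finset.sum_le_sum fun i _ => Finset.sum_le_sum fun j _ => ?_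
  refine (le_abs_self _).trans ?_
  rw [abs_mul, mul_assoc]
  refine mul_le_mul_of_nonneg_left ?_ (abs_nonneg _)
  refine (abs_add_le _ _).trans ?_
  rw [mul_add]
  have h4 := cost_entry hU1 hx X' i j
  have h5 := cost_entry hU1 hx X i j
  rw [← hHU] at h4 h5
  exact add_le_add h4 h5

private theorem cost_diag (F G : Matrix ι ι ℝ) {w₀ w₁ w₂ : ι → ℝ} (hw₁ : ∀ k, 0 < w₁ k) (i : ι) :
    (diagonal (fun k => Real.sqrt (w₁ k)) * Kmat F G w₀ w₂ * diagonal (fun k => Real.sqrt (w₁ k))) i i =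
      w₁ i * ((∑ k, F k i ^ 2 * w₀ k) + ∑ j, G i j ^ 2 * w₂ j) := by
  rw [Matrix.mul_diagonal, Matrix.diagonal_mul]
  have h1 : (Fᵀ * diagonal w₀ * F) i i = ∑ k, F k i ^ 2 * w₀ k := by
    rw [Matrix.mul_apply]
    refine Finset.sum_congr rfl fun k _ => ?_
    rw [Matrix.mul_diagonal, Matrix.transpose_apply]
    ring
  have h2 : (G * diagonal w₂ * Gᵀ) i i = ∑ j, G i j ^ 2 * w₂ j := by
    rw [Matrix.mul_apply]
    refine Finset.sum_congr rfl fun k _ => ?_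
    rw [Matrix.mul_diagonal, Matrix.transpose_apply]
    ring
  have h3 : Kmat F G w₀ w₂ i i = (∑ k, F k i ^ 2 * w₀ k) + ∑ j, G i j ^ 2 * w₂ j := by
    rw [Kmat, Matrix.add_apply, h1, h2]
  rw [h3]
  calc Real.sqrt (w₁ i) * ((∑ k, F k i ^ 2 * w₀ k) + ∑ j, G i j ^ 2 * w₂ j) * Real.sqrt (w₁ i)
      = (Real.sqrt (w₁ i) * Real.sqrt (w₁ i)) * ((∑ k, F k i ^ 2 * w₀ k) + ∑ j, G i j ^ 2 * w₂ j) := by
        ring
    _ = _ := by rw [Real.mul_self_sqrt (hw₁ i).le]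

private theorem cost_conj_psd {K : Matrix ι ι ℝ} (hK : K.PosSemidef) (w : ι → ℝ) :
    (diagonal w * K * diagonal w).PosSemidef := by
  have h := hK.mul_mul_conjTranspose_same (diagonal w)
  rwa [conjTranspose_eq_transpose_of_trivial, diagonal_transpose] at h

private theorem cost_split (F G : Matrix ι ι ℝ) {w₀ w₁ w₂ : ι → ℝ} (hw₂ : ∀ k, 0 < w₂ k) :
    diagonal (fun k => Real.sqrt (w₁ k)) * Kmat F G w₀ w₂ * diagonal (fun k => Real.sqrt (w₁ k)) =
      diagonal (fun k => Real.sqrt (w₁ k)) * (Fᵀ * diagonal w₀ * F) * diagonal (fun k => Real.sqrt (w₁ k)) +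
      (diagonal (fun k => Real.sqrt (w₁ k)) * G * diagonal (fun k => Real.sqrt (w₂ k))) *
        (diagonal (fun k => Real.sqrt (w₁ k)) * G * diagonal (fun k => Real.sqrt (w₂ k)))ᵀ := by
  have h2 : diagonal (fun k => Real.sqrt (w₂ k)) * diagonal (fun k => Real.sqrt (w₂ k)) = diagonal w₂ := by
    rw [diagonal_mul_diagonal]
    congr 1
    funext k
    exact Real.mul_self_sqrt (hw₂ k).le
  rw [Kmat, Matrix.mul_add, Matrix.add_mul]
  congr 1
  rw [← h2]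
  simp only [Matrix.transpose_mul, Matrix.diagonal_transpose, Matrix.mul_assoc]

/-- with weights: `X = √w₁ G √w₂`, `E = √w₁ Fᵀ W₀ F √w₁`. -/
theorem cost_weights (F G G' Gh : Matrix ι ι ℝ) {w₀ w₁ w₂ : ι → ℝ}
    (hw₀ : ∀ k, 0 < w₀ k) (hw₁ : ∀ k, 0 < w₁ k) (hw₂ : ∀ k, 0 < w₂ k)
    (hG : ∀ i j, |G i j| ≤ Gh i j) (hG' : ∀ i j, |G' i j| ≤ Gh i j) :
    IntegrableOn (fun v => pot v (diagonal w₁ * Kmat F G' w₀ w₂) - pot v (diagonal w₁ * Kmat F G w₀ w₂))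
      (Ioi 0) ∧
    ∫ v in Ioi (0 : ℝ), (pot v (diagonal w₁ * Kmat F G' w₀ w₂) - pot v (diagonal w₁ * Kmat F G w₀ w₂)) ≤
      Real.pi * ∑ i, ∑ j, w₁ i * w₂ j * |G' i j - G i j| *
        Real.sqrt ((∑ k, F k i ^ 2 * w₀ k) + ∑ j', Gh i j' ^ 2 * w₂ j') *
        Real.sqrt (∑ i', w₁ i' * Gh i' j ^ 2) := by
  set E : Matrix ι ι ℝ := diagonal (fun k => Real.sqrt (w₁ k)) * (Fᵀ * diagonal w₀ * F) *
    diagonal (fun k => Real.sqrt (w₁ k)) with hE
  have hEp : E.PosSemidef := by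
    refine cost_conj_psd ?_ _
    have h1 := (Matrix.PosSemidef.diagonal (fun k => (hw₀ k).le)).conjTranspose_mul_mul_same F
    rwa [conjTranspose_eq_transpose_of_trivial] at h1
  have key := cost_matrix E hEp
    (diagonal (fun k => Real.sqrt (w₁ k)) * G * diagonal (fun k => Real.sqrt (w₂ k)))
    (diagonal (fun k => Real.sqrt (w₁ k)) * G' * diagonal (fun k => Real.sqrt (w₂ k)))
  rw [hE, ← cost_split F G hw₂, ← cost_split F G' hw₂] at key
  have hsq : ∀ (G₀ : Matrix ι ι ℝ), (∀ i j, |G₀ i j| ≤ Gh i j) → ∀ i j, G₀ i j ^ 2 ≤ Gh i j ^ 2 := by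
    intro G₀ h i j
    exact sq_le_sq' (by have := neg_abs_le (G₀ i j); linarith [h i j]) ((le_abs_self _).trans (h i j))
  have hcol : ∀ (G₀ : Matrix ι ι ℝ), (∀ i j, |G₀ i j| ≤ Gh i j) → ∀ j,
      Real.sqrt (∑ i', (diagonal (fun k => Real.sqrt (w₁ k)) * G₀ *
        diagonal (fun k => Real.sqrt (w₂ k))) i' j ^ 2) ≤
      Real.sqrt (w₂ j) * Real.sqrt (∑ i', w₁ i' * Gh i' j ^ 2) := by
    intro G₀ h j
    rw [← Real.sqrt_mul (hw₂ j).le]
    refine Real.sqrt_le_sqrt ?_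
    rw [Finset.mul_sum]
    refine Finset.sum_le_sum fun i' _ => ?_
    rw [Matrix.mul_diagonal, Matrix.diagonal_mul, mul_pow, mul_pow, Real.sq_sqrt (hw₁ i').le,
      Real.sq_sqrt (hw₂ j).le]
    have h5 := hsq G₀ h i' j
    have h6 := mul_le_mul_of_nonneg_left h5 (mul_pos (hw₁ i') (hw₂ j)).le
    linarith
  simp_rw [← pot_eq_sqrt hw₁] at key
  refine ⟨key.1, key.2.trans ?_⟩
  have e0 : Real.pi * ∑ i, ∑ j, w₁ i * w₂ j * |G' i j - G i j| *
        Real.sqrt ((∑ k, F k i ^ 2 * w₀ k) + ∑ j', Gh i j' ^ 2 * w₂ j') *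
        Real.sqrt (∑ i', w₁ i' * Gh i' j ^ 2) =
      Real.pi / 2 * ∑ i, ∑ j, 2 * (w₁ i * w₂ j * |G' i j - G i j| *
        Real.sqrt ((∑ k, F k i ^ 2 * w₀ k) + ∑ j', Gh i j' ^ 2 * w₂ j') *
        Real.sqrt (∑ i', w₁ i' * Gh i' j ^ 2)) := by
    simp only [← Finset.mul_sum]
    ring
  rw [e0]
  refine mul_le_mul_of_nonneg_left ?_ (by positivity)
  refine Finset.sum_le_sum fun i _ => Finset.sum_le_sum fun j _ => ?_
  have hX : |(diagonal (fun k => Real.sqrt (w₁ k)) * G' * diagonal (fun k => Real.sqrt (w₂ k))) i j -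
      (diagonal (fun k => Real.sqrt (w₁ k)) * G * diagonal (fun k => Real.sqrt (w₂ k))) i j| =
      Real.sqrt (w₁ i) * Real.sqrt (w₂ j) * |G' i j - G i j| := by
    rw [Matrix.mul_diagonal, Matrix.diagonal_mul, Matrix.mul_diagonal, Matrix.diagonal_mul]
    have h : Real.sqrt (w₁ i) * G' i j * Real.sqrt (w₂ j) - Real.sqrt (w₁ i) * G i j * Real.sqrt (w₂ j) =
        Real.sqrt (w₁ i) * Real.sqrt (w₂ j) * (G' i j - G i j) := by ring
    rw [h, abs_mul, abs_of_nonneg (by positivity)]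
  have hA : Real.sqrt ((diagonal (fun k => Real.sqrt (w₁ k)) * Kmat F G' w₀ w₂ *
      diagonal (fun k => Real.sqrt (w₁ k))) i i) ≤
      Real.sqrt (w₁ i) * Real.sqrt ((∑ k, F k i ^ 2 * w₀ k) + ∑ j', Gh i j' ^ 2 * w₂ j') := by
    rw [cost_diag F G' hw₁ i, ← Real.sqrt_mul (hw₁ i).le]
    refine Real.sqrt_le_sqrt (mul_le_mul_of_nonneg_left ?_ (hw₁ i).le)
    refine add_le_add le_rfl (Finset.sum_le_sum fun j' _ => ?_)
    exact mul_le_mul_of_nonneg_right (hsq G' hG' i j') (hw₂ j').le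
  rw [hX]
  set A := Real.sqrt ((∑ k, F k i ^ 2 * w₀ k) + ∑ j', Gh i j' ^ 2 * w₂ j') with hAdef
  set B := Real.sqrt (∑ i', w₁ i' * Gh i' j ^ 2) with hBdef
  have hA0 : 0 ≤ A := Real.sqrt_nonneg _
  have hB0 : 0 ≤ B := Real.sqrt_nonneg _
  have s1 : Real.sqrt (w₁ i) * Real.sqrt (w₁ i) = w₁ i := Real.mul_self_sqrt (hw₁ i).le
  have s2 : Real.sqrt (w₂ j) * Real.sqrt (w₂ j) = w₂ j := Real.mul_self_sqrt (hw₂ j).le
  have h0 : 0 ≤ Real.sqrt (w₁ i) * Real.sqrt (w₂ j) * |G' i j - G i j| := by positivity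
  calc _ ≤ Real.sqrt (w₁ i) * Real.sqrt (w₂ j) * |G' i j - G i j| * (Real.sqrt (w₁ i) * A) *
        (Real.sqrt (w₂ j) * B + Real.sqrt (w₂ j) * B) := by
        refine mul_le_mul (mul_le_mul_of_nonneg_left hA h0) (add_le_add (hcol G' hG' j) (hcol G hG j))
          (by positivity) (by positivity)
    _ = 2 * ((Real.sqrt (w₁ i) * Real.sqrt (w₁ i)) * (Real.sqrt (w₂ j) * Real.sqrt (w₂ j)) *
        |G' i j - G i j| * A * B) := by ring
    _ = _ := by rw [s1, s2]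

/-- total mass: `∫_0^∞ pot v (W₁ K) dv ≤ (π/3) (tr W₁ K)^{3/2}` -/
theorem pot_integral_weights (F G : Matrix ι ι ℝ) {w₀ w₁ w₂ : ι → ℝ}
    (hw₀ : ∀ k, 0 < w₀ k) (hw₁ : ∀ k, 0 < w₁ k) (hw₂ : ∀ k, 0 < w₂ k) :
    IntegrableOn (fun v => pot v (diagonal w₁ * Kmat F G w₀ w₂)) (Ioi 0) ∧
    ∫ v in Ioi (0 : ℝ), pot v (diagonal w₁ * Kmat F G w₀ w₂) ≤
      Real.pi / 3 * ((∑ k, ∑ i, w₀ k * w₁ i * F k i ^ 2) + ∑ i, ∑ j, w₁ i * w₂ j * G i j ^ 2) ^ (3 / 2 : ℝ) := by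
  have hK := Kmat_posSemidef F G (fun k => (hw₀ k).le) (fun k => (hw₂ k).le)
  have key := pot_integral_le (cost_conj_psd hK (fun k => Real.sqrt (w₁ k)))
  simp_rw [← pot_eq_sqrt hw₁] at key
  have ht : (diagonal (fun k => Real.sqrt (w₁ k)) * Kmat F G w₀ w₂ *
      diagonal (fun k => Real.sqrt (w₁ k))).trace =
      (∑ k, ∑ i, w₀ k * w₁ i * F k i ^ 2) + ∑ i, ∑ j, w₁ i * w₂ j * G i j ^ 2 := by
    rw [Finset.sum_comm, ← Finset.sum_add_distrib, Matrix.trace]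
    refine Finset.sum_congr rfl fun i _ => ?_
    rw [Matrix.diag_apply, cost_diag F G hw₁ i, mul_add, Finset.mul_sum, Finset.mul_sum]
    congr 1
    · exact Finset.sum_congr rfl fun k _ => by ring
    · exact Finset.sum_congr rfl fun k _ => by ring
  rw [ht] at key
  exact key

end Crest.Agent.TH
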