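import Mathlib

/-! # TH_Defs: basic definitions for the triangular Hilbert transform rows (S0095, S0096, S0097)

Finite dimensional part.  For a positive semidefinite real matrix `H` and `v > 0` (the resolvent
parameter is `θ = v ^ 2`) we put

* `hop v H = H (v² + H)⁻¹`, `fop v H = v² (v² + H)⁻¹` (so `hop + fop = 1`);
* `gn v H b = tr (b h b h)` with `h = hop v H` and `b` a diagonal matrix;
* `pot v H = tr H - v² log det (1 + H / v²)` (sum over the eigenvalues `x` of `x - v² log (1 + x / v²)`).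
-/

set_option autoImplicit false

open Matrix MeasureTheory Set

namespace Crest.Agent.TH

variable {ι κ : Type*} [Fintype ι] [DecidableEq ι] [Fintype κ] [DecidableEq κ]

/-- `H (v² + H)⁻¹`. -/
noncomputable def hop (v : ℝ) (H : Matrix ι ι ℝ) : Matrix ι ι ℝ :=
  H * (v ^ 2 • (1 : Matrix ι ι ℝ) + H)⁻¹

/-- `v² (v² + H)⁻¹`. -/
noncomputable def fop (v : ℝ) (H : Matrix ι ι ℝ) : Matrix ι ι ℝ :=
  v ^ 2 • (v ^ 2 • (1 : Matrix ι ι ℝ) + H)⁻¹

/-- the gain `tr (b h b h)`. -/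
noncomputable def gn (v : ℝ) (H : Matrix ι ι ℝ) (b : ι → ℝ) : ℝ :=
  (diagonal b * hop v H * diagonal b * hop v H).trace

/-- the potential `tr H - v² log det (1 + H / v²)`. -/
noncomputable def pot (v : ℝ) (H : Matrix ι ι ℝ) : ℝ :=
  H.trace - v ^ 2 * Real.log (1 + (v ^ 2)⁻¹ • H).det

/-- the scalar potential `x - v² log (1 + x / v²)`. -/
noncomputable def ell (v x : ℝ) : ℝ := x - v ^ 2 * Real.log (1 + x / v ^ 2)

/-- step functions on the plane of resolution `2 ^ (-L)`: `f` of the integer parts. -/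
noncomputable def stepZ (L : ℕ) (f : ℤ → ℤ → ℝ) (z : ℝ × ℝ) : ℝ :=
  f ⌊2 ^ L * z.1⌋ ⌊2 ^ L * z.2⌋

/-! ## the dyadic model -/

/-- Haar sign on `Fin (2 ^ k)`: `1` on the first half, `-1` on the second half. -/
noncomputable def hs (k : ℕ) (i : Fin (2 ^ k)) : ℝ := if 2 * (i : ℕ) < 2 ^ k then 1 else -1

/-- the normalized block `2^{-k} F(2^k n + i, 2^k m + j)`. -/
noncomputable def blk (F : ℤ → ℤ → ℝ) (k n m : ℕ) : Matrix (Fin (2 ^ k)) (Fin (2 ^ k)) ℝ :=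
  fun i j => F (2 ^ k * n + i) (2 ^ k * m + j) / 2 ^ k

/-- the normalized local form of the dyadic model,
`2^{-3k} ∑ F₀(a₀,a₁) F₁(a₁,a₂) F₂(a₂,a₀) ε(a₀) ε(a₁) ε(a₂)`. -/
noncomputable def dform (k n₀ n₁ n₂ : ℕ) (F₀ F₁ F₂ : ℤ → ℤ → ℝ) : ℝ :=
  (blk F₀ k n₀ n₁ * diagonal (hs k) * blk F₁ k n₁ n₂ * diagonal (hs k) * blk F₂ k n₂ n₀ *
    diagonal (hs k)).trace

/-- `H` at the middle vertex of `F : (n₀,n₁)`, `G : (n₁,n₂)`: `FᵀF + G Gᵀ` of the blocks. -/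
noncomputable def Hblk (F G : ℤ → ℤ → ℝ) (k n₀ n₁ n₂ : ℕ) : Matrix (Fin (2 ^ k)) (Fin (2 ^ k)) ℝ :=
  (blk F k n₀ n₁)ᵀ * blk F k n₀ n₁ + blk G k n₁ n₂ * (blk G k n₁ n₂)ᵀ

end Crest.Agent.TH
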