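import Crest.Agent.TH_Gain
import Crest.Agent.TH_Conv

/-! # TH_Dy1 (task TH-D1): one step of the dyadic tree -/

set_option autoImplicit false
open Matrix MeasureTheory Set Filter
open scoped Topology

namespace Crest.Agent.TH

theorem Hblk_posSemidef (F G : ℤ → ℤ → ℝ) (k n₀ n₁ n₂ : ℕ) :
    (Hblk F G k n₀ n₁ n₂).PosSemidef := by
  unfold Hblk
  have h1 : ((blk F k n₀ n₁)ᵀ * blk F k n₀ n₁).PosSemidef := by
    have := Matrix.posSemidef_conjTranspose_mul_self (blk F k n₀ n₁)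
    rwa [Matrix.conjTranspose_eq_transpose_of_trivial] at this
  have h2 : (blk G k n₁ n₂ * (blk G k n₁ n₂)ᵀ).PosSemidef := by
    have := Matrix.posSemidef_self_mul_conjTranspose (blk G k n₁ n₂)
    rwa [Matrix.conjTranspose_eq_transpose_of_trivial] at this
  exact h1.add h2

theorem hop_submatrix_equiv {ι κ : Type*} [Fintype ι] [DecidableEq ι] [Fintype κ] [DecidableEq κ]
    (v : ℝ) (e : κ ≃ ι) (H : Matrix ι ι ℝ) :
    hop v (H.submatrix e e) = (hop v H).submatrix e e := by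
  unfold hop
  have h1 : (v ^ 2 • (1 : Matrix κ κ ℝ) + H.submatrix e e) =
      (v ^ 2 • (1 : Matrix ι ι ℝ) + H).submatrix e e := by
    ext i j
    simp [Matrix.one_apply]
  rw [h1, Matrix.inv_submatrix_equiv, Matrix.submatrix_mul_equiv]

theorem diagonal_comp_submatrix {ι κ : Type*} [Fintype ι] [DecidableEq ι] [Fintype κ]
    [DecidableEq κ] (e : κ ≃ ι) (b : ι → ℝ) :
    (diagonal (b ∘ e) : Matrix κ κ ℝ) = (diagonal b).submatrix e e := by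
  ext i j
  simp [Matrix.diagonal_apply]

theorem trace_submatrix_equiv {ι κ : Type*} [Fintype ι] [DecidableEq ι] [Fintype κ]
    [DecidableEq κ] (e : κ ≃ ι) (A : Matrix ι ι ℝ) : (A.submatrix e e).trace = A.trace := by
  simp only [Matrix.trace, Matrix.diag, Matrix.submatrix_apply]
  exact Equiv.sum_comp e (fun i => A i i)

theorem gn_submatrix_equiv {ι κ : Type*} [Fintype ι] [DecidableEq ι] [Fintype κ] [DecidableEq κ]
    (v : ℝ) (e : κ ≃ ι) (H : Matrix ι ι ℝ) (b : ι → ℝ) :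
    gn v (H.submatrix e e) (b ∘ e) = gn v H b := by
  unfold gn
  rw [hop_submatrix_equiv, diagonal_comp_submatrix, Matrix.submatrix_mul_equiv,
    Matrix.submatrix_mul_equiv, Matrix.submatrix_mul_equiv, trace_submatrix_equiv]

theorem pot_submatrix_equiv {ι κ : Type*} [Fintype ι] [DecidableEq ι] [Fintype κ] [DecidableEq κ]
    (v : ℝ) (e : κ ≃ ι) (H : Matrix ι ι ℝ) :
    pot v (H.submatrix e e) = pot v H := by
  have := pot_reindex v e.symm H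
  simpa using this

/-- the equivalence `Fin (2^k) ⊕ Fin (2^k) ≃ Fin (2^(k+1))` -/
def halfEquiv (k : ℕ) : Fin (2 ^ k) ⊕ Fin (2 ^ k) ≃ Fin (2 ^ (k + 1)) :=
  finSumFinEquiv.trans (finCongr (by ring))

theorem halfEquiv_inl (k : ℕ) (i : Fin (2 ^ k)) : ((halfEquiv k (Sum.inl i) : Fin _) : ℕ) = i := by
  simp [halfEquiv]

theorem halfEquiv_inr (k : ℕ) (i : Fin (2 ^ k)) :
    ((halfEquiv k (Sum.inr i) : Fin _) : ℕ) = 2 ^ k + i := by
  simp [halfEquiv, add_comm]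

theorem hs_comp_half (k : ℕ) :
    hs (k + 1) ∘ halfEquiv k = Sum.elim (fun _ => 1) (fun _ => -1) := by
  funext x
  rcases x with i | i
  · simp only [Function.comp, hs, halfEquiv_inl, Sum.elim_inl]
    have : (i : ℕ) < 2 ^ k := i.2
    rw [if_pos]
    rw [pow_succ]; omega
  · simp only [Function.comp, hs, halfEquiv_inr, Sum.elim_inr]
    rw [if_neg]
    rw [pow_succ]; omega

theorem blk_half (F : ℤ → ℤ → ℝ) (k n m : ℕ) (a b : Fin 2) (i j : Fin (2 ^ k))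
    (x y : Fin (2 ^ (k + 1))) (hx : (x : ℕ) = 2 ^ k * a + i) (hy : (y : ℕ) = 2 ^ k * b + j) :
    blk F (k + 1) n m x y = blk F k (2 * n + a) (2 * m + b) i j / 2 := by
  unfold blk
  rw [hx, hy, pow_succ, div_div]
  congr 2
  · push_cast; ring
  · push_cast; ring

theorem sum_half {k : ℕ} (f : Fin (2 ^ (k + 1)) → ℝ) :
    ∑ x, f x = ∑ i, f (halfEquiv k (Sum.inl i)) + ∑ i, f (halfEquiv k (Sum.inr i)) := by
  rw [← Equiv.sum_comp (halfEquiv k) f, Fintype.sum_sum_type]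

theorem blk_inl_inl (F : ℤ → ℤ → ℝ) (k n m : ℕ) (i j : Fin (2 ^ k)) :
    blk F (k + 1) n m (halfEquiv k (Sum.inl i)) (halfEquiv k (Sum.inl j)) =
      blk F k (2 * n) (2 * m) i j / 2 :=
  blk_half F k n m 0 0 i j _ _ (by simp [halfEquiv_inl]) (by simp [halfEquiv_inl])

theorem blk_inr_inl (F : ℤ → ℤ → ℝ) (k n m : ℕ) (i j : Fin (2 ^ k)) :
    blk F (k + 1) n m (halfEquiv k (Sum.inr i)) (halfEquiv k (Sum.inl j)) =
      blk F k (2 * n + 1) (2 * m) i j / 2 :=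
  blk_half F k n m 1 0 i j _ _ (by simp [halfEquiv_inr]) (by simp [halfEquiv_inl])

theorem blk_inl_inr (F : ℤ → ℤ → ℝ) (k n m : ℕ) (i j : Fin (2 ^ k)) :
    blk F (k + 1) n m (halfEquiv k (Sum.inl i)) (halfEquiv k (Sum.inr j)) =
      blk F k (2 * n) (2 * m + 1) i j / 2 :=
  blk_half F k n m 0 1 i j _ _ (by simp [halfEquiv_inl]) (by simp [halfEquiv_inr])

theorem blk_inr_inr (F : ℤ → ℤ → ℝ) (k n m : ℕ) (i j : Fin (2 ^ k)) :
    blk F (k + 1) n m (halfEquiv k (Sum.inr i)) (halfEquiv k (Sum.inr j)) =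
      blk F k (2 * n + 1) (2 * m + 1) i j / 2 :=
  blk_half F k n m 1 1 i j _ _ (by simp [halfEquiv_inr]) (by simp [halfEquiv_inr])

theorem Hblk_apply (F G : ℤ → ℤ → ℝ) (k n₀ n₁ n₂ : ℕ) (i j : Fin (2 ^ k)) :
    Hblk F G k n₀ n₁ n₂ i j =
      ∑ l, blk F k n₀ n₁ l i * blk F k n₀ n₁ l j + ∑ l, blk G k n₁ n₂ i l * blk G k n₁ n₂ j l := by
  simp [Hblk, Matrix.add_apply, Matrix.mul_apply, Matrix.transpose_apply]

theorem toBlocks₁₁_Hblk (F G : ℤ → ℤ → ℝ) (k n₀ n₁ n₂ : ℕ) :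
    (2 : ℝ) • ((Hblk F G (k + 1) n₀ n₁ n₂).submatrix (halfEquiv k) (halfEquiv k)).toBlocks₁₁ =
      (1 / 2 : ℝ) • (Hblk F G k (2 * n₀) (2 * n₁) (2 * n₂) +
        Hblk F G k (2 * n₀ + 1) (2 * n₁) (2 * n₂ + 1)) := by
  ext i j
  simp only [Matrix.smul_apply, Matrix.toBlocks₁₁, Matrix.of_apply, Matrix.submatrix_apply,
    Matrix.add_apply, smul_eq_mul]
  rw [Hblk_apply, Hblk_apply, Hblk_apply, sum_half, sum_half]
  simp only [blk_inl_inl, blk_inr_inl, blk_inl_inr, div_mul_div_comm, ← Finset.sum_div]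
  ring

theorem toBlocks₂₂_Hblk (F G : ℤ → ℤ → ℝ) (k n₀ n₁ n₂ : ℕ) :
    (2 : ℝ) • ((Hblk F G (k + 1) n₀ n₁ n₂).submatrix (halfEquiv k) (halfEquiv k)).toBlocks₂₂ =
      (1 / 2 : ℝ) • (Hblk F G k (2 * n₀) (2 * n₁ + 1) (2 * n₂ + 1) +
        Hblk F G k (2 * n₀ + 1) (2 * n₁ + 1) (2 * n₂)) := by
  ext i j
  simp only [Matrix.smul_apply, Matrix.toBlocks₂₂, Matrix.of_apply, Matrix.submatrix_apply,
    Matrix.add_apply, smul_eq_mul]
  rw [Hblk_apply, Hblk_apply, Hblk_apply, sum_half, sum_half]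
  simp only [blk_inl_inr, blk_inr_inr, blk_inr_inl, div_mul_div_comm, ← Finset.sum_div]
  ring

theorem two_mul_xor (a b : ℕ) : (2 * a) ^^^ (2 * b) = 2 * (a ^^^ b) := by
  apply Nat.eq_of_testBit_eq
  intro i
  rw [Nat.testBit_xor]
  cases i with
  | zero => simp
  | succ i =>
    have h1 : (2 * a) / 2 = a := by omega
    have h2 : (2 * (a ^^^ b)) / 2 = a ^^^ b := by omega
    have h3 : (2 * b) / 2 = b := by omega
    rw [Nat.testBit_succ, Nat.testBit_succ, Nat.testBit_succ, h1, h2, h3, Nat.testBit_xor]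

theorem two_mul_add_one_xor (a b : ℕ) : (2 * a + 1) ^^^ (2 * b) = 2 * (a ^^^ b) + 1 := by
  apply Nat.eq_of_testBit_eq
  intro i
  rw [Nat.testBit_xor]
  cases i with
  | zero => simp
  | succ i =>
    have h1 : (2 * a + 1) / 2 = a := by omega
    have h2 : (2 * (a ^^^ b) + 1) / 2 = a ^^^ b := by omega
    have h3 : (2 * b) / 2 = b := by omega
    rw [Nat.testBit_succ, Nat.testBit_succ, Nat.testBit_succ, h1, h2, h3, Nat.testBit_xor]

theorem two_mul_xor_add_one (a b : ℕ) : (2 * a) ^^^ (2 * b + 1) = 2 * (a ^^^ b) + 1 := by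
  rw [Nat.xor_comm, two_mul_add_one_xor, Nat.xor_comm]

theorem two_mul_add_one_xor_add_one (a b : ℕ) : (2 * a + 1) ^^^ (2 * b + 1) = 2 * (a ^^^ b) := by
  apply Nat.eq_of_testBit_eq
  intro i
  rw [Nat.testBit_xor]
  cases i with
  | zero => simp
  | succ i =>
    have h1 : (2 * a + 1) / 2 = a := by omega
    have h2 : (2 * (a ^^^ b)) / 2 = a ^^^ b := by omega
    have h3 : (2 * b + 1) / 2 = b := by omega
    rw [Nat.testBit_succ, Nat.testBit_succ, Nat.testBit_succ, h1, h2, h3, Nat.testBit_xor]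

/-- Use the equivalence `Fin (2^k) ⊕ Fin (2^k) ≃ Fin (2^(k+1))` (first half, second half; under it
`hs (k+1)` is `Sum.elim 1 (-1)`), `pot_split_gain`, and for the two diagonal blocks:
for `a₁ = 0` (block `toBlocks₁₁`) with `m₂ = n₀ ^^^ n₁`,
`2 • (Hblk F G (k+1) n₀ n₁ m₂).toBlocks₁₁ = ½ (Hblk F G k (2n₀) (2n₁) (2m₂) + Hblk F G k (2n₀+1) (2n₁) (2m₂+1))`
(block multiplication; the entries are normalized by `2^{-k}`, so `4^{-(k+1)}·2·… = ½·4^{-k}·…`), for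
`a₁ = 1`: `½ (Hblk F G k (2n₀) (2n₁+1) (2m₂+1) + Hblk F G k (2n₀+1) (2n₁+1) (2m₂))`; then
`pot_midpoint`.  `(2n₀+a₀) ^^^ (2n₁+a₁) = 2 (n₀ ^^^ n₁) + (a₀ ^^^ a₁)`. -/
theorem dyadic_step {v : ℝ} (hv : 0 < v) (F G : ℤ → ℤ → ℝ) (k n₀ n₁ : ℕ) :
    pot v (Hblk F G (k + 1) n₀ n₁ (n₀ ^^^ n₁)) +
        v ^ 2 / 2 * gn v (Hblk F G (k + 1) n₀ n₁ (n₀ ^^^ n₁)) (hs (k + 1)) ≤
      (∑ a₀ ∈ Finset.range 2, ∑ a₁ ∈ Finset.range 2,
        pot v (Hblk F G k (2 * n₀ + a₀) (2 * n₁ + a₁) ((2 * n₀ + a₀) ^^^ (2 * n₁ + a₁)))) / 4 := by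
  have hps : ((Hblk F G (k + 1) n₀ n₁ (n₀ ^^^ n₁)).submatrix (halfEquiv k)
      (halfEquiv k)).PosSemidef := (Hblk_posSemidef F G (k + 1) n₀ n₁ _).submatrix _
  have h1 := pot_split_gain hv hps
  rw [← hs_comp_half k, gn_submatrix_equiv, pot_submatrix_equiv, toBlocks₁₁_Hblk,
    toBlocks₂₂_Hblk] at h1
  have h2 := pot_midpoint hv (Hblk_posSemidef F G k (2 * n₀) (2 * n₁) (2 * (n₀ ^^^ n₁)))
    (Hblk_posSemidef F G k (2 * n₀ + 1) (2 * n₁) (2 * (n₀ ^^^ n₁) + 1))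
  have h3 := pot_midpoint hv (Hblk_posSemidef F G k (2 * n₀) (2 * n₁ + 1) (2 * (n₀ ^^^ n₁) + 1))
    (Hblk_posSemidef F G k (2 * n₀ + 1) (2 * n₁ + 1) (2 * (n₀ ^^^ n₁)))
  simp only [Finset.sum_range_succ, Finset.sum_range_zero, add_zero, zero_add]
  rw [two_mul_xor, two_mul_add_one_xor, two_mul_xor_add_one, two_mul_add_one_xor_add_one]
  linarith

theorem sum_range_double (f : ℕ → ℝ) (N : ℕ) :
    ∑ n ∈ Finset.range N, ∑ a ∈ Finset.range 2, f (2 * n + a) = ∑ n ∈ Finset.range (2 * N), f n := by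
  induction N with
  | zero => simp
  | succ N ih =>
    rw [Finset.sum_range_succ, ih, mul_add, Finset.sum_range_succ _ (2 * N + 1),
      Finset.sum_range_succ _ (2 * N)]
    simp only [Finset.sum_range_succ, Finset.sum_range_zero, add_zero, zero_add, mul_one]
    ring

theorem sum_range_double₂ (f : ℕ → ℕ → ℝ) (N : ℕ) :
    ∑ n₀ ∈ Finset.range N, ∑ n₁ ∈ Finset.range N, ∑ a₀ ∈ Finset.range 2, ∑ a₁ ∈ Finset.range 2,
      f (2 * n₀ + a₀) (2 * n₁ + a₁) =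
      ∑ n₀ ∈ Finset.range (2 * N), ∑ n₁ ∈ Finset.range (2 * N), f n₀ n₁ := by
  rw [← sum_range_double (fun n₀ => ∑ n₁ ∈ Finset.range (2 * N), f n₀ n₁)]
  refine Finset.sum_congr rfl fun n₀ _ => ?_
  rw [Finset.sum_comm]
  refine Finset.sum_congr rfl fun a₀ _ => ?_
  rw [← sum_range_double (fun n₁ => f (2 * n₀ + a₀) n₁)]

/-- telescoping: sum of `4^k ×` (gains) over all levels `1 ≤ k ≤ M` is at most the sum of the leaf
potentials (level `0`), since `pot ≥ 0` at level `M`; the children map is a bijection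
`{n₀,n₁ < 2^{M-k-1}} × {0,1}² → {n₀,n₁ < 2^{M-k}}`. -/
theorem dyadic_gain_sum {v : ℝ} (hv : 0 < v) (F G : ℤ → ℤ → ℝ) (M : ℕ) :
    ∑ k ∈ Finset.Icc 1 M, ∑ n₀ ∈ Finset.range (2 ^ (M - k)), ∑ n₁ ∈ Finset.range (2 ^ (M - k)),
        (4 : ℝ) ^ k * (v ^ 2 / 2 * gn v (Hblk F G k n₀ n₁ (n₀ ^^^ n₁)) (hs k)) ≤
      ∑ n₀ ∈ Finset.range (2 ^ M), ∑ n₁ ∈ Finset.range (2 ^ M),
        pot v (Hblk F G 0 n₀ n₁ (n₀ ^^^ n₁)) := by
  -- potential at level `k`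
  set P : ℕ → ℝ := fun k => ∑ n₀ ∈ Finset.range (2 ^ (M - k)), ∑ n₁ ∈ Finset.range (2 ^ (M - k)),
    (4 : ℝ) ^ k * pot v (Hblk F G k n₀ n₁ (n₀ ^^^ n₁)) with hP
  have hPnn : ∀ k, 0 ≤ P k := by
    intro k
    refine Finset.sum_nonneg fun n₀ _ => Finset.sum_nonneg fun n₁ _ => ?_
    exact mul_nonneg (by positivity) (pot_nonneg hv (Hblk_posSemidef F G k n₀ n₁ _))
  have hstep : ∀ k, k + 1 ≤ M →
      P (k + 1) + ∑ n₀ ∈ Finset.range (2 ^ (M - (k + 1))), ∑ n₁ ∈ Finset.range (2 ^ (M - (k + 1))),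
        (4 : ℝ) ^ (k + 1) * (v ^ 2 / 2 * gn v (Hblk F G (k + 1) n₀ n₁ (n₀ ^^^ n₁)) (hs (k + 1)))
        ≤ P k := by
    intro k hk
    have hpow : 2 ^ (M - k) = 2 * 2 ^ (M - (k + 1)) := by
      rw [← pow_succ']; congr 1; omega
    simp only [hP]
    rw [hpow, ← sum_range_double₂, ← Finset.sum_add_distrib]
    refine Finset.sum_le_sum fun n₀ _ => ?_
    rw [← Finset.sum_add_distrib]
    refine Finset.sum_le_sum fun n₁ _ => ?_
    have := dyadic_step hv F G k n₀ n₁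
    rw [← mul_add]
    simp only [← Finset.mul_sum]
    rw [pow_succ, mul_assoc]
    refine mul_le_mul_of_nonneg_left ?_ (by positivity)
    linarith
  have htel : ∀ m, m ≤ M →
      ∑ k ∈ Finset.Icc 1 m, ∑ n₀ ∈ Finset.range (2 ^ (M - k)), ∑ n₁ ∈ Finset.range (2 ^ (M - k)),
        (4 : ℝ) ^ k * (v ^ 2 / 2 * gn v (Hblk F G k n₀ n₁ (n₀ ^^^ n₁)) (hs k)) + P m ≤ P 0 := by
    intro m
    induction m with
    | zero => intro _; simp
    | succ m ih =>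
      intro hm
      rw [Finset.sum_Icc_succ_top (by omega)]
      have h1 := ih (by omega)
      have h2 := hstep m hm
      linarith
  have h0 := htel M le_rfl
  have h1 : P 0 = ∑ n₀ ∈ Finset.range (2 ^ M), ∑ n₁ ∈ Finset.range (2 ^ M),
        pot v (Hblk F G 0 n₀ n₁ (n₀ ^^^ n₁)) := by
    simp [hP]
  have h2 := hPnn M
  linarith

/-- at level `0` the matrix is `1 × 1`, equal to `x = F(n₀,n₁)² + G(n₁,n₂)²`, and `pot v = ell v x`. -/
theorem pot_level_zero (v : ℝ) (F G : ℤ → ℤ → ℝ) (n₀ n₁ n₂ : ℕ) :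
    pot v (Hblk F G 0 n₀ n₁ n₂) = ell v (F n₀ n₁ ^ 2 + G n₁ n₂ ^ 2) := by
  have h00 : Hblk F G 0 n₀ n₁ n₂ (0 : Fin 1) (0 : Fin 1) = F n₀ n₁ ^ 2 + G n₁ n₂ ^ 2 := by
    rw [Hblk_apply]
    simp [blk]
    ring
  unfold pot ell
  have ht : (Hblk F G 0 n₀ n₁ n₂).trace = F n₀ n₁ ^ 2 + G n₁ n₂ ^ 2 := by
    rw [← h00]
    exact Matrix.trace_fin_one _
  have hd : (1 + (v ^ 2)⁻¹ • Hblk F G 0 n₀ n₁ n₂).det =
      1 + (F n₀ n₁ ^ 2 + G n₁ n₂ ^ 2) / v ^ 2 := by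
    have : (1 + (v ^ 2)⁻¹ • Hblk F G 0 n₀ n₁ n₂).det =
      (1 + (v ^ 2)⁻¹ • Hblk F G 0 n₀ n₁ n₂ : Matrix (Fin 1) (Fin 1) ℝ) 0 0 := Matrix.det_fin_one _
    rw [this, Matrix.add_apply, Matrix.smul_apply, h00]
    simp [div_eq_inv_mul]
  rw [ht, hd]

end Crest.Agent.TH
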