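import Crest.Agent.TH_Dy1
import Crest.Agent.TH_DB

/-! # TH_Dy2 (task TH-D2): the discrete dyadic theorem -/

set_option autoImplicit false
open Matrix MeasureTheory Set Filter
open scoped Topology

namespace Crest.Agent.TH

/-- Apply `DB` with `B = 1`, `A₀ = blk F₀ k n₀ n₁`, `A₁ = blk F₁ k n₁ n₂`, `A₂ = blk F₂ k n₂ n₀`,
`bᵢ = hs k`, `n₂ = n₀ ^^^ n₁` (then `n₀ = n₁ ^^^ n₂`, `n₁ = n₂ ^^^ n₀`). -/
theorem dform_le (F₀ F₁ F₂ : ℤ → ℤ → ℝ) (k n₀ n₁ : ℕ) :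
    |dform k n₀ n₁ (n₀ ^^^ n₁) F₀ F₁ F₂| ≤
      ∫ v in Ioi (0 : ℝ), 2 * v ^ 2 * (gn v (Hblk F₂ F₀ k (n₀ ^^^ n₁) n₀ n₁) (hs k) +
        gn v (Hblk F₀ F₁ k n₀ n₁ (n₀ ^^^ n₁)) (hs k) +
        gn v (Hblk F₁ F₂ k n₁ (n₀ ^^^ n₁) n₀) (hs k)) := by
  have hb : ∀ i, |hs k i| ≤ 1 := by
    intro i
    unfold hs
    split_ifs <;> simp
  have h := DB (B := 1) zero_le_one (blk F₀ k n₀ n₁) (blk F₁ k n₁ (n₀ ^^^ n₁))
    (blk F₂ k (n₀ ^^^ n₁) n₀) (hs k) (hs k) (hs k) hb hb hb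
    (Hblk F₂ F₀ k (n₀ ^^^ n₁) n₀ n₁) (Hblk F₀ F₁ k n₀ n₁ (n₀ ^^^ n₁))
    (Hblk F₁ F₂ k n₁ (n₀ ^^^ n₁) n₀) rfl rfl rfl
  rw [one_mul] at h
  exact h

private theorem Dy2_posSemidef (F G : ℤ → ℤ → ℝ) (k n₀ n₁ n₂ : ℕ) :
    (Hblk F G k n₀ n₁ n₂).PosSemidef := by
  unfold Hblk
  refine Matrix.PosSemidef.add ?_ ?_
  · have h := Matrix.posSemidef_conjTranspose_mul_self (blk F k n₀ n₁)
    rwa [Matrix.conjTranspose_eq_transpose_of_trivial] at h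
  · have h := Matrix.posSemidef_self_mul_conjTranspose (blk G k n₁ n₂)
    rwa [Matrix.conjTranspose_eq_transpose_of_trivial] at h

private theorem Dy2_xor_xor (a b : ℕ) : a ^^^ (a ^^^ b) = b := by
  rw [← Nat.xor_assoc, Nat.xor_self, Nat.zero_xor]

private theorem Dy2_xor_mem {m a b : ℕ} (ha : a ∈ Finset.range (2 ^ m))
    (hb : b ∈ Finset.range (2 ^ m)) : a ^^^ b ∈ Finset.range (2 ^ m) := by
  rw [Finset.mem_range] at *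
  exact Nat.xor_lt_two_pow ha hb

private theorem Dy2_rot1 (m : ℕ) (g : ℕ → ℕ → ℕ → ℝ) :
    ∑ a ∈ Finset.range (2 ^ m), ∑ b ∈ Finset.range (2 ^ m), g (a ^^^ b) a b =
      ∑ a ∈ Finset.range (2 ^ m), ∑ b ∈ Finset.range (2 ^ m), g a b (a ^^^ b) := by
  rw [Finset.sum_comm (s := Finset.range (2 ^ m)) (t := Finset.range (2 ^ m))
    (f := fun a b => g a b (a ^^^ b))]
  refine Finset.sum_congr rfl fun a ha => ?_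
  refine Finset.sum_nbij' (fun b => a ^^^ b) (fun c => a ^^^ c)
    (fun b hb => Dy2_xor_mem ha hb) (fun b hb => Dy2_xor_mem ha hb)
    (fun b _ => Dy2_xor_xor a b) (fun b _ => Dy2_xor_xor a b) fun b _ => ?_
  rw [Nat.xor_comm (a ^^^ b) a, Dy2_xor_xor]

private theorem Dy2_rot2 (m : ℕ) (g : ℕ → ℕ → ℕ → ℝ) :
    ∑ a ∈ Finset.range (2 ^ m), ∑ b ∈ Finset.range (2 ^ m), g b (a ^^^ b) a =
      ∑ a ∈ Finset.range (2 ^ m), ∑ b ∈ Finset.range (2 ^ m), g a b (a ^^^ b) := by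
  rw [Finset.sum_comm (s := Finset.range (2 ^ m)) (t := Finset.range (2 ^ m))
    (f := fun a b => g b (a ^^^ b) a)]
  refine Finset.sum_congr rfl fun b hb => ?_
  refine Finset.sum_nbij' (fun a => b ^^^ a) (fun c => b ^^^ c)
    (fun a ha => Dy2_xor_mem hb ha) (fun a ha => Dy2_xor_mem hb ha)
    (fun a _ => Dy2_xor_xor b a) (fun a _ => Dy2_xor_xor b a) fun a _ => ?_
  rw [Dy2_xor_xor, Nat.xor_comm a b]

private theorem Dy2_pow_le (a b : ℝ) :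
    (a ^ 2 + b ^ 2) ^ (3 / 2 : ℝ) ≤ Real.sqrt 2 * (|a| ^ 3 + |b| ^ 3) := by
  have h : (a ^ 2 + b ^ 2) ^ (3 / 2 : ℝ) ≤
      (2 : ℝ) ^ ((3 / 2 : ℝ) - 1) * ((a ^ 2) ^ (3 / 2 : ℝ) + (b ^ 2) ^ (3 / 2 : ℝ)) := by
    have h1 := NNReal.rpow_add_le_mul_rpow_add_rpow (⟨a ^ 2, sq_nonneg a⟩ : NNReal)
      ⟨b ^ 2, sq_nonneg b⟩ (p := 3 / 2) (by norm_num)
    rw [← NNReal.coe_le_coe] at h1
    push_cast at h1
    exact h1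
  have e : ∀ x : ℝ, (x ^ 2) ^ (3 / 2 : ℝ) = |x| ^ 3 := by
    intro x
    rw [← sq_abs, ← Real.rpow_natCast |x| 2, ← Real.rpow_mul (abs_nonneg x),
      ← Real.rpow_natCast |x| 3]
    norm_num
  rw [e, e] at h
  have e2 : (2 : ℝ) ^ ((3 / 2 : ℝ) - 1) = Real.sqrt 2 := by
    rw [Real.sqrt_eq_rpow]
    norm_num
  rw [e2] at h
  exact h

/-- the `ℓ³` sum -/
private noncomputable def SS (F : ℤ → ℤ → ℝ) (M : ℕ) : ℝ :=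
  ∑ a ∈ Finset.range (2 ^ M), ∑ b ∈ Finset.range (2 ^ M), |F a b| ^ 3

private theorem Dy2_vertex (F G : ℤ → ℤ → ℝ) (M : ℕ) :
    ∑ k ∈ Finset.Icc 1 M, ∑ n₀ ∈ Finset.range (2 ^ (M - k)), ∑ n₁ ∈ Finset.range (2 ^ (M - k)),
        (4 : ℝ) ^ k * (2 * ∫ v in Ioi (0 : ℝ), v ^ 2 * gn v (Hblk F G k n₀ n₁ (n₀ ^^^ n₁)) (hs k)) ≤
      4 * (Real.pi / 3) * (Real.sqrt 2 * (SS F M + SS G M)) := by
  have hint : ∀ k n₀ n₁ n₂ : ℕ, IntegrableOn (fun v => (4 : ℝ) ^ k *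
      (v ^ 2 / 2 * gn v (Hblk F G k n₀ n₁ n₂) (hs k))) (Ioi 0) := by
    intro k n₀ n₁ n₂
    have h := (gn_integrableOn (Dy2_posSemidef F G k n₀ n₁ n₂) (hs k)).const_mul
      ((4 : ℝ) ^ k / 2)
    refine IntegrableOn.congr_fun h (fun v _ => ?_) measurableSet_Ioi
    ring
  have hlhs : ∑ k ∈ Finset.Icc 1 M, ∑ n₀ ∈ Finset.range (2 ^ (M - k)),
      ∑ n₁ ∈ Finset.range (2 ^ (M - k)),
        (4 : ℝ) ^ k * (2 * ∫ v in Ioi (0 : ℝ), v ^ 2 * gn v (Hblk F G k n₀ n₁ (n₀ ^^^ n₁)) (hs k)) =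
      4 * ∫ v in Ioi (0 : ℝ), ∑ k ∈ Finset.Icc 1 M, ∑ n₀ ∈ Finset.range (2 ^ (M - k)),
        ∑ n₁ ∈ Finset.range (2 ^ (M - k)),
          (4 : ℝ) ^ k * (v ^ 2 / 2 * gn v (Hblk F G k n₀ n₁ (n₀ ^^^ n₁)) (hs k)) := by
    rw [integral_finsetSum _ fun k _ => integrable_finsetSum _ fun n₀ _ =>
      integrable_finsetSum _ fun n₁ _ => hint k n₀ n₁ (n₀ ^^^ n₁), Finset.mul_sum]
    refine Finset.sum_congr rfl fun k _ => ?_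
    rw [integral_finsetSum _ fun n₀ _ =>
      integrable_finsetSum _ fun n₁ _ => hint k n₀ n₁ (n₀ ^^^ n₁), Finset.mul_sum]
    refine Finset.sum_congr rfl fun n₀ _ => ?_
    rw [integral_finsetSum _ fun n₁ _ => hint k n₀ n₁ (n₀ ^^^ n₁), Finset.mul_sum]
    refine Finset.sum_congr rfl fun n₁ _ => ?_
    rw [← integral_const_mul, ← integral_const_mul, ← integral_const_mul]
    refine setIntegral_congr_fun measurableSet_Ioi fun v _ => ?_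
    ring
  rw [hlhs]
  have hx : ∀ n₀ n₁ : ℕ, 0 ≤ F n₀ n₁ ^ 2 + G n₁ (n₀ ^^^ n₁ : ℕ) ^ 2 := fun n₀ n₁ => by positivity
  have hell : ∀ n₀ n₁ : ℕ, IntegrableOn
      (fun v => pot v (Hblk F G 0 n₀ n₁ (n₀ ^^^ n₁))) (Ioi 0) := by
    intro n₀ n₁
    simp only [pot_level_zero]
    exact (ell_integral (hx n₀ n₁)).1
  have h1 : ∫ v in Ioi (0 : ℝ), ∑ k ∈ Finset.Icc 1 M, ∑ n₀ ∈ Finset.range (2 ^ (M - k)),
        ∑ n₁ ∈ Finset.range (2 ^ (M - k)),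
          (4 : ℝ) ^ k * (v ^ 2 / 2 * gn v (Hblk F G k n₀ n₁ (n₀ ^^^ n₁)) (hs k)) ≤
      ∫ v in Ioi (0 : ℝ), ∑ n₀ ∈ Finset.range (2 ^ M), ∑ n₁ ∈ Finset.range (2 ^ M),
        pot v (Hblk F G 0 n₀ n₁ (n₀ ^^^ n₁)) := by
    refine setIntegral_mono_on ?_ ?_ measurableSet_Ioi fun v hv => dyadic_gain_sum hv F G M
    · exact integrable_finsetSum _ fun k _ => integrable_finsetSum _ fun n₀ _ =>
        integrable_finsetSum _ fun n₁ _ => hint k n₀ n₁ (n₀ ^^^ n₁)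
    · exact integrable_finsetSum _ fun n₀ _ =>
        integrable_finsetSum _ fun n₁ _ => hell n₀ n₁
  have h2 : ∫ v in Ioi (0 : ℝ), ∑ n₀ ∈ Finset.range (2 ^ M), ∑ n₁ ∈ Finset.range (2 ^ M),
        pot v (Hblk F G 0 n₀ n₁ (n₀ ^^^ n₁)) =
      ∑ n₀ ∈ Finset.range (2 ^ M), ∑ n₁ ∈ Finset.range (2 ^ M),
        Real.pi / 3 * (F n₀ n₁ ^ 2 + G n₁ (n₀ ^^^ n₁ : ℕ) ^ 2) ^ (3 / 2 : ℝ) := by
    rw [integral_finsetSum _ fun n₀ _ => integrable_finsetSum _ fun n₁ _ => hell n₀ n₁]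
    refine Finset.sum_congr rfl fun n₀ _ => ?_
    rw [integral_finsetSum _ fun n₁ _ => hell n₀ n₁]
    refine Finset.sum_congr rfl fun n₁ _ => ?_
    simp only [pot_level_zero]
    exact (ell_integral (hx n₀ n₁)).2
  have h3 : ∑ n₀ ∈ Finset.range (2 ^ M), ∑ n₁ ∈ Finset.range (2 ^ M),
        Real.pi / 3 * (F n₀ n₁ ^ 2 + G n₁ (n₀ ^^^ n₁ : ℕ) ^ 2) ^ (3 / 2 : ℝ) ≤
      Real.pi / 3 * (Real.sqrt 2 * (SS F M + SS G M)) := by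
    have h4 : SS G M = ∑ n₀ ∈ Finset.range (2 ^ M), ∑ n₁ ∈ Finset.range (2 ^ M),
        |G n₁ (n₀ ^^^ n₁ : ℕ)| ^ 3 := by
      have h5 := Dy2_rot2 M fun a b _ => |G a b| ^ 3
      unfold SS
      exact h5.symm
    rw [h4]
    unfold SS
    rw [← Finset.sum_add_distrib]
    simp only [← Finset.sum_add_distrib, Finset.mul_sum]
    refine Finset.sum_le_sum fun n₀ _ => Finset.sum_le_sum fun n₁ _ => ?_
    exact mul_le_mul_of_nonneg_left (Dy2_pow_le _ _) (by positivity)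
  calc _ ≤ 4 * ∫ v in Ioi (0 : ℝ), ∑ n₀ ∈ Finset.range (2 ^ M), ∑ n₁ ∈ Finset.range (2 ^ M),
        pot v (Hblk F G 0 n₀ n₁ (n₀ ^^^ n₁)) := mul_le_mul_of_nonneg_left h1 (by norm_num)
    _ ≤ 4 * (Real.pi / 3 * (Real.sqrt 2 * (SS F M + SS G M))) := by
        rw [h2]
        exact mul_le_mul_of_nonneg_left h3 (by norm_num)
    _ = _ := by ring

private theorem Dy2_dform_le' (F₀ F₁ F₂ : ℤ → ℤ → ℝ) (k n₀ n₁ : ℕ) :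
    (4 : ℝ) ^ k * |dform k n₀ n₁ (n₀ ^^^ n₁) F₀ F₁ F₂| ≤
      (4 : ℝ) ^ k * (2 * ∫ v in Ioi (0 : ℝ), v ^ 2 * gn v (Hblk F₂ F₀ k (n₀ ^^^ n₁) n₀ n₁) (hs k)) +
      (4 : ℝ) ^ k * (2 * ∫ v in Ioi (0 : ℝ), v ^ 2 * gn v (Hblk F₀ F₁ k n₀ n₁ (n₀ ^^^ n₁)) (hs k)) +
      (4 : ℝ) ^ k *
        (2 * ∫ v in Ioi (0 : ℝ), v ^ 2 * gn v (Hblk F₁ F₂ k n₁ (n₀ ^^^ n₁) n₀) (hs k)) := by
  have h := dform_le F₀ F₁ F₂ k n₀ n₁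
  have i0 := gn_integrableOn (Dy2_posSemidef F₂ F₀ k (n₀ ^^^ n₁) n₀ n₁) (hs k)
  have i1 := gn_integrableOn (Dy2_posSemidef F₀ F₁ k n₀ n₁ (n₀ ^^^ n₁)) (hs k)
  have i2 := gn_integrableOn (Dy2_posSemidef F₁ F₂ k n₁ (n₀ ^^^ n₁) n₀) (hs k)
  have e : ∫ v in Ioi (0 : ℝ), 2 * v ^ 2 * (gn v (Hblk F₂ F₀ k (n₀ ^^^ n₁) n₀ n₁) (hs k) +
        gn v (Hblk F₀ F₁ k n₀ n₁ (n₀ ^^^ n₁)) (hs k) +
        gn v (Hblk F₁ F₂ k n₁ (n₀ ^^^ n₁) n₀) (hs k)) =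
      2 * (∫ v in Ioi (0 : ℝ), v ^ 2 * gn v (Hblk F₂ F₀ k (n₀ ^^^ n₁) n₀ n₁) (hs k)) +
      2 * (∫ v in Ioi (0 : ℝ), v ^ 2 * gn v (Hblk F₀ F₁ k n₀ n₁ (n₀ ^^^ n₁)) (hs k)) +
      2 * (∫ v in Ioi (0 : ℝ), v ^ 2 * gn v (Hblk F₁ F₂ k n₁ (n₀ ^^^ n₁) n₀) (hs k)) := by
    have e01 : ∫ v in Ioi (0 : ℝ), (2 * (v ^ 2 * gn v (Hblk F₂ F₀ k (n₀ ^^^ n₁) n₀ n₁) (hs k)) +
        2 * (v ^ 2 * gn v (Hblk F₀ F₁ k n₀ n₁ (n₀ ^^^ n₁)) (hs k))) = _ :=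
      integral_add (i0.const_mul 2) (i1.const_mul 2)
    have e012 : ∫ v in Ioi (0 : ℝ), ((2 * (v ^ 2 * gn v (Hblk F₂ F₀ k (n₀ ^^^ n₁) n₀ n₁) (hs k)) +
        2 * (v ^ 2 * gn v (Hblk F₀ F₁ k n₀ n₁ (n₀ ^^^ n₁)) (hs k))) +
        2 * (v ^ 2 * gn v (Hblk F₁ F₂ k n₁ (n₀ ^^^ n₁) n₀) (hs k))) = _ :=
      integral_add ((i0.const_mul 2).add (i1.const_mul 2)) (i2.const_mul 2)
    rw [← integral_const_mul, ← integral_const_mul, ← integral_const_mul]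
    refine Eq.trans ?_ (e012.trans (congrArg₂ (· + ·) e01 rfl))
    refine setIntegral_congr_fun measurableSet_Ioi fun v _ => ?_
    ring
  rw [e] at h
  have h4 : (0 : ℝ) ≤ 4 ^ k := by positivity
  calc _ ≤ (4 : ℝ) ^ k * _ := mul_le_mul_of_nonneg_left h h4
    _ = _ := by ring

/-- **Discrete dyadic theorem, additive form.**  Sum `dform_le` over all triples; for each of the three
vertices reindex the pairs (`(n₀,n₁) ↦ (n₁,n₂)`, `(n₂,n₀)`, bijections of `{< 2^{M-k}}²`) and use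
`dyadic_gain_sum` integrated over `v`, `pot_level_zero`, `ell_integral`:
`∑ 4^k |d| ≤ 4 · (π/3) ∑_i ∑ (F_i² + F_{i+1}²)^{3/2}` and `(a²+b²)^{3/2} ≤ √2 (|a|³+|b|³)`;
each `F_i` occurs twice, so the constant is `(4π/3)·√2·2 = 8√2π/3`. -/
theorem dyadic_additive (F₀ F₁ F₂ : ℤ → ℤ → ℝ) (M : ℕ) :
    ∑ k ∈ Finset.Icc 1 M, ∑ n₀ ∈ Finset.range (2 ^ (M - k)), ∑ n₁ ∈ Finset.range (2 ^ (M - k)),
        (4 : ℝ) ^ k * |dform k n₀ n₁ (n₀ ^^^ n₁) F₀ F₁ F₂| ≤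
      8 * Real.sqrt 2 * Real.pi / 3 * ((∑ a ∈ Finset.range (2 ^ M), ∑ b ∈ Finset.range (2 ^ M), |F₀ a b| ^ 3) +
        (∑ a ∈ Finset.range (2 ^ M), ∑ b ∈ Finset.range (2 ^ M), |F₁ a b| ^ 3) +
        (∑ a ∈ Finset.range (2 ^ M), ∑ b ∈ Finset.range (2 ^ M), |F₂ a b| ^ 3)) := by
  have h0 := Dy2_vertex F₂ F₀ M
  have h1 := Dy2_vertex F₀ F₁ M
  have h2 := Dy2_vertex F₁ F₂ M
  have hsum : ∑ k ∈ Finset.Icc 1 M, ∑ n₀ ∈ Finset.range (2 ^ (M - k)),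
      ∑ n₁ ∈ Finset.range (2 ^ (M - k)),
        (4 : ℝ) ^ k * |dform k n₀ n₁ (n₀ ^^^ n₁) F₀ F₁ F₂| ≤
      (∑ k ∈ Finset.Icc 1 M, ∑ n₀ ∈ Finset.range (2 ^ (M - k)), ∑ n₁ ∈ Finset.range (2 ^ (M - k)),
        (4 : ℝ) ^ k *
          (2 * ∫ v in Ioi (0 : ℝ), v ^ 2 * gn v (Hblk F₂ F₀ k n₀ n₁ (n₀ ^^^ n₁)) (hs k))) +
      (∑ k ∈ Finset.Icc 1 M, ∑ n₀ ∈ Finset.range (2 ^ (M - k)), ∑ n₁ ∈ Finset.range (2 ^ (M - k)),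
        (4 : ℝ) ^ k *
          (2 * ∫ v in Ioi (0 : ℝ), v ^ 2 * gn v (Hblk F₀ F₁ k n₀ n₁ (n₀ ^^^ n₁)) (hs k))) +
      (∑ k ∈ Finset.Icc 1 M, ∑ n₀ ∈ Finset.range (2 ^ (M - k)), ∑ n₁ ∈ Finset.range (2 ^ (M - k)),
        (4 : ℝ) ^ k *
          (2 * ∫ v in Ioi (0 : ℝ), v ^ 2 * gn v (Hblk F₁ F₂ k n₀ n₁ (n₀ ^^^ n₁)) (hs k))) := by
    rw [← Finset.sum_add_distrib, ← Finset.sum_add_distrib]
    refine Finset.sum_le_sum fun k _ => ?_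
    rw [← Dy2_rot1 (M - k) fun a b c => (4 : ℝ) ^ k *
      (2 * ∫ v in Ioi (0 : ℝ), v ^ 2 * gn v (Hblk F₂ F₀ k a b c) (hs k)),
      ← Dy2_rot2 (M - k) fun a b c => (4 : ℝ) ^ k *
      (2 * ∫ v in Ioi (0 : ℝ), v ^ 2 * gn v (Hblk F₁ F₂ k a b c) (hs k)),
      ← Finset.sum_add_distrib, ← Finset.sum_add_distrib]
    refine Finset.sum_le_sum fun n₀ _ => ?_
    rw [← Finset.sum_add_distrib, ← Finset.sum_add_distrib]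
    exact Finset.sum_le_sum fun n₁ _ => Dy2_dform_le' F₀ F₁ F₂ k n₀ n₁
  change _ ≤ 8 * Real.sqrt 2 * Real.pi / 3 * (SS F₀ M + SS F₁ M + SS F₂ M)
  refine hsum.trans ((add_le_add (add_le_add h0 h1) h2).trans (le_of_eq ?_))
  ring

private theorem Dy2_SS_nonneg (F : ℤ → ℤ → ℝ) (M : ℕ) : 0 ≤ SS F M :=
  Finset.sum_nonneg fun _ _ => Finset.sum_nonneg fun _ _ => by positivity

private theorem Dy2_blk_eq_zero {F : ℤ → ℤ → ℝ} {M : ℕ} (h : SS F M = 0) {k n m : ℕ}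
    (hk : k ≤ M) (hn : n ∈ Finset.range (2 ^ (M - k))) (hm : m ∈ Finset.range (2 ^ (M - k))) :
    blk F k n m = 0 := by
  have hF : ∀ a ∈ Finset.range (2 ^ M), ∀ b ∈ Finset.range (2 ^ M), F a b = 0 := by
    intro a ha b hb
    have h1 := (Finset.sum_eq_zero_iff_of_nonneg fun a _ =>
      Finset.sum_nonneg fun b _ => by positivity).mp h a ha
    have h2 := (Finset.sum_eq_zero_iff_of_nonneg fun b _ => by positivity).mp h1 b hb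
    have h3 := (pow_eq_zero_iff (by norm_num)).mp h2
    exact abs_eq_zero.mp h3
  have hlt : ∀ {n : ℕ}, n ∈ Finset.range (2 ^ (M - k)) → ∀ i : Fin (2 ^ k),
      2 ^ k * n + (i : ℕ) ∈ Finset.range (2 ^ M) := by
    intro n hn i
    rw [Finset.mem_range] at hn ⊢
    have h1 : 2 ^ M = 2 ^ k * 2 ^ (M - k) := by rw [← pow_add, Nat.add_sub_cancel' hk]
    calc 2 ^ k * n + (i : ℕ) < 2 ^ k * n + 2 ^ k := by have := i.2; omega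
      _ = 2 ^ k * (n + 1) := by ring
      _ ≤ 2 ^ k * 2 ^ (M - k) := Nat.mul_le_mul_left _ hn
      _ = 2 ^ M := h1.symm
  ext i j
  unfold blk
  have h1 := hF _ (hlt hn i) _ (hlt hm j)
  push_cast at h1
  rw [h1]
  simp

private theorem Dy2_blk_smul (F : ℤ → ℤ → ℝ) (c : ℝ) (k n m : ℕ) :
    blk (fun a b => c * F a b) k n m = c • blk F k n m := by
  ext i j
  simp only [blk, Matrix.smul_apply, smul_eq_mul]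
  ring

private theorem Dy2_dform_smul (F₀ F₁ F₂ : ℤ → ℤ → ℝ) (c₀ c₁ c₂ : ℝ) (k n₀ n₁ n₂ : ℕ) :
    dform k n₀ n₁ n₂ (fun a b => c₀ * F₀ a b) (fun a b => c₁ * F₁ a b) (fun a b => c₂ * F₂ a b) =
      c₀ * c₁ * c₂ * dform k n₀ n₁ n₂ F₀ F₁ F₂ := by
  unfold dform
  rw [Dy2_blk_smul, Dy2_blk_smul, Dy2_blk_smul]
  simp only [Matrix.smul_mul, Matrix.mul_smul, Matrix.trace_smul, smul_eq_mul]
  ring

private theorem Dy2_SS_smul (F : ℤ → ℤ → ℝ) (c : ℝ) (M : ℕ) :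
    SS (fun a b => c * F a b) M = |c| ^ 3 * SS F M := by
  unfold SS
  simp only [Finset.mul_sum, abs_mul, mul_pow]

/-- **Discrete dyadic theorem, multiplicative form.**  Scale `F_i` to have `ℓ³` norm `1` (if one of the
norms is `0` the left side is `0`: all entries of that block vanish); `8√2π < 40`
(`√2 π < 5`: `Real.pi_lt_d2`, `√2 < 1.415`). -/
theorem dyadic_multiplicative (F₀ F₁ F₂ : ℤ → ℤ → ℝ) (M : ℕ) :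
    ∑ k ∈ Finset.Icc 1 M, ∑ n₀ ∈ Finset.range (2 ^ (M - k)), ∑ n₁ ∈ Finset.range (2 ^ (M - k)),
        (4 : ℝ) ^ k * |dform k n₀ n₁ (n₀ ^^^ n₁) F₀ F₁ F₂| ≤
      40 * (∑ a ∈ Finset.range (2 ^ M), ∑ b ∈ Finset.range (2 ^ M), |F₀ a b| ^ 3) ^ (1 / 3 : ℝ) *
        (∑ a ∈ Finset.range (2 ^ M), ∑ b ∈ Finset.range (2 ^ M), |F₁ a b| ^ 3) ^ (1 / 3 : ℝ) *
        (∑ a ∈ Finset.range (2 ^ M), ∑ b ∈ Finset.range (2 ^ M), |F₂ a b| ^ 3) ^ (1 / 3 : ℝ) := by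
  change _ ≤ 40 * SS F₀ M ^ (1 / 3 : ℝ) * SS F₁ M ^ (1 / 3 : ℝ) * SS F₂ M ^ (1 / 3 : ℝ)
  have hS0 := Dy2_SS_nonneg F₀ M
  have hS1 := Dy2_SS_nonneg F₁ M
  have hS2 := Dy2_SS_nonneg F₂ M
  have hz : (∀ k ∈ Finset.Icc 1 M, ∀ n₀ ∈ Finset.range (2 ^ (M - k)),
      ∀ n₁ ∈ Finset.range (2 ^ (M - k)), dform k n₀ n₁ (n₀ ^^^ n₁) F₀ F₁ F₂ = 0) →
      ∑ k ∈ Finset.Icc 1 M, ∑ n₀ ∈ Finset.range (2 ^ (M - k)), ∑ n₁ ∈ Finset.range (2 ^ (M - k)),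
        (4 : ℝ) ^ k * |dform k n₀ n₁ (n₀ ^^^ n₁) F₀ F₁ F₂| ≤
      40 * SS F₀ M ^ (1 / 3 : ℝ) * SS F₁ M ^ (1 / 3 : ℝ) * SS F₂ M ^ (1 / 3 : ℝ) := by
    intro h
    have : ∑ k ∈ Finset.Icc 1 M, ∑ n₀ ∈ Finset.range (2 ^ (M - k)),
        ∑ n₁ ∈ Finset.range (2 ^ (M - k)),
        (4 : ℝ) ^ k * |dform k n₀ n₁ (n₀ ^^^ n₁) F₀ F₁ F₂| = 0 :=
      Finset.sum_eq_zero fun k hk => Finset.sum_eq_zero fun n₀ hn₀ =>
        Finset.sum_eq_zero fun n₁ hn₁ => by rw [h k hk n₀ hn₀ n₁ hn₁]; simp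
    rw [this]
    positivity
  by_cases h0 : SS F₀ M = 0
  · refine hz fun k hk n₀ hn₀ n₁ hn₁ => ?_
    unfold dform
    rw [Dy2_blk_eq_zero h0 (Finset.mem_Icc.mp hk).2 hn₀ hn₁]
    simp
  by_cases h1 : SS F₁ M = 0
  · refine hz fun k hk n₀ hn₀ n₁ hn₁ => ?_
    unfold dform
    rw [Dy2_blk_eq_zero h1 (Finset.mem_Icc.mp hk).2 hn₁ (Dy2_xor_mem hn₀ hn₁)]
    simp
  by_cases h2 : SS F₂ M = 0
  · refine hz fun k hk n₀ hn₀ n₁ hn₁ => ?_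
    unfold dform
    rw [Dy2_blk_eq_zero h2 (Finset.mem_Icc.mp hk).2 (Dy2_xor_mem hn₀ hn₁) hn₀]
    simp
  have p0 : 0 < SS F₀ M := lt_of_le_of_ne hS0 (Ne.symm h0)
  have p1 : 0 < SS F₁ M := lt_of_le_of_ne hS1 (Ne.symm h1)
  have p2 : 0 < SS F₂ M := lt_of_le_of_ne hS2 (Ne.symm h2)
  set N₀ := SS F₀ M ^ (1 / 3 : ℝ) with hN0
  set N₁ := SS F₁ M ^ (1 / 3 : ℝ) with hN1
  set N₂ := SS F₂ M ^ (1 / 3 : ℝ) with hN2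
  have q0 : 0 < N₀ := Real.rpow_pos_of_pos p0 _
  have q1 : 0 < N₁ := Real.rpow_pos_of_pos p1 _
  have q2 : 0 < N₂ := Real.rpow_pos_of_pos p2 _
  have cube : ∀ x : ℝ, 0 < x → |(x ^ (1 / 3 : ℝ))⁻¹| ^ 3 * x = 1 := by
    intro x hx
    have hp : 0 < x ^ (1 / 3 : ℝ) := Real.rpow_pos_of_pos hx _
    have h3 : (x ^ (1 / 3 : ℝ)) ^ 3 = x := by
      rw [← Real.rpow_natCast, ← Real.rpow_mul hx.le]
      norm_num
    rw [abs_of_pos (inv_pos.mpr hp), inv_pow, h3, inv_mul_cancel₀ hx.ne']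
  have key := dyadic_additive (fun a b => N₀⁻¹ * F₀ a b) (fun a b => N₁⁻¹ * F₁ a b)
    (fun a b => N₂⁻¹ * F₂ a b) M
  change _ ≤ 8 * Real.sqrt 2 * Real.pi / 3 * (SS (fun a b => N₀⁻¹ * F₀ a b) M +
    SS (fun a b => N₁⁻¹ * F₁ a b) M + SS (fun a b => N₂⁻¹ * F₂ a b) M) at key
  rw [Dy2_SS_smul, Dy2_SS_smul, Dy2_SS_smul, cube _ p0, cube _ p1, cube _ p2] at key
  have e : ∑ k ∈ Finset.Icc 1 M, ∑ n₀ ∈ Finset.range (2 ^ (M - k)),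
      ∑ n₁ ∈ Finset.range (2 ^ (M - k)),
        (4 : ℝ) ^ k * |dform k n₀ n₁ (n₀ ^^^ n₁) (fun a b => N₀⁻¹ * F₀ a b)
          (fun a b => N₁⁻¹ * F₁ a b) (fun a b => N₂⁻¹ * F₂ a b)| =
      (N₀⁻¹ * N₁⁻¹ * N₂⁻¹) * ∑ k ∈ Finset.Icc 1 M, ∑ n₀ ∈ Finset.range (2 ^ (M - k)),
      ∑ n₁ ∈ Finset.range (2 ^ (M - k)),
        (4 : ℝ) ^ k * |dform k n₀ n₁ (n₀ ^^^ n₁) F₀ F₁ F₂| := by
    simp only [Finset.mul_sum]
    refine Finset.sum_congr rfl fun k _ => Finset.sum_congr rfl fun n₀ _ =>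
      Finset.sum_congr rfl fun n₁ _ => ?_
    rw [Dy2_dform_smul, abs_mul, abs_of_pos (by positivity : 0 < N₀⁻¹ * N₁⁻¹ * N₂⁻¹)]
    ring
  rw [e] at key
  set T := ∑ k ∈ Finset.Icc 1 M, ∑ n₀ ∈ Finset.range (2 ^ (M - k)),
      ∑ n₁ ∈ Finset.range (2 ^ (M - k)),
        (4 : ℝ) ^ k * |dform k n₀ n₁ (n₀ ^^^ n₁) F₀ F₁ F₂| with hT
  have hpi : 8 * Real.sqrt 2 * Real.pi / 3 * (1 + 1 + 1) ≤ 40 := by
    have h2 : Real.sqrt 2 < 1.415 := by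
      rw [Real.sqrt_lt' (by norm_num)]
      norm_num
    have h3 := Real.pi_lt_d2
    have h4 := Real.pi_pos
    have h5 : 0 < Real.sqrt 2 := by positivity
    have h6 : Real.sqrt 2 * Real.pi < 5 := by
      calc Real.sqrt 2 * Real.pi < 1.415 * 3.15 := mul_lt_mul'' h2 h3 h5.le h4.le
        _ < 5 := by norm_num
    nlinarith
  have h9 := key.trans hpi
  have e2 : T = (N₀⁻¹ * N₁⁻¹ * N₂⁻¹ * T) * (N₀ * N₁ * N₂) := by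
    field_simp
  rw [e2]
  calc (N₀⁻¹ * N₁⁻¹ * N₂⁻¹ * T) * (N₀ * N₁ * N₂) ≤ 40 * (N₀ * N₁ * N₂) :=
        mul_le_mul_of_nonneg_right h9 (by positivity)
    _ = 40 * N₀ * N₁ * N₂ := by ring

end Crest.Agent.TH
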