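import Crest.Agent.TH_Defs

/-! # TH_Ell (task TH-M7a): the scalar potential `ell v x = x - v² log (1 + x/v²)` -/

set_option autoImplicit false
open Matrix MeasureTheory Set Filter
open scoped Topology

namespace Crest.Agent.TH

private theorem ell_log_lower {u : ℝ} (hu : 0 ≤ u) : u - u ^ 2 / 2 ≤ Real.log (1 + u) := by
  have h1 := Real.le_log_one_add_of_nonneg hu
  refine le_trans ?_ h1
  rw [le_div_iff₀ (by linarith)]
  have : 0 ≤ u ^ 3 := by positivity
  nlinarith

private theorem ell_log_upper {u : ℝ} (hu : 0 ≤ u) : Real.log (1 + u) ≤ u := by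
  have h1 := Real.log_le_sub_one_of_pos (show (0:ℝ) < 1 + u by linarith)
  linarith

theorem ell_nonneg {v x : ℝ} (hv : 0 < v) (hx : 0 ≤ x) : 0 ≤ ell v x := by
  unfold ell
  have h1 := ell_log_upper (u := x / v ^ 2) (by positivity)
  have h2 : v ^ 2 * Real.log (1 + x / v ^ 2) ≤ v ^ 2 * (x / v ^ 2) :=
    mul_le_mul_of_nonneg_left h1 (by positivity)
  have h3 : v ^ 2 * (x / v ^ 2) = x := by field_simp
  linarith

/-- `ell v x ≤ x` and `ell v x ≤ x²/(2v²)` (from `log (1+u) ≥ u - u²/2` for `u ≥ 0`). -/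
theorem ell_le {v x : ℝ} (hv : 0 < v) (hx : 0 ≤ x) : ell v x ≤ x ∧ ell v x ≤ x ^ 2 / (2 * v ^ 2) := by
  unfold ell
  constructor
  · have h1 : 0 ≤ Real.log (1 + x / v ^ 2) := Real.log_nonneg (by
      have : 0 ≤ x / v ^ 2 := by positivity
      linarith)
    have h2 : 0 ≤ v ^ 2 * Real.log (1 + x / v ^ 2) := by positivity
    linarith
  · have h1 := ell_log_lower (u := x / v ^ 2) (by positivity)
    have h2 : v ^ 2 * (x / v ^ 2 - (x / v ^ 2) ^ 2 / 2) ≤ v ^ 2 * Real.log (1 + x / v ^ 2) :=
      mul_le_mul_of_nonneg_left h1 (by positivity)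
    have h3 : v ^ 2 * (x / v ^ 2 - (x / v ^ 2) ^ 2 / 2) = x - x ^ 2 / (2 * v ^ 2) := by
      field_simp
    linarith

theorem ell_mono {v x y : ℝ} (hv : 0 < v) (hx : 0 ≤ x) (hxy : x ≤ y) : ell v x ≤ ell v y := by
  unfold ell
  have hv2 : 0 < v ^ 2 := by positivity
  have hx1 : 0 < 1 + x / v ^ 2 := by positivity
  have hy0 : 0 ≤ y := le_trans hx hxy
  have hy1 : 0 < 1 + y / v ^ 2 := by positivity
  have h1 : Real.log (1 + y / v ^ 2) - Real.log (1 + x / v ^ 2) ≤
      (1 + y / v ^ 2) / (1 + x / v ^ 2) - 1 := by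
    rw [← Real.log_div hy1.ne' hx1.ne']
    exact Real.log_le_sub_one_of_pos (by positivity)
  have h2 : (1 + y / v ^ 2) / (1 + x / v ^ 2) - 1 = (y - x) / (v ^ 2 + x) := by
    field_simp
    ring
  have h3 : v ^ 2 * ((y - x) / (v ^ 2 + x)) ≤ y - x := by
    rw [mul_div_assoc', div_le_iff₀ (by positivity)]
    nlinarith
  have h4 : v ^ 2 * (Real.log (1 + y / v ^ 2) - Real.log (1 + x / v ^ 2)) ≤ y - x := by
    refine le_trans (mul_le_mul_of_nonneg_left h1 hv2.le) ?_
    rw [h2]; exact h3
  linarith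

/-- `∫_0^∞ (x - v² log (1 + x/v²)) dv = (π/3) x^{3/2}`.  
Hint: with `s = √x`, `G(v) = x v - (v³/3) log (1 + x/v²) - (2/3) x v + (2/3) x s arctan (v/s)`
is an antiderivative on `(0,∞)` (`d/dv [(v³/3) log (1+x/v²)] = v² log (1+x/v²) - (2/3) x v²/(v²+x)`,
and `v²/(v²+x) = 1 - x/(v²+x)`); `G → 0` at `0+` and `G → (2/3) x s π/2 = (π/3) x^{3/2}` at `∞`. -/
theorem ell_integral {x : ℝ} (hx : 0 ≤ x) :
    IntegrableOn (fun v => ell v x) (Ioi 0) ∧
      ∫ v in Ioi (0 : ℝ), ell v x = Real.pi / 3 * x ^ (3 / 2 : ℝ) := by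
  rcases eq_or_lt_of_le hx with h0 | hpos
  · subst h0
    have h1 : (fun v : ℝ => ell v 0) = fun _ => (0:ℝ) := by
      funext v
      simp [ell]
    rw [h1]
    refine ⟨integrableOn_zero, ?_⟩
    rw [Real.zero_rpow (by norm_num)]
    simp
  · set s := Real.sqrt x with hs
    have hs0 : 0 < s := Real.sqrt_pos.2 hpos
    have hs2 : s ^ 2 = x := Real.sq_sqrt hx
    set G : ℝ → ℝ := fun v => x / 3 * v - v ^ 3 / 3 * Real.log (1 + x / v ^ 2) +
      2 / 3 * x * s * Real.arctan (v / s) with hG
    have hG0 : G 0 = 0 := by simp [hG]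
    have hderiv : ∀ v ∈ Ioi (0:ℝ), HasDerivAt G (ell v x) v := by
      intro v hv
      have hv0 : 0 < v := hv
      have hvx : 0 < 1 + x / v ^ 2 := by positivity
      have d1 : HasDerivAt (fun v : ℝ => x / 3 * v) (x / 3) v := by
        simpa using (hasDerivAt_id v).const_mul (x / 3)
      have d2 : HasDerivAt (fun v : ℝ => v ^ 2) (2 * v) v := by
        simpa using hasDerivAt_pow 2 v
      have d3 : HasDerivAt (fun v : ℝ => 1 + x / v ^ 2) (-(x * (2 * v)) / (v ^ 2) ^ 2) v := by
        have h := (((hasDerivAt_const v x).fun_div d2 (by positivity)).const_add 1)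
        exact h.congr_deriv (by ring)
      have d4 : HasDerivAt (fun v : ℝ => Real.log (1 + x / v ^ 2))
          (-(x * (2 * v)) / (v ^ 2) ^ 2 / (1 + x / v ^ 2)) v := d3.log hvx.ne'
      have d5 : HasDerivAt (fun v : ℝ => v ^ 3 / 3) (v ^ 2) v := by
        have h := (hasDerivAt_pow 3 v).div_const 3
        exact h.congr_deriv (by push_cast; ring)
      have d6 := d5.fun_mul d4
      have d7 : HasDerivAt (fun v : ℝ => v / s) (1 / s) v := (hasDerivAt_id v).div_const s
      have d8 : HasDerivAt (fun v : ℝ => Real.arctan (v / s)) (1 / (1 + (v / s) ^ 2) * (1 / s)) v :=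
        d7.arctan
      have d9 := d8.const_mul (2 / 3 * x * s)
      have d10 := (d1.fun_sub d6).fun_add d9
      refine d10.congr_deriv ?_
      unfold ell
      have e1 : 1 / (1 + (v / s) ^ 2) * (1 / s) * s = x / (x + v ^ 2) := by
        rw [← hs2]
        field_simp
      have e2 : v ^ 3 / 3 * (-(x * (2 * v)) / (v ^ 2) ^ 2 / (1 + x / v ^ 2)) =
          -(2 / 3 * x * (v ^ 2 / (x + v ^ 2))) := by
        field_simp
        ring
      have e3 : x / (x + v ^ 2) + v ^ 2 / (x + v ^ 2) = 1 := by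
        rw [← add_div]; exact div_self (by positivity)
      have e4 : 2 / 3 * x * s * (1 / (1 + (v / s) ^ 2) * (1 / s)) = 2 / 3 * x * (x / (x + v ^ 2)) := by
        rw [← e1]; ring
      have e5 : v ^ 2 / (x + v ^ 2) = 1 - x / (x + v ^ 2) := by linarith
      rw [e2, e4, e5]
      ring
    have hnn : ∀ v ∈ Ioi (0:ℝ), 0 ≤ ell v x := fun v hv => ell_nonneg hv hx
    have hcont : ContinuousWithinAt G (Ici 0) 0 := by
      have c1 : ContinuousWithinAt (fun v : ℝ => x / 3 * v) (Ici 0) 0 := by fun_prop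
      have c3 : ContinuousWithinAt (fun v : ℝ => 2 / 3 * x * s * Real.arctan (v / s)) (Ici 0) 0 := by
        have : Continuous (fun v : ℝ => 2 / 3 * x * s * Real.arctan (v / s)) := by fun_prop
        exact this.continuousWithinAt
      have c2 : ContinuousWithinAt (fun v : ℝ => v ^ 3 / 3 * Real.log (1 + x / v ^ 2)) (Ici 0) 0 := by
        have hz : (fun v : ℝ => v ^ 3 / 3 * Real.log (1 + x / v ^ 2)) 0 = 0 := by simp
        unfold ContinuousWithinAt
        rw [hz]
        have hb : Tendsto (fun v : ℝ => x / 3 * v) (𝓝[Ici 0] 0) (𝓝 0) := by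
          have := c1
          unfold ContinuousWithinAt at this
          simpa using this
        refine squeeze_zero' ?_ ?_ hb
        · filter_upwards [self_mem_nhdsWithin] with v hv
          have hv0 : (0:ℝ) ≤ v := hv
          have : 0 ≤ Real.log (1 + x / v ^ 2) := Real.log_nonneg (by
            have : 0 ≤ x / v ^ 2 := by positivity
            linarith)
          positivity
        · filter_upwards [self_mem_nhdsWithin] with v hv
          have hv0 : (0:ℝ) ≤ v := hv
          rcases eq_or_lt_of_le hv0 with h | h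
          · rw [← h]; simp
          · have h1 := ell_log_upper (u := x / v ^ 2) (by positivity)
            calc v ^ 3 / 3 * Real.log (1 + x / v ^ 2) ≤ v ^ 3 / 3 * (x / v ^ 2) :=
                  mul_le_mul_of_nonneg_left h1 (by positivity)
              _ = x / 3 * v := by field_simp
      exact (c1.sub c2).add c3
    have hlim : Tendsto G atTop (𝓝 (Real.pi / 3 * (x * s))) := by
      have t1 : Tendsto (fun v : ℝ => x / 3 * v - v ^ 3 / 3 * Real.log (1 + x / v ^ 2)) atTop (𝓝 0) := by
        have hb : Tendsto (fun v : ℝ => x ^ 2 / 6 * v⁻¹) atTop (𝓝 0) := by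
          have := (tendsto_inv_atTop_zero (𝕜 := ℝ)).const_mul (x ^ 2 / 6)
          simpa using this
        refine squeeze_zero' ?_ ?_ hb
        · filter_upwards [eventually_gt_atTop (0:ℝ)] with v hv
          have h1 := ell_log_upper (u := x / v ^ 2) (by positivity)
          have : v ^ 3 / 3 * Real.log (1 + x / v ^ 2) ≤ x / 3 * v := by
            calc v ^ 3 / 3 * Real.log (1 + x / v ^ 2) ≤ v ^ 3 / 3 * (x / v ^ 2) :=
                  mul_le_mul_of_nonneg_left h1 (by positivity)
              _ = x / 3 * v := by field_simp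
          linarith
        · filter_upwards [eventually_gt_atTop (0:ℝ)] with v hv
          have h1 := ell_log_lower (u := x / v ^ 2) (by positivity)
          have h2 : v ^ 3 / 3 * (x / v ^ 2 - (x / v ^ 2) ^ 2 / 2) ≤
              v ^ 3 / 3 * Real.log (1 + x / v ^ 2) := mul_le_mul_of_nonneg_left h1 (by positivity)
          have h3 : v ^ 3 / 3 * (x / v ^ 2 - (x / v ^ 2) ^ 2 / 2) = x / 3 * v - x ^ 2 / 6 * v⁻¹ := by
            field_simp
            try ring
          linarith
      have t2 : Tendsto (fun v : ℝ => 2 / 3 * x * s * Real.arctan (v / s)) atTop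
          (𝓝 (2 / 3 * x * s * (Real.pi / 2))) := by
        apply Tendsto.const_mul
        have h1 : Tendsto Real.arctan atTop (𝓝 (Real.pi / 2)) :=
          tendsto_nhds_of_tendsto_nhdsWithin Real.tendsto_arctan_atTop
        exact h1.comp (tendsto_id.atTop_div_const hs0)
      have t3 := t1.add t2
      have e : 0 + 2 / 3 * x * s * (Real.pi / 2) = Real.pi / 3 * (x * s) := by ring
      rw [e] at t3
      exact t3
    have hxs : x ^ (3 / 2 : ℝ) = x * s := by
      rw [hs, Real.sqrt_eq_rpow, show (3 / 2 : ℝ) = 1 + 1 / 2 by norm_num, Real.rpow_add hpos,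
        Real.rpow_one]
    refine ⟨integrableOn_Ioi_deriv_of_nonneg hcont hderiv hnn hlim, ?_⟩
    rw [integral_Ioi_of_hasDerivAt_of_nonneg hcont hderiv hnn hlim, hG0, hxs, sub_zero]

end Crest.Agent.TH
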