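import Crest.Agent.TH_MC1b
import Crest.Agent.TH_G2

/-! # TH_FL1 (task TH-FL1): the functions of the flow: bounds and continuity

`p₀, p₁, p₂` are the centres of the three Gaussians (on the plane `p₂ = -p₀-p₁`), the variances are
`Λ t, t, Λ t`. -/

set_option autoImplicit false
open Matrix MeasureTheory Set Filter
open scoped Topology

namespace Crest.Agent.TH
variable {N : ℕ}

section defs
variable (η Λ v : ℝ) (F G : Matrix (Fin (2 * N)) (Fin (2 * N)) ℝ) (p₀ p₁ p₂ t : ℝ)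

noncomputable def K3 : Matrix (Fin (2 * N)) (Fin (2 * N)) ℝ :=
  Kmat F G (wt η p₀ (Λ * t)) (wt η p₂ (Λ * t))

noncomputable def M3 : Matrix (Fin (2 * N)) (Fin (2 * N)) ℝ := Mmat v (wt η p₁ t) (K3 η Λ F G p₀ p₂ t)

noncomputable def W3 : Matrix (Fin (2 * N)) (Fin (2 * N)) ℝ := Wmat v (wt η p₁ t) (K3 η Λ F G p₀ p₂ t)

noncomputable def S3 : Matrix (Fin (2 * N)) (Fin (2 * N)) ℝ :=
  (v ^ 2 • (1 : Matrix (Fin (2 * N)) (Fin (2 * N)) ℝ) + diagonal (wt η p₁ t) * K3 η Λ F G p₀ p₂ t)⁻¹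

noncomputable def Pot3 : ℝ := pot v (diagonal (wt η p₁ t) * K3 η Λ F G p₀ p₂ t)

noncomputable def Y1 : Matrix (Fin (2 * N)) (Fin (2 * N)) ℝ := Fᵀ * diagonal (dwt η p₀ (Λ * t)) * F
noncomputable def Y2 : Matrix (Fin (2 * N)) (Fin (2 * N)) ℝ := Fᵀ * diagonal (ddwt η p₀ (Λ * t)) * F
noncomputable def V1 : Matrix (Fin (2 * N)) (Fin (2 * N)) ℝ := G * diagonal (dwt η p₂ (Λ * t)) * Gᵀ
noncomputable def V2 : Matrix (Fin (2 * N)) (Fin (2 * N)) ℝ := G * diagonal (ddwt η p₂ (Λ * t)) * Gᵀ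

/-- `∂Pot/∂p₀`. -/
noncomputable def X0 : ℝ :=
  -((diagonal (wt η p₁ t) - v ^ 2 • W3 η Λ v F G p₀ p₁ p₂ t) * Y1 η Λ F p₀ t).trace
/-- `∂Pot/∂p₁`. -/
noncomputable def X1 : ℝ :=
  -(diagonal (dwt η p₁ t) * (K3 η Λ F G p₀ p₂ t - v ^ 2 • M3 η Λ v F G p₀ p₁ p₂ t)).trace
/-- `∂Pot/∂p₂`. -/
noncomputable def X2 : ℝ :=
  -((diagonal (wt η p₁ t) - v ^ 2 • W3 η Λ v F G p₀ p₁ p₂ t) * V1 η Λ G p₂ t).trace

noncomputable def D00 : ℝ :=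
  v ^ 2 * (W3 η Λ v F G p₀ p₁ p₂ t * Y1 η Λ F p₀ t * W3 η Λ v F G p₀ p₁ p₂ t * Y1 η Λ F p₀ t).trace
noncomputable def D02 : ℝ :=
  v ^ 2 * (W3 η Λ v F G p₀ p₁ p₂ t * Y1 η Λ F p₀ t * W3 η Λ v F G p₀ p₁ p₂ t * V1 η Λ G p₂ t).trace
noncomputable def D22 : ℝ :=
  v ^ 2 * (W3 η Λ v F G p₀ p₁ p₂ t * V1 η Λ G p₂ t * W3 η Λ v F G p₀ p₁ p₂ t * V1 η Λ G p₂ t).trace
noncomputable def D11 : ℝ :=
  v ^ 2 * (diagonal (dwt η p₁ t) * M3 η Λ v F G p₀ p₁ p₂ t * diagonal (dwt η p₁ t) *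
    M3 η Λ v F G p₀ p₁ p₂ t).trace
noncomputable def D12 : ℝ :=
  (diagonal (dwt η p₁ t) * V1 η Λ G p₂ t).trace -
    v ^ 4 * (S3 η Λ v F G p₀ p₁ p₂ t * diagonal (dwt η p₁ t) * (S3 η Λ v F G p₀ p₁ p₂ t)ᵀ *
      V1 η Λ G p₂ t).trace

noncomputable def L0 : ℝ :=
  ((diagonal (wt η p₁ t) - v ^ 2 • W3 η Λ v F G p₀ p₁ p₂ t) * Y2 η Λ F p₀ t).trace
noncomputable def L1 : ℝ :=
  (diagonal (ddwt η p₁ t) * (K3 η Λ F G p₀ p₂ t - v ^ 2 • M3 η Λ v F G p₀ p₁ p₂ t)).trace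
noncomputable def L2 : ℝ :=
  ((diagonal (wt η p₁ t) - v ^ 2 • W3 η Λ v F G p₀ p₁ p₂ t) * V2 η Λ G p₂ t).trace

end defs

/-- the envelope on the plane -/
noncomputable def Env (p₀ p₁ : ℝ) : ℝ :=
  (1 + |p₁|) * Real.exp (-|p₁|) * (Real.exp (-|p₀|) + Real.exp (-|p₀ + p₁|))

private theorem fl1_int0 : Integrable (fun x : ℝ => (1 + |x|) * Real.exp (-|x|)) := by
  refine (integrable_inv_one_add_sq.const_mul 6).mono' (by fun_prop)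
    (ae_of_all _ fun x => ?_)
  have h0 : 0 ≤ |x| := abs_nonneg x
  rw [Real.norm_eq_abs, abs_of_nonneg (by positivity), Real.exp_neg, ← sq_abs x]
  have h1 := Real.sum_le_exp_of_nonneg h0 4
  simp only [Finset.sum_range_succ, Finset.sum_range_zero, Nat.factorial, pow_zero, pow_one] at h1
  norm_num at h1
  have h2 : 0 < Real.exp |x| := Real.exp_pos _
  rw [← div_eq_mul_inv, ← div_eq_mul_inv, div_le_div_iff₀ h2 (by positivity)]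
  have h3 : x ^ 2 = |x| ^ 2 := (sq_abs x).symm
  rw [h3] at h1
  nlinarith [pow_nonneg h0 2, pow_nonneg h0 3]

private theorem fl1_int1 : Integrable (fun x : ℝ => Real.exp (-|x|)) := by
  refine fl1_int0.mono' (by fun_prop) (ae_of_all _ fun x => ?_)
  have h0 : 0 ≤ |x| := abs_nonneg x
  have h2 : 0 < Real.exp (-|x|) := Real.exp_pos _
  rw [Real.norm_eq_abs, abs_of_pos h2]
  nlinarith

theorem Env_integrable : Integrable (fun p : ℝ × ℝ => Env p.1 p.2) := by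
  have h1 : Integrable (fun p : ℝ × ℝ => Real.exp (-|p.1|) * ((1 + |p.2|) * Real.exp (-|p.2|))) :=
    fl1_int1.mul_prod fl1_int0
  have h2 : MeasurePreserving (fun z : ℝ × ℝ => (z.1 + z.2, z.2))
      ((volume : Measure ℝ).prod volume) ((volume : Measure ℝ).prod volume) :=
    measurePreserving_add_prod volume volume
  have h3 := h2.integrable_comp_of_integrable h1
  refine (h1.add h3).congr (ae_of_all _ fun p => ?_)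
  simp only [Pi.add_apply, Function.comp_apply, Env]
  ring

theorem Env_integrable_left (p₁ : ℝ) : Integrable (fun p₀ : ℝ => Env p₀ p₁) := by
  unfold Env
  exact (fl1_int1.add (fl1_int1.comp_add_right p₁)).const_mul _

theorem Env_integrable_right (p₀ : ℝ) : Integrable (fun p₁ : ℝ => Env p₀ p₁) := by
  unfold Env
  refine fl1_int0.mul_bdd (c := 2) (by fun_prop) (ae_of_all _ fun p₁ => ?_)
  have h1 : Real.exp (-|p₀|) ≤ 1 := Real.exp_le_one_iff.2 (by simp)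
  have h2 : Real.exp (-|p₀ + p₁|) ≤ 1 := Real.exp_le_one_iff.2 (by simp)
  rw [Real.norm_eq_abs, abs_of_nonneg (by positivity)]
  linarith

/-! ### bound calculus -/

/-- `|f| ≤ C g` on `[t₁,t₂]`. -/
private def FBd (t₁ t₂ : ℝ) (g : ℝ → ℝ → ℝ) (f : ℝ → ℝ → ℝ → ℝ) : Prop :=
  ∃ C : ℝ, 0 ≤ C ∧ ∀ t ∈ Icc t₁ t₂, ∀ p₀ p₁ : ℝ, |f t p₀ p₁| ≤ C * g p₀ p₁

section calculus
variable {t₁ t₂ : ℝ} {g g' : ℝ → ℝ → ℝ} {f f' : ℝ → ℝ → ℝ → ℝ}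

private theorem FBd.add (h : FBd t₁ t₂ g f) (h' : FBd t₁ t₂ g f') :
    FBd t₁ t₂ g (fun t p₀ p₁ => f t p₀ p₁ + f' t p₀ p₁) := by
  obtain ⟨C, hC, h⟩ := h
  obtain ⟨C', hC', h'⟩ := h'
  refine ⟨C + C', by positivity, fun t ht p₀ p₁ => ?_⟩
  have h1 := h t ht p₀ p₁
  have h2 := h' t ht p₀ p₁
  have h3 := abs_add_le (f t p₀ p₁) (f' t p₀ p₁)
  rw [add_mul]
  linarith

private theorem FBd.neg (h : FBd t₁ t₂ g f) : FBd t₁ t₂ g (fun t p₀ p₁ => -f t p₀ p₁) := by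
  obtain ⟨C, hC, h⟩ := h
  exact ⟨C, hC, fun t ht p₀ p₁ => by rw [abs_neg]; exact h t ht p₀ p₁⟩

private theorem FBd.sub (h : FBd t₁ t₂ g f) (h' : FBd t₁ t₂ g f') :
    FBd t₁ t₂ g (fun t p₀ p₁ => f t p₀ p₁ - f' t p₀ p₁) := by
  simp only [sub_eq_add_neg]
  exact h.add h'.neg

private theorem FBd.mul (h : FBd t₁ t₂ g f) (h' : FBd t₁ t₂ g' f') :
    FBd t₁ t₂ (fun p₀ p₁ => g p₀ p₁ * g' p₀ p₁) (fun t p₀ p₁ => f t p₀ p₁ * f' t p₀ p₁) := by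
  obtain ⟨C, hC, h⟩ := h
  obtain ⟨C', hC', h'⟩ := h'
  refine ⟨C * C', by positivity, fun t ht p₀ p₁ => ?_⟩
  have h1 := h t ht p₀ p₁
  have h2 := h' t ht p₀ p₁
  rw [abs_mul]
  calc |f t p₀ p₁| * |f' t p₀ p₁| ≤ (C * g p₀ p₁) * (C' * g' p₀ p₁) :=
        mul_le_mul h1 h2 (abs_nonneg _) ((abs_nonneg _).trans h1)
    _ = _ := by ring

private theorem FBd.const_mul (c : ℝ) (h : FBd t₁ t₂ g f) :
    FBd t₁ t₂ g (fun t p₀ p₁ => c * f t p₀ p₁) := by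
  obtain ⟨C, hC, h⟩ := h
  refine ⟨|c| * C, by positivity, fun t ht p₀ p₁ => ?_⟩
  rw [abs_mul, mul_assoc]
  exact mul_le_mul_of_nonneg_left (h t ht p₀ p₁) (abs_nonneg _)

private theorem FBd.mono {c : ℝ} (hc : 0 ≤ c) (hg : ∀ p₀ p₁, g p₀ p₁ ≤ c * g' p₀ p₁)
    (h : FBd t₁ t₂ g f) : FBd t₁ t₂ g' f := by
  obtain ⟨C, hC, h⟩ := h
  refine ⟨C * c, by positivity, fun t ht p₀ p₁ => (h t ht p₀ p₁).trans ?_⟩
  rw [mul_assoc]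
  exact mul_le_mul_of_nonneg_left (hg p₀ p₁) hC

private theorem FBd.of_le (hf : ∀ t ∈ Icc t₁ t₂, ∀ p₀ p₁, |f t p₀ p₁| ≤ |f' t p₀ p₁|)
    (h : FBd t₁ t₂ g f') : FBd t₁ t₂ g f := by
  obtain ⟨C, hC, h⟩ := h
  exact ⟨C, hC, fun t ht p₀ p₁ => (hf t ht p₀ p₁).trans (h t ht p₀ p₁)⟩

private theorem FBd.zero : FBd t₁ t₂ g (fun _ _ _ => 0) :=
  ⟨0, le_rfl, fun t _ p₀ p₁ => by simp⟩

private theorem FBd.sum {κ : Type*} (s : Finset κ) {F : κ → ℝ → ℝ → ℝ → ℝ}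
    (h : ∀ k, FBd t₁ t₂ g (F k)) : FBd t₁ t₂ g (fun t p₀ p₁ => ∑ k ∈ s, F k t p₀ p₁) := by
  classical
  induction s using Finset.induction_on with
  | empty => simpa using FBd.zero
  | insert a s ha ih =>
    simp only [Finset.sum_insert ha]
    exact (h a).add ih

/-- entrywise bounds of a matrix -/
private def MBd (t₁ t₂ : ℝ) (g : ℝ → ℝ → ℝ)
    (A : ℝ → ℝ → ℝ → Matrix (Fin (2 * N)) (Fin (2 * N)) ℝ) : Prop :=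
  ∀ i j, FBd t₁ t₂ g (fun t p₀ p₁ => A t p₀ p₁ i j)

variable {A B : ℝ → ℝ → ℝ → Matrix (Fin (2 * N)) (Fin (2 * N)) ℝ}

private theorem MBd.add (h : MBd t₁ t₂ g A) (h' : MBd t₁ t₂ g B) :
    MBd t₁ t₂ g (fun t p₀ p₁ => A t p₀ p₁ + B t p₀ p₁) := fun i j => (h i j).add (h' i j)

private theorem MBd.sub (h : MBd t₁ t₂ g A) (h' : MBd t₁ t₂ g B) :
    MBd t₁ t₂ g (fun t p₀ p₁ => A t p₀ p₁ - B t p₀ p₁) := fun i j => (h i j).sub (h' i j)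

private theorem MBd.smul (c : ℝ) (h : MBd t₁ t₂ g A) :
    MBd t₁ t₂ g (fun t p₀ p₁ => c • A t p₀ p₁) := fun i j => (h i j).const_mul c

private theorem MBd.mono {c : ℝ} (hc : 0 ≤ c) (hg : ∀ p₀ p₁, g p₀ p₁ ≤ c * g' p₀ p₁)
    (h : MBd t₁ t₂ g A) : MBd t₁ t₂ g' A := fun i j => (h i j).mono hc hg

private theorem MBd.mul (h : MBd t₁ t₂ g A) (h' : MBd t₁ t₂ g' B) :
    MBd t₁ t₂ (fun p₀ p₁ => g p₀ p₁ * g' p₀ p₁) (fun t p₀ p₁ => A t p₀ p₁ * B t p₀ p₁) := by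
  intro i j
  simp only [Matrix.mul_apply]
  exact FBd.sum _ fun k => (h i k).mul (h' k j)

private theorem MBd.mul_const (h : MBd t₁ t₂ g A) (X : Matrix (Fin (2 * N)) (Fin (2 * N)) ℝ) :
    MBd t₁ t₂ g (fun t p₀ p₁ => A t p₀ p₁ * X) := by
  intro i j
  simp only [Matrix.mul_apply]
  refine FBd.sum _ fun k => ?_
  simp only [mul_comm _ (X k j)]
  exact (h i k).const_mul (X k j)

private theorem MBd.const_mul (X : Matrix (Fin (2 * N)) (Fin (2 * N)) ℝ) (h : MBd t₁ t₂ g A) :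
    MBd t₁ t₂ g (fun t p₀ p₁ => X * A t p₀ p₁) := by
  intro i j
  simp only [Matrix.mul_apply]
  exact FBd.sum _ fun k => (h k j).const_mul (X i k)

private theorem MBd.trace (h : MBd t₁ t₂ g A) :
    FBd t₁ t₂ g (fun t p₀ p₁ => (A t p₀ p₁).trace) := by
  simp only [Matrix.trace, Matrix.diag_apply]
  exact FBd.sum _ fun k => h k k

private theorem MBd.diag {w : ℝ → ℝ → ℝ → Fin (2 * N) → ℝ}
    (h : ∀ k, FBd t₁ t₂ g (fun t p₀ p₁ => w t p₀ p₁ k)) :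
    MBd t₁ t₂ g (fun t p₀ p₁ => diagonal (w t p₀ p₁)) := by
  intro i j
  by_cases hij : i = j
  · subst hij
    simp only [Matrix.diagonal_apply_eq]
    exact h i
  · simp only [Matrix.diagonal_apply_ne _ hij]
    exact FBd.zero

private theorem MBd.dom
    (hX : ∀ t ∈ Icc t₁ t₂, ∀ p₀ p₁, (A t p₀ p₁).PosSemidef ∧
      (B t p₀ p₁ - A t p₀ p₁).PosSemidef)
    (h : MBd t₁ t₂ g B) : MBd t₁ t₂ g A := by
  intro i j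
  have h1 : FBd t₁ t₂ g (fun t p₀ p₁ => B t p₀ p₁ i i + B t p₀ p₁ j j) := (h i i).add (h j j)
  refine h1.of_le fun t ht p₀ p₁ => ?_
  obtain ⟨h2, h3⟩ := hX t ht p₀ p₁
  refine (abs_entry_le h2 h3 i j).trans ?_
  have h4 : (B t p₀ p₁).PosSemidef := by
    have := h2.add h3
    rwa [add_sub_cancel] at this
  have hi : 0 ≤ B t p₀ p₁ i i := h4.diag_nonneg
  have hj : 0 ≤ B t p₀ p₁ j j := h4.diag_nonneg
  rw [abs_of_nonneg (by positivity)]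
  apply Real.sqrt_le_iff.2
  constructor
  · positivity
  · nlinarith [mul_nonneg hi hj]

end calculus

variable {η Λ v : ℝ} (F G : Matrix (Fin (2 * N)) (Fin (2 * N)) ℝ)

/-- all the functions are bounded by `C · Env` on the plane, uniformly for `t` in a compact subset of
`(0,∞)`.  Use `wt_bounds` (for `t ∈ [t₁,t₂]` and for `Λ t ∈ [Λ t₁, Λ t₂]`), `0 ≤ W₁ - v²𝒲 ≤ W₁`,
`0 ≤ K - v²M ≤ K`, `0 ≤ v² 𝒲 ≤ W₁`, `0 ≤ v² M ≤ K` and `abs_entry_le`; for the second term of `D12` use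
`± S Ẇ₁ Sᵀ ≤ C (1+|p₁|) S W₁ Sᵀ ≤ C (1+|p₁|) v⁻⁴ W₁` (`SWS_le`). -/
theorem flow_bounds (hη : 0 < η) (hΛ : 0 < Λ) (hv : 0 < v) {t₁ t₂ : ℝ} (h₁ : 0 < t₁) (h₁₂ : t₁ ≤ t₂) :
    ∃ C : ℝ, 0 ≤ C ∧ ∀ t ∈ Icc t₁ t₂, ∀ p₀ p₁ : ℝ,
      |Pot3 η Λ v F G p₀ p₁ (-p₀ - p₁) t| ≤ C * Env p₀ p₁ ∧
      |X0 η Λ v F G p₀ p₁ (-p₀ - p₁) t| ≤ C * Env p₀ p₁ ∧
      |X1 η Λ v F G p₀ p₁ (-p₀ - p₁) t| ≤ C * Env p₀ p₁ ∧
      |X2 η Λ v F G p₀ p₁ (-p₀ - p₁) t| ≤ C * Env p₀ p₁ ∧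
      |D00 η Λ v F G p₀ p₁ (-p₀ - p₁) t| ≤ C * Env p₀ p₁ ∧
      |D02 η Λ v F G p₀ p₁ (-p₀ - p₁) t| ≤ C * Env p₀ p₁ ∧
      |D22 η Λ v F G p₀ p₁ (-p₀ - p₁) t| ≤ C * Env p₀ p₁ ∧
      |D11 η Λ v F G p₀ p₁ (-p₀ - p₁) t| ≤ C * Env p₀ p₁ ∧
      |D12 η Λ v F G p₀ p₁ (-p₀ - p₁) t| ≤ C * Env p₀ p₁ ∧
      |L0 η Λ v F G p₀ p₁ (-p₀ - p₁) t| ≤ C * Env p₀ p₁ ∧
      |L1 η Λ v F G p₀ p₁ (-p₀ - p₁) t| ≤ C * Env p₀ p₁ ∧
      |L2 η Λ v F G p₀ p₁ (-p₀ - p₁) t| ≤ C * Env p₀ p₁ := by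
  have hpos : ∀ t ∈ Icc t₁ t₂, 0 < t := fun t ht => h₁.trans_le ht.1
  have hpos' : ∀ t ∈ Icc t₁ t₂, 0 < Λ * t := fun t ht => mul_pos hΛ (hpos t ht)
  obtain ⟨C₁, hC₁, hb₁⟩ := wt_bounds (η := η) (N := N) hη h₁ h₁₂
  obtain ⟨C₂, hC₂, hb₂⟩ := wt_bounds (η := η) (N := N) hη (mul_pos hΛ h₁)
    (mul_le_mul_of_nonneg_left h₁₂ hΛ.le)
  have hΛt : ∀ t ∈ Icc t₁ t₂, Λ * t ∈ Icc (Λ * t₁) (Λ * t₂) := fun t ht =>
    ⟨mul_le_mul_of_nonneg_left ht.1 hΛ.le, mul_le_mul_of_nonneg_left ht.2 hΛ.le⟩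
  -- the elementary functions
  let e₀ : ℝ → ℝ → ℝ := fun p₀ _ => Real.exp (-|p₀|)
  let e₁ : ℝ → ℝ → ℝ := fun _ p₁ => Real.exp (-|p₁|)
  let e₂ : ℝ → ℝ → ℝ := fun p₀ p₁ => Real.exp (-|p₀ + p₁|)
  let E : ℝ → ℝ → ℝ := fun p₀ p₁ => e₀ p₀ p₁ + e₂ p₀ p₁
  let r : ℝ → ℝ → ℝ := fun _ p₁ => (1 + |p₁|) * Real.exp (-|p₁|)
  have he₀ : ∀ p₀ p₁, 0 < e₀ p₀ p₁ := fun _ _ => Real.exp_pos _
  have he₁ : ∀ p₀ p₁, 0 < e₁ p₀ p₁ := fun _ _ => Real.exp_pos _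
  have he₂ : ∀ p₀ p₁, 0 < e₂ p₀ p₁ := fun _ _ => Real.exp_pos _
  have he₀' : ∀ p₀ p₁, e₀ p₀ p₁ ≤ 1 := fun p₀ _ => Real.exp_le_one_iff.2 (by simp)
  have he₁' : ∀ p₀ p₁, e₁ p₀ p₁ ≤ 1 := fun _ p₁ => Real.exp_le_one_iff.2 (by simp)
  have he₂' : ∀ p₀ p₁, e₂ p₀ p₁ ≤ 1 := fun p₀ p₁ => Real.exp_le_one_iff.2 (by simp)
  have hE : ∀ p₀ p₁, 0 < E p₀ p₁ := fun p₀ p₁ => add_pos (he₀ p₀ p₁) (he₂ p₀ p₁)
  have hE0 : ∀ p₀ p₁, e₀ p₀ p₁ ≤ E p₀ p₁ := fun p₀ p₁ => le_add_of_nonneg_right (he₂ p₀ p₁).le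
  have hE2 : ∀ p₀ p₁, e₂ p₀ p₁ ≤ E p₀ p₁ := fun p₀ p₁ => le_add_of_nonneg_left (he₀ p₀ p₁).le
  have hEle : ∀ p₀ p₁, E p₀ p₁ ≤ 2 := fun p₀ p₁ => by
    have := he₀' p₀ p₁
    have := he₂' p₀ p₁
    show e₀ p₀ p₁ + e₂ p₀ p₁ ≤ 2
    linarith
  have hr : ∀ p₀ p₁, e₁ p₀ p₁ ≤ r p₀ p₁ := fun p₀ p₁ => by
    have h1 := he₁ p₀ p₁
    show e₁ p₀ p₁ ≤ (1 + |p₁|) * e₁ p₀ p₁
    nlinarith [abs_nonneg p₁]
  have hEnv : ∀ p₀ p₁, Env p₀ p₁ = r p₀ p₁ * E p₀ p₁ := fun p₀ p₁ => rfl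
  have hr0 : ∀ p₀ p₁, 0 < r p₀ p₁ := fun p₀ p₁ => (he₁ p₀ p₁).trans_le (hr p₀ p₁)
  -- products with the envelope
  have g1E : ∀ p₀ p₁, e₁ p₀ p₁ * E p₀ p₁ ≤ 1 * Env p₀ p₁ := fun p₀ p₁ => by
    rw [hEnv, one_mul]
    exact mul_le_mul_of_nonneg_right (hr p₀ p₁) (hE p₀ p₁).le
  have g10 : ∀ p₀ p₁, e₁ p₀ p₁ * e₀ p₀ p₁ ≤ 1 * Env p₀ p₁ := fun p₀ p₁ =>
    (mul_le_mul_of_nonneg_left (hE0 p₀ p₁) (he₁ p₀ p₁).le).trans (g1E p₀ p₁)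
  have g12 : ∀ p₀ p₁, e₁ p₀ p₁ * e₂ p₀ p₁ ≤ 1 * Env p₀ p₁ := fun p₀ p₁ =>
    (mul_le_mul_of_nonneg_left (hE2 p₀ p₁) (he₁ p₀ p₁).le).trans (g1E p₀ p₁)
  have gr2 : ∀ p₀ p₁, r p₀ p₁ * e₂ p₀ p₁ ≤ 1 * Env p₀ p₁ := fun p₀ p₁ => by
    rw [hEnv, one_mul]
    exact mul_le_mul_of_nonneg_left (hE2 p₀ p₁) (hr0 p₀ p₁).le
  have hEnv0 : ∀ p₀ p₁, 0 < Env p₀ p₁ := fun p₀ p₁ => by
    rw [hEnv]
    exact mul_pos (hr0 p₀ p₁) (hE p₀ p₁)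
  have gsq : ∀ (a b c d : ℝ), 0 ≤ a → 0 ≤ b → 0 ≤ c → 0 ≤ d → c * d ≤ 2 → ∀ e : ℝ, a * b ≤ 1 * e →
      0 ≤ e → a * b * c * d ≤ 2 * e := by
    intro a b c d ha hb hc hd hcd e he he0
    have h1 : a * b * c * d = (a * b) * (c * d) := by ring
    rw [h1]
    have h2 : 0 ≤ c * d := mul_nonneg hc hd
    have h3 : (a * b) * (c * d) ≤ (1 * e) * (c * d) := mul_le_mul_of_nonneg_right he h2
    nlinarith
  have hcd0 : ∀ p₀ p₁, e₁ p₀ p₁ * e₀ p₀ p₁ ≤ 2 := fun p₀ p₁ => by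
    nlinarith [he₁ p₀ p₁, he₁' p₀ p₁, he₀ p₀ p₁, he₀' p₀ p₁]
  have hcd2 : ∀ p₀ p₁, e₁ p₀ p₁ * e₂ p₀ p₁ ≤ 2 := fun p₀ p₁ => by
    nlinarith [he₁ p₀ p₁, he₁' p₀ p₁, he₂ p₀ p₁, he₂' p₀ p₁]
  have hcdE : ∀ p₀ p₁, e₁ p₀ p₁ * E p₀ p₁ ≤ 2 := fun p₀ p₁ => by
    nlinarith [he₁ p₀ p₁, he₁' p₀ p₁, hE p₀ p₁, hEle p₀ p₁]
  have hab : ∀ p₀ p₁ : ℝ, |-p₀ - p₁| = |p₀ + p₁| := fun p₀ p₁ => by
    rw [← abs_neg, neg_sub, sub_neg_eq_add, add_comm]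
  -- weights
  have hw1 : ∀ k : Fin (2 * N), FBd t₁ t₂ e₁ (fun t _ p₁ => wt η p₁ t k) := fun k =>
    ⟨C₁, hC₁.le, fun t ht p₀ p₁ => by
      rw [abs_of_pos (wt_pos hη p₁ (hpos t ht) k)]
      exact (hb₁ t ht p₁ k).1⟩
  have hdw1 : ∀ k : Fin (2 * N), FBd t₁ t₂ e₁ (fun t _ p₁ => dwt η p₁ t k) := fun k =>
    ⟨C₁, hC₁.le, fun t ht p₀ p₁ => (hb₁ t ht p₁ k).2.1⟩
  have hddw1 : ∀ k : Fin (2 * N), FBd t₁ t₂ e₁ (fun t _ p₁ => ddwt η p₁ t k) := fun k =>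
    ⟨C₁, hC₁.le, fun t ht p₀ p₁ => (hb₁ t ht p₁ k).2.2.1⟩
  have hw0 : ∀ k : Fin (2 * N), FBd t₁ t₂ e₀ (fun t p₀ _ => wt η p₀ (Λ * t) k) := fun k =>
    ⟨C₂, hC₂.le, fun t ht p₀ p₁ => by
      rw [abs_of_pos (wt_pos hη p₀ (hpos' t ht) k)]
      exact (hb₂ _ (hΛt t ht) p₀ k).1⟩
  have hdw0 : ∀ k : Fin (2 * N), FBd t₁ t₂ e₀ (fun t p₀ _ => dwt η p₀ (Λ * t) k) := fun k =>
    ⟨C₂, hC₂.le, fun t ht p₀ p₁ => (hb₂ _ (hΛt t ht) p₀ k).2.1⟩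
  have hddw0 : ∀ k : Fin (2 * N), FBd t₁ t₂ e₀ (fun t p₀ _ => ddwt η p₀ (Λ * t) k) := fun k =>
    ⟨C₂, hC₂.le, fun t ht p₀ p₁ => (hb₂ _ (hΛt t ht) p₀ k).2.2.1⟩
  have hw2 : ∀ k : Fin (2 * N), FBd t₁ t₂ e₂ (fun t p₀ p₁ => wt η (-p₀ - p₁) (Λ * t) k) :=
    fun k => ⟨C₂, hC₂.le, fun t ht p₀ p₁ => by
      rw [abs_of_pos (wt_pos hη _ (hpos' t ht) k)]
      have := (hb₂ _ (hΛt t ht) (-p₀ - p₁) k).1
      rwa [hab] at this⟩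
  have hdw2 : ∀ k : Fin (2 * N), FBd t₁ t₂ e₂ (fun t p₀ p₁ => dwt η (-p₀ - p₁) (Λ * t) k) :=
    fun k => ⟨C₂, hC₂.le, fun t ht p₀ p₁ => by
      have := (hb₂ _ (hΛt t ht) (-p₀ - p₁) k).2.1
      rwa [hab] at this⟩
  have hddw2 : ∀ k : Fin (2 * N), FBd t₁ t₂ e₂ (fun t p₀ p₁ => ddwt η (-p₀ - p₁) (Λ * t) k) :=
    fun k => ⟨C₂, hC₂.le, fun t ht p₀ p₁ => by
      have := (hb₂ _ (hΛt t ht) (-p₀ - p₁) k).2.2.1
      rwa [hab] at this⟩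
  -- matrices
  have mW1 : MBd (N := N) t₁ t₂ e₁ (fun t _ p₁ => diagonal (wt η p₁ t)) := MBd.diag hw1
  have mdW1 : MBd (N := N) t₁ t₂ e₁ (fun t _ p₁ => diagonal (dwt η p₁ t)) := MBd.diag hdw1
  have mddW1 : MBd (N := N) t₁ t₂ e₁ (fun t _ p₁ => diagonal (ddwt η p₁ t)) := MBd.diag hddw1
  have mY1 : MBd (N := N) t₁ t₂ e₀ (fun t p₀ _ => Y1 η Λ F p₀ t) :=
    ((MBd.diag hdw0).const_mul Fᵀ).mul_const F
  have mY2 : MBd (N := N) t₁ t₂ e₀ (fun t p₀ _ => Y2 η Λ F p₀ t) :=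
    ((MBd.diag hddw0).const_mul Fᵀ).mul_const F
  have mV1 : MBd (N := N) t₁ t₂ e₂ (fun t p₀ p₁ => V1 η Λ G (-p₀ - p₁) t) :=
    ((MBd.diag hdw2).const_mul G).mul_const Gᵀ
  have mV2 : MBd (N := N) t₁ t₂ e₂ (fun t p₀ p₁ => V2 η Λ G (-p₀ - p₁) t) :=
    ((MBd.diag hddw2).const_mul G).mul_const Gᵀ
  have mK : MBd (N := N) t₁ t₂ E (fun t p₀ p₁ => K3 η Λ F G p₀ (-p₀ - p₁) t) :=
    ((((MBd.diag hw0).const_mul Fᵀ).mul_const F).mono (g' := E) zero_le_one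
      (fun p₀ p₁ => by rw [one_mul]; exact hE0 p₀ p₁)).add
    ((((MBd.diag hw2).const_mul G).mul_const Gᵀ).mono (g' := E) zero_le_one
      (fun p₀ p₁ => by rw [one_mul]; exact hE2 p₀ p₁))
  have hKp : ∀ t ∈ Icc t₁ t₂, ∀ p₀ p₁, (K3 η Λ F G p₀ (-p₀ - p₁) t).PosSemidef :=
    fun t ht p₀ p₁ => Kmat_posSemidef F G (fun k => (wt_pos hη _ (hpos' t ht) k).le)
      (fun k => (wt_pos hη _ (hpos' t ht) k).le)
  have hwp : ∀ t ∈ Icc t₁ t₂, ∀ p₁ (k : Fin (2 * N)), 0 < wt η p₁ t k :=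
    fun t ht p₁ k => wt_pos hη p₁ (hpos t ht) k
  have hv2 : 0 < v ^ 2 := by positivity
  have mKM : MBd (N := N) t₁ t₂ E (fun t p₀ p₁ =>
      K3 η Λ F G p₀ (-p₀ - p₁) t - v ^ 2 • M3 η Λ v F G p₀ p₁ (-p₀ - p₁) t) := by
    refine mK.dom fun t ht p₀ p₁ => ⟨K_sub_Mmat hv (hwp t ht p₁) (hKp t ht p₀ p₁), ?_⟩
    rw [sub_sub_cancel]
    exact (Mmat_posSemidef hv (hwp t ht p₁) (hKp t ht p₀ p₁)).smul hv2.le
  have mWW : MBd (N := N) t₁ t₂ e₁ (fun t p₀ p₁ =>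
      diagonal (wt η p₁ t) - v ^ 2 • W3 η Λ v F G p₀ p₁ (-p₀ - p₁) t) := by
    refine mW1.dom fun t ht p₀ p₁ => ⟨W_sub_Wmat hv (hwp t ht p₁) (hKp t ht p₀ p₁), ?_⟩
    rw [sub_sub_cancel]
    exact (Wmat_posSemidef hv (hwp t ht p₁) (hKp t ht p₀ p₁)).smul hv2.le
  have mM : MBd (N := N) t₁ t₂ E (fun t p₀ p₁ => M3 η Λ v F G p₀ p₁ (-p₀ - p₁) t) := by
    have h1 := (mK.sub mKM).smul (v ^ 2)⁻¹
    have h2 : (fun t p₀ p₁ => (v ^ 2)⁻¹ • (K3 η Λ F G p₀ (-p₀ - p₁) t -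
        (K3 η Λ F G p₀ (-p₀ - p₁) t - v ^ 2 • M3 η Λ v F G p₀ p₁ (-p₀ - p₁) t))) =
        fun t p₀ p₁ => M3 η Λ v F G p₀ p₁ (-p₀ - p₁) t := by
      funext t p₀ p₁
      rw [sub_sub_cancel, smul_smul, inv_mul_cancel₀ hv2.ne', one_smul]
    rw [h2] at h1
    exact h1
  have mW : MBd (N := N) t₁ t₂ e₁ (fun t p₀ p₁ => W3 η Λ v F G p₀ p₁ (-p₀ - p₁) t) := by
    have h1 := (mW1.sub mWW).smul (v ^ 2)⁻¹
    have h2 : (fun t p₀ p₁ => (v ^ 2)⁻¹ • (diagonal (wt η p₁ t) -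
        (diagonal (wt η p₁ t) - v ^ 2 • W3 η Λ v F G p₀ p₁ (-p₀ - p₁) t))) =
        fun t p₀ p₁ => W3 η Λ v F G p₀ p₁ (-p₀ - p₁) t := by
      funext t p₀ p₁
      rw [sub_sub_cancel, smul_smul, inv_mul_cancel₀ hv2.ne', one_smul]
    rw [h2] at h1
    exact h1
  -- `S Ẇ₁ Sᵀ`
  have mS : MBd (N := N) t₁ t₂ r (fun t p₀ p₁ => S3 η Λ v F G p₀ p₁ (-p₀ - p₁) t *
      diagonal (dwt η p₁ t) * (S3 η Λ v F G p₀ p₁ (-p₀ - p₁) t)ᵀ) := by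
    -- the dominating matrix
    have hD : MBd (N := N) t₁ t₂ r (fun t _ p₁ =>
        (2 * (C₁ * (1 + |p₁|))) • ((v ^ 4)⁻¹ • diagonal (wt η p₁ t))) := by
      have h1 : ∀ k : Fin (2 * N), FBd t₁ t₂ r
          (fun t _ p₁ => (2 * (C₁ * (1 + |p₁|))) * ((v ^ 4)⁻¹ * wt η p₁ t k)) := by
        intro k
        refine ⟨2 * C₁ * (v ^ 4)⁻¹ * C₁, by positivity, fun t ht p₀ p₁ => ?_⟩
        have h2 := (hb₁ t ht p₁ k).1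
        have h3 := hwp t ht p₁ k
        rw [abs_of_nonneg (by positivity)]
        calc 2 * (C₁ * (1 + |p₁|)) * ((v ^ 4)⁻¹ * wt η p₁ t k)
            ≤ 2 * (C₁ * (1 + |p₁|)) * ((v ^ 4)⁻¹ * (C₁ * Real.exp (-|p₁|))) := by
              gcongr
          _ = 2 * C₁ * (v ^ 4)⁻¹ * C₁ * ((1 + |p₁|) * Real.exp (-|p₁|)) := by ring
      intro i j
      by_cases hij : i = j
      · subst hij
        simp only [Matrix.smul_apply, Matrix.diagonal_apply_eq, smul_eq_mul]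
        exact h1 i
      · simp only [Matrix.smul_apply, Matrix.diagonal_apply_ne _ hij, smul_eq_mul, mul_zero]
        exact FBd.zero
    have hconj : ∀ (S D : Matrix (Fin (2 * N)) (Fin (2 * N)) ℝ), D.PosSemidef →
        (S * D * Sᵀ).PosSemidef := by
      intro S D hD
      have h := hD.mul_mul_conjTranspose_same S
      rwa [conjTranspose_eq_transpose_of_trivial] at h
    have hX : MBd (N := N) t₁ t₂ r (fun t p₀ p₁ => S3 η Λ v F G p₀ p₁ (-p₀ - p₁) t *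
        diagonal (fun k => C₁ * (1 + |p₁|) * wt η p₁ t k + dwt η p₁ t k) *
        (S3 η Λ v F G p₀ p₁ (-p₀ - p₁) t)ᵀ) := by
      refine hD.dom fun t ht p₀ p₁ => ⟨?_, ?_⟩
      · apply hconj
        refine Matrix.PosSemidef.diagonal fun k => ?_
        have h4 := (hb₁ t ht p₁ k).2.2.2.1
        have h5 := neg_abs_le (dwt η p₁ t k)
        show 0 ≤ C₁ * (1 + |p₁|) * wt η p₁ t k + dwt η p₁ t k
        linarith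
      · have h6 := SWS_le hv (hwp t ht p₁) (hKp t ht p₀ p₁)
        have h7 : 0 ≤ 2 * (C₁ * (1 + |p₁|)) := by positivity
        have h8 := h6.smul h7
        have h9 : (S3 η Λ v F G p₀ p₁ (-p₀ - p₁) t *
            diagonal (fun k => C₁ * (1 + |p₁|) * wt η p₁ t k - dwt η p₁ t k) *
            (S3 η Λ v F G p₀ p₁ (-p₀ - p₁) t)ᵀ).PosSemidef := by
          apply hconj
          refine Matrix.PosSemidef.diagonal fun k => ?_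
          have h4 := (hb₁ t ht p₁ k).2.2.2.1
          have h5 := le_abs_self (dwt η p₁ t k)
          show 0 ≤ C₁ * (1 + |p₁|) * wt η p₁ t k - dwt η p₁ t k
          linarith
        have h10 := h8.add h9
        refine Eq.mp ?_ h10
        congr 1
        have e1 : diagonal (fun k => C₁ * (1 + |p₁|) * wt η p₁ t k - dwt η p₁ t k) =
            (2 * (C₁ * (1 + |p₁|))) • (diagonal (wt η p₁ t) :
              Matrix (Fin (2 * N)) (Fin (2 * N)) ℝ) -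
            diagonal (fun k => C₁ * (1 + |p₁|) * wt η p₁ t k + dwt η p₁ t k) := by
          rw [← Matrix.diagonal_smul, Matrix.diagonal_sub]
          congr 1
          funext k
          show C₁ * (1 + |p₁|) * wt η p₁ t k - dwt η p₁ t k =
            2 * (C₁ * (1 + |p₁|)) * wt η p₁ t k -
              (C₁ * (1 + |p₁|) * wt η p₁ t k + dwt η p₁ t k)
          ring
        rw [e1, Matrix.mul_sub, Matrix.sub_mul, smul_sub, Matrix.mul_smul, Matrix.smul_mul]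
        unfold S3
        abel
    have hY : MBd (N := N) t₁ t₂ r (fun t p₀ p₁ => (2 : ℝ)⁻¹ •
        (S3 η Λ v F G p₀ p₁ (-p₀ - p₁) t *
        ((2 * (C₁ * (1 + |p₁|))) • diagonal (wt η p₁ t)) *
        (S3 η Λ v F G p₀ p₁ (-p₀ - p₁) t)ᵀ)) := by
      refine MBd.smul _ (hD.dom fun t ht p₀ p₁ => ⟨?_, ?_⟩)
      · apply hconj
        refine Matrix.PosSemidef.smul (Matrix.PosSemidef.diagonal fun k => ?_) (by positivity)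
        exact (hwp t ht p₁ k).le
      · have h6 := SWS_le hv (hwp t ht p₁) (hKp t ht p₀ p₁)
        have h7 : 0 ≤ 2 * (C₁ * (1 + |p₁|)) := by positivity
        have h8 := h6.smul h7
        refine Eq.mp ?_ h8
        congr 1
        rw [smul_sub, Matrix.mul_smul, Matrix.smul_mul]
        unfold S3
        rfl
    have hZ := hX.sub hY
    refine fun i j => (hZ i j).of_le fun t ht p₀ p₁ => le_of_eq ?_
    congr 1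
    beta_reduce
    have e1 : diagonal (fun k => C₁ * (1 + |p₁|) * wt η p₁ t k + dwt η p₁ t k) =
        diagonal (dwt η p₁ t) + (2 : ℝ)⁻¹ • ((2 * (C₁ * (1 + |p₁|))) • (diagonal (wt η p₁ t) :
              Matrix (Fin (2 * N)) (Fin (2 * N)) ℝ)) := by
      rw [← Matrix.diagonal_smul, ← Matrix.diagonal_smul, Matrix.diagonal_add]
      congr 1
      funext k
      show C₁ * (1 + |p₁|) * wt η p₁ t k + dwt η p₁ t k =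
        dwt η p₁ t k + 2⁻¹ * (2 * (C₁ * (1 + |p₁|)) * wt η p₁ t k)
      ring
    rw [e1, Matrix.mul_add, Matrix.add_mul, Matrix.mul_smul _ (2 : ℝ)⁻¹, Matrix.smul_mul,
      add_sub_cancel_right]
  -- the twelve bounds
  have bPot : FBd t₁ t₂ Env (fun t p₀ p₁ => Pot3 η Λ v F G p₀ p₁ (-p₀ - p₁) t) := by
    refine FBd.mono zero_le_one g1E ((mW1.mul mK).trace.of_le fun t ht p₀ p₁ => ?_)
    have h1 := pot_eq_sqrt (v := v) (hwp t ht p₁) (K3 η Λ F G p₀ (-p₀ - p₁) t)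
    have h2 : (diagonal (fun k => Real.sqrt (wt η p₁ t k)) * K3 η Λ F G p₀ (-p₀ - p₁) t *
        diagonal (fun k => Real.sqrt (wt η p₁ t k))).PosSemidef := by
      have h := (hKp t ht p₀ p₁).mul_mul_conjTranspose_same
        (diagonal (fun k => Real.sqrt (wt η p₁ t k)))
      rwa [conjTranspose_eq_transpose_of_trivial, Matrix.diagonal_transpose] at h
    have h3 : (diagonal (fun k => Real.sqrt (wt η p₁ t k)) * K3 η Λ F G p₀ (-p₀ - p₁) t *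
        diagonal (fun k => Real.sqrt (wt η p₁ t k))).trace =
        (diagonal (wt η p₁ t) * K3 η Λ F G p₀ (-p₀ - p₁) t).trace := by
      rw [Matrix.trace_mul_comm, ← Matrix.mul_assoc, Matrix.diagonal_mul_diagonal]
      congr 3
      funext k
      exact Real.mul_self_sqrt (hwp t ht p₁ k).le
    have h4 := pot_nonneg hv h2
    have h5 := pot_le_ell_trace hv h2
    have h6 := (ell_le hv h2.trace_nonneg).1
    unfold Pot3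
    rw [h1, abs_of_nonneg h4, ← h3, abs_of_nonneg h2.trace_nonneg]
    exact h5.trans h6
  have bX0 : FBd t₁ t₂ Env (fun t p₀ p₁ => X0 η Λ v F G p₀ p₁ (-p₀ - p₁) t) :=
    FBd.mono zero_le_one g10 (mWW.mul mY1).trace.neg
  have bX1 : FBd t₁ t₂ Env (fun t p₀ p₁ => X1 η Λ v F G p₀ p₁ (-p₀ - p₁) t) :=
    FBd.mono zero_le_one g1E (mdW1.mul mKM).trace.neg
  have bX2 : FBd t₁ t₂ Env (fun t p₀ p₁ => X2 η Λ v F G p₀ p₁ (-p₀ - p₁) t) :=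
    FBd.mono zero_le_one g12 (mWW.mul mV1).trace.neg
  have bD00 : FBd t₁ t₂ Env (fun t p₀ p₁ => D00 η Λ v F G p₀ p₁ (-p₀ - p₁) t) :=
    FBd.mono zero_le_two (fun p₀ p₁ => gsq _ _ _ _ (he₁ p₀ p₁).le (he₀ p₀ p₁).le (he₁ p₀ p₁).le
      (he₀ p₀ p₁).le (hcd0 p₀ p₁) _ (g10 p₀ p₁) (hEnv0 p₀ p₁).le)
      ((((mW.mul mY1).mul mW).mul mY1).trace.const_mul (v ^ 2))
  have bD02 : FBd t₁ t₂ Env (fun t p₀ p₁ => D02 η Λ v F G p₀ p₁ (-p₀ - p₁) t) :=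
    FBd.mono zero_le_two (fun p₀ p₁ => gsq _ _ _ _ (he₁ p₀ p₁).le (he₀ p₀ p₁).le (he₁ p₀ p₁).le
      (he₂ p₀ p₁).le (hcd2 p₀ p₁) _ (g10 p₀ p₁) (hEnv0 p₀ p₁).le)
      ((((mW.mul mY1).mul mW).mul mV1).trace.const_mul (v ^ 2))
  have bD22 : FBd t₁ t₂ Env (fun t p₀ p₁ => D22 η Λ v F G p₀ p₁ (-p₀ - p₁) t) :=
    FBd.mono zero_le_two (fun p₀ p₁ => gsq _ _ _ _ (he₁ p₀ p₁).le (he₂ p₀ p₁).le (he₁ p₀ p₁).le
      (he₂ p₀ p₁).le (hcd2 p₀ p₁) _ (g12 p₀ p₁) (hEnv0 p₀ p₁).le)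
      ((((mW.mul mV1).mul mW).mul mV1).trace.const_mul (v ^ 2))
  have bD11 : FBd t₁ t₂ Env (fun t p₀ p₁ => D11 η Λ v F G p₀ p₁ (-p₀ - p₁) t) :=
    FBd.mono zero_le_two (fun p₀ p₁ => gsq _ _ _ _ (he₁ p₀ p₁).le (hE p₀ p₁).le (he₁ p₀ p₁).le
      (hE p₀ p₁).le (hcdE p₀ p₁) _ (g1E p₀ p₁) (hEnv0 p₀ p₁).le)
      ((((mdW1.mul mM).mul mdW1).mul mM).trace.const_mul (v ^ 2))
  have bD12 : FBd t₁ t₂ Env (fun t p₀ p₁ => D12 η Λ v F G p₀ p₁ (-p₀ - p₁) t) :=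
    (FBd.mono zero_le_one g12 (mdW1.mul mV1).trace).sub
      (FBd.mono zero_le_one gr2 ((mS.mul mV1).trace.const_mul (v ^ 4)))
  have bL0 : FBd t₁ t₂ Env (fun t p₀ p₁ => L0 η Λ v F G p₀ p₁ (-p₀ - p₁) t) :=
    FBd.mono zero_le_one g10 (mWW.mul mY2).trace
  have bL1 : FBd t₁ t₂ Env (fun t p₀ p₁ => L1 η Λ v F G p₀ p₁ (-p₀ - p₁) t) :=
    FBd.mono zero_le_one g1E (mddW1.mul mKM).trace
  have bL2 : FBd t₁ t₂ Env (fun t p₀ p₁ => L2 η Λ v F G p₀ p₁ (-p₀ - p₁) t) :=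
    FBd.mono zero_le_one g12 (mWW.mul mV2).trace
  obtain ⟨c1, hc1, b1⟩ := bPot
  obtain ⟨c2, hc2, b2⟩ := bX0
  obtain ⟨c3, hc3, b3⟩ := bX1
  obtain ⟨c4, hc4, b4⟩ := bX2
  obtain ⟨c5, hc5, b5⟩ := bD00
  obtain ⟨c6, hc6, b6⟩ := bD02
  obtain ⟨c7, hc7, b7⟩ := bD22
  obtain ⟨c8, hc8, b8⟩ := bD11
  obtain ⟨c9, hc9, b9⟩ := bD12
  obtain ⟨c10, hc10, b10⟩ := bL0
  obtain ⟨c11, hc11, b11⟩ := bL1
  obtain ⟨c12, hc12, b12⟩ := bL2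
  refine ⟨c1 + c2 + c3 + c4 + c5 + c6 + c7 + c8 + c9 + c10 + c11 + c12, by positivity,
    fun t ht p₀ p₁ => ?_⟩
  have hle : ∀ c : ℝ, c ≤ c1 + c2 + c3 + c4 + c5 + c6 + c7 + c8 + c9 + c10 + c11 + c12 →
      ∀ x : ℝ, x ≤ c * Env p₀ p₁ →
      x ≤ (c1 + c2 + c3 + c4 + c5 + c6 + c7 + c8 + c9 + c10 + c11 + c12) * Env p₀ p₁ :=
    fun c hc x hx => hx.trans (mul_le_mul_of_nonneg_right hc (hEnv0 p₀ p₁).le)
  exact ⟨hle c1 (by linarith) _ (b1 t ht p₀ p₁), hle c2 (by linarith) _ (b2 t ht p₀ p₁),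
    hle c3 (by linarith) _ (b3 t ht p₀ p₁), hle c4 (by linarith) _ (b4 t ht p₀ p₁),
    hle c5 (by linarith) _ (b5 t ht p₀ p₁), hle c6 (by linarith) _ (b6 t ht p₀ p₁),
    hle c7 (by linarith) _ (b7 t ht p₀ p₁), hle c8 (by linarith) _ (b8 t ht p₀ p₁),
    hle c9 (by linarith) _ (b9 t ht p₀ p₁), hle c10 (by linarith) _ (b10 t ht p₀ p₁),
    hle c11 (by linarith) _ (b11 t ht p₀ p₁), hle c12 (by linarith) _ (b12 t ht p₀ p₁)⟩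

end Crest.Agent.TH
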