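import Crest.Agent.TH_MC1

/-! # TH_MC2 (task TH-MC2): derivatives of `pot v (W₁ K)`, `Mmat`, `Wmat` along curves -/

set_option autoImplicit false
open Matrix MeasureTheory Set Filter
open scoped Topology

namespace Crest.Agent.TH
variable {ι : Type*} [Fintype ι] [DecidableEq ι]

/-- derivative of the determinant (Jacobi): `(det A)' = tr (adjugate A * A')`. -/
theorem hasDerivAt_det {A : ℝ → Matrix ι ι ℝ} {A' : Matrix ι ι ℝ} {x : ℝ}
    (h : ∀ i j, HasDerivAt (fun x => A x i j) (A' i j) x) :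
    HasDerivAt (fun x => (A x).det) ((adjugate (A x) * A').trace) x := by
  have h1 : (fun x => (A x).det) = fun x => ∑ σ : Equiv.Perm ι,
      ((Equiv.Perm.sign σ : ℤ) : ℝ) * ∏ i, A x (σ i) i := by
    funext y
    rw [Matrix.det_apply']
  rw [h1]
  have h2 : HasDerivAt (fun x => ∑ σ : Equiv.Perm ι,
      ((Equiv.Perm.sign σ : ℤ) : ℝ) * ∏ i, A x (σ i) i)
      (∑ σ : Equiv.Perm ι, ((Equiv.Perm.sign σ : ℤ) : ℝ) *
        ∑ i, (∏ j ∈ Finset.univ.erase i, A x (σ j) j) • A' (σ i) i) x := by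
    apply HasDerivAt.fun_sum
    intro σ _
    apply HasDerivAt.const_mul
    apply HasDerivAt.fun_finsetProd
    intro i _
    exact h (σ i) i
  convert h2 using 1
  have h3 : ∀ j, (adjugate (A x) * A') j j = ∑ σ : Equiv.Perm ι,
      ((Equiv.Perm.sign σ : ℤ) : ℝ) * ((∏ i ∈ Finset.univ.erase j, A x (σ i) i) * A' (σ j) j) := by
    intro j
    have h4 : (adjugate (A x) * A') j j = ((A x).updateCol j (fun i => A' i j)).det := by
      rw [← Matrix.cramer_apply, Matrix.cramer_eq_adjugate_mulVec]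
      rfl
    rw [h4, Matrix.det_apply']
    apply Finset.sum_congr rfl
    intro σ _
    congr 1
    rw [← Finset.mul_prod_erase Finset.univ _ (Finset.mem_univ j), mul_comm]
    congr 1
    · apply Finset.prod_congr rfl
      intro i hi
      rw [Matrix.updateCol_ne (Finset.ne_of_mem_erase hi)]
    · rw [Matrix.updateCol_self]
  unfold Matrix.trace
  simp only [Matrix.diag_apply, h3]
  rw [Finset.sum_comm]
  apply Finset.sum_congr rfl
  intro σ _
  rw [Finset.mul_sum]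
  rfl

private theorem exists_deriv_inv {A : ℝ → Matrix ι ι ℝ} {A' : Matrix ι ι ℝ} {x : ℝ}
    (h : ∀ i j, HasDerivAt (fun x => A x i j) (A' i j) x) (hdet : (A x).det ≠ 0) :
    ∃ B' : Matrix ι ι ℝ, ∀ i j, HasDerivAt (fun x => (A x)⁻¹ i j) (B' i j) x := by
  have key : ∀ i j, ∃ b : ℝ, HasDerivAt (fun x => (A x)⁻¹ i j) b x := by
    intro i j
    have h1 : (fun x => (A x)⁻¹ i j) = fun x => ((A x).det)⁻¹ *
        ((A x).updateRow j (Pi.single i 1)).det := by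
      funext y
      rw [Matrix.inv_def, Matrix.smul_apply, Ring.inverse_eq_inv', Matrix.adjugate_apply, smul_eq_mul]
    rw [h1]
    have hd := hasDerivAt_det h
    have hu := hasDerivAt_det (A := fun x => (A x).updateRow j (Pi.single i 1))
      (A' := fun a b => if a = j then 0 else A' a b) (x := x) (by
        intro a b
        by_cases hab : a = j
        · subst hab
          simp only [Matrix.updateRow_self, if_true]
          exact hasDerivAt_const _ _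
        · simp only [Matrix.updateRow_ne hab, if_neg hab]
          exact h a b)
    exact ⟨_, (hd.fun_inv hdet).fun_mul hu⟩
  choose b hb using key
  exact ⟨Matrix.of b, hb⟩

theorem hasDerivAt_mul_entry {A B : ℝ → Matrix ι ι ℝ} {A' B' : Matrix ι ι ℝ} {x : ℝ}
    (hA : ∀ i j, HasDerivAt (fun x => A x i j) (A' i j) x)
    (hB : ∀ i j, HasDerivAt (fun x => B x i j) (B' i j) x) (i j : ι) :
    HasDerivAt (fun x => (A x * B x) i j) ((A' * B x + A x * B') i j) x := by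
  simp only [Matrix.mul_apply, Matrix.add_apply]
  rw [← Finset.sum_add_distrib]
  apply HasDerivAt.fun_sum
  intro k _
  exact (hA i k).fun_mul (hB k j)

theorem hasDerivAt_inv_entry {A : ℝ → Matrix ι ι ℝ} {A' : Matrix ι ι ℝ} {x : ℝ}
    (h : ∀ i j, HasDerivAt (fun x => A x i j) (A' i j) x) (hdet : (A x).det ≠ 0) (i j : ι) :
    HasDerivAt (fun x => (A x)⁻¹ i j) (-((A x)⁻¹ * A' * (A x)⁻¹) i j) x := by
  obtain ⟨B', hB'⟩ := exists_deriv_inv h hdet
  have hev : ∀ᶠ y in 𝓝 x, (A y).det ≠ 0 :=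
    (hasDerivAt_det h).continuousAt.eventually_ne hdet
  have h1 : ∀ i j, (B' * A x + (A x)⁻¹ * A') i j = 0 := by
    intro i j
    have h2 := hasDerivAt_mul_entry hB' h i j
    have h3 : (fun y => ((A y)⁻¹ * A y) i j) =ᶠ[𝓝 x] fun _ => (1 : Matrix ι ι ℝ) i j := by
      filter_upwards [hev] with y hy
      rw [Matrix.nonsing_inv_mul _ (isUnit_iff_ne_zero.mpr hy)]
    exact h2.unique ((hasDerivAt_const x ((1 : Matrix ι ι ℝ) i j)).congr_of_eventuallyEq h3)
  have h4 : B' * A x + (A x)⁻¹ * A' = 0 := by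
    ext i j
    exact h1 i j
  have h5 : B' = -((A x)⁻¹ * A' * (A x)⁻¹) := by
    have h6 : (B' * A x + (A x)⁻¹ * A') * (A x)⁻¹ = 0 := by rw [h4, zero_mul]
    rw [add_mul, Matrix.mul_assoc, Matrix.mul_nonsing_inv _ (isUnit_iff_ne_zero.mpr hdet),
      Matrix.mul_one] at h6
    exact eq_neg_of_add_eq_zero_left h6
  have h7 := hB' i j
  rw [h5] at h7
  exact h7

private theorem dWK {w₁ : ℝ → ι → ℝ} {w₁' : ι → ℝ} {K : ℝ → Matrix ι ι ℝ}
    {K' : Matrix ι ι ℝ} {x : ℝ}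
    (dw : ∀ k, HasDerivAt (fun x => w₁ x k) (w₁' k) x)
    (dK : ∀ i j, HasDerivAt (fun x => K x i j) (K' i j) x) (i j : ι) :
    HasDerivAt (fun x => (diagonal (w₁ x) * K x) i j)
      ((diagonal w₁' * K x + diagonal (w₁ x) * K') i j) x := by
  have hD : ∀ i j, HasDerivAt (fun x => (diagonal (w₁ x) : Matrix ι ι ℝ) i j)
      ((diagonal w₁' : Matrix ι ι ℝ) i j) x := by
    intro i j
    by_cases hij : i = j
    · subst hij
      simp only [Matrix.diagonal_apply_eq]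
      exact dw i
    · simp only [Matrix.diagonal_apply_ne _ hij]
      exact hasDerivAt_const _ _
  exact hasDerivAt_mul_entry hD dK i j

private theorem dDiag {w₁ : ℝ → ι → ℝ} {w₁' : ι → ℝ} {x : ℝ}
    (dw : ∀ k, HasDerivAt (fun x => w₁ x k) (w₁' k) x) (i j : ι) :
    HasDerivAt (fun x => (diagonal (w₁ x) : Matrix ι ι ℝ) i j)
      ((diagonal w₁' : Matrix ι ι ℝ) i j) x := by
  by_cases hij : i = j
  · subst hij
    simp only [Matrix.diagonal_apply_eq]
    exact dw i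
  · simp only [Matrix.diagonal_apply_ne _ hij]
    exact hasDerivAt_const _ _

/-- derivative of `S`. -/
private theorem dS {v : ℝ} (hv : 0 < v) {w₁ : ℝ → ι → ℝ} {w₁' : ι → ℝ} {K : ℝ → Matrix ι ι ℝ}
    {K' : Matrix ι ι ℝ} {x : ℝ} (hw : ∀ k, 0 < w₁ x k) (hK : (K x).PosSemidef)
    (dw : ∀ k, HasDerivAt (fun x => w₁ x k) (w₁' k) x)
    (dK : ∀ i j, HasDerivAt (fun x => K x i j) (K' i j) x) (i j : ι) :
    HasDerivAt (fun x => (v ^ 2 • (1 : Matrix ι ι ℝ) + diagonal (w₁ x) * K x)⁻¹ i j)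
      ((-((v ^ 2 • (1 : Matrix ι ι ℝ) + diagonal (w₁ x) * K x)⁻¹ *
        (diagonal w₁' * K x + diagonal (w₁ x) * K') *
        (v ^ 2 • (1 : Matrix ι ι ℝ) + diagonal (w₁ x) * K x)⁻¹)) i j) x := by
  apply hasDerivAt_inv_entry (A := fun x => v ^ 2 • (1 : Matrix ι ι ℝ) + diagonal (w₁ x) * K x)
  · intro i j
    simp only [Matrix.add_apply (v ^ 2 • (1 : Matrix ι ι ℝ))]
    exact (dWK dw dK i j).const_add _
  · exact (det_pos_aux hv hw hK).1.ne'

/-- `d pot v (W₁ K) = tr (W₁' (K - v² M)) + tr ((W₁ - v² 𝒲) K')`. -/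
theorem hasDerivAt_pot {v : ℝ} (hv : 0 < v) {w₁ : ℝ → ι → ℝ} {w₁' : ι → ℝ} {K : ℝ → Matrix ι ι ℝ}
    {K' : Matrix ι ι ℝ} {x : ℝ} (hw : ∀ k, 0 < w₁ x k) (hK : (K x).PosSemidef)
    (dw : ∀ k, HasDerivAt (fun x => w₁ x k) (w₁' k) x)
    (dK : ∀ i j, HasDerivAt (fun x => K x i j) (K' i j) x) :
    HasDerivAt (fun x => pot v (diagonal (w₁ x) * K x))
      ((diagonal w₁' * (K x - v ^ 2 • Mmat v (w₁ x) (K x))).trace +
        ((diagonal (w₁ x) - v ^ 2 • Wmat v (w₁ x) (K x)) * K').trace) x := by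
  have hv2 : v ^ 2 ≠ 0 := by positivity
  have hd := (det_pos_aux hv hw hK).2
  set P : Matrix ι ι ℝ := diagonal w₁' * K x + diagonal (w₁ x) * K' with hP
  set S : Matrix ι ι ℝ := (v ^ 2 • (1 : Matrix ι ι ℝ) + diagonal (w₁ x) * K x)⁻¹ with hS
  have hA : ∀ i j, HasDerivAt (fun x => (1 + (v ^ 2)⁻¹ • (diagonal (w₁ x) * K x) : Matrix ι ι ℝ) i j)
      (((v ^ 2)⁻¹ • P) i j) x := by
    intro i j
    simp only [Matrix.add_apply (1 : Matrix ι ι ℝ), Matrix.smul_apply, smul_eq_mul]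
    exact ((dWK dw dK i j).const_mul ((v ^ 2)⁻¹)).const_add _
  have hdet := hasDerivAt_det hA
  have hlog := hdet.log hd.ne'
  have htr : HasDerivAt (fun x => (diagonal (w₁ x) * K x).trace) P.trace x := by
    unfold Matrix.trace
    simp only [Matrix.diag_apply]
    apply HasDerivAt.fun_sum
    intro i _
    exact dWK dw dK i i
  have hpot := htr.fun_sub (hlog.const_mul (v ^ 2))
  unfold pot
  refine hpot.congr_deriv ?_
  -- inverse of `1 + v⁻² W K` is `v² S`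
  have hinv : (1 + (v ^ 2)⁻¹ • (diagonal (w₁ x) * K x) : Matrix ι ι ℝ)⁻¹ = v ^ 2 • S := by
    apply Matrix.inv_eq_left_inv
    rw [hS]
    have h1 : (1 + (v ^ 2)⁻¹ • (diagonal (w₁ x) * K x) : Matrix ι ι ℝ) =
        (v ^ 2)⁻¹ • (v ^ 2 • (1 : Matrix ι ι ℝ) + diagonal (w₁ x) * K x) := by
      rw [smul_add, smul_smul, inv_mul_cancel₀ hv2, one_smul]
    rw [h1, Matrix.smul_mul, Matrix.mul_smul, smul_smul, mul_inv_cancel₀ hv2, one_smul]
    exact Matrix.nonsing_inv_mul _ (isUnit_iff_ne_zero.mpr (det_pos_aux hv hw hK).1.ne')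
  have hadj : adjugate (1 + (v ^ 2)⁻¹ • (diagonal (w₁ x) * K x) : Matrix ι ι ℝ) =
      (1 + (v ^ 2)⁻¹ • (diagonal (w₁ x) * K x) : Matrix ι ι ℝ).det • (v ^ 2 • S) := by
    rw [← hinv, Matrix.inv_def, Ring.inverse_eq_inv', smul_smul, mul_inv_cancel₀ hd.ne', one_smul]
  rw [hadj, Matrix.smul_mul, Matrix.trace_smul, smul_eq_mul, mul_div_assoc, mul_comm (det _),
    div_mul_cancel₀ _ hd.ne', Matrix.smul_mul, Matrix.mul_smul, smul_smul, mul_inv_cancel₀ hv2,
    one_smul]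
  have h1 : (S * P).trace = (diagonal w₁' * Mmat v (w₁ x) (K x)).trace +
      (Wmat v (w₁ x) (K x) * K').trace := by
    rw [hP, Matrix.mul_add, Matrix.trace_add]
    congr 1
    · rw [Matrix.trace_mul_comm, Matrix.mul_assoc]
      rfl
    · rw [← Matrix.mul_assoc]
      rfl
  rw [h1, hP, Matrix.trace_add, Matrix.mul_sub, Matrix.sub_mul, Matrix.trace_sub, Matrix.trace_sub,
    Matrix.mul_smul, Matrix.smul_mul, Matrix.trace_smul, Matrix.trace_smul, smul_eq_mul, smul_eq_mul]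
  ring

/-- `M' = v² Sᵀ K' S - M W₁' M`, `S = (v² + W₁ K)⁻¹`. -/
theorem hasDerivAt_Mmat {v : ℝ} (hv : 0 < v) {w₁ : ℝ → ι → ℝ} {w₁' : ι → ℝ} {K : ℝ → Matrix ι ι ℝ}
    {K' : Matrix ι ι ℝ} {x : ℝ} (hw : ∀ k, 0 < w₁ x k) (hK : (K x).PosSemidef)
    (dw : ∀ k, HasDerivAt (fun x => w₁ x k) (w₁' k) x)
    (dK : ∀ i j, HasDerivAt (fun x => K x i j) (K' i j) x) (i j : ι) :
    HasDerivAt (fun x => Mmat v (w₁ x) (K x) i j)
      ((v ^ 2 • (((v ^ 2 • (1 : Matrix ι ι ℝ) + diagonal (w₁ x) * K x)⁻¹)ᵀ * K' *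
          (v ^ 2 • (1 : Matrix ι ι ℝ) + diagonal (w₁ x) * K x)⁻¹) -
        Mmat v (w₁ x) (K x) * diagonal w₁' * Mmat v (w₁ x) (K x)) i j) x := by
  have h1 := hasDerivAt_mul_entry dK (dS hv hw hK dw dK) i j
  refine HasDerivAt.congr_deriv (f := fun x => Mmat v (w₁ x) (K x) i j) h1 ?_
  have hSe := (S_eq hv hw hK).1
  have hMs : (Mmat v (w₁ x) (K x))ᵀ = Mmat v (w₁ x) (K x) := by
    have := (Mmat_posSemidef hv hw hK).1
    simpa [Matrix.IsHermitian, Matrix.conjTranspose_eq_transpose_of_trivial] using this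
  have hT : v ^ 2 • ((v ^ 2 • (1 : Matrix ι ι ℝ) + diagonal (w₁ x) * K x)⁻¹)ᵀ =
      1 - Mmat v (w₁ x) (K x) * diagonal (w₁ x) := by
    rw [← Matrix.transpose_smul, hSe, Matrix.transpose_sub, Matrix.transpose_one,
      Matrix.transpose_mul, hMs, Matrix.diagonal_transpose]
  refine congrFun (congrFun ?_ i) j
  rw [← Matrix.smul_mul, ← Matrix.smul_mul, hT]
  unfold Mmat
  generalize (v ^ 2 • (1 : Matrix ι ι ℝ) + diagonal (w₁ x) * K x)⁻¹ = S
  noncomm_ring

/-- `𝒲' = v² S W₁' Sᵀ - 𝒲 K' 𝒲`. -/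
theorem hasDerivAt_Wmat {v : ℝ} (hv : 0 < v) {w₁ : ℝ → ι → ℝ} {w₁' : ι → ℝ} {K : ℝ → Matrix ι ι ℝ}
    {K' : Matrix ι ι ℝ} {x : ℝ} (hw : ∀ k, 0 < w₁ x k) (hK : (K x).PosSemidef)
    (dw : ∀ k, HasDerivAt (fun x => w₁ x k) (w₁' k) x)
    (dK : ∀ i j, HasDerivAt (fun x => K x i j) (K' i j) x) (i j : ι) :
    HasDerivAt (fun x => Wmat v (w₁ x) (K x) i j)
      ((v ^ 2 • ((v ^ 2 • (1 : Matrix ι ι ℝ) + diagonal (w₁ x) * K x)⁻¹ * diagonal w₁' *
          ((v ^ 2 • (1 : Matrix ι ι ℝ) + diagonal (w₁ x) * K x)⁻¹)ᵀ) -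
        Wmat v (w₁ x) (K x) * K' * Wmat v (w₁ x) (K x)) i j) x := by
  have h1 := hasDerivAt_mul_entry (dS hv hw hK dw dK) (dDiag dw) i j
  refine HasDerivAt.congr_deriv (f := fun x => Wmat v (w₁ x) (K x) i j) h1 ?_
  have hSe := (S_eq hv hw hK).2
  have hMs : (Wmat v (w₁ x) (K x))ᵀ = Wmat v (w₁ x) (K x) := by
    have := (Wmat_posSemidef hv hw hK).1
    simpa [Matrix.IsHermitian, Matrix.conjTranspose_eq_transpose_of_trivial] using this
  have hKs : (K x)ᵀ = K x := by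
    have := hK.1
    simpa [Matrix.IsHermitian, Matrix.conjTranspose_eq_transpose_of_trivial] using this
  have hT : v ^ 2 • ((v ^ 2 • (1 : Matrix ι ι ℝ) + diagonal (w₁ x) * K x)⁻¹)ᵀ =
      1 - K x * Wmat v (w₁ x) (K x) := by
    rw [← Matrix.transpose_smul, hSe, Matrix.transpose_sub, Matrix.transpose_one,
      Matrix.transpose_mul, hMs, hKs]
  refine congrFun (congrFun ?_ i) j
  rw [← Matrix.mul_smul, hT]
  unfold Wmat
  generalize (v ^ 2 • (1 : Matrix ι ι ℝ) + diagonal (w₁ x) * K x)⁻¹ = S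
  noncomm_ring

/-- continuity of the inverse entries, hence of `Mmat`, `Wmat`, `pot` in the weights. -/
theorem continuousOn_inv_entry {X : Type*} [TopologicalSpace X] {s : Set X} {A : X → Matrix ι ι ℝ}
    (h : ∀ i j, ContinuousOn (fun x => A x i j) s) (hdet : ∀ x ∈ s, (A x).det ≠ 0) (i j : ι) :
    ContinuousOn (fun x => (A x)⁻¹ i j) s := by
  have hA : Continuous (fun x : s => A x) := by
    apply continuous_matrix
    intro i j
    exact continuousOn_iff_continuous_domRestrict.mp (h i j)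
  rw [continuousOn_iff_continuous_domRestrict]
  have h1 : (s.domRestrict fun x => (A x)⁻¹ i j) = fun x : s => ((A x).det)⁻¹ * adjugate (A x) i j := by
    funext y
    simp only [Set.domRestrict_apply]
    rw [Matrix.inv_def, Matrix.smul_apply, Ring.inverse_eq_inv', smul_eq_mul]
  rw [h1]
  exact (hA.matrix_det.inv₀ (fun y => hdet y y.2)).mul (hA.matrix_adjugate.matrix_elem i j)

end Crest.Agent.TH
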