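import Crest.Agent.TH_FL1
import Crest.Agent.TH_MC2

/-! # TH_FL1c (task TH-FL1c): continuity of the functions of the flow -/

set_option autoImplicit false
open Matrix MeasureTheory Set Filter
open scoped Topology

namespace Crest.Agent.TH
section cm
variable {X ι : Type*} [TopologicalSpace X] [Fintype ι] [DecidableEq ι] {s : Set X}

private theorem cm_mul {A B : X → Matrix ι ι ℝ} (hA : ∀ i j, ContinuousOn (fun x => A x i j) s)
    (hB : ∀ i j, ContinuousOn (fun x => B x i j) s) (i j : ι) :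
    ContinuousOn (fun x => (A x * B x) i j) s := by
  simp only [Matrix.mul_apply]
  exact continuousOn_finsetSum _ fun k _ => (hA i k).mul (hB k j)

private theorem cm_add {A B : X → Matrix ι ι ℝ} (hA : ∀ i j, ContinuousOn (fun x => A x i j) s)
    (hB : ∀ i j, ContinuousOn (fun x => B x i j) s) (i j : ι) :
    ContinuousOn (fun x => (A x + B x) i j) s := (hA i j).add (hB i j)

private theorem cm_sub {A B : X → Matrix ι ι ℝ} (hA : ∀ i j, ContinuousOn (fun x => A x i j) s)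
    (hB : ∀ i j, ContinuousOn (fun x => B x i j) s) (i j : ι) :
    ContinuousOn (fun x => (A x - B x) i j) s := (hA i j).sub (hB i j)

private theorem cm_smul (c : ℝ) {A : X → Matrix ι ι ℝ}
    (hA : ∀ i j, ContinuousOn (fun x => A x i j) s) (i j : ι) :
    ContinuousOn (fun x => (c • A x) i j) s := continuousOn_const.mul (hA i j)

private theorem cm_T {A : X → Matrix ι ι ℝ} (hA : ∀ i j, ContinuousOn (fun x => A x i j) s)
    (i j : ι) : ContinuousOn (fun x => (A x)ᵀ i j) s := hA j i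

private theorem cm_diag {w : X → ι → ℝ} (hw : ∀ k, ContinuousOn (fun x => w x k) s) (i j : ι) :
    ContinuousOn (fun x => (diagonal (w x) : Matrix ι ι ℝ) i j) s := by
  by_cases h : i = j
  · subst h
    simp only [Matrix.diagonal_apply_eq]
    exact hw i
  · simp only [Matrix.diagonal_apply_ne _ h]
    exact continuousOn_const

private theorem cm_const (A : Matrix ι ι ℝ) (i j : ι) : ContinuousOn (fun _ : X => A i j) s :=
  continuousOn_const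

private theorem cm_trace {A : X → Matrix ι ι ℝ} (hA : ∀ i j, ContinuousOn (fun x => A x i j) s) :
    ContinuousOn (fun x => (A x).trace) s := by
  simp only [Matrix.trace, Matrix.diag]
  exact continuousOn_finsetSum _ fun k _ => hA k k

private theorem cm_det {A : X → Matrix ι ι ℝ} (hA : ∀ i j, ContinuousOn (fun x => A x i j) s) :
    ContinuousOn (fun x => (A x).det) s := by
  simp only [Matrix.det_apply']
  exact continuousOn_finsetSum _ fun σ _ =>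
    continuousOn_const.mul (continuousOn_finsetProd _ fun k _ => hA _ _)

private theorem cm_wt {η : ℝ} {N : ℕ} {p τ : X → ℝ} (hp : Continuous p) (hτ : Continuous τ)
    (h : ∀ q ∈ s, 0 < τ q) (k : Fin (2 * N)) : ContinuousOn (fun q => wt η (p q) (τ q) k) s :=
  ContinuousOn.comp (g := fun q : ℝ × ℝ => wt η q.1 q.2 k) (f := fun x => (p x, τ x))
    (continuousOn_wt k) (hp.prodMk hτ).continuousOn (fun q hq => ⟨mem_univ _, h q hq⟩)

private theorem cm_dwt {η : ℝ} {N : ℕ} {p τ : X → ℝ} (hp : Continuous p) (hτ : Continuous τ)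
    (h : ∀ q ∈ s, 0 < τ q) (k : Fin (2 * N)) : ContinuousOn (fun q => dwt η (p q) (τ q) k) s :=
  ContinuousOn.comp (g := fun q : ℝ × ℝ => dwt η q.1 q.2 k) (f := fun x => (p x, τ x))
    (continuousOn_dwt k) (hp.prodMk hτ).continuousOn (fun q hq => ⟨mem_univ _, h q hq⟩)

private theorem cm_ddwt {η : ℝ} {N : ℕ} {p τ : X → ℝ} (hp : Continuous p) (hτ : Continuous τ)
    (h : ∀ q ∈ s, 0 < τ q) (k : Fin (2 * N)) : ContinuousOn (fun q => ddwt η (p q) (τ q) k) s :=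
  ContinuousOn.comp (g := fun q : ℝ × ℝ => ddwt η q.1 q.2 k) (f := fun x => (p x, τ x))
    (continuousOn_ddwt k) (hp.prodMk hτ).continuousOn (fun q hq => ⟨mem_univ _, h q hq⟩)

end cm

variable {N : ℕ} {η Λ v : ℝ} (F G : Matrix (Fin (2 * N)) (Fin (2 * N)) ℝ)

set_option maxHeartbeats 1000000 in
/-- joint continuity in `((p₀,p₁),t)`, `t > 0`, of all the functions on the plane. -/
theorem flow_continuous (hη : 0 < η) (hΛ : 0 < Λ) (hv : 0 < v) :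
    ContinuousOn (fun q : (ℝ × ℝ) × ℝ => Pot3 η Λ v F G q.1.1 q.1.2 (-q.1.1 - q.1.2) q.2) (univ ×ˢ Ioi 0) ∧
    ContinuousOn (fun q : (ℝ × ℝ) × ℝ => X0 η Λ v F G q.1.1 q.1.2 (-q.1.1 - q.1.2) q.2) (univ ×ˢ Ioi 0) ∧
    ContinuousOn (fun q : (ℝ × ℝ) × ℝ => X1 η Λ v F G q.1.1 q.1.2 (-q.1.1 - q.1.2) q.2) (univ ×ˢ Ioi 0) ∧
    ContinuousOn (fun q : (ℝ × ℝ) × ℝ => X2 η Λ v F G q.1.1 q.1.2 (-q.1.1 - q.1.2) q.2) (univ ×ˢ Ioi 0) ∧
    ContinuousOn (fun q : (ℝ × ℝ) × ℝ => D00 η Λ v F G q.1.1 q.1.2 (-q.1.1 - q.1.2) q.2) (univ ×ˢ Ioi 0) ∧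
    ContinuousOn (fun q : (ℝ × ℝ) × ℝ => D02 η Λ v F G q.1.1 q.1.2 (-q.1.1 - q.1.2) q.2) (univ ×ˢ Ioi 0) ∧
    ContinuousOn (fun q : (ℝ × ℝ) × ℝ => D22 η Λ v F G q.1.1 q.1.2 (-q.1.1 - q.1.2) q.2) (univ ×ˢ Ioi 0) ∧
    ContinuousOn (fun q : (ℝ × ℝ) × ℝ => D11 η Λ v F G q.1.1 q.1.2 (-q.1.1 - q.1.2) q.2) (univ ×ˢ Ioi 0) ∧
    ContinuousOn (fun q : (ℝ × ℝ) × ℝ => D12 η Λ v F G q.1.1 q.1.2 (-q.1.1 - q.1.2) q.2) (univ ×ˢ Ioi 0) ∧
    ContinuousOn (fun q : (ℝ × ℝ) × ℝ => L0 η Λ v F G q.1.1 q.1.2 (-q.1.1 - q.1.2) q.2) (univ ×ˢ Ioi 0) ∧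
    ContinuousOn (fun q : (ℝ × ℝ) × ℝ => L1 η Λ v F G q.1.1 q.1.2 (-q.1.1 - q.1.2) q.2) (univ ×ˢ Ioi 0) ∧
    ContinuousOn (fun q : (ℝ × ℝ) × ℝ => L2 η Λ v F G q.1.1 q.1.2 (-q.1.1 - q.1.2) q.2) (univ ×ˢ Ioi 0) := by
  set s : Set ((ℝ × ℝ) × ℝ) := univ ×ˢ Ioi 0 with hs
  have hpos : ∀ q ∈ s, 0 < q.2 := fun q hq => hq.2
  -- weights
  have hw := fun (p τ : (ℝ × ℝ) × ℝ → ℝ) (hp : Continuous p) (hτ : Continuous τ)
    (h : ∀ q ∈ s, 0 < τ q) (k : Fin (2 * N)) => cm_wt (η := η) hp hτ h k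
  have hdw := fun (p τ : (ℝ × ℝ) × ℝ → ℝ) (hp : Continuous p) (hτ : Continuous τ)
    (h : ∀ q ∈ s, 0 < τ q) (k : Fin (2 * N)) => cm_dwt (η := η) hp hτ h k
  have hddw := fun (p τ : (ℝ × ℝ) × ℝ → ℝ) (hp : Continuous p) (hτ : Continuous τ)
    (h : ∀ q ∈ s, 0 < τ q) (k : Fin (2 * N)) => cm_ddwt (η := η) hp hτ h k
  have c0 : Continuous (fun q : (ℝ × ℝ) × ℝ => q.1.1) := continuous_fst.fst
  have c1 : Continuous (fun q : (ℝ × ℝ) × ℝ => q.1.2) := continuous_fst.snd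
  have c2 : Continuous (fun q : (ℝ × ℝ) × ℝ => -q.1.1 - q.1.2) := c0.neg.sub c1
  have ct : Continuous (fun q : (ℝ × ℝ) × ℝ => q.2) := continuous_snd
  have cΛ : Continuous (fun q : (ℝ × ℝ) × ℝ => Λ * q.2) := continuous_const.mul ct
  have hΛs : ∀ q ∈ s, 0 < Λ * q.2 := fun q hq => mul_pos hΛ (hpos q hq)
  -- matrices
  have hK : ∀ i j, ContinuousOn (fun q : (ℝ × ℝ) × ℝ =>
      K3 η Λ F G q.1.1 (-q.1.1 - q.1.2) q.2 i j) s := by
    unfold K3 Kmat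
    exact cm_add (cm_mul (cm_mul (cm_const _) (cm_diag (hw _ _ c0 cΛ hΛs))) (cm_const _))
      (cm_mul (cm_mul (cm_const _) (cm_diag (hw _ _ c2 cΛ hΛs))) (cm_const _))
  have hW1 : ∀ i j, ContinuousOn (fun q : (ℝ × ℝ) × ℝ =>
      (diagonal (wt η q.1.2 q.2) : Matrix (Fin (2 * N)) (Fin (2 * N)) ℝ) i j) s :=
    cm_diag (hw _ _ c1 ct hpos)
  have hdW1 : ∀ i j, ContinuousOn (fun q : (ℝ × ℝ) × ℝ =>
      (diagonal (dwt η q.1.2 q.2) : Matrix (Fin (2 * N)) (Fin (2 * N)) ℝ) i j) s :=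
    cm_diag (hdw _ _ c1 ct hpos)
  have hddW1 : ∀ i j, ContinuousOn (fun q : (ℝ × ℝ) × ℝ =>
      (diagonal (ddwt η q.1.2 q.2) : Matrix (Fin (2 * N)) (Fin (2 * N)) ℝ) i j) s :=
    cm_diag (hddw _ _ c1 ct hpos)
  have hdet : ∀ q ∈ s, 0 < (v ^ 2 • (1 : Matrix (Fin (2 * N)) (Fin (2 * N)) ℝ) +
      diagonal (wt η q.1.2 q.2) * K3 η Λ F G q.1.1 (-q.1.1 - q.1.2) q.2).det ∧
      0 < (1 + (v ^ 2)⁻¹ • (diagonal (wt η q.1.2 q.2) *
        K3 η Λ F G q.1.1 (-q.1.1 - q.1.2) q.2)).det := by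
    intro q hq
    refine det_pos_aux hv (fun k => wt_pos hη _ (hpos q hq) k) ?_
    exact Kmat_posSemidef F G (fun k => (wt_pos hη _ (hΛs q hq) k).le)
      (fun k => (wt_pos hη _ (hΛs q hq) k).le)
  have hA : ∀ i j : Fin (2 * N), ContinuousOn (fun q : (ℝ × ℝ) × ℝ =>
      (v ^ 2 • (1 : Matrix (Fin (2 * N)) (Fin (2 * N)) ℝ) +
      (diagonal (wt η q.1.2 q.2) : Matrix (Fin (2 * N)) (Fin (2 * N)) ℝ) *
        K3 η Λ F G q.1.1 (-q.1.1 - q.1.2) q.2 : Matrix (Fin (2 * N)) (Fin (2 * N)) ℝ) i j) s :=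
    cm_add (cm_const _) (cm_mul hW1 hK)
  have hS : ∀ i j, ContinuousOn (fun q : (ℝ × ℝ) × ℝ =>
      S3 η Λ v F G q.1.1 q.1.2 (-q.1.1 - q.1.2) q.2 i j) s := by
    intro i j
    exact continuousOn_inv_entry hA (fun q hq => (hdet q hq).1.ne') i j
  have hM : ∀ i j, ContinuousOn (fun q : (ℝ × ℝ) × ℝ =>
      M3 η Λ v F G q.1.1 q.1.2 (-q.1.1 - q.1.2) q.2 i j) s := cm_mul hK hS
  have hW : ∀ i j, ContinuousOn (fun q : (ℝ × ℝ) × ℝ =>
      W3 η Λ v F G q.1.1 q.1.2 (-q.1.1 - q.1.2) q.2 i j) s := cm_mul hS hW1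
  have hY1 : ∀ i j, ContinuousOn (fun q : (ℝ × ℝ) × ℝ => Y1 η Λ F q.1.1 q.2 i j) s :=
    cm_mul (cm_mul (cm_const _) (cm_diag (hdw _ _ c0 cΛ hΛs))) (cm_const _)
  have hY2 : ∀ i j, ContinuousOn (fun q : (ℝ × ℝ) × ℝ => Y2 η Λ F q.1.1 q.2 i j) s :=
    cm_mul (cm_mul (cm_const _) (cm_diag (hddw _ _ c0 cΛ hΛs))) (cm_const _)
  have hV1 : ∀ i j, ContinuousOn (fun q : (ℝ × ℝ) × ℝ => V1 η Λ G (-q.1.1 - q.1.2) q.2 i j) s :=
    cm_mul (cm_mul (cm_const _) (cm_diag (hdw _ _ c2 cΛ hΛs))) (cm_const _)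
  have hV2 : ∀ i j, ContinuousOn (fun q : (ℝ × ℝ) × ℝ => V2 η Λ G (-q.1.1 - q.1.2) q.2 i j) s :=
    cm_mul (cm_mul (cm_const _) (cm_diag (hddw _ _ c2 cΛ hΛs))) (cm_const _)
  have hE := cm_sub hW1 (cm_smul (v ^ 2) hW)
  have hKM := cm_sub hK (cm_smul (v ^ 2) hM)
  refine ⟨?_, ?_, ?_, ?_, ?_, ?_, ?_, ?_, ?_, ?_, ?_, ?_⟩
  · unfold Pot3 pot
    refine (cm_trace (cm_mul hW1 hK)).sub (continuousOn_const.mul ?_)
    refine ContinuousOn.log (cm_det (cm_add (cm_const _) (cm_smul _ (cm_mul hW1 hK)))) ?_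
    exact fun q hq => (hdet q hq).2.ne'
  · exact (cm_trace (cm_mul hE hY1)).neg
  · exact (cm_trace (cm_mul hdW1 hKM)).neg
  · exact (cm_trace (cm_mul hE hV1)).neg
  · exact continuousOn_const.mul (cm_trace (cm_mul (cm_mul (cm_mul hW hY1) hW) hY1))
  · exact continuousOn_const.mul (cm_trace (cm_mul (cm_mul (cm_mul hW hY1) hW) hV1))
  · exact continuousOn_const.mul (cm_trace (cm_mul (cm_mul (cm_mul hW hV1) hW) hV1))
  · exact continuousOn_const.mul (cm_trace (cm_mul (cm_mul (cm_mul hdW1 hM) hdW1) hM))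
  · exact (cm_trace (cm_mul hdW1 hV1)).sub
      (continuousOn_const.mul (cm_trace (cm_mul (cm_mul (cm_mul hS hdW1) (cm_T hS)) hV1)))
  · exact cm_trace (cm_mul hE hY2)
  · exact cm_trace (cm_mul hddW1 hKM)
  · exact cm_trace (cm_mul hE hV2)

end Crest.Agent.TH
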