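import Crest.Agent.TH_FL1
import Crest.Agent.TH_MC2

/-! # TH_FL2 (task TH-FL2): derivatives along lines of the plane and in time

`∂_p wt = - dwt`, `∂_p dwt = - ddwt`, `∂_t wt(p, Λ t) = Λ ddwt / 2`; along the line `p₀ ↦ (p₀, p₁, -p₀-p₁)`
one has `K' = - Y1 + V1`, `W₁' = 0`; along `p₁ ↦ (p₀, p₁, -p₀-p₁)`: `K' = V1`, `W₁' = - diag dwt`.
Use `hasDerivAt_pot`, `hasDerivAt_Mmat`, `hasDerivAt_Wmat`. -/

set_option autoImplicit false
open Matrix MeasureTheory Set Filter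
open scoped Topology

namespace Crest.Agent.TH
variable {N : ℕ} {η Λ v : ℝ} (F G : Matrix (Fin (2 * N)) (Fin (2 * N)) ℝ)

section FL2aux
variable {ι : Type*} [Fintype ι] [DecidableEq ι]

omit [DecidableEq ι] in
private theorem fl2_trace {A B : ℝ → Matrix ι ι ℝ} {A' B' : Matrix ι ι ℝ} {x : ℝ}
    (hA : ∀ i j, HasDerivAt (fun x => A x i j) (A' i j) x)
    (hB : ∀ i j, HasDerivAt (fun x => B x i j) (B' i j) x) :
    HasDerivAt (fun x => (A x * B x).trace) ((A' * B x).trace + (A x * B').trace) x := by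
  have h1 : HasDerivAt (fun x => ∑ i, ∑ j, A x i j * B x j i)
      (∑ i, ∑ j, (A' i j * B x j i + A x i j * B' j i)) x :=
    HasDerivAt.fun_sum fun i _ => HasDerivAt.fun_sum fun j _ => (hA i j).mul (hB j i)
  have e1 : (fun x => (A x * B x).trace) = fun x => ∑ i, ∑ j, A x i j * B x j i := by
    funext x
    simp only [Matrix.trace, Matrix.diag, Matrix.mul_apply]
  have e2 : (A' * B x).trace + (A x * B').trace = ∑ i, ∑ j, (A' i j * B x j i + A x i j * B' j i) := by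
    simp only [Matrix.trace, Matrix.diag, Matrix.mul_apply, Finset.sum_add_distrib]
  rw [e1, e2]
  exact h1

omit [Fintype ι] in
private theorem fl2_diag {w : ℝ → ι → ℝ} {w' : ι → ℝ} {x : ℝ}
    (h : ∀ k, HasDerivAt (fun x => w x k) (w' k) x) (i j : ι) :
    HasDerivAt (fun x => diagonal (w x) i j) (diagonal w' i j) x := by
  by_cases hij : i = j
  · subst hij
    simp only [diagonal_apply_eq]
    exact h i
  · simp only [diagonal_apply_ne _ hij]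
    exact hasDerivAt_const x 0

omit [DecidableEq ι] in
private theorem fl2_sand {A : ℝ → Matrix ι ι ℝ} {A' : Matrix ι ι ℝ} {x : ℝ}
    (hA : ∀ i j, HasDerivAt (fun x => A x i j) (A' i j) x) (C D : Matrix ι ι ℝ) (i j : ι) :
    HasDerivAt (fun x => (C * A x * D) i j) ((C * A' * D) i j) x := by
  have h1 : HasDerivAt (fun x => ∑ k, (∑ l, C i l * A x l k) * D k j)
      (∑ k, (∑ l, C i l * A' l k) * D k j) x :=
    HasDerivAt.fun_sum fun k _ => (HasDerivAt.fun_sum fun l _ => (hA l k).const_mul (C i l)).mul_const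
      (D k j)
  simp only [Matrix.mul_apply]
  exact h1

omit [Fintype ι] [DecidableEq ι] in
private theorem fl2_sub_smul {A B : ℝ → Matrix ι ι ℝ} {A' B' : Matrix ι ι ℝ} {x : ℝ} (c : ℝ)
    (hA : ∀ i j, HasDerivAt (fun x => A x i j) (A' i j) x)
    (hB : ∀ i j, HasDerivAt (fun x => B x i j) (B' i j) x) (i j : ι) :
    HasDerivAt (fun x => (A x - c • B x) i j) ((A' - c • B') i j) x := by
  simp only [Matrix.sub_apply, Matrix.smul_apply, smul_eq_mul]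
  exact (hA i j).sub ((hB i j).const_mul c)

omit [Fintype ι] [DecidableEq ι] in
private theorem fl2_add {A B : ℝ → Matrix ι ι ℝ} {A' B' : Matrix ι ι ℝ} {x : ℝ}
    (hA : ∀ i j, HasDerivAt (fun x => A x i j) (A' i j) x)
    (hB : ∀ i j, HasDerivAt (fun x => B x i j) (B' i j) x) (i j : ι) :
    HasDerivAt (fun x => (A x + B x) i j) ((A' + B') i j) x := by
  simp only [Matrix.add_apply]
  exact (hA i j).add (hB i j)

end FL2aux

section lines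
variable {N : ℕ} {η Λ : ℝ}

private theorem fl2_neg_line (p₀ p₁ : ℝ) : HasDerivAt (fun p₀ : ℝ => -p₀ - p₁) (-1) p₀ := by
  simpa using ((hasDerivAt_id p₀).neg).sub_const p₁

private theorem fl2_neg_line' (p₀ p₁ : ℝ) : HasDerivAt (fun p₁ : ℝ => -p₀ - p₁) (-1) p₁ := by
  simpa using (hasDerivAt_id p₁).const_sub (-p₀)

private theorem fl2_wt0 (p₀ p₁ : ℝ) {s : ℝ} (hs : 0 < s) (k : Fin (2 * N)) :
    HasDerivAt (fun p₀ => wt η (-p₀ - p₁) s k) (dwt η (-p₀ - p₁) s k) p₀ := by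
  exact ((hasDerivAt_wt_p (η := η) (-p₀ - p₁) hs k).comp p₀ (fl2_neg_line p₀ p₁)).congr_deriv
    (by ring)

private theorem fl2_wt1 (p₀ p₁ : ℝ) {s : ℝ} (hs : 0 < s) (k : Fin (2 * N)) :
    HasDerivAt (fun p₁ => wt η (-p₀ - p₁) s k) (dwt η (-p₀ - p₁) s k) p₁ := by
  exact ((hasDerivAt_wt_p (η := η) (-p₀ - p₁) hs k).comp p₁ (fl2_neg_line' p₀ p₁)).congr_deriv
    (by ring)

private theorem fl2_dwt0 (p₀ p₁ : ℝ) {s : ℝ} (hs : 0 < s) (k : Fin (2 * N)) :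
    HasDerivAt (fun p₀ => dwt η (-p₀ - p₁) s k) (ddwt η (-p₀ - p₁) s k) p₀ := by
  exact ((hasDerivAt_dwt_p (η := η) (-p₀ - p₁) hs k).comp p₀ (fl2_neg_line p₀ p₁)).congr_deriv
    (by ring)

private theorem fl2_dwt1 (p₀ p₁ : ℝ) {s : ℝ} (hs : 0 < s) (k : Fin (2 * N)) :
    HasDerivAt (fun p₁ => dwt η (-p₀ - p₁) s k) (ddwt η (-p₀ - p₁) s k) p₁ := by
  exact ((hasDerivAt_dwt_p (η := η) (-p₀ - p₁) hs k).comp p₁ (fl2_neg_line' p₀ p₁)).congr_deriv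
    (by ring)

variable (F G : Matrix (Fin (2 * N)) (Fin (2 * N)) ℝ)

private theorem fl2_diag_neg {ι : Type*} [DecidableEq ι] (w : ι → ℝ) :
    diagonal (fun k => -w k) = -diagonal w := by
  rw [← Matrix.diagonal_neg]

/-- derivative of `K` along line 0 -/
private theorem fl2_K0 (hΛ : 0 < Λ) (p₀ p₁ : ℝ) {t : ℝ} (ht : 0 < t) (i j) :
    HasDerivAt (fun p₀ => K3 η Λ F G p₀ (-p₀ - p₁) t i j)
      ((-Y1 η Λ F p₀ t + V1 η Λ G (-p₀ - p₁) t) i j) p₀ := by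
  have hs : 0 < Λ * t := mul_pos hΛ ht
  have h1 := fl2_add
    (fl2_sand (fl2_diag (fun k => hasDerivAt_wt_p (η := η) p₀ hs k)) Fᵀ F)
    (fl2_sand (fl2_diag (fun k => fl2_wt0 (η := η) p₀ p₁ hs k)) G Gᵀ) i j
  rw [fl2_diag_neg] at h1
  have e : Fᵀ * -diagonal (fun k => dwt η p₀ (Λ * t) k) * F = -Y1 η Λ F p₀ t := by
    unfold Y1
    rw [mul_neg, neg_mul]
  rw [e] at h1
  exact h1

private theorem fl2_K1 (hΛ : 0 < Λ) (p₀ p₁ : ℝ) {t : ℝ} (ht : 0 < t) (i j) :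
    HasDerivAt (fun p₁ => K3 η Λ F G p₀ (-p₀ - p₁) t i j) (V1 η Λ G (-p₀ - p₁) t i j) p₁ := by
  have hs : 0 < Λ * t := mul_pos hΛ ht
  have h1 := fl2_add (A := fun _ => Fᵀ * diagonal (wt η p₀ (Λ * t)) * F) (A' := 0) (x := p₁)
    (fun i j => by simpa using hasDerivAt_const p₁ _)
    (fl2_sand (fl2_diag (fun k => fl2_wt1 (η := η) p₀ p₁ hs k)) G Gᵀ) i j
  rw [zero_add] at h1
  exact h1

private theorem fl2_Y1 (hΛ : 0 < Λ) (p₀ : ℝ) {t : ℝ} (ht : 0 < t) (i j) :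
    HasDerivAt (fun p₀ => Y1 η Λ F p₀ t i j) ((-Y2 η Λ F p₀ t) i j) p₀ := by
  have hs : 0 < Λ * t := mul_pos hΛ ht
  have h1 := fl2_sand (fl2_diag (fun k => hasDerivAt_dwt_p (η := η) p₀ hs k)) Fᵀ F i j
  rw [fl2_diag_neg] at h1
  have e : Fᵀ * -diagonal (fun k => ddwt η p₀ (Λ * t) k) * F = -Y2 η Λ F p₀ t := by
    unfold Y2
    rw [mul_neg, neg_mul]
  rw [e] at h1
  exact h1

private theorem fl2_V10 (hΛ : 0 < Λ) (p₀ p₁ : ℝ) {t : ℝ} (ht : 0 < t) (i j) :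
    HasDerivAt (fun p₀ => V1 η Λ G (-p₀ - p₁) t i j) (V2 η Λ G (-p₀ - p₁) t i j) p₀ := by
  have hs : 0 < Λ * t := mul_pos hΛ ht
  exact fl2_sand (fl2_diag (fun k => fl2_dwt0 (η := η) p₀ p₁ hs k)) G Gᵀ i j

private theorem fl2_V11 (hΛ : 0 < Λ) (p₀ p₁ : ℝ) {t : ℝ} (ht : 0 < t) (i j) :
    HasDerivAt (fun p₁ => V1 η Λ G (-p₀ - p₁) t i j) (V2 η Λ G (-p₀ - p₁) t i j) p₁ := by
  have hs : 0 < Λ * t := mul_pos hΛ ht
  exact fl2_sand (fl2_diag (fun k => fl2_dwt1 (η := η) p₀ p₁ hs k)) G Gᵀ i j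

private theorem fl2_Kpsd (hη : 0 < η) (hΛ : 0 < Λ) (p₀ p₂ : ℝ) {t : ℝ} (ht : 0 < t) :
    (K3 η Λ F G p₀ p₂ t).PosSemidef :=
  Kmat_posSemidef F G (fun k => (wt_pos hη p₀ (mul_pos hΛ ht) k).le)
    (fun k => (wt_pos hη p₂ (mul_pos hΛ ht) k).le)

private theorem fl2_constE {A : Matrix (Fin (2 * N)) (Fin (2 * N)) ℝ} {x : ℝ} (i j) :
    HasDerivAt (fun _ : ℝ => A i j) ((0 : Matrix (Fin (2 * N)) (Fin (2 * N)) ℝ) i j) x := by
  simpa using hasDerivAt_const x (A i j)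

end lines

section alg
variable {ι : Type*} [Fintype ι] [DecidableEq ι]

private theorem fl2_cyc (A B C D : Matrix ι ι ℝ) :
    (A * B * C * D).trace = (C * D * A * B).trace := by
  rw [Matrix.mul_assoc (A * B) C D, Matrix.trace_mul_comm, ← Matrix.mul_assoc]

private theorem fl2_alg0 (c : ℝ) (W Y V Z D S T : Matrix ι ι ℝ) :
    -(((0 - c • (c • (S * Matrix.diagonal (fun _ => 0) * T) - W * (-Y + V) * W)) * Y).trace +
      ((D - c • W) * (-Z)).trace) =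
      c * (W * Y * W * Y).trace + ((D - c • W) * Z).trace - c * (W * Y * W * V).trace := by
  have hz : (Matrix.diagonal (fun _ => (0 : ℝ)) : Matrix ι ι ℝ) = 0 := Matrix.diagonal_zero
  have e1 : ((0 - c • (c • (S * Matrix.diagonal (fun _ => 0) * T) - W * (-Y + V) * W)) * Y) =
      c • (W * V * W * Y) - c • (W * Y * W * Y) := by
    rw [hz, Matrix.mul_zero, Matrix.zero_mul, smul_zero, zero_sub, zero_sub, smul_neg, neg_neg,
      Matrix.mul_add, Matrix.add_mul, smul_add, Matrix.add_mul, Matrix.mul_neg, Matrix.neg_mul,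
      smul_neg, Matrix.neg_mul, smul_mul_assoc, smul_mul_assoc]
    abel
  rw [e1, Matrix.trace_sub, Matrix.trace_smul, Matrix.trace_smul, Matrix.mul_neg,
    Matrix.trace_neg, fl2_cyc W V W Y, smul_eq_mul, smul_eq_mul]
  ring

private theorem fl2_alg1 (c : ℝ) (W Y V Z D S T : Matrix ι ι ℝ) :
    -(((0 - c • (c • (S * Matrix.diagonal (fun _ => 0) * T) - W * (-Y + V) * W)) * V).trace +
      ((D - c • W) * Z).trace) =
      c * (W * Y * W * V).trace - (c * (W * V * W * V).trace + ((D - c • W) * Z).trace) := by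
  have hz : (Matrix.diagonal (fun _ => (0 : ℝ)) : Matrix ι ι ℝ) = 0 := Matrix.diagonal_zero
  have e1 : ((0 - c • (c • (S * Matrix.diagonal (fun _ => 0) * T) - W * (-Y + V) * W)) * V) =
      c • (W * V * W * V) - c • (W * Y * W * V) := by
    rw [hz, Matrix.mul_zero, Matrix.zero_mul, smul_zero, zero_sub, zero_sub, smul_neg, neg_neg,
      Matrix.mul_add, Matrix.add_mul, smul_add, Matrix.add_mul, Matrix.mul_neg, Matrix.neg_mul,
      smul_neg, Matrix.neg_mul, smul_mul_assoc, smul_mul_assoc]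
    abel
  rw [e1, Matrix.trace_sub, Matrix.trace_smul, Matrix.trace_smul, smul_eq_mul, smul_eq_mul]
  ring

private theorem fl2_alg2 (c : ℝ) (W V Z D E S T : Matrix ι ι ℝ) :
    -(((-E - c • (c • (S * (-E) * T) - W * V * W)) * V).trace + ((D - c • W) * Z).trace) =
      ((E * V).trace - c ^ 2 * (S * E * T * V).trace) -
        (c * (W * V * W * V).trace + ((D - c • W) * Z).trace) := by
  have e1 : ((-E - c • (c • (S * (-E) * T) - W * V * W)) * V) =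
      -(E * V) + (c ^ 2) • (S * E * T * V) + c • (W * V * W * V) := by
    rw [Matrix.mul_neg, Matrix.neg_mul, smul_neg, smul_sub, smul_neg, smul_smul, Matrix.sub_mul,
      Matrix.sub_mul, Matrix.neg_mul, Matrix.neg_mul, smul_mul_assoc, smul_mul_assoc, sq]
    abel
  rw [e1, Matrix.trace_add, Matrix.trace_add, Matrix.trace_neg, Matrix.trace_smul,
    Matrix.trace_smul, smul_eq_mul, smul_eq_mul]
  ring

private theorem fl2_alg3 (c : ℝ) (M V E E' K S T : Matrix ι ι ℝ) :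
    -(((-E') * (K - c • M)).trace + (E * (V - c • (c • (T * V * S) - M * (-E) * M))).trace) =
      c * (E * M * E * M).trace + (E' * (K - c • M)).trace -
        ((E * V).trace - c ^ 2 * (S * E * T * V).trace) := by
  have e1 : E * (V - c • (c • (T * V * S) - M * (-E) * M)) =
      E * V - (c ^ 2) • (E * T * V * S) - c • (E * M * E * M) := by
    rw [Matrix.mul_neg, Matrix.neg_mul, sub_neg_eq_add, smul_add, smul_smul, Matrix.mul_sub,
      Matrix.mul_add, mul_smul_comm, mul_smul_comm, sq]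
    simp only [Matrix.mul_assoc]
    abel
  have e2 : (E * T * V * S).trace = (S * E * T * V).trace := by
    rw [Matrix.trace_mul_comm]
    simp only [Matrix.mul_assoc]
  rw [e1, Matrix.neg_mul, Matrix.trace_neg, Matrix.trace_sub, Matrix.trace_sub,
    Matrix.trace_smul, Matrix.trace_smul, e2, smul_eq_mul, smul_eq_mul]
  ring

end alg

theorem line0_X0 (hη : 0 < η) (hΛ : 0 < Λ) (hv : 0 < v) (p₀ p₁ : ℝ) {t : ℝ} (ht : 0 < t) :
    HasDerivAt (fun p₀ => X0 η Λ v F G p₀ p₁ (-p₀ - p₁) t)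
      (D00 η Λ v F G p₀ p₁ (-p₀ - p₁) t + L0 η Λ v F G p₀ p₁ (-p₀ - p₁) t -
        D02 η Λ v F G p₀ p₁ (-p₀ - p₁) t) p₀ := by
  have hW := hasDerivAt_Wmat hv (w₁ := fun _ => wt η p₁ t) (w₁' := fun _ => 0)
    (K := fun p₀ => K3 η Λ F G p₀ (-p₀ - p₁) t) (x := p₀) (fun k => wt_pos hη p₁ ht k)
    (fl2_Kpsd F G hη hΛ p₀ (-p₀ - p₁) ht) (fun k => hasDerivAt_const p₀ _)
    (fl2_K0 F G hΛ p₀ p₁ ht)
  have h := (fl2_trace (fl2_sub_smul (v ^ 2) (fl2_constE (A := diagonal (wt η p₁ t))) hW)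
    (fl2_Y1 (η := η) F hΛ p₀ ht)).neg
  have h2 := h.congr_deriv (fl2_alg0 _ _ _ _ _ _ _ _)
  unfold X0 D00 L0 D02 W3
  exact h2

theorem line0_X2 (hη : 0 < η) (hΛ : 0 < Λ) (hv : 0 < v) (p₀ p₁ : ℝ) {t : ℝ} (ht : 0 < t) :
    HasDerivAt (fun p₀ => X2 η Λ v F G p₀ p₁ (-p₀ - p₁) t)
      (D02 η Λ v F G p₀ p₁ (-p₀ - p₁) t -
        (D22 η Λ v F G p₀ p₁ (-p₀ - p₁) t + L2 η Λ v F G p₀ p₁ (-p₀ - p₁) t)) p₀ := by
  have hW := hasDerivAt_Wmat hv (w₁ := fun _ => wt η p₁ t) (w₁' := fun _ => 0)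
    (K := fun p₀ => K3 η Λ F G p₀ (-p₀ - p₁) t) (x := p₀) (fun k => wt_pos hη p₁ ht k)
    (fl2_Kpsd F G hη hΛ p₀ (-p₀ - p₁) ht) (fun k => hasDerivAt_const p₀ _)
    (fl2_K0 F G hΛ p₀ p₁ ht)
  have h := (fl2_trace (fl2_sub_smul (v ^ 2) (fl2_constE (A := diagonal (wt η p₁ t))) hW)
    (fl2_V10 (η := η) G hΛ p₀ p₁ ht)).neg
  have h2 := h.congr_deriv (fl2_alg1 _ _ _ _ _ _ _ _)
  unfold X2 D22 L2 D02 W3
  exact h2

theorem line1_X1 (hη : 0 < η) (hΛ : 0 < Λ) (hv : 0 < v) (p₀ p₁ : ℝ) {t : ℝ} (ht : 0 < t) :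
    HasDerivAt (fun p₁ => X1 η Λ v F G p₀ p₁ (-p₀ - p₁) t)
      (D11 η Λ v F G p₀ p₁ (-p₀ - p₁) t + L1 η Λ v F G p₀ p₁ (-p₀ - p₁) t -
        D12 η Λ v F G p₀ p₁ (-p₀ - p₁) t) p₁ := by
  have hM := hasDerivAt_Mmat hv (w₁ := fun p₁ => wt η p₁ t) (w₁' := fun k => -dwt η p₁ t k)
    (K := fun p₁ => K3 η Λ F G p₀ (-p₀ - p₁) t) (x := p₁) (fun k => wt_pos hη p₁ ht k)
    (fl2_Kpsd F G hη hΛ p₀ (-p₀ - p₁) ht) (fun k => hasDerivAt_wt_p (η := η) p₁ ht k)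
    (fl2_K1 F G hΛ p₀ p₁ ht)
  rw [fl2_diag_neg] at hM
  have hE := fl2_diag (fun k => hasDerivAt_dwt_p (η := η) (N := N) p₁ ht k)
  rw [fl2_diag_neg] at hE
  have h := (fl2_trace hE (fl2_sub_smul (v ^ 2) (fl2_K1 (η := η) F G hΛ p₀ p₁ ht) hM)).neg
  have h2 := h.congr_deriv (fl2_alg3 _ _ _ _ _ _ _ _)
  rw [show (v ^ 2) ^ 2 = v ^ 4 by ring] at h2
  unfold X1 D11 L1 D12 S3 M3
  exact h2

theorem line1_X2 (hη : 0 < η) (hΛ : 0 < Λ) (hv : 0 < v) (p₀ p₁ : ℝ) {t : ℝ} (ht : 0 < t) :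
    HasDerivAt (fun p₁ => X2 η Λ v F G p₀ p₁ (-p₀ - p₁) t)
      (D12 η Λ v F G p₀ p₁ (-p₀ - p₁) t -
        (D22 η Λ v F G p₀ p₁ (-p₀ - p₁) t + L2 η Λ v F G p₀ p₁ (-p₀ - p₁) t)) p₁ := by
  have hW := hasDerivAt_Wmat hv (w₁ := fun p₁ => wt η p₁ t) (w₁' := fun k => -dwt η p₁ t k)
    (K := fun p₁ => K3 η Λ F G p₀ (-p₀ - p₁) t) (x := p₁) (fun k => wt_pos hη p₁ ht k)
    (fl2_Kpsd F G hη hΛ p₀ (-p₀ - p₁) ht) (fun k => hasDerivAt_wt_p (η := η) p₁ ht k)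
    (fl2_K1 F G hΛ p₀ p₁ ht)
  have hD := fl2_diag (fun k => hasDerivAt_wt_p (η := η) (N := N) p₁ ht k)
  rw [fl2_diag_neg] at hW hD
  have h := (fl2_trace (fl2_sub_smul (v ^ 2) hD hW) (fl2_V11 (η := η) G hΛ p₀ p₁ ht)).neg
  have h2 := h.congr_deriv (fl2_alg2 _ _ _ _ _ _ _ _)
  rw [show (v ^ 2) ^ 2 = v ^ 4 by ring] at h2
  unfold X2 D22 L2 D12 S3 W3
  exact h2

theorem time_Pot3 (hη : 0 < η) (hΛ : 0 < Λ) (hv : 0 < v) (p₀ p₁ p₂ : ℝ) {t : ℝ} (ht : 0 < t) :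
    HasDerivAt (fun t => Pot3 η Λ v F G p₀ p₁ p₂ t)
      ((Λ * L0 η Λ v F G p₀ p₁ p₂ t + L1 η Λ v F G p₀ p₁ p₂ t + Λ * L2 η Λ v F G p₀ p₁ p₂ t) / 2) t := by
  have hs : 0 < Λ * t := mul_pos hΛ ht
  have hlin : HasDerivAt (fun t : ℝ => Λ * t) Λ t := by
    simpa using (hasDerivAt_id t).const_mul Λ
  have hw : ∀ (p : ℝ) (k : Fin (2 * N)),
      HasDerivAt (fun t => wt η p (Λ * t) k) (Λ / 2 * ddwt η p (Λ * t) k) t := fun p k =>
    ((hasDerivAt_wt_t (η := η) p hs k).comp t hlin).congr_deriv (by ring)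
  have hK : ∀ i j, HasDerivAt (fun t => K3 η Λ F G p₀ p₂ t i j)
      (((Λ / 2) • (Y2 η Λ F p₀ t + V2 η Λ G p₂ t)) i j) t := by
    intro i j
    have h1 := fl2_add (fl2_sand (fl2_diag (fun k => hw p₀ k)) Fᵀ F)
      (fl2_sand (fl2_diag (fun k => hw p₂ k)) G Gᵀ) i j
    refine h1.congr_deriv ?_
    have e : ∀ w : Fin (2 * N) → ℝ, diagonal (fun k => Λ / 2 * w k) = (Λ / 2) • diagonal w := by
      intro w
      rw [← Matrix.diagonal_smul]
      rfl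
    unfold Y2 V2
    rw [e, e, mul_smul_comm, smul_mul_assoc, mul_smul_comm, smul_mul_assoc, ← smul_add]
  have hP := hasDerivAt_pot hv (w₁ := fun t => wt η p₁ t) (w₁' := fun k => ddwt η p₁ t k / 2)
    (K := fun t => K3 η Λ F G p₀ p₂ t) (x := t) (fun k => wt_pos hη p₁ ht k)
    (fl2_Kpsd F G hη hΛ p₀ p₂ ht) (fun k => hasDerivAt_wt_t (η := η) p₁ ht k) hK
  refine hP.congr_deriv ?_
  have e : diagonal (fun k => ddwt η p₁ t k / 2) = (1 / 2 : ℝ) • diagonal (ddwt η (N := N) p₁ t) := by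
    rw [← Matrix.diagonal_smul]
    congr 1
    funext k
    simp only [Pi.smul_apply, smul_eq_mul]
    ring
  unfold L0 L1 L2 M3 W3
  rw [e, smul_mul_assoc, Matrix.trace_smul, mul_smul_comm, Matrix.trace_smul, Matrix.mul_add,
    Matrix.trace_add, smul_eq_mul, smul_eq_mul]
  ring

end Crest.Agent.TH
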