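import Crest.Agent.TH_FL2
import Crest.Agent.TH_FL1c

/-! # TH_FL3 (task TH-FL3): integration by parts on the plane and the derivative of the total potential -/

set_option autoImplicit false
open Matrix MeasureTheory Set Filter
open scoped Topology

namespace Crest.Agent.TH
variable {N : ℕ} {η Λ v : ℝ} (F G : Matrix (Fin (2 * N)) (Fin (2 * N)) ℝ)

/-! ### abstract helper lemmas -/

theorem FL3_slice_cont {g : (ℝ × ℝ) × ℝ → ℝ} (hg : ContinuousOn g (univ ×ˢ Ioi 0)) {t : ℝ} (ht : 0 < t) :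
    Continuous (fun p : ℝ × ℝ => g (p, t)) := by
  have h : ContinuousOn (fun p : ℝ × ℝ => g (p, t)) univ := by
    apply hg.comp (by fun_prop : Continuous fun p : ℝ × ℝ => (p, t)).continuousOn
    intro p _
    exact ⟨mem_univ _, ht⟩
  exact continuousOn_univ.mp h

theorem FL3_int_slice {g : (ℝ × ℝ) × ℝ → ℝ} (hg : ContinuousOn g (univ ×ˢ Ioi 0)) {t : ℝ} (ht : 0 < t)
    {C : ℝ} (hC : ∀ p₀ p₁ : ℝ, |g ((p₀, p₁), t)| ≤ C * Env p₀ p₁) :
    Integrable (fun p : ℝ × ℝ => g (p, t)) := by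
  refine Integrable.mono' (Env_integrable.const_mul C) (FL3_slice_cont hg ht).aestronglyMeasurable ?_
  exact Eventually.of_forall fun p => by
    rw [Real.norm_eq_abs]
    exact hC p.1 p.2

/-- integration over the plane of the derivative along the first line vanishes -/
theorem FL3_line0 {f g : ℝ × ℝ → ℝ} {C : ℝ}
    (hf : ∀ p₀ p₁ : ℝ, |f (p₀, p₁)| ≤ C * Env p₀ p₁) (hgC : ∀ p₀ p₁ : ℝ, |g (p₀, p₁)| ≤ C * Env p₀ p₁)
    (hg : Continuous g)
    (hd : ∀ p₀ p₁ : ℝ, HasDerivAt (fun x => f (x, p₁)) (g (p₀, p₁)) p₀) :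
    ∫ p : ℝ × ℝ, g p = 0 := by
  have hgi : Integrable g := by
    refine Integrable.mono' (Env_integrable.const_mul C) hg.aestronglyMeasurable ?_
    exact Eventually.of_forall fun p => by
      rw [Real.norm_eq_abs]
      exact hgC p.1 p.2
  have key : ∀ p₁ : ℝ, ∫ p₀ : ℝ, g (p₀, p₁) = 0 := by
    intro p₁
    apply integral_eq_zero_of_hasDerivAt_of_integrable (f := fun x => f (x, p₁)) (fun x => hd x p₁)
    · refine Integrable.mono' ((Env_integrable_left p₁).const_mul C)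
        (hg.comp (by fun_prop : Continuous fun x : ℝ => (x, p₁))).aestronglyMeasurable ?_
      exact Eventually.of_forall fun x => by
        rw [Real.norm_eq_abs]
        exact hgC x p₁
    · refine Integrable.mono' ((Env_integrable_left p₁).const_mul C) ?_ ?_
      · exact (continuous_iff_continuousAt.mpr fun x => (hd x p₁).continuousAt).aestronglyMeasurable
      · exact Eventually.of_forall fun x => by
          rw [Real.norm_eq_abs]
          exact hf x p₁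
  have h1 : ∫ p : ℝ × ℝ, g p = ∫ p₁ : ℝ, ∫ p₀ : ℝ, g (p₀, p₁) := by
    rw [Measure.volume_eq_prod] at hgi ⊢
    exact integral_prod_symm g hgi
  rw [h1]
  simp [key]

/-- integration over the plane of the derivative along the second line vanishes -/
theorem FL3_line1 {f g : ℝ × ℝ → ℝ} {C : ℝ}
    (hf : ∀ p₀ p₁ : ℝ, |f (p₀, p₁)| ≤ C * Env p₀ p₁) (hgC : ∀ p₀ p₁ : ℝ, |g (p₀, p₁)| ≤ C * Env p₀ p₁)
    (hg : Continuous g)
    (hd : ∀ p₀ p₁ : ℝ, HasDerivAt (fun x => f (p₀, x)) (g (p₀, p₁)) p₁) :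
    ∫ p : ℝ × ℝ, g p = 0 := by
  have hgi : Integrable g := by
    refine Integrable.mono' (Env_integrable.const_mul C) hg.aestronglyMeasurable ?_
    exact Eventually.of_forall fun p => by
      rw [Real.norm_eq_abs]
      exact hgC p.1 p.2
  have key : ∀ p₀ : ℝ, ∫ p₁ : ℝ, g (p₀, p₁) = 0 := by
    intro p₀
    apply integral_eq_zero_of_hasDerivAt_of_integrable (f := fun x => f (p₀, x)) (fun x => hd p₀ x)
    · refine Integrable.mono' ((Env_integrable_right p₀).const_mul C)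
        (hg.comp (by fun_prop : Continuous fun x : ℝ => (p₀, x))).aestronglyMeasurable ?_
      exact Eventually.of_forall fun x => by
        rw [Real.norm_eq_abs]
        exact hgC p₀ x
    · refine Integrable.mono' ((Env_integrable_right p₀).const_mul C) ?_ ?_
      · exact (continuous_iff_continuousAt.mpr fun x => (hd p₀ x).continuousAt).aestronglyMeasurable
      · exact Eventually.of_forall fun x => by
          rw [Real.norm_eq_abs]
          exact hf p₀ x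
  have h1 : ∫ p : ℝ × ℝ, g p = ∫ p₀ : ℝ, ∫ p₁ : ℝ, g (p₀, p₁) := by
    rw [Measure.volume_eq_prod] at hgi ⊢
    exact integral_prod g hgi
  rw [h1]
  simp [key]

theorem FL3_lin1 {a b c : ℝ × ℝ → ℝ} (ha : Integrable a) (hb : Integrable b) (hc : Integrable c) :
    ∫ p : ℝ × ℝ, (a p + b p - c p) = (∫ p, a p) + (∫ p, b p) - ∫ p, c p := by
  have h := integral_sub (ha.add hb) hc
  simp only [Pi.add_apply] at h
  rw [h, integral_add ha hb]

theorem FL3_lin2 {a b c : ℝ × ℝ → ℝ} (ha : Integrable a) (hb : Integrable b) (hc : Integrable c) :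
    ∫ p : ℝ × ℝ, (a p - (b p + c p)) = (∫ p, a p) - ((∫ p, b p) + ∫ p, c p) := by
  have h := integral_sub ha (hb.add hc)
  simp only [Pi.add_apply] at h
  rw [h, integral_add hb hc]

theorem FL3_lin3 {a b c : ℝ × ℝ → ℝ} (l : ℝ) (ha : Integrable a) (hb : Integrable b) (hc : Integrable c) :
    ∫ p : ℝ × ℝ, (l * a p + b p + l * c p) / 2 =
      (l * (∫ p, a p) + (∫ p, b p) + l * ∫ p, c p) / 2 := by
  have h := integral_add ((ha.const_mul l).add hb) (hc.const_mul l)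
  simp only [Pi.add_apply] at h
  rw [integral_div, h, integral_add (ha.const_mul l) hb, integral_const_mul, integral_const_mul]

theorem FL3_lin4 {a b c d : ℝ × ℝ → ℝ} (m l : ℝ) (ha : Integrable a) (hb : Integrable b)
    (hc : Integrable c) (hd : Integrable d) :
    ∫ p : ℝ × ℝ, (m * a p - l * b p - l * c p - d p) / 2 =
      (m * (∫ p, a p) - l * (∫ p, b p) - l * (∫ p, c p) - ∫ p, d p) / 2 := by
  have h1 := integral_sub (((ha.const_mul m).sub (hb.const_mul l)).sub (hc.const_mul l)) hd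
  have h2 := integral_sub ((ha.const_mul m).sub (hb.const_mul l)) (hc.const_mul l)
  simp only [Pi.sub_apply] at h1 h2
  rw [integral_div, h1, h2, integral_sub (ha.const_mul m) (hb.const_mul l), integral_const_mul,
    integral_const_mul, integral_const_mul]

/-- integrability over the plane, from `flow_bounds`, `flow_continuous`. -/
theorem flow_integrable (hη : 0 < η) (hΛ : 0 < Λ) (hv : 0 < v) {t : ℝ} (ht : 0 < t) :
    Integrable (fun p : ℝ × ℝ => Pot3 η Λ v F G p.1 p.2 (-p.1 - p.2) t) ∧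
    Integrable (fun p : ℝ × ℝ => D00 η Λ v F G p.1 p.2 (-p.1 - p.2) t) ∧
    Integrable (fun p : ℝ × ℝ => D02 η Λ v F G p.1 p.2 (-p.1 - p.2) t) ∧
    Integrable (fun p : ℝ × ℝ => D22 η Λ v F G p.1 p.2 (-p.1 - p.2) t) ∧
    Integrable (fun p : ℝ × ℝ => D11 η Λ v F G p.1 p.2 (-p.1 - p.2) t) ∧
    Integrable (fun p : ℝ × ℝ => D12 η Λ v F G p.1 p.2 (-p.1 - p.2) t) ∧
    Integrable (fun p : ℝ × ℝ => L0 η Λ v F G p.1 p.2 (-p.1 - p.2) t) ∧
    Integrable (fun p : ℝ × ℝ => L1 η Λ v F G p.1 p.2 (-p.1 - p.2) t) ∧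
    Integrable (fun p : ℝ × ℝ => L2 η Λ v F G p.1 p.2 (-p.1 - p.2) t) := by
  obtain ⟨C, hC0, hC⟩ := flow_bounds F G hη hΛ hv ht le_rfl
  obtain ⟨c1, c2, c3, c4, c5, c6, c7, c8, c9, c10, c11, c12⟩ := flow_continuous F G hη hΛ hv
  have hC' := hC t ⟨le_rfl, le_rfl⟩
  exact ⟨FL3_int_slice c1 ht fun p₀ p₁ => (hC' p₀ p₁).1,
    FL3_int_slice c5 ht fun p₀ p₁ => (hC' p₀ p₁).2.2.2.2.1,
    FL3_int_slice c6 ht fun p₀ p₁ => (hC' p₀ p₁).2.2.2.2.2.1,
    FL3_int_slice c7 ht fun p₀ p₁ => (hC' p₀ p₁).2.2.2.2.2.2.1,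
    FL3_int_slice c8 ht fun p₀ p₁ => (hC' p₀ p₁).2.2.2.2.2.2.2.1,
    FL3_int_slice c9 ht fun p₀ p₁ => (hC' p₀ p₁).2.2.2.2.2.2.2.2.1,
    FL3_int_slice c10 ht fun p₀ p₁ => (hC' p₀ p₁).2.2.2.2.2.2.2.2.2.1,
    FL3_int_slice c11 ht fun p₀ p₁ => (hC' p₀ p₁).2.2.2.2.2.2.2.2.2.2.1,
    FL3_int_slice c12 ht fun p₀ p₁ => (hC' p₀ p₁).2.2.2.2.2.2.2.2.2.2.2⟩

/-- the four line derivatives integrate to zero (`integral_eq_zero_of_hasDerivAt_of_integrable` on each line and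
Fubini), hence with `c = ∫ D02`: `∫ L0 = c - ∫ D00`, `∫ L2 = c - ∫ D22`, `∫ D12 = c`, `∫ L1 = c - ∫ D11`. -/
theorem plane_identities (hη : 0 < η) (hΛ : 0 < Λ) (hv : 0 < v) {t : ℝ} (ht : 0 < t) :
    (∫ p : ℝ × ℝ, L0 η Λ v F G p.1 p.2 (-p.1 - p.2) t) =
      (∫ p : ℝ × ℝ, D02 η Λ v F G p.1 p.2 (-p.1 - p.2) t) - ∫ p : ℝ × ℝ, D00 η Λ v F G p.1 p.2 (-p.1 - p.2) t ∧
    (∫ p : ℝ × ℝ, L1 η Λ v F G p.1 p.2 (-p.1 - p.2) t) =
      (∫ p : ℝ × ℝ, D02 η Λ v F G p.1 p.2 (-p.1 - p.2) t) - ∫ p : ℝ × ℝ, D11 η Λ v F G p.1 p.2 (-p.1 - p.2) t ∧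
    (∫ p : ℝ × ℝ, L2 η Λ v F G p.1 p.2 (-p.1 - p.2) t) =
      (∫ p : ℝ × ℝ, D02 η Λ v F G p.1 p.2 (-p.1 - p.2) t) - ∫ p : ℝ × ℝ, D22 η Λ v F G p.1 p.2 (-p.1 - p.2) t := by
  obtain ⟨C, hC0, hC⟩ := flow_bounds F G hη hΛ hv ht le_rfl
  obtain ⟨c1, c2, c3, c4, c5, c6, c7, c8, c9, c10, c11, c12⟩ := flow_continuous F G hη hΛ hv
  obtain ⟨i1, i5, i6, i7, i8, i9, i10, i11, i12⟩ := flow_integrable F G hη hΛ hv ht
  have hC' := hC t ⟨le_rfl, le_rfl⟩
  have hE : ∀ p₀ p₁ : ℝ, 0 ≤ Env p₀ p₁ := fun p₀ p₁ => by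
    unfold Env; positivity
  -- line 0, X0
  have e1 : ∫ p : ℝ × ℝ, (D00 η Λ v F G p.1 p.2 (-p.1 - p.2) t + L0 η Λ v F G p.1 p.2 (-p.1 - p.2) t -
      D02 η Λ v F G p.1 p.2 (-p.1 - p.2) t) = 0 := by
    refine FL3_line0 (C := 3 * C) (f := fun p => X0 η Λ v F G p.1 p.2 (-p.1 - p.2) t) ?_ ?_ ?_ ?_
    · intro p₀ p₁
      obtain ⟨b1, b2, b3, b4, b5, b6, b7, b8, b9, b10, b11, b12⟩ := hC' p₀ p₁
      refine b2.trans ?_
      have := mul_nonneg hC0 (hE p₀ p₁)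
      nlinarith
    · intro p₀ p₁
      obtain ⟨b1, b2, b3, b4, b5, b6, b7, b8, b9, b10, b11, b12⟩ := hC' p₀ p₁
      rw [abs_le] at *
      constructor <;> linarith [b5.1, b5.2, b10.1, b10.2, b6.1, b6.2]
    · exact ((FL3_slice_cont c5 ht).add (FL3_slice_cont c10 ht)).sub (FL3_slice_cont c6 ht)
    · intro p₀ p₁
      exact line0_X0 F G hη hΛ hv p₀ p₁ ht
  have e2 : ∫ p : ℝ × ℝ, (D02 η Λ v F G p.1 p.2 (-p.1 - p.2) t - (D22 η Λ v F G p.1 p.2 (-p.1 - p.2) t +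
      L2 η Λ v F G p.1 p.2 (-p.1 - p.2) t)) = 0 := by
    refine FL3_line0 (C := 3 * C) (f := fun p => X2 η Λ v F G p.1 p.2 (-p.1 - p.2) t) ?_ ?_ ?_ ?_
    · intro p₀ p₁
      obtain ⟨b1, b2, b3, b4, b5, b6, b7, b8, b9, b10, b11, b12⟩ := hC' p₀ p₁
      refine b4.trans ?_
      have := mul_nonneg hC0 (hE p₀ p₁)
      nlinarith
    · intro p₀ p₁
      obtain ⟨b1, b2, b3, b4, b5, b6, b7, b8, b9, b10, b11, b12⟩ := hC' p₀ p₁
      rw [abs_le] at *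
      constructor <;> linarith [b6.1, b6.2, b7.1, b7.2, b12.1, b12.2]
    · exact (FL3_slice_cont c6 ht).sub ((FL3_slice_cont c7 ht).add (FL3_slice_cont c12 ht))
    · intro p₀ p₁
      exact line0_X2 F G hη hΛ hv p₀ p₁ ht
  have e3 : ∫ p : ℝ × ℝ, (D11 η Λ v F G p.1 p.2 (-p.1 - p.2) t + L1 η Λ v F G p.1 p.2 (-p.1 - p.2) t -
      D12 η Λ v F G p.1 p.2 (-p.1 - p.2) t) = 0 := by
    refine FL3_line1 (C := 3 * C) (f := fun p => X1 η Λ v F G p.1 p.2 (-p.1 - p.2) t) ?_ ?_ ?_ ?_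
    · intro p₀ p₁
      obtain ⟨b1, b2, b3, b4, b5, b6, b7, b8, b9, b10, b11, b12⟩ := hC' p₀ p₁
      refine b3.trans ?_
      have := mul_nonneg hC0 (hE p₀ p₁)
      nlinarith
    · intro p₀ p₁
      obtain ⟨b1, b2, b3, b4, b5, b6, b7, b8, b9, b10, b11, b12⟩ := hC' p₀ p₁
      rw [abs_le] at *
      constructor <;> linarith [b8.1, b8.2, b9.1, b9.2, b11.1, b11.2]
    · exact ((FL3_slice_cont c8 ht).add (FL3_slice_cont c11 ht)).sub (FL3_slice_cont c9 ht)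
    · intro p₀ p₁
      exact line1_X1 F G hη hΛ hv p₀ p₁ ht
  have e4 : ∫ p : ℝ × ℝ, (D12 η Λ v F G p.1 p.2 (-p.1 - p.2) t - (D22 η Λ v F G p.1 p.2 (-p.1 - p.2) t +
      L2 η Λ v F G p.1 p.2 (-p.1 - p.2) t)) = 0 := by
    refine FL3_line1 (C := 3 * C) (f := fun p => X2 η Λ v F G p.1 p.2 (-p.1 - p.2) t) ?_ ?_ ?_ ?_
    · intro p₀ p₁
      obtain ⟨b1, b2, b3, b4, b5, b6, b7, b8, b9, b10, b11, b12⟩ := hC' p₀ p₁
      refine b4.trans ?_
      have := mul_nonneg hC0 (hE p₀ p₁)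
      nlinarith
    · intro p₀ p₁
      obtain ⟨b1, b2, b3, b4, b5, b6, b7, b8, b9, b10, b11, b12⟩ := hC' p₀ p₁
      rw [abs_le] at *
      constructor <;> linarith [b9.1, b9.2, b7.1, b7.2, b12.1, b12.2]
    · exact (FL3_slice_cont c9 ht).sub ((FL3_slice_cont c7 ht).add (FL3_slice_cont c12 ht))
    · intro p₀ p₁
      exact line1_X2 F G hη hΛ hv p₀ p₁ ht
  rw [FL3_lin1 i5 i10 i6] at e1
  rw [FL3_lin2 i6 i7 i12] at e2
  rw [FL3_lin1 i8 i11 i9] at e3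
  rw [FL3_lin2 i9 i7 i12] at e4
  refine ⟨by linarith, by linarith, by linarith⟩

/-- **(FL)** fundamental theorem of calculus in time for each `p`, Fubini (envelope), and
`plane_identities`. -/
theorem potential_difference (hη : 0 < η) (hΛ : 0 < Λ) (hv : 0 < v) {t₁ t₂ : ℝ} (h₁ : 0 < t₁)
    (h₁₂ : t₁ ≤ t₂) :
    (∫ p : ℝ × ℝ, Pot3 η Λ v F G p.1 p.2 (-p.1 - p.2) t₂) -
        (∫ p : ℝ × ℝ, Pot3 η Λ v F G p.1 p.2 (-p.1 - p.2) t₁) =
      ∫ t in t₁..t₂, ∫ p : ℝ × ℝ, ((2 * Λ + 1) * D02 η Λ v F G p.1 p.2 (-p.1 - p.2) t -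
        Λ * D00 η Λ v F G p.1 p.2 (-p.1 - p.2) t - Λ * D22 η Λ v F G p.1 p.2 (-p.1 - p.2) t -
        D11 η Λ v F G p.1 p.2 (-p.1 - p.2) t) / 2 := by
  obtain ⟨C, hC0, hC⟩ := flow_bounds F G hη hΛ hv h₁ h₁₂
  obtain ⟨c1, c2, c3, c4, c5, c6, c7, c8, c9, c10, c11, c12⟩ := flow_continuous F G hη hΛ hv
  have ht₂ : 0 < t₂ := h₁.trans_le h₁₂
  obtain ⟨j1, -⟩ := flow_integrable F G hη hΛ hv h₁
  obtain ⟨k1, -⟩ := flow_integrable F G hη hΛ hv ht₂
  have hE : ∀ p₀ p₁ : ℝ, 0 ≤ Env p₀ p₁ := fun p₀ p₁ => by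
    unfold Env; positivity
  -- the time derivative
  set g : (ℝ × ℝ) × ℝ → ℝ := fun q => (Λ * L0 η Λ v F G q.1.1 q.1.2 (-q.1.1 - q.1.2) q.2 +
    L1 η Λ v F G q.1.1 q.1.2 (-q.1.1 - q.1.2) q.2 +
    Λ * L2 η Λ v F G q.1.1 q.1.2 (-q.1.1 - q.1.2) q.2) / 2 with hg
  have gc : ContinuousOn g (univ ×ˢ Ioi 0) :=
    (((continuousOn_const.mul c10).add c11).add (continuousOn_const.mul c12)).div_const 2
  have gb : ∀ t ∈ Icc t₁ t₂, ∀ p₀ p₁ : ℝ, |g ((p₀, p₁), t)| ≤ (2 * Λ + 1) * C * Env p₀ p₁ := by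
    intro t ht p₀ p₁
    obtain ⟨b1, b2, b3, b4, b5, b6, b7, b8, b9, b10, b11, b12⟩ := hC t ht p₀ p₁
    have hCE := mul_nonneg hC0 (hE p₀ p₁)
    have q0 : |Λ * L0 η Λ v F G p₀ p₁ (-p₀ - p₁) t| ≤ Λ * (C * Env p₀ p₁) := by
      rw [abs_mul, abs_of_pos hΛ]
      exact mul_le_mul_of_nonneg_left b10 hΛ.le
    have q2 : |Λ * L2 η Λ v F G p₀ p₁ (-p₀ - p₁) t| ≤ Λ * (C * Env p₀ p₁) := by
      rw [abs_mul, abs_of_pos hΛ]
      exact mul_le_mul_of_nonneg_left b12 hΛ.le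
    have hΛCE : 0 ≤ Λ * (C * Env p₀ p₁) := mul_nonneg hΛ.le hCE
    simp only [hg]
    rw [abs_le] at q0 q2 b11 ⊢
    constructor <;> nlinarith [q0.1, q0.2, q2.1, q2.2, b11.1, b11.2]
  -- product integrability
  have gint : Integrable (fun q : (ℝ × ℝ) × ℝ => g q)
      ((volume : Measure (ℝ × ℝ)).prod (volume.restrict (Ioc t₁ t₂))) := by
    have hdom : Integrable (fun q : (ℝ × ℝ) × ℝ => (2 * Λ + 1) * C * Env q.1.1 q.1.2 * (1 : ℝ))
        ((volume : Measure (ℝ × ℝ)).prod (volume.restrict (Ioc t₁ t₂))) := by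
      refine Integrable.mul_prod (f := fun p : ℝ × ℝ => (2 * Λ + 1) * C * Env p.1 p.2)
        (g := fun _ : ℝ => (1 : ℝ)) ?_ ?_
      · exact Env_integrable.const_mul _
      · have : IsFiniteMeasure (volume.restrict (Ioc t₁ t₂)) :=
          ⟨by rw [Measure.restrict_apply_univ, Real.volume_Ioc]; exact ENNReal.ofReal_lt_top⟩
        exact integrable_const _
    have hr : (volume : Measure (ℝ × ℝ)).prod (volume.restrict (Ioc t₁ t₂)) =
        ((volume : Measure (ℝ × ℝ)).prod (volume : Measure ℝ)).restrict (univ ×ˢ Ioc t₁ t₂) := by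
      rw [← Measure.prod_restrict, Measure.restrict_univ]
    refine Integrable.mono' hdom ?_ ?_
    · rw [hr]
      refine ContinuousOn.aestronglyMeasurable (gc.mono ?_) (MeasurableSet.univ.prod measurableSet_Ioc)
      exact prod_mono le_rfl fun x hx => h₁.trans hx.1
    · rw [hr]
      refine (ae_restrict_iff' (MeasurableSet.univ.prod measurableSet_Ioc)).mpr ?_
      refine Eventually.of_forall fun q hq => ?_
      rw [Real.norm_eq_abs, mul_one]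
      exact gb q.2 ⟨hq.2.1.le, hq.2.2⟩ q.1.1 q.1.2
  -- FTC in time
  have ftc : ∀ p : ℝ × ℝ, Pot3 η Λ v F G p.1 p.2 (-p.1 - p.2) t₂ - Pot3 η Λ v F G p.1 p.2 (-p.1 - p.2) t₁ =
      ∫ t in t₁..t₂, g (p, t) := by
    intro p
    symm
    apply intervalIntegral.integral_eq_sub_of_hasDerivAt
    · intro t ht
      rw [uIcc_of_le h₁₂] at ht
      exact time_Pot3 F G hη hΛ hv p.1 p.2 (-p.1 - p.2) (h₁.trans_le ht.1)
    · apply ContinuousOn.intervalIntegrable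
      rw [uIcc_of_le h₁₂]
      refine gc.comp (by fun_prop : Continuous fun t : ℝ => (p, t)).continuousOn ?_
      intro t ht
      exact ⟨mem_univ _, h₁.trans_le ht.1⟩
  rw [← integral_sub k1 j1]
  simp_rw [ftc]
  rw [intervalIntegral.integral_of_le h₁₂]
  simp_rw [intervalIntegral.integral_of_le h₁₂]
  rw [integral_integral_swap (f := fun (p : ℝ × ℝ) (t : ℝ) => g (p, t)) gint]
  apply setIntegral_congr_fun measurableSet_Ioc
  intro t ht
  have htp : 0 < t := h₁.trans ht.1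
  obtain ⟨i1, i5, i6, i7, i8, i9, i10, i11, i12⟩ := flow_integrable F G hη hΛ hv htp
  obtain ⟨e0, e1, e2⟩ := plane_identities F G hη hΛ hv htp
  simp only [hg]
  rw [FL3_lin3 Λ i10 i11 i12, FL3_lin4 (2 * Λ + 1) Λ i6 i5 i7 i8, e0, e1, e2]
  ring

end Crest.Agent.TH
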