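import Crest.Agent.TH_Pot

/-! # TH_Gain (task TH-M8): the gain of splitting a psd matrix into its two diagonal blocks -/

set_option autoImplicit false
open Matrix MeasureTheory Set Filter
open scoped Topology

namespace Crest.Agent.TH
variable {ι κ : Type*} [Fintype ι] [DecidableEq ι] [Fintype κ] [DecidableEq κ]

open scoped MatrixOrder Matrix.Norms.L2Operator in
private theorem gain_sqrt {A : Matrix ι ι ℝ} (hA : A.PosSemidef) :
    ∃ S : Matrix ι ι ℝ, S.IsHermitian ∧ S * S = A :=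
  ⟨CFC.sqrt A, (CFC.sqrt_nonneg A).posSemidef.isHermitian, CFC.sqrt_mul_sqrt_self A hA.nonneg⟩

private theorem gain_det_le_exp {M : Matrix ι ι ℝ} (hM : M.PosSemidef) :
    M.det ≤ Real.exp (M.trace - Fintype.card ι) := by
  rw [hM.isHermitian.det_eq_prod_eigenvalues, hM.isHermitian.trace_eq_sum_eigenvalues]
  simp only [RCLike.ofReal_real_eq_id, id_eq]
  have h1 : ∏ i, hM.isHermitian.eigenvalues i ≤ ∏ i, Real.exp (hM.isHermitian.eigenvalues i - 1) := by
    apply Finset.prod_le_prod (fun i _ => hM.eigenvalues_nonneg i)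
    intro i _
    have := Real.add_one_le_exp (hM.isHermitian.eigenvalues i - 1)
    linarith
  refine le_trans h1 (le_of_eq ?_)
  rw [← Real.exp_sum, Finset.sum_sub_distrib]
  simp

private theorem gain_posDef {v : ℝ} (hv : 0 < v) {H : Matrix ι ι ℝ} (hH : H.PosSemidef) :
    (1 + (v ^ 2)⁻¹ • H).PosDef :=
  Matrix.PosDef.add_posSemidef Matrix.PosDef.one (hH.smul (by positivity))

/-- `h (1 + H/v²) = H/v²`. -/
private theorem gain_hop_mul {v : ℝ} (hv : 0 < v) {H : Matrix ι ι ℝ} (hH : H.PosSemidef) :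
    hop v H * (1 + (v ^ 2)⁻¹ • H) = (v ^ 2)⁻¹ • H := by
  have hv2 : v ^ 2 ≠ 0 := by positivity
  have h1 : IsUnit (v ^ 2 • (1 : Matrix ι ι ℝ) + H).det :=
    isUnit_iff_ne_zero.2 (posDef_add hv hH).det_pos.ne'
  have h2 : (1 + (v ^ 2)⁻¹ • H) = (v ^ 2)⁻¹ • (v ^ 2 • (1 : Matrix ι ι ℝ) + H) := by
    rw [smul_add, smul_smul, inv_mul_cancel₀ hv2, one_smul]
  unfold hop
  rw [h2, mul_smul_comm, Matrix.mul_assoc, Matrix.nonsing_inv_mul _ h1, mul_one]

private theorem gain_core {v : ℝ} (hv : 0 < v) {H B : Matrix ι ι ℝ} (hH : H.PosSemidef)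
    (hB : B.IsHermitian) (hBB : B * B = 1) :
    (1 - B * hop v H * B * hop v H).det ≤ Real.exp (-(B * hop v H * B * hop v H).trace) := by
  obtain ⟨S, hS, hSS⟩ := gain_sqrt (hop_posSemidef hv hH)
  set h := hop v H with hh
  have h1 : (1 - B * h * B * h).det = (1 - (S * B * S) * (S * B * S)).det := by
    have e1 : B * h * B * h = (B * S) * (S * B * S * S) := by
      rw [← hSS]; simp only [Matrix.mul_assoc]
    have e2 : (S * B * S) * (S * B * S) = (S * B * S * S) * (B * S) := by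
      simp only [Matrix.mul_assoc]
    rw [e1, e2, Matrix.det_one_sub_mul_comm]
  have h2 : (B * h * B * h).trace = ((S * B * S) * (S * B * S)).trace := by
    have e1 : B * h * B * h = (B * S) * (S * B * S * S) := by
      rw [← hSS]; simp only [Matrix.mul_assoc]
    have e2 : (S * B * S) * (S * B * S) = (S * B * S * S) * (B * S) := by
      simp only [Matrix.mul_assoc]
    rw [e1, e2, Matrix.trace_mul_comm]
  have hM : (1 - (S * B * S) * (S * B * S)).PosSemidef := by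
    have e : 1 - (S * B * S) * (S * B * S) = (1 - h) + (B * S)ᴴ * (1 - h) * (B * S) := by
      have hBS : (B * S)ᴴ = S * B := by rw [conjTranspose_mul, hS.eq, hB.eq]
      rw [hBS]
      have e3 : S * B * (1 - h) * (B * S) = h - (S * B * S) * (S * B * S) := by
        have e4 : S * B * (1 - h) * (B * S) = S * (B * B) * S - S * B * h * (B * S) := by
          rw [mul_sub, sub_mul, mul_one]; simp only [Matrix.mul_assoc]
        rw [e4, hBB, mul_one, hSS]
        congr 1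
        rw [← hSS]; simp only [Matrix.mul_assoc]
      rw [e3]; abel
    rw [e]
    exact (one_sub_hop_posSemidef hv hH).add
      ((one_sub_hop_posSemidef hv hH).conjTranspose_mul_mul_same _)
  have h3 := gain_det_le_exp hM
  rw [h1, h2]
  refine le_trans h3 (le_of_eq ?_)
  congr 1
  rw [Matrix.trace_sub, Matrix.trace_one]
  ring

private theorem gain_plus (c : ℝ) (H : Matrix (ι ⊕ κ) (ι ⊕ κ) ℝ) :
    (1 + c • H) + c • (Matrix.diagonal (Sum.elim (fun _ => (1:ℝ)) (fun _ => (-1:ℝ)) : ι ⊕ κ → ℝ) * H) =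
      fromBlocks (1 + c • ((2 : ℝ) • H.toBlocks₁₁)) (c • ((2 : ℝ) • H.toBlocks₁₂)) 0 1 := by
  ext (i | i) (j | j)
  · simp [Matrix.one_apply, toBlocks₁₁]; ring
  · simp [Matrix.one_apply, toBlocks₁₂]; ring
  · simp [Matrix.one_apply]
  · simp [Matrix.one_apply]

private theorem gain_minus (c : ℝ) (H : Matrix (ι ⊕ κ) (ι ⊕ κ) ℝ) :
    (1 + c • H) - c • (Matrix.diagonal (Sum.elim (fun _ => (1:ℝ)) (fun _ => (-1:ℝ)) : ι ⊕ κ → ℝ) * H) =
      fromBlocks 1 0 (c • ((2 : ℝ) • H.toBlocks₂₁)) (1 + c • ((2 : ℝ) • H.toBlocks₂₂)) := by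
  ext (i | i) (j | j)
  · simp [Matrix.one_apply]
  · simp [Matrix.one_apply]
  · simp [Matrix.one_apply, toBlocks₂₁]; ring
  · simp [Matrix.one_apply, toBlocks₂₂]; ring

/-- Let `b = diag(1, -1)` on `ι ⊕ κ`, `D = det (1 + H/v²)`, `D_± = det (1 + (1 ± b) H / v²)`.
`1 + (1 ± b) H / v² = (1 ± b h) (1 + H/v²)` with `h = hop v H`, so
`D₊ D₋ = D² det ((1 + b h)(1 - b h)) = D² det (1 - b h b h)`, and
`det (1 - b h b h) ≤ exp (- tr (b h b h))`: the matrix `b h b h` has the same characteristic polynomial as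
`C²`, `C = h^{1/2} b h^{1/2}` symmetric with `‖C‖ ≤ 1`, eigenvalues `c² ∈ [0,1]`, `1 - c² ≤ exp (-c²)`.
`D₊ = det (1 + 2 H₁₁ / v²)` and `D₋ = det (1 + 2 H₂₂ / v²)` (block triangular determinants) and
`tr (2 H₁₁) + tr (2 H₂₂) = 2 tr H`.  Take logarithms. -/
theorem pot_split_gain {v : ℝ} (hv : 0 < v) {H : Matrix (ι ⊕ κ) (ι ⊕ κ) ℝ} (hH : H.PosSemidef) :
    pot v H + v ^ 2 / 2 * gn v H (Sum.elim (fun _ => 1) (fun _ => -1)) ≤
      (pot v ((2 : ℝ) • H.toBlocks₁₁) + pot v ((2 : ℝ) • H.toBlocks₂₂)) / 2 := by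
  have hv2' : 0 < v ^ 2 := by positivity
  set b : ι ⊕ κ → ℝ := Sum.elim (fun _ => 1) (fun _ => -1) with hb
  set B : Matrix (ι ⊕ κ) (ι ⊕ κ) ℝ := Matrix.diagonal b with hBdef
  set A : Matrix (ι ⊕ κ) (ι ⊕ κ) ℝ := 1 + (v ^ 2)⁻¹ • H with hA
  set h := hop v H with hh
  have hB : B.IsHermitian := by
    rw [hBdef, Matrix.IsHermitian, Matrix.diagonal_conjTranspose]; simp
  have hBB : B * B = 1 := by
    rw [hBdef, Matrix.diagonal_mul_diagonal]
    have : (fun i => b i * b i) = fun _ => (1 : ℝ) := by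
      funext i
      cases i <;> simp [hb]
    rw [this]
    exact Matrix.diagonal_one
  have hAdet : 0 < A.det := (gain_posDef hv hH).det_pos
  have hH1 : H.toBlocks₁₁.PosSemidef := hH.submatrix Sum.inl
  have hH2 : H.toBlocks₂₂.PosSemidef := hH.submatrix Sum.inr
  have hd1 : 0 < (1 + (v ^ 2)⁻¹ • ((2 : ℝ) • H.toBlocks₁₁)).det :=
    (gain_posDef hv (hH1.smul (by norm_num))).det_pos
  have hd2 : 0 < (1 + (v ^ 2)⁻¹ • ((2 : ℝ) • H.toBlocks₂₂)).det :=
    (gain_posDef hv (hH2.smul (by norm_num))).det_pos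
  have hp : (1 + B * h) * A = A + (v ^ 2)⁻¹ • (B * H) := by
    rw [add_mul, one_mul, Matrix.mul_assoc, hh, hA, gain_hop_mul hv hH, mul_smul_comm]
  have hm : (1 - B * h) * A = A - (v ^ 2)⁻¹ • (B * H) := by
    rw [sub_mul, one_mul, Matrix.mul_assoc, hh, hA, gain_hop_mul hv hH, mul_smul_comm]
  have hdp : (1 + B * h).det * A.det = (1 + (v ^ 2)⁻¹ • ((2 : ℝ) • H.toBlocks₁₁)).det := by
    rw [← det_mul, hp, hA, hBdef, hb, gain_plus, det_fromBlocks_zero₂₁, det_one, mul_one]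
  have hdm : (1 - B * h).det * A.det = (1 + (v ^ 2)⁻¹ • ((2 : ℝ) • H.toBlocks₂₂)).det := by
    rw [← det_mul, hm, hA, hBdef, hb, gain_minus, det_fromBlocks_zero₁₂, det_one, one_mul]
  have hprod : (1 - B * h * B * h).det * A.det ^ 2 =
      (1 + (v ^ 2)⁻¹ • ((2 : ℝ) • H.toBlocks₁₁)).det *
        (1 + (v ^ 2)⁻¹ • ((2 : ℝ) • H.toBlocks₂₂)).det := by
    rw [← hdp, ← hdm]
    have e : 1 - B * h * B * h = (1 + B * h) * (1 - B * h) := by
      have : B * h * B * h = B * h * (B * h) := by simp only [Matrix.mul_assoc]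
      rw [this]; noncomm_ring
    rw [e, det_mul]; ring
  have hcore := gain_core hv hH hB hBB
  have hpos : 0 < (1 - B * h * B * h).det := by
    have h1 : 0 < (1 - B * h * B * h).det * A.det ^ 2 := by rw [hprod]; exact mul_pos hd1 hd2
    exact (pos_iff_pos_of_mul_pos h1).2 (by positivity)
  have hlog : Real.log (1 - B * h * B * h).det ≤ -(B * h * B * h).trace := by
    rw [Real.log_le_iff_le_exp hpos]; exact hcore
  have hlog2 : Real.log (1 - B * h * B * h).det + 2 * Real.log A.det =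
      Real.log (1 + (v ^ 2)⁻¹ • ((2 : ℝ) • H.toBlocks₁₁)).det +
        Real.log (1 + (v ^ 2)⁻¹ • ((2 : ℝ) • H.toBlocks₂₂)).det := by
    rw [← Real.log_mul hd1.ne' hd2.ne', ← hprod, Real.log_mul hpos.ne' (by positivity),
      Real.log_pow]
    push_cast; ring
  have htr : H.trace = H.toBlocks₁₁.trace + H.toBlocks₂₂.trace := by
    simp only [Matrix.trace, Matrix.diag, Fintype.sum_sum_type]
    rfl
  have hgn : gn v H b = (B * h * B * h).trace := rfl
  unfold pot
  rw [hgn, Matrix.trace_smul, Matrix.trace_smul, smul_eq_mul, smul_eq_mul, htr]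
  have h9 : v ^ 2 * (Real.log (1 - B * h * B * h).det) ≤ v ^ 2 * (-(B * h * B * h).trace) :=
    mul_le_mul_of_nonneg_left hlog hv2'.le
  have h10 : v ^ 2 * (Real.log (1 + (v ^ 2)⁻¹ • ((2 : ℝ) • H.toBlocks₁₁)).det +
        Real.log (1 + (v ^ 2)⁻¹ • ((2 : ℝ) • H.toBlocks₂₂)).det) =
      v ^ 2 * Real.log (1 - B * h * B * h).det + 2 * (v ^ 2 * Real.log A.det) := by
    rw [← hlog2]; ring
  nlinarith [h9, h10]

end Crest.Agent.TH
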