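import Mathlib

/-! # TH_HL (task TH-X1): the one dimensional Hardy–Littlewood maximal theorem in `L^{3/2}` -/

set_option autoImplicit false
open MeasureTheory Set Filter
open scoped Topology ENNReal

namespace Crest.Agent.TH

/-- centred maximal function with rational radii -/
noncomputable def MH (h : ℝ → ℝ≥0∞) (x : ℝ) : ℝ≥0∞ :=
  ⨆ (r : {r : ℚ // 0 < r}), (ENNReal.ofReal (2 * (r : ℚ) : ℝ))⁻¹ *
    ∫⁻ y in Ioo (x - (r : ℚ)) (x + (r : ℚ)), h y

theorem measurable_MH {h : ℝ → ℝ≥0∞} (hh : Measurable h) : Measurable (MH h) := by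
  unfold MH
  refine Measurable.iSup fun r => Measurable.const_mul ?_ _
  have h1 : (fun x : ℝ => ∫⁻ y in Ioo (x - ((r : ℚ) : ℝ)) (x + ((r : ℚ) : ℝ)), h y) =
      fun x => ∫⁻ y, (fun q : ℝ × ℝ => if q.1 - ((r : ℚ) : ℝ) < q.2 ∧ q.2 < q.1 + ((r : ℚ) : ℝ)
        then h q.2 else 0) (x, y) := by
    funext x
    rw [← lintegral_indicator measurableSet_Ioo]
    refine lintegral_congr fun y => ?_
    by_cases hy : y ∈ Ioo (x - ((r : ℚ) : ℝ)) (x + ((r : ℚ) : ℝ))
    · rw [Set.indicator_of_mem hy]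
      exact (if_pos hy).symm
    · rw [Set.indicator_of_notMem hy]
      exact (if_neg hy).symm
  rw [h1]
  have h2 : Measurable (fun q : ℝ × ℝ => if q.1 - ((r : ℚ) : ℝ) < q.2 ∧
      q.2 < q.1 + ((r : ℚ) : ℝ) then h q.2 else 0) := by
    refine Measurable.ite ?_ (hh.comp measurable_snd) measurable_const
    have h3 : MeasurableSet {q : ℝ × ℝ | q.1 - ((r : ℚ) : ℝ) < q.2} :=
      measurableSet_lt (by fun_prop) (by fun_prop)
    have h4 : MeasurableSet {q : ℝ × ℝ | q.2 < q.1 + ((r : ℚ) : ℝ)} :=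
      measurableSet_lt (by fun_prop) (by fun_prop)
    exact h3.inter h4
  exact h2.lintegral_prod_right'

private theorem MH_weak_four (h : ℝ → ℝ≥0∞) (l : ℝ≥0∞) (hl : 0 < l) (hl' : l ≠ ⊤) :
    l * volume {x | l < MH h x} ≤ 4 * ∫⁻ x, h x := by
  by_cases hI : ∫⁻ x, h x = ⊤
  · rw [hI, ENNReal.mul_top (by norm_num)]
    exact le_top
  -- the family of good balls
  let t : Set (ℝ × ℚ) := {q | 0 < q.2 ∧
    l * ENNReal.ofReal (2 * (q.2 : ℝ)) < ∫⁻ y in Ioo (q.1 - (q.2 : ℝ)) (q.1 + (q.2 : ℝ)), h y}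
  have ht : ∀ x, l < MH h x → ∃ r : ℚ, (x, r) ∈ t := by
    intro x hx
    obtain ⟨r, hr⟩ := lt_iSup_iff.mp hx
    refine ⟨r.1, r.2, ?_⟩
    have hr0 : (0 : ℝ) < ((r : ℚ) : ℝ) := by exact_mod_cast r.2
    have h3 : ENNReal.ofReal (2 * ((r : ℚ) : ℝ)) ≠ 0 := by
      rw [ne_eq, ENNReal.ofReal_eq_zero, not_le]
      positivity
    have h4 := ENNReal.mul_lt_mul_left h3 ENNReal.ofReal_ne_top hr
    refine lt_of_lt_of_le h4 (le_of_eq ?_)
    rw [mul_comm, ← mul_assoc, ENNReal.mul_inv_cancel h3 ENNReal.ofReal_ne_top, one_mul]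
  -- the radii are bounded
  have hbd : ∀ q ∈ t, (q.2 : ℝ) ≤ (l⁻¹ * ∫⁻ x, h x).toReal := by
    rintro ⟨x, r⟩ ⟨hr, hlt⟩
    have hr0 : (0 : ℝ) < (r : ℝ) := by exact_mod_cast hr
    have h1 : l * ENNReal.ofReal (2 * (r : ℝ)) ≤ ∫⁻ x, h x :=
      hlt.le.trans (setLIntegral_le_lintegral _ _)
    have h2 : ENNReal.ofReal (2 * (r : ℝ)) ≤ l⁻¹ * ∫⁻ x, h x := by
      calc ENNReal.ofReal (2 * (r : ℝ)) = l⁻¹ * (l * ENNReal.ofReal (2 * (r : ℝ))) := by
            rw [← mul_assoc, ENNReal.inv_mul_cancel hl.ne' hl', one_mul]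
        _ ≤ _ := mul_le_mul_right h1 _
    have h3 : l⁻¹ * ∫⁻ x, h x ≠ ⊤ := ENNReal.mul_ne_top (ENNReal.inv_ne_top.mpr hl.ne') hI
    have h4 := ENNReal.toReal_mono h3 h2
    rw [ENNReal.toReal_ofReal (by positivity)] at h4
    change (r : ℝ) ≤ _
    linarith
  obtain ⟨u, hut, hdisj, hcov⟩ := Vitali.exists_disjoint_subfamily_covering_enlargement_closedBall
    t (fun q => q.1) (fun q => (q.2 : ℝ)) _ hbd 4 (by norm_num)
  have hpos : ∀ q ∈ u, (0 : ℝ) < (q.2 : ℝ) := fun q hq => by exact_mod_cast (hut hq).1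
  have hcount : u.Countable := by
    refine hdisj.countable_of_nonempty_interior fun q hq => ?_
    refine ⟨q.1, ?_⟩
    have h1 := Metric.ball_subset_interior_closedBall (x := q.1) (ε := (q.2 : ℝ))
    exact h1 (Metric.mem_ball_self (hpos q hq))
  have hE : {x | l < MH h x} ⊆ ⋃ q ∈ u, Metric.closedBall q.1 (4 * (q.2 : ℝ)) := by
    intro x hx
    obtain ⟨r, hr⟩ := ht x hx
    obtain ⟨b, hb, hsub⟩ := hcov _ hr
    rw [Set.mem_iUnion₂]
    refine ⟨b, hb, hsub (Metric.mem_closedBall_self ?_)⟩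
    have : (0 : ℝ) < (r : ℝ) := by exact_mod_cast hr.1
    exact this.le
  have hd2 : u.PairwiseDisjoint fun q => Ioo (q.1 - (q.2 : ℝ)) (q.1 + (q.2 : ℝ)) := by
    refine hdisj.mono fun q => ?_
    change Ioo (q.1 - (q.2 : ℝ)) (q.1 + (q.2 : ℝ)) ⊆ Metric.closedBall q.1 (q.2 : ℝ)
    rw [Real.closedBall_eq_Icc]
    exact Ioo_subset_Icc_self
  have hu := hcount.to_subtype
  calc l * volume {x | l < MH h x}
      ≤ l * volume (⋃ q ∈ u, Metric.closedBall q.1 (4 * (q.2 : ℝ))) :=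
        mul_le_mul_right (measure_mono hE) _
    _ ≤ l * ∑' q : u, volume (Metric.closedBall q.1.1 (4 * (q.1.2 : ℝ))) :=
        mul_le_mul_right (measure_biUnion_le volume hcount _) _
    _ = ∑' q : u, l * volume (Metric.closedBall q.1.1 (4 * (q.1.2 : ℝ))) := ENNReal.tsum_mul_left.symm
    _ ≤ ∑' q : u, 4 * ∫⁻ y in Ioo (q.1.1 - (q.1.2 : ℝ)) (q.1.1 + (q.1.2 : ℝ)), h y := by
        refine ENNReal.tsum_le_tsum fun q => ?_
        rw [Real.volume_closedBall]
        have h1 := (hut q.2).2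
        have h2 : (ENNReal.ofReal (2 * (4 * (q.1.2 : ℝ)))) =
            4 * ENNReal.ofReal (2 * (q.1.2 : ℝ)) := by
          rw [show (2 * (4 * (q.1.2 : ℝ))) = 4 * (2 * (q.1.2 : ℝ)) by ring,
            ENNReal.ofReal_mul (by norm_num)]
          norm_num
        rw [h2, mul_left_comm]
        exact mul_le_mul_right h1.le _
    _ = 4 * ∑' q : u, ∫⁻ y in Ioo (q.1.1 - (q.1.2 : ℝ)) (q.1.1 + (q.1.2 : ℝ)), h y :=
        ENNReal.tsum_mul_left
    _ = 4 * ∫⁻ y in ⋃ q ∈ u, Ioo (q.1 - (q.2 : ℝ)) (q.1 + (q.2 : ℝ)), h y := by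
        rw [lintegral_biUnion hcount (fun _ _ => measurableSet_Ioo) hd2]
    _ ≤ 4 * ∫⁻ x, h x := mul_le_mul_right (setLIntegral_le_lintegral _ _) _

/-- weak type (1,1): Vitali covering (`Vitali.exists_disjoint_subfamily_covering_enlargement_closedBall`),
applied to compact subsets / bounded radii; any constant. -/
theorem MH_weak : ∃ C : ℝ≥0∞, C ≠ ⊤ ∧ ∀ (h : ℝ → ℝ≥0∞), Measurable h → ∀ l : ℝ≥0∞, 0 < l → l ≠ ⊤ →
    l * volume {x | l < MH h x} ≤ C * ∫⁻ x, h x :=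
  ⟨4, by norm_num, fun h _ l hl hl' => MH_weak_four h l hl hl'⟩

/-- truncation: `MH h ≤ MH (h 1_{h > l}) + l`. -/
private theorem MH_trunc (h : ℝ → ℝ≥0∞) (l : ℝ≥0∞) (x : ℝ) :
    MH h x ≤ MH (fun y => if l < h y then h y else 0) x + l := by
  refine iSup_le fun r => ?_
  have hr0 : (0 : ℝ) < ((r : ℚ) : ℝ) := by exact_mod_cast r.2
  have h3 : ENNReal.ofReal (2 * ((r : ℚ) : ℝ)) ≠ 0 := by
    rw [ne_eq, ENNReal.ofReal_eq_zero, not_le]
    positivity
  have h1 : ∫⁻ y in Ioo (x - ((r : ℚ) : ℝ)) (x + ((r : ℚ) : ℝ)), h y ≤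
      ∫⁻ y in Ioo (x - ((r : ℚ) : ℝ)) (x + ((r : ℚ) : ℝ)), ((if l < h y then h y else 0) + l) := by
    refine lintegral_mono fun y => ?_
    change h y ≤ (if l < h y then h y else 0) + l
    split_ifs with h2
    · exact le_self_add
    · rw [zero_add]
      exact not_lt.mp h2
  have h2 : ∫⁻ y in Ioo (x - ((r : ℚ) : ℝ)) (x + ((r : ℚ) : ℝ)), ((if l < h y then h y else 0) + l)
      = (∫⁻ y in Ioo (x - ((r : ℚ) : ℝ)) (x + ((r : ℚ) : ℝ)), (if l < h y then h y else 0)) +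
        l * ENNReal.ofReal (2 * ((r : ℚ) : ℝ)) := by
    rw [lintegral_add_right _ measurable_const, setLIntegral_const, Real.volume_Ioo]
    congr 3
    ring
  calc (ENNReal.ofReal (2 * ((r : ℚ) : ℝ)))⁻¹ *
        ∫⁻ y in Ioo (x - ((r : ℚ) : ℝ)) (x + ((r : ℚ) : ℝ)), h y
      ≤ (ENNReal.ofReal (2 * ((r : ℚ) : ℝ)))⁻¹ *
        ((∫⁻ y in Ioo (x - ((r : ℚ) : ℝ)) (x + ((r : ℚ) : ℝ)), (if l < h y then h y else 0)) +
        l * ENNReal.ofReal (2 * ((r : ℚ) : ℝ))) := mul_le_mul_right (h1.trans h2.le) _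
    _ = (ENNReal.ofReal (2 * ((r : ℚ) : ℝ)))⁻¹ *
        (∫⁻ y in Ioo (x - ((r : ℚ) : ℝ)) (x + ((r : ℚ) : ℝ)), (if l < h y then h y else 0)) +
        l := by
        rw [mul_add]
        congr 1
        rw [mul_comm l, ← mul_assoc, ENNReal.inv_mul_cancel h3 ENNReal.ofReal_ne_top, one_mul]
    _ ≤ _ := by
        refine add_le_add ?_ le_rfl
        exact le_iSup (fun r : {r : ℚ // 0 < r} => (ENNReal.ofReal (2 * (r : ℚ) : ℝ))⁻¹ *
            ∫⁻ y in Ioo (x - (r : ℚ)) (x + (r : ℚ)), (if l < h y then h y else 0)) r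

/-- `∫_0^A l^s dl = A^(s+1)/(s+1)` as a lower integral. -/
private theorem lint_rpow {s : ℝ} (hs : -1 < s) {A : ℝ} (hA : 0 ≤ A) :
    ∫⁻ l in Ioo 0 A, ENNReal.ofReal (l ^ s) = ENNReal.ofReal (A ^ (s + 1) / (s + 1)) := by
  have h1 : IntervalIntegrable (fun x : ℝ => x ^ s) volume 0 A :=
    intervalIntegral.intervalIntegrable_rpow' hs
  have h2 : IntegrableOn (fun x : ℝ => x ^ s) (Ioo 0 A) := by
    have := (intervalIntegrable_iff_integrableOn_Ioc_of_le hA).mp h1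
    exact this.mono_set Ioo_subset_Ioc_self
  rw [← ofReal_integral_eq_lintegral_ofReal h2]
  · rw [← integral_Ioc_eq_integral_Ioo, ← intervalIntegral.integral_of_le hA,
      integral_rpow (Or.inl hs), Real.zero_rpow (by linarith), sub_zero]
  · refine (ae_restrict_iff' measurableSet_Ioo).mpr (ae_of_all _ fun x hx => ?_)
    exact Real.rpow_nonneg hx.1.le _

/-- layer cake, lower bound part. -/
private theorem layer_le (a : ℝ≥0∞) :
    a ^ (3 / 2 : ℝ) ≤ ∫⁻ l in Ioi (0 : ℝ), (if ENNReal.ofReal l < a then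
      ENNReal.ofReal ((3 / 2) * l ^ (1 / 2 : ℝ)) else 0) := by
  have key : ∀ A : ℝ, 0 ≤ A → ENNReal.ofReal A ≤ a → (ENNReal.ofReal A) ^ (3 / 2 : ℝ) ≤
      ∫⁻ l in Ioi (0 : ℝ), (if ENNReal.ofReal l < a then
        ENNReal.ofReal ((3 / 2) * l ^ (1 / 2 : ℝ)) else 0) := by
    intro A hA hAa
    calc (ENNReal.ofReal A) ^ (3 / 2 : ℝ) = ENNReal.ofReal (A ^ (3 / 2 : ℝ)) :=
          ENNReal.ofReal_rpow_of_nonneg hA (by norm_num)
      _ = ENNReal.ofReal (3 / 2) * ENNReal.ofReal (A ^ ((1 / 2 : ℝ) + 1) / (1 / 2 + 1)) := by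
          rw [← ENNReal.ofReal_mul (by norm_num)]
          congr 1
          rw [show (1 / 2 : ℝ) + 1 = 3 / 2 by norm_num]
          ring
      _ = ENNReal.ofReal (3 / 2) * ∫⁻ l in Ioo 0 A, ENNReal.ofReal (l ^ (1 / 2 : ℝ)) := by
          rw [lint_rpow (by norm_num) hA]
      _ = ∫⁻ l in Ioo 0 A, ENNReal.ofReal ((3 / 2) * l ^ (1 / 2 : ℝ)) := by
          rw [← lintegral_const_mul' _ _ ENNReal.ofReal_ne_top]
          refine lintegral_congr fun l => ?_
          rw [ENNReal.ofReal_mul (by norm_num)]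
      _ = ∫⁻ l in Ioo 0 A, (if ENNReal.ofReal l < a then
            ENNReal.ofReal ((3 / 2) * l ^ (1 / 2 : ℝ)) else 0) := by
          refine setLIntegral_congr_fun measurableSet_Ioo fun l hl => ?_
          have h1 : ENNReal.ofReal l < a := by
            refine lt_of_lt_of_le ?_ hAa
            rw [ENNReal.ofReal_lt_ofReal_iff (hl.1.trans hl.2)]
            exact hl.2
          simp only [if_pos h1]
      _ ≤ _ := lintegral_mono_set (fun l hl => hl.1)
  by_cases ha : a = ⊤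
  · have h1 : ∀ N : ℕ, (N : ℝ≥0∞) ≤ ∫⁻ l in Ioi (0 : ℝ), (if ENNReal.ofReal l < a then
        ENNReal.ofReal ((3 / 2) * l ^ (1 / 2 : ℝ)) else 0) := by
      intro N
      refine le_trans ?_ (key N (Nat.cast_nonneg _) (by rw [ha]; exact le_top))
      rw [ENNReal.ofReal_natCast]
      rcases Nat.eq_zero_or_pos N with h0 | h0
      · subst h0; simp
      · have h2 : (1 : ℝ≥0∞) ≤ (N : ℝ≥0∞) := by exact_mod_cast h0
        calc (N : ℝ≥0∞) = (N : ℝ≥0∞) ^ (1 : ℝ) := (ENNReal.rpow_one _).symm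
          _ ≤ (N : ℝ≥0∞) ^ (3 / 2 : ℝ) := ENNReal.rpow_le_rpow_of_exponent_le h2 (by norm_num)
    have h2 : ∫⁻ l in Ioi (0 : ℝ), (if ENNReal.ofReal l < a then
        ENNReal.ofReal ((3 / 2) * l ^ (1 / 2 : ℝ)) else 0) = ⊤ := by
      by_contra hne
      obtain ⟨N, hN⟩ := ENNReal.exists_nat_gt hne
      exact absurd (h1 N) (not_le.mpr hN)
    rw [h2]
    exact le_top
  · have h1 := key a.toReal ENNReal.toReal_nonneg (by rw [ENNReal.ofReal_toReal ha])
    rwa [ENNReal.ofReal_toReal ha] at h1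

/-- layer cake, upper bound part. -/
private theorem layer_ge (a : ℝ≥0∞) :
    ∫⁻ l in Ioi (0 : ℝ), (if ENNReal.ofReal (l / 2) < a then
      ENNReal.ofReal (3 * l ^ (-(1 / 2) : ℝ)) else 0) ≤ 12 * a ^ (1 / 2 : ℝ) := by
  by_cases ha : a = ⊤
  · rw [ha, ENNReal.top_rpow_of_pos (by norm_num), ENNReal.mul_top (by norm_num)]
    exact le_top
  have h1 : ∫⁻ l in Ioi (0 : ℝ), (if ENNReal.ofReal (l / 2) < a then
      ENNReal.ofReal (3 * l ^ (-(1 / 2) : ℝ)) else 0) ≤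
      ∫⁻ l in Ioo 0 (2 * a.toReal), ENNReal.ofReal (3 * l ^ (-(1 / 2) : ℝ)) := by
    rw [← lintegral_indicator measurableSet_Ioi, ← lintegral_indicator measurableSet_Ioo]
    refine lintegral_mono fun l => ?_
    by_cases hl : l ∈ Ioi (0 : ℝ)
    · rw [Set.indicator_of_mem hl]
      have hl0 : (0 : ℝ) < l := hl
      split_ifs with h2
      · have h3 : l / 2 < a.toReal := by
          rw [ENNReal.ofReal_lt_iff_lt_toReal (by positivity) ha] at h2
          exact h2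
        have h4 : l ∈ Ioo 0 (2 * a.toReal) := ⟨hl0, by linarith⟩
        rw [Set.indicator_of_mem h4]
      · exact zero_le
    · rw [Set.indicator_of_notMem hl]
      exact zero_le
  refine h1.trans ?_
  have h2 : ∫⁻ l in Ioo 0 (2 * a.toReal), ENNReal.ofReal (3 * l ^ (-(1 / 2) : ℝ)) =
      ENNReal.ofReal 3 * ∫⁻ l in Ioo 0 (2 * a.toReal), ENNReal.ofReal (l ^ (-(1 / 2) : ℝ)) := by
    rw [← lintegral_const_mul' _ _ ENNReal.ofReal_ne_top]
    refine lintegral_congr fun l => ?_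
    rw [ENNReal.ofReal_mul (by norm_num)]
  have hnn : (0 : ℝ) ≤ 2 * a.toReal := by positivity
  rw [h2, lint_rpow (by norm_num) hnn, ← ENNReal.ofReal_mul (by norm_num)]
  have h3 : (12 : ℝ≥0∞) * a ^ (1 / 2 : ℝ) = ENNReal.ofReal (12 * a.toReal ^ (1 / 2 : ℝ)) := by
    rw [ENNReal.ofReal_mul (by norm_num), ← ENNReal.ofReal_rpow_of_nonneg ENNReal.toReal_nonneg
      (by norm_num), ENNReal.ofReal_toReal ha]
    norm_num
  rw [h3]
  refine ENNReal.ofReal_le_ofReal ?_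
  rw [show (-(1 / 2) : ℝ) + 1 = 1 / 2 by norm_num, Real.mul_rpow (by norm_num) ENNReal.toReal_nonneg]
  have h4 : (2 : ℝ) ^ (1 / 2 : ℝ) ≤ 2 := by
    calc (2 : ℝ) ^ (1 / 2 : ℝ) ≤ (2 : ℝ) ^ (1 : ℝ) :=
          Real.rpow_le_rpow_of_exponent_le (by norm_num) (by norm_num)
      _ = 2 := Real.rpow_one 2
  have h5 : 0 ≤ a.toReal ^ (1 / 2 : ℝ) := by positivity
  nlinarith

/-- strong type in `L^{3/2}`: `MH h ≤ MH (h 1_{h > l/2}) + l/2`, so
`volume {MH h > l} ≤ (2C/l) ∫_{h > l/2} h`; layer cake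
(`MeasureTheory.lintegral_rpow_eq_lintegral_meas_lt_mul` or Tonelli). -/
theorem MH_strong : ∃ C : ℝ≥0∞, C ≠ ⊤ ∧ ∀ (h : ℝ → ℝ≥0∞), Measurable h →
    ∫⁻ x, MH h x ^ (3 / 2 : ℝ) ≤ C * ∫⁻ x, h x ^ (3 / 2 : ℝ) := by
  refine ⟨4 * 12, by norm_num, fun h hh => ?_⟩
  have hM := measurable_MH hh
  -- the key estimate at level `l`
  have key : ∀ l : ℝ, 0 < l → ∫⁻ x, (if ENNReal.ofReal l < MH h x then
      ENNReal.ofReal ((3 / 2) * l ^ (1 / 2 : ℝ)) else 0) ≤
      4 * ∫⁻ x, (if ENNReal.ofReal (l / 2) < h x then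
        ENNReal.ofReal (3 * l ^ (-(1 / 2) : ℝ)) else 0) * h x := by
    intro l hl
    have hl2 : (0 : ℝ) < l / 2 := by positivity
    set g : ℝ → ℝ≥0∞ := fun y => if ENNReal.ofReal (l / 2) < h y then h y else 0 with hg
    have hsub : {x | ENNReal.ofReal l < MH h x} ⊆ {x | ENNReal.ofReal (l / 2) < MH g x} := by
      intro x hx
      have h1 := MH_trunc h (ENNReal.ofReal (l / 2)) x
      have h2 : ENNReal.ofReal l < MH g x + ENNReal.ofReal (l / 2) := lt_of_lt_of_le hx h1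
      have h3 : ENNReal.ofReal l = ENNReal.ofReal (l / 2) + ENNReal.ofReal (l / 2) := by
        rw [← ENNReal.ofReal_add hl2.le hl2.le]
        congr 1
        ring
      rw [h3] at h2
      exact lt_of_add_lt_add_right h2
    have hw := MH_weak_four g (ENNReal.ofReal (l / 2)) (ENNReal.ofReal_pos.mpr hl2)
      ENNReal.ofReal_ne_top
    have h1 : ∫⁻ x, (if ENNReal.ofReal l < MH h x then
        ENNReal.ofReal ((3 / 2) * l ^ (1 / 2 : ℝ)) else 0) =
        ENNReal.ofReal ((3 / 2) * l ^ (1 / 2 : ℝ)) * volume {x | ENNReal.ofReal l < MH h x} := by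
      have hms : MeasurableSet {x | ENNReal.ofReal l < MH h x} :=
        measurableSet_lt measurable_const hM
      rw [← setLIntegral_const, ← lintegral_indicator hms]
      refine lintegral_congr fun x => ?_
      by_cases hx : ENNReal.ofReal l < MH h x
      · rw [if_pos hx, Set.indicator_of_mem (by exact hx)]
      · rw [if_neg hx, Set.indicator_of_notMem (by exact hx)]
    rw [h1]
    have h2 : ENNReal.ofReal ((3 / 2) * l ^ (1 / 2 : ℝ)) =
        ENNReal.ofReal (3 * l ^ (-(1 / 2) : ℝ)) * ENNReal.ofReal (l / 2) := by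
      rw [← ENNReal.ofReal_mul (by positivity)]
      congr 1
      have h3 : l ^ (1 / 2 : ℝ) = l ^ (-(1 / 2) : ℝ) * l := by
        conv_rhs => rw [← Real.rpow_one l]
        rw [← Real.rpow_mul hl.le, one_mul, ← Real.rpow_add hl]
        norm_num
      rw [h3]
      ring
    calc ENNReal.ofReal ((3 / 2) * l ^ (1 / 2 : ℝ)) * volume {x | ENNReal.ofReal l < MH h x}
        = ENNReal.ofReal (3 * l ^ (-(1 / 2) : ℝ)) * (ENNReal.ofReal (l / 2) *
          volume {x | ENNReal.ofReal l < MH h x}) := by rw [h2, mul_assoc]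
      _ ≤ ENNReal.ofReal (3 * l ^ (-(1 / 2) : ℝ)) * (4 * ∫⁻ x, g x) := by
          refine mul_le_mul_right ?_ _
          exact (mul_le_mul_right (measure_mono hsub) _).trans hw
      _ = 4 * (ENNReal.ofReal (3 * l ^ (-(1 / 2) : ℝ)) * ∫⁻ x, g x) := by ring
      _ = _ := by
          rw [← lintegral_const_mul' _ _ ENNReal.ofReal_ne_top]
          congr 1
          refine lintegral_congr fun x => ?_
          simp only [hg]
          split_ifs <;> simp
  have hmeas1 : Measurable (fun q : ℝ × ℝ => if ENNReal.ofReal q.2 < MH h q.1 then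
      ENNReal.ofReal ((3 / 2) * q.2 ^ (1 / 2 : ℝ)) else 0) := by
    refine Measurable.ite (measurableSet_lt (by fun_prop) (hM.comp measurable_fst)) ?_
      measurable_const
    fun_prop
  have hmeas2 : Measurable (fun q : ℝ × ℝ => (if ENNReal.ofReal (q.1 / 2) < h q.2 then
      ENNReal.ofReal (3 * q.1 ^ (-(1 / 2) : ℝ)) else 0) * h q.2) := by
    refine (Measurable.ite (measurableSet_lt (by fun_prop) (hh.comp measurable_snd)) ?_
      measurable_const).mul (hh.comp measurable_snd)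
    fun_prop
  calc ∫⁻ x, MH h x ^ (3 / 2 : ℝ)
      ≤ ∫⁻ x, ∫⁻ l in Ioi (0 : ℝ), (if ENNReal.ofReal l < MH h x then
          ENNReal.ofReal ((3 / 2) * l ^ (1 / 2 : ℝ)) else 0) := lintegral_mono fun x => layer_le _
    _ = ∫⁻ l in Ioi (0 : ℝ), ∫⁻ x, (if ENNReal.ofReal l < MH h x then
          ENNReal.ofReal ((3 / 2) * l ^ (1 / 2 : ℝ)) else 0) :=
        lintegral_lintegral_swap hmeas1.aemeasurable
    _ ≤ ∫⁻ l in Ioi (0 : ℝ), 4 * ∫⁻ x, (if ENNReal.ofReal (l / 2) < h x then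
        ENNReal.ofReal (3 * l ^ (-(1 / 2) : ℝ)) else 0) * h x :=
        setLIntegral_mono' measurableSet_Ioi fun l hl => key l hl
    _ = 4 * ∫⁻ l in Ioi (0 : ℝ), ∫⁻ x, (if ENNReal.ofReal (l / 2) < h x then
        ENNReal.ofReal (3 * l ^ (-(1 / 2) : ℝ)) else 0) * h x :=
        lintegral_const_mul' _ _ (by norm_num)
    _ = 4 * ∫⁻ x, ∫⁻ l in Ioi (0 : ℝ), (if ENNReal.ofReal (l / 2) < h x then
        ENNReal.ofReal (3 * l ^ (-(1 / 2) : ℝ)) else 0) * h x := by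
        rw [lintegral_lintegral_swap hmeas2.aemeasurable]
    _ ≤ 4 * ∫⁻ x, 12 * h x ^ (3 / 2 : ℝ) := by
        refine mul_le_mul_right (lintegral_mono fun x => ?_) _
        change ∫⁻ l in Ioi (0 : ℝ), (if ENNReal.ofReal (l / 2) < h x then
          ENNReal.ofReal (3 * l ^ (-(1 / 2) : ℝ)) else 0) * h x ≤ 12 * h x ^ (3 / 2 : ℝ)
        have hm3 : Measurable (fun l : ℝ => (if ENNReal.ofReal (l / 2) < h x then
            ENNReal.ofReal (3 * l ^ (-(1 / 2) : ℝ)) else 0)) := by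
          refine Measurable.ite (measurableSet_lt (by fun_prop) measurable_const) ?_
            measurable_const
          fun_prop
        rw [lintegral_mul_const _ hm3]
        calc _ ≤ 12 * h x ^ (1 / 2 : ℝ) * h x := mul_le_mul_left (layer_ge (h x)) _
          _ = 12 * h x ^ (3 / 2 : ℝ) := by
            rw [mul_assoc]
            congr 1
            conv_lhs => rw [← ENNReal.rpow_one (h x)]
            rw [← ENNReal.rpow_mul, one_mul, ← ENNReal.rpow_add_of_nonneg _ _ (by norm_num)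
              (by norm_num)]
            norm_num
    _ = 4 * 12 * ∫⁻ x, h x ^ (3 / 2 : ℝ) := by
        rw [lintegral_const_mul' _ _ (by norm_num), mul_assoc]

end Crest.Agent.TH
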