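import Crest.Agent.TH_Res
import Crest.Agent.TH_Ell

/-! # TH_Pot (task TH-M7b): the potential `pot v H` -/

set_option autoImplicit false
open Matrix MeasureTheory Set Filter
open scoped Topology

namespace Crest.Agent.TH
variable {ι κ : Type*} [Fintype ι] [DecidableEq ι] [Fintype κ] [DecidableEq κ]

private theorem pot_det {H : Matrix ι ι ℝ} (hH : H.IsHermitian) (c : ℝ) :
    (1 + c • H).det = ∏ i, (1 + c * hH.eigenvalues i) := by
  set U : Matrix ι ι ℝ := (hH.eigenvectorUnitary : Matrix ι ι ℝ) with hU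
  have h1 : U * star U = 1 := Unitary.coe_mul_star_self hH.eigenvectorUnitary
  have h2 : star U * U = 1 := Unitary.coe_star_mul_self hH.eigenvectorUnitary
  have h3 : H = U * diagonal (fun i => hH.eigenvalues i) * star U := by
    have h := hH.spectral_theorem
    rw [Unitary.conjStarAlgAut_apply] at h
    exact h
  have h4 : 1 + c • H = U * diagonal (fun i => 1 + c * hH.eigenvalues i) * star U := by
    have e1 : diagonal (fun i => 1 + c * hH.eigenvalues i) =
        (1 : Matrix ι ι ℝ) + c • diagonal (fun i => hH.eigenvalues i) := by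
      rw [← Matrix.diagonal_one, ← Matrix.diagonal_smul, Matrix.diagonal_add]
      rfl
    rw [e1, Matrix.mul_add, Matrix.add_mul, Matrix.mul_one, h1, Matrix.mul_smul, Matrix.smul_mul]
    congr 2
  rw [h4, Matrix.mul_assoc, Matrix.det_mul_comm, Matrix.mul_assoc, h2, Matrix.mul_one, Matrix.det_diagonal]

private theorem pot_prod (s : Finset ι) (f : ι → ℝ) (hf : ∀ i, 0 ≤ f i) :
    1 + ∑ i ∈ s, f i ≤ ∏ i ∈ s, (1 + f i) := by
  induction s using Finset.induction_on with
  | empty => simp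
  | insert a s ha ih =>
    rw [Finset.sum_insert ha, Finset.prod_insert ha]
    have h1 : 0 ≤ ∑ i ∈ s, f i := Finset.sum_nonneg (fun i _ => hf i)
    have h2 := hf a
    nlinarith [mul_nonneg h2 h1]

private theorem pot_tr {H : Matrix ι ι ℝ} (hH : H.IsHermitian) : H.trace = ∑ i, hH.eigenvalues i := by
  have h := hH.trace_eq_sum_eigenvalues
  simpa using h

/-- `1 ≤ 1 + tr H / v² ≤ det (1 + H / v²)`. -/
theorem one_add_trace_le_det {v : ℝ} (hv : 0 < v) {H : Matrix ι ι ℝ} (hH : H.PosSemidef) :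
    1 + H.trace / v ^ 2 ≤ (1 + (v ^ 2)⁻¹ • H).det := by
  have hc : 0 ≤ (v ^ 2)⁻¹ := by positivity
  rw [pot_det hH.isHermitian, pot_tr hH.isHermitian, div_eq_inv_mul, Finset.mul_sum]
  exact pot_prod _ _ (fun i => mul_nonneg hc (hH.eigenvalues_nonneg i))

private theorem pot_eq_sum {v : ℝ} (hv : 0 < v) {H : Matrix ι ι ℝ} (hH : H.PosSemidef) :
    pot v H = ∑ i, ell v (hH.isHermitian.eigenvalues i) := by
  have hc : 0 ≤ (v ^ 2)⁻¹ := by positivity
  unfold pot ell
  rw [pot_det hH.isHermitian, pot_tr hH.isHermitian, Real.log_prod, Finset.mul_sum, ← Finset.sum_sub_distrib]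
  · refine Finset.sum_congr rfl (fun i _ => ?_)
    rw [div_eq_inv_mul]
  · intro i _
    have := mul_nonneg hc (hH.eigenvalues_nonneg i)
    positivity

/-- `pot v H = ∑ ell v (eigenvalues) ≥ 0`. -/
theorem pot_nonneg {v : ℝ} (hv : 0 < v) {H : Matrix ι ι ℝ} (hH : H.PosSemidef) : 0 ≤ pot v H := by
  rw [pot_eq_sum hv hH]
  exact Finset.sum_nonneg (fun i _ => ell_nonneg hv (hH.eigenvalues_nonneg i))

/-- by `one_add_trace_le_det` -/
theorem pot_le_ell_trace {v : ℝ} (hv : 0 < v) {H : Matrix ι ι ℝ} (hH : H.PosSemidef) :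
    pot v H ≤ ell v H.trace := by
  unfold pot ell
  have h0 : 0 ≤ H.trace := hH.trace_nonneg
  have h1 : 0 < 1 + H.trace / v ^ 2 := by positivity
  have h2 := Real.log_le_log h1 (one_add_trace_le_det hv hH)
  have h3 : 0 ≤ v ^ 2 := by positivity
  nlinarith [mul_le_mul_of_nonneg_left h2 h3]

/-- `pot v (A B) = pot v (B A)` (`Matrix.det_one_add_mul_comm`, `Matrix.trace_mul_comm`). -/
theorem pot_mul_comm (v : ℝ) (A : Matrix ι κ ℝ) (B : Matrix κ ι ℝ) :
    pot v (A * B) = pot v (B * A) := by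
  unfold pot
  rw [Matrix.trace_mul_comm, ← Matrix.smul_mul, Matrix.det_one_add_mul_comm, Matrix.mul_smul]

theorem pot_reindex (v : ℝ) (e : ι ≃ κ) (H : Matrix ι ι ℝ) : pot v (H.submatrix e.symm e.symm) = pot v H := by
  unfold pot
  have h1 : (H.submatrix e.symm e.symm).trace = H.trace := by
    unfold Matrix.trace
    exact Fintype.sum_equiv e.symm _ _ (fun _ => rfl)
  have h2 : (1 + (v ^ 2)⁻¹ • H.submatrix e.symm e.symm) = (1 + (v ^ 2)⁻¹ • H).submatrix e.symm e.symm := by
    rw [Matrix.submatrix_add, Matrix.submatrix_smul, Pi.add_apply, Pi.smul_apply]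
    congr 1
    exact (Matrix.submatrix_one_equiv e.symm).symm
  rw [h1, h2, Matrix.det_submatrix_equiv_self]

/-- the integral in `v` of `pot` is finite, `≤ (π/3) (tr H)^{3/2}`. -/
theorem pot_integral_le {H : Matrix ι ι ℝ} (hH : H.PosSemidef) :
    IntegrableOn (fun v => pot v H) (Ioi 0) ∧
      ∫ v in Ioi (0 : ℝ), pot v H ≤ Real.pi / 3 * H.trace ^ (3 / 2 : ℝ) := by
  have h1 : IntegrableOn (fun v => ∑ i, ell v (hH.isHermitian.eigenvalues i)) (Ioi 0) := by
    refine integrable_finset_sum _ (fun i _ => ?_)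
    exact (ell_integral (hH.eigenvalues_nonneg i)).1
  have h2 : IntegrableOn (fun v => pot v H) (Ioi 0) := by
    refine h1.congr_fun (fun v hv => ?_) measurableSet_Ioi
    exact (pot_eq_sum hv hH).symm
  refine ⟨h2, ?_⟩
  obtain ⟨h3, h4⟩ := ell_integral (x := H.trace) hH.trace_nonneg
  rw [← h4]
  exact setIntegral_mono_on h2 h3 measurableSet_Ioi (fun v hv => pot_le_ell_trace hv hH)

end Crest.Agent.TH
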