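import Crest.Agent.TH_Res

/-! # TH_Push (task TH-M2): `A f_B Aᵀ ≤ v² h_C` -/

set_option autoImplicit false
open Matrix MeasureTheory Set

namespace Crest.Agent.TH
variable {ι κ : Type*} [Fintype ι] [DecidableEq ι] [Fintype κ] [DecidableEq κ]

/-- antitonicity of the inverse on positive definite matrices:
`N⁻¹ - N'⁻¹ = N'⁻¹ D N'⁻¹ + N'⁻¹ D N⁻¹ D N'⁻¹`, `D = N' - N`. -/
private theorem push_inv_anti {N N' : Matrix ι ι ℝ} (hN : N.PosDef) (hN' : N'.PosDef)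
    (hD : (N' - N).PosSemidef) : (N⁻¹ - N'⁻¹).PosSemidef := by
  have hu : IsUnit N.det := (Matrix.isUnit_iff_isUnit_det _).1 hN.isUnit
  have hu' : IsUnit N'.det := (Matrix.isUnit_iff_isUnit_det _).1 hN'.isUnit
  have e1 : N⁻¹ - N'⁻¹ = N'⁻¹ * (N' - N) * N⁻¹ := by
    rw [Matrix.mul_sub, Matrix.sub_mul, Matrix.nonsing_inv_mul _ hu', Matrix.one_mul,
      Matrix.mul_assoc, Matrix.mul_nonsing_inv _ hu, Matrix.mul_one]
  have e2 : N⁻¹ = N'⁻¹ + N⁻¹ * (N' - N) * N'⁻¹ := by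
    rw [Matrix.mul_sub, Matrix.sub_mul, Matrix.nonsing_inv_mul _ hu, Matrix.one_mul,
      Matrix.mul_assoc, Matrix.mul_nonsing_inv _ hu', Matrix.mul_one]
    abel
  have ht : (N'⁻¹)ᴴ = N'⁻¹ := hN'.inv.isHermitian
  have hDt : (N' - N)ᴴ = N' - N := hD.isHermitian
  have e3 : N⁻¹ - N'⁻¹ = (N'⁻¹)ᴴ * (N' - N) * N'⁻¹ +
      ((N' - N) * N'⁻¹)ᴴ * N⁻¹ * ((N' - N) * N'⁻¹) := by
    rw [e1]
    conv_lhs => rw [e2]
    rw [Matrix.conjTranspose_mul, ht, hDt, Matrix.mul_add]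
    simp only [Matrix.mul_assoc]
  rw [e3]
  exact (hD.conjTranspose_mul_mul_same _).add (hN.inv.posSemidef.conjTranspose_mul_mul_same _)

/-- `fop` is antitone: `B ≤ B'` gives `fop v B' ≤ fop v B` (antitonicity of the inverse on positive
definite matrices). -/
theorem fop_anti {v : ℝ} (hv : 0 < v) {B B' : Matrix ι ι ℝ} (hB : B.PosSemidef)
    (hBB : (B' - B).PosSemidef) : (fop v B - fop v B').PosSemidef := by
  have hB' : B'.PosSemidef := by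
    have h := hB.add hBB
    rwa [add_sub_cancel] at h
  have hN : (v ^ 2 • (1 : Matrix ι ι ℝ) + B).PosDef := posDef_add hv hB
  have hN' : (v ^ 2 • (1 : Matrix ι ι ℝ) + B').PosDef := posDef_add hv hB'
  have h1 := push_inv_anti hN hN' (by
    have e : v ^ 2 • (1 : Matrix ι ι ℝ) + B' - (v ^ 2 • (1 : Matrix ι ι ℝ) + B) = B' - B := by
      abel
    rw [e]
    exact hBB)
  unfold fop
  rw [← smul_sub]
  exact h1.smul (sq_nonneg v)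

/-- `hop` is monotone (`hop = 1 - fop`). -/
theorem hop_mono {v : ℝ} (hv : 0 < v) {B B' : Matrix ι ι ℝ} (hB : B.PosSemidef)
    (hBB : (B' - B).PosSemidef) : (hop v B' - hop v B).PosSemidef := by
  have hB' : B'.PosSemidef := by
    have h := hB.add hBB
    rwa [add_sub_cancel] at h
  have h1 := hop_add_fop hv hB
  have h2 := hop_add_fop hv hB'
  have e : hop v B' - hop v B = fop v B - fop v B' := by
    rw [eq_sub_of_add_eq h1, eq_sub_of_add_eq h2]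
    abel
  rw [e]
  exact fop_anti hv hB hBB

/-- push-through: `A (v² + AᵀA)⁻¹ Aᵀ = A Aᵀ (v² + A Aᵀ)⁻¹`, i.e. `A f_{AᵀA} Aᵀ = v² h_{AAᵀ}`. -/
theorem push_eq {v : ℝ} (hv : 0 < v) (A : Matrix κ ι ℝ) :
    A * fop v (Aᵀ * A) * Aᵀ = v ^ 2 • hop v (A * Aᵀ) := by
  have h1 : (v ^ 2 • (1 : Matrix ι ι ℝ) + Aᵀ * A).PosDef :=
    posDef_add hv (by simpa using Matrix.posSemidef_conjTranspose_mul_self A)
  have h2 : (v ^ 2 • (1 : Matrix κ κ ℝ) + A * Aᵀ).PosDef :=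
    posDef_add hv (by simpa using Matrix.posSemidef_self_mul_conjTranspose A)
  have hu1 : IsUnit (v ^ 2 • (1 : Matrix ι ι ℝ) + Aᵀ * A).det :=
    (Matrix.isUnit_iff_isUnit_det _).1 h1.isUnit
  have hu2 : IsUnit (v ^ 2 • (1 : Matrix κ κ ℝ) + A * Aᵀ).det :=
    (Matrix.isUnit_iff_isUnit_det _).1 h2.isUnit
  have e1 : Aᵀ * (v ^ 2 • (1 : Matrix κ κ ℝ) + A * Aᵀ) =
      (v ^ 2 • (1 : Matrix ι ι ℝ) + Aᵀ * A) * Aᵀ := by
    rw [Matrix.mul_add, Matrix.add_mul, Matrix.mul_smul, Matrix.smul_mul, Matrix.mul_one,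
      Matrix.one_mul, Matrix.mul_assoc]
  have e2 : (v ^ 2 • (1 : Matrix ι ι ℝ) + Aᵀ * A)⁻¹ * Aᵀ =
      Aᵀ * (v ^ 2 • (1 : Matrix κ κ ℝ) + A * Aᵀ)⁻¹ := by
    calc (v ^ 2 • (1 : Matrix ι ι ℝ) + Aᵀ * A)⁻¹ * Aᵀ
        = (v ^ 2 • (1 : Matrix ι ι ℝ) + Aᵀ * A)⁻¹ * (Aᵀ *
            ((v ^ 2 • (1 : Matrix κ κ ℝ) + A * Aᵀ) *
              (v ^ 2 • (1 : Matrix κ κ ℝ) + A * Aᵀ)⁻¹)) := by
          rw [Matrix.mul_nonsing_inv _ hu2, Matrix.mul_one]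
      _ = (v ^ 2 • (1 : Matrix ι ι ℝ) + Aᵀ * A)⁻¹ * ((Aᵀ *
            (v ^ 2 • (1 : Matrix κ κ ℝ) + A * Aᵀ)) *
              (v ^ 2 • (1 : Matrix κ κ ℝ) + A * Aᵀ)⁻¹) := by
          rw [Matrix.mul_assoc Aᵀ]
      _ = (v ^ 2 • (1 : Matrix ι ι ℝ) + Aᵀ * A)⁻¹ * ((v ^ 2 • (1 : Matrix ι ι ℝ) + Aᵀ * A) *
            (Aᵀ * (v ^ 2 • (1 : Matrix κ κ ℝ) + A * Aᵀ)⁻¹)) := by
          rw [e1, Matrix.mul_assoc (v ^ 2 • (1 : Matrix ι ι ℝ) + Aᵀ * A)]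
      _ = Aᵀ * (v ^ 2 • (1 : Matrix κ κ ℝ) + A * Aᵀ)⁻¹ := by
          rw [← Matrix.mul_assoc, Matrix.nonsing_inv_mul _ hu1, Matrix.one_mul]
  unfold fop hop
  rw [Matrix.mul_smul, Matrix.smul_mul, Matrix.mul_assoc, e2, Matrix.mul_assoc]

/-- if `AᵀA ≤ B` and `A Aᵀ ≤ C` then `A f_B Aᵀ ≤ v² h_C`:
`A f_B Aᵀ ≤ A f_{AᵀA} Aᵀ = v² h_{AAᵀ} ≤ v² h_C`. -/
theorem push_le {v : ℝ} (hv : 0 < v) (A : Matrix κ ι ℝ) {B : Matrix ι ι ℝ} {C : Matrix κ κ ℝ}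
    (hB : (B - Aᵀ * A).PosSemidef) (hC : (C - A * Aᵀ).PosSemidef) :
    (v ^ 2 • hop v C - A * fop v B * Aᵀ).PosSemidef := by
  have h1 : (Aᵀ * A).PosSemidef := by simpa using Matrix.posSemidef_conjTranspose_mul_self A
  have h2 : (A * Aᵀ).PosSemidef := by simpa using Matrix.posSemidef_self_mul_conjTranspose A
  have h3 := fop_anti hv h1 hB
  have h4 := hop_mono hv h2 hC
  have e : v ^ 2 • hop v C - A * fop v B * Aᵀ =
      v ^ 2 • (hop v C - hop v (A * Aᵀ)) + A * (fop v (Aᵀ * A) - fop v B) * Aᴴ := by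
    rw [Matrix.conjTranspose_eq_transpose_of_trivial, Matrix.mul_sub, Matrix.sub_mul, push_eq hv,
      smul_sub]
    abel
  rw [e]
  exact (h4.smul (sq_nonneg v)).add (h3.mul_mul_conjTranspose_same A)

end Crest.Agent.TH
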