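import Crest.Agent.TH_Defs

/-! # TH_Res (task TH-M1): elementary facts on `hop`, `fop` for positive semidefinite `H`, `v > 0` -/

set_option autoImplicit false
open Matrix MeasureTheory Set

namespace Crest.Agent.TH
variable {ι : Type*} [Fintype ι] [DecidableEq ι]

theorem posDef_add {v : ℝ} (hv : 0 < v) {H : Matrix ι ι ℝ} (hH : H.PosSemidef) :
    (v ^ 2 • (1 : Matrix ι ι ℝ) + H).PosDef := by
  have h1 : (v ^ 2 • (1 : Matrix ι ι ℝ)).PosDef := by
    have h2 : (1 : Matrix ι ι ℝ).PosDef := Matrix.PosDef.one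
    exact h2.smul (by positivity)
  exact h1.add_posSemidef hH

private theorem Res_mul_inv {v : ℝ} (hv : 0 < v) {H : Matrix ι ι ℝ} (hH : H.PosSemidef) :
    (v ^ 2 • (1 : Matrix ι ι ℝ) + H) * (v ^ 2 • (1 : Matrix ι ι ℝ) + H)⁻¹ = 1 := by
  have h := (posDef_add hv hH).isUnit
  exact Matrix.mul_nonsing_inv _ ((Matrix.isUnit_iff_isUnit_det _).1 h)

private theorem Res_inv_mul {v : ℝ} (hv : 0 < v) {H : Matrix ι ι ℝ} (hH : H.PosSemidef) :
    (v ^ 2 • (1 : Matrix ι ι ℝ) + H)⁻¹ * (v ^ 2 • (1 : Matrix ι ι ℝ) + H) = 1 := by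
  have h := (posDef_add hv hH).isUnit
  exact Matrix.nonsing_inv_mul _ ((Matrix.isUnit_iff_isUnit_det _).1 h)

theorem hop_add_fop {v : ℝ} (hv : 0 < v) {H : Matrix ι ι ℝ} (hH : H.PosSemidef) :
    hop v H + fop v H = 1 := by
  have h := Res_mul_inv hv hH
  rw [add_mul, smul_mul_assoc, one_mul] at h
  unfold hop fop
  rw [add_comm]
  exact h

private theorem Res_inv_comm {v : ℝ} (hv : 0 < v) {H : Matrix ι ι ℝ} (hH : H.PosSemidef) :
    H * (v ^ 2 • (1 : Matrix ι ι ℝ) + H)⁻¹ = (v ^ 2 • (1 : Matrix ι ι ℝ) + H)⁻¹ * H := by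
  have h := Res_mul_inv hv hH
  have h' := Res_inv_mul hv hH
  rw [add_mul, smul_mul_assoc, one_mul] at h
  rw [mul_add, mul_smul_comm, mul_one] at h'
  have h2 := h.trans h'.symm
  exact add_left_cancel h2

private theorem Res_inv_transpose {v : ℝ} (hv : 0 < v) {H : Matrix ι ι ℝ} (hH : H.PosSemidef) :
    ((v ^ 2 • (1 : Matrix ι ι ℝ) + H)⁻¹)ᴴ = (v ^ 2 • (1 : Matrix ι ι ℝ) + H)⁻¹ :=
  (posDef_add hv hH).inv.isHermitian

private theorem Res_conj {X : Matrix ι ι ℝ} (hX : X.PosSemidef) {B : Matrix ι ι ℝ} (hB : Bᴴ = B) :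
    (B * X * B).PosSemidef := by
  have h := hX.conjTranspose_mul_mul_same B
  rwa [hB] at h

private theorem Res_sq {B : Matrix ι ι ℝ} (hB : Bᴴ = B) : (B * B).PosSemidef := by
  have h := Matrix.posSemidef_conjTranspose_mul_self B
  rwa [hB] at h

theorem hop_posSemidef {v : ℝ} (hv : 0 < v) {H : Matrix ι ι ℝ} (hH : H.PosSemidef) :
    (hop v H).PosSemidef := by
  have e : hop v H = (v ^ 2 • (1 : Matrix ι ι ℝ) + H)⁻¹ * (v ^ 2 • H + H * H) *
      (v ^ 2 • (1 : Matrix ι ι ℝ) + H)⁻¹ := by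
    have e1 : v ^ 2 • H + H * H = (v ^ 2 • (1 : Matrix ι ι ℝ) + H) * H := by
      rw [add_mul, smul_mul_assoc, one_mul]
    rw [e1, ← mul_assoc, Res_inv_mul hv hH, one_mul]
    rfl
  rw [e]
  apply Res_conj _ (Res_inv_transpose hv hH)
  exact (hH.smul (by positivity)).add (Res_sq hH.isHermitian)

theorem fop_posSemidef {v : ℝ} (hv : 0 < v) {H : Matrix ι ι ℝ} (hH : H.PosSemidef) :
    (fop v H).PosSemidef := by
  unfold fop
  exact ((posDef_add hv hH).inv.posSemidef).smul (by positivity)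

private theorem Res_hop_eq {v : ℝ} (hv : 0 < v) {H : Matrix ι ι ℝ} (hH : H.PosSemidef) :
    hop v H = 1 - fop v H := by
  rw [← hop_add_fop hv hH]; abel

private theorem Res_fop_eq {v : ℝ} (hv : 0 < v) {H : Matrix ι ι ℝ} (hH : H.PosSemidef) :
    fop v H = 1 - hop v H := by
  rw [← hop_add_fop hv hH]; abel

/-- `1 - hop = fop` and `1 - fop = hop` are positive semidefinite -/
theorem one_sub_hop_posSemidef {v : ℝ} (hv : 0 < v) {H : Matrix ι ι ℝ} (hH : H.PosSemidef) :
    (1 - hop v H).PosSemidef := by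
  rw [← Res_fop_eq hv hH]
  exact fop_posSemidef hv hH

theorem one_sub_fop_posSemidef {v : ℝ} (hv : 0 < v) {H : Matrix ι ι ℝ} (hH : H.PosSemidef) :
    (1 - fop v H).PosSemidef := by
  rw [← Res_hop_eq hv hH]
  exact hop_posSemidef hv hH

theorem hop_mul_fop_comm {v : ℝ} (hv : 0 < v) {H : Matrix ι ι ℝ} (hH : H.PosSemidef) :
    hop v H * fop v H = fop v H * hop v H := by
  rw [Res_hop_eq hv hH]
  noncomm_ring

/-- products of commuting positive semidefinite matrices: all the ones we need -/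
theorem hop_mul_fop_posSemidef {v : ℝ} (hv : 0 < v) {H : Matrix ι ι ℝ} (hH : H.PosSemidef) :
    (hop v H * fop v H).PosSemidef := by
  have e : hop v H * fop v H = v ^ 2 • ((v ^ 2 • (1 : Matrix ι ι ℝ) + H)⁻¹ * H *
      (v ^ 2 • (1 : Matrix ι ι ℝ) + H)⁻¹) := by
    unfold hop fop
    rw [mul_smul_comm, Res_inv_comm hv hH]
  rw [e]
  exact (Res_conj hH (Res_inv_transpose hv hH)).smul (by positivity)

theorem hop_hop_fop_posSemidef {v : ℝ} (hv : 0 < v) {H : Matrix ι ι ℝ} (hH : H.PosSemidef) :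
    (hop v H * hop v H * fop v H).PosSemidef := by
  have e : hop v H * hop v H * fop v H = hop v H * fop v H * hop v H := by
    rw [mul_assoc, hop_mul_fop_comm hv hH, ← mul_assoc, hop_mul_fop_comm hv hH]
  rw [e]
  exact Res_conj (fop_posSemidef hv hH) (hop_posSemidef hv hH).isHermitian

theorem hop_fop_fop_posSemidef {v : ℝ} (hv : 0 < v) {H : Matrix ι ι ℝ} (hH : H.PosSemidef) :
    (hop v H * fop v H * fop v H).PosSemidef := by
  rw [hop_mul_fop_comm hv hH]
  exact Res_conj (hop_posSemidef hv hH) (fop_posSemidef hv hH).isHermitian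

private theorem Res_hop_sq {v : ℝ} (hv : 0 < v) {H : Matrix ι ι ℝ} (hH : H.PosSemidef) :
    hop v H - hop v H * fop v H = hop v H * hop v H := by
  rw [Res_fop_eq hv hH]
  noncomm_ring

/-- `h - h f` is positive semidefinite (it is `h²`). -/
theorem hop_sub_hop_fop_posSemidef {v : ℝ} (hv : 0 < v) {H : Matrix ι ι ℝ} (hH : H.PosSemidef) :
    (hop v H - hop v H * fop v H).PosSemidef := by
  rw [Res_hop_sq hv hH]
  exact Res_sq (hop_posSemidef hv hH).isHermitian

/-- `h - h f f` is positive semidefinite. -/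
theorem hop_sub_hop_fop_fop_posSemidef {v : ℝ} (hv : 0 < v) {H : Matrix ι ι ℝ} (hH : H.PosSemidef) :
    (hop v H - hop v H * fop v H * fop v H).PosSemidef := by
  have e : hop v H - hop v H * fop v H * fop v H =
      hop v H * hop v H + hop v H * hop v H * fop v H := by
    rw [Res_fop_eq hv hH]
    noncomm_ring
  rw [e]
  exact (Res_sq (hop_posSemidef hv hH).isHermitian).add (hop_hop_fop_posSemidef hv hH)

theorem fop_sub_fop_sq_posSemidef {v : ℝ} (hv : 0 < v) {H : Matrix ι ι ℝ} (hH : H.PosSemidef) :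
    (fop v H - fop v H * fop v H).PosSemidef := by
  have e : fop v H - fop v H * fop v H = hop v H * fop v H := by
    rw [Res_hop_eq hv hH]
    noncomm_ring
  rw [e]
  exact hop_mul_fop_posSemidef hv hH

theorem hop_transpose {v : ℝ} (hv : 0 < v) {H : Matrix ι ι ℝ} (hH : H.PosSemidef) :
    (hop v H)ᵀ = hop v H := by
  have h := (hop_posSemidef hv hH).isHermitian
  rw [Matrix.IsHermitian, Matrix.conjTranspose_eq_transpose_of_trivial] at h
  exact h

theorem fop_transpose {v : ℝ} (hv : 0 < v) {H : Matrix ι ι ℝ} (hH : H.PosSemidef) :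
    (fop v H)ᵀ = fop v H := by
  have h := (fop_posSemidef hv hH).isHermitian
  rw [Matrix.IsHermitian, Matrix.conjTranspose_eq_transpose_of_trivial] at h
  exact h

end Crest.Agent.TH
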