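import Crest.Agent.TH_Defs

/-! # TH_Tr (task TH-M3): trace inequalities -/

set_option autoImplicit false
open Matrix MeasureTheory Set

namespace Crest.Agent.TH
variable {ι κ : Type*} [Fintype ι] [DecidableEq ι] [Fintype κ] [DecidableEq κ]

open scoped MatrixOrder in
private theorem tr_sqrt {Y : Matrix ι ι ℝ} (hY : Y.PosSemidef) : ∃ B : Matrix ι ι ℝ, Y = Bᵀ * B := by
  obtain ⟨B, hB⟩ := CStarAlgebra.nonneg_iff_eq_star_mul_self.mp hY.nonneg
  refine ⟨B, ?_⟩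
  rw [hB, star_eq_conjTranspose, conjTranspose_eq_transpose_of_trivial]

theorem trace_mul_nonneg {X Y : Matrix ι ι ℝ} (hX : X.PosSemidef) (hY : Y.PosSemidef) :
    0 ≤ (X * Y).trace := by
  obtain ⟨B, rfl⟩ := tr_sqrt hY
  have h := (hX.mul_mul_conjTranspose_same B).trace_nonneg
  rw [conjTranspose_eq_transpose_of_trivial] at h
  rwa [← mul_assoc, trace_mul_comm, ← mul_assoc]

/-- for symmetric `S` and psd `X, Y`: `0 ≤ tr (S X S Y)`. -/
theorem trace_SXSY_nonneg {S X Y : Matrix ι ι ℝ} (hS : Sᵀ = S) (hX : X.PosSemidef)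
    (hY : Y.PosSemidef) : 0 ≤ (S * X * S * Y).trace := by
  have h := hX.mul_mul_conjTranspose_same S
  rw [conjTranspose_eq_transpose_of_trivial, hS] at h
  exact trace_mul_nonneg h hY

/-- monotonicity: `X ≤ X'`, `Y ≤ Y'` (all psd) give `tr (S X S Y) ≤ tr (S X' S Y')`. -/
theorem trace_SXSY_mono {S X X' Y Y' : Matrix ι ι ℝ} (hS : Sᵀ = S) (hX : X.PosSemidef)
    (hY : Y.PosSemidef) (hXX : (X' - X).PosSemidef) (hYY : (Y' - Y).PosSemidef) :
    (S * X * S * Y).trace ≤ (S * X' * S * Y').trace := by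
  have hY' : Y'.PosSemidef := by
    have := hY.add hYY
    rwa [add_sub_cancel] at this
  have h1 := trace_SXSY_nonneg hS hXX hY'
  have h2 := trace_SXSY_nonneg hS hX hYY
  have e1 : S * (X' - X) * S * Y' = S * X' * S * Y' - S * X * S * Y' := by
    rw [mul_sub, sub_mul, sub_mul]
  have e2 : S * X * S * (Y' - Y) = S * X * S * Y' - S * X * S * Y := by
    rw [mul_sub]
  rw [e1, trace_sub] at h1
  rw [e2, trace_sub] at h2
  linarith

/-- rectangular monotonicity: `X ≤ X'` gives `tr (Z X Zᵀ) ≤ tr (Z X' Zᵀ)`. -/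
theorem trace_conj_mono (Z : Matrix κ ι ℝ) {X X' : Matrix ι ι ℝ} (hXX : (X' - X).PosSemidef) :
    (Z * X * Zᵀ).trace ≤ (Z * X' * Zᵀ).trace := by
  have h := (hXX.mul_mul_conjTranspose_same Z).trace_nonneg
  rw [conjTranspose_eq_transpose_of_trivial, Matrix.mul_sub, Matrix.sub_mul, trace_sub] at h
  linarith

/-- Cauchy–Schwarz with a psd weight: `tr (X P Y)² ≤ tr (X P Xᵀ) tr (Yᵀ P Y)`. -/
theorem trace_cs {P : Matrix ι ι ℝ} (hP : P.PosSemidef) (X : Matrix κ ι ℝ) (Y : Matrix ι κ ℝ) :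
    (X * P * Y).trace ^ 2 ≤ (X * P * Xᵀ).trace * (Yᵀ * P * Y).trace := by
  obtain ⟨B, rfl⟩ := tr_sqrt hP
  set U : Matrix ι κ ℝ := B * Xᵀ with hU
  set V : Matrix ι κ ℝ := B * Y with hV
  have e1 : X * (Bᵀ * B) * Y = Uᵀ * V := by
    rw [hU, hV, transpose_mul, transpose_transpose]
    simp only [Matrix.mul_assoc]
  have e2 : X * (Bᵀ * B) * Xᵀ = Uᵀ * U := by
    rw [hU, transpose_mul, transpose_transpose]
    simp only [Matrix.mul_assoc]
  have e3 : Yᵀ * (Bᵀ * B) * Y = Vᵀ * V := by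
    rw [hV, transpose_mul]
    simp only [Matrix.mul_assoc]
  have tr : ∀ A C : Matrix ι κ ℝ, (Aᵀ * C).trace = ∑ x : κ × ι, A x.2 x.1 * C x.2 x.1 := by
    intro A C
    rw [Fintype.sum_prod_type]
    rfl
  rw [e1, e2, e3, tr, tr, tr]
  have h := Finset.sum_mul_sq_le_sq_mul_sq Finset.univ (fun x : κ × ι => U x.2 x.1)
    (fun x : κ × ι => V x.2 x.1)
  simp only [sq] at h ⊢
  exact h

/-- a diagonal matrix with entries bounded by `B`: `tr (b Q b) ≤ B² tr Q` for psd `Q`. -/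
theorem trace_diag_bound {Q : Matrix ι ι ℝ} (hQ : Q.PosSemidef) {b : ι → ℝ} {B : ℝ}
    (hb : ∀ k, |b k| ≤ B) : (diagonal b * Q * diagonal b).trace ≤ B ^ 2 * Q.trace := by
  unfold Matrix.trace
  rw [Finset.mul_sum]
  refine Finset.sum_le_sum fun i _ => ?_
  rw [diag_apply, diag_apply, mul_diagonal, diagonal_mul]
  have h1 : b i ^ 2 ≤ B ^ 2 := sq_le_sq' (by linarith [neg_le_of_abs_le (hb i)])
    ((le_abs_self _).trans (hb i))
  calc b i * Q i i * b i = b i ^ 2 * Q i i := by ring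
    _ ≤ B ^ 2 * Q i i := mul_le_mul_of_nonneg_right h1 hQ.diag_nonneg

end Crest.Agent.TH
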