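import Crest.Agent.TH_CDefs
import Crest.Agent.TH_Res
import Crest.Agent.TH_Push
import Crest.Agent.TH_Tr
import Crest.Agent.TH_Pot

/-! # TH_MC1 (task TH-MC1): algebra of `Mmat`, `Wmat`, `qf`

Throughout `v > 0`, `w₁ > 0` entrywise, `K` positive semidefinite.  With `D = diag √w₁` and `H = D K D`:
`D M D = hop v H`, `𝒲 = D (v² + H)⁻¹ D`, `v² S = 1 - W₁ M = 1 - 𝒲 K` for `S = (v² + W₁ K)⁻¹`. -/

set_option autoImplicit false
open Matrix MeasureTheory Set Filter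
open scoped Topology

namespace Crest.Agent.TH
variable {ι : Type*} [Fintype ι] [DecidableEq ι]

section MC1aux

variable {v : ℝ} {w₁ : ι → ℝ} {K : Matrix ι ι ℝ}

private noncomputable abbrev mD (w₁ : ι → ℝ) : Matrix ι ι ℝ := diagonal (fun k => Real.sqrt (w₁ k))

private noncomputable abbrev mE (w₁ : ι → ℝ) : Matrix ι ι ℝ := diagonal (fun k => (Real.sqrt (w₁ k))⁻¹)

private theorem m_DE (hw : ∀ k, 0 < w₁ k) : mD w₁ * mE w₁ = 1 := by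
  rw [Matrix.diagonal_mul_diagonal, ← Matrix.diagonal_one]
  congr 1
  funext k
  exact mul_inv_cancel₀ (Real.sqrt_pos.2 (hw k)).ne'

private theorem m_ED (hw : ∀ k, 0 < w₁ k) : mE w₁ * mD w₁ = 1 := by
  rw [Matrix.diagonal_mul_diagonal, ← Matrix.diagonal_one]
  congr 1
  funext k
  exact inv_mul_cancel₀ (Real.sqrt_pos.2 (hw k)).ne'

private theorem m_DD (hw : ∀ k, 0 < w₁ k) : mD w₁ * mD w₁ = diagonal w₁ := by
  rw [Matrix.diagonal_mul_diagonal]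
  congr 1
  funext k
  exact Real.mul_self_sqrt (hw k).le

private theorem m_DH : (mD w₁)ᴴ = mD w₁ := by
  rw [Matrix.conjTranspose_eq_transpose_of_trivial, Matrix.diagonal_transpose]

private theorem m_EH : (mE w₁)ᴴ = mE w₁ := by
  rw [Matrix.conjTranspose_eq_transpose_of_trivial, Matrix.diagonal_transpose]

private theorem m_conj {X : Matrix ι ι ℝ} (hX : X.PosSemidef) {B : Matrix ι ι ℝ} (hB : Bᴴ = B) :
    (B * X * B).PosSemidef := by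
  have h := hX.conjTranspose_mul_mul_same B
  rwa [hB] at h

private theorem m_H (hK : K.PosSemidef) : (mD w₁ * K * mD w₁).PosSemidef := m_conj hK m_DH

private theorem m_A (hw : ∀ k, 0 < w₁ k) :
    v ^ 2 • (1 : Matrix ι ι ℝ) + diagonal w₁ * K =
      mD w₁ * (v ^ 2 • (1 : Matrix ι ι ℝ) + mD w₁ * K * mD w₁) * mE w₁ := by
  have h1 : mD w₁ * (mD w₁ * K * mD w₁) * mE w₁ = diagonal w₁ * K := by
    rw [← m_DD hw]
    calc mD w₁ * (mD w₁ * K * mD w₁) * mE w₁ = mD w₁ * mD w₁ * K * (mD w₁ * mE w₁) := by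
          simp only [Matrix.mul_assoc]
      _ = mD w₁ * mD w₁ * K := by rw [m_DE hw, Matrix.mul_one]
  rw [Matrix.mul_add, Matrix.add_mul, h1, Matrix.mul_smul, Matrix.mul_one, Matrix.smul_mul,
    m_DE hw]

private theorem m_N (hv : 0 < v) (hK : K.PosSemidef) :
    (v ^ 2 • (1 : Matrix ι ι ℝ) + mD w₁ * K * mD w₁).PosDef := posDef_add hv (m_H hK)

private theorem m_NN (hv : 0 < v) (hK : K.PosSemidef) :
    (v ^ 2 • (1 : Matrix ι ι ℝ) + mD w₁ * K * mD w₁) *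
      (v ^ 2 • (1 : Matrix ι ι ℝ) + mD w₁ * K * mD w₁)⁻¹ = 1 :=
  Matrix.mul_nonsing_inv _ ((Matrix.isUnit_iff_isUnit_det _).1 (m_N hv hK).isUnit)

private theorem m_NN' (hv : 0 < v) (hK : K.PosSemidef) :
    (v ^ 2 • (1 : Matrix ι ι ℝ) + mD w₁ * K * mD w₁)⁻¹ *
      (v ^ 2 • (1 : Matrix ι ι ℝ) + mD w₁ * K * mD w₁) = 1 :=
  Matrix.nonsing_inv_mul _ ((Matrix.isUnit_iff_isUnit_det _).1 (m_N hv hK).isUnit)

private theorem m_Ainv (hv : 0 < v) (hw : ∀ k, 0 < w₁ k) (hK : K.PosSemidef) :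
    (v ^ 2 • (1 : Matrix ι ι ℝ) + diagonal w₁ * K)⁻¹ =
      mD w₁ * (v ^ 2 • (1 : Matrix ι ι ℝ) + mD w₁ * K * mD w₁)⁻¹ * mE w₁ := by
  apply Matrix.inv_eq_right_inv
  rw [m_A hw]
  set N := v ^ 2 • (1 : Matrix ι ι ℝ) + mD w₁ * K * mD w₁ with hN
  calc mD w₁ * N * mE w₁ * (mD w₁ * N⁻¹ * mE w₁) =
        mD w₁ * N * (mE w₁ * mD w₁) * N⁻¹ * mE w₁ := by simp only [Matrix.mul_assoc]
    _ = mD w₁ * (N * N⁻¹) * mE w₁ := by rw [m_ED hw, Matrix.mul_one]; simp only [Matrix.mul_assoc]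
    _ = 1 := by rw [hN, m_NN hv hK, Matrix.mul_one, m_DE hw]

private theorem m_isUnit (hv : 0 < v) (hw : ∀ k, 0 < w₁ k) (hK : K.PosSemidef) :
    IsUnit (v ^ 2 • (1 : Matrix ι ι ℝ) + diagonal w₁ * K).det := by
  rw [m_A hw, Matrix.det_mul, Matrix.det_mul]
  have h1 : (mD w₁).det * (mE w₁).det = 1 := by
    rw [← Matrix.det_mul, m_DE hw, Matrix.det_one]
  have h2 := (m_N (w₁ := w₁) hv hK).det_pos
  refine isUnit_iff_ne_zero.2 ?_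
  rw [show ∀ a b c : ℝ, a * b * c = b * (a * c) from fun a b c => by ring, h1, mul_one]
  exact h2.ne'

private theorem m_comm (hv : 0 < v) (hK : K.PosSemidef) :
    (mD w₁ * K * mD w₁) * (v ^ 2 • (1 : Matrix ι ι ℝ) + mD w₁ * K * mD w₁)⁻¹ =
      (v ^ 2 • (1 : Matrix ι ι ℝ) + mD w₁ * K * mD w₁)⁻¹ * (mD w₁ * K * mD w₁) := by
  have h := m_NN (w₁ := w₁) hv hK
  have h' := m_NN' (w₁ := w₁) hv hK
  rw [Matrix.add_mul, Matrix.smul_mul, Matrix.one_mul] at h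
  rw [Matrix.mul_add, Matrix.mul_smul, Matrix.mul_one] at h'
  exact add_left_cancel (h.trans h'.symm)

private theorem m_W (hv : 0 < v) (hw : ∀ k, 0 < w₁ k) (hK : K.PosSemidef) :
    Wmat v w₁ K = mD w₁ * (v ^ 2 • (1 : Matrix ι ι ℝ) + mD w₁ * K * mD w₁)⁻¹ * mD w₁ := by
  unfold Wmat
  rw [m_Ainv hv hw hK, ← m_DD hw]
  calc mD w₁ * (v ^ 2 • (1 : Matrix ι ι ℝ) + mD w₁ * K * mD w₁)⁻¹ * mE w₁ * (mD w₁ * mD w₁) =
        mD w₁ * (v ^ 2 • (1 : Matrix ι ι ℝ) + mD w₁ * K * mD w₁)⁻¹ * (mE w₁ * mD w₁) * mD w₁ := by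
          simp only [Matrix.mul_assoc]
    _ = _ := by rw [m_ED hw, Matrix.mul_one]

private theorem m_back (hw : ∀ k, 0 < w₁ k) (X : Matrix ι ι ℝ) :
    X = mE w₁ * (mD w₁ * X * mD w₁) * mE w₁ := by
  calc X = (mE w₁ * mD w₁) * X * (mD w₁ * mE w₁) := by
        rw [m_ED hw, m_DE hw, Matrix.one_mul, Matrix.mul_one]
    _ = _ := by simp only [Matrix.mul_assoc]

end MC1aux

theorem det_pos_aux {v : ℝ} (hv : 0 < v) {w₁ : ι → ℝ} (hw : ∀ k, 0 < w₁ k) {K : Matrix ι ι ℝ}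
    (hK : K.PosSemidef) : 0 < (v ^ 2 • (1 : Matrix ι ι ℝ) + diagonal w₁ * K).det ∧
      0 < (1 + (v ^ 2)⁻¹ • (diagonal w₁ * K)).det := by
  have h1 : (mD w₁).det * (mE w₁).det = 1 := by
    rw [← Matrix.det_mul, m_DE hw, Matrix.det_one]
  have h2 := (m_N (w₁ := w₁) hv hK).det_pos
  have h3 : 0 < (v ^ 2 • (1 : Matrix ι ι ℝ) + diagonal w₁ * K).det := by
    rw [m_A hw, Matrix.det_mul, Matrix.det_mul,
      show ∀ a b c : ℝ, a * b * c = b * (a * c) from fun a b c => by ring, h1, mul_one]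
    exact h2
  refine ⟨h3, ?_⟩
  have hv2 : v ^ 2 ≠ 0 := by positivity
  have h4 : 1 + (v ^ 2)⁻¹ • (diagonal w₁ * K) =
      (v ^ 2)⁻¹ • (v ^ 2 • (1 : Matrix ι ι ℝ) + diagonal w₁ * K) := by
    rw [smul_add, smul_smul, inv_mul_cancel₀ hv2, one_smul]
  rw [h4, Matrix.det_smul]
  positivity

theorem hop_eq {v : ℝ} (hv : 0 < v) {w₁ : ι → ℝ} (hw : ∀ k, 0 < w₁ k) {K : Matrix ι ι ℝ}
    (hK : K.PosSemidef) :
    diagonal (fun k => Real.sqrt (w₁ k)) * Mmat v w₁ K * diagonal (fun k => Real.sqrt (w₁ k)) =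
      hop v (diagonal (fun k => Real.sqrt (w₁ k)) * K * diagonal (fun k => Real.sqrt (w₁ k))) := by
  unfold Mmat hop
  rw [m_Ainv hv hw hK]
  calc mD w₁ * (K * (mD w₁ * (v ^ 2 • (1 : Matrix ι ι ℝ) + mD w₁ * K * mD w₁)⁻¹ * mE w₁)) * mD w₁ =
        mD w₁ * K * mD w₁ * (v ^ 2 • (1 : Matrix ι ι ℝ) + mD w₁ * K * mD w₁)⁻¹ *
          (mE w₁ * mD w₁) := by simp only [Matrix.mul_assoc]
    _ = _ := by rw [m_ED hw, Matrix.mul_one]

/-- `qf` is `gn` of the normalized matrix, for `φ = b w₁`. -/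
theorem qf_eq_gn {v : ℝ} (hv : 0 < v) {w₁ : ι → ℝ} (hw : ∀ k, 0 < w₁ k) {K : Matrix ι ι ℝ}
    (hK : K.PosSemidef) (φ : ι → ℝ) :
    qf v w₁ φ K =
      gn v (diagonal (fun k => Real.sqrt (w₁ k)) * K * diagonal (fun k => Real.sqrt (w₁ k)))
        (fun k => φ k / w₁ k) := by
  unfold qf gn
  rw [← hop_eq hv hw hK]
  have h1 : diagonal φ = mD w₁ * diagonal (fun k => φ k / w₁ k) * mD w₁ := by
    rw [Matrix.diagonal_mul_diagonal, Matrix.diagonal_mul_diagonal]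
    congr 1
    funext k
    have h2 := Real.mul_self_sqrt (hw k).le
    have h3 := (hw k).ne'
    rw [show Real.sqrt (w₁ k) * (φ k / w₁ k) * Real.sqrt (w₁ k) =
      (Real.sqrt (w₁ k) * Real.sqrt (w₁ k)) * (φ k / w₁ k) by ring, h2]
    field_simp
  rw [h1]
  set b : Matrix ι ι ℝ := diagonal (fun k => φ k / w₁ k) with hb
  set M := Mmat v w₁ K with hM
  calc (mD w₁ * b * mD w₁ * M * (mD w₁ * b * mD w₁) * M).trace =
        (mD w₁ * (b * mD w₁ * M * mD w₁ * b * mD w₁ * M)).trace := by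
          simp only [Matrix.mul_assoc]
    _ = ((b * mD w₁ * M * mD w₁ * b * mD w₁ * M) * mD w₁).trace := Matrix.trace_mul_comm _ _
    _ = _ := by simp only [Matrix.mul_assoc]

theorem pot_eq_sqrt {v : ℝ} {w₁ : ι → ℝ} (hw : ∀ k, 0 < w₁ k) (K : Matrix ι ι ℝ) :
    pot v (diagonal w₁ * K) =
      pot v (diagonal (fun k => Real.sqrt (w₁ k)) * K * diagonal (fun k => Real.sqrt (w₁ k))) := by
  rw [← m_DD hw, Matrix.mul_assoc]
  exact pot_mul_comm v (mD w₁) (mD w₁ * K)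

theorem Mmat_posSemidef {v : ℝ} (hv : 0 < v) {w₁ : ι → ℝ} (hw : ∀ k, 0 < w₁ k) {K : Matrix ι ι ℝ}
    (hK : K.PosSemidef) : (Mmat v w₁ K).PosSemidef := by
  rw [m_back hw (Mmat v w₁ K), hop_eq hv hw hK]
  exact m_conj (hop_posSemidef hv (m_H hK)) m_EH

theorem Wmat_posSemidef {v : ℝ} (hv : 0 < v) {w₁ : ι → ℝ} (hw : ∀ k, 0 < w₁ k) {K : Matrix ι ι ℝ}
    (hK : K.PosSemidef) : (Wmat v w₁ K).PosSemidef := by
  rw [m_W hv hw hK]
  exact m_conj (m_N hv hK).inv.posSemidef m_DH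

/-- `0 ≤ K - v² M` -/
theorem K_sub_Mmat {v : ℝ} (hv : 0 < v) {w₁ : ι → ℝ} (hw : ∀ k, 0 < w₁ k) {K : Matrix ι ι ℝ}
    (hK : K.PosSemidef) : (K - v ^ 2 • Mmat v w₁ K).PosSemidef := by
  rw [m_back hw (K - v ^ 2 • Mmat v w₁ K)]
  refine m_conj ?_ m_EH
  have h1 : mD w₁ * (K - v ^ 2 • Mmat v w₁ K) * mD w₁ =
      (mD w₁ * K * mD w₁) * (v ^ 2 • (1 : Matrix ι ι ℝ) + mD w₁ * K * mD w₁)⁻¹ *
        (mD w₁ * K * mD w₁) := by
    have h2 : mD w₁ * (K - v ^ 2 • Mmat v w₁ K) * mD w₁ =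
        mD w₁ * K * mD w₁ - v ^ 2 • (mD w₁ * Mmat v w₁ K * mD w₁) := by
      rw [Matrix.mul_sub, Matrix.sub_mul, Matrix.mul_smul, Matrix.smul_mul]
    rw [h2, hop_eq hv hw hK]
    unfold hop
    set N := v ^ 2 • (1 : Matrix ι ι ℝ) + mD w₁ * K * mD w₁ with hN
    have h3 : (mD w₁ * K * mD w₁) * N⁻¹ * N = mD w₁ * K * mD w₁ := by
      rw [Matrix.mul_assoc, hN, m_NN' hv hK, Matrix.mul_one]
    have h4 : (mD w₁ * K * mD w₁) * N⁻¹ * N =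
        v ^ 2 • ((mD w₁ * K * mD w₁) * N⁻¹) + (mD w₁ * K * mD w₁) * N⁻¹ * (mD w₁ * K * mD w₁) := by
      conv_lhs => rw [hN]
      rw [Matrix.mul_add, Matrix.mul_smul, Matrix.mul_one]
    rw [h3] at h4
    exact sub_eq_iff_eq_add'.2 h4
  rw [h1]
  exact m_conj (m_N hv hK).inv.posSemidef (m_H hK).isHermitian

/-- `0 ≤ W₁ - v² 𝒲` -/
theorem W_sub_Wmat {v : ℝ} (hv : 0 < v) {w₁ : ι → ℝ} (hw : ∀ k, 0 < w₁ k) {K : Matrix ι ι ℝ}
    (hK : K.PosSemidef) : (diagonal w₁ - v ^ 2 • Wmat v w₁ K).PosSemidef := by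
  have h1 : diagonal w₁ - v ^ 2 • Wmat v w₁ K =
      mD w₁ * (1 - fop v (mD w₁ * K * mD w₁)) * mD w₁ := by
    rw [m_W hv hw hK, ← m_DD hw]
    unfold fop
    rw [Matrix.mul_sub, Matrix.sub_mul, Matrix.mul_one, Matrix.mul_smul, Matrix.smul_mul]
  rw [h1]
  exact m_conj (one_sub_fop_posSemidef hv (m_H hK)) m_DH

/-- `v² S = 1 - W₁ M = 1 - 𝒲 K`. -/
theorem S_eq {v : ℝ} (hv : 0 < v) {w₁ : ι → ℝ} (hw : ∀ k, 0 < w₁ k) {K : Matrix ι ι ℝ}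
    (hK : K.PosSemidef) :
    v ^ 2 • (v ^ 2 • (1 : Matrix ι ι ℝ) + diagonal w₁ * K)⁻¹ = 1 - diagonal w₁ * Mmat v w₁ K ∧
    v ^ 2 • (v ^ 2 • (1 : Matrix ι ι ℝ) + diagonal w₁ * K)⁻¹ = 1 - Wmat v w₁ K * K := by
  have hu := m_isUnit hv hw hK
  have h1 := Matrix.mul_nonsing_inv _ hu
  have h2 := Matrix.nonsing_inv_mul _ hu
  unfold Mmat Wmat
  rw [Matrix.add_mul, Matrix.smul_mul, Matrix.one_mul] at h1
  rw [Matrix.mul_add, Matrix.mul_smul, Matrix.mul_one] at h2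
  refine ⟨?_, ?_⟩
  · rw [← Matrix.mul_assoc]
    exact eq_sub_of_add_eq h1
  · rw [Matrix.mul_assoc]
    exact eq_sub_of_add_eq h2

/-- `S W₁ Sᵀ ≤ v⁻⁴ W₁` (it is `D (v² + H)⁻² D`). -/
theorem SWS_le {v : ℝ} (hv : 0 < v) {w₁ : ι → ℝ} (hw : ∀ k, 0 < w₁ k) {K : Matrix ι ι ℝ}
    (hK : K.PosSemidef) :
    ((v ^ 4)⁻¹ • diagonal w₁ - (v ^ 2 • (1 : Matrix ι ι ℝ) + diagonal w₁ * K)⁻¹ * diagonal w₁ *
      ((v ^ 2 • (1 : Matrix ι ι ℝ) + diagonal w₁ * K)⁻¹)ᵀ).PosSemidef := by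
  have hv4 : v ^ 4 ≠ 0 := by positivity
  have hNT : ((v ^ 2 • (1 : Matrix ι ι ℝ) + mD w₁ * K * mD w₁)⁻¹)ᵀ =
      (v ^ 2 • (1 : Matrix ι ι ℝ) + mD w₁ * K * mD w₁)⁻¹ := by
    have h := (m_N (w₁ := w₁) hv hK).inv.isHermitian
    rw [Matrix.IsHermitian, Matrix.conjTranspose_eq_transpose_of_trivial] at h
    exact h
  have h1 : (v ^ 4)⁻¹ • diagonal w₁ - (v ^ 2 • (1 : Matrix ι ι ℝ) + diagonal w₁ * K)⁻¹ *
      diagonal w₁ * ((v ^ 2 • (1 : Matrix ι ι ℝ) + diagonal w₁ * K)⁻¹)ᵀ =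
      (v ^ 4)⁻¹ • (mD w₁ * ((1 - fop v (mD w₁ * K * mD w₁)) +
        (fop v (mD w₁ * K * mD w₁) - fop v (mD w₁ * K * mD w₁) * fop v (mD w₁ * K * mD w₁))) *
          mD w₁) := by
    rw [m_Ainv hv hw hK, Matrix.transpose_mul, Matrix.transpose_mul, hNT,
      Matrix.diagonal_transpose, Matrix.diagonal_transpose, ← m_DD hw]
    set N := v ^ 2 • (1 : Matrix ι ι ℝ) + mD w₁ * K * mD w₁ with hN
    have h2 : mD w₁ * N⁻¹ * mE w₁ * (mD w₁ * mD w₁) * (mE w₁ * (N⁻¹ * mD w₁)) =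
        mD w₁ * (N⁻¹ * N⁻¹) * mD w₁ := by
      calc mD w₁ * N⁻¹ * mE w₁ * (mD w₁ * mD w₁) * (mE w₁ * (N⁻¹ * mD w₁)) =
            mD w₁ * N⁻¹ * (mE w₁ * mD w₁) * (mD w₁ * mE w₁) * (N⁻¹ * mD w₁) := by
              simp only [Matrix.mul_assoc]
        _ = _ := by
              rw [m_DE hw, m_ED hw, Matrix.mul_one, Matrix.mul_one]
              simp only [Matrix.mul_assoc]
    rw [h2, sub_add_sub_cancel]
    have h3 : fop v (mD w₁ * K * mD w₁) * fop v (mD w₁ * K * mD w₁) = v ^ 4 • (N⁻¹ * N⁻¹) := by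
      unfold fop
      rw [Matrix.smul_mul, Matrix.mul_smul, smul_smul]
      congr 1
      ring
    rw [h3, Matrix.mul_sub, Matrix.sub_mul, Matrix.mul_one, Matrix.mul_smul, Matrix.smul_mul,
      smul_sub, smul_smul, inv_mul_cancel₀ hv4, one_smul]
  rw [h1]
  have hH := m_H (w₁ := w₁) hK
  exact (m_conj ((one_sub_fop_posSemidef hv hH).add (fop_sub_fop_sq_posSemidef hv hH)) m_DH).smul
    (by positivity)

end Crest.Agent.TH
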