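import Crest.Agent.TH_MC1

/-! # TH_MC1b (task TH-MC1b): comparison facts for `Mmat`, `Wmat`, `qf` (see TH_MC1 for the notation) -/

set_option autoImplicit false
open Matrix MeasureTheory Set Filter
open scoped Topology

namespace Crest.Agent.TH
variable {ι : Type*} [Fintype ι] [DecidableEq ι]

open scoped MatrixOrder in
private theorem mc1b_sqrt {Y : Matrix ι ι ℝ} (hY : Y.PosSemidef) : ∃ B : Matrix ι ι ℝ, Y = Bᵀ * B := by
  obtain ⟨B, hB⟩ := CStarAlgebra.nonneg_iff_eq_star_mul_self.mp hY.nonneg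
  refine ⟨B, ?_⟩
  rw [hB, star_eq_conjTranspose, conjTranspose_eq_transpose_of_trivial]

private theorem mc1b_inv_anti {N N' : Matrix ι ι ℝ} (hN : N.PosDef) (hN' : N'.PosDef)
    (hD : (N' - N).PosSemidef) : (N⁻¹ - N'⁻¹).PosSemidef := by
  have hu : IsUnit N.det := (Matrix.isUnit_iff_isUnit_det _).1 hN.isUnit
  have hu' : IsUnit N'.det := (Matrix.isUnit_iff_isUnit_det _).1 hN'.isUnit
  have e1 : N⁻¹ - N'⁻¹ = N'⁻¹ * (N' - N) * N⁻¹ := by
    rw [Matrix.mul_sub, Matrix.sub_mul, Matrix.nonsing_inv_mul _ hu', Matrix.one_mul,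
      Matrix.mul_assoc, Matrix.mul_nonsing_inv _ hu, Matrix.mul_one]
  have e2 : N⁻¹ = N'⁻¹ + N⁻¹ * (N' - N) * N'⁻¹ := by
    rw [Matrix.mul_sub, Matrix.sub_mul, Matrix.nonsing_inv_mul _ hu, Matrix.one_mul,
      Matrix.mul_assoc, Matrix.mul_nonsing_inv _ hu', Matrix.mul_one]
    abel
  have ht : (N'⁻¹)ᴴ = N'⁻¹ := hN'.inv.isHermitian
  have hDt : (N' - N)ᴴ = N' - N := hD.isHermitian
  have e3 : N⁻¹ - N'⁻¹ = (N'⁻¹)ᴴ * (N' - N) * N'⁻¹ +
      ((N' - N) * N'⁻¹)ᴴ * N⁻¹ * ((N' - N) * N'⁻¹) := by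
    rw [e1]
    conv_lhs => rw [e2]
    rw [Matrix.conjTranspose_mul, ht, hDt, Matrix.mul_add]
    simp only [Matrix.mul_assoc]
  rw [e3]
  exact (hD.conjTranspose_mul_mul_same _).add (hN.inv.posSemidef.conjTranspose_mul_mul_same _)

omit [Fintype ι] in
private theorem mc1b_diag {w : ι → ℝ} (h : ∀ k, 0 ≤ w k) : (diagonal w).PosSemidef :=
  Matrix.PosSemidef.diagonal h

theorem Kmat_posSemidef (F G : Matrix ι ι ℝ) {w₀ w₂ : ι → ℝ} (h₀ : ∀ k, 0 ≤ w₀ k) (h₂ : ∀ k, 0 ≤ w₂ k) :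
    (Kmat F G w₀ w₂).PosSemidef := by
  unfold Kmat
  have h1 := (mc1b_diag h₀).conjTranspose_mul_mul_same F
  have h2 := (mc1b_diag h₂).mul_mul_conjTranspose_same G
  rw [conjTranspose_eq_transpose_of_trivial] at h1 h2
  exact h1.add h2

/-- symmetry `0 ↔ 2` -/
theorem Kmat_swap (F G : Matrix ι ι ℝ) (w₀ w₂ : ι → ℝ) : Kmat Gᵀ Fᵀ w₂ w₀ = Kmat F G w₀ w₂ := by
  unfold Kmat
  rw [transpose_transpose, transpose_transpose, add_comm]

private theorem mc1b_DD {w₁ : ι → ℝ} (hw : ∀ k, 0 < w₁ k) :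
    diagonal (fun k => Real.sqrt (w₁ k)) * diagonal (fun k => Real.sqrt (w₁ k)) = diagonal w₁ := by
  rw [diagonal_mul_diagonal]
  congr 1
  funext k
  exact Real.mul_self_sqrt (hw k).le

private theorem mc1b_DKD {w : ι → ℝ} {K : Matrix ι ι ℝ} (hK : K.PosSemidef) :
    (diagonal w * K * diagonal w).PosSemidef := by
  have h := hK.mul_mul_conjTranspose_same (diagonal w)
  rwa [conjTranspose_eq_transpose_of_trivial, diagonal_transpose] at h

private theorem mc1b_Wmat_eq {v : ℝ} (hv : 0 < v) {w₁ : ι → ℝ} (hw : ∀ k, 0 < w₁ k) {K : Matrix ι ι ℝ}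
    (hK : K.PosSemidef) : v ^ 2 • Wmat v w₁ K =
      diagonal (fun k => Real.sqrt (w₁ k)) *
        fop v (diagonal (fun k => Real.sqrt (w₁ k)) * K * diagonal (fun k => Real.sqrt (w₁ k))) *
        diagonal (fun k => Real.sqrt (w₁ k)) := by
  have h1 := (S_eq hv hw hK).1
  have h2 := hop_eq hv hw hK
  have h3 := hop_add_fop hv (mc1b_DKD (w := fun k => Real.sqrt (w₁ k)) hK)
  rw [eq_sub_of_add_eq' h3, ← h2]
  unfold Wmat
  rw [← Matrix.smul_mul, h1, ← mc1b_DD hw]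
  simp only [Matrix.mul_sub, Matrix.sub_mul, Matrix.mul_one, Matrix.one_mul, Matrix.mul_assoc]

/-- `𝒲` is antitone in `K` -/
theorem Wmat_anti {v : ℝ} (hv : 0 < v) {w₁ : ι → ℝ} (hw : ∀ k, 0 < w₁ k) {K K' : Matrix ι ι ℝ}
    (hK : K.PosSemidef) (hKK : (K' - K).PosSemidef) : (Wmat v w₁ K - Wmat v w₁ K').PosSemidef := by
  have hK' : K'.PosSemidef := by
    have h := hK.add hKK
    rwa [add_sub_cancel] at h
  have hv2 : (v ^ 2) ≠ 0 := by positivity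
  have e : Wmat v w₁ K - Wmat v w₁ K' = (v ^ 2)⁻¹ • (v ^ 2 • Wmat v w₁ K - v ^ 2 • Wmat v w₁ K') := by
    rw [← smul_sub, smul_smul, inv_mul_cancel₀ hv2, one_smul]
  rw [e, mc1b_Wmat_eq hv hw hK, mc1b_Wmat_eq hv hw hK', ← Matrix.sub_mul, ← Matrix.mul_sub]
  refine (mc1b_DKD ?_).smul (by positivity)
  refine fop_anti hv (mc1b_DKD hK) ?_
  rw [← Matrix.sub_mul, ← Matrix.mul_sub]
  exact mc1b_DKD hKK

private theorem mc1b_posDef {v : ℝ} (hv : 0 < v) {w₁ : ι → ℝ} (hw : ∀ k, 0 < w₁ k) (B : Matrix ι ι ℝ) :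
    (v ^ 2 • (1 : Matrix ι ι ℝ) + B * diagonal w₁ * Bᵀ).PosDef := by
  refine posDef_add hv ?_
  have h := (mc1b_diag (fun k => (hw k).le)).mul_mul_conjTranspose_same B
  rwa [conjTranspose_eq_transpose_of_trivial] at h

private theorem mc1b_Mmat_eq {v : ℝ} (hv : 0 < v) {w₁ : ι → ℝ} (hw : ∀ k, 0 < w₁ k) (B : Matrix ι ι ℝ) :
    Mmat v w₁ (Bᵀ * B) = Bᵀ * (v ^ 2 • (1 : Matrix ι ι ℝ) + B * diagonal w₁ * Bᵀ)⁻¹ * B := by
  have hK : (Bᵀ * B).PosSemidef := by simpa using Matrix.posSemidef_conjTranspose_mul_self B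
  have hu1 : IsUnit (v ^ 2 • (1 : Matrix ι ι ℝ) + diagonal w₁ * (Bᵀ * B)).det :=
    (det_pos_aux hv hw hK).1.ne'.isUnit
  have hu2 : IsUnit (v ^ 2 • (1 : Matrix ι ι ℝ) + B * diagonal w₁ * Bᵀ).det :=
    (Matrix.isUnit_iff_isUnit_det _).1 (mc1b_posDef hv hw B).isUnit
  set N := v ^ 2 • (1 : Matrix ι ι ℝ) + diagonal w₁ * (Bᵀ * B) with hN
  set P := v ^ 2 • (1 : Matrix ι ι ℝ) + B * diagonal w₁ * Bᵀ with hP
  have e1 : P * B = B * N := by
    rw [hN, hP, Matrix.mul_add, Matrix.add_mul, Matrix.mul_smul, Matrix.smul_mul, Matrix.mul_one,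
      Matrix.one_mul]
    simp only [Matrix.mul_assoc]
  have e2 : B * N⁻¹ = P⁻¹ * B := by
    calc B * N⁻¹ = P⁻¹ * (P * B) * N⁻¹ := by
          rw [← Matrix.mul_assoc, Matrix.nonsing_inv_mul _ hu2, Matrix.one_mul]
      _ = P⁻¹ * B := by
          rw [e1, Matrix.mul_assoc, Matrix.mul_assoc, Matrix.mul_nonsing_inv _ hu1, Matrix.mul_one]
  unfold Mmat
  rw [Matrix.mul_assoc, e2, ← Matrix.mul_assoc]

/-- if `w₁' ≤ c w₁` with `c ≥ 1` then `M(w₁) ≤ c M(w₁')`: with `R = K^{1/2}`,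
`M(w) = R (v² + R W R)⁻¹ R` and `v² + R W₁ R ≥ c⁻¹ (v² + R W₁' R)`. -/
theorem Mmat_comp {v c : ℝ} (hv : 0 < v) (hc : 1 ≤ c) {w₁ w₁' : ι → ℝ} (hw : ∀ k, 0 < w₁ k)
    (hw' : ∀ k, 0 < w₁' k) (hcw : ∀ k, w₁' k ≤ c * w₁ k) {K : Matrix ι ι ℝ} (hK : K.PosSemidef) :
    (c • Mmat v w₁' K - Mmat v w₁ K).PosSemidef := by
  obtain ⟨B, rfl⟩ := mc1b_sqrt hK
  have hc0 : 0 < c := by linarith
  rw [mc1b_Mmat_eq hv hw, mc1b_Mmat_eq hv hw']
  set P := v ^ 2 • (1 : Matrix ι ι ℝ) + B * diagonal w₁ * Bᵀ with hP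
  set P' := v ^ 2 • (1 : Matrix ι ι ℝ) + B * diagonal w₁' * Bᵀ with hP'
  have hPd : P.PosDef := mc1b_posDef hv hw B
  have hPd' : P'.PosDef := mc1b_posDef hv hw' B
  have hPc : (c⁻¹ • P').PosDef := hPd'.smul (by positivity)
  have hD : (P - c⁻¹ • P').PosSemidef := by
    have e : P - c⁻¹ • P' = (v ^ 2 * (1 - c⁻¹)) • (1 : Matrix ι ι ℝ) +
        B * diagonal (fun k => w₁ k - c⁻¹ * w₁' k) * Bᵀ := by
      have e3 : diagonal (fun k => w₁ k - c⁻¹ * w₁' k) = diagonal w₁ - c⁻¹ • diagonal w₁' := by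
        rw [← diagonal_smul, diagonal_sub]
        rfl
      rw [e3, hP, hP', Matrix.mul_sub, Matrix.sub_mul, Matrix.mul_smul, Matrix.smul_mul, smul_add,
        smul_smul, mul_sub, sub_smul, mul_one, mul_comm (c⁻¹) (v ^ 2)]
      abel
    rw [e]
    refine Matrix.PosSemidef.add ?_ ?_
    · refine Matrix.PosSemidef.one.smul ?_
      have : c⁻¹ ≤ 1 := inv_le_one_of_one_le₀ hc
      have := sub_nonneg.2 this
      positivity
    · have h := (mc1b_diag (w := fun k => w₁ k - c⁻¹ * w₁' k) (fun k => by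
        have h1 := hcw k
        have : c⁻¹ * w₁' k ≤ c⁻¹ * (c * w₁ k) := mul_le_mul_of_nonneg_left h1 (by positivity)
        rw [← mul_assoc, inv_mul_cancel₀ hc0.ne', one_mul] at this
        simpa using this)).mul_mul_conjTranspose_same B
      rwa [conjTranspose_eq_transpose_of_trivial] at h
  have h := mc1b_inv_anti hPc hPd hD
  have e4 : (c⁻¹ • P')⁻¹ = c • P'⁻¹ := by
    refine Matrix.inv_eq_right_inv ?_
    rw [Matrix.smul_mul, Matrix.mul_smul, smul_smul, inv_mul_cancel₀ hc0.ne', one_smul,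
      Matrix.mul_nonsing_inv _ ((Matrix.isUnit_iff_isUnit_det _).1 hPd'.isUnit)]
  rw [e4] at h
  have h5 := h.conjTranspose_mul_mul_same B
  rw [conjTranspose_eq_transpose_of_trivial, Matrix.mul_sub, Matrix.sub_mul, Matrix.mul_smul,
    Matrix.smul_mul] at h5
  exact h5

theorem qf_nonneg {v : ℝ} (hv : 0 < v) {w₁ : ι → ℝ} (hw : ∀ k, 0 < w₁ k) {K : Matrix ι ι ℝ}
    (hK : K.PosSemidef) (φ : ι → ℝ) : 0 ≤ qf v w₁ φ K :=
  trace_SXSY_nonneg (diagonal_transpose φ) (Mmat_posSemidef hv hw hK) (Mmat_posSemidef hv hw hK)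

theorem qf_comp {v c : ℝ} (hv : 0 < v) (hc : 1 ≤ c) {w₁ w₁' : ι → ℝ} (hw : ∀ k, 0 < w₁ k)
    (hw' : ∀ k, 0 < w₁' k) (hcw : ∀ k, w₁' k ≤ c * w₁ k) {K : Matrix ι ι ℝ} (hK : K.PosSemidef)
    (φ : ι → ℝ) : qf v w₁ φ K ≤ c ^ 2 * qf v w₁' φ K := by
  have h := Mmat_comp hv hc hw hw' hcw hK
  have h1 := Mmat_posSemidef hv hw hK
  have h2 := trace_SXSY_mono (diagonal_transpose φ) h1 h1 h h
  unfold qf
  refine h2.trans (le_of_eq ?_)
  simp only [Matrix.mul_smul, Matrix.smul_mul, smul_smul, trace_smul, smul_eq_mul, sq]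

theorem qf_smul (v c : ℝ) (w₁ φ : ι → ℝ) (K : Matrix ι ι ℝ) :
    qf v w₁ (fun k => c * φ k) K = c ^ 2 * qf v w₁ φ K := by
  have e : diagonal (fun k => c * φ k) = c • diagonal φ := by
    rw [← diagonal_smul]
    rfl
  unfold qf
  rw [e]
  simp only [Matrix.mul_smul, Matrix.smul_mul, smul_smul, trace_smul, smul_eq_mul, sq]

theorem pot_diag_nonneg {v : ℝ} (hv : 0 < v) {w₁ : ι → ℝ} (hw : ∀ k, 0 < w₁ k) {K : Matrix ι ι ℝ}
    (hK : K.PosSemidef) : 0 ≤ pot v (diagonal w₁ * K) := by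
  rw [pot_eq_sqrt hw]
  exact pot_nonneg hv (mc1b_DKD hK)

/-- entries of a psd matrix dominated by another: `|X_ij| ≤ √(X_ii X_jj) ≤ √(Y_ii Y_jj)`. -/
theorem abs_entry_le {X Y : Matrix ι ι ℝ} (hX : X.PosSemidef) (hXY : (Y - X).PosSemidef) (i j : ι) :
    |X i j| ≤ Real.sqrt (Y i i * Y j j) := by
  have h1 : ∀ k, X k k ≤ Y k k := fun k => by
    have := hXY.diag_nonneg (i := k)
    simp only [Matrix.sub_apply] at this
    linarith
  have h2 : ∀ k, 0 ≤ X k k := fun k => hX.diag_nonneg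
  have h3 : X i j ^ 2 ≤ X i i * X j j := by
    obtain ⟨B, rfl⟩ := mc1b_sqrt hX
    have h := Finset.sum_mul_sq_le_sq_mul_sq Finset.univ (fun k => B k i) (fun k => B k j)
    simp only [Matrix.mul_apply, Matrix.transpose_apply]
    simpa only [sq] using h
  refine Real.abs_le_sqrt (h3.trans ?_)
  exact mul_le_mul (h1 i) (h1 j) (h2 j) ((h2 i).trans (h1 i))

end Crest.Agent.TH
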