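import Mathlib
import Crest.Prelude.Def_TriangularHilbert

/-! # TH_Meas (task TH-R2): measurability of the annular triangular Hilbert transform and the count -/

set_option autoImplicit false
open MeasureTheory Set Filter
open scoped Topology ENNReal

namespace Crest.Agent.TH
open Crest.AnalysisR

/-- shear maps are quasi measure preserving -/
theorem THMeas_qmp (c : ℝ × ℝ) :
    Measure.QuasiMeasurePreserving (fun p : (ℝ × ℝ) × ℝ => p.1 + p.2 • c) volume volume := by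
  have hm : Measurable (fun p : (ℝ × ℝ) × ℝ => p.1 + p.2 • c) := by fun_prop
  refine ⟨hm, Measure.AbsolutelyContinuous.mk (fun s hs h0 => ?_)⟩
  rw [Measure.map_apply hm hs, Measure.volume_eq_prod, Measure.prod_apply_symm (hm hs)]
  rw [lintegral_eq_zero_iff' (by
    exact (measurable_measure_prodMk_right (hm hs)).aemeasurable)]
  refine Eventually.of_forall (fun t => ?_)
  show volume ((fun x : ℝ × ℝ => (x, t)) ⁻¹' ((fun p : (ℝ × ℝ) × ℝ => p.1 + p.2 • c) ⁻¹' s)) = 0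
  have e : (fun x : ℝ × ℝ => (x, t)) ⁻¹' ((fun p : (ℝ × ℝ) × ℝ => p.1 + p.2 • c) ⁻¹' s) =
      (fun x : ℝ × ℝ => x + t • c) ⁻¹' s := rfl
  rw [e, measure_preimage_add_right]
  exact h0

theorem THMeas_shift1 (p : (ℝ × ℝ) × ℝ) :
    (p.1.1 + p.2, p.1.2) = p.1 + p.2 • ((1 : ℝ), (0 : ℝ)) := by
  ext <;> simp

theorem THMeas_shift2 (p : (ℝ × ℝ) × ℝ) :
    (p.1.1, p.1.2 + p.2) = p.1 + p.2 • ((0 : ℝ), (1 : ℝ)) := by
  ext <;> simp

theorem THMeas_aesm {F G : ℝ × ℝ → ℂ} (hF : AEStronglyMeasurable F volume)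
    (hG : AEStronglyMeasurable G volume) :
    AEStronglyMeasurable (fun p : (ℝ × ℝ) × ℝ =>
      F (p.1.1 + p.2, p.1.2) * G (p.1.1, p.1.2 + p.2) / (p.2 : ℂ)) volume := by
  have h1 : AEStronglyMeasurable (fun p : (ℝ × ℝ) × ℝ => F (p.1.1 + p.2, p.1.2)) volume := by
    have := hF.comp_quasiMeasurePreserving (THMeas_qmp ((1 : ℝ), (0 : ℝ)))
    refine this.congr (Eventually.of_forall (fun p => ?_))
    show F (p.1 + p.2 • ((1 : ℝ), (0 : ℝ))) = _
    rw [← THMeas_shift1]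
  have h2 : AEStronglyMeasurable (fun p : (ℝ × ℝ) × ℝ => G (p.1.1, p.1.2 + p.2)) volume := by
    have := hG.comp_quasiMeasurePreserving (THMeas_qmp ((0 : ℝ), (1 : ℝ)))
    refine this.congr (Eventually.of_forall (fun p => ?_))
    show G (p.1 + p.2 • ((0 : ℝ), (1 : ℝ))) = _
    rw [← THMeas_shift2]
  have h3 : AEStronglyMeasurable (fun p : (ℝ × ℝ) × ℝ => (p.2 : ℂ)⁻¹) volume := by
    have : Measurable (fun p : (ℝ × ℝ) × ℝ => (p.2 : ℂ)⁻¹) := by fun_prop
    exact this.aestronglyMeasurable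
  have h4 := (h1.mul h2).mul h3
  refine h4.congr (Eventually.of_forall (fun p => ?_))
  exact (div_eq_mul_inv (F (p.1.1 + p.2, p.1.2) * G (p.1.1, p.1.2 + p.2)) (p.2 : ℂ)).symm

theorem THMeas_prod_restrict (S : Set ℝ) :
    (volume : Measure (ℝ × ℝ)).prod ((volume : Measure ℝ).restrict S) =
      (volume : Measure ((ℝ × ℝ) × ℝ)).restrict (univ ×ˢ S) := by
  rw [Measure.volume_eq_prod (ℝ × ℝ) ℝ, ← Measure.prod_restrict, Measure.restrict_univ]

/-- `(z, t) ↦ F (z.1 + t, z.2) * G (z.1, z.2 + t) / t` is a.e. strongly measurable on `(ℝ × ℝ) × ℝ`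
(the maps `(z,t) ↦ (z.1+t, z.2)` and `(z,t) ↦ (z.1, z.2+t)` are quasi measure preserving); conclude by
`AEStronglyMeasurable.integral_prod_right'`. -/
theorem aestronglyMeasurable_HT {F G : ℝ × ℝ → ℂ} (hF : AEStronglyMeasurable F volume)
    (hG : AEStronglyMeasurable G volume) (ε R : ℝ) :
    AEStronglyMeasurable (annularTriangularHT F G ε R) volume := by
  have h := THMeas_aesm hF hG
  have h' : AEStronglyMeasurable (fun p : (ℝ × ℝ) × ℝ =>
      F (p.1.1 + p.2, p.1.2) * G (p.1.1, p.1.2 + p.2) / (p.2 : ℂ))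
      ((volume : Measure (ℝ × ℝ)).prod ((volume : Measure ℝ).restrict {t : ℝ | ε < |t| ∧ |t| < R})) := by
    rw [THMeas_prod_restrict]
    exact h.restrict
  exact h'.integral_prod_right'

/-- countable supremum (`m`, `ε`, `R` range over countable types) of finite sums -/
theorem aemeasurable_annulusCount {F G : ℝ × ℝ → ℂ} (hF : AEStronglyMeasurable F volume)
    (hG : AEStronglyMeasurable G volume) (n : ℕ) :
    AEMeasurable (annulusCount n F G) volume := by
  unfold annulusCount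
  refine AEMeasurable.iSup (fun m => ?_)
  refine AEMeasurable.iSup (fun _ => ?_)
  refine AEMeasurable.iSup (fun ε => ?_)
  refine AEMeasurable.iSup (fun R => ?_)
  refine AEMeasurable.iSup (fun _ => ?_)
  refine AEMeasurable.iSup (fun _ => ?_)
  refine Finset.aemeasurable_fun_sum _ (fun j _ => ?_)
  exact (aestronglyMeasurable_HT hF hG _ _).enorm

/-- changing `F, G` on null sets changes `annularTriangularHT F G ε R` only on a null set -/
theorem HT_congr_ae {F F' G G' : ℝ × ℝ → ℂ} (hF : F =ᵐ[volume] F') (hG : G =ᵐ[volume] G') (ε R : ℝ) :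
    annularTriangularHT F G ε R =ᵐ[volume] annularTriangularHT F' G' ε R := by
  have h1 := (THMeas_qmp ((1 : ℝ), (0 : ℝ))).ae_eq_comp hF
  have h2 := (THMeas_qmp ((0 : ℝ), (1 : ℝ))).ae_eq_comp hG
  have h3 : ∀ᵐ p : (ℝ × ℝ) × ℝ, F (p.1.1 + p.2, p.1.2) * G (p.1.1, p.1.2 + p.2) / (p.2 : ℂ) =
      F' (p.1.1 + p.2, p.1.2) * G' (p.1.1, p.1.2 + p.2) / (p.2 : ℂ) := by
    filter_upwards [h1, h2] with p q1 q2
    have q1' : F (p.1 + p.2 • ((1 : ℝ), (0 : ℝ))) = F' (p.1 + p.2 • ((1 : ℝ), (0 : ℝ))) := q1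
    have q2' : G (p.1 + p.2 • ((0 : ℝ), (1 : ℝ))) = G' (p.1 + p.2 • ((0 : ℝ), (1 : ℝ))) := q2
    rw [← THMeas_shift1] at q1'
    rw [← THMeas_shift2] at q2'
    rw [q1', q2']
  rw [Measure.volume_eq_prod (ℝ × ℝ) ℝ] at h3
  have h4 := Measure.ae_ae_of_ae_prod h3
  filter_upwards [h4] with z hz
  unfold annularTriangularHT
  refine integral_congr_ae (ae_restrict_of_ae ?_)
  exact hz

theorem annulusCount_congr_ae {F F' G G' : ℝ × ℝ → ℂ} (hF : F =ᵐ[volume] F') (hG : G =ᵐ[volume] G')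
    (n : ℕ) : annulusCount n F G =ᵐ[volume] annulusCount n F' G' := by
  have h : ∀ᵐ z : ℝ × ℝ, ∀ ε R : ℚ, annularTriangularHT F G (ε : ℝ) (R : ℝ) z =
      annularTriangularHT F' G' (ε : ℝ) (R : ℝ) z := by
    rw [ae_all_iff]
    intro ε
    rw [ae_all_iff]
    intro R
    exact HT_congr_ae hF hG _ _
  filter_upwards [h] with z hz
  unfold annulusCount
  simp only [hz]

theorem THMeas_mul_le (a b : ℝ≥0∞) : a * b ≤ 1 + (a ^ (3 : ℝ) + b ^ (3 : ℝ)) := by
  have key : ∀ c : ℝ≥0∞, c * c ≤ 1 + c ^ (3 : ℝ) := by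
    intro c
    have e : c ^ (3 : ℝ) = c ^ (3 : ℕ) := by
      exact_mod_cast ENNReal.rpow_natCast c 3
    rw [e]
    rcases le_total c 1 with h | h
    · calc c * c ≤ 1 * 1 := mul_le_mul' h h
        _ ≤ 1 + c ^ 3 := by rw [mul_one]; exact le_self_add
    · calc c * c = c * c * 1 := (mul_one _).symm
        _ ≤ c * c * c := mul_le_mul' le_rfl h
        _ = c ^ 3 := by ring
        _ ≤ 1 + c ^ 3 := le_add_self
  rcases le_total a b with h | h
  · calc a * b ≤ b * b := mul_le_mul' h le_rfl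
      _ ≤ 1 + b ^ (3 : ℝ) := key b
      _ ≤ 1 + (a ^ (3 : ℝ) + b ^ (3 : ℝ)) := by gcongr; exact le_add_self
  · calc a * b ≤ a * a := mul_le_mul' le_rfl h
      _ ≤ 1 + a ^ (3 : ℝ) := key a
      _ ≤ 1 + (a ^ (3 : ℝ) + b ^ (3 : ℝ)) := by gcongr; exact le_self_add

theorem THMeas_lint {f : ℝ × ℝ → ℝ≥0∞} (hf : AEMeasurable f volume) (c : ℝ × ℝ) (S : Set ℝ) :
    ∫⁻ p : (ℝ × ℝ) × ℝ, f (p.1 + p.2 • c)
      ∂((volume : Measure (ℝ × ℝ)).prod ((volume : Measure ℝ).restrict S)) =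
      (∫⁻ z, f z) * volume S := by
  rw [lintegral_prod_symm]
  · have : ∀ t : ℝ, ∫⁻ z : ℝ × ℝ, f (z + t • c) = ∫⁻ z, f z := fun t =>
      lintegral_add_right_eq_self f (t • c)
    simp only [this]
    rw [lintegral_const, Measure.restrict_apply_univ]
  · rw [THMeas_prod_restrict]
    exact (hf.comp_quasiMeasurePreserving (THMeas_qmp c)).restrict

/-- for `L³` inputs and `0 < ε < R` the integrand is integrable in `t` for a.e. `z`
(Hölder: `∫∫ |F(z+t)| |G(z+t)| 1_{|z| ≤ N} dz ≤ ‖F‖₃ ‖G‖₃ |B_N|^{1/3}` for each `t`; Tonelli). -/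
theorem ae_integrable_HT {F G : ℝ × ℝ → ℂ} (hF : MemLp F 3 volume) (hG : MemLp G 3 volume) {ε R : ℝ}
    (hε : 0 < ε) : ∀ᵐ z : ℝ × ℝ, IntegrableOn
      (fun t : ℝ => F (z.1 + t, z.2) * G (z.1, z.2 + t) / (t : ℂ)) {t : ℝ | ε < |t| ∧ |t| < R} := by
  obtain ⟨S, hS⟩ : ∃ S : Set ℝ, S = {t : ℝ | ε < |t| ∧ |t| < R} := ⟨_, rfl⟩
  rw [← hS]
  have hSm : MeasurableSet S := by
    rw [hS]
    exact (measurableSet_lt measurable_const measurable_norm).inter
      (measurableSet_lt measurable_norm measurable_const)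
  have hSfin : volume S < ∞ := by
    have h1 : S ⊆ Ioo (-R) R := by
      intro t ht
      rw [hS] at ht
      exact abs_lt.mp ht.2
    refine lt_of_le_of_lt (measure_mono h1) ?_
    rw [Real.volume_Ioo]
    exact ENNReal.ofReal_lt_top
  have hF3 : ∫⁻ z, ‖F z‖ₑ ^ (3 : ℝ) < ∞ := by
    have := lintegral_rpow_enorm_lt_top_of_eLpNorm_lt_top (p := 3) (by norm_num) (by norm_num)
      hF.eLpNorm_lt_top
    simpa using this
  have hG3 : ∫⁻ z, ‖G z‖ₑ ^ (3 : ℝ) < ∞ := by
    have := lintegral_rpow_enorm_lt_top_of_eLpNorm_lt_top (p := 3) (by norm_num) (by norm_num)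
      hG.eLpNorm_lt_top
    simpa using this
  have hFm : AEMeasurable (fun z => ‖F z‖ₑ ^ (3 : ℝ)) volume := hF.1.enorm.pow_const 3
  have hGm : AEMeasurable (fun z => ‖G z‖ₑ ^ (3 : ℝ)) volume := hG.1.enorm.pow_const 3
  have hmeas := THMeas_aesm hF.1 hG.1
  have main : ∀ N : ℕ, ∀ᵐ z : ℝ × ℝ, z ∈ Metric.ball (0 : ℝ × ℝ) N → IntegrableOn
      (fun t : ℝ => F (z.1 + t, z.2) * G (z.1, z.2 + t) / (t : ℂ)) S := by
    intro N
    have hB : MeasurableSet (Metric.ball (0 : ℝ × ℝ) N) := Metric.isOpen_ball.measurableSet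
    have hBfin : volume (Metric.ball (0 : ℝ × ℝ) N) < ∞ := measure_ball_lt_top
    have hint : Integrable (fun p : (ℝ × ℝ) × ℝ =>
        F (p.1.1 + p.2, p.1.2) * G (p.1.1, p.1.2 + p.2) / (p.2 : ℂ))
        (((volume : Measure (ℝ × ℝ)).restrict (Metric.ball (0 : ℝ × ℝ) N)).prod
          ((volume : Measure ℝ).restrict S)) := by
      have hle : ((volume : Measure (ℝ × ℝ)).restrict (Metric.ball (0 : ℝ × ℝ) N)).prod
          ((volume : Measure ℝ).restrict S) ≤
          (volume : Measure (ℝ × ℝ)).prod ((volume : Measure ℝ).restrict S) := by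
        rw [Measure.prod_restrict, ← Measure.volume_eq_prod, THMeas_prod_restrict]
        exact Measure.restrict_mono (by
          rintro p hp
          exact ⟨mem_univ _, hp.2⟩) le_rfl
      refine ⟨?_, ?_⟩
      · rw [Measure.prod_restrict, ← Measure.volume_eq_prod]
        exact hmeas.restrict
      · unfold HasFiniteIntegral
        have hb : ∀ᵐ p : (ℝ × ℝ) × ℝ ∂(((volume : Measure (ℝ × ℝ)).restrict
            (Metric.ball (0 : ℝ × ℝ) N)).prod ((volume : Measure ℝ).restrict S)),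
            ‖F (p.1.1 + p.2, p.1.2) * G (p.1.1, p.1.2 + p.2) / (p.2 : ℂ)‖ₑ ≤
            ENNReal.ofReal (1 / ε) * (1 + (‖F (p.1 + p.2 • ((1 : ℝ), (0 : ℝ)))‖ₑ ^ (3 : ℝ) +
              ‖G (p.1 + p.2 • ((0 : ℝ), (1 : ℝ)))‖ₑ ^ (3 : ℝ))) := by
          rw [Measure.prod_restrict]
          filter_upwards [ae_restrict_mem (hB.prod hSm)] with p hp
          have hp2 : p.2 ∈ S := hp.2
          rw [hS] at hp2
          rw [← THMeas_shift1, ← THMeas_shift2, div_eq_mul_inv, enorm_mul, enorm_mul, mul_comm]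
          refine mul_le_mul' ?_ (THMeas_mul_le _ _)
          rw [← ofReal_norm]
          apply ENNReal.ofReal_le_ofReal
          rw [norm_inv, Complex.norm_real, Real.norm_eq_abs, one_div]
          exact inv_anti₀ hε hp2.1.le
        refine lt_of_le_of_lt (lintegral_mono_ae hb) ?_
        rw [lintegral_const_mul' _ _ ENNReal.ofReal_ne_top]
        refine ENNReal.mul_lt_top ENNReal.ofReal_lt_top ?_
        rw [lintegral_add_left measurable_const]
        have i1 : AEMeasurable (fun p : (ℝ × ℝ) × ℝ =>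
            ‖F (p.1 + p.2 • ((1 : ℝ), (0 : ℝ)))‖ₑ ^ (3 : ℝ))
            (((volume : Measure (ℝ × ℝ)).restrict (Metric.ball (0 : ℝ × ℝ) N)).prod
              ((volume : Measure ℝ).restrict S)) := by
          rw [Measure.prod_restrict, ← Measure.volume_eq_prod]
          exact (hFm.comp_quasiMeasurePreserving (THMeas_qmp ((1 : ℝ), (0 : ℝ)))).restrict
        rw [lintegral_add_left' i1]
        refine ENNReal.add_lt_top.mpr ⟨?_, ENNReal.add_lt_top.mpr ⟨?_, ?_⟩⟩
        · rw [lintegral_const, one_mul, Measure.prod_restrict, Measure.restrict_apply_univ,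
            Measure.prod_prod]
          exact ENNReal.mul_lt_top hBfin hSfin
        · refine lt_of_le_of_lt (lintegral_mono' hle le_rfl) ?_
          rw [THMeas_lint hFm]
          exact ENNReal.mul_lt_top hF3 hSfin
        · refine lt_of_le_of_lt (lintegral_mono' hle le_rfl) ?_
          rw [THMeas_lint hGm]
          exact ENNReal.mul_lt_top hG3 hSfin
    have h5 := hint.prod_right_ae
    rw [ae_restrict_iff' hB] at h5
    exact h5
  rw [← ae_all_iff] at main
  filter_upwards [main] with z hz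
  obtain ⟨N, hN⟩ := exists_nat_gt ‖z‖
  exact hz N (by rw [Metric.mem_ball, dist_zero_right]; exact hN)

end Crest.Agent.TH
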