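import Crest.Agent.TH_A4
import Crest.Agent.TH_A5
import Crest.Agent.TH_Hold

/-! # TH_PartA (task TH-A10): the smooth part -/

set_option autoImplicit false
open Matrix MeasureTheory Set Filter
open scoped Topology ENNReal

namespace Crest.Agent.TH

private theorem ofReal_combine (n : ℕ) {x Y : ℝ} (hx : 0 ≤ x) (hY : 0 ≤ Y) {y : ℝ≥0∞}
    (hy : y ≤ ENNReal.ofReal Y) :
    2 * (ENNReal.ofReal x + 40 * (n : ℝ≥0∞) * y) ≤ ENNReal.ofReal (2 * (x + 40 * n * Y)) := by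
  have h1 : ENNReal.ofReal (2 * (x + 40 * n * Y)) =
      2 * (ENNReal.ofReal x + 40 * (n : ℝ≥0∞) * ENNReal.ofReal Y) := by
    rw [ENNReal.ofReal_mul zero_le_two, ENNReal.ofReal_add hx (by positivity),
      ENNReal.ofReal_mul (by positivity), ENNReal.ofReal_mul (by norm_num), ENNReal.ofReal_natCast,
      ENNReal.ofReal_ofNat, ENNReal.ofReal_ofNat]
  rw [h1]
  gcongr

/-- `TS_Kt_le`, `flow_total` (`Λ = 2`), `T0_le`, `T2_le`, `maxE_holder`, `n3_transpose`. -/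
theorem partA : ∃ C : ℝ, 0 ≤ C ∧ ∀ (η : ℝ), 0 < η → ∀ (N Q n : ℕ), 1 ≤ n → ∀ (J : JumpData N Q n)
    (F₀ F₁ F₂ : Matrix (Fin (2 * N)) (Fin (2 * N)) ℝ),
    |TS η F₀ F₁ F₂ (fun k₂ k₀ t => ∑ q, J.a q k₂ k₀ * Kt (J.r q) t)| ≤
      C * (n3 η F₀ + n3 η F₁ + n3 η F₂ + n * n3 η F₂ ^ (2 / 3 : ℝ) *
        (n3 η F₀ ^ (1 / 3 : ℝ) + n3 η F₁ ^ (1 / 3 : ℝ) + n3 η F₂ ^ (1 / 3 : ℝ))) := by
  obtain ⟨C, hC, hmax⟩ := maxE_holder
  refine ⟨720 + 9600 * C, by positivity, fun η hη N Q n hn J F₀ F₁ F₂ => ?_⟩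
  set a := n3 η F₀ with ha
  set b := n3 η F₁ with hb
  set c := n3 η F₂ with hc
  have ha0 : 0 ≤ a := n3_nonneg η F₀
  have hb0 : 0 ≤ b := n3_nonneg η F₁
  have hc0 : 0 ≤ c := n3_nonneg η F₂
  have h0 := TS_Kt_le hη J F₀ F₁ F₂
  have hm0 := hmax η hη N F₀ᵀ F₂ᵀ
  have hm2 := hmax η hη N F₁ F₂
  rw [n3_transpose, n3_transpose, ← ha, ← hc] at hm0
  rw [← hb, ← hc] at hm2
  have hI0 := (T0_le hη J F₀ F₂).trans (ofReal_combine n (x := 3 * (a + c)) (by positivity)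
    (by positivity) hm0)
  have hI2 := (T2_le hη J F₁ F₂).trans (ofReal_combine n (x := 3 * (b + c)) (by positivity)
    (by positivity) hm2)
  have hI1 := flow_total hη (Λ := 2) one_le_two F₀ F₁
  rw [← ha, ← hb] at hI1
  have h1 := h0.trans (mul_le_mul_right (add_le_add (add_le_add hI0 hI1) hI2) 60)
  rw [← ENNReal.ofReal_add (by positivity) (by positivity),
    ← ENNReal.ofReal_add (by positivity) (by positivity),
    show (60 : ℝ≥0∞) = ENNReal.ofReal 60 by rw [ENNReal.ofReal_ofNat],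
    ← ENNReal.ofReal_mul (by norm_num), ENNReal.ofReal_le_ofReal_iff (by positivity)] at h1
  refine h1.trans ?_
  set A := a ^ (1 / 3 : ℝ) with hA
  set B := b ^ (1 / 3 : ℝ) with hB
  set D := c ^ (1 / 3 : ℝ) with hD
  set E := c ^ (2 / 3 : ℝ) with hE
  have hA0 : 0 ≤ A := Real.rpow_nonneg ha0 _
  have hB0 : 0 ≤ B := Real.rpow_nonneg hb0 _
  have hD0 : 0 ≤ D := Real.rpow_nonneg hc0 _
  have hE0 : 0 ≤ E := Real.rpow_nonneg hc0 _
  have hn0 : (0 : ℝ) ≤ n := Nat.cast_nonneg n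
  have e : (720 + 9600 * C) * (a + b + c + n * E * (A + B + D)) -
      60 * (2 * (3 * (a + c) + 40 * n * (C * E * (A + D))) + 6 * (a + b) +
        2 * (3 * (b + c) + 40 * n * (C * E * (B + D)))) =
      9600 * C * (a + b + c) + 720 * (n * E * (A + B + D)) +
        4800 * (C * (n * E * (A + B))) := by ring
  have e2 : 0 ≤ 9600 * C * (a + b + c) + 720 * (n * E * (A + B + D)) +
        4800 * (C * (n * E * (A + B))) := by positivity
  linarith

end Crest.Agent.TH
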