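import Crest.Agent.TH_RDefs

/-! # TH_R4 (task TH-R4): the trilinear form: bounds, and its value on step functions -/

set_option autoImplicit false
open Matrix MeasureTheory Set Filter
open scoped Topology ENNReal

namespace Crest.Agent.TH

theorem thr4_holder3 {α : Type*} [MeasurableSpace α] {μ : Measure α} {f g h : α → ℝ}
    (hf : AEStronglyMeasurable f μ) (hg : AEStronglyMeasurable g μ) (hh : AEStronglyMeasurable h μ) :
    ∫⁻ a, ‖f a‖ₑ * (‖g a‖ₑ * ‖h a‖ₑ) ∂μ ≤ eLpNorm f 3 μ * (eLpNorm g 3 μ * eLpNorm h 3 μ) := by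
  have key := ENNReal.lintegral_prod_norm_pow_le (μ := μ) (Finset.univ : Finset (Fin 3))
    (f := ![fun a => ‖f a‖ₑ ^ (3 : ℝ), fun a => ‖g a‖ₑ ^ (3 : ℝ), fun a => ‖h a‖ₑ ^ (3 : ℝ)])
    (p := fun _ => 1 / 3) (by
      intro i _
      fin_cases i
      · exact hf.enorm.pow_const _
      · exact hg.enorm.pow_const _
      · exact hh.enorm.pow_const _) (by simp) (by intros; norm_num)
  simp only [Fin.prod_univ_three, Matrix.cons_val_zero, Matrix.cons_val_one, Matrix.cons_val] at key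
  have e : ∀ x : ℝ≥0∞, (x ^ (3 : ℝ)) ^ (1 / 3 : ℝ) = x := by
    intro x
    rw [← ENNReal.rpow_mul]
    norm_num
  simp only [e] at key
  have n : ∀ u : α → ℝ, eLpNorm u 3 μ = (∫⁻ a, ‖u a‖ₑ ^ (3 : ℝ) ∂μ) ^ (1 / 3 : ℝ) := by
    intro u
    rw [eLpNorm_eq_lintegral_rpow_enorm_toReal (by norm_num) (by norm_num)]
    norm_num
  rw [n, n, n]
  simpa only [mul_assoc] using key

theorem thr4_mp1 (t : ℝ) : MeasurePreserving (fun z : ℝ × ℝ => (z.1 + t, z.2)) volume volume := by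
  have := measurePreserving_add_right (volume : Measure (ℝ × ℝ)) (t, 0)
  convert this using 1
  ext z <;> simp

theorem thr4_mp2 (t : ℝ) : MeasurePreserving (fun z : ℝ × ℝ => (z.1, z.2 + t)) volume volume := by
  have := measurePreserving_add_right (volume : Measure (ℝ × ℝ)) (0, t)
  convert this using 1
  ext z <;> simp

theorem thr4_kap_measurable (ε R : ℝ) : Measurable (kap ε R) := by
  unfold kap
  refine Measurable.ite ?_ (by fun_prop) measurable_const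
  exact (measurableSet_lt measurable_const continuous_abs.measurable).inter
    (measurableSet_lt continuous_abs.measurable measurable_const)

theorem thr4_aesm {F G H : ℝ × ℝ → ℝ} (hF : AEStronglyMeasurable F volume)
    (hG : AEStronglyMeasurable G volume) (hH : AEStronglyMeasurable H volume) (ε R : ℝ) :
    AEStronglyMeasurable (fun q : (ℝ × ℝ) × ℝ =>
      H q.1 * (F (q.1.1 + q.2, q.1.2) * G (q.1.1, q.1.2 + q.2) * kap ε R q.2)) volume := by
  have h1 : AEStronglyMeasurable (fun p : (ℝ × ℝ) × ℝ => F (p.1.1 + p.2, p.1.2)) volume := by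
    have := hF.comp_quasiMeasurePreserving (THMeas_qmp ((1 : ℝ), (0 : ℝ)))
    refine this.congr (Eventually.of_forall (fun p => ?_))
    show F (p.1 + p.2 • ((1 : ℝ), (0 : ℝ))) = _
    rw [← THMeas_shift1]
  have h2 : AEStronglyMeasurable (fun p : (ℝ × ℝ) × ℝ => G (p.1.1, p.1.2 + p.2)) volume := by
    have := hG.comp_quasiMeasurePreserving (THMeas_qmp ((0 : ℝ), (1 : ℝ)))
    refine this.congr (Eventually.of_forall (fun p => ?_))
    show G (p.1 + p.2 • ((0 : ℝ), (1 : ℝ))) = _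
    rw [← THMeas_shift2]
  have h0 : AEStronglyMeasurable (fun p : (ℝ × ℝ) × ℝ => H p.1) volume := hH.comp_fst
  have hk : Measurable (kap ε R) := thr4_kap_measurable ε R
  have h3 : AEStronglyMeasurable (fun p : (ℝ × ℝ) × ℝ => kap ε R p.2) volume :=
    (hk.comp measurable_snd).aestronglyMeasurable
  exact h0.mul ((h1.mul h2).mul h3)

theorem thr4_lint_kap {ε R : ℝ} (hε : 0 < ε) (hR : ε < R) :
    ∫⁻ t, ‖kap ε R t‖ₑ = ENNReal.ofReal (2 * Real.log (R / ε)) := by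
  have hR0 : 0 < R := hε.trans hR
  have hlog : 0 < Real.log (R / ε) := Real.log_pos (by rw [lt_div_iff₀ hε]; linarith)
  have e1 : ∀ t, ‖kap ε R t‖ₑ = (Ioo ε R).indicator (fun t => ENNReal.ofReal (1 / t)) t +
      (Ioo (-R) (-ε)).indicator (fun t => ENNReal.ofReal (-(1 / t))) t := by
    intro t
    unfold kap
    by_cases h1 : t ∈ Ioo ε R
    · have h2 : t ∉ Ioo (-R) (-ε) := by
        intro h; have := h.2; have := h1.1; linarith
      have ht : 0 < t := hε.trans h1.1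
      rw [indicator_of_mem h1, indicator_of_notMem h2, if_pos (by rw [abs_of_pos ht]; exact h1),
        add_zero, Real.enorm_eq_ofReal (by positivity)]
    · by_cases h2 : t ∈ Ioo (-R) (-ε)
      · have ht : t < 0 := by have := h2.2; linarith
        rw [indicator_of_notMem h1, indicator_of_mem h2, if_pos (by
          rw [abs_of_neg ht]; exact ⟨by linarith [h2.2], by linarith [h2.1]⟩), zero_add,
          ← enorm_neg, Real.enorm_eq_ofReal (by
            rw [neg_nonneg]; exact div_nonpos_of_nonneg_of_nonpos zero_le_one ht.le)]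
      · rw [indicator_of_notMem h1, indicator_of_notMem h2, if_neg, enorm_zero, add_zero]
        rintro ⟨h3, h4⟩
        rcases le_or_gt 0 t with ht | ht
        · rw [abs_of_nonneg ht] at h3 h4; exact h1 ⟨h3, h4⟩
        · rw [abs_of_neg ht] at h3 h4; exact h2 ⟨by linarith, by linarith⟩
  simp_rw [e1]
  rw [lintegral_add_left (by
    refine Measurable.indicator (by fun_prop) measurableSet_Ioo)]
  rw [lintegral_indicator measurableSet_Ioo, lintegral_indicator measurableSet_Ioo]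
  have i1 : ∫⁻ t in Ioo ε R, ENNReal.ofReal (1 / t) = ENNReal.ofReal (Real.log (R / ε)) := by
    rw [← ofReal_integral_eq_lintegral_ofReal]
    · rw [← integral_Ioc_eq_integral_Ioo, ← intervalIntegral.integral_of_le hR.le,
        integral_one_div_of_pos hε hR0]
    · have : IntervalIntegrable (fun t : ℝ => 1 / t) volume ε R := by
        refine intervalIntegral.intervalIntegrable_one_div (fun x hx => ?_) continuousOn_id
        rw [uIcc_of_le hR.le] at hx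
        exact (hε.trans_le hx.1).ne'
      rw [intervalIntegrable_iff_integrableOn_Ioo_of_le hR.le] at this
      exact this
    · refine (ae_restrict_iff' measurableSet_Ioo).2 (Eventually.of_forall (fun t ht => ?_))
      have : 0 < t := hε.trans ht.1
      show (0 : ℝ) ≤ 1 / t
      positivity
  have i2 : ∫⁻ t in Ioo (-R) (-ε), ENNReal.ofReal (-(1 / t)) = ENNReal.ofReal (Real.log (R / ε)) := by
    rw [← ofReal_integral_eq_lintegral_ofReal]
    · rw [← integral_Ioc_eq_integral_Ioo, ← intervalIntegral.integral_of_le (by linarith),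
        intervalIntegral.integral_neg, integral_one_div_of_neg (by linarith) (by linarith),
        neg_div_neg_eq, ← Real.log_inv, inv_div]
    · have : IntervalIntegrable (fun t : ℝ => 1 / t) volume (-R) (-ε) := by
        refine intervalIntegral.intervalIntegrable_one_div (fun x hx => ?_) continuousOn_id
        rw [uIcc_of_le (by linarith)] at hx
        have : x < 0 := by have := hx.2; linarith
        exact this.ne
      rw [intervalIntegrable_iff_integrableOn_Ioo_of_le (by linarith)] at this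
      exact this.neg
    · refine (ae_restrict_iff' measurableSet_Ioo).2 (Eventually.of_forall (fun t ht => ?_))
      have : t < 0 := by have := ht.2; linarith
      show (0 : ℝ) ≤ -(1 / t)
      rw [neg_nonneg]
      exact div_nonpos_of_nonneg_of_nonpos zero_le_one this.le
  rw [i1, i2, ← ENNReal.ofReal_add hlog.le hlog.le, two_mul]

theorem thr4_lint_le {F G H : ℝ × ℝ → ℝ} (hF : AEStronglyMeasurable F volume)
    (hG : AEStronglyMeasurable G volume) (hH : AEStronglyMeasurable H volume)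
    {ε R : ℝ} (hε : 0 < ε) (hR : ε < R) :
    ∫⁻ q : (ℝ × ℝ) × ℝ, ‖H q.1 * (F (q.1.1 + q.2, q.1.2) * G (q.1.1, q.1.2 + q.2) * kap ε R q.2)‖ₑ ≤
      ENNReal.ofReal (2 * Real.log (R / ε)) * (eLpNorm H 3 volume *
        (eLpNorm F 3 volume * eLpNorm G 3 volume)) := by
  rw [← thr4_lint_kap hε hR, Measure.volume_eq_prod (ℝ × ℝ) ℝ,
    lintegral_prod_symm _ (by
      rw [← Measure.volume_eq_prod (ℝ × ℝ) ℝ]
      exact (thr4_aesm hF hG hH ε R).enorm), ← lintegral_mul_const _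
        (thr4_kap_measurable ε R).enorm]
  refine lintegral_mono (fun t => ?_)
  show ∫⁻ z : ℝ × ℝ, ‖H z * (F (z.1 + t, z.2) * G (z.1, z.2 + t) * kap ε R t)‖ₑ ≤ _
  have e : ∀ z : ℝ × ℝ, ‖H z * (F (z.1 + t, z.2) * G (z.1, z.2 + t) * kap ε R t)‖ₑ =
      ‖kap ε R t‖ₑ * (‖H z‖ₑ * (‖F (z.1 + t, z.2)‖ₑ * ‖G (z.1, z.2 + t)‖ₑ)) := by
    intro z
    rw [enorm_mul, enorm_mul, enorm_mul]
    ring
  simp_rw [e]
  rw [lintegral_const_mul'' _ (by
    exact hH.enorm.mul (((hF.comp_measurePreserving (thr4_mp1 t)).enorm).mul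
      ((hG.comp_measurePreserving (thr4_mp2 t)).enorm)))]
  gcongr
  have h := thr4_holder3 (μ := volume) hH (hF.comp_measurePreserving (thr4_mp1 t))
    (hG.comp_measurePreserving (thr4_mp2 t))
  have hF' : eLpNorm (F ∘ fun z : ℝ × ℝ => (z.1 + t, z.2)) 3 volume = eLpNorm F 3 volume :=
    eLpNorm_comp_measurePreserving hF (thr4_mp1 t)
  have hG' : eLpNorm (G ∘ fun z : ℝ × ℝ => (z.1, z.2 + t)) 3 volume = eLpNorm G 3 volume :=
    eLpNorm_comp_measurePreserving hG (thr4_mp2 t)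
  rw [hF', hG'] at h
  exact h

/-- absolute integrability (Hölder for each `t`, translation invariance, `∫ |kap| = 2 log (R/ε)`). -/
theorem TR_integrable {F G H : ℝ × ℝ → ℝ} (hF : MemLp F 3 volume) (hG : MemLp G 3 volume)
    (hH : MemLp H 3 volume) {ε R : ℝ} (hε : 0 < ε) (hR : ε < R) :
    Integrable (fun q : (ℝ × ℝ) × ℝ =>
      H q.1 * (F (q.1.1 + q.2, q.1.2) * G (q.1.1, q.1.2 + q.2) * kap ε R q.2)) := by
  refine ⟨thr4_aesm hF.1 hG.1 hH.1 ε R, ?_⟩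
  refine lt_of_le_of_lt (thr4_lint_le hF.1 hG.1 hH.1 hε hR) ?_
  exact ENNReal.mul_lt_top ENNReal.ofReal_lt_top (ENNReal.mul_lt_top hH.2
    (ENNReal.mul_lt_top hF.2 hG.2))

theorem thr4_TR_eq {F G H : ℝ × ℝ → ℝ} (hF : MemLp F 3 volume) (hG : MemLp G 3 volume)
    (hH : MemLp H 3 volume) {ε R : ℝ} (hε : 0 < ε) (hR : ε < R) :
    TR F G H ε R = ∫ q : (ℝ × ℝ) × ℝ,
      H q.1 * (F (q.1.1 + q.2, q.1.2) * G (q.1.1, q.1.2 + q.2) * kap ε R q.2) := by
  have hi := TR_integrable hF hG hH hε hR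
  rw [Measure.volume_eq_prod (ℝ × ℝ) ℝ] at hi ⊢
  rw [integral_prod _ hi]
  unfold TR BR
  refine integral_congr_ae (Eventually.of_forall (fun z => ?_))
  show H z * ∫ t, F (z.1 + t, z.2) * G (z.1, z.2 + t) * kap ε R t = _
  rw [← integral_const_mul]

theorem abs_TR_le {F G H : ℝ × ℝ → ℝ} (hF : MemLp F 3 volume) (hG : MemLp G 3 volume)
    (hH : MemLp H 3 volume) {ε R : ℝ} (hε : 0 < ε) (hR : ε < R) :
    |TR F G H ε R| ≤ 2 * Real.log (R / ε) * (eLpNorm F 3 volume).toReal * (eLpNorm G 3 volume).toReal *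
      (eLpNorm H 3 volume).toReal := by
  have hlog : 0 < Real.log (R / ε) := Real.log_pos (by rw [lt_div_iff₀ hε]; linarith)
  rw [thr4_TR_eq hF hG hH hε hR, ← Real.norm_eq_abs]
  refine (norm_integral_le_lintegral_norm _).trans ?_
  have h2 : ∀ q : (ℝ × ℝ) × ℝ,
      ENNReal.ofReal ‖H q.1 * (F (q.1.1 + q.2, q.1.2) * G (q.1.1, q.1.2 + q.2) * kap ε R q.2)‖ =
      ‖H q.1 * (F (q.1.1 + q.2, q.1.2) * G (q.1.1, q.1.2 + q.2) * kap ε R q.2)‖ₑ := by
    intro q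
    rw [ofReal_norm]
  simp_rw [h2]
  have h3 := thr4_lint_le hF.1 hG.1 hH.1 hε hR
  have h4 := ENNReal.toReal_mono (ENNReal.mul_ne_top ENNReal.ofReal_ne_top
    (ENNReal.mul_ne_top hH.2.ne (ENNReal.mul_ne_top hF.2.ne hG.2.ne))) h3
  refine h4.trans (le_of_eq ?_)
  rw [ENNReal.toReal_mul, ENNReal.toReal_mul, ENNReal.toReal_mul, ENNReal.toReal_ofReal (by positivity)]
  ring

theorem thr4_sub {A B : ℝ × ℝ → ℝ} (hA : MemLp A 3 volume) (hB : MemLp B 3 volume) :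
    MemLp (A - B) 3 volume := hA.sub hB

theorem TR_sub₀ {F F' G H : ℝ × ℝ → ℝ} (hF : MemLp F 3 volume) (hF' : MemLp F' 3 volume)
    (hG : MemLp G 3 volume) (hH : MemLp H 3 volume) {ε R : ℝ} (hε : 0 < ε) (hR : ε < R) :
    TR (F - F') G H ε R = TR F G H ε R - TR F' G H ε R := by
  rw [thr4_TR_eq (hF.sub hF') hG hH hε hR, thr4_TR_eq hF hG hH hε hR, thr4_TR_eq hF' hG hH hε hR,
    ← integral_sub (TR_integrable hF hG hH hε hR) (TR_integrable hF' hG hH hε hR)]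
  refine integral_congr_ae (Eventually.of_forall (fun q => ?_))
  simp only [Pi.sub_apply]
  ring

theorem TR_sub₁ {F F' G H : ℝ × ℝ → ℝ} (hF : MemLp F 3 volume) (hF' : MemLp F' 3 volume)
    (hG : MemLp G 3 volume) (hH : MemLp H 3 volume) {ε R : ℝ} (hε : 0 < ε) (hR : ε < R) :
    TR G (F - F') H ε R = TR G F H ε R - TR G F' H ε R := by
  rw [thr4_TR_eq hG (hF.sub hF') hH hε hR, thr4_TR_eq hG hF hH hε hR, thr4_TR_eq hG hF' hH hε hR,
    ← integral_sub (TR_integrable hG hF hH hε hR) (TR_integrable hG hF' hH hε hR)]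
  refine integral_congr_ae (Eventually.of_forall (fun q => ?_))
  simp only [Pi.sub_apply]
  ring

theorem TR_sub₂ {F F' G H : ℝ × ℝ → ℝ} (hF : MemLp F 3 volume) (hF' : MemLp F' 3 volume)
    (hG : MemLp G 3 volume) (hH : MemLp H 3 volume) {ε R : ℝ} (hε : 0 < ε) (hR : ε < R) :
    TR G H (F - F') ε R = TR G H F ε R - TR G H F' ε R := by
  rw [thr4_TR_eq hG hH (hF.sub hF') hε hR, thr4_TR_eq hG hH hF hε hR, thr4_TR_eq hG hH hF' hε hR,
    ← integral_sub (TR_integrable hG hH hF hε hR) (TR_integrable hG hH hF' hε hR)]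
  refine integral_congr_ae (Eventually.of_forall (fun q => ?_))
  simp only [Pi.sub_apply]
  ring

/-! ### step functions -/

theorem thr4_cell (L : ℕ) {N : ℕ} (a : Fin (2 * N)) (x : ℝ) :
    x ∈ Ico (lft ((2 : ℝ) ^ (-(L : ℤ))) a) (lft ((2 : ℝ) ^ (-(L : ℤ))) a + (2 : ℝ) ^ (-(L : ℤ))) ↔
      ⌊(2 : ℝ) ^ L * x⌋ = (a : ℤ) - N := by
  have hp : (0 : ℝ) < 2 ^ L := by positivity
  have he : (2 : ℝ) ^ (-(L : ℤ)) = ((2 : ℝ) ^ L)⁻¹ := by rw [_root_.zpow_neg, zpow_natCast]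
  rw [Int.floor_eq_iff, lft, he, mem_Ico]
  push_cast
  have e1 : (((a : ℕ) : ℝ) - N) * ((2 : ℝ) ^ L)⁻¹ ≤ x ↔ ((a : ℕ) : ℝ) - N ≤ 2 ^ L * x := by
    rw [← div_eq_mul_inv, div_le_iff₀ hp, mul_comm x]
  have e2 : x < (((a : ℕ) : ℝ) - N) * ((2 : ℝ) ^ L)⁻¹ + ((2 : ℝ) ^ L)⁻¹ ↔
      2 ^ L * x < ((a : ℕ) : ℝ) - N + 1 := by
    rw [← add_one_mul, ← div_eq_mul_inv, lt_div_iff₀ hp, mul_comm x]
  rw [e1, e2]

open Classical in
/-- indicator of a cell -/
noncomputable def thr4_ci (L : ℕ) {N : ℕ} (a : Fin (2 * N)) (x : ℝ) : ℝ :=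
  if ⌊(2 : ℝ) ^ L * x⌋ = (a : ℤ) - N then 1 else 0

theorem thr4_ci_eq (L : ℕ) {N : ℕ} (a : Fin (2 * N)) :
    thr4_ci L a = (Ico (lft ((2 : ℝ) ^ (-(L : ℤ))) a) (lft ((2 : ℝ) ^ (-(L : ℤ))) a +
      (2 : ℝ) ^ (-(L : ℤ)))).indicator (fun _ => (1 : ℝ)) := by
  funext x
  unfold thr4_ci indicator
  by_cases h : ⌊(2 : ℝ) ^ L * x⌋ = (a : ℤ) - N
  · rw [if_pos h, if_pos ((thr4_cell L a x).2 h)]
  · rw [if_neg h, if_neg (fun h' => h ((thr4_cell L a x).1 h'))]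

theorem thr4_ci_int (L : ℕ) {N : ℕ} (a : Fin (2 * N)) : Integrable (thr4_ci L a) := by
  rw [thr4_ci_eq, integrable_indicator_iff measurableSet_Ico]
  exact integrableOn_const (by simp) (by simp)

/-- every point is in a cell or out of range -/
theorem thr4_cases (L N : ℕ) (x : ℝ) :
    (∃ k : Fin (2 * N), ⌊(2 : ℝ) ^ L * x⌋ = (k : ℤ) - N) ∨
      ((⌊(2 : ℝ) ^ L * x⌋ < -N ∨ (N : ℤ) ≤ ⌊(2 : ℝ) ^ L * x⌋) ∧
        ∀ k : Fin (2 * N), thr4_ci L k x = 0) := by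
  by_cases h : ⌊(2 : ℝ) ^ L * x⌋ < -N ∨ (N : ℤ) ≤ ⌊(2 : ℝ) ^ L * x⌋
  · right
    refine ⟨h, fun k => ?_⟩
    unfold thr4_ci
    rw [if_neg]
    intro e
    have := k.2
    rcases h with h | h <;> omega
  · left
    push Not at h
    refine ⟨⟨(⌊(2 : ℝ) ^ L * x⌋ + N).toNat, by omega⟩, ?_⟩
    show _ = (((⌊(2 : ℝ) ^ L * x⌋ + N).toNat : ℕ) : ℤ) - N
    omega

theorem thr4_ci_of (L : ℕ) {N : ℕ} {x : ℝ} {k : Fin (2 * N)}
    (h : ⌊(2 : ℝ) ^ L * x⌋ = (k : ℤ) - N) (j : Fin (2 * N)) :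
    thr4_ci L j x = if j = k then 1 else 0 := by
  unfold thr4_ci
  by_cases hj : j = k
  · subst hj; rw [if_pos h, if_pos rfl]
  · rw [if_neg, if_neg hj]
    intro e
    apply hj
    apply Fin.ext
    omega

theorem thr4_stepZ_eq (L N : ℕ) {f : ℤ → ℤ → ℝ} (hf : FinSupp N f) (x y : ℝ) :
    stepZ L f (x, y) = ∑ a, ∑ b, toM N f a b * (thr4_ci L a x * thr4_ci L b y) := by
  unfold stepZ
  show f ⌊(2 : ℝ) ^ L * x⌋ ⌊(2 : ℝ) ^ L * y⌋ = _
  rcases thr4_cases L N x with ⟨a, ha⟩ | ⟨h, h0⟩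
  · rcases thr4_cases L N y with ⟨b, hb⟩ | ⟨h, h0⟩
    · simp only [thr4_ci_of L ha, thr4_ci_of L hb]
      simp [toM, ha, hb]
    · rw [hf _ _ (by tauto)]
      simp [h0]
  · rw [hf _ _ (by tauto)]
    simp [h0]

theorem thr4_triple (L N : ℕ) {f₀ f₁ h : ℤ → ℤ → ℝ} (h₀ : FinSupp N f₀) (h₁ : FinSupp N f₁)
    (hh : FinSupp N h) (x₀ x₁ x₂ : ℝ) :
    stepZ L h (x₂, x₀) * (stepZ L f₀ (x₀, x₁) * stepZ L f₁ (x₁, x₂)) =
      ∑ k₀, ∑ k₁, ∑ k₂, (toM N f₀ k₀ k₁ * toM N f₁ k₁ k₂ * toM N h k₂ k₀) *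
        (thr4_ci L k₂ x₂ * thr4_ci L k₀ x₀ * thr4_ci L k₁ x₁) := by
  unfold stepZ
  show h ⌊(2 : ℝ) ^ L * x₂⌋ ⌊(2 : ℝ) ^ L * x₀⌋ * (f₀ ⌊(2 : ℝ) ^ L * x₀⌋ ⌊(2 : ℝ) ^ L * x₁⌋ *
    f₁ ⌊(2 : ℝ) ^ L * x₁⌋ ⌊(2 : ℝ) ^ L * x₂⌋) = _
  rcases thr4_cases L N x₀ with ⟨a, ha⟩ | ⟨hx, hx0⟩
  · rcases thr4_cases L N x₁ with ⟨b, hb⟩ | ⟨hx, hx0⟩
    · rcases thr4_cases L N x₂ with ⟨c, hc⟩ | ⟨hx, hx0⟩
      · simp only [thr4_ci_of L ha, thr4_ci_of L hb, thr4_ci_of L hc]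
        simp [toM, ha, hb, hc]
        ring
      · rw [hh _ _ (by tauto)]
        simp [hx0]
    · rw [h₀ _ _ (by tauto)]
      simp [hx0]
  · rw [hh _ _ (by tauto)]
    simp [hx0]

theorem thr4_stepZ_measurable (L : ℕ) (f : ℤ → ℤ → ℝ) : Measurable (stepZ L f) := by
  have h1 : Measurable (fun p : ℤ × ℤ => f p.1 p.2) := measurable_of_countable _
  have h2 : Measurable (fun z : ℝ × ℝ => (⌊(2 : ℝ) ^ L * z.1⌋, ⌊(2 : ℝ) ^ L * z.2⌋)) := by
    refine Measurable.prodMk ?_ ?_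
    · exact Int.measurable_floor.comp (by fun_prop)
    · exact Int.measurable_floor.comp (by fun_prop)
  exact h1.comp h2

theorem thr4_mpF : MeasurePreserving (fun z : ℝ × ℝ => (z.2, -z.1 - z.2)) volume volume := by
  have h1 : MeasurePreserving (Prod.swap : ℝ × ℝ → ℝ × ℝ) volume volume := by
    rw [Measure.volume_eq_prod]; exact Measure.measurePreserving_swap
  have h2 : MeasurePreserving (fun z : ℝ × ℝ => (z.1, z.1 + z.2)) volume volume := by
    rw [Measure.volume_eq_prod]; exact measurePreserving_prod_add _ _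
  have h3 : MeasurePreserving (Prod.map id Neg.neg : ℝ × ℝ → ℝ × ℝ) volume volume := by
    rw [Measure.volume_eq_prod]
    exact (MeasurePreserving.id _).prod (Measure.measurePreserving_neg _)
  have h := (h3.comp h2).comp h1
  convert h using 1
  funext z
  simp only [Function.comp, Prod.swap, Prod.map, id]
  ext <;> simp; ring

theorem thr4_mpG : MeasurePreserving (fun z : ℝ × ℝ => (-z.1 - z.2, z.1)) volume volume := by
  have h1 : MeasurePreserving (Prod.swap : ℝ × ℝ → ℝ × ℝ) volume volume := by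
    rw [Measure.volume_eq_prod]; exact Measure.measurePreserving_swap
  have h2 : MeasurePreserving (fun z : ℝ × ℝ => (z.1, z.1 + z.2)) volume volume := by
    rw [Measure.volume_eq_prod]; exact measurePreserving_prod_add _ _
  have h3 : MeasurePreserving (Prod.map Neg.neg id : ℝ × ℝ → ℝ × ℝ) volume volume := by
    rw [Measure.volume_eq_prod]
    exact (Measure.measurePreserving_neg _).prod (MeasurePreserving.id _)
  have h := (h3.comp h1).comp h2
  convert h using 1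
  funext z
  simp only [Function.comp, Prod.swap, Prod.map, id]
  ext
  · simp; ring
  · simp

theorem thr4_lint_step (L N : ℕ) {f : ℤ → ℤ → ℝ} (hf : FinSupp N f) :
    ∫⁻ z, ‖stepZ L f z‖ₑ ^ (3 : ℝ) = ENNReal.ofReal (n3 ((2 : ℝ) ^ (-(L : ℤ))) (toM N f)) := by
  have hη : (0 : ℝ) < (2 : ℝ) ^ (-(L : ℤ)) := by positivity
  have e : ∀ z : ℝ × ℝ, ‖stepZ L f z‖ₑ ^ (3 : ℝ) =
      ∑ a, ∑ b, ENNReal.ofReal (|toM N f a b| ^ 3) *
        ((Ico (lft ((2 : ℝ) ^ (-(L : ℤ))) a) (lft ((2 : ℝ) ^ (-(L : ℤ))) a + (2 : ℝ) ^ (-(L : ℤ)))) ×ˢ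
          (Ico (lft ((2 : ℝ) ^ (-(L : ℤ))) b) (lft ((2 : ℝ) ^ (-(L : ℤ))) b +
            (2 : ℝ) ^ (-(L : ℤ))))).indicator (fun _ => (1 : ℝ≥0∞)) z := by
    rintro ⟨x, y⟩
    have hi : ∀ a b : Fin (2 * N),
        ((Ico (lft ((2 : ℝ) ^ (-(L : ℤ))) a) (lft ((2 : ℝ) ^ (-(L : ℤ))) a + (2 : ℝ) ^ (-(L : ℤ)))) ×ˢ
          (Ico (lft ((2 : ℝ) ^ (-(L : ℤ))) b) (lft ((2 : ℝ) ^ (-(L : ℤ))) b +
            (2 : ℝ) ^ (-(L : ℤ))))).indicator (fun _ => (1 : ℝ≥0∞)) (x, y) =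
          if (⌊(2 : ℝ) ^ L * x⌋ = (a : ℤ) - N ∧ ⌊(2 : ℝ) ^ L * y⌋ = (b : ℤ) - N) then 1 else 0 := by
      intro a b
      rw [indicator_apply]
      simp only [mem_prod, thr4_cell]
    simp only [hi]
    unfold stepZ
    show ‖f ⌊(2 : ℝ) ^ L * x⌋ ⌊(2 : ℝ) ^ L * y⌋‖ₑ ^ (3 : ℝ) = _
    have h3 : ∀ u : ℝ, ‖u‖ₑ ^ (3 : ℝ) = ENNReal.ofReal (|u| ^ 3) := by
      intro u
      rw [← Real.enorm_abs, Real.enorm_eq_ofReal (abs_nonneg u), ENNReal.ofReal_pow (abs_nonneg u)]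
      norm_cast
    rw [h3]
    rcases thr4_cases L N x with ⟨a, ha⟩ | ⟨h, h0⟩
    · rcases thr4_cases L N y with ⟨b, hb⟩ | ⟨h, h0⟩
      · rw [Finset.sum_eq_single a, Finset.sum_eq_single b]
        · simp [toM, ha, hb]
        · intro j _ hj
          rw [if_neg, mul_zero]
          rintro ⟨_, h2⟩
          apply hj
          apply Fin.ext
          omega
        · simp
        · intro j _ hj
          refine Finset.sum_eq_zero (fun i _ => ?_)
          rw [if_neg, mul_zero]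
          rintro ⟨h2, _⟩
          apply hj
          apply Fin.ext
          omega
        · simp
      · rw [hf _ _ (by tauto)]
        symm
        simp only [abs_zero, ne_eq, OfNat.ofNat_ne_zero, not_false_eq_true, zero_pow,
          ENNReal.ofReal_zero]
        refine Finset.sum_eq_zero (fun i _ => Finset.sum_eq_zero (fun j _ => ?_))
        rw [if_neg, mul_zero]
        rintro ⟨_, h2⟩
        have := h0 j
        unfold thr4_ci at this
        rw [if_pos h2] at this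
        norm_num at this
    · rw [hf _ _ (by tauto)]
      symm
      simp only [abs_zero, ne_eq, OfNat.ofNat_ne_zero, not_false_eq_true, zero_pow,
        ENNReal.ofReal_zero]
      refine Finset.sum_eq_zero (fun i _ => Finset.sum_eq_zero (fun j _ => ?_))
      rw [if_neg, mul_zero]
      rintro ⟨h2, _⟩
      have := h0 i
      unfold thr4_ci at this
      rw [if_pos h2] at this
      norm_num at this
  simp_rw [e]
  rw [lintegral_finsetSum _ (fun a _ => by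
    refine Finset.measurable_fun_sum _ (fun b _ => ?_)
    exact measurable_const.mul (measurable_const.indicator (measurableSet_Ico.prod measurableSet_Ico)))]
  have hv : ∀ a b : Fin (2 * N), (volume : Measure (ℝ × ℝ))
      ((Ico (lft ((2 : ℝ) ^ (-(L : ℤ))) a) (lft ((2 : ℝ) ^ (-(L : ℤ))) a + (2 : ℝ) ^ (-(L : ℤ)))) ×ˢ
          (Ico (lft ((2 : ℝ) ^ (-(L : ℤ))) b) (lft ((2 : ℝ) ^ (-(L : ℤ))) b +
            (2 : ℝ) ^ (-(L : ℤ))))) = ENNReal.ofReal (((2 : ℝ) ^ (-(L : ℤ))) ^ 2) := by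
    intro a b
    rw [Measure.volume_eq_prod, Measure.prod_prod, Real.volume_Ico, Real.volume_Ico,
      add_sub_cancel_left, add_sub_cancel_left, ← ENNReal.ofReal_mul hη.le, sq]
  have h4 : ∀ a : Fin (2 * N), ∫⁻ z : ℝ × ℝ, ∑ b, ENNReal.ofReal (|toM N f a b| ^ 3) *
        ((Ico (lft ((2 : ℝ) ^ (-(L : ℤ))) a) (lft ((2 : ℝ) ^ (-(L : ℤ))) a + (2 : ℝ) ^ (-(L : ℤ)))) ×ˢ
          (Ico (lft ((2 : ℝ) ^ (-(L : ℤ))) b) (lft ((2 : ℝ) ^ (-(L : ℤ))) b +
            (2 : ℝ) ^ (-(L : ℤ))))).indicator (fun _ => (1 : ℝ≥0∞)) z =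
      ENNReal.ofReal (∑ b, |toM N f a b| ^ 3 * ((2 : ℝ) ^ (-(L : ℤ))) ^ 2) := by
    intro a
    rw [lintegral_finsetSum _ (fun b _ => by
      exact measurable_const.mul
        (measurable_const.indicator (measurableSet_Ico.prod measurableSet_Ico)))]
    rw [ENNReal.ofReal_sum_of_nonneg (fun b _ => by positivity)]
    refine Finset.sum_congr rfl (fun b _ => ?_)
    rw [lintegral_const_mul _ (measurable_const.indicator (measurableSet_Ico.prod measurableSet_Ico)),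
      lintegral_indicator (measurableSet_Ico.prod measurableSet_Ico), lintegral_const, one_mul,
      Measure.restrict_apply MeasurableSet.univ, univ_inter, hv, ENNReal.ofReal_mul (by positivity)]
  simp_rw [h4]
  rw [← ENNReal.ofReal_sum_of_nonneg (fun a _ => Finset.sum_nonneg (fun b _ => by positivity))]
  congr 1
  unfold n3
  simp_rw [← Finset.sum_mul]
  ring

theorem thr4_eLpNorm_step (L N : ℕ) {f : ℤ → ℤ → ℝ} (hf : FinSupp N f) :
    eLpNorm (stepZ L f) 3 volume = ENNReal.ofReal (n3 ((2 : ℝ) ^ (-(L : ℤ))) (toM N f) ^ (1 / 3 : ℝ)) := by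
  have hn : 0 ≤ n3 ((2 : ℝ) ^ (-(L : ℤ))) (toM N f) := by
    unfold n3
    positivity
  rw [eLpNorm_eq_lintegral_rpow_enorm_toReal (by norm_num) (by norm_num)]
  have : (3 : ℝ≥0∞).toReal = 3 := by norm_num
  rw [this, thr4_lint_step L N hf, ENNReal.ofReal_rpow_of_nonneg hn (by norm_num)]

/-- norms: the linear maps `(a,b) ↦ (b,-a-b)`, `(-a-b,a)` preserve the measure -/
theorem eLpNorm_rot (L N : ℕ) {f : ℤ → ℤ → ℝ} (hf : FinSupp N f) :
    (eLpNorm (stepZ L f) 3 volume).toReal = n3 ((2 : ℝ) ^ (-(L : ℤ))) (toM N f) ^ (1 / 3 : ℝ) ∧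
    (eLpNorm (rotF L f) 3 volume).toReal = n3 ((2 : ℝ) ^ (-(L : ℤ))) (toM N f) ^ (1 / 3 : ℝ) ∧
    (eLpNorm (rotG L f) 3 volume).toReal = n3 ((2 : ℝ) ^ (-(L : ℤ))) (toM N f) ^ (1 / 3 : ℝ) ∧
    MemLp (stepZ L f) 3 volume ∧ MemLp (rotF L f) 3 volume ∧ MemLp (rotG L f) 3 volume := by
  have hn : 0 ≤ n3 ((2 : ℝ) ^ (-(L : ℤ))) (toM N f) ^ (1 / 3 : ℝ) := by
    apply Real.rpow_nonneg
    unfold n3
    positivity
  have hs := thr4_eLpNorm_step L N hf
  have hsm : AEStronglyMeasurable (stepZ L f) volume := (thr4_stepZ_measurable L f).aestronglyMeasurable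
  have hF : eLpNorm (rotF L f) 3 volume = eLpNorm (stepZ L f) 3 volume :=
    eLpNorm_comp_measurePreserving hsm thr4_mpF
  have hG : eLpNorm (rotG L f) 3 volume = eLpNorm (stepZ L f) 3 volume :=
    eLpNorm_comp_measurePreserving hsm thr4_mpG
  have hm : MemLp (stepZ L f) 3 volume := ⟨hsm, by rw [hs]; exact ENNReal.ofReal_lt_top⟩
  refine ⟨?_, ?_, ?_, hm, ?_, ?_⟩
  · rw [hs, ENNReal.toReal_ofReal hn]
  · rw [hF, hs, ENNReal.toReal_ofReal hn]
  · rw [hG, hs, ENNReal.toReal_ofReal hn]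
  · exact hm.comp_measurePreserving thr4_mpF
  · exact hm.comp_measurePreserving thr4_mpG

/-! ### the trilinear form on step functions -/

theorem thr4_int3 {κ : ℝ → ℝ} (hm : Measurable κ) {C : ℝ} (hC : ∀ t, |κ t| ≤ C)
    {a b c : ℝ → ℝ} (ha : Integrable a) (hb : Integrable b) (hc : Integrable c) :
    Integrable (fun q : (ℝ × ℝ) × ℝ => (c q.1.1 * a q.1.2 * b q.2) * κ (q.1.1 + q.1.2 + q.2)) ∧
    ∫ q : (ℝ × ℝ) × ℝ, (c q.1.1 * a q.1.2 * b q.2) * κ (q.1.1 + q.1.2 + q.2) =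
      ∫ x₀, a x₀ * ∫ x₁, b x₁ * ∫ x₂, c x₂ * κ (x₀ + x₁ + x₂) := by
  have i1 : Integrable (fun q : (ℝ × ℝ) × ℝ => (c q.1.1 * a q.1.2) * b q.2) := by
    rw [Measure.volume_eq_prod (ℝ × ℝ) ℝ]
    refine Integrable.mul_prod (f := fun z : ℝ × ℝ => c z.1 * a z.2) ?_ hb
    rw [Measure.volume_eq_prod ℝ ℝ]
    exact hc.mul_prod ha
  have i2 : Integrable (fun q : (ℝ × ℝ) × ℝ =>
      (c q.1.1 * a q.1.2 * b q.2) * κ (q.1.1 + q.1.2 + q.2)) := by
    refine i1.mul_bdd (c := C) ?_ ?_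
    · exact (hm.comp (by fun_prop)).aestronglyMeasurable
    · exact Eventually.of_forall (fun q => by rw [Real.norm_eq_abs]; exact hC _)
  refine ⟨i2, ?_⟩
  -- the permuted function
  let Ψ : ℝ × (ℝ × ℝ) → ℝ := fun p => a p.1 * (b p.2.1 * (c p.2.2 * κ (p.1 + p.2.1 + p.2.2)))
  have j1 : Integrable (fun p : ℝ × (ℝ × ℝ) => a p.1 * (b p.2.1 * c p.2.2)) := by
    rw [Measure.volume_eq_prod ℝ (ℝ × ℝ)]
    refine Integrable.mul_prod (g := fun z : ℝ × ℝ => b z.1 * c z.2) ha ?_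
    rw [Measure.volume_eq_prod ℝ ℝ]
    exact hb.mul_prod hc
  have j2 : Integrable Ψ := by
    have := j1.mul_bdd (c := C) (g := fun p : ℝ × (ℝ × ℝ) => κ (p.1 + p.2.1 + p.2.2))
      ((hm.comp (by fun_prop)).aestronglyMeasurable)
      (Eventually.of_forall (fun q => by rw [Real.norm_eq_abs]; exact hC _))
    refine this.congr (Eventually.of_forall (fun p => ?_))
    show a p.1 * (b p.2.1 * c p.2.2) * κ (p.1 + p.2.1 + p.2.2) =
      a p.1 * (b p.2.1 * (c p.2.2 * κ (p.1 + p.2.1 + p.2.2)))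
    ring
  have m1 : MeasurePreserving (MeasurableEquiv.prodAssoc : (ℝ × ℝ) × ℝ ≃ᵐ ℝ × (ℝ × ℝ)) volume volume :=
    volume_preserving_prodAssoc
  have m2 : MeasurePreserving (MeasurableEquiv.prodComm : ℝ × (ℝ × ℝ) ≃ᵐ (ℝ × ℝ) × ℝ) volume volume := by
    have h := Measure.measurePreserving_swap (μ := (volume : Measure ℝ)) (ν := (volume : Measure (ℝ × ℝ)))
    rw [← Measure.volume_eq_prod ℝ (ℝ × ℝ), ← Measure.volume_eq_prod (ℝ × ℝ) ℝ] at h
    exact h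
  have e : ∫ q : (ℝ × ℝ) × ℝ, (c q.1.1 * a q.1.2 * b q.2) * κ (q.1.1 + q.1.2 + q.2) = ∫ p, Ψ p := by
    rw [← m1.integral_comp' Ψ, ← m2.integral_comp' (fun p => Ψ (MeasurableEquiv.prodAssoc p)),
      ← m1.integral_comp' (fun p => Ψ (MeasurableEquiv.prodAssoc (MeasurableEquiv.prodComm p)))]
    refine integral_congr_ae (Eventually.of_forall (fun q => ?_))
    show _ = a q.1.2 * (b q.2 * (c q.1.1 * κ (q.1.2 + q.2 + q.1.1)))
    have : q.1.2 + q.2 + q.1.1 = q.1.1 + q.1.2 + q.2 := by ring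
    rw [this]
    ring
  rw [e, Measure.volume_eq_prod ℝ (ℝ × ℝ), integral_prod _ (by
    rw [← Measure.volume_eq_prod ℝ (ℝ × ℝ)]; exact j2)]
  refine integral_congr_ae (Eventually.of_forall (fun x₀ => ?_))
  show ∫ y : ℝ × ℝ, a x₀ * (b y.1 * (c y.2 * κ (x₀ + y.1 + y.2))) = _
  rw [integral_const_mul]
  congr 1
  have k1 : Integrable (fun y : ℝ × ℝ => b y.1 * (c y.2 * κ (x₀ + y.1 + y.2))) := by
    have k0 : Integrable (fun y : ℝ × ℝ => b y.1 * c y.2) := by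
      rw [Measure.volume_eq_prod ℝ ℝ]
      exact hb.mul_prod hc
    have := k0.mul_bdd (c := C) (g := fun p : ℝ × ℝ => κ (x₀ + p.1 + p.2))
      ((hm.comp (by fun_prop)).aestronglyMeasurable)
      (Eventually.of_forall (fun q => by rw [Real.norm_eq_abs]; exact hC _))
    refine this.congr (Eventually.of_forall (fun p => ?_))
    show b p.1 * c p.2 * κ (x₀ + p.1 + p.2) = b p.1 * (c p.2 * κ (x₀ + p.1 + p.2))
    ring
  rw [Measure.volume_eq_prod ℝ ℝ, integral_prod _ (by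
    rw [← Measure.volume_eq_prod ℝ ℝ]; exact k1)]
  refine integral_congr_ae (Eventually.of_forall (fun x₁ => ?_))
  show ∫ y : ℝ, b x₁ * (c y * κ (x₀ + x₁ + y)) = _
  rw [integral_const_mul]

theorem thr4_kap_bdd {ε R : ℝ} (hε : 0 < ε) (t : ℝ) : |kap ε R t| ≤ 1 / ε := by
  unfold kap
  split_ifs with h
  · rw [abs_div, abs_one]
    exact one_div_le_one_div_of_le hε h.1.le
  · rw [abs_zero]; positivity

theorem thr4_kap_neg (ε R t : ℝ) : kap ε R (-t) = - kap ε R t := by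
  unfold kap
  rw [abs_neg]
  split_ifs with h
  · rw [div_neg]
  · simp

theorem thr4_interval (L : ℕ) {N : ℕ} (k : Fin (2 * N)) (g : ℝ → ℝ) :
    ∫ x in (lft ((2 : ℝ) ^ (-(L : ℤ))) k)..(lft ((2 : ℝ) ^ (-(L : ℤ))) k + (2 : ℝ) ^ (-(L : ℤ))), g x =
      ∫ x, thr4_ci L k x * g x := by
  have hη : (0 : ℝ) < (2 : ℝ) ^ (-(L : ℤ)) := by positivity
  rw [intervalIntegral.integral_of_le (by linarith), integral_Ioc_eq_integral_Ioo,
    ← integral_Ico_eq_integral_Ioo, ← integral_indicator measurableSet_Ico]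
  refine integral_congr_ae (Eventually.of_forall (fun x => ?_))
  show _ = thr4_ci L k x * g x
  rw [thr4_ci_eq]
  by_cases h : x ∈ Ico (lft ((2 : ℝ) ^ (-(L : ℤ))) k) (lft ((2 : ℝ) ^ (-(L : ℤ))) k +
      (2 : ℝ) ^ (-(L : ℤ)))
  · rw [indicator_of_mem h, indicator_of_mem h, one_mul]
  · rw [indicator_of_notMem h, indicator_of_notMem h, zero_mul]

theorem thr4_Jc (L : ℕ) {N : ℕ} (k₀ k₁ k₂ : Fin (2 * N)) (κ : ℝ → ℝ) :
    Jc ((2 : ℝ) ^ (-(L : ℤ))) k₀ k₁ k₂ κ =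
      ∫ x₀, thr4_ci L k₀ x₀ * ∫ x₁, thr4_ci L k₁ x₁ * ∫ x₂, thr4_ci L k₂ x₂ * κ (x₀ + x₁ + x₂) := by
  unfold Jc
  rw [thr4_interval]
  refine integral_congr_ae (Eventually.of_forall (fun x₀ => ?_))
  show thr4_ci L k₀ x₀ * _ = thr4_ci L k₀ x₀ * _
  rw [thr4_interval]
  congr 1
  refine integral_congr_ae (Eventually.of_forall (fun x₁ => ?_))
  show thr4_ci L k₁ x₁ * _ = thr4_ci L k₁ x₁ * _
  rw [thr4_interval]

/-- On step functions, with `η = 2^{-L}`: substitute `x₂ = z.1`, `x₀ = z.2`, `x₁ = -z.1-z.2-t`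
(`kap` is odd). -/
theorem TR_step (L N : ℕ) {f₀ f₁ h : ℤ → ℤ → ℝ} (h₀ : FinSupp N f₀) (h₁ : FinSupp N f₁) (hh : FinSupp N h)
    {ε R : ℝ} (hε : 0 < ε) (hR : ε < R) :
    TR (rotF L f₀) (rotG L f₁) (stepZ L h) ε R =
      -TS ((2 : ℝ) ^ (-(L : ℤ))) (toM N f₀) (toM N f₁) (toM N h) (fun _ _ t => kap ε R t) := by
  have hF := (eLpNorm_rot L N h₀).2.2.2.2.1
  have hG := (eLpNorm_rot L N h₁).2.2.2.2.2
  have hH := (eLpNorm_rot L N hh).2.2.2.1
  have key := fun k₀ k₁ k₂ : Fin (2 * N) => thr4_int3 (thr4_kap_measurable ε R)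
    (thr4_kap_bdd (R := R) hε) (thr4_ci_int L k₀) (thr4_ci_int L k₁) (thr4_ci_int L k₂)
  have hpt : ∀ z : ℝ × ℝ, ∫ t, stepZ L h z * (rotF L f₀ (z.1 + t, z.2) * rotG L f₁ (z.1, z.2 + t) *
      kap ε R t) = ∫ x₁, ∑ k₀, ∑ k₁, ∑ k₂, (-(toM N f₀ k₀ k₁ * toM N f₁ k₁ k₂ * toM N h k₂ k₀)) *
        ((thr4_ci L k₂ z.1 * thr4_ci L k₀ z.2 * thr4_ci L k₁ x₁) * kap ε R (z.1 + z.2 + x₁)) := by
    intro z
    rw [← integral_sub_left_eq_self (fun t => stepZ L h z * (rotF L f₀ (z.1 + t, z.2) *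
      rotG L f₁ (z.1, z.2 + t) * kap ε R t)) volume (-z.1 - z.2)]
    refine integral_congr_ae (Eventually.of_forall (fun x₁ => ?_))
    have e1 : rotF L f₀ (z.1 + (-z.1 - z.2 - x₁), z.2) = stepZ L f₀ (z.2, x₁) := by
      unfold rotF
      congr 1
      ext <;> simp; ring
    have e2 : rotG L f₁ (z.1, z.2 + (-z.1 - z.2 - x₁)) = stepZ L f₁ (x₁, z.1) := by
      unfold rotG
      congr 1
      ext <;> simp; ring
    have e3 : kap ε R (-z.1 - z.2 - x₁) = - kap ε R (z.1 + z.2 + x₁) := by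
      rw [← thr4_kap_neg]; congr 1; ring
    show stepZ L h z * (rotF L f₀ (z.1 + (-z.1 - z.2 - x₁), z.2) *
      rotG L f₁ (z.1, z.2 + (-z.1 - z.2 - x₁)) * kap ε R (-z.1 - z.2 - x₁)) = _
    rw [e1, e2, e3]
    have e4 := thr4_triple L N h₀ h₁ hh z.2 x₁ z.1
    have e5 : stepZ L h z * (stepZ L f₀ (z.2, x₁) * stepZ L f₁ (x₁, z.1) * -kap ε R (z.1 + z.2 + x₁)) =
      (stepZ L h (z.1, z.2) * (stepZ L f₀ (z.2, x₁) * stepZ L f₁ (x₁, z.1))) *
        (-kap ε R (z.1 + z.2 + x₁)) := by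
      rw [Prod.mk.eta]; ring
    rw [e5, e4]
    simp_rw [Finset.sum_mul]
    refine Finset.sum_congr rfl (fun k₀ _ => Finset.sum_congr rfl (fun k₁ _ =>
      Finset.sum_congr rfl (fun k₂ _ => ?_)))
    ring
  have hint : ∀ k₀ k₁ k₂ : Fin (2 * N), Integrable (fun q : (ℝ × ℝ) × ℝ =>
      (-(toM N f₀ k₀ k₁ * toM N f₁ k₁ k₂ * toM N h k₂ k₀)) *
        ((thr4_ci L k₂ q.1.1 * thr4_ci L k₀ q.1.2 * thr4_ci L k₁ q.2) *
          kap ε R (q.1.1 + q.1.2 + q.2))) := fun k₀ k₁ k₂ => (key k₀ k₁ k₂).1.const_mul _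
  have hTR : TR (rotF L f₀) (rotG L f₁) (stepZ L h) ε R = ∫ q : (ℝ × ℝ) × ℝ,
      ∑ k₀, ∑ k₁, ∑ k₂, (-(toM N f₀ k₀ k₁ * toM N f₁ k₁ k₂ * toM N h k₂ k₀)) *
        ((thr4_ci L k₂ q.1.1 * thr4_ci L k₀ q.1.2 * thr4_ci L k₁ q.2) *
          kap ε R (q.1.1 + q.1.2 + q.2)) := by
    have hsum : Integrable (fun q : (ℝ × ℝ) × ℝ =>
      ∑ k₀, ∑ k₁, ∑ k₂, (-(toM N f₀ k₀ k₁ * toM N f₁ k₁ k₂ * toM N h k₂ k₀)) *
        ((thr4_ci L k₂ q.1.1 * thr4_ci L k₀ q.1.2 * thr4_ci L k₁ q.2) *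
          kap ε R (q.1.1 + q.1.2 + q.2))) :=
      integrable_finsetSum _ (fun k₀ _ => integrable_finsetSum _ (fun k₁ _ =>
        integrable_finsetSum _ (fun k₂ _ => hint k₀ k₁ k₂)))
    rw [Measure.volume_eq_prod (ℝ × ℝ) ℝ, integral_prod _ (by
      rw [← Measure.volume_eq_prod (ℝ × ℝ) ℝ]; exact hsum)]
    unfold TR BR
    refine integral_congr_ae (Eventually.of_forall (fun z => ?_))
    show stepZ L h z * ∫ t, rotF L f₀ (z.1 + t, z.2) * rotG L f₁ (z.1, z.2 + t) * kap ε R t = _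
    rw [← integral_const_mul, hpt]
  rw [hTR, integral_finsetSum _ (fun k₀ _ => integrable_finsetSum _ (fun k₁ _ =>
        integrable_finsetSum _ (fun k₂ _ => hint k₀ k₁ k₂)))]
  unfold TS
  rw [← Finset.sum_neg_distrib]
  refine Finset.sum_congr rfl (fun k₀ _ => ?_)
  rw [integral_finsetSum _ (fun k₁ _ => integrable_finsetSum _ (fun k₂ _ => hint k₀ k₁ k₂)),
    ← Finset.sum_neg_distrib]
  refine Finset.sum_congr rfl (fun k₁ _ => ?_)
  rw [integral_finsetSum _ (fun k₂ _ => hint k₀ k₁ k₂), ← Finset.sum_neg_distrib]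
  refine Finset.sum_congr rfl (fun k₂ _ => ?_)
  rw [integral_const_mul, (key k₀ k₁ k₂).2, thr4_Jc]
  ring

end Crest.Agent.TH
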