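import Crest.Agent.TH_R4
import Crest.Agent.TH_Core

/-! # TH_R5 (task TH-R5): the inequality for step functions -/

set_option autoImplicit false
open Matrix MeasureTheory Set Filter
open scoped Topology ENNReal

namespace Crest.Agent.TH

theorem r5_sel_sum (S : Finset ℝ) {x : ℝ} (hx : x ∈ S) (G : ℝ → ℝ) :
    ∑ q : Fin S.card, (if (S.orderEmbOfFin rfl) q = x then (1 : ℝ) else 0) * G ((S.orderEmbOfFin rfl) q) =
      G x := by
  classical
  have hmem : x ∈ Set.range (S.orderEmbOfFin rfl) := by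
    rw [Finset.range_orderEmbOfFin]; exact hx
  obtain ⟨p, hp⟩ := hmem
  rw [Finset.sum_eq_single p]
  · simp [hp]
  · intro q _ hq
    have : (S.orderEmbOfFin rfl) q ≠ x := by
      intro h
      exact hq ((S.orderEmbOfFin rfl).injective (h.trans hp.symm))
    simp [this]
  · intro h; exact absurd (Finset.mem_univ _) h

/-- the jumps of one choice -/
noncomputable def r5a {n : ℕ} (S : Finset ℝ) (c : Choice n) (q : Fin S.card) : ℝ :=
  ∑ i, c.σ i * ((if (S.orderEmbOfFin rfl) q = c.ε i then (1 : ℝ) else 0) -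
    (if (S.orderEmbOfFin rfl) q = c.R i then (1 : ℝ) else 0))

theorem r5a_sum {n : ℕ} (S : Finset ℝ) (c : Choice n) (h1 : ∀ i, c.ε i ∈ S) (h2 : ∀ i, c.R i ∈ S)
    (G : ℝ → ℝ) :
    ∑ q, r5a S c q * G ((S.orderEmbOfFin rfl) q) = ∑ i, c.σ i * (G (c.ε i) - G (c.R i)) := by
  unfold r5a
  simp_rw [Finset.sum_mul]
  rw [Finset.sum_comm]
  refine Finset.sum_congr rfl (fun i _ => ?_)
  have e1 := r5_sel_sum S (h1 i) G
  have e2 := r5_sel_sum S (h2 i) G
  rw [← e1, ← e2, ← Finset.sum_sub_distrib, Finset.mul_sum]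
  refine Finset.sum_congr rfl (fun q _ => ?_)
  ring

theorem r5_bound {n : ℕ} (c : Choice n) (ρ : ℝ) :
    |∑ i, c.σ i * ((if c.ε i ≤ ρ then (1 : ℝ) else 0) - (if c.R i ≤ ρ then (1 : ℝ) else 0))| ≤ 1 := by
  classical
  by_cases h : ∃ i, c.σ i ≠ 0 ∧ c.ε i ≤ ρ ∧ ρ < c.R i
  · obtain ⟨i, hi, h1, h2⟩ := h
    rw [Finset.sum_eq_single i]
    · rw [if_pos h1, if_neg (not_le.mpr h2)]
      simpa using c.hσ i
    · intro j _ hj
      by_cases hj0 : c.σ j = 0
      · rw [hj0, zero_mul]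
      · rcases c.disj i j (Ne.symm hj) hi hj0 with h3 | h3
        · have h4 : ¬ c.ε j ≤ ρ := not_le.mpr (lt_of_lt_of_le h2 h3)
          have h5 : ¬ c.R j ≤ ρ := not_le.mpr (lt_trans (lt_of_lt_of_le h2 h3) (c.hR j))
          rw [if_neg h4, if_neg h5]; ring
        · have h4 : c.R j ≤ ρ := h3.trans h1
          have h5 : c.ε j ≤ ρ := (c.hR j).le.trans h4
          rw [if_pos h4, if_pos h5]; ring
    · intro h; exact absurd (Finset.mem_univ _) h
  · rw [Finset.sum_eq_zero]
    · simp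
    · intro i _
      by_cases hi : c.σ i = 0
      · rw [hi, zero_mul]
      · have h' : ¬ (c.ε i ≤ ρ ∧ ρ < c.R i) := fun hh => h ⟨i, hi, hh⟩
        by_cases h1 : c.R i ≤ ρ
        · rw [if_pos h1, if_pos ((c.hR i).le.trans h1)]; ring
        · have h2 : ¬ c.ε i ≤ ρ := fun hh => h' ⟨hh, not_le.mp h1⟩
          rw [if_neg h1, if_neg h2]; ring

theorem r5a_count {n : ℕ} (S : Finset ℝ) (c : Choice n) :
    (Finset.univ.filter (fun q => r5a S c q ≠ 0)).card ≤ 2 * n := by
  classical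
  have hsub : (Finset.univ.filter (fun q => r5a S c q ≠ 0)).image (S.orderEmbOfFin rfl) ⊆
      (Finset.univ.image c.ε) ∪ (Finset.univ.image c.R) := by
    intro x hx
    rw [Finset.mem_image] at hx
    obtain ⟨q, hq, rfl⟩ := hx
    rw [Finset.mem_filter] at hq
    by_contra hcon
    rw [Finset.mem_union, not_or] at hcon
    apply hq.2
    unfold r5a
    refine Finset.sum_eq_zero (fun i _ => ?_)
    have h1 : (S.orderEmbOfFin rfl) q ≠ c.ε i := fun h =>
      hcon.1 (Finset.mem_image.mpr ⟨i, Finset.mem_univ _, h.symm⟩)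
    have h2 : (S.orderEmbOfFin rfl) q ≠ c.R i := fun h =>
      hcon.2 (Finset.mem_image.mpr ⟨i, Finset.mem_univ _, h.symm⟩)
    rw [if_neg h1, if_neg h2]; ring
  have hcard := Finset.card_le_card hsub
  rw [Finset.card_image_of_injective _ (S.orderEmbOfFin rfl).injective] at hcard
  refine hcard.trans ((Finset.card_union_le _ _).trans ?_)
  have h1 : (Finset.univ.image c.ε).card ≤ n := by
    simpa using Finset.card_image_le (s := (Finset.univ : Finset (Fin n))) (f := c.ε)
  have h2 : (Finset.univ.image c.R).card ≤ n := by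
    simpa using Finset.card_image_le (s := (Finset.univ : Finset (Fin n))) (f := c.R)
  omega

/-- Jump data from a finite family of choices and a selection `sel` of a choice for each cell `(k₂,k₀)`
(`none`: no annulus): the radii are all the `ε_i`, `R_i` of all choices, sorted; the jump at `r` is
`∑_i σ_i (1_{r = ε_i} - 1_{r = R_i})`.  The partial sums are `∑_i σ_i 1_{ε_i ≤ r < R_i}`, at most one term
nonzero.  For every `t` with `|t|` not equal to one of the radii,
`∑_q a_q 1_{r_q ≤ |t|}/t = ∑_i σ_i kap ε_i R_i t`. -/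
theorem exists_jumpData {n N : ℕ} {α : Type*} [Fintype α] (ch : α → Choice n)
    (sel : Fin (2 * N) → Fin (2 * N) → Option α) :
    ∃ (Q : ℕ) (J : JumpData N Q n), ∀ (k₂ k₀ : Fin (2 * N)) (t : ℝ), (∀ q, |t| ≠ J.r q) →
      (∑ q, J.a q k₂ k₀ * (if J.r q ≤ |t| then 1 / t else 0)) =
        match sel k₂ k₀ with
        | none => 0
        | some a => ∑ i, (ch a).σ i * kap ((ch a).ε i) ((ch a).R i) t := by
  classical
  set S : Finset ℝ := Finset.univ.biUnion (fun a : α =>
    (Finset.univ.image (ch a).ε) ∪ (Finset.univ.image (ch a).R)) with hS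
  have hε : ∀ a i, (ch a).ε i ∈ S := fun a i => by
    rw [hS, Finset.mem_biUnion]
    exact ⟨a, Finset.mem_univ _, Finset.mem_union_left _ (Finset.mem_image_of_mem _ (Finset.mem_univ _))⟩
  have hR : ∀ a i, (ch a).R i ∈ S := fun a i => by
    rw [hS, Finset.mem_biUnion]
    exact ⟨a, Finset.mem_univ _, Finset.mem_union_right _ (Finset.mem_image_of_mem _ (Finset.mem_univ _))⟩
  have hpos : ∀ x ∈ S, 0 < x := by
    intro x hx
    rw [hS, Finset.mem_biUnion] at hx
    obtain ⟨a, -, hx⟩ := hx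
    rw [Finset.mem_union, Finset.mem_image, Finset.mem_image] at hx
    rcases hx with ⟨i, -, rfl⟩ | ⟨i, -, rfl⟩
    · exact (ch a).hε i
    · exact ((ch a).hε i).trans ((ch a).hR i)
  refine ⟨S.card, ⟨S.orderEmbOfFin rfl, fun q k₂ k₀ => match sel k₂ k₀ with
    | none => 0
    | some a => r5a S (ch a) q, fun q => hpos _ (Finset.orderEmbOfFin_mem _ _ _),
    (S.orderEmbOfFin rfl).strictMono, ?_, ?_, ?_⟩, ?_⟩
  · intro k₂ k₀ q
    cases h : sel k₂ k₀ with
    | none => simp
    | some a =>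
      simp only
      have e := r5a_sum S (ch a) (hε a) (hR a) (fun ρ => if ρ ≤ (S.orderEmbOfFin rfl) q then (1 : ℝ) else 0)
      have e2 : ∑ q' ∈ Finset.Iic q, r5a S (ch a) q' = ∑ q', r5a S (ch a) q' *
          (if (S.orderEmbOfFin rfl) q' ≤ (S.orderEmbOfFin rfl) q then (1 : ℝ) else 0) := by
        simp_rw [mul_ite, mul_one, mul_zero]
        rw [← Finset.sum_filter]
        refine Finset.sum_congr ?_ (fun _ _ => rfl)
        ext q'
        simp
      rw [e2, e]
      exact r5_bound _ _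
  · intro k₂ k₀
    cases h : sel k₂ k₀ with
    | none => simp
    | some a =>
      simp only
      have e := r5a_sum S (ch a) (hε a) (hR a) (fun _ => 1)
      simpa using e
  · intro k₂ k₀
    cases h : sel k₂ k₀ with
    | none =>
      have : (Finset.univ.filter (fun q : Fin S.card => (0 : ℝ) ≠ 0)) = ∅ :=
        Finset.filter_false_of_mem (fun _ _ h => h rfl)
      exact (Finset.card_eq_zero.mpr this).le.trans (Nat.zero_le _)
    | some a => exact r5a_count _ _
  · intro k₂ k₀ t ht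
    dsimp only at ht ⊢
    cases h : sel k₂ k₀ with
    | none => simp
    | some a =>
      simp only
      have e := r5a_sum S (ch a) (hε a) (hR a) (fun ρ => if ρ ≤ |t| then 1 / t else 0)
      rw [e]
      refine Finset.sum_congr rfl (fun i _ => ?_)
      congr 1
      have hne : ∀ x ∈ S, |t| ≠ x := by
        intro x hx
        have hmem : x ∈ Set.range (S.orderEmbOfFin rfl) := by
          rw [Finset.range_orderEmbOfFin]; exact hx
        obtain ⟨p, hp⟩ := hmem
        rw [← hp]; exact ht p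
      have h1 := hne _ (hε a i)
      have h2 := hne _ (hR a i)
      unfold kap
      have h3 := (ch a).hR i
      by_cases c1 : (ch a).ε i ≤ |t|
      · by_cases c2 : (ch a).R i ≤ |t|
        · rw [if_pos c1, if_pos c2, if_neg (fun hh => absurd hh.2 (not_lt.mpr c2))]; ring
        · rw [if_pos c1, if_neg c2, if_pos ⟨lt_of_le_of_ne c1 (Ne.symm h1), not_le.mp c2⟩]; ring
      · have c2 : ¬ (ch a).R i ≤ |t| := fun hh => c1 (h3.le.trans hh)
        rw [if_neg c1, if_neg c2, if_neg (fun hh => c1 hh.1.le)]; ring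

theorem r5_ctsI {κ : ℝ → ℝ} (hκ : ∀ a b, IntervalIntegrable κ volume a b) (a b : ℝ) :
    Continuous (fun s => ∫ x in a..b, κ (s + x)) := by
  have e : (fun s => ∫ x in a..b, κ (s + x)) =
      fun s => (∫ y in (0 : ℝ)..(s + b), κ y) - (∫ y in (0 : ℝ)..(s + a), κ y) := by
    funext s
    rw [intervalIntegral.integral_comp_add_left (fun y => κ y) s]
    rw [intervalIntegral.integral_interval_sub_left (hκ _ _) (hκ _ _)]
  rw [e]
  have hc := intervalIntegral.continuous_primitive hκ 0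
  exact (hc.comp (continuous_id.add continuous_const)).sub
    (hc.comp (continuous_id.add continuous_const))

theorem r5_Jc_congr (η : ℝ) {N : ℕ} (k₀ k₁ k₂ : Fin (2 * N)) {κ κ' : ℝ → ℝ}
    (h : ∀ᵐ t, κ t = κ' t) : Jc η k₀ k₁ k₂ κ = Jc η k₀ k₁ k₂ κ' := by
  unfold Jc
  congr 1
  funext x₀
  congr 1
  funext x₁
  refine intervalIntegral.integral_congr_ae ?_
  have hq := (measurePreserving_add_left volume (x₀ + x₁)).quasiMeasurePreserving.ae h
  filter_upwards [hq] with x hx _
  exact hx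

theorem r5_Jc_sum (η : ℝ) {N : ℕ} (k₀ k₁ k₂ : Fin (2 * N)) {ι : Type*} (s : Finset ι) (c : ι → ℝ)
    (κ : ι → ℝ → ℝ) (hκ : ∀ i ∈ s, ∀ a b, IntervalIntegrable (κ i) volume a b) :
    Jc η k₀ k₁ k₂ (fun t => ∑ i ∈ s, c i * κ i t) = ∑ i ∈ s, c i * Jc η k₀ k₁ k₂ (κ i) := by
  unfold Jc
  have h1 : ∀ x₀ x₁ : ℝ, (∫ x₂ in (lft η k₂)..(lft η k₂ + η), ∑ i ∈ s, c i * κ i (x₀ + x₁ + x₂)) =
      ∑ i ∈ s, c i * ∫ x₂ in (lft η k₂)..(lft η k₂ + η), κ i (x₀ + x₁ + x₂) := by
    intro x₀ x₁
    rw [intervalIntegral.integral_finsetSum]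
    · refine Finset.sum_congr rfl (fun i _ => ?_)
      rw [intervalIntegral.integral_const_mul]
    · intro i hi
      have := (hκ i hi (x₀ + x₁ + lft η k₂) (x₀ + x₁ + (lft η k₂ + η))).comp_add_left (x₀ + x₁)
      simp only [add_sub_cancel_left] at this
      exact this.const_mul _
  have hI : ∀ i ∈ s, Continuous (fun s' => ∫ x₂ in (lft η k₂)..(lft η k₂ + η), κ i (s' + x₂)) :=
    fun i hi => r5_ctsI (hκ i hi) _ _
  have h2 : ∀ x₀ : ℝ, (∫ x₁ in (lft η k₁)..(lft η k₁ + η),
      ∑ i ∈ s, c i * ∫ x₂ in (lft η k₂)..(lft η k₂ + η), κ i (x₀ + x₁ + x₂)) =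
      ∑ i ∈ s, c i * ∫ x₁ in (lft η k₁)..(lft η k₁ + η),
        ∫ x₂ in (lft η k₂)..(lft η k₂ + η), κ i (x₀ + x₁ + x₂) := by
    intro x₀
    rw [intervalIntegral.integral_finsetSum]
    · refine Finset.sum_congr rfl (fun i _ => ?_)
      rw [intervalIntegral.integral_const_mul]
    · intro i hi
      have hc : Continuous (fun x₁ => ∫ x₂ in (lft η k₂)..(lft η k₂ + η), κ i (x₀ + x₁ + x₂)) :=
        (hI i hi).comp (continuous_const.add continuous_id)
      exact (hc.intervalIntegrable _ _).const_mul _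
  have hII : ∀ i ∈ s, Continuous (fun x₀ => ∫ x₁ in (lft η k₁)..(lft η k₁ + η),
        ∫ x₂ in (lft η k₂)..(lft η k₂ + η), κ i (x₀ + x₁ + x₂)) := by
    intro i hi
    exact r5_ctsI (κ := fun s' => ∫ x₂ in (lft η k₂)..(lft η k₂ + η), κ i (s' + x₂))
      (fun a b => (hI i hi).intervalIntegrable _ _) _ _
  simp_rw [h1, h2]
  rw [intervalIntegral.integral_finsetSum]
  · refine Finset.sum_congr rfl (fun i _ => ?_)
    rw [intervalIntegral.integral_const_mul]
  · intro i hi
    exact ((hII i hi).intervalIntegrable _ _).const_mul _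

theorem r5_kap_ii {ε R : ℝ} (hε : 0 < ε) (a b : ℝ) : IntervalIntegrable (kap ε R) volume a b := by
  classical
  have hm : Measurable (kap ε R) := by
    unfold kap
    have habs : Measurable (fun t : ℝ => |t|) := continuous_abs.measurable
    have hinv : Measurable (fun t : ℝ => 1 / t) := measurable_const.div measurable_id
    refine Measurable.ite ?_ hinv measurable_const
    exact (measurableSet_lt measurable_const habs).inter (measurableSet_lt habs measurable_const)
  have hB : ∀ t, ‖kap ε R t‖ ≤ 1 / ε := by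
    intro t
    unfold kap
    by_cases h : ε < |t| ∧ |t| < R
    · rw [if_pos h, norm_div, norm_one, Real.norm_eq_abs]
      exact one_div_le_one_div_of_le hε h.1.le
    · rw [if_neg h, norm_zero]; positivity
  exact (intervalIntegrable_const (c := 1 / ε)).mono_fun' hm.aestronglyMeasurable
    (ae_of_all _ hB)

theorem r5_abs_ne_ae (c : ℝ) : ∀ᵐ t : ℝ, |t| ≠ c := by
  have h : (volume : Measure ℝ) {t : ℝ | ¬ |t| ≠ c} = 0 := by
    refine measure_mono_null (t := {c, -c}) ?_ (Set.Finite.measure_zero (Set.toFinite _) _)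
    intro t ht
    have ht : |t| = c := not_not.mp ht
    rw [← ht]
    rcases abs_choice t with h | h
    · left; exact h.symm
    · right; rw [Set.mem_singleton_iff, h, neg_neg]
  exact h

theorem r5_sum_abs {α : Type*} [Fintype α] (x : α → ℝ) (hx : ∀ a b, a ≠ b → x a * x b = 0) :
    ∑ a, |x a| = |∑ a, x a| := by
  classical
  by_cases h : ∃ a, x a ≠ 0
  · obtain ⟨a, ha⟩ := h
    have hz : ∀ b, b ≠ a → x b = 0 := by
      intro b hb
      rcases mul_eq_zero.mp (hx b a hb) with h | h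
      · exact h
      · exact absurd h ha
    rw [Finset.sum_eq_single a (fun b _ hb => by rw [hz b hb, abs_zero])
      (fun h => absurd (Finset.mem_univ _) h),
      Finset.sum_eq_single a (fun b _ hb => hz b hb) (fun h => absurd (Finset.mem_univ _) h)]
  · have hz : ∀ b, x b = 0 := by
      intro b; by_contra hb; exact h ⟨b, hb⟩
    simp [hz]

/-- **Step function version.**  For disjointly supported `h a`, the matrix `F₂ = ∑_a h a` and the selection
`sel k₂ k₀ = some a` iff `h a ≠ 0` on the cell; `TR_step`, `core`. -/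
theorem core_step : ∃ C : ℝ, 0 ≤ C ∧ ∀ (n : ℕ), 1 ≤ n → ∀ (L N : ℕ) (f₀ f₁ : ℤ → ℤ → ℝ), FinSupp N f₀ →
    FinSupp N f₁ → ∀ (α : Type) [Fintype α] (ch : α → Choice n) (h : α → ℤ → ℤ → ℝ),
    (∀ a, FinSupp N (h a)) → (∀ a b, a ≠ b → ∀ i j, h a i j * h b i j = 0) →
    |∑ a, chT (ch a) (rotF L f₀) (rotG L f₁) (stepZ L (h a))| ≤
      C * Real.sqrt n * (eLpNorm (rotF L f₀) 3 volume).toReal * (eLpNorm (rotG L f₁) 3 volume).toReal *
        (eLpNorm (fun z => ∑ a, |stepZ L (h a) z|) 3 volume).toReal := by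
  classical
  obtain ⟨C, hC0, hC⟩ := core
  refine ⟨C, hC0, ?_⟩
  intro n hn L N f₀ f₁ h₀ h₁ α _ ch h hh hd
  set η : ℝ := (2 : ℝ) ^ (-(L : ℤ)) with hη
  have hηpos : 0 < η := by positivity
  set H : ℤ → ℤ → ℝ := fun i j => ∑ a, h a i j with hH
  have hHs : FinSupp N H := by
    intro a b hab
    exact Finset.sum_eq_zero (fun c _ => hh c a b hab)
  set sel : Fin (2 * N) → Fin (2 * N) → Option α := fun k₂ k₀ =>
    if hex : ∃ a, toM N (h a) k₂ k₀ ≠ 0 then some hex.choose else none with hsel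
  obtain ⟨Q, J, hJ⟩ := exists_jumpData ch sel
  have hJc : ∀ k₀ k₁ k₂ : Fin (2 * N),
      toM N H k₂ k₀ * Jc η k₀ k₁ k₂ (fun t => ∑ q, J.a q k₂ k₀ * (if J.r q ≤ |t| then 1 / t else 0)) =
      ∑ a, toM N (h a) k₂ k₀ * ∑ i, (ch a).σ i * Jc η k₀ k₁ k₂ (kap ((ch a).ε i) ((ch a).R i)) := by
    intro k₀ k₁ k₂
    have hae : ∀ᵐ t : ℝ, ∀ q, |t| ≠ J.r q := ae_all_iff.mpr (fun q => r5_abs_ne_ae _)
    by_cases hex : ∃ a, toM N (h a) k₂ k₀ ≠ 0
    · have hs : sel k₂ k₀ = some hex.choose := by rw [hsel]; simp only [dif_pos hex]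
      have ha := hex.choose_spec
      set a := hex.choose with ha'
      have hz : ∀ b, b ≠ a → toM N (h b) k₂ k₀ = 0 := by
        intro b hb
        have := hd b a hb ((k₂ : ℤ) - N) ((k₀ : ℤ) - N)
        rcases mul_eq_zero.mp this with h' | h'
        · exact h'
        · exact absurd h' ha
      have hHa : toM N H k₂ k₀ = toM N (h a) k₂ k₀ := by
        have e0 : toM N H k₂ k₀ = ∑ b, toM N (h b) k₂ k₀ := rfl
        rw [e0, Finset.sum_eq_single a (fun b _ hb => hz b hb) (fun h => absurd (Finset.mem_univ _) h)]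
      rw [Finset.sum_eq_single a (fun b _ hb => by rw [hz b hb, zero_mul])
        (fun h => absurd (Finset.mem_univ _) h), hHa]
      congr 1
      have e1 : Jc η k₀ k₁ k₂ (fun t => ∑ q, J.a q k₂ k₀ * (if J.r q ≤ |t| then 1 / t else 0)) =
          Jc η k₀ k₁ k₂ (fun t => ∑ i, (ch a).σ i * kap ((ch a).ε i) ((ch a).R i) t) := by
        refine r5_Jc_congr _ _ _ _ ?_
        filter_upwards [hae] with t ht
        have := hJ k₂ k₀ t ht
        rw [hs] at this
        exact this
      rw [e1]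
      exact r5_Jc_sum η k₀ k₁ k₂ Finset.univ (ch a).σ (fun i => kap ((ch a).ε i) ((ch a).R i))
        (fun i _ a' b' => r5_kap_ii ((ch a).hε i) a' b')
    · have hz : ∀ b, toM N (h b) k₂ k₀ = 0 := by
        intro b; by_contra hb; exact hex ⟨b, hb⟩
      have hHa : toM N H k₂ k₀ = 0 := by
        have e0 : toM N H k₂ k₀ = ∑ b, toM N (h b) k₂ k₀ := rfl
        rw [e0]
        exact Finset.sum_eq_zero (fun b _ => hz b)
      rw [hHa, zero_mul]
      symm
      exact Finset.sum_eq_zero (fun b _ => by rw [hz b, zero_mul])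
  have key : ∑ a, chT (ch a) (rotF L f₀) (rotG L f₁) (stepZ L (h a)) =
      -TS η (toM N f₀) (toM N f₁) (toM N H)
        (fun k₂ k₀ t => ∑ q, J.a q k₂ k₀ * (if J.r q ≤ |t| then 1 / t else 0)) := by
    have e1 : ∀ a, chT (ch a) (rotF L f₀) (rotG L f₁) (stepZ L (h a)) =
        -∑ k₀, ∑ k₁, ∑ k₂, toM N f₀ k₀ k₁ * toM N f₁ k₁ k₂ * (toM N (h a) k₂ k₀ *
          ∑ i, (ch a).σ i * Jc η k₀ k₁ k₂ (kap ((ch a).ε i) ((ch a).R i))) := by
      intro a
      unfold chT
      have e2 : ∀ i, (ch a).σ i * TR (rotF L f₀) (rotG L f₁) (stepZ L (h a)) ((ch a).ε i) ((ch a).R i) =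
          -∑ k₀, ∑ k₁, ∑ k₂, toM N f₀ k₀ k₁ * toM N f₁ k₁ k₂ * (toM N (h a) k₂ k₀ *
            ((ch a).σ i * Jc η k₀ k₁ k₂ (kap ((ch a).ε i) ((ch a).R i)))) := by
        intro i
        rw [TR_step L N h₀ h₁ (hh a) ((ch a).hε i) ((ch a).hR i)]
        unfold TS
        rw [mul_neg, Finset.mul_sum]
        congr 1
        refine Finset.sum_congr rfl (fun k₀ _ => ?_)
        rw [Finset.mul_sum]
        refine Finset.sum_congr rfl (fun k₁ _ => ?_)
        rw [Finset.mul_sum]
        refine Finset.sum_congr rfl (fun k₂ _ => ?_)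
        ring
      rw [Finset.sum_congr rfl (fun i _ => e2 i), Finset.sum_neg_distrib]
      congr 1
      rw [Finset.sum_comm]
      refine Finset.sum_congr rfl (fun k₀ _ => ?_)
      rw [Finset.sum_comm]
      refine Finset.sum_congr rfl (fun k₁ _ => ?_)
      rw [Finset.sum_comm]
      refine Finset.sum_congr rfl (fun k₂ _ => ?_)
      rw [Finset.mul_sum, Finset.mul_sum]
    rw [Finset.sum_congr rfl (fun a _ => e1 a), Finset.sum_neg_distrib]
    congr 1
    unfold TS
    rw [Finset.sum_comm]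
    refine Finset.sum_congr rfl (fun k₀ _ => ?_)
    rw [Finset.sum_comm]
    refine Finset.sum_congr rfl (fun k₁ _ => ?_)
    rw [Finset.sum_comm]
    refine Finset.sum_congr rfl (fun k₂ _ => ?_)
    rw [mul_assoc (toM N f₀ k₀ k₁ * toM N f₁ k₁ k₂), hJc k₀ k₁ k₂, Finset.mul_sum]
  have hn3 : (eLpNorm (fun z => ∑ a, |stepZ L (h a) z|) 3 volume).toReal =
      n3 η (toM N H) ^ (1 / 3 : ℝ) := by
    rw [← (eLpNorm_rot L N hHs).1]
    congr 1
    refine eLpNorm_congr_norm_ae (ae_of_all _ (fun z => ?_))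
    rw [Real.norm_eq_abs, Real.norm_eq_abs]
    have := r5_sum_abs (fun a => stepZ L (h a) z) (fun a b hab => hd a b hab _ _)
    rw [this, abs_abs]
    rfl
  rw [key, abs_neg, (eLpNorm_rot L N h₀).2.1, (eLpNorm_rot L N h₁).2.2.1, hn3]
  exact hC η hηpos N Q n hn J (toM N f₀) (toM N f₁) (toM N H)

end Crest.Agent.TH
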