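import Crest.Agent.TH_R5
import Crest.Agent.TH_Den

/-! # TH_R6 (task TH-R6): density -/

set_option autoImplicit false
open Matrix MeasureTheory Set Filter
open scoped Topology ENNReal

namespace Crest.Agent.TH

/-- finite support data: conversion -/
private lemma r6_finSupp_of {f : ℤ → ℤ → ℝ} {N : ℤ} (h : ∀ a b, N ≤ |a| ∨ N ≤ |b| → f a b = 0) :
    FinSupp N.toNat f := by
  intro a b hab
  apply h
  have hN : N ≤ (N.toNat : ℤ) := Int.self_le_toNat N
  have h0 : (0 : ℤ) ≤ (N.toNat : ℤ) := Int.natCast_nonneg _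
  rcases hab with h1 | h1 | h1 | h1
  · left; rw [abs_of_neg (by omega)]; omega
  · left; rw [abs_of_nonneg (by omega)]; omega
  · right; rw [abs_of_neg (by omega)]; omega
  · right; rw [abs_of_nonneg (by omega)]; omega

private lemma r6_finSupp_mono {f : ℤ → ℤ → ℝ} {N M : ℕ} (h : FinSupp N f) (hNM : N ≤ M) :
    FinSupp M f := by
  intro a b hab
  apply h
  rcases hab with h1 | h1 | h1 | h1
  · left; omega
  · right; left; omega
  · right; right; left; omega
  · right; right; right; omega

private lemma r6_mpT : MeasurePreserving (fun z : ℝ × ℝ => (z.2, -z.1 - z.2)) volume volume := by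
  have h1 : MeasurePreserving (fun z : ℝ × ℝ => (z.2, z.2 + z.1)) volume volume :=
    measurePreserving_prod_add_swap (volume : Measure ℝ) (volume : Measure ℝ)
  have h2 : MeasurePreserving (Prod.map (id : ℝ → ℝ) (Neg.neg : ℝ → ℝ))
      (volume : Measure (ℝ × ℝ)) volume :=
    (MeasurePreserving.id (volume : Measure ℝ)).prod (Measure.measurePreserving_neg (volume : Measure ℝ))
  have h3 := h2.comp h1
  have e : (Prod.map (id : ℝ → ℝ) (Neg.neg : ℝ → ℝ)) ∘ (fun z : ℝ × ℝ => (z.2, z.2 + z.1)) =
      fun z : ℝ × ℝ => (z.2, -z.1 - z.2) := by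
    funext z
    simp only [Function.comp_apply, Prod.map_apply, id_eq, Prod.mk.injEq, true_and]
    ring
  rwa [e] at h3

private lemma r6_mpS : MeasurePreserving (fun z : ℝ × ℝ => (-z.1 - z.2, z.1)) volume volume := by
  have h1 : MeasurePreserving (fun z : ℝ × ℝ => (z.1, z.1 + z.2)) volume volume :=
    measurePreserving_prod_add (volume : Measure ℝ) (volume : Measure ℝ)
  have h2 : MeasurePreserving (Prod.map (id : ℝ → ℝ) (Neg.neg : ℝ → ℝ))
      (volume : Measure (ℝ × ℝ)) volume :=
    (MeasurePreserving.id (volume : Measure ℝ)).prod (Measure.measurePreserving_neg (volume : Measure ℝ))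
  have h0 : MeasurePreserving (Prod.swap : ℝ × ℝ → ℝ × ℝ) volume volume :=
    Measure.measurePreserving_swap
  have h3 := h0.comp (h2.comp h1)
  have e : (Prod.swap : ℝ × ℝ → ℝ × ℝ) ∘ ((Prod.map (id : ℝ → ℝ) (Neg.neg : ℝ → ℝ)) ∘
      (fun z : ℝ × ℝ => (z.1, z.1 + z.2))) =
      fun z : ℝ × ℝ => (-z.1 - z.2, z.1) := by
    funext z
    simp only [Function.comp_apply, Prod.map_apply, id_eq, Prod.swap_prod_mk, Prod.mk.injEq, and_true]
    ring
  rwa [e] at h3

private lemma r6_norm_le {F F' : ℝ × ℝ → ℝ} (hF : MemLp F 3 volume) (hF' : MemLp F' 3 volume) {δ : ℝ}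
    (h : (eLpNorm (F - F') 3 volume).toReal ≤ δ) :
    (eLpNorm F' 3 volume).toReal ≤ (eLpNorm F 3 volume).toReal + δ := by
  have h1 : eLpNorm F' 3 volume ≤ eLpNorm F 3 volume + eLpNorm (F - F') 3 volume := by
    have e : F' = F - (F - F') := by funext z; simp
    calc eLpNorm F' 3 volume = eLpNorm (F - (F - F')) 3 volume := by rw [← e]
      _ ≤ _ := eLpNorm_sub_le hF.1 (hF.sub hF').1 (by norm_num)
  have h2 := ENNReal.toReal_mono (ENNReal.add_ne_top.2 ⟨hF.2.ne, (hF.sub hF').2.ne⟩) h1
  rw [ENNReal.toReal_add hF.2.ne (hF.sub hF').2.ne] at h2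
  linarith

private lemma r6_memLp_stepZ {L N : ℕ} {f : ℤ → ℤ → ℝ} (h : FinSupp N f) :
    MemLp (stepZ L f) 3 volume := (eLpNorm_rot L N h).2.2.2.1

/-- Disjointification of step approximations: approximate each `H a` by `stepZ L (g a)`
(`exists_stepZ_approx`), then keep on every cell only the entry with the largest `|g a|` (first one in case
of ties, for a linear order on `α`, e.g. via `Fintype.equivFin`):
`∑_a |g a - h a| ≤ 2 ∑_a |stepZ (g a) - H a|` pointwise, because the `H a` are disjointly supported. -/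
theorem exists_disjoint_approx (α : Type) [Fintype α] (H : α → ℝ × ℝ → ℝ) (hH : ∀ a, MemLp (H a) 3 volume)
    (hd : ∀ a b, a ≠ b → ∀ z, H a z * H b z = 0) {δ : ℝ} (hδ : 0 < δ) :
    ∃ L₀ : ℕ, ∀ L ≥ L₀, ∃ (N : ℕ) (h : α → ℤ → ℤ → ℝ), (∀ a, FinSupp N (h a)) ∧
      (∀ a b, a ≠ b → ∀ i j, h a i j * h b i j = 0) ∧
      ∀ a, eLpNorm (fun z => H a z - stepZ L (h a) z) 3 volume ≤ ENNReal.ofReal δ := by
  classical
  rcases isEmpty_or_nonempty α with hα | hα
  · exact ⟨0, fun L _ => ⟨0, fun a => (hα.false a).elim, fun a => (hα.false a).elim,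
      fun a => (hα.false a).elim, fun a => (hα.false a).elim⟩⟩
  set m : ℝ := (Fintype.card α : ℝ) with hm
  have hm0 : 0 < m := by
    rw [hm]; exact_mod_cast Fintype.card_pos
  have hδ' : 0 < δ / m := div_pos hδ hm0
  choose L₀ hL₀ using fun a => exists_stepZ_approx (H a) (hH a) hδ'
  refine ⟨Finset.univ.sup L₀, fun L hL => ?_⟩
  have hLa : ∀ a, L₀ a ≤ L := fun a => (Finset.le_sup (Finset.mem_univ a)).trans hL
  choose g hgs hg using fun a => hL₀ a L (hLa a)
  choose N₁ hN₁ using hgs
  -- the index of a maximal entry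
  have hmax : ∀ i j : ℤ, ∃ a : α, ∀ b, |g b i j| ≤ |g a i j| := fun i j =>
    Finite.exists_max (fun b => |g b i j|)
  choose am ham using hmax
  set N : ℕ := Finset.univ.sup (fun a => (N₁ a).toNat) with hN
  have hgN : ∀ a, FinSupp N (g a) := fun a =>
    r6_finSupp_mono (r6_finSupp_of (hN₁ a)) (Finset.le_sup (f := fun a => (N₁ a).toNat) (Finset.mem_univ a))
  set h : α → ℤ → ℤ → ℝ := fun a i j => if am i j = a then g a i j else 0 with hh
  have hhN : ∀ a, FinSupp N (h a) := by
    intro a i j hij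
    simp only [hh]
    split_ifs
    · exact hgN a i j hij
    · rfl
  refine ⟨N, h, hhN, ?_, ?_⟩
  · intro a b hab i j
    simp only [hh]
    by_cases h1 : am i j = a
    · by_cases h2 : am i j = b
      · exact absurd (h1.symm.trans h2) hab
      · rw [if_neg h2, mul_zero]
    · rw [if_neg h1, zero_mul]
  · intro a
    -- pointwise bound
    have hpt : ∀ z : ℝ × ℝ, ‖H a z - stepZ L (h a) z‖ ≤ ‖∑ b, ‖H b z - stepZ L (g b) z‖‖ := by
      intro z
      rw [Real.norm_of_nonneg (Finset.sum_nonneg (fun b _ => norm_nonneg _)), Real.norm_eq_abs]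
      simp only [Real.norm_eq_abs]
      have hterm : ∀ b, |H b z - stepZ L (g b) z| ≤ ∑ b, |H b z - stepZ L (g b) z| := fun b =>
        Finset.single_le_sum (f := fun b => |H b z - stepZ L (g b) z|)
          (fun b _ => abs_nonneg _) (Finset.mem_univ b)
      set i : ℤ := ⌊2 ^ L * z.1⌋ with hi
      set j : ℤ := ⌊2 ^ L * z.2⌋ with hj
      have hstep : ∀ b, stepZ L (g b) z = g b i j := fun b => rfl
      have hsteph : stepZ L (h a) z = h a i j := rfl
      by_cases h1 : am i j = a
      · have : stepZ L (h a) z = stepZ L (g a) z := by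
          rw [hsteph, hstep]; simp only [hh]; rw [if_pos h1]
        rw [this]
        exact hterm a
      · have h0 : stepZ L (h a) z = 0 := by
          rw [hsteph]; simp only [hh]; rw [if_neg h1]
        rw [h0, sub_zero]
        by_cases hz : H a z = 0
        · rw [hz, abs_zero]
          exact Finset.sum_nonneg (fun b _ => abs_nonneg _)
        · have hH0 : H (am i j) z = 0 := by
            have := hd a (am i j) (fun hc => h1 hc.symm) z
            rcases mul_eq_zero.1 this with h2 | h2
            · exact absurd h2 hz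
            · exact h2
          have hle : |g a i j| ≤ |g (am i j) i j| := ham i j a
          have h2 : |H a z| ≤ |H a z - stepZ L (g a) z| + |H (am i j) z - stepZ L (g (am i j)) z| := by
            rw [hH0, hstep, hstep, zero_sub, abs_neg]
            calc |H a z| = |(H a z - g a i j) + g a i j| := by ring_nf
              _ ≤ |H a z - g a i j| + |g a i j| := abs_add_le _ _
              _ ≤ _ := by linarith
          refine h2.trans ?_
          have h3 : ∑ b ∈ ({a, am i j} : Finset α), |H b z - stepZ L (g b) z| =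
              |H a z - stepZ L (g a) z| + |H (am i j) z - stepZ L (g (am i j)) z| :=
            Finset.sum_pair (fun hc => h1 hc.symm)
          rw [← h3]
          exact Finset.sum_le_sum_of_subset_of_nonneg (Finset.subset_univ _)
            (fun b _ _ => abs_nonneg _)
    have hmeas : ∀ b, AEStronglyMeasurable (fun z => ‖H b z - stepZ L (g b) z‖) volume := fun b =>
      ((hH b).1.sub (r6_memLp_stepZ (hgN b)).1).norm
    calc eLpNorm (fun z => H a z - stepZ L (h a) z) 3 volume
        ≤ eLpNorm (fun z => ∑ b, ‖H b z - stepZ L (g b) z‖) 3 volume := eLpNorm_mono hpt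
      _ = eLpNorm (∑ b, fun z => ‖H b z - stepZ L (g b) z‖) 3 volume := by
          congr 1; funext z; rw [Finset.sum_apply]
      _ ≤ ∑ b, eLpNorm (fun z => ‖H b z - stepZ L (g b) z‖) 3 volume :=
          eLpNorm_sum_le (fun b _ => hmeas b) (by norm_num)
      _ ≤ ∑ _b : α, ENNReal.ofReal (δ / m) := by
          refine Finset.sum_le_sum (fun b _ => ?_)
          rw [eLpNorm_norm]
          exact hg b
      _ = ENNReal.ofReal δ := by
          rw [Finset.sum_const, Finset.card_univ, nsmul_eq_mul, ← ENNReal.ofReal_natCast,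
            ← ENNReal.ofReal_mul (Nat.cast_nonneg _)]
          congr 1
          rw [← hm]; field_simp

/-- approximation of `F` and `G` by rotated step functions -/
theorem exists_rot_approx (F : ℝ × ℝ → ℝ) (hF : MemLp F 3 volume) {δ : ℝ} (hδ : 0 < δ) :
    ∃ L₀ : ℕ, ∀ L ≥ L₀, (∃ (N : ℕ) (f : ℤ → ℤ → ℝ), FinSupp N f ∧
      eLpNorm (fun z => F z - rotF L f z) 3 volume ≤ ENNReal.ofReal δ) ∧
      ∃ (N : ℕ) (f : ℤ → ℤ → ℝ), FinSupp N f ∧
      eLpNorm (fun z => F z - rotG L f z) 3 volume ≤ ENNReal.ofReal δ := by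
  have hFS : MemLp (F ∘ fun z : ℝ × ℝ => (-z.1 - z.2, z.1)) 3 volume := hF.comp_measurePreserving r6_mpS
  have hFT : MemLp (F ∘ fun z : ℝ × ℝ => (z.2, -z.1 - z.2)) 3 volume := hF.comp_measurePreserving r6_mpT
  obtain ⟨L₁, hL₁⟩ := exists_stepZ_approx _ hFS hδ
  obtain ⟨L₂, hL₂⟩ := exists_stepZ_approx _ hFT hδ
  refine ⟨max L₁ L₂, fun L hL => ⟨?_, ?_⟩⟩
  · obtain ⟨f, ⟨N, hN⟩, hf⟩ := hL₁ L ((le_max_left _ _).trans hL)
    refine ⟨N.toNat, f, r6_finSupp_of hN, ?_⟩
    have hmeas : AEStronglyMeasurable (fun z => (F ∘ fun z : ℝ × ℝ => (-z.1 - z.2, z.1)) z - stepZ L f z)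
        volume := hFS.1.sub (r6_memLp_stepZ (r6_finSupp_of hN)).1
    have h1 := eLpNorm_comp_measurePreserving (p := 3) hmeas r6_mpT
    have e : (fun z => (F ∘ fun z : ℝ × ℝ => (-z.1 - z.2, z.1)) z - stepZ L f z) ∘
        (fun z : ℝ × ℝ => (z.2, -z.1 - z.2)) = fun z => F z - rotF L f z := by
      funext z
      simp only [Function.comp_apply, rotF]
      congr 2
      ext
      · simp only []; ring
      · simp only []; try ring
    rw [e] at h1
    rw [h1]
    exact hf
  · obtain ⟨f, ⟨N, hN⟩, hf⟩ := hL₂ L ((le_max_right _ _).trans hL)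
    refine ⟨N.toNat, f, r6_finSupp_of hN, ?_⟩
    have hmeas : AEStronglyMeasurable (fun z => (F ∘ fun z : ℝ × ℝ => (z.2, -z.1 - z.2)) z - stepZ L f z)
        volume := hFT.1.sub (r6_memLp_stepZ (r6_finSupp_of hN)).1
    have h1 := eLpNorm_comp_measurePreserving (p := 3) hmeas r6_mpS
    have e : (fun z => (F ∘ fun z : ℝ × ℝ => (z.2, -z.1 - z.2)) z - stepZ L f z) ∘
        (fun z : ℝ × ℝ => (-z.1 - z.2, z.1)) = fun z => F z - rotG L f z := by
      funext z
      simp only [Function.comp_apply, rotG]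
      congr 2
      ext
      · simp
      · simp
    rw [e] at h1
    rw [h1]
    exact hf

/-- **`L³` version**, by `core_step`, the two approximation lemmas and the continuity of `chT` (`abs_TR_le`,
`TR_sub`). -/
theorem core_L3 : ∃ C : ℝ, 0 ≤ C ∧ ∀ (n : ℕ), 1 ≤ n → ∀ (F G : ℝ × ℝ → ℝ), MemLp F 3 volume →
    MemLp G 3 volume → ∀ (α : Type) [Fintype α] (ch : α → Choice n) (H : α → ℝ × ℝ → ℝ),
    (∀ a, MemLp (H a) 3 volume) → (∀ a b, a ≠ b → ∀ z, H a z * H b z = 0) →
    |∑ a, chT (ch a) F G (H a)| ≤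
      C * Real.sqrt n * (eLpNorm F 3 volume).toReal * (eLpNorm G 3 volume).toReal *
        (eLpNorm (fun z => ∑ a, |H a z|) 3 volume).toReal := by
  obtain ⟨C, hC0, hC⟩ := core_step
  refine ⟨C, hC0, ?_⟩
  intro n hn F G hF hG α _ ch H hH hd
  set f : ℝ := (eLpNorm F 3 volume).toReal with hf
  set g : ℝ := (eLpNorm G 3 volume).toReal with hg
  set s : ℝ := (eLpNorm (fun z => ∑ a, |H a z|) 3 volume).toReal with hs
  set m : ℝ := (Fintype.card α : ℝ) with hm
  set S : ℝ := ∑ a, chT (ch a) F G (H a) with hS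
  set Ka : α → ℝ := fun a => ∑ i, |(ch a).σ i| * (2 * Real.log ((ch a).R i / (ch a).ε i)) with hKa
  set Φ : ℝ → ℝ := fun δ => C * Real.sqrt n * (f + δ) * (g + δ) * (s + m * δ) +
    ∑ a, Ka a * (δ * g * (eLpNorm (H a) 3 volume).toReal +
      (f + δ) * δ * (eLpNorm (H a) 3 volume).toReal + (f + δ) * (g + δ) * δ) with hΦ
  have hf0 : 0 ≤ f := ENNReal.toReal_nonneg
  have hg0 : 0 ≤ g := ENNReal.toReal_nonneg
  have hs0 : 0 ≤ s := ENNReal.toReal_nonneg
  have hlog : ∀ a i, 0 ≤ 2 * Real.log ((ch a).R i / (ch a).ε i) := by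
    intro a i
    have h1 : 1 ≤ (ch a).R i / (ch a).ε i := by
      rw [one_le_div ((ch a).hε i)]; exact ((ch a).hR i).le
    have := Real.log_nonneg h1
    linarith
  have hsumH : MemLp (fun z => ∑ a, |H a z|) 3 volume :=
    memLp_finsetSum _ (fun a _ => (hH a).abs)
  -- main estimate for each δ
  have main : ∀ δ : ℝ, 0 < δ → |S| ≤ Φ δ := by
    intro δ hδ
    obtain ⟨L₁, hL₁⟩ := exists_disjoint_approx α H hH hd hδ
    obtain ⟨L₂, hL₂⟩ := exists_rot_approx F hF hδ
    obtain ⟨L₃, hL₃⟩ := exists_rot_approx G hG hδ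
    set L : ℕ := max L₁ (max L₂ L₃) with hL
    obtain ⟨N₁, h, hhN, hhd, hha⟩ := hL₁ L (le_max_left _ _)
    obtain ⟨⟨N₂, f₀, hf₀N, hf₀⟩, -⟩ := hL₂ L ((le_max_left _ _).trans (le_max_right _ _))
    obtain ⟨-, N₃, g₀, hg₀N, hg₀⟩ := hL₃ L ((le_max_right _ _).trans (le_max_right _ _))
    set N : ℕ := max N₁ (max N₂ N₃) with hN
    have hf₀N' : FinSupp N f₀ := r6_finSupp_mono hf₀N ((le_max_left _ _).trans (le_max_right _ _))
    have hg₀N' : FinSupp N g₀ := r6_finSupp_mono hg₀N ((le_max_right _ _).trans (le_max_right _ _))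
    have hhN' : ∀ a, FinSupp N (h a) := fun a => r6_finSupp_mono (hhN a) (le_max_left _ _)
    set F' := rotF L f₀ with hF'
    set G' := rotG L g₀ with hG'
    set H' : α → ℝ × ℝ → ℝ := fun a => stepZ L (h a) with hH'
    have mF' : MemLp F' 3 volume := (eLpNorm_rot L N hf₀N').2.2.2.2.1
    have mG' : MemLp G' 3 volume := (eLpNorm_rot L N hg₀N').2.2.2.2.2
    have mH' : ∀ a, MemLp (H' a) 3 volume := fun a => (eLpNorm_rot L N (hhN' a)).2.2.2.1
    have dF : (eLpNorm (F - F') 3 volume).toReal ≤ δ := ENNReal.toReal_le_of_le_ofReal hδ.le hf₀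
    have dG : (eLpNorm (G - G') 3 volume).toReal ≤ δ := ENNReal.toReal_le_of_le_ofReal hδ.le hg₀
    have dH : ∀ a, (eLpNorm (H a - H' a) 3 volume).toReal ≤ δ := fun a =>
      ENNReal.toReal_le_of_le_ofReal hδ.le (hha a)
    have nF' : (eLpNorm F' 3 volume).toReal ≤ f + δ := r6_norm_le hF mF' dF
    have nG' : (eLpNorm G' 3 volume).toReal ≤ g + δ := r6_norm_le hG mG' dG
    have nF'0 : 0 ≤ (eLpNorm F' 3 volume).toReal := ENNReal.toReal_nonneg
    have nG'0 : 0 ≤ (eLpNorm G' 3 volume).toReal := ENNReal.toReal_nonneg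
    -- norm of the sum
    have mS' : MemLp (fun z => ∑ a, |H' a z|) 3 volume := memLp_finsetSum _ (fun a _ => (mH' a).abs)
    have nS' : (eLpNorm (fun z => ∑ a, |H' a z|) 3 volume).toReal ≤ s + m * δ := by
      have h1 : eLpNorm (fun z => ∑ a, |H' a z|) 3 volume ≤
          eLpNorm (fun z => ∑ a, |H a z|) 3 volume + ∑ a, eLpNorm (H a - H' a) 3 volume := by
        have hmeas : ∀ a, AEStronglyMeasurable (fun z => |H a z - H' a z|) volume := fun a =>
          ((hH a).sub (mH' a)).1.norm
        calc eLpNorm (fun z => ∑ a, |H' a z|) 3 volume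
            ≤ eLpNorm ((fun z => ∑ a, |H a z|) + fun z => ∑ a, |H a z - H' a z|) 3 volume := by
              refine eLpNorm_mono (fun z => ?_)
              rw [Real.norm_of_nonneg (Finset.sum_nonneg (fun a _ => abs_nonneg _)),
                Real.norm_of_nonneg (by
                  simp only [Pi.add_apply]
                  exact add_nonneg (Finset.sum_nonneg (fun a _ => abs_nonneg _))
                    (Finset.sum_nonneg (fun a _ => abs_nonneg _)))]
              simp only [Pi.add_apply]
              rw [← Finset.sum_add_distrib]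
              refine Finset.sum_le_sum (fun a _ => ?_)
              have := abs_sub_abs_le_abs_sub (H' a z) (H a z)
              rw [abs_sub_comm (H' a z) (H a z)] at this
              linarith
          _ ≤ eLpNorm (fun z => ∑ a, |H a z|) 3 volume +
              eLpNorm (fun z => ∑ a, |H a z - H' a z|) 3 volume :=
              eLpNorm_add_le hsumH.1 (memLp_finsetSum _ (fun a _ => ((hH a).sub (mH' a)).abs)).1
                (by norm_num)
          _ ≤ _ := by
              gcongr
              have e : (fun z => ∑ a, |H a z - H' a z|) = ∑ a, fun z => |H a z - H' a z| := by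
                funext z; rw [Finset.sum_apply]
              rw [e]
              refine (eLpNorm_sum_le (fun a _ => hmeas a) (by norm_num)).trans ?_
              refine Finset.sum_le_sum (fun a _ => ?_)
              exact (eLpNorm_norm (H a - H' a)).le
      have h2 : ∑ a, eLpNorm (H a - H' a) 3 volume ≤ ENNReal.ofReal (m * δ) := by
        calc ∑ a, eLpNorm (H a - H' a) 3 volume ≤ ∑ _a : α, ENNReal.ofReal δ :=
              Finset.sum_le_sum (fun a _ => hha a)
          _ = ENNReal.ofReal (m * δ) := by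
              rw [Finset.sum_const, Finset.card_univ, nsmul_eq_mul, ← ENNReal.ofReal_natCast,
                ← ENNReal.ofReal_mul (Nat.cast_nonneg _)]
      have h3 : eLpNorm (fun z => ∑ a, |H' a z|) 3 volume ≤
          ENNReal.ofReal (s + m * δ) := by
        refine h1.trans ?_
        rw [ENNReal.ofReal_add hs0 (by positivity), hs, ENNReal.ofReal_toReal hsumH.2.ne]
        gcongr
      exact ENNReal.toReal_le_of_le_ofReal (by positivity) h3
    have nS'0 : 0 ≤ (eLpNorm (fun z => ∑ a, |H' a z|) 3 volume).toReal := ENNReal.toReal_nonneg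
    -- step estimate
    have hstep : |∑ a, chT (ch a) F' G' (H' a)| ≤ C * Real.sqrt n * (f + δ) * (g + δ) * (s + m * δ) := by
      refine (hC n hn L N f₀ g₀ hf₀N' hg₀N' α ch h hhN' hhd).trans ?_
      have hsq : 0 ≤ Real.sqrt n := Real.sqrt_nonneg _
      have hfd : 0 ≤ f + δ := by linarith
      have hgd : 0 ≤ g + δ := by linarith
      gcongr
    -- differences
    have hdiff : ∀ a, |chT (ch a) F G (H a) - chT (ch a) F' G' (H' a)| ≤
        Ka a * (δ * g * (eLpNorm (H a) 3 volume).toReal +
          (f + δ) * δ * (eLpNorm (H a) 3 volume).toReal + (f + δ) * (g + δ) * δ) := by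
      intro a
      set ha := (eLpNorm (H a) 3 volume).toReal with hha'
      have ha0 : 0 ≤ ha := ENNReal.toReal_nonneg
      have e : chT (ch a) F G (H a) - chT (ch a) F' G' (H' a) =
          ∑ i, (ch a).σ i * (TR F G (H a) ((ch a).ε i) ((ch a).R i) -
            TR F' G' (H' a) ((ch a).ε i) ((ch a).R i)) := by
        simp only [chT]
        rw [← Finset.sum_sub_distrib]
        exact Finset.sum_congr rfl (fun i _ => by ring)
      rw [e, hKa]
      simp only []
      rw [Finset.sum_mul]
      refine (Finset.abs_sum_le_sum_abs _ _).trans (Finset.sum_le_sum (fun i _ => ?_))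
      rw [abs_mul, mul_assoc]
      refine mul_le_mul_of_nonneg_left ?_ (abs_nonneg _)
      have hε := (ch a).hε i
      have hR := (ch a).hR i
      set ε := (ch a).ε i
      set R := (ch a).R i
      set l := 2 * Real.log (R / ε) with hl
      have hl0 : 0 ≤ l := hlog a i
      have e2 : TR F G (H a) ε R - TR F' G' (H' a) ε R =
          TR (F - F') G (H a) ε R + TR F' (G - G') (H a) ε R + TR F' G' (H a - H' a) ε R := by
        rw [TR_sub₀ hF mF' hG (hH a) hε hR, TR_sub₁ hG mG' mF' (hH a) hε hR,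
          TR_sub₂ (hH a) (mH' a) mF' mG' hε hR]
        ring
      have b1 := abs_TR_le (hF.sub mF') hG (hH a) hε hR
      have b2 := abs_TR_le mF' (hG.sub mG') (hH a) hε hR
      have b3 := abs_TR_le mF' mG' ((hH a).sub (mH' a)) hε hR
      have c1 : |TR (F - F') G (H a) ε R| ≤ l * (δ * g * ha) := by
        refine b1.trans ?_
        rw [show l * (δ * g * ha) = l * δ * g * ha by ring]
        gcongr
      have hfd : 0 ≤ f + δ := by linarith
      have hgd : 0 ≤ g + δ := by linarith
      have c2 : |TR F' (G - G') (H a) ε R| ≤ l * ((f + δ) * δ * ha) := by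
        refine b2.trans ?_
        rw [show l * ((f + δ) * δ * ha) = l * (f + δ) * δ * ha by ring]
        gcongr
      have c3 : |TR F' G' (H a - H' a) ε R| ≤ l * ((f + δ) * (g + δ) * δ) := by
        refine b3.trans ?_
        rw [show l * ((f + δ) * (g + δ) * δ) = l * (f + δ) * (g + δ) * δ by ring]
        gcongr
        exact dH a
      rw [e2]
      calc |TR (F - F') G (H a) ε R + TR F' (G - G') (H a) ε R + TR F' G' (H a - H' a) ε R|
          ≤ |TR (F - F') G (H a) ε R| + |TR F' (G - G') (H a) ε R| + |TR F' G' (H a - H' a) ε R| :=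
            abs_add_three _ _ _
        _ ≤ _ := by linarith
    calc |S| = |∑ a, chT (ch a) F' G' (H' a) +
          ∑ a, (chT (ch a) F G (H a) - chT (ch a) F' G' (H' a))| := by
            rw [← Finset.sum_add_distrib, hS]
            congr 1
            exact Finset.sum_congr rfl (fun a _ => by ring)
      _ ≤ |∑ a, chT (ch a) F' G' (H' a)| +
          |∑ a, (chT (ch a) F G (H a) - chT (ch a) F' G' (H' a))| := abs_add_le _ _
      _ ≤ Φ δ := by
          rw [hΦ]
          refine add_le_add hstep ?_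
          exact (Finset.abs_sum_le_sum_abs _ _).trans (Finset.sum_le_sum (fun a _ => hdiff a))
  have hΦc : Continuous Φ := by
    rw [hΦ]; fun_prop
  have hlim : Tendsto Φ (𝓝[>] 0) (𝓝 (Φ 0)) := (hΦc.tendsto 0).mono_left nhdsWithin_le_nhds
  have hfin : |S| ≤ Φ 0 := by
    refine ge_of_tendsto hlim ?_
    filter_upwards [self_mem_nhdsWithin] with δ hδ
    exact main δ hδ
  have e0 : Φ 0 = C * Real.sqrt n * f * g * s := by
    simp only [hΦ]; simp
  rw [e0] at hfin
  exact hfin

end Crest.Agent.TH
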