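import Crest.Agent.TH_R6

/-! # TH_R7 (task TH-R7): duality, finite families -/

set_option autoImplicit false
open Matrix MeasureTheory Set Filter
open scoped Topology ENNReal

namespace Crest.Agent.TH

private theorem r7_kap_meas (ε R : ℝ) : Measurable (kap ε R) := by
  unfold kap
  refine Measurable.ite ?_ (measurable_const.div measurable_id) measurable_const
  exact (measurableSet_lt measurable_const continuous_abs.measurable).inter
    (measurableSet_lt continuous_abs.measurable measurable_const)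

private theorem r7_BR_aesm {F G : ℝ × ℝ → ℝ} (hF : AEStronglyMeasurable F volume)
    (hG : AEStronglyMeasurable G volume) (ε R : ℝ) :
    AEStronglyMeasurable (BR F G ε R) volume := by
  have h1 : AEStronglyMeasurable (fun p : (ℝ × ℝ) × ℝ => F (p.1.1 + p.2, p.1.2)) volume := by
    have := hF.comp_quasiMeasurePreserving (THMeas_qmp ((1 : ℝ), (0 : ℝ)))
    refine this.congr (Eventually.of_forall (fun p => ?_))
    show F (p.1 + p.2 • ((1 : ℝ), (0 : ℝ))) = _
    rw [← THMeas_shift1]
  have h2 : AEStronglyMeasurable (fun p : (ℝ × ℝ) × ℝ => G (p.1.1, p.1.2 + p.2)) volume := by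
    have := hG.comp_quasiMeasurePreserving (THMeas_qmp ((0 : ℝ), (1 : ℝ)))
    refine this.congr (Eventually.of_forall (fun p => ?_))
    show G (p.1 + p.2 • ((0 : ℝ), (1 : ℝ))) = _
    rw [← THMeas_shift2]
  have h3 : AEStronglyMeasurable (fun p : (ℝ × ℝ) × ℝ => kap ε R p.2) volume :=
    ((r7_kap_meas ε R).comp measurable_snd).aestronglyMeasurable
  have h4 := (h1.mul h2).mul h3
  rw [Measure.volume_eq_prod] at h4
  exact h4.integral_prod_right'

private theorem r7_chB_aesm {n : ℕ} {F G : ℝ × ℝ → ℝ} (hF : AEStronglyMeasurable F volume)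
    (hG : AEStronglyMeasurable G volume) (c : Choice n) :
    AEStronglyMeasurable (chB c F G) volume := by
  unfold chB
  refine Finset.aestronglyMeasurable_fun_sum _ fun i _ => ?_
  exact (r7_BR_aesm hF hG _ _).const_mul _

private theorem r7_HB_integrable {F G H : ℝ × ℝ → ℝ} (hF : MemLp F 3 volume) (hG : MemLp G 3 volume)
    (hH : MemLp H 3 volume) {ε R : ℝ} (hε : 0 < ε) (hR : ε < R) :
    Integrable (fun z => H z * BR F G ε R z) := by
  have h := TR_integrable hF hG hH hε hR
  rw [Measure.volume_eq_prod] at h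
  have h2 := h.integral_prod_left
  refine h2.congr (Eventually.of_forall fun z => ?_)
  show (∫ t, H z * (F (z.1 + t, z.2) * G (z.1, z.2 + t) * kap ε R t)) = H z * BR F G ε R z
  rw [integral_const_mul]
  rfl

private theorem r7_chT_eq {n : ℕ} {F G H : ℝ × ℝ → ℝ} (hF : MemLp F 3 volume) (hG : MemLp G 3 volume)
    (hH : MemLp H 3 volume) (c : Choice n) :
    Integrable (fun z => H z * chB c F G z) ∧ chT c F G H = ∫ z, H z * chB c F G z := by
  have hi : ∀ i ∈ (Finset.univ : Finset (Fin n)),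
      Integrable (fun z => c.σ i * (H z * BR F G (c.ε i) (c.R i) z)) := fun i _ =>
    (r7_HB_integrable hF hG hH (c.hε i) (c.hR i)).const_mul _
  have he : (fun z => H z * chB c F G z) =
      fun z => ∑ i, c.σ i * (H z * BR F G (c.ε i) (c.R i) z) := by
    funext z
    unfold chB
    rw [Finset.mul_sum]
    exact Finset.sum_congr rfl fun i _ => by ring
  constructor
  · rw [he]
    exact integrable_finsetSum _ hi
  · rw [he, integral_finsetSum _ hi]
    unfold chT TR
    exact Finset.sum_congr rfl fun i _ => (integral_const_mul _ _).symm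

/-- the bounded case -/
private theorem r7_main {n : ℕ} {C : ℝ} (hC0 : 0 ≤ C)
    (hC : ∀ (F G : ℝ × ℝ → ℝ), MemLp F 3 volume →
    MemLp G 3 volume → ∀ (α : Type) [Fintype α] (ch : α → Choice n) (H : α → ℝ × ℝ → ℝ),
    (∀ a, MemLp (H a) 3 volume) → (∀ a b, a ≠ b → ∀ z, H a z * H b z = 0) →
    |∑ a, chT (ch a) F G (H a)| ≤
      C * Real.sqrt n * (eLpNorm F 3 volume).toReal * (eLpNorm G 3 volume).toReal *
        (eLpNorm (fun z => ∑ a, |H a z|) 3 volume).toReal)
    (F G : ℝ × ℝ → ℝ) (hF : MemLp F 3 volume) (hG : MemLp G 3 volume) (α : Type) [Fintype α]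
    (ch : α → Choice n) (B : α → ℝ × ℝ → ℝ) (hBm : ∀ a, Measurable (B a))
    (hB : ∀ a, chB (ch a) F G =ᵐ[volume] B a) (E : α → Set (ℝ × ℝ)) (hEm : ∀ a, MeasurableSet (E a))
    (hE : ∀ z, ∃ a, z ∈ E a ∧ ∀ b, z ∈ E b → b = a) (M : ℝ) (hM : 0 ≤ M) :
    ∫⁻ z, ENNReal.ofReal (∑ a, (E a ∩ Metric.closedBall 0 M).indicator (fun z => min |B a z| M) z)
        ^ (3 / 2 : ℝ) ≤
      ENNReal.ofReal (C * Real.sqrt n * (eLpNorm F 3 volume).toReal * (eLpNorm G 3 volume).toReal)
        ^ (3 / 2 : ℝ) := by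
  classical
  set T : ℝ × ℝ → ℝ := fun z =>
    ∑ a, (E a ∩ Metric.closedBall 0 M).indicator (fun z => min |B a z| M) z with hT
  set K : ℝ := C * Real.sqrt n * (eLpNorm F 3 volume).toReal * (eLpNorm G 3 volume).toReal with hK
  have hK0 : 0 ≤ K := by positivity
  let H : α → ℝ × ℝ → ℝ := fun a z => (E a ∩ Metric.closedBall 0 M).indicator
    (fun z => SignType.sign (B a z) * Real.sqrt (min |B a z| M)) z
  have hmemE : ∀ a, MeasurableSet (E a ∩ Metric.closedBall (0 : ℝ × ℝ) M) := fun a =>
    (hEm a).inter Metric.isClosed_closedBall.measurableSet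
  -- pointwise description
  have hpt : ∀ z, ∃ a, z ∈ E a ∧ (∀ b, z ∈ E b → b = a) ∧
      T z = (if z ∈ Metric.closedBall (0 : ℝ × ℝ) M then min |B a z| M else 0) ∧
      (∀ b, b ≠ a → H b z = 0) ∧
      H a z = (if z ∈ Metric.closedBall (0 : ℝ × ℝ) M then
        SignType.sign (B a z) * Real.sqrt (min |B a z| M) else 0) := by
    intro z
    obtain ⟨a, ha, hu⟩ := hE z
    refine ⟨a, ha, hu, ?_, ?_, ?_⟩
    · rw [hT]
      simp only
      rw [Finset.sum_eq_single a]
      · by_cases hz : z ∈ Metric.closedBall (0 : ℝ × ℝ) M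
        · rw [Set.indicator_of_mem (show z ∈ E a ∩ Metric.closedBall 0 M from ⟨ha, hz⟩), if_pos hz]
        · rw [Set.indicator_of_notMem (fun h => hz h.2), if_neg hz]
      · intro b _ hb
        exact Set.indicator_of_notMem (fun h => hb (hu b h.1)) _
      · intro h
        exact absurd (Finset.mem_univ a) h
    · intro b hb
      exact Set.indicator_of_notMem (fun h => hb (hu b h.1)) _
    · show (E a ∩ Metric.closedBall 0 M).indicator _ z = _
      by_cases hz : z ∈ Metric.closedBall (0 : ℝ × ℝ) M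
      · rw [Set.indicator_of_mem (show z ∈ E a ∩ Metric.closedBall 0 M from ⟨ha, hz⟩), if_pos hz]
      · rw [Set.indicator_of_notMem (fun h => hz h.2), if_neg hz]
  have hT0 : ∀ z, 0 ≤ T z := by
    intro z
    obtain ⟨a, -, -, h, -, -⟩ := hpt z
    rw [h]
    split_ifs
    · exact le_min (abs_nonneg _) hM
    · exact le_refl _
  have hTm : Measurable T := by
    rw [hT]
    refine Finset.measurable_fun_sum _ fun a _ => ?_
    refine Measurable.indicator ?_ (hmemE a)
    have := hBm a
    fun_prop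
  have hTb : ∀ z, T z ≤ (Metric.closedBall (0 : ℝ × ℝ) M).indicator (fun _ => M) z := by
    intro z
    obtain ⟨a, -, -, h, -, -⟩ := hpt z
    rw [h]
    by_cases hz : z ∈ Metric.closedBall (0 : ℝ × ℝ) M
    · rw [if_pos hz, Set.indicator_of_mem hz]
      exact min_le_right _ _
    · rw [if_neg hz, Set.indicator_of_notMem hz]
  have hHm : ∀ a, Measurable (H a) := by
    intro a
    refine Measurable.indicator ?_ (hmemE a)
    have h1 : Measurable (fun z => ((SignType.sign (B a z) : SignType) : ℝ)) := by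
      have h2 : (fun z => ((SignType.sign (B a z) : SignType) : ℝ)) =
          fun z => if 0 < B a z then (1 : ℝ) else if B a z < 0 then -1 else 0 := by
        funext z
        rcases lt_trichotomy (B a z) 0 with h | h | h
        · rw [sign_neg h, if_neg (not_lt.2 h.le), if_pos h]
          rfl
        · rw [h, sign_zero, if_neg (lt_irrefl _), if_neg (lt_irrefl _)]
          rfl
        · rw [sign_pos h, if_pos h]
          rfl
      rw [h2]
      refine Measurable.ite (measurableSet_lt measurable_const (hBm a)) measurable_const ?_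
      exact Measurable.ite (measurableSet_lt (hBm a) measurable_const) measurable_const
        measurable_const
    have := hBm a
    exact h1.mul (by fun_prop)
  have hsgn : ∀ x : ℝ, |((SignType.sign x : SignType) : ℝ)| ≤ 1 := by
    intro x
    rcases lt_trichotomy x 0 with h | h | h
    · rw [sign_neg h]
      simp
    · rw [h, sign_zero]
      simp
    · rw [sign_pos h]
      simp
  have hHb : ∀ a z, |H a z| ≤ (Metric.closedBall (0 : ℝ × ℝ) M).indicator
      (fun _ => Real.sqrt M) z := by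
    intro a z
    show |(E a ∩ Metric.closedBall 0 M).indicator _ z| ≤ _
    by_cases hz : z ∈ E a ∩ Metric.closedBall (0 : ℝ × ℝ) M
    · rw [Set.indicator_of_mem hz, Set.indicator_of_mem hz.2, abs_mul,
        abs_of_nonneg (Real.sqrt_nonneg _)]
      calc |((SignType.sign (B a z) : SignType) : ℝ)| * Real.sqrt (min |B a z| M)
          ≤ 1 * Real.sqrt M := mul_le_mul (hsgn _) (Real.sqrt_le_sqrt (min_le_right _ _))
            (Real.sqrt_nonneg _) zero_le_one
        _ = _ := one_mul _
    · rw [Set.indicator_of_notMem hz, abs_zero]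
      exact Set.indicator_nonneg (fun _ _ => Real.sqrt_nonneg _) z
  have hfin : (volume : Measure (ℝ × ℝ)) (Metric.closedBall 0 M) ≠ ⊤ :=
    measure_closedBall_lt_top.ne
  have hHL : ∀ a, MemLp (H a) 3 volume := by
    intro a
    refine (memLp_indicator_const 3 (Metric.isClosed_closedBall.measurableSet) (Real.sqrt M)
      (Or.inr hfin)).mono (hHm a).aestronglyMeasurable (Eventually.of_forall fun z => ?_)
    rw [Real.norm_eq_abs, Real.norm_eq_abs]
    exact (hHb a z).trans (le_abs_self _)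
  have hHd : ∀ a b, a ≠ b → ∀ z, H a z * H b z = 0 := by
    intro a b hab z
    obtain ⟨c, -, -, -, h, -⟩ := hpt z
    by_cases ha : a = c
    · rw [h b (fun hb => hab (ha.trans hb.symm)), mul_zero]
    · rw [h a ha, zero_mul]
  -- sums
  have hsum1 : ∀ z, T z * Real.sqrt (T z) ≤ ∑ a, H a z * B a z := by
    intro z
    obtain ⟨a, -, -, h1, h2, h3⟩ := hpt z
    rw [Finset.sum_eq_single a (fun b _ hb => by rw [h2 b hb, zero_mul])
      (fun h => absurd (Finset.mem_univ a) h), h3, h1]
    split_ifs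
    · have e1 : ((SignType.sign (B a z) : SignType) : ℝ) * B a z = |B a z| := sign_mul_self _
      have e2 : ((SignType.sign (B a z) : SignType) : ℝ) * Real.sqrt (min |B a z| M) * B a z =
          |B a z| * Real.sqrt (min |B a z| M) := by rw [← e1]; ring
      rw [e2]
      exact mul_le_mul_of_nonneg_right (min_le_left _ _) (Real.sqrt_nonneg _)
    · simp
  have hsum2 : ∀ z, ∑ a, |H a z| ≤ Real.sqrt (T z) := by
    intro z
    obtain ⟨a, -, -, h1, h2, h3⟩ := hpt z
    rw [Finset.sum_eq_single a (fun b _ hb => by rw [h2 b hb, abs_zero])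
      (fun h => absurd (Finset.mem_univ a) h), h3, h1]
    split_ifs
    · rw [abs_mul, abs_of_nonneg (Real.sqrt_nonneg _)]
      exact mul_le_of_le_one_left (Real.sqrt_nonneg _) (hsgn _)
    · simp
  -- the integral J
  set J : ℝ≥0∞ := ∫⁻ z, ENNReal.ofReal (T z) ^ (3 / 2 : ℝ) with hJ
  have hpow : ∀ z, ENNReal.ofReal (T z) ^ (3 / 2 : ℝ) = ENNReal.ofReal (T z * Real.sqrt (T z)) := by
    intro z
    rw [ENNReal.ofReal_rpow_of_nonneg (hT0 z) (by norm_num)]
    congr 1
    rw [Real.sqrt_eq_rpow]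
    rcases (hT0 z).eq_or_lt with h | h
    · rw [← h, Real.zero_rpow (by norm_num), zero_mul]
    · nth_rewrite 2 [← Real.rpow_one (T z)]
      rw [← Real.rpow_add h]
      norm_num
  have hJfin : J ≠ ⊤ := by
    have : J ≤ ∫⁻ z, (Metric.closedBall (0 : ℝ × ℝ) M).indicator
        (fun _ => ENNReal.ofReal M ^ (3 / 2 : ℝ)) z := by
      refine lintegral_mono fun z => ?_
      by_cases hz : z ∈ Metric.closedBall (0 : ℝ × ℝ) M
      · rw [Set.indicator_of_mem hz]
        have := hTb z
        rw [Set.indicator_of_mem hz] at this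
        exact ENNReal.rpow_le_rpow (ENNReal.ofReal_le_ofReal this) (by norm_num)
      · rw [Set.indicator_of_notMem hz]
        have := hTb z
        rw [Set.indicator_of_notMem hz] at this
        rw [le_antisymm this (hT0 z), ENNReal.ofReal_zero, ENNReal.zero_rpow_of_pos (by norm_num)]
    refine ne_top_of_le_ne_top ?_ this
    rw [lintegral_indicator_const Metric.isClosed_closedBall.measurableSet]
    exact ENNReal.mul_ne_top (ENNReal.rpow_ne_top_of_nonneg (by norm_num) ENNReal.ofReal_ne_top) hfin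
  have hTT0 : ∀ z, 0 ≤ T z * Real.sqrt (T z) := fun z => mul_nonneg (hT0 z) (Real.sqrt_nonneg _)
  have hJint : ∫ z, T z * Real.sqrt (T z) = J.toReal := by
    rw [integral_eq_lintegral_of_nonneg_ae (Eventually.of_forall hTT0)
      (by have := hTm; exact (this.mul (by fun_prop)).aestronglyMeasurable), hJ]
    congr 1
    exact lintegral_congr fun z => (hpow z).symm
  have hTTi : Integrable (fun z => T z * Real.sqrt (T z)) := by
    refine ⟨(hTm.mul (by fun_prop)).aestronglyMeasurable, ?_⟩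
    rw [HasFiniteIntegral]
    have : ∫⁻ z, ‖T z * Real.sqrt (T z)‖ₑ = J := by
      rw [hJ]
      refine lintegral_congr fun z => ?_
      rw [hpow z, Real.enorm_eq_ofReal (hTT0 z)]
    rw [this]
    exact hJfin.lt_top
  -- lower bound
  have hlow : J.toReal ≤ ∑ a, chT (ch a) F G (H a) := by
    rw [← hJint]
    have h1 : ∀ a ∈ (Finset.univ : Finset α), Integrable (fun z => H a z * B a z) := by
      intro a _
      refine (r7_chT_eq hF hG (hHL a) (ch a)).1.congr ?_
      filter_upwards [hB a] with z hz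
      rw [hz]
    have h2 : ∀ a, chT (ch a) F G (H a) = ∫ z, H a z * B a z := by
      intro a
      rw [(r7_chT_eq hF hG (hHL a) (ch a)).2]
      refine integral_congr_ae ?_
      filter_upwards [hB a] with z hz
      rw [hz]
    rw [Finset.sum_congr rfl fun a _ => h2 a, ← integral_finsetSum _ h1]
    exact integral_mono hTTi (integrable_finsetSum _ h1) hsum1
  -- upper bound
  have hup := hC F G hF hG α ch H hHL hHd
  have hnorm : (eLpNorm (fun z => ∑ a, |H a z|) 3 volume).toReal ≤ J.toReal ^ (1 / 3 : ℝ) := by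
    have h1 : eLpNorm (fun z => ∑ a, |H a z|) 3 volume ≤ J ^ (1 / 3 : ℝ) := by
      rw [eLpNorm_eq_lintegral_rpow_enorm_toReal (by norm_num) (by norm_num)]
      have e3 : (3 : ℝ≥0∞).toReal = 3 := by norm_num
      rw [e3]
      refine ENNReal.rpow_le_rpow ?_ (by norm_num)
      rw [hJ]
      refine lintegral_mono fun z => ?_
      have h0 : 0 ≤ ∑ a, |H a z| := Finset.sum_nonneg fun a _ => abs_nonneg _
      rw [Real.enorm_eq_ofReal h0]
      calc ENNReal.ofReal (∑ a, |H a z|) ^ (3 : ℝ)
          ≤ ENNReal.ofReal (Real.sqrt (T z)) ^ (3 : ℝ) :=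
            ENNReal.rpow_le_rpow (ENNReal.ofReal_le_ofReal (hsum2 z)) (by norm_num)
        _ = ENNReal.ofReal (T z) ^ (3 / 2 : ℝ) := by
            rw [Real.sqrt_eq_rpow, ← ENNReal.ofReal_rpow_of_nonneg (hT0 z) (by norm_num),
              ← ENNReal.rpow_mul]
            norm_num
    calc (eLpNorm (fun z => ∑ a, |H a z|) 3 volume).toReal
        ≤ (J ^ (1 / 3 : ℝ)).toReal :=
          ENNReal.toReal_mono (ENNReal.rpow_ne_top_of_nonneg (by norm_num) hJfin) h1
      _ = J.toReal ^ (1 / 3 : ℝ) := (ENNReal.toReal_rpow _ _).symm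
  have hj0 : 0 ≤ J.toReal := ENNReal.toReal_nonneg
  have hfinal : J.toReal ≤ K * J.toReal ^ (1 / 3 : ℝ) := by
    calc J.toReal ≤ ∑ a, chT (ch a) F G (H a) := hlow
      _ ≤ |∑ a, chT (ch a) F G (H a)| := le_abs_self _
      _ ≤ K * (eLpNorm (fun z => ∑ a, |H a z|) 3 volume).toReal := hup
      _ ≤ K * J.toReal ^ (1 / 3 : ℝ) := mul_le_mul_of_nonneg_left hnorm hK0
  have hres : J.toReal ≤ K ^ (3 / 2 : ℝ) := by
    rcases hj0.eq_or_lt with h | h
    · rw [← h]
      positivity
    · have h1 : J.toReal ^ (2 / 3 : ℝ) ≤ K := by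
        have h2 : 0 < J.toReal ^ (1 / 3 : ℝ) := Real.rpow_pos_of_pos h _
        have h3 : J.toReal ^ (2 / 3 : ℝ) * J.toReal ^ (1 / 3 : ℝ) = J.toReal := by
          rw [← Real.rpow_add h]
          norm_num
        have h4 : J.toReal ^ (2 / 3 : ℝ) * J.toReal ^ (1 / 3 : ℝ) ≤ K * J.toReal ^ (1 / 3 : ℝ) := by
          rw [h3]
          exact hfinal
        exact le_of_mul_le_mul_right h4 h2
      calc J.toReal = (J.toReal ^ (2 / 3 : ℝ)) ^ (3 / 2 : ℝ) := by
            rw [← Real.rpow_mul hj0]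
            norm_num
        _ ≤ K ^ (3 / 2 : ℝ) := Real.rpow_le_rpow (by positivity) h1 (by norm_num)
  rw [ENNReal.ofReal_rpow_of_nonneg hK0 (by norm_num)]
  calc J = ENNReal.ofReal J.toReal := (ENNReal.ofReal_toReal hJfin).symm
    _ ≤ _ := ENNReal.ofReal_le_ofReal hres

/-- Let `S(z) = max_a |chB (ch a) F G z|` (measurable, finite a.e.).  Select measurably the first `a` with
`S(z) = |chB (ch a) F G z|`, put `H a = sign · 1_{sel = a} · min(S,M)^{1/2} 1_{‖z‖ ≤ M}`:
`∫ min(S,M)^{3/2} 1 ≤ ∫ S min(S,M)^{1/2} 1 = ∑_a chT (ch a) F G (H a) ≤ C √n ‖F‖ ‖G‖ (∫ min(S,M)^{3/2} 1)^{1/3}`;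
divide and let `M → ∞`. -/
theorem max_bound : ∃ C : ℝ, 0 ≤ C ∧ ∀ (n : ℕ), 1 ≤ n → ∀ (F G : ℝ × ℝ → ℝ), MemLp F 3 volume →
    MemLp G 3 volume → ∀ (α : Type) [Fintype α] (ch : α → Choice n),
    (∫⁻ z, (⨆ a, ENNReal.ofReal |chB (ch a) F G z|) ^ (3 / 2 : ℝ)) ^ (2 / 3 : ℝ) ≤
      ENNReal.ofReal (C * Real.sqrt n) * eLpNorm F 3 volume * eLpNorm G 3 volume := by
  classical
  obtain ⟨C, hC0, hC⟩ := core_L3
  refine ⟨C, hC0, ?_⟩
  intro n hn F G hF hG α _ ch
  have hmeas : ∀ a, AEStronglyMeasurable (chB (ch a) F G) volume := fun a =>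
    r7_chB_aesm hF.1 hG.1 (ch a)
  let B : α → ℝ × ℝ → ℝ := fun a => (hmeas a).mk _
  have hBm : ∀ a, Measurable (B a) := fun a => (hmeas a).stronglyMeasurable_mk.measurable
  have hB : ∀ a, chB (ch a) F G =ᵐ[volume] B a := fun a => (hmeas a).ae_eq_mk
  let e := Fintype.equivFin α
  let E : α → Set (ℝ × ℝ) := fun a =>
    {z | (∀ b, |B b z| ≤ |B a z|) ∧ ∀ b, e b < e a → |B b z| < |B a z|}
  have hEm : ∀ a, MeasurableSet (E a) := by
    intro a
    have h1 : MeasurableSet {z | ∀ b, |B b z| ≤ |B a z|} := by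
      have : {z | ∀ b, |B b z| ≤ |B a z|} = ⋂ b, {z | |B b z| ≤ |B a z|} := by
        ext z; simp
      rw [this]
      refine MeasurableSet.iInter fun b => measurableSet_le ?_ ?_
      · have := hBm b; fun_prop
      · have := hBm a; fun_prop
    have h2 : MeasurableSet {z | ∀ b, e b < e a → |B b z| < |B a z|} := by
      have : {z | ∀ b, e b < e a → |B b z| < |B a z|} =
          ⋂ b, {z | e b < e a → |B b z| < |B a z|} := by
        ext z; simp
      rw [this]
      refine MeasurableSet.iInter fun b => ?_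
      by_cases hb : e b < e a
      · simp only [hb, forall_const]
        refine measurableSet_lt ?_ ?_
        · have := hBm b; fun_prop
        · have := hBm a; fun_prop
      · simp [hb]
    exact h1.inter h2
  rcases isEmpty_or_nonempty α with hα | hα
  · simp only [iSup_of_empty, bot_eq_zero']
    rw [ENNReal.zero_rpow_of_pos (by norm_num), lintegral_zero,
      ENNReal.zero_rpow_of_pos (by norm_num)]
    exact zero_le
  have hE : ∀ z, ∃ a, z ∈ E a ∧ ∀ b, z ∈ E b → b = a := by
    intro z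
    obtain ⟨a₀, ha₀⟩ := Finite.exists_max fun a => |B a z|
    let P : Finset α := Finset.univ.filter fun a => |B a z| = |B a₀ z|
    have hP : P.Nonempty := ⟨a₀, by simp [P]⟩
    obtain ⟨a, haP, hamin⟩ := P.exists_min_image e hP
    have haa : |B a z| = |B a₀ z| := (Finset.mem_filter.1 haP).2
    have haE : z ∈ E a := by
      refine ⟨fun b => (ha₀ b).trans haa.ge, fun b hb => ?_⟩
      refine lt_of_le_of_ne ((ha₀ b).trans haa.ge) fun h => ?_
      have : b ∈ P := Finset.mem_filter.2 ⟨Finset.mem_univ _, h.trans haa⟩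
      exact absurd (hamin b this) (not_le.2 hb)
    refine ⟨a, haE, fun b hb => ?_⟩
    rcases lt_trichotomy (e b) (e a) with h | h | h
    · exact absurd (haE.2 b h) (not_lt.2 (hb.1 a))
    · exact e.injective h
    · exact absurd (hb.2 a h) (not_lt.2 (haE.1 b))
  set K : ℝ := C * Real.sqrt n * (eLpNorm F 3 volume).toReal * (eLpNorm G 3 volume).toReal with hK
  have hK0 : 0 ≤ K := by positivity
  have hmain : ∀ M : ℕ, ∫⁻ z, ENNReal.ofReal (∑ a, (E a ∩ Metric.closedBall 0 (M : ℝ)).indicator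
      (fun z => min |B a z| M) z) ^ (3 / 2 : ℝ) ≤ ENNReal.ofReal K ^ (3 / 2 : ℝ) := fun M =>
    r7_main hC0 (hC n hn) F G hF hG α ch B hBm hB E hEm hE M (Nat.cast_nonneg M)
  have hlim : ∀ z, (⨆ a, ENNReal.ofReal |B a z|) ^ (3 / 2 : ℝ) =
      liminf (fun M : ℕ => ENNReal.ofReal (∑ a, (E a ∩ Metric.closedBall 0 (M : ℝ)).indicator
      (fun z => min |B a z| M) z) ^ (3 / 2 : ℝ)) atTop := by
    intro z
    obtain ⟨a, ha, hu⟩ := hE z
    have hev : ∀ᶠ M : ℕ in atTop, ENNReal.ofReal (∑ a, (E a ∩ Metric.closedBall 0 (M : ℝ)).indicator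
        (fun z => min |B a z| M) z) ^ (3 / 2 : ℝ) = (⨆ a, ENNReal.ofReal |B a z|) ^ (3 / 2 : ℝ) := by
      have h1 : ∀ᶠ M : ℕ in atTop, ‖z‖ ≤ (M : ℝ) := by
        filter_upwards [eventually_ge_atTop ⌈‖z‖⌉₊] with M hM
        exact (Nat.le_ceil _).trans (by exact_mod_cast hM)
      have h2 : ∀ᶠ M : ℕ in atTop, |B a z| ≤ (M : ℝ) := by
        filter_upwards [eventually_ge_atTop ⌈|B a z|⌉₊] with M hM
        exact (Nat.le_ceil _).trans (by exact_mod_cast hM)
      filter_upwards [h1, h2] with M hM1 hM2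
      congr 1
      have hz : z ∈ Metric.closedBall (0 : ℝ × ℝ) (M : ℝ) := by
        rw [mem_closedBall_zero_iff]
        exact hM1
      rw [Finset.sum_eq_single a (fun b _ hb => Set.indicator_of_notMem
        (fun h => hb (hu b h.1)) _) (fun h => absurd (Finset.mem_univ a) h),
        Set.indicator_of_mem (show z ∈ E a ∩ Metric.closedBall 0 (M : ℝ) from ⟨ha, hz⟩),
        min_eq_left hM2]
      refine le_antisymm (le_iSup (fun a => ENNReal.ofReal |B a z|) a) (iSup_le fun b => ?_)
      exact ENNReal.ofReal_le_ofReal (ha.1 b)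
    rw [liminf_congr hev, liminf_const]
  have hS : ∫⁻ z, (⨆ a, ENNReal.ofReal |chB (ch a) F G z|) ^ (3 / 2 : ℝ) ≤
      ENNReal.ofReal K ^ (3 / 2 : ℝ) := by
    have h1 : ∫⁻ z, (⨆ a, ENNReal.ofReal |chB (ch a) F G z|) ^ (3 / 2 : ℝ) =
        ∫⁻ z, (⨆ a, ENNReal.ofReal |B a z|) ^ (3 / 2 : ℝ) := by
      refine lintegral_congr_ae ?_
      have : ∀ᵐ z, ∀ a, chB (ch a) F G z = B a z := ae_all_iff.2 fun a => hB a
      filter_upwards [this] with z hz
      simp only [hz]
    rw [h1]
    simp only [hlim]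
    refine (lintegral_liminf_le fun M => ?_).trans ?_
    · refine Measurable.pow_const ?_ _
      refine ENNReal.measurable_ofReal.comp ?_
      refine Finset.measurable_fun_sum _ fun a _ => ?_
      refine Measurable.indicator ?_ ((hEm a).inter Metric.isClosed_closedBall.measurableSet)
      have := hBm a
      fun_prop
    · refine (liminf_le_liminf (Eventually.of_forall hmain)).trans ?_
      rw [liminf_const]
  calc (∫⁻ z, (⨆ a, ENNReal.ofReal |chB (ch a) F G z|) ^ (3 / 2 : ℝ)) ^ (2 / 3 : ℝ)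
      ≤ (ENNReal.ofReal K ^ (3 / 2 : ℝ)) ^ (2 / 3 : ℝ) := ENNReal.rpow_le_rpow hS (by norm_num)
    _ = ENNReal.ofReal K := by
        rw [← ENNReal.rpow_mul]
        norm_num
    _ = ENNReal.ofReal (C * Real.sqrt n) * eLpNorm F 3 volume * eLpNorm G 3 volume := by
        rw [hK, ENNReal.ofReal_mul (by positivity), ENNReal.ofReal_mul (by positivity),
          ENNReal.ofReal_toReal hF.2.ne, ENNReal.ofReal_toReal hG.2.ne]

end Crest.Agent.TH
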