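import Crest.Agent.TH_CDefs
import Crest.Agent.TH_Meas

/-! # TH_RDefs: definitions for the reduction of S0096 to the discrete core theorem -/

set_option autoImplicit false
open Matrix MeasureTheory Set Filter
open scoped Topology ENNReal

namespace Crest.Agent.TH

open Classical in
/-- the truncated kernel `1_{ε < |t| < R} / t`. -/
noncomputable def kap (ε R t : ℝ) : ℝ := if ε < |t| ∧ |t| < R then 1 / t else 0

/-- real version of `annularTriangularHT`. -/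
noncomputable def BR (F G : ℝ × ℝ → ℝ) (ε R : ℝ) (z : ℝ × ℝ) : ℝ :=
  ∫ t, F (z.1 + t, z.2) * G (z.1, z.2 + t) * kap ε R t

/-- the trilinear form. -/
noncomputable def TR (F G H : ℝ × ℝ → ℝ) (ε R : ℝ) : ℝ := ∫ z, H z * BR F G ε R z

/-- `n` signed annuli with (for nonzero signs) pairwise disjoint open intervals. -/
structure Choice (n : ℕ) where
  σ : Fin n → ℝ
  ε : Fin n → ℝ
  R : Fin n → ℝ
  hσ : ∀ i, |σ i| ≤ 1
  hε : ∀ i, 0 < ε i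
  hR : ∀ i, ε i < R i
  disj : ∀ i j, i ≠ j → σ i ≠ 0 → σ j ≠ 0 → R i ≤ ε j ∨ R j ≤ ε i

/-- `∑_i σ_i B_{ε_i,R_i}(F,G)(z)`. -/
noncomputable def chB {n : ℕ} (c : Choice n) (F G : ℝ × ℝ → ℝ) (z : ℝ × ℝ) : ℝ :=
  ∑ i, c.σ i * BR F G (c.ε i) (c.R i) z

/-- `∑_i σ_i TR`. -/
noncomputable def chT {n : ℕ} (c : Choice n) (F G H : ℝ × ℝ → ℝ) : ℝ :=
  ∑ i, c.σ i * TR F G H (c.ε i) (c.R i)

/-- `F(a,b) = f₀(b, -a-b)` for step functions (so that `F₀(x₀,x₁) = F(-x₀-x₁,x₀)`). -/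
noncomputable def rotF (L : ℕ) (f : ℤ → ℤ → ℝ) (z : ℝ × ℝ) : ℝ := stepZ L f (z.2, -z.1 - z.2)

/-- `G(a,b) = f₁(-a-b, a)` (so that `F₁(x₁,x₂) = G(x₂,-x₁-x₂)`). -/
noncomputable def rotG (L : ℕ) (f : ℤ → ℤ → ℝ) (z : ℝ × ℝ) : ℝ := stepZ L f (-z.1 - z.2, z.1)

/-- the matrix of a function on `ℤ × ℤ` restricted to `[-N,N)²` -/
def toM (N : ℕ) (f : ℤ → ℤ → ℝ) : Matrix (Fin (2 * N)) (Fin (2 * N)) ℝ :=
  Matrix.of fun a b => f ((a : ℤ) - N) ((b : ℤ) - N)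

/-- finite support inside `[-N,N)²` -/
def FinSupp (N : ℕ) (f : ℤ → ℤ → ℝ) : Prop :=
  ∀ a b : ℤ, (a < -N ∨ (N : ℤ) ≤ a ∨ b < -N ∨ (N : ℤ) ≤ b) → f a b = 0

end Crest.Agent.TH
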