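import Crest.Agent.TH_Defs
import Crest.Prelude.Def_DyadicTriangular

/-! # TH_S97a (task TH-D4): continuity and linearity of the local form -/

set_option autoImplicit false
open Matrix MeasureTheory Set Filter
open scoped Topology ENNReal

namespace Crest.Agent.TH
open Crest.AnalysisR.TriangularDyadic

/-- The three pullbacks of a.e. measurable functions to the triple product. -/
theorem trip_aux₀ (ν₀ ν₁ ν₂ : Measure ℝ) [IsFiniteMeasure ν₀] [IsFiniteMeasure ν₁] [IsFiniteMeasure ν₂]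
    (f : ℝ × ℝ → ℝ≥0∞) (hf : AEMeasurable f (ν₀.prod ν₁)) :
    AEMeasurable (fun z : ℝ × ℝ × ℝ => f (z.1, z.2.1)) (ν₀.prod (ν₁.prod ν₂)) ∧
      ∫⁻ z, f (z.1, z.2.1) ∂(ν₀.prod (ν₁.prod ν₂)) = ν₂ univ * ∫⁻ w, f w ∂(ν₀.prod ν₁) := by
  have hmap : Measure.map (fun z : ℝ × ℝ × ℝ => (z.1, z.2.1)) (ν₀.prod (ν₁.prod ν₂)) =
      ν₂ univ • (ν₀.prod ν₁) := by
    have h := Measure.map_prod_map (f := (id : ℝ → ℝ)) (g := (Prod.fst : ℝ × ℝ → ℝ)) ν₀ (ν₁.prod ν₂)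
      measurable_id measurable_fst
    rw [Measure.map_id, Measure.map_fst_prod, Measure.prod_smul_right] at h
    rw [h]
    rfl
  have hm : Measurable (fun z : ℝ × ℝ × ℝ => (z.1, z.2.1)) := by fun_prop
  have hf' : AEMeasurable f (Measure.map (fun z : ℝ × ℝ × ℝ => (z.1, z.2.1)) (ν₀.prod (ν₁.prod ν₂))) := by
    rw [hmap]; exact hf.smul_measure _
  refine ⟨hf'.comp_measurable hm, ?_⟩
  rw [← lintegral_map' hf' hm.aemeasurable, hmap, lintegral_smul_measure, smul_eq_mul]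

theorem trip_aux₁ (ν₀ ν₁ ν₂ : Measure ℝ) [IsFiniteMeasure ν₀] [IsFiniteMeasure ν₁] [IsFiniteMeasure ν₂]
    (f : ℝ × ℝ → ℝ≥0∞) (hf : AEMeasurable f (ν₁.prod ν₂)) :
    AEMeasurable (fun z : ℝ × ℝ × ℝ => f (z.2.1, z.2.2)) (ν₀.prod (ν₁.prod ν₂)) ∧
      ∫⁻ z, f (z.2.1, z.2.2) ∂(ν₀.prod (ν₁.prod ν₂)) = ν₀ univ * ∫⁻ w, f w ∂(ν₁.prod ν₂) := by
  have hmap : Measure.map (fun z : ℝ × ℝ × ℝ => (z.2.1, z.2.2)) (ν₀.prod (ν₁.prod ν₂)) =
      ν₀ univ • (ν₁.prod ν₂) := Measure.map_snd_prod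
  have hm : Measurable (fun z : ℝ × ℝ × ℝ => (z.2.1, z.2.2)) := by fun_prop
  have hf' : AEMeasurable f (Measure.map (fun z : ℝ × ℝ × ℝ => (z.2.1, z.2.2)) (ν₀.prod (ν₁.prod ν₂))) := by
    rw [hmap]; exact hf.smul_measure _
  refine ⟨hf'.comp_measurable hm, ?_⟩
  rw [← lintegral_map' hf' hm.aemeasurable, hmap, lintegral_smul_measure, smul_eq_mul]

theorem trip_aux₂ (ν₀ ν₁ ν₂ : Measure ℝ) [IsFiniteMeasure ν₀] [IsFiniteMeasure ν₁] [IsFiniteMeasure ν₂]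
    (f : ℝ × ℝ → ℝ≥0∞) (hf : AEMeasurable f (ν₂.prod ν₀)) :
    AEMeasurable (fun z : ℝ × ℝ × ℝ => f (z.2.2, z.1)) (ν₀.prod (ν₁.prod ν₂)) ∧
      ∫⁻ z, f (z.2.2, z.1) ∂(ν₀.prod (ν₁.prod ν₂)) = ν₁ univ * ∫⁻ w, f w ∂(ν₂.prod ν₀) := by
  have hmap : Measure.map (fun z : ℝ × ℝ × ℝ => (z.2.2, z.1)) (ν₀.prod (ν₁.prod ν₂)) =
      ν₁ univ • (ν₂.prod ν₀) := by
    have h := Measure.map_prod_map (f := (id : ℝ → ℝ)) (g := (Prod.snd : ℝ × ℝ → ℝ)) ν₀ (ν₁.prod ν₂)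
      measurable_id measurable_snd
    rw [Measure.map_id, Measure.map_snd_prod, Measure.prod_smul_right] at h
    have h2 : Measure.map Prod.swap (ν₁ univ • ν₀.prod ν₂) = ν₁ univ • (ν₂.prod ν₀) := by
      rw [Measure.map_smul, Measure.prod_swap]
    rw [← h2, h, Measure.map_map measurable_swap (by fun_prop)]
    rfl
  have hm : Measurable (fun z : ℝ × ℝ × ℝ => (z.2.2, z.1)) := by fun_prop
  have hf' : AEMeasurable f (Measure.map (fun z : ℝ × ℝ × ℝ => (z.2.2, z.1)) (ν₀.prod (ν₁.prod ν₂))) := by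
    rw [hmap]; exact hf.smul_measure _
  refine ⟨hf'.comp_measurable hm, ?_⟩
  rw [← lintegral_map' hf' hm.aemeasurable, hmap, lintegral_smul_measure, smul_eq_mul]

/-- Iterated `lintegral` as an integral over the triple product. -/
theorem lintegral_trip (ν₀ ν₁ ν₂ : Measure ℝ) [IsFiniteMeasure ν₀] [IsFiniteMeasure ν₁]
    [IsFiniteMeasure ν₂] (g : ℝ × ℝ × ℝ → ℝ≥0∞) (hg : AEMeasurable g (ν₀.prod (ν₁.prod ν₂))) :
    ∫⁻ x₀, ∫⁻ x₁, ∫⁻ x₂, g (x₀, x₁, x₂) ∂ν₂ ∂ν₁ ∂ν₀ = ∫⁻ z, g z ∂(ν₀.prod (ν₁.prod ν₂)) := by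
  rw [lintegral_prod _ hg]
  apply lintegral_congr_ae
  have h1 : AEStronglyMeasurable g (ν₀.prod (ν₁.prod ν₂)) := hg.aestronglyMeasurable
  filter_upwards [h1.prodMk_left] with x hx
  rw [lintegral_prod _ hx.aemeasurable]

theorem interval_subset_Ici (k : ℤ) (n : ℕ) : interval k n ⊆ Set.Ici 0 := by
  intro x hx
  have h1 : (0 : ℝ) ≤ (2 : ℝ) ^ k * n := by positivity
  exact h1.trans hx.1

theorem abs_haarSign_le (k : ℤ) (n : ℕ) (x : ℝ) : |haarSign k n x| ≤ 1 := by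
  unfold haarSign
  split_ifs <;> simp

theorem measurable_haarSign (k : ℤ) (n : ℕ) : Measurable (haarSign k n) := by
  unfold haarSign
  refine Measurable.ite measurableSet_Ico measurable_const ?_
  exact Measurable.ite measurableSet_Ico measurable_const measurable_const

instance finite_interval (k : ℤ) (n : ℕ) : IsFiniteMeasure (volume.restrict (interval k n)) := by
  constructor
  rw [Measure.restrict_apply_univ]
  unfold interval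
  rw [Real.volume_Ico]
  exact ENNReal.ofReal_lt_top

theorem volume_interval (k : ℤ) (n : ℕ) : (volume.restrict (interval k n)) univ ≤ ENNReal.ofReal (2 ^ k) := by
  rw [Measure.restrict_apply_univ]
  unfold interval
  rw [Real.volume_Ico]
  apply ENNReal.ofReal_le_ofReal
  apply le_of_eq
  ring

theorem prod_interval_le (k : ℤ) (n m : ℕ) :
    (volume.restrict (interval k n)).prod (volume.restrict (interval k m)) ≤
      (volume : Measure (ℝ × ℝ)).restrict (Set.Ici 0 ×ˢ Set.Ici 0) := by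
  rw [Measure.prod_restrict]
  exact Measure.restrict_mono (Set.prod_mono (interval_subset_Ici k n) (interval_subset_Ici k m)) le_rfl

/-- `∫⁻ ‖F‖³ ≤ ‖F‖₃³`-type bound for the box, in the form needed for Hölder. -/
theorem lint_cube_le (k : ℤ) (n m : ℕ) (F : ℝ × ℝ → ℝ) :
    (∫⁻ w, ‖F w‖ₑ ^ (3 : ℝ) ∂((volume.restrict (interval k n)).prod (volume.restrict (interval k m)))) ^ (1 / 3 : ℝ)
      ≤ eLpNorm F 3 (volume.restrict (Set.Ici 0 ×ˢ Set.Ici 0)) := by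
  rw [eLpNorm_eq_lintegral_rpow_enorm_toReal (by norm_num) (by norm_num)]
  have h3 : (3 : ℝ≥0∞).toReal = 3 := by norm_num
  rw [h3]
  gcongr
  exact prod_interval_le k n m

/-- the local form is bounded by the `L³` norms (over the quarter plane):
`|localForm| ≤ 2^{-k} ∫∫∫ |F₀ F₁ F₂| ≤ C ∏ ‖F_i‖₃` (Hölder for three functions on the box). -/
theorem abs_localForm_le (k : ℤ) (n₀ n₁ n₂ : ℕ) : ∃ C : ℝ, 0 ≤ C ∧ ∀ F₀ F₁ F₂ : ℝ × ℝ → ℝ,
    MemLp F₀ 3 (volume.restrict (Set.Ici 0 ×ˢ Set.Ici 0)) → MemLp F₁ 3 (volume.restrict (Set.Ici 0 ×ˢ Set.Ici 0)) →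
    MemLp F₂ 3 (volume.restrict (Set.Ici 0 ×ˢ Set.Ici 0)) →
    |localForm k n₀ n₁ n₂ F₀ F₁ F₂| ≤
      C * (eLpNorm F₀ 3 (volume.restrict (Set.Ici 0 ×ˢ Set.Ici 0))).toReal *
        (eLpNorm F₁ 3 (volume.restrict (Set.Ici 0 ×ˢ Set.Ici 0))).toReal *
        (eLpNorm F₂ 3 (volume.restrict (Set.Ici 0 ×ˢ Set.Ici 0))).toReal := by
  set ν₀ := (volume : Measure ℝ).restrict (interval k n₀) with hν₀
  set ν₁ := (volume : Measure ℝ).restrict (interval k n₁) with hν₁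
  set ν₂ := (volume : Measure ℝ).restrict (interval k n₂) with hν₂
  set A : ℝ≥0∞ := (ν₂ univ) ^ (1 / 3 : ℝ) * (ν₀ univ) ^ (1 / 3 : ℝ) * (ν₁ univ) ^ (1 / 3 : ℝ) with hA
  have hAtop : A ≠ ∞ := by
    rw [hA]
    have h0 : ν₀ univ ≠ ∞ := measure_ne_top _ _
    have h1 : ν₁ univ ≠ ∞ := measure_ne_top _ _
    have h2 : ν₂ univ ≠ ∞ := measure_ne_top _ _
    refine ENNReal.mul_ne_top (ENNReal.mul_ne_top ?_ ?_) ?_
    all_goals
      apply ENNReal.rpow_ne_top_of_nonneg (by norm_num)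
      assumption
  refine ⟨(2 : ℝ) ^ (-k) * A.toReal, by positivity, ?_⟩
  intro F₀ F₁ F₂ h₀ h₁ h₂
  set N₀ := eLpNorm F₀ 3 (volume.restrict (Set.Ici 0 ×ˢ Set.Ici 0)) with hN₀
  set N₁ := eLpNorm F₁ 3 (volume.restrict (Set.Ici 0 ×ˢ Set.Ici 0)) with hN₁
  set N₂ := eLpNorm F₂ 3 (volume.restrict (Set.Ici 0 ×ˢ Set.Ici 0)) with hN₂
  have hN₀t : N₀ ≠ ∞ := h₀.2.ne
  have hN₁t : N₁ ≠ ∞ := h₁.2.ne
  have hN₂t : N₂ ≠ ∞ := h₂.2.ne
  -- measurability on the boxes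
  have m₀ : AEMeasurable (fun w => ‖F₀ w‖ₑ) (ν₀.prod ν₁) :=
    (h₀.1.mono_measure (prod_interval_le k n₀ n₁)).enorm
  have m₁ : AEMeasurable (fun w => ‖F₁ w‖ₑ) (ν₁.prod ν₂) :=
    (h₁.1.mono_measure (prod_interval_le k n₁ n₂)).enorm
  have m₂ : AEMeasurable (fun w => ‖F₂ w‖ₑ) (ν₂.prod ν₀) :=
    (h₂.1.mono_measure (prod_interval_le k n₂ n₀)).enorm
  have p₀ := trip_aux₀ ν₀ ν₁ ν₂ _ (m₀.pow_const (3 : ℝ))
  have p₁ := trip_aux₁ ν₀ ν₁ ν₂ _ (m₁.pow_const (3 : ℝ))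
  have p₂ := trip_aux₂ ν₀ ν₁ ν₂ _ (m₂.pow_const (3 : ℝ))
  have q₀ := (trip_aux₀ ν₀ ν₁ ν₂ _ m₀).1
  have q₁ := (trip_aux₁ ν₀ ν₁ ν₂ _ m₁).1
  have q₂ := (trip_aux₂ ν₀ ν₁ ν₂ _ m₂).1
  -- Hölder
  have hold : ∫⁻ z, ‖F₀ (z.1, z.2.1)‖ₑ * ‖F₁ (z.2.1, z.2.2)‖ₑ * ‖F₂ (z.2.2, z.1)‖ₑ ∂(ν₀.prod (ν₁.prod ν₂))
      ≤ A * N₀ * N₁ * N₂ := by
    have key := ENNReal.lintegral_prod_norm_pow_le (μ := ν₀.prod (ν₁.prod ν₂)) (Finset.univ : Finset (Fin 3))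
      (f := ![fun z => ‖F₀ (z.1, z.2.1)‖ₑ ^ (3 : ℝ), fun z => ‖F₁ (z.2.1, z.2.2)‖ₑ ^ (3 : ℝ),
        fun z => ‖F₂ (z.2.2, z.1)‖ₑ ^ (3 : ℝ)]) (by
          intro i _
          fin_cases i
          · exact p₀.1
          · exact p₁.1
          · exact p₂.1) (p := fun _ => (1 / 3 : ℝ)) (by simp) (by intro i _; norm_num)
    simp only [Fin.prod_univ_three] at key
    simp only [Matrix.cons_val_zero, Matrix.cons_val_one, Matrix.cons_val_two, Matrix.tail_cons, Matrix.head_cons] at key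
    have e3 : ∀ x : ℝ≥0∞, (x ^ (3 : ℝ)) ^ (1 / 3 : ℝ) = x := by
      intro x
      rw [← ENNReal.rpow_mul]
      norm_num
    simp only [e3] at key
    refine key.trans ?_
    rw [p₀.2, p₁.2, p₂.2]
    rw [ENNReal.mul_rpow_of_nonneg _ _ (by norm_num : (0 : ℝ) ≤ 1 / 3),
      ENNReal.mul_rpow_of_nonneg _ _ (by norm_num : (0 : ℝ) ≤ 1 / 3),
      ENNReal.mul_rpow_of_nonneg _ _ (by norm_num : (0 : ℝ) ≤ 1 / 3)]
    calc _ ≤ ν₂ univ ^ (1 / 3 : ℝ) * N₀ * (ν₀ univ ^ (1 / 3 : ℝ) * N₁) * (ν₁ univ ^ (1 / 3 : ℝ) * N₂) := by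
          gcongr
          · exact lint_cube_le k n₀ n₁ F₀
          · exact lint_cube_le k n₁ n₂ F₁
          · exact lint_cube_le k n₂ n₀ F₂
      _ = A * N₀ * N₁ * N₂ := by rw [hA]; ring
  -- the iterated integral is bounded
  have iter : ‖∫ x₀ in interval k n₀, ∫ x₁ in interval k n₁, ∫ x₂ in interval k n₂,
      F₀ (x₀, x₁) * F₁ (x₁, x₂) * F₂ (x₂, x₀) *
        (haarSign k n₀ x₀ * haarSign k n₁ x₁ * haarSign k n₂ x₂)‖ₑ ≤ A * N₀ * N₁ * N₂ := by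
    calc _ ≤ ∫⁻ x₀ in interval k n₀, ∫⁻ x₁ in interval k n₁, ∫⁻ x₂ in interval k n₂,
          ‖F₀ (x₀, x₁)‖ₑ * ‖F₁ (x₁, x₂)‖ₑ * ‖F₂ (x₂, x₀)‖ₑ := by
          refine (enorm_integral_le_lintegral_enorm _).trans ?_
          refine lintegral_mono fun x₀ => ?_
          refine (enorm_integral_le_lintegral_enorm _).trans ?_
          refine lintegral_mono fun x₁ => ?_
          refine (enorm_integral_le_lintegral_enorm _).trans ?_
          refine lintegral_mono fun x₂ => ?_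
          simp only [enorm_mul]
          have hh : ∀ (n : ℕ) (x : ℝ), ‖haarSign k n x‖ₑ ≤ 1 := by
            intro n x
            rw [Real.enorm_eq_ofReal_abs]
            have := abs_haarSign_le k n x
            calc ENNReal.ofReal |haarSign k n x| ≤ ENNReal.ofReal 1 := ENNReal.ofReal_le_ofReal this
              _ = 1 := ENNReal.ofReal_one
          calc _ ≤ ‖F₀ (x₀, x₁)‖ₑ * ‖F₁ (x₁, x₂)‖ₑ * ‖F₂ (x₂, x₀)‖ₑ * (1 * 1 * 1) := by
                gcongr <;> exact hh _ _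
            _ = _ := by ring
      _ = ∫⁻ z, ‖F₀ (z.1, z.2.1)‖ₑ * ‖F₁ (z.2.1, z.2.2)‖ₑ * ‖F₂ (z.2.2, z.1)‖ₑ ∂(ν₀.prod (ν₁.prod ν₂)) :=
          lintegral_trip ν₀ ν₁ ν₂ (fun z => ‖F₀ (z.1, z.2.1)‖ₑ * ‖F₁ (z.2.1, z.2.2)‖ₑ * ‖F₂ (z.2.2, z.1)‖ₑ)
            ((q₀.mul q₁).mul q₂)
      _ ≤ _ := hold
  have iter' := ENNReal.toReal_mono (by
    exact ENNReal.mul_ne_top (ENNReal.mul_ne_top (ENNReal.mul_ne_top hAtop hN₀t) hN₁t) hN₂t) iter
  rw [toReal_enorm, ENNReal.toReal_mul, ENNReal.toReal_mul, ENNReal.toReal_mul, Real.norm_eq_abs] at iter'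
  unfold localForm
  rw [abs_mul, abs_of_pos (show (0 : ℝ) < (2 : ℝ) ^ (-k) by positivity)]
  calc _ ≤ (2 : ℝ) ^ (-k) * (A.toReal * N₀.toReal * N₁.toReal * N₂.toReal) := by
        gcongr
    _ = _ := by ring

/-- the integrand is integrable on the triple product -/
theorem integrable_trip (k : ℤ) (n₀ n₁ n₂ : ℕ) (F G H : ℝ × ℝ → ℝ) (hF : Measurable F)
    (hG : Measurable G) (hH : Measurable H) (M : ℝ) (hb : ∀ z, |F z| ≤ M ∧ |G z| ≤ M ∧ |H z| ≤ M)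
    (ν₀ ν₁ ν₂ : Measure ℝ) [IsFiniteMeasure ν₀] [IsFiniteMeasure ν₁] [IsFiniteMeasure ν₂] :
    Integrable (fun z : ℝ × ℝ × ℝ => F (z.1, z.2.1) * G (z.2.1, z.2.2) * H (z.2.2, z.1) *
      (haarSign k n₀ z.1 * haarSign k n₁ z.2.1 * haarSign k n₂ z.2.2)) (ν₀.prod (ν₁.prod ν₂)) := by
  have m0 := measurable_haarSign k n₀
  have m1 := measurable_haarSign k n₁
  have m2 := measurable_haarSign k n₂
  refine Integrable.of_bound (C := M * M * M) ?_ ?_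
  · apply Measurable.aestronglyMeasurable
    fun_prop
  · refine Filter.Eventually.of_forall fun z => ?_
    have hM : 0 ≤ M := (abs_nonneg _).trans (hb (0, 0)).1
    rw [Real.norm_eq_abs, abs_mul, abs_mul, abs_mul, abs_mul, abs_mul]
    calc _ ≤ M * M * M * (1 * 1 * 1) := by
          gcongr
          · exact (hb _).1
          · exact (hb _).2.1
          · exact (hb _).2.2
          · exact abs_haarSign_le _ _ _
          · exact abs_haarSign_le _ _ _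
          · exact abs_haarSign_le _ _ _
      _ = _ := by ring

theorem integrable_trip₂ (k : ℤ) (n₀ n₁ n₂ : ℕ) (F G H : ℝ × ℝ → ℝ) (hF : Measurable F)
    (hG : Measurable G) (hH : Measurable H) (M : ℝ) (hb : ∀ z, |F z| ≤ M ∧ |G z| ≤ M ∧ |H z| ≤ M)
    (ν₁ ν₂ : Measure ℝ) [IsFiniteMeasure ν₁] [IsFiniteMeasure ν₂] (x : ℝ) :
    Integrable (fun z : ℝ × ℝ => F (x, z.1) * G (z.1, z.2) * H (z.2, x) *
      (haarSign k n₀ x * haarSign k n₁ z.1 * haarSign k n₂ z.2)) (ν₁.prod ν₂) := by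
  have m0 := measurable_haarSign k n₀
  have m1 := measurable_haarSign k n₁
  have m2 := measurable_haarSign k n₂
  refine Integrable.of_bound (C := M * M * M) ?_ ?_
  · apply Measurable.aestronglyMeasurable
    fun_prop
  · refine Filter.Eventually.of_forall fun z => ?_
    have hM : 0 ≤ M := (abs_nonneg _).trans (hb (0, 0)).1
    rw [Real.norm_eq_abs, abs_mul, abs_mul, abs_mul, abs_mul, abs_mul]
    calc _ ≤ M * M * M * (1 * 1 * 1) := by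
          gcongr
          · exact (hb _).1
          · exact (hb _).2.1
          · exact (hb _).2.2
          · exact abs_haarSign_le _ _ _
          · exact abs_haarSign_le _ _ _
          · exact abs_haarSign_le _ _ _
      _ = _ := by ring

theorem localForm_eq_trip (k : ℤ) (n₀ n₁ n₂ : ℕ) (F G H : ℝ × ℝ → ℝ) (hF : Measurable F)
    (hG : Measurable G) (hH : Measurable H) (M : ℝ) (hb : ∀ z, |F z| ≤ M ∧ |G z| ≤ M ∧ |H z| ≤ M) :
    localForm k n₀ n₁ n₂ F G H = (2 : ℝ) ^ (-k) *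
      ∫ z, F (z.1, z.2.1) * G (z.2.1, z.2.2) * H (z.2.2, z.1) *
        (haarSign k n₀ z.1 * haarSign k n₁ z.2.1 * haarSign k n₂ z.2.2)
        ∂((volume.restrict (interval k n₀)).prod
          ((volume.restrict (interval k n₁)).prod (volume.restrict (interval k n₂)))) := by
  unfold localForm
  congr 1
  rw [integral_prod _ (integrable_trip k n₀ n₁ n₂ F G H hF hG hH M hb _ _ _)]
  congr 1
  ext x
  rw [integral_prod _ (integrable_trip₂ k n₀ n₁ n₂ F G H hF hG hH M hb _ _ x)]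

/-- trilinearity (for bounded measurable functions), e.g. in the first slot. -/
theorem localForm_sub₀ (k : ℤ) (n₀ n₁ n₂ : ℕ) (F F' G H : ℝ × ℝ → ℝ) (hF : Measurable F)
    (hF' : Measurable F') (hG : Measurable G) (hH : Measurable H)
    (hb : ∃ M : ℝ, ∀ z, |F z| ≤ M ∧ |F' z| ≤ M ∧ |G z| ≤ M ∧ |H z| ≤ M) :
    localForm k n₀ n₁ n₂ (fun z => F z - F' z) G H =
      localForm k n₀ n₁ n₂ F G H - localForm k n₀ n₁ n₂ F' G H := by
  obtain ⟨M, hM⟩ := hb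
  have hM0 : 0 ≤ M := (abs_nonneg _).trans (hM (0, 0)).1
  have b1 : ∀ z, |F z| ≤ M ∧ |G z| ≤ M ∧ |H z| ≤ M := fun z => ⟨(hM z).1, (hM z).2.2.1, (hM z).2.2.2⟩
  have b2 : ∀ z, |F' z| ≤ M ∧ |G z| ≤ M ∧ |H z| ≤ M := fun z => ⟨(hM z).2.1, (hM z).2.2.1, (hM z).2.2.2⟩
  have b3 : ∀ z, |F z - F' z| ≤ 2 * M ∧ |G z| ≤ 2 * M ∧ |H z| ≤ 2 * M := by
    intro z
    obtain ⟨h1, h2, h3, h4⟩ := hM z
    refine ⟨(abs_sub _ _).trans (by linarith), by linarith, by linarith⟩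
  rw [localForm_eq_trip k n₀ n₁ n₂ (fun z => F z - F' z) G H (hF.sub hF') hG hH _ b3,
    localForm_eq_trip k n₀ n₁ n₂ F G H hF hG hH _ b1,
    localForm_eq_trip k n₀ n₁ n₂ F' G H hF' hG hH _ b2, ← mul_sub, ← integral_sub]
  · congr 2
    ext z
    ring
  · exact integrable_trip k n₀ n₁ n₂ F G H hF hG hH M b1 _ _ _
  · exact integrable_trip k n₀ n₁ n₂ F' G H hF' hG hH M b2 _ _ _

theorem localForm_sub₁ (k : ℤ) (n₀ n₁ n₂ : ℕ) (F F' G H : ℝ × ℝ → ℝ) (hF : Measurable F)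
    (hF' : Measurable F') (hG : Measurable G) (hH : Measurable H)
    (hb : ∃ M : ℝ, ∀ z, |F z| ≤ M ∧ |F' z| ≤ M ∧ |G z| ≤ M ∧ |H z| ≤ M) :
    localForm k n₀ n₁ n₂ G (fun z => F z - F' z) H =
      localForm k n₀ n₁ n₂ G F H - localForm k n₀ n₁ n₂ G F' H := by
  obtain ⟨M, hM⟩ := hb
  have hM0 : 0 ≤ M := (abs_nonneg _).trans (hM (0, 0)).1
  have b1 : ∀ z, |G z| ≤ M ∧ |F z| ≤ M ∧ |H z| ≤ M := fun z => ⟨(hM z).2.2.1, (hM z).1, (hM z).2.2.2⟩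
  have b2 : ∀ z, |G z| ≤ M ∧ |F' z| ≤ M ∧ |H z| ≤ M := fun z => ⟨(hM z).2.2.1, (hM z).2.1, (hM z).2.2.2⟩
  have b3 : ∀ z, |G z| ≤ 2 * M ∧ |F z - F' z| ≤ 2 * M ∧ |H z| ≤ 2 * M := by
    intro z
    obtain ⟨h1, h2, h3, h4⟩ := hM z
    refine ⟨by linarith, (abs_sub _ _).trans (by linarith), by linarith⟩
  rw [localForm_eq_trip k n₀ n₁ n₂ G (fun z => F z - F' z) H hG (hF.sub hF') hH _ b3,
    localForm_eq_trip k n₀ n₁ n₂ G F H hG hF hH _ b1,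
    localForm_eq_trip k n₀ n₁ n₂ G F' H hG hF' hH _ b2, ← mul_sub, ← integral_sub]
  · congr 2
    ext z
    ring
  · exact integrable_trip k n₀ n₁ n₂ G F H hG hF hH M b1 _ _ _
  · exact integrable_trip k n₀ n₁ n₂ G F' H hG hF' hH M b2 _ _ _

theorem localForm_sub₂ (k : ℤ) (n₀ n₁ n₂ : ℕ) (F F' G H : ℝ × ℝ → ℝ) (hF : Measurable F)
    (hF' : Measurable F') (hG : Measurable G) (hH : Measurable H)
    (hb : ∃ M : ℝ, ∀ z, |F z| ≤ M ∧ |F' z| ≤ M ∧ |G z| ≤ M ∧ |H z| ≤ M) :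
    localForm k n₀ n₁ n₂ G H (fun z => F z - F' z) =
      localForm k n₀ n₁ n₂ G H F - localForm k n₀ n₁ n₂ G H F' := by
  obtain ⟨M, hM⟩ := hb
  have hM0 : 0 ≤ M := (abs_nonneg _).trans (hM (0, 0)).1
  have b1 : ∀ z, |G z| ≤ M ∧ |H z| ≤ M ∧ |F z| ≤ M := fun z => ⟨(hM z).2.2.1, (hM z).2.2.2, (hM z).1⟩
  have b2 : ∀ z, |G z| ≤ M ∧ |H z| ≤ M ∧ |F' z| ≤ M := fun z => ⟨(hM z).2.2.1, (hM z).2.2.2, (hM z).2.1⟩
  have b3 : ∀ z, |G z| ≤ 2 * M ∧ |H z| ≤ 2 * M ∧ |F z - F' z| ≤ 2 * M := by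
    intro z
    obtain ⟨h1, h2, h3, h4⟩ := hM z
    refine ⟨by linarith, by linarith, (abs_sub _ _).trans (by linarith)⟩
  rw [localForm_eq_trip k n₀ n₁ n₂ G H (fun z => F z - F' z) hG hH (hF.sub hF') _ b3,
    localForm_eq_trip k n₀ n₁ n₂ G H F hG hH hF _ b1,
    localForm_eq_trip k n₀ n₁ n₂ G H F' hG hH hF' _ b2, ← mul_sub, ← integral_sub]
  · congr 2
    ext z
    ring
  · exact integrable_trip k n₀ n₁ n₂ G H F hG hH hF M b1 _ _ _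
  · exact integrable_trip k n₀ n₁ n₂ G H F' hG hH hF' M b2 _ _ _

end Crest.Agent.TH
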