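import Crest.Agent.TH_MC1b
import Crest.Agent.TH_FopDeriv

/-! # TH_SQ (task TH-B3): the one-cancellation bound -/

set_option autoImplicit false
open Matrix MeasureTheory Set Filter
open scoped Topology ENNReal

namespace Crest.Agent.TH
variable {ι : Type*} [Fintype ι] [DecidableEq ι]

omit [DecidableEq ι] in
private theorem sq_tr (X : Matrix ι ι ℝ) : (Xᵀ * X).trace = ∑ k, ∑ l, X l k ^ 2 := by
  unfold Matrix.trace
  refine Finset.sum_congr rfl fun k _ => ?_
  rw [Matrix.diag_apply, Matrix.mul_apply]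
  exact Finset.sum_congr rfl fun l _ => by rw [Matrix.transpose_apply, sq]

omit [DecidableEq ι] in
private theorem sq_tr_nonneg (X : Matrix ι ι ℝ) : 0 ≤ (Xᵀ * X).trace := by
  rw [sq_tr]
  positivity

/-- left multiplication by a contraction -/
private theorem sq_contr {B : Matrix ι ι ℝ} (hB : (1 - B * Bᵀ).PosSemidef) (Y : Matrix ι ι ℝ) :
    ((B * Y)ᵀ * (B * Y)).trace ≤ (Yᵀ * Y).trace := by
  have h2 := trace_cs (Matrix.PosSemidef.one (n := ι) (R := ℝ)) Yᵀ (Bᵀ * (B * Y))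
  have e1 : Yᵀ * 1 * (Bᵀ * (B * Y)) = (B * Y)ᵀ * (B * Y) := by
    rw [Matrix.mul_one, transpose_mul, Matrix.mul_assoc]
  have e2 : Yᵀ * 1 * Yᵀᵀ = Yᵀ * Y := by
    rw [Matrix.mul_one, transpose_transpose]
  have e3 : (Bᵀ * (B * Y))ᵀ * 1 * (Bᵀ * (B * Y)) = (B * Y)ᵀ * (B * Bᵀ) * (B * Y) := by
    rw [Matrix.mul_one, transpose_mul, transpose_transpose]
    simp only [Matrix.mul_assoc]
  have h3 := trace_conj_mono (B * Y)ᵀ hB
  rw [transpose_transpose, Matrix.mul_one] at h3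
  rw [e1, e2, e3] at h2
  have h4 := sq_tr_nonneg (B * Y)
  have h5 := sq_tr_nonneg Y
  set t := ((B * Y)ᵀ * (B * Y)).trace with ht
  set y := (Yᵀ * Y).trace with hy
  by_contra hlt
  push Not at hlt
  have h6 : t ^ 2 ≤ y * t := h2.trans (mul_le_mul_of_nonneg_left h3 h5)
  nlinarith

/-- right multiplication by a contraction -/
private theorem sq_contr' {B : Matrix ι ι ℝ} (hB : (1 - Bᵀ * B).PosSemidef) (Y : Matrix ι ι ℝ) :
    ((Y * B)ᵀ * (Y * B)).trace ≤ (Yᵀ * Y).trace := by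
  have h := sq_contr (B := Bᵀ) (by rwa [transpose_transpose]) Yᵀ
  have e : ∀ X : Matrix ι ι ℝ, (Xᵀᵀ * Xᵀ).trace = (Xᵀ * X).trace := by
    intro X
    rw [transpose_transpose, trace_mul_comm]
  rw [← transpose_mul, e, e] at h
  exact h

private theorem sq_gn_eq_sum (U : Matrix ι ι ℝ) (a b : ι → ℝ) :
    (diagonal b * (U * diagonal a * Uᵀ) * diagonal b * (U * diagonal a * Uᵀ)).trace =
      ∑ k, ∑ l, (Uᵀ * diagonal b * U) k l ^ 2 * (a k * a l) := by
  set C : Matrix ι ι ℝ := Uᵀ * diagonal b * U with hC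
  have hCs : Cᵀ = C := by
    rw [hC, Matrix.transpose_mul, Matrix.transpose_mul, Matrix.transpose_transpose,
      Matrix.diagonal_transpose, Matrix.mul_assoc]
  have h1 : (diagonal b * (U * diagonal a * Uᵀ) * diagonal b * (U * diagonal a * Uᵀ)).trace =
      (C * diagonal a * C * diagonal a).trace := by
    have e1 : diagonal b * (U * diagonal a * Uᵀ) * diagonal b * (U * diagonal a * Uᵀ) =
        (diagonal b * U * diagonal a * Uᵀ * diagonal b * U * diagonal a) * Uᵀ := by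
      simp only [Matrix.mul_assoc]
    rw [e1, Matrix.trace_mul_comm, hC]
    simp only [Matrix.mul_assoc]
  rw [h1, Matrix.trace]
  refine Finset.sum_congr rfl fun k _ => ?_
  rw [Matrix.diag_apply, Matrix.mul_diagonal, Matrix.mul_apply, Finset.sum_mul]
  refine Finset.sum_congr rfl fun l _ => ?_
  rw [Matrix.mul_diagonal]
  have h2 : C l k = C k l := by
    rw [← Matrix.transpose_apply C k l, hCs]
  rw [h2]
  ring

private theorem sq_scal_int {a b : ℝ} (ha : 0 ≤ a) (hb : 0 ≤ b) :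
    IntegrableOn (fun v : ℝ => v ^ 2 * (a / (v ^ 2 + a) * (b / (v ^ 2 + b)))) (Ioi 0) := by
  rcases ha.eq_or_lt with hk0 | hk0
  · rw [← hk0]
    simp
  have hint : Integrable (fun v : ℝ => (max 1 a * b) * (1 + v ^ 2)⁻¹)
      (volume.restrict (Ioi 0)) :=
    (integrable_inv_one_add_sq.const_mul _).restrict
  refine hint.mono' (by fun_prop) ?_
  refine Filter.Eventually.of_forall fun v => ?_
  have hpk : 0 < v ^ 2 + a := by positivity
  rcases hb.eq_or_lt with hl0 | hl0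
  · rw [← hl0]
    simp
  have hpl : 0 < v ^ 2 + b := by positivity
  rw [Real.norm_of_nonneg (by positivity)]
  have h2 : a / (v ^ 2 + a) ≤ max 1 a * (1 + v ^ 2)⁻¹ := by
    rw [← div_eq_mul_inv, div_le_div_iff₀ hpk (by positivity)]
    have h3 := le_max_left 1 a
    have h4 := le_max_right 1 a
    nlinarith [mul_le_mul_of_nonneg_right h4 (sq_nonneg v), mul_le_mul_of_nonneg_right h3 ha]
  have h3 : v ^ 2 * (b / (v ^ 2 + b)) ≤ b := by
    rw [mul_div_assoc', div_le_iff₀ hpl]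
    nlinarith [mul_nonneg hb hb]
  calc v ^ 2 * (a / (v ^ 2 + a) * (b / (v ^ 2 + b)))
      = (a / (v ^ 2 + a)) * (v ^ 2 * (b / (v ^ 2 + b))) := by ring
    _ ≤ (max 1 a * (1 + v ^ 2)⁻¹) * b := by
        refine mul_le_mul h2 h3 (by positivity) (by positivity)
    _ = _ := by ring

private theorem sq_scal_le {a b : ℝ} (ha : 0 ≤ a) (hb : 0 ≤ b) :
    a * b / (Real.sqrt a + Real.sqrt b) ≤
      16 * ∫ v in Ioi (0 : ℝ), v ^ 2 * (a / (v ^ 2 + a) * (b / (v ^ 2 + b))) := by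
  have hnn : ∀ v : ℝ, 0 ≤ v ^ 2 * (a / (v ^ 2 + a) * (b / (v ^ 2 + b))) := by
    intro v
    positivity
  have hI0 : 0 ≤ ∫ v in Ioi (0 : ℝ), v ^ 2 * (a / (v ^ 2 + a) * (b / (v ^ 2 + b))) :=
    integral_nonneg hnn
  rcases ha.eq_or_lt with ha0 | ha0
  · rw [← ha0] at hI0 ⊢
    rw [zero_mul, zero_div]
    positivity
  rcases hb.eq_or_lt with hb0 | hb0
  · rw [← hb0] at hI0 ⊢
    rw [mul_zero, zero_div]
    positivity
  set m := max (Real.sqrt a) (Real.sqrt b) with hm
  have hsa : 0 < Real.sqrt a := Real.sqrt_pos.2 ha0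
  have hsb : 0 < Real.sqrt b := Real.sqrt_pos.2 hb0
  have hm0 : 0 < m := lt_max_of_lt_left hsa
  have hma : a ≤ m ^ 2 := by
    rw [← Real.sq_sqrt ha]
    exact pow_le_pow_left₀ hsa.le (le_max_left _ _) 2
  have hmb : b ≤ m ^ 2 := by
    rw [← Real.sq_sqrt hb]
    exact pow_le_pow_left₀ hsb.le (le_max_right _ _) 2
  have h1 : ∫ v in Icc m (2 * m), v ^ 2 * (a / (v ^ 2 + a) * (b / (v ^ 2 + b))) ≤
      ∫ v in Ioi (0 : ℝ), v ^ 2 * (a / (v ^ 2 + a) * (b / (v ^ 2 + b))) := by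
    refine setIntegral_mono_set (sq_scal_int ha hb) ?_ ?_
    · exact Filter.Eventually.of_forall hnn
    · refine Filter.Eventually.of_forall fun v hv => ?_
      exact lt_of_lt_of_le hm0 hv.1
  have h2 : ∫ v in Icc m (2 * m), a * b / (16 * m ^ 2) ≤
      ∫ v in Icc m (2 * m), v ^ 2 * (a / (v ^ 2 + a) * (b / (v ^ 2 + b))) := by
    refine setIntegral_mono_on ?_ ?_ measurableSet_Icc ?_
    · exact continuousOn_const.integrableOn_compact isCompact_Icc
    · refine (sq_scal_int ha hb).mono_set fun v hv => ?_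
      exact lt_of_lt_of_le hm0 hv.1
    · intro v hv
      have hv0 : 0 < v := lt_of_lt_of_le hm0 hv.1
      have hmv : m ^ 2 ≤ v ^ 2 := pow_le_pow_left₀ hm0.le hv.1 2
      have hvm : v ^ 2 ≤ 4 * m ^ 2 := by
        have := pow_le_pow_left₀ hv0.le hv.2 2
        nlinarith
      have e : v ^ 2 * (a / (v ^ 2 + a) * (b / (v ^ 2 + b))) =
          a * b * (v ^ 2 / ((v ^ 2 + a) * (v ^ 2 + b))) := by
        field_simp
      have e' : a * b / (16 * m ^ 2) = a * b * (1 / (16 * m ^ 2)) := by ring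
      rw [e, e']
      refine mul_le_mul_of_nonneg_left ?_ (by positivity)
      rw [div_le_div_iff₀ (by positivity) (by positivity), one_mul]
      have h3 : (v ^ 2 + a) * (v ^ 2 + b) ≤ (2 * v ^ 2) * (2 * v ^ 2) :=
        mul_le_mul (by linarith) (by linarith) (by positivity) (by positivity)
      nlinarith [mul_le_mul_of_nonneg_left hvm (sq_nonneg v)]
  have h3 : ∫ v in Icc m (2 * m), a * b / (16 * m ^ 2) = a * b / (16 * m) := by
    rw [setIntegral_const, Real.volume_real_Icc_of_le (by linarith), smul_eq_mul]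
    field_simp
    ring
  have h4 : a * b / (Real.sqrt a + Real.sqrt b) ≤ a * b / m := by
    refine div_le_div_of_nonneg_left (by positivity) hm0 ?_
    exact max_le (by linarith) (by linarith)
  have h5 : a * b / m = 16 * (a * b / (16 * m)) := by field_simp
  rw [h5, ← h3] at h4
  linarith

set_option maxHeartbeats 800000 in
/-- Let `A₀, A₁` be matrices, `H = A₀ᵀA₀ + A₁A₁ᵀ` with eigenvalues `x_k`.  Write `A₀ = U₀ H^{1/2}`,
`A₁ = H^{1/2} U₁` with contractions (e.g. with `H + ε`, then `ε → 0`).  Then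
`tr (A₀ b A₁ Z) = tr (H^{1/2} b H^{1/2} Z')`, `Z' = U₁ Z U₀`, and by Cauchy–Schwarz in the eigenbasis
`|…|² ≤ (∑ x_k x_l |b_kl|² / (√x_k+√x_l)) (∑ (√x_k+√x_l) |Z'_lk|²)`; the first factor is at most
`25 ∫ v² gn v H b dv` (restrict `v²` to `[m, 2m]`, `m = max(x_k,x_l)`; or the exact value of the integral
`(π/2) x_k x_l/(√x_k+√x_l)`), the second at most `2 √(tr H) tr(ZᵀZ)`. -/
theorem SQ_gn (A₀ A₁ Z : Matrix ι ι ℝ) (b : ι → ℝ) (H : Matrix ι ι ℝ) (hH : H = A₀ᵀ * A₀ + A₁ * A₁ᵀ) :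
    (A₀ * diagonal b * A₁ * Z).trace ^ 2 ≤
      50 * (∫ v in Ioi (0 : ℝ), v ^ 2 * gn v H b) * Real.sqrt H.trace * (Zᵀ * Z).trace := by
  have hA0 : ∀ X : Matrix ι ι ℝ, (Xᵀ * X).PosSemidef := fun X => by
    have h := Matrix.posSemidef_conjTranspose_mul_self X
    rwa [conjTranspose_eq_transpose_of_trivial] at h
  have hA1 : ∀ X : Matrix ι ι ℝ, (X * Xᵀ).PosSemidef := fun X => by
    have h := Matrix.posSemidef_self_mul_conjTranspose X
    rwa [conjTranspose_eq_transpose_of_trivial] at h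
  have hHp : H.PosSemidef := by
    rw [hH]
    exact (hA0 A₀).add (hA1 A₁)
  obtain ⟨U, x, hx, hU1, hU2, hHU, hh, hf⟩ := exists_spectral hHp
  set C : Matrix ι ι ℝ := Uᵀ * diagonal b * U with hC
  set s : ι → ℝ := fun i => Real.sqrt (x i) with hs
  set e : ι → ℝ := fun i => (Real.sqrt (x i))⁻¹ with he
  have hs0 : ∀ i, 0 ≤ s i := fun i => Real.sqrt_nonneg _
  have hss : ∀ i, s i * s i = x i := fun i => Real.mul_self_sqrt (hx i)
  have hUHU : Uᵀ * H * U = diagonal x := by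
    rw [hHU]
    calc Uᵀ * (U * diagonal x * Uᵀ) * U = (Uᵀ * U) * diagonal x * (Uᵀ * U) := by
          simp only [Matrix.mul_assoc]
      _ = _ := by rw [hU2, Matrix.one_mul, Matrix.mul_one]
  set P := A₀ * U with hP
  set Q := Uᵀ * A₁ with hQ
  have hPQ : Pᵀ * P + Q * Qᵀ = diagonal x := by
    rw [← hUHU, hH, hP, hQ, transpose_mul, transpose_mul, transpose_transpose, Matrix.mul_add,
      Matrix.add_mul]
    simp only [Matrix.mul_assoc]
  have hPx : (diagonal x - Pᵀ * P).PosSemidef := by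
    rw [← hPQ, add_sub_cancel_left]
    exact hA1 Q
  have hQx : (diagonal x - Q * Qᵀ).PosSemidef := by
    rw [← hPQ, add_sub_cancel_right]
    exact hA0 P
  -- the contractions
  have hdiag : (1 - diagonal e * diagonal x * diagonal e).PosSemidef := by
    have e1 : (1 : Matrix ι ι ℝ) - diagonal e * diagonal x * diagonal e =
        diagonal (fun i => 1 - e i * x i * e i) := by
      rw [diagonal_mul_diagonal, diagonal_mul_diagonal, ← diagonal_one, diagonal_sub]
    rw [e1]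
    refine Matrix.PosSemidef.diagonal fun i => ?_
    show (0 : ℝ) ≤ 1 - e i * x i * e i
    rcases (hx i).eq_or_lt with h0 | h0
    · rw [← h0]
      simp
    · have h1 : e i * x i * e i = 1 := by
        have h2 := hss i
        have h3 : s i ≠ 0 := (Real.sqrt_pos.2 h0).ne'
        have h4 : e i * s i = 1 := inv_mul_cancel₀ h3
        calc e i * x i * e i = (e i * s i) * (e i * s i) := by rw [← h2]; ring
          _ = 1 := by rw [h4, one_mul]
      rw [h1, sub_self]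
  set B₀ := P * diagonal e with hB₀
  set B₁ := diagonal e * Q with hB₁
  have hc0 : (1 - B₀ᵀ * B₀).PosSemidef := by
    have e1 : 1 - B₀ᵀ * B₀ = (1 - diagonal e * diagonal x * diagonal e) +
        diagonal e * (diagonal x - Pᵀ * P) * diagonal e := by
      rw [hB₀, transpose_mul, diagonal_transpose, Matrix.mul_sub, Matrix.sub_mul]
      simp only [Matrix.mul_assoc]
      abel
    rw [e1]
    have h := hPx.mul_mul_conjTranspose_same (diagonal e)
    rw [conjTranspose_eq_transpose_of_trivial, diagonal_transpose] at h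
    exact hdiag.add h
  have hc1 : (1 - B₁ * B₁ᵀ).PosSemidef := by
    have e1 : 1 - B₁ * B₁ᵀ = (1 - diagonal e * diagonal x * diagonal e) +
        diagonal e * (diagonal x - Q * Qᵀ) * diagonal e := by
      rw [hB₁, transpose_mul, diagonal_transpose, Matrix.mul_sub, Matrix.sub_mul]
      simp only [Matrix.mul_assoc]
      abel
    rw [e1]
    have h := hQx.mul_mul_conjTranspose_same (diagonal e)
    rw [conjTranspose_eq_transpose_of_trivial, diagonal_transpose] at h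
    exact hdiag.add h
  have hPs : P = B₀ * diagonal s := by
    ext j k
    rw [hB₀, Matrix.mul_assoc, diagonal_mul_diagonal, mul_diagonal]
    rcases (hx k).eq_or_lt with h0 | h0
    · have h1 : 0 ≤ (diagonal x - Pᵀ * P) k k := hPx.diag_nonneg
      rw [Matrix.sub_apply, diagonal_apply_eq, ← h0, zero_sub, Matrix.mul_apply] at h1
      have h2 : P j k * P j k ≤ ∑ i, Pᵀ k i * P i k := by
        refine Finset.single_le_sum (f := fun i => Pᵀ k i * P i k) (fun i _ => ?_)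
          (Finset.mem_univ j)
        rw [transpose_apply]
        exact mul_self_nonneg _
      have h3 : P j k = 0 := by nlinarith [mul_self_nonneg (P j k)]
      rw [h3, zero_mul]
    · have h3 : e k * s k = 1 := inv_mul_cancel₀ (Real.sqrt_pos.2 h0).ne'
      rw [h3, mul_one]
  have hQs : Q = diagonal s * B₁ := by
    ext k j
    rw [hB₁, ← Matrix.mul_assoc, diagonal_mul_diagonal, diagonal_mul]
    rcases (hx k).eq_or_lt with h0 | h0
    · have h1 : 0 ≤ (diagonal x - Q * Qᵀ) k k := hQx.diag_nonneg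
      rw [Matrix.sub_apply, diagonal_apply_eq, ← h0, zero_sub, Matrix.mul_apply] at h1
      have h2 : Q k j * Q k j ≤ ∑ i, Q k i * Qᵀ i k := by
        refine Finset.single_le_sum (f := fun i => Q k i * Qᵀ i k) (fun i _ => ?_)
          (Finset.mem_univ j)
        rw [transpose_apply]
        exact mul_self_nonneg _
      have h3 : Q k j = 0 := by nlinarith [mul_self_nonneg (Q k j)]
      rw [h3, mul_zero]
    · have h3 : s k * e k = 1 := mul_inv_cancel₀ (Real.sqrt_pos.2 h0).ne'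
      rw [h3, one_mul]
  set Z' := B₁ * (Z * B₀) with hZ'
  have hZZ : (Z'ᵀ * Z').trace ≤ (Zᵀ * Z).trace := (sq_contr hc1 _).trans (sq_contr' hc0 _)
  -- the trace as a double sum
  have htr : (A₀ * diagonal b * A₁ * Z).trace = ∑ k, ∑ l, C k l * (s k * s l) * Z' l k := by
    have e1 : A₀ * diagonal b * A₁ * Z = P * (C * Q * Z) := by
      calc A₀ * diagonal b * A₁ * Z = A₀ * (U * Uᵀ) * diagonal b * (U * Uᵀ) * A₁ * Z := by
            rw [hU1, Matrix.mul_one, Matrix.mul_one]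
        _ = _ := by
            rw [hP, hC, hQ]
            simp only [Matrix.mul_assoc]
    have e2 : C * Q * Z * P = C * (diagonal s * Z' * diagonal s) := by
      rw [hZ']
      conv_lhs => rw [hPs, hQs]
      simp only [Matrix.mul_assoc]
    rw [e1, trace_mul_comm, e2, Matrix.trace]
    refine Finset.sum_congr rfl fun k _ => ?_
    rw [diag_apply, Matrix.mul_apply]
    refine Finset.sum_congr rfl fun l _ => ?_
    rw [mul_diagonal, diagonal_mul]
    ring
  -- Cauchy-Schwarz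
  have hcs : (∑ k, ∑ l, C k l * (s k * s l) * Z' l k) ^ 2 ≤
      (∑ k, ∑ l, C k l ^ 2 * (x k * x l / (s k + s l))) *
        (∑ k, ∑ l, (s k + s l) * Z' l k ^ 2) := by
    have h := Finset.sum_mul_sq_le_sq_mul_sq Finset.univ
      (fun q : ι × ι => C q.1 q.2 * (s q.1 * s q.2) / Real.sqrt (s q.1 + s q.2))
      (fun q : ι × ι => Real.sqrt (s q.1 + s q.2) * Z' q.2 q.1)
    rw [Fintype.sum_prod_type, Fintype.sum_prod_type, Fintype.sum_prod_type] at h
    have e1 : ∀ k l, C k l * (s k * s l) / Real.sqrt (s k + s l) *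
        (Real.sqrt (s k + s l) * Z' l k) = C k l * (s k * s l) * Z' l k := by
      intro k l
      rcases (hs0 k).eq_or_lt with h0 | h0
      · rw [← h0]
        simp
      · have h1 : Real.sqrt (s k + s l) ≠ 0 := by
          have := hs0 l
          have : 0 < s k + s l := by linarith
          exact (Real.sqrt_pos.2 this).ne'
        field_simp
    have e2 : ∀ k l, (C k l * (s k * s l) / Real.sqrt (s k + s l)) ^ 2 =
        C k l ^ 2 * (x k * x l / (s k + s l)) := by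
      intro k l
      rw [div_pow, Real.sq_sqrt (add_nonneg (hs0 k) (hs0 l)), ← hss k, ← hss l]
      ring
    have e3 : ∀ k l, (Real.sqrt (s k + s l) * Z' l k) ^ 2 = (s k + s l) * Z' l k ^ 2 := by
      intro k l
      rw [mul_pow, Real.sq_sqrt (add_nonneg (hs0 k) (hs0 l))]
    simp only [e1, e2, e3] at h
    exact h
  -- first factor
  have hfirst : ∑ k, ∑ l, C k l ^ 2 * (x k * x l / (s k + s l)) ≤
      25 * ∫ v in Ioi (0 : ℝ), v ^ 2 * gn v H b := by
    have h1 : ∫ v in Ioi (0 : ℝ), v ^ 2 * gn v H b =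
        ∑ k, ∑ l, C k l ^ 2 * ∫ v in Ioi (0 : ℝ),
          v ^ 2 * (x k / (v ^ 2 + x k) * (x l / (v ^ 2 + x l))) := by
      have h2 : ∫ v in Ioi (0 : ℝ), v ^ 2 * gn v H b =
          ∫ v in Ioi (0 : ℝ), ∑ k, ∑ l, C k l ^ 2 *
            (v ^ 2 * (x k / (v ^ 2 + x k) * (x l / (v ^ 2 + x l)))) := by
        refine setIntegral_congr_fun measurableSet_Ioi fun v hv => ?_
        rw [gn, hh v hv, sq_gn_eq_sum, Finset.mul_sum]
        refine Finset.sum_congr rfl fun k _ => ?_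
        rw [Finset.mul_sum]
        refine Finset.sum_congr rfl fun l _ => ?_
        ring
      rw [h2, integral_finsetSum]
      · refine Finset.sum_congr rfl fun k _ => ?_
        rw [integral_finsetSum]
        · refine Finset.sum_congr rfl fun l _ => ?_
          exact integral_const_mul _ _
        · intro l _
          exact (sq_scal_int (hx k) (hx l)).const_mul _
      · intro k _
        refine integrable_finsetSum _ fun l _ => ?_
        exact (sq_scal_int (hx k) (hx l)).const_mul _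
    rw [h1, Finset.mul_sum]
    refine Finset.sum_le_sum fun k _ => ?_
    rw [Finset.mul_sum]
    refine Finset.sum_le_sum fun l _ => ?_
    have h3 := sq_scal_le (hx k) (hx l)
    have h4 : 0 ≤ ∫ v in Ioi (0 : ℝ), v ^ 2 * (x k / (v ^ 2 + x k) * (x l / (v ^ 2 + x l))) := by
      refine integral_nonneg fun v => ?_
      have := hx k
      have := hx l
      show 0 ≤ v ^ 2 * (x k / (v ^ 2 + x k) * (x l / (v ^ 2 + x l)))
      positivity
    have h5 : x k * x l / (s k + s l) ≤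
        25 * ∫ v in Ioi (0 : ℝ), v ^ 2 * (x k / (v ^ 2 + x k) * (x l / (v ^ 2 + x l))) := by
      refine h3.trans ?_
      linarith
    calc C k l ^ 2 * (x k * x l / (s k + s l)) ≤ C k l ^ 2 *
          (25 * ∫ v in Ioi (0 : ℝ), v ^ 2 * (x k / (v ^ 2 + x k) * (x l / (v ^ 2 + x l)))) :=
          mul_le_mul_of_nonneg_left h5 (sq_nonneg _)
      _ = _ := by ring
  -- second factor
  have htrH : H.trace = ∑ i, x i := by
    rw [hHU, trace_mul_comm, ← Matrix.mul_assoc, hU2, Matrix.one_mul, trace_diagonal]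
  have hsH : ∀ i, s i ≤ Real.sqrt H.trace := by
    intro i
    refine Real.sqrt_le_sqrt ?_
    rw [htrH]
    exact Finset.single_le_sum (fun j _ => hx j) (Finset.mem_univ i)
  have hsecond : ∑ k, ∑ l, (s k + s l) * Z' l k ^ 2 ≤
      2 * Real.sqrt H.trace * (Zᵀ * Z).trace := by
    calc ∑ k, ∑ l, (s k + s l) * Z' l k ^ 2 ≤ ∑ k, ∑ l, (2 * Real.sqrt H.trace) * Z' l k ^ 2 := by
          refine Finset.sum_le_sum fun k _ => Finset.sum_le_sum fun l _ => ?_
          refine mul_le_mul_of_nonneg_right ?_ (sq_nonneg _)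
          linarith [hsH k, hsH l]
      _ = 2 * Real.sqrt H.trace * (Z'ᵀ * Z').trace := by
          rw [sq_tr, Finset.mul_sum]
          refine Finset.sum_congr rfl fun k _ => ?_
          rw [Finset.mul_sum]
      _ ≤ _ := mul_le_mul_of_nonneg_left hZZ (by positivity)
  have hI0 : 0 ≤ ∫ v in Ioi (0 : ℝ), v ^ 2 * gn v H b := by
    refine setIntegral_nonneg measurableSet_Ioi fun v hv => ?_
    exact mul_nonneg (sq_nonneg _) (gn_nonneg hHp hv b)
  rw [htr]
  refine hcs.trans ?_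
  have h2nd : 0 ≤ ∑ k, ∑ l, (s k + s l) * Z' l k ^ 2 := by
    refine Finset.sum_nonneg fun k _ => Finset.sum_nonneg fun l _ => ?_
    exact mul_nonneg (add_nonneg (hs0 k) (hs0 l)) (sq_nonneg _)
  have h25 : 0 ≤ 25 * ∫ v in Ioi (0 : ℝ), v ^ 2 * gn v H b := mul_nonneg (by norm_num) hI0
  refine (mul_le_mul hfirst hsecond h2nd h25).trans (le_of_eq ?_)
  generalize (∫ v in Ioi (0 : ℝ), v ^ 2 * gn v H b) = I
  generalize Real.sqrt H.trace = t
  generalize (Zᵀ * Z).trace = z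
  ring

/-- unnormalized version -/
theorem SQu (F₀ F₁ Z : Matrix ι ι ℝ) {w₀ w₁ w₂ : ι → ℝ} (φ : ι → ℝ)
    (hw₀ : ∀ k, 0 < w₀ k) (hw₁ : ∀ k, 0 < w₁ k) (hw₂ : ∀ k, 0 < w₂ k) :
    (∑ k₀, ∑ k₁, ∑ k₂, F₀ k₀ k₁ * φ k₁ * F₁ k₁ k₂ * Z k₂ k₀) ^ 2 ≤
      50 * (∫ v in Ioi (0 : ℝ), v ^ 2 * qf v w₁ φ (Kmat F₀ F₁ w₀ w₂)) *
        Real.sqrt (diagonal w₁ * Kmat F₀ F₁ w₀ w₂).trace *
        ∑ k₂, ∑ k₀, Z k₂ k₀ ^ 2 / (w₂ k₂ * w₀ k₀) := by
  set K := Kmat F₀ F₁ w₀ w₂ with hK
  have hKp : K.PosSemidef := Kmat_posSemidef F₀ F₁ (fun k => (hw₀ k).le) (fun k => (hw₂ k).le)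
  set D₀ : Matrix ι ι ℝ := diagonal (fun k => Real.sqrt (w₀ k)) with hD₀
  set D₁ : Matrix ι ι ℝ := diagonal (fun k => Real.sqrt (w₁ k)) with hD₁
  set D₂ : Matrix ι ι ℝ := diagonal (fun k => Real.sqrt (w₂ k)) with hD₂
  set E₀ : Matrix ι ι ℝ := diagonal (fun k => (Real.sqrt (w₀ k))⁻¹) with hE₀
  set E₂ : Matrix ι ι ℝ := diagonal (fun k => (Real.sqrt (w₂ k))⁻¹) with hE₂
  have hDD : ∀ w : ι → ℝ, (∀ k, 0 < w k) → diagonal (fun k => Real.sqrt (w k)) *
      diagonal (fun k => Real.sqrt (w k)) = diagonal w := by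
    intro w hw
    rw [diagonal_mul_diagonal]
    congr 1
    funext k
    exact Real.mul_self_sqrt (hw k).le
  have hED : ∀ w : ι → ℝ, (∀ k, 0 < w k) → diagonal (fun k => (Real.sqrt (w k))⁻¹) *
      diagonal (fun k => Real.sqrt (w k)) = 1 := by
    intro w hw
    rw [diagonal_mul_diagonal, ← diagonal_one]
    congr 1
    funext k
    exact inv_mul_cancel₀ (Real.sqrt_pos.2 (hw k)).ne'
  have hDE : ∀ w : ι → ℝ, (∀ k, 0 < w k) → diagonal (fun k => Real.sqrt (w k)) *
      diagonal (fun k => (Real.sqrt (w k))⁻¹) = 1 := by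
    intro w hw
    rw [diagonal_mul_diagonal, ← diagonal_one]
    congr 1
    funext k
    exact mul_inv_cancel₀ (Real.sqrt_pos.2 (hw k)).ne'
  have hH : D₁ * K * D₁ = (D₀ * F₀ * D₁)ᵀ * (D₀ * F₀ * D₁) +
      (D₁ * F₁ * D₂) * (D₁ * F₁ * D₂)ᵀ := by
    rw [hK]
    unfold Kmat
    rw [← hDD w₀ hw₀, ← hDD w₂ hw₂, ← hD₀, ← hD₂]
    simp only [transpose_mul]
    rw [hD₀, hD₁, hD₂, diagonal_transpose, diagonal_transpose, diagonal_transpose]
    rw [Matrix.mul_add, Matrix.add_mul]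
    simp only [Matrix.mul_assoc]
  have h := SQ_gn (D₀ * F₀ * D₁) (D₁ * F₁ * D₂) (E₂ * Z * E₀) (fun k => φ k / w₁ k)
    (D₁ * K * D₁) hH
  have e1 : ((D₀ * F₀ * D₁) * diagonal (fun k => φ k / w₁ k) * (D₁ * F₁ * D₂) *
      (E₂ * Z * E₀)).trace = ∑ k₀, ∑ k₁, ∑ k₂, F₀ k₀ k₁ * φ k₁ * F₁ k₁ k₂ * Z k₂ k₀ := by
    have h1 : D₁ * diagonal (fun k => φ k / w₁ k) * D₁ = diagonal φ := by
      rw [hD₁, diagonal_mul_diagonal, diagonal_mul_diagonal]
      congr 1
      funext k
      have h2 := Real.mul_self_sqrt (hw₁ k).le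
      have h3 := (hw₁ k).ne'
      rw [show Real.sqrt (w₁ k) * (φ k / w₁ k) * Real.sqrt (w₁ k) =
        (Real.sqrt (w₁ k) * Real.sqrt (w₁ k)) * (φ k / w₁ k) by ring, h2]
      field_simp
    have h2 : (D₀ * F₀ * D₁) * diagonal (fun k => φ k / w₁ k) * (D₁ * F₁ * D₂) *
        (E₂ * Z * E₀) = D₀ * (F₀ * (D₁ * diagonal (fun k => φ k / w₁ k) * D₁) * F₁ *
          (D₂ * E₂) * Z * E₀) := by
      simp only [Matrix.mul_assoc]
    rw [h2, h1, hD₂, hE₂, hDE w₂ hw₂, Matrix.mul_one, trace_mul_comm]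
    have h3 : F₀ * diagonal φ * F₁ * Z * E₀ * D₀ = F₀ * diagonal φ * F₁ * Z := by
      rw [Matrix.mul_assoc, hE₀, hD₀, hED w₀ hw₀, Matrix.mul_one]
    rw [h3, Matrix.trace]
    refine Finset.sum_congr rfl fun k₀ _ => ?_
    rw [diag_apply, Matrix.mul_apply]
    have h4 : ∀ k₂, (F₀ * diagonal φ * F₁) k₀ k₂ = ∑ k₁, F₀ k₀ k₁ * φ k₁ * F₁ k₁ k₂ := by
      intro k₂
      rw [Matrix.mul_apply]
      exact Finset.sum_congr rfl fun k₁ _ => by rw [mul_diagonal]
    simp only [h4, Finset.sum_mul]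
    rw [Finset.sum_comm]
  have e2 : ∫ v in Ioi (0 : ℝ), v ^ 2 * gn v (D₁ * K * D₁) (fun k => φ k / w₁ k) =
      ∫ v in Ioi (0 : ℝ), v ^ 2 * qf v w₁ φ K := by
    refine setIntegral_congr_fun measurableSet_Ioi fun v hv => ?_
    rw [qf_eq_gn hv hw₁ hKp]
  have e3 : (D₁ * K * D₁).trace = (diagonal w₁ * K).trace := by
    rw [trace_mul_comm, ← Matrix.mul_assoc, hD₁, hDD w₁ hw₁]
  have e4 : ((E₂ * Z * E₀)ᵀ * (E₂ * Z * E₀)).trace =
      ∑ k₂, ∑ k₀, Z k₂ k₀ ^ 2 / (w₂ k₂ * w₀ k₀) := by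
    rw [sq_tr, Finset.sum_comm]
    refine Finset.sum_congr rfl fun k₂ _ => Finset.sum_congr rfl fun k₀ _ => ?_
    rw [hE₀, hE₂, mul_diagonal, diagonal_mul, mul_pow, mul_pow, inv_pow, inv_pow,
      Real.sq_sqrt (hw₀ k₀).le, Real.sq_sqrt (hw₂ k₂).le]
    have := (hw₀ k₀).ne'
    have := (hw₂ k₂).ne'
    field_simp
  rw [e1, e2, e3, e4] at h
  exact h

end Crest.Agent.TH
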