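import Crest.Agent.TH_B3
import Crest.Agent.TH_B6
import Crest.Agent.TH_SQ
import Crest.Agent.TH_A5

/-! # TH_SQL (task TH-B6): the square function lemma -/

set_option autoImplicit false
open Matrix MeasureTheory Set Filter
open scoped Topology ENNReal

namespace Crest.Agent.TH

section meas
variable {X : Type*} [MeasurableSpace X] {ι : Type*} [Fintype ι] [DecidableEq ι]

private theorem sm_mul {A B : X → Matrix ι ι ℝ} (hA : ∀ i j, Measurable fun x => A x i j)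
    (hB : ∀ i j, Measurable fun x => B x i j) (i j : ι) : Measurable fun x => (A x * B x) i j := by
  simp only [Matrix.mul_apply]
  exact Finset.measurable_sum _ fun k _ => (hA i k).mul (hB k j)

private theorem sm_add {A B : X → Matrix ι ι ℝ} (hA : ∀ i j, Measurable fun x => A x i j)
    (hB : ∀ i j, Measurable fun x => B x i j) (i j : ι) : Measurable fun x => (A x + B x) i j := by
  simp only [Matrix.add_apply]
  exact (hA i j).add (hB i j)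

private theorem sm_diag {w : X → ι → ℝ} (hw : ∀ k, Measurable fun x => w x k) (i j : ι) :
    Measurable fun x => (diagonal (w x)) i j := by
  by_cases h : i = j
  · subst h
    simpa using hw i
  · simp only [Matrix.diagonal_apply_ne _ h]
    exact measurable_const

private theorem sm_trace {A : X → Matrix ι ι ℝ} (hA : ∀ i j, Measurable fun x => A x i j) :
    Measurable fun x => (A x).trace := by
  simp only [Matrix.trace, Matrix.diag_apply]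
  exact Finset.measurable_sum _ fun k _ => hA k k

private theorem sm_det {A : X → Matrix ι ι ℝ} (hA : ∀ i j, Measurable fun x => A x i j) :
    Measurable fun x => (A x).det := by
  simp only [Matrix.det_apply]
  refine Finset.measurable_sum _ fun σ _ => ?_
  refine Measurable.const_smul ?_ _
  exact Finset.measurable_prod _ fun k _ => hA _ _

private theorem sm_inv {A : X → Matrix ι ι ℝ} (hA : ∀ i j, Measurable fun x => A x i j) (i j : ι) :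
    Measurable fun x => ((A x)⁻¹) i j := by
  simp only [Matrix.inv_def, Ring.inverse_eq_inv', Matrix.smul_apply, smul_eq_mul]
  refine (sm_det hA).inv.mul ?_
  simp only [Matrix.adjugate_apply]
  refine sm_det fun a b => ?_
  by_cases h : a = j
  · subst h
    simp only [Matrix.updateRow_self]
    exact measurable_const
  · simp only [Matrix.updateRow_ne h]
    exact hA a b

private theorem sm_const (A : Matrix ι ι ℝ) (i j : ι) : Measurable fun _ : X => A i j :=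
  measurable_const

private theorem sm_Kmat (F G : Matrix ι ι ℝ) {w₀ w₂ : X → ι → ℝ} (h0 : ∀ k, Measurable fun x => w₀ x k)
    (h2 : ∀ k, Measurable fun x => w₂ x k) (i j : ι) : Measurable fun x => Kmat F G (w₀ x) (w₂ x) i j := by
  have a1 := sm_mul (X := X) (A := fun _ => Fᵀ) (B := fun x => diagonal (w₀ x)) (sm_const _) (sm_diag h0)
  have a2 := sm_mul (X := X) (A := fun x => Fᵀ * diagonal (w₀ x)) (B := fun _ => F) a1 (sm_const _)
  have b1 := sm_mul (X := X) (A := fun _ => G) (B := fun x => diagonal (w₂ x)) (sm_const _) (sm_diag h2)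
  have b2 := sm_mul (X := X) (A := fun x => G * diagonal (w₂ x)) (B := fun _ => Gᵀ) b1 (sm_const _)
  exact sm_add (X := X) (A := fun x => Fᵀ * diagonal (w₀ x) * F) (B := fun x => G * diagonal (w₂ x) * Gᵀ) a2 b2 i j

private theorem sm_Mmat {v : X → ℝ} (hv : Measurable v) {w₁ : X → ι → ℝ} (h1 : ∀ k, Measurable fun x => w₁ x k)
    {K : X → Matrix ι ι ℝ} (hK : ∀ i j, Measurable fun x => K x i j) (i j : ι) :
    Measurable fun x => Mmat (v x) (w₁ x) (K x) i j := by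
  have a1 : ∀ i j, Measurable fun x => (v x ^ 2 • (1 : Matrix ι ι ℝ)) i j := by
    intro i j
    simp only [Matrix.smul_apply, smul_eq_mul]
    exact (hv.pow_const 2).mul measurable_const
  have a2 := sm_mul (X := X) (A := fun x => diagonal (w₁ x)) (B := K) (sm_diag h1) hK
  have a3 := sm_add (X := X) (A := fun x => v x ^ 2 • (1 : Matrix ι ι ℝ)) (B := fun x => diagonal (w₁ x) * K x) a1 a2
  have a4 := sm_inv (X := X) (A := fun x => v x ^ 2 • (1 : Matrix ι ι ℝ) + diagonal (w₁ x) * K x) a3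
  exact sm_mul (X := X) (A := K) (B := fun x => (v x ^ 2 • (1 : Matrix ι ι ℝ) + diagonal (w₁ x) * K x)⁻¹) hK a4 i j

private theorem sm_qf {v : X → ℝ} (hv : Measurable v) {w₁ φ : X → ι → ℝ} (h1 : ∀ k, Measurable fun x => w₁ x k)
    (hφ : ∀ k, Measurable fun x => φ x k)
    {K : X → Matrix ι ι ℝ} (hK : ∀ i j, Measurable fun x => K x i j) :
    Measurable fun x => qf (v x) (w₁ x) (φ x) (K x) := by
  have a0 := sm_Mmat hv h1 hK
  have a1 := sm_mul (X := X) (A := fun x => diagonal (φ x)) (B := fun x => Mmat (v x) (w₁ x) (K x))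
    (sm_diag hφ) a0
  have a2 := sm_mul (X := X) (A := fun x => diagonal (φ x) * Mmat (v x) (w₁ x) (K x))
    (B := fun x => diagonal (φ x)) a1 (sm_diag hφ)
  have a3 := sm_mul (X := X) (A := fun x => diagonal (φ x) * Mmat (v x) (w₁ x) (K x) * diagonal (φ x))
    (B := fun x => Mmat (v x) (w₁ x) (K x)) a2 a0
  exact sm_trace a3

private theorem sm_gk : Measurable fun q : ℝ × ℝ => gk q.1 q.2 := by
  unfold gk
  fun_prop

private theorem sm_gk1 : Measurable fun q : ℝ × ℝ => gk1 q.1 q.2 := by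
  have h : Measurable fun q : ℝ × ℝ => -(q.2 / q.1) := (measurable_snd.div measurable_fst).neg
  exact h.mul sm_gk

private theorem sm_int {f : X → ℝ → ℝ} (hf : Measurable (Function.uncurry f)) (a b : ℝ) :
    Measurable fun x => ∫ y in a..b, f x y := by
  have h : ∀ s : Set ℝ, Measurable fun x => ∫ y in s, f x y := fun s =>
    (hf.stronglyMeasurable.integral_prod_right (ν := volume.restrict s)).measurable
  exact (h _).sub (h _)

private theorem sm_wt {η : ℝ} {N : ℕ} {p t : X → ℝ} (hp : Measurable p) (ht : Measurable t) (k : Fin (2 * N)) :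
    Measurable fun x => wt η (p x) (t x) k := by
  have h : Measurable (fun q : X × ℝ => (t q.1, q.2 - p q.1)) :=
    (ht.comp measurable_fst).prodMk (measurable_snd.sub (hp.comp measurable_fst))
  have h2 : Measurable (fun q : X × ℝ => gk (t q.1) (q.2 - p q.1)) := by
    have := sm_gk.comp h
    simpa [Function.comp_def] using this
  have h3 := sm_int (f := fun x y => gk (t x) (y - p x)) h2 (lft η k) (lft η k + η)
  unfold wt
  exact h3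

private theorem sm_dwt {η : ℝ} {N : ℕ} {p t : X → ℝ} (hp : Measurable p) (ht : Measurable t) (k : Fin (2 * N)) :
    Measurable fun x => dwt η (p x) (t x) k := by
  have h : Measurable (fun q : X × ℝ => (t q.1, q.2 - p q.1)) :=
    (ht.comp measurable_fst).prodMk (measurable_snd.sub (hp.comp measurable_fst))
  have h2 : Measurable (fun q : X × ℝ => gk1 (t q.1) (q.2 - p q.1)) := by
    have := sm_gk1.comp h
    simpa [Function.comp_def] using this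
  have h3 := sm_int (f := fun x y => gk1 (t x) (y - p x)) h2 (lft η k) (lft η k + η)
  unfold dwt
  exact h3

private theorem sm_gainD {η Λ : ℝ} {N : ℕ} (F G : Matrix (Fin (2 * N)) (Fin (2 * N)) ℝ) {v p₀ p₁ t : X → ℝ}
    (hv : Measurable v) (h0 : Measurable p₀) (h1 : Measurable p₁) (ht : Measurable t) :
    Measurable fun x => gainD η Λ (v x) F G (p₀ x) (p₁ x) (t x) := by
  have a1 := sm_Kmat (X := X) F G (w₀ := fun x => wt η (p₀ x) (Λ * t x)) (w₂ := fun x => wt η (-p₀ x - p₁ x) (Λ * t x))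
    (sm_wt h0 (ht.const_mul Λ)) (sm_wt (h0.neg.sub h1) (ht.const_mul Λ))
  have a2 := sm_qf (X := X) hv (w₁ := fun x => wt η (p₁ x) (t x)) (φ := fun x => dwt η (p₁ x) (t x))
    (K := fun x => Kmat F G (wt η (p₀ x) (Λ * t x)) (wt η (-p₀ x - p₁ x) (Λ * t x)))
    (sm_wt h1 ht) (sm_dwt h1 ht) a1
  exact (hv.pow_const 2).mul a2

private theorem sm_ZB {η : ℝ} {N : ℕ} (F : Matrix (Fin (2 * N)) (Fin (2 * N)) ℝ)
    {γ : Fin (2 * N) → Fin (2 * N) → ℝ → ℝ} (hγ : ∀ k₂ k₀, Measurable (γ k₂ k₀)) (w : ℝ)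
    {p₀ p₁ : X → ℝ} (h0 : Measurable p₀) (h1 : Measurable p₁) (k₂ k₀ : Fin (2 * N)) :
    Measurable fun x => ZB η F γ w (p₀ x) (p₁ x) k₂ k₀ := by
  have h2 : Measurable (fun q : (X × ℝ) × ℝ => q.2 + q.1.2 + p₁ q.1.1) :=
    (measurable_snd.add (measurable_snd.comp measurable_fst)).add (h1.comp (measurable_fst.comp measurable_fst))
  have h3 : Measurable (fun q : (X × ℝ) × ℝ => (w ^ 2, q.2 - p₀ q.1.1)) :=
    measurable_const.prodMk (measurable_snd.sub (h0.comp (measurable_fst.comp measurable_fst)))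
  have h4 : Measurable (fun q : (X × ℝ) × ℝ => gk (w ^ 2) (q.2 - p₀ q.1.1)) := by
    have := sm_gk.comp h3
    simpa [Function.comp_def] using this
  have h5 : Measurable (fun q : (X × ℝ) × ℝ => γ k₂ k₀ (q.2 + q.1.2 + p₁ q.1.1)) := (hγ k₂ k₀).comp h2
  have h6 : Measurable (fun q : (X × ℝ) × ℝ =>
    γ k₂ k₀ (q.2 + q.1.2 + p₁ q.1.1) * gk (w ^ 2) (q.2 - p₀ q.1.1)) := h5.mul h4
  have h7 := sm_int (f := fun (q : X × ℝ) x₀ =>
    γ k₂ k₀ (x₀ + q.2 + p₁ q.1) * gk (w ^ 2) (x₀ - p₀ q.1)) h6 (lft η k₀) (lft η k₀ + η)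
  have h8 := sm_int (f := fun x x₂ => ∫ x₀ in (lft η k₀)..(lft η k₀ + η),
    γ k₂ k₀ (x₀ + x₂ + p₁ x) * gk (w ^ 2) (x₀ - p₀ x)) h7 (lft η k₂) (lft η k₂ + η)
  unfold ZB
  simp only [Matrix.of_apply]
  exact measurable_const.mul h8

end meas

private theorem sq_ofReal_integral_le {X : Type*} [MeasurableSpace X] (μ : Measure X) (f : X → ℝ) :
    ENNReal.ofReal (∫ x, f x ∂μ) ≤ ∫⁻ x, ENNReal.ofReal (f x) ∂μ := by
  by_cases hf : Integrable f μ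
  · have h1 : ∫ x, f x ∂μ ≤ ∫ x, max (f x) 0 ∂μ :=
      integral_mono hf hf.pos_part fun x => le_max_left _ _
    refine (ENNReal.ofReal_le_ofReal h1).trans ?_
    rw [ofReal_integral_eq_lintegral_ofReal hf.pos_part (Eventually.of_forall fun x => le_max_right _ _)]
    refine lintegral_mono fun x => ?_
    rw [ENNReal.ofReal_max]
    simp
  · rw [integral_undef hf]
    simp

private theorem sq_ofReal_sqrt (x : ℝ) : ENNReal.ofReal (Real.sqrt x) = ENNReal.ofReal x ^ (1 / 2 : ℝ) := by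
  rcases le_total 0 x with h | h
  · rw [Real.sqrt_eq_rpow, ENNReal.ofReal_rpow_of_nonneg h (by norm_num)]
  · rw [Real.sqrt_eq_zero_of_nonpos h, ENNReal.ofReal_of_nonpos h]
    simp

private theorem sq_CS {X : Type*} [MeasurableSpace X] (μ : Measure X) {f g : X → ℝ≥0∞}
    (hf : AEMeasurable f μ) (hg : AEMeasurable g μ) :
    ∫⁻ x, f x ^ (1 / 2 : ℝ) * g x ^ (1 / 2 : ℝ) ∂μ ≤
      (∫⁻ x, f x ∂μ) ^ (1 / 2 : ℝ) * (∫⁻ x, g x ∂μ) ^ (1 / 2 : ℝ) := by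
  have h := ENNReal.lintegral_mul_le_Lp_mul_Lq μ Real.HolderConjugate.two_two
    (hf.pow_const (1 / 2 : ℝ)) (hg.pow_const (1 / 2 : ℝ))
  have e : ∀ a : ℝ≥0∞, (a ^ (1 / 2 : ℝ)) ^ (2 : ℝ) = a := by
    intro a
    rw [← ENNReal.rpow_mul]
    norm_num
  simp only [Pi.mul_apply, e] at h
  exact h

private theorem sq_scale (g : ℝ → ℝ≥0∞) :
    ∫⁻ s in Ioi (0 : ℝ), g (s / 2) = 2 * ∫⁻ t in Ioi (0 : ℝ), g t := by
  have him : (fun s : ℝ => s / 2) '' Ioi (0 : ℝ) = Ioi 0 := by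
    ext t
    constructor
    · rintro ⟨s, hs, rfl⟩
      exact half_pos (mem_Ioi.1 hs)
    · intro ht
      exact ⟨2 * t, by simpa using mem_Ioi.1 ht, by ring⟩
  have h := lintegral_image_eq_lintegral_abs_deriv_mul (f := fun s : ℝ => s / 2) (f' := fun _ => 1 / 2)
    (measurableSet_Ioi (a := (0 : ℝ)))
    (fun x _ => ((hasDerivAt_id x).div_const 2).hasDerivWithinAt)
    (fun x _ y _ hxy => by simpa using hxy) g
  rw [him] at h
  rw [h, lintegral_const_mul' _ _ (by simp)]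
  rw [← mul_assoc]
  have : (2 : ℝ≥0∞) * ENNReal.ofReal |(1 / 2 : ℝ)| = 1 := by
    rw [abs_of_pos (by norm_num), show (2 : ℝ≥0∞) = ENNReal.ofReal 2 by simp, ← ENNReal.ofReal_mul (by norm_num)]
    norm_num
  rw [this, one_mul]


/-- pointwise bound -/
private theorem sq_point {N : ℕ} {η : ℝ} (hη : 0 < η) {L s : ℝ} (hL : 1 ≤ L) (hs : 0 < s)
    (F₀ F₁ F₂ : Matrix (Fin (2 * N)) (Fin (2 * N)) ℝ) (γ : Fin (2 * N) → Fin (2 * N) → ℝ → ℝ) (p : ℝ × ℝ) :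
    ENNReal.ofReal |∑ k₀, ∑ k₁, ∑ k₂, F₀ k₀ k₁ * (Real.sqrt s * dwt η p.2 (s / 2) k₁) *
        F₁ k₁ k₂ * ZB η F₂ γ (L * Real.sqrt s) p.1 p.2 k₂ k₀| ≤
      (50 * ENNReal.ofReal s * ∫⁻ v in Ioi (0 : ℝ),
        ENNReal.ofReal (gainD η (64 * L ^ 2) v F₀ F₁ p.1 p.2 (s / 2))) ^ (1 / 2 : ℝ) *
      (ENNReal.ofReal (Real.sqrt (diagonal (wt η p.2 (s / 2)) *
          Kmat F₀ F₁ (wt η p.1 (32 * (L * Real.sqrt s) ^ 2))
            (wt η (-p.1 - p.2) (32 * (L * Real.sqrt s) ^ 2))).trace *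
        ∑ k₂, ∑ k₀, ZB η F₂ γ (L * Real.sqrt s) p.1 p.2 k₂ k₀ ^ 2 /
          (wt η (-p.1 - p.2) (32 * (L * Real.sqrt s) ^ 2) k₂ *
            wt η p.1 (32 * (L * Real.sqrt s) ^ 2) k₀))) ^ (1 / 2 : ℝ) := by
  have hsq : 0 < Real.sqrt s := Real.sqrt_pos.2 hs
  have hss : Real.sqrt s ^ 2 = s := Real.sq_sqrt hs.le
  have hw : 0 < L * Real.sqrt s := by positivity
  have hw2 : 32 * (L * Real.sqrt s) ^ 2 = 64 * L ^ 2 * (s / 2) := by
    rw [mul_pow, hss]; ring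
  have hw3 : 0 < 32 * (L * Real.sqrt s) ^ 2 := by positivity
  have key := SQu F₀ F₁ (ZB η F₂ γ (L * Real.sqrt s) p.1 p.2)
    (w₀ := wt η p.1 (32 * (L * Real.sqrt s) ^ 2)) (w₁ := wt η p.2 (s / 2))
    (w₂ := wt η (-p.1 - p.2) (32 * (L * Real.sqrt s) ^ 2))
    (fun k => Real.sqrt s * dwt η p.2 (s / 2) k)
    (fun k => wt_pos hη p.1 hw3 k) (fun k => wt_pos hη p.2 (half_pos hs) k)
    (fun k => wt_pos hη _ hw3 k)
  have e1 : ∫ v in Ioi (0 : ℝ), v ^ 2 * qf v (wt η p.2 (s / 2)) (fun k => Real.sqrt s * dwt η p.2 (s / 2) k)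
      (Kmat F₀ F₁ (wt η p.1 (32 * (L * Real.sqrt s) ^ 2)) (wt η (-p.1 - p.2) (32 * (L * Real.sqrt s) ^ 2))) =
      s * ∫ v in Ioi (0 : ℝ), gainD η (64 * L ^ 2) v F₀ F₁ p.1 p.2 (s / 2) := by
    rw [← integral_const_mul]
    refine setIntegral_congr_fun measurableSet_Ioi fun v _ => ?_
    rw [qf_smul, hss, hw2]
    unfold gainD Kf
    ring
  rw [e1] at key
  set I := ∫ v in Ioi (0 : ℝ), gainD η (64 * L ^ 2) v F₀ F₁ p.1 p.2 (s / 2) with hI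
  set tr := (diagonal (wt η p.2 (s / 2)) *
          Kmat F₀ F₁ (wt η p.1 (32 * (L * Real.sqrt s) ^ 2))
            (wt η (-p.1 - p.2) (32 * (L * Real.sqrt s) ^ 2))).trace with htr
  set S := ∑ k₂, ∑ k₀, ZB η F₂ γ (L * Real.sqrt s) p.1 p.2 k₂ k₀ ^ 2 /
          (wt η (-p.1 - p.2) (32 * (L * Real.sqrt s) ^ 2) k₂ *
            wt η p.1 (32 * (L * Real.sqrt s) ^ 2) k₀) with hS
  set d := ∑ k₀, ∑ k₁, ∑ k₂, F₀ k₀ k₁ * (Real.sqrt s * dwt η p.2 (s / 2) k₁) *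
        F₁ k₁ k₂ * ZB η F₂ γ (L * Real.sqrt s) p.1 p.2 k₂ k₀ with hd
  have hS0 : 0 ≤ S := by
    refine Finset.sum_nonneg fun k₂ _ => Finset.sum_nonneg fun k₀ _ => ?_
    have h1 := wt_pos hη (-p.1 - p.2) hw3 k₂
    have h2 := wt_pos hη p.1 hw3 k₀
    positivity
  have hR0 : 0 ≤ Real.sqrt tr * S := mul_nonneg (Real.sqrt_nonneg _) hS0
  have h1 : |d| ≤ Real.sqrt (50 * s * I) * Real.sqrt (Real.sqrt tr * S) := by
    rw [← Real.sqrt_mul' _ hR0, ← Real.sqrt_sq_eq_abs]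
    refine Real.sqrt_le_sqrt (key.trans (le_of_eq ?_))
    ring
  refine (ENNReal.ofReal_le_ofReal h1).trans ?_
  rw [ENNReal.ofReal_mul (Real.sqrt_nonneg _), sq_ofReal_sqrt, sq_ofReal_sqrt (Real.sqrt tr * S)]
  refine mul_le_mul' (ENNReal.rpow_le_rpow ?_ (by norm_num)) le_rfl
  rw [ENNReal.ofReal_mul (by positivity), ENNReal.ofReal_mul (by norm_num)]
  have e50 : ENNReal.ofReal 50 = 50 := by simp
  rw [e50]
  exact mul_le_mul' le_rfl (sq_ofReal_integral_le _ _)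

private theorem sq_meas2 {N : ℕ} {η : ℝ} (s w : ℝ) (F₀ F₁ F₂ : Matrix (Fin (2 * N)) (Fin (2 * N)) ℝ)
    {γ : Fin (2 * N) → Fin (2 * N) → ℝ → ℝ} (hγ : ∀ k₂ k₀, Measurable (γ k₂ k₀)) :
    Measurable fun p : ℝ × ℝ => ENNReal.ofReal (Real.sqrt (diagonal (wt η p.2 (s / 2)) *
          Kmat F₀ F₁ (wt η p.1 (32 * w ^ 2)) (wt η (-p.1 - p.2) (32 * w ^ 2))).trace *
        ∑ k₂, ∑ k₀, ZB η F₂ γ w p.1 p.2 k₂ k₀ ^ 2 /
          (wt η (-p.1 - p.2) (32 * w ^ 2) k₂ * wt η p.1 (32 * w ^ 2) k₀)) := by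
  refine Measurable.ennreal_ofReal ?_
  have m1 : Measurable fun p : ℝ × ℝ => p.1 := measurable_fst
  have m2 : Measurable fun p : ℝ × ℝ => p.2 := measurable_snd
  have w0 := fun k => sm_wt (η := η) (N := N) m1 (measurable_const (a := 32 * w ^ 2)) k
  have w1 := fun k => sm_wt (η := η) (N := N) m2 (measurable_const (a := s / 2)) k
  have w2 := fun k => sm_wt (η := η) (N := N) (m1.neg.sub m2) (measurable_const (a := 32 * w ^ 2)) k
  have a1 := sm_Kmat F₀ F₁ (w₀ := fun p : ℝ × ℝ => wt η p.1 (32 * w ^ 2))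
    (w₂ := fun p : ℝ × ℝ => wt η (-p.1 - p.2) (32 * w ^ 2)) w0 w2
  have a2 := sm_mul (A := fun p : ℝ × ℝ => diagonal (wt η p.2 (s / 2)))
    (B := fun p : ℝ × ℝ => Kmat F₀ F₁ (wt η p.1 (32 * w ^ 2)) (wt η (-p.1 - p.2) (32 * w ^ 2)))
    (sm_diag w1) a1
  have a3 := sm_trace a2
  refine a3.sqrt.mul ?_
  refine Finset.measurable_sum _ fun k₂ _ => Finset.measurable_sum _ fun k₀ _ => ?_
  exact ((sm_ZB F₂ hγ w m1 m2 k₂ k₀).pow_const 2).div ((w2 k₂).mul (w0 k₀))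

private theorem sq_slice {N : ℕ} {η : ℝ} (hη : 0 < η) {L s A : ℝ} (hL : 1 ≤ L) (hs : 0 < s) (hA : 0 ≤ A)
    (F₀ F₁ F₂ : Matrix (Fin (2 * N)) (Fin (2 * N)) ℝ) (γ : Fin (2 * N) → Fin (2 * N) → ℝ → ℝ)
    (hγm : ∀ k₂ k₀, Measurable (γ k₂ k₀))
    (hγ : ∀ k₂ k₀ t, |γ k₂ k₀ t| ≤ A / (L * Real.sqrt s) * Real.exp (-t ^ 2 / (32 * (L * Real.sqrt s) ^ 2))) :
    ENNReal.ofReal |TS η F₀ F₁ F₂ (fun k₂ k₀ => cpsi (γ k₂ k₀) s)| ≤
      (50 * ENNReal.ofReal s * ∫⁻ p : ℝ × ℝ, ∫⁻ v in Ioi (0 : ℝ),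
        ENNReal.ofReal (gainD η (64 * L ^ 2) v F₀ F₁ p.1 p.2 (s / 2))) ^ (1 / 2 : ℝ) *
      (∫⁻ p : ℝ × ℝ, ENNReal.ofReal (Real.sqrt (diagonal (wt η p.2 (s / 2)) *
          Kmat F₀ F₁ (wt η p.1 (32 * (L * Real.sqrt s) ^ 2))
            (wt η (-p.1 - p.2) (32 * (L * Real.sqrt s) ^ 2))).trace *
        ∑ k₂, ∑ k₀, ZB η F₂ γ (L * Real.sqrt s) p.1 p.2 k₂ k₀ ^ 2 /
          (wt η (-p.1 - p.2) (32 * (L * Real.sqrt s) ^ 2) k₂ *
            wt η p.1 (32 * (L * Real.sqrt s) ^ 2) k₀))) ^ (1 / 2 : ℝ) := by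
  have hsq : 0 < Real.sqrt s := Real.sqrt_pos.2 hs
  have hw : 0 < L * Real.sqrt s := by positivity
  set w := L * Real.sqrt s with hwdef
  have hgi : Integrable (fun t : ℝ => A / w * Real.exp (-t ^ 2 / (32 * w ^ 2))) := by
    have h := (integrable_exp_neg_mul_sq (b := 1 / (32 * w ^ 2)) (by positivity)).const_mul (A / w)
    refine h.congr (Eventually.of_forall fun t => ?_)
    simp only
    congr 2
    ring
  have hγi : ∀ k₂ k₀, Integrable (γ k₂ k₀) := fun k₂ k₀ =>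
    hgi.mono' (hγm k₂ k₀).aestronglyMeasurable (Eventually.of_forall fun t => hγ k₂ k₀ t)
  have hγb : ∃ B, ∀ k₂ k₀ t, |γ k₂ k₀ t| ≤ B := by
    refine ⟨A / w, fun k₂ k₀ t => (hγ k₂ k₀ t).trans ?_⟩
    have h1 : Real.exp (-t ^ 2 / (32 * w ^ 2)) ≤ 1 := by
      rw [Real.exp_le_one_iff]
      exact div_nonpos_of_nonpos_of_nonneg (by nlinarith [sq_nonneg t]) (by positivity)
    have h2 : 0 ≤ A / w := by positivity
    nlinarith
  obtain ⟨-, hTS⟩ := TS_cpsi hη F₀ F₁ F₂ γ hγm hγi hγb hs hw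
  rw [hTS]
  have h1 := enorm_integral_le_lintegral_enorm (μ := (volume : Measure (ℝ × ℝ)))
    (fun p : ℝ × ℝ => ∑ k₀, ∑ k₁, ∑ k₂, F₀ k₀ k₁ * (Real.sqrt s * dwt η p.2 (s / 2) k₁) *
      F₁ k₁ k₂ * ZB η F₂ γ w p.1 p.2 k₂ k₀)
  simp only [Real.enorm_eq_ofReal_abs] at h1
  refine h1.trans ?_
  refine (lintegral_mono fun p => sq_point hη hL hs F₀ F₁ F₂ γ p).trans ?_
  have hm : Measurable fun p : ℝ × ℝ => ∫⁻ v in Ioi (0 : ℝ),
        ENNReal.ofReal (gainD η (64 * L ^ 2) v F₀ F₁ p.1 p.2 (s / 2)) := by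
    have h2 : Measurable fun q : (ℝ × ℝ) × ℝ =>
        ENNReal.ofReal (gainD η (64 * L ^ 2) q.2 F₀ F₁ q.1.1 q.1.2 (s / 2)) :=
      (sm_gainD F₀ F₁ measurable_snd (measurable_fst.comp measurable_fst)
        (measurable_snd.comp measurable_fst) measurable_const).ennreal_ofReal
    exact h2.lintegral_prod_right'
  refine (sq_CS _ (hm.const_mul _).aemeasurable (sq_meas2 s w F₀ F₁ F₂ hγm).aemeasurable).trans ?_
  rw [lintegral_const_mul _ hm]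


private theorem sq_total {N : ℕ} {η : ℝ} (hη : 0 < η) {L : ℝ} (hL : 1 ≤ L)
    (F₀ F₁ : Matrix (Fin (2 * N)) (Fin (2 * N)) ℝ) :
    ∫⁻ s in Ioi (0 : ℝ), ∫⁻ p : ℝ × ℝ, ∫⁻ v in Ioi (0 : ℝ),
        ENNReal.ofReal (gainD η (64 * L ^ 2) v F₀ F₁ p.1 p.2 (s / 2)) ≤
      12 * ENNReal.ofReal (n3 η F₀ + n3 η F₁) := by
  have hΛ : 1 ≤ 64 * L ^ 2 := by nlinarith
  have h := sq_scale (fun t => ∫⁻ p : ℝ × ℝ, ∫⁻ v in Ioi (0 : ℝ),
        ENNReal.ofReal (gainD η (64 * L ^ 2) v F₀ F₁ p.1 p.2 t))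
  rw [h]
  have hM : Measurable fun q : (ℝ × ℝ) × (ℝ × ℝ) =>
      ENNReal.ofReal (gainD η (64 * L ^ 2) q.1.2 F₀ F₁ q.2.1 q.2.2 q.1.1) :=
    (sm_gainD F₀ F₁ (measurable_snd.comp measurable_fst) (measurable_fst.comp measurable_snd)
      (measurable_snd.comp measurable_snd) (measurable_fst.comp measurable_fst)).ennreal_ofReal
  have e1 : ∀ t : ℝ, ∫⁻ p : ℝ × ℝ, ∫⁻ v in Ioi (0 : ℝ),
        ENNReal.ofReal (gainD η (64 * L ^ 2) v F₀ F₁ p.1 p.2 t) =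
      ∫⁻ v in Ioi (0 : ℝ), ∫⁻ p : ℝ × ℝ, ENNReal.ofReal (gainD η (64 * L ^ 2) v F₀ F₁ p.1 p.2 t) := by
    intro t
    refine lintegral_lintegral_swap ?_
    have h2 : Measurable fun q : (ℝ × ℝ) × ℝ =>
        ENNReal.ofReal (gainD η (64 * L ^ 2) q.2 F₀ F₁ q.1.1 q.1.2 t) :=
      (sm_gainD F₀ F₁ measurable_snd (measurable_fst.comp measurable_fst)
        (measurable_snd.comp measurable_fst) measurable_const).ennreal_ofReal
    exact h2.aemeasurable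
  simp only [e1]
  have e2 : ∫⁻ t in Ioi (0 : ℝ), ∫⁻ v in Ioi (0 : ℝ), ∫⁻ p : ℝ × ℝ,
        ENNReal.ofReal (gainD η (64 * L ^ 2) v F₀ F₁ p.1 p.2 t) =
      ∫⁻ v in Ioi (0 : ℝ), ∫⁻ t in Ioi (0 : ℝ), ∫⁻ p : ℝ × ℝ,
        ENNReal.ofReal (gainD η (64 * L ^ 2) v F₀ F₁ p.1 p.2 t) := by
    refine lintegral_lintegral_swap ?_
    have h3 := hM.lintegral_prod_right' (ν := (volume : Measure (ℝ × ℝ)))
    exact h3.aemeasurable
  rw [e2]
  refine (mul_le_mul' le_rfl (flow_total hη hΛ F₀ F₁)).trans (le_of_eq ?_)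
  rw [ENNReal.ofReal_mul (by norm_num), ← mul_assoc]
  congr 1
  simp
  norm_num

/-- With `w = L √s`, `Λ = 64 L²` (so `Λ (s/2) = 32 w²`): `TS_cpsi`; for each `p`, `SQu` with
`w₀ = wt p₀ (32w²)`, `w₁ = wt p₁ (s/2)`, `w₂ = wt (-p₀-p₁) (32w²)`, `φ = √s dwt p₁ (s/2)`:
`|d(p)|² ≤ 50 s (∫_v gainD η Λ v F₀ F₁ p₀ p₁ (s/2)) √tr ∑ ZB²/(w₂w₀)`; Cauchy–Schwarz in `(s,p)` for the
measure `ds/s dp`; the first factor is `≤ ∫ ds ∫ dp ∫ dv gainD(s/2) = 2 · flow_total ≤ 12 (n3 F₀ + n3 F₁)`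
(`flow_total`), the second is `second_factor`. -/
theorem SQL : ∃ C : ℝ≥0∞, C ≠ ⊤ ∧ ∀ (N : ℕ) (η : ℝ), 0 < η → ∀ (L A : ℝ), 1 ≤ L → 0 ≤ A →
    ∀ (F₀ F₁ F₂ : Matrix (Fin (2 * N)) (Fin (2 * N)) ℝ)
    (γ : ℝ → Fin (2 * N) → Fin (2 * N) → ℝ → ℝ),
    (∀ k₂ k₀, Measurable (fun q : ℝ × ℝ => γ q.1 k₂ k₀ q.2)) →
    (∀ s, 0 < s → ∀ k₂ k₀ t, |γ s k₂ k₀ t| ≤ A / (L * Real.sqrt s) * Real.exp (-t ^ 2 / (32 * L ^ 2 * s))) →
    ∫⁻ s in Ioi (0 : ℝ), ENNReal.ofReal (1 / s) *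
        ENNReal.ofReal |TS η F₀ F₁ F₂ (fun k₂ k₀ => cpsi (γ s k₂ k₀) s)| ≤
      C * (ENNReal.ofReal (n3 η F₀ + n3 η F₁)) ^ (1 / 2 : ℝ) *
        (ENNReal.ofReal (A ^ (3 / 2 : ℝ)) * ∑ k₂, ∑ k₀, ENNReal.ofReal (F₂ k₂ k₀ ^ 2) *
          (∫⁻ s in Ioi (0 : ℝ), ENNReal.ofReal (1 / s) *
            (∫⁻ t, ENNReal.ofReal (|γ s k₂ k₀ t| * Real.exp (t ^ 2 / (32 * L ^ 2 * s)))) ^ (1 / 2 : ℝ)) *
          ∫⁻ z in cell2 η k₂ k₀, MM η F₀ F₁ z) ^ (1 / 2 : ℝ) := by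
  obtain ⟨C, hC, hsf⟩ := second_factor
  refine ⟨(50 : ℝ≥0∞) ^ (1 / 2 : ℝ) * C ^ (1 / 2 : ℝ) * (12 : ℝ≥0∞) ^ (1 / 2 : ℝ), ?_, ?_⟩
  · refine ENNReal.mul_ne_top (ENNReal.mul_ne_top ?_ ?_) ?_
    · exact ENNReal.rpow_ne_top_of_nonneg (by norm_num) (by simp)
    · exact ENNReal.rpow_ne_top_of_nonneg (by norm_num) hC
    · exact ENNReal.rpow_ne_top_of_nonneg (by norm_num) (by simp)
  intro N η hη L A hL hA F₀ F₁ F₂ γ hγm hγ
  set X : ℝ → ℝ≥0∞ := fun s => ∫⁻ p : ℝ × ℝ, ∫⁻ v in Ioi (0 : ℝ),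
        ENNReal.ofReal (gainD η (64 * L ^ 2) v F₀ F₁ p.1 p.2 (s / 2)) with hX
  set g : Fin (2 * N) → Fin (2 * N) → ℝ → ℝ≥0∞ := fun k₂ k₀ s =>
    ∫⁻ t, ENNReal.ofReal (|γ s k₂ k₀ t| * Real.exp (t ^ 2 / (32 * L ^ 2 * s))) with hg
  set a := ENNReal.ofReal (A ^ (3 / 2 : ℝ)) with ha
  set b : Fin (2 * N) → Fin (2 * N) → ℝ≥0∞ := fun k₂ k₀ => ENNReal.ofReal (F₂ k₂ k₀ ^ 2) with hb
  set m : Fin (2 * N) → Fin (2 * N) → ℝ≥0∞ := fun k₂ k₀ => ∫⁻ z in cell2 η k₂ k₀, MM η F₀ F₁ z with hmm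
  set Bf : ℝ → ℝ≥0∞ := fun s => a * ∑ k₂, ∑ k₀, b k₂ k₀ * (g k₂ k₀ s) ^ (1 / 2 : ℝ) * m k₂ k₀ with hBf
  have hslice : ∀ s ∈ Ioi (0 : ℝ), ENNReal.ofReal (1 / s) *
        ENNReal.ofReal |TS η F₀ F₁ F₂ (fun k₂ k₀ => cpsi (γ s k₂ k₀) s)| ≤
      (50 : ℝ≥0∞) ^ (1 / 2 : ℝ) * C ^ (1 / 2 : ℝ) *
        ((X s) ^ (1 / 2 : ℝ) * (ENNReal.ofReal (1 / s) * Bf s) ^ (1 / 2 : ℝ)) := by
    intro s hs
    rw [mem_Ioi] at hs
    have hsq : 0 < Real.sqrt s := Real.sqrt_pos.2 hs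
    have hss : Real.sqrt s ^ 2 = s := Real.sq_sqrt hs.le
    have hw : 0 < L * Real.sqrt s := by positivity
    have hw2 : 32 * (L * Real.sqrt s) ^ 2 = 32 * L ^ 2 * s := by
      rw [mul_pow, hss]; ring
    have hsw : s ≤ (L * Real.sqrt s) ^ 2 := by
      rw [mul_pow, hss]
      have hL2 : 1 ≤ L ^ 2 := one_le_pow₀ hL
      nlinarith
    have hγs : ∀ k₂ k₀ t, |γ s k₂ k₀ t| ≤
        A / (L * Real.sqrt s) * Real.exp (-t ^ 2 / (32 * (L * Real.sqrt s) ^ 2)) := by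
      intro k₂ k₀ t
      rw [hw2]
      exact hγ s hs k₂ k₀ t
    have hγms : ∀ k₂ k₀, Measurable (γ s k₂ k₀) := fun k₂ k₀ =>
      (hγm k₂ k₀).comp (measurable_const.prodMk measurable_id)
    have h1 := sq_slice hη hL hs hA F₀ F₁ F₂ (γ s) hγms hγs
    have h2 := hsf N η hη (L * Real.sqrt s) s A hw hs hsw hA F₀ F₁ F₂ (γ s) hγms hγs
    rw [hw2] at h1 h2
    have h3 : C * ENNReal.ofReal (A ^ (3 / 2 : ℝ)) * ∑ k₂, ∑ k₀, ENNReal.ofReal (F₂ k₂ k₀ ^ 2) *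
        (∫⁻ t, ENNReal.ofReal (|γ s k₂ k₀ t| * Real.exp (t ^ 2 / (32 * L ^ 2 * s)))) ^ (1 / 2 : ℝ) *
        ∫⁻ z in cell2 η k₂ k₀, MM η F₀ F₁ z = C * Bf s := by
      simp only [hBf, hg, ha, hb, hmm]
      rw [mul_assoc]
    rw [h3] at h2
    have h4 : ENNReal.ofReal (1 / s) = ENNReal.ofReal (1 / s) ^ (1 / 2 : ℝ) * ENNReal.ofReal (1 / s) ^ (1 / 2 : ℝ) := by
      rw [← ENNReal.rpow_add_of_nonneg _ _ (by norm_num) (by norm_num)]
      norm_num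
    have h5 : ENNReal.ofReal (1 / s) ^ (1 / 2 : ℝ) * ENNReal.ofReal s ^ (1 / 2 : ℝ) = 1 := by
      rw [← ENNReal.mul_rpow_of_nonneg _ _ (by norm_num), ← ENNReal.ofReal_mul (by positivity)]
      rw [one_div, inv_mul_cancel₀ hs.ne']
      simp
    calc ENNReal.ofReal (1 / s) * ENNReal.ofReal |TS η F₀ F₁ F₂ (fun k₂ k₀ => cpsi (γ s k₂ k₀) s)|
        ≤ ENNReal.ofReal (1 / s) * ((50 * ENNReal.ofReal s * X s) ^ (1 / 2 : ℝ) * (C * Bf s) ^ (1 / 2 : ℝ)) :=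
          mul_le_mul' le_rfl (h1.trans (mul_le_mul' le_rfl (ENNReal.rpow_le_rpow h2 (by norm_num))))
      _ = (ENNReal.ofReal (1 / s) ^ (1 / 2 : ℝ) * ENNReal.ofReal s ^ (1 / 2 : ℝ)) *
          ((50 : ℝ≥0∞) ^ (1 / 2 : ℝ) * C ^ (1 / 2 : ℝ) *
          ((X s) ^ (1 / 2 : ℝ) * (ENNReal.ofReal (1 / s) ^ (1 / 2 : ℝ) * (Bf s) ^ (1 / 2 : ℝ)))) := by
          rw [ENNReal.mul_rpow_of_nonneg _ _ (by norm_num : (0:ℝ) ≤ 1 / 2),
            ENNReal.mul_rpow_of_nonneg _ _ (by norm_num : (0:ℝ) ≤ 1 / 2),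
            ENNReal.mul_rpow_of_nonneg _ _ (by norm_num : (0:ℝ) ≤ 1 / 2)]
          conv_lhs => rw [h4]
          ring
      _ = _ := by
          rw [h5, one_mul, ← ENNReal.mul_rpow_of_nonneg (ENNReal.ofReal (1 / s)) _ (by norm_num : (0:ℝ) ≤ 1 / 2)]
  have hXm : Measurable X := by
    have h2 : Measurable fun q : (ℝ × (ℝ × ℝ)) × ℝ =>
        ENNReal.ofReal (gainD η (64 * L ^ 2) q.2 F₀ F₁ q.1.2.1 q.1.2.2 (q.1.1 / 2)) :=
      (sm_gainD F₀ F₁ measurable_snd (measurable_fst.comp (measurable_snd.comp measurable_fst))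
        (measurable_snd.comp (measurable_snd.comp measurable_fst))
        ((measurable_fst.comp measurable_fst).div_const 2)).ennreal_ofReal
    have h3 := h2.lintegral_prod_right' (ν := volume.restrict (Ioi (0:ℝ)))
    exact h3.lintegral_prod_right' (ν := (volume : Measure (ℝ × ℝ)))
  have hgm : ∀ k₂ k₀, Measurable (g k₂ k₀) := by
    intro k₂ k₀
    have h2 : Measurable fun q : ℝ × ℝ =>
        ENNReal.ofReal (|γ q.1 k₂ k₀ q.2| * Real.exp (q.2 ^ 2 / (32 * L ^ 2 * q.1))) := by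
      refine Measurable.ennreal_ofReal ?_
      have h5 : Measurable fun q : ℝ × ℝ => |γ q.1 k₂ k₀ q.2| := by
        have := (hγm k₂ k₀).norm
        simpa [Real.norm_eq_abs] using this
      have h6 : Measurable fun q : ℝ × ℝ => Real.exp (q.2 ^ 2 / (32 * L ^ 2 * q.1)) := by fun_prop
      exact h5.mul h6
    exact h2.lintegral_prod_right'
  have hinv : Measurable fun s : ℝ => ENNReal.ofReal (1 / s) := by fun_prop
  have hBm : Measurable Bf := by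
    refine Measurable.const_mul ?_ _
    refine Finset.measurable_sum _ fun k₂ _ => Finset.measurable_sum _ fun k₀ _ => ?_
    exact (((hgm k₂ k₀).pow_const _).const_mul _).mul_const _
  have hBint : ∫⁻ s in Ioi (0 : ℝ), ENNReal.ofReal (1 / s) * Bf s =
      a * ∑ k₂, ∑ k₀, b k₂ k₀ * (∫⁻ s in Ioi (0 : ℝ), ENNReal.ofReal (1 / s) * (g k₂ k₀ s) ^ (1 / 2 : ℝ)) *
        m k₂ k₀ := by
    have e1 : ∀ s : ℝ, ENNReal.ofReal (1 / s) * Bf s = a * ∑ k₂, ∑ k₀, (b k₂ k₀ * m k₂ k₀) *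
        (ENNReal.ofReal (1 / s) * (g k₂ k₀ s) ^ (1 / 2 : ℝ)) := by
      intro s
      simp only [hBf]
      rw [mul_left_comm, Finset.mul_sum]
      congr 1
      refine Finset.sum_congr rfl fun k₂ _ => ?_
      rw [Finset.mul_sum]
      refine Finset.sum_congr rfl fun k₀ _ => ?_
      ring
    have hmeas : ∀ k₂ k₀, Measurable fun s => ENNReal.ofReal (1 / s) * (g k₂ k₀ s) ^ (1 / 2 : ℝ) :=
      fun k₂ k₀ => hinv.mul ((hgm k₂ k₀).pow_const _)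
    simp only [e1]
    rw [lintegral_const_mul]
    · congr 1
      rw [lintegral_finset_sum]
      · refine Finset.sum_congr rfl fun k₂ _ => ?_
        rw [lintegral_finset_sum]
        · refine Finset.sum_congr rfl fun k₀ _ => ?_
          rw [lintegral_const_mul _ (hmeas k₂ k₀)]
          ring
        · exact fun k₀ _ => (hmeas k₂ k₀).const_mul _
      · exact fun k₂ _ => Finset.measurable_sum _ fun k₀ _ => (hmeas k₂ k₀).const_mul _
    · exact Finset.measurable_sum _ fun k₂ _ => Finset.measurable_sum _ fun k₀ _ => (hmeas k₂ k₀).const_mul _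
  have htop : (50 : ℝ≥0∞) ^ (1 / 2 : ℝ) * C ^ (1 / 2 : ℝ) ≠ ⊤ :=
    ENNReal.mul_ne_top (ENNReal.rpow_ne_top_of_nonneg (by norm_num) (by simp))
      (ENNReal.rpow_ne_top_of_nonneg (by norm_num) hC)
  calc _ ≤ ∫⁻ s in Ioi (0 : ℝ), (50 : ℝ≥0∞) ^ (1 / 2 : ℝ) * C ^ (1 / 2 : ℝ) *
        ((X s) ^ (1 / 2 : ℝ) * (ENNReal.ofReal (1 / s) * Bf s) ^ (1 / 2 : ℝ)) :=
        setLIntegral_mono' measurableSet_Ioi hslice
    _ = (50 : ℝ≥0∞) ^ (1 / 2 : ℝ) * C ^ (1 / 2 : ℝ) * ∫⁻ s in Ioi (0 : ℝ),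
        ((X s) ^ (1 / 2 : ℝ) * (ENNReal.ofReal (1 / s) * Bf s) ^ (1 / 2 : ℝ)) := lintegral_const_mul' _ _ htop
    _ ≤ (50 : ℝ≥0∞) ^ (1 / 2 : ℝ) * C ^ (1 / 2 : ℝ) * ((∫⁻ s in Ioi (0 : ℝ), X s) ^ (1 / 2 : ℝ) *
        (∫⁻ s in Ioi (0 : ℝ), ENNReal.ofReal (1 / s) * Bf s) ^ (1 / 2 : ℝ)) :=
        mul_le_mul' le_rfl (sq_CS _ hXm.aemeasurable (hinv.mul hBm).aemeasurable)
    _ ≤ (50 : ℝ≥0∞) ^ (1 / 2 : ℝ) * C ^ (1 / 2 : ℝ) * ((12 * ENNReal.ofReal (n3 η F₀ + n3 η F₁)) ^ (1 / 2 : ℝ) *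
        (∫⁻ s in Ioi (0 : ℝ), ENNReal.ofReal (1 / s) * Bf s) ^ (1 / 2 : ℝ)) :=
        mul_le_mul' le_rfl (mul_le_mul' (ENNReal.rpow_le_rpow (sq_total hη hL F₀ F₁) (by norm_num)) le_rfl)
    _ = _ := by
        rw [hBint, ENNReal.mul_rpow_of_nonneg 12 _ (by norm_num : (0:ℝ) ≤ 1 / 2)]
        ring

end Crest.Agent.TH
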