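import Crest.Agent.TH_Push
import Crest.Agent.TH_Tr

/-! # TH_Term (task TH-M4): the bound of one term of the derivative -/

set_option autoImplicit false
open Matrix MeasureTheory Set

namespace Crest.Agent.TH
variable {ι₀ ι₁ ι₂ : Type*} [Fintype ι₀] [DecidableEq ι₀] [Fintype ι₁] [DecidableEq ι₁]
  [Fintype ι₂] [DecidableEq ι₂]

/-- `S₁(v) = tr (h² f b h f² b)`. -/
noncomputable def S1 {ι : Type*} [Fintype ι] [DecidableEq ι] (v : ℝ) (H : Matrix ι ι ℝ) (b : ι → ℝ) : ℝ :=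
  (diagonal b * (hop v H * hop v H * fop v H) * diagonal b * (hop v H * fop v H * fop v H)).trace

/-- `S₀(v) = tr (h f² b h f² b)`. -/
noncomputable def S0 {ι : Type*} [Fintype ι] [DecidableEq ι] (v : ℝ) (H : Matrix ι ι ℝ) (b : ι → ℝ) : ℝ :=
  (diagonal b * (hop v H * fop v H * fop v H) * diagonal b * (hop v H * fop v H * fop v H)).trace

theorem S1_nonneg {ι : Type*} [Fintype ι] [DecidableEq ι] {v : ℝ} (hv : 0 < v) {H : Matrix ι ι ℝ}
    (hH : H.PosSemidef) (b : ι → ℝ) : 0 ≤ S1 v H b :=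
  trace_SXSY_nonneg (diagonal_transpose b) (hop_hop_fop_posSemidef hv hH)
    (hop_fop_fop_posSemidef hv hH)

theorem S0_nonneg {ι : Type*} [Fintype ι] [DecidableEq ι] {v : ℝ} (hv : 0 < v) {H : Matrix ι ι ℝ}
    (hH : H.PosSemidef) (b : ι → ℝ) : 0 ≤ S0 v H b :=
  trace_SXSY_nonneg (diagonal_transpose b) (hop_fop_fop_posSemidef hv hH)
    (hop_fop_fop_posSemidef hv hH)

/-- `S₁ + S₀ = tr (b h f b h f²) ≤ gn` because `h² f + h f² = h f ≤ h`, `h f² ≤ h`. -/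
theorem S1_add_S0_le {ι : Type*} [Fintype ι] [DecidableEq ι] {v : ℝ} (hv : 0 < v) {H : Matrix ι ι ℝ}
    (hH : H.PosSemidef) (b : ι → ℝ) : S1 v H b + S0 v H b ≤ gn v H b := by
  have h1 : hop v H * hop v H * fop v H + hop v H * fop v H * fop v H = hop v H * fop v H := by
    rw [← add_mul, ← mul_add, hop_add_fop hv hH, mul_one]
  have h2 : S1 v H b + S0 v H b = (diagonal b * (hop v H * fop v H) * diagonal b *
      (hop v H * fop v H * fop v H)).trace := by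
    unfold S1 S0
    rw [← trace_add, ← add_mul, ← add_mul, ← mul_add, h1]
  rw [h2]
  exact trace_SXSY_mono (diagonal_transpose b) (hop_mul_fop_posSemidef hv hH)
    (hop_fop_fop_posSemidef hv hH) (hop_sub_hop_fop_posSemidef hv hH)
    (hop_sub_hop_fop_fop_posSemidef hv hH)

private theorem term_tr_le {ι : Type*} [Fintype ι] [DecidableEq ι] {N Q Q' : Matrix ι ι ℝ}
    (hN : N.PosSemidef) (hQ : (Q' - Q).PosSemidef) : (N * Q).trace ≤ (N * Q').trace := by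
  have h := trace_mul_nonneg hN hQ
  rw [mul_sub, trace_sub] at h
  linarith

private theorem term_conj {ι κ : Type*} [Fintype ι] [DecidableEq ι] [Fintype κ] [DecidableEq κ]
    {Q : Matrix ι ι ℝ} (hQ : Q.PosSemidef) (A : Matrix κ ι ℝ) : (A * Q * Aᵀ).PosSemidef := by
  have h := hQ.mul_mul_conjTranspose_same A
  rwa [conjTranspose_eq_transpose_of_trivial] at h

private theorem term_gram {α β : Type*} [Fintype α] [Fintype β] (A : Matrix α β ℝ) :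
    (A * Aᵀ).PosSemidef := by
  have h := posSemidef_self_mul_conjTranspose A
  rwa [conjTranspose_eq_transpose_of_trivial] at h

private theorem term_gram' {α β : Type*} [Fintype α] [Fintype β] (A : Matrix α β ℝ) :
    (Aᵀ * A).PosSemidef := by
  have h := posSemidef_conjTranspose_mul_self A
  rwa [conjTranspose_eq_transpose_of_trivial] at h

/-- **One term**, `h` next to `A₀`.  Write `fᵢ = fop v Hᵢ`, `hᵢ = hop v Hᵢ`.  By `trace_cs` with weight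
`f₁`, `X = b₂ f₂ A₂ f₀ b₀ f₀ A₀`, `Y = h₁ b₁ f₁ A₁ f₂`:
`tr (X f₁ Xᵀ) ≤ B² tr (f₂ A₂ f₀ b₀ f₀ (A₀ f₁ A₀ᵀ) f₀ b₀ f₀ A₂ᵀ f₂)`, `A₀ f₁ A₀ᵀ ≤ v² h₀` (`push_le` with
`A = A₀`, `B = H₁`, `C = H₀`), `f₂² ≤ f₂`, `A₂ᵀ f₂ A₂ ≤ v² h₀` (`push_le` with `A = A₂ᵀ`), which gives
`≤ B² v⁴ S₀(H₀, b₀)`; and `tr (Yᵀ f₁ Y) = tr (h₁ f₁ h₁ b₁ (f₁ A₁ f₂² A₁ᵀ f₁) b₁) ≤ v² S₁(H₁, b₁)` by
`A₁ f₂ A₁ᵀ ≤ v² h₁`. -/
theorem term_bound {v B : ℝ} (hv : 0 < v) (hB : 0 ≤ B) (A₀ : Matrix ι₀ ι₁ ℝ) (A₁ : Matrix ι₁ ι₂ ℝ)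
    (A₂ : Matrix ι₂ ι₀ ℝ) (b₀ : ι₀ → ℝ) (b₁ : ι₁ → ℝ) (b₂ : ι₂ → ℝ) (hb₂ : ∀ k, |b₂ k| ≤ B)
    (H₀ : Matrix ι₀ ι₀ ℝ) (H₁ : Matrix ι₁ ι₁ ℝ) (H₂ : Matrix ι₂ ι₂ ℝ)
    (h₀ : H₀ = A₂ᵀ * A₂ + A₀ * A₀ᵀ) (h₁ : H₁ = A₀ᵀ * A₀ + A₁ * A₁ᵀ) (h₂ : H₂ = A₁ᵀ * A₁ + A₂ * A₂ᵀ) :
    |(A₀ * (fop v H₁ * hop v H₁ * diagonal b₁ * fop v H₁) * A₁ *
        (fop v H₂ * diagonal b₂ * fop v H₂) * A₂ * (fop v H₀ * diagonal b₀ * fop v H₀)).trace| ≤
      B * v ^ 3 * Real.sqrt (S1 v H₁ b₁) * Real.sqrt (S0 v H₀ b₀) := by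
  have hH₀ : H₀.PosSemidef := by rw [h₀]; exact (term_gram' A₂).add (term_gram A₀)
  have hH₁ : H₁.PosSemidef := by rw [h₁]; exact (term_gram' A₀).add (term_gram A₁)
  have hH₂ : H₂.PosSemidef := by rw [h₂]; exact (term_gram' A₁).add (term_gram A₂)
  have p1 : (v ^ 2 • hop v H₀ - A₀ * fop v H₁ * A₀ᵀ).PosSemidef := by
    apply push_le hv A₀
    · rw [h₁, add_sub_cancel_left]; exact term_gram A₁
    · rw [h₀, add_sub_cancel_right]; exact term_gram' A₂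
  have p2 : (v ^ 2 • hop v H₀ - A₂ᵀ * fop v H₂ * A₂).PosSemidef := by
    have h := push_le hv A₂ᵀ (B := H₂) (C := H₀) ?_ ?_
    · rwa [transpose_transpose] at h
    · rw [h₂, transpose_transpose, add_sub_cancel_right]; exact term_gram' A₁
    · rw [h₀, transpose_transpose, add_sub_cancel_left]; exact term_gram A₀
  have p3 : (v ^ 2 • hop v H₁ - A₁ * fop v H₂ * A₁ᵀ).PosSemidef := by
    apply push_le hv A₁
    · rw [h₂, add_sub_cancel_left]; exact term_gram A₂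
    · rw [h₁, add_sub_cancel_right]; exact term_gram' A₀
  have hc0 := hop_mul_fop_comm hv hH₀
  have hc1 := hop_mul_fop_comm hv hH₁
  have hF0 := fop_transpose hv hH₀
  have hF1 := fop_transpose hv hH₁
  have hF2 := fop_transpose hv hH₂
  have hh0 := hop_posSemidef hv hH₀
  have hh1t := hop_transpose hv hH₁
  have hP1 := fop_posSemidef hv hH₁
  have hP2 := fop_sub_fop_sq_posSemidef hv hH₂
  have hS0 : S0 v H₀ b₀ = (diagonal b₀ * (fop v H₀ * hop v H₀ * fop v H₀) * diagonal b₀ *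
      (fop v H₀ * hop v H₀ * fop v H₀)).trace := by
    unfold S0
    rw [hc0]
  have hS1 : S1 v H₁ b₁ = (diagonal b₁ * (hop v H₁ * fop v H₁ * hop v H₁) * diagonal b₁ *
      (fop v H₁ * hop v H₁ * fop v H₁)).trace := by
    unfold S1
    have e1 : hop v H₁ * hop v H₁ * fop v H₁ = hop v H₁ * fop v H₁ * hop v H₁ := by
      rw [Matrix.mul_assoc, Matrix.mul_assoc, hc1]
    have e2 : hop v H₁ * fop v H₁ * fop v H₁ = fop v H₁ * hop v H₁ * fop v H₁ := by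
      rw [hc1]
    rw [e1, e2]
  have hS0n := S0_nonneg hv hH₀ b₀
  have hS1n := S1_nonneg hv hH₁ b₁
  generalize hT : (A₀ * (fop v H₁ * hop v H₁ * diagonal b₁ * fop v H₁) * A₁ *
        (fop v H₂ * diagonal b₂ * fop v H₂) * A₂ * (fop v H₀ * diagonal b₀ * fop v H₀)).trace = T
  generalize S0 v H₀ b₀ = s0 at *
  generalize S1 v H₁ b₁ = s1 at *
  generalize fop v H₀ = F0 at *
  generalize fop v H₁ = F1 at *
  generalize fop v H₂ = F2 at *
  generalize hop v H₀ = G0 at *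
  generalize hop v H₁ = G1 at *
  -- the two factors
  obtain ⟨M, hM⟩ : ∃ M : Matrix ι₀ ι₀ ℝ, M = F0 * diagonal b₀ * F0 := ⟨_, rfl⟩
  set X : Matrix ι₂ ι₁ ℝ := diagonal b₂ * (F2 * A₂ * M * A₀) with hX
  set Y : Matrix ι₁ ι₂ ℝ := G1 * diagonal b₁ * F1 * A₁ * F2 with hY
  have hTX : T = (X * F1 * Y).trace := by
    rw [← hT, hX, hY, hM]
    have e : A₀ * (F1 * G1 * diagonal b₁ * F1) * A₁ * (F2 * diagonal b₂ * F2) * A₂ *
        (F0 * diagonal b₀ * F0) = (A₀ * (F1 * G1 * diagonal b₁ * F1) * A₁ * F2) *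
        (diagonal b₂ * F2 * A₂ * (F0 * diagonal b₀ * F0)) := by
      simp only [Matrix.mul_assoc]
    rw [e, trace_mul_comm]
    simp only [Matrix.mul_assoc]
  have hcs := trace_cs hP1 X Y
  rw [← hTX] at hcs
  have hMt : Mᵀ = M := by
    rw [hM, transpose_mul, transpose_mul, diagonal_transpose, hF0, Matrix.mul_assoc]
  have hMGM : (M * G0 * M).PosSemidef := by
    have h := term_conj hh0 M
    rwa [hMt] at h
  have E1 : (X * F1 * Xᵀ).trace ≤ B ^ 2 * (v ^ 4 * s0) := by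
    have e1 : X * F1 * Xᵀ = diagonal b₂ * ((F2 * A₂ * M * A₀) * F1 * (F2 * A₂ * M * A₀)ᵀ) *
        diagonal b₂ := by
      rw [hX, transpose_mul, diagonal_transpose]
      simp only [Matrix.mul_assoc]
    rw [e1]
    refine (trace_diag_bound (term_conj hP1 _) hb₂).trans ?_
    refine mul_le_mul_of_nonneg_left ?_ (by positivity)
    have e2 : (F2 * A₂ * M * A₀) * F1 * (F2 * A₂ * M * A₀)ᵀ =
        (F2 * A₂ * M) * (A₀ * F1 * A₀ᵀ) * (F2 * A₂ * M)ᵀ := by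
      rw [transpose_mul (F2 * A₂ * M) A₀]
      simp only [Matrix.mul_assoc]
    rw [e2]
    refine (trace_conj_mono (F2 * A₂ * M) p1).trans ?_
    have e3 : ((F2 * A₂ * M) * (v ^ 2 • G0) * (F2 * A₂ * M)ᵀ).trace =
        v ^ 2 * ((M * G0 * M) * (A₂ᵀ * (F2 * F2) * A₂)).trace := by
      rw [transpose_mul, transpose_mul, hMt, hF2, Matrix.mul_smul, Matrix.smul_mul, trace_smul,
        smul_eq_mul]
      congr 1
      have e4 : F2 * A₂ * M * G0 * (M * (A₂ᵀ * F2)) = (F2 * A₂) * (M * G0 * M * A₂ᵀ * F2) := by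
        simp only [Matrix.mul_assoc]
      rw [e4, trace_mul_comm]
      simp only [Matrix.mul_assoc]
    rw [e3]
    have e5 : ((M * G0 * M) * (A₂ᵀ * (F2 * F2) * A₂)).trace ≤
        ((M * G0 * M) * (A₂ᵀ * F2 * A₂)).trace := by
      apply term_tr_le hMGM
      have h := term_conj hP2 A₂ᵀ
      rw [transpose_transpose, Matrix.mul_sub, Matrix.sub_mul] at h
      exact h
    have e6 : ((M * G0 * M) * (A₂ᵀ * F2 * A₂)).trace ≤ ((M * G0 * M) * (v ^ 2 • G0)).trace :=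
      term_tr_le hMGM p2
    have e7 : ((M * G0 * M) * (v ^ 2 • G0)).trace = v ^ 2 * s0 := by
      rw [Matrix.mul_smul, trace_smul, smul_eq_mul, hS0]
      congr 1
      rw [hM]
      have e8 : F0 * diagonal b₀ * F0 * G0 * (F0 * diagonal b₀ * F0) * G0 =
        F0 * (diagonal b₀ * F0 * G0 * (F0 * diagonal b₀ * F0) * G0) := by
        simp only [Matrix.mul_assoc]
      rw [e8, trace_mul_comm]
      simp only [Matrix.mul_assoc]
    calc v ^ 2 * ((M * G0 * M) * (A₂ᵀ * (F2 * F2) * A₂)).trace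
        ≤ v ^ 2 * (v ^ 2 * s0) := by
          refine mul_le_mul_of_nonneg_left ?_ (by positivity)
          linarith
      _ = v ^ 4 * s0 := by ring
  have E2 : (Yᵀ * F1 * Y).trace ≤ v ^ 2 * s1 := by
    have hN : (F1 * diagonal b₁ * (G1 * F1 * G1) * diagonal b₁ * F1).PosSemidef := by
      have h := term_conj hP1 (F1 * diagonal b₁ * G1)
      have e : (F1 * diagonal b₁ * G1) * F1 * (F1 * diagonal b₁ * G1)ᵀ =
          F1 * diagonal b₁ * (G1 * F1 * G1) * diagonal b₁ * F1 := by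
        rw [transpose_mul, transpose_mul, diagonal_transpose, hF1, hh1t]
        simp only [Matrix.mul_assoc]
      rwa [e] at h
    have e1 : (Yᵀ * F1 * Y).trace = ((F1 * diagonal b₁ * (G1 * F1 * G1) * diagonal b₁ * F1) *
        (A₁ * (F2 * F2) * A₁ᵀ)).trace := by
      rw [hY]
      have e : (G1 * diagonal b₁ * F1 * A₁ * F2)ᵀ * F1 * (G1 * diagonal b₁ * F1 * A₁ * F2) =
          (F2 * A₁ᵀ) * (F1 * diagonal b₁ * (G1 * F1 * G1) * diagonal b₁ * F1 * A₁ * F2) := by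
        rw [transpose_mul, transpose_mul, transpose_mul, transpose_mul, diagonal_transpose, hF1,
          hF2, hh1t]
        simp only [Matrix.mul_assoc]
      rw [e, trace_mul_comm]
      simp only [Matrix.mul_assoc]
    rw [e1]
    have e5 : ((F1 * diagonal b₁ * (G1 * F1 * G1) * diagonal b₁ * F1) *
        (A₁ * (F2 * F2) * A₁ᵀ)).trace ≤ ((F1 * diagonal b₁ * (G1 * F1 * G1) * diagonal b₁ * F1) *
        (A₁ * F2 * A₁ᵀ)).trace := by
      apply term_tr_le hN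
      have h := term_conj hP2 A₁
      rw [Matrix.mul_sub, Matrix.sub_mul] at h
      exact h
    have e6 := term_tr_le hN p3
    have e7 : ((F1 * diagonal b₁ * (G1 * F1 * G1) * diagonal b₁ * F1) * (v ^ 2 • G1)).trace =
        v ^ 2 * s1 := by
      rw [Matrix.mul_smul, trace_smul, smul_eq_mul, hS1]
      congr 1
      have e8 : F1 * diagonal b₁ * (G1 * F1 * G1) * diagonal b₁ * F1 * G1 =
        F1 * (diagonal b₁ * (G1 * F1 * G1) * diagonal b₁ * F1 * G1) := by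
        simp only [Matrix.mul_assoc]
      rw [e8, trace_mul_comm]
      simp only [Matrix.mul_assoc]
    linarith
  have hfin : T ^ 2 ≤ (B * v ^ 3 * Real.sqrt s1 * Real.sqrt s0) ^ 2 := by
    have h1 : (B * v ^ 3 * Real.sqrt s1 * Real.sqrt s0) ^ 2 =
        (B ^ 2 * (v ^ 4 * s0)) * (v ^ 2 * s1) := by
      rw [mul_pow, mul_pow, mul_pow, Real.sq_sqrt hS1n, Real.sq_sqrt hS0n]
      ring
    rw [h1]
    refine hcs.trans (mul_le_mul E1 E2 ?_ (by positivity))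
    have h := (term_conj hP1 Yᵀ).trace_nonneg
    rwa [transpose_transpose] at h
  exact abs_le_of_sq_le_sq hfin (by positivity)

/-- the mirror image, `h` next to `A₁` (transpose and use `term_bound` for `A₁ᵀ, A₀ᵀ, A₂ᵀ`). -/
theorem term_bound' {v B : ℝ} (hv : 0 < v) (hB : 0 ≤ B) (A₀ : Matrix ι₀ ι₁ ℝ) (A₁ : Matrix ι₁ ι₂ ℝ)
    (A₂ : Matrix ι₂ ι₀ ℝ) (b₀ : ι₀ → ℝ) (b₁ : ι₁ → ℝ) (b₂ : ι₂ → ℝ) (hb₀ : ∀ k, |b₀ k| ≤ B)
    (H₀ : Matrix ι₀ ι₀ ℝ) (H₁ : Matrix ι₁ ι₁ ℝ) (H₂ : Matrix ι₂ ι₂ ℝ)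
    (h₀ : H₀ = A₂ᵀ * A₂ + A₀ * A₀ᵀ) (h₁ : H₁ = A₀ᵀ * A₀ + A₁ * A₁ᵀ) (h₂ : H₂ = A₁ᵀ * A₁ + A₂ * A₂ᵀ) :
    |(A₀ * (fop v H₁ * diagonal b₁ * (hop v H₁ * fop v H₁)) * A₁ *
        (fop v H₂ * diagonal b₂ * fop v H₂) * A₂ * (fop v H₀ * diagonal b₀ * fop v H₀)).trace| ≤
      B * v ^ 3 * Real.sqrt (S1 v H₁ b₁) * Real.sqrt (S0 v H₂ b₂) := by
  have hH₀ : H₀.PosSemidef := by rw [h₀]; exact (term_gram' A₂).add (term_gram A₀)
  have hH₁ : H₁.PosSemidef := by rw [h₁]; exact (term_gram' A₀).add (term_gram A₁)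
  have hH₂ : H₂.PosSemidef := by rw [h₂]; exact (term_gram' A₁).add (term_gram A₂)
  have key := term_bound hv hB A₁ᵀ A₀ᵀ A₂ᵀ b₂ b₁ b₀ hb₀ H₂ H₁ H₀
    (by rw [h₂, transpose_transpose, transpose_transpose, add_comm])
    (by rw [h₁, transpose_transpose, transpose_transpose, add_comm])
    (by rw [h₀, transpose_transpose, transpose_transpose, add_comm])
  have e : (A₀ * (fop v H₁ * diagonal b₁ * (hop v H₁ * fop v H₁)) * A₁ *
        (fop v H₂ * diagonal b₂ * fop v H₂) * A₂ * (fop v H₀ * diagonal b₀ * fop v H₀)).trace =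
      (A₁ᵀ * (fop v H₁ * hop v H₁ * diagonal b₁ * fop v H₁) * A₀ᵀ *
        (fop v H₀ * diagonal b₀ * fop v H₀) * A₂ᵀ *
        (fop v H₂ * diagonal b₂ * fop v H₂)).trace := by
    rw [← trace_transpose]
    have e1 : (A₀ * (fop v H₁ * diagonal b₁ * (hop v H₁ * fop v H₁)) * A₁ *
        (fop v H₂ * diagonal b₂ * fop v H₂) * A₂ * (fop v H₀ * diagonal b₀ * fop v H₀))ᵀ =
        (fop v H₀ * diagonal b₀ * fop v H₀ * A₂ᵀ * (fop v H₂ * diagonal b₂ * fop v H₂)) *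
        (A₁ᵀ * (fop v H₁ * hop v H₁ * diagonal b₁ * fop v H₁) * A₀ᵀ) := by
      simp only [transpose_mul, diagonal_transpose, fop_transpose hv hH₀, fop_transpose hv hH₁,
        fop_transpose hv hH₂, hop_transpose hv hH₁, Matrix.mul_assoc]
    rw [e1, trace_mul_comm]
    simp only [Matrix.mul_assoc]
  rw [e]
  exact key

end Crest.Agent.TH
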