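import Crest.Agent.TI_TRb

/-!
Row S0241, task AUT: distance transitivity of regular trees
-/

set_option autoImplicit false
set_option linter.unusedSectionVars false
set_option linter.unusedVariables false

namespace Crest.Agent.TI

open MeasureTheory Filter Topology
open Crest.Agent.SRF (Lab lab)

section AutAux

variable {V : Type*} {G : SimpleGraph V}

/-- a neighbour towards `a` -/
theorem aut_nbr_exists (hT : G.IsTree) {a y : V} (h : a ≠ y) :
    ∃ w, G.Adj w y ∧ G.dist a w + 1 = G.dist a y := by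
  obtain ⟨p, hp, hl⟩ := hT.connected.exists_path_of_dist a y
  have hnn : ¬ p.Nil := fun hn => h hn.eq
  refine ⟨p.penultimate, p.adj_penultimate hnn, ?_⟩
  have h1 : G.dist a p.penultimate ≤ p.dropLast.length := SimpleGraph.dist_le _
  have h2 : p.dropLast.length + 1 = p.length := by
    have := p.length_dropLast_add_one hnn
    exact this
  have h3 := (p.adj_penultimate hnn)
  rcases hT.dist_eq_dist_add_one_of_adj a h3 with h4 | h4
  · omega
  · omega

/-- in a tree the neighbour towards `a` is unique -/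
theorem aut_nbr_unique (hT : G.IsTree) {a y w w' : V} (h : G.Adj w y) (h' : G.Adj w' y)
    (hd : G.dist a w + 1 = G.dist a y) (hd' : G.dist a w' + 1 = G.dist a y) : w = w' := by
  obtain ⟨p, hp, hl⟩ := hT.connected.exists_path_of_dist a w
  obtain ⟨p', hp', hl'⟩ := hT.connected.exists_path_of_dist a w'
  have e1 : (p.concat h).IsPath := SimpleGraph.Walk.isPath_of_length_eq_dist _ (by
    rw [SimpleGraph.Walk.length_concat, hl, hd])
  have e2 : (p'.concat h').IsPath := SimpleGraph.Walk.isPath_of_length_eq_dist _ (by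
    rw [SimpleGraph.Walk.length_concat, hl', hd'])
  have e3 : p.concat h = p'.concat h' := (hT.existsUnique_path a y).unique e1 e2
  have e4 : (p.concat h).penultimate = (p'.concat h').penultimate := by rw [e3]
  simpa using e4

/-- `z` between `a` and `y`: then also between `a` and the neighbour of `y` towards `a` -/
theorem aut_between (hT : G.IsTree) {a z x y : V} (h : G.Adj x y) (hx : G.dist a x + 1 = G.dist a y)
    (hz : G.dist a z + G.dist z y = G.dist a y) (hne : z ≠ y) :
    G.dist a z + G.dist z x = G.dist a x ∧ G.dist z x + 1 = G.dist z y := by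
  obtain ⟨w, hw, hwd⟩ := aut_nbr_exists hT hne
  have h1 : G.dist a w ≤ G.dist a z + G.dist z w := hT.connected.dist_triangle
  have h2 : G.dist a w + 1 = G.dist a y := by
    rcases hT.dist_eq_dist_add_one_of_adj a hw with h4 | h4
    · omega
    · omega
  have h3 : w = x := aut_nbr_unique hT hw h h2 hx
  subst h3
  exact ⟨by omega, hwd⟩

/-- partial isometries between convex sets -/
structure AutGood (G : SimpleGraph V) (R : Set (V × V)) : Prop where
  iso : ∀ p ∈ R, ∀ q ∈ R, G.dist p.1 q.1 = G.dist p.2 q.2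
  conv1 : ∀ p ∈ R, ∀ q ∈ R, ∀ z, G.dist p.1 z + G.dist z q.1 = G.dist p.1 q.1 → ∃ z', (z, z') ∈ R
  conv2 : ∀ p ∈ R, ∀ q ∈ R, ∀ z, G.dist p.2 z + G.dist z q.2 = G.dist p.2 q.2 → ∃ z', (z', z) ∈ R

theorem aut_swap {R : Set (V × V)} (h : AutGood G R) : AutGood G (Prod.swap ⁻¹' R) where
  iso := by
    rintro ⟨a, b⟩ hp ⟨c, d⟩ hq
    exact (h.iso _ hp _ hq).symm
  conv1 := by
    rintro ⟨a, b⟩ hp ⟨c, d⟩ hq z hz
    exact h.conv2 _ hp _ hq z hz
  conv2 := by
    rintro ⟨a, b⟩ hp ⟨c, d⟩ hq z hz
    exact h.conv1 _ hp _ hq z hz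

theorem aut_far (hT : G.IsTree) {R : Set (V × V)} (hR : AutGood G R) {x x' y : V} (hx : (x, x') ∈ R)
    (hy : G.Adj x y) (hyn : ∀ z, (y, z) ∉ R) {c c' : V} (hc : (c, c') ∈ R) :
    G.dist c y = G.dist c x + 1 := by
  rcases hT.dist_eq_dist_add_one_of_adj c hy with h | h
  · exfalso
    have h1 : G.dist y x = 1 := SimpleGraph.dist_eq_one_iff_adj.mpr hy.symm
    obtain ⟨z', hz'⟩ := hR.conv1 _ hc _ hx y (by simp only; omega)
    exact hyn _ hz'
  · exact h

theorem aut_conv_insert (hT : G.IsTree) {R : Set (V × V)} (hR : AutGood G R) {x x' y : V}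
    (hx : (x, x') ∈ R) (hy : G.Adj x y) (hyn : ∀ z, (y, z) ∉ R) {c c' : V} (hc : (c, c') ∈ R) {z : V}
    (hz : G.dist c z + G.dist z y = G.dist c y) : z = y ∨ ∃ z', (z, z') ∈ R := by
  by_cases hzy : z = y
  · exact Or.inl hzy
  · right
    have h1 := aut_far hT hR hx hy hyn hc
    have h2 := aut_between hT hy h1.symm hz hzy
    exact hR.conv1 _ hc _ hx z h2.1

theorem aut_extend (hT : G.IsTree) {R : Set (V × V)} (hR : AutGood G R) {x x' y y' : V}
    (hx : (x, x') ∈ R) (hy : G.Adj x y) (hy' : G.Adj x' y') (hyn : ∀ z, (y, z) ∉ R)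
    (hyn' : ∀ z, (z, y') ∉ R) : AutGood G (insert (y, y') R) := by
  have hfar : ∀ {c c' : V}, (c, c') ∈ R → G.dist c y = G.dist c' y' := by
    intro c c' hc
    have h1 := aut_far hT hR hx hy hyn hc
    have h2 := aut_far hT (aut_swap hR) (x := x') (x' := x) hx hy' hyn' (c := c') (c' := c) hc
    have h3 := hR.iso _ hc _ hx
    simp only at h3
    omega
  refine ⟨?_, ?_, ?_⟩
  · rintro ⟨a, b⟩ hp ⟨c, d⟩ hq
    simp only [Set.mem_insert_iff, Prod.mk.injEq] at hp hq
    rcases hp with ⟨rfl, rfl⟩ | hp
    · rcases hq with ⟨rfl, rfl⟩ | hq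
      · simp
      · simp only
        rw [SimpleGraph.dist_comm, hfar hq, SimpleGraph.dist_comm]
    · rcases hq with ⟨rfl, rfl⟩ | hq
      · exact hfar hp
      · exact hR.iso _ hp _ hq
  · rintro ⟨a, b⟩ hp ⟨c, d⟩ hq z hz
    simp only [Set.mem_insert_iff, Prod.mk.injEq] at hp hq ⊢
    simp only at hz
    have key : z = y ∨ ∃ z', (z, z') ∈ R := by
      rcases hp with ⟨rfl, rfl⟩ | hp
      · rcases hq with ⟨rfl, rfl⟩ | hq
        · left
          have : G.dist c z = 0 := by
            have h0 : G.dist c c = 0 := SimpleGraph.dist_self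
            omega
          exact ((hT.connected.dist_eq_zero_iff).mp this).symm
        · refine aut_conv_insert hT hR hx hy hyn hq ?_
          rw [SimpleGraph.dist_comm (u := c) (v := z), SimpleGraph.dist_comm (u := z) (v := a),
            SimpleGraph.dist_comm (u := c) (v := a)]
          omega
      · rcases hq with ⟨rfl, rfl⟩ | hq
        · exact aut_conv_insert hT hR hx hy hyn hp hz
        · right
          exact hR.conv1 _ hp _ hq z hz
    rcases key with rfl | ⟨z', hz'⟩
    · exact ⟨y', Or.inl ⟨rfl, rfl⟩⟩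
    · exact ⟨z', Or.inr hz'⟩
  · rintro ⟨a, b⟩ hp ⟨c, d⟩ hq z hz
    simp only [Set.mem_insert_iff, Prod.mk.injEq] at hp hq ⊢
    simp only at hz
    have hS := aut_swap hR
    have key : z = y' ∨ ∃ z', (z', z) ∈ R := by
      rcases hp with ⟨rfl, rfl⟩ | hp
      · rcases hq with ⟨rfl, rfl⟩ | hq
        · left
          have : G.dist d z = 0 := by
            have h0 : G.dist d d = 0 := SimpleGraph.dist_self
            omega
          exact ((hT.connected.dist_eq_zero_iff).mp this).symm
        · refine aut_conv_insert hT hS (x := x') (x' := x) (y := b) hx hy' hyn' (c := d) (c' := c) hq ?_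
          rw [SimpleGraph.dist_comm (u := d) (v := z), SimpleGraph.dist_comm (u := z) (v := b),
            SimpleGraph.dist_comm (u := d) (v := b)]
          omega
      · rcases hq with ⟨rfl, rfl⟩ | hq
        · exact aut_conv_insert hT hS (x := x') (x' := x) (y := d) hx hy' hyn' (c := b) (c' := a) hp hz
        · right
          exact hR.conv2 _ hp _ hq z hz
    rcases key with rfl | ⟨z', hz'⟩
    · exact ⟨y, Or.inl ⟨rfl, rfl⟩⟩
    · exact ⟨z', Or.inr hz'⟩

/-- base relation: contains the two pairs -/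
theorem aut_base (hT : G.IsTree) (v v' : V) : ∀ (n : ℕ) (u u' : V), G.dist v u = n →
    G.dist v' u' = n → ∃ R : Set (V × V), AutGood G R ∧ (v, v') ∈ R ∧ (u, u') ∈ R ∧
      (∀ p ∈ R, G.dist v p.1 ≤ n ∧ G.dist v' p.2 ≤ n) := by
  intro n
  induction n with
  | zero =>
    intro u u' hu hu'
    have e1 : v = u := (hT.connected.dist_eq_zero_iff).mp hu
    have e2 : v' = u' := (hT.connected.dist_eq_zero_iff).mp hu'
    subst e1 e2
    refine ⟨{(v, v')}, ⟨?_, ?_, ?_⟩, rfl, rfl, ?_⟩
    · rintro p hp q hq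
      rw [Set.mem_singleton_iff] at hp hq
      subst hp hq
      simp
    · rintro p hp q hq z hz
      rw [Set.mem_singleton_iff] at hp hq
      subst hp hq
      simp only [SimpleGraph.dist_self] at hz
      have : v = z := (hT.connected.dist_eq_zero_iff).mp (by omega)
      subst this
      exact ⟨v', rfl⟩
    · rintro p hp q hq z hz
      rw [Set.mem_singleton_iff] at hp hq
      subst hp hq
      simp only [SimpleGraph.dist_self] at hz
      have : v' = z := (hT.connected.dist_eq_zero_iff).mp (by omega)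
      subst this
      exact ⟨v, rfl⟩
    · rintro p hp
      rw [Set.mem_singleton_iff] at hp
      subst hp
      simp
  | succ n ih =>
    intro u u' hu hu'
    have hne : v ≠ u := by
      rintro rfl
      simp at hu
    have hne' : v' ≠ u' := by
      rintro rfl
      simp at hu'
    obtain ⟨w, hw, hwd⟩ := aut_nbr_exists hT hne
    obtain ⟨w', hw', hwd'⟩ := aut_nbr_exists hT hne'
    obtain ⟨R, hR, hv, hwR, hb⟩ := ih w w' (by omega) (by omega)
    refine ⟨insert (u, u') R, aut_extend hT hR hwR hw hw' ?_ ?_, Set.mem_insert_of_mem _ hv,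
      Set.mem_insert _ _, ?_⟩
    · intro z hz
      have := (hb _ hz).1
      simp only at this
      omega
    · intro z hz
      have := (hb _ hz).2
      simp only at this
      omega
    · rintro p hp
      rcases Set.mem_insert_iff.mp hp with rfl | hp
      · simp only
        omega
      · have := hb p hp
        omega

theorem aut_func (hT : G.IsTree) {R : Set (V × V)} (hR : AutGood G R) {a b c : V}
    (h1 : (a, b) ∈ R) (h2 : (a, c) ∈ R) : b = c := by
  have := hR.iso _ h1 _ h2
  simp only [SimpleGraph.dist_self] at this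
  exact (hT.connected.dist_eq_zero_iff).mp this.symm

theorem aut_maximal (hT : G.IsTree) {R : Set (V × V)} (hR : AutGood G R) :
    ∃ M : Set (V × V), R ⊆ M ∧ Maximal (AutGood G) M := by
  have := zorn_subset_nonempty {S | AutGood G S} ?_ R hR
  · exact this
  · intro c hc hchain hne
    refine ⟨⋃₀ c, ?_, fun s hs => Set.subset_sUnion_of_mem hs⟩
    have common : ∀ p ∈ ⋃₀ c, ∀ q ∈ ⋃₀ c, ∃ S ∈ c, p ∈ S ∧ q ∈ S := by
      rintro p ⟨S, hS, hp⟩ q ⟨S', hS', hq⟩
      rcases hchain.total hS hS' with h | h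
      · exact ⟨S', hS', h hp, hq⟩
      · exact ⟨S, hS, hp, h hq⟩
    refine ⟨?_, ?_, ?_⟩
    · intro p hp q hq
      obtain ⟨S, hS, h1, h2⟩ := common p hp q hq
      exact (hc hS).iso p h1 q h2
    · intro p hp q hq z hz
      obtain ⟨S, hS, h1, h2⟩ := common p hp q hq
      obtain ⟨z', hz'⟩ := (hc hS).conv1 p h1 q h2 z hz
      exact ⟨z', S, hS, hz'⟩
    · intro p hp q hq z hz
      obtain ⟨S, hS, h1, h2⟩ := common p hp q hq
      obtain ⟨z', hz'⟩ := (hc hS).conv2 p h1 q h2 z hz
      exact ⟨z', S, hS, hz'⟩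

/-- domain of a maximal partial isometry is closed under neighbours -/
theorem aut_nbr_closed [G.LocallyFinite] (hT : G.IsTree) (d : ℕ) (hreg : G.IsRegularOfDegree d)
    {M : Set (V × V)} (hM : Maximal (AutGood G) M) {x x' y : V} (hx : (x, x') ∈ M) (hy : G.Adj x y) :
    ∃ y', (y, y') ∈ M := by
  classical
  by_contra hcon
  push Not at hcon
  -- a neighbour of x' outside of the range
  have hex : ∃ y', G.Adj x' y' ∧ ∀ z, (z, y') ∉ M := by
    by_contra hno
    push Not at hno
    -- choose preimages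
    choose! f hf using hno
    have hmaps : ∀ w ∈ G.neighborFinset x', f w ∈ (G.neighborFinset x).erase y := by
      intro w hw
      rw [SimpleGraph.mem_neighborFinset] at hw
      have h1 := hf w hw
      rw [Finset.mem_erase, SimpleGraph.mem_neighborFinset]
      refine ⟨?_, ?_⟩
      · intro h2
        rw [h2] at h1
        exact hcon _ h1
      · have h3 := hM.prop.iso _ hx _ h1
        simp only at h3
        rw [← SimpleGraph.dist_eq_one_iff_adj] at hw ⊢
        omega
    have hinj : Set.InjOn f (G.neighborFinset x' : Set V) := by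
      intro w hw w' hw' heq
      simp only [SimpleGraph.coe_neighborFinset, SimpleGraph.mem_neighborSet] at hw hw'
      have h1 := hf w hw
      have h2 := hf w' hw'
      rw [heq] at h1
      exact aut_func hT hM.prop h1 h2
    have hcard := Finset.card_le_card_of_injOn f hmaps hinj
    rw [Finset.card_erase_of_mem (by simpa using hy), SimpleGraph.card_neighborFinset_eq_degree,
      SimpleGraph.card_neighborFinset_eq_degree, hreg x, hreg x'] at hcard
    have hpos : 0 < G.degree x := by
      rw [SimpleGraph.degree_pos_iff_exists_adj]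
      exact ⟨y, hy⟩
    rw [hreg x] at hpos
    omega
  obtain ⟨y', hy', hyn'⟩ := hex
  have hext := aut_extend hT hM.prop hx hy hy' hcon hyn'
  have := hM.le_of_ge hext (Set.subset_insert _ _)
  exact hcon y' (this (Set.mem_insert _ _))

theorem aut_maximal_swap {M : Set (V × V)} (hM : Maximal (AutGood G) M) :
    Maximal (AutGood G) (Prod.swap ⁻¹' M) := by
  refine ⟨aut_swap hM.prop, ?_⟩
  intro N hN hle
  have h1 := aut_swap hN
  have h2 : M ⊆ Prod.swap ⁻¹' N := by
    intro p hp
    have : p.swap ∈ Prod.swap ⁻¹' M := by simpa using hp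
    exact hle this
  have h3 := hM.le_of_ge h1 h2
  intro p hp
  have : p.swap ∈ Prod.swap ⁻¹' N := by simpa using hp
  exact h3 this

theorem aut_total [G.LocallyFinite] (hT : G.IsTree) (d : ℕ) (hreg : G.IsRegularOfDegree d)
    {M : Set (V × V)} (hM : Maximal (AutGood G) M) {x x' : V} (hx : (x, x') ∈ M) (y : V) :
    ∃ y', (y, y') ∈ M := by
  obtain ⟨p⟩ := hT.connected x y
  induction p generalizing x' with
  | nil => exact ⟨x', hx⟩
  | cons h p ih =>
    obtain ⟨y', hy'⟩ := aut_nbr_closed hT d hreg hM hx h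
    exact ih hy'

end AutAux

theorem dist_transitive {V : Type*} {G : SimpleGraph V} [G.LocallyFinite] (hT : G.IsTree) (d : ℕ)
    (hreg : G.IsRegularOfDegree d) (v u v' u' : V) (h : G.dist v u = G.dist v' u') :
    ∃ g : G ≃g G, g v = v' ∧ g u = u' := by
  obtain ⟨R, hR, hv, hu, -⟩ := aut_base hT v v' (G.dist v u) u u' rfl h.symm
  obtain ⟨M, hRM, hM⟩ := aut_maximal hT hR
  have hMs := aut_maximal_swap hM
  have h1 : ∀ y, ∃ y', (y, y') ∈ M := fun y => aut_total hT d hreg hM (hRM hv) y
  have h2 : ∀ y, ∃ y', (y', y) ∈ M := fun y =>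
    aut_total hT d hreg hMs (x := v') (x' := v) (hRM hv) y
  choose f hf using h1
  choose k hk using h2
  have hkf : ∀ y, k (f y) = y := fun y =>
    aut_func hT hMs.prop (a := f y) (hk (f y)) (hf y)
  have hfk : ∀ y, f (k y) = y := fun y => aut_func hT hM.prop (hf (k y)) (hk y)
  refine ⟨⟨⟨f, k, hkf, hfk⟩, ?_⟩, ?_, ?_⟩
  · intro a b
    simp only [Equiv.coe_fn_mk]
    rw [← SimpleGraph.dist_eq_one_iff_adj, ← SimpleGraph.dist_eq_one_iff_adj]
    have := hM.prop.iso _ (hf a) _ (hf b)
    simp only at this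
    rw [this]
  · exact aut_func hT hM.prop (hf v) (hRM hv)
  · exact aut_func hT hM.prop (hf u) (hRM hu)

end Crest.Agent.TI
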