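import Crest.Agent.TI_Defs

/-!
Row S0241, task RAa: real analysis of the two-spin model
-/

set_option autoImplicit false
set_option linter.unusedSectionVars false
set_option linter.unusedVariables false

namespace Crest.Agent.TI

open MeasureTheory Filter Topology
open Crest.Agent.SRF (Lab lab)

/-! ### task RA : real analysis -/

section RA

/-- basic facts about the two-spin model -/
theorem pair_facts (θ κ a b : ℝ) (h0 : 0 ≤ θ) (h1 : θ < 1) (hk0 : 0 ≤ κ) (hκ : κ < 1)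
    (ha : |a| ≤ κ) (hb : |b| ≤ κ) :
    ∃ c mx my D : ℝ, mx = (a + θ * b) / (1 + θ * (a * b)) ∧ my = (b + θ * a) / (1 + θ * (a * b)) ∧
      |mx| ≤ 1 ∧ |my| ≤ 1 ∧ |c| ≤ 1 ∧
      (1 - θ) ^ 2 * ((1 + c) ^ 2 - (mx + my) ^ 2) =
        (1 + θ) ^ 2 * ((1 - c) ^ 2 - (mx - my) ^ 2) ∧
      D = (1 - θ) * (1 + mx + my + c) + (1 + θ) * (1 - mx + my - c) ∧
      a * D = (1 - θ) * (1 + mx + my + c) - (1 + θ) * (1 - mx + my - c) ∧
      (1 - θ) * (1 - κ) ≤ D := by
  have ha1 := (abs_le.mp ha).1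
  have ha2 := (abs_le.mp ha).2
  have hb1 := (abs_le.mp hb).1
  have hb2 := (abs_le.mp hb).2
  have hab : |a * b| < 1 := by
    rw [abs_mul]
    nlinarith [abs_nonneg a, abs_nonneg b]
  have hab1 := (abs_lt.mp hab).1
  have hab2 := (abs_lt.mp hab).2
  have hZ : 0 < 1 + θ * (a * b) := by nlinarith
  have hZ2 : 1 + θ * (a * b) ≤ 2 := by nlinarith
  refine ⟨(θ + a * b) / (1 + θ * (a * b)), (a + θ * b) / (1 + θ * (a * b)),
    (b + θ * a) / (1 + θ * (a * b)), 2 * (1 - θ ^ 2) * (1 + b) / (1 + θ * (a * b)), rfl, rfl,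
    ?_, ?_, ?_, ?_, ?_, ?_, ?_⟩
  · rw [abs_div, abs_of_pos hZ, div_le_one hZ, abs_le]
    constructor
    · nlinarith [mul_nonneg (mul_nonneg h0 (by linarith : (0:ℝ) ≤ 1 + a)) (by linarith : (0:ℝ) ≤ 1 + b),
        mul_nonneg (by linarith : (0:ℝ) ≤ 1 - θ) (by linarith : (0:ℝ) ≤ 1 + a),
        mul_nonneg (by linarith : (0:ℝ) ≤ 1 + a) (by linarith : (0:ℝ) ≤ 1 + b)]
    · nlinarith [mul_nonneg (mul_nonneg h0 (by linarith : (0:ℝ) ≤ 1 - a)) (by linarith : (0:ℝ) ≤ 1 - b),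
        mul_nonneg (by linarith : (0:ℝ) ≤ 1 - θ) (by linarith : (0:ℝ) ≤ 1 - a),
        mul_nonneg (by linarith : (0:ℝ) ≤ 1 - a) (by linarith : (0:ℝ) ≤ 1 - b)]
  · rw [abs_div, abs_of_pos hZ, div_le_one hZ, abs_le]
    constructor
    · nlinarith [mul_nonneg (mul_nonneg h0 (by linarith : (0:ℝ) ≤ 1 + a)) (by linarith : (0:ℝ) ≤ 1 + b),
        mul_nonneg (by linarith : (0:ℝ) ≤ 1 - θ) (by linarith : (0:ℝ) ≤ 1 + b),
        mul_nonneg (by linarith : (0:ℝ) ≤ 1 + a) (by linarith : (0:ℝ) ≤ 1 + b)]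
    · nlinarith [mul_nonneg (mul_nonneg h0 (by linarith : (0:ℝ) ≤ 1 - a)) (by linarith : (0:ℝ) ≤ 1 - b),
        mul_nonneg (by linarith : (0:ℝ) ≤ 1 - θ) (by linarith : (0:ℝ) ≤ 1 - b),
        mul_nonneg (by linarith : (0:ℝ) ≤ 1 - a) (by linarith : (0:ℝ) ≤ 1 - b)]
  · rw [abs_div, abs_of_pos hZ, div_le_one hZ, abs_le]
    constructor
    · nlinarith [mul_nonneg (by linarith : (0:ℝ) ≤ 1 + θ) (by linarith : (0:ℝ) ≤ 1 + a * b)]
    · nlinarith [mul_nonneg (by linarith : (0:ℝ) ≤ 1 - θ) (by linarith : (0:ℝ) ≤ 1 - a * b)]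
  · obtain ⟨Z, hZd⟩ : ∃ Z, Z = 1 + θ * (a * b) := ⟨_, rfl⟩
    rw [← hZd] at hZ ⊢
    have hZn : Z ≠ 0 := hZ.ne'
    field_simp
    rw [hZd]
    ring
  · obtain ⟨Z, hZd⟩ : ∃ Z, Z = 1 + θ * (a * b) := ⟨_, rfl⟩
    rw [← hZd] at hZ ⊢
    have hZn : Z ≠ 0 := hZ.ne'
    field_simp
    rw [hZd]
    ring
  · obtain ⟨Z, hZd⟩ : ∃ Z, Z = 1 + θ * (a * b) := ⟨_, rfl⟩
    rw [← hZd] at hZ ⊢
    have hZn : Z ≠ 0 := hZ.ne'
    field_simp
    rw [hZd]
    ring
  · rw [le_div_iff₀ hZ]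
    have h2 : 0 ≤ (1 - θ) * (1 - κ) := mul_nonneg (by linarith) (by linarith)
    calc (1 - θ) * (1 - κ) * (1 + θ * (a * b)) ≤ (1 - θ) * (1 - κ) * 2 :=
          mul_le_mul_of_nonneg_left hZ2 h2
      _ ≤ 2 * (1 - θ ^ 2) * (1 + b) := by
          have h3 : 1 - κ ≤ 1 + b := by linarith
          have h4 : (1 - θ) * 1 ≤ (1 - θ) * (1 + θ) :=
            mul_le_mul_of_nonneg_left (by linarith) (by linarith)
          have h5 : (1 - θ) * (1 - κ) ≤ ((1 - θ) * (1 + θ)) * (1 + b) :=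
            mul_le_mul (by linarith) h3 (by linarith)
              (mul_nonneg (by linarith) (by linarith))
          nlinarith

theorem sq_diff_le (x y : ℝ) (hx : |x| ≤ 2) (hy : |y| ≤ 2) : |x ^ 2 - y ^ 2| ≤ 4 := by
  have h1 : x ^ 2 ≤ 4 := by
    rw [← sq_abs]
    calc |x| ^ 2 ≤ 2 ^ 2 := pow_le_pow_left₀ (abs_nonneg _) hx 2
      _ = 4 := by norm_num
  have h2 : y ^ 2 ≤ 4 := by
    rw [← sq_abs]
    calc |y| ^ 2 ≤ 2 ^ 2 := pow_le_pow_left₀ (abs_nonneg _) hy 2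
      _ = 4 := by norm_num
  rw [abs_le]
  constructor
  · linarith [sq_nonneg x]
  · linarith [sq_nonneg y]

/-- Lipschitz inversion of the two-spin model -/
theorem pair_lip (θ1 κ : ℝ) (h1 : θ1 < 1) (hκ : κ < 1) : ∃ C : ℝ, 0 < C ∧
    ∀ θ θ' a b a' b' : ℝ, 0 ≤ θ → θ ≤ θ1 → 0 ≤ θ' → θ' ≤ θ1 → |a| ≤ κ → |b| ≤ κ → |a'| ≤ κ → |b'| ≤ κ →
      |a - a'| ≤ C * (|(a + θ * b) / (1 + θ * (a * b)) - (a' + θ' * b') / (1 + θ' * (a' * b'))| +
        |(b + θ * a) / (1 + θ * (a * b)) - (b' + θ' * a') / (1 + θ' * (a' * b'))| + |θ - θ'|) := by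
  set e : ℝ := 1 - θ1 with he
  have he0 : 0 < e := by rw [he]; linarith
  have hk1 : 0 < 1 - κ := by linarith
  refine ⟨(16 + 6 * (1 + 12 / e ^ 2)) / (e * (1 - κ)), by positivity, ?_⟩
  intro θ θ' a b a' b' h0 hθ h0' hθ' ha hb ha' hb'
  have hk0 : 0 ≤ κ := (abs_nonneg a).trans ha
  obtain ⟨c, mx, my, D, hmx, hmy, bmx, bmy, bc, hF, hD, haD, hDl⟩ :=
    pair_facts θ κ a b h0 (by linarith) hk0 hκ ha hb
  obtain ⟨c', mx', my', D', hmx', hmy', bmx', bmy', bc', hF', hD', haD', hDl'⟩ :=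
    pair_facts θ' κ a' b' h0' (by linarith) hk0 hκ ha' hb'
  rw [← hmx, ← hmy, ← hmx', ← hmy']
  have ex : 0 ≤ |mx - mx'| := abs_nonneg _
  have ey : 0 ≤ |my - my'| := abs_nonneg _
  have et : 0 ≤ |θ - θ'| := abs_nonneg _
  set X := |mx - mx'| with hX
  set Y := |my - my'| with hY
  set T := |θ - θ'| with hT
  have h01 : θ < 1 := by linarith
  have h01' : θ' < 1 := by linarith
  have hm := abs_le.mp bmx
  have hm' := abs_le.mp bmx'
  have hn := abs_le.mp bmy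
  have hn' := abs_le.mp bmy'
  have hc := abs_le.mp bc
  have hc' := abs_le.mp bc'
  -- the correlation
  have hK : 4 * e ^ 2 ≤ (1 - θ) ^ 2 * (2 + c + c') + (1 + θ) ^ 2 * (2 - c - c') := by
    have h2 : e ^ 2 ≤ (1 - θ) ^ 2 := pow_le_pow_left₀ he0.le (by rw [he]; linarith) 2
    have h3 : (1 - θ) ^ 2 ≤ (1 + θ) ^ 2 := pow_le_pow_left₀ (by linarith) (by linarith) 2
    have h4 : (1 - θ) ^ 2 * (2 - c - c') ≤ (1 + θ) ^ 2 * (2 - c - c') :=
      mul_le_mul_of_nonneg_right h3 (by linarith)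
    calc 4 * e ^ 2 ≤ 4 * (1 - θ) ^ 2 := by linarith
      _ = (1 - θ) ^ 2 * (2 + c + c') + (1 - θ) ^ 2 * (2 - c - c') := by ring
      _ ≤ _ := by linarith
  have hdc : |c - c'| * (4 * e ^ 2) ≤ 20 * (X + Y) + 48 * T := by
    have e1 : (c - c') * ((1 - θ) ^ 2 * (2 + c + c') + (1 + θ) ^ 2 * (2 - c - c')) =
        (1 - θ) ^ 2 * ((mx + my + (mx' + my')) * ((mx - mx') + (my - my'))) -
        (1 + θ) ^ 2 * ((mx - my + (mx' - my')) * ((mx - mx') - (my - my'))) +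
        ((θ - θ') * ((2 - θ - θ') * ((1 + c') ^ 2 - (mx' + my') ^ 2)) +
          (θ - θ') * ((2 + θ + θ') * ((1 - c') ^ 2 - (mx' - my') ^ 2))) := by
      linear_combination hF - hF'
    have e2 : |(1 - θ) ^ 2 * ((mx + my + (mx' + my')) * ((mx - mx') + (my - my')))| ≤
        4 * (X + Y) := by
      rw [abs_mul, abs_mul]
      have t1 : |(1 - θ) ^ 2| ≤ 1 := by
        rw [abs_of_nonneg (sq_nonneg _)]
        exact pow_le_one₀ (by linarith) (by linarith)
      have t2 : |mx + my + (mx' + my')| ≤ 4 := by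
        rw [abs_le]; constructor <;> linarith
      have t3 : |(mx - mx') + (my - my')| ≤ X + Y := abs_add_le _ _
      calc |(1 - θ) ^ 2| * (|mx + my + (mx' + my')| * |(mx - mx') + (my - my')|)
          ≤ 1 * (4 * (X + Y)) := by gcongr
        _ = _ := by ring
    have e3 : |(1 + θ) ^ 2 * ((mx - my + (mx' - my')) * ((mx - mx') - (my - my')))| ≤
        16 * (X + Y) := by
      rw [abs_mul, abs_mul]
      have t1 : |(1 + θ) ^ 2| ≤ 4 := by
        rw [abs_of_nonneg (sq_nonneg _)]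
        calc (1 + θ) ^ 2 ≤ 2 ^ 2 := pow_le_pow_left₀ (by linarith) (by linarith) 2
          _ = 4 := by norm_num
      have t2 : |mx - my + (mx' - my')| ≤ 4 := by
        rw [abs_le]; constructor <;> linarith
      have t3 : |(mx - mx') - (my - my')| ≤ X + Y := abs_sub _ _
      calc |(1 + θ) ^ 2| * (|mx - my + (mx' - my')| * |(mx - mx') - (my - my')|)
          ≤ 4 * (4 * (X + Y)) := by gcongr
        _ = _ := by ring
    have e4 : |(θ - θ') * ((2 - θ - θ') * ((1 + c') ^ 2 - (mx' + my') ^ 2))| ≤ 16 * T := by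
      rw [abs_mul, abs_mul]
      have t1 : |2 - θ - θ'| ≤ 2 := by rw [abs_le]; constructor <;> linarith
      have t2 : |(1 + c') ^ 2 - (mx' + my') ^ 2| ≤ 4 := by
        apply sq_diff_le <;> rw [abs_le] <;> constructor <;> linarith
      calc |θ - θ'| * (|2 - θ - θ'| * |(1 + c') ^ 2 - (mx' + my') ^ 2|)
          ≤ |θ - θ'| * (2 * 4) := by gcongr
        _ ≤ _ := by rw [← hT]; linarith
    have e5 : |(θ - θ') * ((2 + θ + θ') * ((1 - c') ^ 2 - (mx' - my') ^ 2))| ≤ 16 * T := by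
      rw [abs_mul, abs_mul]
      have t1 : |2 + θ + θ'| ≤ 4 := by rw [abs_le]; constructor <;> linarith
      have t2 : |(1 - c') ^ 2 - (mx' - my') ^ 2| ≤ 4 := by
        apply sq_diff_le <;> rw [abs_le] <;> constructor <;> linarith
      calc |θ - θ'| * (|2 + θ + θ'| * |(1 - c') ^ 2 - (mx' - my') ^ 2|)
          ≤ |θ - θ'| * (4 * 4) := by gcongr
        _ ≤ _ := by rw [← hT]; linarith
    have e6 : |(c - c') * ((1 - θ) ^ 2 * (2 + c + c') + (1 + θ) ^ 2 * (2 - c - c'))| ≤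
        20 * (X + Y) + 48 * T := by
      rw [e1]
      have s1 := abs_add_le ((1 - θ) ^ 2 * ((mx + my + (mx' + my')) * ((mx - mx') + (my - my'))) -
        (1 + θ) ^ 2 * ((mx - my + (mx' - my')) * ((mx - mx') - (my - my'))))
        ((θ - θ') * ((2 - θ - θ') * ((1 + c') ^ 2 - (mx' + my') ^ 2)) +
          (θ - θ') * ((2 + θ + θ') * ((1 - c') ^ 2 - (mx' - my') ^ 2)))
      have s2 := abs_sub ((1 - θ) ^ 2 * ((mx + my + (mx' + my')) * ((mx - mx') + (my - my'))))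
        ((1 + θ) ^ 2 * ((mx - my + (mx' - my')) * ((mx - mx') - (my - my'))))
      have s3 := abs_add_le ((θ - θ') * ((2 - θ - θ') * ((1 + c') ^ 2 - (mx' + my') ^ 2)))
          ((θ - θ') * ((2 + θ + θ') * ((1 - c') ^ 2 - (mx' - my') ^ 2)))
      linarith
    rw [abs_mul] at e6
    calc |c - c'| * (4 * e ^ 2)
        ≤ |c - c'| * |(1 - θ) ^ 2 * (2 + c + c') + (1 + θ) ^ 2 * (2 - c - c')| := by
          apply mul_le_mul_of_nonneg_left _ (abs_nonneg _)
          exact hK.trans (le_abs_self _)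
      _ ≤ _ := e6
  have hdc' : |c - c'| ≤ (12 / e ^ 2) * (X + Y + T) := by
    have : |c - c'| ≤ (20 * (X + Y) + 48 * T) / (4 * e ^ 2) := by
      rw [le_div_iff₀ (by positivity)]; exact hdc
    refine this.trans ?_
    rw [div_le_iff₀ (by positivity)]
    have : 12 / e ^ 2 * (X + Y + T) * (4 * e ^ 2) = 48 * (X + Y + T) := by
      field_simp
      ring
    rw [this]
    linarith
  -- numerators and denominators
  set S := X + Y + |c - c'| with hS
  have hA : |(1 - θ) * (1 + mx + my + c) - (1 - θ') * (1 + mx' + my' + c')| ≤ S + 4 * T := by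
    have e1 : (1 - θ) * (1 + mx + my + c) - (1 - θ') * (1 + mx' + my' + c') =
      (1 - θ) * ((mx - mx') + (my - my') + (c - c')) - (θ - θ') * (1 + mx' + my' + c') := by ring
    rw [e1]
    have s1 := abs_sub ((1 - θ) * ((mx - mx') + (my - my') + (c - c')))
      ((θ - θ') * (1 + mx' + my' + c'))
    have s2 : |(1 - θ) * ((mx - mx') + (my - my') + (c - c'))| ≤ 1 * S := by
      rw [abs_mul]
      have t1 : |1 - θ| ≤ 1 := by rw [abs_le]; constructor <;> linarith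
      have t2 : |(mx - mx') + (my - my') + (c - c')| ≤ S := by
        rw [hS]; exact abs_add_three _ _ _
      exact mul_le_mul t1 t2 (abs_nonneg _) (by norm_num)
    have s3 : |(θ - θ') * (1 + mx' + my' + c')| ≤ T * 4 := by
      rw [abs_mul]
      have t2 : |1 + mx' + my' + c'| ≤ 4 := by rw [abs_le]; constructor <;> linarith
      exact mul_le_mul le_rfl t2 (abs_nonneg _) et
    linarith
  have hB : |(1 + θ) * (1 - mx + my - c) - (1 + θ') * (1 - mx' + my' - c')| ≤ 2 * S + 4 * T := by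
    have e1 : (1 + θ) * (1 - mx + my - c) - (1 + θ') * (1 - mx' + my' - c') =
      (1 + θ) * (-(mx - mx') + (my - my') + -(c - c')) + (θ - θ') * (1 - mx' + my' - c') := by ring
    rw [e1]
    have s1 := abs_add_le ((1 + θ) * (-(mx - mx') + (my - my') + -(c - c')))
      ((θ - θ') * (1 - mx' + my' - c'))
    have s2 : |(1 + θ) * (-(mx - mx') + (my - my') + -(c - c'))| ≤ 2 * S := by
      rw [abs_mul]
      have t1 : |1 + θ| ≤ 2 := by rw [abs_le]; constructor <;> linarith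
      have t2 : |-(mx - mx') + (my - my') + -(c - c')| ≤ S := by
        rw [hS, hX, ← abs_neg (mx - mx'), ← abs_neg (c - c')]
        exact abs_add_three _ _ _
      exact mul_le_mul t1 t2 (abs_nonneg _) (by norm_num)
    have s3 : |(θ - θ') * (1 - mx' + my' - c')| ≤ T * 4 := by
      rw [abs_mul]
      have t2 : |1 - mx' + my' - c'| ≤ 4 := by rw [abs_le]; constructor <;> linarith
      exact mul_le_mul le_rfl t2 (abs_nonneg _) et
    linarith
  have hda : |a - a'| * D ≤ 6 * S + 16 * T := by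
    have hDpos : 0 < D := lt_of_lt_of_le (mul_pos (by linarith) hk1) hDl
    have e1 : (a - a') * D = ((1 - θ) * (1 + mx + my + c) - (1 - θ') * (1 + mx' + my' + c')) -
        ((1 + θ) * (1 - mx + my - c) - (1 + θ') * (1 - mx' + my' - c')) -
        a' * (((1 - θ) * (1 + mx + my + c) - (1 - θ') * (1 + mx' + my' + c')) +
        ((1 + θ) * (1 - mx + my - c) - (1 + θ') * (1 - mx' + my' - c'))) := by
      have : a' * D' = a' * D - a' * (D - D') := by ring
      rw [hD, hD'] at *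
      linear_combination haD - haD'
    set A := (1 - θ) * (1 + mx + my + c) - (1 - θ') * (1 + mx' + my' + c') with hAdef
    set B := (1 + θ) * (1 - mx + my - c) - (1 + θ') * (1 - mx' + my' - c') with hBdef
    have e2 : |(a - a') * D| ≤ |A| + |B| + 1 * (|A| + |B|) := by
      rw [e1]
      have s1 := abs_sub (A - B) (a' * (A + B))
      have s2 := abs_sub A B
      have s3 : |a' * (A + B)| ≤ 1 * (|A| + |B|) := by
        rw [abs_mul]
        exact mul_le_mul (by linarith) (abs_add_le _ _) (abs_nonneg _) (by norm_num)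
      linarith
    rw [abs_mul, abs_of_pos hDpos] at e2
    linarith
  have hfin : |a - a'| * (e * (1 - κ)) ≤ 6 * S + 16 * T := by
    refine le_trans ?_ hda
    apply mul_le_mul_of_nonneg_left _ (abs_nonneg _)
    refine le_trans ?_ hDl
    exact mul_le_mul_of_nonneg_right (by rw [he]; linarith) hk1.le
  have hden : 0 < e * (1 - κ) := mul_pos he0 hk1
  have hfin2 : |a - a'| ≤ (6 * S + 16 * T) / (e * (1 - κ)) := by
    rw [le_div_iff₀ hden]; exact hfin
  refine hfin2.trans ?_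
  rw [div_mul_eq_mul_div]
  apply div_le_div_of_nonneg_right _ hden.le
  have hS2 : S ≤ (X + Y + T) + (12 / e ^ 2) * (X + Y + T) := by
    rw [hS]; linarith
  have : (16 + 6 * (1 + 12 / e ^ 2)) * (X + Y + T) =
    16 * (X + Y + T) + 6 * ((X + Y + T) + (12 / e ^ 2) * (X + Y + T)) := by ring
  rw [this]
  linarith

theorem abs_log_sub_log_le (m x y : ℝ) (hm : 0 < m) (hx : m ≤ x) (hy : m ≤ y) :
    |Real.log x - Real.log y| ≤ |x - y| / m := by
  have key : ∀ x y : ℝ, m ≤ x → m ≤ y → Real.log x - Real.log y ≤ |x - y| / m := by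
    intro x y hx hy
    have hx0 : 0 < x := hm.trans_le hx
    have hy0 : 0 < y := hm.trans_le hy
    rw [← Real.log_div hx0.ne' hy0.ne']
    have h1 : Real.log (x / y) ≤ x / y - 1 := Real.log_le_sub_one_of_pos (div_pos hx0 hy0)
    have h2 : x / y - 1 = (x - y) / y := by field_simp
    rw [h2] at h1
    refine h1.trans ?_
    rw [div_le_div_iff₀ hy0 hm]
    calc (x - y) * m ≤ |x - y| * m := mul_le_mul_of_nonneg_right (le_abs_self _) hm.le
      _ ≤ |x - y| * y := mul_le_mul_of_nonneg_left hy (abs_nonneg _)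
  rw [abs_le]
  constructor
  · have := key y x hy hx
    rw [abs_sub_comm] at this
    linarith
  · exact key x y hx hy

theorem ff_lip (κ : ℝ) (hκ : κ < 1) : ∃ C : ℝ, 0 < C ∧
    ∀ θ θ' B B' δ : ℝ, 0 ≤ θ → θ ≤ 1 → 0 ≤ θ' → θ' ≤ 1 → |B| ≤ κ → |B'| ≤ κ → |B| ≤ δ → |B'| ≤ δ →
      |ff θ B - ff θ' B'| ≤ C * (δ * |B - B'| + |θ - θ'|) := by
  by_cases hk : 0 ≤ κ
  swap
  · refine ⟨1, one_pos, ?_⟩
    intro θ θ' B B' δ _ _ _ _ hB
    exact absurd ((abs_nonneg B).trans hB) hk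
  have hm : 0 < 1 - κ ^ 2 := by nlinarith
  refine ⟨4 / (1 - κ ^ 2), by positivity, ?_⟩
  intro θ θ' B B' δ h0 h1 h0' h1' hB hB' hBd hBd'
  have hδ : 0 ≤ δ := (abs_nonneg B).trans hBd
  have sB : B ^ 2 ≤ κ ^ 2 := by rw [← sq_abs B]; exact pow_le_pow_left₀ (abs_nonneg _) hB 2
  have sB' : B' ^ 2 ≤ κ ^ 2 := by rw [← sq_abs B']; exact pow_le_pow_left₀ (abs_nonneg _) hB' 2
  have tθ : θ ^ 2 ≤ 1 := by nlinarith
  have tθ' : θ' ^ 2 ≤ 1 := by nlinarith
  have a1 : 1 - κ ^ 2 ≤ 1 - B ^ 2 := by linarith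
  have a1' : 1 - κ ^ 2 ≤ 1 - B' ^ 2 := by linarith
  have a2 : 1 - κ ^ 2 ≤ 1 - θ ^ 2 * B ^ 2 := by nlinarith [sq_nonneg B]
  have a2' : 1 - κ ^ 2 ≤ 1 - θ' ^ 2 * B' ^ 2 := by nlinarith [sq_nonneg B']
  have e1 : ff θ B = Real.log (1 - θ ^ 2 * B ^ 2) - Real.log (1 - B ^ 2) := by
    unfold ff
    rw [Real.log_div (by linarith) (by linarith)]
  have e2 : ff θ' B' = Real.log (1 - θ' ^ 2 * B' ^ 2) - Real.log (1 - B' ^ 2) := by
    unfold ff
    rw [Real.log_div (by linarith) (by linarith)]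
  have l1 := abs_log_sub_log_le _ _ _ hm a2 a2'
  have l2 := abs_log_sub_log_le _ _ _ hm a1 a1'
  have q1 : |(1 - B ^ 2) - (1 - B' ^ 2)| ≤ 2 * (δ * |B - B'|) := by
    have : (1 - B ^ 2) - (1 - B' ^ 2) = -((B + B') * (B - B')) := by ring
    rw [this, abs_neg, abs_mul]
    have : |B + B'| ≤ 2 * δ := by
      have := abs_add_le B B'
      linarith
    calc |B + B'| * |B - B'| ≤ 2 * δ * |B - B'| := mul_le_mul_of_nonneg_right this (abs_nonneg _)
      _ = _ := by ring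
  have q2 : |(1 - θ ^ 2 * B ^ 2) - (1 - θ' ^ 2 * B' ^ 2)| ≤ 2 * (δ * |B - B'|) + 2 * |θ - θ'| := by
    have : (1 - θ ^ 2 * B ^ 2) - (1 - θ' ^ 2 * B' ^ 2) =
      θ ^ 2 * ((1 - B ^ 2) - (1 - B' ^ 2)) + (-(B' ^ 2) * ((θ + θ') * (θ - θ'))) := by ring
    rw [this]
    refine (abs_add_le _ _).trans ?_
    have r1 : |θ ^ 2 * ((1 - B ^ 2) - (1 - B' ^ 2))| ≤ 1 * (2 * (δ * |B - B'|)) := by
      rw [abs_mul, abs_of_nonneg (sq_nonneg θ)]
      exact mul_le_mul tθ q1 (abs_nonneg _) (by norm_num)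
    have r2 : |-(B' ^ 2) * ((θ + θ') * (θ - θ'))| ≤ 1 * (2 * |θ - θ'|) := by
      rw [abs_mul, abs_neg, abs_of_nonneg (sq_nonneg B'), abs_mul]
      refine mul_le_mul (by nlinarith) ?_ (by positivity) (by norm_num)
      apply mul_le_mul_of_nonneg_right _ (abs_nonneg _)
      rw [abs_of_nonneg (by linarith)]
      linarith
    linarith
  rw [e1, e2]
  have : Real.log (1 - θ ^ 2 * B ^ 2) - Real.log (1 - B ^ 2) -
      (Real.log (1 - θ' ^ 2 * B' ^ 2) - Real.log (1 - B' ^ 2)) =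
      (Real.log (1 - θ ^ 2 * B ^ 2) - Real.log (1 - θ' ^ 2 * B' ^ 2)) -
      (Real.log (1 - B ^ 2) - Real.log (1 - B' ^ 2)) := by ring
  rw [this]
  refine (abs_sub _ _).trans ?_
  have : 4 / (1 - κ ^ 2) * (δ * |B - B'| + |θ - θ'|) =
    (4 * (δ * |B - B'|) + 4 * |θ - θ'|) / (1 - κ ^ 2) := by ring
  rw [this]
  refine (add_le_add l1 l2).trans ?_
  rw [← add_div]
  apply div_le_div_of_nonneg_right _ hm.le
  have := abs_nonneg (θ - θ')
  linarith

theorem ff_nonneg (θ B : ℝ) (h0 : 0 ≤ θ) (h1 : θ ≤ 1) (hB : |B| < 1) : 0 ≤ ff θ B := by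
  unfold ff
  apply Real.log_nonneg
  have hB2 : B ^ 2 < 1 := by
    rw [← sq_abs]
    nlinarith [abs_nonneg B]
  rw [one_le_div (by linarith)]
  nlinarith [sq_nonneg B, mul_nonneg (sq_nonneg B) (by nlinarith : (0:ℝ) ≤ 1 - θ ^ 2)]

theorem exp_neg_ff (θ B : ℝ) (h0 : 0 ≤ θ) (h1 : θ ≤ 1) (hB : |B| < 1) :
    Real.exp (-ff θ B) = psi θ B := by
  unfold ff psi
  have hB2 : B ^ 2 < 1 := by
    rw [← sq_abs]
    nlinarith [abs_nonneg B]
  have h2 : 0 < 1 - θ ^ 2 * B ^ 2 := by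
    nlinarith [sq_nonneg B, mul_nonneg (sq_nonneg B) (by nlinarith : (0:ℝ) ≤ 1 - θ ^ 2)]
  rw [Real.exp_neg, Real.exp_log (div_pos h2 (by linarith)), inv_div]

/-- `f_θ` is convex on every `[-κ, κ]`, `κ < 1` -/
theorem ff_convex (θ κ : ℝ) (h0 : 0 ≤ θ) (h1 : θ ≤ 1) (hκ : κ < 1) :
    ConvexOn ℝ (Set.Icc (-κ) κ) (ff θ) := by
  -- work with the explicit sum of logs
  have hmem : ∀ x ∈ Set.Icc (-κ) κ, 0 < 1 - x ∧ 0 < 1 + x ∧ 0 < 1 - θ * x ∧ 0 < 1 + θ * x := by
    intro x hx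
    have hx1 := hx.1
    have hx2 := hx.2
    have p1 : 0 < 1 - x := by linarith
    have p2 : 0 < 1 + x := by linarith
    refine ⟨p1, p2, ?_, ?_⟩
    · nlinarith [mul_nonneg h0 p1.le]
    · nlinarith [mul_nonneg h0 p2.le]
  have heq : ∀ x ∈ Set.Icc (-κ) κ, ff θ x =
      Real.log (1 - θ * x) + Real.log (1 + θ * x) - Real.log (1 - x) - Real.log (1 + x) := by
    intro x hx
    obtain ⟨p1, p2, p3, p4⟩ := hmem x hx
    unfold ff
    have e1 : 1 - θ ^ 2 * x ^ 2 = (1 - θ * x) * (1 + θ * x) := by ring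
    have e2 : 1 - x ^ 2 = (1 - x) * (1 + x) := by ring
    rw [e1, e2, Real.log_div (by positivity) (by positivity), Real.log_mul p3.ne' p4.ne',
      Real.log_mul p1.ne' p2.ne']
    ring
  have hconv : ConvexOn ℝ (Set.Icc (-κ) κ) (fun x =>
      Real.log (1 - θ * x) + Real.log (1 + θ * x) - Real.log (1 - x) - Real.log (1 + x)) := by
    have hd : ∀ x ∈ Set.Icc (-κ) κ, HasDerivAt (fun x =>
        Real.log (1 - θ * x) + Real.log (1 + θ * x) - Real.log (1 - x) - Real.log (1 + x))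
        (-θ / (1 - θ * x) + θ / (1 + θ * x) - (-1) / (1 - x) - 1 / (1 + x)) x := by
      intro x hx
      obtain ⟨p1, p2, p3, p4⟩ := hmem x hx
      have d1 : HasDerivAt (fun x : ℝ => 1 - θ * x) (-θ) x := by
        simpa using ((hasDerivAt_id x).const_mul θ).const_sub 1
      have d2 : HasDerivAt (fun x : ℝ => 1 + θ * x) θ x := by
        simpa using ((hasDerivAt_id x).const_mul θ).const_add 1
      have d3 : HasDerivAt (fun x : ℝ => 1 - x) (-1) x := by
        simpa using (hasDerivAt_id x).const_sub 1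
      have d4 : HasDerivAt (fun x : ℝ => 1 + x) 1 x := by
        simpa using (hasDerivAt_id x).const_add 1
      exact (((d1.log p3.ne').add (d2.log p4.ne')).sub (d3.log p1.ne')).sub (d4.log p2.ne')
    have hd2 : ∀ x ∈ Set.Icc (-κ) κ, HasDerivAt (fun x =>
        -θ / (1 - θ * x) + θ / (1 + θ * x) - (-1) / (1 - x) - 1 / (1 + x))
        ((1 / (1 - x) ^ 2 - θ ^ 2 / (1 - θ * x) ^ 2) + (1 / (1 + x) ^ 2 - θ ^ 2 / (1 + θ * x) ^ 2)) x := by
      intro x hx
      obtain ⟨p1, p2, p3, p4⟩ := hmem x hx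
      have d1 : HasDerivAt (fun x : ℝ => 1 - θ * x) (-θ) x := by
        simpa using ((hasDerivAt_id x).const_mul θ).const_sub 1
      have d2 : HasDerivAt (fun x : ℝ => 1 + θ * x) θ x := by
        simpa using ((hasDerivAt_id x).const_mul θ).const_add 1
      have d3 : HasDerivAt (fun x : ℝ => 1 - x) (-1) x := by
        simpa using (hasDerivAt_id x).const_sub 1
      have d4 : HasDerivAt (fun x : ℝ => 1 + x) 1 x := by
        simpa using (hasDerivAt_id x).const_add 1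
      have := ((((hasDerivAt_const x (-θ)).div d1 p3.ne').add
        ((hasDerivAt_const x θ).div d2 p4.ne')).sub
        ((hasDerivAt_const x (-1 : ℝ)).div d3 p1.ne')).sub
        ((hasDerivAt_const x (1 : ℝ)).div d4 p2.ne')
      refine HasDerivAt.congr_deriv this ?_
      field_simp
      ring
    refine convexOn_of_hasDerivWithinAt2_nonneg (convex_Icc _ _)
      (f' := fun x => -θ / (1 - θ * x) + θ / (1 + θ * x) - (-1) / (1 - x) - 1 / (1 + x))
      (f'' := fun x => (1 / (1 - x) ^ 2 - θ ^ 2 / (1 - θ * x) ^ 2) +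
        (1 / (1 + x) ^ 2 - θ ^ 2 / (1 + θ * x) ^ 2)) ?_ ?_ ?_ ?_
    · exact fun x hx => (hd x hx).continuousAt.continuousWithinAt
    · exact fun x hx => (hd x (interior_subset hx)).hasDerivWithinAt
    · exact fun x hx => (hd2 x (interior_subset hx)).hasDerivWithinAt
    · intro x hx
      obtain ⟨p1, p2, p3, p4⟩ := hmem x (interior_subset hx)
      have r1 : θ ^ 2 / (1 - θ * x) ^ 2 ≤ 1 / (1 - x) ^ 2 := by
        rw [← div_pow, ← one_div_pow]
        apply pow_le_pow_left₀ (by positivity)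
        rw [div_le_div_iff₀ p3 p1]
        nlinarith
      have r2 : θ ^ 2 / (1 + θ * x) ^ 2 ≤ 1 / (1 + x) ^ 2 := by
        rw [← div_pow, ← one_div_pow]
        apply pow_le_pow_left₀ (by positivity)
        rw [div_le_div_iff₀ p4 p2]
        nlinarith
      linarith
  exact hconv.congr (fun x hx => (heq x hx).symm)

end RA

end Crest.Agent.TI
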