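import Crest.Agent.TI_InfDefs
import Crest.Agent.TI_Aut
import Crest.Agent.TI_RAa

/-!
Row S0241, task FldA: elementary properties of the covariances of an equivariant family
-/

set_option autoImplicit false
set_option linter.unusedSectionVars false
set_option linter.unusedVariables false

namespace Crest.Agent.TI

open MeasureTheory Filter Topology
open Crest.Agent.SRF (Lab lab)


section FLD

variable {V : Type*} [DecidableEq V] {G : SimpleGraph V} [G.LocallyFinite]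

theorem fldA_dist_iso (hT : G.IsTree) (g : G ≃g G) (v u : V) : G.dist (g v) (g u) = G.dist v u := by
  apply le_antisymm
  · obtain ⟨p, hp⟩ := hT.connected.exists_walk_length_eq_dist v u
    rw [← hp, ← SimpleGraph.Walk.length_map g.toHom p]
    exact SimpleGraph.dist_le _
  · obtain ⟨p, hp⟩ := hT.connected.exists_walk_length_eq_dist (g v) (g u)
    have h := SimpleGraph.dist_le (p.map g.symm.toHom)
    rw [SimpleGraph.Walk.length_map, hp] at h
    have e1 : g.symm.toHom (g v) = v := g.symm_apply_apply v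
    have e2 : g.symm.toHom (g u) = u := g.symm_apply_apply u
    rwa [e1, e2] at h

theorem fldA_geo_dist {x : ℕ → V} {n : ℕ} (hx : Geo G x n) : G.dist (x 0) (x n) = n := by
  have := hx 0 n (Nat.zero_le _) le_rfl
  simpa using this

theorem fldA_geo_iso (hT : G.IsTree) (g : G ≃g G) {x : ℕ → V} {n : ℕ} (hx : Geo G x n) :
    Geo G (fun i => g (x i)) n := by
  intro i j hij hj
  show G.dist (g (x i)) (g (x j)) = j - i
  rw [fldA_dist_iso hT g]
  exact hx i j hij hj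

theorem pth_specA (hT : G.IsTree) (v u : V) : pth G v u 0 = v ∧ pth G v u (G.dist v u) = u ∧
    Geo G (pth G v u) (G.dist v u) := by
  have h := geo_exists hT v u
  unfold pth
  rw [dif_pos h]
  exact h.choose_spec

/-- the covariance along any geodesic -/
theorem kf_path (hT : G.IsTree) (θ : ℝ) (m : V → Om V → ℝ) (B : V → V → Om V → ℝ) (x : ℕ → V) (n : ℕ)
    (hx : Geo G x n) (ω : Om V) : Kf G θ m B (x 0) (x n) ω =
      (1 - m (x 0) ω ^ 2) * ∏ i ∈ Finset.range n, (θ * psi θ (B (x (i + 1)) (x i) ω)) := by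
  unfold Kf
  obtain ⟨h0, h1, h2⟩ := pth_specA hT (x 0) (x n)
  have hd := fldA_geo_dist hx
  rw [hd] at h1 h2 ⊢
  have key := geo_unique hT h2 hx h0 h1
  congr 1
  apply Finset.prod_congr rfl
  intro i hi
  rw [Finset.mem_range] at hi
  rw [key i hi.le, key (i + 1) hi]

theorem fldA_measurable_psi (θ : ℝ) : Measurable (psi θ) := by
  unfold psi
  fun_prop

theorem fldA_measurable_ff (θ : ℝ) : Measurable (ff θ) := by
  unfold ff
  fun_prop

theorem measurable_Kf {κ θ : ℝ} {m : V → Om V → ℝ} {B : V → V → Om V → ℝ} (hF : Fld G κ θ m B)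
    (v u : V) : Measurable (Kf G θ m B v u) := by
  unfold Kf
  refine Measurable.mul ?_ ?_
  · exact measurable_const.sub ((hF.meas_m v).pow_const 2)
  · refine Finset.measurable_prod _ fun i _ => ?_
    exact measurable_const.mul ((fldA_measurable_psi θ).comp (hF.meas_B _ _))

theorem fldA_psi_bounds {θ B : ℝ} (h0 : 0 ≤ θ) (h1 : θ ≤ 1) (hB : |B| < 1) :
    0 ≤ psi θ B ∧ psi θ B ≤ 1 := by
  have hB2 : B ^ 2 < 1 := by
    rw [← sq_abs]
    nlinarith [abs_nonneg B]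
  have hθ2 : θ ^ 2 ≤ 1 := by nlinarith
  have h2 : θ ^ 2 * B ^ 2 ≤ B ^ 2 := by nlinarith [sq_nonneg B]
  have hd : 0 < 1 - θ ^ 2 * B ^ 2 := by linarith
  unfold psi
  constructor
  · apply div_nonneg
    · linarith
    · exact hd.le
  · rw [div_le_one hd]
    linarith

theorem kf_bound {κ θ : ℝ} {m : V → Om V → ℝ} {B : V → V → Om V → ℝ} (hF : Fld G κ θ m B)
    (hκ : κ < 1) (h0 : 0 ≤ θ) (h1 : θ ≤ 1) (v u : V) (ω : Om V) :
    0 ≤ Kf G θ m B v u ω ∧ Kf G θ m B v u ω ≤ θ ^ (G.dist v u) := by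
  have hm : m v ω ^ 2 ≤ 1 := by
    rw [← sq_abs]
    have := hF.bdd_m v ω
    nlinarith [abs_nonneg (m v ω)]
  have hps : ∀ x y, 0 ≤ θ * psi θ (B x y ω) ∧ θ * psi θ (B x y ω) ≤ θ := by
    intro x y
    obtain ⟨ha, hb⟩ := fldA_psi_bounds h0 h1 (lt_of_le_of_lt (hF.bdd_B x y ω) hκ)
    exact ⟨mul_nonneg h0 ha, by nlinarith⟩
  unfold Kf
  have hp0 : 0 ≤ ∏ i ∈ Finset.range (G.dist v u),
      (θ * psi θ (B (pth G v u (i + 1)) (pth G v u i) ω)) :=
    Finset.prod_nonneg fun i _ => (hps _ _).1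
  have hp1 : ∏ i ∈ Finset.range (G.dist v u),
      (θ * psi θ (B (pth G v u (i + 1)) (pth G v u i) ω)) ≤ θ ^ (G.dist v u) := by
    have := Finset.prod_le_prod (s := Finset.range (G.dist v u))
      (f := fun i => θ * psi θ (B (pth G v u (i + 1)) (pth G v u i) ω)) (g := fun _ => θ)
      (fun i _ => (hps _ _).1) (fun i _ => (hps _ _).2)
    simpa using this
  constructor
  · exact mul_nonneg (by linarith) hp0
  · calc _ ≤ 1 * ∏ i ∈ Finset.range (G.dist v u),
      (θ * psi θ (B (pth G v u (i + 1)) (pth G v u i) ω)) :=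
        mul_le_mul_of_nonneg_right (by nlinarith [sq_nonneg (m v ω)]) hp0
      _ ≤ _ := by rw [one_mul]; exact hp1

/-- Markov property: factorisation at an intermediate vertex -/
theorem kf_mul (hT : G.IsTree) (θ : ℝ) (m : V → Om V → ℝ) (B : V → V → Om V → ℝ) (x : ℕ → V) (n j : ℕ)
    (hx : Geo G x n) (hj : j ≤ n) (ω : Om V) :
    Kf G θ m B (x 0) (x n) ω * (1 - m (x j) ω ^ 2) =
      Kf G θ m B (x 0) (x j) ω * Kf G θ m B (x j) (x n) ω := by
  have h1 := kf_path hT θ m B x n hx ω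
  have hxj : Geo G x j := fun a b hab hb => hx a b hab (hb.trans hj)
  have h2 := kf_path hT θ m B x j hxj ω
  have h3 := kf_path hT θ m B (fun i => x (j + i)) (n - j) (geo_shift hx j (n - j) (by omega)) ω
  simp only [add_zero] at h3
  have e : j + (n - j) = n := by omega
  rw [e] at h3
  rw [h1, h2, h3]
  have h4 : ∏ i ∈ Finset.range n, (θ * psi θ (B (x (i + 1)) (x i) ω)) =
      (∏ i ∈ Finset.range j, (θ * psi θ (B (x (i + 1)) (x i) ω))) *
        ∏ i ∈ Finset.range (n - j), (θ * psi θ (B (x (j + (i + 1))) (x (j + i)) ω)) := by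
    conv_lhs => rw [← e, Finset.prod_range_add]
    rfl
  rw [h4]
  ring

/-- the symmetric form of the covariance of an edge -/
theorem fldA_edge {κ θ : ℝ} (hκ : κ < 1) (h0 : 0 ≤ θ) (h1 : θ ≤ 1) (a b mx my : ℝ) (ha : |a| ≤ κ)
    (hb : |b| ≤ κ) (hx : mx = (a + θ * b) / (1 + θ * (a * b)))
    (hy : my = (b + θ * a) / (1 + θ * (b * a))) :
    (1 - mx ^ 2) * psi θ b = (1 - my ^ 2) * psi θ a := by
  have hκ0 : 0 ≤ κ := (abs_nonneg a).trans ha
  have ha1 : |a| < 1 := lt_of_le_of_lt ha hκ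
  have hb1 : |b| < 1 := lt_of_le_of_lt hb hκ
  have hab : |a * b| < 1 := by
    rw [abs_mul]
    nlinarith [abs_nonneg a, abs_nonneg b]
  have hab' := abs_lt.mp hab
  have hZ : 0 < 1 + θ * (a * b) := by nlinarith
  have hZ' : 0 < 1 + θ * (b * a) := by rw [mul_comm b a]; exact hZ
  have hsq : ∀ t : ℝ, |t| < 1 → 0 < 1 - θ ^ 2 * t ^ 2 := by
    intro t ht
    have ht2 : t ^ 2 < 1 := by
      rw [← sq_abs]
      nlinarith [abs_nonneg t]
    have hθ2 : θ ^ 2 ≤ 1 := by nlinarith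
    nlinarith [sq_nonneg t]
  have hda := hsq a ha1
  have hdb := hsq b hb1
  unfold psi
  rw [hx, hy]
  have e1 : 1 - ((a + θ * b) / (1 + θ * (a * b))) ^ 2 =
      (1 - a ^ 2) * (1 - θ ^ 2 * b ^ 2) / (1 + θ * (a * b)) ^ 2 := by
    rw [div_pow, eq_div_iff (pow_ne_zero 2 hZ.ne'), sub_mul,
      div_mul_cancel₀ _ (pow_ne_zero 2 hZ.ne')]
    ring
  have e2 : 1 - ((b + θ * a) / (1 + θ * (b * a))) ^ 2 =
      (1 - b ^ 2) * (1 - θ ^ 2 * a ^ 2) / (1 + θ * (a * b)) ^ 2 := by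
    rw [mul_comm b a, div_pow, eq_div_iff (pow_ne_zero 2 hZ.ne'), sub_mul,
      div_mul_cancel₀ _ (pow_ne_zero 2 hZ.ne')]
    ring
  rw [e1, e2, div_mul_div_comm, div_mul_div_comm, div_eq_div_iff
    (mul_pos (pow_pos hZ 2) hdb).ne' (mul_pos (pow_pos hZ 2) hda).ne']
  ring

theorem kf_symm (hT : G.IsTree) {κ θ : ℝ} {m : V → Om V → ℝ} {B : V → V → Om V → ℝ}
    (hF : Fld G κ θ m B) (hκ : κ < 1) (h0 : 0 ≤ θ) (h1 : θ ≤ 1) (v u : V) :
    ∀ᵐ ω ∂PP V, Kf G θ m B v u ω = Kf G θ m B u v ω := by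
  obtain ⟨x, hx0, hxn, hx⟩ := geo_exists hT v u
  set n := G.dist v u with hn
  have hedge : ∀ i : ℕ, ∀ᵐ ω ∂PP V, i < n →
      (1 - m (x i) ω ^ 2) * psi θ (B (x (i + 1)) (x i) ω) =
        (1 - m (x (i + 1)) ω ^ 2) * psi θ (B (x i) (x (i + 1)) ω) := by
    intro i
    by_cases hi : i < n
    · have hadj := geo_adj hx i hi
      filter_upwards [hF.pair _ _ hadj, hF.pair _ _ hadj.symm] with ω h2 h3 _
      exact fldA_edge hκ h0 h1 (B (x i) (x (i + 1)) ω) (B (x (i + 1)) (x i) ω) _ _ (hF.bdd_B _ _ _)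
        (hF.bdd_B _ _ _) h2 h3
    · exact Filter.Eventually.of_forall fun ω h => absurd h hi
  filter_upwards [ae_all_iff.2 hedge] with ω hω
  have e1 := kf_path hT θ m B x n hx ω
  have e2 := kf_path hT θ m B (fun i => x (n - i)) n (geo_rev hx) ω
  simp only [Nat.sub_self, Nat.sub_zero] at e2
  rw [hx0, hxn] at e1 e2
  rw [e1, e2]
  have e3 : ∏ i ∈ Finset.range n, (θ * psi θ (B (x (n - (i + 1))) (x (n - i)) ω)) =
      ∏ i ∈ Finset.range n, (θ * psi θ (B (x i) (x (i + 1)) ω)) := by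
    rw [← Finset.prod_range_reflect]
    apply Finset.prod_congr rfl
    intro i hi
    rw [Finset.mem_range] at hi
    have h3 : n - (n - 1 - i + 1) = i := by omega
    have h4 : n - (n - 1 - i) = i + 1 := by omega
    rw [h3, h4]
  rw [e3]
  have key : ∀ j, j ≤ n →
      (1 - m (x 0) ω ^ 2) * ∏ i ∈ Finset.range j, (θ * psi θ (B (x (i + 1)) (x i) ω)) =
        (1 - m (x j) ω ^ 2) * ∏ i ∈ Finset.range j, (θ * psi θ (B (x i) (x (i + 1)) ω)) := by
    intro j
    induction j with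
    | zero => intro _; simp
    | succ j ih =>
      intro hj
      have h5 := ih (by omega)
      rw [Finset.prod_range_succ, Finset.prod_range_succ, ← mul_assoc, h5]
      have h6 := hω j (by omega)
      linear_combination (θ * ∏ i ∈ Finset.range j, (θ * psi θ (B (x i) (x (i + 1)) ω))) * h6
  have := key n le_rfl
  rw [hx0, hxn] at this
  exact this

theorem kf_eqv (hT : G.IsTree) {κ θ : ℝ} {m : V → Om V → ℝ} {B : V → V → Om V → ℝ}
    (hF : Fld G κ θ m B) (g : G ≃g G) (v u : V) :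
    (fun ω => Kf G θ m B (g v) (g u) ω) =ᵐ[PP V] fun ω => Kf G θ m B v u (act g.toEquiv ω) := by
  obtain ⟨x, hx0, hxn, hx⟩ := geo_exists hT v u
  set n := G.dist v u with hn
  have hedge : ∀ i : ℕ, ∀ᵐ ω ∂PP V, i < n →
      B (g (x (i + 1))) (g (x i)) ω = B (x (i + 1)) (x i) (act g.toEquiv ω) := by
    intro i
    by_cases hi : i < n
    · have hadj := geo_adj hx i hi
      filter_upwards [hF.eqv_B g _ _ hadj.symm] with ω h2 _
      exact h2
    · exact Filter.Eventually.of_forall fun ω h => absurd h hi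
  filter_upwards [ae_all_iff.2 hedge, hF.eqv_m g v] with ω hω hm
  have e1 := kf_path hT θ m B x n hx (act g.toEquiv ω)
  have e2 := kf_path hT θ m B (fun i => g (x i)) n (fldA_geo_iso hT g hx) ω
  rw [hx0, hxn] at e1 e2
  rw [e1, e2, hm]
  congr 1
  apply Finset.prod_congr rfl
  intro i hi
  rw [Finset.mem_range] at hi
  rw [hω i hi]

theorem fldA_integral_act (g : V ≃ V) (F : Om V → ℝ) (hF : Measurable F) :
    ∫ ω, F (act g ω) ∂PP V = ∫ ω, F ω ∂PP V := by
  have h := integral_map (μ := PP V) (measurable_act g).aemeasurable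
    (f := F) hF.aestronglyMeasurable
  rw [map_act] at h
  exact h.symm

/-- expectations do not depend on the vertex -/
theorem Z_const (hT : G.IsTree) (b : ℕ) (hreg : G.IsRegularOfDegree (b + 1)) {κ θ θ' : ℝ}
    {m m' : V → Om V → ℝ} {B B' : V → V → Om V → ℝ} (hF : Fld G κ θ m B) (hF' : Fld G κ θ' m' B')
    (v v' : V) : ∫ ω, (m v ω - m' v ω) ^ 2 ∂PP V = ∫ ω, (m v' ω - m' v' ω) ^ 2 ∂PP V := by
  obtain ⟨g, hg, -⟩ := dist_transitive hT (b + 1) hreg v v v' v' (by simp)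
  have h1 : ∫ ω, (m v' ω - m' v' ω) ^ 2 ∂PP V =
      ∫ ω, (m v (act g.toEquiv ω) - m' v (act g.toEquiv ω)) ^ 2 ∂PP V := by
    apply integral_congr_ae
    filter_upwards [hF.eqv_m g v, hF'.eqv_m g v] with ω h2 h3
    rw [← hg, h2, h3]
  rw [h1]
  exact (fldA_integral_act g.toEquiv (fun ω => (m v ω - m' v ω) ^ 2)
    (((hF.meas_m v).sub (hF'.meas_m v)).pow_const 2)).symm

theorem a_const (hT : G.IsTree) (b : ℕ) (hreg : G.IsRegularOfDegree (b + 1)) {κ θ : ℝ}
    {m : V → Om V → ℝ} {B : V → V → Om V → ℝ} (hF : Fld G κ θ m B) (x y x' y' : V) (h : G.Adj x y)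
    (h' : G.Adj x' y') : ∫ ω, ff θ (B x y ω) ∂PP V = ∫ ω, ff θ (B x' y' ω) ∂PP V := by
  obtain ⟨g, hg, hg'⟩ := dist_transitive hT (b + 1) hreg x y x' y'
    (by rw [SimpleGraph.dist_eq_one_iff_adj.2 h, SimpleGraph.dist_eq_one_iff_adj.2 h'])
  have h1 : ∫ ω, ff θ (B x' y' ω) ∂PP V = ∫ ω, ff θ (B x y (act g.toEquiv ω)) ∂PP V := by
    apply integral_congr_ae
    filter_upwards [hF.eqv_B g x y h] with ω h2
    rw [← hg, ← hg', h2]
  rw [h1]
  exact (fldA_integral_act g.toEquiv (fun ω => ff θ (B x y ω))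
    ((fldA_measurable_ff θ).comp (hF.meas_B x y))).symm

theorem G2_const (hT : G.IsTree) (b : ℕ) (hreg : G.IsRegularOfDegree (b + 1)) {κ θ θ' : ℝ}
    {m m' : V → Om V → ℝ} {B B' : V → V → Om V → ℝ} (hF : Fld G κ θ m B) (hF' : Fld G κ θ' m' B')
    (x y x' y' : V) (h : G.Adj x y) (h' : G.Adj x' y') :
    ∫ ω, (ff θ (B x y ω) - ff θ' (B' x y ω)) ^ 2 ∂PP V =
      ∫ ω, (ff θ (B x' y' ω) - ff θ' (B' x' y' ω)) ^ 2 ∂PP V := by
  obtain ⟨g, hg, hg'⟩ := dist_transitive hT (b + 1) hreg x y x' y'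
    (by rw [SimpleGraph.dist_eq_one_iff_adj.2 h, SimpleGraph.dist_eq_one_iff_adj.2 h'])
  have h1 : ∫ ω, (ff θ (B x' y' ω) - ff θ' (B' x' y' ω)) ^ 2 ∂PP V =
      ∫ ω, (ff θ (B x y (act g.toEquiv ω)) - ff θ' (B' x y (act g.toEquiv ω))) ^ 2 ∂PP V := by
    apply integral_congr_ae
    filter_upwards [hF.eqv_B g x y h, hF'.eqv_B g x y h] with ω h2 h3
    rw [← hg, ← hg', h2, h3]
  rw [h1]
  exact (fldA_integral_act g.toEquiv (fun ω => (ff θ (B x y ω) - ff θ' (B' x y ω)) ^ 2)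
    ((((fldA_measurable_ff θ).comp (hF.meas_B x y)).sub
      ((fldA_measurable_ff θ').comp (hF'.meas_B x y))).pow_const 2)).symm

end FLD

end Crest.Agent.TI
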