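import Crest.Agent.TI_Evt

/-!
Row S0241, task JEN: closeness of observations; Jensen
-/

set_option autoImplicit false
set_option linter.unusedSectionVars false
set_option linter.unusedVariables false

namespace Crest.Agent.TI

open MeasureTheory Filter Topology
open Crest.Agent.SRF (Lab lab)

section SCH

variable {V : Type*} [DecidableEq V]

seal Zs in
theorem measurable_Zs_at (p : Finset V → ℝ) (W : Finset V) (v : V) (k : ℕ) :
    Measurable (fun ω : Om V => (Zs p W (tU ω) (tL ω) (v, k) : ℝ)) := by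
  have h1 : Measurable (fun ω : Om V => (tU ω, tL ω)) := measurable_tU.prodMk measurable_tL
  have h0 : Measurable (fun q : Lab V × Lab V => Zs p W q.1 q.2 (v, k)) :=
    measurable_pi_iff.1 (measurable_Zs2 p W) (v, k)
  have h2 : Measurable (fun q : Lab V × Lab V => (Zs p W q.1 q.2 (v, k) : ℝ)) :=
    measurable_subtype_coe.comp h0
  exact h2.comp h1

/-- closeness of the observations -/
theorem obs_close {p p' : Finset V → ℝ} {W W' : Finset V} (hp : IsMass p W) (hp' : IsMass p' W')
    (v : V) (hv : v ∈ W) (hv' : v ∈ W') (k : ℕ) :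
    ∫ ω, ((Zs p W (tU ω) (tL ω) (v, k) : ℝ) - Zs p' W' (tU ω) (tL ω) (v, k)) ^ 2 ∂PP V ≤
      ∫ r in (0 : ℝ)..1, ∫ ω, (MM p W k r v ω - MM p' W' k r v ω) ^ 2 ∂PP V := by
  set Φ : ℝ → Om V → ℝ := fun r ω => (MM p W k r v ω - MM p' W' k r v ω) ^ 2 with hΦ
  have hΦm : Measurable (fun q : ℝ × Om V => Φ q.1 q.2) :=
    ((measurable_MM2 p W k v).sub (measurable_MM2 p' W' k v)).pow_const 2
  have hΦ0 : ∀ r ω, 0 ≤ Φ r ω := fun r ω => sq_nonneg _
  have hΦC : ∀ r ω, Φ r ω ≤ 4 := by
    intro r ω
    have h1 := abs_le.1 (abs_MM_le hp k r v ω)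
    have h2 := abs_le.1 (abs_MM_le hp' k r v ω)
    simp only [hΦ]
    nlinarith
  have hΦi : ∀ (r : ℝ) (ω : Om V) (x : unitInterval), r ≤ (ω ((v, false), k) : ℝ) →
      r ≤ (x : ℝ) → Φ r (Function.update ω ((v, false), k) x) = Φ r ω := by
    intro r ω x h h'
    simp only [hΦ, MM_upd_U _ _ _ _ _ _ _ _ h h']
  have h := time_event Φ hΦm 4 hΦ0 hΦC v k hΦi 0 1 le_rfl zero_le_one le_rfl
  have hmE : Measurable (fun r : ℝ => ∫ ω, Φ r ω ∂PP V) :=
    (hΦm.stronglyMeasurable.integral_prod_right').measurable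
  have hE0 : ∀ r, 0 ≤ ∫ ω, Φ r ω ∂PP V := fun r => integral_nonneg (hΦ0 r)
  have hE4 : ∀ r, ∫ ω, Φ r ω ∂PP V ≤ 4 := by
    intro r
    have := norm_integral_le_of_norm_le_const (μ := PP V)
      (f := fun ω => Φ r ω) (C := 4) (Filter.Eventually.of_forall fun ω => by
        rw [Real.norm_eq_abs, abs_of_nonneg (hΦ0 r ω)]; exact hΦC r ω)
    simp only [probReal_univ, mul_one, Real.norm_eq_abs] at this
    exact (le_abs_self _).trans this
  have hmZ : ∀ (p : Finset V → ℝ) (W : Finset V), Measurable (fun ω : Om V =>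
      (Zs p W (tU ω) (tL ω) (v, k) : ℝ)) := by
    intro p W
    exact measurable_Zs_at p W v k
  have hle : ∫ ω, ((Zs p W (tU ω) (tL ω) (v, k) : ℝ) - Zs p' W' (tU ω) (tL ω) (v, k)) ^ 2 ∂PP V ≤
      ∫ ω, (if 0 ≤ (ω ((v, false), k) : ℝ) ∧ (ω ((v, false), k) : ℝ) < 1 then
      eps (ω ((v, false), k)) ^ 2 * Φ (ω ((v, false), k)) ω else 0) / 16 ∂PP V := by
    refine integral_mono (integrable_bdd _ (((hmZ p W).sub (hmZ p' W')).pow_const 2) 4 ?_)
      ((integrable_bdd _ ?_ 4 ?_).div_const 16) ?_
    · intro ω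
      have a1 := (Zs p W (tU ω) (tL ω) (v, k)).2.1
      have a2 := (Zs p W (tU ω) (tL ω) (v, k)).2.2
      have a3 := (Zs p' W' (tU ω) (tL ω) (v, k)).2.1
      have a4 := (Zs p' W' (tU ω) (tL ω) (v, k)).2.2
      rw [abs_of_nonneg (sq_nonneg _)]
      nlinarith
    · refine Measurable.ite (measurableSet_ind 0 1 _) ?_ measurable_const
      refine ((measurable_eps.comp (measurable_coord ((v, false), k))).pow_const 2).mul ?_
      exact ((measurable_MM_at p W k v v).sub (measurable_MM_at p' W' k v v)).pow_const 2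
    · intro ω
      split_ifs
      · rw [abs_of_nonneg (mul_nonneg (sq_nonneg _) (hΦ0 _ _))]
        have e1 := eps_nonneg (ω ((v, false), k))
        have e2 := (eps_le (ω ((v, false), k))).2
        have e3 : eps (ω ((v, false), k)) ^ 2 ≤ 1 := by nlinarith
        calc _ ≤ 1 * (4 : ℝ) := mul_le_mul e3 (hΦC _ _) (hΦ0 _ _) zero_le_one
          _ = 4 := by norm_num
      · simp
    · intro ω
      have z1 : Zs p W (tU ω) (tL ω) (v, k) = Qs (eps (ω ((v, false), k)) *
          MM p W k (ω ((v, false), k)) v ω) (ω ((v, true), k)) := by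
        rw [Zs_fix, if_pos hv]
        rfl
      have z2 : Zs p' W' (tU ω) (tL ω) (v, k) = Qs (eps (ω ((v, false), k)) *
          MM p' W' k (ω ((v, false), k)) v ω) (ω ((v, true), k)) := by
        rw [Zs_fix, if_pos hv']
        rfl
      have z3 := Qs_lipschitz (eps (ω ((v, false), k)) * MM p W k (ω ((v, false), k)) v ω)
        (eps (ω ((v, false), k)) * MM p' W' k (ω ((v, false), k)) v ω) (ω ((v, true), k))
      rw [← z1, ← z2] at z3
      rw [← mul_sub, abs_mul, abs_of_nonneg (eps_nonneg _)] at z3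
      have z4 : ((Zs p W (tU ω) (tL ω) (v, k) : ℝ) - Zs p' W' (tU ω) (tL ω) (v, k)) ^ 2 ≤
          (eps (ω ((v, false), k)) ^ 2 * Φ (ω ((v, false), k)) ω) / 16 := by
        rw [← sq_abs]
        have e1 := eps_nonneg (ω ((v, false), k))
        calc _ ≤ (eps (ω ((v, false), k)) * |MM p W k (ω ((v, false), k)) v ω -
              MM p' W' k (ω ((v, false), k)) v ω| / 4) ^ 2 := by gcongr
          _ = (eps (ω ((v, false), k)) ^ 2 * Φ (ω ((v, false), k)) ω) / 16 := by
              simp only [hΦ]
              rw [div_pow, mul_pow, sq_abs]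
              ring
      show _ ≤ (if 0 ≤ (ω ((v, false), k) : ℝ) ∧ (ω ((v, false), k) : ℝ) < 1 then
        eps (ω ((v, false), k)) ^ 2 * Φ (ω ((v, false), k)) ω else 0) / 16
      split_ifs with hi
      · exact z4
      · have : ¬ ((ω ((v, false), k) : ℝ) < 1 / 2) := by
          intro h5
          exact hi ⟨(ω ((v, false), k)).2.1, by linarith⟩
        have h6 : eps (ω ((v, false), k)) = 0 := by
          unfold eps
          rw [if_neg this]
        rw [h6] at z4
        simpa using z4
  have hII : IntervalIntegrable (fun r : ℝ => ∫ ω, Φ r ω ∂PP V) volume 0 1 := by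
    rw [intervalIntegrable_iff_integrableOn_Ioc_of_le zero_le_one]
    refine Measure.integrableOn_of_bounded (M := 4) (by simp) hmE.aestronglyMeasurable ?_
    refine Filter.Eventually.of_forall fun r => ?_
    rw [Real.norm_eq_abs, abs_of_nonneg (hE0 r)]
    exact hE4 r
  have hII2 : IntervalIntegrable (fun r : ℝ => r ^ 2 * ∫ ω, Φ r ω ∂PP V) volume 0 1 :=
    hII.continuousOn_mul (by fun_prop)
  rw [integral_div] at hle
  have h7 : ∫ r in (0 : ℝ)..1, r ^ 2 * ∫ ω, Φ r ω ∂PP V ≤ ∫ r in (0 : ℝ)..1, ∫ ω, Φ r ω ∂PP V := by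
    refine intervalIntegral.integral_mono_on zero_le_one hII2 hII (fun r hr => ?_)
    have e3 : r ^ 2 ≤ 1 := by
      have := hr.1
      have := hr.2
      nlinarith
    calc r ^ 2 * ∫ ω, Φ r ω ∂PP V ≤ 1 * ∫ ω, Φ r ω ∂PP V := by
          gcongr
      _ = _ := one_mul _
  have h8 : 0 ≤ ∫ r in (0 : ℝ)..1, ∫ ω, Φ r ω ∂PP V :=
    intervalIntegral.integral_nonneg zero_le_one (fun r _ => hE0 r)
  linarith

/-- convex functions of the posterior mean have nondecreasing expectation -/
theorem jensen {p : Finset V → ℝ} {W : Finset V} (hp : IsMass p W) (v : V) (hv : v ∈ W) (k : ℕ)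
    (r r' : ℝ) (h0 : 0 ≤ r) (h1 : r ≤ r') (h2 : r' ≤ 1) (f : ℝ → ℝ) (κ : ℝ)
    (hf : ConvexOn ℝ (Set.Icc (-κ) κ) f) (hfc : ContinuousOn f (Set.Icc (-κ) κ))
    (hκ : ∀ r ω, |MM p W k r v ω| ≤ κ) :
    ∫ ω, f (MM p W k r v ω) ∂PP V ≤ ∫ ω, f (MM p W k r' v ω) ∂PP V := by
  have hκ0 : 0 ≤ κ := (abs_nonneg _).trans (hκ 0 (fun _ => 0))
  have hκκ : -κ ≤ κ := by linarith
  -- replace `f` by a bounded continuous function
  set g : ℝ → ℝ := Set.IccExtend hκκ ((Set.Icc (-κ) κ).domRestrict f) with hg
  have hgf : ∀ y ∈ Set.Icc (-κ) κ, g y = f y := by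
    intro y hy
    rw [hg, Set.IccExtend_of_mem hκκ _ hy]
    rfl
  have hgc : Continuous g := (continuousOn_iff_continuous_domRestrict.1 hfc).Icc_extend'
  have hgm : Measurable g := hgc.measurable
  have hgconv : ConvexOn ℝ (Set.Icc (-κ) κ) g := hf.congr (fun y hy => (hgf y hy).symm)
  obtain ⟨C, hC⟩ : ∃ C, ∀ y, |g y| ≤ C := by
    obtain ⟨C, hC⟩ := (isCompact_Icc (a := -κ) (b := κ)).exists_bound_of_continuousOn hfc
    refine ⟨C, fun y => ?_⟩
    have : g y = f (Set.projIcc (-κ) κ hκκ y) := rfl
    rw [this]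
    exact hC _ (Set.projIcc (-κ) κ hκκ y).2
  have hfg : ∀ r ω, f (MM p W k r v ω) = g (MM p W k r v ω) := by
    intro r ω
    exact (hgf _ (abs_le.1 (hκ r ω))).symm
  simp only [hfg]
  have hmM : ∀ (r : ℝ), Measurable (MM p W k r v) := by
    intro r
    have h1 : Measurable (fun ω : Om V => (r, ω)) := measurable_const.prodMk measurable_id
    have h2 := (measurable_MM2 p W k v).comp h1
    exact h2
  have hI : ∀ r, Integrable (fun ω => g (MM p W k r v ω)) (PP V) :=
    fun r => integrable_bdd _ (hgm.comp (hmM r)) C (fun ω => hC _)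
  have hmX : ∀ u, Measurable (fun ω : Om V => if r ≤ (ω ((u, false), k) : ℝ) ∧
      (ω ((u, false), k) : ℝ) < r' then g (MI p W k u v ω) -
        g (MM p W k (ω ((u, false), k)) v ω) else 0) := by
    intro u
    refine Measurable.ite (measurableSet_ind r r' _) ?_ measurable_const
    exact (hgm.comp (measurable_MI hp k u v)).sub (hgm.comp (measurable_MM_at p W k u v))
  have hC0 : 0 ≤ C := (abs_nonneg _).trans (hC 0)
  have hbX : ∀ u (ω : Om V), |if r ≤ (ω ((u, false), k) : ℝ) ∧
      (ω ((u, false), k) : ℝ) < r' then g (MI p W k u v ω) -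
        g (MM p W k (ω ((u, false), k)) v ω) else 0| ≤ 2 * C := by
    intro u ω
    split_ifs
    · have h1 := abs_le.1 (hC (MI p W k u v ω))
      have h2 := abs_le.1 (hC (MM p W k (ω ((u, false), k)) v ω))
      rw [abs_le]
      constructor <;> linarith
    · simpa using hC0
  have htele : ∫ ω, (g (MM p W k r' v ω) - g (MM p W k r v ω)) ∂PP V =
      ∑ u ∈ W ∪ W, ∫ ω, (if r ≤ (ω ((u, false), k) : ℝ) ∧ (ω ((u, false), k) : ℝ) < r' then
        g (MI p W k u v ω) - g (MM p W k (ω ((u, false), k)) v ω) else 0) ∂PP V := by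
    rw [← integral_finsetSum]
    · apply integral_congr_ae
      filter_upwards [ae_times (W ∪ W) k] with ω hω
      exact tele_phi (fun a _ => g a) p p W W k v r r' h1 ω hω
    · intro u _
      exact integrable_bdd _ (hmX u) (2 * C) (hbX u)
  rw [integral_sub (hI r') (hI r)] at htele
  have hnn : ∀ u ∈ W ∪ W, 0 ≤ ∫ ω, (if r ≤ (ω ((u, false), k) : ℝ) ∧
      (ω ((u, false), k) : ℝ) < r' then
        g (MI p W k u v ω) - g (MM p W k (ω ((u, false), k)) v ω) else 0) ∂PP V := by
    intro u hu
    rw [integral_resample ((u, true), k) _ (hmX u) (2 * C) (hbX u)]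
    apply integral_nonneg_of_ae
    filter_upwards [ae_times W k] with ω hω
    have hu' : u ∈ W := by simpa using hu
    -- the posterior mean after the observation is bounded by `κ`
    have hMIκ : ∀ x, |MI p W k u v (Function.update ω ((u, true), k) x)| ≤ κ := by
      intro x
      set ω' := Function.update ω ((u, true), k) x with hω'
      have e1 : ∀ w, ω' ((w, false), k) = ω ((w, false), k) := by
        intro w
        simp [hω']
      -- a time just after the time of `u`
      obtain ⟨s, hs1, hs2⟩ : ∃ s : ℝ, (ω ((u, false), k) : ℝ) < s ∧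
          ∀ w ∈ W, (ω ((u, false), k) : ℝ) < ω ((w, false), k) → s ≤ ω ((w, false), k) := by
        rcases (W.filter (fun w => (ω ((u, false), k) : ℝ) < ω ((w, false), k))).eq_empty_or_nonempty
          with he | hne
        · refine ⟨(ω ((u, false), k) : ℝ) + 1, by linarith, fun w hw h => ?_⟩
          have : w ∈ W.filter (fun w => (ω ((u, false), k) : ℝ) < ω ((w, false), k)) :=
            Finset.mem_filter.2 ⟨hw, h⟩
          rw [he] at this
          simp at this
        · obtain ⟨w0, hw0, hmin⟩ := Finset.exists_min_image _ (fun w => (ω ((w, false), k) : ℝ)) hne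
          rw [Finset.mem_filter] at hw0
          exact ⟨_, hw0.2, fun w hw h => hmin w (Finset.mem_filter.2 ⟨hw, h⟩)⟩
      have e2 : MI p W k u v ω' = MM p W k s v ω' := by
        have a1 : MI p W k u v ω' = mn p W (lkm (tU ω') (Zs p W (tU ω') (tL ω')) k
          (insert u (W.filter (fun w => (tU ω' (w, k) : ℝ) < tU ω' (u, k))))) v :=
          mn_bump_eq_lkm p W W (Finset.Subset.refl W) _ _ k u v
        have a2 : MM p W k s v ω' = mn p W (lkm (tU ω') (Zs p W (tU ω') (tL ω')) k
          (W.filter (fun w => (tU ω' (w, k) : ℝ) < s))) v :=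
          mn_lkh_eq_lkm p W W (Finset.Subset.refl W) _ _ k s v
        have a3 : insert u (W.filter (fun w => (tU ω' (w, k) : ℝ) < tU ω' (u, k))) =
            W.filter (fun w => (tU ω' (w, k) : ℝ) < s) := by
          ext w
          simp only [Finset.mem_insert, Finset.mem_filter, tU, e1]
          constructor
          · rintro (rfl | ⟨hw, h⟩)
            · exact ⟨hu', hs1⟩
            · exact ⟨hw, h.trans hs1⟩
          · rintro ⟨hw, h⟩
            by_cases hwu : w = u
            · exact Or.inl hwu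
            · refine Or.inr ⟨hw, ?_⟩
              by_contra h5
              push Not at h5
              have h6 : (ω ((u, false), k) : ℝ) ≠ ω ((w, false), k) := fun h7 =>
                hω u hu' w hw (Ne.symm hwu) (Subtype.ext h7)
              have h7 := hs2 w hw (lt_of_le_of_ne h5 h6)
              linarith
        rw [a1, a2, a3]
      rw [e2]
      exact hκ s ω'
    have h1 : ∀ x, Function.update ω ((u, true), k) x ((u, false), k) = ω ((u, false), k) := by
      intro x; simp
    simp only [MI_upd hp] at hMIκ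
    simp only [h1, MI_upd hp, MM_upd_L _ _ _ _ _ _ _ _ (le_refl (ω ((u, false), k) : ℝ)),
      Pi.zero_apply]
    split_ifs with hi
    · have e1 := eps_nonneg (ω ((u, false), k))
      have e2 := (eps_le (ω ((u, false), k))).2
      have hMu := abs_MM_le hp k (ω ((u, false), k)) u ω
      have hJI : Integrable (fun x => JJ (eps (ω ((u, false), k)))
          (MM p W k (ω ((u, false), k)) u ω) (KK p W k (ω ((u, false), k)) v u ω) x)
          (volume : Measure unitInterval) :=
        integrable_bdd _ (measurable_JJ_right _ _ _) _ (fun x => JJ_abs _ _ _ x e1 e2 hMu)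
      have hJ0 := JJ_int (eps (ω ((u, false), k))) (MM p W k (ω ((u, false), k)) u ω)
        (KK p W k (ω ((u, false), k)) v u ω) e1 e2 hMu
      have hJm := measurable_JJ_right (eps (ω ((u, false), k))) (MM p W k (ω ((u, false), k)) u ω)
        (KK p W k (ω ((u, false), k)) v u ω)
      generalize MM p W k (ω ((u, false), k)) v ω = a at *
      have hGI : Integrable (fun x => g (a + JJ (eps (ω ((u, false), k)))
          (MM p W k (ω ((u, false), k)) u ω) (KK p W k (ω ((u, false), k)) v u ω) x))
          (volume : Measure unitInterval) :=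
        integrable_bdd _ (hgm.comp (hJm.const_add a)) C (fun x => hC _)
      rw [integral_sub hGI (integrable_const _)]
      have hjen := hgconv.map_integral_le (μ := (volume : Measure unitInterval))
        (f := fun x => a + JJ (eps (ω ((u, false), k)))
          (MM p W k (ω ((u, false), k)) u ω) (KK p W k (ω ((u, false), k)) v u ω) x)
        hgc.continuousOn isClosed_Icc
        (Filter.Eventually.of_forall fun x => abs_le.1 (hMIκ x))
        ((integrable_const a).add hJI) hGI
      rw [integral_add (integrable_const a) hJI, hJ0] at hjen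
      simp only [integral_const, probReal_univ, smul_eq_mul, one_mul, add_zero] at hjen ⊢
      linarith
    · simp
  have := Finset.sum_nonneg hnn
  linarith

end SCH

end Crest.Agent.TI
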