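import Crest.Agent.TI_KFb

/-!
Row S0241, task PLa: planted expectations: independence of blocks, flip symmetry
-/

set_option autoImplicit false
set_option linter.unusedSectionVars false
set_option linter.unusedVariables false

namespace Crest.Agent.TI

open MeasureTheory Filter Topology
open Crest.Agent.SRF (Lab lab)

section PL

variable {V : Type*} [DecidableEq V] {G : SimpleGraph V}
variable {Ω : Type*} [MeasurableSpace Ω] {P : Measure Ω} [IsProbabilityMeasure P]
  {l : Ω → V → Bool → ℝ} {H : ℝ}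


/-- `φ` only depends on the data in `W` -/
def DepOn (W : Finset V) (φ : (V → Bool → ℝ) → ℝ) : Prop :=
  ∀ l l' : V → Bool → ℝ, (∀ v ∈ W, l v = l' v) → φ l = φ l'

/-- `φ` is invariant under flipping all the data -/
def EvenF (φ : (V → Bool → ℝ) → ℝ) : Prop := ∀ l : V → Bool → ℝ, φ (fun v c => l v (!c)) = φ l

/-- rebuild the data from the pairs in `A` -/
noncomputable def exd (A : Finset V) (d : A → ℝ × ℝ) : V → Bool → ℝ := fun v c =>
  if h : v ∈ A then (if c then (d ⟨v, h⟩).1 else (d ⟨v, h⟩).2) else 0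

theorem measurable_exd (A : Finset V) : Measurable (exd A) := by
  refine measurable_pi_iff.2 fun v => measurable_pi_iff.2 fun c => ?_
  unfold exd
  by_cases h : v ∈ A
  · simp only [h, dif_pos]
    cases c
    · simp only [Bool.false_eq_true, if_false]; fun_prop
    · simp only [if_true]; fun_prop
  · simp only [h, dif_neg, not_false_eq_true]
    exact measurable_const

theorem exd_eq {A : Finset V} {φ : (V → Bool → ℝ) → ℝ} (hA : DepOn A φ) (m : V → Bool → ℝ) :
    φ m = φ (exd A (fun i => (m i true, m i false))) := by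
  apply hA
  intro v hv
  funext c
  unfold exd
  simp only [hv, dif_pos]
  cases c <;> simp

theorem LData.measD (hl : LData P l H) (v : V) :
    Measurable (fun ω => (l ω v true, l ω v false)) := (hl.meas v true).prodMk (hl.meas v false)

theorem LData.measl (hl : LData P l H) : Measurable l :=
  measurable_pi_iff.2 fun v => measurable_pi_iff.2 fun c => hl.meas v c

theorem integral_indep (hl : LData P l H) {A B : Finset V} (hAB : Disjoint A B)
    (φ ψ : (V → Bool → ℝ) → ℝ) (hφ : Measurable φ) (hψ : Measurable ψ) (hA : DepOn A φ) (hB : DepOn B ψ) :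
    ∫ ω, φ (l ω) * ψ (l ω) ∂P = (∫ ω, φ (l ω) ∂P) * ∫ ω, ψ (l ω) ∂P := by
  have h1 := hl.indep.indepFun_finset A B hAB (fun v => hl.measD v)
  have h2 := h1.comp (hφ.comp (measurable_exd A)) (hψ.comp (measurable_exd B))
  have e1 : ((φ ∘ exd A) ∘ fun ω (i : A) => (l ω i true, l ω i false)) = fun ω => φ (l ω) := by
    funext ω
    exact (exd_eq hA (l ω)).symm
  have e2 : ((ψ ∘ exd B) ∘ fun ω (i : B) => (l ω i true, l ω i false)) = fun ω => ψ (l ω) := by
    funext ω
    exact (exd_eq hB (l ω)).symm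
  rw [e1, e2] at h2
  exact h2.integral_fun_mul_eq_mul_integral (hφ.comp hl.measl).aestronglyMeasurable
    (hψ.comp hl.measl).aestronglyMeasurable

theorem integral_flip (hl : LData P l H) {A : Finset V} (φ : (V → Bool → ℝ) → ℝ) (hφ : Measurable φ)
    (hA : DepOn A φ) : ∫ ω, φ (fun v c => l ω v (!c)) ∂P = ∫ ω, φ (l ω) ∂P := by
  have hi : ProbabilityTheory.iIndepFun (fun (i : A) ω => (l ω i true, l ω i false)) P :=
    hl.indep.precomp (g := fun i : A => (i : V)) Subtype.val_injective
  have hi' : ProbabilityTheory.iIndepFun (fun (i : A) ω => (l ω i false, l ω i true)) P :=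
    hi.comp (fun _ d => (d.2, d.1)) (fun _ => measurable_snd.prodMk measurable_fst)
  have m1 : ∀ i : A, Measurable (fun ω => (l ω i true, l ω i false)) := fun i => hl.measD i
  have m2 : ∀ i : A, Measurable (fun ω => (l ω i false, l ω i true)) := fun i =>
    (hl.meas i false).prodMk (hl.meas i true)
  have k1 := (ProbabilityTheory.iIndepFun_iff_map_fun_eq_pi_map (fun i => (m1 i).aemeasurable)).1 hi
  have k2 := (ProbabilityTheory.iIndepFun_iff_map_fun_eq_pi_map (fun i => (m2 i).aemeasurable)).1 hi'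
  have k3 : (fun i : A => P.map (fun ω => (l ω i false, l ω i true))) =
      fun i : A => P.map (fun ω => (l ω i true, l ω i false)) := by
    funext i
    exact (hl.symm i).symm
  rw [k3, ← k1] at k2
  have e1 : ∀ ω, φ (fun v c => l ω v (!c)) =
      (φ ∘ exd A) (fun (i : A) => (l ω i false, l ω i true)) := by
    intro ω
    exact exd_eq hA _
  have e2 : ∀ ω, φ (l ω) = (φ ∘ exd A) (fun (i : A) => (l ω i true, l ω i false)) := by
    intro ω
    exact exd_eq hA _
  simp_rw [e1, e2]
  rw [← integral_map (f := φ ∘ exd A) (φ := fun ω (i : A) => (l ω i false, l ω i true))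
      (measurable_pi_iff.2 m2).aemeasurable
      (hφ.comp (measurable_exd A)).aestronglyMeasurable,
    ← integral_map (f := φ ∘ exd A) (φ := fun ω (i : A) => (l ω i true, l ω i false))
      (measurable_pi_iff.2 m1).aemeasurable
      (hφ.comp (measurable_exd A)).aestronglyMeasurable, k2]

theorem pla_measurable_lw (W S : Finset V) : Measurable (fun l : V → Bool → ℝ => lw l W S) := by
  unfold lw
  fun_prop

theorem measurable_dd (θ : ℝ) (W : Finset V) (x : V) (c : Bool) :
    Measurable (fun l : V → Bool → ℝ => dd G θ W l x c) := by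
  unfold dd
  have := fun S => pla_measurable_lw (V := V) W S
  fun_prop

theorem depOn_dd (θ : ℝ) (W : Finset V) (x : V) (c : Bool) : DepOn W (fun l => dd G θ W l x c) :=
  fun l l' h => dd_congr θ W l l' h x c

theorem measurable_pt_ip (θ : ℝ) (W : Finset V) :
    Measurable (fun l : V → Bool → ℝ => pt (ip G θ W) W l) := by
  unfold pt
  have := fun S => pla_measurable_lw (V := V) W S
  fun_prop

theorem depOn_pt (θ : ℝ) (W : Finset V) : DepOn W (fun l => pt (ip G θ W) W l) := by
  intro l l' h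
  unfold pt lw
  refine Finset.sum_congr rfl fun S _ => ?_
  congr 1
  exact Finset.prod_congr rfl fun v hv => by rw [h v hv]

theorem lw_one (W S : Finset V) : lw (fun _ _ => (1 : ℝ)) W S = 1 := by
  unfold lw; simp

/-- with constant likelihood one both conditional densities are one -/
theorem dd_one (hT : G.IsTree) (θ : ℝ) {W : Finset V} (hW : Win G W) {x : V} (hx : x ∈ W) (c : Bool) :
    dd G θ W (fun _ _ => 1) x c = 1 := by
  have hf : ∀ c, dd G θ W (fun _ _ => 1) x c = dd G θ W (fun _ _ => 1) x (!c) := fun c =>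
    dd_flip θ W (fun _ _ => (1:ℝ)) x c hx
  have hp := pt_eq_dd (G := G) θ W (fun _ _ => 1) x
  have hp1 : pt (ip G θ W) W (fun _ _ => 1) = 1 := by
    unfold pt
    simp only [lw_one, mul_one]
    exact total_ip hT θ hW
  have := hf true
  simp only [Bool.not_true] at this
  cases c
  · linarith
  · linarith

theorem dd_bdd_explicit (hl : LData P l H) (hT : G.IsTree) (θ : ℝ) (h0 : 0 ≤ θ) (h1 : θ < 1) {W : Finset V}
    (hW : Win G W) (x : V) (hx : x ∈ W) (ω : Ω) (c : Bool) :
    Real.exp (-H) ^ W.card ≤ dd G θ W (l ω) x c ∧ dd G θ W (l ω) x c ≤ Real.exp H ^ W.card := by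
  have hone := dd_one hT θ hW hx c
  unfold dd at hone ⊢
  simp only [lw_one, mul_one] at hone
  constructor
  · calc Real.exp (-H) ^ W.card =
          2 * ∑ S ∈ W.powerset with decide (x ∈ S) = c, ip G θ W S * Real.exp (-H) ^ W.card := by
          rw [← Finset.sum_mul, ← mul_assoc, hone, one_mul]
      _ ≤ _ := by
          apply mul_le_mul_of_nonneg_left _ (by norm_num)
          refine Finset.sum_le_sum fun S _ => ?_
          apply mul_le_mul_of_nonneg_left _ (ip_nonneg θ h0 h1.le W S)
          unfold lw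
          rw [← Finset.prod_const]
          exact Finset.prod_le_prod (fun v _ => (Real.exp_pos _).le) (fun v _ => hl.lower ω v _)
  · calc _ ≤ 2 * ∑ S ∈ W.powerset with decide (x ∈ S) = c, ip G θ W S * Real.exp H ^ W.card := by
          apply mul_le_mul_of_nonneg_left _ (by norm_num)
          refine Finset.sum_le_sum fun S _ => ?_
          apply mul_le_mul_of_nonneg_left _ (ip_nonneg θ h0 h1.le W S)
          unfold lw
          rw [← Finset.prod_const]
          exact Finset.prod_le_prod (fun v _ => (Real.exp_pos _).le.trans (hl.lower ω v _))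
            (fun v _ => hl.upper ω v _)
      _ = Real.exp H ^ W.card := by
          rw [← Finset.sum_mul, ← mul_assoc, hone, one_mul]

/-- the densities are bounded above and below on the data -/
theorem dd_bdd (hl : LData P l H) (hT : G.IsTree) (θ : ℝ) (h0 : 0 ≤ θ) (h1 : θ < 1) {W : Finset V}
    (hW : Win G W) (x : V) (hx : x ∈ W) : ∃ C : ℝ, 0 < C ∧ ∀ ω c, C⁻¹ ≤ dd G θ W (l ω) x c ∧
      dd G θ W (l ω) x c ≤ C := by
  refine ⟨Real.exp H ^ W.card, by positivity, fun ω c => ?_⟩
  have h := dd_bdd_explicit hl hT θ h0 h1 hW x hx ω c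
  refine ⟨?_, h.2⟩
  rw [← inv_pow, ← Real.exp_neg]
  exact h.1

theorem dd_pos' (hl : LData P l H) (hT : G.IsTree) (θ : ℝ) (h0 : 0 ≤ θ) (h1 : θ < 1) {W : Finset V}
    (hW : Win G W) (x : V) (hx : x ∈ W) (ω : Ω) (c : Bool) : 0 < dd G θ W (l ω) x c :=
  lt_of_lt_of_le (by positivity) (dd_bdd_explicit hl hT θ h0 h1 hW x hx ω c).1

theorem measurable_dd_l (hl : LData P l H) (θ : ℝ) (W : Finset V) (x : V) (c : Bool) :
    Measurable (fun ω => dd G θ W (l ω) x c) := (measurable_dd θ W x c).comp hl.measl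

/-- integrability of a bounded function times a conditional density -/
theorem integrable_mul_dd (hl : LData P l H) (hT : G.IsTree) (θ : ℝ) (h0 : 0 ≤ θ) (h1 : θ < 1)
    {W : Finset V} (hW : Win G W) {x : V} (hx : x ∈ W) (c : Bool) (φ : (V → Bool → ℝ) → ℝ)
    (hφ : Measurable φ) (C : ℝ) (hC : ∀ ω, |φ (l ω)| ≤ C) :
    Integrable (fun ω => φ (l ω) * dd G θ W (l ω) x c) P := by
  refine Integrable.of_bound (((hφ.comp hl.measl).mul (measurable_dd_l hl θ W x c)).aestronglyMeasurable)
    (C * Real.exp H ^ W.card) (Filter.Eventually.of_forall fun ω => ?_)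
  rw [Real.norm_eq_abs, abs_mul]
  have hd := dd_pos' hl hT θ h0 h1 hW x hx ω c
  rw [abs_of_pos hd]
  exact mul_le_mul (hC ω) (dd_bdd_explicit hl hT θ h0 h1 hW x hx ω c).2 hd.le
    ((abs_nonneg _).trans (hC ω))

theorem integral_lw (hl : LData P l H) (W S : Finset V) : ∫ ω, lw (l ω) W S ∂P = 1 := by
  induction W using Finset.induction_on with
  | empty => simp [lw]
  | insert v W hv ih =>
    have h := integral_indep hl (A := {v}) (B := W) (by simpa using hv)
      (fun m => m v (decide (v ∈ S))) (fun m => lw m W S)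
      ((measurable_pi_apply _).comp (measurable_pi_apply v)) (pla_measurable_lw W S)
      (fun m m' hm => by
        show m v (decide (v ∈ S)) = m' v (decide (v ∈ S))
        rw [hm v (by simp)])
      (fun m m' hm => by
        unfold lw
        exact Finset.prod_congr rfl fun w hw => by rw [hm w hw])
    have e : ∀ ω, lw (l ω) (insert v W) S = l ω v (decide (v ∈ S)) * lw (l ω) W S := by
      intro ω
      unfold lw
      rw [Finset.prod_insert hv]
    simp_rw [e]
    rw [h, ih, hl.mean, one_mul]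

theorem lw_bound (hl : LData P l H) (W S : Finset V) (ω : Ω) :
    0 ≤ lw (l ω) W S ∧ lw (l ω) W S ≤ Real.exp H ^ W.card := by
  unfold lw
  constructor
  · exact Finset.prod_nonneg fun v _ => (Real.exp_pos _).le.trans (hl.lower ω v _)
  · rw [← Finset.prod_const]
    exact Finset.prod_le_prod (fun v _ => (Real.exp_pos _).le.trans (hl.lower ω v _))
      (fun v _ => hl.upper ω v _)

theorem integrable_lw (hl : LData P l H) (W S : Finset V) : Integrable (fun ω => lw (l ω) W S) P := by
  refine Integrable.of_bound ((pla_measurable_lw W S).comp hl.measl).aestronglyMeasurable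
    (Real.exp H ^ W.card) (Filter.Eventually.of_forall fun ω => ?_)
  rw [Real.norm_eq_abs, abs_of_nonneg (lw_bound hl W S ω).1]
  exact (lw_bound hl W S ω).2

theorem integral_dd (hl : LData P l H) (hT : G.IsTree) (θ : ℝ) (h0 : 0 ≤ θ) (h1 : θ < 1)
    {W : Finset V} (hW : Win G W) {x : V} (hx : x ∈ W) (c : Bool) :
    ∫ ω, dd G θ W (l ω) x c ∂P = 1 := by
  have hone := dd_one hT θ hW hx c
  unfold dd at hone ⊢
  simp only [lw_one, mul_one] at hone
  rw [integral_const_mul, integral_finsetSum _ (fun S _ => (integrable_lw hl W S).const_mul _)]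
  simp_rw [integral_const_mul, integral_lw hl, mul_one]
  exact hone

theorem win_nonempty {W : Finset V} (hW : Win G W) : ∃ x, x ∈ W := by
  obtain ⟨⟨x, hx⟩⟩ := hW.nonempty
  exact ⟨x, hx⟩

theorem integral_pt (hl : LData P l H) (hT : G.IsTree) (θ : ℝ) (h0 : 0 ≤ θ) (h1 : θ < 1)
    {W : Finset V} (hW : Win G W) : ∫ ω, pt (ip G θ W) W (l ω) ∂P = 1 := by
  obtain ⟨x, hx⟩ := win_nonempty hW
  have hi : ∀ c, Integrable (fun ω => dd G θ W (l ω) x c) P := fun c => by
    have := integrable_mul_dd hl hT θ h0 h1 hW hx c (fun _ => 1) measurable_const 1 (by simp)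
    simpa using this
  simp_rw [pt_eq_dd θ W _ x]
  rw [integral_div, integral_add (hi true) (hi false), integral_dd hl hT θ h0 h1 hW hx,
    integral_dd hl hT θ h0 h1 hW hx]
  norm_num

/-- an even function of the data does not see the conditioning on the spin at the root -/
theorem integral_even (hl : LData P l H) (hT : G.IsTree) (θ : ℝ) (h0 : 0 ≤ θ) (h1 : θ < 1)
    {W : Finset V} (hW : Win G W) {x : V} (hx : x ∈ W) (c : Bool) (φ : (V → Bool → ℝ) → ℝ)
    (hφ : Measurable φ) (hD : DepOn W φ) (hE : EvenF φ) (C : ℝ) (hC : ∀ ω, |φ (l ω)| ≤ C) :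
    ∫ ω, φ (l ω) * dd G θ W (l ω) x c ∂P = ∫ ω, φ (l ω) * pt (ip G θ W) W (l ω) ∂P := by
  have hflip : ∀ c, ∫ ω, φ (l ω) * dd G θ W (l ω) x (!c) ∂P = ∫ ω, φ (l ω) * dd G θ W (l ω) x c ∂P := by
    intro c
    have h := integral_flip hl (A := W) (fun m => φ m * dd G θ W m x c)
      (hφ.mul (measurable_dd θ W x c))
      (fun m m' hm => by
        show φ m * dd G θ W m x c = φ m' * dd G θ W m' x c
        rw [hD m m' hm, dd_congr θ W m m' hm x c])
    rw [← h]
    refine integral_congr_ae (Filter.Eventually.of_forall fun ω => ?_)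
    show φ (l ω) * dd G θ W (l ω) x (!c) =
      φ (fun v c => l ω v (!c)) * dd G θ W (fun v c => l ω v (!c)) x c
    rw [hE (l ω), dd_flip θ W (l ω) x c hx]
  have e : ∀ ω, φ (l ω) * pt (ip G θ W) W (l ω) =
      (φ (l ω) * dd G θ W (l ω) x true + φ (l ω) * dd G θ W (l ω) x false) / 2 := by
    intro ω
    rw [pt_eq_dd θ W _ x]; ring
  simp_rw [e]
  rw [integral_div, integral_add
    (integrable_mul_dd hl hT θ h0 h1 hW hx true φ hφ C hC)
    (integrable_mul_dd hl hT θ h0 h1 hW hx false φ hφ C hC)]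
  have h2 := hflip true
  simp only [Bool.not_true] at h2
  cases c
  · rw [h2]; ring
  · rw [h2]; ring

/-- two-block lemma: an even function of the far side of an edge is independent of the near side -/
theorem two_block (hl : LData P l H) (hT : G.IsTree) (θ : ℝ) (h0 : 0 ≤ θ) (h1 : θ < 1)
    {W : Finset V} (hW : Win G W) {x y : V} (hx : x ∈ W) (hy : y ∈ W) (h : G.Adj x y)
    (φ ψ : (V → Bool → ℝ) → ℝ) (hφ : Measurable φ) (hψ : Measurable ψ)
    (hA : DepOn (sd G W x y) φ) (hB : DepOn (sd G W y x) ψ) (hE : EvenF ψ)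
    (C : ℝ) (hCφ : ∀ ω, |φ (l ω)| ≤ C) (hCψ : ∀ ω, |ψ (l ω)| ≤ C) :
    ∫ ω, φ (l ω) * ψ (l ω) * pt (ip G θ W) W (l ω) ∂P =
      (∫ ω, φ (l ω) * pt (ip G θ (sd G W x y)) (sd G W x y) (l ω) ∂P) *
        ∫ ω, ψ (l ω) * pt (ip G θ (sd G W y x)) (sd G W y x) (l ω) ∂P := by
  have hWA : Win G (sd G W x y) := win_sd hT hW hx h
  have hWB : Win G (sd G W y x) := win_sd hT hW hy h.symm
  have hxA : x ∈ sd G W x y := mem_sd_self hx h
  have hyB : y ∈ sd G W y x := mem_sd_self hy h.symm
  set A := sd G W x y with hAdef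
  set B := sd G W y x with hBdef
  have hdis : Disjoint A B := sd_disjoint W x y
  -- the products over the two blocks
  have hprod : ∀ c c' : Bool, ∫ ω, (φ (l ω) * dd G θ A (l ω) x c) * (ψ (l ω) * dd G θ B (l ω) y c') ∂P =
      (∫ ω, φ (l ω) * dd G θ A (l ω) x c ∂P) * ∫ ω, ψ (l ω) * dd G θ B (l ω) y c' ∂P := by
    intro c c'
    exact integral_indep hl hdis (fun m => φ m * dd G θ A m x c) (fun m => ψ m * dd G θ B m y c')
      (hφ.mul (measurable_dd θ A x c)) (hψ.mul (measurable_dd θ B y c'))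
      (fun m m' hm => by
        show φ m * dd G θ A m x c = φ m' * dd G θ A m' x c
        rw [hA m m' hm, dd_congr θ A m m' hm x c])
      (fun m m' hm => by
        show ψ m * dd G θ B m y c' = ψ m' * dd G θ B m' y c'
        rw [hB m m' hm, dd_congr θ B m m' hm y c'])
  have hint : ∀ c c' : Bool, Integrable
      (fun ω => (φ (l ω) * dd G θ A (l ω) x c) * (ψ (l ω) * dd G θ B (l ω) y c')) P := by
    intro c c'
    refine Integrable.of_bound ((((hφ.comp hl.measl).mul (measurable_dd_l hl θ A x c)).mul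
      ((hψ.comp hl.measl).mul (measurable_dd_l hl θ B y c'))).aestronglyMeasurable)
      ((C * Real.exp H ^ A.card) * (C * Real.exp H ^ B.card)) (Filter.Eventually.of_forall fun ω => ?_)
    have dA := dd_pos' hl hT θ h0 h1 hWA x hxA ω c
    have dB := dd_pos' hl hT θ h0 h1 hWB y hyB ω c'
    have hC0 : 0 ≤ C := (abs_nonneg _).trans (hCφ ω)
    show ‖(φ (l ω) * dd G θ A (l ω) x c) * (ψ (l ω) * dd G θ B (l ω) y c')‖ ≤ _
    rw [Real.norm_eq_abs, abs_mul, abs_mul, abs_mul, abs_of_pos dA, abs_of_pos dB]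
    apply mul_le_mul
    · exact mul_le_mul (hCφ ω) (dd_bdd_explicit hl hT θ h0 h1 hWA x hxA ω c).2 dA.le hC0
    · exact mul_le_mul (hCψ ω) (dd_bdd_explicit hl hT θ h0 h1 hWB y hyB ω c').2 dB.le hC0
    · positivity
    · positivity
  have hev : ∀ c' : Bool, ∫ ω, ψ (l ω) * dd G θ B (l ω) y c' ∂P =
      ∫ ω, ψ (l ω) * pt (ip G θ B) B (l ω) ∂P := fun c' =>
    integral_even hl hT θ h0 h1 hWB hyB c' ψ hψ hB hE C hCψ
  have hsplit : ∫ ω, φ (l ω) * pt (ip G θ A) A (l ω) ∂P =
      ((∫ ω, φ (l ω) * dd G θ A (l ω) x true ∂P) + ∫ ω, φ (l ω) * dd G θ A (l ω) x false ∂P) / 2 := by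
    have e : ∀ ω, φ (l ω) * pt (ip G θ A) A (l ω) =
        (φ (l ω) * dd G θ A (l ω) x true + φ (l ω) * dd G θ A (l ω) x false) / 2 := by
      intro ω
      rw [pt_eq_dd θ A _ x]; ring
    simp_rw [e]
    rw [integral_div, integral_add
      (integrable_mul_dd hl hT θ h0 h1 hWA hxA true φ hφ C hCφ)
      (integrable_mul_dd hl hT θ h0 h1 hWA hxA false φ hφ C hCφ)]
  have e : ∀ ω, φ (l ω) * ψ (l ω) * pt (ip G θ W) W (l ω) = ∑ c : Bool, ∑ c' : Bool,
      ((1 + θ * (sg c * sg c')) / 4) *
        ((φ (l ω) * dd G θ A (l ω) x c) * (ψ (l ω) * dd G θ B (l ω) y c')) := by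
    intro ω
    rw [pt_cut hT θ hx hy h, Finset.mul_sum]
    refine Finset.sum_congr rfl fun c _ => ?_
    rw [Finset.mul_sum]
    refine Finset.sum_congr rfl fun c' _ => ?_
    ring
  simp_rw [e]
  rw [integral_finsetSum _ (fun c _ => integrable_finsetSum _ fun c' _ => (hint c c').const_mul _)]
  have e2 : ∀ c : Bool, ∫ ω, ∑ c' : Bool, ((1 + θ * (sg c * sg c')) / 4) *
        ((φ (l ω) * dd G θ A (l ω) x c) * (ψ (l ω) * dd G θ B (l ω) y c')) ∂P =
      (∫ ω, φ (l ω) * dd G θ A (l ω) x c ∂P) * (∫ ω, ψ (l ω) * pt (ip G θ B) B (l ω) ∂P) / 2 := by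
    intro c
    rw [integral_finsetSum _ (fun c' _ => (hint c c').const_mul _)]
    simp_rw [integral_const_mul, hprod, hev]
    rw [Fintype.sum_bool]
    unfold sg
    cases c <;> simp <;> ring
  simp_rw [e2]
  rw [Fintype.sum_bool, hsplit]
  ring

/-- if `y` is outside the window everything is on the side of `x` -/
theorem sd_of_notMem (hT : G.IsTree) {W : Finset V} (hW : Win G W) {x y : V} (hx : x ∈ W) (hy : y ∉ W)
    (h : G.Adj x y) : sd G W x y = W := by
  unfold sd
  rw [Finset.filter_eq_self]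
  intro w hw
  by_contra hcon
  have h1 : G.dist w x = G.dist w y + 1 := by
    rcases dist_edge hT h w with h1 | h1 <;> omega
  obtain ⟨z, hz0, hzn, hz⟩ := geo_exists hT w x
  set n := G.dist w x with hn
  have hnpos : 0 < n := by omega
  have hmem := win_geo hT hW hz (by rw [hz0]; exact hw) (by rw [hzn]; exact hx) (n - 1) (by omega)
  have ha := geo_adj hz (n - 1) (by omega)
  have en : n - 1 + 1 = n := by omega
  rw [en, hzn] at ha
  have hd : G.dist w (z (n - 1)) = n - 1 := by
    have := hz 0 (n - 1) (by omega) (by omega)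
    rw [hz0] at this
    rw [this]; omega
  have : y = z (n - 1) := by
    apply closer_unique hT (u := w) h.symm ha
    · omega
    · rw [hd]; omega
  rw [← this] at hmem
  exact hy hmem

/-- law of even functions of one side of an edge -/
theorem one_block (hl : LData P l H) (hT : G.IsTree) (θ : ℝ) (h0 : 0 ≤ θ) (h1 : θ < 1)
    {W : Finset V} (hW : Win G W) {x y : V} (hx : x ∈ W) (h : G.Adj x y)
    (ψ : (V → Bool → ℝ) → ℝ) (hψ : Measurable ψ) (hB : DepOn (sd G W x y) ψ) (hE : EvenF ψ)
    (C : ℝ) (hCψ : ∀ ω, |ψ (l ω)| ≤ C) :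
    ∫ ω, ψ (l ω) * pt (ip G θ W) W (l ω) ∂P =
      ∫ ω, ψ (l ω) * pt (ip G θ (sd G W x y)) (sd G W x y) (l ω) ∂P := by
  by_cases hy : y ∈ W
  · have hb := two_block hl hT θ h0 h1 hW hx hy h ψ (fun _ => 1) hψ measurable_const hB
      (fun _ _ _ => rfl) (fun _ => rfl) (max C 1) (fun ω => (hCψ ω).trans (le_max_left _ _))
      (fun ω => by simp)
    simp only [mul_one, one_mul] at hb
    rw [hb, integral_pt hl hT θ h0 h1 (win_sd hT hW hy h.symm), mul_one]
  · rw [sd_of_notMem hT hW hx hy h]

end PL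

end Crest.Agent.TI
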