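import Crest.Agent.TI_Defs

/-!
Row S0241, task RAb: the functions hp
-/

set_option autoImplicit false
set_option linter.unusedSectionVars false
set_option linter.unusedVariables false

namespace Crest.Agent.TI

open MeasureTheory Filter Topology
open Crest.Agent.SRF (Lab lab)

section RA

theorem hp_even (p : ℕ) (M : ℝ) : hp p (-M) = hp p M := by
  unfold hp
  rw [show (1:ℝ) + -M = 1 - M by ring, show (1:ℝ) - -M = 1 + M by ring, add_comm]

theorem hp_abs (p : ℕ) (M : ℝ) : hp p |M| = hp p M := by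
  rcases abs_choice M with h | h
  · rw [h]
  · rw [h, hp_even]

theorem hp_ge (p : ℕ) (M δ : ℝ) (h0 : 0 ≤ δ) (h1 : δ ≤ |M|) (hM : |M| < 1) :
    (1 + δ) ^ (p + 1) / 2 ≤ hp p M := by
  rw [← hp_abs]
  set N := |M| with hN
  have hN0 : 0 ≤ N := abs_nonneg M
  unfold hp
  have h2 : (1 + δ) ^ (p + 1) ≤ (1 + N) ^ (p + 1) := by
    apply pow_le_pow_left₀ (by linarith); linarith
  have h3 : 0 < (1 - N) ^ p := pow_pos (by linarith) _
  have h4 : (1 - N) ^ p ≤ 1 := pow_le_one₀ (by linarith) (by linarith)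
  have h5 : (1 + N) ^ (p + 1) ≤ (1 + N) ^ (p + 1) / (1 - N) ^ p := by
    rw [le_div_iff₀ h3]
    have : 0 ≤ (1 + N) ^ (p + 1) := by positivity
    nlinarith
  have h6 : 0 ≤ (1 - N) ^ (p + 1) / (1 + N) ^ p := by
    have : 0 ≤ (1 - N) ^ (p + 1) := pow_nonneg (by linarith) _
    positivity
  linarith

/-- the generating function `(1+M)^(p+1)/(1-M)^p` has nonnegative Taylor coefficients -/
theorem hp_series (p : ℕ) : ∃ a : ℕ → ℝ, (∀ k, 0 ≤ a k) ∧ a 0 = 1 ∧ a 1 = 2 * p + 1 ∧
    a 2 = 2 * (p + 1) * p ∧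
    ∀ M : ℝ, |M| < 1 → HasSum (fun k => a k * M ^ k) ((1 + M) ^ (p + 1) / (1 - M) ^ p) := by
  induction p with
  | zero =>
    refine ⟨fun k => if k = 0 then 1 else if k = 1 then 1 else 0, ?_, ?_, ?_, ?_, ?_⟩
    · intro k; dsimp only; split_ifs <;> norm_num
    · simp
    · simp
    · simp
    · intro M hM
      have h : HasSum (fun k : ℕ => (if k = 0 then (1:ℝ) else if k = 1 then 1 else 0) * M ^ k)
          (∑ k ∈ Finset.range 2, (if k = 0 then (1:ℝ) else if k = 1 then 1 else 0) * M ^ k) :=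
        hasSum_sum_of_ne_finset_zero (by
          intro k hk
          rw [Finset.mem_range] at hk
          have h1 : k ≠ 0 := by omega
          have h2 : k ≠ 1 := by omega
          simp [h1, h2])
      have h3 : ∑ k ∈ Finset.range 2, (if k = 0 then (1:ℝ) else if k = 1 then 1 else 0) * M ^ k =
          (1 + M) ^ (0 + 1) / (1 - M) ^ 0 := by
        simp [Finset.sum_range_succ]
      rw [h3] at h
      exact h
  | succ p ih =>
    obtain ⟨a, ha, ha0, ha1, ha2, hs⟩ := ih
    set g : ℕ → ℝ := fun k => if k = 0 then 1 else 2 with hg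
    have hgnn : ∀ k, 0 ≤ g k := by intro k; simp only [hg]; split_ifs <;> norm_num
    refine ⟨fun n => ∑ x ∈ Finset.HasAntidiagonal.antidiagonal n, a x.1 * g x.2, ?_, ?_, ?_, ?_, ?_⟩
    · intro k
      exact Finset.sum_nonneg fun x _ => mul_nonneg (ha _) (hgnn _)
    · simp [hg, ha0]
    · dsimp only
      rw [show Finset.HasAntidiagonal.antidiagonal 1 = {(0, 1), (1, 0)} by rfl]
      rw [Finset.sum_pair (by decide)]
      simp only [hg, ha0, ha1]
      push_cast
      norm_num
      ring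
    · dsimp only
      rw [show Finset.HasAntidiagonal.antidiagonal 2 = {(0, 2), (1, 1), (2, 0)} by rfl]
      rw [Finset.sum_insert (by decide), Finset.sum_pair (by decide)]
      simp only [hg, ha0, ha1, ha2]
      push_cast
      norm_num
      ring
    · intro M hM
      have hM1 : M < 1 := (abs_lt.1 hM).2
      have hMm : -1 < M := (abs_lt.1 hM).1
      have hgs : ∀ N : ℝ, |N| < 1 → HasSum (fun k => g k * N ^ k) ((1 + N) / (1 - N)) := by
        intro N hN
        have h1 := (hasSum_geometric_of_abs_lt_one hN).mul_left 2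
        have h2 := h1.sub (hasSum_ite_eq 0 (1:ℝ))
        have hN1 : N < 1 := (abs_lt.1 hN).2
        have h3 : 2 * (1 - N)⁻¹ - 1 = (1 + N) / (1 - N) := by
          have : (1 - N) ≠ 0 := by linarith
          field_simp; ring
        rw [h3] at h2
        refine h2.congr_fun ?_ |> id
        intro k
        simp only [hg]
        by_cases hk : k = 0
        · simp [hk]; norm_num
        · simp [hk]
      have habs : |(|M|)| < 1 := by rw [abs_abs]; exact hM
      have hsa : Summable (fun k => ‖a k * M ^ k‖) := by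
        have := (hs |M| habs).summable
        refine this.congr fun k => ?_
        rw [Real.norm_eq_abs, abs_mul, abs_pow, abs_of_nonneg (ha k)]
      have hsg : Summable (fun k => ‖g k * M ^ k‖) := by
        have := (hgs |M| habs).summable
        refine this.congr fun k => ?_
        rw [Real.norm_eq_abs, abs_mul, abs_pow, abs_of_nonneg (hgnn k)]
      have hprod := tsum_mul_tsum_eq_tsum_sum_antidiagonal_of_summable_norm hsa hsg
      have hsum := summable_norm_sum_mul_antidiagonal_of_summable_norm hsa hsg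
      have hval : (1 + M) ^ (p + 1 + 1) / (1 - M) ^ (p + 1) =
          ∑' n, ∑ x ∈ Finset.HasAntidiagonal.antidiagonal n, (a x.1 * M ^ x.1) * (g x.2 * M ^ x.2) := by
        rw [← hprod, (hs M hM).tsum_eq, (hgs M hM).tsum_eq, div_mul_div_comm, ← pow_succ, ← pow_succ]
      have heq : (fun n => (∑ x ∈ Finset.HasAntidiagonal.antidiagonal n, a x.1 * g x.2) * M ^ n) =
          fun n => ∑ x ∈ Finset.HasAntidiagonal.antidiagonal n, (a x.1 * M ^ x.1) * (g x.2 * M ^ x.2) := by
        funext n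
        rw [Finset.sum_mul]
        refine Finset.sum_congr rfl fun x hx => ?_
        rw [← Finset.HasAntidiagonal.mem_antidiagonal.1 hx, pow_add]
        ring
      rw [heq, hval]
      exact hsum.of_norm.hasSum

theorem hp_hasSum (p : ℕ) : ∃ a : ℕ → ℝ, (∀ k, 0 ≤ a k) ∧ a 0 = 1 ∧
    a 2 = 2 * (p + 1) * p ∧
    ∀ M : ℝ, |M| < 1 → HasSum (fun k => a k * ((M ^ k + (-M) ^ k) / 2)) (hp p M) := by
  obtain ⟨a, ha, ha0, -, ha2, hs⟩ := hp_series p
  refine ⟨a, ha, ha0, ha2, fun M hM => ?_⟩
  have h1 := hs M hM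
  have h2 := hs (-M) (by rwa [abs_neg])
  have h3 := (h1.add h2).mul_left (1 / 2)
  have hval : 1 / 2 * ((1 + M) ^ (p + 1) / (1 - M) ^ p + (1 + -M) ^ (p + 1) / (1 - -M) ^ p) =
      hp p M := by
    unfold hp
    rw [show (1:ℝ) + -M = 1 - M by ring, show (1:ℝ) - -M = 1 + M by ring]
    ring
  rw [hval] at h3
  have heq : (fun k => a k * ((M ^ k + (-M) ^ k) / 2)) =
      fun k => 1 / 2 * (a k * M ^ k + a k * (-M) ^ k) := by
    funext k; ring
  rw [heq]
  exact h3

theorem evenpart_nonneg (k : ℕ) (M : ℝ) : 0 ≤ (M ^ k + (-M) ^ k) / 2 := by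
  rcases Nat.even_or_odd k with h | h
  · rw [h.neg_pow]
    have := h.pow_nonneg M
    linarith
  · rw [h.neg_pow]; simp

/-- the power-series inequality -/
theorem hp_theta (p : ℕ) (θ M : ℝ) (h0 : 0 ≤ θ) (h1 : θ ≤ 1) (hM : |M| < 1) :
    hp p (θ * M) ≤ 1 + θ ^ 2 * (2 * (p + 1) * p * M ^ 2) + θ ^ 4 * (hp p M - 1 - 2 * (p + 1) * p * M ^ 2) := by
  obtain ⟨a, ha, ha0, ha2, hs⟩ := hp_hasSum p
  have hθM : |θ * M| < 1 := by
    rw [abs_mul, abs_of_nonneg h0]
    nlinarith [abs_nonneg M]
  have hA := hs (θ * M) hθM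
  have hB := (((hs M hM).mul_left (θ ^ 4)).add (hasSum_ite_eq 0 (1 - θ ^ 4))).add
    (hasSum_ite_eq 2 ((θ ^ 2 - θ ^ 4) * (2 * (p + 1) * p * M ^ 2)))
  have hle := hasSum_le (fun k => ?_) hA hB
  · refine hle.trans (le_of_eq ?_)
    ring
  · have he : ((θ * M) ^ k + (-(θ * M)) ^ k) / 2 = θ ^ k * ((M ^ k + (-M) ^ k) / 2) := by
      rw [show -(θ * M) = θ * (-M) by ring, mul_pow, mul_pow]; ring
    rw [he]
    have hnn := evenpart_nonneg k M
    by_cases hk0 : k = 0
    · subst hk0
      simp [ha0]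
    · by_cases hk2 : k = 2
      · subst hk2
        simp [ha2]
        nlinarith
      · simp only [hk0, hk2, if_false, add_zero]
        rcases Nat.even_or_odd k with hk | hk
        · have hk4 : 4 ≤ k := by
            rcases hk with ⟨r, hr⟩
            omega
          have hpow : θ ^ k ≤ θ ^ 4 := pow_le_pow_of_le_one h0 h1 hk4
          have := mul_le_mul_of_nonneg_right hpow (mul_nonneg (ha k) hnn)
          linarith
        · rw [hk.neg_pow]; simp

theorem hp_ge_quad (p : ℕ) (M : ℝ) (hM : |M| < 1) : 1 + 2 * (p + 1) * p * M ^ 2 ≤ hp p M := by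
  obtain ⟨a, ha, ha0, ha2, hs⟩ := hp_hasSum p
  have h := sum_le_hasSum ({0, 2} : Finset ℕ) (fun k _ => mul_nonneg (ha k) (evenpart_nonneg k M)) (hs M hM)
  rw [Finset.sum_pair (by decide)] at h
  simp only [ha0, ha2] at h
  refine le_trans (le_of_eq ?_) h
  ring

end RA

end Crest.Agent.TI
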