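import Crest.Agent.TI_PLa
import Crest.Agent.TI_RAb

/-!
Row S0241, task PLb: Bhattacharyya bound and exponential moments of the messages
-/

set_option autoImplicit false
set_option linter.unusedSectionVars false
set_option linter.unusedVariables false

namespace Crest.Agent.TI

open MeasureTheory Filter Topology
open Crest.Agent.SRF (Lab lab)

section PL

variable {V : Type*} [DecidableEq V] {G : SimpleGraph V}
variable {Ω : Type*} [MeasurableSpace Ω] {P : Measure Ω} [IsProbabilityMeasure P]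
  {l : Ω → V → Bool → ℝ} {H : ℝ}

/-! #### algebra of one window -/

theorem LData.plb_pos (hl : LData P l H) (ω : Ω) (v : V) (b : Bool) : 0 < l ω v b :=
  lt_of_lt_of_le (Real.exp_pos _) (hl.lower ω v b)

theorem LData.plb_measurable (hl : LData P l H) : Measurable l :=
  measurable_pi_iff.2 fun v => measurable_pi_iff.2 fun b => hl.meas v b

theorem plb_dd_cut_mn (hT : G.IsTree) (θ : ℝ) (h0 : 0 ≤ θ) (h1 : θ < 1) {W : Finset V} (hW : Win G W)
    {x y : V} (hx : x ∈ W) (hy : y ∈ W) (h : G.Adj x y) (m : V → Bool → ℝ) (hm : ∀ v b, 0 < m v b)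
    (c : Bool) :
    dd G θ W m x c = dd G θ (sd G W x y) m x c *
      (pt (ip G θ (sd G W y x)) (sd G W y x) m *
        (1 + θ * sg c * mn (ip G θ (sd G W y x)) (sd G W y x) m y)) := by
  have hB : Win G (sd G W y x) := win_sd hT hW hy h.symm
  have hyB : y ∈ sd G W y x := mem_sd_self hy h.symm
  have p1 := dd_pos hT θ h0 h1 hB m hm y hyB true
  have p2 := dd_pos hT θ h0 h1 hB m hm y hyB false
  rw [dd_cut hT θ hx hy h m c, pt_eq_dd _ _ _ y, mn_eq_dd]
  congr 1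
  have e1 : sg true = 1 := rfl
  have e2 : sg false = -1 := rfl
  rw [e1, e2]
  field_simp
  ring

theorem plb_one_add_mn_mul (hT : G.IsTree) (θ : ℝ) (h0 : 0 ≤ θ) (h1 : θ < 1) {W : Finset V}
    (hW : Win G W) {x : V} (hx : x ∈ W) (m : V → Bool → ℝ) (hm : ∀ v b, 0 < m v b) (c : Bool) :
    (1 + sg c * mn (ip G θ W) W m x) * pt (ip G θ W) W m = dd G θ W m x c := by
  have p1 := dd_pos hT θ h0 h1 hW m hm x hx true
  have p2 := dd_pos hT θ h0 h1 hW m hm x hx false
  rw [pt_eq_dd _ _ _ x, mn_eq_dd]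
  have e1 : sg true = 1 := rfl
  have e2 : sg false = -1 := rfl
  cases c
  · rw [e2]; field_simp; ring
  · rw [e1]; field_simp; ring

theorem plb_ptpos (hT : G.IsTree) (θ : ℝ) (h0 : 0 ≤ θ) (h1 : θ < 1) {W : Finset V}
    (hW : Win G W) (m : V → Bool → ℝ) (hm : ∀ v b, 0 < m v b) : 0 < pt (ip G θ W) W m := by
  obtain ⟨⟨x, hx⟩⟩ := hW.nonempty
  have p1 := dd_pos hT θ h0 h1 hW m hm x hx true
  have p2 := dd_pos hT θ h0 h1 hW m hm x hx false
  rw [pt_eq_dd _ _ _ x]
  linarith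

theorem plb_abs_mn_lt (hT : G.IsTree) (θ : ℝ) (h0 : 0 ≤ θ) (h1 : θ < 1) {W : Finset V}
    (hW : Win G W) {x : V} (hx : x ∈ W) (m : V → Bool → ℝ) (hm : ∀ v b, 0 < m v b) :
    |mn (ip G θ W) W m x| < 1 := by
  have p1 := dd_pos hT θ h0 h1 hW m hm x hx true
  have p2 := dd_pos hT θ h0 h1 hW m hm x hx false
  rw [mn_eq_dd, abs_div, abs_of_pos (add_pos p1 p2), div_lt_one (add_pos p1 p2), abs_lt]
  constructor <;> linarith

theorem plb_sqrt_dd_eq (hT : G.IsTree) (θ : ℝ) (h0 : 0 ≤ θ) (h1 : θ < 1) {W : Finset V}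
    (hW : Win G W) {x : V} (hx : x ∈ W) (m : V → Bool → ℝ) (hm : ∀ v b, 0 < m v b) :
    Real.sqrt (dd G θ W m x true * dd G θ W m x false) =
      Real.sqrt (1 - mn (ip G θ W) W m x ^ 2) * pt (ip G θ W) W m := by
  have hp := plb_ptpos hT θ h0 h1 hW m hm
  rw [← plb_one_add_mn_mul hT θ h0 h1 hW hx m hm true, ← plb_one_add_mn_mul hT θ h0 h1 hW hx m hm false]
  have e1 : sg true = 1 := rfl
  have e2 : sg false = -1 := rfl
  rw [e1, e2]
  have : (1 + 1 * mn (ip G θ W) W m x) * pt (ip G θ W) W m *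
      ((1 + -1 * mn (ip G θ W) W m x) * pt (ip G θ W) W m) =
      (1 - mn (ip G θ W) W m x ^ 2) * (pt (ip G θ W) W m * pt (ip G θ W) W m) := by ring
  rw [this, Real.sqrt_mul', Real.sqrt_mul_self hp.le]
  positivity

theorem plb_hp_mul_pt (hT : G.IsTree) (θ : ℝ) (h0 : 0 ≤ θ) (h1 : θ < 1) {W : Finset V}
    (hW : Win G W) {x : V} (hx : x ∈ W) (m : V → Bool → ℝ) (hm : ∀ v b, 0 < m v b) (p : ℕ) :
    hp p (mn (ip G θ W) W m x) * pt (ip G θ W) W m =
      (dd G θ W m x true ^ (p + 1) / dd G θ W m x false ^ p +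
        dd G θ W m x false ^ (p + 1) / dd G θ W m x true ^ p) / 2 := by
  have hp := plb_ptpos hT θ h0 h1 hW m hm
  have p1 := dd_pos hT θ h0 h1 hW m hm x hx true
  have p2 := dd_pos hT θ h0 h1 hW m hm x hx false
  have q1 := plb_one_add_mn_mul hT θ h0 h1 hW hx m hm true
  have q2 := plb_one_add_mn_mul hT θ h0 h1 hW hx m hm false
  have e1 : sg true = 1 := rfl
  have e2 : sg false = -1 := rfl
  rw [e1, one_mul] at q1
  rw [e2, neg_one_mul, ← sub_eq_add_neg] at q2
  rw [← q1] at p1 ⊢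
  rw [← q2] at p2 ⊢
  have r1 : 0 < 1 + mn (ip G θ W) W m x := pos_of_mul_pos_left p1 hp.le
  have r2 : 0 < 1 - mn (ip G θ W) W m x := pos_of_mul_pos_left p2 hp.le
  unfold Crest.Agent.TI.hp
  rw [mul_pow, mul_pow, mul_pow, mul_pow]
  field_simp
  ring

/-! #### peeling the children of the root -/

theorem plb_card_sd_lt {W : Finset V} {x y : V} (hy : y ∈ W) (h : G.Adj x y) :
    (sd G W x y).card < W.card := by
  apply Finset.card_lt_card
  refine ⟨Finset.filter_subset _ _, fun hsub => ?_⟩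
  have h1 := hsub hy
  rw [mem_sd, SimpleGraph.dist_self] at h1
  omega

theorem plb_notMem_sd {W : Finset V} {x y : V} (h : G.Adj x y) : y ∉ sd G W x y := by
  intro h1
  rw [mem_sd, SimpleGraph.dist_self] at h1
  omega

theorem plb_nb_sd [G.LocallyFinite] (hT : G.IsTree) {W : Finset V} {x c : V} (h : G.Adj x c) :
    G.neighborFinset x ∩ sd G W x c = (G.neighborFinset x ∩ W).erase c := by
  ext v
  rw [Finset.mem_inter, Finset.mem_erase, Finset.mem_inter, SimpleGraph.mem_neighborFinset, mem_sd]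
  constructor
  · rintro ⟨h1, h2, h3⟩
    refine ⟨?_, h1, h2⟩
    rintro rfl
    rw [SimpleGraph.dist_self] at h3
    omega
  · rintro ⟨h1, h2, h3⟩
    refine ⟨h2, h3, ?_⟩
    have d1 : G.dist v x = 1 := SimpleGraph.dist_eq_one_iff_adj.2 h2.symm
    rcases dist_edge hT h v with h4 | h4
    · omega
    · exfalso
      have : G.dist v c = 0 := by omega
      exact h1 (hT.connected.dist_eq_zero_iff.1 this)

theorem plb_nb_card_le [G.LocallyFinite] (b : ℕ) (hreg : G.IsRegularOfDegree (b + 1)) {W : Finset V}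
    {x z : V} (h : G.Adj x z) (hz : z ∉ W) : (G.neighborFinset x ∩ W).card ≤ b := by
  have h1 : G.neighborFinset x ∩ W ⊆ (G.neighborFinset x).erase z := by
    intro v hv
    rw [Finset.mem_inter] at hv
    rw [Finset.mem_erase]
    refine ⟨?_, hv.1⟩
    rintro rfl
    exact hz hv.2
  have h2 := Finset.card_le_card h1
  rw [Finset.card_erase_of_mem (by rw [SimpleGraph.mem_neighborFinset]; exact h),
    SimpleGraph.card_neighborFinset_eq_degree, hreg x] at h2
  omega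

theorem plb_peel_induction [G.LocallyFinite] (hT : G.IsTree) (b : ℕ)
    (hreg : G.IsRegularOfDegree (b + 1)) (Q : ℕ → Finset V → V → Prop)
    (base : ∀ x, Q 0 {x} x)
    (step : ∀ (W : Finset V) (x c : V) (k : ℕ), Win G W → x ∈ W → c ∈ W → G.Adj x c →
      Q k (sd G W x c) x → (∃ j ≤ b, Q j (sd G W c x) c) → Q (k + 1) W x) :
    ∀ (W : Finset V) (x : V), Win G W → x ∈ W → Q (G.neighborFinset x ∩ W).card W x := by
  intro W
  induction hn : W.card using Nat.strong_induction_on generalizing W with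
  | _ n ih =>
    intro x hW hx
    rcases Nat.eq_zero_or_pos (G.neighborFinset x ∩ W).card with hk | hk
    · rw [hk]
      have hempty := Finset.card_eq_zero.1 hk
      have hWx : W = {x} := by
        by_contra hne
        have : ∃ v ∈ W, v ≠ x := by
          by_contra hcon
          push Not at hcon
          apply hne
          ext v
          rw [Finset.mem_singleton]
          exact ⟨hcon v, fun h => h ▸ hx⟩
        obtain ⟨v, hv, hvx⟩ := this
        obtain ⟨a, ha, b', hb', hab, haF, hbF⟩ := win_exists_edge hW (F := {x}) hx hv rfl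
          (by simpa using hvx)
        have hax : a = x := haF
        subst hax
        have : b' ∈ G.neighborFinset a ∩ W := by
          rw [Finset.mem_inter, SimpleGraph.mem_neighborFinset]
          exact ⟨hab, hb'⟩
        rw [hempty] at this
        exact absurd this (Finset.notMem_empty _)
      rw [hWx]
      exact base x
    · obtain ⟨c, hc⟩ := Finset.card_pos.1 hk
      rw [Finset.mem_inter, SimpleGraph.mem_neighborFinset] at hc
      obtain ⟨hxc, hcW⟩ := hc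
      obtain ⟨k, hk'⟩ : ∃ k, (G.neighborFinset x ∩ W).card = k + 1 := ⟨_, (Nat.succ_pred_eq_of_pos hk).symm⟩
      rw [hk']
      have hA : (G.neighborFinset x ∩ sd G W x c).card = k := by
        rw [plb_nb_sd hT hxc, Finset.card_erase_of_mem, hk']
        · rfl
        · rw [Finset.mem_inter, SimpleGraph.mem_neighborFinset]
          exact ⟨hxc, hcW⟩
      apply step W x c k hW hx hcW hxc
      · have := ih _ (by rw [← hn]; exact plb_card_sd_lt hcW hxc) (sd G W x c) rfl x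
          (win_sd hT hW hx hxc) (mem_sd_self hx hxc)
        rwa [hA] at this
      · refine ⟨_, plb_nb_card_le b hreg hxc.symm (plb_notMem_sd hxc.symm), ih _ ?_ (sd G W c x) rfl c
          (win_sd hT hW hcW hxc.symm) (mem_sd_self hcW hxc.symm)⟩
        rw [← hn]
        exact plb_card_sd_lt hx hxc.symm

/-! #### measurability and integrability -/

theorem plb_measurable_bh (θ : ℝ) (W : Finset V) (x : V) :
    Measurable (fun m : V → Bool → ℝ => Real.sqrt (dd G θ W m x true * dd G θ W m x false)) :=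
  ((measurable_dd θ W x true).mul (measurable_dd θ W x false)).sqrt

theorem plb_depOn_pt (p : Finset V → ℝ) (W : Finset V) : DepOn W (fun m => pt p W m) :=
  fun m m' h => pt_congr p W m m' h

theorem plb_depOn_mn (p : Finset V → ℝ) (W : Finset V) (v : V) : DepOn W (fun m => mn p W m v) :=
  fun m m' h => mn_congr p W m m' h v

theorem plb_integrable_of_bdd (hl : LData P l H) (φ : (V → Bool → ℝ) → ℝ) (hφ : Measurable φ) (C : ℝ)
    (hC : ∀ ω, |φ (l ω)| ≤ C) : Integrable (fun ω => φ (l ω)) P :=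
  Integrable.of_bound (hφ.comp hl.plb_measurable).aestronglyMeasurable C
    (Filter.Eventually.of_forall hC)

theorem plb_integrable_dd (hl : LData P l H) (hT : G.IsTree) (θ : ℝ) (h0 : 0 ≤ θ) (h1 : θ < 1)
    {W : Finset V} (hW : Win G W) {x : V} (hx : x ∈ W) (c : Bool) :
    Integrable (fun ω => dd G θ W (l ω) x c) P := by
  obtain ⟨C, hC0, hC⟩ := dd_bdd hl hT θ h0 h1 hW x hx
  refine plb_integrable_of_bdd hl _ (measurable_dd θ W x c) C (fun ω => ?_)
  have h2 := hC ω c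
  have h3 : 0 < C⁻¹ := inv_pos.2 hC0
  rw [abs_of_pos (lt_of_lt_of_le h3 h2.1)]
  exact h2.2

theorem plb_integrable_pt (hl : LData P l H) (hT : G.IsTree) (θ : ℝ) (h0 : 0 ≤ θ) (h1 : θ < 1)
    {W : Finset V} (hW : Win G W) : Integrable (fun ω => pt (ip G θ W) W (l ω)) P := by
  obtain ⟨⟨x, hx⟩⟩ := hW.nonempty
  have h2 := plb_integrable_dd hl hT θ h0 h1 hW (x := x) hx true
  have h3 := plb_integrable_dd hl hT θ h0 h1 hW (x := x) hx false
  refine ((h2.add h3).div_const 2).congr (Filter.Eventually.of_forall fun ω => ?_)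
  simp only [Pi.add_apply]
  rw [pt_eq_dd _ _ _ x]

/-- a bounded function times the density is integrable -/
theorem plb_integrable_bdd_pt (hl : LData P l H) (hT : G.IsTree) (θ : ℝ) (h0 : 0 ≤ θ) (h1 : θ < 1)
    {W : Finset V} (hW : Win G W) (φ : (V → Bool → ℝ) → ℝ) (hφ : Measurable φ) (C : ℝ)
    (hC : ∀ ω, |φ (l ω)| ≤ C) : Integrable (fun ω => φ (l ω) * pt (ip G θ W) W (l ω)) P :=
  (plb_integrable_pt hl hT θ h0 h1 hW).bdd_mul (hφ.comp hl.plb_measurable).aestronglyMeasurable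
    (Filter.Eventually.of_forall hC)

/-! #### the Bhattacharyya coefficient -/

/-- the Bhattacharyya coefficient factorises across an edge -/
theorem bh_cut (hl : LData P l H) (hT : G.IsTree) (θ : ℝ) (h0 : 0 ≤ θ) (h1 : θ < 1)
    {W : Finset V} (hW : Win G W) {x y : V} (hx : x ∈ W) (hy : y ∈ W) (h : G.Adj x y) :
    ∫ ω, Real.sqrt (dd G θ W (l ω) x true * dd G θ W (l ω) x false) ∂P =
      (∫ ω, Real.sqrt (dd G θ (sd G W x y) (l ω) x true * dd G θ (sd G W x y) (l ω) x false) ∂P) *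
        ∫ ω, Real.sqrt (1 - θ ^ 2 * mn (ip G θ (sd G W y x)) (sd G W y x) (l ω) y ^ 2) *
          pt (ip G θ (sd G W y x)) (sd G W y x) (l ω) ∂P := by
  have key := integral_indep hl (sd_disjoint (G := G) W x y)
    (fun m => Real.sqrt (dd G θ (sd G W x y) m x true * dd G θ (sd G W x y) m x false))
    (fun m => Real.sqrt (1 - θ ^ 2 * mn (ip G θ (sd G W y x)) (sd G W y x) m y ^ 2) *
          pt (ip G θ (sd G W y x)) (sd G W y x) m)
    (plb_measurable_bh θ _ x)
    ((((measurable_mn _ _ y).pow_const 2).const_mul _ |>.const_sub _).sqrt.mul (measurable_pt _ _))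
    (fun m m' hm => by
      simp only
      rw [dd_congr θ _ m m' hm, dd_congr θ _ m m' hm])
    (fun m m' hm => by
      simp only
      rw [mn_congr _ _ m m' hm, pt_congr _ _ m m' hm])
  rw [← key]
  apply integral_congr_ae
  refine Filter.Eventually.of_forall fun ω => ?_
  simp only
  have hB : Win G (sd G W y x) := win_sd hT hW hy h.symm
  have hp := plb_ptpos hT θ h0 h1 hB (l ω) (hl.plb_pos ω)
  rw [plb_dd_cut_mn hT θ h0 h1 hW hx hy h (l ω) (hl.plb_pos ω) true,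
    plb_dd_cut_mn hT θ h0 h1 hW hx hy h (l ω) (hl.plb_pos ω) false]
  have e1 : sg true = 1 := rfl
  have e2 : sg false = -1 := rfl
  rw [e1, e2]
  set M := mn (ip G θ (sd G W y x)) (sd G W y x) (l ω) y
  set p := pt (ip G θ (sd G W y x)) (sd G W y x) (l ω)
  set a := dd G θ (sd G W x y) (l ω) x true
  set b := dd G θ (sd G W x y) (l ω) x false
  have : a * (p * (1 + θ * 1 * M)) * (b * (p * (1 + θ * -1 * M))) =
      (a * b) * (1 - θ ^ 2 * M ^ 2) * (p * p) := by ring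
  rw [this, Real.sqrt_mul', Real.sqrt_mul_self hp.le, Real.sqrt_mul', mul_assoc]
  · have hM := plb_abs_mn_lt hT θ h0 h1 hB (mem_sd_self hy h.symm) (l ω) (hl.plb_pos ω)
    have hM2 : M ^ 2 < 1 := by
      rw [← sq_abs]
      have := abs_nonneg M
      nlinarith
    have : θ ^ 2 * M ^ 2 ≤ 1 := by
      have h3 : θ ^ 2 ≤ 1 := by nlinarith
      nlinarith [sq_nonneg M, sq_nonneg θ]
    linarith
  · positivity

theorem plb_integrable_bh (hl : LData P l H) (hT : G.IsTree) (θ : ℝ) (h0 : 0 ≤ θ) (h1 : θ < 1)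
    {W : Finset V} (hW : Win G W) {x : V} (hx : x ∈ W) :
    Integrable (fun ω => Real.sqrt (dd G θ W (l ω) x true * dd G θ W (l ω) x false)) P := by
  obtain ⟨C, hC0, hC⟩ := dd_bdd hl hT θ h0 h1 hW x hx
  refine plb_integrable_of_bdd hl _ (plb_measurable_bh θ W x) C (fun ω => ?_)
  rw [abs_of_nonneg (Real.sqrt_nonneg _)]
  have p1 := dd_pos hT θ h0 h1 hW (l ω) (hl.plb_pos ω) x hx true
  have p2 := dd_pos hT θ h0 h1 hW (l ω) (hl.plb_pos ω) x hx false
  rw [Real.sqrt_le_left hC0.le]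
  rw [sq]
  exact mul_le_mul (hC ω true).2 (hC ω false).2 p2.le hC0.le

theorem bh_le_one (hl : LData P l H) (hT : G.IsTree) (θ : ℝ) (h0 : 0 ≤ θ) (h1 : θ < 1)
    {W : Finset V} (hW : Win G W) {x : V} (hx : x ∈ W) :
    ∫ ω, Real.sqrt (dd G θ W (l ω) x true * dd G θ W (l ω) x false) ∂P ≤ 1 := by
  rw [← integral_pt hl hT θ h0 h1 hW]
  apply integral_mono (plb_integrable_bh hl hT θ h0 h1 hW hx) (plb_integrable_pt hl hT θ h0 h1 hW)
  intro ω
  simp only
  have p1 := dd_pos hT θ h0 h1 hW (l ω) (hl.plb_pos ω) x hx true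
  have p2 := dd_pos hT θ h0 h1 hW (l ω) (hl.plb_pos ω) x hx false
  rw [pt_eq_dd _ _ _ x, Real.sqrt_le_left (by linarith)]
  nlinarith [sq_nonneg (dd G θ W (l ω) x true - dd G θ W (l ω) x false)]

theorem plb_sqrt_concave (t x : ℝ) (ht0 : 0 ≤ t) (ht1 : t ≤ 1) (hx0 : 0 ≤ x) (hx1 : x ≤ 1) :
    1 - t + t * Real.sqrt (1 - x) ≤ Real.sqrt (1 - t * x) := by
  apply Real.le_sqrt_of_sq_le
  have h1 := Real.sq_sqrt (show 0 ≤ 1 - x by linarith)
  set s := Real.sqrt (1 - x)
  have h2 : x = 1 - s ^ 2 := by linarith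
  rw [h2]
  nlinarith [mul_nonneg (mul_nonneg ht0 (sub_nonneg.2 ht1)) (sq_nonneg (1 - s))]

theorem plb_bern2 (u : ℝ) (h0 : 0 ≤ u) (h1 : u ≤ 1) (b : ℕ) (hb : 2 ≤ b) :
    1 - b * u + u ^ 2 ≤ (1 - u) ^ b := by
  induction b, hb using Nat.le_induction with
  | base => push_cast; nlinarith
  | succ n hn ih =>
    rw [pow_succ]
    have h2 := mul_le_mul_of_nonneg_right ih (sub_nonneg.2 h1)
    refine le_trans ?_ h2
    push_cast
    have h3 : (2 : ℝ) ≤ n := by exact_mod_cast hn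
    nlinarith [mul_nonneg (mul_nonneg h0 h0) (show (0 : ℝ) ≤ n - u by linarith)]

theorem plb_theta_facts (b : ℕ) (hb : 2 ≤ b) (θ : ℝ) (h0 : 0 ≤ θ) (h1 : (b : ℝ) * θ ^ 2 ≤ 1) :
    θ ^ 2 ≤ 1 / 2 ∧ θ < 1 := by
  have h2 : (2 : ℝ) ≤ b := by exact_mod_cast hb
  have h3 : θ ^ 2 ≤ 1 / 2 := by nlinarith [sq_nonneg θ]
  refine ⟨h3, ?_⟩
  by_contra h4
  push Not at h4
  nlinarith

/-- scalar inequality for `bh_lower` -/
theorem plb_bh_scalar (b : ℕ) (hb : 2 ≤ b) (θ : ℝ) (h0 : 0 ≤ θ) (h1 : (b : ℝ) * θ ^ 2 ≤ 1)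
    (s0 y : ℝ) (hy0 : 0 ≤ y) (hy1 : y ≤ 1) (hs0 : 0 ≤ s0) (hsy : s0 ≤ θ ^ 4 * y ^ 2) (k : ℕ)
    (hk : k ≤ b) : 1 - y ≤ (1 - s0) * (1 - θ ^ 2 * y) ^ k := by
  obtain ⟨h2, h3⟩ := plb_theta_facts b hb θ h0 h1
  set u := θ ^ 2 * y with hu
  have hu0 : 0 ≤ u := by positivity
  have hu1 : u ≤ y / 2 := by nlinarith
  have hu2 : u ^ 2 ≤ y / 4 := by nlinarith
  have hs1 : s0 ≤ u ^ 2 := by
    have : θ ^ 4 * y ^ 2 = u ^ 2 := by rw [hu]; ring
    linarith
  have h4 : (1 - u) ^ b ≤ (1 - u) ^ k := pow_le_pow_of_le_one (by linarith) (by linarith) hk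
  have h5 := plb_bern2 u hu0 (by linarith) b hb
  have h6 : (b : ℝ) * u ≤ y := by
    have : (b : ℝ) * u = (b * θ ^ 2) * y := by rw [hu]; ring
    rw [this]
    nlinarith
  have h7 : 1 - y + u ^ 2 ≤ (1 - u) ^ k := by linarith
  have h8 : (1 - s0) * (1 - y + u ^ 2) ≤ (1 - s0) * (1 - u) ^ k :=
    mul_le_mul_of_nonneg_left h7 (by nlinarith)
  nlinarith

theorem plb_integral_sqrt_ge (hl : LData P l H) (hT : G.IsTree) (θ : ℝ) (h0 : 0 ≤ θ) (h1 : θ < 1)
    {W : Finset V} (hW : Win G W) {x : V} (hx : x ∈ W) :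
    1 - θ ^ 2 + θ ^ 2 * ∫ ω, Real.sqrt (dd G θ W (l ω) x true * dd G θ W (l ω) x false) ∂P ≤
      ∫ ω, Real.sqrt (1 - θ ^ 2 * mn (ip G θ W) W (l ω) x ^ 2) * pt (ip G θ W) W (l ω) ∂P := by
  have hθ : θ ^ 2 ≤ 1 := by nlinarith
  have hM2 : ∀ ω, mn (ip G θ W) W (l ω) x ^ 2 ≤ 1 := by
    intro ω
    have := plb_abs_mn_lt hT θ h0 h1 hW hx (l ω) (hl.plb_pos ω)
    rw [← sq_abs]
    have := abs_nonneg (mn (ip G θ W) W (l ω) x)
    nlinarith
  have hi1 := plb_integrable_pt hl hT θ h0 h1 hW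
  have hi2 := plb_integrable_bh hl hT θ h0 h1 hW hx
  have h2 : 1 - θ ^ 2 + θ ^ 2 * ∫ ω, Real.sqrt (dd G θ W (l ω) x true * dd G θ W (l ω) x false) ∂P =
      ∫ ω, ((1 - θ ^ 2) * pt (ip G θ W) W (l ω) +
        θ ^ 2 * Real.sqrt (dd G θ W (l ω) x true * dd G θ W (l ω) x false)) ∂P := by
    rw [integral_add (hi1.const_mul _) (hi2.const_mul _), integral_const_mul, integral_const_mul,
      integral_pt hl hT θ h0 h1 hW, mul_one]
  rw [h2]
  apply integral_mono ((hi1.const_mul _).add (hi2.const_mul _))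
  · apply plb_integrable_bdd_pt hl hT θ h0 h1 hW
      (fun m => Real.sqrt (1 - θ ^ 2 * mn (ip G θ W) W m x ^ 2))
      ((((measurable_mn _ _ x).pow_const 2).const_mul _ |>.const_sub _).sqrt) 1
    intro ω
    rw [abs_of_nonneg (Real.sqrt_nonneg _)]
    apply Real.sqrt_le_one.2
    have := mul_nonneg (sq_nonneg θ) (sq_nonneg (mn (ip G θ W) W (l ω) x))
    linarith
  · intro ω
    simp only [Pi.add_apply]
    rw [plb_sqrt_dd_eq hT θ h0 h1 hW hx (l ω) (hl.plb_pos ω), ← mul_assoc, ← add_mul]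
    apply mul_le_mul_of_nonneg_right _ (plb_ptpos hT θ h0 h1 hW (l ω) (hl.plb_pos ω)).le
    exact plb_sqrt_concave _ _ (sq_nonneg θ) hθ (sq_nonneg _) (hM2 ω)

/-- lower bound for the Bhattacharyya coefficient of rooted windows -/
theorem bh_lower [G.LocallyFinite] (hl : LData P l H) (hT : G.IsTree) (b : ℕ) (hb : 2 ≤ b)
    (hreg : G.IsRegularOfDegree (b + 1)) (θ : ℝ) (h0 : 0 ≤ θ) (h1 : (b : ℝ) * θ ^ 2 ≤ 1)
    (s0 y : ℝ) (hy0 : 0 ≤ y) (hy1 : y ≤ 1) (hs0 : 0 ≤ s0) (hsy : s0 ≤ θ ^ 4 * y ^ 2)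
    (hs : ∀ v, 1 - s0 ≤ ∫ ω, Real.sqrt (l ω v true * l ω v false) ∂P) :
    ∀ (W : Finset V) (x : V), Win G W → x ∈ W → (∃ z, G.Adj x z ∧ z ∉ W) →
      1 - y ≤ ∫ ω, Real.sqrt (dd G θ W (l ω) x true * dd G θ W (l ω) x false) ∂P := by
  obtain ⟨h2, h3⟩ := plb_theta_facts b hb θ h0 h1
  have hθy : 0 ≤ 1 - θ ^ 2 * y := by nlinarith
  have hs01 : 0 ≤ 1 - s0 := by
    have h4 : θ ^ 4 = θ ^ 2 * θ ^ 2 := by ring
    have h5 : θ ^ 4 ≤ 1 := by rw [h4]; nlinarith [sq_nonneg θ]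
    have h6 : y ^ 2 ≤ 1 := by nlinarith
    have h7 : 0 ≤ θ ^ 4 := by positivity
    nlinarith [mul_le_mul h5 h6 (sq_nonneg y) zero_le_one]
  have key := plb_peel_induction hT b hreg (Q := fun k W x => Win G W → x ∈ W →
    (1 - s0) * (1 - θ ^ 2 * y) ^ k ≤
      ∫ ω, Real.sqrt (dd G θ W (l ω) x true * dd G θ W (l ω) x false) ∂P)
    (by
      intro x _ _
      rw [pow_zero, mul_one]
      simp only [dd_singleton]
      exact hs x)
    (by
      intro W x c k hW hx hc hxc hA hB _ _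
      have hA' := hA (win_sd hT hW hx hxc) (mem_sd_self hx hxc)
      obtain ⟨j, hj, hB'⟩ := hB
      have hBw := win_sd hT hW hc hxc.symm
      have hcB := mem_sd_self hc hxc.symm
      have hB'' := hB' hBw hcB
      rw [bh_cut hl hT θ h0 h3 hW hx hc hxc, pow_succ, ← mul_assoc]
      apply mul_le_mul hA' _ hθy
      · exact integral_nonneg fun ω => Real.sqrt_nonneg _
      · refine le_trans ?_ (plb_integral_sqrt_ge hl hT θ h0 h3 hBw hcB)
        have h5 := plb_bh_scalar b hb θ h0 h1 s0 y hy0 hy1 hs0 hsy j hj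
        have h6 := h5.trans hB''
        nlinarith [sq_nonneg θ])
  intro W x hW hx hz
  obtain ⟨z, hz, hzW⟩ := hz
  exact (plb_bh_scalar b hb θ h0 h1 s0 y hy0 hy1 hs0 hsy _ (plb_nb_card_le b hreg hz hzW)).trans
    (key W x hW hx hW hx)

theorem q_upper [G.LocallyFinite] (hl : LData P l H) (hT : G.IsTree) (b : ℕ) (hb : 2 ≤ b)
    (hreg : G.IsRegularOfDegree (b + 1)) (θ : ℝ) (h0 : 0 ≤ θ) (h1 : (b : ℝ) * θ ^ 2 ≤ 1)
    (s0 y : ℝ) (hy0 : 0 ≤ y) (hy1 : y ≤ 1) (hs0 : 0 ≤ s0) (hsy : s0 ≤ θ ^ 4 * y ^ 2)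
    (hs : ∀ v, 1 - s0 ≤ ∫ ω, Real.sqrt (l ω v true * l ω v false) ∂P) :
    ∀ (W : Finset V) (x : V), Win G W → x ∈ W → (∃ z, G.Adj x z ∧ z ∉ W) →
      ∫ ω, mn (ip G θ W) W (l ω) x ^ 2 * pt (ip G θ W) W (l ω) ∂P ≤ 2 * y := by
  intro W x hW hx hz
  obtain ⟨h2, h3⟩ := plb_theta_facts b hb θ h0 h1
  have key := bh_lower hl hT b hb hreg θ h0 h1 s0 y hy0 hy1 hs0 hsy hs W x hW hx hz
  have hi1 := plb_integrable_pt hl hT θ h0 h3 hW
  have hi2 := plb_integrable_bh hl hT θ h0 h3 hW hx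
  have hM2 : ∀ ω, mn (ip G θ W) W (l ω) x ^ 2 ≤ 1 := by
    intro ω
    have := plb_abs_mn_lt hT θ h0 h3 hW hx (l ω) (hl.plb_pos ω)
    rw [← sq_abs]
    have := abs_nonneg (mn (ip G θ W) W (l ω) x)
    nlinarith
  have h4 : ∫ ω, mn (ip G θ W) W (l ω) x ^ 2 * pt (ip G θ W) W (l ω) ∂P ≤
      ∫ ω, (2 * pt (ip G θ W) W (l ω) -
        2 * Real.sqrt (dd G θ W (l ω) x true * dd G θ W (l ω) x false)) ∂P := by
    apply integral_mono _ ((hi1.const_mul _).sub (hi2.const_mul _))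
    · intro ω
      simp only [Pi.sub_apply]
      rw [plb_sqrt_dd_eq hT θ h0 h3 hW hx (l ω) (hl.plb_pos ω)]
      have hp := plb_ptpos hT θ h0 h3 hW (l ω) (hl.plb_pos ω)
      have h5 := Real.sq_sqrt (show 0 ≤ 1 - mn (ip G θ W) W (l ω) x ^ 2 by linarith [hM2 ω])
      have h6 : Real.sqrt (1 - mn (ip G θ W) W (l ω) x ^ 2) ≤ 1 := by
        apply Real.sqrt_le_one.2
        linarith [sq_nonneg (mn (ip G θ W) W (l ω) x)]
      have h7 := Real.sqrt_nonneg (1 - mn (ip G θ W) W (l ω) x ^ 2)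
      set s := Real.sqrt (1 - mn (ip G θ W) W (l ω) x ^ 2)
      have h8 : mn (ip G θ W) W (l ω) x ^ 2 ≤ 2 - 2 * s := by nlinarith
      have := mul_le_mul_of_nonneg_right h8 hp.le
      nlinarith
    · apply plb_integrable_bdd_pt hl hT θ h0 h3 hW (fun m => mn (ip G θ W) W m x ^ 2)
        ((measurable_mn _ _ x).pow_const 2) 1
      intro ω
      rw [abs_of_nonneg (sq_nonneg _)]
      exact hM2 ω
  rw [integral_sub (hi1.const_mul _) (hi2.const_mul _), integral_const_mul, integral_const_mul,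
      integral_pt hl hT θ h0 h3 hW] at h4
  linarith

/-! #### the planted moment generating function -/

/-- the planted moment `E (D⁺)^{p+1}/(D⁻)^p` -/
noncomputable def plb_mo (G : SimpleGraph V) (θ : ℝ) (W : Finset V) (x : V) (p : ℕ) (m : V → Bool → ℝ) : ℝ :=
  dd G θ W m x true ^ (p + 1) / dd G θ W m x false ^ p

theorem plb_measurable_mo (θ : ℝ) (W : Finset V) (x : V) (p : ℕ) :
    Measurable (fun m : V → Bool → ℝ => plb_mo G θ W x p m) :=
  ((measurable_dd θ W x true).pow_const _).div ((measurable_dd θ W x false).pow_const _)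

theorem plb_depOn_mo (θ : ℝ) (W : Finset V) (x : V) (p : ℕ) : DepOn W (fun m => plb_mo G θ W x p m) := by
  intro m m' hm
  simp only [plb_mo]
  rw [dd_congr θ _ m m' hm, dd_congr θ _ m m' hm]

theorem plb_mo_flip (θ : ℝ) {W : Finset V} {x : V} (hx : x ∈ W) (p : ℕ) (m : V → Bool → ℝ) :
    plb_mo G θ W x p (fun v c => m v (!c)) = dd G θ W m x false ^ (p + 1) / dd G θ W m x true ^ p := by
  unfold plb_mo
  rw [dd_flip θ W m x true hx, dd_flip θ W m x false hx]
  rfl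

theorem plb_integrable_mo (hl : LData P l H) (hT : G.IsTree) (θ : ℝ) (h0 : 0 ≤ θ) (h1 : θ < 1)
    {W : Finset V} (hW : Win G W) {x : V} (hx : x ∈ W) (p : ℕ) :
    Integrable (fun ω => plb_mo G θ W x p (l ω)) P := by
  obtain ⟨C, hC0, hC⟩ := dd_bdd hl hT θ h0 h1 hW x hx
  refine plb_integrable_of_bdd hl _ (plb_measurable_mo θ W x p) (C ^ (p + 1) / (C⁻¹) ^ p) (fun ω => ?_)
  have p1 := dd_pos hT θ h0 h1 hW (l ω) (hl.plb_pos ω) x hx true
  have p2 := dd_pos hT θ h0 h1 hW (l ω) (hl.plb_pos ω) x hx false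
  unfold plb_mo
  rw [abs_of_pos (by positivity)]
  apply div_le_div₀ (by positivity) (pow_le_pow_left₀ p1.le (hC ω true).2 _) (by positivity)
    (pow_le_pow_left₀ (by positivity) (hC ω false).1 _)

theorem plb_integrable_mo' (hl : LData P l H) (hT : G.IsTree) (θ : ℝ) (h0 : 0 ≤ θ) (h1 : θ < 1)
    {W : Finset V} (hW : Win G W) {x : V} (hx : x ∈ W) (p : ℕ) :
    Integrable (fun ω => dd G θ W (l ω) x false ^ (p + 1) / dd G θ W (l ω) x true ^ p) P := by
  obtain ⟨C, hC0, hC⟩ := dd_bdd hl hT θ h0 h1 hW x hx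
  refine plb_integrable_of_bdd hl (fun m => dd G θ W m x false ^ (p + 1) / dd G θ W m x true ^ p)
    (((measurable_dd θ W x false).pow_const _).div ((measurable_dd θ W x true).pow_const _))
    (C ^ (p + 1) / (C⁻¹) ^ p) (fun ω => ?_)
  have p1 := dd_pos hT θ h0 h1 hW (l ω) (hl.plb_pos ω) x hx true
  have p2 := dd_pos hT θ h0 h1 hW (l ω) (hl.plb_pos ω) x hx false
  rw [abs_of_pos (by positivity)]
  apply div_le_div₀ (by positivity) (pow_le_pow_left₀ p2.le (hC ω false).2 _) (by positivity)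
    (pow_le_pow_left₀ (by positivity) (hC ω true).1 _)

theorem plb_integral_hp (hl : LData P l H) (hT : G.IsTree) (θ : ℝ) (h0 : 0 ≤ θ) (h1 : θ < 1)
    {W : Finset V} (hW : Win G W) {x : V} (hx : x ∈ W) (p : ℕ) :
    ∫ ω, hp p (mn (ip G θ W) W (l ω) x) * pt (ip G θ W) W (l ω) ∂P = ∫ ω, plb_mo G θ W x p (l ω) ∂P := by
  have e : ∀ ω, hp p (mn (ip G θ W) W (l ω) x) * pt (ip G θ W) W (l ω) =
      (plb_mo G θ W x p (l ω) + dd G θ W (l ω) x false ^ (p + 1) / dd G θ W (l ω) x true ^ p) / 2 :=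
    fun ω => plb_hp_mul_pt hT θ h0 h1 hW hx (l ω) (hl.plb_pos ω) p
  simp_rw [e]
  rw [integral_div, integral_add (plb_integrable_mo hl hT θ h0 h1 hW hx p)
    (plb_integrable_mo' hl hT θ h0 h1 hW hx p)]
  have hf := integral_flip hl (fun m => plb_mo G θ W x p m) (plb_measurable_mo θ W x p) (plb_depOn_mo θ W x p)
  have hf2 : ∫ ω, dd G θ W (l ω) x false ^ (p + 1) / dd G θ W (l ω) x true ^ p ∂P =
      ∫ ω, plb_mo G θ W x p (l ω) ∂P := by
    rw [← hf]
    apply integral_congr_ae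
    exact Filter.Eventually.of_forall fun ω => (plb_mo_flip θ hx p (l ω)).symm
  rw [hf2]
  ring

theorem plb_mn_flip (θ : ℝ) {W : Finset V} {x : V} (hx : x ∈ W) (m : V → Bool → ℝ) :
    mn (ip G θ W) W (fun v c => m v (!c)) x = -mn (ip G θ W) W m x := by
  rw [mn_eq_dd, mn_eq_dd, dd_flip θ W m x true hx, dd_flip θ W m x false hx, ← neg_div]
  simp only [Bool.not_true, Bool.not_false]
  rw [neg_sub, add_comm]

theorem plb_pt_flip (θ : ℝ) {W : Finset V} {x : V} (hx : x ∈ W) (m : V → Bool → ℝ) :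
    pt (ip G θ W) W (fun v c => m v (!c)) = pt (ip G θ W) W m := by
  rw [pt_eq_dd _ _ _ x, pt_eq_dd _ _ _ x, dd_flip θ W m x true hx, dd_flip θ W m x false hx]
  simp only [Bool.not_true, Bool.not_false]
  rw [add_comm]

theorem plb_integrable_half (hl : LData P l H) (hT : G.IsTree) (θ : ℝ) (h0 : 0 ≤ θ) (h1 : θ < 1)
    {W : Finset V} (hW : Win G W) {x : V} (hx : x ∈ W) (p : ℕ) (s : ℝ) (hs : |s| ≤ θ) :
    Integrable (fun ω => (1 + s * mn (ip G θ W) W (l ω) x) ^ (p + 1) /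
      (1 - s * mn (ip G θ W) W (l ω) x) ^ p * pt (ip G θ W) W (l ω)) P := by
  apply plb_integrable_bdd_pt hl hT θ h0 h1 hW
    (fun m => (1 + s * mn (ip G θ W) W m x) ^ (p + 1) / (1 - s * mn (ip G θ W) W m x) ^ p)
    (((((measurable_mn _ _ x).const_mul _).const_add _).pow_const _).div
      ((((measurable_mn _ _ x).const_mul _).const_sub _).pow_const _))
    (2 ^ (p + 1) / (1 - θ) ^ p)
  intro ω
  have hM := plb_abs_mn_lt hT θ h0 h1 hW hx (l ω) (hl.plb_pos ω)
  have hsM : |s * mn (ip G θ W) W (l ω) x| ≤ θ := by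
    rw [abs_mul]
    nlinarith [abs_nonneg s, abs_nonneg (mn (ip G θ W) W (l ω) x)]
  rw [abs_le] at hsM
  have h2 : 0 < 1 - θ := by linarith
  rw [abs_of_nonneg (div_nonneg (pow_nonneg (by linarith) _) (pow_nonneg (by linarith) _))]
  apply div_le_div₀ (by positivity) (pow_le_pow_left₀ (by linarith) (by linarith) _) (by positivity)
    (pow_le_pow_left₀ (by linarith) (by linarith) _)

/-- the planted moment generating function factorises across an edge -/
theorem hp_cut (hl : LData P l H) (hT : G.IsTree) (θ : ℝ) (h0 : 0 ≤ θ) (h1 : θ < 1) (p : ℕ)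
    {W : Finset V} (hW : Win G W) {x y : V} (hx : x ∈ W) (hy : y ∈ W) (h : G.Adj x y) :
    ∫ ω, hp p (mn (ip G θ W) W (l ω) x) * pt (ip G θ W) W (l ω) ∂P =
      (∫ ω, hp p (mn (ip G θ (sd G W x y)) (sd G W x y) (l ω) x) *
        pt (ip G θ (sd G W x y)) (sd G W x y) (l ω) ∂P) *
      ∫ ω, hp p (θ * mn (ip G θ (sd G W y x)) (sd G W y x) (l ω) y) *
        pt (ip G θ (sd G W y x)) (sd G W y x) (l ω) ∂P := by
  have hA : Win G (sd G W x y) := win_sd hT hW hx h
  have hxA : x ∈ sd G W x y := mem_sd_self hx h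
  have hB : Win G (sd G W y x) := win_sd hT hW hy h.symm
  have hyB : y ∈ sd G W y x := mem_sd_self hy h.symm
  rw [plb_integral_hp hl hT θ h0 h1 hW hx, plb_integral_hp hl hT θ h0 h1 hA hxA]
  -- the function of the far side
  set φ : (V → Bool → ℝ) → ℝ := fun m => (1 + θ * mn (ip G θ (sd G W y x)) (sd G W y x) m y) ^ (p + 1) /
      (1 - θ * mn (ip G θ (sd G W y x)) (sd G W y x) m y) ^ p *
      pt (ip G θ (sd G W y x)) (sd G W y x) m with hφ
  have hφm : Measurable φ :=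
    (((((measurable_mn _ _ y).const_mul _).const_add _).pow_const _).div
      ((((measurable_mn _ _ y).const_mul _).const_sub _).pow_const _)).mul (measurable_pt _ _)
  have hφd : DepOn (sd G W y x) φ := by
    intro m m' hm
    simp only [hφ]
    rw [mn_congr _ _ m m' hm, pt_congr _ _ m m' hm]
  have h2 : ∫ ω, hp p (θ * mn (ip G θ (sd G W y x)) (sd G W y x) (l ω) y) *
        pt (ip G θ (sd G W y x)) (sd G W y x) (l ω) ∂P = ∫ ω, φ (l ω) ∂P := by
    have hf := integral_flip hl φ hφm hφd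
    have e : ∀ ω, hp p (θ * mn (ip G θ (sd G W y x)) (sd G W y x) (l ω) y) *
        pt (ip G θ (sd G W y x)) (sd G W y x) (l ω) =
        (φ (l ω) + φ (fun v c => l ω v (!c))) / 2 := by
      intro ω
      simp only [hφ]
      rw [plb_mn_flip θ hyB, plb_pt_flip θ hyB]
      unfold hp
      rw [mul_neg, sub_neg_eq_add, ← sub_eq_add_neg]
      ring
    simp_rw [e]
    have i1 : Integrable (fun ω => φ (l ω)) P :=
      plb_integrable_half hl hT θ h0 h1 hB hyB p θ (by rw [abs_of_nonneg h0])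
    have i2 : Integrable (fun ω => φ (fun v c => l ω v (!c))) P := by
      have := plb_integrable_half hl hT θ h0 h1 hB hyB p (-θ) (by rw [abs_neg, abs_of_nonneg h0])
      refine this.congr (Filter.Eventually.of_forall fun ω => ?_)
      simp only [hφ]
      rw [plb_mn_flip θ hyB, plb_pt_flip θ hyB, neg_mul, mul_neg]
    rw [integral_div, integral_add i1 i2, hf]
    ring
  rw [h2, ← integral_indep hl (sd_disjoint (G := G) W x y) (fun m => plb_mo G θ (sd G W x y) x p m) φ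
    (plb_measurable_mo θ _ x p) hφm (plb_depOn_mo θ _ x p) hφd]
  apply integral_congr_ae
  refine Filter.Eventually.of_forall fun ω => ?_
  simp only [plb_mo, hφ]
  have hp := plb_ptpos hT θ h0 h1 hB (l ω) (hl.plb_pos ω)
  have p1 := dd_pos hT θ h0 h1 hA (l ω) (hl.plb_pos ω) x hxA true
  have p2 := dd_pos hT θ h0 h1 hA (l ω) (hl.plb_pos ω) x hxA false
  rw [plb_dd_cut_mn hT θ h0 h1 hW hx hy h (l ω) (hl.plb_pos ω) true,
    plb_dd_cut_mn hT θ h0 h1 hW hx hy h (l ω) (hl.plb_pos ω) false]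
  have e1 : sg true = 1 := rfl
  have e2 : sg false = -1 := rfl
  have hM := plb_abs_mn_lt hT θ h0 h1 hB hyB (l ω) (hl.plb_pos ω)
  rw [e1, e2, mul_one, mul_neg_one, neg_mul, ← sub_eq_add_neg]
  set M := mn (ip G θ (sd G W y x)) (sd G W y x) (l ω) y
  set q := pt (ip G θ (sd G W y x)) (sd G W y x) (l ω)
  have hθM : |θ * M| < 1 := by
    rw [abs_mul, abs_of_nonneg h0]
    nlinarith [abs_nonneg M]
  rw [abs_lt] at hθM
  have r1 : 0 < 1 + θ * M := by linarith
  have r2 : 0 < 1 - θ * M := by linarith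
  rw [mul_pow, mul_pow, mul_pow, mul_pow]
  field_simp
  try ring

theorem plb_exp_three (e : ℝ) (h0 : 0 ≤ e) (h1 : e ≤ 1 / 10) : Real.exp (3 * e) ≤ 1 + 4 * e := by
  have h2 : |3 * e| ≤ 1 := by rw [abs_of_nonneg (by linarith)]; linarith
  have h3 := Real.abs_exp_sub_one_sub_id_le h2
  rw [abs_le] at h3
  nlinarith [h3.2]

theorem hp_upper [G.LocallyFinite] (hl : LData P l H) (hT : G.IsTree) (b : ℕ) (hb : 2 ≤ b)
    (hreg : G.IsRegularOfDegree (b + 1)) (θ : ℝ) (h0 : 0 ≤ θ) (h1 : (b : ℝ) * θ ^ 2 ≤ 1)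
    (s0 y : ℝ) (hy0 : 0 ≤ y) (hy1 : y ≤ 1) (hs0 : 0 ≤ s0) (hsy : s0 ≤ θ ^ 4 * y ^ 2)
    (hs : ∀ v, 1 - s0 ≤ ∫ ω, Real.sqrt (l ω v true * l ω v false) ∂P)
    (p : ℕ) (x0 : ℝ) (hx0 : 0 ≤ x0)
    (hx : ∀ v, ∫ ω, (l ω v true) ^ (p + 1) / (l ω v false) ^ p ∂P ≤ 1 + x0)
    (hsmall : 4 * ((p : ℝ) + 1) * p * y + x0 ≤ 1 / 10) :
    ∀ (W : Finset V) (x : V), Win G W → x ∈ W → (∃ z, G.Adj x z ∧ z ∉ W) →
      ∫ ω, hp p (mn (ip G θ W) W (l ω) x) * pt (ip G θ W) W (l ω) ∂P ≤ 2 := by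
  obtain ⟨h2, h3⟩ := plb_theta_facts b hb θ h0 h1
  set e := 4 * ((p : ℝ) + 1) * p * y + x0 with he
  have he0 : 0 ≤ e := by positivity
  set r := 1 + θ ^ 2 * (4 * ((p : ℝ) + 1) * p * y) + θ ^ 4 * (4 * e) with hr
  have hr1 : 1 ≤ r := by
    have : 0 ≤ θ ^ 2 * (4 * ((p : ℝ) + 1) * p * y) + θ ^ 4 * (4 * e) := by positivity
    linarith
  -- the scalar bound
  have hscal : ∀ k ≤ b, (1 + x0) * r ^ k ≤ 1 + 4 * e := by
    intro k hk
    have h4 : (1 + x0) * r ^ k ≤ (1 + x0) * r ^ b :=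
      mul_le_mul_of_nonneg_left (pow_le_pow_right₀ hr1 hk) (by linarith)
    have h5 : r ≤ Real.exp (θ ^ 2 * (4 * ((p : ℝ) + 1) * p * y) + θ ^ 4 * (4 * e)) := by
      have := Real.add_one_le_exp (θ ^ 2 * (4 * ((p : ℝ) + 1) * p * y) + θ ^ 4 * (4 * e))
      linarith
    have h6 : r ^ b ≤ Real.exp (b * (θ ^ 2 * (4 * ((p : ℝ) + 1) * p * y) + θ ^ 4 * (4 * e))) := by
      rw [Real.exp_nat_mul]
      exact pow_le_pow_left₀ (by linarith) h5 b
    have h7 : 1 + x0 ≤ Real.exp x0 := by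
      have := Real.add_one_le_exp x0
      linarith
    have h8 : (1 + x0) * r ^ b ≤
        Real.exp (x0 + b * (θ ^ 2 * (4 * ((p : ℝ) + 1) * p * y) + θ ^ 4 * (4 * e))) := by
      rw [Real.exp_add]
      exact mul_le_mul h7 h6 (by positivity) (Real.exp_pos _).le
    have h9 : x0 + b * (θ ^ 2 * (4 * ((p : ℝ) + 1) * p * y) + θ ^ 4 * (4 * e)) ≤ 3 * e := by
      have e1 : x0 + b * (θ ^ 2 * (4 * ((p : ℝ) + 1) * p * y) + θ ^ 4 * (4 * e)) =
        x0 + (b * θ ^ 2) * (4 * ((p : ℝ) + 1) * p * y) + (b * θ ^ 2) * (θ ^ 2) * (4 * e) := by ring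
      rw [e1]
      have e2 : (b * θ ^ 2) * (4 * ((p : ℝ) + 1) * p * y) ≤ 1 * (4 * ((p : ℝ) + 1) * p * y) :=
        mul_le_mul_of_nonneg_right h1 (by positivity)
      have e3 : (b * θ ^ 2) * (θ ^ 2) ≤ 1 * (1 / 2) := mul_le_mul h1 h2 (by positivity) (by norm_num)
      have e4 : (b * θ ^ 2) * (θ ^ 2) * (4 * e) ≤ 1 * (1 / 2) * (4 * e) :=
        mul_le_mul_of_nonneg_right e3 (by positivity)
      linarith
    calc (1 + x0) * r ^ k ≤ (1 + x0) * r ^ b := h4
      _ ≤ _ := h8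
      _ ≤ Real.exp (3 * e) := Real.exp_le_exp.2 h9
      _ ≤ 1 + 4 * e := plb_exp_three e he0 hsmall
  have key := plb_peel_induction hT b hreg (Q := fun k W x => Win G W → x ∈ W →
    ∫ ω, hp p (mn (ip G θ W) W (l ω) x) * pt (ip G θ W) W (l ω) ∂P ≤ (1 + x0) * r ^ k)
    (by
      intro x hW hxx
      rw [pow_zero, mul_one, plb_integral_hp hl hT θ h0 h3 hW hxx]
      simp only [plb_mo, dd_singleton]
      exact hx x)
    (by
      intro W x c k hW hx hc hxc hA hB _ _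
      have hAw := win_sd hT hW hx hxc
      have hA' := hA hAw (mem_sd_self hx hxc)
      obtain ⟨j, hj, hB'⟩ := hB
      have hBw := win_sd hT hW hc hxc.symm
      have hcB := mem_sd_self hc hxc.symm
      have hB'' := (hB' hBw hcB).trans (hscal j hj)
      have hq := q_upper hl hT b hb hreg θ h0 h1 s0 y hy0 hy1 hs0 hsy hs (sd G W c x) c hBw hcB
        ⟨x, hxc.symm, plb_notMem_sd hxc.symm⟩
      rw [hp_cut hl hT θ h0 h3 p hW hx hc hxc, pow_succ, ← mul_assoc]
      have hnn : 0 ≤ ∫ ω, hp p (θ * mn (ip G θ (sd G W c x)) (sd G W c x) (l ω) c) *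
        pt (ip G θ (sd G W c x)) (sd G W c x) (l ω) ∂P := by
        apply integral_nonneg
        intro ω
        apply mul_nonneg _ (plb_ptpos hT θ h0 h3 hBw (l ω) (hl.plb_pos ω)).le
        have hM := plb_abs_mn_lt hT θ h0 h3 hBw hcB (l ω) (hl.plb_pos ω)
        have hθM : |θ * mn (ip G θ (sd G W c x)) (sd G W c x) (l ω) c| < 1 := by
          rw [abs_mul, abs_of_nonneg h0]
          nlinarith [abs_nonneg (mn (ip G θ (sd G W c x)) (sd G W c x) (l ω) c)]
        have := hp_ge_quad p _ hθM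
        have h5 : (0 : ℝ) ≤ 2 * (p + 1) * p * (θ * mn (ip G θ (sd G W c x)) (sd G W c x) (l ω) c) ^ 2 := by
          positivity
        linarith
      apply mul_le_mul hA' _ hnn (by positivity)
      -- the far side
      have hi1 := plb_integrable_pt hl hT θ h0 h3 hBw
      have hi2 : Integrable (fun ω => mn (ip G θ (sd G W c x)) (sd G W c x) (l ω) c ^ 2 *
          pt (ip G θ (sd G W c x)) (sd G W c x) (l ω)) P := by
        apply plb_integrable_bdd_pt hl hT θ h0 h3 hBw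
          (fun m => mn (ip G θ (sd G W c x)) (sd G W c x) m c ^ 2)
          ((measurable_mn _ _ c).pow_const 2) 1
        intro ω
        rw [abs_of_nonneg (sq_nonneg _), ← sq_abs]
        have := plb_abs_mn_lt hT θ h0 h3 hBw hcB (l ω) (hl.plb_pos ω)
        have := abs_nonneg (mn (ip G θ (sd G W c x)) (sd G W c x) (l ω) c)
        nlinarith
      have hi3 : Integrable (fun ω => hp p (mn (ip G θ (sd G W c x)) (sd G W c x) (l ω) c) *
          pt (ip G θ (sd G W c x)) (sd G W c x) (l ω)) P := by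
        have := ((plb_integrable_mo hl hT θ h0 h3 hBw hcB p).add
          (plb_integrable_mo' hl hT θ h0 h3 hBw hcB p)).div_const 2
        refine this.congr (Filter.Eventually.of_forall fun ω => ?_)
        simp only [Pi.add_apply]
        exact (plb_hp_mul_pt hT θ h0 h3 hBw hcB (l ω) (hl.plb_pos ω) p).symm
      have hmain : ∫ ω, hp p (θ * mn (ip G θ (sd G W c x)) (sd G W c x) (l ω) c) *
          pt (ip G θ (sd G W c x)) (sd G W c x) (l ω) ∂P ≤
        ∫ ω, ((1 - θ ^ 4) * pt (ip G θ (sd G W c x)) (sd G W c x) (l ω) +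
          ((θ ^ 2 - θ ^ 4) * (2 * (p + 1) * p)) *
            (mn (ip G θ (sd G W c x)) (sd G W c x) (l ω) c ^ 2 *
              pt (ip G θ (sd G W c x)) (sd G W c x) (l ω)) +
          θ ^ 4 * (hp p (mn (ip G θ (sd G W c x)) (sd G W c x) (l ω) c) *
            pt (ip G θ (sd G W c x)) (sd G W c x) (l ω))) ∂P := by
        apply integral_mono_of_nonneg
        · refine Filter.Eventually.of_forall fun ω => ?_
          apply mul_nonneg _ (plb_ptpos hT θ h0 h3 hBw (l ω) (hl.plb_pos ω)).le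
          have hM := plb_abs_mn_lt hT θ h0 h3 hBw hcB (l ω) (hl.plb_pos ω)
          have hθM : |θ * mn (ip G θ (sd G W c x)) (sd G W c x) (l ω) c| < 1 := by
            rw [abs_mul, abs_of_nonneg h0]
            nlinarith [abs_nonneg (mn (ip G θ (sd G W c x)) (sd G W c x) (l ω) c)]
          have := hp_ge_quad p _ hθM
          have h5 : (0 : ℝ) ≤ 2 * (p + 1) * p * (θ * mn (ip G θ (sd G W c x)) (sd G W c x) (l ω) c) ^ 2 := by
            positivity
          linarith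
        · exact ((hi1.const_mul _).add (hi2.const_mul _)).add (hi3.const_mul _)
        · refine Filter.Eventually.of_forall fun ω => ?_
          simp only
          have hM := plb_abs_mn_lt hT θ h0 h3 hBw hcB (l ω) (hl.plb_pos ω)
          have h5 := hp_theta p θ _ h0 h3.le hM
          have hp := plb_ptpos hT θ h0 h3 hBw (l ω) (hl.plb_pos ω)
          have h6 := mul_le_mul_of_nonneg_right h5 hp.le
          refine h6.trans (le_of_eq ?_)
          ring
      have hi12 : Integrable (fun ω => (1 - θ ^ 4) * pt (ip G θ (sd G W c x)) (sd G W c x) (l ω) +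
          ((θ ^ 2 - θ ^ 4) * (2 * (p + 1) * p)) *
            (mn (ip G θ (sd G W c x)) (sd G W c x) (l ω) c ^ 2 *
              pt (ip G θ (sd G W c x)) (sd G W c x) (l ω))) P :=
        (hi1.const_mul _).add (hi2.const_mul _)
      rw [integral_add hi12 (hi3.const_mul _),
        integral_add (hi1.const_mul _) (hi2.const_mul _), integral_const_mul, integral_const_mul,
        integral_const_mul, integral_pt hl hT θ h0 h3 hBw] at hmain
      refine hmain.trans ?_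
      have h4 : θ ^ 4 = θ ^ 2 * θ ^ 2 := by ring
      have h5 : 0 ≤ θ ^ 2 - θ ^ 4 := by rw [h4]; nlinarith [sq_nonneg θ]
      have h6 : (θ ^ 2 - θ ^ 4) * (2 * ((p : ℝ) + 1) * p) *
          ∫ ω, mn (ip G θ (sd G W c x)) (sd G W c x) (l ω) c ^ 2 *
              pt (ip G θ (sd G W c x)) (sd G W c x) (l ω) ∂P ≤
          (θ ^ 2 - θ ^ 4) * (2 * ((p : ℝ) + 1) * p) * (2 * y) :=
        mul_le_mul_of_nonneg_left hq (by positivity)
      have h7 : θ ^ 4 * ∫ ω, hp p (mn (ip G θ (sd G W c x)) (sd G W c x) (l ω) c) *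
          pt (ip G θ (sd G W c x)) (sd G W c x) (l ω) ∂P ≤ θ ^ 4 * (1 + 4 * e) :=
        mul_le_mul_of_nonneg_left hB'' (by positivity)
      have h8 : 0 ≤ θ ^ 4 * ((2 * ((p : ℝ) + 1) * p) * (2 * y)) := by positivity
      rw [hr]
      nlinarith)
  intro W x hW hxW hz
  obtain ⟨z, hz, hzW⟩ := hz
  have h4 := (key W x hW hxW hW hxW).trans (hscal _ (plb_nb_card_le b hreg hz hzW))
  linarith

end PL

end Crest.Agent.TI
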