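import Crest.Agent.TI_Scha
import Crest.Agent.TI_RAb

/-!
Row S0241, task PLe: the raw data of the scheme as random likelihoods
-/

set_option autoImplicit false
set_option linter.unusedSectionVars false
set_option linter.unusedVariables false

namespace Crest.Agent.TI

open MeasureTheory Filter Topology
open Crest.Agent.SRF (Lab lab)

section PLE

variable {V : Type*} [DecidableEq V]

/-! ### one-dimensional integrals -/

theorem ple_integral_unit (f : ℝ → ℝ) : ∫ u : unitInterval, f u = ∫ x in (0:ℝ)..1, f x := by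
  rw [unitInterval.volume_def, intervalIntegral.integral_of_le zero_le_one,
    ← integral_Icc_eq_integral_Ioc]
  exact integral_subtype_comap measurableSet_Icc f

theorem ple_mean : ∫ z : unitInterval, ((z : ℝ) - 1 / 2) = 0 := by
  rw [ple_integral_unit (fun x => x - 1 / 2)]
  rw [intervalIntegral.integral_sub (by simp) (by simp)]
  simp

theorem ple_var : ∫ z : unitInterval, ((z : ℝ) - 1 / 2) ^ 2 = 1 / 12 := by
  rw [ple_integral_unit (fun x => (x - 1 / 2) ^ 2)]
  have : ∀ x : ℝ, HasDerivAt (fun y : ℝ => (y - 1 / 2) ^ 3 / 3) ((x - 1 / 2) ^ 2) x := by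
    intro x
    have h1 : HasDerivAt (fun y : ℝ => y - 1 / 2) 1 x := (hasDerivAt_id x).sub_const _
    have h2 := (h1.pow 3).div_const 3
    refine h2.congr_deriv ?_
    simp
  rw [intervalIntegral.integral_eq_sub_of_hasDerivAt (fun x _ => this x)
    (Continuous.intervalIntegrable (by fun_prop) _ _)]
  norm_num

theorem ple_eps (r : ℝ) (h0 : 0 ≤ r) (h1 : r ≤ 1 / 2) :
    ∫ u : unitInterval, (if (u : ℝ) < r then eps u else 0) ^ 2 = r ^ 3 / 3 := by
  have e1 : ∀ u : unitInterval, (if (u : ℝ) < r then eps u else 0) ^ 2 =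
      (fun x : ℝ => (Set.Iio r).indicator (fun x => x ^ 2) x) u := by
    intro u
    by_cases hu : (u : ℝ) < r
    · simp only [if_pos hu, Set.indicator_of_mem (show (u : ℝ) ∈ Set.Iio r from hu)]
      unfold eps
      rw [if_pos (by linarith)]
    · simp only [if_neg hu, Set.indicator_of_notMem (show (u : ℝ) ∉ Set.Iio r from hu)]
      norm_num
  simp_rw [e1]
  rw [ple_integral_unit, intervalIntegral.integral_of_le zero_le_one,
    setIntegral_indicator measurableSet_Iio]
  have e2 : Set.Ioc (0:ℝ) 1 ∩ Set.Iio r = Set.Ioo 0 r := by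
    ext x
    simp only [Set.mem_inter_iff, Set.mem_Ioc, Set.mem_Iio, Set.mem_Ioo]
    constructor
    · rintro ⟨⟨a, b⟩, c⟩; exact ⟨a, c⟩
    · rintro ⟨a, b⟩; exact ⟨⟨a, by linarith⟩, b⟩
  rw [e2, ← integral_Ioc_eq_integral_Ioo, ← intervalIntegral.integral_of_le h0]
  simp
  ring

/-! ### resampling one coordinate -/

theorem ple_resample (i : (V × Bool) × ℕ) (F : Om V → ℝ) (hF : Measurable F) (C : ℝ)
    (hC : ∀ ω, |F ω| ≤ C) :
    ∫ ω, F ω ∂PP V = ∫ ω, (∫ u : unitInterval, F (Function.update ω i u)) ∂PP V := by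
  have hmap := SRF.map_update_lab (E := V × Bool) i
  have hmeas := SRF.measurable_update_lab (E := V × Bool) i
  have hPP : PP V = SRF.lab (V × Bool) := rfl
  conv_lhs => rw [hPP, ← hmap]
  rw [integral_map hmeas.aemeasurable hF.aestronglyMeasurable, integral_prod]
  refine Integrable.of_bound (hF.comp hmeas).aestronglyMeasurable C ?_
  exact Filter.Eventually.of_forall fun q => by simpa [Real.norm_eq_abs] using hC _

/-- the law of two coordinates -/
theorem ple_pair (v : V) (f g : unitInterval → ℝ) (hf : Measurable f) (hg : Measurable g) :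
    ∫ ω : Om V, f (ω ((v, false), 0)) * g (ω ((v, true), 0)) ∂PP V =
      (∫ u, f u) * ∫ z, g z := by
  have hij : ((v, false), 0) ≠ (((v, true), 0) : (V × Bool) × ℕ) := by simp
  have hmap := Measure.infinitePi_map_eval_prod
    (P := fun _ : (V × Bool) × ℕ => (volume : Measure unitInterval)) hij
  have h1 : ∫ ω : Om V, f (ω ((v, false), 0)) * g (ω ((v, true), 0)) ∂PP V =
      ∫ q : unitInterval × unitInterval, f q.1 * g q.2 ∂((PP V).map
        (fun ω : Om V => (ω ((v, false), 0), ω ((v, true), 0)))) := by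
    rw [integral_map]
    · exact (Measurable.prodMk (measurable_pi_apply _) (measurable_pi_apply _)).aemeasurable
    · exact ((hf.comp measurable_fst).mul (hg.comp measurable_snd)).aestronglyMeasurable
  rw [h1]
  have h2 : (PP V).map (fun ω : Om V => (ω ((v, false), 0), ω ((v, true), 0))) =
      (volume : Measure unitInterval).prod (volume : Measure unitInterval) := hmap
  rw [h2, integral_prod_mul]

/-! ### the two likelihoods of one vertex -/

/-- the tilt used in the last factor -/
noncomputable def ta (k : ℕ) (r : ℝ) (v : V) (ω : Om V) : ℝ :=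
  if (tU ω (v, k) : ℝ) < r then tl (tU ω) (tL ω) v k else 0

theorem ple_raw (k : ℕ) (r : ℝ) (v : V) (ω : Om V) (b : Bool) :
    raw k r ω v b = raw k 0 ω v b * (1 + sg b * ta k r v ω) := by
  unfold raw lkh ta
  have h0 : ¬ ((tU ω (v, k) : ℝ) < 0) := not_lt.2 (tU ω (v, k)).2.1
  rw [if_neg h0, mul_one]
  congr 1
  split_ifs <;> simp

theorem ple_raw_succ (k : ℕ) (ω : Om V) : raw (k + 1) 0 ω = raw k (1 / 2) ω :=
  (lkh_stage (tU ω) (tL ω) k (1 / 2) le_rfl).symm

theorem ple_raw_zero (v : V) (ω : Om V) (b : Bool) : raw 0 0 ω v b = 1 := lkh_zero _ _ _ _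

theorem ple_ta_eq (k : ℕ) (r : ℝ) (v : V) (ω : Om V) :
    ta k r v ω = (if (tU ω (v, k) : ℝ) < r then eps (tU ω (v, k)) else 0) *
      ((tL ω (v, k) : ℝ) - 1 / 2) := by
  unfold ta tl
  split_ifs <;> simp

theorem abs_ta_le (k : ℕ) (r : ℝ) (v : V) (ω : Om V) : |ta k r v ω| ≤ 1 / 4 := by
  unfold ta
  split_ifs
  · exact abs_tl_le _ _ _ _
  · norm_num

theorem measurable_ta (k : ℕ) (r : ℝ) (v : V) : Measurable (ta k r v) := by
  unfold ta
  refine Measurable.ite ?_ (measurable_tl_param _ _ measurable_tU measurable_tL v k) measurable_const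
  have h : Measurable (fun ω : Om V => tU ω (v, k)) := measurable_pi_apply _
  exact measurableSet_lt (measurable_subtype_coe.comp h) measurable_const

theorem ple_measurable_raw (k : ℕ) (r : ℝ) (v : V) (b : Bool) :
    Measurable (fun ω : Om V => raw k r ω v b) := by
  have := measurable_lkh_param tU tL (fun _ => r) (measurable_tU (V := V)) measurable_tL
    measurable_const k
  exact (measurable_pi_apply b).comp ((measurable_pi_apply v).comp this)

theorem ple_pos (k : ℕ) (r : ℝ) (v : V) (ω : Om V) (b : Bool) : 0 < raw k r ω v b := lkh_pos _ _ _ _ _ _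

theorem ple_le (k : ℕ) (r : ℝ) (v : V) (ω : Om V) (b : Bool) :
    raw k r ω v b ≤ (5 / 4 : ℝ) ^ (k + 1) := (lkh_bounds _ _ _ _ _ _).2

theorem ple_ge (k : ℕ) (r : ℝ) (v : V) (ω : Om V) (b : Bool) :
    (3 / 4 : ℝ) ^ (k + 1) ≤ raw k r ω v b := (lkh_bounds _ _ _ _ _ _).1

theorem ple_update_tU (v : V) (k : ℕ) (ω : Om V) (u : unitInterval) :
    tU (Function.update ω ((v, true), k) u) = tU ω := by
  ext1 c
  unfold tU
  rw [Function.update_of_ne]
  intro h
  simp [Prod.ext_iff] at h

theorem ple_update_raw (v : V) (k : ℕ) (ω : Om V) (u : unitInterval) (b : Bool) :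
    raw k 0 (Function.update ω ((v, true), k) u) v b = raw k 0 ω v b := by
  unfold raw
  rw [ple_update_tU]
  have h0 : ¬ ((tU ω (v, k) : ℝ) < 0) := not_lt.2 (tU ω (v, k)).2.1
  have := lkh_congr (tU ω) (tU ω) (tL (Function.update ω ((v, true), k) u)) (tL ω) k 0 0 v
    (fun j hj => ⟨rfl, ?_⟩) Iff.rfl (fun h => absurd h h0)
  · rw [this]
  · unfold tL
    rw [Function.update_of_ne]
    intro h
    simp [Prod.ext_iff] at h
    omega

theorem ple_update_ta (v : V) (k : ℕ) (r : ℝ) (ω : Om V) (u : unitInterval) :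
    ta k r v (Function.update ω ((v, true), k) u) =
      (if (tU ω (v, k) : ℝ) < r then eps (tU ω (v, k)) else 0) * ((u : ℝ) - 1 / 2) := by
  rw [ple_ta_eq, ple_update_tU]
  congr 2
  unfold tL
  simp

theorem ple_raw_mean (k : ℕ) (r : ℝ) (v : V) (b : Bool) : ∫ ω, raw k r ω v b ∂PP V = 1 := by
  have hstep : ∀ (k : ℕ) (r : ℝ), ∫ ω, raw k r ω v b ∂PP V = ∫ ω, raw k 0 ω v b ∂PP V := by
    intro k r
    rw [ple_resample ((v, true), k) _ (ple_measurable_raw k r v b) ((5 / 4 : ℝ) ^ (k + 1))
      (fun ω => by rw [abs_of_pos (ple_pos k r v ω b)]; exact ple_le k r v ω b)]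
    refine integral_congr_ae (Filter.Eventually.of_forall fun ω => ?_)
    simp only
    simp_rw [ple_raw k r v (Function.update ω ((v, true), k) _) b, ple_update_raw, ple_update_ta]
    rw [integral_const_mul]
    set e := (if (tU ω (v, k) : ℝ) < r then eps (tU ω (v, k)) else 0)
    have : ∫ u : unitInterval, (1 + sg b * (e * ((u : ℝ) - 1 / 2))) = 1 := by
      rw [integral_add (integrable_const _)]
      · rw [integral_const_mul, integral_const_mul, ple_mean]
        simp
      · refine Integrable.const_mul (Integrable.const_mul ?_ _) _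
        refine Integrable.of_bound (measurable_subtype_coe.sub_const _).aestronglyMeasurable 1 ?_
        refine Filter.Eventually.of_forall fun u => ?_
        rw [Real.norm_eq_abs, abs_le]
        constructor
        · have := u.2.1; linarith
        · have := u.2.2; linarith
    rw [this, mul_one]
  have hz : ∀ k, ∫ ω, raw k 0 ω v b ∂PP V = 1 := by
    intro k
    induction k with
    | zero => simp [ple_raw_zero]
    | succ k ih =>
      simp_rw [ple_raw_succ]
      rw [hstep, ih]
  rw [hstep, hz]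

/-! ### symmetry -/

/-- flipping all the uniforms -/
def fl (ω : Om V) : Om V := fun c => if c.1.2 then unitInterval.symm (ω c) else ω c

theorem measurable_fl : Measurable (fl (V := V)) := by
  refine measurable_pi_lambda _ fun c => ?_
  unfold fl
  by_cases hc : c.1.2 = true
  · simp only [if_pos hc]
    exact unitInterval.continuous_symm.measurable.comp (measurable_pi_apply c)
  · simp only [if_neg hc]
    exact measurable_pi_apply c

theorem map_fl : (PP V).map fl = PP V := by
  have h1 := Measure.infinitePi_map_pi (fun _ : (V × Bool) × ℕ => (volume : Measure unitInterval))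
    (f := fun c => if c.1.2 then unitInterval.symm else id) (fun c => by
      by_cases hc : c.1.2 = true
      · simp only [if_pos hc]
        exact unitInterval.continuous_symm.measurable
      · simp only [if_neg hc]
        exact measurable_id)
  have h2 : (fun (ω : Om V) (c : (V × Bool) × ℕ) => (if c.1.2 then unitInterval.symm else id) (ω c)) =
      fl := by
    ext ω c
    unfold fl
    split_ifs <;> rfl
  rw [h2] at h1
  have h3 : ∀ c : (V × Bool) × ℕ, (volume : Measure unitInterval).map
      (if c.1.2 then unitInterval.symm else id) = volume := by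
    intro c
    split_ifs
    · exact unitInterval.measurePreserving_symm.map_eq
    · exact Measure.map_id
  simp_rw [h3] at h1
  exact h1

theorem raw_fl (k : ℕ) (r : ℝ) (v : V) (ω : Om V) (b : Bool) :
    raw k r (fl ω) v b = raw k r ω v (!b) := by
  have hU : tU (fl ω) = tU ω := by
    ext c
    unfold tU fl
    simp
  have hL : ∀ c, ((tL (fl ω) c : unitInterval) : ℝ) = 1 - tL ω c := by
    intro c
    unfold tL fl
    simp
  have ht : ∀ j, sg b * tl (tU (fl ω)) (tL (fl ω)) v j = sg (!b) * tl (tU ω) (tL ω) v j := by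
    intro j
    unfold tl
    rw [hU, hL]
    cases b <;> simp [sg] <;> ring
  unfold raw lkh
  simp_rw [ht]
  rw [hU]

/-! ### independence -/

/-- regrouping the coordinates by vertex -/
def gr (ω : Om V) : V → (Bool × ℕ → unitInterval) := fun v c => ω ((v, c.1), c.2)

theorem measurable_gr : Measurable (gr (V := V)) :=
  measurable_pi_lambda _ fun _ => measurable_pi_lambda _ fun _ => measurable_pi_apply _

theorem map_gr : (PP V).map gr = Measure.infinitePi (fun _ : V =>
    Measure.infinitePi (fun _ : Bool × ℕ => (volume : Measure unitInterval))) := by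
  have hinj : Function.Injective (fun i : V × (Bool × ℕ) => ((i.1, i.2.1), i.2.2)) := by
    rintro ⟨a, b, c⟩ ⟨a', b', c'⟩ h
    simp [Prod.ext_iff] at h
    simp [h]
  have h1 := Measure.map_infinitePi_infinitePi_of_inj
    (P := fun _ : (V × Bool) × ℕ => (volume : Measure unitInterval)) hinj
  have h2 := Measure.infinitePi_map_curry (fun (_ : V) (_ : Bool × ℕ) => (volume : Measure unitInterval))
  rw [← h2]
  have h3 : Measure.infinitePi (fun _ : V × (Bool × ℕ) => (volume : Measure unitInterval)) =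
      (PP V).map (fun ω i => ω ((i.1, i.2.1), i.2.2)) := h1.symm
  have h4 : Measurable (fun (ω : Om V) (i : V × (Bool × ℕ)) => ω ((i.1, i.2.1), i.2.2)) :=
    measurable_pi_lambda _ fun _ => measurable_pi_apply _
  rw [h3, Measure.map_map (MeasurableEquiv.measurable _) h4]
  rfl

theorem raw_indep (k : ℕ) (r : ℝ) :
    ProbabilityTheory.iIndepFun (fun (v : V) (ω : Om V) => (raw k r ω v true, raw k r ω v false))
      (PP V) := by
  set X : (v : V) → (Bool × ℕ → unitInterval) → ℝ × ℝ := fun v c =>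
    (lkh (V := V) (fun i => c (false, i.2)) (fun i => c (true, i.2)) k r v true,
      lkh (V := V) (fun i => c (false, i.2)) (fun i => c (true, i.2)) k r v false) with hX
  have hXm : ∀ v, Measurable (X v) := by
    intro v
    have h1 := measurable_lkh_param (V := V)
      (fun c : Bool × ℕ → unitInterval => fun i => c (false, i.2))
      (fun c : Bool × ℕ → unitInterval => fun i => c (true, i.2)) (fun _ => r)
      (measurable_pi_lambda _ fun _ => measurable_pi_apply _)
      (measurable_pi_lambda _ fun _ => measurable_pi_apply _) measurable_const k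
    exact Measurable.prodMk ((measurable_pi_apply true).comp ((measurable_pi_apply v).comp h1))
      ((measurable_pi_apply false).comp ((measurable_pi_apply v).comp h1))
  have hY : (fun (v : V) (ω : Om V) => (raw k r ω v true, raw k r ω v false)) =
      fun v ω => X v (gr ω v) := by
    funext v ω
    simp only [hX]
    have : raw k r ω v = lkh (V := V) (fun i => gr ω v (false, i.2)) (fun i => gr ω v (true, i.2)) k r v :=
      lkh_congr _ _ _ _ k r r v (fun j _ => ⟨rfl, rfl⟩) Iff.rfl (fun _ => ⟨rfl, rfl⟩)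
    rw [this]
  rw [hY]
  set μ' := Measure.infinitePi (fun _ : Bool × ℕ => (volume : Measure unitInterval)) with hμ'
  have hm : ∀ v : V, Measurable (fun ω : Om V => X v (gr ω v)) := fun v =>
    (hXm v).comp ((measurable_pi_apply v).comp measurable_gr)
  rw [ProbabilityTheory.iIndepFun_iff_map_fun_eq_infinitePi_map hm]
  have h1 : (PP V).map (fun ω v => X v (gr ω v)) =
      (Measure.infinitePi (fun _ : V => μ')).map (fun θ v => X v (θ v)) := by
    have h4 : Measurable (fun (θ : V → Bool × ℕ → unitInterval) (v : V) => X v (θ v)) :=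
      measurable_pi_lambda _ fun v => (hXm v).comp (measurable_pi_apply v)
    rw [← map_gr, Measure.map_map h4 measurable_gr]
    rfl
  have h2 : ∀ v : V, (PP V).map (fun ω => X v (gr ω v)) = μ'.map (X v) := by
    intro v
    have e1 : μ' = (Measure.infinitePi (fun _ : V => μ')).map (fun θ => θ v) :=
      (Measure.infinitePi_map_eval (fun _ : V => μ') v).symm
    rw [e1, ← map_gr, Measure.map_map (measurable_pi_apply v) measurable_gr,
      Measure.map_map (hXm v) ((measurable_pi_apply v).comp measurable_gr)]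
    rfl
  rw [h1, Measure.infinitePi_map_pi _ hXm]
  simp_rw [h2]

theorem raw_LData (k : ℕ) (r : ℝ) : LData (PP V) (raw (V := V) k r) ((k + 1) * Real.log (4 / 3)) where
  meas v b := ple_measurable_raw k r v b
  indep := raw_indep k r
  lower ω v b := by
    have h1 : Real.exp (-((k + 1) * Real.log (4 / 3))) = (3 / 4 : ℝ) ^ (k + 1) := by
      have h := Real.exp_nat_mul (Real.log (4 / 3)) (k + 1)
      push_cast at h
      rw [Real.exp_neg, h, Real.exp_log (by norm_num), ← inv_pow]
      norm_num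
    rw [h1]
    exact ple_ge k r v ω b
  upper ω v b := by
    have h1 : Real.exp ((k + 1) * Real.log (4 / 3)) = (4 / 3 : ℝ) ^ (k + 1) := by
      have h := Real.exp_nat_mul (Real.log (4 / 3)) (k + 1)
      push_cast at h
      rw [h, Real.exp_log (by norm_num)]
    rw [h1]
    refine (ple_le k r v ω b).trans ?_
    exact pow_le_pow_left₀ (by norm_num) (by norm_num) _
  mean v b := ple_raw_mean k r v b
  symm v := by
    have h1 : (fun ω : Om V => (raw k r ω v false, raw k r ω v true)) =
        (fun ω : Om V => (raw k r ω v true, raw k r ω v false)) ∘ fl := by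
      funext ω
      simp only [Function.comp_apply, raw_fl]
      rfl
    rw [h1, ← Measure.map_map ((ple_measurable_raw k r v true).prodMk (ple_measurable_raw k r v false))
      measurable_fl, map_fl]

/-- second moment of the tilt in stage 0 -/
theorem ple_ta_sq (r : ℝ) (h0 : 0 ≤ r) (h1 : r ≤ 1 / 2) (v : V) :
    ∫ ω, ta 0 r v ω ^ 2 ∂PP V = r ^ 3 / 36 := by
  have h2 := ple_pair v (fun u => (if (u : ℝ) < r then eps u else 0) ^ 2)
    (fun z => ((z : ℝ) - 1 / 2) ^ 2)
    ((Measurable.ite (measurableSet_lt measurable_subtype_coe measurable_const) measurable_eps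
      measurable_const).pow_const 2) ((measurable_subtype_coe.sub_const _).pow_const 2)
  rw [ple_eps r h0 h1, ple_var] at h2
  have h3 : ∀ ω : Om V, ta 0 r v ω ^ 2 = (if (ω ((v, false), 0) : ℝ) < r then eps (ω ((v, false), 0)) else 0) ^ 2 *
      ((ω ((v, true), 0) : ℝ) - 1 / 2) ^ 2 := by
    intro ω
    rw [ple_ta_eq, mul_pow]
    rfl
  simp_rw [h3]
  rw [h2]
  ring

theorem ple_ta_mean (r : ℝ) (v : V) : ∫ ω, ta 0 r v ω ∂PP V = 0 := by
  have h2 := ple_pair v (fun u => (if (u : ℝ) < r then eps u else 0))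
    (fun z => ((z : ℝ) - 1 / 2))
    (Measurable.ite (measurableSet_lt measurable_subtype_coe measurable_const) measurable_eps
      measurable_const) (measurable_subtype_coe.sub_const _)
  rw [ple_mean, mul_zero] at h2
  rw [← h2]
  refine integral_congr_ae (Filter.Eventually.of_forall fun ω => ?_)
  simp only
  rw [ple_ta_eq]
  rfl

theorem ple_integrable (F : Om V → ℝ) (hF : Measurable F) (C : ℝ) (hC : ∀ ω, |F ω| ≤ C) :
    Integrable F (PP V) :=
  Integrable.of_bound hF.aestronglyMeasurable C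
    (Filter.Eventually.of_forall fun ω => by simpa [Real.norm_eq_abs] using hC ω)

theorem ple_true (r : ℝ) (v : V) (ω : Om V) : raw 0 r ω v true = 1 + ta 0 r v ω := by
  rw [ple_raw, ple_raw_zero]; simp [sg]

theorem ple_false (r : ℝ) (v : V) (ω : Om V) : raw 0 r ω v false = 1 - ta 0 r v ω := by
  rw [ple_raw, ple_raw_zero]; simp [sg]; ring

/-- information of one site in stage 0 -/
theorem raw_e_zero (r : ℝ) (h0 : 0 ≤ r) (h1 : r ≤ 1 / 2) (v : V) :
    ∫ ω, (raw 0 r ω v true - raw 0 r ω v false) ^ 2 / (2 * (raw 0 r ω v true + raw 0 r ω v false)) ∂PP V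
      = r ^ 3 / 36 := by
  rw [← ple_ta_sq r h0 h1 v]
  refine integral_congr_ae (Filter.Eventually.of_forall fun ω => ?_)
  simp only
  rw [ple_true, ple_false]
  field_simp
  ring

/-- tangent line inequality -/
theorem ple_tangent (a b s : ℝ) (ha : 0 < a) (hb : 0 < b) (hs : |s| < 1) :
    (a - b) ^ 2 / (2 * (a + b)) + ((a - b) - (a - b) ^ 3 / (2 * (a + b) ^ 2)) * s ≤
      (a * (1 + s) - b * (1 - s)) ^ 2 / (2 * (a * (1 + s) + b * (1 - s))) := by
  obtain ⟨hs1, hs2⟩ := abs_lt.1 hs
  have h1 : 0 < a * (1 + s) + b * (1 - s) := by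
    have := mul_pos ha (show 0 < 1 + s by linarith)
    have := mul_pos hb (show 0 < 1 - s by linarith)
    linarith
  have h2 : 0 < a + b := by linarith
  have key : (a * (1 + s) - b * (1 - s)) ^ 2 / (2 * (a * (1 + s) + b * (1 - s))) -
      ((a - b) ^ 2 / (2 * (a + b)) + ((a - b) - (a - b) ^ 3 / (2 * (a + b) ^ 2)) * s) =
      s ^ 2 * ((a + b) ^ 2 - (a - b) ^ 2) ^ 2 /
        (2 * (a + b) ^ 2 * (a * (1 + s) + b * (1 - s))) := by
    field_simp
    ring
  have h3 : 0 ≤ s ^ 2 * ((a + b) ^ 2 - (a - b) ^ 2) ^ 2 /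
        (2 * (a + b) ^ 2 * (a * (1 + s) + b * (1 - s))) := by positivity
  linarith

theorem ple_phi_bound (a b : ℝ) (ha : 0 < a) (hb : 0 < b) :
    |(a - b) ^ 2 / (2 * (a + b))| ≤ a + b := by
  rw [abs_of_nonneg (by positivity), div_le_iff₀ (by positivity)]
  nlinarith [mul_pos ha hb]

theorem ple_e_mono (k : ℕ) (r : ℝ) (v : V) :
    ∫ ω, (raw k 0 ω v true - raw k 0 ω v false) ^ 2 / (2 * (raw k 0 ω v true + raw k 0 ω v false)) ∂PP V
      ≤ ∫ ω, (raw k r ω v true - raw k r ω v false) ^ 2 /
        (2 * (raw k r ω v true + raw k r ω v false)) ∂PP V := by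
  have hmeas : ∀ r, Measurable (fun ω : Om V => (raw k r ω v true - raw k r ω v false) ^ 2 /
      (2 * (raw k r ω v true + raw k r ω v false))) := by
    intro r
    have h1 := ple_measurable_raw k r v true
    have h2 := ple_measurable_raw k r v false
    fun_prop
  have hbd : ∀ r, ∀ ω : Om V, |(raw k r ω v true - raw k r ω v false) ^ 2 /
      (2 * (raw k r ω v true + raw k r ω v false))| ≤ (5 / 4 : ℝ) ^ (k + 1) + (5 / 4 : ℝ) ^ (k + 1) := by
    intro r ω
    refine (ple_phi_bound _ _ (ple_pos k r v ω true) (ple_pos k r v ω false)).trans ?_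
    exact add_le_add (ple_le k r v ω true) (ple_le k r v ω false)
  rw [ple_resample ((v, true), k) _ (hmeas r) _ (hbd r)]
  have hmeas2 : Measurable (fun ω : Om V => ∫ u : unitInterval,
      (raw k r (Function.update ω ((v, true), k) u) v true -
        raw k r (Function.update ω ((v, true), k) u) v false) ^ 2 /
      (2 * (raw k r (Function.update ω ((v, true), k) u) v true +
        raw k r (Function.update ω ((v, true), k) u) v false))) := by
    have h1 : Measurable (fun q : Om V × unitInterval =>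
      (raw k r (Function.update q.1 ((v, true), k) q.2) v true -
        raw k r (Function.update q.1 ((v, true), k) q.2) v false) ^ 2 /
      (2 * (raw k r (Function.update q.1 ((v, true), k) q.2) v true +
        raw k r (Function.update q.1 ((v, true), k) q.2) v false))) :=
      (hmeas r).comp (SRF.measurable_update_lab (E := V × Bool) ((v, true), k))
    exact (h1.stronglyMeasurable.integral_prod_right).measurable
  refine integral_mono (ple_integrable _ (hmeas 0) _ (hbd 0)) (ple_integrable _ hmeas2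
    ((5 / 4 : ℝ) ^ (k + 1) + (5 / 4 : ℝ) ^ (k + 1)) (fun ω => ?_)) (fun ω => ?_)
  · have := norm_integral_le_of_norm_le_const (μ := (volume : Measure unitInterval))
      (f := fun u => (raw k r (Function.update ω ((v, true), k) u) v true -
        raw k r (Function.update ω ((v, true), k) u) v false) ^ 2 /
      (2 * (raw k r (Function.update ω ((v, true), k) u) v true +
        raw k r (Function.update ω ((v, true), k) u) v false)))
      (C := (5 / 4 : ℝ) ^ (k + 1) + (5 / 4 : ℝ) ^ (k + 1))
      (Filter.Eventually.of_forall fun u => hbd r _)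
    simpa using this
  · simp only
    simp_rw [ple_raw k r v (Function.update ω ((v, true), k) _) true,
      ple_raw k r v (Function.update ω ((v, true), k) _) false, ple_update_raw, ple_update_ta]
    set e := (if (tU ω (v, k) : ℝ) < r then eps (tU ω (v, k)) else 0) with he
    have he0 : |e| ≤ 1 / 2 := by
      rw [he]
      split_ifs
      · rw [abs_of_nonneg (eps_nonneg _)]; exact (eps_le _).2
      · norm_num
    set a := raw k 0 ω v true
    set b := raw k 0 ω v false
    have ha : 0 < a := ple_pos k 0 v ω true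
    have hb : 0 < b := ple_pos k 0 v ω false
    have hsm : ∀ u : unitInterval, |e * ((u : ℝ) - 1 / 2)| ≤ 1 / 4 := by
      intro u
      rw [abs_mul]
      have : |(u : ℝ) - 1 / 2| ≤ 1 / 2 := by
        rw [abs_le]; constructor
        · have := u.2.1; linarith
        · have := u.2.2; linarith
      calc |e| * |(u : ℝ) - 1 / 2| ≤ (1 / 2) * (1 / 2) :=
            mul_le_mul he0 this (abs_nonneg _) (by norm_num)
        _ = 1 / 4 := by norm_num
    have hint1 : Integrable (fun u : unitInterval => (u : ℝ) - 1 / 2) := by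
      refine Integrable.of_bound (measurable_subtype_coe.sub_const _).aestronglyMeasurable 1 ?_
      refine Filter.Eventually.of_forall fun u => ?_
      rw [Real.norm_eq_abs, abs_le]
      constructor
      · have := u.2.1; linarith
      · have := u.2.2; linarith
    have hL : ∫ u : unitInterval, ((a - b) ^ 2 / (2 * (a + b)) +
        ((a - b) - (a - b) ^ 3 / (2 * (a + b) ^ 2)) * (e * ((u : ℝ) - 1 / 2))) =
        (a - b) ^ 2 / (2 * (a + b)) := by
      rw [integral_add (integrable_const _) ((hint1.const_mul e).const_mul _), integral_const_mul,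
        integral_const_mul, ple_mean]
      simp
    rw [← hL]
    refine integral_mono ((integrable_const _).add ((hint1.const_mul e).const_mul _)) ?_ (fun u => ?_)
    · have hm : Measurable (fun u : unitInterval => (a * (1 + sg true * (e * ((u : ℝ) - 1 / 2))) -
          b * (1 + sg false * (e * ((u : ℝ) - 1 / 2)))) ^ 2 /
          (2 * (a * (1 + sg true * (e * ((u : ℝ) - 1 / 2))) +
          b * (1 + sg false * (e * ((u : ℝ) - 1 / 2)))))) := by
        have := measurable_subtype_coe (p := fun x : ℝ => x ∈ Set.Icc (0:ℝ) 1)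
        fun_prop
      refine Integrable.of_bound hm.aestronglyMeasurable (2 * (a + b)) ?_
      refine Filter.Eventually.of_forall fun u => ?_
      obtain ⟨h1, h2⟩ := abs_le.1 (hsm u)
      have e1 : 0 < a * (1 + sg true * (e * ((u : ℝ) - 1 / 2))) := by
        simp only [sg, if_true]
        exact mul_pos ha (by linarith)
      have e2 : 0 < b * (1 + sg false * (e * ((u : ℝ) - 1 / 2))) := by
        simp only [sg, Bool.false_eq_true, if_false]
        exact mul_pos hb (by linarith)
      rw [Real.norm_eq_abs]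
      refine (ple_phi_bound _ _ e1 e2).trans ?_
      simp only [sg, if_true, Bool.false_eq_true, if_false]
      nlinarith
    · have := ple_tangent a b (e * ((u : ℝ) - 1 / 2)) ha hb (lt_of_le_of_lt (hsm u) (by norm_num))
      simp only [sg, if_true, Bool.false_eq_true, if_false]
      have e1 : a * (1 + 1 * (e * ((u : ℝ) - 1 / 2))) = a * (1 + e * ((u : ℝ) - 1 / 2)) := by ring
      have e2 : b * (1 + -1 * (e * ((u : ℝ) - 1 / 2))) = b * (1 - e * ((u : ℝ) - 1 / 2)) := by ring
      rw [e1, e2]
      exact this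

/-- information of one site at later times -/
theorem raw_e_later (k : ℕ) (r : ℝ) (h : 1 ≤ k ∨ 1 / 2 ≤ r) (v : V) :
    1 / 288 ≤ ∫ ω, (raw k r ω v true - raw k r ω v false) ^ 2 /
      (2 * (raw k r ω v true + raw k r ω v false)) ∂PP V := by
  have hbase : (1:ℝ) / 288 = ∫ ω, (raw 0 (1 / 2) ω v true - raw 0 (1 / 2) ω v false) ^ 2 /
      (2 * (raw 0 (1 / 2) ω v true + raw 0 (1 / 2) ω v false)) ∂PP V := by
    rw [raw_e_zero (1 / 2) (by norm_num) le_rfl v]
    norm_num
  have hind : ∀ k, (1:ℝ) / 288 ≤ ∫ ω, (raw (k + 1) 0 ω v true - raw (k + 1) 0 ω v false) ^ 2 /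
      (2 * (raw (k + 1) 0 ω v true + raw (k + 1) 0 ω v false)) ∂PP V := by
    intro k
    induction k with
    | zero =>
      simp_rw [ple_raw_succ]
      exact hbase.le
    | succ k ih =>
      refine ih.trans ((ple_e_mono (k + 1) (1 / 2) v).trans (le_of_eq ?_))
      simp_rw [ple_raw_succ (k + 1)]
  by_cases hk : 1 ≤ k
  · obtain ⟨k, rfl⟩ : ∃ k', k = k' + 1 := ⟨k - 1, by omega⟩
    exact (hind k).trans (ple_e_mono (k + 1) r v)
  · have hr : 1 / 2 ≤ r := by
      rcases h with h | h
      · exact absurd h hk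
      · exact h
    have hk0 : k = 0 := by omega
    subst hk0
    have e1 : ∀ ω : Om V, raw 0 r ω = raw 0 (1 / 2) ω := by
      intro ω
      rw [← ple_raw_succ 0 ω]
      exact lkh_stage (tU ω) (tL ω) 0 r hr
    simp_rw [e1]
    exact hbase.le

theorem raw_s_zero (r : ℝ) (h0 : 0 ≤ r) (h1 : r ≤ 1 / 2) (v : V) :
    1 - r ^ 3 / 36 ≤ ∫ ω, Real.sqrt (raw 0 r ω v true * raw 0 r ω v false) ∂PP V := by
  have hm := measurable_ta 0 r v
  have e1 : 1 - r ^ 3 / 36 = ∫ ω, (1 - ta 0 r v ω ^ 2) ∂PP V := by
    rw [integral_sub (integrable_const _), ple_ta_sq r h0 h1 v]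
    · simp
    · exact ple_integrable _ (hm.pow_const 2) 1 (fun ω => by
        rw [abs_of_nonneg (sq_nonneg _), ← sq_abs]
        have := abs_ta_le 0 r v ω
        nlinarith [abs_nonneg (ta 0 r v ω)])
  rw [e1]
  refine integral_mono ?_ ?_ (fun ω => ?_)
  · exact ple_integrable _ (measurable_const.sub (hm.pow_const 2)) 1 (fun ω => by
      have h2 := abs_ta_le 0 r v ω
      have h3 : 0 ≤ ta 0 r v ω ^ 2 := sq_nonneg _
      have h4 : ta 0 r v ω ^ 2 ≤ 1 := by
        rw [← sq_abs]; nlinarith [abs_nonneg (ta 0 r v ω)]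
      rw [abs_of_nonneg (by linarith)]
      linarith)
  · refine ple_integrable _ ?_ 1 (fun ω => ?_)
    · exact ((ple_measurable_raw 0 r v true).mul (ple_measurable_raw 0 r v false)).sqrt
    · rw [abs_of_nonneg (Real.sqrt_nonneg _), ple_true, ple_false]
      exact Real.sqrt_le_one.2 (by nlinarith [sq_nonneg (ta 0 r v ω)])
  · simp only
    rw [ple_true, ple_false]
    have h2 := abs_ta_le 0 r v ω
    have h4 : ta 0 r v ω ^ 2 ≤ 1 := by
      rw [← sq_abs]; nlinarith [abs_nonneg (ta 0 r v ω)]
    apply Real.le_sqrt_of_sq_le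
    nlinarith [sq_nonneg (ta 0 r v ω)]

theorem ple_exp_bound (p : ℕ) (x : ℝ) (hx : ((p : ℝ) + 1) * |x| ≤ 1 / 2) :
    (1 + x) ^ (p + 1) / (1 - x) ^ p ≤ 1 + (2 * (p : ℝ) + 1) * x + 5 * ((p : ℝ) + 1) ^ 2 * x ^ 2 := by
  have hp0 : (0 : ℝ) ≤ p := Nat.cast_nonneg p
  have hxa : |x| ≤ 1 / 2 := by nlinarith [abs_nonneg x]
  obtain ⟨hx1, hx2⟩ := abs_le.1 hxa
  have h1 : 1 + x ≤ Real.exp x := by linarith [Real.add_one_le_exp x]
  have h2 : (1 - x)⁻¹ ≤ Real.exp (x + x ^ 2) := by
    rw [inv_eq_one_div, div_le_iff₀ (by linarith)]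
    rcases le_total 0 x with hx0 | hx0
    · have h3 := Real.quadratic_le_exp_of_nonneg (show 0 ≤ x + x ^ 2 by positivity)
      have h4 : 0 ≤ 1 - x - x ^ 2 - x ^ 3 := by nlinarith [sq_nonneg x, mul_nonneg hx0 (sq_nonneg x)]
      have h5 : 1 ≤ (1 + (x + x ^ 2) + (x + x ^ 2) ^ 2 / 2) * (1 - x) := by
        have : (1 + (x + x ^ 2) + (x + x ^ 2) ^ 2 / 2) * (1 - x) =
            1 + x ^ 2 * (1 - x - x ^ 2 - x ^ 3) / 2 := by ring
        rw [this]
        have := mul_nonneg (sq_nonneg x) h4
        linarith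
      exact h5.trans (mul_le_mul_of_nonneg_right h3 (by linarith))
    · have h3 := Real.add_one_le_exp (x + x ^ 2)
      have h5 : 1 ≤ (x + x ^ 2 + 1) * (1 - x) := by
        have : (x + x ^ 2 + 1) * (1 - x) = 1 + x ^ 2 * (-x) := by ring
        rw [this]
        have := mul_nonneg (sq_nonneg x) (neg_nonneg.2 hx0)
        linarith
      exact h5.trans (mul_le_mul_of_nonneg_right h3 (by linarith))
  have h3 : (1 + x) ^ (p + 1) / (1 - x) ^ p ≤
      Real.exp ((2 * (p : ℝ) + 1) * x + p * x ^ 2) := by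
    have e1 : (1 + x) ^ (p + 1) / (1 - x) ^ p = (1 + x) ^ (p + 1) * ((1 - x)⁻¹) ^ p := by
      rw [inv_pow, div_eq_mul_inv]
    have e2 : Real.exp ((2 * (p : ℝ) + 1) * x + p * x ^ 2) =
        (Real.exp x) ^ (p + 1) * (Real.exp (x + x ^ 2)) ^ p := by
      rw [← Real.exp_nat_mul, ← Real.exp_nat_mul, ← Real.exp_add]
      congr 1
      push_cast
      ring
    rw [e1, e2]
    have h5 : 0 < (1 - x)⁻¹ := inv_pos.2 (by linarith)
    exact mul_le_mul (pow_le_pow_left₀ (by linarith) h1 _) (pow_le_pow_left₀ h5.le h2 _)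
      (pow_nonneg h5.le _) (pow_nonneg (Real.exp_pos _).le _)
  refine h3.trans ?_
  set y := (2 * (p : ℝ) + 1) * x + p * x ^ 2 with hy
  have hy1 : |y| ≤ 2 * ((p : ℝ) + 1) * |x| := by
    have : |y| ≤ (2 * (p : ℝ) + 1) * |x| + p * |x| ^ 2 := by
      rw [hy]
      refine (abs_add_le _ _).trans ?_
      rw [abs_mul, abs_mul, abs_of_nonneg (show 0 ≤ 2 * (p : ℝ) + 1 by linarith),
        abs_of_nonneg hp0, abs_pow]
    nlinarith [abs_nonneg x]
  have hy2 : |y| ≤ 1 := by linarith
  have h4 := (abs_le.1 (Real.abs_exp_sub_one_sub_id_le hy2)).2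
  have h5 : y ^ 2 ≤ 4 * ((p : ℝ) + 1) ^ 2 * x ^ 2 := by
    rw [← sq_abs y, ← sq_abs x]
    nlinarith [abs_nonneg y, abs_nonneg x]
  have h6 : (p : ℝ) * x ^ 2 ≤ ((p : ℝ) + 1) ^ 2 * x ^ 2 := by
    apply mul_le_mul_of_nonneg_right _ (sq_nonneg x)
    nlinarith
  nlinarith

theorem raw_x_zero (r : ℝ) (h0 : 0 ≤ r) (h1 : r ≤ 1 / 2) (p : ℕ) (hp : ((p : ℝ) + 1) * r ≤ 1) (v : V) :
    ∫ ω, (raw 0 r ω v true) ^ (p + 1) / (raw 0 r ω v false) ^ p ∂PP V ≤
      1 + ((p : ℝ) + 1) ^ 2 * r ^ 3 := by
  have hm := measurable_ta 0 r v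
  have hp0 : (0 : ℝ) ≤ p := Nat.cast_nonneg p
  have hta : ∀ ω : Om V, |ta 0 r v ω| ≤ r / 2 := by
    intro ω
    rw [ple_ta_eq, abs_mul]
    have h2 : |((tL ω (v, 0) : unitInterval) : ℝ) - 1 / 2| ≤ 1 / 2 := by
      rw [abs_le]
      constructor
      · have := (tL ω (v, 0)).2.1
        linarith
      · have := (tL ω (v, 0)).2.2
        linarith
    have h3 : |(if (tU ω (v, 0) : ℝ) < r then eps (tU ω (v, 0)) else 0)| ≤ r := by
      split_ifs with hU
      · rw [abs_of_nonneg (eps_nonneg _)]
        exact ((eps_le _).1).trans hU.le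
      · simpa using h0
    calc _ ≤ r * (1 / 2) := mul_le_mul h3 h2 (abs_nonneg _) h0
      _ = r / 2 := by ring
  have hpt : ∀ ω : Om V, (raw 0 r ω v true) ^ (p + 1) / (raw 0 r ω v false) ^ p ≤
      1 + (2 * (p : ℝ) + 1) * ta 0 r v ω + 5 * ((p : ℝ) + 1) ^ 2 * ta 0 r v ω ^ 2 := by
    intro ω
    rw [ple_true, ple_false]
    refine ple_exp_bound p _ ?_
    calc ((p : ℝ) + 1) * |ta 0 r v ω| ≤ ((p : ℝ) + 1) * (r / 2) :=
          mul_le_mul_of_nonneg_left (hta ω) (by linarith)
      _ ≤ 1 / 2 := by linarith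
  have hi1 : Integrable (fun ω : Om V => ta 0 r v ω) (PP V) :=
    ple_integrable _ hm (1 / 4) (abs_ta_le 0 r v)
  have hi2 : Integrable (fun ω : Om V => ta 0 r v ω ^ 2) (PP V) :=
    ple_integrable _ (hm.pow_const 2) 1 (fun ω => by
        rw [abs_of_nonneg (sq_nonneg _), ← sq_abs]
        have := abs_ta_le 0 r v ω
        nlinarith [abs_nonneg (ta 0 r v ω)])
  have hi3 : Integrable (fun ω : Om V => 1 + (2 * (p : ℝ) + 1) * ta 0 r v ω +
      5 * ((p : ℝ) + 1) ^ 2 * ta 0 r v ω ^ 2) (PP V) :=
    ((integrable_const _).add (hi1.const_mul _)).add (hi2.const_mul _)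
  have hi4 : Integrable (fun ω : Om V => (raw 0 r ω v true) ^ (p + 1) / (raw 0 r ω v false) ^ p)
      (PP V) := by
    refine ple_integrable _ (((ple_measurable_raw 0 r v true).pow_const _).div
      ((ple_measurable_raw 0 r v false).pow_const _))
      (1 + (2 * (p : ℝ) + 1) + 5 * ((p : ℝ) + 1) ^ 2) (fun ω => ?_)
    have h2 : 0 ≤ (raw 0 r ω v true) ^ (p + 1) / (raw 0 r ω v false) ^ p :=
      div_nonneg (pow_nonneg (ple_pos 0 r v ω true).le _) (pow_nonneg (ple_pos 0 r v ω false).le _)
    rw [abs_of_nonneg h2]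
    refine (hpt ω).trans ?_
    have h3 := abs_ta_le 0 r v ω
    have h4 : ta 0 r v ω ≤ 1 := (le_abs_self _).trans (h3.trans (by norm_num))
    have h5 : ta 0 r v ω ^ 2 ≤ 1 := by
      rw [← sq_abs]; nlinarith [abs_nonneg (ta 0 r v ω)]
    have h6 : (2 * (p : ℝ) + 1) * ta 0 r v ω ≤ (2 * (p : ℝ) + 1) * 1 :=
      mul_le_mul_of_nonneg_left h4 (by linarith)
    have h7 : 5 * ((p : ℝ) + 1) ^ 2 * ta 0 r v ω ^ 2 ≤ 5 * ((p : ℝ) + 1) ^ 2 * 1 :=
      mul_le_mul_of_nonneg_left h5 (by positivity)
    linarith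
  calc ∫ ω, (raw 0 r ω v true) ^ (p + 1) / (raw 0 r ω v false) ^ p ∂PP V
      ≤ ∫ ω, (1 + (2 * (p : ℝ) + 1) * ta 0 r v ω + 5 * ((p : ℝ) + 1) ^ 2 * ta 0 r v ω ^ 2) ∂PP V :=
        integral_mono hi4 hi3 hpt
    _ = 1 + 5 * ((p : ℝ) + 1) ^ 2 * (r ^ 3 / 36) := by
        have hi5 : Integrable (fun ω : Om V => 1 + (2 * (p : ℝ) + 1) * ta 0 r v ω) (PP V) :=
          (integrable_const _).add (hi1.const_mul _)
        rw [integral_add hi5 (hi2.const_mul _),
          integral_add (integrable_const _) (hi1.const_mul _), integral_const_mul,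
          integral_const_mul, ple_ta_mean, ple_ta_sq r h0 h1 v]
        simp
    _ ≤ 1 + ((p : ℝ) + 1) ^ 2 * r ^ 3 := by
        have : 0 ≤ ((p : ℝ) + 1) ^ 2 * r ^ 3 := by positivity
        linarith

end PLE

end Crest.Agent.TI
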