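import Crest.Agent.TI_Scha

/-!
Row S0241, task SCHb: exactness
-/

set_option autoImplicit false
set_option linter.unusedSectionVars false
set_option linter.unusedVariables false

namespace Crest.Agent.TI

open MeasureTheory Filter Topology
open Crest.Agent.SRF (Lab lab)

section SCH

variable {V : Type*} [DecidableEq V]

/-- `a` is an event strictly before `b` -/
def bef (U : Lab V) (a b : V × ℕ) : Prop := a.2 < b.2 ∨ (a.2 = b.2 ∧ U a < U b)

theorem bef_irrefl (U : Lab V) (a : V × ℕ) : ¬ bef U a a := by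
  unfold bef; simp

theorem bef_trans {U : Lab V} {a b c : V × ℕ} (h1 : bef U a b) (h2 : bef U b c) : bef U a c := by
  unfold bef at *
  rcases h1 with h1 | ⟨h1, h1'⟩ <;> rcases h2 with h2 | ⟨h2, h2'⟩
  · left; omega
  · left; omega
  · left; omega
  · right; exact ⟨h1.trans h2, h1'.trans h2'⟩

/-- likelihoods collected from a list of events -/
noncomputable def wl (U : Lab V) (r : List (V × ℕ)) (z : Lab V) : V → Bool → ℝ :=
  fun v b => (r.map (fun c => if c.1 = v then 1 + sg b * tl U z c.1 c.2 else 1)).prod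

/-- sequential sampling along a list of events (most recent first) -/
noncomputable def Er (p : Finset V → ℝ) (W : Finset V) (U : Lab V) : List (V × ℕ) → Lab V → Lab V
  | [], z => z
  | i :: r, z => Function.update (Er p W U r z) i
      (Qs (eps (U i) * mn p W (wl U r (Er p W U r z)) i.1) (Er p W U r z i))

theorem wl_nil (U z : Lab V) (v : V) (b : Bool) : wl U [] z v b = 1 := rfl

theorem wl_cons (U : Lab V) (i : V × ℕ) (r : List (V × ℕ)) (z : Lab V) (v : V) (b : Bool) :
    wl U (i :: r) z v b = (if i.1 = v then 1 + sg b * tl U z i.1 i.2 else 1) * wl U r z v b := by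
  unfold wl; simp

theorem abs_sg (b : Bool) : |sg b| = 1 := by
  cases b <;> simp [sg]

theorem one_add_sg_tl_pos (U z : Lab V) (v : V) (k : ℕ) (b : Bool) : 0 < 1 + sg b * tl U z v k := by
  have h1 : |sg b * tl U z v k| ≤ 1 / 4 := by
    rw [abs_mul, abs_sg, one_mul]; exact abs_tl_le U z v k
  have h2 := (abs_le.1 h1).1
  linarith

theorem wl_pos (U : Lab V) (r : List (V × ℕ)) (z : Lab V) (v : V) (b : Bool) : 0 < wl U r z v b := by
  induction r with
  | nil => simp [wl_nil]
  | cons i r ih =>
    rw [wl_cons]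
    refine mul_pos ?_ ih
    split_ifs
    · exact one_add_sg_tl_pos _ _ _ _ _
    · exact one_pos

theorem wl_congr (U : Lab V) (r : List (V × ℕ)) (z z' : Lab V) (hz : ∀ c ∈ r, z c = z' c) :
    wl U r z = wl U r z' := by
  funext v b
  unfold wl
  congr 1
  refine List.map_congr_left fun c hc => ?_
  have : tl U z c.1 c.2 = tl U z' c.1 c.2 := by
    unfold tl
    rw [show ((c.1, c.2) : V × ℕ) = c from rfl, hz c hc]
  rw [this]

theorem measurable_wl (U : Lab V) (r : List (V × ℕ)) : Measurable (fun z : Lab V => wl U r z) := by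
  refine measurable_pi_lambda _ fun v => measurable_pi_lambda _ fun b => ?_
  induction r with
  | nil => simp [wl_nil]
  | cons i r ih =>
    simp_rw [wl_cons]
    refine Measurable.mul ?_ ih
    split_ifs
    · refine measurable_const.add (measurable_const.mul ?_)
      unfold tl
      exact measurable_const.mul ((measurable_subtype_coe.comp (measurable_pi_apply _)).sub_const _)
    · exact measurable_const

theorem wl_cons_eq_bump (U : Lab V) (i : V × ℕ) (r : List (V × ℕ)) (z : Lab V) :
    wl U (i :: r) z = bump (wl U r z) i.1 (tl U z i.1 i.2) := by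
  funext v b
  rw [wl_cons, bump]
  by_cases hv : v = i.1
  · rw [if_pos hv, if_pos hv.symm, mul_comm]
  · rw [if_neg hv, if_neg (fun h => hv h.symm), one_mul]

theorem measurable_upd {Ω : Type*} [MeasurableSpace Ω] (i : V × ℕ) (f : Ω → Lab V) (u : Ω → unitInterval)
    (hf : Measurable f) (hu : Measurable u) : Measurable (fun ω => Function.update (f ω) i (u ω)) :=
  (Crest.Agent.SRF.measurable_update_lab i).comp (hf.prodMk hu)

theorem measurable_Estep (p : Finset V → ℝ) (W : Finset V) (U : Lab V) (i : V × ℕ)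
    (r : List (V × ℕ)) : Measurable (fun z : Lab V =>
      Function.update z i (Qs (eps (U i) * mn p W (wl U r z) i.1) (z i))) := by
  refine measurable_upd i _ _ measurable_id ?_
  refine measurable_Qs.comp (Measurable.prodMk ?_ (measurable_pi_apply i))
  exact measurable_const.mul ((measurable_mn p W i.1).comp (measurable_wl U r))

theorem measurable_Er (p : Finset V → ℝ) (W : Finset V) (U : Lab V) (r : List (V × ℕ)) :
    Measurable (Er p W U r) := by
  induction r with
  | nil => exact measurable_id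
  | cons i r ih => exact (measurable_Estep p W U i r).comp ih

theorem Er_of_notMem (p : Finset V → ℝ) (W : Finset V) (U : Lab V) (r : List (V × ℕ)) (z : Lab V)
    (c : V × ℕ) (hc : c ∉ r) : Er p W U r z c = z c := by
  induction r with
  | nil => rfl
  | cons i r ih =>
    rw [List.mem_cons, not_or] at hc
    rw [Er, Function.update_of_ne hc.1, ih hc.2]

/-- exactness along any duplicate-free list of events -/
theorem exact_list {p : Finset V → ℝ} {W : Finset V} (hp : IsMass p W) (U : Lab V)
    (r : List (V × ℕ)) (hr : r.Nodup) (hW : ∀ c ∈ r, c.1 ∈ W) (h : Lab V → ENNReal)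
    (hh : Measurable h) :
    ∫⁻ z, h (Er p W U r z) ∂lab V = ∫⁻ z, h z * ENNReal.ofReal (pt p W (wl U r z)) ∂lab V := by
  induction r generalizing h with
  | nil =>
    have : ∀ z : Lab V, pt p W (wl U [] z) = 1 := by
      intro z
      unfold pt lw
      simp only [wl_nil, Finset.prod_const_one, mul_one]
      exact hp.total
    simp [Er, this]
  | cons i r ih =>
    have hir : i ∉ r := (List.nodup_cons.1 hr).1
    have hr' : r.Nodup := (List.nodup_cons.1 hr).2
    have hiW : i.1 ∈ W := hW i (by simp)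
    set h' : Lab V → ENNReal := fun z =>
      h (Function.update z i (Qs (eps (U i) * mn p W (wl U r z) i.1) (z i))) with hh'
    have hmh' : Measurable h' := hh.comp (measurable_Estep p W U i r)
    have e1 : ∫⁻ z, h (Er p W U (i :: r) z) ∂lab V = ∫⁻ z, h' (Er p W U r z) ∂lab V := rfl
    rw [e1, ih hr' (fun c hc => hW c (List.mem_cons_of_mem _ hc)) h' hmh']
    have hmpt : ∀ s : List (V × ℕ), Measurable (fun z : Lab V => pt p W (wl U s z)) := fun s =>
      (measurable_pt p W).comp (measurable_wl U s)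
    have hmG : Measurable (fun z : Lab V => h' z * ENNReal.ofReal (pt p W (wl U r z))) :=
      hmh'.mul (hmpt r).ennreal_ofReal
    have hmH : Measurable (fun z : Lab V => h z * ENNReal.ofReal (pt p W (wl U (i :: r) z))) :=
      hh.mul (hmpt (i :: r)).ennreal_ofReal
    rw [Crest.Agent.SRF.lintegral_resample i _ hmG, Crest.Agent.SRF.lintegral_resample i _ hmH]
    refine lintegral_congr fun z => ?_
    have hwc : ∀ u : unitInterval, wl U r (Function.update z i u) = wl U r z := by
      intro u
      refine wl_congr U r _ _ (fun c hc => ?_)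
      exact Function.update_of_ne (fun hci : c = i => hir (hci ▸ hc)) _ _
    have hl := wl_pos U r z
    have hm := abs_mn_le hp (wl U r z) hl i.1
    have hg0 := pt_pos hp (wl U r z) hl
    set m := mn p W (wl U r z) i.1 with hmdef
    have he0 := eps_nonneg (U i)
    have he1 := (eps_le (U i)).2
    have habs : |eps (U i) * m| ≤ 1 := by
      rw [abs_mul, abs_of_nonneg he0]
      have := mul_le_mul he1 hm (abs_nonneg _) (by norm_num)
      linarith
    have hm0 := (abs_le.1 habs).1
    have hm1 := (abs_le.1 habs).2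
    have e2 : ∀ u : unitInterval, h' (Function.update z i u) *
        ENNReal.ofReal (pt p W (wl U r (Function.update z i u))) =
        ENNReal.ofReal (pt p W (wl U r z)) *
          (fun v => h (Function.update z i v)) (Qs (eps (U i) * m) u) := by
      intro u
      simp only [hh', hwc, Function.update_idem, Function.update_self]
      rw [mul_comm]
    have e3 : ∀ u : unitInterval, h (Function.update z i u) *
        ENNReal.ofReal (pt p W (wl U (i :: r) (Function.update z i u))) =
        ENNReal.ofReal (pt p W (wl U r z)) *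
          ((fun v => h (Function.update z i v)) u *
            ENNReal.ofReal (1 + eps (U i) * m * ((u : ℝ) - 1 / 2))) := by
      intro u
      have htl : tl U (Function.update z i u) i.1 i.2 = eps (U i) * ((u : ℝ) - 1 / 2) := by
        unfold tl
        rw [show ((i.1, i.2) : V × ℕ) = i from rfl, Function.update_self]
      rw [wl_cons_eq_bump, hwc, htl, pt_bump hp _ hl _ hiW, ENNReal.ofReal_mul hg0.le]
      rw [← hmdef, show 1 + eps (U i) * ((u : ℝ) - 1 / 2) * m = 1 + eps (U i) * m * ((u : ℝ) - 1 / 2) by ring]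
      ring
    simp_rw [e2, e3]
    have hmv : Measurable (fun v : unitInterval => h (Function.update z i v)) :=
      hh.comp (measurable_upd i _ _ measurable_const measurable_id)
    rw [lintegral_const_mul, lintegral_const_mul, lintegral_Qs _ hm0 hm1 _ hmv]
    · refine hmv.mul (Measurable.ennreal_ofReal ?_)
      exact ((measurable_subtype_coe.sub_const _).const_mul _).const_add 1
    · exact hmv.comp (measurable_Qs.comp (measurable_const.prodMk measurable_id))

/-- sorted, closed lists of events (most recent first) -/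
structure Srt (W : Finset V) (U : Lab V) (l : List (V × ℕ)) : Prop where
  pw : l.Pairwise (fun a b => bef U b a)
  mem : ∀ c ∈ l, c.1 ∈ W
  closed : ∀ c ∈ l, ∀ c' : V × ℕ, c'.1 ∈ W → bef U c' c → c' ∈ l

theorem Srt.nodup {W : Finset V} {U : Lab V} {l : List (V × ℕ)} (h : Srt W U l) : l.Nodup := by
  refine h.pw.imp ?_
  intro a b hab heq
  subst heq
  exact bef_irrefl U a hab

theorem Srt.tail {W : Finset V} {U : Lab V} {i : V × ℕ} {l : List (V × ℕ)} (h : Srt W U (i :: l)) :
    Srt W U l := by
  have hpw := List.pairwise_cons.1 h.pw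
  refine ⟨hpw.2, fun c hc => h.mem c (List.mem_cons_of_mem _ hc), fun c hc c' hc' hb => ?_⟩
  rcases List.mem_cons.1 (h.closed c (List.mem_cons_of_mem _ hc) c' hc' hb) with h1 | h1
  · subst h1
    exact absurd (bef_trans hb (hpw.1 c hc)) (bef_irrefl U _)
  · exact h1

theorem Srt.mem_tail_iff {W : Finset V} {U : Lab V} {i : V × ℕ} {l : List (V × ℕ)}
    (h : Srt W U (i :: l)) (c : V × ℕ) : c ∈ l ↔ c.1 ∈ W ∧ bef U c i := by
  have hpw := List.pairwise_cons.1 h.pw
  constructor
  · intro hc
    exact ⟨h.mem c (List.mem_cons_of_mem _ hc), hpw.1 c hc⟩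
  · rintro ⟨h1, h2⟩
    rcases List.mem_cons.1 (h.closed i (by simp) c h1 h2) with h3 | h3
    · subst h3; exact absurd h2 (bef_irrefl U _)
    · exact h3

/-- likelihood collected from all the events before `(k, r)` -/
theorem wl_eq_lkh (W : Finset V) (U : Lab V) (l : List (V × ℕ)) (hl : l.Nodup) (k : ℕ) (r : ℝ)
    (hmem : ∀ c : V × ℕ, c ∈ l ↔ c.1 ∈ W ∧ (c.2 < k ∨ (c.2 = k ∧ (U c : ℝ) < r))) (z : Lab V) (v : V)
    (hv : v ∈ W) : wl U l z v = lkh U z k r v := by
  funext b
  unfold wl lkh
  rw [← List.prod_toFinset _ hl, ← Finset.prod_filter]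
  have hfil : l.toFinset.filter (fun c => c.1 = v) =
      ((Finset.range k).image (fun j => (v, j))) ∪ (if (U (v, k) : ℝ) < r then {(v, k)} else ∅) := by
    ext c
    rw [Finset.mem_filter, List.mem_toFinset, hmem, Finset.mem_union, Finset.mem_image]
    constructor
    · rintro ⟨⟨h1, h2⟩, h3⟩
      rcases h2 with h2 | ⟨h2, h2'⟩
      · left; exact ⟨c.2, Finset.mem_range.2 h2, by rw [← h3]⟩
      · right
        have : c = (v, k) := by rw [← h3, ← h2]
        rw [this] at h2' ⊢
        rw [if_pos h2']; simp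
    · rintro (⟨j, hj, rfl⟩ | h1)
      · exact ⟨⟨hv, Or.inl (Finset.mem_range.1 hj)⟩, rfl⟩
      · split_ifs at h1 with h2
        · rw [Finset.mem_singleton] at h1
          subst h1
          exact ⟨⟨hv, Or.inr ⟨rfl, h2⟩⟩, rfl⟩
        · simp at h1
  rw [hfil, Finset.prod_union, Finset.prod_image]
  · congr 1
    split_ifs with h1
    · simp
    · simp
  · intro a _ b _ hab
    exact (Prod.mk.inj hab).2
  · rw [Finset.disjoint_left]
    rintro c hc hc'
    rw [Finset.mem_image] at hc
    obtain ⟨j, hj, rfl⟩ := hc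
    split_ifs at hc' with h1
    · rw [Finset.mem_singleton] at hc'
      have := (Prod.mk.inj hc').2
      rw [Finset.mem_range] at hj
      omega
    · simp at hc'

theorem Er_eq_Zs (p : Finset V → ℝ) (W : Finset V) (U L : Lab V) (l : List (V × ℕ))
    (hl : Srt W U l) : ∀ c ∈ l, Er p W U l L c = Zs p W U L c := by
  induction l with
  | nil => intro c hc; simp at hc
  | cons i r ih =>
    intro c hc
    have hnd := hl.nodup
    have hir : i ∉ r := (List.nodup_cons.1 hnd).1
    have hE := ih hl.tail
    rw [Er]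
    by_cases hci : c = i
    · subst hci
      rw [Function.update_self, Er_of_notMem p W U r L _ hir, Zs_fix, if_pos (hl.mem c (by simp))]
      congr 2
      refine mn_congr p W _ _ (fun v hv => ?_) _
      rw [wl_congr U r _ _ hE]
      refine wl_eq_lkh W U r hl.tail.nodup c.2 (U c) ?_ _ v hv
      intro c'
      rw [hl.mem_tail_iff c']
      rfl
    · rw [Function.update_of_ne hci]
      rcases List.mem_cons.1 hc with h | h
      · exact absurd h hci
      · exact hE c h

/-- the events before `(k, r)` in the window -/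
noncomputable def Evs (W : Finset V) (U : Lab V) (k : ℕ) (r : ℝ) : Finset (V × ℕ) :=
  (W ×ˢ Finset.range (k + 1)).filter (fun c => c.2 < k ∨ (c.2 = k ∧ (U c : ℝ) < r))

theorem mem_Evs (W : Finset V) (U : Lab V) (k : ℕ) (r : ℝ) (c : V × ℕ) :
    c ∈ Evs W U k r ↔ c.1 ∈ W ∧ (c.2 < k ∨ (c.2 = k ∧ (U c : ℝ) < r)) := by
  unfold Evs
  rw [Finset.mem_filter, Finset.mem_product, Finset.mem_range]
  constructor
  · rintro ⟨⟨h1, h2⟩, h3⟩; exact ⟨h1, h3⟩
  · rintro ⟨h1, h3⟩
    refine ⟨⟨h1, ?_⟩, h3⟩
    rcases h3 with h3 | h3 <;> omega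

theorem exists_Srt (W : Finset V) (U : Lab V) (k : ℕ) (r : ℝ)
    (hinj : ∀ a ∈ W, ∀ b ∈ W, ∀ j ≤ k, a ≠ b → U (a, j) ≠ U (b, j)) :
    ∃ l : List (V × ℕ), Srt W U l ∧ ∀ c, c ∈ l ↔ c ∈ Evs W U k r := by
  classical
  set le : V × ℕ → V × ℕ → Prop := fun a b => b.2 < a.2 ∨ (b.2 = a.2 ∧ U b ≤ U a) with hle
  have : IsTrans (V × ℕ) le := ⟨fun a b c h1 h2 => by
    simp only [hle] at *
    rcases h1 with h1 | ⟨h1, h1'⟩ <;> rcases h2 with h2 | ⟨h2, h2'⟩
    · left; omega
    · left; omega
    · left; omega
    · right; exact ⟨h2.trans h1, h2'.trans h1'⟩⟩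
  have : Std.Total le := ⟨fun a b => by
    simp only [hle]
    rcases lt_trichotomy a.2 b.2 with h | h | h
    · right; left; exact h
    · rcases le_total (U a) (U b) with h' | h'
      · right; right; exact ⟨h, h'⟩
      · left; right; exact ⟨h.symm, h'⟩
    · left; left; exact h⟩
  set l0 := (Evs W U k r).toList.insertionSort le with hl0
  have hperm : l0.Perm (Evs W U k r).toList := List.perm_insertionSort le _
  have hnd0 : l0.Nodup := hperm.nodup_iff.2 (Finset.nodup_toList _)
  have hpw : l0.Pairwise le := List.pairwise_insertionSort le _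
  have hmem0 : ∀ x, x ∈ l0 ↔ x ∈ Evs W U k r := fun x => by
    rw [hperm.mem_iff, Finset.mem_toList]
  refine ⟨l0, ⟨?_, fun c hc => ((mem_Evs W U k r c).1 ((hmem0 c).1 hc)).1, ?_⟩, hmem0⟩
  · have h1 : l0.Pairwise (fun a b => le a b ∧ a ≠ b) := hpw.and hnd0
    refine (List.Pairwise.imp_of_mem ?_ h1)
    intro a b ha hb hab
    rcases hab.1 with h | ⟨h, h'⟩
    · left; exact h
    · right
      refine ⟨h, lt_of_le_of_ne h' ?_⟩
      have ha' := (mem_Evs W U k r a).1 ((hmem0 a).1 ha)
      have hb' := (mem_Evs W U k r b).1 ((hmem0 b).1 hb)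
      have hne : b.1 ≠ a.1 := by
        intro heq
        exact hab.2 (Prod.ext heq.symm h.symm)
      have hj : b.2 ≤ k := by rcases hb'.2 with h | h <;> omega
      have := hinj b.1 hb'.1 a.1 ha'.1 b.2 hj hne
      intro heq
      apply this
      rw [show ((b.1, b.2) : V × ℕ) = b from rfl, heq, h]
  · intro c hc c' hc'W hb
    rw [hmem0, mem_Evs] at hc ⊢
    refine ⟨hc'W, ?_⟩
    rcases hb with hb | ⟨hb, hb'⟩ <;> rcases hc.2 with h2 | ⟨h2, h2'⟩
    · left; omega
    · left; omega
    · left; omega
    · right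
      refine ⟨hb.trans h2, lt_trans ?_ h2'⟩
      exact_mod_cast hb'

/-- times are a.s. distinct -/
theorem ae_times_ne (a b : V) (hab : a ≠ b) (j : ℕ) : ∀ᵐ L ∂lab V, L (a, j) ≠ L (b, j) := by
  have hne : ((a, j) : V × ℕ) ≠ (b, j) := fun h => hab (Prod.mk.inj h).1
  have hmap := MeasureTheory.Measure.infinitePi_map_eval_prod
    (P := fun _ : V × ℕ => (volume : Measure unitInterval)) hne
  have hmeas : Measurable (fun L : Lab V => (L (a, j), L (b, j))) :=
    (measurable_pi_apply _).prodMk (measurable_pi_apply _)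
  have h2 : ∀ᵐ q ∂((volume : Measure unitInterval).prod (volume : Measure unitInterval)), q.1 ≠ q.2 := by
    rw [Measure.ae_prod_iff_ae_ae]
    · refine Filter.Eventually.of_forall fun x => ?_
      rw [ae_iff]
      have : {y : unitInterval | ¬ x ≠ y} = {x} := by ext y; simp [eq_comm]
      simp only [this]
      exact measure_singleton x
    · exact (measurableSet_eq_fun measurable_fst measurable_snd).compl
  rw [← hmap] at h2
  exact ae_of_ae_map hmeas.aemeasurable h2

/-! ### splitting the base space into times and uniforms -/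

/-- put times and uniforms together -/
def jn {V : Type*} (q : Lab V × Lab V) : Om V := fun c =>
  if c.1.2 then q.2 (c.1.1, c.2) else q.1 (c.1.1, c.2)

theorem tU_jn (q : Lab V × Lab V) : tU (jn q) = q.1 := by
  funext c; simp [tU, jn]

theorem tL_jn (q : Lab V × Lab V) : tL (jn q) = q.2 := by
  funext c; simp [tL, jn]

theorem measurable_jn : Measurable (jn (V := V)) := by
  refine measurable_pi_lambda _ fun c => ?_
  unfold jn
  by_cases h : c.1.2
  · simp only [h, if_true]
    exact (measurable_pi_apply _).comp measurable_snd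
  · simp only [h]
    exact (measurable_pi_apply _).comp measurable_fst

theorem map_jn : ((lab V).prod (lab V)).map jn = PP V := by
  refine Measure.eq_infinitePi _ fun s t ht => ?_
  rw [Measure.map_apply measurable_jn (MeasurableSet.pi s.countable_toSet fun _ _ => ht _)]
  set s0 : Finset (V × ℕ) := (s.filter (fun c => c.1.2 = false)).image (fun c => (c.1.1, c.2)) with hs0
  set s1 : Finset (V × ℕ) := (s.filter (fun c => c.1.2 = true)).image (fun c => (c.1.1, c.2)) with hs1
  have hset : jn ⁻¹' (Set.pi s t) =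
      (Set.pi s0 (fun c => t ((c.1, false), c.2))) ×ˢ (Set.pi s1 (fun c => t ((c.1, true), c.2))) := by
    ext ⟨L, u⟩
    simp only [Set.mem_preimage, Set.mem_pi, Finset.mem_coe, Set.mem_prod]
    constructor
    · intro h
      refine ⟨fun c hc => ?_, fun c hc => ?_⟩
      · rw [hs0, Finset.mem_image] at hc
        obtain ⟨⟨⟨v, b⟩, j⟩, hc1, rfl⟩ := hc
        rw [Finset.mem_filter] at hc1
        obtain ⟨hc1, hb⟩ := hc1
        simp only at hb
        subst hb
        simpa [jn] using h _ hc1
      · rw [hs1, Finset.mem_image] at hc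
        obtain ⟨⟨⟨v, b⟩, j⟩, hc1, rfl⟩ := hc
        rw [Finset.mem_filter] at hc1
        obtain ⟨hc1, hb⟩ := hc1
        simp only at hb
        subst hb
        simpa [jn] using h _ hc1
    · rintro ⟨h1, h2⟩ ⟨⟨v, b⟩, j⟩ hc
      cases b with
      | false =>
        have := h1 (v, j) (by
          rw [hs0, Finset.mem_image]
          exact ⟨((v, false), j), Finset.mem_filter.2 ⟨hc, rfl⟩, rfl⟩)
        simpa [jn] using this
      | true =>
        have := h2 (v, j) (by
          rw [hs1, Finset.mem_image]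
          exact ⟨((v, true), j), Finset.mem_filter.2 ⟨hc, rfl⟩, rfl⟩)
        simpa [jn] using this
  rw [hset, Measure.prod_prod]
  have hlab : ∀ (s' : Finset (V × ℕ)) (t' : V × ℕ → Set unitInterval), (∀ i, MeasurableSet (t' i)) →
      lab V (Set.pi s' t') = ∏ j ∈ s', (volume : Measure unitInterval) (t' j) := by
    intro s' t' ht'
    unfold lab
    rw [Measure.infinitePi_pi]
    exact fun j _ => ht' j
  rw [hlab _ _ (fun i => ht _), hlab _ _ (fun i => ht _)]
  have hsplit := Finset.prod_filter_mul_prod_filter_not s (fun c => c.1.2 = false)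
    (fun c => (volume : Measure unitInterval) (t c))
  rw [← hsplit]
  congr 1
  · rw [hs0, Finset.prod_image]
    · refine Finset.prod_congr rfl fun c hc => ?_
      rw [Finset.mem_filter] at hc
      obtain ⟨⟨v, b⟩, j⟩ := c
      simp only at hc
      rw [hc.2]
    · rintro ⟨⟨v, b⟩, j⟩ hc ⟨⟨v', b'⟩, j'⟩ hc' heq
      simp only [Finset.coe_filter, Set.mem_ofPred_eq] at hc hc'
      simp only [Prod.mk.injEq] at heq
      simp [heq.1, heq.2, hc.2, hc'.2]
  · have hf : s.filter (fun c => ¬ c.1.2 = false) = s.filter (fun c => c.1.2 = true) := by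
      ext c; simp
    rw [hf, hs1, Finset.prod_image]
    · refine Finset.prod_congr rfl fun c hc => ?_
      rw [Finset.mem_filter] at hc
      obtain ⟨⟨v, b⟩, j⟩ := c
      simp only at hc
      rw [hc.2]
    · rintro ⟨⟨v, b⟩, j⟩ hc ⟨⟨v', b'⟩, j'⟩ hc' heq
      simp only [Finset.coe_filter, Set.mem_ofPred_eq] at hc hc'
      simp only [Prod.mk.injEq] at heq
      simp [heq.1, heq.2, hc.2, hc'.2]

/-- Fubini for the base space -/
theorem lintegral_jn (g : Om V → ENNReal) (hg : Measurable g) :
    ∫⁻ ω, g ω ∂PP V = ∫⁻ U, ∫⁻ L, g (jn (U, L)) ∂lab V ∂lab V := by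
  conv_lhs => rw [← map_jn]
  rw [lintegral_map hg measurable_jn, lintegral_prod]
  exact (hg.comp measurable_jn).aemeasurable

theorem Zo_jn (p : Finset V → ℝ) (W : Finset V) (U L : Lab V) :
    Zo p W (jn (U, L)) = jn (U, Zs p W U L) := by
  funext c
  unfold Zo
  rw [tU_jn, tL_jn]
  obtain ⟨⟨v, b⟩, j⟩ := c
  cases b <;> simp [jn]

theorem measurable_raw (k : ℕ) (r : ℝ) : Measurable (fun ω : Om V => raw k r ω) := by
  have h1 : Measurable (fun ω : Om V => ((r, ω) : ℝ × Om V)) := measurable_const.prodMk measurable_id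
  have h2 := (measurable_raw2 (V := V) k).comp h1
  exact h2

/-- exactness: law of the observations made before time `(k, r)` -/
theorem exact {p : Finset V → ℝ} {W : Finset V} (hp : IsMass p W) (k : ℕ) (r : ℝ)
    (h : Om V → ENNReal) (hh : Measurable h)
    (hdep : ∀ ω ω' : Om V, (∀ v j, ω ((v, false), j) = ω' ((v, false), j)) →
      (∀ v j, (j < k ∨ (j = k ∧ (ω ((v, false), k) : ℝ) < r)) → ω ((v, true), j) = ω' ((v, true), j)) →
      h ω = h ω') :
    ∫⁻ ω, h (Zo p W ω) ∂PP V = ∫⁻ ω, h ω * ENNReal.ofReal (pt p W (raw k r ω)) ∂PP V := by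
  have hmr : Measurable (fun ω : Om V => pt p W (raw k r ω)) :=
    (measurable_pt p W).comp (measurable_raw k r)
  rw [lintegral_jn (fun ω => h (Zo p W ω)) (hh.comp (measurable_Zo p W)),
    lintegral_jn (fun ω => h ω * ENNReal.ofReal (pt p W (raw k r ω))) (hh.mul hmr.ennreal_ofReal)]
  have hae : ∀ᵐ U ∂lab V, ∀ a ∈ W, ∀ b ∈ W, ∀ j ≤ k, a ≠ b → U (a, j) ≠ U (b, j) := by
    rw [Finset.eventually_all]
    intro a _
    rw [Finset.eventually_all]
    intro b _
    have : ∀ᵐ U ∂lab V, ∀ j ∈ Finset.range (k + 1), a ≠ b → U (a, j) ≠ U (b, j) := by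
      rw [Finset.eventually_all]
      intro j _
      by_cases hab : a = b
      · simp [hab]
      · filter_upwards [ae_times_ne a b hab j] with L hL _ using hL
    filter_upwards [this] with L hL j hj using hL j (Finset.mem_range.2 (by omega))
  refine lintegral_congr_ae (hae.mono fun U hU => ?_)
  obtain ⟨l, hl, hmem⟩ := exists_Srt W U k r hU
  simp only
  have hgm : Measurable (fun L : Lab V => h (jn (U, L))) :=
    hh.comp (measurable_jn.comp (measurable_const.prodMk measurable_id))
  have h1 : ∀ L : Lab V, h (Zo p W (jn (U, L))) = (fun L => h (jn (U, L))) (Er p W U l L) := by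
    intro L
    rw [Zo_jn]
    refine hdep _ _ (fun v j => by simp [jn]) (fun v j hj => ?_)
    simp only [jn, if_true]
    have hj' : j < k ∨ (j = k ∧ (U (v, k) : ℝ) < r) := by simpa [jn] using hj
    by_cases hv : v ∈ W
    · refine (Er_eq_Zs p W U L l hl (v, j) ?_).symm
      rw [hmem, mem_Evs]
      refine ⟨hv, ?_⟩
      rcases hj' with h2 | ⟨h2, h3⟩
      · exact Or.inl h2
      · right; refine ⟨h2, ?_⟩; rw [h2]; exact h3
    · rw [Zs_fix, if_neg hv, Er_of_notMem]
      intro hc
      exact hv (hl.mem _ hc)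
  simp_rw [h1]
  rw [exact_list hp U l hl.nodup hl.mem _ hgm]
  refine lintegral_congr fun L => ?_
  congr 2
  refine pt_congr p W _ _ fun v hv => ?_
  unfold raw
  rw [tU_jn, tL_jn]
  exact wl_eq_lkh W U l hl.nodup k r (fun c => by rw [hmem, mem_Evs]) L v hv

/-- raw data at `(k, r)` only depend on the labels before `(k, r)` -/
theorem raw_dep (k : ℕ) (r : ℝ) (ω ω' : Om V)
    (h1 : ∀ v j, ω ((v, false), j) = ω' ((v, false), j))
    (h2 : ∀ v j, (j < k ∨ (j = k ∧ (ω ((v, false), k) : ℝ) < r)) →
      ω ((v, true), j) = ω' ((v, true), j)) : raw k r ω = raw k r ω' := by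
  have hU : tU ω = tU ω' := by
    funext c; exact h1 c.1 c.2
  funext v b
  unfold raw lkh
  rw [← hU]
  have ht : ∀ j, (j < k ∨ (j = k ∧ (ω ((v, false), k) : ℝ) < r)) →
      tl (tU ω) (tL ω) v j = tl (tU ω) (tL ω') v j := by
    intro j hj
    unfold tl
    rw [show tL ω (v, j) = tL ω' (v, j) from h2 v j hj]
  congr 1
  · refine Finset.prod_congr rfl fun j hj => ?_
    rw [ht j (Or.inl (Finset.mem_range.1 hj))]
  · split_ifs with hlt
    · rw [ht k (Or.inr ⟨rfl, hlt⟩)]
    · rfl

theorem raw_pos (k : ℕ) (r : ℝ) (ω : Om V) (v : V) (b : Bool) : 0 < raw k r ω v b :=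
  lkh_pos _ _ _ _ _ _

/-- the density has total mass one -/
theorem lintegral_pt_raw {p : Finset V → ℝ} {W : Finset V} (hp : IsMass p W) (k : ℕ) (r : ℝ) :
    ∫⁻ ω, ENNReal.ofReal (pt p W (raw k r ω)) ∂PP V = 1 := by
  have h := exact hp k r (fun _ => 1) measurable_const (fun _ _ _ _ => rfl)
  simp only [one_mul] at h
  rw [← h]
  simp

theorem measurable_pt_raw (p : Finset V → ℝ) (W : Finset V) (k : ℕ) (r : ℝ) :
    Measurable (fun ω : Om V => pt p W (raw k r ω)) :=
  (measurable_pt p W).comp (measurable_raw k r)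

theorem integrable_pt_raw {p : Finset V → ℝ} {W : Finset V} (hp : IsMass p W) (k : ℕ) (r : ℝ) :
    Integrable (fun ω : Om V => pt p W (raw k r ω)) (PP V) := by
  refine ⟨(measurable_pt_raw p W k r).aestronglyMeasurable, ?_⟩
  rw [hasFiniteIntegral_iff_ofReal]
  · rw [lintegral_pt_raw hp]; exact ENNReal.one_lt_top
  · exact Filter.Eventually.of_forall fun ω => (pt_pos hp _ (raw_pos k r ω)).le

theorem integral_pt_raw {p : Finset V → ℝ} {W : Finset V} (hp : IsMass p W) (k : ℕ) (r : ℝ) :
    ∫ ω, pt p W (raw k r ω) ∂PP V = 1 := by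
  rw [integral_eq_lintegral_of_nonneg_ae, lintegral_pt_raw hp]
  · simp
  · exact Filter.Eventually.of_forall fun ω => (pt_pos hp _ (raw_pos k r ω)).le
  · exact (measurable_pt_raw p W k r).aestronglyMeasurable

/-- exactness for bounded real functions of the data -/
theorem exact_dat {p : Finset V → ℝ} {W : Finset V} (hp : IsMass p W) (k : ℕ) (r : ℝ)
    (φ : (V → Bool → ℝ) → ℝ) (hφ : Measurable φ) (C : ℝ) (hC : ∀ ω, |φ (raw k r ω)| ≤ C) :
    ∫ ω, φ (dat p W k r ω) ∂PP V = ∫ ω, φ (raw k r ω) * pt p W (raw k r ω) ∂PP V := by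
  have hgm : Measurable (fun ω : Om V => φ (raw k r ω)) := hφ.comp (measurable_raw k r)
  have hgm' : Measurable (fun ω : Om V => φ (raw k r (Zo p W ω))) := hgm.comp (measurable_Zo p W)
  have hnn : ∀ ω : Om V, 0 ≤ φ (raw k r ω) + C := fun ω => by
    have := (abs_le.1 (hC ω)).1; linarith
  have hpt := fun ω : Om V => (pt_pos hp _ (raw_pos k r ω)).le
  have key := exact hp k r (fun ω => ENNReal.ofReal (φ (raw k r ω) + C))
    ((hgm.add_const C).ennreal_ofReal) (fun ω ω' h1 h2 => by rw [raw_dep k r ω ω' h1 h2])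
  have e1 : ∫ ω, (φ (raw k r (Zo p W ω)) + C) ∂PP V =
      ∫ ω, (φ (raw k r ω) + C) * pt p W (raw k r ω) ∂PP V := by
    rw [integral_eq_lintegral_of_nonneg_ae, integral_eq_lintegral_of_nonneg_ae]
    · congr 1
      rw [key]
      refine lintegral_congr fun ω => ?_
      rw [ENNReal.ofReal_mul (hnn ω)]
    · exact Filter.Eventually.of_forall fun ω => mul_nonneg (hnn ω) (hpt ω)
    · exact ((hgm.add_const C).mul (measurable_pt_raw p W k r)).aestronglyMeasurable
    · exact Filter.Eventually.of_forall fun ω => hnn _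
    · exact (hgm'.add_const C).aestronglyMeasurable
  have hi1 : Integrable (fun ω : Om V => φ (raw k r (Zo p W ω))) (PP V) := by
    refine Integrable.of_bound hgm'.aestronglyMeasurable C (Filter.Eventually.of_forall fun ω => ?_)
    rw [Real.norm_eq_abs]; exact hC _
  have hi2 : Integrable (fun ω : Om V => φ (raw k r ω) * pt p W (raw k r ω)) (PP V) := by
    refine (integrable_pt_raw hp k r).bdd_mul (c := C) hgm.aestronglyMeasurable
      (Filter.Eventually.of_forall fun ω => ?_)
    rw [Real.norm_eq_abs]; exact hC _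
  have e2 : ∫ ω, (φ (raw k r (Zo p W ω)) + C) ∂PP V = ∫ ω, φ (raw k r (Zo p W ω)) ∂PP V + C := by
    rw [integral_add hi1 (integrable_const C)]
    simp
  have e3 : ∫ ω, (φ (raw k r ω) + C) * pt p W (raw k r ω) ∂PP V =
      ∫ ω, φ (raw k r ω) * pt p W (raw k r ω) ∂PP V + C := by
    have : ∀ ω : Om V, (φ (raw k r ω) + C) * pt p W (raw k r ω) =
        φ (raw k r ω) * pt p W (raw k r ω) + C * pt p W (raw k r ω) := fun ω => by ring
    simp_rw [this]
    rw [integral_add hi2 ((integrable_pt_raw hp k r).const_mul C), integral_const_mul,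
      integral_pt_raw hp, mul_one]
  simp_rw [dat_eq_raw]
  linarith [e1, e2, e3]

end SCH

end Crest.Agent.TI
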