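import Crest.Agent.TI_InfA
import Crest.Agent.TI_Jen
import Crest.Agent.TI_Schb
import Crest.Agent.TI_PLa
import Crest.Agent.TI_PLe
import Crest.Agent.TI_PLb

/-!
Row S0241, task InfE: stages, measurability and monotonicity in the time
-/

set_option autoImplicit false
set_option linter.unusedSectionVars false
set_option linter.unusedVariables false

namespace Crest.Agent.TI

open MeasureTheory Filter Topology
open Crest.Agent.SRF (Lab lab)


/-- comparison of two integrals through an `L²` bound -/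
theorem infe_close {Ω : Type*} [MeasurableSpace Ω] (P : Measure Ω) [IsProbabilityMeasure P]
    (F F' d : Ω → ℝ) (K δ : ℝ) (hK : 0 ≤ K) (hδ : 0 < δ) (hF : Integrable F P) (hF' : Integrable F' P)
    (hd : Integrable (fun ω => d ω ^ 2) P) (hle : ∀ ω, |F ω - F' ω| ≤ K * |d ω|)
    (h2 : ∫ ω, d ω ^ 2 ∂P ≤ δ ^ 2) : |∫ ω, F ω ∂P - ∫ ω, F' ω ∂P| ≤ K * δ := by
  rw [← integral_sub hF hF']
  refine (abs_integral_le_integral_abs).trans ?_
  have h3 : ∀ ω, |F ω - F' ω| ≤ K * ((δ + d ω ^ 2 / δ) / 2) := by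
    intro ω
    refine (hle ω).trans (mul_le_mul_of_nonneg_left ?_ hK)
    have h4 : 0 ≤ (|d ω| - δ) ^ 2 := sq_nonneg _
    have h5 : |d ω| * δ ≤ (δ ^ 2 + d ω ^ 2) / 2 := by
      rw [← sq_abs (d ω)]; linarith [h4]
    have h6 : |d ω| = |d ω| * δ / δ := by field_simp
    rw [h6]
    have h7 : (δ + d ω ^ 2 / δ) / 2 = (δ ^ 2 + d ω ^ 2) / 2 / δ := by field_simp
    rw [h7]
    exact div_le_div_of_nonneg_right h5 hδ.le
  have hi : Integrable (fun ω => K * ((δ + d ω ^ 2 / δ) / 2)) P :=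
    (((integrable_const δ).add (hd.div_const δ)).div_const 2).const_mul K
  refine (integral_mono (hF.sub hF').abs hi h3).trans ?_
  rw [integral_const_mul]
  refine mul_le_mul_of_nonneg_left ?_ hK
  rw [integral_div, integral_add (integrable_const δ) (hd.div_const δ), integral_div]
  simp only [integral_const, probReal_univ, smul_eq_mul, one_mul]
  have h8 : (∫ ω, d ω ^ 2 ∂P) / δ ≤ δ := by
    rw [div_le_iff₀ hδ]; nlinarith
  linarith

section INF

variable {V : Type*} [DecidableEq V] {G : SimpleGraph V} [G.LocallyFinite]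

theorem infe_measurable_MW (θ : ℝ) (W : Finset V) (k : ℕ) (r : ℝ) (v : V) :
    Measurable (MW G θ W k r v) := by
  have h1 : Measurable (fun ω : Om V => (r, ω)) := measurable_const.prodMk measurable_id
  have h2 := (measurable_MM2 (ip G θ W) W k v).comp h1
  have h3 : MW G θ W k r v = (fun q : ℝ × Om V => MM (ip G θ W) W k q.1 v q.2) ∘ fun ω => (r, ω) := by
    funext ω
    rw [Function.comp_apply, MW]
  rw [h3]
  exact h2

theorem infe_measurable_BB (θ : ℝ) (W : Finset V) (k : ℕ) (r : ℝ) (x y : V) :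
    Measurable (BB G θ W k r x y) := by
  have h1 : Measurable (fun ω : Om V => (r, ω)) := measurable_const.prodMk measurable_id
  have h2 := (measurable_dat2 (ip G θ W) W k).comp h1
  have h3 := (measurable_mn (ip G θ (sd G W x y)) (sd G W x y) x).comp h2
  have h4 : BB G θ W k r x y = (fun l : V → Bool → ℝ => mn (ip G θ (sd G W x y)) (sd G W x y) l x) ∘
      ((fun q : ℝ × Om V => dat (ip G θ W) W k q.1 q.2) ∘ fun ω => (r, ω)) := by
    funext ω
    rw [Function.comp_apply, Function.comp_apply, BB, bm]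
  rw [h4]
  exact h3

/-- stages follow each other -/
theorem mI_stage (hT : G.IsTree) (b : ℕ) (hb : 2 ≤ b) (hreg : G.IsRegularOfDegree (b + 1)) (θ : ℝ)
    (h0 : 0 ≤ θ) (h1 : b * θ ^ 2 < 1) (k : ℕ) (r : ℝ) (hr0 : 1 / 2 ≤ r) (hr1 : r ≤ 1) (v : V) :
    mI G b θ k r v =ᵐ[PP V] mI G b θ (k + 1) 0 v := by
  have hA := isLim_mI hT b hb hreg θ h0 h1 k r (by linarith) hr1 v
  have hB := isLim_mI hT b hb hreg θ h0 h1 (k + 1) 0 le_rfl zero_le_one v
  have e : (fun W => MW G θ W (k + 1) 0 v) = fun W => MW G θ W k r v := by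
    funext W ω
    exact (MW_stage θ W k r hr0 v ω).symm
  rw [e] at hB
  exact isLim_unique hT (fun W => infe_measurable_MW θ W k r v)
    (fun W hW hv ω => abs_MW_le hT b hb hreg k θ h0 h1.le W hW r v hv ω) hA hB

theorem infe_theta_lt {b : ℕ} (hb : 2 ≤ b) {θ : ℝ} (h0 : 0 ≤ θ) (h1 : b * θ ^ 2 < 1) : θ < 1 := by
  have hb' : (2 : ℝ) ≤ b := by exact_mod_cast hb
  by_contra hc
  have hc' : 1 ≤ θ := not_lt.1 hc
  have : 1 ≤ θ ^ 2 := one_le_pow₀ hc'
  nlinarith

/-- measurability in the time -/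
theorem measurable_Zr (hT : G.IsTree) (b : ℕ) (hb : 2 ≤ b) (hreg : G.IsRegularOfDegree (b + 1))
    (θ θ' : ℝ) (h0 : 0 ≤ θ) (h1 : b * θ ^ 2 < 1) (h0' : 0 ≤ θ') (h1' : b * θ' ^ 2 < 1) (k : ℕ) (v : V) :
    Measurable (Set.indicator (Set.Icc (0 : ℝ) 1)
      (fun r => ∫ ω, (mI G b θ k r v ω - mI G b θ' k r v ω) ^ 2 ∂PP V)) := by
  have hκ := kp_spec hT b hb hreg k
  have hκ1 := hκ.2.1
  set F : ℕ → ℝ → ℝ := fun n => Set.indicator (Set.Icc (0 : ℝ) 1)
    (fun r => ∫ ω, (MW G θ (bal G v n) k r v ω - MW G θ' (bal G v n) k r v ω) ^ 2 ∂PP V) with hF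
  have hFm : ∀ n, Measurable (F n) := by
    intro n
    refine Measurable.indicator ?_ measurableSet_Icc
    have hm : Measurable (fun q : ℝ × Om V =>
        (MW G θ (bal G v n) k q.1 v q.2 - MW G θ' (bal G v n) k q.1 v q.2) ^ 2) :=
      ((measurable_MM2 (ip G θ (bal G v n)) (bal G v n) k v).sub
        (measurable_MM2 (ip G θ' (bal G v n)) (bal G v n) k v)).pow_const 2
    exact (hm.stronglyMeasurable.integral_prod_right').measurable
  refine measurable_of_tendsto_metrizable hFm ?_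
  rw [tendsto_pi_nhds]
  intro r
  by_cases hr : r ∈ Set.Icc (0 : ℝ) 1
  swap
  · simp only [hF, Set.indicator_of_notMem hr]
    exact tendsto_const_nhds
  simp only [hF, Set.indicator_of_mem hr]
  rw [Metric.tendsto_atTop]
  intro ε hε
  set δ : ℝ := ε / 16 with hδ
  have hδ0 : 0 < δ := by positivity
  obtain ⟨R, hR⟩ := mI_unif hT b hb hreg θ h0 h1 k (δ ^ 2) (by positivity)
  obtain ⟨R', hR'⟩ := mI_unif hT b hb hreg θ' h0' h1' k (δ ^ 2) (by positivity)
  refine ⟨max R R', fun n hn => ?_⟩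
  have hsub : ∀ m ≤ n, bal G v m ⊆ bal G v n := by
    intro m hm u hu
    rw [mem_bal hT] at hu ⊢
    omega
  have hv : v ∈ bal G v n := by
    rw [mem_bal hT]; simp
  have hW := win_bal hT v n
  have e1 := hR v (bal G v n) hW (hsub R ((le_max_left _ _).trans hn)) r hr.1 hr.2
  have e2 := hR' v (bal G v n) hW (hsub R' ((le_max_right _ _).trans hn)) r hr.1 hr.2
  have l1 := isLim_mI hT b hb hreg θ h0 h1 k r hr.1 hr.2 v
  have l2 := isLim_mI hT b hb hreg θ' h0' h1' k r hr.1 hr.2 v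
  set A := MW G θ (bal G v n) k r v with hA
  set A' := MW G θ' (bal G v n) k r v with hA'
  set B := mI G b θ k r v with hB
  set B' := mI G b θ' k r v with hB'
  have mA : Measurable A := infe_measurable_MW θ _ k r v
  have mA' : Measurable A' := infe_measurable_MW θ' _ k r v
  have mB : Measurable B := l1.1
  have mB' : Measurable B' := l2.1
  have bA : ∀ ω, |A ω| ≤ 1 := fun ω =>
    (abs_MW_le hT b hb hreg k θ h0 h1.le _ hW r v hv ω).trans hκ1.le
  have bA' : ∀ ω, |A' ω| ≤ 1 := fun ω =>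
    (abs_MW_le hT b hb hreg k θ' h0' h1'.le _ hW r v hv ω).trans hκ1.le
  have bB : ∀ ω, |B ω| ≤ 1 := fun ω => (l1.2.1 ω).trans hκ1.le
  have bB' : ∀ ω, |B' ω| ≤ 1 := fun ω => (l2.2.1 ω).trans hκ1.le
  have key := infe_close (PP V) (fun ω => (A ω - A' ω) ^ 2) (fun ω => (B ω - B' ω) ^ 2)
    (fun ω => (A ω - B ω) - (A' ω - B' ω)) 4 (2 * δ) (by norm_num) (by positivity)
    (integrable_bdd _ ((mA.sub mA').pow_const 2) 4 (fun ω => by
      have a1 := abs_le.1 (bA ω)
      have a2 := abs_le.1 (bA' ω)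
      rw [abs_of_nonneg (sq_nonneg _)]
      nlinarith))
    (integrable_bdd _ ((mB.sub mB').pow_const 2) 4 (fun ω => by
      have a1 := abs_le.1 (bB ω)
      have a2 := abs_le.1 (bB' ω)
      rw [abs_of_nonneg (sq_nonneg _)]
      nlinarith))
    (integrable_bdd _ (((mA.sub mB).sub (mA'.sub mB')).pow_const 2) 16 (fun ω => by
      have a1 := abs_le.1 (bA ω)
      have a2 := abs_le.1 (bA' ω)
      have a3 := abs_le.1 (bB ω)
      have a4 := abs_le.1 (bB' ω)
      rw [abs_of_nonneg (sq_nonneg _)]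
      nlinarith))
    (fun ω => by
      have a1 := abs_le.1 (bA ω)
      have a2 := abs_le.1 (bA' ω)
      have a3 := abs_le.1 (bB ω)
      have a4 := abs_le.1 (bB' ω)
      have e : (A ω - A' ω) ^ 2 - (B ω - B' ω) ^ 2 =
        ((A ω - A' ω) + (B ω - B' ω)) * ((A ω - B ω) - (A' ω - B' ω)) := by ring
      rw [e, abs_mul]
      refine mul_le_mul_of_nonneg_right ?_ (abs_nonneg _)
      rw [abs_le]
      constructor <;> linarith)
    (by
      have hi1 : Integrable (fun ω => (A ω - B ω) ^ 2) (PP V) :=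
        integrable_bdd _ ((mA.sub mB).pow_const 2) 4 (fun ω => by
          have a1 := abs_le.1 (bA ω)
          have a2 := abs_le.1 (bB ω)
          rw [abs_of_nonneg (sq_nonneg _)]
          nlinarith)
      have hi2 : Integrable (fun ω => (A' ω - B' ω) ^ 2) (PP V) :=
        integrable_bdd _ ((mA'.sub mB').pow_const 2) 4 (fun ω => by
          have a1 := abs_le.1 (bA' ω)
          have a2 := abs_le.1 (bB' ω)
          rw [abs_of_nonneg (sq_nonneg _)]
          nlinarith)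
      calc ∫ ω, ((A ω - B ω) - (A' ω - B' ω)) ^ 2 ∂PP V
          ≤ ∫ ω, (2 * (A ω - B ω) ^ 2 + 2 * (A' ω - B' ω) ^ 2) ∂PP V := by
            refine integral_mono_of_nonneg (Filter.Eventually.of_forall fun ω => sq_nonneg _)
              ((hi1.const_mul 2).add (hi2.const_mul 2)) (Filter.Eventually.of_forall fun ω => ?_)
            show ((A ω - B ω) - (A' ω - B' ω)) ^ 2 ≤ 2 * (A ω - B ω) ^ 2 + 2 * (A' ω - B' ω) ^ 2
            nlinarith [sq_nonneg ((A ω - B ω) + (A' ω - B' ω))]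
        _ = 2 * ∫ ω, (A ω - B ω) ^ 2 ∂PP V + 2 * ∫ ω, (A' ω - B' ω) ^ 2 ∂PP V := by
            rw [integral_add (hi1.const_mul 2) (hi2.const_mul 2), integral_const_mul,
              integral_const_mul]
        _ ≤ (2 * δ) ^ 2 := by nlinarith)
  rw [Real.dist_eq]
  calc _ ≤ 4 * (2 * δ) := key
    _ < ε := by rw [hδ]; linarith

/-- the function of the data giving `f_θ` of the cavity message -/
theorem infe_ff_zero (θ : ℝ) : ff θ 0 = 0 := by
  unfold ff; simp

theorem infe_ff_even (θ B : ℝ) : ff θ (-B) = ff θ B := by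
  unfold ff; simp

theorem infe_measurable_ff (θ : ℝ) : Measurable (ff θ) := by
  unfold ff
  fun_prop

theorem infe_ff_cont {κ : ℝ} (hκ : κ < 1) (θ : ℝ) (h0 : 0 ≤ θ) (h1 : θ ≤ 1) :
    ContinuousOn (ff θ) (Set.Icc (-κ) κ) := by
  unfold ff
  have hx : ∀ x ∈ Set.Icc (-κ) κ, 0 < 1 - x ^ 2 := by
    intro x hx
    have h1 := hx.1
    have h2 := hx.2
    nlinarith
  refine ContinuousOn.log ?_ ?_
  · refine ContinuousOn.div (by fun_prop) (by fun_prop) ?_
    intro x h
    exact (hx x h).ne'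
  · intro x h
    have e1 := hx x h
    have e2 : 0 < 1 - θ ^ 2 * x ^ 2 := by
      have : θ ^ 2 ≤ 1 := pow_le_one₀ h0 h1
      nlinarith [sq_nonneg x]
    exact (div_pos e2 e1).ne'

/-- the expectation only sees the side of `x` -/
theorem infe_BB_eq (hT : G.IsTree) (b : ℕ) (hb : 2 ≤ b) (hreg : G.IsRegularOfDegree (b + 1)) (θ : ℝ)
    (h0 : 0 ≤ θ) (h1 : b * θ ^ 2 < 1) (k : ℕ) (x y : V) (hxy : G.Adj x y) (W : Finset V)
    (hW : Win G W) (hx : x ∈ W) (r : ℝ) :
    ∫ ω, ff θ (BB G θ W k r x y ω) ∂PP V =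
      ∫ ω, ff θ (MM (ip G θ (sd G W x y)) (sd G W x y) k r x ω) ∂PP V := by
  have hθ := infe_theta_lt hb h0 h1
  have hA := win_sd hT hW hx hxy
  have hxA := mem_sd_self hx hxy
  have hκ := kp_spec hT b hb hreg k
  set A := sd G W x y with hAd
  obtain ⟨C, hC0, hC⟩ := ff_lip (kp G b k) hκ.2.1
  set φ : (V → Bool → ℝ) → ℝ := fun l => ff θ (mn (ip G θ A) A l x) with hφ
  have hφm : Measurable φ := (infe_measurable_ff θ).comp (measurable_mn (ip G θ A) A x)
  have hφC : ∀ ω : Om V, |φ (raw k r ω)| ≤ C := by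
    intro ω
    have e1 : |mn (ip G θ A) A (raw k r ω) x| ≤ kp G b k :=
      hκ.2.2 θ A (raw k r ω) x h0 h1.le hA hxA (fun v c => ple_ge k r v ω c) (fun v c => ple_le k r v ω c)
    have e2 := hC θ θ (mn (ip G θ A) A (raw k r ω) x) 0 1 h0 hθ.le h0 hθ.le e1
      (by simpa using hκ.1.le) (e1.trans hκ.2.1.le) (by simp)
    rw [infe_ff_zero] at e2
    simp only [sub_zero, sub_self, abs_zero, add_zero, one_mul] at e2
    refine e2.trans ?_
    have e3 : |mn (ip G θ A) A (raw k r ω) x| ≤ 1 := e1.trans hκ.2.1.le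
    nlinarith
  have hD : DepOn A φ := by
    intro l l' h
    simp only [hφ]
    rw [mn_congr (ip G θ A) A l l' h x]
  have hE : EvenF φ := by
    intro l
    simp only [hφ]
    rw [plb_mn_flip θ hxA l, infe_ff_even]
  have q1 := exact_dat (isMass_ip hT θ h0 hθ.le hW) k r φ hφm C hφC
  have q2 := one_block (raw_LData (V := V) k r) hT θ h0 hθ hW hx hxy φ hφm hD hE C hφC
  have q3 := exact_dat (isMass_ip hT θ h0 hθ.le hA) k r φ hφm C hφC
  exact q1.trans (q2.trans q3.symm)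

/-- monotonicity in a window -/
theorem infe_win_mono (hT : G.IsTree) (b : ℕ) (hb : 2 ≤ b) (hreg : G.IsRegularOfDegree (b + 1)) (θ : ℝ)
    (h0 : 0 ≤ θ) (h1 : b * θ ^ 2 < 1) (k : ℕ) (x y : V) (hxy : G.Adj x y) (W : Finset V)
    (hW : Win G W) (hx : x ∈ W) (r r' : ℝ) (hr : 0 ≤ r) (hrr : r ≤ r') (hr' : r' ≤ 1) :
    ∫ ω, ff θ (BB G θ W k r x y ω) ∂PP V ≤ ∫ ω, ff θ (BB G θ W k r' x y ω) ∂PP V := by
  have hθ := infe_theta_lt hb h0 h1
  have hA := win_sd hT hW hx hxy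
  have hxA := mem_sd_self hx hxy
  have hκ := kp_spec hT b hb hreg k
  rw [infe_BB_eq hT b hb hreg θ h0 h1 k x y hxy W hW hx r,
    infe_BB_eq hT b hb hreg θ h0 h1 k x y hxy W hW hx r']
  exact jensen (isMass_ip hT θ h0 hθ.le hA) x hxA k r r' hr hrr hr' (ff θ) (kp G b k)
    (ff_convex θ (kp G b k) h0 hθ.le hκ.2.1) (infe_ff_cont hκ.2.1 θ h0 hθ.le)
    (fun r ω => abs_MW_le hT b hb hreg k θ h0 h1.le _ hA r x hxA ω)

/-- `r ↦ E f_θ(B(r))` is nondecreasing -/
theorem ar_mono (hT : G.IsTree) (b : ℕ) (hb : 2 ≤ b) (hreg : G.IsRegularOfDegree (b + 1)) (θ : ℝ)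
    (h0 : 0 ≤ θ) (h1 : b * θ ^ 2 < 1) (k : ℕ) (x y : V) (hxy : G.Adj x y) :
    MonotoneOn (fun r => ∫ ω, ff θ (bI G b θ k r x y ω) ∂PP V) (Set.Icc (0 : ℝ) 1) := by
  intro r hr r' hr' hrr
  show ∫ ω, ff θ (bI G b θ k r x y ω) ∂PP V ≤ ∫ ω, ff θ (bI G b θ k r' x y ω) ∂PP V
  have hθ := infe_theta_lt hb h0 h1
  have hκ := kp_spec hT b hb hreg k
  obtain ⟨C, hC0, hC⟩ := ff_lip (kp G b k) hκ.2.1
  have hbd : ∀ B : ℝ, |B| ≤ kp G b k → |ff θ B| ≤ C := by
    intro B hB
    have e2 := hC θ θ B 0 1 h0 hθ.le h0 hθ.le hB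
      (by simpa using hκ.1.le) (hB.trans hκ.2.1.le) (by simp)
    rw [infe_ff_zero] at e2
    simp only [sub_zero, sub_self, abs_zero, add_zero, one_mul] at e2
    refine e2.trans ?_
    have e3 : |B| ≤ 1 := hB.trans hκ.2.1.le
    nlinarith
  have hlip : ∀ B B' : ℝ, |B| ≤ kp G b k → |B'| ≤ kp G b k → |ff θ B - ff θ B'| ≤ C * |B - B'| := by
    intro B B' hB hB'
    have e2 := hC θ θ B B' 1 h0 hθ.le h0 hθ.le hB hB' (hB.trans hκ.2.1.le) (hB'.trans hκ.2.1.le)
    simpa using e2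
  refine le_of_forall_pos_le_add fun ε hε => ?_
  set δ : ℝ := ε / (2 * C) with hδ
  have hδ0 : 0 < δ := by positivity
  have l1 := isLim_bI hT b hb hreg θ h0 h1 k r hr.1 hr.2 x y hxy
  have l2 := isLim_bI hT b hb hreg θ h0 h1 k r' hr'.1 hr'.2 x y hxy
  obtain ⟨R, hR⟩ := l1.2.2 (δ ^ 2) (by positivity)
  obtain ⟨R', hR'⟩ := l2.2.2 (δ ^ 2) (by positivity)
  set n := max R R' with hn
  have hsub : ∀ m ≤ n, bal G x m ⊆ bal G x n := by
    intro m hm u hu
    rw [mem_bal hT] at hu ⊢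
    omega
  have hx : x ∈ bal G x n := by
    rw [mem_bal hT]; simp
  have hW := win_bal hT x n
  have e1 := hR (bal G x n) hW (hsub R (le_max_left _ _))
  have e2 := hR' (bal G x n) hW (hsub R' (le_max_right _ _))
  have hgen : ∀ (s : ℝ) (L : IsLim G (fun W => BB G θ W k s x y) x (kp G b k) (bI G b θ k s x y)),
      ∫ ω, (BB G θ (bal G x n) k s x y ω - bI G b θ k s x y ω) ^ 2 ∂PP V ≤ δ ^ 2 →
      |∫ ω, ff θ (BB G θ (bal G x n) k s x y ω) ∂PP V - ∫ ω, ff θ (bI G b θ k s x y ω) ∂PP V| ≤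
        C * δ := by
    intro s L hL
    have mA : Measurable (BB G θ (bal G x n) k s x y) := infe_measurable_BB θ _ k s x y
    have mB : Measurable (bI G b θ k s x y) := L.1
    have bA : ∀ ω, |BB G θ (bal G x n) k s x y ω| ≤ kp G b k := fun ω =>
      abs_BB_le hT b hb hreg k θ h0 h1.le _ hW s x y hx hxy ω
    have bB : ∀ ω, |bI G b θ k s x y ω| ≤ kp G b k := L.2.1
    refine infe_close (PP V) (fun ω => ff θ (BB G θ (bal G x n) k s x y ω))
      (fun ω => ff θ (bI G b θ k s x y ω))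
      (fun ω => BB G θ (bal G x n) k s x y ω - bI G b θ k s x y ω) C δ hC0.le hδ0
      (integrable_bdd _ ((infe_measurable_ff θ).comp mA) C (fun ω => hbd _ (bA ω)))
      (integrable_bdd _ ((infe_measurable_ff θ).comp mB) C (fun ω => hbd _ (bB ω)))
      (integrable_bdd _ ((mA.sub mB).pow_const 2) 4 (fun ω => by
        have a1 := abs_le.1 ((bA ω).trans hκ.2.1.le)
        have a2 := abs_le.1 ((bB ω).trans hκ.2.1.le)
        rw [abs_of_nonneg (sq_nonneg _)]
        nlinarith)) (fun ω => hlip _ _ (bA ω) (bB ω)) hL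
  have g1 := abs_le.1 (hgen r l1 e1)
  have g2 := abs_le.1 (hgen r' l2 e2)
  have g3 := infe_win_mono hT b hb hreg θ h0 h1 k x y hxy (bal G x n) hW hx r r' hr.1 hrr hr'.2
  have g4 : C * δ = ε / 2 := by
    rw [hδ]; field_simp
  linarith [g1.1, g1.2, g2.1, g2.2]

end INF

end Crest.Agent.TI
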