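import Crest.Agent.TI_InfA

/-!
Row S0241, task InfB: the infinite volume fields form an equivariant consistent family
-/

set_option autoImplicit false
set_option linter.unusedSectionVars false
set_option linter.unusedVariables false

namespace Crest.Agent.TI

open MeasureTheory Filter Topology
open Crest.Agent.SRF (Lab lab)


section INFB0

variable {V : Type*}

theorem ifb_integrable {f : Om V → ℝ} (hf : Measurable f) {C : ℝ} (hC : ∀ ω, |f ω| ≤ C) :
    Integrable f (PP V) := by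
  have : IsProbabilityMeasure (PP V) := by
    unfold PP lab
    infer_instance
  exact Integrable.of_bound hf.aestronglyMeasurable C
    (Eventually.of_forall (fun ω => by simpa [Real.norm_eq_abs] using hC ω))

theorem ifb_sq {f : Om V → ℝ} (hf : Measurable f) {C : ℝ} (hC : ∀ ω, |f ω| ≤ C) :
    Integrable (fun ω => f ω ^ 2) (PP V) := by
  refine ifb_integrable (hf.pow_const 2) (C := C ^ 2) fun ω => ?_
  rw [abs_pow]
  exact pow_le_pow_left₀ (abs_nonneg _) (hC ω) 2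

theorem ifb_sub_sq {f g : Om V → ℝ} (hf : Measurable f) (hg : Measurable g) {C D : ℝ}
    (hC : ∀ ω, |f ω| ≤ C) (hD : ∀ ω, |g ω| ≤ D) :
    Integrable (fun ω => (f ω - g ω) ^ 2) (PP V) := by
  refine ifb_sq (hf.sub hg) (C := C + D) fun ω => ?_
  exact (abs_sub _ _).trans (add_le_add (hC ω) (hD ω))

theorem ifb_ae_eq {f g : Om V → ℝ} (hf : Measurable f) (hg : Measurable g) {C D : ℝ}
    (hC : ∀ ω, |f ω| ≤ C) (hD : ∀ ω, |g ω| ≤ D)
    (h : ∀ ε : ℝ, 0 < ε → ∫ ω, (f ω - g ω) ^ 2 ∂PP V ≤ ε) : f =ᵐ[PP V] g := by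
  have h0 : ∫ ω, (f ω - g ω) ^ 2 ∂PP V = 0 :=
    le_antisymm (le_of_forall_pos_le_add fun ε hε => by simpa using h ε hε)
      (integral_nonneg fun ω => sq_nonneg _)
  have h1 := (integral_eq_zero_iff_of_nonneg (fun ω => sq_nonneg _) (ifb_sub_sq hf hg hC hD)).1 h0
  filter_upwards [h1] with ω hω
  have : (f ω - g ω) ^ 2 = 0 := hω
  exact sub_eq_zero.1 (pow_eq_zero_iff (two_ne_zero) |>.1 this)

/-- triangle inequality for squares -/
theorem ifb_tri {f g h : Om V → ℝ} (hf : Measurable f) (hg : Measurable g) (hh : Measurable h)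
    {C D E a b : ℝ} (hC : ∀ ω, |f ω| ≤ C) (hD : ∀ ω, |g ω| ≤ D) (hE : ∀ ω, |h ω| ≤ E)
    (h1 : ∫ ω, (f ω - g ω) ^ 2 ∂PP V ≤ a) (h2 : ∫ ω, (g ω - h ω) ^ 2 ∂PP V ≤ b) :
    ∫ ω, (f ω - h ω) ^ 2 ∂PP V ≤ 2 * a + 2 * b := by
  have i1 := ifb_sub_sq hf hg hC hD
  have i2 := ifb_sub_sq hg hh hD hE
  have i3 := ifb_sub_sq hf hh hC hE
  calc ∫ ω, (f ω - h ω) ^ 2 ∂PP V ≤ ∫ ω, (2 * (f ω - g ω) ^ 2 + 2 * (g ω - h ω) ^ 2) ∂PP V := by
        refine integral_mono i3 ((i1.const_mul 2).add (i2.const_mul 2)) fun ω => ?_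
        have e : (f ω - h ω) ^ 2 ≤ 2 * (f ω - g ω) ^ 2 + 2 * (g ω - h ω) ^ 2 := by
          nlinarith [sq_nonneg ((f ω - g ω) - (g ω - h ω))]
        exact e
    _ = 2 * ∫ ω, (f ω - g ω) ^ 2 ∂PP V + 2 * ∫ ω, (g ω - h ω) ^ 2 ∂PP V := by
        rw [integral_add (i1.const_mul 2) (i2.const_mul 2), integral_const_mul, integral_const_mul]
    _ ≤ 2 * a + 2 * b := by linarith

theorem ifb_pair (θ κ a b a' b' : ℝ) (h0 : 0 ≤ θ) (h1 : θ ≤ 1) (hκ0 : 0 ≤ κ) (hκ : κ < 1)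
    (ha : |a| ≤ κ) (hb : |b| ≤ κ) (ha' : |a'| ≤ κ) (hb' : |b'| ≤ κ) :
    ((a + θ * b) / (1 + θ * (a * b)) - (a' + θ * b') / (1 + θ * (a' * b'))) ^ 2 ≤
      (8 / (1 - κ ^ 2) ^ 4) * ((a - a') ^ 2 + (b - b') ^ 2) := by
  have hq : 0 < 1 - κ ^ 2 := by nlinarith
  have hprod : ∀ x y : ℝ, |x| ≤ κ → |y| ≤ κ → |x * y| ≤ κ ^ 2 := by
    intro x y hx hy
    rw [abs_mul, pow_two]
    exact mul_le_mul hx hy (abs_nonneg _) hκ0
  have hD : ∀ x y : ℝ, |x| ≤ κ → |y| ≤ κ → 1 - κ ^ 2 ≤ 1 + θ * (x * y) := by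
    intro x y hx hy
    have h2 := (abs_le.1 (hprod x y hx hy)).1
    have h3 : θ * (x * y) ≥ θ * (-κ ^ 2) := mul_le_mul_of_nonneg_left h2 h0
    nlinarith [sq_nonneg κ]
  have hD1 := hD a b ha hb
  have hD2 := hD a' b' ha' hb'
  have e : (a + θ * b) / (1 + θ * (a * b)) - (a' + θ * b') / (1 + θ * (a' * b')) =
      ((a - a') * (1 - θ ^ 2 * (b * b')) + θ * (b - b') * (1 - a * a')) /
        ((1 + θ * (a * b)) * (1 + θ * (a' * b'))) := by
    rw [div_sub_div _ _ (by linarith) (by linarith)]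
    congr 1
    ring
  rw [e, div_pow]
  have hP : (1 - κ ^ 2) ^ 4 ≤ ((1 + θ * (a * b)) * (1 + θ * (a' * b'))) ^ 2 := by
    have : (1 - κ ^ 2) * (1 - κ ^ 2) ≤ (1 + θ * (a * b)) * (1 + θ * (a' * b')) :=
      mul_le_mul hD1 hD2 hq.le (hq.le.trans hD1)
    calc (1 - κ ^ 2) ^ 4 = ((1 - κ ^ 2) * (1 - κ ^ 2)) ^ 2 := by ring
      _ ≤ _ := pow_le_pow_left₀ (by positivity) this 2
  have hθ2 : θ ^ 2 ≤ 1 := pow_le_one₀ h0 h1
  have hκ2 : κ ^ 2 ≤ 1 := by linarith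
  have hN : ((a - a') * (1 - θ ^ 2 * (b * b')) + θ * (b - b') * (1 - a * a')) ^ 2 ≤
      8 * ((a - a') ^ 2 + (b - b') ^ 2) := by
    have k1 : (1 - θ ^ 2 * (b * b')) ^ 2 ≤ 4 := by
      have := abs_le.1 (hprod b b' hb hb')
      have h5 : |θ ^ 2 * (b * b')| ≤ 1 := by
        rw [abs_mul, abs_of_nonneg (by positivity : (0:ℝ) ≤ θ ^ 2)]
        calc θ ^ 2 * |b * b'| ≤ 1 * 1 :=
              mul_le_mul hθ2 ((hprod b b' hb hb').trans hκ2) (abs_nonneg _) zero_le_one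
          _ = 1 := one_mul 1
      have h6 := abs_le.1 h5
      nlinarith
    have k2 : (θ * (1 - a * a')) ^ 2 ≤ 4 := by
      have h6 := abs_le.1 ((hprod a a' ha ha').trans hκ2)
      have h7 : (1 - a * a') ^ 2 ≤ 4 := by nlinarith
      rw [mul_pow]
      calc θ ^ 2 * (1 - a * a') ^ 2 ≤ 1 * 4 := mul_le_mul hθ2 h7 (sq_nonneg _) zero_le_one
        _ = 4 := by norm_num
    have k3 : ((a - a') * (1 - θ ^ 2 * (b * b')) + θ * (b - b') * (1 - a * a')) ^ 2 ≤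
        2 * ((a - a') ^ 2 * (1 - θ ^ 2 * (b * b')) ^ 2) + 2 * ((b - b') ^ 2 * (θ * (1 - a * a')) ^ 2) := by
      nlinarith [sq_nonneg ((a - a') * (1 - θ ^ 2 * (b * b')) - θ * (b - b') * (1 - a * a'))]
    have k4 := mul_le_mul_of_nonneg_left k1 (sq_nonneg (a - a'))
    have k5 := mul_le_mul_of_nonneg_left k2 (sq_nonneg (b - b'))
    linarith
  have hq4 : 0 < (1 - κ ^ 2) ^ 4 := by positivity
  calc _ ≤ (8 * ((a - a') ^ 2 + (b - b') ^ 2)) / ((1 - κ ^ 2) ^ 4) :=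
        div_le_div₀ (by positivity) hN hq4 hP
    _ = _ := by ring

theorem ifb_psi (θ κ a a' : ℝ) (h0 : 0 ≤ θ) (h1 : θ ≤ 1) (hκ0 : 0 ≤ κ) (hκ : κ < 1)
    (ha : |a| ≤ κ) (ha' : |a'| ≤ κ) :
    0 ≤ psi θ a ∧ psi θ a ≤ 1 ∧ |psi θ a - psi θ a'| ≤ (2 / (1 - κ ^ 2) ^ 2) * |a - a'| := by
  have hq : 0 < 1 - κ ^ 2 := by nlinarith
  have hθ2 : θ ^ 2 ≤ 1 := pow_le_one₀ h0 h1
  have hsq : ∀ x : ℝ, |x| ≤ κ → x ^ 2 ≤ κ ^ 2 := by
    intro x hx
    rw [← sq_abs]
    exact pow_le_pow_left₀ (abs_nonneg _) hx 2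
  have hD : ∀ x : ℝ, |x| ≤ κ → 1 - κ ^ 2 ≤ 1 - θ ^ 2 * x ^ 2 ∧ 1 - x ^ 2 ≤ 1 - θ ^ 2 * x ^ 2 := by
    intro x hx
    have h2 := hsq x hx
    have h3 : θ ^ 2 * x ^ 2 ≤ 1 * x ^ 2 := mul_le_mul_of_nonneg_right hθ2 (sq_nonneg _)
    constructor <;> linarith
  obtain ⟨hDa, hDa'⟩ := hD a ha
  obtain ⟨hDb, hDb'⟩ := hD a' ha'
  have h2 := hsq a ha
  have hpa : 0 < 1 - θ ^ 2 * a ^ 2 := by linarith
  have hpb : 0 < 1 - θ ^ 2 * a' ^ 2 := by linarith
  refine ⟨?_, ?_, ?_⟩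
  · exact div_nonneg (by linarith) hpa.le
  · exact (div_le_one hpa).2 hDa'
  · unfold psi
    rw [div_sub_div _ _ hpa.ne' hpb.ne', abs_div]
    have e : (1 - a ^ 2) * (1 - θ ^ 2 * a' ^ 2) - (1 - θ ^ 2 * a ^ 2) * (1 - a' ^ 2) =
        (1 - θ ^ 2) * (-(a + a')) * (a - a') := by ring
    rw [e, abs_mul]
    have k1 : |(1 - θ ^ 2) * (-(a + a'))| ≤ 2 := by
      rw [abs_mul, abs_neg]
      have e1 : |1 - θ ^ 2| ≤ 1 := by
        rw [abs_le]; constructor <;> nlinarith [sq_nonneg θ]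
      have e2 : |a + a'| ≤ 2 := (abs_add_le _ _).trans (by linarith)
      calc |1 - θ ^ 2| * |a + a'| ≤ 1 * 2 := mul_le_mul e1 e2 (abs_nonneg _) zero_le_one
        _ = 2 := one_mul 2
    have k2 : (1 - κ ^ 2) ^ 2 ≤ |(1 - θ ^ 2 * a ^ 2) * (1 - θ ^ 2 * a' ^ 2)| := by
      rw [abs_of_pos (mul_pos hpa hpb), pow_two]
      exact mul_le_mul hDa hDb hq.le hpa.le
    calc _ ≤ (2 * |a - a'|) / (1 - κ ^ 2) ^ 2 :=
          div_le_div₀ (by positivity) (mul_le_mul_of_nonneg_right k1 (abs_nonneg _)) (by positivity) k2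
      _ = _ := by ring

theorem ifb_prod (n : ℕ) (a b : ℕ → ℝ) (ha0 : ∀ i < n, 0 ≤ a i) (ha1 : ∀ i < n, a i ≤ 1)
    (hb0 : ∀ i < n, 0 ≤ b i) (hb1 : ∀ i < n, b i ≤ 1) :
    |∏ i ∈ Finset.range n, a i - ∏ i ∈ Finset.range n, b i| ≤ ∑ i ∈ Finset.range n, |a i - b i| := by
  induction n with
  | zero => simp
  | succ n ih =>
    rw [Finset.prod_range_succ, Finset.prod_range_succ, Finset.sum_range_succ]
    have ih' := ih (fun i hi => ha0 i (by omega)) (fun i hi => ha1 i (by omega))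
      (fun i hi => hb0 i (by omega)) (fun i hi => hb1 i (by omega))
    have hA0 : 0 ≤ ∏ i ∈ Finset.range n, a i :=
      Finset.prod_nonneg fun i hi => ha0 i (by have := Finset.mem_range.1 hi; omega)
    have hA1 : ∏ i ∈ Finset.range n, a i ≤ 1 :=
      Finset.prod_le_one (fun i hi => ha0 i (by have := Finset.mem_range.1 hi; omega))
        (fun i hi => ha1 i (by have := Finset.mem_range.1 hi; omega))
    have e : (∏ i ∈ Finset.range n, a i) * a n - (∏ i ∈ Finset.range n, b i) * b n =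
        (∏ i ∈ Finset.range n, a i) * (a n - b n) +
          (∏ i ∈ Finset.range n, a i - ∏ i ∈ Finset.range n, b i) * b n := by ring
    rw [e]
    refine (abs_add_le _ _).trans ?_
    rw [abs_mul, abs_mul, abs_of_nonneg hA0, abs_of_nonneg (hb0 n (by omega))]
    have k1 : (∏ i ∈ Finset.range n, a i) * |a n - b n| ≤ 1 * |a n - b n| :=
      mul_le_mul_of_nonneg_right hA1 (abs_nonneg _)
    have k2 : |∏ i ∈ Finset.range n, a i - ∏ i ∈ Finset.range n, b i| * b n ≤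
        |∏ i ∈ Finset.range n, a i - ∏ i ∈ Finset.range n, b i| * 1 :=
      mul_le_mul_of_nonneg_left (hb1 n (by omega)) (abs_nonneg _)
    linarith

end INFB0

section INF

variable {V : Type*} [DecidableEq V] {G : SimpleGraph V} [G.LocallyFinite]

theorem ifb_meas_dat (p : Finset V → ℝ) (W : Finset V) (k : ℕ) (r : ℝ) : Measurable (dat p W k r) := by
  have h1 : Measurable (fun ω : Om V => (r, ω)) := measurable_const.prodMk measurable_id
  exact (measurable_dat2 p W k).comp h1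

theorem ifb_meas_MW (θ : ℝ) (W : Finset V) (k : ℕ) (r : ℝ) (v : V) : Measurable (MW G θ W k r v) := by
  have h : Measurable (fun ω => mn (ip G θ W) W (dat (ip G θ W) W k r ω) v) :=
    (measurable_mn (ip G θ W) W v).comp (ifb_meas_dat (ip G θ W) W k r)
  exact h

theorem ifb_meas_BB (θ : ℝ) (W : Finset V) (k : ℕ) (r : ℝ) (x y : V) :
    Measurable (BB G θ W k r x y) := by
  have h : Measurable (fun ω => mn (ip G θ (sd G W x y)) (sd G W x y) (dat (ip G θ W) W k r ω) x) :=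
    (measurable_mn (ip G θ (sd G W x y)) (sd G W x y) x).comp (ifb_meas_dat (ip G θ W) W k r)
  exact h

theorem ifb_iso_dist_le (hT : G.IsTree) (g : G ≃g G) (u v : V) : G.dist (g u) (g v) ≤ G.dist u v := by
  obtain ⟨p, hp⟩ := hT.connected.exists_walk_length_eq_dist u v
  rw [← hp]
  have := SimpleGraph.dist_le (p.map g.toHom)
  rw [SimpleGraph.Walk.length_map] at this
  exact this

theorem ifb_iso_dist (hT : G.IsTree) (g : G ≃g G) (u v : V) : G.dist (g u) (g v) = G.dist u v := by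
  refine le_antisymm (ifb_iso_dist_le hT g u v) ?_
  have := ifb_iso_dist_le hT g.symm (g u) (g v)
  simpa using this

theorem ifb_sd_map (hT : G.IsTree) (g : G ≃g G) (W : Finset V) (x y : V) :
    sd G (W.map g.toEquiv.toEmbedding) (g x) (g y) = (sd G W x y).map g.toEquiv.toEmbedding := by
  ext w
  unfold sd
  simp only [Finset.mem_filter, Finset.mem_map]
  constructor
  · rintro ⟨⟨a, ha, rfl⟩, h⟩
    refine ⟨a, ⟨ha, ?_⟩, rfl⟩
    have h' : G.dist (g a) (g x) < G.dist (g a) (g y) := h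
    rwa [ifb_iso_dist hT, ifb_iso_dist hT] at h'
  · rintro ⟨a, ⟨ha, h⟩, rfl⟩
    refine ⟨⟨a, ha, rfl⟩, ?_⟩
    change G.dist (g a) (g x) < G.dist (g a) (g y)
    rwa [ifb_iso_dist hT, ifb_iso_dist hT]

theorem ifb_MW_map (θ : ℝ) (g : G ≃g G) (W : Finset V) (k : ℕ) (r : ℝ) (v : V) (ω : Om V) :
    MW G θ (W.map g.toEquiv.toEmbedding) k r (g v) ω = MW G θ W k r v (act g.toEquiv ω) := by
  unfold MW
  have h := MM_map g.toEquiv (ip G θ (W.map g.toEquiv.toEmbedding)) W k r v ω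
  simp only [ip_map] at h
  exact h

theorem ifb_BB_map (hT : G.IsTree) (θ : ℝ) (g : G ≃g G) (W : Finset V) (k : ℕ) (r : ℝ) (x y : V)
    (ω : Om V) :
    BB G θ (W.map g.toEquiv.toEmbedding) k r (g x) (g y) ω = BB G θ W k r x y (act g.toEquiv ω) := by
  unfold BB bm
  rw [ifb_sd_map hT]
  have h1 := mn_map g.toEquiv.toEmbedding (ip G θ ((sd G W x y).map g.toEquiv.toEmbedding)) (sd G W x y)
    (dat (ip G θ (W.map g.toEquiv.toEmbedding)) (W.map g.toEquiv.toEmbedding) k r ω) x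
  simp only [ip_map] at h1
  refine h1.trans ?_
  refine mn_congr _ (sd G W x y) _ _ (fun h _ => ?_) x
  have h2 := dat_map g.toEquiv (ip G θ (W.map g.toEquiv.toEmbedding)) W k r h ω
  simp only [ip_map] at h2
  exact h2

theorem ifb_map_symm (g : G ≃g G) (W : Finset V) :
    (W.map g.symm.toEquiv.toEmbedding).map g.toEquiv.toEmbedding = W := by
  ext w
  simp only [Finset.mem_map]
  constructor
  · rintro ⟨a, ⟨c, hc, rfl⟩, rfl⟩
    have : g.toEquiv.toEmbedding (g.symm.toEquiv.toEmbedding c) = c := g.apply_symm_apply c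
    rwa [this]
  · intro hw
    exact ⟨g.symm w, ⟨w, hw, rfl⟩, g.apply_symm_apply w⟩

/-- transport of limits by automorphisms -/
theorem ifb_isLim_map (hT : G.IsTree) (g : G ≃g G) {F F' : Finset V → Om V → ℝ} {v : V} {κ : ℝ}
    {f : Om V → ℝ} (hF : ∀ W, Measurable (F W))
    (hFF : ∀ W ω, F' (W.map g.toEquiv.toEmbedding) ω = F W (act g.toEquiv ω))
    (h : IsLim G F v κ f) : IsLim G F' (g v) κ (fun ω => f (act g.toEquiv ω)) := by
  obtain ⟨hm, hbd, hlim⟩ := h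
  refine ⟨hm.comp (measurable_act g.toEquiv), fun ω => hbd _, fun ε hε => ?_⟩
  obtain ⟨R, hR⟩ := hlim ε hε
  refine ⟨R, fun W hW hWR => ?_⟩
  have hWe := ifb_map_symm g W
  set W' : Finset V := W.map g.symm.toEquiv.toEmbedding with hW'
  have h1 : Win G W' := win_map g.symm W hW
  have h2 : bal G v R ⊆ W' := by
    have h3 := bal_map g.symm (g v) R
    rw [g.symm_apply_apply] at h3
    rw [← h3, hW']
    exact Finset.map_subset_map.2 hWR
  have h3 := hR W' h1 h2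
  have h4 : ∀ ω, F' W ω - f (act g.toEquiv ω) =
      (fun ω => F W' ω - f ω) (act g.toEquiv ω) := by
    intro ω
    have := hFF W' ω
    rw [hWe] at this
    simp only [this]
  simp only [h4]
  have hmeas : Measurable (fun ω => (F W' ω - f ω) ^ 2) := ((hF W').sub hm).pow_const 2
  have h5 := integral_map (μ := PP V) (measurable_act g.toEquiv).aemeasurable
    (f := fun ω => (F W' ω - f ω) ^ 2) hmeas.aestronglyMeasurable
  rw [map_act] at h5
  exact h5.symm.le.trans h3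

end INF

section INF1

variable {V : Type*} [DecidableEq V] {G : SimpleGraph V} [G.LocallyFinite]

theorem ifb_theta (b : ℕ) (hb : 2 ≤ b) (θ : ℝ) (h0 : 0 ≤ θ) (h1 : b * θ ^ 2 < 1) : θ < 1 := by
  by_contra h
  have h2 : 1 ≤ θ := not_lt.1 h
  have h3 : (2 : ℝ) ≤ b := by exact_mod_cast hb
  have h4 : 1 ≤ θ ^ 2 := one_le_pow₀ h2
  nlinarith

theorem ifb_bI_meas (b : ℕ) (θ : ℝ) (k : ℕ) (r : ℝ) (x y : V) : Measurable (bI G b θ k r x y) := by
  unfold bI
  split_ifs with h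
  · exact h.choose_spec.1
  · exact measurable_const

theorem ifb_bI_bdd (hT : G.IsTree) (b : ℕ) (hb : 2 ≤ b) (hreg : G.IsRegularOfDegree (b + 1)) (θ : ℝ)
    (k : ℕ) (r : ℝ) (x y : V) (ω : Om V) : |bI G b θ k r x y ω| ≤ kp G b k := by
  unfold bI
  split_ifs with h
  · exact h.choose_spec.2.1 ω
  · simpa using (kp_spec hT b hb hreg k).1.le

theorem ifb_mem_bal (hT : G.IsTree) (v : V) (n : ℕ) : v ∈ bal G v n := by
  rw [mem_bal hT]; simp

theorem ifb_bal_mono (hT : G.IsTree) {v w : V} {m n : ℕ} (h : G.dist v w + m ≤ n) :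
    bal G w m ⊆ bal G v n := by
  intro a ha
  rw [mem_bal hT] at ha ⊢
  have := hT.connected.dist_triangle (u := v) (v := w) (w := a)
  omega

variable (hT : G.IsTree) (b : ℕ) (hb : 2 ≤ b) (hreg : G.IsRegularOfDegree (b + 1)) (θ : ℝ)
  (h0 : 0 ≤ θ) (h1 : b * θ ^ 2 < 1) (k : ℕ)

include hT hb hreg h0 h1

theorem bI_unif (ε : ℝ) (hε : 0 < ε) : ∃ R : ℕ, ∀ (x y : V) (W : Finset V), G.Adj x y → Win G W →
    bal G x R ⊆ W → ∀ r : ℝ, 0 ≤ r → r ≤ 1 →
      ∫ ω, (BB G θ W k r x y ω - bI G b θ k r x y ω) ^ 2 ∂PP V ≤ ε := by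
  obtain ⟨R, hR⟩ := bb_cauchy hT b hb hreg θ h0 h1 k (ε / 4) (by positivity)
  refine ⟨R, fun x y W hxy hW hWR r hr0 hr1 => ?_⟩
  obtain ⟨hm, hbd, hlim⟩ := isLim_bI hT b hb hreg θ h0 h1 k r hr0 hr1 x y hxy
  obtain ⟨R', hR'⟩ := hlim (ε / 4) (by positivity)
  have hxW : x ∈ W := hWR (ifb_mem_bal hT x R)
  have hxW' : x ∈ bal G x (max R R') := ifb_mem_bal hT x _
  have e1 := hR x y W (bal G x (max R R')) hxy hW (win_bal hT x _) hWR
    (ifb_bal_mono hT (by simp)) r hr0 hr1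
  have e2 := hR' (bal G x (max R R')) (win_bal hT x _) (ifb_bal_mono hT (by simp))
  have e3 := ifb_tri (ifb_meas_BB θ W k r x y) (ifb_meas_BB θ (bal G x (max R R')) k r x y) hm
    (fun ω => abs_BB_le hT b hb hreg k θ h0 h1.le W hW r x y hxW hxy ω)
    (fun ω => abs_BB_le hT b hb hreg k θ h0 h1.le _ (win_bal hT x _) r x y hxW' hxy ω) hbd e1 e2
  linarith

theorem ifb_pair_ae (r : ℝ) (hr0 : 0 ≤ r) (hr1 : r ≤ 1) (x y : V) (hxy : G.Adj x y) :
    (mI G b θ k r x) =ᵐ[PP V] fun ω => (bI G b θ k r x y ω + θ * bI G b θ k r y x ω) /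
      (1 + θ * (bI G b θ k r x y ω * bI G b θ k r y x ω)) := by
  set κ := kp G b k with hκ
  obtain ⟨hκ0, hκ1, -⟩ := kp_spec hT b hb hreg k
  rw [← hκ] at hκ0 hκ1
  have hθ1 := ifb_theta b hb θ h0 h1
  obtain ⟨hmm, hmb, hml⟩ := isLim_mI hT b hb hreg θ h0 h1 k r hr0 hr1 x
  have mB : ∀ x y, Measurable (bI G b θ k r x y) := fun x y => ifb_bI_meas b θ k r x y
  have bB : ∀ x y ω, |bI G b θ k r x y ω| ≤ κ := fun x y ω => ifb_bI_bdd hT b hb hreg θ k r x y ω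
  have hyx := hxy.symm
  obtain ⟨-, -, hl1⟩ := isLim_bI hT b hb hreg θ h0 h1 k r hr0 hr1 x y hxy
  obtain ⟨-, -, hl2⟩ := isLim_bI hT b hb hreg θ h0 h1 k r hr0 hr1 y x hyx
  set Fq : ℝ → ℝ → ℝ := fun a c => (a + θ * c) / (1 + θ * (a * c)) with hFq
  have mF : ∀ f g : Om V → ℝ, Measurable f → Measurable g → Measurable (fun ω => Fq (f ω) (g ω)) :=
    fun f g hf hg => (hf.add (hg.const_mul θ)).div (((hf.mul hg).const_mul θ).const_add 1)
  have hq : 0 < 1 - κ ^ 2 := by nlinarith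
  set L : ℝ := 8 / (1 - κ ^ 2) ^ 4 with hL
  have hLpos : 0 < L := by positivity
  -- bound for `Fq`
  have bF : ∀ a c : ℝ, |a| ≤ κ → |c| ≤ κ → |Fq a c| ≤ L + 1 := by
    intro a c ha hc
    have h2 := ifb_pair θ κ a c 0 0 h0 hθ1.le hκ0.le hκ1 ha hc (by simpa using hκ0.le)
      (by simpa using hκ0.le)
    have h3 : (Fq a c) ^ 2 ≤ L * (a ^ 2 + c ^ 2) := by
      simpa [hFq] using h2
    have h4 : a ^ 2 ≤ 1 := by
      rw [← sq_abs]; exact pow_le_one₀ (abs_nonneg _) (ha.trans hκ1.le)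
    have h5 : c ^ 2 ≤ 1 := by
      rw [← sq_abs]; exact pow_le_one₀ (abs_nonneg _) (hc.trans hκ1.le)
    refine abs_le_of_sq_le_sq (h3.trans ?_) (by positivity)
    nlinarith
  refine ifb_ae_eq hmm (mF _ _ (mB x y) (mB y x)) hmb (fun ω => bF _ _ (bB x y ω) (bB y x ω))
    fun ε hε => ?_
  set δ : ℝ := ε / (2 + 4 * L) with hδ
  have hδpos : 0 < δ := by positivity
  obtain ⟨R1, hR1⟩ := hml δ hδpos
  obtain ⟨R2, hR2⟩ := hl1 δ hδpos
  obtain ⟨R3, hR3⟩ := hl2 δ hδpos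
  set W := bal G x (max R1 (max R2 R3) + 1) with hW
  have hWw : Win G W := win_bal hT x _
  have hxW : x ∈ W := ifb_mem_bal hT x _
  have hdxy : G.dist x y = 1 := SimpleGraph.dist_eq_one_iff_adj.2 hxy
  have hyW : y ∈ W := by
    rw [hW, mem_bal hT]; omega
  have s1 : bal G x R1 ⊆ W := ifb_bal_mono hT (by simp; omega)
  have s2 : bal G x R2 ⊆ W := ifb_bal_mono hT (by simp; omega)
  have s3 : bal G y R3 ⊆ W := ifb_bal_mono hT (by rw [hdxy]; omega)
  have i1 := hR1 W hWw s1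
  have i2 := hR2 W hWw s2
  have i3 := hR3 W hWw s3
  have bW1 : ∀ ω, |BB G θ W k r x y ω| ≤ κ :=
    fun ω => abs_BB_le hT b hb hreg k θ h0 h1.le W hWw r x y hxW hxy ω
  have bW2 : ∀ ω, |BB G θ W k r y x ω| ≤ κ :=
    fun ω => abs_BB_le hT b hb hreg k θ h0 h1.le W hWw r y x hyW hyx ω
  have mW1 := ifb_meas_BB (G := G) θ W k r x y
  have mW2 := ifb_meas_BB (G := G) θ W k r y x
  have hMF : ∀ ω, MW G θ W k r x ω = Fq (BB G θ W k r x y ω) (BB G θ W k r y x ω) :=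
    fun ω => MW_pair hT θ h0 hθ1 W hWw k r x y hxW hyW hxy ω
  have j1 : ∫ ω, (mI G b θ k r x ω - MW G θ W k r x ω) ^ 2 ∂PP V ≤ δ := by
    refine le_trans (le_of_eq ?_) i1
    congr 1
    ext ω
    ring
  have j2 : ∫ ω, (MW G θ W k r x ω - Fq (bI G b θ k r x y ω) (bI G b θ k r y x ω)) ^ 2 ∂PP V ≤
      L * (2 * δ) := by
    have k1 := ifb_sub_sq mW1 (mB x y) bW1 (bB x y)
    have k2 := ifb_sub_sq mW2 (mB y x) bW2 (bB y x)
    calc _ ≤ ∫ ω, L * ((BB G θ W k r x y ω - bI G b θ k r x y ω) ^ 2 +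
          (BB G θ W k r y x ω - bI G b θ k r y x ω) ^ 2) ∂PP V := by
          refine integral_mono_of_nonneg (Eventually.of_forall fun ω => sq_nonneg _)
            ((k1.add k2).const_mul L) (Eventually.of_forall fun ω => ?_)
          simp only [hMF ω]
          exact ifb_pair θ κ _ _ _ _ h0 hθ1.le hκ0.le hκ1 (bW1 ω) (bW2 ω) (bB x y ω) (bB y x ω)
      _ = L * (∫ ω, (BB G θ W k r x y ω - bI G b θ k r x y ω) ^ 2 ∂PP V +
          ∫ ω, (BB G θ W k r y x ω - bI G b θ k r y x ω) ^ 2 ∂PP V) := by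
          rw [integral_const_mul, integral_add k1 k2]
      _ ≤ L * (2 * δ) := by
          refine mul_le_mul_of_nonneg_left ?_ hLpos.le
          linarith
  have j3 := ifb_tri hmm (ifb_meas_MW (G := G) θ W k r x) (mF _ _ (mB x y) (mB y x)) hmb
    (fun ω => abs_MW_le hT b hb hreg k θ h0 h1.le W hWw r x hxW ω)
    (fun ω => bF _ _ (bB x y ω) (bB y x ω)) j1 j2
  refine j3.trans (le_of_eq ?_)
  rw [hδ]
  field_simp
  ring

end INF1

section INF2

variable {V : Type*} [DecidableEq V] {G : SimpleGraph V} [G.LocallyFinite]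

/-- the infinite volume fields are an equivariant consistent family (note: `mI`, `bI` are bounded by
`kp` everywhere also in the `else` branch of their definition) -/
theorem fld_I (hT : G.IsTree) (b : ℕ) (hb : 2 ≤ b) (hreg : G.IsRegularOfDegree (b + 1)) (θ : ℝ)
    (h0 : 0 ≤ θ) (h1 : b * θ ^ 2 < 1) (k : ℕ) (r : ℝ) (hr0 : 0 ≤ r) (hr1 : r ≤ 1) :
    Fld G (kp G b k) θ (mI G b θ k r) (bI G b θ k r) where
  meas_m := fun v => (isLim_mI hT b hb hreg θ h0 h1 k r hr0 hr1 v).1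
  meas_B := ifb_bI_meas b θ k r
  bdd_m := fun v => (isLim_mI hT b hb hreg θ h0 h1 k r hr0 hr1 v).2.1
  bdd_B := ifb_bI_bdd hT b hb hreg θ k r
  pair := fun x y hxy => ifb_pair_ae hT b hb hreg θ h0 h1 k r hr0 hr1 x y hxy
  eqv_m := by
    intro g v
    have hL := isLim_mI hT b hb hreg θ h0 h1 k r hr0 hr1 v
    have hL' := isLim_mI hT b hb hreg θ h0 h1 k r hr0 hr1 (g v)
    have hL2 := ifb_isLim_map hT g (F := fun W => MW G θ W k r v) (F' := fun W => MW G θ W k r (g v))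
      (fun W => ifb_meas_MW θ W k r v) (fun W ω => ifb_MW_map θ g W k r v ω) hL
    exact isLim_unique hT (fun W => ifb_meas_MW θ W k r (g v))
      (fun W hW hv ω => abs_MW_le hT b hb hreg k θ h0 h1.le W hW r (g v) hv ω) hL' hL2
  eqv_B := by
    intro g x y hxy
    have hL := isLim_bI hT b hb hreg θ h0 h1 k r hr0 hr1 x y hxy
    have hgxy : G.Adj (g x) (g y) := g.map_adj_iff.2 hxy
    have hL' := isLim_bI hT b hb hreg θ h0 h1 k r hr0 hr1 (g x) (g y) hgxy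
    have hL2 := ifb_isLim_map hT g (F := fun W => BB G θ W k r x y)
      (F' := fun W => BB G θ W k r (g x) (g y))
      (fun W => ifb_meas_BB θ W k r x y) (fun W ω => ifb_BB_map hT θ g W k r x y ω) hL
    exact isLim_unique hT (fun W => ifb_meas_BB θ W k r (g x) (g y))
      (fun W hW hv ω => abs_BB_le hT b hb hreg k θ h0 h1.le W hW r (g x) (g y) hv hgxy ω) hL' hL2

theorem pth_spec (hT : G.IsTree) (v u : V) : pth G v u 0 = v ∧ pth G v u (G.dist v u) = u ∧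
    Geo G (pth G v u) (G.dist v u) := by
  unfold pth
  rw [dif_pos (geo_exists hT v u)]
  exact (geo_exists hT v u).choose_spec

/-- the infinite volume covariance is the limit of the window covariances -/
theorem kf_lim (hT : G.IsTree) (b : ℕ) (hb : 2 ≤ b) (hreg : G.IsRegularOfDegree (b + 1)) (θ : ℝ)
    (h0 : 0 ≤ θ) (h1 : b * θ ^ 2 < 1) (k : ℕ) (n : ℕ) (ε : ℝ) (hε : 0 < ε) : ∃ R : ℕ,
    ∀ (v u : V) (W : Finset V), G.dist v u ≤ n → Win G W → bal G v R ⊆ W → ∀ r : ℝ, 0 ≤ r → r ≤ 1 →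
      ∫ ω, (KW G θ W k r v u ω - Kf G θ (mI G b θ k r) (bI G b θ k r) v u ω) ^ 2 ∂PP V ≤ ε := by
  set κ := kp G b k with hκ
  obtain ⟨hκ0, hκ1, -⟩ := kp_spec hT b hb hreg k
  rw [← hκ] at hκ0 hκ1
  have hθ1 := ifb_theta b hb θ h0 h1
  have hq : 0 < 1 - κ ^ 2 := by nlinarith
  set L : ℝ := 2 / (1 - κ ^ 2) ^ 2 with hL
  have hLpos : 0 < L := by positivity
  set δ : ℝ := ε / ((n + 1) * (4 + n * L ^ 2)) with hδ
  have hδpos : 0 < δ := by positivity
  obtain ⟨R1, hR1⟩ := mI_unif hT b hb hreg θ h0 h1 k δ hδpos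
  obtain ⟨R2, hR2⟩ := bI_unif hT b hb hreg θ h0 h1 k δ hδpos
  refine ⟨max R1 (R2 + n), fun v u W hn hW hWR r hr0 hr1 => ?_⟩
  obtain ⟨hp0, hpn, hgeo⟩ := pth_spec hT v u
  set N := G.dist v u with hN
  set x := pth G v u with hx
  have hdx : ∀ i ≤ N, G.dist v (x i) = i := by
    intro i hi
    have := hgeo 0 i (Nat.zero_le _) hi
    rw [hp0] at this
    simpa using this
  have hsub : ∀ i ≤ N, bal G (x i) R2 ⊆ W := by
    intro i hi
    refine (ifb_bal_mono hT ?_).trans hWR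
    rw [hdx i hi]
    have := le_max_right R1 (R2 + n)
    omega
  have hxW : ∀ i ≤ N, x i ∈ W := fun i hi => hsub i hi (ifb_mem_bal hT _ _)
  have hvW : v ∈ W := by
    have := hxW 0 (Nat.zero_le _); rwa [hp0] at this
  have hadj : ∀ i < N, G.Adj (x (i + 1)) (x i) := fun i hi => (geo_adj hgeo i hi).symm
  have mm : Measurable (mI G b θ k r v) := (isLim_mI hT b hb hreg θ h0 h1 k r hr0 hr1 v).1
  have bm' : ∀ ω, |mI G b θ k r v ω| ≤ κ := (isLim_mI hT b hb hreg θ h0 h1 k r hr0 hr1 v).2.1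
  have bMW : ∀ ω, |MW G θ W k r v ω| ≤ κ :=
    fun ω => abs_MW_le hT b hb hreg k θ h0 h1.le W hW r v hvW ω
  have mB : ∀ x y, Measurable (bI G b θ k r x y) := fun x y => ifb_bI_meas b θ k r x y
  have bB : ∀ x y ω, |bI G b θ k r x y ω| ≤ κ := fun x y ω => ifb_bI_bdd hT b hb hreg θ k r x y ω
  have bBB : ∀ i < N, ∀ ω, |BB G θ W k r (x (i + 1)) (x i) ω| ≤ κ := fun i hi ω =>
    abs_BB_le hT b hb hreg k θ h0 h1.le W hW r _ _ (hxW (i + 1) (by omega)) (hadj i hi) ω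
  -- pointwise estimate
  have hpt : ∀ ω, (KW G θ W k r v u ω - Kf G θ (mI G b θ k r) (bI G b θ k r) v u ω) ^ 2 ≤
      (n + 1) * (4 * (MW G θ W k r v ω - mI G b θ k r v ω) ^ 2 + ∑ i ∈ Finset.range N,
        L ^ 2 * (BB G θ W k r (x (i + 1)) (x i) ω - bI G b θ k r (x (i + 1)) (x i) ω) ^ 2) := by
    intro ω
    have e1 := KW_path hT θ h0 hθ1 W hW k r x N hgeo hxW ω
    rw [hp0, hpn] at e1
    have e2 : Kf G θ (mI G b θ k r) (bI G b θ k r) v u ω = (1 - mI G b θ k r v ω ^ 2) *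
      ∏ i ∈ Finset.range N, (θ * psi θ (bI G b θ k r (x (i + 1)) (x i) ω)) := rfl
    rw [e1, e2]
    set A : ℝ := ∏ i ∈ Finset.range N, (θ * psi θ (BB G θ W k r (x (i + 1)) (x i) ω)) with hA
    set B : ℝ := ∏ i ∈ Finset.range N, (θ * psi θ (bI G b θ k r (x (i + 1)) (x i) ω)) with hB
    set M := MW G θ W k r v ω with hM
    set m := mI G b θ k r v ω with hm
    have hM1 : |M| ≤ 1 := (bMW ω).trans hκ1.le
    have hm1 : |m| ≤ 1 := (bm' ω).trans hκ1.le
    have f1 : ∀ i < N, 0 ≤ θ * psi θ (BB G θ W k r (x (i + 1)) (x i) ω) ∧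
        θ * psi θ (BB G θ W k r (x (i + 1)) (x i) ω) ≤ 1 := by
      intro i hi
      obtain ⟨g1, g2, -⟩ := ifb_psi θ κ _ _ h0 hθ1.le hκ0.le hκ1 (bBB i hi ω) (bBB i hi ω)
      exact ⟨mul_nonneg h0 g1, mul_le_one₀ hθ1.le g1 g2⟩
    have f2 : ∀ i < N, 0 ≤ θ * psi θ (bI G b θ k r (x (i + 1)) (x i) ω) ∧
        θ * psi θ (bI G b θ k r (x (i + 1)) (x i) ω) ≤ 1 := by
      intro i hi
      obtain ⟨g1, g2, -⟩ := ifb_psi θ κ _ _ h0 hθ1.le hκ0.le hκ1 (bB (x (i + 1)) (x i) ω)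
        (bB (x (i + 1)) (x i) ω)
      exact ⟨mul_nonneg h0 g1, mul_le_one₀ hθ1.le g1 g2⟩
    have hAB : |A - B| ≤ ∑ i ∈ Finset.range N,
        L * |BB G θ W k r (x (i + 1)) (x i) ω - bI G b θ k r (x (i + 1)) (x i) ω| := by
      refine (ifb_prod N _ _ (fun i hi => (f1 i hi).1) (fun i hi => (f1 i hi).2)
        (fun i hi => (f2 i hi).1) (fun i hi => (f2 i hi).2)).trans ?_
      refine Finset.sum_le_sum fun i hi => ?_
      have hi' := Finset.mem_range.1 hi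
      rw [← mul_sub, abs_mul, abs_of_nonneg h0]
      obtain ⟨-, -, g3⟩ := ifb_psi θ κ _ _ h0 hθ1.le hκ0.le hκ1 (bBB i hi' ω)
        (bB (x (i + 1)) (x i) ω)
      calc _ ≤ 1 * |psi θ (BB G θ W k r (x (i + 1)) (x i) ω) -
              psi θ (bI G b θ k r (x (i + 1)) (x i) ω)| :=
            mul_le_mul_of_nonneg_right hθ1.le (abs_nonneg _)
        _ ≤ _ := by rw [one_mul]; exact g3
    have hB0 : 0 ≤ B := Finset.prod_nonneg fun i hi => (f2 i (Finset.mem_range.1 hi)).1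
    have hB1 : B ≤ 1 := Finset.prod_le_one (fun i hi => (f2 i (Finset.mem_range.1 hi)).1)
      (fun i hi => (f2 i (Finset.mem_range.1 hi)).2)
    have hMs : M ^ 2 ≤ 1 := by rw [← sq_abs]; exact pow_le_one₀ (abs_nonneg _) hM1
    have hD : |(1 - M ^ 2) * A - (1 - m ^ 2) * B| ≤ 2 * |M - m| + ∑ i ∈ Finset.range N,
        L * |BB G θ W k r (x (i + 1)) (x i) ω - bI G b θ k r (x (i + 1)) (x i) ω| := by
      have e : (1 - M ^ 2) * A - (1 - m ^ 2) * B = (1 - M ^ 2) * (A - B) + -((M + m) * B) * (M - m) := by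
        ring
      rw [e]
      refine (abs_add_le _ _).trans ?_
      rw [abs_mul, abs_mul, abs_neg, abs_mul, abs_of_nonneg hB0,
        abs_of_nonneg (by linarith : (0:ℝ) ≤ 1 - M ^ 2)]
      have g1 : (1 - M ^ 2) * |A - B| ≤ 1 * |A - B| :=
        mul_le_mul_of_nonneg_right (by nlinarith [sq_nonneg M]) (abs_nonneg _)
      have g2 : |M + m| * B ≤ 2 * 1 :=
        mul_le_mul ((abs_add_le _ _).trans (by linarith)) hB1 hB0 (by norm_num)
      have g3 : |M + m| * B * |M - m| ≤ 2 * |M - m| :=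
        mul_le_mul_of_nonneg_right (by linarith) (abs_nonneg _)
      linarith
    -- Cauchy–Schwarz
    set c : ℕ → ℝ := fun i => if i = 0 then 2 * |M - m| else
      L * |BB G θ W k r (x i) (x (i - 1)) ω - bI G b θ k r (x i) (x (i - 1)) ω| with hc
    have hcs : ∑ i ∈ Finset.range (N + 1), c i = 2 * |M - m| + ∑ i ∈ Finset.range N,
        L * |BB G θ W k r (x (i + 1)) (x i) ω - bI G b θ k r (x (i + 1)) (x i) ω| := by
      rw [Finset.sum_range_succ', add_comm]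
      simp [hc]
    have hcs2 : ∑ i ∈ Finset.range (N + 1), c i ^ 2 = 4 * (M - m) ^ 2 + ∑ i ∈ Finset.range N,
        L ^ 2 * (BB G θ W k r (x (i + 1)) (x i) ω - bI G b θ k r (x (i + 1)) (x i) ω) ^ 2 := by
      rw [Finset.sum_range_succ', add_comm]
      congr 1
      · simp only [hc, if_true, mul_pow, sq_abs]; norm_num
      · refine Finset.sum_congr rfl fun i _ => ?_
        simp only [hc, Nat.succ_ne_zero, if_false, Nat.add_sub_cancel, mul_pow, sq_abs]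
    rw [← hcs] at hD
    rw [← hcs2]
    have hsq : (∑ i ∈ Finset.range (N + 1), c i) ^ 2 ≤ (N + 1) * ∑ i ∈ Finset.range (N + 1), c i ^ 2 := by
      have := sq_sum_le_card_mul_sum_sq (s := Finset.range (N + 1)) (f := c)
      simpa using this
    have hnn : 0 ≤ ∑ i ∈ Finset.range (N + 1), c i ^ 2 := Finset.sum_nonneg fun i _ => sq_nonneg _
    have hNn : (N : ℝ) ≤ n := by exact_mod_cast hn
    calc ((1 - M ^ 2) * A - (1 - m ^ 2) * B) ^ 2 ≤ (∑ i ∈ Finset.range (N + 1), c i) ^ 2 := by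
          rw [← sq_abs]
          exact pow_le_pow_left₀ (abs_nonneg _) hD 2
      _ ≤ (N + 1) * ∑ i ∈ Finset.range (N + 1), c i ^ 2 := hsq
      _ ≤ (n + 1) * ∑ i ∈ Finset.range (N + 1), c i ^ 2 :=
          mul_le_mul_of_nonneg_right (by linarith) hnn
  have k0 := ifb_sub_sq (ifb_meas_MW (G := G) θ W k r v) mm bMW bm'
  have kB : ∀ i ∈ Finset.range N, Integrable (fun ω => L ^ 2 *
      (BB G θ W k r (x (i + 1)) (x i) ω - bI G b θ k r (x (i + 1)) (x i) ω) ^ 2) (PP V) := fun i hi =>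
    (ifb_sub_sq (ifb_meas_BB (G := G) θ W k r _ _) (mB _ _) (bBB i (Finset.mem_range.1 hi))
      (bB _ _)).const_mul _
  have kS := integrable_finsetSum (Finset.range N) kB
  have kA := ((k0.const_mul 4).add kS).const_mul ((n : ℝ) + 1)
  calc _ ≤ ∫ ω, ((n : ℝ) + 1) * (4 * (MW G θ W k r v ω - mI G b θ k r v ω) ^ 2 +
        ∑ i ∈ Finset.range N, L ^ 2 *
          (BB G θ W k r (x (i + 1)) (x i) ω - bI G b θ k r (x (i + 1)) (x i) ω) ^ 2) ∂PP V :=
        integral_mono_of_nonneg (Eventually.of_forall fun ω => sq_nonneg _) kA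
          (Eventually.of_forall hpt)
    _ = ((n : ℝ) + 1) * (4 * ∫ ω, (MW G θ W k r v ω - mI G b θ k r v ω) ^ 2 ∂PP V +
        ∑ i ∈ Finset.range N, L ^ 2 *
          ∫ ω, (BB G θ W k r (x (i + 1)) (x i) ω - bI G b θ k r (x (i + 1)) (x i) ω) ^ 2 ∂PP V) := by
        rw [integral_const_mul, integral_add (k0.const_mul 4) kS, integral_const_mul,
          integral_finsetSum _ kB]
        congr 2
        refine Finset.sum_congr rfl fun i _ => ?_
        rw [integral_const_mul]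
    _ ≤ ((n : ℝ) + 1) * (4 * δ + n * (L ^ 2 * δ)) := by
        refine mul_le_mul_of_nonneg_left ?_ (by positivity)
        have g1 := hR1 v W hW ((ifb_bal_mono hT (by simp)).trans hWR) r hr0 hr1
        have g2 : ∑ i ∈ Finset.range N, L ^ 2 *
            ∫ ω, (BB G θ W k r (x (i + 1)) (x i) ω - bI G b θ k r (x (i + 1)) (x i) ω) ^ 2 ∂PP V ≤
            ∑ i ∈ Finset.range N, L ^ 2 * δ := by
          refine Finset.sum_le_sum fun i hi => mul_le_mul_of_nonneg_left ?_ (sq_nonneg _)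
          have hi' := Finset.mem_range.1 hi
          exact hR2 (x (i + 1)) (x i) W (hadj i hi') hW (hsub (i + 1) (by omega)) r hr0 hr1
        rw [Finset.sum_const, Finset.card_range, nsmul_eq_mul] at g2
        have hNn : (N : ℝ) ≤ n := by exact_mod_cast hn
        have g3 : (N : ℝ) * (L ^ 2 * δ) ≤ n * (L ^ 2 * δ) :=
          mul_le_mul_of_nonneg_right hNn (by positivity)
        linarith
    _ = ε := by
        rw [hδ]
        field_simp

end INF2

end Crest.Agent.TI
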