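import Crest.Agent.TI_Defs

/-!
Row S0241, task RAc: Gronwall and a scalar recursion
-/

set_option autoImplicit false
set_option linter.unusedSectionVars false
set_option linter.unusedVariables false

namespace Crest.Agent.TI

open MeasureTheory Filter Topology
open Crest.Agent.SRF (Lab lab)

section RA

theorem gronwall_aux (Z : ℝ → ℝ) (A : ℝ → ℝ) (a T c B : ℝ) (haT : a ≤ T) (hc : 0 ≤ c)
    (hA : Continuous A) (hA0 : ∀ r ∈ Set.Icc a T, 0 ≤ A r)
    (hZm : Measurable Z) (hZ0 : ∀ r ∈ Set.Icc a T, 0 ≤ Z r) (hZB : ∀ r ∈ Set.Icc a T, Z r ≤ B)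
    (hZ : ∀ t ∈ Set.Icc a T, Z t ≤ c + ∫ r in a..t, A r * Z r) (n : ℕ) :
    ∀ t ∈ Set.Icc a T, Z t ≤ c * Real.exp (∫ r in a..t, A r) +
      B / 2 ^ n * Real.exp (2 * ∫ r in a..t, A r) := by
  have hB : 0 ≤ B := le_trans (hZ0 a ⟨le_refl _, haT⟩) (hZB a ⟨le_refl _, haT⟩)
  have hI0 : ∀ t ∈ Set.Icc a T, 0 ≤ ∫ r in a..t, A r := by
    intro t ht
    apply intervalIntegral.integral_nonneg ht.1
    intro u hu
    exact hA0 u ⟨hu.1, hu.2.trans ht.2⟩
  induction n with
  | zero =>
    intro t ht
    have h1 : 1 ≤ Real.exp (2 * ∫ r in a..t, A r) :=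
      Real.one_le_exp (by have := hI0 t ht; linarith)
    have h2 : 0 ≤ c * Real.exp (∫ r in a..t, A r) := mul_nonneg hc (Real.exp_pos _).le
    have h3 : B ≤ B / 2 ^ 0 * Real.exp (2 * ∫ r in a..t, A r) := by
      rw [pow_zero, div_one]
      exact le_mul_of_one_le_right hB h1
    have := hZB t ht
    linarith
  | succ n ih =>
    intro t ht
    set I : ℝ → ℝ := fun t => ∫ r in a..t, A r with hI
    have hId : ∀ x, HasDerivAt I (A x) x := by
      intro x
      exact intervalIntegral.integral_hasDerivAt_right (hA.intervalIntegrable _ _)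
        (hA.stronglyMeasurableAtFilter _ _) hA.continuousAt
    have hIc : Continuous I := continuous_iff_continuousAt.2 fun x => (hId x).continuousAt
    have hFd : ∀ x, HasDerivAt (fun x => c * Real.exp (I x) + B / 2 ^ (n + 1) * Real.exp (2 * I x))
        (A x * (c * Real.exp (I x) + B / 2 ^ n * Real.exp (2 * I x))) x := by
      intro x
      have h1 := ((hId x).exp).const_mul c
      have h2 := (((hId x).const_mul 2).exp).const_mul (B / 2 ^ (n + 1))
      refine (h1.add h2).congr_deriv ?_
      rw [pow_succ]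
      field_simp
    have hGc : Continuous (fun x => A x * (c * Real.exp (I x) + B / 2 ^ n * Real.exp (2 * I x))) := by
      fun_prop
    have hint : ∫ r in a..t, A r * (c * Real.exp (I r) + B / 2 ^ n * Real.exp (2 * I r)) =
        (c * Real.exp (I t) + B / 2 ^ (n + 1) * Real.exp (2 * I t)) -
        (c * Real.exp (I a) + B / 2 ^ (n + 1) * Real.exp (2 * I a)) := by
      apply intervalIntegral.integral_eq_sub_of_hasDerivAt
      · intro x _
        exact hFd x
      · exact hGc.intervalIntegrable _ _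
    have hIa : I a = 0 := by simp [hI]
    rw [hIa] at hint
    simp only [mul_zero, Real.exp_zero, mul_one] at hint
    have hmono : ∫ r in a..t, A r * Z r ≤
        ∫ r in a..t, A r * (c * Real.exp (I r) + B / 2 ^ n * Real.exp (2 * I r)) := by
      apply intervalIntegral.integral_mono_on ht.1
      · apply IntervalIntegrable.continuousOn_mul _ hA.continuousOn
        rw [intervalIntegrable_iff_integrableOn_Ioc_of_le ht.1]
        apply Measure.integrableOn_of_bounded (M := B)
        · simp
        · exact hZm.aestronglyMeasurable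
        · rw [ae_restrict_iff' measurableSet_Ioc]
          refine Filter.Eventually.of_forall fun x hx => ?_
          have hx' : x ∈ Set.Icc a T := ⟨hx.1.le, hx.2.trans ht.2⟩
          rw [Real.norm_eq_abs, abs_of_nonneg (hZ0 x hx')]
          exact hZB x hx'
      · exact hGc.intervalIntegrable _ _
      · intro x hx
        have hx' : x ∈ Set.Icc a T := ⟨hx.1, hx.2.trans ht.2⟩
        exact mul_le_mul_of_nonneg_left (ih x hx') (hA0 x hx')
    have h1 := hZ t ht
    rw [hint] at hmono
    have h2 : 0 ≤ B / 2 ^ (n + 1) := by positivity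
    have h3 : (fun t => ∫ r in a..t, A r) t = I t := rfl
    change Z t ≤ c * Real.exp (I t) + B / 2 ^ (n + 1) * Real.exp (2 * I t)
    linarith

/-- integral Gronwall inequality -/
theorem gronwall_int (Z : ℝ → ℝ) (A : ℝ → ℝ) (a T c B : ℝ) (haT : a ≤ T) (hc : 0 ≤ c)
    (hA : ContinuousOn A (Set.Icc a T)) (hA0 : ∀ r ∈ Set.Icc a T, 0 ≤ A r)
    (hZm : Measurable Z) (hZ0 : ∀ r ∈ Set.Icc a T, 0 ≤ Z r) (hZB : ∀ r ∈ Set.Icc a T, Z r ≤ B)
    (hZ : ∀ t ∈ Set.Icc a T, Z t ≤ c + ∫ r in a..t, A r * Z r) :
    ∀ t ∈ Set.Icc a T, Z t ≤ c * Real.exp (∫ r in a..t, A r) := by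
  set A' : ℝ → ℝ := Set.IccExtend haT (Set.domRestrict (Set.Icc a T) A) with hA'
  have hA'c : Continuous A' := by
    apply Continuous.Icc_extend'
    exact continuousOn_iff_continuous_domRestrict.1 hA
  have hAA : ∀ x ∈ Set.Icc a T, A' x = A x := by
    intro x hx
    rw [hA', Set.IccExtend_of_mem haT _ hx]
    rfl
  have hint : ∀ t ∈ Set.Icc a T, ∫ r in a..t, A r = ∫ r in a..t, A' r := by
    intro t ht
    apply intervalIntegral.integral_congr
    intro x hx
    rw [Set.uIcc_of_le ht.1] at hx
    exact (hAA x ⟨hx.1, hx.2.trans ht.2⟩).symm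
  have hint2 : ∀ t ∈ Set.Icc a T, ∫ r in a..t, A r * Z r = ∫ r in a..t, A' r * Z r := by
    intro t ht
    apply intervalIntegral.integral_congr
    intro x hx
    rw [Set.uIcc_of_le ht.1] at hx
    simp only
    rw [hAA x ⟨hx.1, hx.2.trans ht.2⟩]
  have key := gronwall_aux Z A' a T c B haT hc hA'c (fun r hr => by rw [hAA r hr]; exact hA0 r hr)
    hZm hZ0 hZB (fun t ht => by rw [← hint2 t ht]; exact hZ t ht)
  intro t ht
  rw [hint t ht]
  have hlim : Tendsto (fun n : ℕ => c * Real.exp (∫ r in a..t, A' r) +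
      B / 2 ^ n * Real.exp (2 * ∫ r in a..t, A' r)) atTop
      (𝓝 (c * Real.exp (∫ r in a..t, A' r) + 0 * Real.exp (2 * ∫ r in a..t, A' r))) := by
    apply Tendsto.const_add
    apply Tendsto.mul_const
    exact tendsto_const_nhds.div_atTop (tendsto_pow_atTop_atTop_of_one_lt (by norm_num))
  rw [zero_mul, add_zero] at hlim
  exact ge_of_tendsto' hlim (fun n => key n t ht)

/-- lower bounds for the scalar recursion `a ↦ e + lam a/(1+a)` -/
theorem rec_lower (e lam : ℝ) (he : 0 < e) (he1 : e ≤ 1) (hl0 : 0 ≤ lam) (hl1 : lam ≤ 1) (a : ℕ → ℝ)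
    (h0 : 0 ≤ a 0) (hrec : ∀ n, e + lam * (a n / (1 + a n)) ≤ a (n + 1)) :
    ∃ N : ℕ, ∀ n ≥ N, min (Real.sqrt e / 8) (e / (8 * (1 - lam) + Real.sqrt e)) ≤ a n := by
  set c := min (Real.sqrt e / 8) (e / (8 * (1 - lam) + Real.sqrt e)) with hc
  have hs : 0 < Real.sqrt e := Real.sqrt_pos.2 he
  have hs2 : Real.sqrt e * Real.sqrt e = e := Real.mul_self_sqrt he.le
  have hden : 0 < 8 * (1 - lam) + Real.sqrt e := by nlinarith
  have hc1 : c ≤ Real.sqrt e / 8 := min_le_left _ _
  have hc2 : c ≤ e / (8 * (1 - lam) + Real.sqrt e) := min_le_right _ _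
  have hc0 : 0 < c := lt_min (by positivity) (by positivity)
  have hc3 : c * (1 - lam) ≤ e / 8 := by
    have h1 : c * (8 * (1 - lam) + Real.sqrt e) ≤ e := by
      rwa [le_div_iff₀ hden] at hc2
    nlinarith
  have hc4 : c * c ≤ e / 64 := by
    have : c * c ≤ (Real.sqrt e / 8) * (Real.sqrt e / 8) := mul_le_mul hc1 hc1 hc0.le (by positivity)
    nlinarith
  have hc5 : c * (1 - lam + c) ≤ e / 2 := by nlinarith
  have hnn : ∀ n, 0 ≤ a n := by
    intro n
    induction n with
    | zero => exact h0
    | succ n ih =>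
      have := hrec n
      have h2 : 0 ≤ lam * (a n / (1 + a n)) := by positivity
      linarith
  have hFc : c ≤ e + lam * (c / (1 + c)) := by
    have h1 : lam * (c / (1 + c)) = lam * c / (1 + c) := by ring
    rw [h1, ← sub_le_iff_le_add', le_div_iff₀ (by linarith)]
    nlinarith [mul_nonneg hc0.le he.le]
  have hstep : ∀ n, min c (a n + e / 2) ≤ a (n + 1) := by
    intro n
    have h := hrec n
    rcases le_total c (a n) with hca | hca
    · refine (min_le_left _ _).trans (hFc.trans (le_trans ?_ h))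
      have : c / (1 + c) ≤ a n / (1 + a n) := by
        rw [div_le_div_iff₀ (by linarith) (by linarith)]
        nlinarith
      have := mul_le_mul_of_nonneg_left this hl0
      linarith
    · refine (min_le_right _ _).trans (le_trans ?_ h)
      have hn := hnn n
      have h1 : a n * (1 - lam + a n) ≤ e / 2 := by
        refine le_trans ?_ hc5
        apply mul_le_mul hca (by linarith) (by nlinarith) hc0.le
      have h2 : a n - a n * (1 - lam + a n) ≤ lam * (a n / (1 + a n)) := by
        have h3 : lam * (a n / (1 + a n)) = lam * a n / (1 + a n) := by ring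
        rw [h3, le_div_iff₀ (by linarith)]
        nlinarith [mul_nonneg (mul_nonneg hn hn) hn, mul_nonneg (mul_nonneg hn hn) hl0]
      linarith
  have hind : ∀ n : ℕ, min c (n * (e / 2)) ≤ a n := by
    intro n
    induction n with
    | zero => simp only [CharP.cast_eq_zero, zero_mul]; exact (min_le_right _ _).trans h0
    | succ n ih =>
      refine le_trans ?_ (hstep n)
      apply le_min (min_le_left _ _)
      rcases min_le_iff.1 ih with h | h
      · exact (min_le_left _ _).trans (by linarith)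
      · refine (min_le_right _ _).trans ?_
        push_cast
        linarith
  obtain ⟨N, hN⟩ := exists_nat_ge (c / (e / 2))
  refine ⟨N, fun n hn => ?_⟩
  refine le_trans ?_ (hind n)
  apply le_min (le_refl _)
  have h1 : c / (e / 2) ≤ n := hN.trans (by exact_mod_cast hn)
  rwa [div_le_iff₀ (by positivity)] at h1

end RA

end Crest.Agent.TI
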