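import Crest.Agent.TI_Defs

/-!
Row S0241, task TRa: balls and spheres
-/

set_option autoImplicit false
set_option linter.unusedSectionVars false
set_option linter.unusedVariables false

namespace Crest.Agent.TI

open MeasureTheory Filter Topology
open Crest.Agent.SRF (Lab lab)

/-! ### task TR : combinatorics of windows in a tree -/

section TR

variable {V : Type*} [DecidableEq V] {G : SimpleGraph V}

/-- predecessor on a geodesic -/
theorem exists_pred (hT : G.IsTree) (v u : V) (n : ℕ) (h : G.dist v u = n + 1) :
    ∃ w, G.Adj w u ∧ G.dist v w = n := by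
  obtain ⟨p, hp⟩ := hT.connected.exists_walk_length_eq_dist v u
  have hnn : ¬ p.Nil := by
    intro hn
    have := SimpleGraph.Walk.length_eq_zero_iff.mpr hn
    omega
  refine ⟨p.penultimate, p.adj_penultimate hnn, ?_⟩
  have h1 : G.dist v p.penultimate ≤ p.dropLast.length := SimpleGraph.dist_le _
  have h2 : p.dropLast.length + 1 = p.length := by
    simp only [SimpleGraph.Walk.dropLast, SimpleGraph.Walk.take_length]
    omega
  have h3 := (p.adj_penultimate hnn).diff_dist_adj (u := v)
  omega

theorem pred_unique (hT : G.IsTree) (v u : V) (n : ℕ) (h : G.dist v u = n + 1)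
    (w₁ w₂ : V) (h1 : G.Adj w₁ u) (h2 : G.Adj w₂ u) (d1 : G.dist v w₁ = n) (d2 : G.dist v w₂ = n) :
    w₁ = w₂ := by
  obtain ⟨p, hp⟩ := hT.connected.exists_walk_length_eq_dist v w₁
  obtain ⟨q, hq⟩ := hT.connected.exists_walk_length_eq_dist v w₂
  have hp' : (p.concat h1).IsPath := by
    apply SimpleGraph.Walk.isPath_of_length_eq_dist
    rw [SimpleGraph.Walk.length_concat]; omega
  have hq' : (q.concat h2).IsPath := by
    apply SimpleGraph.Walk.isPath_of_length_eq_dist
    rw [SimpleGraph.Walk.length_concat]; omega
  have he := (hT.existsUnique_path v u).unique hp' hq'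
  have := congrArg SimpleGraph.Walk.penultimate he
  simpa using this

theorem mem_bal [G.LocallyFinite] (hT : G.IsTree) (v : V) (n : ℕ) (u : V) :
    u ∈ bal G v n ↔ G.dist v u ≤ n := by
  induction n generalizing u with
  | zero =>
    simp only [bal, Finset.mem_singleton, Nat.le_zero, hT.connected.dist_eq_zero_iff]
    exact eq_comm
  | succ n ih =>
    simp only [bal, Finset.mem_biUnion, Finset.mem_insert, SimpleGraph.mem_neighborFinset]
    constructor
    · rintro ⟨w, hw, rfl | hu⟩
      · have := (ih _).1 hw; omega
      · have h1 := (ih _).1 hw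
        have h2 := hT.connected.dist_triangle (u := v) (v := w) (w := u)
        have h3 := SimpleGraph.dist_eq_one_iff_adj.2 hu
        omega
    · intro h
      rcases Nat.lt_or_ge n (G.dist v u) with h1 | h1
      · have h2 : G.dist v u = n + 1 := by omega
        obtain ⟨w, hw, hd⟩ := exists_pred hT v u n h2
        exact ⟨w, (ih w).2 (by omega), Or.inr hw⟩
      · exact ⟨u, (ih u).2 h1, Or.inl rfl⟩

theorem mem_sph [G.LocallyFinite] (hT : G.IsTree) (v : V) (n : ℕ) (u : V) :
    u ∈ sph G v n ↔ G.dist v u = n := by
  simp only [sph, Finset.mem_filter, mem_bal hT]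
  exact ⟨fun h => h.2, fun h => ⟨h.le, h⟩⟩

theorem sph_one [G.LocallyFinite] (hT : G.IsTree) (v : V) :
    sph G v 1 = G.neighborFinset v := by
  ext u
  rw [mem_sph hT, SimpleGraph.mem_neighborFinset, SimpleGraph.dist_eq_one_iff_adj]

theorem card_children [G.LocallyFinite] (hT : G.IsTree) (b : ℕ)
    (hreg : G.IsRegularOfDegree (b + 1)) (v : V) (n : ℕ) (w : V) (hw : G.dist v w = n + 1) :
    ((G.neighborFinset w).filter (fun u => G.dist v u = n + 2)).card = b := by
  obtain ⟨w', hw', hd⟩ := exists_pred hT v w n hw
  have hE : (G.neighborFinset w).filter (fun u => G.dist v u = n + 2)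
      = (G.neighborFinset w).erase w' := by
    ext u
    simp only [Finset.mem_filter, Finset.mem_erase, SimpleGraph.mem_neighborFinset]
    constructor
    · rintro ⟨h1, h2⟩
      refine ⟨?_, h1⟩
      rintro rfl
      omega
    · rintro ⟨h1, h2⟩
      refine ⟨h2, ?_⟩
      have h3 := hT.dist_eq_dist_add_one_of_adj v h2
      have h4 : G.dist v u ≠ n := by
        intro h5
        exact h1 (pred_unique hT v w n hw u w' h2.symm hw' h5 hd)
      omega
  rw [hE, Finset.card_erase_of_mem (by rw [SimpleGraph.mem_neighborFinset]; exact hw'.symm),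
    SimpleGraph.card_neighborFinset_eq_degree, hreg w]
  rfl

theorem card_sph [G.LocallyFinite] (hT : G.IsTree) (b : ℕ) (hreg : G.IsRegularOfDegree (b + 1))
    (v : V) (n : ℕ) : (sph G v (n + 1)).card = (b + 1) * b ^ n := by
  induction n with
  | zero =>
    rw [sph_one hT, SimpleGraph.card_neighborFinset_eq_degree, hreg v]; simp
  | succ n ih =>
    have hE : sph G v (n + 2) = (sph G v (n + 1)).biUnion
        (fun w => (G.neighborFinset w).filter (fun u => G.dist v u = n + 2)) := by
      ext u
      simp only [mem_sph hT, Finset.mem_biUnion, Finset.mem_filter, SimpleGraph.mem_neighborFinset]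
      constructor
      · intro h
        obtain ⟨w, hw, hd⟩ := exists_pred hT v u (n + 1) h
        exact ⟨w, hd, hw, h⟩
      · rintro ⟨w, hd, hw, h⟩
        exact h
    have h2 : (sph G v (n + 2)).card = (sph G v (n + 1)).card * b := by
      rw [hE, Finset.card_biUnion]
      · rw [Finset.sum_congr rfl (fun w hw => card_children hT b hreg v n w ((mem_sph hT v _ w).1 hw))]
        simp
      · intro w₁ h₁ w₂ h₂ hne
        rw [Function.onFun, Finset.disjoint_left]
        intro u hu1 hu2
        simp only [Finset.mem_filter, SimpleGraph.mem_neighborFinset] at hu1 hu2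
        exact hne (pred_unique hT v u (n + 1) hu1.2 w₁ w₂ hu1.1 hu2.1
          ((mem_sph hT v _ w₁).1 h₁) ((mem_sph hT v _ w₂).1 h₂))
    rw [h2, ih]; ring

theorem win_bal [G.LocallyFinite] (hT : G.IsTree) (v : V) (n : ℕ) : Win G (bal G v n) := by
  have hv : v ∈ (bal G v n : Set V) := by
    rw [Finset.mem_coe, mem_bal hT]; simp
  have key : ∀ m, ∀ u, ∀ hu : u ∈ (bal G v n : Set V), G.dist v u = m →
      (G.induce (bal G v n : Set V)).Reachable ⟨v, hv⟩ ⟨u, hu⟩ := by
    intro m
    induction m with
    | zero =>
      intro u hu h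
      have : v = u := hT.connected.dist_eq_zero_iff.1 h
      subst this
      exact SimpleGraph.Reachable.refl _
    | succ m ih =>
      intro u hu h
      obtain ⟨w, hw, hd⟩ := exists_pred hT v u m h
      have hwB : w ∈ (bal G v n : Set V) := by
        rw [Finset.mem_coe, mem_bal hT] at hu ⊢; omega
      refine (ih w hwB hd).trans (SimpleGraph.Adj.reachable ?_)
      exact hw
  have : Nonempty (bal G v n : Set V) := ⟨⟨v, hv⟩⟩
  refine SimpleGraph.Connected.mk ?_
  rintro ⟨a, ha⟩ ⟨c, hc⟩
  exact (key _ a ha rfl).symm.trans (key _ c hc rfl)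

theorem bal_map [G.LocallyFinite] (g : G ≃g G) (v : V) (n : ℕ) :
    (bal G v n).map g.toEquiv.toEmbedding = bal G (g v) n := by
  have gs : ∀ x : V, g (g.toEquiv.symm x) = x := fun x => g.toEquiv.apply_symm_apply x
  have sg : ∀ x : V, g.toEquiv.symm (g x) = x := fun x => g.toEquiv.symm_apply_apply x
  induction n with
  | zero =>
    ext u
    simp [bal]
  | succ n ih =>
    ext u
    simp only [bal, ← ih, Finset.mem_map_equiv, Finset.mem_biUnion, Finset.mem_insert,
      SimpleGraph.mem_neighborFinset]
    constructor
    · rintro ⟨w, hw, h⟩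
      refine ⟨g w, by rw [sg]; exact hw, ?_⟩
      rcases h with h | h
      · left
        rw [← h, gs]
      · right
        have := g.map_adj_iff.2 h
        rw [gs] at this
        exact this
    · rintro ⟨w, hw, h⟩
      refine ⟨g.toEquiv.symm w, hw, ?_⟩
      rcases h with h | h
      · left; rw [h]
      · right
        apply g.map_adj_iff.1
        rw [gs, gs]
        exact h

theorem win_map (g : G ≃g G) (W : Finset V) (hW : Win G W) :
    Win G (W.map g.toEquiv.toEmbedding) := by
  unfold Win at *
  have e : G.induce (W : Set V) ≃g G.induce ((W.map g.toEquiv.toEmbedding : Finset V) : Set V) := by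
    refine ⟨⟨fun a => ⟨g a.1, by simp⟩, fun a => ⟨g.symm a.1, ?_⟩, ?_, ?_⟩, ?_⟩
    · have := a.2
      rw [Finset.mem_coe, Finset.mem_map_equiv] at this
      exact this
    · intro a; ext; simp
    · intro a; ext; simp
    · intro a b
      exact g.map_adj_iff
  exact e.connected_iff.1 hW

end TR

end Crest.Agent.TI
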