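import Crest.Agent.TI_PLb
import Crest.Agent.TI_RAc
import Crest.Agent.TI_TRa

/-!
Row S0241, task PLc: lower bound on the information; decay of the covariance
-/

set_option autoImplicit false
set_option linter.unusedSectionVars false
set_option linter.unusedVariables false

namespace Crest.Agent.TI

open MeasureTheory Filter Topology
open Crest.Agent.SRF (Lab lab)

section PL

variable {V : Type*} [DecidableEq V] {G : SimpleGraph V}
variable {Ω : Type*} [MeasurableSpace Ω] {P : Measure Ω} [IsProbabilityMeasure P]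
  {l : Ω → V → Bool → ℝ} {H : ℝ}

theorem plc_pos (hl : LData P l H) (ω : Ω) : ∀ v b, 0 < l ω v b :=
  fun v b => lt_of_lt_of_le (Real.exp_pos _) (hl.lower ω v b)

theorem plc_meas (hl : LData P l H) : Measurable l := by
  apply measurable_pi_lambda
  intro v
  apply measurable_pi_lambda
  intro b
  exact hl.meas v b

theorem plc_int (hl : LData P l H) (φ : (V → Bool → ℝ) → ℝ) (hφ : Measurable φ) (C : ℝ)
    (hC : ∀ ω, |φ (l ω)| ≤ C) : Integrable (fun ω => φ (l ω)) P :=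
  Integrable.of_bound ((hφ.comp (plc_meas hl)).aestronglyMeasurable) C (ae_of_all _ hC)

/-- information (second moment of the posterior mean) at the root -/
noncomputable def qq (G : SimpleGraph V) (P : Measure Ω) (l : Ω → V → Bool → ℝ) (θ : ℝ)
    (W : Finset V) (x : V) : ℝ :=
  ∫ ω, mn (ip G θ W) W (l ω) x ^ 2 * pt (ip G θ W) W (l ω) ∂P

/-- dd through the mean and the density -/
theorem plc_dd (hT : G.IsTree) (θ : ℝ) (h0 : 0 ≤ θ) (h1 : θ < 1)
    {W : Finset V} (hW : Win G W) {x : V} (hx : x ∈ W) (l : V → Bool → ℝ) (hl : ∀ v b, 0 < l v b) (c : Bool) :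
    dd G θ W l x c = pt (ip G θ W) W l * (1 + sg c * mn (ip G θ W) W l x) := by
  have q1 := dd_pos hT θ h0 h1 hW l hl x hx true
  have q2 := dd_pos hT θ h0 h1 hW l hl x hx false
  rw [mn_eq_dd, pt_eq_dd θ _ l x]
  have hne : dd G θ W l x true + dd G θ W l x false ≠ 0 := by positivity
  cases c <;> simp [sg] <;> field_simp <;> ring

theorem plc_pt_pos (hT : G.IsTree) (θ : ℝ) (h0 : 0 ≤ θ) (h1 : θ < 1)
    {W : Finset V} (hW : Win G W) (l : V → Bool → ℝ) (hl : ∀ v b, 0 < l v b) :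
    0 < pt (ip G θ W) W l := pt_pos (isMass_ip hT θ h0 h1.le hW) l hl

theorem plc_pt_bdd (hl : LData P l H) (hT : G.IsTree) (θ : ℝ) (h0 : 0 ≤ θ) (h1 : θ < 1)
    {W : Finset V} (hW : Win G W) {x : V} (hx : x ∈ W) :
    ∃ C : ℝ, 0 < C ∧ ∀ ω, |pt (ip G θ W) W (l ω)| ≤ C := by
  obtain ⟨C, hC, h⟩ := dd_bdd hl hT θ h0 h1 hW x hx
  refine ⟨C, hC, fun ω => ?_⟩
  rw [abs_of_pos (plc_pt_pos hT θ h0 h1 hW (l ω) (plc_pos hl ω)), pt_eq_dd θ _ (l ω) x]
  have := (h ω true).2
  have := (h ω false).2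
  linarith

theorem plc_abs_mn (hT : G.IsTree) (θ : ℝ) (h0 : 0 ≤ θ) (h1 : θ < 1)
    {W : Finset V} (hW : Win G W) (x : V) (l : V → Bool → ℝ) (hl : ∀ v b, 0 < l v b) :
    |mn (ip G θ W) W l x| ≤ 1 := abs_mn_le (isMass_ip hT θ h0 h1.le hW) l hl x

/-- integrability of powers of the mean against the density -/
theorem plc_int_pow (hl : LData P l H) (hT : G.IsTree) (θ : ℝ) (h0 : 0 ≤ θ) (h1 : θ < 1)
    {W : Finset V} (hW : Win G W) {x : V} (hx : x ∈ W) (i : ℕ) :
    Integrable (fun ω => mn (ip G θ W) W (l ω) x ^ i * pt (ip G θ W) W (l ω)) P := by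
  obtain ⟨C, hC, h⟩ := plc_pt_bdd hl hT θ h0 h1 hW hx
  apply plc_int hl (fun l => mn (ip G θ W) W l x ^ i * pt (ip G θ W) W l)
    (((measurable_mn _ W x).pow_const i).mul (measurable_pt _ W)) C
  intro ω
  rw [abs_mul, abs_pow]
  have h3 := plc_abs_mn hT θ h0 h1 hW x (l ω) (plc_pos hl ω)
  have h4 : |mn (ip G θ W) W (l ω) x| ^ i ≤ 1 := pow_le_one₀ (abs_nonneg _) h3
  calc |mn (ip G θ W) W (l ω) x| ^ i * |pt (ip G θ W) W (l ω)| ≤ 1 * C :=
        mul_le_mul h4 (h ω) (abs_nonneg _) zero_le_one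
    _ = C := one_mul C

theorem qq_nonneg (hl : LData P l H) (hT : G.IsTree) (θ : ℝ) (h0 : 0 ≤ θ) (h1 : θ < 1)
    {W : Finset V} (hW : Win G W) {x : V} (hx : x ∈ W) : 0 ≤ qq G P l θ W x := by
  apply integral_nonneg
  intro ω
  exact mul_nonneg (sq_nonneg _) (plc_pt_pos hT θ h0 h1 hW (l ω) (plc_pos hl ω)).le

theorem qq_lt_one (hl : LData P l H) (hT : G.IsTree) (θ : ℝ) (h0 : 0 ≤ θ) (h1 : θ < 1)
    {W : Finset V} (hW : Win G W) {x : V} (hx : x ∈ W) : qq G P l θ W x < 1 := by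
  have hi2 := plc_int_pow hl hT θ h0 h1 hW hx 2
  have hi0 := plc_int_pow hl hT θ h0 h1 hW hx 0
  simp only [pow_zero, one_mul] at hi0
  have e1 : ∫ ω, (pt (ip G θ W) W (l ω) - mn (ip G θ W) W (l ω) x ^ 2 * pt (ip G θ W) W (l ω)) ∂P =
      1 - qq G P l θ W x := by
    rw [integral_sub hi0 hi2, integral_pt hl hT θ h0 h1 hW]
    rfl
  have e2 : 0 < ∫ ω, (pt (ip G θ W) W (l ω) - mn (ip G θ W) W (l ω) x ^ 2 * pt (ip G θ W) W (l ω)) ∂P := by
    rw [integral_pos_iff_support_of_nonneg]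
    · have : Function.support (fun ω => (pt (ip G θ W) W (l ω) - mn (ip G θ W) W (l ω) x ^ 2 * pt (ip G θ W) W (l ω))) = Set.univ := by
        ext ω
        simp only [Function.mem_support, Set.mem_univ, iff_true]
        have p := plc_pt_pos hT θ h0 h1 hW (l ω) (plc_pos hl ω)
        have q := kf_abs_mn_lt hT θ h0 h1 hW hx (l ω) (plc_pos hl ω)
        have : 0 < pt (ip G θ W) W (l ω) - mn (ip G θ W) W (l ω) x ^ 2 * pt (ip G θ W) W (l ω) := by
          nlinarith
        exact this.ne'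
      rw [this]
      simp
    · intro ω
      have p := plc_pt_pos hT θ h0 h1 hW (l ω) (plc_pos hl ω)
      have q := kf_abs_mn_lt hT θ h0 h1 hW hx (l ω) (plc_pos hl ω)
      show (0:ℝ) ≤ pt (ip G θ W) W (l ω) - mn (ip G θ W) W (l ω) x ^ 2 * pt (ip G θ W) W (l ω)
      nlinarith
    · exact hi0.sub hi2
  rw [e1] at e2
  linarith

theorem qq_singleton (θ : ℝ) (x : V) : qq G P l θ {x} x =
    ∫ ω, (l ω x true - l ω x false) ^ 2 / (2 * (l ω x true + l ω x false)) ∂P := by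
  unfold qq
  congr 1
  ext ω
  rw [mn_eq_dd, pt_eq_dd θ _ (l ω) x, dd_singleton, dd_singleton]
  by_cases h : l ω x true + l ω x false = 0
  · simp [h]
  · field_simp

theorem plc_int6 {f1 f2 f3 f4 f5 f6 : Ω → ℝ} (h1 : Integrable f1 P) (h2 : Integrable f2 P)
    (h3 : Integrable f3 P) (h4 : Integrable f4 P) (h5 : Integrable f5 P) (h6 : Integrable f6 P)
    (c1 c2 c3 c4 c5 c6 : ℝ) :
    ∫ ω, (c1 * f1 ω + c2 * f2 ω + c3 * f3 ω + c4 * f4 ω + c5 * f5 ω + c6 * f6 ω) ∂P =
      c1 * ∫ ω, f1 ω ∂P + c2 * ∫ ω, f2 ω ∂P + c3 * ∫ ω, f3 ω ∂P + c4 * ∫ ω, f4 ω ∂P +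
      c5 * ∫ ω, f5 ω ∂P + c6 * ∫ ω, f6 ω ∂P := by
  rw [integral_add, integral_add, integral_add, integral_add, integral_add]
  · simp only [integral_const_mul]
  · exact h1.const_mul _
  · exact h2.const_mul _
  · exact (h1.const_mul _).add (h2.const_mul _)
  · exact h3.const_mul _
  · exact ((h1.const_mul _).add (h2.const_mul _)).add (h3.const_mul _)
  · exact h4.const_mul _
  · exact (((h1.const_mul _).add (h2.const_mul _)).add (h3.const_mul _)).add (h4.const_mul _)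
  · exact h5.const_mul _
  · exact ((((h1.const_mul _).add (h2.const_mul _)).add (h3.const_mul _)).add (h4.const_mul _)).add (h5.const_mul _)
  · exact h6.const_mul _

theorem plc_mom_one (hl : LData P l H) (hT : G.IsTree) (θ : ℝ) (h0 : 0 ≤ θ) (h1 : θ < 1)
    {W : Finset V} (hW : Win G W) {x : V} (hx : x ∈ W) :
    ∫ ω, mn (ip G θ W) W (l ω) x ^ 1 * pt (ip G θ W) W (l ω) ∂P = 0 := by
  have e : ∀ ω, mn (ip G θ W) W (l ω) x ^ 1 * pt (ip G θ W) W (l ω) =
      (dd G θ W (l ω) x true - dd G θ W (l ω) x false) / 2 := by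
    intro ω
    rw [plc_dd hT θ h0 h1 hW hx (l ω) (plc_pos hl ω) true, plc_dd hT θ h0 h1 hW hx (l ω) (plc_pos hl ω) false]
    simp [sg]; ring
  simp_rw [e]
  rw [integral_div]
  obtain ⟨C, hC, h⟩ := dd_bdd hl hT θ h0 h1 hW x hx
  have hi : ∀ c, Integrable (fun ω => dd G θ W (l ω) x c) P := by
    intro c
    apply plc_int hl (fun l => dd G θ W l x c) (measurable_dd θ W x c) C
    intro ω
    rw [abs_of_pos (dd_pos hT θ h0 h1 hW (l ω) (plc_pos hl ω) x hx c)]
    exact (h ω c).2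
  rw [integral_sub (hi true) (hi false), integral_dd hl hT θ h0 h1 hW hx, integral_dd hl hT θ h0 h1 hW hx]
  simp

theorem depOn_mn (p : Finset V → ℝ) (W : Finset V) (x : V) : DepOn W (fun l => mn p W l x) :=
  fun l l' h => mn_congr p W l l' h x

theorem plc_depOn_pt (p : Finset V → ℝ) (W : Finset V) : DepOn W (fun l => pt p W l) :=
  fun l l' h => pt_congr p W l l' h

theorem depOn_cv (p : Finset V → ℝ) (W : Finset V) (v u : V) : DepOn W (fun l => cv p W l v u) :=
  fun l l' h => cv_congr p W l l' h v u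

theorem plc_indep (hl : LData P l H) (θ : ℝ) (W : Finset V) (x y : V) (i j : ℕ) :
    ∫ ω, (mn (ip G θ (sd G W x y)) (sd G W x y) (l ω) x ^ i * pt (ip G θ (sd G W x y)) (sd G W x y) (l ω)) *
      (mn (ip G θ (sd G W y x)) (sd G W y x) (l ω) y ^ j * pt (ip G θ (sd G W y x)) (sd G W y x) (l ω)) ∂P =
    (∫ ω, mn (ip G θ (sd G W x y)) (sd G W x y) (l ω) x ^ i * pt (ip G θ (sd G W x y)) (sd G W x y) (l ω) ∂P) *
    ∫ ω, mn (ip G θ (sd G W y x)) (sd G W y x) (l ω) y ^ j * pt (ip G θ (sd G W y x)) (sd G W y x) (l ω) ∂P := by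
  apply integral_indep hl (sd_disjoint W x y)
    (fun l => mn (ip G θ (sd G W x y)) (sd G W x y) l x ^ i * pt (ip G θ (sd G W x y)) (sd G W x y) l)
    (fun l => mn (ip G θ (sd G W y x)) (sd G W y x) l y ^ j * pt (ip G θ (sd G W y x)) (sd G W y x) l)
  · exact ((measurable_mn _ _ x).pow_const i).mul (measurable_pt _ _)
  · exact ((measurable_mn _ _ y).pow_const j).mul (measurable_pt _ _)
  · intro l l' h
    simp only
    rw [mn_congr _ _ l l' h, pt_congr _ _ l l' h]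
  · intro l l' h
    simp only
    rw [mn_congr _ _ l l' h, pt_congr _ _ l l' h]

/-- information combining across an edge -/
theorem qq_cut (hl : LData P l H) (hT : G.IsTree) (θ : ℝ) (h0 : 0 ≤ θ) (h1 : θ < 1)
    {W : Finset V} (hW : Win G W) {x y : V} (hx : x ∈ W) (hy : y ∈ W) (h : G.Adj x y) :
    qq G P l θ (sd G W x y) x / (1 - qq G P l θ (sd G W x y) x) +
      θ ^ 2 * qq G P l θ (sd G W y x) y / (1 - θ ^ 2 * qq G P l θ (sd G W y x) y) ≤
      qq G P l θ W x / (1 - qq G P l θ W x) := by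
  have hWA : Win G (sd G W x y) := win_sd hT hW hx h
  have hWB : Win G (sd G W y x) := win_sd hT hW hy h.symm
  have hxA : x ∈ sd G W x y := mem_sd_self hx h
  have hyB : y ∈ sd G W y x := mem_sd_self hy h.symm
  set a : Ω → ℝ := fun ω => mn (ip G θ (sd G W x y)) (sd G W x y) (l ω) x with ha
  set pa : Ω → ℝ := fun ω => pt (ip G θ (sd G W x y)) (sd G W x y) (l ω) with hpa
  set b : Ω → ℝ := fun ω => mn (ip G θ (sd G W y x)) (sd G W y x) (l ω) y with hb
  set pb : Ω → ℝ := fun ω => pt (ip G θ (sd G W y x)) (sd G W y x) (l ω) with hpb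
  set m : Ω → ℝ := fun ω => mn (ip G θ W) W (l ω) x with hm
  set pw : Ω → ℝ := fun ω => pt (ip G θ W) W (l ω) with hpw
  have qA0 := qq_nonneg hl hT θ h0 h1 hWA hxA
  have qA1 := qq_lt_one hl hT θ h0 h1 hWA hxA
  have qB0 := qq_nonneg hl hT θ h0 h1 hWB hyB
  have qB1 := qq_lt_one hl hT θ h0 h1 hWB hyB
  have qW0 := qq_nonneg hl hT θ h0 h1 hW hx
  have qW1 := qq_lt_one hl hT θ h0 h1 hW hx
  -- pointwise identities
  have hpw_eq : ∀ ω, pw ω = pa ω * pb ω * (1 + θ * (a ω * b ω)) := by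
    intro ω
    have e1 := kf_dd_msg hT θ h0 h1 hW hx hy h (l ω) (plc_pos hl ω) true
    have e2 := kf_dd_msg hT θ h0 h1 hW hx hy h (l ω) (plc_pos hl ω) false
    rw [plc_dd hT θ h0 h1 hWA hxA (l ω) (plc_pos hl ω)] at e1 e2
    simp only [hpw]
    rw [pt_eq_dd θ _ (l ω) x, e1, e2]
    simp only [sg, bm]
    simp
    ring
  have hmpw_eq : ∀ ω, m ω * pw ω = pa ω * pb ω * (a ω + θ * b ω) := by
    intro ω
    have e1 := kf_dd_msg hT θ h0 h1 hW hx hy h (l ω) (plc_pos hl ω) true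
    have e2 := kf_dd_msg hT θ h0 h1 hW hx hy h (l ω) (plc_pos hl ω) false
    rw [plc_dd hT θ h0 h1 hWA hxA (l ω) (plc_pos hl ω)] at e1 e2
    have e3 := plc_dd hT θ h0 h1 hW hx (l ω) (plc_pos hl ω) true
    have e4 := plc_dd hT θ h0 h1 hW hx (l ω) (plc_pos hl ω) false
    simp only [sg] at e3 e4
    simp at e3 e4
    have e5 : m ω * pw ω = (dd G θ W (l ω) x true - dd G θ W (l ω) x false) / 2 := by
      rw [e3, e4]; simp only [hm, hpw]; ring
    rw [e5, e1, e2]
    simp only [sg, bm]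
    simp
    ring
  set qA := qq G P l θ (sd G W x y) x with hqA
  set qB := qq G P l θ (sd G W y x) y with hqB
  set q := qq G P l θ W x with hq
  -- integrability
  have ia := fun i => plc_int_pow hl hT θ h0 h1 hWA hxA i
  have ib := fun i => plc_int_pow hl hT θ h0 h1 hWB hyB i
  have iab : ∀ i j, Integrable (fun ω => (a ω ^ i * pa ω) * (b ω ^ j * pb ω)) P := by
    intro i j
    obtain ⟨C, hC, hCb⟩ := plc_pt_bdd hl hT θ h0 h1 hWA hxA
    obtain ⟨D, hD, hDb⟩ := plc_pt_bdd hl hT θ h0 h1 hWB hyB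
    apply plc_int hl (fun l => (mn (ip G θ (sd G W x y)) (sd G W x y) l x ^ i * pt (ip G θ (sd G W x y)) (sd G W x y) l) *
      (mn (ip G θ (sd G W y x)) (sd G W y x) l y ^ j * pt (ip G θ (sd G W y x)) (sd G W y x) l))
      ((((measurable_mn _ _ x).pow_const i).mul (measurable_pt _ _)).mul
        (((measurable_mn _ _ y).pow_const j).mul (measurable_pt _ _))) ((1 * C) * (1 * D))
    intro ω
    rw [abs_mul, abs_mul, abs_mul, abs_pow, abs_pow]
    have h3 := plc_abs_mn hT θ h0 h1 hWA x (l ω) (plc_pos hl ω)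
    have h4 := plc_abs_mn hT θ h0 h1 hWB y (l ω) (plc_pos hl ω)
    apply mul_le_mul
    · exact mul_le_mul (pow_le_one₀ (abs_nonneg _) h3) (hCb ω) (abs_nonneg _) zero_le_one
    · exact mul_le_mul (pow_le_one₀ (abs_nonneg _) h4) (hDb ω) (abs_nonneg _) zero_le_one
    · positivity
    · positivity
  have vab : ∀ i j, ∫ ω, (a ω ^ i * pa ω) * (b ω ^ j * pb ω) ∂P =
      (∫ ω, a ω ^ i * pa ω ∂P) * ∫ ω, b ω ^ j * pb ω ∂P := fun i j => plc_indep hl θ W x y i j
  have va1 : ∫ ω, a ω ^ 1 * pa ω ∂P = 0 := plc_mom_one hl hT θ h0 h1 hWA hxA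
  have vb1 : ∫ ω, b ω ^ 1 * pb ω ∂P = 0 := plc_mom_one hl hT θ h0 h1 hWB hyB
  have va0 : ∫ ω, a ω ^ 0 * pa ω ∂P = 1 := by
    simp only [pow_zero, one_mul]; exact integral_pt hl hT θ h0 h1 hWA
  have vb0 : ∫ ω, b ω ^ 0 * pb ω ∂P = 1 := by
    simp only [pow_zero, one_mul]; exact integral_pt hl hT θ h0 h1 hWB
  have va2 : ∫ ω, a ω ^ 2 * pa ω ∂P = qA := rfl
  have vb2 : ∫ ω, b ω ^ 2 * pb ω ∂P = qB := rfl
  have im : Integrable (fun ω => m ω ^ 2 * pw ω) P := plc_int_pow hl hT θ h0 h1 hW hx 2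
  have vm : ∫ ω, m ω ^ 2 * pw ω ∂P = q := rfl
  set q1 := qA with hq1
  set q2 := θ ^ 2 * qB with hq2
  have hθ2 : θ ^ 2 < 1 := by nlinarith
  have q20 : 0 ≤ q2 := by positivity
  have q21 : q2 < 1 := by
    have : q2 ≤ qB := by
      rw [hq2]
      nlinarith
    linarith
  set α := 1 - q2 with hα
  set β := 1 - q1 with hβ
  set t := 1 - q1 * q2 with ht
  have htpos : 0 < t := by
    have : q1 * q2 < 1 := by nlinarith
    linarith
  have key : 0 ≤ ∫ ω, (α * a ω + β * θ * b ω - t * m ω) ^ 2 * pw ω ∂P := by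
    apply integral_nonneg
    intro ω
    exact mul_nonneg (sq_nonneg _) (plc_pt_pos hT θ h0 h1 hW (l ω) (plc_pos hl ω)).le
  have expd : ∀ ω, (α * a ω + β * θ * b ω - t * m ω) ^ 2 * pw ω =
      ((α ^ 2 - 2 * t * α) * ((a ω ^ 2 * pa ω) * (b ω ^ 0 * pb ω)) +
       (2 * α * β * θ - 2 * t * θ * (α + β)) * ((a ω ^ 1 * pa ω) * (b ω ^ 1 * pb ω)) +
       (β ^ 2 * θ ^ 2 - 2 * t * β * θ ^ 2) * ((a ω ^ 0 * pa ω) * (b ω ^ 2 * pb ω)) +
       (α ^ 2 * θ) * ((a ω ^ 3 * pa ω) * (b ω ^ 1 * pb ω)) +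
       (2 * α * β * θ ^ 2) * ((a ω ^ 2 * pa ω) * (b ω ^ 2 * pb ω)) +
       (β ^ 2 * θ ^ 3) * ((a ω ^ 1 * pa ω) * (b ω ^ 3 * pb ω))) + t ^ 2 * (m ω ^ 2 * pw ω) := by
    intro ω
    have e1 := hpw_eq ω
    have e2 := hmpw_eq ω
    have : (α * a ω + β * θ * b ω - t * m ω) ^ 2 * pw ω =
        (α * a ω + β * θ * b ω) ^ 2 * pw ω - 2 * t * (α * a ω + β * θ * b ω) * (m ω * pw ω) +
          t ^ 2 * (m ω ^ 2 * pw ω) := by ring
    rw [this, e2]
    have : (α * a ω + β * θ * b ω) ^ 2 * pw ω = (α * a ω + β * θ * b ω) ^ 2 * (pa ω * pb ω * (1 + θ * (a ω * b ω))) := by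
      rw [← e1]
    rw [this]
    ring
  simp_rw [expd] at key
  rw [integral_add, plc_int6 (iab 2 0) (iab 1 1) (iab 0 2) (iab 3 1) (iab 2 2) (iab 1 3),
    integral_const_mul, vab, vab, vab, vab, vab, vab, va0, va1, va2, vb0, vb1, vb2, vm] at key
  · have hS : q1 * (1 - q2) + q2 * (1 - q1) ≤ (1 - q1 * q2) * q := by
      have e3 : (α ^ 2 - 2 * t * α) * (qA * 1) + (2 * α * β * θ - 2 * t * θ * (α + β)) * (0 * 0) +
          (β ^ 2 * θ ^ 2 - 2 * t * β * θ ^ 2) * (1 * qB) +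
          α ^ 2 * θ * ((∫ ω, a ω ^ 3 * pa ω ∂P) * 0) + 2 * α * β * θ ^ 2 * (qA * qB) +
          β ^ 2 * θ ^ 3 * (0 * ∫ ω, b ω ^ 3 * pb ω ∂P) + t ^ 2 * q =
          t * (t * q - (q1 * (1 - q2) + q2 * (1 - q1))) := by
        rw [hα, hβ, ht, hq2, hq1]; ring
      rw [e3] at key
      have := (mul_nonneg_iff_of_pos_left htpos).1 key
      linarith
    rw [div_add_div _ _ (by linarith) (by linarith), div_le_div_iff₀ (by nlinarith) (by linarith)]
    nlinarith
  · have g1 := (iab 2 0).const_mul (α ^ 2 - 2 * t * α)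
    have g2 := g1.add ((iab 1 1).const_mul (2 * α * β * θ - 2 * t * θ * (α + β)))
    have g3 := g2.add ((iab 0 2).const_mul (β ^ 2 * θ ^ 2 - 2 * t * β * θ ^ 2))
    have g4 := g3.add ((iab 3 1).const_mul (α ^ 2 * θ))
    have g5 := g4.add ((iab 2 2).const_mul (2 * α * β * θ ^ 2))
    have g6 := g5.add ((iab 1 3).const_mul (β ^ 2 * θ ^ 3))
    exact g6
  · exact im.const_mul _


theorem plc_dist_pos (hT : G.IsTree) {c x : V} (hcx : G.Adj c x) : G.dist c x = 1 :=
  SimpleGraph.dist_eq_one_iff_adj.2 hcx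

/-- a point on the far side of `c` sees `x` before `y` -/
theorem plc_nest (hT : G.IsTree) {c x y w : V} (hcx : G.Adj c x) (hxy : G.Adj x y) (hne : c ≠ y)
    (hw : G.dist w c < G.dist w x) : G.dist w x < G.dist w y := by
  rcases dist_edge hT hxy w with h | h
  · omega
  · exfalso
    have h2 : G.dist w x = G.dist w c + 1 := by
      rcases dist_edge hT hcx w with h3 | h3 <;> omega
    exact hne (pred_unique hT w x (G.dist w c) h2 c y hcx hxy.symm rfl (by omega))

/-- what is left of `W` after removing the branches at the neighbours `S` of `x` -/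
noncomputable def plcA (G : SimpleGraph V) (W : Finset V) (x : V) (S : Finset V) : Finset V :=
  W.filter (fun w => ∀ c ∈ S, G.dist w x < G.dist w c)

theorem plc_mem_A (hT : G.IsTree) {W : Finset V} {x : V} (hx : x ∈ W) (S : Finset V)
    (hS : ∀ c ∈ S, c ∈ W ∧ G.Adj x c) : x ∈ plcA G W x S := by
  unfold plcA
  rw [Finset.mem_filter]
  refine ⟨hx, fun c hc => ?_⟩
  rw [SimpleGraph.dist_self, SimpleGraph.dist_eq_one_iff_adj.2 (hS c hc).2]
  exact one_pos

theorem plc_mem_A' (hT : G.IsTree) {W : Finset V} {x : V} (hx : x ∈ W) (S : Finset V)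
    (hS : ∀ c ∈ S, c ∈ W ∧ G.Adj x c) {c : V} (hc : c ∈ W) (hxc : G.Adj x c) (hcS : c ∉ S) :
    c ∈ plcA G W x S := by
  unfold plcA
  rw [Finset.mem_filter]
  refine ⟨hc, fun c' hc' => ?_⟩
  apply plc_nest hT hxc.symm (hS c' hc').2
  · rintro rfl; exact hcS hc'
  · rw [SimpleGraph.dist_self, SimpleGraph.dist_eq_one_iff_adj.2 hxc.symm]
    exact one_pos

theorem plc_A_insert (hT : G.IsTree) {W : Finset V} {x : V} (S : Finset V) (c : V) :
    plcA G W x (insert c S) = sd G (plcA G W x S) x c := by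
  unfold plcA sd
  ext w
  simp only [Finset.mem_filter, Finset.mem_insert, forall_eq_or_imp]
  tauto

theorem plc_A_sd (hT : G.IsTree) {W : Finset V} {x : V} (S : Finset V)
    (hS : ∀ c ∈ S, c ∈ W ∧ G.Adj x c) {c : V} (hxc : G.Adj x c) (hcS : c ∉ S) :
    sd G (plcA G W x S) c x = sd G W c x := by
  unfold plcA sd
  ext w
  simp only [Finset.mem_filter]
  constructor
  · rintro ⟨⟨h1, h2⟩, h3⟩
    exact ⟨h1, h3⟩
  · rintro ⟨h1, h3⟩
    refine ⟨⟨h1, fun c' hc' => ?_⟩, h3⟩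
    apply plc_nest hT hxc.symm (hS c' hc').2 _ h3
    rintro rfl; exact hcS hc'

theorem plc_peel (hl : LData P l H) (hT : G.IsTree) (θ : ℝ) (h0 : 0 ≤ θ) (h1 : θ < 1)
    {W : Finset V} (hW : Win G W) {x : V} (hx : x ∈ W) (S : Finset V) :
    (∀ c ∈ S, c ∈ W ∧ G.Adj x c) → Win G (plcA G W x S) ∧
      qq G P l θ (plcA G W x S) x / (1 - qq G P l θ (plcA G W x S) x) +
        ∑ c ∈ S, θ ^ 2 * qq G P l θ (sd G W c x) c / (1 - θ ^ 2 * qq G P l θ (sd G W c x) c) ≤
      qq G P l θ W x / (1 - qq G P l θ W x) := by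
  induction S using Finset.induction_on with
  | empty =>
    intro _
    have : plcA G W x ∅ = W := by
      unfold plcA; simp
    rw [this]
    exact ⟨hW, by simp⟩
  | insert c S hc ih =>
    intro hS
    have hS' : ∀ c ∈ S, c ∈ W ∧ G.Adj x c := fun c' hc' => hS c' (Finset.mem_insert_of_mem hc')
    obtain ⟨hcW, hxc⟩ := hS c (Finset.mem_insert_self _ _)
    obtain ⟨hWA, hq⟩ := ih hS'
    have hxA := plc_mem_A hT hx S hS'
    have hcA := plc_mem_A' hT hx S hS' hcW hxc hc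
    rw [plc_A_insert hT]
    refine ⟨win_sd hT hWA hxA hxc, ?_⟩
    have key := qq_cut hl hT θ h0 h1 hWA hxA hcA hxc
    rw [plc_A_sd hT S hS' hxc hc] at key
    rw [Finset.sum_insert hc]
    linarith

theorem plc_A_all (hT : G.IsTree) {W : Finset V} {x : V} (hx : x ∈ W) (S : Finset V)
    (hS : ∀ c ∈ S, c ∈ W ∧ G.Adj x c) (hall : ∀ w ∈ W, ∀ c, G.Adj x c → G.dist w c < G.dist w x → c ∈ S) :
    plcA G W x S = {x} := by
  apply Finset.Subset.antisymm
  · intro w hw
    unfold plcA at hw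
    rw [Finset.mem_filter] at hw
    rw [Finset.mem_singleton]
    by_contra hne
    have hpos : 0 < G.dist w x := by
      rw [Nat.pos_iff_ne_zero]
      intro h
      exact hne ((hT.1.dist_eq_zero_iff).1 h)
    obtain ⟨c, hc, hd⟩ := exists_pred hT w x (G.dist w x - 1) (by omega)
    have h3 := hall w hw.1 c hc.symm (by omega)
    have h4 := hw.2 c h3
    omega
  · intro w hw
    rw [Finset.mem_singleton] at hw
    subst hw
    exact plc_mem_A hT hx S hS

/-- the universal lower bound -/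
noncomputable def qst (e lam : ℝ) : ℝ := min (Real.sqrt e / 8) (e / (8 * (1 - lam) + Real.sqrt e))

theorem qst_nonneg (e lam : ℝ) (he : 0 ≤ e) (hl : lam ≤ 1) : 0 ≤ qst e lam := by
  unfold qst
  apply le_min
  · positivity
  · apply div_nonneg he
    have := Real.sqrt_nonneg e
    linarith

theorem qst_le (e lam : ℝ) (he : e ≤ 1) : qst e lam ≤ 1 / 8 := by
  unfold qst
  refine (min_le_left _ _).trans ?_
  have : Real.sqrt e ≤ 1 := Real.sqrt_le_one.2 he
  linarith

/-- the recursion -/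
noncomputable def plcR (e lam : ℝ) : ℕ → ℝ
  | 0 => 0
  | n + 1 => e + lam * (plcR e lam n / (1 + plcR e lam n))

theorem plcR_nonneg (e lam : ℝ) (he : 0 ≤ e) (hl : 0 ≤ lam) (n : ℕ) : 0 ≤ plcR e lam n := by
  induction n with
  | zero => exact le_refl _
  | succ n ih =>
    unfold plcR
    positivity

theorem plc_theta (b : ℕ) (hb : 2 ≤ b) (θ : ℝ) (h0 : 0 ≤ θ) (h1 : (b : ℝ) * θ ^ 2 ≤ 1) : θ < 1 := by
  have h2 : (2 : ℝ) ≤ b := by exact_mod_cast hb
  nlinarith [sq_nonneg θ]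

theorem plc_lower_aux [G.LocallyFinite] (hl : LData P l H) (hT : G.IsTree) (b : ℕ) (hb : 2 ≤ b)
    (hreg : G.IsRegularOfDegree (b + 1)) (θ : ℝ) (h0 : 0 ≤ θ) (h1 : (b : ℝ) * θ ^ 2 ≤ 1)
    (e0 : ℝ) (he0 : 0 < e0) (he1 : e0 ≤ 1)
    (he : ∀ v, e0 ≤ ∫ ω, (l ω v true - l ω v false) ^ 2 / (2 * (l ω v true + l ω v false)) ∂P) (n : ℕ) :
    ∀ (W : Finset V) (x y : V), G.Adj x y → Win G W → x ∈ W →
      (∀ w ∈ W, G.dist w x < G.dist w y) →
      (∀ w, G.dist w x < G.dist w y → G.dist x w ≤ n → w ∈ W) →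
      plcR e0 (b * θ ^ 2) n ≤ qq G P l θ W x / (1 - qq G P l θ W x) := by
  have hθ : θ < 1 := plc_theta b hb θ h0 h1
  induction n with
  | zero =>
    intro W x y hxy hW hx _ _
    have q0 := qq_nonneg hl hT θ h0 hθ hW hx
    have q1 := qq_lt_one hl hT θ h0 hθ hW hx
    unfold plcR
    exact div_nonneg q0 (by linarith)
  | succ n ih =>
    intro W x y hxy hW hx hside hball
    set S := (G.neighborFinset x).erase y with hSdef
    have hScard : S.card = b := by
      rw [hSdef, Finset.card_erase_of_mem (by rw [SimpleGraph.mem_neighborFinset]; exact hxy),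
        SimpleGraph.card_neighborFinset_eq_degree, hreg x]
      rfl
    have hS0 : ∀ c ∈ S, G.Adj x c ∧ c ≠ y := by
      intro c hc
      rw [hSdef, Finset.mem_erase, SimpleGraph.mem_neighborFinset] at hc
      exact ⟨hc.2, hc.1⟩
    have hcx : ∀ c ∈ S, ∀ w, G.dist w c < G.dist w x → G.dist w x < G.dist w y := by
      intro c hc w hw
      exact plc_nest hT (hS0 c hc).1.symm hxy (hS0 c hc).2 hw
    have hS : ∀ c ∈ S, c ∈ W ∧ G.Adj x c := by
      intro c hc
      refine ⟨?_, (hS0 c hc).1⟩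
      apply hball
      · apply hcx c hc
        rw [SimpleGraph.dist_self, SimpleGraph.dist_eq_one_iff_adj.2 (hS0 c hc).1.symm]
        exact one_pos
      · rw [SimpleGraph.dist_eq_one_iff_adj.2 (hS0 c hc).1]; omega
    have hall : ∀ w ∈ W, ∀ c, G.Adj x c → G.dist w c < G.dist w x → c ∈ S := by
      intro w hw c hxc hwc
      rw [hSdef, Finset.mem_erase, SimpleGraph.mem_neighborFinset]
      refine ⟨?_, hxc⟩
      rintro rfl
      have := hside w hw
      omega
    obtain ⟨hWA, hq⟩ := plc_peel hl hT θ h0 hθ hW hx S hS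
    rw [plc_A_all hT hx S hS hall] at hq hWA
    refine le_trans ?_ hq
    have q0 := qq_nonneg hl hT θ h0 hθ hWA (Finset.mem_singleton_self x)
    have q1 := qq_lt_one hl hT θ h0 hθ hWA (Finset.mem_singleton_self x)
    have hroot : e0 ≤ qq G P l θ {x} x / (1 - qq G P l θ {x} x) := by
      have e1 : e0 ≤ qq G P l θ {x} x := by rw [qq_singleton]; exact he x
      refine e1.trans ?_
      rw [le_div_iff₀ (by linarith)]
      nlinarith
    set R := plcR e0 (b * θ ^ 2) n with hR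
    have hR0 : 0 ≤ R := plcR_nonneg _ _ he0.le (by positivity) n
    have hchild : ∀ c ∈ S, θ ^ 2 * (R / (1 + R)) ≤
        θ ^ 2 * qq G P l θ (sd G W c x) c / (1 - θ ^ 2 * qq G P l θ (sd G W c x) c) := by
      intro c hc
      have hcW := (hS c hc).1
      have hxc := (hS c hc).2
      have hWc : Win G (sd G W c x) := win_sd hT hW hcW hxc.symm
      have hcc : c ∈ sd G W c x := mem_sd_self hcW hxc.symm
      have key := ih (sd G W c x) c x hxc.symm hWc hcc (by
        intro w hw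
        unfold sd at hw
        rw [Finset.mem_filter] at hw
        exact hw.2) (by
        intro w hw hd
        unfold sd
        rw [Finset.mem_filter]
        refine ⟨hball w (hcx c hc w hw) ?_, hw⟩
        rcases dist_edge hT hxc w with h | h
        · omega
        · rw [SimpleGraph.dist_comm, h]
          rw [SimpleGraph.dist_comm] at hd
          omega)
      have p0 := qq_nonneg hl hT θ h0 hθ hWc hcc
      have p1 := qq_lt_one hl hT θ h0 hθ hWc hcc
      set q := qq G P l θ (sd G W c x) c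
      have e2 : R / (1 + R) ≤ q := by
        rw [div_le_iff₀ (by linarith)]
        rw [le_div_iff₀ (by linarith)] at key
        linarith
      have hθ2 : θ ^ 2 < 1 := by nlinarith
      have e3 : θ ^ 2 * q < 1 := by nlinarith
      calc θ ^ 2 * (R / (1 + R)) ≤ θ ^ 2 * q := mul_le_mul_of_nonneg_left e2 (sq_nonneg θ)
        _ ≤ θ ^ 2 * q / (1 - θ ^ 2 * q) := by
          rw [le_div_iff₀ (by linarith)]
          nlinarith [mul_nonneg (sq_nonneg θ) p0]
    have hsum : (b : ℝ) * (θ ^ 2 * (R / (1 + R))) ≤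
        ∑ c ∈ S, θ ^ 2 * qq G P l θ (sd G W c x) c / (1 - θ ^ 2 * qq G P l θ (sd G W c x) c) := by
      have := Finset.card_nsmul_le_sum S _ _ hchild
      rw [hScard, nsmul_eq_mul] at this
      exact this
    unfold plcR
    rw [← hR]
    have : (b : ℝ) * θ ^ 2 * (R / (1 + R)) = (b : ℝ) * (θ ^ 2 * (R / (1 + R))) := by ring
    rw [this]
    linarith

theorem qq_lower [G.LocallyFinite] (hl : LData P l H) (hT : G.IsTree) (b : ℕ) (hb : 2 ≤ b)
    (hreg : G.IsRegularOfDegree (b + 1)) (θ : ℝ) (h0 : 0 ≤ θ) (h1 : (b : ℝ) * θ ^ 2 ≤ 1)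
    (e0 : ℝ) (he0 : 0 < e0) (he1 : e0 ≤ 1)
    (he : ∀ v, e0 ≤ ∫ ω, (l ω v true - l ω v false) ^ 2 / (2 * (l ω v true + l ω v false)) ∂P) :
    ∃ N : ℕ, ∀ (W : Finset V) (x y : V), G.Adj x y → Win G W → x ∈ W →
      (∀ w ∈ W, G.dist w x < G.dist w y) →
      (∀ w, G.dist w x < G.dist w y → G.dist x w ≤ N → w ∈ W) →
      qst e0 (b * θ ^ 2) / 2 ≤ qq G P l θ W x := by
  have hθ : θ < 1 := plc_theta b hb θ h0 h1
  obtain ⟨N, hN⟩ := rec_lower e0 (b * θ ^ 2) he0 he1 (by positivity) h1 (plcR e0 (b * θ ^ 2))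
    (le_refl _) (fun n => le_refl _)
  refine ⟨N, fun W x y hxy hW hx hside hball => ?_⟩
  have key := plc_lower_aux hl hT b hb hreg θ h0 h1 e0 he0 he1 he N W x y hxy hW hx hside hball
  have h3 := hN N le_rfl
  have q0 := qq_nonneg hl hT θ h0 hθ hW hx
  have q1 := qq_lt_one hl hT θ h0 hθ hW hx
  have h4 : qst e0 (b * θ ^ 2) ≤ qq G P l θ W x / (1 - qq G P l θ W x) := le_trans h3 key
  have h5 := qst_nonneg e0 (b * θ ^ 2) he0.le h1
  have h6 := qst_le e0 (b * θ ^ 2) he1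
  rw [le_div_iff₀ (by linarith)] at h4
  nlinarith

/-- exact formula for the square root of the covariance (one step) -/
theorem sqrt_cv_cut (hl : LData P l H) (hT : G.IsTree) (θ : ℝ) (h0 : 0 ≤ θ) (h1 : θ < 1)
    {W : Finset V} (hW : Win G W) {x y u : V} (hx : x ∈ W) (hy : y ∈ W) (h : G.Adj x y)
    (hu : u ∈ sd G W y x) :
    ∫ ω, Real.sqrt (cv (ip G θ W) W (l ω) x u) * pt (ip G θ W) W (l ω) ∂P =
      Real.sqrt θ * (∫ ω, Real.sqrt (dd G θ (sd G W x y) (l ω) x true *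
        dd G θ (sd G W x y) (l ω) x false) ∂P) *
      ∫ ω, Real.sqrt (cv (ip G θ (sd G W y x)) (sd G W y x) (l ω) y u) *
        pt (ip G θ (sd G W y x)) (sd G W y x) (l ω) ∂P := by
  have hWA : Win G (sd G W x y) := win_sd hT hW hx h
  have hWB : Win G (sd G W y x) := win_sd hT hW hy h.symm
  have hxA : x ∈ sd G W x y := mem_sd_self hx h
  have e : ∀ ω, Real.sqrt (cv (ip G θ W) W (l ω) x u) * pt (ip G θ W) W (l ω) =
      Real.sqrt θ * (Real.sqrt (dd G θ (sd G W x y) (l ω) x true *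
        dd G θ (sd G W x y) (l ω) x false) * (Real.sqrt (cv (ip G θ (sd G W y x)) (sd G W y x) (l ω) y u) *
        pt (ip G θ (sd G W y x)) (sd G W y x) (l ω))) := by
    intro ω
    have p1 := plc_pt_pos hT θ h0 h1 hW (l ω) (plc_pos hl ω)
    have p2 := plc_pt_pos hT θ h0 h1 hWB (l ω) (plc_pos hl ω)
    have d1 := dd_pos hT θ h0 h1 hWA (l ω) (plc_pos hl ω) x hxA true
    have d2 := dd_pos hT θ h0 h1 hWA (l ω) (plc_pos hl ω) x hxA false
    have key := cv_cut hT θ h0 h1 hW hx hy h hu (l ω) (plc_pos hl ω)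
    have e1 : Real.sqrt (cv (ip G θ W) W (l ω) x u) * pt (ip G θ W) W (l ω) =
        Real.sqrt (cv (ip G θ W) W (l ω) x u * pt (ip G θ W) W (l ω) ^ 2) := by
      rw [Real.sqrt_mul' _ (sq_nonneg _), Real.sqrt_sq p1.le]
    rw [e1, key, Real.sqrt_mul (by positivity), Real.sqrt_mul h0, Real.sqrt_mul' _ (sq_nonneg _),
      Real.sqrt_sq p2.le]
    ring
  simp_rw [e]
  rw [integral_const_mul, mul_assoc]
  congr 1
  apply integral_indep hl (sd_disjoint W x y)
    (fun l => Real.sqrt (dd G θ (sd G W x y) l x true * dd G θ (sd G W x y) l x false))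
    (fun l => Real.sqrt (cv (ip G θ (sd G W y x)) (sd G W y x) l y u) *
        pt (ip G θ (sd G W y x)) (sd G W y x) l)
  · exact Real.continuous_sqrt.measurable.comp ((measurable_dd θ _ x true).mul (measurable_dd θ _ x false))
  · exact (Real.continuous_sqrt.measurable.comp (measurable_cv _ _ y u)).mul (measurable_pt _ _)
  · intro l l' h
    simp only
    rw [dd_congr θ _ l l' h, dd_congr θ _ l l' h]
  · intro l l' h
    simp only
    rw [cv_congr _ _ l l' h, pt_congr _ _ l l' h]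

theorem cv_nonneg_le (hT : G.IsTree) (θ : ℝ) (h0 : 0 ≤ θ) (h1 : θ < 1) {W : Finset V} (hW : Win G W)
    {v u : V} (hv : v ∈ W) (hu : u ∈ W) (l : V → Bool → ℝ) (hl : ∀ v b, 0 < l v b) :
    0 ≤ cv (ip G θ W) W l v u ∧ cv (ip G θ W) W l v u ≤ θ ^ (G.dist v u) := by
  obtain ⟨x, hx0, hxn, hgeo⟩ := geo_exists hT v u
  have hxW : ∀ i ≤ G.dist v u, x i ∈ W := win_geo hT hW hgeo (by rw [hx0]; exact hv) (by rw [hxn]; exact hu)
  have key := cv_path hT θ h0 h1 hW x (G.dist v u) hgeo hxW l hl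
  rw [hx0, hxn] at key
  rw [key]
  have hpsi : ∀ i ∈ Finset.range (G.dist v u), 0 ≤ θ * psi θ (bm G θ W l (x (i + 1)) (x i)) ∧
      θ * psi θ (bm G θ W l (x (i + 1)) (x i)) ≤ θ := by
    intro i hi
    rw [Finset.mem_range] at hi
    have hadj : G.Adj (x i) (x (i + 1)) := geo_adj hgeo i hi
    have hx1 : x (i + 1) ∈ W := hxW (i + 1) (by omega)
    have hWB : Win G (sd G W (x (i + 1)) (x i)) := win_sd hT hW hx1 hadj.symm
    have hb : bm G θ W l (x (i + 1)) (x i) ^ 2 < 1 :=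
      kf_abs_mn_lt hT θ h0 h1 hWB (mem_sd_self hx1 hadj.symm) l hl
    set B := bm G θ W l (x (i + 1)) (x i)
    have hθ2 : θ ^ 2 < 1 := by nlinarith
    have hd : 0 < 1 - θ ^ 2 * B ^ 2 := by nlinarith [sq_nonneg B, sq_nonneg θ]
    have p0 : 0 ≤ psi θ B := by
      unfold psi
      exact div_nonneg (by linarith) hd.le
    have p1 : psi θ B ≤ 1 := by
      unfold psi
      rw [div_le_one hd]
      nlinarith [sq_nonneg B]
    exact ⟨mul_nonneg h0 p0, by nlinarith⟩
  have hm : mn (ip G θ W) W l v ^ 2 < 1 := kf_abs_mn_lt hT θ h0 h1 hW hv l hl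
  have hprod0 : 0 ≤ ∏ i ∈ Finset.range (G.dist v u), (θ * psi θ (bm G θ W l (x (i + 1)) (x i))) :=
    Finset.prod_nonneg (fun i hi => (hpsi i hi).1)
  have hprod1 : ∏ i ∈ Finset.range (G.dist v u), (θ * psi θ (bm G θ W l (x (i + 1)) (x i))) ≤
      θ ^ (G.dist v u) := by
    calc _ ≤ ∏ i ∈ Finset.range (G.dist v u), θ :=
          Finset.prod_le_prod (fun i hi => (hpsi i hi).1) (fun i hi => (hpsi i hi).2)
      _ = _ := by simp
  constructor
  · exact mul_nonneg (by linarith) hprod0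
  · calc _ ≤ 1 * ∏ i ∈ Finset.range (G.dist v u), (θ * psi θ (bm G θ W l (x (i + 1)) (x i))) := by
          apply mul_le_mul_of_nonneg_right _ hprod0
          nlinarith [sq_nonneg (mn (ip G θ W) W l v)]
      _ ≤ _ := by rw [one_mul]; exact hprod1


theorem plc_bh_good (hl : LData P l H) (hT : G.IsTree) (θ : ℝ) (h0 : 0 ≤ θ) (h1 : θ < 1)
    {A : Finset V} (hA : Win G A) {x c : V} (hx : x ∈ A) (hc : c ∈ A) (h : G.Adj x c) (Q : ℝ)
    (hQ : Q ≤ qq G P l θ (sd G A c x) c) :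
    ∫ ω, Real.sqrt (dd G θ A (l ω) x true * dd G θ A (l ω) x false) ∂P ≤ 1 - θ ^ 2 * Q / 2 := by
  have hWA : Win G (sd G A x c) := win_sd hT hA hx h
  have hWB : Win G (sd G A c x) := win_sd hT hA hc h.symm
  have hxA : x ∈ sd G A x c := mem_sd_self hx h
  have hcB : c ∈ sd G A c x := mem_sd_self hc h.symm
  rw [bh_cut hl hT θ h0 h1 hA hx hc h]
  have k1 := bh_le_one hl hT θ h0 h1 hWA hxA
  have hθ2 : θ ^ 2 < 1 := by nlinarith
  have hs : ∀ ω, 0 ≤ Real.sqrt (1 - θ ^ 2 * mn (ip G θ (sd G A c x)) (sd G A c x) (l ω) c ^ 2) *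
      pt (ip G θ (sd G A c x)) (sd G A c x) (l ω) := fun ω =>
    mul_nonneg (Real.sqrt_nonneg _) (plc_pt_pos hT θ h0 h1 hWB (l ω) (plc_pos hl ω)).le
  have k2 : 0 ≤ ∫ ω, Real.sqrt (1 - θ ^ 2 * mn (ip G θ (sd G A c x)) (sd G A c x) (l ω) c ^ 2) *
      pt (ip G θ (sd G A c x)) (sd G A c x) (l ω) ∂P := integral_nonneg hs
  have i0 := plc_int_pow hl hT θ h0 h1 hWB hcB 0
  have i2 := plc_int_pow hl hT θ h0 h1 hWB hcB 2
  simp only [pow_zero, one_mul] at i0
  have k3 : ∫ ω, Real.sqrt (1 - θ ^ 2 * mn (ip G θ (sd G A c x)) (sd G A c x) (l ω) c ^ 2) *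
      pt (ip G θ (sd G A c x)) (sd G A c x) (l ω) ∂P ≤ 1 - θ ^ 2 * Q / 2 := by
    have e : ∫ ω, (pt (ip G θ (sd G A c x)) (sd G A c x) (l ω) - θ ^ 2 / 2 *
        (mn (ip G θ (sd G A c x)) (sd G A c x) (l ω) c ^ 2 * pt (ip G θ (sd G A c x)) (sd G A c x) (l ω))) ∂P
        = 1 - θ ^ 2 / 2 * qq G P l θ (sd G A c x) c := by
      rw [integral_sub i0 (i2.const_mul _), integral_pt hl hT θ h0 h1 hWB, integral_const_mul]
      rfl
    have hle : ∫ ω, Real.sqrt (1 - θ ^ 2 * mn (ip G θ (sd G A c x)) (sd G A c x) (l ω) c ^ 2) *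
      pt (ip G θ (sd G A c x)) (sd G A c x) (l ω) ∂P ≤ ∫ ω, (pt (ip G θ (sd G A c x)) (sd G A c x) (l ω) - θ ^ 2 / 2 *
        (mn (ip G θ (sd G A c x)) (sd G A c x) (l ω) c ^ 2 * pt (ip G θ (sd G A c x)) (sd G A c x) (l ω))) ∂P := by
      apply integral_mono_of_nonneg (ae_of_all _ hs) (i0.sub (i2.const_mul _))
      apply ae_of_all
      intro ω
      simp only
      have p := plc_pt_pos hT θ h0 h1 hWB (l ω) (plc_pos hl ω)
      have hm := kf_abs_mn_lt hT θ h0 h1 hWB hcB (l ω) (plc_pos hl ω)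
      set M := mn (ip G θ (sd G A c x)) (sd G A c x) (l ω) c
      set p' := pt (ip G θ (sd G A c x)) (sd G A c x) (l ω)
      have hsq : Real.sqrt (1 - θ ^ 2 * M ^ 2) ≤ 1 - θ ^ 2 * M ^ 2 / 2 := by
        have ht : θ ^ 2 * M ^ 2 ≤ 1 := by nlinarith [sq_nonneg M, sq_nonneg θ]
        rw [Real.sqrt_le_iff]
        constructor
        · linarith
        · nlinarith [sq_nonneg (θ ^ 2 * M ^ 2)]
      calc Real.sqrt (1 - θ ^ 2 * M ^ 2) * p' ≤ (1 - θ ^ 2 * M ^ 2 / 2) * p' :=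
            mul_le_mul_of_nonneg_right hsq p.le
        _ = p' - θ ^ 2 / 2 * (M ^ 2 * p') := by ring
    rw [e] at hle
    nlinarith [sq_nonneg θ]
  calc _ ≤ 1 * ∫ ω, Real.sqrt (1 - θ ^ 2 * mn (ip G θ (sd G A c x)) (sd G A c x) (l ω) c ^ 2) *
      pt (ip G θ (sd G A c x)) (sd G A c x) (l ω) ∂P := mul_le_mul_of_nonneg_right k1 k2
    _ ≤ _ := by rw [one_mul]; exact k3

theorem plc_cv_meas (θ : ℝ) (W : Finset V) (x u : V) :
    Measurable (fun l : V → Bool → ℝ => Real.sqrt (cv (ip G θ W) W l x u) * pt (ip G θ W) W l) :=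
  (Real.continuous_sqrt.measurable.comp (measurable_cv _ _ x u)).mul (measurable_pt _ _)

theorem plc_sqrt_int (hl : LData P l H) (hT : G.IsTree) (θ : ℝ) (h0 : 0 ≤ θ) (h1 : θ < 1)
    {W : Finset V} (hW : Win G W) {x u : V} (hx : x ∈ W) :
    Integrable (fun ω => Real.sqrt (cv (ip G θ W) W (l ω) x u) * pt (ip G θ W) W (l ω)) P := by
  obtain ⟨C, hC, h⟩ := plc_pt_bdd hl hT θ h0 h1 hW hx
  apply plc_int hl _ (plc_cv_meas θ W x u) C
  intro ω
  rw [abs_mul, abs_of_nonneg (Real.sqrt_nonneg _)]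
  have h3 := abs_cv_le (isMass_ip hT θ h0 h1.le hW) (l ω) (plc_pos hl ω) x u
  have h4 : Real.sqrt (cv (ip G θ W) W (l ω) x u) ≤ 1 := Real.sqrt_le_one.2 (abs_le.1 h3).2
  calc Real.sqrt (cv (ip G θ W) W (l ω) x u) * |pt (ip G θ W) W (l ω)| ≤ 1 * C :=
        mul_le_mul h4 (h ω) (abs_nonneg _) zero_le_one
    _ = C := one_mul C

theorem plc_sqrt_le_one (hl : LData P l H) (hT : G.IsTree) (θ : ℝ) (h0 : 0 ≤ θ) (h1 : θ < 1)
    {W : Finset V} (hW : Win G W) {x u : V} (hx : x ∈ W) :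
    ∫ ω, Real.sqrt (cv (ip G θ W) W (l ω) x u) * pt (ip G θ W) W (l ω) ∂P ≤ 1 := by
  have i0 := plc_int_pow hl hT θ h0 h1 hW hx 0
  simp only [pow_zero, one_mul] at i0
  rw [← integral_pt hl hT θ h0 h1 hW]
  apply integral_mono (plc_sqrt_int hl hT θ h0 h1 hW hx) i0
  intro ω
  simp only
  have h3 := abs_cv_le (isMass_ip hT θ h0 h1.le hW) (l ω) (plc_pos hl ω) x u
  have h4 : Real.sqrt (cv (ip G θ W) W (l ω) x u) ≤ 1 := Real.sqrt_le_one.2 (abs_le.1 h3).2
  have p := plc_pt_pos hT θ h0 h1 hW (l ω) (plc_pos hl ω)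
  nlinarith

theorem plc_L [G.LocallyFinite] (hl : LData P l H) (hT : G.IsTree) (θ : ℝ) (h0 : 0 ≤ θ) (h1 : θ < 1)
    (Q : ℝ) (hQ0 : 0 ≤ Q) (hQ1 : Q ≤ 1) (N : ℕ) (hN : ∀ (W : Finset V) (x y : V), G.Adj x y → Win G W → x ∈ W →
      (∀ w ∈ W, G.dist w x < G.dist w y) →
      (∀ w, G.dist w x < G.dist w y → G.dist x w ≤ N → w ∈ W) →
      Q ≤ qq G P l θ W x) (n : ℕ) :
    ∀ (W : Finset V) (x : ℕ → V), Win G W → Geo G x n → (∀ i ≤ n, x i ∈ W) →
      (∀ i < n, ∃ c, G.Adj (x i) c ∧ c ≠ x (i + 1) ∧ (1 ≤ i → c ≠ x (i - 1)) ∧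
        ∀ w, G.dist w c < G.dist w (x i) → G.dist c w ≤ N → w ∈ W) →
      ∫ ω, Real.sqrt (cv (ip G θ W) W (l ω) (x 0) (x n)) * pt (ip G θ W) W (l ω) ∂P ≤
        Real.sqrt θ ^ n * (1 - θ ^ 2 * Q / 2) ^ n := by
  have hβ : 0 ≤ 1 - θ ^ 2 * Q / 2 := by
    have : θ ^ 2 < 1 := by nlinarith
    nlinarith
  induction n with
  | zero =>
    intro W x hW hx hxW _
    simp only [pow_zero, mul_one]
    exact plc_sqrt_le_one hl hT θ h0 h1 hW (hxW 0 le_rfl)
  | succ n ih =>
    intro W x hW hx hxW hgood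
    have hadj : G.Adj (x 0) (x 1) := geo_adj hx 0 (by omega)
    have hx0 : x 0 ∈ W := hxW 0 (by omega)
    have hx1 : x 1 ∈ W := hxW 1 (by omega)
    have hmem : ∀ i, i ≤ n → x (i + 1) ∈ sd G W (x 1) (x 0) := by
      intro i hi
      unfold sd
      rw [Finset.mem_filter]
      refine ⟨hxW (i + 1) (by omega), ?_⟩
      have d1 := hx 1 (i + 1) (by omega) (by omega)
      have d0 := hx 0 (i + 1) (by omega) (by omega)
      rw [SimpleGraph.dist_comm, d1, SimpleGraph.dist_comm, d0]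
      omega
    have hWA : Win G (sd G W (x 0) (x 1)) := win_sd hT hW hx0 hadj
    have hWB : Win G (sd G W (x 1) (x 0)) := win_sd hT hW hx1 hadj.symm
    have hxA : x 0 ∈ sd G W (x 0) (x 1) := mem_sd_self hx0 hadj
    have hgeo : Geo G (fun i => x (i + 1)) n := by
      intro i j hij hjn
      have := hx (i + 1) (j + 1) (by omega) (by omega)
      simp only
      rw [this]; omega
    rw [sqrt_cv_cut hl hT θ h0 h1 hW hx0 hx1 hadj (hmem n le_rfl)]
    -- the block at `x 0`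
    obtain ⟨c, hc1, hc2, _, hc4⟩ := hgood 0 (by omega)
    have hcW : c ∈ W := by
      apply hc4
      · rw [SimpleGraph.dist_self, SimpleGraph.dist_eq_one_iff_adj.2 hc1.symm]; exact one_pos
      · rw [SimpleGraph.dist_self]; omega
    have hcA : c ∈ sd G W (x 0) (x 1) := by
      unfold sd
      rw [Finset.mem_filter]
      refine ⟨hcW, plc_nest hT hc1.symm hadj hc2 ?_⟩
      rw [SimpleGraph.dist_self, SimpleGraph.dist_eq_one_iff_adj.2 hc1.symm]; exact one_pos
    have hWc : Win G (sd G (sd G W (x 0) (x 1)) c (x 0)) := win_sd hT hWA hcA hc1.symm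
    have hq : Q ≤ qq G P l θ (sd G (sd G W (x 0) (x 1)) c (x 0)) c := by
      apply hN _ c (x 0) hc1.symm hWc (mem_sd_self hcA hc1.symm)
      · intro w hw
        unfold sd at hw
        rw [Finset.mem_filter] at hw
        exact hw.2
      · intro w hw hd
        unfold sd
        rw [Finset.mem_filter, Finset.mem_filter]
        exact ⟨⟨hc4 w hw hd, plc_nest hT hc1.symm hadj hc2 hw⟩, hw⟩
    have hbh := plc_bh_good hl hT θ h0 h1 hWA hxA hcA hc1 Q hq
    -- the rest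
    have key := ih (sd G W (x 1) (x 0)) (fun i => x (i + 1)) hWB hgeo (fun i hi => hmem i hi) (by
      intro i hi
      obtain ⟨c, g1, g2, g3, g4⟩ := hgood (i + 1) (by omega)
      refine ⟨c, g1, g2, fun h => ?_, ?_⟩
      · have := g3 (by omega)
        have e : i + 1 - 1 = i - 1 + 1 := by omega
        rw [e] at this
        exact this
      · intro w hw hd
        have hne : c ≠ x i := by
          have := g3 (by omega)
          simpa using this
        have hWw := g4 w hw hd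
        have hadj' : G.Adj (x i) (x (i + 1)) := geo_adj hx i (by omega)
        have hn := plc_nest hT g1.symm hadj'.symm hne hw
        apply kf_sd_subset hT W x (n + 1) hx i (by omega)
        unfold sd
        rw [Finset.mem_filter]
        exact ⟨hWw, hn⟩)
    simp only [zero_add] at key
    have hI0 : 0 ≤ ∫ ω, Real.sqrt (cv (ip G θ (sd G W (x 1) (x 0))) (sd G W (x 1) (x 0)) (l ω) (x 1) (x (n + 1))) *
        pt (ip G θ (sd G W (x 1) (x 0))) (sd G W (x 1) (x 0)) (l ω) ∂P :=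
      integral_nonneg (fun ω => mul_nonneg (Real.sqrt_nonneg _) (plc_pt_pos hT θ h0 h1 hWB (l ω) (plc_pos hl ω)).le)
    have hbh0 : 0 ≤ ∫ ω, Real.sqrt (dd G θ (sd G W (x 0) (x 1)) (l ω) (x 0) true *
        dd G θ (sd G W (x 0) (x 1)) (l ω) (x 0) false) ∂P := integral_nonneg (fun ω => Real.sqrt_nonneg _)
    calc _ ≤ Real.sqrt θ * (1 - θ ^ 2 * Q / 2) * (Real.sqrt θ ^ n * (1 - θ ^ 2 * Q / 2) ^ n) := by
          apply mul_le_mul _ key hI0 (mul_nonneg (Real.sqrt_nonneg _) hβ)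
          exact mul_le_mul_of_nonneg_left hbh (Real.sqrt_nonneg _)
      _ = _ := by ring

theorem plc_far (hT : G.IsTree) (z : ℕ → V) (m : ℕ) (w : V) (hadj : ∀ k < m, G.Adj (z k) (z (k + 1)))
    (hne : ∀ k, k + 2 ≤ m → z k ≠ z (k + 2)) (h01 : 1 ≤ m → G.dist w (z 0) < G.dist w (z 1)) :
    ∀ k ≤ m, G.dist w (z 0) ≤ G.dist w (z k) := by
  have hstep : ∀ k, k + 1 ≤ m → G.dist w (z k) < G.dist w (z (k + 1)) := by
    intro k
    induction k with
    | zero => exact h01
    | succ k ih =>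
      intro hk
      exact plc_nest hT (hadj k (by omega)) (hadj (k + 1) (by omega)) (hne k (by omega)) (ih (by omega))
  intro k
  induction k with
  | zero => intro _; exact le_refl _
  | succ k ih =>
    intro hk
    have := hstep k hk
    have := ih (by omega)
    omega

/-- decay of the covariance along a path surrounded by data (the window has to contain the points
within distance `N` hanging off the path at its interior vertices) -/
theorem cv2_upper [G.LocallyFinite] (hl : LData P l H) (hT : G.IsTree) (b : ℕ) (hb : 2 ≤ b)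
    (hreg : G.IsRegularOfDegree (b + 1)) (θ : ℝ) (h0 : 0 ≤ θ) (h1 : (b : ℝ) * θ ^ 2 ≤ 1)
    (e0 : ℝ) (he0 : 0 < e0) (he1 : e0 ≤ 1)
    (he : ∀ v, e0 ≤ ∫ ω, (l ω v true - l ω v false) ^ 2 / (2 * (l ω v true + l ω v false)) ∂P) :
    ∃ N : ℕ, ∀ (W : Finset V) (x : ℕ → V) (n : ℕ), Win G W → Geo G x n → (∀ i ≤ n, x i ∈ W) →
      (∀ i, 1 ≤ i → i < n → ∀ w, (∀ j ≤ n, G.dist w (x i) ≤ G.dist w (x j)) →
        G.dist w (x i) ≤ N → w ∈ W) →
      ∫ ω, cv (ip G θ W) W (l ω) (x 0) (x n) ^ 2 * pt (ip G θ W) W (l ω) ∂P ≤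
        θ ^ (2 * n) * (1 - θ ^ 2 * qst e0 (b * θ ^ 2) / 4) ^ (n - 1) := by
  have hθ : θ < 1 := plc_theta b hb θ h0 h1
  obtain ⟨N, hN⟩ := qq_lower hl hT b hb hreg θ h0 h1 e0 he0 he1 he
  have hq0 := qst_nonneg e0 (b * θ ^ 2) he0.le h1
  have hq1 := qst_le e0 (b * θ ^ 2) he1
  have hL := plc_L hl hT θ h0 hθ (qst e0 (b * θ ^ 2) / 2) (by linarith) (by linarith) N hN
  have hβe : 1 - θ ^ 2 * (qst e0 (b * θ ^ 2) / 2) / 2 = 1 - θ ^ 2 * qst e0 (b * θ ^ 2) / 4 := by ring
  rw [hβe] at hL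
  set β := 1 - θ ^ 2 * qst e0 (b * θ ^ 2) / 4 with hβdef
  have hβ0 : 0 ≤ β := by
    have : θ ^ 2 < 1 := by nlinarith
    rw [hβdef]
    nlinarith
  refine ⟨N + 1, fun W x n hW hx hxW hin => ?_⟩
  have hx0 : x 0 ∈ W := hxW 0 (by omega)
  have hsθ : 0 ≤ Real.sqrt θ := Real.sqrt_nonneg θ
  have hsθ2 : Real.sqrt θ ^ 2 = θ := Real.sq_sqrt h0
  -- pointwise bound
  have hpt : ∀ ω, cv (ip G θ W) W (l ω) (x 0) (x n) ^ 2 * pt (ip G θ W) W (l ω) ≤
      Real.sqrt θ ^ (3 * n) * (Real.sqrt (cv (ip G θ W) W (l ω) (x 0) (x n)) * pt (ip G θ W) W (l ω)) := by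
    intro ω
    have hcv := cv_nonneg_le hT θ h0 hθ hW hx0 (hxW n le_rfl) (l ω) (plc_pos hl ω)
    have hdist : G.dist (x 0) (x n) = n := by
      have := hx 0 n (by omega) le_rfl
      simpa using this
    rw [hdist] at hcv
    set c := cv (ip G θ W) W (l ω) (x 0) (x n)
    have p := plc_pt_pos hT θ h0 hθ hW (l ω) (plc_pos hl ω)
    have s0 : 0 ≤ Real.sqrt c := Real.sqrt_nonneg c
    have s2 : Real.sqrt c ^ 2 = c := Real.sq_sqrt hcv.1
    have s3 : Real.sqrt c ≤ Real.sqrt θ ^ n := by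
      rw [Real.sqrt_le_iff]
      refine ⟨by positivity, ?_⟩
      rw [← pow_mul, mul_comm n 2, pow_mul, hsθ2]
      exact hcv.2
    have s4 : Real.sqrt c ^ 3 ≤ Real.sqrt θ ^ (3 * n) := by
      rw [mul_comm 3 n, pow_mul]
      exact pow_le_pow_left₀ s0 s3 3
    calc c ^ 2 * pt (ip G θ W) W (l ω) = Real.sqrt c ^ 3 * (Real.sqrt c * pt (ip G θ W) W (l ω)) := by
          rw [← s2]
          simp only [Real.sqrt_sq s0]
          ring
      _ ≤ _ := mul_le_mul_of_nonneg_right s4 (mul_nonneg s0 p.le)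
  have hint := plc_sqrt_int hl hT θ h0 hθ hW (x := x 0) (u := x n) hx0
  have hmain : ∫ ω, cv (ip G θ W) W (l ω) (x 0) (x n) ^ 2 * pt (ip G θ W) W (l ω) ∂P ≤
      Real.sqrt θ ^ (3 * n) * ∫ ω, Real.sqrt (cv (ip G θ W) W (l ω) (x 0) (x n)) * pt (ip G θ W) W (l ω) ∂P := by
    rw [← integral_const_mul]
    apply integral_mono_of_nonneg
    · exact ae_of_all _ (fun ω => mul_nonneg (sq_nonneg _) (plc_pt_pos hT θ h0 hθ hW (l ω) (plc_pos hl ω)).le)
    · exact hint.const_mul _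
    · exact ae_of_all _ hpt
  refine hmain.trans ?_
  rcases Nat.eq_zero_or_pos n with hn | hn
  · subst hn
    simp only [Nat.mul_zero, pow_zero, one_mul, Nat.zero_sub, mul_one]
    exact plc_sqrt_le_one hl hT θ h0 hθ hW hx0
  · obtain ⟨m, rfl⟩ : ∃ m, n = m + 1 := ⟨n - 1, by omega⟩
    have hadj : G.Adj (x 0) (x 1) := geo_adj hx 0 (by omega)
    have hx1 : x 1 ∈ W := hxW 1 (by omega)
    have hmem : ∀ i, i ≤ m → x (i + 1) ∈ sd G W (x 1) (x 0) := by
      intro i hi
      unfold sd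
      rw [Finset.mem_filter]
      refine ⟨hxW (i + 1) (by omega), ?_⟩
      have d1 := hx 1 (i + 1) (by omega) (by omega)
      have d0 := hx 0 (i + 1) (by omega) (by omega)
      rw [SimpleGraph.dist_comm, d1, SimpleGraph.dist_comm, d0]
      omega
    have hWA : Win G (sd G W (x 0) (x 1)) := win_sd hT hW hx0 hadj
    have hWB : Win G (sd G W (x 1) (x 0)) := win_sd hT hW hx1 hadj.symm
    have hxA : x 0 ∈ sd G W (x 0) (x 1) := mem_sd_self hx0 hadj
    have hgeo : Geo G (fun i => x (i + 1)) m := by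
      intro i j hij hjn
      have := hx (i + 1) (j + 1) (by omega) (by omega)
      simp only
      rw [this]; omega
    have key := hL m (sd G W (x 1) (x 0)) (fun i => x (i + 1)) hWB hgeo (fun i hi => hmem i hi) (by
      intro i hi
      -- a neighbour of `x (i+1)` off the path
      have hA1 : G.Adj (x i) (x (i + 1)) := geo_adj hx i (by omega)
      have hA2 : G.Adj (x (i + 1)) (x (i + 2)) := geo_adj hx (i + 1) (by omega)
      have hcard : 0 < (((G.neighborFinset (x (i + 1))).erase (x i)).erase (x (i + 2))).card := by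
        have e1 := Finset.pred_card_le_card_erase (s := (G.neighborFinset (x (i + 1))).erase (x i)) (a := x (i + 2))
        have e2 := Finset.pred_card_le_card_erase (s := G.neighborFinset (x (i + 1))) (a := x i)
        have e3 : (G.neighborFinset (x (i + 1))).card = b + 1 := by
          rw [SimpleGraph.card_neighborFinset_eq_degree]; exact hreg _
        omega
      obtain ⟨c, hc⟩ := Finset.card_pos.1 hcard
      rw [Finset.mem_erase, Finset.mem_erase, SimpleGraph.mem_neighborFinset] at hc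
      obtain ⟨hc1, hc2, hc3⟩ := hc
      refine ⟨c, hc3, hc1, ?_, ?_⟩
      · intro hi1
        have e : i - 1 + 1 = i := by omega
        rw [e]
        exact hc2
      · intro w hw hd
        have hn := plc_nest hT hc3.symm hA1.symm hc2 hw
        have hn2 := plc_nest hT hc3.symm hA2 hc1 hw
        apply kf_sd_subset hT W x (m + 1) hx i (by omega)
        unfold sd
        rw [Finset.mem_filter]
        refine ⟨?_, hn⟩
        apply hin (i + 1) (by omega) (by omega) w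
        · intro j hj
          rcases le_total (i + 1) j with hij | hij
          · have := plc_far hT (fun k => x (i + 1 + k)) (m + 1 - (i + 1)) w
              (fun k hk => by
                have := geo_adj hx (i + 1 + k) (by omega)
                exact this)
              (fun k hk => by
                intro h
                have := hx (i + 1 + k) (i + 1 + (k + 2)) (by omega) (by omega)
                rw [h, SimpleGraph.dist_self] at this
                omega)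
              (fun _ => hn2) (j - (i + 1)) (by omega)
            simp only [add_zero] at this
            rw [show i + 1 + (j - (i + 1)) = j by omega] at this
            exact this
          · have := plc_far hT (fun k => x (i + 1 - k)) (i + 1) w
              (fun k hk => by
                have := geo_adj hx (i + 1 - (k + 1)) (by omega)
                rw [show i + 1 - (k + 1) + 1 = i + 1 - k by omega] at this
                exact this.symm)
              (fun k hk => by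
                intro h
                have := hx (i + 1 - (k + 2)) (i + 1 - k) (by omega) (by omega)
                rw [h, SimpleGraph.dist_self] at this
                omega)
              (fun _ => hn) (i + 1 - j) (by omega)
            simp only [Nat.sub_zero] at this
            rw [show i + 1 - (i + 1 - j) = j by omega] at this
            exact this
        · rcases dist_edge hT hc3 w with h | h
          · omega
          · rw [SimpleGraph.dist_comm] at hd; omega)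
    simp only [zero_add] at key
    rw [sqrt_cv_cut hl hT θ h0 hθ hW hx0 hx1 hadj (hmem m le_rfl)]
    have hbh := bh_le_one hl hT θ h0 hθ hWA hxA
    have hI0 : 0 ≤ ∫ ω, Real.sqrt (cv (ip G θ (sd G W (x 1) (x 0))) (sd G W (x 1) (x 0)) (l ω) (x 1) (x (m + 1))) *
        pt (ip G θ (sd G W (x 1) (x 0))) (sd G W (x 1) (x 0)) (l ω) ∂P :=
      integral_nonneg (fun ω => mul_nonneg (Real.sqrt_nonneg _) (plc_pt_pos hT θ h0 hθ hWB (l ω) (plc_pos hl ω)).le)
    calc _ ≤ Real.sqrt θ ^ (3 * (m + 1)) * ((Real.sqrt θ * 1) * (Real.sqrt θ ^ m * β ^ m)) := by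
          apply mul_le_mul_of_nonneg_left _ (by positivity)
          apply mul_le_mul _ key hI0 (by positivity)
          exact mul_le_mul_of_nonneg_left hbh hsθ
      _ = (Real.sqrt θ ^ 2) ^ (2 * (m + 1)) * β ^ m := by
          rw [← pow_mul]; ring
      _ = _ := by rw [hsθ2]; simp

end PL

end Crest.Agent.TI
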