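import Crest.Agent.TI_InfA
import Crest.Agent.TI_InfB
import Crest.Agent.TI_InfE
import Crest.Agent.TI_PLc
import Crest.Agent.TI_PLe
import Crest.Agent.TI_Schb

/-!
Row S0241, task InfF: small times in stage 0
-/

set_option autoImplicit false
set_option linter.unusedSectionVars false
set_option linter.unusedVariables false

namespace Crest.Agent.TI

open MeasureTheory Filter Topology
open Crest.Agent.SRF (Lab lab)


section INF

variable {V : Type*} [DecidableEq V] {G : SimpleGraph V} [G.LocallyFinite]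

/-- the expectation of an even bounded function of a window message only sees the side of `x` -/
theorem inff_even (hT : G.IsTree) (b : ℕ) (hb : 2 ≤ b) (hreg : G.IsRegularOfDegree (b + 1)) (θ : ℝ)
    (h0 : 0 ≤ θ) (h1 : b * θ ^ 2 < 1) (k : ℕ) (x y : V) (hxy : G.Adj x y) (W : Finset V)
    (hW : Win G W) (hx : x ∈ W) (r : ℝ) (g : ℝ → ℝ) (hg : Measurable g) (hge : ∀ t, g (-t) = g t)
    (C : ℝ) (hC : ∀ t, |t| ≤ kp G b k → |g t| ≤ C) :
    ∫ ω, g (BB G θ W k r x y ω) ∂PP V =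
      ∫ ω, g (mn (ip G θ (sd G W x y)) (sd G W x y) (raw k r ω) x) *
        pt (ip G θ (sd G W x y)) (sd G W x y) (raw k r ω) ∂PP V := by
  have hθ := infe_theta_lt hb h0 h1
  have hA := win_sd hT hW hx hxy
  have hxA := mem_sd_self hx hxy
  have hκ := kp_spec hT b hb hreg k
  set A := sd G W x y with hAd
  set φ : (V → Bool → ℝ) → ℝ := fun l => g (mn (ip G θ A) A l x) with hφ
  have hφm : Measurable φ := hg.comp (measurable_mn (ip G θ A) A x)
  have hφC : ∀ ω : Om V, |φ (raw k r ω)| ≤ C := by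
    intro ω
    have e1 : |mn (ip G θ A) A (raw k r ω) x| ≤ kp G b k :=
      hκ.2.2 θ A (raw k r ω) x h0 h1.le hA hxA (fun v c => ple_ge k r v ω c) (fun v c => ple_le k r v ω c)
    exact hC _ e1
  have hD : DepOn A φ := by
    intro l l' h
    simp only [hφ]
    rw [mn_congr (ip G θ A) A l l' h x]
  have hE : EvenF φ := by
    intro l
    simp only [hφ]
    rw [plb_mn_flip θ hxA l, hge]
  have q1 := exact_dat (isMass_ip hT θ h0 hθ.le hW) k r φ hφm C hφC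
  have q2 := one_block (raw_LData (V := V) k r) hT θ h0 hθ hW hx hxy φ hφm hD hE C hφC
  exact q1.trans q2

theorem inff_rp (r : ℝ) (hr : 0 ≤ r) : (r ^ (3 / 2 : ℝ)) ^ 2 = r ^ 3 := by
  rw [← Real.rpow_natCast, ← Real.rpow_mul hr, ← Real.rpow_natCast]
  norm_num

theorem inff_y (b : ℕ) (θ : ℝ) (hθ : 1 / 2 ≤ (b : ℝ) * θ ^ 2) (r : ℝ) (hr : 0 ≤ r) :
    r ^ 3 / 36 ≤ θ ^ 4 * ((b : ℝ) * r ^ (3 / 2 : ℝ) / 3) ^ 2 := by
  have e : θ ^ 4 * ((b : ℝ) * r ^ (3 / 2 : ℝ) / 3) ^ 2 = ((b : ℝ) * θ ^ 2) ^ 2 * (r ^ (3 / 2 : ℝ)) ^ 2 / 9 := by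
    ring
  rw [e, inff_rp r hr]
  have h3 : 0 ≤ r ^ 3 := by positivity
  have h4 : 1 / 4 ≤ ((b : ℝ) * θ ^ 2) ^ 2 := by nlinarith
  nlinarith

/-- second moment of the window messages -/
theorem inff_m2_BB (hT : G.IsTree) (b : ℕ) (hb : 2 ≤ b) (hreg : G.IsRegularOfDegree (b + 1)) (θ : ℝ)
    (h0 : 0 ≤ θ) (hθ : 1 / 2 ≤ (b : ℝ) * θ ^ 2) (h1 : (b : ℝ) * θ ^ 2 < 1) (x y : V) (hxy : G.Adj x y)
    (W : Finset V) (hW : Win G W) (hx : x ∈ W) (r : ℝ) (hr0 : 0 ≤ r) (hr1 : r ≤ 1 / 2)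
    (hy : (b : ℝ) * r ^ (3 / 2 : ℝ) / 3 ≤ 1) :
    ∫ ω, BB G θ W 0 r x y ω ^ 2 ∂PP V ≤ (b : ℝ) * r ^ (3 / 2 : ℝ) := by
  have hA := win_sd hT hW hx hxy
  have hxA := mem_sd_self hx hxy
  have q := inff_even hT b hb hreg θ h0 h1 0 x y hxy W hW hx r (fun t => t ^ 2)
    (measurable_id.pow_const 2) (fun t => by ring) 1 (fun t ht => by
      have hκ := kp_spec hT b hb hreg 0
      have : |t| ≤ 1 := ht.trans hκ.2.1.le
      rw [abs_of_nonneg (sq_nonneg _), ← sq_abs]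
      nlinarith [abs_nonneg t])
  rw [q]
  have hr32 : 0 ≤ r ^ (3 / 2 : ℝ) := Real.rpow_nonneg hr0 _
  refine (q_upper (raw_LData (V := V) 0 r) hT b hb hreg θ h0 h1.le (r ^ 3 / 36)
    ((b : ℝ) * r ^ (3 / 2 : ℝ) / 3) (by positivity) hy (by positivity) (inff_y b θ hθ r hr0)
    (raw_s_zero r hr0 hr1) _ x hA hxA ⟨y, hxy, plb_notMem_sd hxy⟩).trans ?_
  have : 0 ≤ (b : ℝ) * r ^ (3 / 2 : ℝ) := by positivity
  linarith

/-- second moment of the messages -/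
theorem inff_m2_bI (hT : G.IsTree) (b : ℕ) (hb : 2 ≤ b) (hreg : G.IsRegularOfDegree (b + 1)) (θ : ℝ)
    (h0 : 0 ≤ θ) (hθ : 1 / 2 ≤ (b : ℝ) * θ ^ 2) (h1 : (b : ℝ) * θ ^ 2 < 1) (x y : V) (hxy : G.Adj x y)
    (r : ℝ) (hr0 : 0 ≤ r) (hr1 : r ≤ 1) :
    ∫ ω, bI G b θ 0 r x y ω ^ 2 ∂PP V ≤ 2 * b * r ^ (3 / 2 : ℝ) := by
  have hκ := kp_spec hT b hb hreg 0
  have L := isLim_bI hT b hb hreg θ h0 h1 0 r hr0 hr1 x y hxy
  have hb2 : (2 : ℝ) ≤ b := by exact_mod_cast hb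
  have hr32 : 0 ≤ r ^ (3 / 2 : ℝ) := Real.rpow_nonneg hr0 _
  have mB : Measurable (bI G b θ 0 r x y) := L.1
  have bB : ∀ ω, |bI G b θ 0 r x y ω| ≤ 1 := fun ω => (L.2.1 ω).trans hκ.2.1.le
  have sqb : ∀ t : ℝ, |t| ≤ 1 → t ^ 2 ≤ 1 := fun t ht => by
    rw [← sq_abs]; nlinarith [abs_nonneg t]
  have triv : ∫ ω, bI G b θ 0 r x y ω ^ 2 ∂PP V ≤ 1 := by
    have : ∫ ω, bI G b θ 0 r x y ω ^ 2 ∂PP V ≤ ∫ ω : Om V, (1 : ℝ) ∂PP V := by
      apply integral_mono (integrable_bdd _ (mB.pow_const 2) 1 (fun ω => by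
        rw [abs_of_nonneg (sq_nonneg _)]; exact sqb _ (bB ω))) (integrable_const _)
      intro ω
      exact sqb _ (bB ω)
    simpa using this
  by_cases hc : r ≤ 1 / 2 ∧ (b : ℝ) * r ^ (3 / 2 : ℝ) / 3 ≤ 1
  · obtain ⟨hr2, hy⟩ := hc
    refine le_of_forall_pos_le_add fun ε hε => ?_
    set δ : ℝ := ε / 2 with hδ
    have hδ0 : 0 < δ := by positivity
    obtain ⟨R, hR⟩ := L.2.2 (δ ^ 2) (by positivity)
    have hx : x ∈ bal G x R := by
      rw [mem_bal hT]; simp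
    have hW := win_bal hT x R
    have e1 := hR (bal G x R) hW (Finset.Subset.refl _)
    have mA : Measurable (BB G θ (bal G x R) 0 r x y) := infe_measurable_BB θ _ 0 r x y
    have bA : ∀ ω, |BB G θ (bal G x R) 0 r x y ω| ≤ 1 := fun ω =>
      (abs_BB_le hT b hb hreg 0 θ h0 h1.le _ hW r x y hx hxy ω).trans hκ.2.1.le
    have e2 := infe_close (PP V) (fun ω => BB G θ (bal G x R) 0 r x y ω ^ 2)
      (fun ω => bI G b θ 0 r x y ω ^ 2)
      (fun ω => BB G θ (bal G x R) 0 r x y ω - bI G b θ 0 r x y ω) 2 δ (by norm_num) hδ0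
      (integrable_bdd _ (mA.pow_const 2) 1 (fun ω => by
        rw [abs_of_nonneg (sq_nonneg _)]; exact sqb _ (bA ω)))
      (integrable_bdd _ (mB.pow_const 2) 1 (fun ω => by
        rw [abs_of_nonneg (sq_nonneg _)]; exact sqb _ (bB ω)))
      (integrable_bdd _ ((mA.sub mB).pow_const 2) 4 (fun ω => by
        have a1 := abs_le.1 (bA ω)
        have a2 := abs_le.1 (bB ω)
        rw [abs_of_nonneg (sq_nonneg _)]
        nlinarith))
      (fun ω => by
        have e : BB G θ (bal G x R) 0 r x y ω ^ 2 - bI G b θ 0 r x y ω ^ 2 =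
          (BB G θ (bal G x R) 0 r x y ω + bI G b θ 0 r x y ω) *
            (BB G θ (bal G x R) 0 r x y ω - bI G b θ 0 r x y ω) := by ring
        have a1 := abs_le.1 (bA ω)
        have a2 := abs_le.1 (bB ω)
        rw [e, abs_mul]
        refine mul_le_mul_of_nonneg_right ?_ (abs_nonneg _)
        rw [abs_le]
        constructor <;> linarith) e1
    have e3 := inff_m2_BB hT b hb hreg θ h0 hθ h1 x y hxy (bal G x R) hW hx r hr0 hr2 hy
    have e4 := (abs_le.1 e2).1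
    have e5 : 0 ≤ (b : ℝ) * r ^ (3 / 2 : ℝ) := by positivity
    have e6 : 2 * δ = ε := by rw [hδ]; ring
    linarith
  · refine triv.trans ?_
    rw [not_and_or] at hc
    rcases hc with hc | hc
    · have hc' : 1 / 2 < r := not_le.1 hc
      have h3 : (1 / 8 : ℝ) ≤ (r ^ (3 / 2 : ℝ)) ^ 2 := by
        rw [inff_rp r hr0]
        have : (1 / 2 : ℝ) ^ 3 ≤ r ^ 3 := pow_le_pow_left₀ (by norm_num) hc'.le 3
        norm_num at this ⊢
        linarith
      have h4 : 1 / 4 ≤ r ^ (3 / 2 : ℝ) := by nlinarith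
      nlinarith
    · have hc' := not_le.1 hc
      linarith

/-- small second moments at small times -/
theorem m2_small (hT : G.IsTree) (b : ℕ) (hb : 2 ≤ b) (hreg : G.IsRegularOfDegree (b + 1)) :
    ∃ C : ℝ, 0 < C ∧ ∀ θ : ℝ, 0 ≤ θ → 1 / 2 ≤ b * θ ^ 2 → b * θ ^ 2 < 1 → ∀ (r : ℝ), 0 ≤ r → r ≤ 1 →
      ∀ v : V, ∫ ω, mI G b θ 0 r v ω ^ 2 ∂PP V ≤ C * r ^ (3 / 2 : ℝ) := by
  have hb2 : (2 : ℝ) ≤ b := by exact_mod_cast hb
  refine ⟨96 * b, by positivity, fun θ h0 hθ h1 r hr0 hr1 v => ?_⟩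
  have hκ := kp_spec hT b hb hreg 0
  obtain ⟨y, hvy⟩ : ∃ y, G.Adj v y := by
    have hd : 0 < G.degree v := by rw [hreg v]; omega
    rw [← SimpleGraph.card_neighborFinset_eq_degree, Finset.card_pos] at hd
    obtain ⟨y, hy⟩ := hd
    exact ⟨y, by simpa using hy⟩
  have hp := ifb_pair_ae hT b hb hreg θ h0 h1 0 r hr0 hr1 v y hvy
  have L1 := isLim_bI hT b hb hreg θ h0 h1 0 r hr0 hr1 v y hvy
  have L2 := isLim_bI hT b hb hreg θ h0 h1 0 r hr0 hr1 y v hvy.symm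
  have bB : ∀ ω, |bI G b θ 0 r v y ω| ≤ 1 := fun ω => (L1.2.1 ω).trans hκ.2.1.le
  have bB' : ∀ ω, |bI G b θ 0 r y v ω| ≤ 1 := fun ω => (L2.2.1 ω).trans hκ.2.1.le
  have sqb : ∀ t : ℝ, |t| ≤ 1 → |t ^ 2| ≤ 1 := fun t ht => by
    rw [abs_of_nonneg (sq_nonneg _), ← sq_abs]; nlinarith [abs_nonneg t]
  have hθ7 : θ ≤ 71 / 100 := by
    by_contra hcon
    have := not_le.1 hcon
    nlinarith
  have i1 := integrable_bdd (PP V) (L1.1.pow_const 2) 1 (fun ω => sqb _ (bB ω))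
  have i2 := integrable_bdd (PP V) (L2.1.pow_const 2) 1 (fun ω => sqb _ (bB' ω))
  have e1 := inff_m2_bI hT b hb hreg θ h0 hθ h1 v y hvy r hr0 hr1
  have e2 := inff_m2_bI hT b hb hreg θ h0 hθ h1 y v hvy.symm r hr0 hr1
  have hle : ∫ ω, mI G b θ 0 r v ω ^ 2 ∂PP V ≤
      ∫ ω, (24 * bI G b θ 0 r v y ω ^ 2 + 24 * bI G b θ 0 r y v ω ^ 2) ∂PP V := by
    refine integral_mono_of_nonneg (Filter.Eventually.of_forall fun ω => sq_nonneg _)
      ((i1.const_mul 24).add (i2.const_mul 24)) ?_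
    filter_upwards [hp] with ω hω
    rw [hω]
    set B := bI G b θ 0 r v y ω with hB
    set B' := bI G b θ 0 r y v ω with hB'
    have a1 := bB ω
    have a2 := bB' ω
    rw [← hB] at a1
    rw [← hB'] at a2
    have hprod : |B * B'| ≤ 1 := by
      rw [abs_mul]
      exact mul_le_one₀ a1 (abs_nonneg _) a2
    have hprod' := abs_le.1 hprod
    have hden : 29 / 100 ≤ 1 + θ * (B * B') := by nlinarith
    rw [div_pow, div_le_iff₀ (by positivity)]
    have h5 : (29 / 100) ^ 2 ≤ (1 + θ * (B * B')) ^ 2 := by nlinarith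
    have h6 : (B + θ * B') ^ 2 ≤ 2 * B ^ 2 + 2 * B' ^ 2 := by
      have : θ ^ 2 ≤ 1 := by nlinarith
      nlinarith [sq_nonneg (B - θ * B'), sq_nonneg B']
    have h7 : (24 * B ^ 2 + 24 * B' ^ 2) * (29 / 100) ^ 2 ≤
        (24 * B ^ 2 + 24 * B' ^ 2) * (1 + θ * (B * B')) ^ 2 :=
      mul_le_mul_of_nonneg_left h5 (by positivity)
    nlinarith [sq_nonneg B, sq_nonneg B']
  refine hle.trans ?_
  rw [integral_add (i1.const_mul 24) (i2.const_mul 24), integral_const_mul, integral_const_mul]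
  linarith

theorem inff_hp_even (p : ℕ) (M : ℝ) : hp p (-M) = hp p M := by
  unfold hp
  rw [sub_neg_eq_add, ← sub_eq_add_neg, add_comm]

theorem inff_hp_lower (p : ℕ) (M : ℝ) (hM : |M| < 1) : Real.exp (p * |M|) / 2 ≤ hp p M := by
  have key : ∀ t : ℝ, 0 ≤ t → t < 1 → Real.exp (p * t) / 2 ≤ hp p t := by
    intro t ht0 ht1
    unfold hp
    have h1 : (1 : ℝ) ≤ (1 + t) ^ (p + 1) := one_le_pow₀ (by linarith)
    have h2 : Real.exp (p * t) ≤ 1 / (1 - t) ^ p := by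
      rw [le_div_iff₀ (pow_pos (by linarith) _)]
      have h3 : 1 - t ≤ Real.exp (-t) := by linarith [Real.add_one_le_exp (-t)]
      have h4 : (1 - t) ^ p ≤ Real.exp (-t) ^ p := pow_le_pow_left₀ (by linarith) h3 p
      rw [← Real.exp_nat_mul] at h4
      calc Real.exp (p * t) * (1 - t) ^ p ≤ Real.exp (p * t) * Real.exp (p * -t) :=
            mul_le_mul_of_nonneg_left h4 (Real.exp_pos _).le
        _ = 1 := by rw [← Real.exp_add]; simp
    have h5 : 1 / (1 - t) ^ p ≤ (1 + t) ^ (p + 1) / (1 - t) ^ p :=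
      div_le_div_of_nonneg_right h1 (pow_nonneg (by linarith) _)
    have h6 : 0 ≤ (1 - t) ^ (p + 1) / (1 + t) ^ p :=
      div_nonneg (pow_nonneg (by linarith) _) (pow_nonneg (by linarith) _)
    linarith
  rcases le_total 0 M with h | h
  · rw [abs_of_nonneg h] at hM ⊢
    exact key M h hM
  · rw [abs_of_nonpos h] at hM ⊢
    rw [← inff_hp_even]
    exact key (-M) (by linarith) hM

theorem inff_measurable_hp (p : ℕ) : Measurable (hp p) := by
  unfold hp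
  fun_prop

theorem inff_hp_bdd (p : ℕ) (κ : ℝ) (h0 : 0 < κ) (h1 : κ < 1) (M : ℝ) (hM : |M| ≤ κ) :
    |hp p M| ≤ 2 ^ (p + 1) / (1 - κ) ^ p := by
  obtain ⟨a1, a2⟩ := abs_le.1 hM
  have hk : 0 < 1 - κ := by linarith
  have h2 : 0 < 1 - M := by linarith
  have h3 : 0 < 1 + M := by linarith
  have e1 : (1 + M) ^ (p + 1) / (1 - M) ^ p ≤ 2 ^ (p + 1) / (1 - κ) ^ p :=
    div_le_div₀ (by positivity) (pow_le_pow_left₀ h3.le (by linarith) _) (by positivity)
      (pow_le_pow_left₀ hk.le (by linarith) _)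
  have e2 : (1 - M) ^ (p + 1) / (1 + M) ^ p ≤ 2 ^ (p + 1) / (1 - κ) ^ p :=
    div_le_div₀ (by positivity) (pow_le_pow_left₀ h2.le (by linarith) _) (by positivity)
      (pow_le_pow_left₀ hk.le (by linarith) _)
  have e3 : 0 ≤ hp p M := by unfold hp; positivity
  rw [abs_of_nonneg e3]
  unfold hp
  linarith

/-- tails of the window messages -/
theorem inff_tail_BB (hT : G.IsTree) (b : ℕ) (hb : 2 ≤ b) (hreg : G.IsRegularOfDegree (b + 1)) (θ : ℝ)
    (h0 : 0 ≤ θ) (hθ : 1 / 2 ≤ (b : ℝ) * θ ^ 2) (h1 : (b : ℝ) * θ ^ 2 < 1) (x y : V) (hxy : G.Adj x y)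
    (W : Finset V) (hW : Win G W) (hx : x ∈ W) (r : ℝ) (hr0 : 0 ≤ r) (hr1 : r ≤ 1 / 2)
    (hy : (b : ℝ) * r ^ (3 / 2 : ℝ) / 3 ≤ 1) (p : ℕ) (hpr : ((p : ℝ) + 1) * r ≤ 1)
    (hsmall : 4 * ((p : ℝ) + 1) * p * ((b : ℝ) * r ^ (3 / 2 : ℝ) / 3) + ((p : ℝ) + 1) ^ 2 * r ^ 3 ≤ 1 / 10)
    (a : ℝ) :
    (PP V).real {ω | a < |BB G θ W 0 r x y ω|} ≤ 4 * Real.exp (-(p * a)) := by
  have hκ := kp_spec hT b hb hreg 0
  have hA := win_sd hT hW hx hxy
  have hxA := mem_sd_self hx hxy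
  have hr32 : 0 ≤ r ^ (3 / 2 : ℝ) := Real.rpow_nonneg hr0 _
  have q := inff_even hT b hb hreg θ h0 h1 0 x y hxy W hW hx r (hp p) (inff_measurable_hp p)
    (inff_hp_even p) _ (inff_hp_bdd p (kp G b 0) hκ.1 hκ.2.1)
  have q2 := hp_upper (raw_LData (V := V) 0 r) hT b hb hreg θ h0 h1.le (r ^ 3 / 36)
    ((b : ℝ) * r ^ (3 / 2 : ℝ) / 3) (by positivity) hy (by positivity) (inff_y b θ hθ r hr0)
    (raw_s_zero r hr0 hr1) p (((p : ℝ) + 1) ^ 2 * r ^ 3) (by positivity)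
    (raw_x_zero r hr0 hr1 p hpr) hsmall _ x hA hxA ⟨y, hxy, plb_notMem_sd hxy⟩
  rw [← q] at q2
  have mA : Measurable (BB G θ W 0 r x y) := infe_measurable_BB θ _ 0 r x y
  have bA : ∀ ω, |BB G θ W 0 r x y ω| ≤ kp G b 0 := fun ω =>
    (abs_BB_le hT b hb hreg 0 θ h0 h1.le _ hW r x y hx hxy ω)
  have hint : Integrable (fun ω => hp p (BB G θ W 0 r x y ω)) (PP V) :=
    integrable_bdd _ ((inff_measurable_hp p).comp mA) _ (fun ω => inff_hp_bdd p _ hκ.1 hκ.2.1 _ (bA ω))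
  have hnn : 0 ≤ᵐ[PP V] fun ω => hp p (BB G θ W 0 r x y ω) := by
    refine Filter.Eventually.of_forall fun ω => ?_
    have := inff_hp_lower p _ ((bA ω).trans_lt hκ.2.1)
    have h9 := Real.exp_pos (p * |BB G θ W 0 r x y ω|)
    show 0 ≤ hp p (BB G θ W 0 r x y ω)
    linarith
  have mk := mul_meas_ge_le_integral_of_nonneg hnn hint (Real.exp (p * a) / 2)
  have hsub : {ω | a < |BB G θ W 0 r x y ω|} ⊆
      {ω | Real.exp (p * a) / 2 ≤ hp p (BB G θ W 0 r x y ω)} := by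
    intro ω hω
    simp only [Set.mem_setOf_eq] at hω ⊢
    refine le_trans ?_ (inff_hp_lower p _ ((bA ω).trans_lt hκ.2.1))
    have : Real.exp (p * a) ≤ Real.exp (p * |BB G θ W 0 r x y ω|) :=
      Real.exp_le_exp.2 (mul_le_mul_of_nonneg_left hω.le (Nat.cast_nonneg _))
    linarith
  have hle := measureReal_mono (μ := PP V) hsub
  have h10 : (PP V).real {ω | a < |BB G θ W 0 r x y ω|} * (Real.exp (p * a) / 2) ≤ 2 := by
    have h11 : 0 < Real.exp (p * a) / 2 := by positivity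
    have h12 := mul_le_mul_of_nonneg_right hle h11.le
    rw [mul_comm] at mk
    exact (h12.trans mk).trans q2
  have h13 : Real.exp (-(p * a)) = 1 / Real.exp (p * a) := by rw [Real.exp_neg]; simp
  rw [h13, mul_one_div, le_div_iff₀ (Real.exp_pos _)]
  linarith

set_option maxHeartbeats 1000000 in
/-- tails of the messages at small times -/
theorem tail_small (hT : G.IsTree) (b : ℕ) (hb : 2 ≤ b) (hreg : G.IsRegularOfDegree (b + 1)) :
    ∃ C c : ℝ, 0 < C ∧ 0 < c ∧ ∀ θ : ℝ, 0 ≤ θ → 1 / 2 ≤ b * θ ^ 2 → b * θ ^ 2 < 1 →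
      ∀ (r : ℝ), 0 < r → r ≤ 1 → ∀ x y : V, G.Adj x y →
        (PP V).real {ω | r ^ (1 / 4 : ℝ) < |bI G b θ 0 r x y ω|} ≤
          C * Real.exp (-c * r ^ (-(1 / 4) : ℝ)) := by
  have hb2 : (2 : ℝ) ≤ b := by exact_mod_cast hb
  have hb0 : (0 : ℝ) < b := by linarith
  refine ⟨4, 1 / (40 * b), by norm_num, by positivity, fun θ h0 hθ h1 r hr0 hr1 x y hxy => ?_⟩
  -- s = r^{1/4}
  set s : ℝ := r ^ (1 / 4 : ℝ) with hs
  have hs0 : 0 < s := Real.rpow_pos_of_pos hr0 _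
  have hs1 : s ≤ 1 := Real.rpow_le_one hr0.le hr1 (by norm_num)
  have hs4 : s ^ 4 = r := by
    rw [hs, ← Real.rpow_natCast, ← Real.rpow_mul hr0.le]; norm_num
  have hs6 : r ^ (3 / 2 : ℝ) = s ^ 6 := by
    rw [hs, ← Real.rpow_natCast, ← Real.rpow_mul hr0.le]; norm_num
  have hsn : r ^ (-(1 / 4) : ℝ) = 1 / s := by
    rw [Real.rpow_neg hr0.le, hs]; simp
  rw [hsn]
  by_cases hc : 10 * b * s ^ 3 ≤ 1
  · -- small r
    have hs3 : 0 < 10 * (b : ℝ) * s ^ 3 := by positivity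
    set u : ℝ := 1 / (10 * b * s ^ 3) with hu
    have hu1 : 1 ≤ u := by rw [hu, le_div_iff₀ hs3]; linarith
    have hus : u * s ^ 3 = 1 / (10 * b) := by rw [hu]; field_simp
    set p : ℕ := ⌊u⌋₊ with hp
    have hp1 : (p : ℝ) ≤ u := Nat.floor_le (by linarith)
    have hp2 : u < (p : ℝ) + 1 := Nat.lt_floor_add_one u
    have hp0 : (1 : ℝ) ≤ p := by
      have : 1 ≤ ⌊u⌋₊ := Nat.le_floor (by simpa using hu1)
      exact_mod_cast this
    have hpu : (p : ℝ) + 1 ≤ 2 * u := by linarith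
    have hup : u / 2 ≤ p := by linarith
    have h10b : 1 / (10 * (b : ℝ)) ≤ 1 / 20 := by
      rw [div_le_div_iff₀ (by positivity) (by norm_num)]; linarith
    have h10p : 0 < 1 / (10 * (b : ℝ)) := by positivity
    have hs3' : s ^ 3 ≤ 1 / 20 := by
      have : s ^ 3 ≤ u * s ^ 3 := by nlinarith [pow_pos hs0 3]
      linarith
    have hr2 : r ≤ 1 / 2 := by
      rw [← hs4]
      have : s ^ 4 = s * s ^ 3 := by ring
      rw [this]
      nlinarith [pow_pos hs0 3]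
    have hb1 : (b : ℝ) * s ^ 3 ≤ 1 / 10 := by linarith
    have hy : (b : ℝ) * r ^ (3 / 2 : ℝ) / 3 ≤ 1 := by
      rw [hs6]
      have : (b : ℝ) * s ^ 6 = (b * s ^ 3) * s ^ 3 := by ring
      rw [this]
      nlinarith [pow_pos hs0 3]
    have hpr : ((p : ℝ) + 1) * r ≤ 1 := by
      rw [← hs4]
      have e : (2 * u) * s ^ 4 = 2 * (u * s ^ 3) * s := by ring
      have : ((p : ℝ) + 1) * s ^ 4 ≤ (2 * u) * s ^ 4 := mul_le_mul_of_nonneg_right hpu (by positivity)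
      rw [e, hus] at this
      nlinarith
    have hsm : 4 * ((p : ℝ) + 1) * p * ((b : ℝ) * r ^ (3 / 2 : ℝ) / 3) + ((p : ℝ) + 1) ^ 2 * r ^ 3 ≤
        1 / 10 := by
      rw [hs6, ← hs4]
      have e1 : 4 * ((p : ℝ) + 1) * p * ((b : ℝ) * s ^ 6 / 3) ≤ 4 * (2 * u) * u * ((b : ℝ) * s ^ 6 / 3) := by
        refine mul_le_mul_of_nonneg_right ?_ (by positivity)
        have : ((p : ℝ) + 1) * p ≤ 2 * u * u := mul_le_mul hpu hp1 (by positivity) (by positivity)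
        linarith
      have e2 : 4 * (2 * u) * u * ((b : ℝ) * s ^ 6 / 3) = 8 / 3 * b * (u * s ^ 3) ^ 2 := by ring
      have e3 : 8 / 3 * (b : ℝ) * (u * s ^ 3) ^ 2 ≤ 1 / 20 := by
        rw [hus]
        have : 8 / 3 * (b : ℝ) * (1 / (10 * b)) ^ 2 = 8 / 300 * (1 / b) := by field_simp; norm_num
        rw [this]
        have : 1 / (b : ℝ) ≤ 1 / 2 := one_div_le_one_div_of_le (by norm_num) hb2
        linarith
      have e4 : ((p : ℝ) + 1) ^ 2 * (s ^ 4) ^ 3 ≤ (2 * u) ^ 2 * (s ^ 4) ^ 3 :=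
        mul_le_mul_of_nonneg_right (pow_le_pow_left₀ (by positivity) hpu 2) (by positivity)
      have e5 : (2 * u) ^ 2 * (s ^ 4) ^ 3 = 4 * (u * s ^ 3) ^ 2 * s ^ 6 := by ring
      have e6 : 4 * (u * s ^ 3) ^ 2 * s ^ 6 ≤ 1 / 20 := by
        rw [hus]
        have h7 : s ^ 6 ≤ 1 := pow_le_one₀ hs0.le hs1
        have h8 : 0 ≤ s ^ 6 := by positivity
        have h9 : (1 / (10 * (b : ℝ))) ^ 2 ≤ (1 / 20) ^ 2 := pow_le_pow_left₀ h10p.le h10b 2
        nlinarith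
      linarith
    have hκ := kp_spec hT b hb hreg 0
    have L := isLim_bI hT b hb hreg θ h0 h1 0 r hr0.le hr1 x y hxy
    have mB : Measurable (bI G b θ 0 r x y) := L.1
    have bB : ∀ ω, |bI G b θ 0 r x y ω| ≤ 1 := fun ω => (L.2.1 ω).trans hκ.2.1.le
    refine le_of_forall_pos_le_add fun ε hε => ?_
    obtain ⟨R, hR⟩ := L.2.2 (ε * (s / 2) ^ 2) (by positivity)
    have hx : x ∈ bal G x R := by
      rw [mem_bal hT]; simp
    have hW := win_bal hT x R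
    have e1 := hR (bal G x R) hW (Finset.Subset.refl _)
    have mA : Measurable (BB G θ (bal G x R) 0 r x y) := infe_measurable_BB θ _ 0 r x y
    have bA : ∀ ω, |BB G θ (bal G x R) 0 r x y ω| ≤ 1 := fun ω =>
      (abs_BB_le hT b hb hreg 0 θ h0 h1.le _ hW r x y hx hxy ω).trans hκ.2.1.le
    have i1 : Integrable (fun ω => (BB G θ (bal G x R) 0 r x y ω - bI G b θ 0 r x y ω) ^ 2) (PP V) :=
      integrable_bdd _ ((mA.sub mB).pow_const 2) 4 (fun ω => by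
        have a1 := abs_le.1 (bA ω)
        have a2 := abs_le.1 (bB ω)
        rw [abs_of_nonneg (sq_nonneg _)]
        nlinarith)
    have mk := mul_meas_ge_le_integral_of_nonneg (μ := PP V)
      (Filter.Eventually.of_forall fun ω =>
        sq_nonneg (BB G θ (bal G x R) 0 r x y ω - bI G b θ 0 r x y ω)) i1 ((s / 2) ^ 2)
    have t1 := inff_tail_BB hT b hb hreg θ h0 hθ h1 x y hxy (bal G x R) hW hx r hr0.le hr2 hy p hpr hsm
      (s / 2)
    have hsub : {ω | s < |bI G b θ 0 r x y ω|} ⊆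
        {ω | s / 2 < |BB G θ (bal G x R) 0 r x y ω|} ∪
        {ω | (s / 2) ^ 2 ≤ (BB G θ (bal G x R) 0 r x y ω - bI G b θ 0 r x y ω) ^ 2} := by
      intro ω hω
      simp only [Set.mem_setOf_eq, Set.mem_union] at hω ⊢
      by_contra hcon
      push_neg at hcon
      obtain ⟨c1, c2⟩ := hcon
      have c3 := abs_lt_of_sq_lt_sq c2 (by positivity)
      have c4 : |bI G b θ 0 r x y ω| ≤ |BB G θ (bal G x R) 0 r x y ω| +
          |BB G θ (bal G x R) 0 r x y ω - bI G b θ 0 r x y ω| := by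
        have := abs_sub_abs_le_abs_sub (bI G b θ 0 r x y ω) (BB G θ (bal G x R) 0 r x y ω)
        rw [abs_sub_comm] at this
        linarith
      linarith
    have m1 := measureReal_mono (μ := PP V) hsub
    have m2 := measureReal_union_le (μ := PP V) {ω | s / 2 < |BB G θ (bal G x R) 0 r x y ω|}
      {ω | (s / 2) ^ 2 ≤ (BB G θ (bal G x R) 0 r x y ω - bI G b θ 0 r x y ω) ^ 2}
    have m3 : (PP V).real {ω | (s / 2) ^ 2 ≤
        (BB G θ (bal G x R) 0 r x y ω - bI G b θ 0 r x y ω) ^ 2} ≤ ε := by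
      have h14 : 0 < (s / 2) ^ 2 := by positivity
      have h15 := mk.trans e1
      rw [mul_comm] at h15
      exact le_of_mul_le_mul_right h15 h14
    have t2 : Real.exp (-(p * (s / 2))) ≤ Real.exp (-(1 / (40 * (b : ℝ))) * (1 / s)) := by
      apply Real.exp_le_exp.2
      have h16 : 1 / (40 * (b : ℝ)) * (1 / s) ≤ p * (s / 2) := by
        have h17 : u / 2 * (s / 2) ≤ p * (s / 2) := mul_le_mul_of_nonneg_right hup (by positivity)
        refine le_trans ?_ h17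
        have h18 : u / 2 * (s / 2) = 1 / (40 * (b : ℝ)) * (1 / s) * (1 / s) := by
          rw [hu]; field_simp; norm_num
        rw [h18]
        have h19 : 1 ≤ 1 / s := by rw [le_div_iff₀ hs0]; linarith
        have h20 : 0 ≤ 1 / (40 * (b : ℝ)) * (1 / s) := by positivity
        nlinarith
      linarith
    linarith
  · -- large r
    have hc' := not_le.1 hc
    have h2 : (PP V).real {ω | s < |bI G b θ 0 r x y ω|} ≤ 1 := measureReal_le_one
    refine h2.trans ?_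
    have h3 : 1 / s ≤ 10 * b := by
      rw [div_le_iff₀ hs0]
      have : s ^ 3 ≤ s := by
        have : s ^ 2 ≤ 1 := pow_le_one₀ hs0.le hs1
        nlinarith
      nlinarith
    have h4 : -(1 / 4) ≤ -(1 / (40 * (b : ℝ))) * (1 / s) := by
      have h5 : 1 / (40 * (b : ℝ)) * (1 / s) ≤ 1 / (40 * (b : ℝ)) * (10 * b) :=
        mul_le_mul_of_nonneg_left h3 (by positivity)
      have h6 : 1 / (40 * (b : ℝ)) * (10 * b) = 1 / 4 := by field_simp; norm_num
      linarith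
    have h7 := Real.exp_le_exp.2 h4
    have h8 := Real.add_one_le_exp (-(1 / 4) : ℝ)
    linarith

end INF

end Crest.Agent.TI
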