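import Crest.Agent.TI_InfB
import Crest.Agent.TI_InfE
import Crest.Agent.TI_InfF
import Crest.Agent.TI_FldA

/-!
Row S0241, task CritA: the inequalities for the mean square difference of two subcritical fields
-/

set_option autoImplicit false
set_option linter.unusedSectionVars false
set_option linter.unusedVariables false

namespace Crest.Agent.TI

open MeasureTheory Filter Topology
open Crest.Agent.SRF (Lab lab)


section CRIT

variable {V : Type*} [DecidableEq V] {G : SimpleGraph V} [G.LocallyFinite]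

/-- mean square difference -/
noncomputable def Zf (G : SimpleGraph V) [G.LocallyFinite] (b : ℕ) (θ θ' : ℝ) (k : ℕ) (v : V) : ℝ → ℝ :=
  Set.indicator (Set.Icc (0 : ℝ) 1)
    (fun r => ∫ ω, (mI G b θ k r v ω - mI G b θ' k r v ω) ^ 2 ∂PP V)

/-- mean of the logarithmic factor -/
noncomputable def af (G : SimpleGraph V) [G.LocallyFinite] (b : ℕ) (θ : ℝ) (k : ℕ) (x y : V) (r : ℝ) : ℝ :=
  ∫ ω, ff θ (bI G b θ k r x y ω) ∂PP V

/-- error term -/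
noncomputable def muf (G : SimpleGraph V) [G.LocallyFinite] (b : ℕ) (θ θ' : ℝ) (k : ℕ) (x y : V) : ℝ → ℝ :=
  fun r => Set.indicator (Set.Icc (0 : ℝ) 1) (fun r => (af G b θ k x y r - af G b θ' k x y r) ^ 2) r +
    (θ - θ') ^ 2

/-- elementary bounds on the fields (valid also in the `else` branches) -/
theorem critA_kp (hT : G.IsTree) (b : ℕ) (hb : 2 ≤ b) (hreg : G.IsRegularOfDegree (b + 1)) (k : ℕ) :
    0 < kp G b k ∧ kp G b k < 1 :=
  ⟨(kp_spec hT b hb hreg k).1, (kp_spec hT b hb hreg k).2.1⟩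

theorem critA_mI {b k : ℕ} (hκ : 0 ≤ kp G b k) (θ r : ℝ) (v : V) :
    Measurable (mI G b θ k r v) ∧ ∀ ω, |mI G b θ k r v ω| ≤ kp G b k := by
  classical
  unfold mI
  split_ifs with h
  · exact ⟨h.choose_spec.1, h.choose_spec.2.1⟩
  · exact ⟨measurable_const, fun ω => by simpa using hκ⟩

theorem critA_bI {b k : ℕ} (hκ : 0 ≤ kp G b k) (θ r : ℝ) (x y : V) :
    Measurable (bI G b θ k r x y) ∧ ∀ ω, |bI G b θ k r x y ω| ≤ kp G b k := by
  classical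
  unfold bI
  split_ifs with h
  · exact ⟨h.choose_spec.1, h.choose_spec.2.1⟩
  · exact ⟨measurable_const, fun ω => by simpa using hκ⟩

theorem critA_th {b : ℕ} (hb : 2 ≤ b) {θ : ℝ} (h0 : 0 ≤ θ) (h1 : b * θ ^ 2 ≤ 1) : θ ≤ 1 := by
  have hb' : (2 : ℝ) ≤ b := by exact_mod_cast hb
  nlinarith [sq_nonneg θ]

theorem critA_ff {θ κ B : ℝ} (h0 : 0 ≤ θ) (h1 : θ ≤ 1) (hκ0 : 0 ≤ κ) (hκ : κ < 1) (hB : |B| ≤ κ) :
    |ff θ B| ≤ Real.log (1 / (1 - κ ^ 2)) := by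
  have hB2 : B ^ 2 ≤ κ ^ 2 := sq_le_sq' (by linarith [neg_le_of_abs_le hB]) (le_of_abs_le hB)
  have hκ2 : κ ^ 2 < 1 := by nlinarith
  have hθ2 : θ ^ 2 ≤ 1 := by nlinarith
  have hp : 0 < 1 - B ^ 2 := by linarith
  have hθB : θ ^ 2 * B ^ 2 ≤ B ^ 2 := by nlinarith [sq_nonneg B]
  have hθB0 : 0 ≤ θ ^ 2 * B ^ 2 := by positivity
  unfold ff
  have h1' : 1 ≤ (1 - θ ^ 2 * B ^ 2) / (1 - B ^ 2) := by
    rw [le_div_iff₀ hp]; linarith
  rw [abs_of_nonneg (Real.log_nonneg h1')]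
  apply Real.log_le_log (by linarith)
  rw [div_le_div_iff₀ hp (by linarith)]
  nlinarith

theorem critA_sq {f : Om V → ℝ} {κ : ℝ} (hf : Measurable f) (hfb : ∀ ω, |f ω| ≤ κ) :
    Integrable (fun ω => f ω ^ 2) (PP V) := by
  refine Integrable.of_bound (hf.pow_const 2).aestronglyMeasurable (κ ^ 2) (ae_of_all _ fun ω => ?_)
  rw [Real.norm_eq_abs, abs_pow]
  exact pow_le_pow_left₀ (abs_nonneg _) (hfb ω) 2

theorem measurable_Zf (hT : G.IsTree) (b : ℕ) (hb : 2 ≤ b) (hreg : G.IsRegularOfDegree (b + 1))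
    (θ θ' : ℝ) (h0 : 0 ≤ θ) (h1 : b * θ ^ 2 < 1) (h0' : 0 ≤ θ') (h1' : b * θ' ^ 2 < 1) (k : ℕ) (v : V) :
    Measurable (Zf G b θ θ' k v) :=
  measurable_Zr hT b hb hreg θ θ' h0 h1 h0' h1' k v

theorem measurable_muf (hT : G.IsTree) (b : ℕ) (hb : 2 ≤ b) (hreg : G.IsRegularOfDegree (b + 1))
    (θ θ' : ℝ) (h0 : 0 ≤ θ) (h1 : b * θ ^ 2 < 1) (h0' : 0 ≤ θ') (h1' : b * θ' ^ 2 < 1) (k : ℕ)
    (x y : V) (hxy : G.Adj x y) : Measurable (muf G b θ θ' k x y) := by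
  have key : ∀ t : ℝ, 0 ≤ t → b * t ^ 2 < 1 →
      Measurable (fun r : ℝ => af G b t k x y (max 0 (min r 1))) := by
    intro t ht0 ht1
    have hm := ar_mono hT b hb hreg t ht0 ht1 k x y hxy
    apply Monotone.measurable
    intro r s hrs
    exact hm ⟨le_max_left _ _, max_le zero_le_one (min_le_right _ _)⟩
      ⟨le_max_left _ _, max_le zero_le_one (min_le_right _ _)⟩
      (max_le_max le_rfl (min_le_min hrs le_rfl))
  have e : muf G b θ θ' k x y = fun r => Set.indicator (Set.Icc (0 : ℝ) 1)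
      (fun r => (af G b θ k x y (max 0 (min r 1)) - af G b θ' k x y (max 0 (min r 1))) ^ 2) r +
      (θ - θ') ^ 2 := by
    funext r
    unfold muf
    congr 1
    by_cases hr : r ∈ Set.Icc (0 : ℝ) 1
    · rw [Set.indicator_of_mem hr, Set.indicator_of_mem hr, min_eq_left hr.2, max_eq_right hr.1]
    · rw [Set.indicator_of_notMem hr, Set.indicator_of_notMem hr]
  rw [e]
  exact ((((key θ h0 h1).sub (key θ' h0' h1')).pow_const 2).indicator measurableSet_Icc).add_const _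

theorem Zf_bound (hT : G.IsTree) (b : ℕ) (hb : 2 ≤ b) (hreg : G.IsRegularOfDegree (b + 1))
    (θ θ' : ℝ) (k : ℕ) (v : V) (r : ℝ) : 0 ≤ Zf G b θ θ' k v r ∧ Zf G b θ θ' k v r ≤ 4 := by
  have hκ := critA_kp hT b hb hreg k
  unfold Zf
  by_cases hr : r ∈ Set.Icc (0 : ℝ) 1
  · rw [Set.indicator_of_mem hr]
    refine ⟨integral_nonneg fun ω => sq_nonneg _, ?_⟩
    have h := norm_integral_le_of_norm_le_const (μ := PP V) (C := 4)
      (f := fun ω => (mI G b θ k r v ω - mI G b θ' k r v ω) ^ 2) (ae_of_all _ fun ω => ?_)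
    · rw [probReal_univ, mul_one] at h
      exact (le_abs_self _).trans h
    · have h1 := (critA_mI hκ.1.le θ r v).2 ω
      have h2 := (critA_mI hκ.1.le θ' r v).2 ω
      rw [Real.norm_eq_abs, abs_of_nonneg (sq_nonneg _)]
      have h3 := abs_le.1 (h1.trans hκ.2.le)
      have h4 := abs_le.1 (h2.trans hκ.2.le)
      nlinarith [h3.1, h3.2, h4.1, h4.2]
  · rw [Set.indicator_of_notMem hr]
    norm_num

/-- the means of the logarithmic factors are bounded, uniformly in `θ` -/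
theorem af_bound (hT : G.IsTree) (b : ℕ) (hb : 2 ≤ b) (hreg : G.IsRegularOfDegree (b + 1)) (k : ℕ) :
    ∃ C : ℝ, 0 < C ∧ ∀ (θ : ℝ) (x y : V) (r : ℝ), 0 ≤ θ → b * θ ^ 2 ≤ 1 → |af G b θ k x y r| ≤ C := by
  have hκ := critA_kp hT b hb hreg k
  have hκ2 : kp G b k ^ 2 < 1 := by nlinarith
  refine ⟨Real.log (1 / (1 - kp G b k ^ 2)), Real.log_pos ?_, fun θ x y r h0 h1 => ?_⟩
  · rw [lt_div_iff₀ (by linarith)]
    nlinarith [sq_pos_of_pos hκ.1]
  · unfold af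
    have h := norm_integral_le_of_norm_le_const (μ := PP V) (C := Real.log (1 / (1 - kp G b k ^ 2)))
      (f := fun ω => ff θ (bI G b θ k r x y ω)) (ae_of_all _ fun ω => ?_)
    · rw [probReal_univ, mul_one] at h
      exact h
    · rw [Real.norm_eq_abs]
      exact critA_ff h0 (critA_th hb h0 h1) hκ.1.le hκ.2 ((critA_bI hκ.1.le θ r x y).2 ω)

theorem muf_bound (hT : G.IsTree) (b : ℕ) (hb : 2 ≤ b) (hreg : G.IsRegularOfDegree (b + 1)) (k : ℕ) :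
    ∃ C : ℝ, 0 < C ∧ ∀ (θ θ' : ℝ) (x y : V) (r : ℝ), 0 ≤ θ → b * θ ^ 2 ≤ 1 → 0 ≤ θ' → b * θ' ^ 2 ≤ 1 →
      0 ≤ muf G b θ θ' k x y r ∧ muf G b θ θ' k x y r ≤ C := by
  obtain ⟨C, hC, hA⟩ := af_bound hT b hb hreg k
  refine ⟨(2 * C) ^ 2 + 1, by positivity, fun θ θ' x y r h0 h1 h0' h1' => ?_⟩
  have e1 := abs_le.1 (hA θ x y r h0 h1)
  have e2 := abs_le.1 (hA θ' x y r h0' h1')
  have t1 := critA_th hb h0 h1
  have t2 := critA_th hb h0' h1'
  unfold muf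
  have hθ : (θ - θ') ^ 2 ≤ 1 := by nlinarith
  have hi : 0 ≤ Set.indicator (Set.Icc (0 : ℝ) 1)
      (fun r => (af G b θ k x y r - af G b θ' k x y r) ^ 2) r ∧
      Set.indicator (Set.Icc (0 : ℝ) 1)
      (fun r => (af G b θ k x y r - af G b θ' k x y r) ^ 2) r ≤ (2 * C) ^ 2 := by
    by_cases hr : r ∈ Set.Icc (0 : ℝ) 1
    · rw [Set.indicator_of_mem hr]
      refine ⟨sq_nonneg _, ?_⟩
      apply sq_le_sq' <;> linarith [e1.1, e1.2, e2.1, e2.2]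
    · rw [Set.indicator_of_notMem hr]
      exact ⟨le_rfl, by positivity⟩
  exact ⟨add_nonneg hi.1 (sq_nonneg _), add_le_add hi.2 hθ⟩

/-- small times -/
theorem Zf_small (hT : G.IsTree) (b : ℕ) (hb : 2 ≤ b) (hreg : G.IsRegularOfDegree (b + 1)) :
    ∃ C : ℝ, 0 < C ∧ ∀ θ θ' : ℝ, 0 ≤ θ → 1 / 2 ≤ b * θ ^ 2 → b * θ ^ 2 < 1 → 0 ≤ θ' →
      1 / 2 ≤ b * θ' ^ 2 → b * θ' ^ 2 < 1 → ∀ (v : V) (r : ℝ), r ∈ Set.Icc (0 : ℝ) 1 →
      Zf G b θ θ' 0 v r ≤ C * r ^ (3 / 2 : ℝ) := by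
  obtain ⟨C, hC, hA⟩ := m2_small hT b hb hreg
  refine ⟨4 * C, by positivity, fun θ θ' h0 hh h1 h0' hh' h1' v r hr => ?_⟩
  have hκ := critA_kp hT b hb hreg 0
  have m1 := critA_mI hκ.1.le θ r v
  have m2 := critA_mI hκ.1.le θ' r v
  have i1 := critA_sq m1.1 m1.2
  have i2 := critA_sq m2.1 m2.2
  have a1 := hA θ h0 hh h1 r hr.1 hr.2 v
  have a2 := hA θ' h0' hh' h1' r hr.1 hr.2 v
  unfold Zf
  rw [Set.indicator_of_mem hr]
  calc ∫ ω, (mI G b θ 0 r v ω - mI G b θ' 0 r v ω) ^ 2 ∂PP V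
      ≤ ∫ ω, (2 * mI G b θ 0 r v ω ^ 2 + 2 * mI G b θ' 0 r v ω ^ 2) ∂PP V := by
        apply integral_mono_of_nonneg (ae_of_all _ fun ω => sq_nonneg _)
          ((i1.const_mul 2).add (i2.const_mul 2)) (ae_of_all _ fun ω => ?_)
        change (mI G b θ 0 r v ω - mI G b θ' 0 r v ω) ^ 2 ≤
          2 * mI G b θ 0 r v ω ^ 2 + 2 * mI G b θ' 0 r v ω ^ 2
        nlinarith [sq_nonneg (mI G b θ 0 r v ω + mI G b θ' 0 r v ω)]
    _ = 2 * (∫ ω, mI G b θ 0 r v ω ^ 2 ∂PP V) + 2 * ∫ ω, mI G b θ' 0 r v ω ^ 2 ∂PP V := by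
        rw [integral_add (i1.const_mul 2) (i2.const_mul 2), integral_const_mul, integral_const_mul]
    _ ≤ 4 * C * r ^ (3 / 2 : ℝ) := by linarith

end CRIT

end Crest.Agent.TI
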