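import Crest.Agent.TI_RAc

/-!
Row S0241, task OdeA: the scalar inequality in stage 0 (pure real analysis)
-/

set_option autoImplicit false
set_option linter.unusedSectionVars false
set_option linter.unusedVariables false

namespace Crest.Agent.TI

open MeasureTheory Filter Topology
open Crest.Agent.SRF (Lab lab)


theorem odeA_integrable (f : ℝ → ℝ) (a b M : ℝ) (hab : a ≤ b) (hf : Measurable f)
    (hM : ∀ r ∈ Set.Icc a b, |f r| ≤ M) : IntervalIntegrable f volume a b := by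
  rw [intervalIntegrable_iff_integrableOn_Ioc_of_le hab]
  apply Measure.integrableOn_of_bounded (M := M)
  · simp
  · exact hf.aestronglyMeasurable
  · rw [ae_restrict_iff' measurableSet_Ioc]
    refine Filter.Eventually.of_forall fun x hx => ?_
    rw [Real.norm_eq_abs]
    exact hM x ⟨hx.1.le, hx.2⟩

theorem odeA_gron_step (Z μ F A : ℝ → ℝ) (a T C B D ε : ℝ) (ha : 0 ≤ a) (haT : a ≤ T) (hT : T ≤ 1)
    (hC : 0 ≤ C) (hB : 0 ≤ B) (hD : 0 ≤ D)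
    (hZm : Measurable Z) (hμm : Measurable μ) (hFm : Measurable F)
    (hZ : ∀ r ∈ Set.Icc (0 : ℝ) 1, 0 ≤ Z r ∧ Z r ≤ 4)
    (hμ : ∀ r ∈ Set.Icc (0 : ℝ) 1, 0 ≤ μ r ∧ μ r ≤ C)
    (hμi : (∫ r in (0 : ℝ)..1, μ r) ≤ ε)
    (hA : ContinuousOn A (Set.Icc a T)) (hA0 : ∀ r ∈ Set.Icc a T, 0 ≤ A r)
    (hF0 : ∀ r ∈ Set.Icc a T, 0 ≤ F r)
    (hF : ∀ r ∈ Set.Icc a T, F r ≤ A r * Z r + B * μ r + D)
    (hZt : ∀ t ∈ Set.Icc a T, Z t ≤ Z a + ∫ r in a..t, F r) :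
    ∀ t ∈ Set.Icc a T, Z t ≤ (Z a + B * ε + D) * Real.exp (∫ r in a..t, A r) := by
  have hsub : ∀ r ∈ Set.Icc a T, r ∈ Set.Icc (0 : ℝ) 1 := fun r hr => ⟨ha.trans hr.1, hr.2.trans hT⟩
  have hμ01 : IntervalIntegrable μ volume 0 1 := by
    apply odeA_integrable μ 0 1 C zero_le_one hμm
    intro r hr
    rw [abs_of_nonneg (hμ r hr).1]; exact (hμ r hr).2
  have hε : 0 ≤ ε := le_trans (intervalIntegral.integral_nonneg zero_le_one
    (fun r hr => (hμ r hr).1)) hμi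
  have hc : 0 ≤ Z a + B * ε + D := by
    have := (hZ a (hsub a ⟨le_refl _, haT⟩)).1
    positivity
  apply gronwall_int Z A a T (Z a + B * ε + D) 4 haT hc hA hA0 hZm
    (fun r hr => (hZ r (hsub r hr)).1) (fun r hr => (hZ r (hsub r hr)).2)
  intro t ht
  have hsubt : ∀ r ∈ Set.Icc a t, r ∈ Set.Icc a T := fun r hr => ⟨hr.1, hr.2.trans ht.2⟩
  have hZi : IntervalIntegrable Z volume a t := by
    apply odeA_integrable Z a t 4 ht.1 hZm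
    intro r hr
    have := hZ r (hsub r (hsubt r hr))
    rw [abs_of_nonneg this.1]; exact this.2
  have hμt : IntervalIntegrable μ volume a t := by
    apply odeA_integrable μ a t C ht.1 hμm
    intro r hr
    have := hμ r (hsub r (hsubt r hr))
    rw [abs_of_nonneg this.1]; exact this.2
  have hAZ : IntervalIntegrable (fun r => A r * Z r) volume a t := by
    apply IntervalIntegrable.continuousOn_mul hZi
    rw [Set.uIcc_of_le ht.1]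
    exact hA.mono hsubt
  have hG : IntervalIntegrable (fun r => A r * Z r + B * μ r + D) volume a t :=
    (hAZ.add (hμt.const_mul B)).add intervalIntegrable_const
  have hFi : IntervalIntegrable F volume a t := by
    apply hG.mono_fun hFm.aestronglyMeasurable
    rw [Filter.EventuallyLE, ae_restrict_iff' measurableSet_uIoc]
    refine Filter.Eventually.of_forall fun x hx => ?_
    rw [Set.uIoc_of_le ht.1] at hx
    have hx' : x ∈ Set.Icc a T := hsubt x ⟨hx.1.le, hx.2⟩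
    rw [Real.norm_eq_abs, Real.norm_eq_abs, abs_of_nonneg (hF0 x hx')]
    exact (hF x hx').trans (le_abs_self _)
  have h1 : ∫ r in a..t, F r ≤ ∫ r in a..t, (A r * Z r + B * μ r + D) :=
    intervalIntegral.integral_mono_on ht.1 hFi hG (fun r hr => hF r (hsubt r hr))
  have h2 : ∫ r in a..t, (A r * Z r + B * μ r + D) =
      (∫ r in a..t, A r * Z r) + B * (∫ r in a..t, μ r) + D * (t - a) := by
    rw [intervalIntegral.integral_add (hAZ.add (hμt.const_mul B)) intervalIntegrable_const,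
      intervalIntegral.integral_add hAZ (hμt.const_mul B), intervalIntegral.integral_const_mul,
      intervalIntegral.integral_const]
    simp [mul_comm]
  have h3 : ∫ r in a..t, μ r ≤ ∫ r in (0 : ℝ)..1, μ r := by
    apply intervalIntegral.integral_mono_interval ha ht.1 (ht.2.trans hT) _ hμ01
    rw [Filter.EventuallyLE, ae_restrict_iff' measurableSet_Ioc]
    refine Filter.Eventually.of_forall fun x hx => ?_
    exact (hμ x ⟨hx.1.le, hx.2⟩).1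
  have h4 : D * (t - a) ≤ D := by
    have : t - a ≤ 1 := by have := ht.2; linarith
    nlinarith
  have h5 : B * (∫ r in a..t, μ r) ≤ B * ε := mul_le_mul_of_nonneg_left (h3.trans hμi) hB
  have := hZt t ht
  linarith

theorem odeA_pow_mul_exp_le (x c : ℝ) (n : ℕ) (hx : 0 ≤ x) (hc : 0 < c) :
    x ^ n * Real.exp (-c * x) ≤ (n.factorial : ℝ) / c ^ n := by
  have h := Real.pow_div_factorial_le_exp (c * x) (by positivity) n
  have hf : (0 : ℝ) < n.factorial := by positivity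
  rw [div_le_iff₀ hf, mul_pow] at h
  have hE : 0 < Real.exp (c * x) := Real.exp_pos _
  have he : Real.exp (-c * x) = (Real.exp (c * x))⁻¹ := by rw [neg_mul, Real.exp_neg]
  rw [he, le_div_iff₀ (by positivity), mul_assoc, mul_comm, mul_assoc, inv_mul_le_iff₀ hE]
  linarith

theorem odeA_pick_y (P Q L : ℝ) (hP : 0 ≤ P) (hQ : 0 < Q) : ∃ y : ℕ, 1 ≤ y ∧
    P * (y : ℝ) ^ 4 + L ≤ Q * (y : ℝ) ^ 8 ∧ P * (y : ℝ) ^ 4 + L ≤ (21 / 20 : ℝ) ^ y := by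
  have h1 : ∀ᶠ y : ℕ in atTop, (P + |L|) / Q ≤ y :=
    (tendsto_natCast_atTop_atTop (R := ℝ)).eventually_ge_atTop _
  have h2 : ∀ᶠ y : ℕ in atTop, 1 ≤ y := eventually_ge_atTop 1
  have h3 : ∀ᶠ y : ℕ in atTop, (y : ℝ) ^ 4 / (21 / 20 : ℝ) ^ y < 1 / (P + |L| + 1) :=
    (tendsto_pow_const_div_const_pow_of_one_lt 4 (by norm_num : (1 : ℝ) < 21 / 20)).eventually_lt_const
      (by positivity)
  obtain ⟨y, h1, h2, h3⟩ := (h1.and (h2.and h3)).exists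
  have hy1 : (1 : ℝ) ≤ y := by exact_mod_cast h2
  have hy4 : (1 : ℝ) ≤ (y : ℝ) ^ 4 := one_le_pow₀ hy1
  have hle : P * (y : ℝ) ^ 4 + L ≤ (P + |L|) * (y : ℝ) ^ 4 := by
    have : L ≤ |L| * (y : ℝ) ^ 4 := (le_abs_self L).trans (le_mul_of_one_le_right (abs_nonneg _) hy4)
    linarith
  refine ⟨y, h2, hle.trans ?_, hle.trans ?_⟩
  · rw [div_le_iff₀ hQ] at h1
    have h5 : (y : ℝ) ≤ (y : ℝ) ^ 4 := le_self_pow₀ hy1 (by norm_num)
    have h6 : P + |L| ≤ Q * (y : ℝ) ^ 4 := h1.trans (by nlinarith)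
    calc (P + |L|) * (y : ℝ) ^ 4 ≤ (Q * (y : ℝ) ^ 4) * (y : ℝ) ^ 4 :=
          mul_le_mul_of_nonneg_right h6 (by positivity)
      _ = Q * (y : ℝ) ^ 8 := by ring
  · rw [div_lt_div_iff₀ (by positivity) (by positivity)] at h3
    have : 0 ≤ (y : ℝ) ^ 4 := by positivity
    linarith

/-- pointwise bound, step 1 -/
theorem odeA_pt1 (C c ρ r z m : ℝ) (n : ℕ) (hC : 1 ≤ C) (hc : 0 < c) (hρ : 0 < ρ) (hr : ρ ≤ r)
    (hr1 : r ≤ 1) (hz : 0 ≤ z) (hm : 0 ≤ m) (hn : r ^ (-(13 / 8) : ℝ) ≤ n)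
    (hn1 : (n : ℝ) ≤ r ^ (-(13 / 8) : ℝ) + 1) :
    r ^ 2 * (C * ((n : ℝ) * z + (n : ℝ) ^ 2 * (r ^ (1 / 2 : ℝ) * z + Real.exp (-c * r ^ (-(1 / 4) : ℝ))) +
          (n : ℝ) ^ 3 * m + r ^ (-(3 / 2) : ℝ) * Real.exp (-c * r ^ (3 / 2 : ℝ) * n))) ≤
      (C * (2 + 4 * r ^ (-(3 / 4) : ℝ))) * z + (C * (2 * ρ ^ (-(13 / 8) : ℝ)) ^ 3) * m +
        C * (4 * ((10 : ℕ).factorial / (c / 2) ^ 10) + 1) * Real.exp (-(c / 2) * r ^ (-(1 / 8) : ℝ)) := by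
  have hr0 : 0 < r := lt_of_lt_of_le hρ hr
  have hC0 : 0 ≤ C := by linarith
  set R := r ^ (-(13 / 8) : ℝ) with hR
  have hR1 : 1 ≤ R := Real.one_le_rpow_of_pos_of_le_one_of_nonpos hr0 hr1 (by norm_num)
  have hn2 : (n : ℝ) ≤ 2 * R := by linarith
  have hn0 : (0 : ℝ) ≤ n := Nat.cast_nonneg n
  set x := r ^ (-(1 / 8) : ℝ) with hx
  have hx1 : 1 ≤ x := Real.one_le_rpow_of_pos_of_le_one_of_nonpos hr0 hr1 (by norm_num)
  have e1 : r ^ 2 * (n : ℝ) ≤ 2 := by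
    have : r ^ 2 * R = r ^ (3 / 8 : ℝ) := by
      rw [hR, ← Real.rpow_natCast, ← Real.rpow_add hr0]; norm_num
    have h2 : r ^ (3 / 8 : ℝ) ≤ 1 := Real.rpow_le_one hr0.le hr1 (by norm_num)
    calc r ^ 2 * (n : ℝ) ≤ r ^ 2 * (2 * R) := mul_le_mul_of_nonneg_left hn2 (by positivity)
      _ = 2 * (r ^ 2 * R) := by ring
      _ ≤ 2 := by rw [this]; linarith
  have hnsq : (n : ℝ) ^ 2 ≤ 4 * R ^ 2 := by
    calc (n : ℝ) ^ 2 ≤ (2 * R) ^ 2 := pow_le_pow_left₀ hn0 hn2 2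
      _ = 4 * R ^ 2 := by ring
  have e2 : r ^ 2 * (n : ℝ) ^ 2 * r ^ (1 / 2 : ℝ) ≤ 4 * r ^ (-(3 / 4) : ℝ) := by
    have : r ^ 2 * R ^ 2 * r ^ (1 / 2 : ℝ) = r ^ (-(3 / 4) : ℝ) := by
      rw [hR, ← Real.rpow_natCast, ← Real.rpow_natCast, ← Real.rpow_mul hr0.le,
        ← Real.rpow_add hr0, ← Real.rpow_add hr0]; norm_num
    calc r ^ 2 * (n : ℝ) ^ 2 * r ^ (1 / 2 : ℝ) ≤ r ^ 2 * (4 * R ^ 2) * r ^ (1 / 2 : ℝ) := by
          gcongr
      _ = 4 * (r ^ 2 * R ^ 2 * r ^ (1 / 2 : ℝ)) := by ring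
      _ = _ := by rw [this]
  have hx2 : r ^ (-(1 / 4) : ℝ) = x ^ 2 := by
    rw [hx, ← Real.rpow_natCast, ← Real.rpow_mul hr0.le]; norm_num
  have e3 : r ^ 2 * (n : ℝ) ^ 2 * Real.exp (-c * r ^ (-(1 / 4) : ℝ)) ≤
      4 * ((10 : ℕ).factorial / (c / 2) ^ 10) * Real.exp (-(c / 2) * x) := by
    have h10 : r ^ 2 * R ^ 2 = x ^ 10 := by
      rw [hR, hx, ← Real.rpow_natCast, ← Real.rpow_natCast, ← Real.rpow_natCast, ← Real.rpow_mul hr0.le,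
        ← Real.rpow_mul hr0.le, ← Real.rpow_add hr0]; norm_num
    have he : Real.exp (-c * r ^ (-(1 / 4) : ℝ)) ≤ Real.exp (-(c / 2) * x) * Real.exp (-(c / 2) * x) := by
      rw [← Real.exp_add, Real.exp_le_exp, hx2]
      have : x ≤ x ^ 2 := le_self_pow₀ hx1 (by norm_num)
      nlinarith
    have hp := odeA_pow_mul_exp_le x (c / 2) 10 (by linarith) (by linarith)
    calc r ^ 2 * (n : ℝ) ^ 2 * Real.exp (-c * r ^ (-(1 / 4) : ℝ))
        ≤ r ^ 2 * (4 * R ^ 2) * (Real.exp (-(c / 2) * x) * Real.exp (-(c / 2) * x)) := by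
          gcongr
      _ = 4 * (x ^ 10 * Real.exp (-(c / 2) * x)) * Real.exp (-(c / 2) * x) := by
          rw [← h10]; ring
      _ ≤ _ := by gcongr
  have e4 : r ^ 2 * (n : ℝ) ^ 3 ≤ (2 * ρ ^ (-(13 / 8) : ℝ)) ^ 3 := by
    have hRρ : R ≤ ρ ^ (-(13 / 8) : ℝ) := Real.rpow_le_rpow_of_nonpos hρ hr (by norm_num)
    have h1 : (n : ℝ) ^ 3 ≤ (2 * ρ ^ (-(13 / 8) : ℝ)) ^ 3 :=
      pow_le_pow_left₀ hn0 (hn2.trans (by linarith)) 3
    have h2 : r ^ 2 ≤ 1 := pow_le_one₀ hr0.le hr1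
    calc r ^ 2 * (n : ℝ) ^ 3 ≤ 1 * (n : ℝ) ^ 3 := mul_le_mul_of_nonneg_right h2 (by positivity)
      _ ≤ _ := by rw [one_mul]; exact h1
  have e5 : r ^ 2 * (r ^ (-(3 / 2) : ℝ) * Real.exp (-c * r ^ (3 / 2 : ℝ) * n)) ≤
      Real.exp (-(c / 2) * x) := by
    have h1 : r ^ 2 * r ^ (-(3 / 2) : ℝ) ≤ 1 := by
      rw [← Real.rpow_natCast, ← Real.rpow_add hr0]
      exact Real.rpow_le_one hr0.le hr1 (by norm_num)
    have h2 : x ≤ r ^ (3 / 2 : ℝ) * n := by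
      have : r ^ (3 / 2 : ℝ) * R = x := by
        rw [hR, hx, ← Real.rpow_add hr0]; norm_num
      rw [← this]; gcongr
    have h3 : Real.exp (-c * r ^ (3 / 2 : ℝ) * n) ≤ Real.exp (-(c / 2) * x) := by
      rw [Real.exp_le_exp]
      nlinarith
    calc r ^ 2 * (r ^ (-(3 / 2) : ℝ) * Real.exp (-c * r ^ (3 / 2 : ℝ) * n))
        = (r ^ 2 * r ^ (-(3 / 2) : ℝ)) * Real.exp (-c * r ^ (3 / 2 : ℝ) * n) := by ring
      _ ≤ 1 * Real.exp (-(c / 2) * x) := by gcongr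
      _ = _ := one_mul _
  have f1 := mul_le_mul_of_nonneg_left e1 (mul_nonneg hC0 hz)
  have f2 := mul_le_mul_of_nonneg_left e2 (mul_nonneg hC0 hz)
  have f3 := mul_le_mul_of_nonneg_left e3 hC0
  have f4 := mul_le_mul_of_nonneg_left e4 (mul_nonneg hC0 hm)
  have f5 := mul_le_mul_of_nonneg_left e5 hC0
  nlinarith [f1, f2, f3, f4, f5]

/-- pointwise bound, step 2 -/
theorem odeA_pt2 (C c a r z m y K2 : ℝ) (hK2 : K2 = (160 : ℕ).factorial / c ^ 160) (n k : ℕ) (hC : 1 ≤ C) (hc : 0 < c) (ha : 0 < a) (hr : a ≤ r)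
    (hr1 : r ≤ 1) (hz : 0 ≤ z) (hm : 0 ≤ m) (hy : y = k) (hk : 1 ≤ k) (hn : y * r ^ (-(97 / 64) : ℝ) ≤ n)
    (hn1 : (n : ℝ) ≤ y * r ^ (-(97 / 64) : ℝ) + 5) :
    r ^ 2 * (C * ((n : ℝ) ^ 2 * z +
          (n : ℝ) ^ 3 * m + r ^ (-(9 / 2) : ℝ) * Real.exp (-c * r ^ (3 / 2 : ℝ) * n) *
            (z + m) + Real.exp (-((21 / 20 : ℝ) ^ n)))) ≤
      (C * (36 * y ^ 2 * r ^ (-(33 / 32) : ℝ) + K2)) * z +
      (C * ((6 * y * a ^ (-(97 / 64) : ℝ)) ^ 3 + K2)) * m +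
        C * Real.exp (-((21 / 20 : ℝ) ^ k)) := by
  have hr0 : 0 < r := lt_of_lt_of_le ha hr
  have hC0 : 0 ≤ C := by linarith
  have hy1 : 1 ≤ y := by rw [hy]; exact_mod_cast hk
  set R := r ^ (-(97 / 64) : ℝ) with hR
  have hR1 : 1 ≤ R := Real.one_le_rpow_of_pos_of_le_one_of_nonpos hr0 hr1 (by norm_num)
  have hyR : 1 ≤ y * R := one_le_mul_of_one_le_of_one_le hy1 hR1
  have hn2 : (n : ℝ) ≤ 6 * y * R := by linarith
  have hn0 : (0 : ℝ) ≤ n := Nat.cast_nonneg n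
  set w := r ^ (-(1 / 64) : ℝ) with hw
  have hw1 : 1 ≤ w := Real.one_le_rpow_of_pos_of_le_one_of_nonpos hr0 hr1 (by norm_num)
  have hr2 : r ^ 2 ≤ 1 := pow_le_one₀ hr0.le hr1
  have e1 : r ^ 2 * (n : ℝ) ^ 2 ≤ 36 * y ^ 2 * r ^ (-(33 / 32) : ℝ) := by
    have : r ^ 2 * R ^ 2 = r ^ (-(33 / 32) : ℝ) := by
      rw [hR, ← Real.rpow_natCast, ← Real.rpow_natCast, ← Real.rpow_mul hr0.le,
        ← Real.rpow_add hr0]; norm_num
    calc r ^ 2 * (n : ℝ) ^ 2 ≤ r ^ 2 * (6 * y * R) ^ 2 := by gcongr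
      _ = 36 * y ^ 2 * (r ^ 2 * R ^ 2) := by ring
      _ = _ := by rw [this]
  have e2 : r ^ 2 * (n : ℝ) ^ 3 ≤ (6 * y * a ^ (-(97 / 64) : ℝ)) ^ 3 := by
    have hRρ : R ≤ a ^ (-(97 / 64) : ℝ) := Real.rpow_le_rpow_of_nonpos ha hr (by norm_num)
    have h1 : (n : ℝ) ^ 3 ≤ (6 * y * a ^ (-(97 / 64) : ℝ)) ^ 3 :=
      pow_le_pow_left₀ hn0 (hn2.trans (by gcongr)) 3
    calc r ^ 2 * (n : ℝ) ^ 3 ≤ 1 * (n : ℝ) ^ 3 := mul_le_mul_of_nonneg_right hr2 (by positivity)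
      _ ≤ _ := by rw [one_mul]; exact h1
  have e3 : r ^ 2 * (r ^ (-(9 / 2) : ℝ) * Real.exp (-c * r ^ (3 / 2 : ℝ) * n)) ≤ K2 := by
    have h1 : r ^ 2 * r ^ (-(9 / 2) : ℝ) = w ^ 160 := by
      rw [hw, ← Real.rpow_natCast, ← Real.rpow_natCast, ← Real.rpow_mul hr0.le,
        ← Real.rpow_add hr0]; norm_num
    have h2 : w ≤ r ^ (3 / 2 : ℝ) * n := by
      have : r ^ (3 / 2 : ℝ) * R = w := by
        rw [hR, hw, ← Real.rpow_add hr0]; norm_num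
      rw [← this]
      have : R ≤ n := le_trans (by nlinarith) hn
      gcongr
    have h3 : Real.exp (-c * r ^ (3 / 2 : ℝ) * n) ≤ Real.exp (-c * w) := by
      rw [Real.exp_le_exp]
      nlinarith
    calc r ^ 2 * (r ^ (-(9 / 2) : ℝ) * Real.exp (-c * r ^ (3 / 2 : ℝ) * n))
        = (r ^ 2 * r ^ (-(9 / 2) : ℝ)) * Real.exp (-c * r ^ (3 / 2 : ℝ) * n) := by ring
      _ ≤ w ^ 160 * Real.exp (-c * w) := by rw [h1]; gcongr
      _ ≤ _ := by rw [hK2]; exact odeA_pow_mul_exp_le w c 160 (by linarith) hc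
  have e4 : r ^ 2 * Real.exp (-((21 / 20 : ℝ) ^ n)) ≤ Real.exp (-((21 / 20 : ℝ) ^ k)) := by
    have hkn : k ≤ n := by
      have : (k : ℝ) ≤ n := by rw [← hy]; nlinarith
      exact_mod_cast this
    have h1 : (21 / 20 : ℝ) ^ k ≤ (21 / 20 : ℝ) ^ n := pow_le_pow_right₀ (by norm_num) hkn
    calc r ^ 2 * Real.exp (-((21 / 20 : ℝ) ^ n)) ≤ 1 * Real.exp (-((21 / 20 : ℝ) ^ n)) := by gcongr
      _ = Real.exp (-((21 / 20 : ℝ) ^ n)) := one_mul _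
      _ ≤ _ := by rw [Real.exp_le_exp]; linarith
  have f1 := mul_le_mul_of_nonneg_left e1 (mul_nonneg hC0 hz)
  have f2 := mul_le_mul_of_nonneg_left e2 (mul_nonneg hC0 hm)
  have f3 := mul_le_mul_of_nonneg_left e3 (mul_nonneg hC0 (add_nonneg hz hm))
  have f4 := mul_le_mul_of_nonneg_left e4 hC0
  nlinarith [f1, f2, f3, f4]

theorem odeA_step1 (C c ρ ε y t0 K1 B1 D1 : ℝ) (hC : 1 ≤ C) (hc : 0 < c) (hρ0 : 0 < ρ) (hρ2 : ρ ≤ t0)
    (hy1 : 1 ≤ y) (ht0 : t0 = (y ^ 64)⁻¹) (ht0p : 0 < t0) (ht01 : t0 ≤ 1)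
    (hK1 : K1 = C * (4 * ((10 : ℕ).factorial / (c / 2) ^ 10) + 1)) (hK1p : 0 < K1)
    (hB1 : B1 = C * (2 * ρ ^ (-(13 / 8) : ℝ)) ^ 3) (hB1p : 0 ≤ B1)
    (hD1 : D1 = K1 * Real.exp (-(c / 2) * y ^ 8)) (hD1p : 0 ≤ D1) (hε : 0 < ε)
    (Z μ : ℝ → ℝ) (hZm : Measurable Z) (hμm : Measurable μ)
    (hZ : ∀ r ∈ Set.Icc (0 : ℝ) 1, 0 ≤ Z r ∧ Z r ≤ 4) (hμ : ∀ r ∈ Set.Icc (0 : ℝ) 1, 0 ≤ μ r ∧ μ r ≤ C)
    (hsm : ∀ t ∈ Set.Icc (0 : ℝ) ρ, Z t ≤ C * ρ)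
    (hμi : (∫ r in (0 : ℝ)..1, μ r) ≤ ε)
    (hI1 : ∀ t0 t : ℝ, ρ ≤ t0 → t0 ≤ t → t ≤ 1 → ∀ N : ℝ → ℕ, Measurable N → (∀ r, 1 ≤ N r) →
        (∃ M, ∀ r, N r ≤ M) → Z t ≤ Z t0 + ∫ r in t0..t, r ^ 2 * (C * ((N r : ℝ) * Z r +
          (N r : ℝ) ^ 2 * (r ^ (1 / 2 : ℝ) * Z r + Real.exp (-c * r ^ (-(1 / 4) : ℝ))) +
          (N r : ℝ) ^ 3 * μ r + r ^ (-(3 / 2) : ℝ) * Real.exp (-c * r ^ (3 / 2 : ℝ) * N r)))) :
    ∀ t ∈ Set.Icc ρ t0, Z t ≤ Real.exp (18 * C) * (C * ρ + B1 * ε + D1) := by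
  have hC0 : 0 ≤ C := by linarith
  have hρ1 : ρ ≤ 1 := hρ2.trans ht01
  set N : ℝ → ℕ := fun r => ⌈(max (min r 1) ρ) ^ (-(13 / 8) : ℝ)⌉₊ with hN
  have hNm : Measurable N := by
    apply Nat.measurable_ceil.comp
    apply Measurable.pow_const
    exact (measurable_id.min measurable_const).max measurable_const
  have hmaxp : ∀ r : ℝ, 0 < max (min r 1) ρ := fun r => lt_of_lt_of_le hρ0 (le_max_right _ _)
  have hN1 : ∀ r, 1 ≤ N r := by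
    intro r
    exact Nat.one_le_ceil_iff.2 (Real.rpow_pos_of_pos (hmaxp r) _)
  have hNb : ∀ r, N r ≤ ⌈ρ ^ (-(13 / 8) : ℝ)⌉₊ := by
    intro r
    apply Nat.ceil_mono
    exact Real.rpow_le_rpow_of_nonpos hρ0 (le_max_right _ _) (by norm_num)
  have hNr : ∀ r ∈ Set.Icc ρ t0, N r = ⌈r ^ (-(13 / 8) : ℝ)⌉₊ := by
    intro r hr
    simp only [hN]
    rw [min_eq_left (hr.2.trans ht01), max_eq_left hr.1]
  set A : ℝ → ℝ := fun r => C * (2 + 4 * r ^ (-(3 / 4) : ℝ)) with hA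
  have hAc : ContinuousOn A (Set.Icc ρ t0) := by
    apply ContinuousOn.mul continuousOn_const
    apply ContinuousOn.add continuousOn_const
    apply ContinuousOn.mul continuousOn_const
    apply ContinuousOn.rpow_const continuousOn_id
    intro x hx
    left
    exact (lt_of_lt_of_le hρ0 hx.1).ne'
  have hg := odeA_gron_step Z μ (fun r => r ^ 2 * (C * ((N r : ℝ) * Z r +
        (N r : ℝ) ^ 2 * (r ^ (1 / 2 : ℝ) * Z r + Real.exp (-c * r ^ (-(1 / 4) : ℝ))) +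
        (N r : ℝ) ^ 3 * μ r + r ^ (-(3 / 2) : ℝ) * Real.exp (-c * r ^ (3 / 2 : ℝ) * N r))))
      A ρ t0 C B1 D1 ε hρ0.le hρ2 ht01 hC0 hB1p hD1p hZm hμm ?_ hZ hμ hμi hAc ?_ ?_ ?_ ?_
  · intro t ht
    refine (hg t ht).trans ?_
    have hZρ : Z ρ ≤ C * ρ := hsm ρ ⟨hρ0.le, le_refl _⟩
    have hZρ0 : 0 ≤ Z ρ := (hZ ρ ⟨hρ0.le, hρ1⟩).1
    have hint : ∫ r in ρ..t, A r ≤ 18 * C := by
      have hi1 : IntervalIntegrable (fun r : ℝ => r ^ (-(3 / 4) : ℝ)) volume ρ t := by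
        apply intervalIntegral.intervalIntegrable_rpow'; norm_num
      have : ∫ r in ρ..t, A r = C * (2 * (t - ρ) + 4 * (∫ r in ρ..t, r ^ (-(3 / 4) : ℝ))) := by
        simp only [hA]
        rw [intervalIntegral.integral_const_mul, intervalIntegral.integral_add
          intervalIntegrable_const (hi1.const_mul 4), intervalIntegral.integral_const_mul,
          intervalIntegral.integral_const]
        simp [mul_comm]
      rw [this, integral_rpow (Or.inl (by norm_num))]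
      have ht1 : t ≤ 1 := ht.2.trans ht01
      have h0t : 0 ≤ t := hρ0.le.trans ht.1
      have h1 : t ^ (-(3 / 4) + 1 : ℝ) ≤ 1 := Real.rpow_le_one h0t ht1 (by norm_num)
      have h2 : 0 ≤ ρ ^ (-(3 / 4) + 1 : ℝ) := by positivity
      have h3 : (t ^ (-(3 / 4) + 1 : ℝ) - ρ ^ (-(3 / 4) + 1 : ℝ)) / (-(3 / 4) + 1 : ℝ) ≤ 4 := by
        rw [div_le_iff₀ (by norm_num)]; linarith
      have h4 : 2 * (t - ρ) + 4 * ((t ^ (-(3 / 4) + 1 : ℝ) - ρ ^ (-(3 / 4) + 1 : ℝ)) /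
          (-(3 / 4) + 1 : ℝ)) ≤ 18 := by linarith
      calc C * (2 * (t - ρ) + 4 * ((t ^ (-(3 / 4) + 1 : ℝ) - ρ ^ (-(3 / 4) + 1 : ℝ)) /
          (-(3 / 4) + 1 : ℝ))) ≤ C * 18 := mul_le_mul_of_nonneg_left h4 hC0
        _ = 18 * C := by ring
    have hexp : Real.exp (∫ r in ρ..t, A r) ≤ Real.exp (18 * C) := Real.exp_le_exp.2 hint
    calc (Z ρ + B1 * ε + D1) * Real.exp (∫ r in ρ..t, A r)
        ≤ (C * ρ + B1 * ε + D1) * Real.exp (18 * C) := by gcongr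
      _ = _ := mul_comm _ _
  · have hNm' : Measurable (fun r => (N r : ℝ)) := measurable_from_nat.comp hNm
    fun_prop
  · intro r hr
    have : 0 < r := lt_of_lt_of_le hρ0 hr.1
    simp only [hA]; positivity
  · intro r hr
    have hr0 : 0 < r := lt_of_lt_of_le hρ0 hr.1
    have h1 := hZ r ⟨hr0.le, hr.2.trans ht01⟩
    have h2 := hμ r ⟨hr0.le, hr.2.trans ht01⟩
    have h3 := h1.1
    have h4 := h2.1
    positivity
  · intro r hr
    have hr0 : 0 < r := lt_of_lt_of_le hρ0 hr.1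
    have h1 := hZ r ⟨hr0.le, hr.2.trans ht01⟩
    have h2 := hμ r ⟨hr0.le, hr.2.trans ht01⟩
    have hNr' := hNr r hr
    have h3 : r ^ (-(13 / 8) : ℝ) ≤ (N r : ℝ) := by rw [hNr']; exact Nat.le_ceil _
    have h4 : (N r : ℝ) ≤ r ^ (-(13 / 8) : ℝ) + 1 := by
      rw [hNr']; exact (Nat.ceil_lt_add_one (by positivity)).le
    have h5 := odeA_pt1 C c ρ r (Z r) (μ r) (N r) hC hc hρ0 hr.1 (hr.2.trans ht01) h1.1 h2.1 h3 h4
    refine h5.trans ?_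
    rw [← hB1]
    have h6 : C * (4 * ((10 : ℕ).factorial / (c / 2) ^ 10) + 1) *
        Real.exp (-(c / 2) * r ^ (-(1 / 8) : ℝ)) ≤ D1 := by
      rw [hD1, ← hK1]
      apply mul_le_mul_of_nonneg_left _ hK1p.le
      rw [Real.exp_le_exp]
      have h7 : y ^ 8 ≤ r ^ (-(1 / 8) : ℝ) := by
        have : t0 ^ (-(1 / 8) : ℝ) = y ^ 8 := by
          rw [ht0, Real.inv_rpow (by positivity), ← Real.rpow_natCast, ← Real.rpow_mul (by positivity),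
            ← Real.rpow_neg (by positivity), ← Real.rpow_natCast]
          norm_num
        rw [← this]
        exact Real.rpow_le_rpow_of_nonpos hr0 hr.2 (by norm_num)
      nlinarith
    have h8 : (C * (2 + 4 * r ^ (-(3 / 4) : ℝ))) * Z r = A r * Z r := rfl
    rw [h8]
    linarith
  · intro t ht
    exact hI1 ρ t (le_refl _) ht.1 (ht.2.trans ht01) N hNm hN1 ⟨_, hNb⟩

theorem odeA_step2 (C c ρ ε y t0 K2 B2 D2 : ℝ) (k : ℕ) (hC : 1 ≤ C) (hc : 0 < c) (hρ2 : ρ ≤ t0)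
    (hk1 : 1 ≤ k) (hy : y = k)
    (hy1 : 1 ≤ y) (ht0 : t0 = (y ^ 64)⁻¹) (ht0p : 0 < t0) (ht01 : t0 ≤ 1)
    (hK2 : K2 = (160 : ℕ).factorial / c ^ 160) (hK2p : 0 < K2)
    (hB2 : B2 = C * ((6 * y * t0 ^ (-(97 / 64) : ℝ)) ^ 3 + K2)) (hB2p : 0 < B2)
    (hD2 : D2 = C * Real.exp (-((21 / 20 : ℝ) ^ k))) (hD2p : 0 ≤ D2) (hε : 0 < ε)
    (Z μ : ℝ → ℝ) (hZm : Measurable Z) (hμm : Measurable μ)
    (hZ : ∀ r ∈ Set.Icc (0 : ℝ) 1, 0 ≤ Z r ∧ Z r ≤ 4) (hμ : ∀ r ∈ Set.Icc (0 : ℝ) 1, 0 ≤ μ r ∧ μ r ≤ C)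
    (hμi : (∫ r in (0 : ℝ)..1, μ r) ≤ ε)
    (hI2 : ∀ t0 t : ℝ, ρ ≤ t0 → t0 ≤ t → t ≤ 1 → ∀ N : ℝ → ℕ, Measurable N → (∀ r, 4 ≤ N r) →
        (∃ M, ∀ r, N r ≤ M) → Z t ≤ Z t0 + ∫ r in t0..t, r ^ 2 * (C * ((N r : ℝ) ^ 2 * Z r +
          (N r : ℝ) ^ 3 * μ r + r ^ (-(9 / 2) : ℝ) * Real.exp (-c * r ^ (3 / 2 : ℝ) * N r) *
            (Z r + μ r) + Real.exp (-((21 / 20 : ℝ) ^ (N r)))))) :
    ∀ t ∈ Set.Icc t0 1, Z t ≤ Real.exp (C * (1152 * y ^ 4 + K2)) * (Z t0 + B2 * ε + D2) := by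
  have hC0 : 0 ≤ C := by linarith
  set N : ℝ → ℕ := fun r => max 4 ⌈y * (max (min r 1) t0) ^ (-(97 / 64) : ℝ)⌉₊ with hN
  have hNm : Measurable N := by
    apply Measurable.max measurable_const
    apply Nat.measurable_ceil.comp
    apply Measurable.const_mul
    apply Measurable.pow_const
    exact (measurable_id.min measurable_const).max measurable_const
  have hmaxp : ∀ r : ℝ, 0 < max (min r 1) t0 := fun r => lt_of_lt_of_le ht0p (le_max_right _ _)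
  have hN1 : ∀ r, 4 ≤ N r := fun r => le_max_left _ _
  have hNb : ∀ r, N r ≤ max 4 ⌈y * t0 ^ (-(97 / 64) : ℝ)⌉₊ := by
    intro r
    apply max_le_max (le_refl _)
    apply Nat.ceil_mono
    apply mul_le_mul_of_nonneg_left _ (by positivity)
    exact Real.rpow_le_rpow_of_nonpos ht0p (le_max_right _ _) (by norm_num)
  have hNr : ∀ r ∈ Set.Icc t0 1, N r = max 4 ⌈y * r ^ (-(97 / 64) : ℝ)⌉₊ := by
    intro r hr
    simp only [hN]
    rw [min_eq_left hr.2, max_eq_left hr.1]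
  set A : ℝ → ℝ := fun r => C * (36 * y ^ 2 * r ^ (-(33 / 32) : ℝ) + K2) with hA
  have hAc : ContinuousOn A (Set.Icc t0 1) := by
    apply ContinuousOn.mul continuousOn_const
    apply ContinuousOn.add _ continuousOn_const
    apply ContinuousOn.mul continuousOn_const
    apply ContinuousOn.rpow_const continuousOn_id
    intro x hx
    left
    exact (lt_of_lt_of_le ht0p hx.1).ne'
  have hg := odeA_gron_step Z μ (fun r => r ^ 2 * (C * ((N r : ℝ) ^ 2 * Z r +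
        (N r : ℝ) ^ 3 * μ r + r ^ (-(9 / 2) : ℝ) * Real.exp (-c * r ^ (3 / 2 : ℝ) * N r) *
          (Z r + μ r) + Real.exp (-((21 / 20 : ℝ) ^ (N r))))))
      A t0 1 C B2 D2 ε ht0p.le ht01 le_rfl hC0 hB2p.le hD2p hZm hμm ?_ hZ hμ hμi hAc ?_ ?_ ?_ ?_
  · intro t ht
    refine (hg t ht).trans ?_
    have hZρ0 : 0 ≤ Z t0 := (hZ t0 ⟨ht0p.le, ht01⟩).1
    have h0t : 0 < t := lt_of_lt_of_le ht0p ht.1
    have hint : ∫ r in t0..t, A r ≤ C * (1152 * y ^ 4 + K2) := by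
      have hnot : (0 : ℝ) ∉ Set.uIcc t0 t := by
        rw [Set.uIcc_of_le ht.1]
        intro h; exact absurd h.1 (not_le.2 ht0p)
      have hi1 : IntervalIntegrable (fun r : ℝ => r ^ (-(33 / 32) : ℝ)) volume t0 t :=
        intervalIntegral.intervalIntegrable_rpow (Or.inr hnot)
      have : ∫ r in t0..t, A r = C * (36 * y ^ 2 * (∫ r in t0..t, r ^ (-(33 / 32) : ℝ)) +
          K2 * (t - t0)) := by
        simp only [hA]
        rw [intervalIntegral.integral_const_mul, intervalIntegral.integral_add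
          (hi1.const_mul _) intervalIntegrable_const, intervalIntegral.integral_const_mul,
          intervalIntegral.integral_const]
        simp [mul_comm]
      rw [this, integral_rpow (Or.inr ⟨by norm_num, hnot⟩)]
      have h1 : t0 ^ (-(33 / 32) + 1 : ℝ) = y ^ 2 := by
        rw [ht0, Real.inv_rpow (by positivity), ← Real.rpow_natCast, ← Real.rpow_mul (by positivity),
            ← Real.rpow_neg (by positivity), ← Real.rpow_natCast]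
        norm_num
      have h2 : 0 ≤ t ^ (-(33 / 32) + 1 : ℝ) := by positivity
      have h3 : (t ^ (-(33 / 32) + 1 : ℝ) - t0 ^ (-(33 / 32) + 1 : ℝ)) / (-(33 / 32) + 1 : ℝ) ≤
          32 * y ^ 2 := by
        rw [h1]
        have : (t ^ (-(33 / 32) + 1 : ℝ) - y ^ 2) / (-(33 / 32) + 1 : ℝ) =
          32 * (y ^ 2 - t ^ (-(33 / 32) + 1 : ℝ)) := by
          norm_num; ring
        rw [this]; linarith
      have h4 : K2 * (t - t0) ≤ K2 := by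
        have : t - t0 ≤ 1 := by have := ht.2; linarith
        nlinarith
      apply mul_le_mul_of_nonneg_left _ hC0
      have h5 := mul_le_mul_of_nonneg_left h3 (by positivity : 0 ≤ 36 * y ^ 2)
      calc 36 * y ^ 2 * ((t ^ (-(33 / 32) + 1 : ℝ) - t0 ^ (-(33 / 32) + 1 : ℝ)) / (-(33 / 32) + 1 : ℝ)) +
          K2 * (t - t0) ≤ 36 * y ^ 2 * (32 * y ^ 2) + K2 := add_le_add h5 h4
        _ = 1152 * y ^ 4 + K2 := by ring
    have hexp : Real.exp (∫ r in t0..t, A r) ≤ Real.exp (C * (1152 * y ^ 4 + K2)) := Real.exp_le_exp.2 hint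
    calc (Z t0 + B2 * ε + D2) * Real.exp (∫ r in t0..t, A r)
        ≤ (Z t0 + B2 * ε + D2) * Real.exp (C * (1152 * y ^ 4 + K2)) := by gcongr
      _ = _ := mul_comm _ _
  · have hNm' : Measurable (fun r => (N r : ℝ)) := measurable_from_nat.comp hNm
    have hpow : Measurable (fun r => (21 / 20 : ℝ) ^ (N r)) :=
      (measurable_from_nat (f := fun n : ℕ => (21 / 20 : ℝ) ^ n)).comp hNm
    fun_prop
  · intro r hr
    have : 0 < r := lt_of_lt_of_le ht0p hr.1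
    simp only [hA]; positivity
  · intro r hr
    have hr0 : 0 < r := lt_of_lt_of_le ht0p hr.1
    have h1 := hZ r ⟨hr0.le, hr.2⟩
    have h2 := hμ r ⟨hr0.le, hr.2⟩
    have h3 := h1.1
    have h4 := h2.1
    positivity
  · intro r hr
    have hr0 : 0 < r := lt_of_lt_of_le ht0p hr.1
    have h1 := hZ r ⟨hr0.le, hr.2⟩
    have h2 := hμ r ⟨hr0.le, hr.2⟩
    have hNr' := hNr r hr
    have h3 : y * r ^ (-(97 / 64) : ℝ) ≤ (N r : ℝ) := by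
      rw [hNr']
      refine (Nat.le_ceil _).trans ?_
      exact_mod_cast le_max_right _ _
    have h4 : (N r : ℝ) ≤ y * r ^ (-(97 / 64) : ℝ) + 5 := by
      rw [hNr', Nat.cast_max]
      have h9 : 0 ≤ y * r ^ (-(97 / 64) : ℝ) := by positivity
      apply max_le
      · push_cast; linarith
      · have := (Nat.ceil_lt_add_one h9).le
        linarith
    have h5 := odeA_pt2 C c t0 r (Z r) (μ r) y K2 hK2 (N r) k hC hc ht0p hr.1 hr.2 h1.1 h2.1 hy hk1 h3 h4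
    rw [hB2, hD2]
    exact h5
  · intro t ht
    exact hI2 t0 t hρ2 ht.1 ht.2 N hNm hN1 ⟨_, hNb⟩

/-- bootstrap of the scalar inequality in stage `0` -/
theorem ode_zero (C c : ℝ) (hC : 1 ≤ C) (hc : 0 < c) (hc1 : c ≤ 1) (η : ℝ) (hη : 0 < η) :
    ∃ ρ ε : ℝ, 0 < ρ ∧ ρ ≤ 1 / 2 ∧ 0 < ε ∧ ∀ (Z μ : ℝ → ℝ), Measurable Z → Measurable μ →
      (∀ r ∈ Set.Icc (0 : ℝ) 1, 0 ≤ Z r ∧ Z r ≤ 4) → (∀ r ∈ Set.Icc (0 : ℝ) 1, 0 ≤ μ r ∧ μ r ≤ C) →
      (∀ r ∈ Set.Icc (0 : ℝ) 1, Z r ≤ C * r ^ (3 / 2 : ℝ)) →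
      (∫ r in (0 : ℝ)..1, μ r) ≤ ε →
      (∀ t0 t : ℝ, ρ ≤ t0 → t0 ≤ t → t ≤ 1 → ∀ N : ℝ → ℕ, Measurable N → (∀ r, 1 ≤ N r) →
        (∃ M, ∀ r, N r ≤ M) → Z t ≤ Z t0 + ∫ r in t0..t, r ^ 2 * (C * ((N r : ℝ) * Z r +
          (N r : ℝ) ^ 2 * (r ^ (1 / 2 : ℝ) * Z r + Real.exp (-c * r ^ (-(1 / 4) : ℝ))) +
          (N r : ℝ) ^ 3 * μ r + r ^ (-(3 / 2) : ℝ) * Real.exp (-c * r ^ (3 / 2 : ℝ) * N r)))) →
      (∀ t0 t : ℝ, ρ ≤ t0 → t0 ≤ t → t ≤ 1 → ∀ N : ℝ → ℕ, Measurable N → (∀ r, 4 ≤ N r) →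
        (∃ M, ∀ r, N r ≤ M) → Z t ≤ Z t0 + ∫ r in t0..t, r ^ 2 * (C * ((N r : ℝ) ^ 2 * Z r +
          (N r : ℝ) ^ 3 * μ r + r ^ (-(9 / 2) : ℝ) * Real.exp (-c * r ^ (3 / 2 : ℝ) * N r) *
            (Z r + μ r) + Real.exp (-((21 / 20 : ℝ) ^ (N r)))))) →
      ∀ t ∈ Set.Icc (0 : ℝ) 1, Z t ≤ η := by
  have hC0 : 0 ≤ C := by linarith
  obtain ⟨K1, hK1⟩ : ∃ K1 : ℝ, K1 = C * (4 * ((10 : ℕ).factorial / (c / 2) ^ 10) + 1) := ⟨_, rfl⟩
  obtain ⟨K2, hK2⟩ : ∃ K2 : ℝ, K2 = (160 : ℕ).factorial / c ^ 160 := ⟨_, rfl⟩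
  have hK1p : 0 < K1 := by rw [hK1]; positivity
  have hK2p : 0 < K2 := by rw [hK2]; positivity
  set E1 : ℝ := Real.exp (18 * C) with hE1
  have hE1p : 1 ≤ E1 := Real.one_le_exp (by positivity)
  set M : ℝ := Real.exp (C * K2) * (E1 * K1 + C) with hM
  have hMp : 0 < M := by positivity
  obtain ⟨k, hk1, hk2, hk3⟩ := odeA_pick_y (1152 * C) (c / 2) (Real.log (2 * M / η)) (by positivity)
    (by positivity)
  set y : ℝ := (k : ℝ) with hy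
  have hy1 : 1 ≤ y := by rw [hy]; exact_mod_cast hk1
  set D1 : ℝ := K1 * Real.exp (-(c / 2) * y ^ 8) with hD1
  set D2 : ℝ := C * Real.exp (-((21 / 20 : ℝ) ^ k)) with hD2
  have hD1p : 0 ≤ D1 := by positivity
  have hD2p : 0 ≤ D2 := by positivity
  set E2 : ℝ := Real.exp (C * (1152 * y ^ 4 + K2)) with hE2
  have hE2p : 1 ≤ E2 := Real.one_le_exp (by positivity)
  have hsmall : E2 * (E1 * D1 + D2) ≤ η / 2 := by
    have hL : Real.exp (-Real.log (2 * M / η)) = η / (2 * M) := by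
      rw [Real.exp_neg, Real.exp_log (by positivity), inv_div]
    have g1 : Real.exp (1152 * C * y ^ 4) * Real.exp (-(c / 2) * y ^ 8) ≤ η / (2 * M) := by
      rw [← hL, ← Real.exp_add, Real.exp_le_exp]; linarith
    have g2 : Real.exp (1152 * C * y ^ 4) * Real.exp (-((21 / 20 : ℝ) ^ k)) ≤ η / (2 * M) := by
      rw [← hL, ← Real.exp_add, Real.exp_le_exp]; linarith
    have hE2' : E2 = Real.exp (C * K2) * Real.exp (1152 * C * y ^ 4) := by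
      rw [hE2, ← Real.exp_add]; congr 1; ring
    calc E2 * (E1 * D1 + D2) = Real.exp (C * K2) * (E1 * K1 *
          (Real.exp (1152 * C * y ^ 4) * Real.exp (-(c / 2) * y ^ 8)) + C *
          (Real.exp (1152 * C * y ^ 4) * Real.exp (-((21 / 20 : ℝ) ^ k)))) := by
          rw [hE2', hD1, hD2]; ring
      _ ≤ Real.exp (C * K2) * (E1 * K1 * (η / (2 * M)) + C * (η / (2 * M))) := by gcongr
      _ = M * (η / (2 * M)) := by rw [hM]; ring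
      _ = η / 2 := by field_simp
  set t0 : ℝ := (y ^ 64)⁻¹ with ht0
  have ht0p : 0 < t0 := by positivity
  have ht01 : t0 ≤ 1 := inv_le_one_of_one_le₀ (one_le_pow₀ hy1)
  set ρ : ℝ := min (min (1 / 2) t0) (η / (4 * (E2 * E1 * C))) with hρ
  have hρ0 : 0 < ρ := by
    rw [hρ]; refine lt_min (lt_min (by norm_num) ht0p) (by positivity)
  have hρ1 : ρ ≤ 1 / 2 := (min_le_left _ _).trans (min_le_left _ _)
  have hρ2 : ρ ≤ t0 := (min_le_left _ _).trans (min_le_right _ _)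
  have hρ3 : E2 * E1 * C * ρ ≤ η / 4 := by
    have : ρ ≤ η / (4 * (E2 * E1 * C)) := min_le_right _ _
    rw [le_div_iff₀ (by positivity)] at this
    linarith
  set B1 : ℝ := C * (2 * ρ ^ (-(13 / 8) : ℝ)) ^ 3 with hB1
  set B2 : ℝ := C * ((6 * y * t0 ^ (-(97 / 64) : ℝ)) ^ 3 + K2) with hB2
  have hB1p : 0 ≤ B1 := by positivity
  have hB2p : 0 < B2 := by positivity
  set ε : ℝ := η / (4 * (E2 * (E1 * B1 + B2))) with hε
  have hεp : 0 < ε := by positivity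
  have hε2 : E2 * (E1 * B1 + B2) * ε = η / 4 := by
    rw [hε]; field_simp
  have htot : E2 * (E1 * (C * ρ + B1 * ε + D1) + B2 * ε + D2) ≤ η := by
    calc E2 * (E1 * (C * ρ + B1 * ε + D1) + B2 * ε + D2) =
        E2 * E1 * C * ρ + E2 * (E1 * B1 + B2) * ε + E2 * (E1 * D1 + D2) := by ring
      _ ≤ η / 4 + η / 4 + η / 2 := by rw [hε2]; gcongr
      _ = η := by ring
  refine ⟨ρ, ε, hρ0, hρ1, hεp, ?_⟩
  intro Z μ hZm hμm hZ hμ hZs hμi hI1 hI2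
  -- small times
  have hsm : ∀ t ∈ Set.Icc (0 : ℝ) ρ, Z t ≤ C * ρ := by
    intro t ht
    have ht1 : t ≤ 1 := ht.2.trans (by linarith)
    have h1 := hZs t ⟨ht.1, ht1⟩
    have h2 : t ^ (3 / 2 : ℝ) ≤ t := by
      have := Real.rpow_le_rpow_of_exponent_ge' ht.1 ht1 (zero_le_one) (by norm_num : (1 : ℝ) ≤ 3 / 2)
      simpa using this
    calc Z t ≤ C * t ^ (3 / 2 : ℝ) := h1
      _ ≤ C * ρ := by gcongr; exact h2.trans ht.2
  -- step 1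
  have hst1 : ∀ t ∈ Set.Icc ρ t0, Z t ≤ E1 * (C * ρ + B1 * ε + D1) :=
    odeA_step1 C c ρ ε y t0 K1 B1 D1 hC hc hρ0 hρ2 hy1 ht0 ht0p ht01 hK1 hK1p hB1 hB1p hD1 hD1p hεp
      Z μ hZm hμm hZ hμ hsm hμi hI1
  -- step 2
  have hst2 : ∀ t ∈ Set.Icc t0 1, Z t ≤ E2 * (Z t0 + B2 * ε + D2) :=
    odeA_step2 C c ρ ε y t0 K2 B2 D2 k hC hc hρ2 hk1 hy hy1 ht0 ht0p ht01 hK2 hK2p hB2 hB2p hD2 hD2p
      hεp Z μ hZm hμm hZ hμ hμi hI2
  intro t ht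
  have hX1 : C * ρ ≤ η := by
    have h1 : 0 ≤ C * ρ := by positivity
    have h2 : 1 ≤ E2 * E1 := one_le_mul_of_one_le_of_one_le hE2p hE1p
    calc C * ρ ≤ (E2 * E1) * (C * ρ) := le_mul_of_one_le_left h1 h2
      _ = E2 * E1 * C * ρ := by ring
      _ ≤ η := by linarith
  have hX2 : E1 * (C * ρ + B1 * ε + D1) ≤ η := by
    have h1 : 0 ≤ E1 * (C * ρ + B1 * ε + D1) := by positivity
    have h2 : 0 ≤ B2 * ε + D2 := by positivity
    calc E1 * (C * ρ + B1 * ε + D1) ≤ E1 * (C * ρ + B1 * ε + D1) + B2 * ε + D2 := by linarith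
      _ ≤ E2 * (E1 * (C * ρ + B1 * ε + D1) + B2 * ε + D2) := le_mul_of_one_le_left (by linarith) hE2p
      _ ≤ η := htot
  rcases le_total t ρ with h | h
  · exact (hsm t ⟨ht.1, h⟩).trans hX1
  rcases le_total t t0 with h' | h'
  · exact (hst1 t ⟨h, h'⟩).trans hX2
  · refine (hst2 t ⟨h', ht.2⟩).trans (le_trans ?_ htot)
    have := hst1 t0 ⟨hρ2, le_refl _⟩
    gcongr


end Crest.Agent.TI
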