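import Crest.Agent.TI_RAc

/-!
Row S0241, task OdeB: the scalar inequality in later stages; Helly selection (pure real analysis)
-/

set_option autoImplicit false
set_option linter.unusedSectionVars false
set_option linter.unusedVariables false

namespace Crest.Agent.TI

open MeasureTheory Filter Topology
open Crest.Agent.SRF (Lab lab)

theorem ode_pickN (C : ℝ) (hC : 1 ≤ C) (η : ℝ) (hη : 0 < η) :
    ∃ N : ℕ, 4 ≤ N ∧ C * Real.exp (-((21 / 20 : ℝ) ^ N)) * Real.exp (C * (N : ℝ) ^ 2) ≤ η := by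
  have h1 : Tendsto (fun n : ℕ => (n : ℝ) ^ 2 / (21 / 20 : ℝ) ^ n) atTop (𝓝 0) :=
    tendsto_pow_const_div_const_pow_of_one_lt 2 (by norm_num)
  have h2 : ∀ᶠ n : ℕ in atTop, (n : ℝ) ^ 2 / (21 / 20 : ℝ) ^ n < 1 / (2 * C) :=
    h1.eventually_lt_const (by positivity)
  have h3 : Tendsto (fun n : ℕ => (21 / 20 : ℝ) ^ n) atTop atTop :=
    tendsto_pow_atTop_atTop_of_one_lt (by norm_num)
  have h4 : ∀ᶠ n : ℕ in atTop, 2 * Real.log (C / η) ≤ (21 / 20 : ℝ) ^ n :=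
    h3.eventually_ge_atTop _
  obtain ⟨N, hN1, hN2, hN3⟩ := (h2.and (h4.and (eventually_ge_atTop 4))).exists
  refine ⟨N, hN3, ?_⟩
  have hp : (0 : ℝ) < (21 / 20 : ℝ) ^ N := by positivity
  have h5 : C * (N : ℝ) ^ 2 ≤ (21 / 20 : ℝ) ^ N / 2 := by
    rw [div_lt_div_iff₀ hp (by positivity)] at hN1
    nlinarith
  have h6 : Real.exp (-((21 / 20 : ℝ) ^ N)) * Real.exp (C * (N : ℝ) ^ 2) ≤ η / C := by
    rw [← Real.exp_add]
    have h7 : -((21 / 20 : ℝ) ^ N) + C * (N : ℝ) ^ 2 ≤ Real.log (η / C) := by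
      have : Real.log (η / C) = - Real.log (C / η) := by
        rw [← Real.log_inv, inv_div]
      rw [this]
      linarith
    calc Real.exp (-((21 / 20 : ℝ) ^ N) + C * (N : ℝ) ^ 2) ≤ Real.exp (Real.log (η / C)) :=
          Real.exp_le_exp.2 h7
      _ = η / C := Real.exp_log (by positivity)
  calc C * Real.exp (-((21 / 20 : ℝ) ^ N)) * Real.exp (C * (N : ℝ) ^ 2)
      = C * (Real.exp (-((21 / 20 : ℝ) ^ N)) * Real.exp (C * (N : ℝ) ^ 2)) := by ring
    _ ≤ C * (η / C) := by gcongr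
    _ = η := by field_simp

/-- the scalar inequality in later stages -/
theorem ode_later (C : ℝ) (hC : 1 ≤ C) (η : ℝ) (hη : 0 < η) :
    ∃ ε : ℝ, 0 < ε ∧ ∀ (Z μ : ℝ → ℝ), Measurable Z → Measurable μ →
      (∀ r ∈ Set.Icc (0 : ℝ) 1, 0 ≤ Z r ∧ Z r ≤ 4) → (∀ r ∈ Set.Icc (0 : ℝ) 1, 0 ≤ μ r ∧ μ r ≤ C) →
      Z 0 ≤ ε → (∫ r in (0 : ℝ)..1, μ r) ≤ ε →
      (∀ N : ℕ, 4 ≤ N → ∀ t ∈ Set.Icc (0 : ℝ) 1, Z t ≤ Z 0 + ∫ r in (0 : ℝ)..t,
        C * ((N : ℝ) ^ 2 * Z r + (N : ℝ) ^ 3 * μ r + Real.exp (-((21 / 20 : ℝ) ^ N)))) →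
      ∀ t ∈ Set.Icc (0 : ℝ) 1, Z t ≤ η := by
  obtain ⟨N, hN4, hN⟩ := ode_pickN C hC (η / 2) (by positivity)
  set E : ℝ := Real.exp (-((21 / 20 : ℝ) ^ N)) with hE
  set X : ℝ := Real.exp (C * (N : ℝ) ^ 2) with hX
  have hX0 : 0 < X := Real.exp_pos _
  have hE0 : 0 < E := Real.exp_pos _
  have hCp : (0 : ℝ) < C := by linarith
  refine ⟨η / 2 / ((1 + C * (N : ℝ) ^ 3) * X), by positivity, ?_⟩
  set ε : ℝ := η / 2 / ((1 + C * (N : ℝ) ^ 3) * X) with hε
  have hε0 : 0 < ε := by positivity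
  intro Z μ hZm hμm hZ hμ hZ0 hμi hI t ht
  have hZint : ∀ s ∈ Set.Icc (0 : ℝ) 1, IntervalIntegrable Z volume 0 s := by
    intro s hs
    rw [intervalIntegrable_iff_integrableOn_Ioc_of_le hs.1]
    apply Measure.integrableOn_of_bounded (M := 4)
    · simp
    · exact hZm.aestronglyMeasurable
    · rw [ae_restrict_iff' measurableSet_Ioc]
      refine Filter.Eventually.of_forall fun x hx => ?_
      have := hZ x ⟨hx.1.le, hx.2.trans hs.2⟩
      rw [Real.norm_eq_abs, abs_of_nonneg this.1]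
      exact this.2
  have hμint : ∀ s ∈ Set.Icc (0 : ℝ) 1, IntervalIntegrable μ volume 0 s := by
    intro s hs
    rw [intervalIntegrable_iff_integrableOn_Ioc_of_le hs.1]
    apply Measure.integrableOn_of_bounded (M := C)
    · simp
    · exact hμm.aestronglyMeasurable
    · rw [ae_restrict_iff' measurableSet_Ioc]
      refine Filter.Eventually.of_forall fun x hx => ?_
      have := hμ x ⟨hx.1.le, hx.2.trans hs.2⟩
      rw [Real.norm_eq_abs, abs_of_nonneg this.1]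
      exact this.2
  have hμle : ∀ s ∈ Set.Icc (0 : ℝ) 1, ∫ r in (0 : ℝ)..s, μ r ≤ ε := by
    intro s hs
    refine le_trans ?_ hμi
    apply intervalIntegral.integral_mono_interval le_rfl hs.1 hs.2
    · rw [EventuallyLE, ae_restrict_iff' measurableSet_Ioc]
      refine Filter.Eventually.of_forall fun x hx => ?_
      exact (hμ x ⟨hx.1.le, hx.2⟩).1
    · exact hμint 1 ⟨zero_le_one, le_rfl⟩
  have hg := gronwall_int Z (fun _ => C * (N : ℝ) ^ 2) 0 1 (ε + C * (N : ℝ) ^ 3 * ε + C * E) 4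
    zero_le_one (by positivity) continuousOn_const (fun _ _ => by positivity) hZm
    (fun r hr => (hZ r hr).1) (fun r hr => (hZ r hr).2) ?_ t ht
  · refine hg.trans ?_
    have h1 : ∫ r in (0 : ℝ)..t, C * (N : ℝ) ^ 2 ≤ C * (N : ℝ) ^ 2 := by
      rw [intervalIntegral.integral_const, smul_eq_mul, sub_zero]
      have : 0 ≤ C * (N : ℝ) ^ 2 := by positivity
      nlinarith [ht.2]
    have h2 : Real.exp (∫ r in (0 : ℝ)..t, C * (N : ℝ) ^ 2) ≤ X := Real.exp_le_exp.2 h1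
    calc (ε + C * (N : ℝ) ^ 3 * ε + C * E) * Real.exp (∫ r in (0 : ℝ)..t, C * (N : ℝ) ^ 2)
        ≤ (ε + C * (N : ℝ) ^ 3 * ε + C * E) * X := by gcongr
      _ = ε * ((1 + C * (N : ℝ) ^ 3) * X) + C * E * X := by ring
      _ ≤ η / 2 + η / 2 := by
          have : ε * ((1 + C * (N : ℝ) ^ 3) * X) = η / 2 := by
            rw [hε]; field_simp
          rw [this]
          linarith
      _ = η := by ring
  · intro s hs
    have h3 := hI N hN4 s hs
    have hsub : ∫ r in (0 : ℝ)..s, C * ((N : ℝ) ^ 2 * Z r + (N : ℝ) ^ 3 * μ r + E) =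
        (∫ r in (0 : ℝ)..s, C * (N : ℝ) ^ 2 * Z r) + C * (N : ℝ) ^ 3 * (∫ r in (0 : ℝ)..s, μ r) +
          C * E * s := by
      have e1 : (fun r => C * ((N : ℝ) ^ 2 * Z r + (N : ℝ) ^ 3 * μ r + E)) =
          fun r => (C * (N : ℝ) ^ 2 * Z r + C * (N : ℝ) ^ 3 * μ r) + C * E := by
        ext r; ring
      rw [e1, intervalIntegral.integral_add, intervalIntegral.integral_add,
        intervalIntegral.integral_const_mul (C * (N : ℝ) ^ 3), intervalIntegral.integral_const]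
      · simp only [smul_eq_mul, sub_zero]
        ring
      · exact (hZint s hs).const_mul _
      · exact (hμint s hs).const_mul _
      · exact ((hZint s hs).const_mul _).add ((hμint s hs).const_mul _)
      · exact intervalIntegrable_const
    rw [hsub] at h3
    have h4 : C * (N : ℝ) ^ 3 * (∫ r in (0 : ℝ)..s, μ r) ≤ C * (N : ℝ) ^ 3 * ε := by
      have := hμle s hs
      gcongr
    have h5 : C * E * s ≤ C * E := by
      have : 0 ≤ C * E := by positivity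
      nlinarith [hs.2]
    linarith

theorem two_mono (f h : ℝ → ℝ) (C δ : ℝ) (n : ℕ) (hn : 0 < n)
    (hf : MonotoneOn f (Set.Icc (0 : ℝ) 1)) (hh : MonotoneOn h (Set.Icc (0 : ℝ) 1))
    (hfb : ∀ r ∈ Set.Icc (0 : ℝ) 1, |f r| ≤ C) (hhb : ∀ r ∈ Set.Icc (0 : ℝ) 1, |h r| ≤ C)
    (hg : ∀ m : ℕ, m ≤ n → |f (m / n) - h (m / n)| ≤ δ) :
    ∫ r in (0 : ℝ)..1, (f r - h r) ^ 2 ≤ 2 * C * (2 * C / n + 3 * δ) := by
  have hn' : (0 : ℝ) < n := by exact_mod_cast hn
  have hδ : 0 ≤ δ := le_trans (abs_nonneg _) (hg 0 (Nat.zero_le _))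
  have hC : 0 ≤ C := le_trans (abs_nonneg _) (hfb 0 ⟨le_rfl, zero_le_one⟩)
  have hpt : ∀ m : ℕ, m ≤ n → ((m : ℝ) / n) ∈ Set.Icc (0 : ℝ) 1 := by
    intro m hm
    refine ⟨by positivity, ?_⟩
    rw [div_le_one hn']
    exact_mod_cast hm
  have hint : ∀ a ∈ Set.Icc (0 : ℝ) 1, ∀ b ∈ Set.Icc (0 : ℝ) 1, a ≤ b →
      IntervalIntegrable (fun r => (f r - h r) ^ 2) volume a b := by
    intro a ha b hb hab
    have hs : Set.uIcc a b ⊆ Set.Icc (0 : ℝ) 1 := by
      rw [Set.uIcc_of_le hab]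
      exact Set.Icc_subset_Icc ha.1 hb.2
    have h1 : IntervalIntegrable f volume a b := (hf.mono hs).intervalIntegrable
    have h2 : IntervalIntegrable h volume a b := (hh.mono hs).intervalIntegrable
    rw [intervalIntegrable_iff_integrableOn_Ioc_of_le hab] at h1 h2 ⊢
    refine Integrable.of_bound ((h1.aestronglyMeasurable.sub h2.aestronglyMeasurable).pow 2)
      ((2 * C) ^ 2) ?_
    · rw [ae_restrict_iff' measurableSet_Ioc]
      refine Filter.Eventually.of_forall fun x hx => ?_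
      have hx' : x ∈ Set.Icc (0 : ℝ) 1 := ⟨ha.1.trans hx.1.le, hx.2.trans hb.2⟩
      have := hfb x hx'
      have := hhb x hx'
      rw [Real.norm_eq_abs, abs_pow]
      gcongr
      calc |f x - h x| ≤ |f x| + |h x| := abs_sub _ _
        _ ≤ 2 * C := by linarith
  have hsum : ∑ m ∈ Finset.range n, ∫ r in ((m : ℝ) / n)..(((m + 1 : ℕ) : ℝ) / n), (f r - h r) ^ 2 =
      ∫ r in (((0 : ℕ) : ℝ) / n)..((n : ℝ) / n), (f r - h r) ^ 2 := by
    apply intervalIntegral.sum_integral_adjacent_intervals (a := fun m : ℕ => (m : ℝ) / n)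
    intro k hk
    apply hint _ (hpt k hk.le) _ (hpt (k + 1) hk)
    simp only [Nat.cast_add, Nat.cast_one]
    gcongr
    linarith
  rw [Nat.cast_zero, zero_div, div_self hn'.ne'] at hsum
  rw [← hsum]
  have hpiece : ∀ m ∈ Finset.range n,
      ∫ r in ((m : ℝ) / n)..(((m + 1 : ℕ) : ℝ) / n), (f r - h r) ^ 2 ≤
        (1 / n) * (2 * C * ((f (((m + 1 : ℕ) : ℝ) / n) - f ((m : ℝ) / n)) + 3 * δ)) := by
    intro m hm
    rw [Finset.mem_range] at hm
    have hm1 := hpt m hm.le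
    have hm2 := hpt (m + 1) hm
    have hle : (m : ℝ) / n ≤ (((m + 1 : ℕ) : ℝ) / n) := by
      simp only [Nat.cast_add, Nat.cast_one]
      gcongr
      linarith
    have hlen : (((m + 1 : ℕ) : ℝ) / n) - (m : ℝ) / n = 1 / n := by
      push_cast
      ring
    have hconst : ∫ r in ((m : ℝ) / n)..(((m + 1 : ℕ) : ℝ) / n),
        (2 * C * ((f (((m + 1 : ℕ) : ℝ) / n) - f ((m : ℝ) / n)) + 3 * δ)) =
        (1 / n) * (2 * C * ((f (((m + 1 : ℕ) : ℝ) / n) - f ((m : ℝ) / n)) + 3 * δ)) := by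
      rw [intervalIntegral.integral_const, smul_eq_mul, hlen]
    rw [← hconst]
    apply intervalIntegral.integral_mono_on hle (hint _ hm1 _ hm2 hle) intervalIntegrable_const
    intro x hx
    have hx' : x ∈ Set.Icc (0 : ℝ) 1 := ⟨hm1.1.trans hx.1, hx.2.trans hm2.2⟩
    have a1 := hf hm1 hx' hx.1
    have a2 := hf hx' hm2 hx.2
    have a3 := hh hm1 hx' hx.1
    have a4 := hh hx' hm2 hx.2
    have g1 := abs_le.1 (hg m hm.le)
    have g2 := abs_le.1 (hg (m + 1) hm)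
    have b1 := abs_le.1 (hfb x hx')
    have b2 := abs_le.1 (hhb x hx')
    have key : |f x - h x| ≤ (f (((m + 1 : ℕ) : ℝ) / n) - f ((m : ℝ) / n)) + 3 * δ := by
      rw [abs_le]
      constructor <;> linarith [g1.1, g1.2, g2.1, g2.2]
    have key2 : |f x - h x| ≤ 2 * C := by
      rw [abs_le]
      constructor <;> linarith [b1.1, b1.2, b2.1, b2.2]
    calc (f x - h x) ^ 2 = |f x - h x| * |f x - h x| := by rw [← sq_abs]; ring
      _ ≤ 2 * C * ((f (((m + 1 : ℕ) : ℝ) / n) - f ((m : ℝ) / n)) + 3 * δ) := by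
          apply mul_le_mul key2 key (abs_nonneg _) (by positivity)
  refine (Finset.sum_le_sum hpiece).trans ?_
  rw [← Finset.mul_sum, ← Finset.mul_sum, Finset.sum_add_distrib, Finset.sum_const,
    Finset.card_range, nsmul_eq_mul]
  have htel : ∑ i ∈ Finset.range n, (f (((i + 1 : ℕ) : ℝ) / n) - f ((i : ℝ) / n)) =
      f ((n : ℝ) / n) - f (((0 : ℕ) : ℝ) / n) :=
    Finset.sum_range_sub (fun i : ℕ => f ((i : ℝ) / n)) n
  rw [htel, Nat.cast_zero, zero_div, div_self hn'.ne']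
  have b1 := abs_le.1 (hfb 0 ⟨le_rfl, zero_le_one⟩)
  have b2 := abs_le.1 (hfb 1 ⟨zero_le_one, le_rfl⟩)
  have h1 : f 1 - f 0 ≤ 2 * C := by linarith [b1.1, b2.2]
  calc 1 / (n : ℝ) * (2 * C * (f 1 - f 0 + n * (3 * δ)))
      ≤ 1 / (n : ℝ) * (2 * C * (2 * C + n * (3 * δ))) := by gcongr
    _ = 2 * C * (2 * C / n + 3 * δ) := by field_simp

/-- Helly selection for a countable family of monotone functions -/
theorem helly (a : ℕ → ℕ → ℝ → ℝ) (C : ℕ → ℝ)
    (hb : ∀ i k, ∀ r ∈ Set.Icc (0 : ℝ) 1, |a i k r| ≤ C k)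
    (hm : ∀ i k, MonotoneOn (a i k) (Set.Icc (0 : ℝ) 1)) :
    ∃ φ : ℕ → ℕ, StrictMono φ ∧ ∀ k, ∀ ε : ℝ, 0 < ε → ∃ j0, ∀ i j, j0 ≤ i → j0 ≤ j →
      ∫ r in (0 : ℝ)..1, (a (φ i) k r - a (φ j) k r) ^ 2 ≤ ε := by
  classical
  set K : Set (ℕ × ℕ × ℕ → ℝ) := Set.pi Set.univ (fun x => Set.Icc (-C x.1) (C x.1)) with hK
  have hKc : IsCompact K := isCompact_univ_pi (fun x => isCompact_Icc)
  set u : ℕ → (ℕ × ℕ × ℕ → ℝ) := fun i x =>
    if x.2.1 ≤ x.2.2 ∧ 0 < x.2.2 then a i x.1 ((x.2.1 : ℝ) / (x.2.2 : ℝ)) else a i x.1 0 with hu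
  have huK : ∀ i, u i ∈ K := by
    intro i x _
    have h0 : |u i x| ≤ C x.1 := by
      simp only [hu]
      split_ifs with hx
      · apply hb
        have : (0 : ℝ) < x.2.2 := by exact_mod_cast hx.2
        refine ⟨by positivity, ?_⟩
        rw [div_le_one this]
        exact_mod_cast hx.1
      · exact hb _ _ _ ⟨le_rfl, zero_le_one⟩
    exact abs_le.1 h0
  obtain ⟨g, -, φ, hφ, hlim⟩ := hKc.tendsto_subseq huK
  rw [tendsto_pi_nhds] at hlim
  refine ⟨φ, hφ, ?_⟩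
  intro k ε hε
  have hCk : 0 ≤ C k := le_trans (abs_nonneg _) (hb 0 k 0 ⟨le_rfl, zero_le_one⟩)
  obtain ⟨n, hn⟩ := exists_nat_gt (8 * (C k) ^ 2 / ε)
  have hn0 : 0 < n := by
    have : (0 : ℝ) < n := lt_of_le_of_lt (by positivity) hn
    exact_mod_cast this
  have hn' : (0 : ℝ) < n := by exact_mod_cast hn0
  set δ : ℝ := ε / (12 * (C k + 1)) with hδ
  have hδ0 : 0 < δ := by positivity
  have hev : ∀ m ∈ Finset.range (n + 1), ∀ᶠ i in atTop,
      |u (φ i) (k, m, n) - g (k, m, n)| < δ / 2 := by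
    intro m _
    have := hlim (k, m, n)
    rw [Metric.tendsto_nhds] at this
    have h2 := this (δ / 2) (by positivity)
    simpa [Real.dist_eq] using h2
  have hev2 := (Filter.eventually_all_finset (Finset.range (n + 1))).2 hev
  obtain ⟨j0, hj0⟩ := eventually_atTop.1 hev2
  refine ⟨j0, fun i j hi hj => ?_⟩
  have hmain := two_mono (a (φ i) k) (a (φ j) k) (C k) δ n hn0 (hm _ _) (hm _ _) (hb _ _) (hb _ _) ?_
  · refine hmain.trans ?_
    have h1 : 2 * C k * (2 * C k / n) ≤ ε / 2 := by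
      rw [div_lt_iff₀ hε] at hn
      have : 2 * C k * (2 * C k / n) = 4 * (C k) ^ 2 / n := by ring
      rw [this, div_le_iff₀ hn']
      nlinarith
    have h2 : 2 * C k * (3 * δ) ≤ ε / 2 := by
      rw [hδ]
      rw [show 2 * C k * (3 * (ε / (12 * (C k + 1)))) = (ε / 2) * (C k / (C k + 1)) by
        field_simp; ring]
      have : C k / (C k + 1) ≤ 1 := by
        rw [div_le_one (by positivity)]
        linarith
      nlinarith
    calc 2 * C k * (2 * C k / n + 3 * δ) = 2 * C k * (2 * C k / n) + 2 * C k * (3 * δ) := by ring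
      _ ≤ ε := by linarith
  · intro m hmn
    have e : ∀ i', u i' (k, m, n) = a i' k ((m : ℝ) / n) := by
      intro i'
      simp only [hu]
      rw [if_pos ⟨hmn, hn0⟩]
    have h1 := hj0 i hi m (Finset.mem_range.2 (by omega))
    have h2 := hj0 j hj m (Finset.mem_range.2 (by omega))
    rw [e] at h1 h2
    have h3 := abs_lt.1 h1
    have h4 := abs_lt.1 h2
    rw [abs_le]
    constructor <;> linarith [h3.1, h3.2, h4.1, h4.2]

end Crest.Agent.TI
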