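import Crest.Agent.TI_CritD
import Crest.Agent.TI_OdeA
import Crest.Agent.TI_OdeB

/-!
Row S0241, task CritB: convergence at the critical point along a sequence
-/

set_option autoImplicit false
set_option linter.unusedSectionVars false
set_option linter.unusedVariables false

namespace Crest.Agent.TI

open MeasureTheory Filter Topology
open Crest.Agent.SRF (Lab lab)

/-! ### bounded measurable functions on an interval -/

/-- measurable and bounded on `[s, t]` -/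
def critB_GB (s t : ℝ) (f : ℝ → ℝ) : Prop := Measurable f ∧ ∃ M : ℝ, ∀ r ∈ Set.Icc s t, |f r| ≤ M

theorem critB_GB.add {s t : ℝ} {f g : ℝ → ℝ} (hf : critB_GB s t f) (hg : critB_GB s t g) :
    critB_GB s t (fun r => f r + g r) := by
  obtain ⟨hf1, M, hM⟩ := hf
  obtain ⟨hg1, M', hM'⟩ := hg
  exact ⟨hf1.add hg1, M + M', fun r hr => (abs_add_le _ _).trans (add_le_add (hM r hr) (hM' r hr))⟩

theorem critB_GB.mul {s t : ℝ} {f g : ℝ → ℝ} (hf : critB_GB s t f) (hg : critB_GB s t g) :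
    critB_GB s t (fun r => f r * g r) := by
  obtain ⟨hf1, M, hM⟩ := hf
  obtain ⟨hg1, M', hM'⟩ := hg
  refine ⟨hf1.mul hg1, M * M', fun r hr => ?_⟩
  rw [abs_mul]
  exact mul_le_mul (hM r hr) (hM' r hr) (abs_nonneg _) ((abs_nonneg _).trans (hM r hr))

theorem critB_GB.pow {s t : ℝ} {f : ℝ → ℝ} (hf : critB_GB s t f) (n : ℕ) :
    critB_GB s t (fun r => f r ^ n) := by
  obtain ⟨hf1, M, hM⟩ := hf
  refine ⟨hf1.pow_const n, M ^ n, fun r hr => ?_⟩
  rw [abs_pow]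
  exact pow_le_pow_left₀ (abs_nonneg _) (hM r hr) n

theorem critB_GB_const (s t c : ℝ) : critB_GB s t (fun _ => c) :=
  ⟨measurable_const, |c|, fun _ _ => le_rfl⟩

theorem critB_GB_cont {s t : ℝ} {f : ℝ → ℝ} (hm : Measurable f) (hf : ContinuousOn f (Set.Icc s t)) :
    critB_GB s t f := by
  obtain ⟨M, hM⟩ := isCompact_Icc.exists_bound_of_continuousOn hf
  exact ⟨hm, M, fun r hr => by simpa using hM r hr⟩

theorem critB_GB_rpow {s t : ℝ} (hs : 0 < s) (a : ℝ) : critB_GB s t (fun r => r ^ a) := by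
  refine critB_GB_cont (measurable_id.pow_const a) ?_
  intro r hr
  exact (Real.continuousAt_rpow_const r a (Or.inl (by
    have := hr.1
    intro h
    rw [h] at this
    linarith))).continuousWithinAt

theorem critB_GB.exp {s t : ℝ} {f : ℝ → ℝ} (hf : critB_GB s t f) :
    critB_GB s t (fun r => Real.exp (f r)) := by
  obtain ⟨hf1, M, hM⟩ := hf
  refine ⟨hf1.exp, Real.exp M, fun r hr => ?_⟩
  rw [abs_of_pos (Real.exp_pos _)]
  exact Real.exp_le_exp.2 ((le_abs_self _).trans (hM r hr))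

theorem critB_GB.intervalIntegrable {s t : ℝ} {f : ℝ → ℝ} (hf : critB_GB s t f) (hst : s ≤ t) :
    IntervalIntegrable f volume s t := by
  obtain ⟨hf1, M, hM⟩ := hf
  rw [intervalIntegrable_iff_integrableOn_Icc_of_le hst]
  refine Measure.integrableOn_of_bounded (M := M) ?_ hf1.aestronglyMeasurable ?_
  · simp
  · exact (ae_restrict_iff' measurableSet_Icc).2 (Filter.Eventually.of_forall fun r hr => by
      simpa using hM r hr)

section CRIT

variable {V : Type*} [DecidableEq V] [Countable V] {G : SimpleGraph V} [G.LocallyFinite]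

/-- integrand of the first inequality -/
theorem critB_mono_one {s t C C1 c c1 : ℝ} (hs : 0 < s) (hst : s ≤ t) (ht : t ≤ 1) (hC : C1 ≤ C) (hC1 : 0 ≤ C1)
    (hc : c ≤ c1) (Z μ : ℝ → ℝ) (hZm : Measurable Z) (hμm : Measurable μ)
    (hZ : ∀ r ∈ Set.Icc (0 : ℝ) 1, 0 ≤ Z r ∧ Z r ≤ 4) (D : ℝ)
    (hμ : ∀ r ∈ Set.Icc (0 : ℝ) 1, 0 ≤ μ r ∧ μ r ≤ D)
    (N : ℝ → ℕ) (hN : Measurable N) (hNb : ∃ M, ∀ r, N r ≤ M) :
    ∫ r in s..t, r ^ 2 * (C1 * ((N r : ℝ) * Z r +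
          (N r : ℝ) ^ 2 * (r ^ (1 / 2 : ℝ) * Z r + Real.exp (-c1 * r ^ (-(1 / 4) : ℝ))) +
          (N r : ℝ) ^ 3 * μ r + r ^ (-(3 / 2) : ℝ) * Real.exp (-c1 * r ^ (3 / 2 : ℝ) * N r))) ≤
    ∫ r in s..t, r ^ 2 * (C * ((N r : ℝ) * Z r +
          (N r : ℝ) ^ 2 * (r ^ (1 / 2 : ℝ) * Z r + Real.exp (-c * r ^ (-(1 / 4) : ℝ))) +
          (N r : ℝ) ^ 3 * μ r + r ^ (-(3 / 2) : ℝ) * Real.exp (-c * r ^ (3 / 2 : ℝ) * N r))) := by
  have gZ : critB_GB s t Z := ⟨hZm, 4, fun r hr => by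
    have := hZ r ⟨hs.le.trans hr.1, hr.2.trans ht⟩
    rw [abs_of_nonneg this.1]; exact this.2⟩
  have gμ : critB_GB s t μ := ⟨hμm, D, fun r hr => by
    have := hμ r ⟨hs.le.trans hr.1, hr.2.trans ht⟩
    rw [abs_of_nonneg this.1]; exact this.2⟩
  have gN : critB_GB s t (fun r => (N r : ℝ)) := by
    obtain ⟨M, hM⟩ := hNb
    refine ⟨(measurable_from_top (f := fun n : ℕ => (n : ℝ))).comp hN, M, fun r hr => ?_⟩
    rw [abs_of_nonneg (Nat.cast_nonneg _)]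
    show (N r : ℝ) ≤ (M : ℝ)
    exact_mod_cast hM r
  have gr : critB_GB s t (fun r => r) := critB_GB_cont measurable_id continuousOn_id
  have key : ∀ C c : ℝ, IntervalIntegrable (fun r => r ^ 2 * (C * ((N r : ℝ) * Z r +
          (N r : ℝ) ^ 2 * (r ^ (1 / 2 : ℝ) * Z r + Real.exp (-c * r ^ (-(1 / 4) : ℝ))) +
          (N r : ℝ) ^ 3 * μ r + r ^ (-(3 / 2) : ℝ) * Real.exp (-c * r ^ (3 / 2 : ℝ) * N r)))) volume s t := by
    intro C c
    refine critB_GB.intervalIntegrable ?_ hst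
    refine (gr.pow 2).mul ((critB_GB_const s t C).mul ?_)
    refine (((gN.mul gZ).add ((gN.pow 2).mul (((critB_GB_rpow hs _).mul gZ).add ?_))).add
      ((gN.pow 3).mul gμ)).add ((critB_GB_rpow hs _).mul ?_)
    · exact ((critB_GB_const s t (-c)).mul (critB_GB_rpow hs _)).exp
    · exact (((critB_GB_const s t (-c)).mul (critB_GB_rpow hs _)).mul gN).exp
  refine intervalIntegral.integral_mono_on hst (key _ _) (key _ _) fun r hr => ?_
  have hr0 : 0 < r := hs.trans_le hr.1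
  have h1 := hZ r ⟨hr0.le, hr.2.trans ht⟩
  have h2 := hμ r ⟨hr0.le, hr.2.trans ht⟩
  have e1 : Real.exp (-c1 * r ^ (-(1 / 4) : ℝ)) ≤ Real.exp (-c * r ^ (-(1 / 4) : ℝ)) := by
    apply Real.exp_le_exp.2
    have : 0 ≤ r ^ (-(1 / 4) : ℝ) := Real.rpow_nonneg hr0.le _
    nlinarith
  have e2 : Real.exp (-c1 * r ^ (3 / 2 : ℝ) * N r) ≤ Real.exp (-c * r ^ (3 / 2 : ℝ) * N r) := by
    apply Real.exp_le_exp.2
    have : 0 ≤ r ^ (3 / 2 : ℝ) * N r := mul_nonneg (Real.rpow_nonneg hr0.le _) (Nat.cast_nonneg _)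
    nlinarith
  have p1 : 0 ≤ r ^ (1 / 2 : ℝ) := Real.rpow_nonneg hr0.le _
  have p2 : 0 ≤ r ^ (-(3 / 2) : ℝ) := Real.rpow_nonneg hr0.le _
  have hN0 : (0 : ℝ) ≤ N r := Nat.cast_nonneg _
  refine mul_le_mul_of_nonneg_left ?_ (by positivity)
  refine mul_le_mul hC ?_ ?_ (hC1.trans hC)
  · have q1 := mul_le_mul_of_nonneg_left e1 (by positivity : (0 : ℝ) ≤ (N r : ℝ) ^ 2)
    have q2 := mul_le_mul_of_nonneg_left e2 p2
    nlinarith
  · have := h1.1
    have := h2.1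
    positivity

theorem critB_mono_two {s t C C1 c c1 : ℝ} (hs : 0 < s) (hst : s ≤ t) (ht : t ≤ 1) (hC : C1 ≤ C) (hC1 : 0 ≤ C1)
    (hc : c ≤ c1) (Z μ : ℝ → ℝ) (hZm : Measurable Z) (hμm : Measurable μ)
    (hZ : ∀ r ∈ Set.Icc (0 : ℝ) 1, 0 ≤ Z r ∧ Z r ≤ 4) (D : ℝ)
    (hμ : ∀ r ∈ Set.Icc (0 : ℝ) 1, 0 ≤ μ r ∧ μ r ≤ D)
    (N : ℝ → ℕ) (hN : Measurable N) (hNb : ∃ M, ∀ r, N r ≤ M) :
    ∫ r in s..t, r ^ 2 * (C1 * ((N r : ℝ) ^ 2 * Z r +
          (N r : ℝ) ^ 3 * μ r + r ^ (-(9 / 2) : ℝ) * Real.exp (-c1 * r ^ (3 / 2 : ℝ) * N r) *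
            (Z r + μ r) + Real.exp (-((21 / 20 : ℝ) ^ (N r))))) ≤
    ∫ r in s..t, r ^ 2 * (C * ((N r : ℝ) ^ 2 * Z r +
          (N r : ℝ) ^ 3 * μ r + r ^ (-(9 / 2) : ℝ) * Real.exp (-c * r ^ (3 / 2 : ℝ) * N r) *
            (Z r + μ r) + Real.exp (-((21 / 20 : ℝ) ^ (N r))))) := by
  have gZ : critB_GB s t Z := ⟨hZm, 4, fun r hr => by
    have := hZ r ⟨hs.le.trans hr.1, hr.2.trans ht⟩
    rw [abs_of_nonneg this.1]; exact this.2⟩
  have gμ : critB_GB s t μ := ⟨hμm, D, fun r hr => by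
    have := hμ r ⟨hs.le.trans hr.1, hr.2.trans ht⟩
    rw [abs_of_nonneg this.1]; exact this.2⟩
  have gN : critB_GB s t (fun r => (N r : ℝ)) := by
    obtain ⟨M, hM⟩ := hNb
    refine ⟨(measurable_from_top (f := fun n : ℕ => (n : ℝ))).comp hN, M, fun r hr => ?_⟩
    rw [abs_of_nonneg (Nat.cast_nonneg _)]
    show (N r : ℝ) ≤ (M : ℝ)
    exact_mod_cast hM r
  have gr : critB_GB s t (fun r => r) := critB_GB_cont measurable_id continuousOn_id
  have gE : critB_GB s t (fun r => Real.exp (-((21 / 20 : ℝ) ^ (N r)))) := by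
    refine ⟨(measurable_from_top (f := fun n : ℕ => Real.exp (-((21 / 20 : ℝ) ^ n)))).comp hN, 1,
      fun r hr => ?_⟩
    rw [abs_of_pos (Real.exp_pos _)]
    apply Real.exp_le_one_iff.2
    have : (0 : ℝ) < (21 / 20 : ℝ) ^ (N r) := by positivity
    linarith
  have key : ∀ C c : ℝ, IntervalIntegrable (fun r => r ^ 2 * (C * ((N r : ℝ) ^ 2 * Z r +
          (N r : ℝ) ^ 3 * μ r + r ^ (-(9 / 2) : ℝ) * Real.exp (-c * r ^ (3 / 2 : ℝ) * N r) *
            (Z r + μ r) + Real.exp (-((21 / 20 : ℝ) ^ (N r)))))) volume s t := by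
    intro C c
    refine critB_GB.intervalIntegrable ?_ hst
    refine (gr.pow 2).mul ((critB_GB_const s t C).mul ?_)
    refine ((((gN.pow 2).mul gZ).add ((gN.pow 3).mul gμ)).add (((critB_GB_rpow hs _).mul ?_).mul
      (gZ.add gμ))).add gE
    exact (((critB_GB_const s t (-c)).mul (critB_GB_rpow hs _)).mul gN).exp
  refine intervalIntegral.integral_mono_on hst (key _ _) (key _ _) fun r hr => ?_
  have hr0 : 0 < r := hs.trans_le hr.1
  have h1 := hZ r ⟨hr0.le, hr.2.trans ht⟩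
  have h2 := hμ r ⟨hr0.le, hr.2.trans ht⟩
  have e2 : Real.exp (-c1 * r ^ (3 / 2 : ℝ) * N r) ≤ Real.exp (-c * r ^ (3 / 2 : ℝ) * N r) := by
    apply Real.exp_le_exp.2
    have : 0 ≤ r ^ (3 / 2 : ℝ) * N r := mul_nonneg (Real.rpow_nonneg hr0.le _) (Nat.cast_nonneg _)
    nlinarith
  have p2 : 0 ≤ r ^ (-(9 / 2) : ℝ) := Real.rpow_nonneg hr0.le _
  have hN0 : (0 : ℝ) ≤ N r := Nat.cast_nonneg _
  have h3 : 0 ≤ Z r + μ r := add_nonneg h1.1 h2.1
  refine mul_le_mul_of_nonneg_left ?_ (by positivity)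
  refine mul_le_mul hC ?_ ?_ (hC1.trans hC)
  · have q2 := mul_le_mul_of_nonneg_right (mul_le_mul_of_nonneg_left e2 p2) h3
    linarith
  · have := h1.1
    have := h2.1
    positivity

/-- the integral of the error term -/
theorem critB_int_muf (hT : G.IsTree) (b : ℕ) (hb : 2 ≤ b) (hreg : G.IsRegularOfDegree (b + 1))
    (θ θ' : ℝ) (h0 : 0 ≤ θ) (h1 : b * θ ^ 2 < 1) (h0' : 0 ≤ θ') (h1' : b * θ' ^ 2 < 1) (k : ℕ)
    (x y : V) (hxy : G.Adj x y) : ∫ r in (0 : ℝ)..1, muf G b θ θ' k x y r =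
      (∫ r in (0 : ℝ)..1, (af G b θ k x y r - af G b θ' k x y r) ^ 2) + (θ - θ') ^ 2 := by
  have hm := measurable_muf hT b hb hreg θ θ' h0 h1 h0' h1' k x y hxy
  obtain ⟨C, hC, hC2⟩ := muf_bound hT b hb hreg k
  have g1 : critB_GB 0 1 (muf G b θ θ' k x y) := ⟨hm, C, fun r hr => by
    have := hC2 θ θ' x y r h0 h1.le h0' h1'.le
    rw [abs_of_nonneg this.1]; exact this.2⟩
  have e1 : ∫ r in (0 : ℝ)..1, (af G b θ k x y r - af G b θ' k x y r) ^ 2 =
      ∫ r in (0 : ℝ)..1, (muf G b θ θ' k x y r - (θ - θ') ^ 2) := by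
    refine intervalIntegral.integral_congr fun r hr => ?_
    rw [Set.uIcc_of_le zero_le_one] at hr
    simp only [muf, Set.indicator_of_mem hr]
    ring
  rw [e1, intervalIntegral.integral_sub (g1.intervalIntegrable zero_le_one)
    intervalIntegrable_const, intervalIntegral.integral_const]
  simp

theorem critB_Z_const (hT : G.IsTree) (b : ℕ) (hb : 2 ≤ b) (hreg : G.IsRegularOfDegree (b + 1))
    (θ θ' : ℝ) (h0 : 0 ≤ θ) (h1 : b * θ ^ 2 < 1) (h0' : 0 ≤ θ') (h1' : b * θ' ^ 2 < 1) (k : ℕ)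
    (r : ℝ) (hr0 : 0 ≤ r) (hr1 : r ≤ 1) (v v' : V) :
    ∫ ω, (mI G b θ k r v ω - mI G b θ' k r v ω) ^ 2 ∂PP V =
      ∫ ω, (mI G b θ k r v' ω - mI G b θ' k r v' ω) ^ 2 ∂PP V :=
  Z_const hT b hreg (fld_I hT b hb hreg θ h0 h1 k r hr0 hr1) (fld_I hT b hb hreg θ' h0' h1' k r hr0 hr1) v v'

/-- along a suitable sequence increasing to the critical value the fields are Cauchy -/
theorem crit_seq (hT : G.IsTree) (b : ℕ) (hb : 2 ≤ b) (hreg : G.IsRegularOfDegree (b + 1))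
    (θc : ℝ) (hθc0 : 0 ≤ θc) (hθc : b * θc ^ 2 = 1) :
    ∃ θs : ℕ → ℝ, (∀ j, 0 ≤ θs j ∧ b * θs j ^ 2 < 1) ∧ Tendsto θs atTop (𝓝 θc) ∧
      ∀ (k : ℕ) (η : ℝ), 0 < η → ∃ j0, ∀ i j, j0 ≤ i → j0 ≤ j → ∀ (v : V) (r : ℝ), 0 ≤ r → r ≤ 1 →
        ∫ ω, (mI G b (θs i) k r v ω - mI G b (θs j) k r v ω) ^ 2 ∂PP V ≤ η := by
  classical
  -- an edge
  obtain ⟨x⟩ := hT.connected.nonempty
  obtain ⟨y, hxy⟩ : ∃ y, G.Adj x y := by
    have h := hreg x
    have hpos : 0 < G.degree x := by rw [h]; omega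
    exact (G.degree_pos_iff_exists_adj x).1 hpos
  -- the initial sequence
  set θ0 : ℕ → ℝ := fun i => θc * Real.sqrt (1 - 1 / ((i : ℝ) + 2)) with hθ0
  have hfrac : ∀ i : ℕ, 0 < 1 / ((i : ℝ) + 2) ∧ 1 / ((i : ℝ) + 2) ≤ 1 / 2 := by
    intro i
    have hi : (0 : ℝ) ≤ i := Nat.cast_nonneg i
    constructor
    · positivity
    · exact one_div_le_one_div_of_le (by norm_num) (by linarith)
  have hb0 : ∀ i, b * θ0 i ^ 2 = 1 - 1 / ((i : ℝ) + 2) := by
    intro i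
    have := hfrac i
    simp only [hθ0]
    rw [mul_pow, Real.sq_sqrt (by linarith), ← mul_assoc, hθc, one_mul]
  have hpos0 : ∀ i, 0 ≤ θ0 i := fun i => mul_nonneg hθc0 (Real.sqrt_nonneg _)
  have hlim0 : Tendsto (fun i : ℕ => 1 - 1 / ((i : ℝ) + 2)) atTop (𝓝 1) := by
    have h1 : Tendsto (fun i : ℕ => (i : ℝ) + 2) atTop atTop :=
      tendsto_atTop_add_const_right _ _ tendsto_natCast_atTop_atTop
    have h2 : Tendsto (fun i : ℕ => 1 / ((i : ℝ) + 2)) atTop (𝓝 0) := by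
      simp only [one_div]
      exact tendsto_inv_atTop_zero.comp h1
    have := (tendsto_const_nhds (x := (1 : ℝ))).sub h2
    simpa using this
  have hlimθ0 : Tendsto θ0 atTop (𝓝 θc) := by
    have h1 : Tendsto (fun i : ℕ => Real.sqrt (1 - 1 / ((i : ℝ) + 2))) atTop (𝓝 (Real.sqrt 1)) :=
      (Real.continuous_sqrt.tendsto 1).comp hlim0
    have h2 := (tendsto_const_nhds (x := θc)).mul h1
    rw [Real.sqrt_one, mul_one] at h2
    exact h2
  -- selection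
  have hafb : ∀ k, ∃ C : ℝ, 0 < C ∧ ∀ (θ : ℝ) (x y : V) (r : ℝ), 0 ≤ θ → b * θ ^ 2 ≤ 1 →
      |af G b θ k x y r| ≤ C := fun k => af_bound hT b hb hreg k
  choose Ca hCa0 hCa using hafb
  obtain ⟨φ, hφ, hsel⟩ := helly (fun i k r => af G b (θ0 i) k x y r) Ca
    (fun i k r _ => hCa k (θ0 i) x y r (hpos0 i) (by
      rw [hb0]; have := hfrac i; linarith))
    (fun i k => ar_mono hT b hb hreg (θ0 i) (hpos0 i) (by
      rw [hb0]; have := hfrac i; linarith) k x y hxy)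
  set θs : ℕ → ℝ := fun j => θ0 (φ j) with hθs
  have hs0 : ∀ j, 0 ≤ θs j := fun j => hpos0 _
  have hs1 : ∀ j, b * θs j ^ 2 < 1 := fun j => by
    simp only [hθs]; rw [hb0]; have := hfrac (φ j); linarith
  have hs2 : ∀ j, 1 / 2 ≤ b * θs j ^ 2 := fun j => by
    simp only [hθs]; rw [hb0]; have := hfrac (φ j); linarith
  have hslim : Tendsto θs atTop (𝓝 θc) := hlimθ0.comp hφ.tendsto_atTop
  have hsblim : Tendsto (fun j => b * θs j ^ 2) atTop (𝓝 1) := by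
    have h : (fun j => b * θs j ^ 2) = (fun i : ℕ => 1 - 1 / ((i : ℝ) + 2)) ∘ φ := by
      funext j
      simp only [hθs, Function.comp_apply]
      exact hb0 (φ j)
    rw [h]
    exact hlim0.comp hφ.tendsto_atTop
  -- the error terms go to zero
  have hmu : ∀ k, ∀ ε : ℝ, 0 < ε → ∃ j0, ∀ i j, j0 ≤ i → j0 ≤ j →
      ∫ r in (0 : ℝ)..1, muf G b (θs i) (θs j) k x y r ≤ ε := by
    intro k ε hε
    obtain ⟨j1, hj1⟩ := hsel k (ε / 2) (by linarith)
    have hc : CauchySeq θs := hslim.cauchySeq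
    obtain ⟨j2, hj2⟩ := Metric.cauchySeq_iff.1 hc (Real.sqrt (ε / 2)) (Real.sqrt_pos.2 (by linarith))
    refine ⟨max j1 j2, fun i j hi hj => ?_⟩
    rw [critB_int_muf hT b hb hreg _ _ (hs0 i) (hs1 i) (hs0 j) (hs1 j) k x y hxy]
    have a1 := hj1 i j (le_of_max_le_left hi) (le_of_max_le_left hj)
    have a2 := hj2 i (le_of_max_le_right hi) j (le_of_max_le_right hj)
    rw [Real.dist_eq] at a2
    have a3 : (θs i - θs j) ^ 2 ≤ ε / 2 := by
      rw [← sq_abs]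
      have := pow_le_pow_left₀ (abs_nonneg _) a2.le 2
      rwa [Real.sq_sqrt (by linarith)] at this
    have a4 : ∫ r in (0 : ℝ)..1, (af G b (θs i) k x y r - af G b (θs j) k x y r) ^ 2 ≤ ε / 2 := a1
    linarith
  -- induction over the stages
  have main : ∀ (k : ℕ) (η : ℝ), 0 < η → ∃ j0, ∀ i j, j0 ≤ i → j0 ≤ j → ∀ r ∈ Set.Icc (0 : ℝ) 1,
      Zf G b (θs i) (θs j) k x r ≤ η := by
    intro k
    induction k with
    | zero =>
      intro η hη
      obtain ⟨C1, c1, hC1, hc1, hc1', H1⟩ := D_one hT b hb hreg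
      obtain ⟨C2, c2, hC2, hc2, hc2', H2⟩ := D_two hT b hb hreg
      obtain ⟨C3, hC3, H3⟩ := muf_bound hT b hb hreg 0
      obtain ⟨C4, hC4, H4⟩ := Zf_small hT b hb hreg
      set C : ℝ := max (max C1 C2) (max C3 C4) with hC
      set c : ℝ := min c1 c2 with hc
      have l1 : C1 ≤ C := (le_max_left _ _).trans (le_max_left _ _)
      have l2 : C2 ≤ C := (le_max_right _ _).trans (le_max_left _ _)
      have l3 : C3 ≤ C := (le_max_left _ _).trans (le_max_right _ _)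
      have l4 : C4 ≤ C := (le_max_right _ _).trans (le_max_right _ _)
      obtain ⟨ρ, ε, hρ, hρ2, hε, H⟩ := ode_zero C c (hC1.trans l1) (lt_min hc1 hc2)
        ((min_le_left _ _).trans hc1') η hη
      obtain ⟨j1, hj1⟩ := hmu 0 ε hε
      have hρ3 : 0 < ρ ^ (3 / 2 : ℝ) / 17 := by positivity
      have hev : ∀ᶠ j in atTop, 1 - b * θs j ^ 2 ≤ ρ ^ (3 / 2 : ℝ) / 17 := by
        have h := (tendsto_const_nhds (x := (1 : ℝ))).sub hsblim
        rw [sub_self] at h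
        exact (h.eventually (gt_mem_nhds hρ3)).mono fun j hj => le_of_lt hj
      obtain ⟨j2, hj2⟩ := eventually_atTop.1 hev
      refine ⟨max j1 j2, fun i j hi hj => ?_⟩
      have hZm := measurable_Zf hT b hb hreg _ _ (hs0 i) (hs1 i) (hs0 j) (hs1 j) 0 x
      have hμm := measurable_muf hT b hb hreg _ _ (hs0 i) (hs1 i) (hs0 j) (hs1 j) 0 x y hxy
      have hZb : ∀ r ∈ Set.Icc (0 : ℝ) 1, 0 ≤ Zf G b (θs i) (θs j) 0 x r ∧
          Zf G b (θs i) (θs j) 0 x r ≤ 4 := fun r _ => Zf_bound hT b hb hreg _ _ 0 x r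
      have hμb : ∀ r ∈ Set.Icc (0 : ℝ) 1, 0 ≤ muf G b (θs i) (θs j) 0 x y r ∧
          muf G b (θs i) (θs j) 0 x y r ≤ C3 := fun r _ =>
        H3 _ _ x y r (hs0 i) (hs1 i).le (hs0 j) (hs1 j).le
      have hoki : ∀ t0, ρ ≤ t0 → ∀ j', j2 ≤ j' → 1 - b * θs j' ^ 2 ≤ t0 ^ (3 / 2 : ℝ) / 17 := by
        intro t0 ht0 j' hj'
        refine (hj2 j' hj').trans ?_
        have := Real.rpow_le_rpow hρ.le ht0 (by norm_num : (0 : ℝ) ≤ 3 / 2)
        linarith
      refine H (Zf G b (θs i) (θs j) 0 x) (muf G b (θs i) (θs j) 0 x y) hZm hμm hZb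
        (fun r hr => ⟨(hμb r hr).1, (hμb r hr).2.trans l3⟩) (fun r hr => ?_)
        (hj1 i j (le_of_max_le_left hi) (le_of_max_le_left hj)) ?_ ?_
      · refine (H4 _ _ (hs0 i) (hs2 i) (hs1 i) (hs0 j) (hs2 j) (hs1 j) x r hr).trans ?_
        exact mul_le_mul_of_nonneg_right l4 (Real.rpow_nonneg hr.1 _)
      · intro t0 t ht0 ht ht1 N hN hN1 hNb
        refine (H1 _ _ (hs0 i) (hs1 i) (hs0 j) (hs1 j) x x y hxy t0 t (hρ.trans_le ht0) ht ht1
          (hoki t0 ht0 i (le_of_max_le_right hi)) (hoki t0 ht0 j (le_of_max_le_right hj)) N hN hN1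
          hNb).trans ?_
        gcongr
        exact critB_mono_one (hρ.trans_le ht0) ht ht1 l1 (zero_le_one.trans hC1) (min_le_left _ _)
          _ _ hZm hμm hZb C3 hμb N hN hNb
      · intro t0 t ht0 ht ht1 N hN hN1 hNb
        refine (H2 _ _ (hs0 i) (hs1 i) (hs0 j) (hs1 j) x x y hxy t0 t (hρ.trans_le ht0) ht ht1
          (hoki t0 ht0 i (le_of_max_le_right hi)) (hoki t0 ht0 j (le_of_max_le_right hj)) N hN hN1
          hNb).trans ?_
        gcongr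
        exact critB_mono_two (hρ.trans_le ht0) ht ht1 l2 (zero_le_one.trans hC2) (min_le_right _ _)
          _ _ hZm hμm hZb C3 hμb N hN hNb
    | succ k ih =>
      intro η hη
      obtain ⟨C1, hC1, H1⟩ := D_later hT b hb hreg (k + 1) (by omega)
      obtain ⟨C3, hC3, H3⟩ := muf_bound hT b hb hreg (k + 1)
      set C : ℝ := max C1 C3 with hC
      obtain ⟨ε, hε, H⟩ := ode_later C (hC1.trans (le_max_left _ _)) η hη
      obtain ⟨j1, hj1⟩ := hmu (k + 1) ε hε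
      obtain ⟨j3, hj3⟩ := ih ε hε
      have hev : ∀ᶠ j in atTop, 1 - b * θs j ^ 2 ≤ 1 / 17 := by
        have h := (tendsto_const_nhds (x := (1 : ℝ))).sub hsblim
        rw [sub_self] at h
        exact (h.eventually (gt_mem_nhds (by norm_num : (0 : ℝ) < 1 / 17))).mono fun j hj => le_of_lt hj
      obtain ⟨j2, hj2⟩ := eventually_atTop.1 hev
      refine ⟨max j1 (max j2 j3), fun i j hi hj => ?_⟩
      have hi2 : j2 ≤ i := le_of_max_le_left (le_of_max_le_right hi)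
      have hj2' : j2 ≤ j := le_of_max_le_left (le_of_max_le_right hj)
      have hi3 : j3 ≤ i := le_of_max_le_right (le_of_max_le_right hi)
      have hj3' : j3 ≤ j := le_of_max_le_right (le_of_max_le_right hj)
      have hZm := measurable_Zf hT b hb hreg _ _ (hs0 i) (hs1 i) (hs0 j) (hs1 j) (k + 1) x
      have hμm := measurable_muf hT b hb hreg _ _ (hs0 i) (hs1 i) (hs0 j) (hs1 j) (k + 1) x y hxy
      have hZb : ∀ r ∈ Set.Icc (0 : ℝ) 1, 0 ≤ Zf G b (θs i) (θs j) (k + 1) x r ∧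
          Zf G b (θs i) (θs j) (k + 1) x r ≤ 4 := fun r _ => Zf_bound hT b hb hreg _ _ (k + 1) x r
      have hμb : ∀ r ∈ Set.Icc (0 : ℝ) 1, 0 ≤ muf G b (θs i) (θs j) (k + 1) x y r ∧
          muf G b (θs i) (θs j) (k + 1) x y r ≤ C3 := fun r _ =>
        H3 _ _ x y r (hs0 i) (hs1 i).le (hs0 j) (hs1 j).le
      have hZ0 : Zf G b (θs i) (θs j) (k + 1) x 0 ≤ ε := by
        refine le_trans (le_of_eq ?_) (hj3 i j hi3 hj3' 1 ⟨zero_le_one, le_rfl⟩)
        unfold Zf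
        have z0 : (0 : ℝ) ∈ Set.Icc (0 : ℝ) 1 := ⟨le_rfl, zero_le_one⟩
        have z1 : (1 : ℝ) ∈ Set.Icc (0 : ℝ) 1 := ⟨zero_le_one, le_rfl⟩
        rw [Set.indicator_of_mem z0, Set.indicator_of_mem z1]
        refine integral_congr_ae ?_
        filter_upwards [mI_stage hT b hb hreg (θs i) (hs0 i) (hs1 i) k 1 (by norm_num) le_rfl x,
          mI_stage hT b hb hreg (θs j) (hs0 j) (hs1 j) k 1 (by norm_num) le_rfl x] with ω h1 h2
        rw [h1, h2]
      refine H (Zf G b (θs i) (θs j) (k + 1) x) (muf G b (θs i) (θs j) (k + 1) x y) hZm hμm hZb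
        (fun r hr => ⟨(hμb r hr).1, (hμb r hr).2.trans (le_max_right _ _)⟩) hZ0
        (hj1 i j (le_of_max_le_left hi) (le_of_max_le_left hj)) ?_
      intro N hN t ht
      refine (H1 _ _ (hs0 i) (hs1 i) (hs0 j) (hs1 j) x x y hxy (hj2 i hi2) (hj2 j hj2') N hN t
        ht).trans ?_
      gcongr
      have gZ : critB_GB 0 t (Zf G b (θs i) (θs j) (k + 1) x) := ⟨hZm, 4, fun r hr => by
        have := hZb r ⟨hr.1, hr.2.trans ht.2⟩
        rw [abs_of_nonneg this.1]; exact this.2⟩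
      have gμ : critB_GB 0 t (muf G b (θs i) (θs j) (k + 1) x y) := ⟨hμm, C3, fun r hr => by
        have := hμb r ⟨hr.1, hr.2.trans ht.2⟩
        rw [abs_of_nonneg this.1]; exact this.2⟩
      have key : ∀ C : ℝ, IntervalIntegrable (fun r => C * ((N : ℝ) ^ 2 *
          Zf G b (θs i) (θs j) (k + 1) x r + (N : ℝ) ^ 3 * muf G b (θs i) (θs j) (k + 1) x y r +
          Real.exp (-((21 / 20 : ℝ) ^ N)))) volume 0 t := by
        intro C
        refine critB_GB.intervalIntegrable ?_ ht.1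
        exact (critB_GB_const 0 t C).mul ((((critB_GB_const 0 t _).mul gZ).add
          ((critB_GB_const 0 t _).mul gμ)).add (critB_GB_const 0 t _))
      refine intervalIntegral.integral_mono_on ht.1 (key _) (key _) fun r hr => ?_
      have a1 := (hZb r ⟨hr.1, hr.2.trans ht.2⟩).1
      have a2 := (hμb r ⟨hr.1, hr.2.trans ht.2⟩).1
      refine mul_le_mul_of_nonneg_right (le_max_left _ _) ?_
      positivity
  refine ⟨θs, fun j => ⟨hs0 j, hs1 j⟩, hslim, fun k η hη => ?_⟩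
  obtain ⟨j0, hj0⟩ := main k η hη
  refine ⟨j0, fun i j hi hj v r hr0 hr1 => ?_⟩
  rw [critB_Z_const hT b hb hreg _ _ (hs0 i) (hs1 i) (hs0 j) (hs1 j) k r hr0 hr1 v x]
  have := hj0 i j hi hj r ⟨hr0, hr1⟩
  unfold Zf at this
  have hrm : r ∈ Set.Icc (0 : ℝ) 1 := ⟨hr0, hr1⟩
  rwa [Set.indicator_of_mem hrm] at this

end CRIT

end Crest.Agent.TI
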