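import Crest.Agent.TI_PLc

/-!
Row S0241, task PLd: Chernoff bound for sums of squared covariances over a sphere
-/

set_option autoImplicit false
set_option linter.unusedSectionVars false
set_option linter.unusedVariables false

namespace Crest.Agent.TI

open MeasureTheory Filter Topology
open Crest.Agent.SRF (Lab lab)

section Static

variable {V : Type*} [DecidableEq V] {G : SimpleGraph V}

/-- distances grow along a geodesic that leaves `w` -/
theorem pld_away (hT : G.IsTree) {x : ℕ → V} {n : ℕ} (hx : Geo G x n) (w : V)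
    (h : G.dist w (x 1) = G.dist w (x 0) + 1) :
    ∀ i, i < n → G.dist w (x (i + 1)) = G.dist w (x i) + 1 := by
  intro i
  induction i with
  | zero => intro _; exact h
  | succ i ih =>
    intro hi
    have h1 := ih (by omega)
    rcases dist_edge hT (geo_adj hx (i + 1) hi) w with h2 | h2
    · exact h2
    · exfalso
      have h3 := closer_unique hT (u := w) (geo_adj hx (i + 1) hi).symm
        (geo_adj hx i (by omega)) h2 h1
      have h4 := hx i (i + 1 + 1) (by omega) (by omega)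
      rw [h3, SimpleGraph.dist_self] at h4
      omega

theorem pld_ex_flip (θ : ℝ) (W : Finset V) (l : V → Bool → ℝ) (f : Finset V → ℝ) :
    ∑ S ∈ W.powerset, ip G θ W S * lw (fun v c => l v (!c)) W S * f S =
      ∑ S ∈ W.powerset, ip G θ W S * lw l W S * f (W \ S) := by
  refine Finset.sum_nbij' (fun S => W \ S) (fun S => W \ S) ?_ ?_ ?_ ?_ ?_
  · intro S hS
    rw [Finset.mem_powerset]; exact Finset.sdiff_subset
  · intro S hS
    rw [Finset.mem_powerset]; exact Finset.sdiff_subset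
  · intro S hS
    exact Finset.sdiff_sdiff_eq_self (Finset.mem_powerset.1 hS)
  · intro S hS
    exact Finset.sdiff_sdiff_eq_self (Finset.mem_powerset.1 hS)
  · intro S hS
    have hS' := Finset.mem_powerset.1 hS
    rw [ip_flip θ W S hS', Finset.sdiff_sdiff_eq_self hS']
    congr 2
    unfold lw
    refine Finset.prod_congr rfl (fun v hv => ?_)
    by_cases h : v ∈ S <;> simp [h, hv]

theorem pld_pt_flip (θ : ℝ) (W : Finset V) (l : V → Bool → ℝ) :
    pt (ip G θ W) W (fun v c => l v (!c)) = pt (ip G θ W) W l := by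
  have := pld_ex_flip (G := G) θ W l (fun _ => 1)
  simpa [pt] using this

theorem pld_spin_compl {W S : Finset V} {v : V} (hv : v ∈ W) : spin (W \ S) v = - spin S v := by
  unfold spin
  by_cases h : v ∈ S <;> simp [h, hv]

theorem pld_mn_flip (θ : ℝ) (W : Finset V) (l : V → Bool → ℝ) {v : V} (hv : v ∈ W) :
    mn (ip G θ W) W (fun v c => l v (!c)) v = - mn (ip G θ W) W l v := by
  unfold mn ex
  rw [pld_pt_flip, pld_ex_flip, ← neg_div, ← Finset.sum_neg_distrib]
  congr 1
  refine Finset.sum_congr rfl (fun S _ => ?_)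
  rw [pld_spin_compl hv]; ring

theorem pld_cv_flip (θ : ℝ) (W : Finset V) (l : V → Bool → ℝ) {v u : V} (hv : v ∈ W) (hu : u ∈ W) :
    cv (ip G θ W) W (fun v c => l v (!c)) v u = cv (ip G θ W) W l v u := by
  unfold cv
  rw [pld_mn_flip θ W l hv, pld_mn_flip θ W l hu]
  have : ex (ip G θ W) W (fun v c => l v (!c)) (fun S => spin S v * spin S u) =
      ex (ip G θ W) W l (fun S => spin S v * spin S u) := by
    unfold ex
    rw [pld_pt_flip, pld_ex_flip]
    congr 1
    refine Finset.sum_congr rfl (fun S _ => ?_)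
    rw [pld_spin_compl hv, pld_spin_compl hu]; ring
  rw [this]; ring

theorem pld_measurable_lw (W S : Finset V) : Measurable (fun l : V → Bool → ℝ => lw l W S) := by
  unfold lw
  refine Finset.measurable_prod _ (fun v _ => ?_)
  fun_prop

theorem pld_measurable_pt (p : Finset V → ℝ) (W : Finset V) :
    Measurable (fun l : V → Bool → ℝ => pt p W l) := by
  unfold pt
  refine Finset.measurable_sum _ (fun S _ => ?_)
  exact (pld_measurable_lw W S).const_mul _

theorem pld_measurable_ex (p : Finset V → ℝ) (W : Finset V) (f : Finset V → ℝ) :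
    Measurable (fun l : V → Bool → ℝ => ex p W l f) := by
  unfold ex
  refine Measurable.div (Finset.measurable_sum _ (fun S _ => ?_)) (pld_measurable_pt p W)
  exact ((pld_measurable_lw W S).const_mul _).mul_const _

theorem pld_measurable_cv (p : Finset V → ℝ) (W : Finset V) (v u : V) :
    Measurable (fun l : V → Bool → ℝ => cv p W l v u) := by
  unfold cv mn
  exact (pld_measurable_ex p W _).sub ((pld_measurable_ex p W _).mul (pld_measurable_ex p W _))

/-- a geodesic crossing an edge contains it -/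
theorem pld_anc (hT : G.IsTree) {g : ℕ → V} {n : ℕ} (hg : Geo G g n) {y z : V} (h : G.Adj z y)
    (h0 : G.dist (g 0) z < G.dist (g 0) y) (hn : G.dist (g n) y < G.dist (g n) z) :
    ∃ i, i < n ∧ g i = z ∧ g (i + 1) = y := by
  classical
  have hex : ∃ k, G.dist (g k) y < G.dist (g k) z := ⟨n, hn⟩
  have hk := Nat.find_spec hex
  have hkn : Nat.find hex ≤ n := Nat.find_min' hex hn
  set k := Nat.find hex with hkdef
  have hk0 : k ≠ 0 := by
    intro h00
    rw [h00] at hk
    omega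
  obtain ⟨i, hi⟩ := Nat.exists_eq_succ_of_ne_zero hk0
  have him : ¬ (G.dist (g i) y < G.dist (g i) z) := Nat.find_min hex (by omega)
  have hadj := geo_adj hg i (by omega)
  have hside : G.dist (g i) z < G.dist (g i) y := by
    rcases dist_edge hT h (g i) with h2 | h2 <;> omega
  rw [hi] at hk
  obtain ⟨e1, e2⟩ := sd_cross hT h hside hk hadj
  exact ⟨i, by omega, e1, e2⟩

/-- ancestors are read off geodesics from the root -/
theorem pld_anc_eq (hT : G.IsTree) {g : ℕ → V} {n m : ℕ} (hg : Geo G g n) {y z : V} (h : G.Adj z y)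
    (hz : G.dist (g 0) z = m) (hy : G.dist (g 0) y = m + 1)
    (hn : G.dist (g n) y < G.dist (g n) z) : m + 1 ≤ n ∧ g m = z ∧ g (m + 1) = y := by
  obtain ⟨i, hi, e1, e2⟩ := pld_anc hT hg h (by omega) hn
  have := hg 0 i (by omega) (by omega)
  rw [e1, hz] at this
  have him : m = i := by omega
  subst him
  exact ⟨hi, e1, e2⟩

theorem pld_geo (hT : G.IsTree) (x u : V) (n : ℕ) (h : G.dist x u = n) :
    ∃ g : ℕ → V, g 0 = x ∧ g n = u ∧ Geo G g n := by
  obtain ⟨g, h1, h2, h3⟩ := geo_exists hT x u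
  subst h
  exact ⟨g, h1, h2, h3⟩

/-- the covariance is at most the covariance seen from an ancestor -/
theorem pld_cv_le (hT : G.IsTree) (θ : ℝ) (h0 : 0 ≤ θ) (h1 : θ < 1) {W : Finset V} (hW : Win G W)
    {g : ℕ → V} {m j : ℕ} (hg : Geo G g (m + 1 + j)) (hgW : ∀ i ≤ m + 1 + j, g i ∈ W)
    (κ : ℝ) (hκ0 : 0 ≤ κ) (hκ1 : κ < 1) (l : V → Bool → ℝ) (hl : ∀ v b, 0 < l v b)
    (hκ : |mn (ip G θ (sd G W (g (m + 1)) (g m))) (sd G W (g (m + 1)) (g m)) l (g (m + 1))| ≤ κ) :
    cv (ip G θ W) W l (g 0) (g (m + 1 + j)) ≤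
      θ ^ (m + 1) * (cv (ip G θ (sd G W (g (m + 1)) (g m))) (sd G W (g (m + 1)) (g m)) l
        (g (m + 1)) (g (m + 1 + j)) / (1 - κ ^ 2)) := by
  have hadj : G.Adj (g m) (g (m + 1)) := geo_adj hg m (by omega)
  set S := sd G W (g (m + 1)) (g m) with hS
  have hSW : Win G S := win_sd hT hW (hgW _ (by omega)) hadj.symm
  have hgeo' : Geo G (fun i => g (m + i)) (1 + j) := geo_shift hg m (1 + j) (by omega)
  have hgeo : Geo G (fun i => g (m + 1 + i)) j := geo_shift hg (m + 1) j (by omega)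
  have hmem : ∀ i ≤ j, g (m + 1 + i) ∈ S := by
    intro i hi
    rw [hS]
    unfold sd
    rw [Finset.mem_filter]
    refine ⟨hgW _ (by omega), ?_⟩
    have d1 := hg (m + 1) (m + 1 + i) (by omega) (by omega)
    have d0 := hg m (m + 1 + i) (by omega) (by omega)
    rw [SimpleGraph.dist_comm, d1, SimpleGraph.dist_comm, d0]
    omega
  have p1 := cv_path hT θ h0 h1 hW g (m + 1 + j) hg hgW l hl
  have p2 := cv_path hT θ h0 h1 hSW (fun i => g (m + 1 + i)) j hgeo hmem l hl
  simp only [add_zero] at p2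
  have hprod : ∏ i ∈ Finset.range j, (θ * psi θ (bm G θ S l (g (m + 1 + (i + 1))) (g (m + 1 + i)))) =
      ∏ i ∈ Finset.range j, (θ * psi θ (bm G θ W l (g (m + 1 + i + 1)) (g (m + 1 + i)))) := by
    apply Finset.prod_congr rfl
    intro i hi
    rw [Finset.mem_range] at hi
    unfold bm
    have := kf_sd_sd hT W (fun i => g (m + i)) (1 + j) hgeo' (i + 1) (by omega)
    simp only [add_zero] at this
    have e1 : m + (i + 1 + 1) = m + 1 + i + 1 := by ring
    have e2 : m + (i + 1) = m + 1 + i := by ring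
    rw [e1, e2, ← hS] at this
    have e3 : m + 1 + (i + 1) = m + 1 + i + 1 := by ring
    rw [e3, this]
  rw [hprod] at p2
  rw [p1, p2, Finset.prod_range_add]
  set Q := ∏ i ∈ Finset.range j, (θ * psi θ (bm G θ W l (g (m + 1 + i + 1)) (g (m + 1 + i)))) with hQ
  have hB : ∀ i, i < m + 1 + j → bm G θ W l (g (i + 1)) (g i) ^ 2 < 1 := by
    intro i hi
    have ha := geo_adj hg i hi
    exact kf_abs_mn_lt hT θ h0 h1 (win_sd hT hW (hgW _ (by omega)) ha.symm)
      (mem_sd_self (hgW _ (by omega)) ha.symm) l hl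
  have hθ2 : θ ^ 2 < 1 := by nlinarith
  have hpsi : ∀ B : ℝ, B ^ 2 < 1 → 0 ≤ psi θ B ∧ psi θ B ≤ 1 := by
    intro B hB
    unfold psi
    have : θ ^ 2 * B ^ 2 ≤ B ^ 2 := by nlinarith [sq_nonneg B]
    constructor
    · exact div_nonneg (by linarith) (by linarith)
    · rw [div_le_one (by linarith)]; linarith
  have hQ0 : 0 ≤ Q := Finset.prod_nonneg (fun i hi => by
    rw [Finset.mem_range] at hi
    exact mul_nonneg h0 (hpsi _ (hB (m + 1 + i) (by omega))).1)
  have hP0 : 0 ≤ ∏ i ∈ Finset.range (m + 1), (θ * psi θ (bm G θ W l (g (i + 1)) (g i))) :=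
    Finset.prod_nonneg (fun i hi => by
      rw [Finset.mem_range] at hi
      exact mul_nonneg h0 (hpsi _ (hB i (by omega))).1)
  have hP1 : ∏ i ∈ Finset.range (m + 1), (θ * psi θ (bm G θ W l (g (i + 1)) (g i))) ≤ θ ^ (m + 1) := by
    calc ∏ i ∈ Finset.range (m + 1), (θ * psi θ (bm G θ W l (g (i + 1)) (g i)))
        ≤ ∏ i ∈ Finset.range (m + 1), θ := by
          apply Finset.prod_le_prod
          · intro i hi
            rw [Finset.mem_range] at hi
            exact mul_nonneg h0 (hpsi _ (hB i (by omega))).1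
          · intro i hi
            rw [Finset.mem_range] at hi
            exact mul_le_of_le_one_right h0 (hpsi _ (hB i (by omega))).2
      _ = θ ^ (m + 1) := by rw [Finset.prod_const, Finset.card_range]
  have hmn : mn (ip G θ W) W l (g 0) ^ 2 < 1 := kf_abs_mn_lt hT θ h0 h1 hW (hgW 0 (by omega)) l hl
  have hk2 : mn (ip G θ S) S l (g (m + 1)) ^ 2 ≤ κ ^ 2 := by
    rw [← sq_abs]
    exact pow_le_pow_left₀ (abs_nonneg _) hκ 2
  have hκ2 : 0 < 1 - κ ^ 2 := by nlinarith
  have hQ1 : Q ≤ (1 - mn (ip G θ S) S l (g (m + 1)) ^ 2) * Q / (1 - κ ^ 2) := by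
    rw [le_div_iff₀ hκ2]
    nlinarith
  calc (1 - mn (ip G θ W) W l (g 0) ^ 2) *
        ((∏ i ∈ Finset.range (m + 1), (θ * psi θ (bm G θ W l (g (i + 1)) (g i)))) * Q)
      ≤ 1 * (θ ^ (m + 1) * Q) := by
        apply mul_le_mul _ _ (mul_nonneg hP0 hQ0) zero_le_one
        · nlinarith [sq_nonneg (mn (ip G θ W) W l (g 0))]
        · exact mul_le_mul_of_nonneg_right hP1 hQ0
    _ ≤ _ := by
        rw [one_mul]
        exact mul_le_mul_of_nonneg_left hQ1 (by positivity)

end Static

section PL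

variable {V : Type*} [DecidableEq V] {G : SimpleGraph V}
variable {Ω : Type*} [MeasurableSpace Ω] {P : Measure Ω} [IsProbabilityMeasure P]
  {l : Ω → V → Bool → ℝ} {H : ℝ}

theorem pld_meas_l (hl : LData P l H) : Measurable l :=
  measurable_pi_lambda _ (fun v => measurable_pi_lambda _ (fun b => hl.meas v b))

theorem pld_pos (hl : LData P l H) (ω : Ω) (v : V) (b : Bool) : 0 < l ω v b :=
  lt_of_lt_of_le (Real.exp_pos _) (hl.lower ω v b)

theorem pld_pt_bdd (hl : LData P l H) (hT : G.IsTree) (θ : ℝ) (h0 : 0 ≤ θ) (h1 : θ < 1) {W : Finset V}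
    (hW : Win G W) : ∃ C : ℝ, 0 < C ∧ ∀ ω, 0 < pt (ip G θ W) W (l ω) ∧ pt (ip G θ W) W (l ω) ≤ C := by
  have hne : Nonempty (W : Set V) := hW.nonempty
  obtain ⟨⟨x, hx⟩⟩ := hne
  obtain ⟨C, hC, hb⟩ := dd_bdd hl hT θ h0 h1 hW x hx
  refine ⟨C, hC, fun ω => ⟨pt_pos (isMass_ip hT θ h0 h1.le hW) _ (pld_pos hl ω), ?_⟩⟩
  rw [pt_eq_dd θ W (l ω) x]
  have a1 := (hb ω true).2
  have a2 := (hb ω false).2
  linarith

theorem pld_integrable (hl : LData P l H) (hT : G.IsTree) (θ : ℝ) (h0 : 0 ≤ θ) (h1 : θ < 1) {W : Finset V}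
    (hW : Win G W) (φ : (V → Bool → ℝ) → ℝ) (hφ : Measurable φ) (C : ℝ) (hC : ∀ ω, |φ (l ω)| ≤ C) :
    Integrable (fun ω => φ (l ω) * pt (ip G θ W) W (l ω)) P := by
  obtain ⟨C', hC', hb⟩ := pld_pt_bdd hl hT θ h0 h1 hW
  refine Integrable.of_bound (((hφ.comp (pld_meas_l hl)).mul
    ((pld_measurable_pt (ip G θ W) W).comp (pld_meas_l hl))).aestronglyMeasurable) (C * C') ?_
  refine Filter.Eventually.of_forall (fun ω => ?_)
  rw [Real.norm_eq_abs]
  rw [abs_mul]
  have h2 := hb ω
  rw [abs_of_pos h2.1]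
  exact mul_le_mul (hC ω) h2.2 h2.1.le ((abs_nonneg _).trans (hC ω))

/-- even functions of disjoint branches are independent under the planted law -/
theorem pld_blocks (hl : LData P l H) (hT : G.IsTree) (θ : ℝ) (h0 : 0 ≤ θ) (h1 : θ < 1)
    (x : V) (pa : V → V) (ψ : V → (V → Bool → ℝ) → ℝ) (C : ℝ) (hC : 1 ≤ C) (Y : Finset V) :
    ∀ (W : Finset V), Win G W → x ∈ W →
      (∀ y ∈ Y, y ∈ W ∧ pa y ∈ W ∧ G.Adj (pa y) y ∧ G.dist x y = G.dist x (pa y) + 1) →
      (∀ y ∈ Y, ∀ y' ∈ Y, y ≠ y' → Disjoint (sd G W y (pa y)) (sd G W y' (pa y'))) →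
      (∀ y ∈ Y, Measurable (ψ y)) → (∀ y ∈ Y, DepOn (sd G W y (pa y)) (ψ y)) →
      (∀ y ∈ Y, EvenF (ψ y)) → (∀ y ∈ Y, ∀ ω, |ψ y (l ω)| ≤ C) →
      ∫ ω, (∏ y ∈ Y, ψ y (l ω)) * pt (ip G θ W) W (l ω) ∂P =
        ∏ y ∈ Y, ∫ ω, ψ y (l ω) * pt (ip G θ (sd G W y (pa y))) (sd G W y (pa y)) (l ω) ∂P := by
  induction Y using Finset.induction_on with
  | empty =>
    intro W hW hx _ _ _ _ _ _
    simp only [Finset.prod_empty, one_mul]
    exact integral_pt hl hT θ h0 h1 hW
  | insert y0 Y hy0 ih =>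
    intro W hW hx hY hdis hmeas hdep heven hbd
    obtain ⟨hyW, hzW, hadj, hdist⟩ := hY y0 (Finset.mem_insert_self _ _)
    set z0 := pa y0 with hz0
    set W' := sd G W z0 y0 with hW'
    have hWin : Win G W' := win_sd hT hW hzW hadj
    have hxW' : x ∈ W' := by
      rw [hW']; unfold sd; rw [Finset.mem_filter]
      exact ⟨hx, by omega⟩
    have hnot : ∀ w, w ∈ W → w ∉ sd G W y0 z0 → w ∈ W' := by
      intro w hw hn
      have h2 := sd_union hT W hadj
      rw [← h2, Finset.mem_union] at hw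
      rcases hw with h3 | h3
      · exact h3
      · exact absurd h3 hn
    have hsub : ∀ y ∈ Y, ∀ w, w ∈ sd G W y (pa y) → w ∈ W' := by
      intro y hy w hw
      have hne : y ≠ y0 := by rintro rfl; exact hy0 hy
      have h2 := hdis y (Finset.mem_insert_of_mem hy) y0 (Finset.mem_insert_self _ _) hne
      rw [Finset.disjoint_left] at h2
      apply hnot w _ (h2 hw)
      unfold sd at hw
      exact (Finset.mem_filter.1 hw).1
    have hsd : ∀ y ∈ Y, sd G W' y (pa y) = sd G W y (pa y) := by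
      intro y hy
      apply Finset.Subset.antisymm
      · intro w hw
        unfold sd at hw ⊢
        rw [Finset.mem_filter] at hw ⊢
        refine ⟨?_, hw.2⟩
        have h3 := hw.1
        rw [hW'] at h3
        unfold sd at h3
        exact (Finset.mem_filter.1 h3).1
      · intro w hw
        have h3 := hsub y hy w hw
        unfold sd at hw ⊢
        rw [Finset.mem_filter] at hw ⊢
        exact ⟨h3, hw.2⟩
    have hY' : ∀ y ∈ Y, y ∈ W' ∧ pa y ∈ W' ∧ G.Adj (pa y) y ∧ G.dist x y = G.dist x (pa y) + 1 := by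
      intro y hy
      obtain ⟨a1, a2, a3, a4⟩ := hY y (Finset.mem_insert_of_mem hy)
      have hyW' : y ∈ W' := hsub y hy y (mem_sd_self a1 a3.symm)
      refine ⟨hyW', ?_, a3, a4⟩
      apply hnot _ a2
      intro hcon
      have c1 : G.dist y z0 < G.dist y y0 := by
        rw [hW'] at hyW'
        unfold sd at hyW'
        exact (Finset.mem_filter.1 hyW').2
      have c2 : G.dist (pa y) y0 < G.dist (pa y) z0 := by
        unfold sd at hcon
        exact (Finset.mem_filter.1 hcon).2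
      obtain ⟨e1, e2⟩ := sd_cross hT hadj c1 c2 a3.symm
      rw [e2] at a4
      rw [← e1] at hdist
      omega
    have IH := ih W' hWin hxW' hY'
      (by
        intro y hy y' hy' hne
        rw [hsd y hy, hsd y' hy']
        exact hdis y (Finset.mem_insert_of_mem hy) y' (Finset.mem_insert_of_mem hy') hne)
      (fun y hy => hmeas y (Finset.mem_insert_of_mem hy))
      (by
        intro y hy
        rw [hsd y hy]
        exact hdep y (Finset.mem_insert_of_mem hy))
      (fun y hy => heven y (Finset.mem_insert_of_mem hy))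
      (fun y hy => hbd y (Finset.mem_insert_of_mem hy))
    have hR : ∏ y ∈ Y, ∫ ω, ψ y (l ω) * pt (ip G θ (sd G W' y (pa y))) (sd G W' y (pa y)) (l ω) ∂P =
        ∏ y ∈ Y, ∫ ω, ψ y (l ω) * pt (ip G θ (sd G W y (pa y))) (sd G W y (pa y)) (l ω) ∂P :=
      Finset.prod_congr rfl (fun y hy => by rw [hsd y hy])
    rw [hR] at IH
    rw [Finset.prod_insert hy0, ← IH]
    have key := two_block hl hT θ h0 h1 hW hzW hyW hadj (fun l => ∏ y ∈ Y, ψ y l) (ψ y0)
      (Finset.measurable_prod _ (fun y hy => hmeas y (Finset.mem_insert_of_mem hy)))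
      (hmeas y0 (Finset.mem_insert_self _ _))
      (by
        intro l1 l2 hll
        refine Finset.prod_congr rfl (fun y hy => ?_)
        exact hdep y (Finset.mem_insert_of_mem hy) l1 l2 (fun v hv => hll v (hsub y hy v hv)))
      (hdep y0 (Finset.mem_insert_self _ _)) (heven y0 (Finset.mem_insert_self _ _))
      (C ^ (Y.card + 1))
      (by
        intro ω
        rw [Finset.abs_prod]
        calc ∏ y ∈ Y, |ψ y (l ω)| ≤ ∏ y ∈ Y, C :=
              Finset.prod_le_prod (fun y _ => abs_nonneg _)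
                (fun y hy => hbd y (Finset.mem_insert_of_mem hy) ω)
          _ = C ^ Y.card := by rw [Finset.prod_const]
          _ ≤ C ^ (Y.card + 1) := pow_le_pow_right₀ hC (by omega))
      (by
        intro ω
        calc |ψ y0 (l ω)| ≤ C := hbd y0 (Finset.mem_insert_self _ _) ω
          _ = C ^ 1 := (pow_one C).symm
          _ ≤ C ^ (Y.card + 1) := pow_le_pow_right₀ hC (by omega))
    rw [mul_comm (∫ ω, ψ y0 (l ω) * _ ∂P)]
    rw [← key]
    refine integral_congr_ae (Filter.Eventually.of_forall (fun ω => ?_))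
    simp only
    rw [Finset.prod_insert hy0]
    ring

/-- number of descendants of a vertex at a given distance -/
theorem pld_card [G.LocallyFinite] (hT : G.IsTree) (b : ℕ) (hreg : G.IsRegularOfDegree (b + 1))
    (x y z : V) (m : ℕ) (h : G.Adj z y) (hz : G.dist x z = m) (hy : G.dist x y = m + 1) (j : ℕ) :
    ((sph G x (m + 1 + j)).filter (fun u => G.dist u y < G.dist u z)).card ≤ b ^ j := by
  induction j with
  | zero =>
    rw [pow_zero]
    apply Finset.card_le_one.2
    have key : ∀ u ∈ (sph G x (m + 1 + 0)).filter (fun u => G.dist u y < G.dist u z), u = y := by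
      intro u hu
      rw [Finset.mem_filter, mem_sph hT] at hu
      obtain ⟨g, g0, gn, hg⟩ := pld_geo hT x u (m + 1 + 0) hu.1
      have := pld_anc_eq hT hg (y := y) (z := z) (m := m) h (by rw [g0, hz]) (by rw [g0, hy])
        (by rw [gn]; exact hu.2)
      rw [← gn]; exact this.2.2
    intro u hu v hv
    rw [key u hu, key v hv]
  | succ j ih =>
    have hsub : (sph G x (m + 1 + (j + 1))).filter (fun u => G.dist u y < G.dist u z) ⊆
        ((sph G x (m + 1 + j)).filter (fun u => G.dist u y < G.dist u z)).biUnion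
          (fun w => (G.neighborFinset w).filter (fun u => G.dist x u = (m + j) + 2)) := by
      intro u hu
      rw [Finset.mem_filter, mem_sph hT] at hu
      obtain ⟨g, g0, gn, hg⟩ := pld_geo hT x u (m + 1 + (j + 1)) hu.1
      obtain ⟨a1, a2, a3⟩ := pld_anc_eq hT hg (y := y) (z := z) (m := m) h (by rw [g0, hz])
        (by rw [g0, hy]) (by rw [gn]; exact hu.2)
      rw [Finset.mem_biUnion]
      refine ⟨g (m + 1 + j), ?_, ?_⟩
      · rw [Finset.mem_filter, mem_sph hT]
        have e1 := hg 0 (m + 1 + j) (by omega) (by omega)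
        have e2 := hg (m + 1) (m + 1 + j) (by omega) (by omega)
        have e3 := hg m (m + 1 + j) (by omega) (by omega)
        rw [g0] at e1
        rw [a3, SimpleGraph.dist_comm] at e2
        rw [a2, SimpleGraph.dist_comm] at e3
        refine ⟨by omega, by omega⟩
      · rw [Finset.mem_filter, SimpleGraph.mem_neighborFinset]
        have := geo_adj hg (m + 1 + j) (by omega)
        have e4 : m + 1 + j + 1 = m + 1 + (j + 1) := by ring
        rw [e4, gn] at this
        exact ⟨this, by omega⟩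
    refine (Finset.card_le_card hsub).trans ?_
    refine (Finset.card_biUnion_le_card_mul _ _ b ?_).trans ?_
    · intro w hw
      rw [Finset.mem_filter, mem_sph hT] at hw
      exact (card_children hT b hreg x (m + j) w (by omega)).le
    · rw [pow_succ]
      exact Nat.mul_le_mul_right b ih

/-- the sphere splits into the descendants of a smaller sphere -/
theorem pld_sum [G.LocallyFinite] (hT : G.IsTree) (x : V) (m j : ℕ) (pa : V → V)
    (hpa : ∀ y, G.dist x y = m + 1 → G.Adj (pa y) y ∧ G.dist x (pa y) = m) (f : V → ℝ) :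
    ∑ u ∈ sph G x (m + 1 + j), f u = ∑ y ∈ sph G x (m + 1),
      ∑ u ∈ (sph G x (m + 1 + j)).filter (fun u => G.dist u y < G.dist u (pa y)), f u := by
  rw [← Finset.sum_biUnion]
  · apply Finset.sum_congr _ (fun _ _ => rfl)
    ext u
    rw [Finset.mem_biUnion]
    constructor
    · intro hu
      obtain ⟨g, g0, gn, hg⟩ := pld_geo hT x u (m + 1 + j) ((mem_sph hT _ _ _).1 hu)
      have e0 := hg 0 m (by omega) (by omega)
      have e1 := hg 0 (m + 1) (by omega) (by omega)
      have e2 := hg (m + 1) (m + 1 + j) (by omega) (by omega)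
      have e3 := hg m (m + 1 + j) (by omega) (by omega)
      rw [g0] at e0 e1
      rw [gn, SimpleGraph.dist_comm] at e2 e3
      have hy : G.dist x (g (m + 1)) = m + 1 := by omega
      have hz : pa (g (m + 1)) = g m :=
        pred_unique hT x (g (m + 1)) m hy _ _ (hpa _ hy).1 (geo_adj hg m (by omega))
          (hpa _ hy).2 (by omega)
      refine ⟨g (m + 1), (mem_sph hT _ _ _).2 hy, ?_⟩
      rw [Finset.mem_filter, hz]
      exact ⟨hu, by omega⟩
    · rintro ⟨y, hy, hu⟩
      exact (Finset.mem_filter.1 hu).1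
  · intro y hy y' hy' hne
    rw [Finset.mem_coe, mem_sph hT] at hy hy'
    simp only [Function.onFun]
    rw [Finset.disjoint_left]
    intro u hu hu'
    rw [Finset.mem_filter, mem_sph hT] at hu hu'
    obtain ⟨g, g0, gn, hg⟩ := pld_geo hT x u (m + 1 + j) hu.1
    have b1 := pld_anc_eq hT hg (m := m) (hpa y hy).1 (by rw [g0, (hpa y hy).2]) (by rw [g0, hy])
      (by rw [gn]; exact hu.2)
    have b2 := pld_anc_eq hT hg (m := m) (hpa y' hy').1 (by rw [g0, (hpa y' hy').2])
      (by rw [g0, hy']) (by rw [gn]; exact hu'.2)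
    exact hne (b1.2.2.symm.trans b2.2.2)

theorem chern [G.LocallyFinite] (hl : LData P l H) (hT : G.IsTree) (b : ℕ) (hb : 2 ≤ b)
    (hreg : G.IsRegularOfDegree (b + 1)) (θ : ℝ) (h0 : 0 ≤ θ) (h1 : (b : ℝ) * θ ^ 2 ≤ 1)
    (e0 : ℝ) (he0 : 0 < e0) (he1 : e0 ≤ 1)
    (he : ∀ v, e0 ≤ ∫ ω, (l ω v true - l ω v false) ^ 2 / (2 * (l ω v true + l ω v false)) ∂P)
    (κ : ℝ) (hκ0 : 0 ≤ κ) (hκ1 : κ < 1)
    (hκ : ∀ (W : Finset V) (x : V) (ω : Ω), Win G W → x ∈ W → |mn (ip G θ W) W (l ω) x| ≤ κ) :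
    ∃ N : ℕ, ∀ (W : Finset V) (x : V) (m j : ℕ), 1 ≤ m → 1 ≤ j → Win G W →
      bal G x (m + j + N) ⊆ W →
      ∫ ω, Real.exp ((1 - κ ^ 2) ^ 2 * (b : ℝ) ^ m *
        ∑ u ∈ sph G x (m + j), cv (ip G θ W) W (l ω) x u ^ 2) * pt (ip G θ W) W (l ω) ∂P ≤
        Real.exp (3 * (b : ℝ) ^ m * (1 - θ ^ 2 * qst e0 (b * θ ^ 2) / 4) ^ (j - 1)) := by
  obtain ⟨N, hN⟩ := cv2_upper hl hT b hb hreg θ h0 h1 e0 he0 he1 he
  have hb2 : (2 : ℝ) ≤ b := by exact_mod_cast hb
  have hθsq : θ ^ 2 ≤ 1 / 2 := by nlinarith [sq_nonneg θ]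
  have hθ1 : θ < 1 := by nlinarith
  refine ⟨N, fun W x m j hm hj hW hball => ?_⟩
  obtain ⟨m, rfl⟩ : ∃ m', m = m' + 1 := ⟨m - 1, by omega⟩
  have hmemW : ∀ w, G.dist x w ≤ m + 1 + j + N → w ∈ W :=
    fun w hw => hball ((mem_bal hT _ _ _).2 hw)
  have hex : ∀ y : V, ∃ z, G.dist x y = m + 1 → G.Adj z y ∧ G.dist x z = m := by
    intro y
    by_cases h : G.dist x y = m + 1
    · obtain ⟨z, h1, h2⟩ := exists_pred hT x y m h
      exact ⟨z, fun _ => ⟨h1, h2⟩⟩
    · exact ⟨y, fun h' => absurd h' h⟩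
  choose pa hpa using hex
  have hqst0 : 0 ≤ qst e0 (b * θ ^ 2) := by
    unfold qst
    refine le_min (by positivity) (div_nonneg he0.le ?_)
    have := Real.sqrt_nonneg e0
    nlinarith
  have hqst1 : qst e0 (b * θ ^ 2) ≤ 1 := by
    unfold qst
    refine (min_le_left _ _).trans ?_
    have : Real.sqrt e0 ≤ 1 := by rw [Real.sqrt_le_one]; exact he1
    linarith
  set β := 1 - θ ^ 2 * qst e0 (b * θ ^ 2) / 4 with hβ
  have hβ0 : 0 ≤ β := by
    rw [hβ]
    have : θ ^ 2 * qst e0 (b * θ ^ 2) ≤ 1 / 2 * 1 := mul_le_mul hθsq hqst1 hqst0 (by norm_num)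
    linarith
  set D : V → Finset V := fun y =>
    (sph G x (m + 1 + j)).filter (fun u => G.dist u y < G.dist u (pa y)) with hD
  set S : V → Finset V := fun y => sd G W y (pa y) with hS
  set F : V → (V → Bool → ℝ) → ℝ := fun y l => ∑ u ∈ D y, cv (ip G θ (S y)) (S y) l y u ^ 2 with hF
  have hposl : ∀ ω v c, 0 < l ω v c := fun ω v c => pld_pos hl ω v c
  have hyW : ∀ y, G.dist x y = m + 1 → y ∈ W ∧ pa y ∈ W ∧ G.Adj (pa y) y ∧
      G.dist x y = G.dist x (pa y) + 1 := by
    intro y hy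
    obtain ⟨a1, a2⟩ := hpa y hy
    exact ⟨hmemW _ (by omega), hmemW _ (by omega), a1, by omega⟩
  have hSW : ∀ y, G.dist x y = m + 1 → Win G (S y) :=
    fun y hy => win_sd hT hW (hyW y hy).1 (hyW y hy).2.2.1.symm
  have hyS : ∀ y, G.dist x y = m + 1 → y ∈ S y :=
    fun y hy => mem_sd_self (hyW y hy).1 (hyW y hy).2.2.1.symm
  have hDS : ∀ y, ∀ u ∈ D y, u ∈ S y := by
    intro y u hu
    rw [hD, Finset.mem_filter, mem_sph hT] at hu
    rw [hS]; unfold sd; rw [Finset.mem_filter]
    exact ⟨hmemW _ (by omega), hu.2⟩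
  have hgeo : ∀ y, G.dist x y = m + 1 → ∀ u ∈ D y, ∃ g : ℕ → V, g 0 = x ∧ g (m + 1 + j) = u ∧
      Geo G g (m + 1 + j) ∧ g m = pa y ∧ g (m + 1) = y := by
    intro y hy u hu
    rw [hD, Finset.mem_filter, mem_sph hT] at hu
    obtain ⟨g, g0, gn, hg⟩ := pld_geo hT x u (m + 1 + j) hu.1
    have b1 := pld_anc_eq hT hg (m := m) (hpa y hy).1 (by rw [g0, (hpa y hy).2]) (by rw [g0, hy])
      (by rw [gn]; exact hu.2)
    exact ⟨g, g0, gn, hg, b1.2.1, b1.2.2⟩
  have hdistyu : ∀ y, G.dist x y = m + 1 → ∀ u ∈ D y, G.dist y u = j := by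
    intro y hy u hu
    obtain ⟨g, g0, gn, hg, e1, e2⟩ := hgeo y hy u hu
    have := hg (m + 1) (m + 1 + j) (by omega) (by omega)
    rw [e2, gn] at this
    omega
  have hbθ : ∀ n : ℕ, (b : ℝ) ^ n * θ ^ (2 * n) ≤ 1 := by
    intro n
    rw [pow_mul, ← mul_pow]
    exact pow_le_one₀ (by positivity) h1
  -- bounds for `F`
  have hF0 : ∀ y l, 0 ≤ F y l := fun y l => Finset.sum_nonneg (fun u _ => sq_nonneg _)
  have hcard : ∀ y, G.dist x y = m + 1 → ((D y).card : ℝ) ≤ (b : ℝ) ^ j := by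
    intro y hy
    have := pld_card hT b hreg x y (pa y) m (hpa y hy).1 (hpa y hy).2 hy j
    exact_mod_cast this
  have hF1 : ∀ y, G.dist x y = m + 1 → ∀ ω, F y (l ω) ≤ 1 := by
    intro y hy ω
    calc F y (l ω) ≤ ∑ u ∈ D y, θ ^ (2 * j) := by
          refine Finset.sum_le_sum (fun u hu => ?_)
          have h2 := cv_nonneg_le hT θ h0 hθ1 (hSW y hy) (hyS y hy) (hDS y u hu) (l ω) (hposl ω)
          rw [hdistyu y hy u hu] at h2
          calc cv (ip G θ (S y)) (S y) (l ω) y u ^ 2 ≤ (θ ^ j) ^ 2 := pow_le_pow_left₀ h2.1 h2.2 2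
            _ = θ ^ (2 * j) := by rw [← pow_mul, mul_comm]
      _ = (D y).card * θ ^ (2 * j) := by rw [Finset.sum_const, nsmul_eq_mul]
      _ ≤ (b : ℝ) ^ j * θ ^ (2 * j) := mul_le_mul_of_nonneg_right (hcard y hy) (by positivity)
      _ ≤ 1 := hbθ j
  have hFm : ∀ y, Measurable (F y) := by
    intro y
    refine Finset.measurable_sum _ (fun u _ => ?_)
    exact (pld_measurable_cv _ _ _ _).pow_const 2
  have hFdep : ∀ y, DepOn (S y) (F y) := by
    intro y l1 l2 hll
    refine Finset.sum_congr rfl (fun u _ => ?_)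
    rw [cv_congr _ _ l1 l2 hll]
  have hFeven : ∀ y, G.dist x y = m + 1 → EvenF (F y) := by
    intro y hy l1
    refine Finset.sum_congr rfl (fun u hu => ?_)
    rw [pld_cv_flip θ (S y) l1 (hyS y hy) (hDS y u hu)]
  -- expectation of `F`
  have hcvint : ∀ y, G.dist x y = m + 1 → ∀ u ∈ D y,
      Integrable (fun ω => cv (ip G θ (S y)) (S y) (l ω) y u ^ 2 * pt (ip G θ (S y)) (S y) (l ω)) P := by
    intro y hy u hu
    refine pld_integrable hl hT θ h0 hθ1 (hSW y hy)
      (fun l => cv (ip G θ (S y)) (S y) l y u ^ 2) ((pld_measurable_cv _ _ _ _).pow_const 2) 1 ?_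
    intro ω
    have h3 := abs_cv_le (isMass_ip hT θ h0 hθ1.le (hSW y hy)) (l ω) (hposl ω) y u
    rw [abs_of_nonneg (sq_nonneg _), ← sq_abs]
    exact pow_le_one₀ (abs_nonneg _) h3
  have hEF : ∀ y, G.dist x y = m + 1 →
      ∫ ω, F y (l ω) * pt (ip G θ (S y)) (S y) (l ω) ∂P ≤ β ^ (j - 1) := by
    intro y hy
    have e1 : ∫ ω, F y (l ω) * pt (ip G θ (S y)) (S y) (l ω) ∂P =
        ∑ u ∈ D y, ∫ ω, cv (ip G θ (S y)) (S y) (l ω) y u ^ 2 * pt (ip G θ (S y)) (S y) (l ω) ∂P := by
      rw [← integral_finsetSum _ (fun u hu => hcvint y hy u hu)]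
      refine integral_congr_ae (Filter.Eventually.of_forall (fun ω => ?_))
      simp only [hF]
      rw [Finset.sum_mul]
    rw [e1]
    calc ∑ u ∈ D y, ∫ ω, cv (ip G θ (S y)) (S y) (l ω) y u ^ 2 * pt (ip G θ (S y)) (S y) (l ω) ∂P
        ≤ ∑ u ∈ D y, θ ^ (2 * j) * β ^ (j - 1) := by
          refine Finset.sum_le_sum (fun u hu => ?_)
          obtain ⟨g, g0, gn, hg, gm, gm1⟩ := hgeo y hy u hu
          have hsh : Geo G (fun i => g (m + 1 + i)) j := geo_shift hg (m + 1) j (by omega)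
          have h4 := hN (S y) (fun i => g (m + 1 + i)) j (hSW y hy) hsh ?_ ?_
          · simp only [add_zero, gm1, gn] at h4
            exact h4
          · intro i hi
            rw [hS]; unfold sd
            simp only [Finset.mem_filter]
            have f0 := hg 0 (m + 1 + i) (by omega) (by omega)
            have f1 := hg (m + 1) (m + 1 + i) (by omega) (by omega)
            have f2 := hg m (m + 1 + i) (by omega) (by omega)
            rw [g0] at f0
            rw [gm1, SimpleGraph.dist_comm] at f1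
            rw [gm, SimpleGraph.dist_comm] at f2
            exact ⟨hmemW _ (by omega), by omega⟩
          · intro i hi1 hij w hw hwN
            have hi0 := hw 0 (by omega)
            simp only [add_zero] at hi0
            have f0 := hg 0 (m + 1 + i) (by omega) (by omega)
            rw [g0] at f0
            have hwx : G.dist x w ≤ G.dist x (g (m + 1 + i)) + G.dist (g (m + 1 + i)) w :=
              hT.connected.dist_triangle
            rw [SimpleGraph.dist_comm] at hwN
            have hwW : w ∈ W := hmemW w (by omega)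
            rw [hS]; unfold sd
            simp only [Finset.mem_filter]
            refine ⟨hwW, ?_⟩
            by_contra hcon
            have hadj := (hpa y hy).1
            have hfar : G.dist w y = G.dist w (pa y) + 1 := by
              rcases dist_edge hT hadj w with h5 | h5 <;> omega
            have hsh' : Geo G (fun k => g (m + k)) (1 + j) := geo_shift hg m (1 + j) (by omega)
            have haway := pld_away hT hsh' w (by simp only [add_zero]; rw [gm, gm1]; exact hfar)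
            have hstep : ∀ k, k ≤ i → G.dist w (g (m + 1 + k)) = G.dist w y + k := by
              intro k
              induction k with
              | zero => intro _; simp only [add_zero]; rw [gm1]
              | succ k ihk =>
                intro hk
                have h6 := ihk (by omega)
                have h7 := haway (k + 1) (by omega)
                have e5 : m + (k + 1 + 1) = m + 1 + (k + 1) := by ring
                have e6 : m + (k + 1) = m + 1 + k := by ring
                rw [e5, e6, h6] at h7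
                rw [h7]; ring
            have h8 := hstep i le_rfl
            rw [gm1] at hi0
            omega
      _ = (D y).card * (θ ^ (2 * j) * β ^ (j - 1)) := by rw [Finset.sum_const, nsmul_eq_mul]
      _ ≤ (b : ℝ) ^ j * (θ ^ (2 * j) * β ^ (j - 1)) :=
          mul_le_mul_of_nonneg_right (hcard y hy) (by positivity)
      _ = ((b : ℝ) ^ j * θ ^ (2 * j)) * β ^ (j - 1) := by ring
      _ ≤ 1 * β ^ (j - 1) := mul_le_mul_of_nonneg_right (hbθ j) (by positivity)
      _ = β ^ (j - 1) := one_mul _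
  -- exponential moment of one block
  have hexp : ∀ t : ℝ, 0 ≤ t → t ≤ 1 → Real.exp t ≤ 1 + 2 * t := by
    intro t ht0 ht1
    have h2 := Real.abs_exp_sub_one_sub_id_le (x := t) (by rw [abs_of_nonneg ht0]; exact ht1)
    have h3 := (abs_le.1 h2).2
    nlinarith
  have hFint : ∀ y, G.dist x y = m + 1 →
      Integrable (fun ω => F y (l ω) * pt (ip G θ (S y)) (S y) (l ω)) P := by
    intro y hy
    refine pld_integrable hl hT θ h0 hθ1 (hSW y hy) (F y) (hFm y) 1 ?_
    intro ω
    rw [abs_of_nonneg (hF0 y _)]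
    exact hF1 y hy ω
  have hexpbd : ∀ y, G.dist x y = m + 1 → ∀ ω, |Real.exp (F y (l ω))| ≤ Real.exp 1 := by
    intro y hy ω
    rw [abs_of_pos (Real.exp_pos _)]
    exact Real.exp_le_exp.2 (hF1 y hy ω)
  have hblock : ∀ y, G.dist x y = m + 1 →
      ∫ ω, Real.exp (F y (l ω)) * pt (ip G θ (S y)) (S y) (l ω) ∂P ≤ Real.exp (2 * β ^ (j - 1)) := by
    intro y hy
    obtain ⟨C, hC, hptb⟩ := pld_pt_bdd hl hT θ h0 hθ1 (hSW y hy)
    have hptint : Integrable (fun ω => pt (ip G θ (S y)) (S y) (l ω)) P := by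
      have := pld_integrable hl hT θ h0 hθ1 (hSW y hy) (fun _ => 1) measurable_const 1
        (fun ω => by simp)
      simpa using this
    have i1 := pld_integrable hl hT θ h0 hθ1 (hSW y hy) (fun l => Real.exp (F y l))
      (Real.measurable_exp.comp (hFm y)) (Real.exp 1) (hexpbd y hy)
    calc ∫ ω, Real.exp (F y (l ω)) * pt (ip G θ (S y)) (S y) (l ω) ∂P
        ≤ ∫ ω, (pt (ip G θ (S y)) (S y) (l ω) +
            2 * (F y (l ω) * pt (ip G θ (S y)) (S y) (l ω))) ∂P := by
          refine integral_mono i1 (hptint.add ((hFint y hy).const_mul 2)) (fun ω => ?_)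
          have h4 := hexp (F y (l ω)) (hF0 y _) (hF1 y hy ω)
          have h5 := (hptb ω).1
          simp only
          nlinarith
      _ = 1 + 2 * ∫ ω, F y (l ω) * pt (ip G θ (S y)) (S y) (l ω) ∂P := by
          rw [integral_add hptint ((hFint y hy).const_mul 2), integral_const_mul,
            integral_pt hl hT θ h0 hθ1 (hSW y hy)]
      _ ≤ 1 + 2 * β ^ (j - 1) := by linarith [hEF y hy]
      _ ≤ Real.exp (2 * β ^ (j - 1)) := by
          have := Real.add_one_le_exp (2 * β ^ (j - 1))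
          linarith
  -- pointwise comparison
  have hκ2 : 0 < 1 - κ ^ 2 := by nlinarith
  have hpt : ∀ ω, (1 - κ ^ 2) ^ 2 * (b : ℝ) ^ (m + 1) *
      ∑ u ∈ sph G x (m + 1 + j), cv (ip G θ W) W (l ω) x u ^ 2 ≤ ∑ y ∈ sph G x (m + 1), F y (l ω) := by
    intro ω
    rw [pld_sum hT x m j pa hpa, Finset.mul_sum]
    refine Finset.sum_le_sum (fun y hy => ?_)
    rw [mem_sph hT] at hy
    rw [Finset.mul_sum]
    refine Finset.sum_le_sum (fun u hu => ?_)
    obtain ⟨g, g0, gn, hg, gm, gm1⟩ := hgeo y hy u hu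
    have hgW : ∀ i ≤ m + 1 + j, g i ∈ W := by
      intro i hi
      have f0 := hg 0 i (by omega) hi
      rw [g0] at f0
      exact hmemW _ (by omega)
    have h5 := pld_cv_le hT θ h0 hθ1 hW hg hgW κ hκ0 hκ1 (l ω) (hposl ω)
      (by rw [gm1, gm]; exact hκ _ _ ω (hSW y hy) (hyS y hy))
    rw [g0, gn, gm, gm1] at h5
    have h6 := (cv_nonneg_le hT θ h0 hθ1 hW (hmemW x (by rw [SimpleGraph.dist_self]; omega))
      (by rw [← gn]; exact hgW _ le_rfl : u ∈ W) (l ω) (hposl ω)).1
    have h7 : (1 - κ ^ 2) * cv (ip G θ W) W (l ω) x u ≤ θ ^ (m + 1) * cv (ip G θ (S y)) (S y) (l ω) y u := by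
      have h8 : θ ^ (m + 1) * (cv (ip G θ (sd G W y (pa y))) (sd G W y (pa y)) (l ω) y u / (1 - κ ^ 2)) =
        (θ ^ (m + 1) * cv (ip G θ (S y)) (S y) (l ω) y u) / (1 - κ ^ 2) := by rw [hS]; ring
      rw [h8, le_div_iff₀ hκ2] at h5
      linarith
    have h9 : ((1 - κ ^ 2) * cv (ip G θ W) W (l ω) x u) ^ 2 ≤
        (θ ^ (m + 1) * cv (ip G θ (S y)) (S y) (l ω) y u) ^ 2 :=
      pow_le_pow_left₀ (mul_nonneg hκ2.le h6) h7 2
    have h10 := hbθ (m + 1)
    calc (1 - κ ^ 2) ^ 2 * (b : ℝ) ^ (m + 1) * cv (ip G θ W) W (l ω) x u ^ 2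
        = (b : ℝ) ^ (m + 1) * ((1 - κ ^ 2) * cv (ip G θ W) W (l ω) x u) ^ 2 := by ring
      _ ≤ (b : ℝ) ^ (m + 1) * (θ ^ (m + 1) * cv (ip G θ (S y)) (S y) (l ω) y u) ^ 2 :=
          mul_le_mul_of_nonneg_left h9 (by positivity)
      _ = ((b : ℝ) ^ (m + 1) * θ ^ (2 * (m + 1))) * cv (ip G θ (S y)) (S y) (l ω) y u ^ 2 := by
          rw [mul_pow, ← pow_mul, mul_comm (m + 1) 2]; ring
      _ ≤ 1 * cv (ip G θ (S y)) (S y) (l ω) y u ^ 2 := mul_le_mul_of_nonneg_right h10 (sq_nonneg _)
      _ = cv (ip G θ (S y)) (S y) (l ω) y u ^ 2 := one_mul _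
  -- disjoint branches
  have hdis : ∀ y ∈ sph G x (m + 1), ∀ y' ∈ sph G x (m + 1), y ≠ y' →
      Disjoint (sd G W y (pa y)) (sd G W y' (pa y')) := by
    intro y hy y' hy' hne
    rw [mem_sph hT] at hy hy'
    rw [Finset.disjoint_left]
    intro w hw hw'
    unfold sd at hw hw'
    rw [Finset.mem_filter] at hw hw'
    obtain ⟨g, g0, gn, hg⟩ := geo_exists hT x w
    have b1 := pld_anc_eq hT hg (m := m) (hpa y hy).1 (by rw [g0, (hpa y hy).2]) (by rw [g0, hy])
      (by rw [gn]; exact hw.2)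
    have b2 := pld_anc_eq hT hg (m := m) (hpa y' hy').1 (by rw [g0, (hpa y' hy').2])
      (by rw [g0, hy']) (by rw [gn]; exact hw'.2)
    exact hne (b1.2.2.symm.trans b2.2.2)
  have hxW : x ∈ W := hmemW x (by rw [SimpleGraph.dist_self]; omega)
  have hblocks := pld_blocks hl hT θ h0 hθ1 x pa (fun y l => Real.exp (F y l)) (Real.exp 1)
    (by have := Real.add_one_le_exp (1 : ℝ); linarith) (sph G x (m + 1)) W hW hxW
    (fun y hy => hyW y ((mem_sph hT _ _ _).1 hy)) hdis
    (fun y hy => Real.measurable_exp.comp (hFm y))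
    (fun y hy l1 l2 hll => by simp only; rw [hFdep y l1 l2 hll])
    (fun y hy l1 => by simp only; rw [hFeven y ((mem_sph hT _ _ _).1 hy) l1])
    (fun y hy ω => hexpbd y ((mem_sph hT _ _ _).1 hy) ω)
  obtain ⟨C, hC, hptb⟩ := pld_pt_bdd hl hT θ h0 hθ1 hW
  have hprodint : Integrable (fun ω => (∏ y ∈ sph G x (m + 1), Real.exp (F y (l ω))) *
      pt (ip G θ W) W (l ω)) P := by
    refine pld_integrable hl hT θ h0 hθ1 hW (fun l => ∏ y ∈ sph G x (m + 1), Real.exp (F y l))
      (Finset.measurable_prod _ (fun y _ => Real.measurable_exp.comp (hFm y)))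
      (Real.exp 1 ^ (sph G x (m + 1)).card) ?_
    intro ω
    rw [Finset.abs_prod, ← Finset.prod_const]
    exact Finset.prod_le_prod (fun y _ => abs_nonneg _)
      (fun y hy => hexpbd y ((mem_sph hT _ _ _).1 hy) ω)
  calc ∫ ω, Real.exp ((1 - κ ^ 2) ^ 2 * (b : ℝ) ^ (m + 1) *
        ∑ u ∈ sph G x (m + 1 + j), cv (ip G θ W) W (l ω) x u ^ 2) * pt (ip G θ W) W (l ω) ∂P
      ≤ ∫ ω, (∏ y ∈ sph G x (m + 1), Real.exp (F y (l ω))) * pt (ip G θ W) W (l ω) ∂P := by
        refine integral_mono_of_nonneg (Filter.Eventually.of_forall (fun ω => ?_)) hprodint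
          (Filter.Eventually.of_forall (fun ω => ?_))
        · exact mul_nonneg (Real.exp_pos _).le (hptb ω).1.le
        · simp only
          rw [← Real.exp_sum]
          exact mul_le_mul_of_nonneg_right (Real.exp_le_exp.2 (hpt ω)) (hptb ω).1.le
    _ = ∏ y ∈ sph G x (m + 1), ∫ ω, Real.exp (F y (l ω)) * pt (ip G θ (S y)) (S y) (l ω) ∂P := hblocks
    _ ≤ ∏ y ∈ sph G x (m + 1), Real.exp (2 * β ^ (j - 1)) := by
        refine Finset.prod_le_prod (fun y hy => ?_) (fun y hy => hblock y ((mem_sph hT _ _ _).1 hy))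
        obtain ⟨C', hC', hptb'⟩ := pld_pt_bdd hl hT θ h0 hθ1 (hSW y ((mem_sph hT _ _ _).1 hy))
        exact integral_nonneg (fun ω => mul_nonneg (Real.exp_pos _).le (hptb' ω).1.le)
    _ = Real.exp ((sph G x (m + 1)).card * (2 * β ^ (j - 1))) := by
        rw [Finset.prod_const, ← Real.exp_nat_mul]
    _ ≤ Real.exp (3 * (b : ℝ) ^ (m + 1) * β ^ (j - 1)) := by
        apply Real.exp_le_exp.2
        rw [card_sph hT b hreg x m]
        push_cast
        have h11 : 0 ≤ (b : ℝ) ^ m * β ^ (j - 1) := by positivity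
        have h12 : ((b : ℝ) + 1) * b ^ m * (2 * β ^ (j - 1)) = (2 * (b + 1)) * (b ^ m * β ^ (j - 1)) := by
          ring
        have h13 : 3 * (b : ℝ) ^ (m + 1) * β ^ (j - 1) = (3 * b) * (b ^ m * β ^ (j - 1)) := by ring
        rw [h12, h13]
        exact mul_le_mul_of_nonneg_right (by linarith) h11

end PL

end Crest.Agent.TI
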