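import Crest.Agent.TI_InfB
import Crest.Agent.TI_PLd
import Crest.Agent.TI_PLe
import Crest.Agent.TI_Schb

/-!
Row S0241, task InfC: moment bounds for the infinite volume fields
-/

set_option autoImplicit false
set_option linter.unusedSectionVars false
set_option linter.unusedVariables false

namespace Crest.Agent.TI

open MeasureTheory Filter Topology
open Crest.Agent.SRF (Lab lab)


section INF

variable {V : Type*} [DecidableEq V] {G : SimpleGraph V} [G.LocallyFinite]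

/-- lower bound for the information parameter close to criticality (pure calculus) -/
theorem qst_lower (b : ℕ) (hb : 2 ≤ b) (θ : ℝ) (h0 : 0 ≤ θ) (h1 : b * θ ^ 2 ≤ 1) (e s : ℝ)
    (hs0 : 0 < s) (hs1 : s ≤ 1) (he : s ^ 2 / 288 ≤ e) (he1 : e ≤ 1) (hok : 1 - b * θ ^ 2 ≤ s / 17) :
    1 - θ ^ 2 * qst e (b * θ ^ 2) / 4 ≤ 1 - s / (1224 * b) := by
  have hb' : (2 : ℝ) ≤ b := by exact_mod_cast hb
  have hsq : s / 17 ≤ Real.sqrt e := by
    apply Real.le_sqrt_of_sq_le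
    nlinarith [sq_nonneg s]
  have hsp : 0 < Real.sqrt e := by
    have : 0 < s / 17 := by positivity
    linarith
  have hen : 0 ≤ e := by nlinarith [sq_nonneg s]
  have hmul : Real.sqrt e * Real.sqrt e = e := Real.mul_self_sqrt hen
  have hq : Real.sqrt e / 9 ≤ qst e (b * θ ^ 2) := by
    unfold qst
    apply le_min
    · linarith
    · have hpos : 0 < 8 * (1 - (b : ℝ) * θ ^ 2) + Real.sqrt e := by linarith
      rw [le_div_iff₀ hpos]
      have h2 : 8 * (1 - (b : ℝ) * θ ^ 2) + Real.sqrt e ≤ 9 * Real.sqrt e := by linarith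
      nlinarith
  have hq2 : s / 153 ≤ qst e (b * θ ^ 2) := by linarith
  have hth : 1 / (2 * (b : ℝ)) ≤ θ ^ 2 := by
    rw [div_le_iff₀ (by positivity)]
    nlinarith
  have hfin : s / (1224 * b) ≤ θ ^ 2 * qst e (b * θ ^ 2) / 4 := by
    have e1 : s / (1224 * b) = (1 / (2 * (b : ℝ))) * (s / 153) / 4 := by
      field_simp
      norm_num
    rw [e1]
    have h3 : 0 ≤ s / 153 := by positivity
    have h4 : 0 ≤ θ ^ 2 := sq_nonneg _
    have := mul_le_mul hth hq2 h3 h4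
    linarith
  linarith

theorem infc_theta {b : ℕ} (hb : 2 ≤ b) {θ : ℝ} (h0 : 0 ≤ θ) (h1 : b * θ ^ 2 < 1) : θ < 1 := by
  have hb' : (2 : ℝ) ≤ b := by exact_mod_cast hb
  nlinarith [sq_nonneg θ]

theorem infc_psi {θ B : ℝ} (h0 : 0 ≤ θ) (h1 : θ < 1) (hB : |B| < 1) :
    0 ≤ psi θ B ∧ psi θ B ≤ 1 := by
  have hB2 : B ^ 2 < 1 := by
    have := abs_lt.1 hB
    nlinarith
  have hth2 : θ ^ 2 ≤ 1 := by nlinarith
  have hp : 0 < 1 - θ ^ 2 * B ^ 2 := by nlinarith [sq_nonneg B, mul_le_mul hth2 hB2.le (sq_nonneg B) zero_le_one]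
  unfold psi
  constructor
  · exact div_nonneg (by linarith) hp.le
  · rw [div_le_one hp]
    nlinarith [sq_nonneg B]

theorem infc_Kf_mem {κ θ : ℝ} {m : V → Om V → ℝ} {B : V → V → Om V → ℝ} (h : Fld G κ θ m B)
    (hκ : κ < 1) (h0 : 0 ≤ θ) (h1 : θ < 1) (v u : V) (ω : Om V) :
    |Kf G θ m B v u ω| ≤ 1 := by
  have hm : |m v ω| < 1 := lt_of_le_of_lt (h.bdd_m v ω) hκ
  have hm2 : m v ω ^ 2 < 1 := by
    have := abs_lt.1 hm
    nlinarith
  have hterm : ∀ i ∈ Finset.range (G.dist v u),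
      0 ≤ θ * psi θ (B (pth G v u (i + 1)) (pth G v u i) ω) ∧
      θ * psi θ (B (pth G v u (i + 1)) (pth G v u i) ω) ≤ 1 := by
    intro i _
    have := infc_psi h0 h1 (lt_of_le_of_lt (h.bdd_B (pth G v u (i + 1)) (pth G v u i) ω) hκ)
    constructor
    · exact mul_nonneg h0 this.1
    · nlinarith [this.1, this.2]
  have hP0 : 0 ≤ ∏ i ∈ Finset.range (G.dist v u),
      (θ * psi θ (B (pth G v u (i + 1)) (pth G v u i) ω)) :=
    Finset.prod_nonneg fun i hi => (hterm i hi).1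
  have hP1 : ∏ i ∈ Finset.range (G.dist v u),
      (θ * psi θ (B (pth G v u (i + 1)) (pth G v u i) ω)) ≤ 1 :=
    Finset.prod_le_one (fun i hi => (hterm i hi).1) (fun i hi => (hterm i hi).2)
  unfold Kf
  rw [abs_of_nonneg (mul_nonneg (by linarith) hP0)]
  nlinarith [sq_nonneg (m v ω)]

theorem infc_meas_Kf {κ θ : ℝ} {m : V → Om V → ℝ} {B : V → V → Om V → ℝ} (h : Fld G κ θ m B)
    (v u : V) : Measurable (Kf G θ m B v u) := by
  unfold Kf
  refine Measurable.mul (((h.meas_m v).pow_const 2).const_sub 1) ?_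
  refine Finset.measurable_prod _ fun i _ => ?_
  unfold psi
  refine Measurable.const_mul ?_ θ
  exact (((h.meas_B _ _).pow_const 2).const_sub 1).div
    ((((h.meas_B _ _).pow_const 2).const_mul _).const_sub 1)

theorem infc_meas_KW (θ : ℝ) (W : Finset V) (k : ℕ) (r : ℝ) (v u : V) :
    Measurable (KW G θ W k r v u) := by
  have h1 : Measurable (fun ω : Om V => (r, ω)) := measurable_const.prodMk measurable_id
  have h2 := (measurable_KK2 (ip G θ W) W k v u).comp h1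
  exact h2

theorem infc_cmp {a c δ : ℝ} (hδ : 0 < δ) (ha : |a| ≤ 1) (hc : |c| ≤ 1) :
    a ^ 2 ≤ c ^ 2 + δ + (c - a) ^ 2 / δ := by
  have ha' := abs_le.1 ha
  have hc' := abs_le.1 hc
  have h1 : a ^ 2 - c ^ 2 ≤ 2 * |c - a| := by
    rcases abs_cases (c - a) with ⟨h, h'⟩ | ⟨h, h'⟩ <;> rw [h] <;> nlinarith
  have h2 : 2 * |c - a| ≤ δ + (c - a) ^ 2 / δ := by
    have h3 : (c - a) ^ 2 = |c - a| ^ 2 := (sq_abs _).symm
    rw [h3]
    have h4 : |c - a| ^ 2 / δ + δ - 2 * |c - a| = (|c - a| - δ) ^ 2 / δ := by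
      field_simp
      ring
    have h5 : 0 ≤ (|c - a| - δ) ^ 2 / δ := by positivity
    linarith
  linarith

theorem infc_const (δ : ℝ) : ∫ _ω : Om V, δ ∂PP V = δ := by
  rw [integral_const]
  simp

theorem infc_e0 (k : ℕ) (r : ℝ) (hr0 : 0 ≤ r) (hk : 0 < r ∨ 1 ≤ k) (hr1 : r ≤ 1) :
    0 < rr k r ∧ rr k r ≤ 1 ∧ ∃ e0 : ℝ, 0 < e0 ∧ e0 ≤ 1 ∧ rr k r ^ 2 / 288 ≤ e0 ∧
      ∀ v : V, e0 ≤ ∫ ω, (raw k r ω v true - raw k r ω v false) ^ 2 /
        (2 * (raw k r ω v true + raw k r ω v false)) ∂PP V := by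
  by_cases hk0 : k = 0
  · subst hk0
    have hr : 0 < r := by
      rcases hk with h | h
      · exact h
      · omega
    have hrr : rr 0 r = r ^ (3 / 2 : ℝ) := by simp [rr]
    have hrr2 : rr 0 r ^ 2 = r ^ 3 := by
      rw [hrr, ← Real.rpow_natCast, ← Real.rpow_mul hr0]
      norm_num
    have hpos : 0 < rr 0 r := by rw [hrr]; positivity
    have hle : rr 0 r ≤ 1 := by
      rw [hrr]; exact Real.rpow_le_one hr0 hr1 (by norm_num)
    have hr3 : 0 < r ^ 3 := by positivity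
    have hr3' : r ^ 3 ≤ 1 := pow_le_one₀ hr0 hr1
    refine ⟨hpos, hle, ?_⟩
    by_cases hr2 : r ≤ 1 / 2
    · refine ⟨r ^ 3 / 36, by positivity, by linarith, by rw [hrr2]; linarith, fun v => ?_⟩
      rw [raw_e_zero r hr0 hr2 v]
    · refine ⟨1 / 288, by norm_num, by norm_num, by rw [hrr2]; linarith, fun v => ?_⟩
      exact raw_e_later 0 r (Or.inr (by linarith)) v
  · have hrr : rr k r = 1 := by simp [rr, hk0]
    refine ⟨by rw [hrr]; norm_num, by rw [hrr], 1 / 288, by norm_num, by norm_num,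
      by rw [hrr]; norm_num, fun v => ?_⟩
    exact raw_e_later k r (Or.inl (Nat.one_le_iff_ne_zero.2 hk0)) v

theorem infc_base {b : ℕ} (hb : 2 ≤ b) {θ : ℝ} (h0 : 0 ≤ θ) (h1 : b * θ ^ 2 < 1) {e0 : ℝ}
    (he0 : 0 < e0) (he1 : e0 ≤ 1) : 0 ≤ 1 - θ ^ 2 * qst e0 (b * θ ^ 2) / 4 := by
  have hθ := infc_theta hb h0 h1
  have hq0 := qst_nonneg e0 (b * θ ^ 2) he0.le h1.le
  have hq1 := qst_le e0 (b * θ ^ 2) he1
  have hth2 : θ ^ 2 ≤ 1 := by nlinarith
  nlinarith [sq_nonneg θ]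

theorem mom_I (hT : G.IsTree) (b : ℕ) (hb : 2 ≤ b) (hreg : G.IsRegularOfDegree (b + 1)) (θ : ℝ)
    (h0 : 0 ≤ θ) (h1 : b * θ ^ 2 < 1) (k : ℕ) (r : ℝ) (hr0 : 0 ≤ r) (hk : 0 < r ∨ 1 ≤ k) (hr1 : r ≤ 1)
    (hok : 1 - b * θ ^ 2 ≤ rr k r / 17) :
    Mom G θ (mI G b θ k r) (bI G b θ k r) (1 - hh b k r) := by
  intro v u
  obtain ⟨hs0, hs1, e0, he0, he1, hs, he⟩ := infc_e0 (V := V) k r hr0 hk hr1
  have hθ := infc_theta hb h0 h1
  have hfld := fld_I hT b hb hreg θ h0 h1 k r hr0 hr1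
  have hκ := (kp_spec hT b hb hreg k).2.1
  obtain ⟨N, hN⟩ := cv2_upper (raw_LData k r) hT b hb hreg θ h0 h1.le e0 he0 he1 he
  have hbase := infc_base hb h0 h1 he0 he1
  have hqst := qst_lower b hb θ h0 h1.le e0 (rr k r) hs0 hs1 hs he1 hok
  have hKm := infc_meas_Kf hfld v u
  have hKb := fun ω => infc_Kf_mem hfld hκ h0 hθ v u ω
  refine le_of_forall_pos_le_add fun δ' hδ' => ?_
  set δ := δ' / 2 with hδdef
  have hδ : 0 < δ := by positivity
  obtain ⟨R, hR⟩ := kf_lim hT b hb hreg θ h0 h1 k (G.dist v u) (δ ^ 2) (by positivity)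
  set M := max R (G.dist v u + N) with hM
  set W := bal G v M with hW
  have hWin : Win G W := win_bal hT v M
  have hmass := isMass_ip hT θ h0 hθ.le hWin
  have hRW : bal G v R ⊆ W := fun w hw => (mem_bal hT _ _ _).2
    (((mem_bal hT _ _ _).1 hw).trans (le_max_left _ _))
  have hNW : ∀ w, G.dist v w ≤ G.dist v u + N → w ∈ W := fun w hw => (mem_bal hT _ _ _).2
    (hw.trans (le_max_right _ _))
  have hcl := hR v u W le_rfl hWin hRW r hr0 hr1
  have hWm := infc_meas_KW (G := G) θ W k r v u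
  have hWb : ∀ ω, |KW G θ W k r v u ω| ≤ 1 := fun ω => abs_KK_le hmass k r v u ω
  -- the window bound
  have hwin : ∫ ω, KW G θ W k r v u ω ^ 2 ∂PP V ≤
      θ ^ (2 * G.dist v u) * (1 - θ ^ 2 * qst e0 (b * θ ^ 2) / 4) ^ (G.dist v u - 1) := by
    obtain ⟨hp0, hpn, hgeo⟩ := pth_spec hT v u
    have h := hN W (pth G v u) (G.dist v u) hWin hgeo ?_ ?_
    · rw [hp0, hpn] at h
      refine le_trans (le_of_eq ?_) h
      exact exact_dat hmass k r (fun l => cv (ip G θ W) W l v u ^ 2)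
        ((measurable_cv _ _ _ _).pow_const 2) 1 (fun ω => by
          have h1 := abs_le.1 (abs_cv_le hmass (raw k r ω) (raw_pos k r ω) v u)
          rw [abs_of_nonneg (sq_nonneg _)]
          nlinarith)
    · intro i hi
      apply hNW
      have := hgeo 0 i (Nat.zero_le _) hi
      rw [hp0] at this
      omega
    · intro i hi1 hi2 w _ hw
      apply hNW
      have h2 := hgeo 0 i (Nat.zero_le _) hi2.le
      rw [hp0] at h2
      have h3 := hT.connected.dist_triangle (u := v) (v := pth G v u i) (w := w)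
      rw [SimpleGraph.dist_comm (u := pth G v u i)] at h3
      omega
  have hmono : θ ^ (2 * G.dist v u) * (1 - θ ^ 2 * qst e0 (b * θ ^ 2) / 4) ^ (G.dist v u - 1) ≤
      θ ^ (2 * G.dist v u) * (1 - hh b k r) ^ (G.dist v u - 1) := by
    refine mul_le_mul_of_nonneg_left (pow_le_pow_left₀ hbase ?_ _) (by positivity)
    exact hqst
  have hi1 : Integrable (fun ω => KW G θ W k r v u ω ^ 2) (PP V) :=
    integrable_bdd _ (hWm.pow_const 2) 1 (fun ω => by
      have h1 := abs_le.1 (hWb ω)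
      rw [abs_of_nonneg (sq_nonneg _)]
      nlinarith)
  have hi2 : Integrable (fun ω => (KW G θ W k r v u ω -
      Kf G θ (mI G b θ k r) (bI G b θ k r) v u ω) ^ 2) (PP V) :=
    integrable_bdd _ ((hWm.sub hKm).pow_const 2) 4 (fun ω => by
      have h1 := abs_le.1 (hWb ω)
      have h2 := abs_le.1 (hKb ω)
      rw [abs_of_nonneg (sq_nonneg _)]
      nlinarith)
  have hi3 : Integrable (fun ω => Kf G θ (mI G b θ k r) (bI G b θ k r) v u ω ^ 2) (PP V) :=
    integrable_bdd _ (hKm.pow_const 2) 1 (fun ω => by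
      have h1 := abs_le.1 (hKb ω)
      rw [abs_of_nonneg (sq_nonneg _)]
      nlinarith)
  have hi1' : Integrable (fun ω => KW G θ W k r v u ω ^ 2 + δ) (PP V) :=
    hi1.add (integrable_const δ)
  have hstep : ∫ ω, Kf G θ (mI G b θ k r) (bI G b θ k r) v u ω ^ 2 ∂PP V ≤
      ∫ ω, (KW G θ W k r v u ω ^ 2 + δ + (KW G θ W k r v u ω -
        Kf G θ (mI G b θ k r) (bI G b θ k r) v u ω) ^ 2 / δ) ∂PP V :=
    integral_mono hi3 (hi1'.add (hi2.div_const δ))
      (fun ω => infc_cmp hδ (hKb ω) (hWb ω))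
  have hcomp : ∫ ω, (KW G θ W k r v u ω ^ 2 + δ + (KW G θ W k r v u ω -
        Kf G θ (mI G b θ k r) (bI G b θ k r) v u ω) ^ 2 / δ) ∂PP V =
      ∫ ω, KW G θ W k r v u ω ^ 2 ∂PP V + δ + (∫ ω, (KW G θ W k r v u ω -
        Kf G θ (mI G b θ k r) (bI G b θ k r) v u ω) ^ 2 ∂PP V) / δ := by
    rw [integral_add hi1' (hi2.div_const δ), integral_add hi1 (integrable_const δ), infc_const,
      integral_div]
  have hdiv : (∫ ω, (KW G θ W k r v u ω -
        Kf G θ (mI G b θ k r) (bI G b θ k r) v u ω) ^ 2 ∂PP V) / δ ≤ δ := by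
    rw [div_le_iff₀ hδ]
    nlinarith
  have hδ2 : δ + δ = δ' := by rw [hδdef]; ring
  linarith

set_option maxHeartbeats 2000000 in
theorem chn_I (hT : G.IsTree) (b : ℕ) (hb : 2 ≤ b) (hreg : G.IsRegularOfDegree (b + 1)) (θ : ℝ)
    (h0 : 0 ≤ θ) (h1 : b * θ ^ 2 < 1) (k : ℕ) (r : ℝ) (hr0 : 0 ≤ r) (hk : 0 < r ∨ 1 ≤ k) (hr1 : r ≤ 1)
    (hok : 1 - b * θ ^ 2 ≤ rr k r / 17) :
    Chn G b (kp G b k) θ (mI G b θ k r) (bI G b θ k r) (1 - hh b k r) := by
  intro x p j hp hj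
  obtain ⟨hs0, hs1, e0, he0, he1, hs, he⟩ := infc_e0 (V := V) k r hr0 hk hr1
  have hθ := infc_theta hb h0 h1
  have hfld := fld_I hT b hb hreg θ h0 h1 k r hr0 hr1
  obtain ⟨hκ0, hκ, hκb⟩ := kp_spec hT b hb hreg k
  obtain ⟨N, hN⟩ := chern (raw_LData k r) hT b hb hreg θ h0 h1.le e0 he0 he1 he (kp G b k) hκ0.le hκ
    (fun W y ω hW hy => hκb θ W (raw k r ω) y h0 h1.le hW hy (fun v c => (lkh_bounds _ _ _ _ _ _).1)
      (fun v c => (lkh_bounds _ _ _ _ _ _).2))
  have hbase := infc_base hb h0 h1 he0 he1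
  have hqst := qst_lower b hb θ h0 h1.le e0 (rr k r) hs0 hs1 hs he1 hok
  set S := sph G x (p + j) with hS
  set c : ℝ := (1 - kp G b k ^ 2) ^ 2 * (b : ℝ) ^ p with hc
  have hc0 : 0 ≤ c := by rw [hc]; positivity
  set K : V → Om V → ℝ := fun u => Kf G θ (mI G b θ k r) (bI G b θ k r) x u with hK
  have hKm : ∀ u, Measurable (K u) := fun u => infc_meas_Kf hfld x u
  have hKb : ∀ u ω, |K u ω| ≤ 1 := fun u ω => infc_Kf_mem hfld hκ h0 hθ x u ω
  set L : ℝ := Real.exp (c * S.card) * (c * S.card) with hL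
  have hL0 : 0 ≤ L := by rw [hL]; positivity
  refine le_of_forall_pos_le_add fun δ' hδ' => ?_
  set δ := δ' / (2 * (L + 1)) with hδdef
  have hδ : 0 < δ := by positivity
  obtain ⟨R, hR⟩ := kf_lim hT b hb hreg θ h0 h1 k (p + j) (δ ^ 2) (by positivity)
  set M := max R (p + j + N) with hM
  set W := bal G x M with hW
  have hWin : Win G W := win_bal hT x M
  have hmass := isMass_ip hT θ h0 hθ.le hWin
  have hRW : bal G x R ⊆ W := fun w hw => (mem_bal hT _ _ _).2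
    (((mem_bal hT _ _ _).1 hw).trans (le_max_left _ _))
  have hNW : bal G x (p + j + N) ⊆ W := fun w hw => (mem_bal hT _ _ _).2
    (((mem_bal hT _ _ _).1 hw).trans (le_max_right _ _))
  have hWm : ∀ u, Measurable (KW G θ W k r x u) := fun u => infc_meas_KW (G := G) θ W k r x u
  have hWb : ∀ u ω, |KW G θ W k r x u ω| ≤ 1 := fun u ω => abs_KK_le hmass k r x u ω
  have hsq : ∀ t : ℝ, |t| ≤ 1 → t ^ 2 ≤ 1 := fun t ht => by
    have := abs_le.1 ht
    nlinarith
  have hcard : ∀ f : V → ℝ, (∀ u, |f u| ≤ 1) → c * ∑ u ∈ S, f u ^ 2 ≤ c * S.card := by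
    intro f hf
    refine mul_le_mul_of_nonneg_left ?_ hc0
    calc ∑ u ∈ S, f u ^ 2 ≤ ∑ u ∈ S, (1 : ℝ) := Finset.sum_le_sum fun u _ => hsq _ (hf u)
      _ = S.card := by simp
  -- the window bound
  have hwin : ∫ ω, Real.exp (c * ∑ u ∈ S, KW G θ W k r x u ω ^ 2) ∂PP V ≤
      Real.exp (3 * (b : ℝ) ^ p * (1 - θ ^ 2 * qst e0 (b * θ ^ 2) / 4) ^ (j - 1)) := by
    refine le_trans (le_of_eq ?_) (hN W x p j hp hj hWin hNW)
    refine exact_dat hmass k r (fun l => Real.exp (c * ∑ u ∈ S, cv (ip G θ W) W l x u ^ 2))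
      ?_ (Real.exp (c * S.card)) (fun ω => ?_)
    · refine Real.measurable_exp.comp (Measurable.const_mul ?_ c)
      exact Finset.measurable_sum _ fun u _ => (measurable_cv _ _ _ _).pow_const 2
    · rw [abs_of_pos (Real.exp_pos _)]
      exact Real.exp_le_exp.2 (hcard _ fun u => abs_cv_le hmass (raw k r ω) (raw_pos k r ω) x u)
  have hmono : Real.exp (3 * (b : ℝ) ^ p * (1 - θ ^ 2 * qst e0 (b * θ ^ 2) / 4) ^ (j - 1)) ≤
      Real.exp (3 * (b : ℝ) ^ p * (1 - hh b k r) ^ (j - 1)) := by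
    refine Real.exp_le_exp.2 (mul_le_mul_of_nonneg_left (pow_le_pow_left₀ hbase ?_ _) (by positivity))
    exact hqst
  -- pointwise comparison
  have hpt : ∀ ω, Real.exp (c * ∑ u ∈ S, K u ω ^ 2) ≤
      Real.exp (c * ∑ u ∈ S, KW G θ W k r x u ω ^ 2) +
        Real.exp (c * S.card) * (c * ∑ u ∈ S, (δ + (KW G θ W k r x u ω - K u ω) ^ 2 / δ)) := by
    intro ω
    set A := c * ∑ u ∈ S, K u ω ^ 2 with hA
    set A' := c * ∑ u ∈ S, KW G θ W k r x u ω ^ 2 with hA'
    have hAle : A ≤ c * S.card := hcard _ fun u => hKb u ω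
    have hdiff : A - A' ≤ c * ∑ u ∈ S, (δ + (KW G θ W k r x u ω - K u ω) ^ 2 / δ) := by
      rw [hA, hA', ← mul_sub, ← Finset.sum_sub_distrib]
      refine mul_le_mul_of_nonneg_left (Finset.sum_le_sum fun u _ => ?_) hc0
      have := infc_cmp hδ (hKb u ω) (hWb u ω)
      linarith
    have hnn : 0 ≤ c * ∑ u ∈ S, (δ + (KW G θ W k r x u ω - K u ω) ^ 2 / δ) :=
      mul_nonneg hc0 (Finset.sum_nonneg fun u _ => by positivity)
    have h2 : Real.exp A - Real.exp A' ≤ Real.exp A * (A - A') := by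
      have h3 := Real.add_one_le_exp (A' - A)
      have h4 : Real.exp A' = Real.exp A * Real.exp (A' - A) := by
        rw [← Real.exp_add]; congr 1; ring
      have h5 := Real.exp_pos A
      rw [h4]
      nlinarith
    have h3 : Real.exp A * (A - A') ≤ Real.exp (c * S.card) *
        (c * ∑ u ∈ S, (δ + (KW G θ W k r x u ω - K u ω) ^ 2 / δ)) := by
      calc Real.exp A * (A - A') ≤ Real.exp A *
          (c * ∑ u ∈ S, (δ + (KW G θ W k r x u ω - K u ω) ^ 2 / δ)) :=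
            mul_le_mul_of_nonneg_left hdiff (Real.exp_pos _).le
        _ ≤ _ := mul_le_mul_of_nonneg_right (Real.exp_le_exp.2 hAle) hnn
    linarith
  have hi1 : Integrable (fun ω => Real.exp (c * ∑ u ∈ S, KW G θ W k r x u ω ^ 2)) (PP V) :=
    integrable_bdd _ (Real.measurable_exp.comp (Measurable.const_mul
      (Finset.measurable_sum _ fun u _ => (hWm u).pow_const 2) c)) (Real.exp (c * S.card)) (fun ω => by
      rw [abs_of_pos (Real.exp_pos _)]
      exact Real.exp_le_exp.2 (hcard _ fun u => hWb u ω))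
  have hi3 : Integrable (fun ω => Real.exp (c * ∑ u ∈ S, K u ω ^ 2)) (PP V) :=
    integrable_bdd _ (Real.measurable_exp.comp (Measurable.const_mul
      (Finset.measurable_sum _ fun u _ => (hKm u).pow_const 2) c)) (Real.exp (c * S.card)) (fun ω => by
      rw [abs_of_pos (Real.exp_pos _)]
      exact Real.exp_le_exp.2 (hcard _ fun u => hKb u ω))
  have hi2 : ∀ u, Integrable (fun ω => δ + (KW G θ W k r x u ω - K u ω) ^ 2 / δ) (PP V) := by
    intro u
    refine (integrable_const δ).add (Integrable.div_const ?_ δ)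
    exact integrable_bdd _ (((hWm u).sub (hKm u)).pow_const 2) 4 (fun ω => by
      have h1 := abs_le.1 (hWb u ω)
      have h2 := abs_le.1 (hKb u ω)
      rw [abs_of_nonneg (sq_nonneg _)]
      nlinarith)
  have hi4 : Integrable (fun ω => Real.exp (c * S.card) *
      (c * ∑ u ∈ S, (δ + (KW G θ W k r x u ω - K u ω) ^ 2 / δ))) (PP V) :=
    ((integrable_finsetSum S fun u _ => hi2 u).const_mul c).const_mul _
  have hstep := integral_mono hi3 (hi1.add hi4) hpt
  simp only [Pi.add_apply] at hstep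
  rw [integral_add hi1 hi4, integral_const_mul, integral_const_mul,
    integral_finsetSum S fun u _ => hi2 u] at hstep
  have hu : ∀ u ∈ S, ∫ ω, (δ + (KW G θ W k r x u ω - K u ω) ^ 2 / δ) ∂PP V ≤ 2 * δ := by
    intro u hu
    have hint : Integrable (fun ω => (KW G θ W k r x u ω - K u ω) ^ 2) (PP V) :=
      integrable_bdd _ (((hWm u).sub (hKm u)).pow_const 2) 4 (fun ω => by
        have h1 := abs_le.1 (hWb u ω)
        have h2 := abs_le.1 (hKb u ω)
        rw [abs_of_nonneg (sq_nonneg _)]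
        nlinarith)
    rw [integral_add (integrable_const δ) (hint.div_const δ), infc_const, integral_div]
    have hcl := hR x u W ((mem_sph hT _ _ _).1 hu).le hWin hRW r hr0 hr1
    have hdiv : (∫ ω, (KW G θ W k r x u ω - K u ω) ^ 2 ∂PP V) / δ ≤ δ := by
      rw [div_le_iff₀ hδ]
      nlinarith
    linarith
  have hsum : ∑ u ∈ S, ∫ ω, (δ + (KW G θ W k r x u ω - K u ω) ^ 2 / δ) ∂PP V ≤ S.card * (2 * δ) := by
    calc _ ≤ ∑ u ∈ S, (2 * δ) := Finset.sum_le_sum hu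
      _ = S.card * (2 * δ) := by simp
  have hE := Real.exp_pos (c * S.card)
  have hfin : Real.exp (c * S.card) *
      (c * ∑ u ∈ S, ∫ ω, (δ + (KW G θ W k r x u ω - K u ω) ^ 2 / δ) ∂PP V) ≤ δ' := by
    calc Real.exp (c * S.card) *
        (c * ∑ u ∈ S, ∫ ω, (δ + (KW G θ W k r x u ω - K u ω) ^ 2 / δ) ∂PP V)
        ≤ Real.exp (c * S.card) * (c * (S.card * (2 * δ))) :=
          mul_le_mul_of_nonneg_left (mul_le_mul_of_nonneg_left hsum hc0) hE.le
      _ = L * (2 * δ) := by rw [hL]; ring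
      _ ≤ (L + 1) * (2 * δ) := by nlinarith
      _ = δ' := by rw [hδdef]; field_simp
  linarith

end INF

end Crest.Agent.TI
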