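import Crest.Agent.TI_InfB

/-!
Row S0241, task InfD: the dynamic inequality in infinite volume
-/

set_option autoImplicit false
set_option linter.unusedSectionVars false
set_option linter.unusedVariables false

namespace Crest.Agent.TI

open MeasureTheory Filter Topology
open Crest.Agent.SRF (Lab lab)

/-- elementary: `|x| ≤ δ + x² / δ` -/
theorem dynI_abs (δ : ℝ) (hδ : 0 < δ) (x : ℝ) : |x| ≤ δ + x ^ 2 / δ := by
  have h : |x| * δ ≤ δ * δ + x ^ 2 := by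
    rw [← sq_abs x]
    nlinarith [sq_nonneg (|x| - δ), abs_nonneg x, mul_nonneg (abs_nonneg x) hδ.le]
  have h2 : |x| ≤ (δ * δ + x ^ 2) / δ := by
    rw [le_div_iff₀ hδ]
    exact h
  calc |x| ≤ (δ * δ + x ^ 2) / δ := h2
    _ = δ + x ^ 2 / δ := by
      field_simp

theorem dynI_int {Ω : Type*} [MeasurableSpace Ω] (P : Measure Ω) [IsProbabilityMeasure P]
    {F F' : Ω → ℝ} (hF : Integrable F P) (hF' : Integrable F' P) {x1 x2 x3 x4 : Ω → ℝ}
    (i1 : Integrable (fun ω => x1 ω ^ 2) P) (i2 : Integrable (fun ω => x2 ω ^ 2) P)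
    (i3 : Integrable (fun ω => x3 ω ^ 2) P) (i4 : Integrable (fun ω => x4 ω ^ 2) P)
    (hpt : ∀ ω, F ω ≤ F' ω + 12 * (|x1 ω| + |x2 ω| + |x3 ω| + |x4 ω|)) (δ : ℝ) (hδ : 0 < δ)
    (h1 : ∫ ω, x1 ω ^ 2 ∂P ≤ δ ^ 2) (h2 : ∫ ω, x2 ω ^ 2 ∂P ≤ δ ^ 2)
    (h3 : ∫ ω, x3 ω ^ 2 ∂P ≤ δ ^ 2) (h4 : ∫ ω, x4 ω ^ 2 ∂P ≤ δ ^ 2) :
    ∫ ω, F ω ∂P ≤ ∫ ω, F' ω ∂P + 96 * δ := by
  have hpt' : ∀ ω, F ω ≤ F' ω + (48 * δ + 12 / δ * (x1 ω ^ 2 + x2 ω ^ 2 + x3 ω ^ 2 + x4 ω ^ 2)) := by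
    intro ω
    refine (hpt ω).trans ?_
    have a1 := dynI_abs δ hδ (x1 ω)
    have a2 := dynI_abs δ hδ (x2 ω)
    have a3 := dynI_abs δ hδ (x3 ω)
    have a4 := dynI_abs δ hδ (x4 ω)
    have e : 12 / δ * (x1 ω ^ 2 + x2 ω ^ 2 + x3 ω ^ 2 + x4 ω ^ 2) =
        12 * (x1 ω ^ 2 / δ + x2 ω ^ 2 / δ + x3 ω ^ 2 / δ + x4 ω ^ 2 / δ) := by ring
    rw [e]
    linarith
  have s12 : Integrable (fun ω => x1 ω ^ 2 + x2 ω ^ 2) P := i1.add i2
  have s123 : Integrable (fun ω => x1 ω ^ 2 + x2 ω ^ 2 + x3 ω ^ 2) P := s12.add i3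
  have s1234 : Integrable (fun ω => x1 ω ^ 2 + x2 ω ^ 2 + x3 ω ^ 2 + x4 ω ^ 2) P := s123.add i4
  have c1 : ∫ ω, (x1 ω ^ 2 + x2 ω ^ 2 + x3 ω ^ 2 + x4 ω ^ 2) ∂P = ∫ ω, x1 ω ^ 2 ∂P +
      ∫ ω, x2 ω ^ 2 ∂P + ∫ ω, x3 ω ^ 2 ∂P + ∫ ω, x4 ω ^ 2 ∂P := by
    rw [integral_add s123 i4, integral_add s12 i3, integral_add i1 i2]
  have hI : Integrable (fun ω => 12 / δ * (x1 ω ^ 2 + x2 ω ^ 2 + x3 ω ^ 2 + x4 ω ^ 2)) P :=
    s1234.const_mul _
  have hI2 : Integrable (fun ω => 48 * δ + 12 / δ * (x1 ω ^ 2 + x2 ω ^ 2 + x3 ω ^ 2 + x4 ω ^ 2)) P :=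
    (integrable_const _).add hI
  have hle : ∫ ω, F ω ∂P ≤ ∫ ω, (F' ω + (48 * δ + 12 / δ * (x1 ω ^ 2 + x2 ω ^ 2 + x3 ω ^ 2 +
      x4 ω ^ 2))) ∂P := integral_mono hF (hF'.add hI2) hpt'
  have e0 : ∫ ω, (48 * δ + 12 / δ * (x1 ω ^ 2 + x2 ω ^ 2 + x3 ω ^ 2 + x4 ω ^ 2)) ∂P =
      48 * δ + 12 / δ * (∫ ω, x1 ω ^ 2 ∂P + ∫ ω, x2 ω ^ 2 ∂P + ∫ ω, x3 ω ^ 2 ∂P +
        ∫ ω, x4 ω ^ 2 ∂P) := by
    rw [integral_add (integrable_const _) hI, integral_const_mul (12 / δ), c1, integral_const]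
    simp
  have e1 : ∫ ω, (F' ω + (48 * δ + 12 / δ * (x1 ω ^ 2 + x2 ω ^ 2 + x3 ω ^ 2 + x4 ω ^ 2))) ∂P =
      ∫ ω, F' ω ∂P + (48 * δ + 12 / δ * (∫ ω, x1 ω ^ 2 ∂P + ∫ ω, x2 ω ^ 2 ∂P + ∫ ω, x3 ω ^ 2 ∂P +
        ∫ ω, x4 ω ^ 2 ∂P)) := by
    rw [integral_add hF' hI2, e0]
  refine (hle.trans (le_of_eq e1)).trans ?_
  have h5 : 12 / δ * (∫ ω, x1 ω ^ 2 ∂P + ∫ ω, x2 ω ^ 2 ∂P + ∫ ω, x3 ω ^ 2 ∂P +
        ∫ ω, x4 ω ^ 2 ∂P) ≤ 12 / δ * (4 * δ ^ 2) := by
    apply mul_le_mul_of_nonneg_left _ (by positivity)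
    linarith
  have h6 : 12 / δ * (4 * δ ^ 2) = 48 * δ := by
    field_simp
    ring
  linarith

section INF

variable {V : Type*} [DecidableEq V] {G : SimpleGraph V} [G.LocallyFinite]

/-- sum over a ball by distance -/
theorem dynI_sum (hT : G.IsTree) (b : ℕ) (hreg : G.IsRegularOfDegree (b + 1)) (v : V) (μ : ℝ)
    (hμ : 0 ≤ μ) (f : V → ℝ) (hf : ∀ u, f u ≤ 8 * μ ^ (2 * G.dist v u)) (n R : ℕ) (hnR : n ≤ R) :
    ∑ u ∈ bal G v R, f u ≤ ∑ u ∈ bal G v n, f u +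
      8 * (b + 1) * μ ^ 2 * ∑ i ∈ Finset.Ico n R, (b * μ ^ 2) ^ i := by
  induction R, hnR using Nat.le_induction with
  | base => simp
  | succ R hR ih =>
    have hun : bal G v (R + 1) = bal G v R ∪ sph G v (R + 1) := by
      ext u
      rw [Finset.mem_union, mem_bal hT, mem_bal hT, mem_sph hT]
      omega
    have hdis : Disjoint (bal G v R) (sph G v (R + 1)) := by
      rw [Finset.disjoint_left]
      intro u hu hu'
      rw [mem_bal hT] at hu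
      rw [mem_sph hT] at hu'
      omega
    rw [hun, Finset.sum_union hdis, Finset.sum_Ico_succ_top hR]
    have hs : ∑ u ∈ sph G v (R + 1), f u ≤ 8 * (b + 1) * μ ^ 2 * (b * μ ^ 2) ^ R := by
      have h1 : ∑ u ∈ sph G v (R + 1), f u ≤ ∑ u ∈ sph G v (R + 1), 8 * μ ^ (2 * (R + 1)) := by
        apply Finset.sum_le_sum
        intro u hu
        rw [mem_sph hT] at hu
        have := hf u
        rwa [hu] at this
      refine h1.trans (le_of_eq ?_)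
      rw [Finset.sum_const, card_sph hT b hreg, nsmul_eq_mul]
      push_cast
      rw [mul_pow]
      ring
    linarith [mul_add (8 * ((b : ℝ) + 1) * μ ^ 2) (∑ i ∈ Finset.Ico n R, (b * μ ^ 2) ^ i) ((b * μ ^ 2) ^ R)]

theorem dynI_psi (θ : ℝ) (h0 : 0 ≤ θ) (h1 : θ ≤ 1) (B : ℝ) (hB : |B| < 1) :
    0 ≤ psi θ B ∧ psi θ B ≤ 1 := by
  have hB2 : B ^ 2 < 1 := by
    rw [← sq_abs]
    have := abs_nonneg B
    nlinarith
  have hθ2 : θ ^ 2 ≤ 1 := by nlinarith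
  have hprod : θ ^ 2 * B ^ 2 ≤ B ^ 2 := by
    nlinarith [sq_nonneg B, sq_nonneg θ]
  have hpos : 0 < 1 - θ ^ 2 * B ^ 2 := by linarith
  unfold psi
  constructor
  · apply div_nonneg <;> linarith
  · rw [div_le_one hpos]
    linarith

theorem dynI_Kf_bdd {κ θ : ℝ} (h0 : 0 ≤ θ) (h1 : θ ≤ 1) (hκ : κ < 1) {m : V → Om V → ℝ}
    {B : V → V → Om V → ℝ} (hF : Fld G κ θ m B) (v u : V) (ω : Om V) : |Kf G θ m B v u ω| ≤ 1 := by
  unfold Kf
  rw [abs_mul]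
  have hm := hF.bdd_m v ω
  have hm2 : m v ω ^ 2 ≤ 1 := by
    rw [← sq_abs]
    have := abs_nonneg (m v ω)
    nlinarith
  have e1 : |1 - m v ω ^ 2| ≤ 1 := by
    rw [abs_le]
    constructor <;> nlinarith [sq_nonneg (m v ω)]
  have e2 : |∏ i ∈ Finset.range (G.dist v u), (θ * psi θ (B (pth G v u (i + 1)) (pth G v u i) ω))| ≤ 1 := by
    rw [Finset.abs_prod]
    apply Finset.prod_le_one
    · intro i _
      exact abs_nonneg _
    · intro i _
      have hp := dynI_psi θ h0 h1 (B (pth G v u (i + 1)) (pth G v u i) ω)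
        (lt_of_le_of_lt (hF.bdd_B _ _ ω) hκ)
      rw [abs_of_nonneg (mul_nonneg h0 hp.1)]
      nlinarith [hp.1, hp.2]
  have := abs_nonneg (1 - m v ω ^ 2)
  have := abs_nonneg (∏ i ∈ Finset.range (G.dist v u), (θ * psi θ (B (pth G v u (i + 1)) (pth G v u i) ω)))
  nlinarith

theorem dynI_Kf_meas {κ θ : ℝ} {m : V → Om V → ℝ} {B : V → V → Om V → ℝ} (hF : Fld G κ θ m B)
    (v u : V) : Measurable (Kf G θ m B v u) := by
  unfold Kf
  refine Measurable.mul ?_ ?_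
  · exact measurable_const.sub ((hF.meas_m v).pow_const 2)
  · refine Finset.measurable_prod _ fun i _ => ?_
    refine measurable_const.mul ?_
    unfold psi
    exact (measurable_const.sub ((hF.meas_B _ _).pow_const 2)).div
      (measurable_const.sub (measurable_const.mul ((hF.meas_B _ _).pow_const 2)))

theorem dynI_MWm (θ : ℝ) (W : Finset V) (k : ℕ) (r : ℝ) (u : V) : Measurable (MW G θ W k r u) := by
  have h1 : Measurable (fun ω : Om V => (r, ω)) := measurable_const.prodMk measurable_id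
  have h2 := (measurable_MM2 (ip G θ W) W k u).comp h1
  exact h2

theorem dynI_KWm (θ : ℝ) (W : Finset V) (k : ℕ) (r : ℝ) (v u : V) :
    Measurable (KW G θ W k r v u) := by
  have h1 : Measurable (fun ω : Om V => (r, ω)) := measurable_const.prodMk measurable_id
  have h2 := (measurable_KK2 (ip G θ W) W k v u).comp h1
  exact h2

/-- the pointwise comparison -/
theorem dynI_pt (K K' M M' k k' m m' : ℝ) (h1 : |K| ≤ 1) (h2 : |K'| ≤ 1) (h3 : |M| ≤ 1)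
    (h4 : |M'| ≤ 1) (h5 : |k| ≤ 1) (h6 : |k'| ≤ 1) (h7 : |m| ≤ 1) (h8 : |m'| ≤ 1) :
    (K - K') ^ 2 + K' ^ 2 * (M - M') ^ 2 ≤ (k - k') ^ 2 + k' ^ 2 * (m - m') ^ 2 +
      12 * (|K - k| + |K' - k'| + |M - m| + |M' - m'|) := by
  have key : ∀ a b c d : ℝ, |a| ≤ 1 → |b| ≤ 1 → |c| ≤ 1 → |d| ≤ 1 →
      (a - b) ^ 2 - (c - d) ^ 2 ≤ 4 * (|a - c| + |b - d|) := by
    intro a b c d ha hb hc hd
    have e : (a - b) ^ 2 - (c - d) ^ 2 = ((a - c) - (b - d)) * ((a - b) + (c - d)) := by ring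
    have e1 : |(a - c) - (b - d)| ≤ |a - c| + |b - d| := abs_sub _ _
    have e2 : |(a - b) + (c - d)| ≤ 4 := by
      rw [abs_le] at *
      constructor <;> linarith [ha.1, ha.2, hb.1, hb.2, hc.1, hc.2, hd.1, hd.2]
    calc (a - b) ^ 2 - (c - d) ^ 2 ≤ |((a - c) - (b - d)) * ((a - b) + (c - d))| := by
          rw [e]; exact le_abs_self _
      _ = |(a - c) - (b - d)| * |(a - b) + (c - d)| := abs_mul _ _
      _ ≤ (|a - c| + |b - d|) * 4 := by
          apply mul_le_mul e1 e2 (abs_nonneg _)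
          have := abs_nonneg (a - c)
          have := abs_nonneg (b - d)
          linarith
      _ = 4 * (|a - c| + |b - d|) := by ring
  have k1 := key K K' k k' h1 h2 h5 h6
  have k2 := key M M' m m' h3 h4 h7 h8
  have q1 : K' ^ 2 - k' ^ 2 ≤ 2 * |K' - k'| := by
    have e : K' ^ 2 - k' ^ 2 = (K' - k') * (K' + k') := by ring
    have e2 : |K' + k'| ≤ 2 := by
      rw [abs_le] at *
      constructor <;> linarith [h2.1, h2.2, h6.1, h6.2]
    calc K' ^ 2 - k' ^ 2 ≤ |(K' - k') * (K' + k')| := by rw [e]; exact le_abs_self _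
      _ = |K' - k'| * |K' + k'| := abs_mul _ _
      _ ≤ |K' - k'| * 2 := mul_le_mul_of_nonneg_left e2 (abs_nonneg _)
      _ = 2 * |K' - k'| := by ring
  have q2 : (M - M') ^ 2 ≤ 4 := by
    rw [abs_le] at h3 h4
    nlinarith [h3.1, h3.2, h4.1, h4.2]
  have q3 : k' ^ 2 ≤ 1 := by
    rw [abs_le] at h6
    nlinarith [h6.1, h6.2]
  have n1 := abs_nonneg (K - k)
  have n2 := abs_nonneg (K' - k')
  have n3 := abs_nonneg (M - m)
  have n4 := abs_nonneg (M' - m')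
  have z1 : K' ^ 2 * (M - M') ^ 2 - k' ^ 2 * (m - m') ^ 2 ≤ 8 * |K' - k'| + 4 * (|M - m| + |M' - m'|) := by
    have e : K' ^ 2 * (M - M') ^ 2 - k' ^ 2 * (m - m') ^ 2 =
      (K' ^ 2 - k' ^ 2) * (M - M') ^ 2 + k' ^ 2 * ((M - M') ^ 2 - (m - m') ^ 2) := by ring
    rw [e]
    have y1 : (K' ^ 2 - k' ^ 2) * (M - M') ^ 2 ≤ (2 * |K' - k'|) * 4 := by
      calc (K' ^ 2 - k' ^ 2) * (M - M') ^ 2 ≤ (2 * |K' - k'|) * (M - M') ^ 2 :=
            mul_le_mul_of_nonneg_right q1 (sq_nonneg _)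
        _ ≤ (2 * |K' - k'|) * 4 := mul_le_mul_of_nonneg_left q2 (by positivity)
    have y2 : k' ^ 2 * ((M - M') ^ 2 - (m - m') ^ 2) ≤ 1 * (4 * (|M - m| + |M' - m'|)) := by
      calc k' ^ 2 * ((M - M') ^ 2 - (m - m') ^ 2) ≤ k' ^ 2 * (4 * (|M - m| + |M' - m'|)) :=
            mul_le_mul_of_nonneg_left k2 (sq_nonneg _)
        _ ≤ 1 * (4 * (|M - m| + |M' - m'|)) := mul_le_mul_of_nonneg_right q3 (by positivity)
    linarith
  linarith

set_option maxHeartbeats 800000 in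
theorem dyn_I (hT : G.IsTree) (b : ℕ) (hb : 2 ≤ b) (hreg : G.IsRegularOfDegree (b + 1))
    (θ θ' : ℝ) (h0 : 0 ≤ θ) (h1 : b * θ ^ 2 < 1) (h0' : 0 ≤ θ') (h1' : b * θ' ^ 2 < 1) (k : ℕ) (v : V)
    (t0 t : ℝ) (ht0 : 0 ≤ t0) (ht : t0 ≤ t) (ht1 : t ≤ 1) (B : ℝ → ℝ) (hBm : Measurable B)
    (M : ℝ) (hB : ∀ r, |B r| ≤ M)
    (hsum : ∀ r, t0 < r → r ≤ t → ∀ Λ : Finset V, ∑ u ∈ Λ,
      ∫ ω, ((Kf G θ (mI G b θ k r) (bI G b θ k r) v u ω - Kf G θ' (mI G b θ' k r) (bI G b θ' k r) v u ω) ^ 2 +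
        Kf G θ' (mI G b θ' k r) (bI G b θ' k r) v u ω ^ 2 *
          (mI G b θ k r u ω - mI G b θ' k r u ω) ^ 2) ∂PP V ≤ B r) :
    ∫ ω, (mI G b θ k t v ω - mI G b θ' k t v ω) ^ 2 ∂PP V ≤
      ∫ ω, (mI G b θ k t0 v ω - mI G b θ' k t0 v ω) ^ 2 ∂PP V + 2 * ∫ r in t0..t, r ^ 2 * B r := by
  -- elementary facts on θ, θ'
  have hb' : (2 : ℝ) ≤ b := by exact_mod_cast hb
  have hlt : ∀ x : ℝ, 0 ≤ x → b * x ^ 2 < 1 → x < 1 := by
    intro x hx h
    nlinarith [sq_nonneg x, sq_nonneg (x - 1)]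
  have hθ1 := hlt θ h0 h1
  have hθ1' := hlt θ' h0' h1'
  set μ : ℝ := max θ θ' with hμ
  have hμ0 : 0 ≤ μ := le_max_of_le_left h0
  have hμb : (b : ℝ) * μ ^ 2 < 1 := by
    rcases max_choice θ θ' with h | h
    · rw [hμ, h]; exact h1
    · rw [hμ, h]; exact h1'
  have hq0 : (0 : ℝ) ≤ b * μ ^ 2 := by positivity
  have hκ := kp_spec hT b hb hreg k
  have hκ1 : kp G b k < 1 := hκ.2.1
  -- it suffices to prove the inequality up to `(1000 : ℝ) * δ`
  apply le_of_forall_pos_le_add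
  intro ε hε
  set δ : ℝ := ε / 1000 with hδdef
  have hδ : 0 < δ := by positivity
  -- the radius `n`
  obtain ⟨n, hn⟩ : ∃ n : ℕ, 8 * ((b : ℝ) + 1) * μ ^ 2 * ((b * μ ^ 2) ^ n / (1 - b * μ ^ 2)) ≤ δ := by
    have ht : Tendsto (fun n : ℕ => 8 * ((b : ℝ) + 1) * μ ^ 2 * ((b * μ ^ 2) ^ n / (1 - b * μ ^ 2)))
        atTop (𝓝 (8 * ((b : ℝ) + 1) * μ ^ 2 * (0 / (1 - b * μ ^ 2)))) :=
      ((tendsto_pow_atTop_nhds_zero_of_lt_one hq0 hμb).div_const _).const_mul _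
    rw [zero_div, mul_zero] at ht
    obtain ⟨n, hn⟩ := (ht.eventually (gt_mem_nhds hδ)).exists
    exact ⟨n, hn.le⟩
  -- small parameter
  set N : ℝ := ((bal G v n).card : ℝ) + 1 with hN
  have hNpos : 0 < N := by positivity
  set η : ℝ := δ / N with hη
  have hηpos : 0 < η := by positivity
  have hηδ : η ≤ δ := by
    rw [hη, div_le_iff₀ hNpos]
    have : (0 : ℝ) ≤ (bal G v n).card := by positivity
    nlinarith
  obtain ⟨R1, hR1⟩ := mI_unif hT b hb hreg θ h0 h1 k (η ^ 2) (by positivity)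
  obtain ⟨R2, hR2⟩ := mI_unif hT b hb hreg θ' h0' h1' k (η ^ 2) (by positivity)
  obtain ⟨R3, hR3⟩ := kf_lim hT b hb hreg θ h0 h1 k n (η ^ 2) (by positivity)
  obtain ⟨R4, hR4⟩ := kf_lim hT b hb hreg θ' h0' h1' k n (η ^ 2) (by positivity)
  set R : ℕ := n + R1 + R2 + R3 + R4 with hR
  set W := bal G v R with hW
  have hWin : Win G W := win_bal hT v R
  have hsub : ∀ (u : V) (r : ℕ), G.dist v u ≤ n → n + r ≤ R → bal G u r ⊆ W := by
    intro u r hu hr w hw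
    rw [mem_bal hT] at hw
    rw [hW, mem_bal hT]
    have := hT.connected.dist_triangle (u := v) (v := u) (w := w)
    omega
  have hvW : v ∈ W := by
    rw [hW, mem_bal hT]; simp
  have hp : IsMass (ip G θ W) W := isMass_ip hT θ h0 hθ1.le hWin
  have hp' : IsMass (ip G θ' W) W := isMass_ip hT θ' h0' hθ1'.le hWin
  have hdyn := dyn hp hp' v hvW hvW k t0 t ht0 ht ht1
  rw [Finset.union_self] at hdyn
  have hvv : G.dist v v ≤ n := by simp
  -- measurability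
  have hMm : ∀ (θ : ℝ) (r : ℝ) (u : V), Measurable (MW G θ W k r u) :=
    fun θ r u => dynI_MWm θ W k r u
  have hKm : ∀ (θ : ℝ) (r : ℝ) (u : V), Measurable (KW G θ W k r v u) :=
    fun θ r u => dynI_KWm θ W k r v u
  have hMb : ∀ (r : ℝ) (u : V) ω, |MW G θ W k r u ω| ≤ 1 := fun r u ω => abs_MM_le hp k r u ω
  have hMb' : ∀ (r : ℝ) (u : V) ω, |MW G θ' W k r u ω| ≤ 1 := fun r u ω => abs_MM_le hp' k r u ω
  have hKb : ∀ (r : ℝ) (u : V) ω, |KW G θ W k r v u ω| ≤ 1 := fun r u ω => abs_KK_le hp k r v u ω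
  have hKb' : ∀ (r : ℝ) (u : V) ω, |KW G θ' W k r v u ω| ≤ 1 := fun r u ω => abs_KK_le hp' k r v u ω
  have hF : ∀ r, 0 ≤ r → r ≤ 1 → Fld G (kp G b k) θ (mI G b θ k r) (bI G b θ k r) :=
    fun r hr0 hr1 => fld_I hT b hb hreg θ h0 h1 k r hr0 hr1
  have hF' : ∀ r, 0 ≤ r → r ≤ 1 → Fld G (kp G b k) θ' (mI G b θ' k r) (bI G b θ' k r) :=
    fun r hr0 hr1 => fld_I hT b hb hreg θ' h0' h1' k r hr0 hr1
  -- integrability of bounded things
  have hint : ∀ (f : Om V → ℝ), Measurable f → ∀ C : ℝ, (∀ ω, |f ω| ≤ C) → Integrable f (PP V) :=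
    fun f hf C hC => integrable_bdd _ hf C hC
  have hsqb : ∀ x y : ℝ, |x| ≤ 1 → |y| ≤ 1 → |(x - y) ^ 2| ≤ 4 := by
    intro x y hx hy
    rw [abs_le] at hx hy
    rw [abs_of_nonneg (sq_nonneg _)]
    nlinarith [hx.1, hx.2, hy.1, hy.2]
  have hmb : ∀ r, 0 ≤ r → r ≤ 1 → ∀ u ω, |mI G b θ k r u ω| ≤ 1 :=
    fun r hr0 hr1 u ω => ((hF r hr0 hr1).bdd_m u ω).trans hκ1.le
  have hmb' : ∀ r, 0 ≤ r → r ≤ 1 → ∀ u ω, |mI G b θ' k r u ω| ≤ 1 :=
    fun r hr0 hr1 u ω => ((hF' r hr0 hr1).bdd_m u ω).trans hκ1.le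
  have hIsq : ∀ (f g : Om V → ℝ), Measurable f → Measurable g → (∀ ω, |f ω| ≤ 1) → (∀ ω, |g ω| ≤ 1) →
      Integrable (fun ω => (f ω - g ω) ^ 2) (PP V) := by
    intro f g hf hg hfb hgb
    exact hint _ ((hf.sub hg).pow_const 2) 4 (fun ω => hsqb _ _ (hfb ω) (hgb ω))
  have hIzero : Integrable (fun ω : Om V => ((fun _ => 0 : Om V → ℝ) ω) ^ 2) (PP V) := by
    simp
  have hzero : ∫ ω : Om V, ((fun _ => 0 : Om V → ℝ) ω) ^ 2 ∂PP V ≤ η ^ 2 := by
    simp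
    positivity
  -- comparison of the squared differences of the means at `v`
  have hcomp : ∀ r, 0 ≤ r → r ≤ 1 →
      |∫ ω, (mI G b θ k r v ω - mI G b θ' k r v ω) ^ 2 ∂PP V -
        ∫ ω, (MW G θ W k r v ω - MW G θ' W k r v ω) ^ 2 ∂PP V| ≤ 96 * η := by
    intro r hr0 hr1
    have i1 := hIsq _ _ (hMm θ r v) ((hF r hr0 hr1).meas_m v) (hMb r v) (hmb r hr0 hr1 v)
    have i2 := hIsq _ _ (hMm θ' r v) ((hF' r hr0 hr1).meas_m v) (hMb' r v) (hmb' r hr0 hr1 v)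
    have j1 := hIsq _ _ ((hF r hr0 hr1).meas_m v) (hMm θ r v) (hmb r hr0 hr1 v) (hMb r v)
    have j2 := hIsq _ _ ((hF' r hr0 hr1).meas_m v) (hMm θ' r v) (hmb' r hr0 hr1 v) (hMb' r v)
    have a1 := hR1 v W hWin (hsub v R1 hvv (by omega)) r hr0 hr1
    have a2 := hR2 v W hWin (hsub v R2 hvv (by omega)) r hr0 hr1
    have b1 : ∫ ω, (mI G b θ k r v ω - MW G θ W k r v ω) ^ 2 ∂PP V ≤ η ^ 2 := by
      refine le_trans (le_of_eq ?_) a1
      refine integral_congr_ae (Filter.Eventually.of_forall fun ω => ?_)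
      ring
    have b2 : ∫ ω, (mI G b θ' k r v ω - MW G θ' W k r v ω) ^ 2 ∂PP V ≤ η ^ 2 := by
      refine le_trans (le_of_eq ?_) a2
      refine integral_congr_ae (Filter.Eventually.of_forall fun ω => ?_)
      ring
    have I1 := hIsq _ _ ((hF r hr0 hr1).meas_m v) ((hF' r hr0 hr1).meas_m v) (hmb r hr0 hr1 v)
      (hmb' r hr0 hr1 v)
    have I2 := hIsq _ _ (hMm θ r v) (hMm θ' r v) (hMb r v) (hMb' r v)
    rw [abs_le]
    constructor
    · have := dynI_int (PP V) I2 I1 i1 i2 hIzero hIzero (fun ω => by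
        have h := dynI_pt (MW G θ W k r v ω) (MW G θ' W k r v ω) 0 0 (mI G b θ k r v ω)
          (mI G b θ' k r v ω) 0 0 (hMb r v ω) (hMb' r v ω) (by simp) (by simp)
          (hmb r hr0 hr1 v ω) (hmb' r hr0 hr1 v ω) (by simp) (by simp)
        simpa using h) η hηpos a1 a2 hzero hzero
      linarith
    · have := dynI_int (PP V) I1 I2 j1 j2 hIzero hIzero (fun ω => by
        have h := dynI_pt (mI G b θ k r v ω) (mI G b θ' k r v ω) 0 0 (MW G θ W k r v ω)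
          (MW G θ' W k r v ω) 0 0 (hmb r hr0 hr1 v ω) (hmb' r hr0 hr1 v ω) (by simp) (by simp)
          (hMb r v ω) (hMb' r v ω) (by simp) (by simp)
        simpa using h) η hηpos b1 b2 hzero hzero
      linarith
  -- comparison of the integrands
  have hPhi : ∀ r, 0 ≤ r → r ≤ 1 → ∀ u, G.dist v u ≤ n →
      ∫ ω, ((KW G θ W k r v u ω - KW G θ' W k r v u ω) ^ 2 +
        (KW G θ' W k r v u ω) ^ 2 * (MW G θ W k r u ω - MW G θ' W k r u ω) ^ 2) ∂PP V ≤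
      ∫ ω, ((Kf G θ (mI G b θ k r) (bI G b θ k r) v u ω - Kf G θ' (mI G b θ' k r) (bI G b θ' k r) v u ω) ^ 2 +
        Kf G θ' (mI G b θ' k r) (bI G b θ' k r) v u ω ^ 2 *
          (mI G b θ k r u ω - mI G b θ' k r u ω) ^ 2) ∂PP V + 96 * η := by
    intro r hr0 hr1 u hu
    have fb := dynI_Kf_bdd h0 hθ1.le hκ1 (hF r hr0 hr1) v u
    have fb' := dynI_Kf_bdd h0' hθ1'.le hκ1 (hF' r hr0 hr1) v u
    have fm := dynI_Kf_meas (hF r hr0 hr1) v u
    have fm' := dynI_Kf_meas (hF' r hr0 hr1) v u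
    have mm := (hF r hr0 hr1).meas_m u
    have mm' := (hF' r hr0 hr1).meas_m u
    have mb := hmb r hr0 hr1 u
    have mb' := hmb' r hr0 hr1 u
    have hgen : ∀ (x y z w : Om V → ℝ), Measurable x → Measurable y → Measurable z → Measurable w →
        (∀ ω, |x ω| ≤ 1) → (∀ ω, |y ω| ≤ 1) → (∀ ω, |z ω| ≤ 1) → (∀ ω, |w ω| ≤ 1) →
        Integrable (fun ω => (x ω - y ω) ^ 2 + y ω ^ 2 * (z ω - w ω) ^ 2) (PP V) := by
      intro x y z w hx hy hz hw bx byy bz bw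
      refine hint _ (((hx.sub hy).pow_const 2).add ((hy.pow_const 2).mul ((hz.sub hw).pow_const 2))) 8
        fun ω => ?_
      rw [abs_of_nonneg (by positivity)]
      have e1 := hsqb _ _ (bx ω) (byy ω)
      have e2 := hsqb _ _ (bz ω) (bw ω)
      rw [abs_of_nonneg (sq_nonneg _)] at e1 e2
      have e3 : y ω ^ 2 ≤ 1 := by
        have := abs_le.1 (byy ω)
        nlinarith [this.1, this.2]
      have e4 : y ω ^ 2 * (z ω - w ω) ^ 2 ≤ 1 * 4 := mul_le_mul e3 e2 (sq_nonneg _) (by norm_num)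
      linarith
    exact dynI_int (PP V)
      (hgen _ _ _ _ (hKm θ r u) (hKm θ' r u) (hMm θ r u) (hMm θ' r u) (hKb r u) (hKb' r u) (hMb r u) (hMb' r u))
      (hgen _ _ _ _ fm fm' mm mm' fb fb' mb mb')
      (hIsq _ _ (hKm θ r u) fm (hKb r u) fb) (hIsq _ _ (hKm θ' r u) fm' (hKb' r u) fb')
      (hIsq _ _ (hMm θ r u) mm (hMb r u) mb) (hIsq _ _ (hMm θ' r u) mm' (hMb' r u) mb')
      (fun ω => dynI_pt _ _ _ _ _ _ _ _ (hKb r u ω) (hKb' r u ω) (hMb r u ω) (hMb' r u ω) (fb ω) (fb' ω)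
        (mb ω) (mb' ω)) η hηpos
      (hR3 v u W hu hWin (hsub v R3 hvv (by omega)) r hr0 hr1)
      (hR4 v u W hu hWin (hsub v R4 hvv (by omega)) r hr0 hr1)
      (hR1 u W hWin (hsub u R1 hu (by omega)) r hr0 hr1)
      (hR2 u W hWin (hsub u R2 hu (by omega)) r hr0 hr1)
  -- crude bound
  have hcrude : ∀ r u, ∫ ω, ((KW G θ W k r v u ω - KW G θ' W k r v u ω) ^ 2 +
        (KW G θ' W k r v u ω) ^ 2 * (MW G θ W k r u ω - MW G θ' W k r u ω) ^ 2) ∂PP V ≤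
        8 * μ ^ (2 * G.dist v u) := by
    intro r u
    set d := G.dist v u with hd
    have hpt : ∀ ω, (KW G θ W k r v u ω - KW G θ' W k r v u ω) ^ 2 +
        (KW G θ' W k r v u ω) ^ 2 * (MW G θ W k r u ω - MW G θ' W k r u ω) ^ 2 ≤
        8 * μ ^ (2 * d) := by
      intro ω
      have c1 : |KW G θ W k r v u ω| ≤ μ ^ d :=
        (KW_bound hT θ h0 hθ1 W hWin k r v u ω).trans (pow_le_pow_left₀ h0 (le_max_left _ _) _)
      have c2 : |KW G θ' W k r v u ω| ≤ μ ^ d :=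
        (KW_bound hT θ' h0' hθ1' W hWin k r v u ω).trans (pow_le_pow_left₀ h0' (le_max_right _ _) _)
      have c3 : (KW G θ W k r v u ω - KW G θ' W k r v u ω) ^ 2 ≤ 4 * (μ ^ d) ^ 2 := by
        rw [abs_le] at c1 c2
        nlinarith [c1.1, c1.2, c2.1, c2.2]
      have c4 : (KW G θ' W k r v u ω) ^ 2 ≤ (μ ^ d) ^ 2 := by
        rw [← sq_abs]
        exact pow_le_pow_left₀ (abs_nonneg _) c2 2
      have c5 := hsqb _ _ (hMb r u ω) (hMb' r u ω)
      rw [abs_of_nonneg (sq_nonneg _)] at c5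
      have c6 : (KW G θ' W k r v u ω) ^ 2 * (MW G θ W k r u ω - MW G θ' W k r u ω) ^ 2 ≤
          (μ ^ d) ^ 2 * 4 := mul_le_mul c4 c5 (sq_nonneg _) (by positivity)
      have c7 : (μ ^ d) ^ 2 = μ ^ (2 * d) := by
        rw [← pow_mul]
        congr 1
        ring
      rw [c7] at c3 c6
      linarith
    have hnn : 0 ≤ᵐ[PP V] fun ω => (KW G θ W k r v u ω - KW G θ' W k r v u ω) ^ 2 +
        (KW G θ' W k r v u ω) ^ 2 * (MW G θ W k r u ω - MW G θ' W k r u ω) ^ 2 :=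
      Filter.Eventually.of_forall fun ω => by
        simp only [Pi.zero_apply]
        positivity
    have := integral_mono_of_nonneg (μ := PP V) hnn (integrable_const (8 * μ ^ (2 * d)))
      (Filter.Eventually.of_forall hpt)
    simpa using this
  -- the sum over the window
  have hS : ∀ r, t0 < r → r ≤ t → ∑ u ∈ W, ∫ ω, ((KK (ip G θ W) W k r v u ω - KK (ip G θ' W) W k r v u ω) ^ 2 +
        (KK (ip G θ' W) W k r v u ω) ^ 2 * (MM (ip G θ W) W k r u ω - MM (ip G θ' W) W k r u ω) ^ 2) ∂PP V ≤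
        B r + 97 * δ := by
    intro r hr hrt
    have hr0 : 0 ≤ r := by linarith
    have hr1 : r ≤ 1 := by linarith
    have s1 := dynI_sum hT b hreg v μ hμ0 (fun u => ∫ ω, ((KW G θ W k r v u ω - KW G θ' W k r v u ω) ^ 2 +
        (KW G θ' W k r v u ω) ^ 2 * (MW G θ W k r u ω - MW G θ' W k r u ω) ^ 2) ∂PP V) (hcrude r) n R
        (by omega)
    have s2 : 8 * ((b : ℝ) + 1) * μ ^ 2 * ∑ i ∈ Finset.Ico n R, (b * μ ^ 2) ^ i ≤ δ := by
      refine le_trans ?_ hn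
      apply mul_le_mul_of_nonneg_left _ (by positivity)
      exact geom_sum_Ico_le_of_lt_one hq0 hμb
    have s3 : ∑ u ∈ bal G v n, ∫ ω, ((KW G θ W k r v u ω - KW G θ' W k r v u ω) ^ 2 +
        (KW G θ' W k r v u ω) ^ 2 * (MW G θ W k r u ω - MW G θ' W k r u ω) ^ 2) ∂PP V ≤
        B r + 96 * δ := by
      have s4 : ∑ u ∈ bal G v n, ∫ ω, ((KW G θ W k r v u ω - KW G θ' W k r v u ω) ^ 2 +
        (KW G θ' W k r v u ω) ^ 2 * (MW G θ W k r u ω - MW G θ' W k r u ω) ^ 2) ∂PP V ≤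
        ∑ u ∈ bal G v n, (∫ ω, ((Kf G θ (mI G b θ k r) (bI G b θ k r) v u ω -
          Kf G θ' (mI G b θ' k r) (bI G b θ' k r) v u ω) ^ 2 +
        Kf G θ' (mI G b θ' k r) (bI G b θ' k r) v u ω ^ 2 *
          (mI G b θ k r u ω - mI G b θ' k r u ω) ^ 2) ∂PP V + 96 * η) := by
        apply Finset.sum_le_sum
        intro u hu
        rw [mem_bal hT] at hu
        exact hPhi r hr0 hr1 u hu
      refine s4.trans ?_
      rw [Finset.sum_add_distrib, Finset.sum_const, nsmul_eq_mul]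
      have s5 := hsum r hr hrt (bal G v n)
      have s6 : ((bal G v n).card : ℝ) * (96 * η) ≤ 96 * δ := by
        have : ((bal G v n).card : ℝ) * η ≤ δ := by
          rw [hη, ← mul_div_assoc, div_le_iff₀ hNpos, hN]
          nlinarith
        linarith
      linarith
    have s7 := s1.trans (add_le_add s3 s2)
    have s8 : B r + 96 * δ + δ = B r + 97 * δ := by ring
    rw [s8] at s7
    exact s7
  -- integrate in time
  have htime : ∫ r in t0..t, r ^ 2 * ∑ u ∈ W, ∫ ω, ((KK (ip G θ W) W k r v u ω -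
        KK (ip G θ' W) W k r v u ω) ^ 2 +
        (KK (ip G θ' W) W k r v u ω) ^ 2 * (MM (ip G θ W) W k r u ω - MM (ip G θ' W) W k r u ω) ^ 2) ∂PP V ≤
      (∫ r in t0..t, r ^ 2 * B r) + 97 * δ := by
    have hM0 : 0 ≤ M := (abs_nonneg _).trans (hB 0)
    have hIB : IntegrableOn (fun r : ℝ => r ^ 2 * B r) (Set.Ioc t0 t) volume := by
      refine Measure.integrableOn_of_bounded (M := M) (by simp)
        ((measurable_id.pow_const 2).mul hBm).aestronglyMeasurable ?_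
      refine (ae_restrict_iff' measurableSet_Ioc).2 (Filter.Eventually.of_forall fun r hr => ?_)
      rw [Real.norm_eq_abs, abs_mul, abs_of_nonneg (sq_nonneg r)]
      have e3 : r ^ 2 ≤ 1 := by
        have := hr.1
        have := hr.2
        nlinarith
      calc r ^ 2 * |B r| ≤ 1 * M := mul_le_mul e3 (hB r) (abs_nonneg _) (by norm_num)
        _ = M := one_mul M
    have hIc : IntegrableOn (fun r : ℝ => (97 * δ : ℝ)) (Set.Ioc t0 t) volume := by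
      exact integrableOn_const (by simp)
    have hI := hIB.add hIc
    rw [intervalIntegral.integral_of_le ht, intervalIntegral.integral_of_le ht]
    have hmono : ∫ r in Set.Ioc t0 t, r ^ 2 * ∑ u ∈ W, ∫ ω, ((KK (ip G θ W) W k r v u ω -
        KK (ip G θ' W) W k r v u ω) ^ 2 +
        (KK (ip G θ' W) W k r v u ω) ^ 2 * (MM (ip G θ W) W k r u ω - MM (ip G θ' W) W k r u ω) ^ 2) ∂PP V ≤
        ∫ r in Set.Ioc t0 t, (r ^ 2 * B r + 97 * δ) := by
      apply integral_mono_of_nonneg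
      · refine Filter.Eventually.of_forall fun r => ?_
        simp only [Pi.zero_apply]
        apply mul_nonneg (sq_nonneg _)
        apply Finset.sum_nonneg
        intro u _
        apply integral_nonneg
        intro ω
        simp only [Pi.zero_apply]
        positivity
      · exact hI
      · refine (ae_restrict_iff' measurableSet_Ioc).2 (Filter.Eventually.of_forall fun r hr => ?_)
        have e3 : r ^ 2 ≤ 1 := by
          have := hr.1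
          have := hr.2
          nlinarith
        have e4 := hS r hr.1 hr.2
        calc r ^ 2 * _ ≤ r ^ 2 * (B r + 97 * δ) := mul_le_mul_of_nonneg_left e4 (sq_nonneg _)
          _ = r ^ 2 * B r + r ^ 2 * (97 * δ) := by ring
          _ ≤ r ^ 2 * B r + 1 * (97 * δ) := by
            have : r ^ 2 * (97 * δ) ≤ 1 * (97 * δ) := mul_le_mul_of_nonneg_right e3 (by positivity)
            linarith
          _ = r ^ 2 * B r + 97 * δ := by ring
    refine hmono.trans ?_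
    rw [integral_add hIB hIc]
    have : ∫ r in Set.Ioc t0 t, (97 * δ : ℝ) ≤ 97 * δ := by
      rw [setIntegral_const]
      simp only [measureReal_def, Real.volume_Ioc, smul_eq_mul]
      rw [ENNReal.toReal_ofReal (by linarith)]
      have : t - t0 ≤ 1 := by linarith
      have hδ97 : 0 ≤ 97 * δ := by positivity
      nlinarith
    linarith
  have hc1 := abs_le.1 (hcomp t (by linarith) ht1)
  have hc2 := abs_le.1 (hcomp t0 ht0 (by linarith))
  have hdyn' : ∫ ω, (MW G θ W k t v ω - MW G θ' W k t v ω) ^ 2 ∂PP V ≤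
      ∫ ω, (MW G θ W k t0 v ω - MW G θ' W k t0 v ω) ^ 2 ∂PP V +
      2 * ((∫ r in t0..t, r ^ 2 * B r) + 97 * δ) := by
    refine hdyn.trans ?_
    have := mul_le_mul_of_nonneg_left htime (by norm_num : (0 : ℝ) ≤ 2)
    exact add_le_add le_rfl this
  have hε' : ε = 1000 * δ := by rw [hδdef]; ring
  linarith [hc1.2, hc2.1]

end INF

end Crest.Agent.TI
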