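import Crest.Agent.TI_FldA

/-!
Row S0241, task FldC: far bound (Chernoff + distance transitivity)
-/

set_option autoImplicit false
set_option linter.unusedSectionVars false
set_option linter.unusedVariables false

namespace Crest.Agent.TI

open MeasureTheory Filter Topology
open Crest.Agent.SRF (Lab lab)


section FLDAux

variable {V : Type*} [DecidableEq V] {G : SimpleGraph V} [G.LocallyFinite]

theorem flc_int {f : Om V → ℝ} (hf : Measurable f) (C : ℝ) (hC : ∀ ω, |f ω| ≤ C) :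
    Integrable f (PP V) :=
  Integrable.of_bound hf.aestronglyMeasurable C
    (Filter.Eventually.of_forall fun ω => by rw [Real.norm_eq_abs]; exact hC ω)

theorem flc_th (b : ℕ) (hb : 2 ≤ b) (θ : ℝ) (h0 : 0 ≤ θ) (h1 : b * θ ^ 2 ≤ 1) : θ ≤ 1 := by
  have hb' : (2:ℝ) ≤ b := by exact_mod_cast hb
  by_contra hc
  push Not at hc
  nlinarith [mul_nonneg (sub_nonneg.2 hb') (sq_nonneg θ)]

theorem flc_K_le_one {b : ℕ} (hb : 2 ≤ b) {κ θ : ℝ} {m : V → Om V → ℝ} {B : V → V → Om V → ℝ}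
    (hF : Fld G κ θ m B) (hκ : κ < 1) (h0 : 0 ≤ θ) (h1 : b * θ ^ 2 ≤ 1) (v u : V) (ω : Om V) :
    |Kf G θ m B v u ω ^ 2| ≤ 1 := by
  have hθ := flc_th b hb θ h0 h1
  have h := kf_bound hF hκ h0 hθ v u ω
  have h2 : Kf G θ m B v u ω ≤ 1 := h.2.trans (pow_le_one₀ h0 hθ)
  rw [abs_of_nonneg (sq_nonneg _)]
  exact pow_le_one₀ h.1 h2

end FLDAux

section FLD

variable {V : Type*} [DecidableEq V] {G : SimpleGraph V} [G.LocallyFinite]

/-- Chernoff bound for the sums of squared covariances over a sphere -/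
theorem sph_tail (hT : G.IsTree) (b : ℕ) (hb : 2 ≤ b) (hreg : G.IsRegularOfDegree (b + 1))
    (κ : ℝ) (hκ0 : 0 < κ) (hκ1 : κ < 1) (θ : ℝ) (m : V → Om V → ℝ) (B : V → V → Om V → ℝ) (β : ℝ)
    (h0 : 0 ≤ θ) (h1 : b * θ ^ 2 ≤ 1) (hF : Fld G κ θ m B) (hβ0 : 3 / 4 ≤ β) (hβ1 : β ≤ 1)
    (hC : Chn G b κ θ m B β) (x : V) (n : ℕ) (hn : 2 ≤ n) :
    (PP V).real {ω | 4 / (1 - κ ^ 2) ^ 2 * β ^ (n / 2 - 1) < ∑ u ∈ sph G x n, Kf G θ m B x u ω ^ 2} ≤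
      Real.exp (-((3 / 2 : ℝ) ^ (n / 2))) := by
  have hθ1 := flc_th b hb θ h0 h1
  have hb' : (2:ℝ) ≤ b := by exact_mod_cast hb
  set c : ℝ := (1 - κ ^ 2) ^ 2 with hc
  have hk : 0 < 1 - κ^2 := by nlinarith
  have hc0 : 0 < c := by positivity
  set p := n / 2 with hp
  have hp1 : 1 ≤ p := by omega
  obtain ⟨j, hj⟩ : ∃ j, j = n - p := ⟨_, rfl⟩
  have hj1 : 1 ≤ j := by omega
  have hpj : p + j = n := by omega
  have hjp : p ≤ j := by omega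
  have hβ : 0 < β := by linarith
  have key := hC x p j hp1 hj1
  rw [hpj] at key
  set A : Om V → ℝ := fun ω => ∑ u ∈ sph G x n, Kf G θ m B x u ω ^ 2 with hA
  have hAm : Measurable A := Finset.measurable_sum _ fun u _ => (measurable_Kf hF x u).pow_const 2
  have hA0 : ∀ ω, 0 ≤ A ω := fun ω => Finset.sum_nonneg fun u _ => sq_nonneg _
  have hA1 : ∀ ω, A ω ≤ (sph G x n).card := by
    intro ω
    have : A ω ≤ ∑ u ∈ sph G x n, (1:ℝ) := Finset.sum_le_sum fun u _ =>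
      (le_abs_self _).trans (flc_K_le_one hb hF hκ1 h0 h1 x u ω)
    simpa using this
  have hbp : (0:ℝ) < (b:ℝ) ^ p := by positivity
  have hint : Integrable (fun ω => Real.exp (c * (b:ℝ) ^ p * A ω)) (PP V) := by
    refine flc_int (Real.measurable_exp.comp (hAm.const_mul _))
      (Real.exp (c * (b:ℝ) ^ p * (sph G x n).card)) fun ω => ?_
    rw [abs_of_pos (Real.exp_pos _)]
    exact Real.exp_le_exp.2 (mul_le_mul_of_nonneg_left (hA1 ω) (by positivity))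
  have hM := mul_meas_ge_le_integral_of_nonneg (μ := PP V)
    (Filter.Eventually.of_forall fun ω => (Real.exp_pos _).le) hint
    (Real.exp (4 * (b:ℝ) ^ p * β ^ (p - 1)))
  have hsub : {ω | 4 / c * β ^ (p - 1) < A ω} ⊆
      {ω | Real.exp (4 * (b:ℝ) ^ p * β ^ (p - 1)) ≤ Real.exp (c * (b:ℝ) ^ p * A ω)} := by
    intro ω hω
    simp only [Set.mem_ofPred_eq] at hω ⊢
    apply Real.exp_le_exp.2
    have h3 : c * (b:ℝ) ^ p * (4 / c * β ^ (p - 1)) = 4 * (b:ℝ) ^ p * β ^ (p - 1) := by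
      field_simp
    rw [← h3]
    exact mul_le_mul_of_nonneg_left hω.le (by positivity)
  have hP : (PP V).real {ω | 4 / c * β ^ (p - 1) < A ω} ≤
      (PP V).real {ω | Real.exp (4 * (b:ℝ) ^ p * β ^ (p - 1)) ≤ Real.exp (c * (b:ℝ) ^ p * A ω)} :=
    measureReal_mono hsub
  have h5 : Real.exp (4 * (b:ℝ) ^ p * β ^ (p - 1)) *
      (PP V).real {ω | 4 / c * β ^ (p - 1) < A ω} ≤ Real.exp (3 * (b:ℝ) ^ p * β ^ (j - 1)) :=
    (mul_le_mul_of_nonneg_left hP (Real.exp_pos _).le).trans (hM.trans key)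
  have h6 : β ^ (j - 1) ≤ β ^ (p - 1) := pow_le_pow_of_le_one hβ.le hβ1 (by omega)
  have h7 : (3 / 2 : ℝ) ^ p ≤ (b:ℝ) ^ p * β ^ (p - 1) := by
    obtain ⟨q, hq⟩ : ∃ q, p = q + 1 := ⟨p - 1, by omega⟩
    rw [hq, Nat.add_sub_cancel, pow_succ, pow_succ, mul_assoc, mul_comm (b:ℝ) (β ^ q), ← mul_assoc,
      ← mul_pow]
    refine mul_le_mul (pow_le_pow_left₀ (by norm_num) ?_ _) (by linarith) (by norm_num) (by positivity)
    nlinarith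
  have h8 : (PP V).real {ω | 4 / c * β ^ (p - 1) < A ω} ≤
      Real.exp (3 * (b:ℝ) ^ p * β ^ (j - 1) - 4 * (b:ℝ) ^ p * β ^ (p - 1)) := by
    rw [Real.exp_sub, le_div_iff₀ (Real.exp_pos _), mul_comm]
    exact h5
  refine h8.trans (Real.exp_le_exp.2 ?_)
  have h9 : 3 * (b:ℝ) ^ p * β ^ (j - 1) ≤ 3 * (b:ℝ) ^ p * β ^ (p - 1) :=
    mul_le_mul_of_nonneg_left h6 (by positivity)
  linarith

/-- moving one end of the covariance by transitivity -/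
theorem sph_avg (hT : G.IsTree) (b : ℕ) (hb : 2 ≤ b) (hreg : G.IsRegularOfDegree (b + 1))
    (κ : ℝ) (hκ0 : 0 < κ) (hκ1 : κ < 1) (θ θ' : ℝ) (m m' : V → Om V → ℝ) (B B' : V → V → Om V → ℝ)
    (h0 : 0 ≤ θ) (h1 : b * θ ^ 2 ≤ 1) (hF : Fld G κ θ m B) (hF' : Fld G κ θ' m' B') (w u : V) :
    (b : ℝ) ^ (G.dist w u) * ∫ ω, Kf G θ m B w u ω ^ 2 * (m w ω - m' w ω) ^ 2 ∂PP V ≤
      ∫ ω, (∑ u' ∈ sph G w (G.dist w u), Kf G θ m B w u' ω ^ 2) * (m w ω - m' w ω) ^ 2 ∂PP V := by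
  have hdm : ∀ ω, |(m w ω - m' w ω) ^ 2| ≤ 4 := by
    intro ω
    rw [abs_of_nonneg (sq_nonneg _), ← sq_abs]
    have : |m w ω - m' w ω| ≤ 2 := by
      have := abs_sub (m w ω) (m' w ω)
      have h2 := hF.bdd_m w ω
      have h3 := hF'.bdd_m w ω
      linarith
    nlinarith [abs_nonneg (m w ω - m' w ω)]
  have hmeas : ∀ u', Measurable fun ω => Kf G θ m B w u' ω ^ 2 * (m w ω - m' w ω) ^ 2 := fun u' =>
    ((measurable_Kf hF w u').pow_const 2).mul (((hF.meas_m w).sub (hF'.meas_m w)).pow_const 2)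
  have hint : ∀ u', Integrable (fun ω => Kf G θ m B w u' ω ^ 2 * (m w ω - m' w ω) ^ 2) (PP V) := by
    intro u'
    refine flc_int (hmeas u') 4 fun ω => ?_
    rw [abs_mul]
    have h2 := flc_K_le_one hb hF hκ1 h0 h1 w u' ω
    have h3 := hdm ω
    nlinarith [abs_nonneg (Kf G θ m B w u' ω ^ 2), abs_nonneg ((m w ω - m' w ω) ^ 2)]
  simp only [Finset.sum_mul]
  rw [integral_finsetSum _ fun u' _ => hint u']
  have heq : ∀ u' ∈ sph G w (G.dist w u), ∫ ω, Kf G θ m B w u' ω ^ 2 * (m w ω - m' w ω) ^ 2 ∂PP V =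
      ∫ ω, Kf G θ m B w u ω ^ 2 * (m w ω - m' w ω) ^ 2 ∂PP V := by
    intro u' hu'
    rw [mem_sph hT] at hu'
    obtain ⟨g, hgw, hgu⟩ := dist_transitive hT (b + 1) hreg w u w u' hu'.symm
    have e1 := kf_eqv hT hF g w u
    have e2 := hF.eqv_m g w
    have e3 := hF'.eqv_m g w
    rw [hgw, hgu] at e1
    rw [hgw] at e2 e3
    calc ∫ ω, Kf G θ m B w u' ω ^ 2 * (m w ω - m' w ω) ^ 2 ∂PP V
        = ∫ ω, Kf G θ m B w u (act g.toEquiv ω) ^ 2 *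
            (m w (act g.toEquiv ω) - m' w (act g.toEquiv ω)) ^ 2 ∂PP V := by
          apply integral_congr_ae
          filter_upwards [e1, e2, e3] with ω h1 h2 h3
          rw [h1, h2, h3]
      _ = ∫ ω, Kf G θ m B w u ω ^ 2 * (m w ω - m' w ω) ^ 2 ∂((PP V).map (act g.toEquiv)) :=
          (integral_map (measurable_act _).aemeasurable (hmeas u).aestronglyMeasurable).symm
      _ = _ := by rw [map_act]
  rw [Finset.sum_congr rfl heq, Finset.sum_const, nsmul_eq_mul]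
  apply mul_le_mul_of_nonneg_right
  · rcases Nat.eq_zero_or_pos (G.dist w u) with h | h
    · rw [h, pow_zero]
      have : 0 < (sph G w 0).card := Finset.card_pos.2 ⟨w, (mem_sph hT w 0 w).2 (by simp)⟩
      exact_mod_cast this
    · obtain ⟨n, hn⟩ : ∃ n, G.dist w u = n + 1 := ⟨_, (Nat.succ_pred_eq_of_pos h).symm⟩
      rw [hn, card_sph hT b hreg w n]
      have : b ^ (n + 1) ≤ (b + 1) * b ^ n := by
        rw [pow_succ]; nlinarith [Nat.zero_le (b ^ n)]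
      exact_mod_cast this
  · exact integral_nonneg fun ω => mul_nonneg (sq_nonneg _) (sq_nonneg _)

theorem flc_exp (a c : ℝ) : |Real.exp a - Real.exp c| ≤ (Real.exp a + Real.exp c) * |a - c| := by
  have key : ∀ a c : ℝ, c ≤ a → |Real.exp a - Real.exp c| ≤ (Real.exp a + Real.exp c) * |a - c| := by
    intro a c h
    rw [abs_of_nonneg (sub_nonneg.2 (Real.exp_le_exp.2 h)), abs_of_nonneg (sub_nonneg.2 h)]
    have h1 := Real.add_one_le_exp (c - a)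
    have h2 : Real.exp c = Real.exp a * Real.exp (c - a) := by rw [← Real.exp_add]; ring_nf
    have h3 : Real.exp a - Real.exp c ≤ Real.exp a * (a - c) := by
      rw [h2]
      nlinarith [Real.exp_pos a]
    nlinarith [Real.exp_pos c]
  rcases le_total c a with h | h
  · exact key a c h
  · rw [abs_sub_comm, abs_sub_comm a c, add_comm]
    exact key c a h

theorem flc_lip (hT : G.IsTree) (b : ℕ) (hb : 2 ≤ b) (κ : ℝ) (hκ0 : 0 < κ) (hκ1 : κ < 1) :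
    ∃ C : ℝ, 0 < C ∧ ∀ (θ θ' : ℝ) (m m' : V → Om V → ℝ) (B B' : V → V → Om V → ℝ), 0 ≤ θ →
      1 / 2 ≤ b * θ ^ 2 → b * θ ^ 2 ≤ 1 → 0 ≤ θ' → 1 / 2 ≤ b * θ' ^ 2 → b * θ' ^ 2 ≤ 1 →
      Fld G κ θ m B → Fld G κ θ' m' B' → ∀ (x : ℕ → V) (n : ℕ), Geo G x n → ∀ᵐ ω ∂PP V,
      |Kf G θ m B (x 0) (x n) ω - Kf G θ' m' B' (x 0) (x n) ω| ≤
        (Kf G θ m B (x 0) (x n) ω + Kf G θ' m' B' (x 0) (x n) ω) *
        (C * (∑ i ∈ Finset.range (n + 1), |m (x i) ω - m' (x i) ω| + (n + 1) * |θ - θ'|)) := by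
  obtain ⟨Cp, hCp, hp⟩ := pair_lip (3 / 4) κ (by norm_num) hκ1
  obtain ⟨Cf, hCf, hf⟩ := ff_lip κ hκ1
  have hb' : (2:ℝ) ≤ b := by exact_mod_cast hb
  have hk : 0 < 1 - κ^2 := by nlinarith
  refine ⟨2 / (1 - κ ^ 2) + 2 * b + 2 * (Cf * Cp) + Cf, by positivity, ?_⟩
  intro θ θ' m m' B B' h0 hl h1 h0' hl' h1' hF hF' x n hx
  have hθ := flc_th b hb θ h0 h1
  have hθ' := flc_th b hb θ' h0' h1'
  have up : ∀ t : ℝ, 0 ≤ t → b * t ^ 2 ≤ 1 → t ≤ 3 / 4 := by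
    intro t ht h
    by_contra hc
    push Not at hc
    nlinarith [mul_nonneg (sub_nonneg.2 hb') (sq_nonneg t)]
  have lo : ∀ t : ℝ, 0 ≤ t → t ≤ 1 → 1 / 2 ≤ b * t ^ 2 → 1 / (2 * b) ≤ t := by
    intro t ht ht1 h
    rw [div_le_iff₀ (by positivity)]
    have : (b:ℝ) * t ^ 2 ≤ b * t := by
      apply mul_le_mul_of_nonneg_left _ (by linarith)
      nlinarith
    linarith
  have hb2 : (0:ℝ) < 1 / (2 * b) := by positivity
  have hpos : 0 < θ := lt_of_lt_of_le hb2 (lo θ h0 hθ hl)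
  have hpos' : 0 < θ' := lt_of_lt_of_le hb2 (lo θ' h0' hθ' hl')
  have hBB : ∀ᵐ ω ∂PP V, ∀ i, i < n → |B (x (i + 1)) (x i) ω - B' (x (i + 1)) (x i) ω| ≤
      Cp * (|m (x (i + 1)) ω - m' (x (i + 1)) ω| + |m (x i) ω - m' (x i) ω| + |θ - θ'|) := by
    rw [ae_all_iff]
    intro i
    by_cases hi : i < n
    · have ha := (geo_adj hx i hi)
      filter_upwards [hF.pair _ _ ha, hF.pair _ _ ha.symm, hF'.pair _ _ ha, hF'.pair _ _ ha.symm]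
        with ω e1 e2 e3 e4 _
      have := hp θ θ' (B (x (i + 1)) (x i) ω) (B (x i) (x (i + 1)) ω) (B' (x (i + 1)) (x i) ω)
        (B' (x i) (x (i + 1)) ω) h0 (up θ h0 h1) h0' (up θ' h0' h1') (hF.bdd_B _ _ _) (hF.bdd_B _ _ _)
        (hF'.bdd_B _ _ _) (hF'.bdd_B _ _ _)
      rw [mul_comm (B (x i) (x (i + 1)) ω)] at e1
      rw [mul_comm (B' (x i) (x (i + 1)) ω)] at e3
      rw [← e1, ← e2, ← e3, ← e4] at this
      exact this
    · exact Filter.Eventually.of_forall fun ω h => absurd h hi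
  filter_upwards [hBB] with ω hω
  have hsq : ∀ t : ℝ, |t| ≤ κ → t ^ 2 ≤ κ ^ 2 := by
    intro t ht
    rw [← sq_abs t]; exact pow_le_pow_left₀ (abs_nonneg _) ht 2
  have hK : ∀ (t : ℝ) (m : V → Om V → ℝ) (B : V → V → Om V → ℝ), 0 < t → t ≤ 1 → Fld G κ t m B →
      Kf G t m B (x 0) (x n) ω = Real.exp (Real.log (1 - m (x 0) ω ^ 2) +
        ∑ i ∈ Finset.range n, (Real.log t - ff t (B (x (i + 1)) (x i) ω))) := by
    intro t m B ht ht1 hF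
    have h3 := hsq _ (hF.bdd_m (x 0) ω)
    rw [kf_path hT t m B x n hx ω, Real.exp_add, Real.exp_log (by linarith), Real.exp_sum]
    congr 1
    apply Finset.prod_congr rfl
    intro i _
    rw [sub_eq_add_neg, Real.exp_add, Real.exp_log ht, exp_neg_ff t _ ht.le ht1
      (lt_of_le_of_lt (hF.bdd_B _ _ _) hκ1)]
  rw [hK θ m B hpos hθ hF, hK θ' m' B' hpos' hθ' hF']
  refine (flc_exp _ _).trans (mul_le_mul_of_nonneg_left ?_ (by positivity))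
  set S := ∑ i ∈ Finset.range (n + 1), |m (x i) ω - m' (x i) ω| with hS
  set dθ := |θ - θ'| with hd
  have hd0 : 0 ≤ dθ := abs_nonneg _
  have hS0 : 0 ≤ S := Finset.sum_nonneg fun i _ => abs_nonneg _
  have t1 : |Real.log (1 - m (x 0) ω ^ 2) - Real.log (1 - m' (x 0) ω ^ 2)| ≤ 2 / (1 - κ ^ 2) * S := by
    have a1 := hsq _ (hF.bdd_m (x 0) ω)
    have a2 := hsq _ (hF'.bdd_m (x 0) ω)
    refine (abs_log_sub_log_le (1 - κ ^ 2) _ _ hk (by linarith) (by linarith)).trans ?_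
    rw [div_mul_eq_mul_div]
    apply div_le_div_of_nonneg_right _ hk.le
    have e : (1 - m (x 0) ω ^ 2) - (1 - m' (x 0) ω ^ 2) =
      -((m (x 0) ω + m' (x 0) ω) * (m (x 0) ω - m' (x 0) ω)) := by ring
    rw [e, abs_neg, abs_mul]
    have a3 : |m (x 0) ω + m' (x 0) ω| ≤ 2 := by
      have := abs_add_le (m (x 0) ω) (m' (x 0) ω)
      have b1 := hF.bdd_m (x 0) ω
      have b2 := hF'.bdd_m (x 0) ω
      linarith
    have a4 : |m (x 0) ω - m' (x 0) ω| ≤ S :=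
      Finset.single_le_sum (f := fun i => |m (x i) ω - m' (x i) ω|) (fun i _ => abs_nonneg _)
        (Finset.mem_range.2 (Nat.succ_pos n))
    exact mul_le_mul a3 a4 (abs_nonneg _) (by norm_num)
  have t2 : |Real.log θ - Real.log θ'| ≤ 2 * b * dθ := by
    refine (abs_log_sub_log_le (1 / (2 * b)) _ _ hb2 (lo θ h0 hθ hl) (lo θ' h0' hθ' hl')).trans ?_
    rw [div_div_eq_mul_div, div_one, mul_comm]
  have t3 : ∀ i ∈ Finset.range n, |(Real.log θ - ff θ (B (x (i + 1)) (x i) ω)) -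
      (Real.log θ' - ff θ' (B' (x (i + 1)) (x i) ω))| ≤
      (2 * b + Cf * Cp + Cf) * dθ + Cf * Cp * |m (x (i + 1)) ω - m' (x (i + 1)) ω| +
        Cf * Cp * |m (x i) ω - m' (x i) ω| := by
    intro i hi
    have a1 := hω i (Finset.mem_range.1 hi)
    have a2 := hf θ θ' (B (x (i + 1)) (x i) ω) (B' (x (i + 1)) (x i) ω) 1 h0 hθ h0' hθ'
      (hF.bdd_B _ _ _) (hF'.bdd_B _ _ _) ((hF.bdd_B _ _ _).trans hκ1.le)
      ((hF'.bdd_B _ _ _).trans hκ1.le)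
    have e : (Real.log θ - ff θ (B (x (i + 1)) (x i) ω)) -
      (Real.log θ' - ff θ' (B' (x (i + 1)) (x i) ω)) = (Real.log θ - Real.log θ') -
        (ff θ (B (x (i + 1)) (x i) ω) - ff θ' (B' (x (i + 1)) (x i) ω)) := by ring
    rw [e]
    refine (abs_sub _ _).trans ?_
    have a3 := mul_le_mul_of_nonneg_left a1 hCf.le
    rw [one_mul, mul_add] at a2
    nlinarith
  have t4 : |∑ i ∈ Finset.range n, (Real.log θ - ff θ (B (x (i + 1)) (x i) ω)) -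
      ∑ i ∈ Finset.range n, (Real.log θ' - ff θ' (B' (x (i + 1)) (x i) ω))| ≤
      n * ((2 * b + Cf * Cp + Cf) * dθ) + 2 * (Cf * Cp) * S := by
    rw [← Finset.sum_sub_distrib]
    refine (Finset.abs_sum_le_sum_abs _ _).trans ((Finset.sum_le_sum t3).trans ?_)
    rw [Finset.sum_add_distrib, Finset.sum_add_distrib, Finset.sum_const, Finset.card_range,
      nsmul_eq_mul, ← Finset.mul_sum, ← Finset.mul_sum]
    have s1 : ∑ i ∈ Finset.range n, |m (x (i + 1)) ω - m' (x (i + 1)) ω| ≤ S := by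
      rw [hS, Finset.sum_range_succ' (fun i => |m (x i) ω - m' (x i) ω|)]
      linarith [abs_nonneg (m (x 0) ω - m' (x 0) ω)]
    have s2 : ∑ i ∈ Finset.range n, |m (x i) ω - m' (x i) ω| ≤ S := by
      rw [hS, Finset.sum_range_succ (fun i => |m (x i) ω - m' (x i) ω|)]
      linarith [abs_nonneg (m (x n) ω - m' (x n) ω)]
    have c0 : 0 < Cf * Cp := by positivity
    have s3 := mul_le_mul_of_nonneg_left s1 c0.le
    have s4 := mul_le_mul_of_nonneg_left s2 c0.le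
    linarith
  have e : Real.log (1 - m (x 0) ω ^ 2) +
        ∑ i ∈ Finset.range n, (Real.log θ - ff θ (B (x (i + 1)) (x i) ω)) -
      (Real.log (1 - m' (x 0) ω ^ 2) +
        ∑ i ∈ Finset.range n, (Real.log θ' - ff θ' (B' (x (i + 1)) (x i) ω))) =
      (Real.log (1 - m (x 0) ω ^ 2) - Real.log (1 - m' (x 0) ω ^ 2)) +
      (∑ i ∈ Finset.range n, (Real.log θ - ff θ (B (x (i + 1)) (x i) ω)) -
      ∑ i ∈ Finset.range n, (Real.log θ' - ff θ' (B' (x (i + 1)) (x i) ω))) := by ring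
  rw [e]
  refine (abs_add_le _ _).trans ((add_le_add t1 t4).trans ?_)
  have hn0 : (0:ℝ) ≤ n := Nat.cast_nonneg n
  have hcfp : 0 < Cf * Cp := by positivity
  have hq : 0 < 2 / (1 - κ ^ 2) := by positivity
  have u1 : (0:ℝ) ≤ (2 * b + Cf) * S := by positivity
  have u2 : (0:ℝ) ≤ 2 / (1 - κ ^ 2) * ((n + 1) * dθ) := by positivity
  have u3 : (0:ℝ) ≤ Cf * Cp * ((n + 1) * dθ) := by positivity
  have u4 : (0:ℝ) ≤ (2 * b + Cf * Cp + Cf) * dθ := by positivity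
  nlinarith

theorem flc_dm {κ θ θ' : ℝ} {m m' : V → Om V → ℝ} {B B' : V → V → Om V → ℝ} (hκ1 : κ < 1)
    (hF : Fld G κ θ m B) (hF' : Fld G κ θ' m' B') (w : V) (ω : Om V) :
    (m w ω - m' w ω) ^ 2 ≤ 4 := by
  rw [← sq_abs]
  have : |m w ω - m' w ω| ≤ 2 := by
    have := abs_sub (m w ω) (m' w ω)
    have h2 := hF.bdd_m w ω
    have h3 := hF'.bdd_m w ω
    linarith
  nlinarith [abs_nonneg (m w ω - m' w ω)]

theorem flc_A_le (hT : G.IsTree) (b : ℕ) (hb : 2 ≤ b) (hreg : G.IsRegularOfDegree (b + 1))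
    {κ θ : ℝ} {m : V → Om V → ℝ} {B : V → V → Om V → ℝ} (hκ1 : κ < 1)
    (h0 : 0 ≤ θ) (h1 : b * θ ^ 2 ≤ 1) (hF : Fld G κ θ m B) (w : V) (j : ℕ) (ω : Om V) :
    ∑ u ∈ sph G w (j + 1), Kf G θ m B w u ω ^ 2 ≤ 2 := by
  have hθ := flc_th b hb θ h0 h1
  have hb' : (2:ℝ) ≤ b := by exact_mod_cast hb
  have h2 : ∀ u ∈ sph G w (j + 1), Kf G θ m B w u ω ^ 2 ≤ (θ ^ (j + 1)) ^ 2 := by
    intro u hu
    rw [mem_sph hT] at hu
    have h := kf_bound hF hκ1 h0 hθ w u ω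
    rw [hu] at h
    exact pow_le_pow_left₀ h.1 h.2 2
  refine (Finset.sum_le_sum h2).trans ?_
  rw [Finset.sum_const, card_sph hT b hreg w j, nsmul_eq_mul]
  push_cast
  have e : ((b:ℝ) + 1) * (b:ℝ) ^ j * (θ ^ (j + 1)) ^ 2 = ((b:ℝ) * θ ^ 2 + θ ^ 2) * ((b:ℝ) * θ ^ 2) ^ j := by
    rw [mul_pow]; ring
  rw [e]
  have h3 : ((b:ℝ) * θ ^ 2) ^ j ≤ 1 := pow_le_one₀ (by positivity) h1
  have h4 : θ ^ 2 ≤ 1 := pow_le_one₀ h0 hθ
  have h5 : 0 ≤ (b:ℝ) * θ ^ 2 + θ ^ 2 := by positivity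
  nlinarith

theorem flc_sph (hT : G.IsTree) (b : ℕ) (hb : 2 ≤ b) (hreg : G.IsRegularOfDegree (b + 1))
    (κ : ℝ) (hκ0 : 0 < κ) (hκ1 : κ < 1) (θ θ' : ℝ) (m m' : V → Om V → ℝ) (B B' : V → V → Om V → ℝ)
    (β : ℝ) (h0 : 0 ≤ θ) (h1 : b * θ ^ 2 ≤ 1) (hF : Fld G κ θ m B) (hF' : Fld G κ θ' m' B')
    (hβ0 : 3 / 4 ≤ β) (hβ1 : β ≤ 1) (hC : Chn G b κ θ m B β) (w : V) (j : ℕ) (hj : 2 ≤ j) :
    ∫ ω, (∑ u' ∈ sph G w j, Kf G θ m B w u' ω ^ 2) * (m w ω - m' w ω) ^ 2 ∂PP V ≤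
      4 / (1 - κ ^ 2) ^ 2 * β ^ (j / 2 - 1) * ∫ ω, (m w ω - m' w ω) ^ 2 ∂PP V +
        8 * Real.exp (-((3 / 2 : ℝ) ^ (j / 2))) := by
  have hk : 0 < 1 - κ^2 := by nlinarith
  have hβ : 0 < β := by linarith
  set c : ℝ := (1 - κ ^ 2) ^ 2 with hc
  have hc0 : 0 < c := by positivity
  set A : Om V → ℝ := fun ω => ∑ u ∈ sph G w j, Kf G θ m B w u ω ^ 2 with hA
  have hAm : Measurable A := Finset.measurable_sum _ fun u _ => (measurable_Kf hF w u).pow_const 2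
  have hA0 : ∀ ω, 0 ≤ A ω := fun ω => Finset.sum_nonneg fun u _ => sq_nonneg _
  have hA2 : ∀ ω, A ω ≤ 2 := by
    intro ω
    obtain ⟨i, rfl⟩ : ∃ i, j = i + 1 := ⟨j - 1, by omega⟩
    exact flc_A_le hT b hb hreg hκ1 h0 h1 hF w i ω
  have htail := sph_tail hT b hb hreg κ hκ0 hκ1 θ m B β h0 h1 hF hβ0 hβ1 hC w j hj
  set D : Om V → ℝ := fun ω => (m w ω - m' w ω) ^ 2 with hD
  have hDm : Measurable D := ((hF.meas_m w).sub (hF'.meas_m w)).pow_const 2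
  have hD0 : ∀ ω, 0 ≤ D ω := fun ω => sq_nonneg _
  have hD4 : ∀ ω, D ω ≤ 4 := fun ω => flc_dm hκ1 hF hF' w ω
  set S : Set (Om V) := {ω | 4 / c * β ^ (j / 2 - 1) < A ω} with hS
  have hSm : MeasurableSet S := measurableSet_lt measurable_const hAm
  have hpt : ∀ ω, A ω * D ω ≤ 4 / c * β ^ (j / 2 - 1) * D ω + 8 * S.indicator (fun _ => (1:ℝ)) ω := by
    intro ω
    by_cases h : ω ∈ S
    · rw [Set.indicator_of_mem h]
      have a1 : A ω * D ω ≤ 2 * 4 := mul_le_mul (hA2 ω) (hD4 ω) (hD0 ω) (by norm_num)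
      have a2 : 0 ≤ 4 / c * β ^ (j / 2 - 1) * D ω := mul_nonneg (by positivity) (hD0 ω)
      linarith
    · rw [Set.indicator_of_notMem h]
      have h' : A ω ≤ 4 / c * β ^ (j / 2 - 1) := by
        rw [hS, Set.mem_ofPred_eq] at h
        exact not_lt.1 h
      have := mul_le_mul_of_nonneg_right h' (hD0 ω)
      linarith
  have hDi : Integrable D (PP V) := flc_int hDm 4 fun ω => by
    rw [abs_of_nonneg (hD0 ω)]; exact hD4 ω
  have hIi : Integrable (S.indicator (fun _ => (1:ℝ))) (PP V) :=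
    (integrable_const (1:ℝ)).indicator hSm
  have hADi : Integrable (fun ω => A ω * D ω) (PP V) := flc_int (hAm.mul hDm) 8 fun ω => by
    rw [abs_of_nonneg (mul_nonneg (hA0 ω) (hD0 ω))]
    calc A ω * D ω ≤ 2 * 4 := mul_le_mul (hA2 ω) (hD4 ω) (hD0 ω) (by norm_num)
      _ = 8 := by norm_num
  calc ∫ ω, A ω * D ω ∂PP V
      ≤ ∫ ω, (4 / c * β ^ (j / 2 - 1) * D ω + 8 * S.indicator (fun _ => (1:ℝ)) ω) ∂PP V :=
        integral_mono hADi ((hDi.const_mul _).add (hIi.const_mul _)) hpt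
    _ = 4 / c * β ^ (j / 2 - 1) * ∫ ω, D ω ∂PP V + 8 * (PP V).real S := by
        rw [integral_add (hDi.const_mul _) (hIi.const_mul _), integral_const_mul, integral_const_mul,
          integral_indicator_const _ hSm, smul_eq_mul, mul_one]
    _ ≤ _ := by
        have := mul_le_mul_of_nonneg_left htail (by norm_num : (0:ℝ) ≤ 8)
        linarith

theorem flc_move (hT : G.IsTree) (b : ℕ) (hb : 2 ≤ b) (hreg : G.IsRegularOfDegree (b + 1))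
    (κ : ℝ) (hκ0 : 0 < κ) (hκ1 : κ < 1) (θ θ' : ℝ) (m m' : V → Om V → ℝ) (B B' : V → V → Om V → ℝ)
    (β : ℝ) (h0 : 0 ≤ θ) (h1 : b * θ ^ 2 ≤ 1) (hF : Fld G κ θ m B) (hF' : Fld G κ θ' m' B')
    (hβ0 : 3 / 4 ≤ β) (hβ1 : β ≤ 1) (hC : Chn G b κ θ m B β) (o v u w u' : V) (a j n : ℕ)
    (hn : 4 ≤ n) (hj : n / 2 ≤ j) (haj : a + j = n) (hd : G.dist w u' = j)
    (hle : ∀ᵐ ω ∂PP V, (1 - κ ^ 2) ^ 2 * Kf G θ m B v u ω ^ 2 ≤
      (θ ^ a) ^ 2 * Kf G θ m B w u' ω ^ 2) :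
    (b : ℝ) ^ n * ∫ ω, Kf G θ m B v u ω ^ 2 * (m w ω - m' w ω) ^ 2 ∂PP V ≤
      1 / (1 - κ ^ 2) ^ 2 * (4 / (1 - κ ^ 2) ^ 2 * β ^ (n / 4 - 1) *
        ∫ ω, (m o ω - m' o ω) ^ 2 ∂PP V + 8 * Real.exp (-((3 / 2 : ℝ) ^ (n / 4)))) := by
  have hk : 0 < 1 - κ^2 := by nlinarith
  have hβ : 0 < β := by linarith
  have hθ := flc_th b hb θ h0 h1
  set c : ℝ := (1 - κ ^ 2) ^ 2 with hc
  have hc0 : 0 < c := by positivity
  have hj2 : 2 ≤ j := by omega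
  have hj4 : n / 4 ≤ j / 2 := by omega
  have hint : ∀ v u, Integrable (fun ω => Kf G θ m B v u ω ^ 2 * (m w ω - m' w ω) ^ 2) (PP V) := by
    intro v u
    refine flc_int (((measurable_Kf hF v u).pow_const 2).mul
      (((hF.meas_m w).sub (hF'.meas_m w)).pow_const 2)) 4 fun ω => ?_
    rw [abs_of_nonneg (mul_nonneg (sq_nonneg _) (sq_nonneg _))]
    have h2 := flc_K_le_one hb hF hκ1 h0 h1 v u ω
    rw [abs_of_nonneg (sq_nonneg _)] at h2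
    calc Kf G θ m B v u ω ^ 2 * (m w ω - m' w ω) ^ 2 ≤ 1 * 4 :=
          mul_le_mul h2 (flc_dm hκ1 hF hF' w ω) (sq_nonneg _) (by norm_num)
      _ = 4 := by norm_num
  have s1 : c * ∫ ω, Kf G θ m B v u ω ^ 2 * (m w ω - m' w ω) ^ 2 ∂PP V ≤
      (θ ^ a) ^ 2 * ∫ ω, Kf G θ m B w u' ω ^ 2 * (m w ω - m' w ω) ^ 2 ∂PP V := by
    rw [← integral_const_mul, ← integral_const_mul]
    apply integral_mono_ae ((hint v u).const_mul _) ((hint w u').const_mul _)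
    filter_upwards [hle] with ω hω
    rw [← mul_assoc, ← mul_assoc]
    exact mul_le_mul_of_nonneg_right hω (sq_nonneg _)
  have s2 := sph_avg hT b hb hreg κ hκ0 hκ1 θ θ' m m' B B' h0 h1 hF hF' w u'
  have s3 := flc_sph hT b hb hreg κ hκ0 hκ1 θ θ' m m' B B' β h0 h1 hF hF' hβ0 hβ1 hC w j hj2
  rw [hd] at s2
  set I1 := ∫ ω, Kf G θ m B w u' ω ^ 2 * (m w ω - m' w ω) ^ 2 ∂PP V with hI1
  have hI10 : 0 ≤ I1 := integral_nonneg fun ω => mul_nonneg (sq_nonneg _) (sq_nonneg _)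
  set I0 := ∫ ω, Kf G θ m B v u ω ^ 2 * (m w ω - m' w ω) ^ 2 ∂PP V with hI0
  have hZ : ∫ ω, (m w ω - m' w ω) ^ 2 ∂PP V = ∫ ω, (m o ω - m' o ω) ^ 2 ∂PP V :=
    Z_const hT b hreg hF hF' w o
  rw [hZ] at s3
  set Z := ∫ ω, (m o ω - m' o ω) ^ 2 ∂PP V with hZd
  have hZ0 : 0 ≤ Z := integral_nonneg fun ω => sq_nonneg _
  have s4 : (b:ℝ) ^ n * (c * I0) ≤ (b:ℝ) ^ j * I1 := by
    have e1 : (b:ℝ) ^ n * ((θ ^ a) ^ 2 * I1) = ((b:ℝ) * θ ^ 2) ^ a * ((b:ℝ) ^ j * I1) := by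
      rw [← haj, pow_add, mul_pow]; ring
    have e2 : ((b:ℝ) * θ ^ 2) ^ a ≤ 1 := pow_le_one₀ (by positivity) h1
    calc (b:ℝ) ^ n * (c * I0) ≤ (b:ℝ) ^ n * ((θ ^ a) ^ 2 * I1) :=
          mul_le_mul_of_nonneg_left s1 (by positivity)
      _ = ((b:ℝ) * θ ^ 2) ^ a * ((b:ℝ) ^ j * I1) := e1
      _ ≤ 1 * ((b:ℝ) ^ j * I1) := mul_le_mul_of_nonneg_right e2 (by positivity)
      _ = _ := one_mul _
  have s5 : β ^ (j / 2 - 1) ≤ β ^ (n / 4 - 1) := pow_le_pow_of_le_one hβ.le hβ1 (by omega)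
  have s6 : Real.exp (-((3 / 2 : ℝ) ^ (j / 2))) ≤ Real.exp (-((3 / 2 : ℝ) ^ (n / 4))) := by
    apply Real.exp_le_exp.2
    exact neg_le_neg (pow_le_pow_right₀ (by norm_num) hj4)
  have s7 : 4 / c * β ^ (j / 2 - 1) * Z ≤ 4 / c * β ^ (n / 4 - 1) * Z := by
    apply mul_le_mul_of_nonneg_right _ hZ0
    exact mul_le_mul_of_nonneg_left s5 (by positivity)
  have s8 : (b:ℝ) ^ n * I0 = 1 / c * ((b:ℝ) ^ n * (c * I0)) := by field_simp
  rw [s8]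
  apply mul_le_mul_of_nonneg_left _ (by positivity)
  linarith

theorem flc_term (hT : G.IsTree) (b : ℕ) (hb : 2 ≤ b) (hreg : G.IsRegularOfDegree (b + 1))
    (κ : ℝ) (hκ0 : 0 < κ) (hκ1 : κ < 1) (θ θ' : ℝ) (m m' : V → Om V → ℝ) (B B' : V → V → Om V → ℝ)
    (β : ℝ) (h0 : 0 ≤ θ) (h1 : b * θ ^ 2 ≤ 1) (hF : Fld G κ θ m B) (hF' : Fld G κ θ' m' B')
    (hβ0 : 3 / 4 ≤ β) (hβ1 : β ≤ 1) (hC : Chn G b κ θ m B β) (o : V) (x : ℕ → V) (n : ℕ)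
    (hn : 4 ≤ n) (hx : Geo G x n) (i : ℕ) (hi : i ≤ n) :
    (b : ℝ) ^ n * ∫ ω, Kf G θ m B (x 0) (x n) ω ^ 2 * (m (x i) ω - m' (x i) ω) ^ 2 ∂PP V ≤
      1 / (1 - κ ^ 2) ^ 2 * (4 / (1 - κ ^ 2) ^ 2 * β ^ (n / 4 - 1) *
        ∫ ω, (m o ω - m' o ω) ^ 2 ∂PP V + 8 * Real.exp (-((3 / 2 : ℝ) ^ (n / 4)))) := by
  have hk : 0 < 1 - κ^2 := by nlinarith
  have hθ := flc_th b hb θ h0 h1
  have d1 : G.dist (x 0) (x i) = i := by rw [hx 0 i (by omega) hi]; omega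
  have d2 : G.dist (x i) (x n) = n - i := hx i n hi le_rfl
  have hsq : ∀ ω, (1 - κ ^ 2) ^ 2 * Kf G θ m B (x 0) (x n) ω ^ 2 ≤
      Kf G θ m B (x 0) (x i) ω ^ 2 * Kf G θ m B (x i) (x n) ω ^ 2 := by
    intro ω
    have e := kf_mul hT θ m B x n i hx hi ω
    rw [← mul_pow (Kf G θ m B (x 0) (x i) ω), ← e, mul_pow, mul_comm]
    apply mul_le_mul_of_nonneg_left _ (sq_nonneg _)
    apply pow_le_pow_left₀ hk.le
    have := hF.bdd_m (x i) ω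
    have : m (x i) ω ^ 2 ≤ κ ^ 2 := by
      rw [← sq_abs]; exact pow_le_pow_left₀ (abs_nonneg _) this 2
    linarith
  rcases le_total (n / 2) (n - i) with h | h
  · refine flc_move hT b hb hreg κ hκ0 hκ1 θ θ' m m' B B' β h0 h1 hF hF' hβ0 hβ1 hC o (x 0) (x n)
      (x i) (x n) i (n - i) n hn h (by omega) d2 (Filter.Eventually.of_forall fun ω => ?_)
    refine (hsq ω).trans (mul_le_mul_of_nonneg_right ?_ (sq_nonneg _))
    have h3 := kf_bound hF hκ1 h0 hθ (x 0) (x i) ω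
    rw [d1] at h3
    exact pow_le_pow_left₀ h3.1 h3.2 2
  · refine flc_move hT b hb hreg κ hκ0 hκ1 θ θ' m m' B B' β h0 h1 hF hF' hβ0 hβ1 hC o (x 0) (x n)
      (x i) (x 0) (n - i) i n hn (by omega) (by omega) (by rw [SimpleGraph.dist_comm, d1]) ?_
    filter_upwards [kf_symm hT hF hκ1 h0 hθ (x 0) (x i)] with ω hω
    refine (hsq ω).trans ?_
    rw [hω, mul_comm]
    apply mul_le_mul_of_nonneg_right _ (sq_nonneg _)
    have h3 := kf_bound hF hκ1 h0 hθ (x i) (x n) ω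
    rw [d2] at h3
    exact pow_le_pow_left₀ h3.1 h3.2 2

set_option maxHeartbeats 2000000 in
/-- bound for vertices at large distance -/
theorem far_bound (hT : G.IsTree) (b : ℕ) (hb : 2 ≤ b) (hreg : G.IsRegularOfDegree (b + 1)) (κ : ℝ)
    (hκ0 : 0 < κ) (hκ1 : κ < 1) : ∃ C : ℝ, 0 < C ∧ ∀ (θ θ' : ℝ) (m m' : V → Om V → ℝ)
      (B B' : V → V → Om V → ℝ) (β : ℝ), 0 ≤ θ → 1 / 2 ≤ b * θ ^ 2 → b * θ ^ 2 ≤ 1 → 0 ≤ θ' →
      1 / 2 ≤ b * θ' ^ 2 → b * θ' ^ 2 ≤ 1 → Fld G κ θ m B → Fld G κ θ' m' B' → 3 / 4 ≤ β → β ≤ 1 →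
      Mom G θ m B β → Mom G θ' m' B' β → Chn G b κ θ m B β → Chn G b κ θ' m' B' β →
      ∀ o v u : V, 4 ≤ G.dist v u →
      (b : ℝ) ^ (G.dist v u) * ∫ ω, ((Kf G θ m B v u ω - Kf G θ' m' B' v u ω) ^ 2 +
          Kf G θ' m' B' v u ω ^ 2 * (m u ω - m' u ω) ^ 2) ∂PP V ≤
        C * ((G.dist v u : ℝ) + 1) ^ 2 * (β ^ (G.dist v u / 4 - 1) *
          ((∫ ω, (m o ω - m' o ω) ^ 2 ∂PP V) + (θ - θ') ^ 2) +
          Real.exp (-((3 / 2 : ℝ) ^ (G.dist v u / 4)))) := by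
  obtain ⟨C1, hC1, hlip⟩ := flc_lip (G := G) hT b hb κ hκ0 hκ1
  have hk : 0 < 1 - κ^2 := by nlinarith
  obtain ⟨c, hc⟩ : ∃ c : ℝ, c = (1 - κ ^ 2) ^ 2 := ⟨_, rfl⟩
  have hc0 : 0 < c := by rw [hc]; positivity
  refine ⟨(8 * C1 ^ 2 + 1) * (4 / c ^ 2 + 8 / c) + 8 * C1 ^ 2, by positivity, ?_⟩
  intro θ θ' m m' B B' β h0 hl h1 h0' hl' h1' hF hF' hβ0 hβ1 hM hM' hC hC' o v u hn
  have hθ := flc_th b hb θ h0 h1
  have hθ' := flc_th b hb θ' h0' h1'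
  have hβ : 0 < β := by linarith
  obtain ⟨hx0, hxn, hx⟩ := pth_specA hT v u
  set x := pth G v u with hxd
  obtain ⟨n, hnd⟩ : ∃ n, n = G.dist v u := ⟨_, rfl⟩
  rw [← hnd] at hn hx hxn ⊢
  have hlip1 := hlip θ θ' m m' B B' h0 hl h1 h0' hl' h1' hF hF' x n hx
  rw [hx0, hxn] at hlip1
  set K := Kf G θ m B v u with hK
  set K' := Kf G θ' m' B' v u with hK'
  set Z := ∫ ω, (m o ω - m' o ω) ^ 2 ∂PP V with hZ
  have hZ0 : 0 ≤ Z := integral_nonneg fun ω => sq_nonneg _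
  set E := Real.exp (-((3 / 2 : ℝ) ^ (n / 4))) with hE
  have hE0 : 0 < E := Real.exp_pos _
  set T := 1 / c * (4 / c * β ^ (n / 4 - 1) * Z + 8 * E) with hTd
  have hT0 : 0 ≤ T := by positivity
  have hcomm : ∀ w ω, (m' w ω - m w ω) ^ 2 = (m w ω - m' w ω) ^ 2 := fun w ω => by ring
  have term1 : ∀ i, i ≤ n → (b:ℝ) ^ n * ∫ ω, K ω ^ 2 * (m (x i) ω - m' (x i) ω) ^ 2 ∂PP V ≤ T := by
    intro i hi
    have := flc_term hT b hb hreg κ hκ0 hκ1 θ θ' m m' B B' β h0 h1 hF hF' hβ0 hβ1 hC o x n hn hx i hi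
    rw [hx0, hxn, ← hc] at this
    exact this
  have term2 : ∀ i, i ≤ n → (b:ℝ) ^ n * ∫ ω, K' ω ^ 2 * (m (x i) ω - m' (x i) ω) ^ 2 ∂PP V ≤ T := by
    intro i hi
    have := flc_term hT b hb hreg κ hκ0 hκ1 θ' θ m' m B' B β h0' h1' hF' hF hβ0 hβ1 hC' o x n hn hx
      i hi
    rw [hx0, hxn, ← hc] at this
    simp only [hcomm] at this
    exact this
  have mom : ∀ (t : ℝ) (m : V → Om V → ℝ) (B : V → V → Om V → ℝ), 0 ≤ t → b * t ^ 2 ≤ 1 →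
      Mom G t m B β → (b:ℝ) ^ n * ∫ ω, Kf G t m B v u ω ^ 2 ∂PP V ≤ β ^ (n / 4 - 1) := by
    intro t m B ht ht1 hM
    have h2 := hM v u
    rw [← hnd] at h2
    have h3 : (b:ℝ) ^ n * (t ^ (2 * n) * β ^ (n - 1)) = ((b:ℝ) * t ^ 2) ^ n * β ^ (n - 1) := by
      rw [mul_pow, ← pow_mul]; ring
    have h4 : ((b:ℝ) * t ^ 2) ^ n ≤ 1 := pow_le_one₀ (by positivity) ht1
    have h5 : β ^ (n - 1) ≤ β ^ (n / 4 - 1) := pow_le_pow_of_le_one hβ.le hβ1 (by omega)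
    calc (b:ℝ) ^ n * ∫ ω, Kf G t m B v u ω ^ 2 ∂PP V
        ≤ (b:ℝ) ^ n * (t ^ (2 * n) * β ^ (n - 1)) := mul_le_mul_of_nonneg_left h2 (by positivity)
      _ = ((b:ℝ) * t ^ 2) ^ n * β ^ (n - 1) := h3
      _ ≤ 1 * β ^ (n - 1) := mul_le_mul_of_nonneg_right h4 (by positivity)
      _ ≤ _ := by rw [one_mul]; exact h5
  have mom1 := mom θ m B h0 h1 hM
  have mom2 := mom θ' m' B' h0' h1' hM'
  rw [← hK] at mom1
  rw [← hK'] at mom2
  have hK1 : ∀ ω, |K ω ^ 2| ≤ 1 := fun ω => flc_K_le_one hb hF hκ1 h0 h1 v u ω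
  have hK1' : ∀ ω, |K' ω ^ 2| ≤ 1 := fun ω => flc_K_le_one hb hF' hκ1 h0' h1' v u ω
  have hKm : Measurable K := measurable_Kf hF v u
  have hKm' : Measurable K' := measurable_Kf hF' v u
  have hKb : ∀ ω, |K ω| ≤ 1 := by
    intro ω
    have h := kf_bound hF hκ1 h0 hθ v u ω
    rw [abs_of_nonneg h.1]
    exact h.2.trans (pow_le_one₀ h0 hθ)
  have hKb' : ∀ ω, |K' ω| ≤ 1 := by
    intro ω
    have h := kf_bound hF' hκ1 h0' hθ' v u ω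
    rw [abs_of_nonneg h.1]
    exact h.2.trans (pow_le_one₀ h0' hθ')
  have hDm : ∀ w, Measurable fun ω => (m w ω - m' w ω) ^ 2 := fun w =>
    ((hF.meas_m w).sub (hF'.meas_m w)).pow_const 2
  have i1 : ∀ w, Integrable (fun ω => K ω ^ 2 * (m w ω - m' w ω) ^ 2) (PP V) := by
    intro w
    refine flc_int ((hKm.pow_const 2).mul (hDm w)) 4 fun ω => ?_
    rw [abs_mul]
    calc |K ω ^ 2| * |(m w ω - m' w ω) ^ 2| ≤ 1 * 4 :=
          mul_le_mul (hK1 ω) (by rw [abs_of_nonneg (sq_nonneg _)]; exact flc_dm hκ1 hF hF' w ω)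
            (abs_nonneg _) (by norm_num)
      _ = 4 := by norm_num
  have i2 : ∀ w, Integrable (fun ω => K' ω ^ 2 * (m w ω - m' w ω) ^ 2) (PP V) := by
    intro w
    refine flc_int ((hKm'.pow_const 2).mul (hDm w)) 4 fun ω => ?_
    rw [abs_mul]
    calc |K' ω ^ 2| * |(m w ω - m' w ω) ^ 2| ≤ 1 * 4 :=
          mul_le_mul (hK1' ω) (by rw [abs_of_nonneg (sq_nonneg _)]; exact flc_dm hκ1 hF hF' w ω)
            (abs_nonneg _) (by norm_num)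
      _ = 4 := by norm_num
  have i3 : Integrable (fun ω => K ω ^ 2) (PP V) := flc_int (hKm.pow_const 2) 1 hK1
  have i4 : Integrable (fun ω => K' ω ^ 2) (PP V) := flc_int (hKm'.pow_const 2) 1 hK1'
  have i5 : Integrable (fun ω => (K ω - K' ω) ^ 2) (PP V) := by
    refine flc_int ((hKm.sub hKm').pow_const 2) 4 fun ω => ?_
    rw [abs_of_nonneg (sq_nonneg _), ← sq_abs]
    have : |K ω - K' ω| ≤ 2 := by
      have := abs_sub (K ω) (K' ω)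
      have := hKb ω
      have := hKb' ω
      linarith
    nlinarith [abs_nonneg (K ω - K' ω)]
  -- pointwise bound
  have hpt : ∀ᵐ ω ∂PP V, (K ω - K' ω) ^ 2 ≤
      4 * C1 ^ 2 * (n + 1) * ∑ i ∈ Finset.range (n + 1), (K ω ^ 2 * (m (x i) ω - m' (x i) ω) ^ 2 +
        K' ω ^ 2 * (m (x i) ω - m' (x i) ω) ^ 2) +
      4 * C1 ^ 2 * (n + 1) ^ 2 * (θ - θ') ^ 2 * (K ω ^ 2 + K' ω ^ 2) := by
    filter_upwards [hlip1] with ω hω
    set S := ∑ i ∈ Finset.range (n + 1), |m (x i) ω - m' (x i) ω| with hS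
    set Q := ∑ i ∈ Finset.range (n + 1), (m (x i) ω - m' (x i) ω) ^ 2 with hQ
    have hS2 : S ^ 2 ≤ (n + 1) * Q := by
      have := sq_sum_le_card_mul_sum_sq (s := Finset.range (n + 1))
        (f := fun i => |m (x i) ω - m' (x i) ω|)
      simp only [sq_abs, Finset.card_range] at this
      push_cast at this
      exact this
    have e1 : (K ω - K' ω) ^ 2 ≤ ((K ω + K' ω) * (C1 * (S + (n + 1) * |θ - θ'|))) ^ 2 := by
      rw [← sq_abs]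
      exact pow_le_pow_left₀ (abs_nonneg _) hω 2
    have e2 : ((K ω + K' ω) * (C1 * (S + (n + 1) * |θ - θ'|))) ^ 2 =
        (K ω + K' ω) ^ 2 * (C1 ^ 2 * (S + (n + 1) * |θ - θ'|) ^ 2) := by ring
    have e3 : (K ω + K' ω) ^ 2 ≤ 2 * (K ω ^ 2 + K' ω ^ 2) := by nlinarith [sq_nonneg (K ω - K' ω)]
    have e4 : (S + (n + 1) * |θ - θ'|) ^ 2 ≤ 2 * ((n + 1) * Q + (n + 1) ^ 2 * (θ - θ') ^ 2) := by
      have : (S + (n + 1) * |θ - θ'|) ^ 2 ≤ 2 * (S ^ 2 + ((n + 1) * |θ - θ'|) ^ 2) := by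
        nlinarith [sq_nonneg (S - (n + 1) * |θ - θ'|)]
      rw [mul_pow, sq_abs] at this
      linarith
    have e5 : (K ω + K' ω) ^ 2 * (C1 ^ 2 * (S + (n + 1) * |θ - θ'|) ^ 2) ≤
        (2 * (K ω ^ 2 + K' ω ^ 2)) * (C1 ^ 2 * (2 * ((n + 1) * Q + (n + 1) ^ 2 * (θ - θ') ^ 2))) := by
      apply mul_le_mul e3 (mul_le_mul_of_nonneg_left e4 (sq_nonneg _)) (by positivity) (by positivity)
    refine e1.trans (e2.le.trans (e5.trans (le_of_eq ?_)))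
    simp only [← add_mul, ← Finset.mul_sum]
    rw [← hQ]
    ring
  have i7 : Integrable (fun ω => K ω ^ 2 + K' ω ^ 2) (PP V) := i3.add i4
  have i8 : ∀ w, Integrable (fun ω => K ω ^ 2 * (m w ω - m' w ω) ^ 2 +
      K' ω ^ 2 * (m w ω - m' w ω) ^ 2) (PP V) := fun w => (i1 w).add (i2 w)
  have i6 : Integrable (fun ω => ∑ i ∈ Finset.range (n + 1),
      (K ω ^ 2 * (m (x i) ω - m' (x i) ω) ^ 2 + K' ω ^ 2 * (m (x i) ω - m' (x i) ω) ^ 2)) (PP V) :=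
    integrable_finsetSum _ fun i _ => i8 (x i)
  have hint : ∫ ω, (K ω - K' ω) ^ 2 ∂PP V ≤
      4 * C1 ^ 2 * (n + 1) * ∑ i ∈ Finset.range (n + 1),
        (∫ ω, K ω ^ 2 * (m (x i) ω - m' (x i) ω) ^ 2 ∂PP V +
        ∫ ω, K' ω ^ 2 * (m (x i) ω - m' (x i) ω) ^ 2 ∂PP V) +
      4 * C1 ^ 2 * (n + 1) ^ 2 * (θ - θ') ^ 2 * (∫ ω, K ω ^ 2 ∂PP V + ∫ ω, K' ω ^ 2 ∂PP V) := by
    refine (integral_mono_ae i5 ((i6.const_mul _).add (i7.const_mul _)) hpt).trans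
      (le_of_eq ?_)
    have e1 : ∑ i ∈ Finset.range (n + 1),
        (∫ ω, K ω ^ 2 * (m (x i) ω - m' (x i) ω) ^ 2 ∂PP V +
        ∫ ω, K' ω ^ 2 * (m (x i) ω - m' (x i) ω) ^ 2 ∂PP V) =
        ∫ ω, ∑ i ∈ Finset.range (n + 1), (K ω ^ 2 * (m (x i) ω - m' (x i) ω) ^ 2 +
          K' ω ^ 2 * (m (x i) ω - m' (x i) ω) ^ 2) ∂PP V := by
      rw [integral_finsetSum _ (fun i _ => i8 (x i))]
      exact Finset.sum_congr rfl fun i _ => (integral_add (i1 (x i)) (i2 (x i))).symm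
    rw [e1, ← integral_add i3 i4, ← integral_const_mul, ← integral_const_mul]
    exact integral_add (i6.const_mul _) (i7.const_mul _)
  have hn1 : (1:ℝ) ≤ (n:ℝ) + 1 := by linarith [Nat.cast_nonneg (α := ℝ) n]
  have hfirst : (b:ℝ) ^ n * ∫ ω, (K ω - K' ω) ^ 2 ∂PP V ≤
      8 * C1 ^ 2 * ((n:ℝ) + 1) ^ 2 * T +
        8 * C1 ^ 2 * ((n:ℝ) + 1) ^ 2 * ((θ - θ') ^ 2 * β ^ (n / 4 - 1)) := by
    have a1 := mul_le_mul_of_nonneg_left hint (by positivity : (0:ℝ) ≤ (b:ℝ) ^ n)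
    have a2 : (b:ℝ) ^ n * ∑ i ∈ Finset.range (n + 1),
        (∫ ω, K ω ^ 2 * (m (x i) ω - m' (x i) ω) ^ 2 ∂PP V +
        ∫ ω, K' ω ^ 2 * (m (x i) ω - m' (x i) ω) ^ 2 ∂PP V) ≤ ((n:ℝ) + 1) * (2 * T) := by
      rw [Finset.mul_sum]
      have : ∀ i ∈ Finset.range (n + 1), (b:ℝ) ^ n *
          (∫ ω, K ω ^ 2 * (m (x i) ω - m' (x i) ω) ^ 2 ∂PP V +
          ∫ ω, K' ω ^ 2 * (m (x i) ω - m' (x i) ω) ^ 2 ∂PP V) ≤ 2 * T := by
        intro i hi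
        have hi' : i ≤ n := by have := Finset.mem_range.1 hi; omega
        rw [mul_add]
        linarith [term1 i hi', term2 i hi']
      refine (Finset.sum_le_sum this).trans (le_of_eq ?_)
      rw [Finset.sum_const, Finset.card_range, nsmul_eq_mul]
      push_cast
      ring
    have a3 : (b:ℝ) ^ n * (∫ ω, K ω ^ 2 ∂PP V + ∫ ω, K' ω ^ 2 ∂PP V) ≤ 2 * β ^ (n / 4 - 1) := by
      rw [mul_add]; linarith
    calc (b:ℝ) ^ n * ∫ ω, (K ω - K' ω) ^ 2 ∂PP V ≤ _ := a1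
      _ = 4 * C1 ^ 2 * (n + 1) * ((b:ℝ) ^ n * ∑ i ∈ Finset.range (n + 1),
        (∫ ω, K ω ^ 2 * (m (x i) ω - m' (x i) ω) ^ 2 ∂PP V +
        ∫ ω, K' ω ^ 2 * (m (x i) ω - m' (x i) ω) ^ 2 ∂PP V)) +
        4 * C1 ^ 2 * (n + 1) ^ 2 * (θ - θ') ^ 2 *
          ((b:ℝ) ^ n * (∫ ω, K ω ^ 2 ∂PP V + ∫ ω, K' ω ^ 2 ∂PP V)) := by ring
      _ ≤ 4 * C1 ^ 2 * (n + 1) * (((n:ℝ) + 1) * (2 * T)) +
        4 * C1 ^ 2 * (n + 1) ^ 2 * (θ - θ') ^ 2 * (2 * β ^ (n / 4 - 1)) :=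
          add_le_add (mul_le_mul_of_nonneg_left a2 (by positivity))
            (mul_le_mul_of_nonneg_left a3 (by positivity))
      _ = _ := by ring
  have hsecond : (b:ℝ) ^ n * ∫ ω, K' ω ^ 2 * (m u ω - m' u ω) ^ 2 ∂PP V ≤ T := by
    have := term2 n le_rfl
    rwa [hxn] at this
  rw [integral_add i5 (i2 u), mul_add]
  have hTle : T ≤ (4 / c ^ 2 + 8 / c) * (β ^ (n / 4 - 1) * Z + E) := by
    have e1 : T = 4 / c ^ 2 * (β ^ (n / 4 - 1) * Z) + 8 / c * E := by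
      rw [hTd]; field_simp
    have e2 : 0 ≤ 8 / c * (β ^ (n / 4 - 1) * Z) := by positivity
    have e3 : 0 ≤ 4 / c ^ 2 * E := by positivity
    rw [e1]
    linarith
  have hsq1 : (1:ℝ) ≤ ((n:ℝ) + 1) ^ 2 := one_le_pow₀ hn1
  have hT2 : T ≤ ((n:ℝ) + 1) ^ 2 * T := by nlinarith
  calc (b:ℝ) ^ n * ∫ ω, (K ω - K' ω) ^ 2 ∂PP V +
        (b:ℝ) ^ n * ∫ ω, K' ω ^ 2 * (m u ω - m' u ω) ^ 2 ∂PP V
      ≤ (8 * C1 ^ 2 * ((n:ℝ) + 1) ^ 2 * T +
        8 * C1 ^ 2 * ((n:ℝ) + 1) ^ 2 * ((θ - θ') ^ 2 * β ^ (n / 4 - 1))) + ((n:ℝ) + 1) ^ 2 * T :=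
        add_le_add hfirst (hsecond.trans hT2)
    _ = ((n:ℝ) + 1) ^ 2 * ((8 * C1 ^ 2 + 1) * T + 8 * C1 ^ 2 * ((θ - θ') ^ 2 * β ^ (n / 4 - 1))) := by
        ring
    _ ≤ ((n:ℝ) + 1) ^ 2 * ((8 * C1 ^ 2 + 1) * ((4 / c ^ 2 + 8 / c) * (β ^ (n / 4 - 1) * Z + E)) +
        8 * C1 ^ 2 * ((θ - θ') ^ 2 * β ^ (n / 4 - 1))) := by
        apply mul_le_mul_of_nonneg_left _ (by positivity)
        linarith [mul_le_mul_of_nonneg_left hTle (by positivity : (0:ℝ) ≤ 8 * C1 ^ 2 + 1)]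
    _ ≤ ((n:ℝ) + 1) ^ 2 * (((8 * C1 ^ 2 + 1) * (4 / c ^ 2 + 8 / c) + 8 * C1 ^ 2) *
        (β ^ (n / 4 - 1) * (Z + (θ - θ') ^ 2) + E)) := by
        apply mul_le_mul_of_nonneg_left _ (by positivity)
        have p1 : 0 ≤ (8 * C1 ^ 2 + 1) * (4 / c ^ 2 + 8 / c) * (β ^ (n / 4 - 1) * (θ - θ') ^ 2) := by
          positivity
        have p2 : 0 ≤ 8 * C1 ^ 2 * (β ^ (n / 4 - 1) * Z + E) := by positivity
        linarith
    _ = _ := by ring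

end FLD

end Crest.Agent.TI
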