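import Crest.Agent.TI_FldB
import Crest.Agent.TI_FldC

/-!
Row S0241, task Rate: summation over the tree
-/

set_option autoImplicit false
set_option linter.unusedSectionVars false
set_option linter.unusedVariables false

namespace Crest.Agent.TI

open MeasureTheory Filter Topology
open Crest.Agent.SRF (Lab lab)


section FLD

variable {V : Type*} [DecidableEq V] [Countable V] {G : SimpleGraph V} [G.LocallyFinite]

/-- partial geometric sums -/
theorem rate_geom_sum_le (r : ℝ) (h0 : 0 ≤ r) (h1 : r < 1) (s : Finset ℕ) :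
    ∑ i ∈ s, r ^ i ≤ 1 / (1 - r) := by
  have h2 : Summable fun i : ℕ => r ^ i := summable_geometric_of_lt_one h0 h1
  refine (h2.sum_le_tsum s (fun i _ => pow_nonneg h0 i)).trans ?_
  rw [tsum_geometric_of_lt_one h0 h1, one_div]

/-- polynomial-times-geometric tail (pure analysis) -/
theorem geom_tail : ∃ C : ℝ, 0 < C ∧ ∀ (β : ℝ) (N n : ℕ), 3 / 4 ≤ β → β < 1 → 4 ≤ N →
    ∑ i ∈ Finset.Ioc N n, ((i : ℝ) + 1) ^ 2 * β ^ (i / 4 - 1) ≤
      C * ((1 - β) ^ 3)⁻¹ * Real.exp (-((1 - β) * N / 8)) := by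
  refine ⟨65536, by norm_num, ?_⟩
  intro β N n hβ hβ1 hN
  set h : ℝ := 1 - β with hh
  have hpos : 0 < h := by linarith
  have hle : h ≤ 1 / 4 := by linarith
  -- termwise
  have hterm : ∀ i ∈ Finset.Ioc N n, ((i : ℝ) + 1) ^ 2 * β ^ (i / 4 - 1) ≤
      (2048 / h ^ 2 * Real.exp (-(h * N / 8))) * (Real.exp (-(h / 16))) ^ i := by
    intro i hi
    rw [Finset.mem_Ioc] at hi
    have hiN : (N : ℝ) ≤ i := by exact_mod_cast hi.1.le
    have h1 : β ≤ Real.exp (-h) := by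
      have := Real.add_one_le_exp (-h)
      linarith
    have h2 : β ^ (i / 4 - 1) ≤ Real.exp (-(h * ((i : ℝ) - 7) / 4)) := by
      calc β ^ (i / 4 - 1) ≤ (Real.exp (-h)) ^ (i / 4 - 1) :=
            pow_le_pow_left₀ (by linarith) h1 _
        _ = Real.exp (-(h * ((i / 4 - 1 : ℕ) : ℝ))) := by
            rw [← Real.exp_nat_mul]; congr 1; ring
        _ ≤ Real.exp (-(h * ((i : ℝ) - 7) / 4)) := by
            apply Real.exp_le_exp.2
            have h3 : i ≤ 4 * (i / 4 - 1) + 7 := by omega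
            have h4 : (i : ℝ) ≤ 4 * ((i / 4 - 1 : ℕ) : ℝ) + 7 := by exact_mod_cast h3
            have h5 : ((i : ℝ) - 7) / 4 ≤ ((i / 4 - 1 : ℕ) : ℝ) := by linarith
            have := mul_le_mul_of_nonneg_left h5 hpos.le
            rw [mul_div_assoc]
            linarith
    have h3 : ((i : ℝ) + 1) ^ 2 ≤ 512 / h ^ 2 * Real.exp (h * ((i : ℝ) + 1) / 16) := by
      have h4 : 0 ≤ h * ((i : ℝ) + 1) / 16 := by positivity
      have h5 := Real.quadratic_le_exp_of_nonneg h4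
      have h6 : (h * ((i : ℝ) + 1) / 16) ^ 2 / 2 ≤ Real.exp (h * ((i : ℝ) + 1) / 16) := by
        linarith
      rw [div_mul_eq_mul_div, le_div_iff₀ (by positivity)]
      nlinarith [h6]
    calc ((i : ℝ) + 1) ^ 2 * β ^ (i / 4 - 1)
        ≤ (512 / h ^ 2 * Real.exp (h * ((i : ℝ) + 1) / 16)) *
            Real.exp (-(h * ((i : ℝ) - 7) / 4)) := by
          apply mul_le_mul h3 h2 (pow_nonneg (by linarith) _) (by positivity)
      _ = 512 / h ^ 2 * Real.exp (h * (29 / 16) - h * (3 * i / 16)) := by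
          rw [mul_assoc, ← Real.exp_add]; congr 2; ring
      _ ≤ 512 / h ^ 2 * (4 * Real.exp (-(h * N / 8) - h * i / 16)) := by
          have h7 : (1 : ℝ) ≤ 4 * Real.exp (-(29 / 64)) := by
            have h8 := Real.add_one_le_exp (-(29 / 64) : ℝ)
            linarith
          have h9 : Real.exp (h * (29 / 16) - h * (3 * i / 16)) ≤
              Real.exp (29 / 64) * Real.exp (-(h * N / 8) - h * i / 16) := by
            rw [← Real.exp_add]
            apply Real.exp_le_exp.2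
            nlinarith
          have h10 : Real.exp (29 / 64 : ℝ) ≤ 4 := by
            have h11 : Real.exp (29 / 64 : ℝ) * Real.exp (-(29 / 64)) = 1 := by
              rw [← Real.exp_add]; simp
            have h12 := Real.exp_pos (29 / 64 : ℝ)
            nlinarith
          gcongr
          exact h9.trans (mul_le_mul_of_nonneg_right h10 (Real.exp_pos _).le)
      _ = (2048 / h ^ 2 * Real.exp (-(h * N / 8))) * (Real.exp (-(h / 16))) ^ i := by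
          rw [← Real.exp_nat_mul, sub_eq_add_neg, Real.exp_add]
          have : Real.exp (-(h * (i : ℝ) / 16)) = Real.exp ((i : ℝ) * -(h / 16)) := by
            congr 1; ring
          rw [this]; ring
  refine (Finset.sum_le_sum hterm).trans ?_
  rw [← Finset.mul_sum]
  have hr : Real.exp (-(h / 16)) < 1 := by
    rw [Real.exp_lt_one_iff]; linarith
  have hg := rate_geom_sum_le (Real.exp (-(h / 16))) (Real.exp_pos _).le hr (Finset.Ioc N n)
  have h13 : 1 / (1 - Real.exp (-(h / 16))) ≤ 32 / h := by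
    have h14 : h / 32 ≤ 1 - Real.exp (-(h / 16)) := by
      have h15 : Real.exp (-(h / 16)) ≤ 1 / (1 + h / 16) := by
        rw [Real.exp_neg, ← one_div]
        apply one_div_le_one_div_of_le (by positivity)
        have := Real.add_one_le_exp (h / 16)
        linarith
      have h16 : 1 / (1 + h / 16) ≤ 1 - h / 32 := by
        rw [div_le_iff₀ (by positivity)]
        nlinarith
      linarith
    rw [div_le_div_iff₀ (by linarith [div_pos hpos (by norm_num : (0:ℝ) < 32)]) hpos]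
    linarith
  calc (2048 / h ^ 2 * Real.exp (-(h * N / 8))) *
        ∑ i ∈ Finset.Ioc N n, (Real.exp (-(h / 16))) ^ i
      ≤ (2048 / h ^ 2 * Real.exp (-(h * N / 8))) * (32 / h) := by
        gcongr
        exact hg.trans h13
    _ = 65536 * (h ^ 3)⁻¹ * Real.exp (-(h * N / 8)) := by
        field_simp; ring

theorem super_tail : ∃ C : ℝ, 0 < C ∧ ∀ (N n : ℕ),
    ∑ i ∈ Finset.Ioc N n, ((i : ℝ) + 1) ^ 2 * Real.exp (-((3 / 2 : ℝ) ^ (i / 4))) ≤
      C * Real.exp (-((21 / 20 : ℝ) ^ N)) := by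
  -- x = (3/2)^q
  have hA : ∀ q : ℕ, (21 / 20 : ℝ) ^ (4 * q + 3) ≤ (3 / 2 : ℝ) ^ q / 2 + 3 := by
    intro q
    induction q with
    | zero => norm_num
    | succ q ih =>
      by_cases hq : q < 4
      · interval_cases q <;> norm_num
      · -- q ≥ 4: in fact the stronger bound
        have hs : ∀ p : ℕ, (21 / 20 : ℝ) ^ (4 * (p + 4) + 3) ≤ (3 / 2 : ℝ) ^ (p + 4) / 2 := by
          intro p
          induction p with
          | zero => norm_num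
          | succ p ihp =>
            have e1 : (21 / 20 : ℝ) ^ (4 * (p + 1 + 4) + 3) =
                (21 / 20 : ℝ) ^ (4 * (p + 4) + 3) * (21 / 20 : ℝ) ^ 4 := by
              rw [← pow_add]; congr 1
            have e2 : (3 / 2 : ℝ) ^ (p + 1 + 4) = (3 / 2 : ℝ) ^ (p + 4) * (3 / 2) := by
              rw [← pow_succ]
            rw [e1, e2]
            have h1 : (21 / 20 : ℝ) ^ 4 ≤ 3 / 2 := by norm_num
            have h2 : 0 ≤ (21 / 20 : ℝ) ^ (4 * (p + 4) + 3) := by positivity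
            calc (21 / 20 : ℝ) ^ (4 * (p + 4) + 3) * (21 / 20 : ℝ) ^ 4
                ≤ ((3 / 2 : ℝ) ^ (p + 4) / 2) * (3 / 2) :=
                  mul_le_mul ihp h1 (by positivity) (by positivity)
              _ = (3 / 2 : ℝ) ^ (p + 4) * (3 / 2) / 2 := by ring
        obtain ⟨p, rfl⟩ : ∃ p, q = p + 3 := ⟨q - 3, by omega⟩
        have := hs p
        have e3 : p + 3 + 1 = p + 4 := by ring
        rw [e3]
        linarith
  have hB : ∀ q : ℕ, ((q : ℝ) + 1) ^ 2 ≤ 16 * (3 / 2 : ℝ) ^ q := by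
    intro q
    induction q with
    | zero => norm_num
    | succ q ih =>
      by_cases hq : q < 8
      · interval_cases q <;> norm_num
      · have hq' : (8 : ℝ) ≤ q := by exact_mod_cast (not_lt.1 hq)
        push_cast
        rw [pow_succ (3 / 2 : ℝ) q]
        nlinarith
  have hterm : ∀ i : ℕ, ((i : ℝ) + 1) ^ 2 * Real.exp (-((3 / 2 : ℝ) ^ (i / 4))) ≤
      (Real.exp 3 * (2048 * ((8).factorial * 2 ^ 8 : ℝ))) * Real.exp (-((21 / 20 : ℝ) ^ i)) * (1 / 2) ^ i := by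
    intro i
    obtain ⟨q, r, hr, rfl⟩ : ∃ q r, r < 4 ∧ i = 4 * q + r := ⟨i / 4, i % 4, Nat.mod_lt _ (by norm_num),
      (Nat.div_add_mod i 4).symm⟩
    have hdiv : (4 * q + r) / 4 = q := by omega
    rw [hdiv]
    set x : ℝ := (3 / 2 : ℝ) ^ q with hx
    have hx1 : 1 ≤ x := one_le_pow₀ (by norm_num)
    have hxpos : 0 < x := by linarith
    have h1 : (21 / 20 : ℝ) ^ (4 * q + r) ≤ x / 2 + 3 :=
      (pow_le_pow_right₀ (by norm_num) (by omega)).trans (hA q)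
    have h2 : (((4 * q + r : ℕ) : ℝ) + 1) ^ 2 ≤ 256 * x := by
      have h3 : (((4 * q + r : ℕ) : ℝ) + 1) ≤ 4 * ((q : ℝ) + 1) := by
        have : 4 * q + r + 1 ≤ 4 * (q + 1) := by omega
        exact_mod_cast this
      calc (((4 * q + r : ℕ) : ℝ) + 1) ^ 2 ≤ (4 * ((q : ℝ) + 1)) ^ 2 :=
            pow_le_pow_left₀ (by positivity) h3 2
        _ = 16 * ((q : ℝ) + 1) ^ 2 := by ring
        _ ≤ 16 * (16 * x) := by
            apply mul_le_mul_of_nonneg_left (hB q) (by norm_num)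
        _ = 256 * x := by ring
    have h3 : (2 : ℝ) ^ (4 * q + r) ≤ 8 * x ^ 7 := by
      have h4 : (2 : ℝ) ^ (4 * q + r) ≤ 2 ^ (4 * q + 3) :=
        pow_le_pow_right₀ (by norm_num) (by omega)
      have h5 : (2 : ℝ) ^ (4 * q + 3) = 8 * (16 : ℝ) ^ q := by
        rw [pow_add, pow_mul]; norm_num; ring
      have h6 : (16 : ℝ) ^ q ≤ x ^ 7 := by
        rw [hx, ← pow_mul, mul_comm q 7, pow_mul]
        exact pow_le_pow_left₀ (by norm_num) (by norm_num) q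
      linarith
    have h7 : Real.exp (-(x / 2)) * x ^ 8 ≤ ((8).factorial * 2 ^ 8 : ℝ) := by
      have h8 := Real.pow_div_factorial_le_exp (x / 2) (by positivity) 8
      rw [Real.exp_neg, ← div_eq_inv_mul, div_le_iff₀ (Real.exp_pos _)]
      rw [div_le_iff₀ (by positivity)] at h8
      rw [div_pow] at h8
      have : x ^ 8 / 2 ^ 8 * 2 ^ 8 ≤ Real.exp (x / 2) * ((8).factorial : ℝ) * 2 ^ 8 :=
        mul_le_mul_of_nonneg_right h8 (by norm_num)
      rw [div_mul_cancel₀ _ (by norm_num)] at this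
      linarith
    have h9 : Real.exp (-x) ≤ Real.exp (-(x / 2)) * (Real.exp 3 *
        Real.exp (-((21 / 20 : ℝ) ^ (4 * q + r)))) := by
      rw [← Real.exp_add, ← Real.exp_add]
      apply Real.exp_le_exp.2
      linarith
    have h10 : (((4 * q + r : ℕ) : ℝ) + 1) ^ 2 * (2 : ℝ) ^ (4 * q + r) ≤ 2048 * x ^ 8 := by
      calc (((4 * q + r : ℕ) : ℝ) + 1) ^ 2 * (2 : ℝ) ^ (4 * q + r) ≤ (256 * x) * (8 * x ^ 7) :=
            mul_le_mul h2 h3 (by positivity) (by positivity)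
        _ = 2048 * x ^ 8 := by ring
    have h11 : (2 : ℝ) ^ (4 * q + r) * (1 / 2) ^ (4 * q + r) = 1 := by
      rw [← mul_pow]; norm_num
    calc (((4 * q + r : ℕ) : ℝ) + 1) ^ 2 * Real.exp (-x)
        = ((((4 * q + r : ℕ) : ℝ) + 1) ^ 2 * (2 : ℝ) ^ (4 * q + r)) * Real.exp (-x) *
            (1 / 2) ^ (4 * q + r) := by
          rw [show ((((4 * q + r : ℕ) : ℝ) + 1) ^ 2 * (2 : ℝ) ^ (4 * q + r)) * Real.exp (-x) *
            (1 / 2) ^ (4 * q + r) = (((4 * q + r : ℕ) : ℝ) + 1) ^ 2 * Real.exp (-x) *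
            ((2 : ℝ) ^ (4 * q + r) * (1 / 2) ^ (4 * q + r)) by ring, h11, mul_one]
      _ ≤ (2048 * x ^ 8) * (Real.exp (-(x / 2)) * (Real.exp 3 *
            Real.exp (-((21 / 20 : ℝ) ^ (4 * q + r))))) * (1 / 2) ^ (4 * q + r) := by
          gcongr
      _ = Real.exp 3 * (2048 * (Real.exp (-(x / 2)) * x ^ 8)) *
            Real.exp (-((21 / 20 : ℝ) ^ (4 * q + r))) * (1 / 2) ^ (4 * q + r) := by ring
      _ ≤ _ := by gcongr
  refine ⟨2 * (Real.exp 3 * (2048 * ((8).factorial * 2 ^ 8 : ℝ))), by positivity, ?_⟩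
  intro N n
  calc ∑ i ∈ Finset.Ioc N n, ((i : ℝ) + 1) ^ 2 * Real.exp (-((3 / 2 : ℝ) ^ (i / 4)))
      ≤ ∑ i ∈ Finset.Ioc N n, (Real.exp 3 * (2048 * ((8).factorial * 2 ^ 8 : ℝ))) *
          Real.exp (-((21 / 20 : ℝ) ^ N)) * (1 / 2) ^ i := by
        apply Finset.sum_le_sum
        intro i hi
        rw [Finset.mem_Ioc] at hi
        refine (hterm i).trans ?_
        gcongr
        · norm_num
        · exact hi.1.le
    _ = (Real.exp 3 * (2048 * ((8).factorial * 2 ^ 8 : ℝ))) *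
          Real.exp (-((21 / 20 : ℝ) ^ N)) * ∑ i ∈ Finset.Ioc N n, (1 / 2 : ℝ) ^ i := by
        rw [Finset.mul_sum]
    _ ≤ (Real.exp 3 * (2048 * ((8).factorial * 2 ^ 8 : ℝ))) *
          Real.exp (-((21 / 20 : ℝ) ^ N)) * 2 := by
        gcongr
        refine (rate_geom_sum_le (1 / 2) (by norm_num) (by norm_num) _).trans ?_
        norm_num
    _ = _ := by ring


theorem rate_card_sph_le (hT : G.IsTree) (b : ℕ) (hb : 1 ≤ b)
    (hreg : G.IsRegularOfDegree (b + 1)) (v : V) (n : ℕ) :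
    ((sph G v n).card : ℝ) ≤ 2 * (b : ℝ) ^ n := by
  cases n with
  | zero =>
    have h1 : sph G v 0 ⊆ {v} := by
      intro u hu
      rw [mem_sph hT] at hu
      rw [Finset.mem_singleton]
      exact (hT.connected.dist_eq_zero_iff.1 hu).symm
    have h2 := Finset.card_le_card h1
    rw [Finset.card_singleton] at h2
    have h3 : ((sph G v 0).card : ℝ) ≤ 1 := by exact_mod_cast h2
    simp only [pow_zero, mul_one]
    linarith
  | succ n =>
    rw [card_sph hT b hreg]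
    push_cast
    have h1 : (1 : ℝ) ≤ b := by exact_mod_cast hb
    have h2 : (0 : ℝ) ≤ (b : ℝ) ^ n := by positivity
    rw [pow_succ]
    nlinarith

theorem rate_sum (hT : G.IsTree) (b : ℕ) (hb : 1 ≤ b) (hreg : G.IsRegularOfDegree (b + 1))
    (v : V) (N : ℕ) (Λ : Finset V) (I : V → ℝ) (c1 c2 : ℕ → ℝ) (hc1 : ∀ n, 0 ≤ c1 n)
    (hc2 : ∀ n, 0 ≤ c2 n)
    (h1 : ∀ u, G.dist v u ≤ N → (b : ℝ) ^ (G.dist v u) * I u ≤ c1 (G.dist v u))
    (h2 : ∀ u, N < G.dist v u → (b : ℝ) ^ (G.dist v u) * I u ≤ c2 (G.dist v u)) (S1 S2 : ℝ)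
    (hS1 : ∑ n ∈ Finset.range (N + 1), c1 n ≤ S1) (hS2 : ∀ D, ∑ n ∈ Finset.Ioc N D, c2 n ≤ S2) :
    ∑ u ∈ Λ, I u ≤ 2 * S1 + 2 * S2 := by
  classical
  have hbpos : (0 : ℝ) < b := by exact_mod_cast hb
  set c : ℕ → ℝ := fun n => if n ≤ N then c1 n else c2 n with hc
  have hc0 : ∀ n, 0 ≤ c n := by
    intro n; rw [hc]; simp only; split
    · exact hc1 n
    · exact hc2 n
  have hI : ∀ u, I u ≤ c (G.dist v u) / (b : ℝ) ^ (G.dist v u) := by
    intro u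
    rw [le_div_iff₀ (by positivity), mul_comm]
    rw [hc]; simp only
    split
    · rename_i h; exact h1 u h
    · rename_i h; exact h2 u (not_le.1 h)
  set D : ℕ := N + Λ.sup (fun u => G.dist v u) with hD
  have hmaps : ∀ u ∈ Λ, G.dist v u ∈ Finset.range (D + 1) := by
    intro u hu
    rw [Finset.mem_range]
    have : G.dist v u ≤ Λ.sup (fun u => G.dist v u) := Finset.le_sup (f := fun u => G.dist v u) hu
    omega
  have hfib : ∀ n, ∑ u ∈ Λ with G.dist v u = n, I u ≤ 2 * c n := by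
    intro n
    calc ∑ u ∈ Λ with G.dist v u = n, I u ≤ ∑ u ∈ Λ with G.dist v u = n, c n / (b : ℝ) ^ n := by
          apply Finset.sum_le_sum
          intro u hu
          rw [Finset.mem_filter] at hu
          have := hI u
          rwa [hu.2] at this
      _ = ((Λ.filter (fun u => G.dist v u = n)).card : ℝ) * (c n / (b : ℝ) ^ n) := by
          rw [Finset.sum_const, nsmul_eq_mul]
      _ ≤ (2 * (b : ℝ) ^ n) * (c n / (b : ℝ) ^ n) := by
          apply mul_le_mul_of_nonneg_right _ (div_nonneg (hc0 n) (by positivity))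
          refine le_trans ?_ (rate_card_sph_le hT b hb hreg v n)
          have : Λ.filter (fun u => G.dist v u = n) ⊆ sph G v n := by
            intro u hu
            rw [Finset.mem_filter] at hu
            exact (mem_sph hT v n u).2 hu.2
          exact_mod_cast Finset.card_le_card this
      _ = 2 * c n := by field_simp
  rw [← Finset.sum_fiberwise_of_maps_to hmaps]
  refine (Finset.sum_le_sum fun n _ => hfib n).trans ?_
  rw [← Finset.mul_sum]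
  have hsplit : ∑ n ∈ Finset.range (D + 1), c n =
      ∑ n ∈ Finset.range (N + 1), c1 n + ∑ n ∈ Finset.Ioc N D, c2 n := by
    have hdisj : Disjoint (Finset.range (N + 1)) (Finset.Ioc N D) := by
      rw [Finset.disjoint_left]
      intro n hn hn'
      rw [Finset.mem_range] at hn
      rw [Finset.mem_Ioc] at hn'
      omega
    have hun : Finset.range (D + 1) = Finset.range (N + 1) ∪ Finset.Ioc N D := by
      ext n
      simp only [Finset.mem_union, Finset.mem_range, Finset.mem_Ioc]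
      omega
    rw [hun, Finset.sum_union hdisj]
    congr 1
    · apply Finset.sum_congr rfl
      intro n hn
      rw [Finset.mem_range] at hn
      rw [hc]; simp only
      rw [if_pos (by omega)]
    · apply Finset.sum_congr rfl
      intro n hn
      rw [Finset.mem_Ioc] at hn
      rw [hc]; simp only
      rw [if_neg (by omega)]
  rw [hsplit]
  have := hS2 D
  linarith

theorem rate_near_sum (C Z Gg A : ℝ) (hC : 0 ≤ C) (hZ : 0 ≤ Z) (hG : 0 ≤ Gg) (hA : 0 ≤ A) (N : ℕ)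
    (hN : 1 ≤ N) : ∑ n ∈ Finset.range (N + 1), C * (Z + (n : ℝ) * Gg + (n : ℝ) ^ 2 * A) ≤
      2 * C * ((N : ℝ) * Z + (N : ℝ) ^ 2 * Gg + (N : ℝ) ^ 3 * A) := by
  have hN' : (1 : ℝ) ≤ N := by exact_mod_cast hN
  calc ∑ n ∈ Finset.range (N + 1), C * (Z + (n : ℝ) * Gg + (n : ℝ) ^ 2 * A)
      ≤ ∑ _n ∈ Finset.range (N + 1), C * (Z + (N : ℝ) * Gg + (N : ℝ) ^ 2 * A) := by
        apply Finset.sum_le_sum
        intro n hn
        rw [Finset.mem_range] at hn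
        have hn' : (n : ℝ) ≤ N := by exact_mod_cast (by omega : n ≤ N)
        gcongr
    _ = ((N : ℝ) + 1) * (C * (Z + (N : ℝ) * Gg + (N : ℝ) ^ 2 * A)) := by
        rw [Finset.sum_const, Finset.card_range, nsmul_eq_mul]; push_cast; ring
    _ ≤ (2 * N) * (C * (Z + (N : ℝ) * Gg + (N : ℝ) ^ 2 * A)) := by
        apply mul_le_mul_of_nonneg_right (by linarith)
        positivity
    _ = _ := by ring

theorem rate_far_geom (β : ℝ) (h0 : 0 ≤ β) (h1 : β < 1) (N D : ℕ) :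
    ∑ n ∈ Finset.Ioc N D, 8 * β ^ (n - 1) ≤ 8 * (β ^ N / (1 - β)) := by
  rw [← Finset.mul_sum]
  apply mul_le_mul_of_nonneg_left _ (by norm_num)
  rw [le_div_iff₀ (by linarith)]
  rcases Nat.lt_or_ge D N with h | h
  · rw [Finset.Ioc_eq_empty (by omega)]
    simp only [Finset.sum_empty, zero_mul]
    positivity
  · have key : (∑ n ∈ Finset.Ioc N D, β ^ (n - 1)) * (1 - β) = β ^ N - β ^ D := by
      induction D, h using Nat.le_induction with
      | base => simp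
      | succ D hD ih =>
        rw [Finset.sum_Ioc_succ_top (by omega), add_mul, ih, Nat.add_sub_cancel, pow_succ]
        ring
    rw [key]
    have : 0 ≤ β ^ D := pow_nonneg h0 D
    linarith

theorem rate_trivial (hT : G.IsTree) (b : ℕ) (hb : 2 ≤ b) (κ : ℝ) (hκ0 : 0 < κ) (hκ1 : κ < 1)
    (θ θ' : ℝ) (m m' : V → Om V → ℝ) (B B' : V → V → Om V → ℝ) (β : ℝ) (h0 : 0 ≤ θ)
    (h1 : b * θ ^ 2 ≤ 1) (h0' : 0 ≤ θ') (h1' : b * θ' ^ 2 ≤ 1) (hF : Fld G κ θ m B)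
    (hF' : Fld G κ θ' m' B') (hβ0 : 0 ≤ β) (hM : Mom G θ m B β) (hM' : Mom G θ' m' B' β)
    (v u : V) : (b : ℝ) ^ (G.dist v u) * ∫ ω, ((Kf G θ m B v u ω - Kf G θ' m' B' v u ω) ^ 2 +
          Kf G θ' m' B' v u ω ^ 2 * (m u ω - m' u ω) ^ 2) ∂PP V ≤ 8 * β ^ (G.dist v u - 1) := by
  have hb' : (2 : ℝ) ≤ b := by exact_mod_cast hb
  have hθ1 : θ ≤ 1 := by nlinarith
  have hθ1' : θ' ≤ 1 := by nlinarith
  have hKb : ∀ ω, 0 ≤ Kf G θ m B v u ω ∧ Kf G θ m B v u ω ≤ 1 := fun ω =>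
    ⟨(kf_bound hF hκ1 h0 hθ1 v u ω).1, (kf_bound hF hκ1 h0 hθ1 v u ω).2.trans
      (pow_le_one₀ h0 hθ1)⟩
  have hKb' : ∀ ω, 0 ≤ Kf G θ' m' B' v u ω ∧ Kf G θ' m' B' v u ω ≤ 1 := fun ω =>
    ⟨(kf_bound hF' hκ1 h0' hθ1' v u ω).1, (kf_bound hF' hκ1 h0' hθ1' v u ω).2.trans
      (pow_le_one₀ h0' hθ1')⟩
  have hKi : Integrable (fun ω => Kf G θ m B v u ω ^ 2) (PP V) := by
    apply Integrable.of_bound ((measurable_Kf hF v u).pow_const 2).aestronglyMeasurable 1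
    filter_upwards with ω
    rw [Real.norm_eq_abs, abs_of_nonneg (sq_nonneg _)]
    have := hKb ω
    nlinarith
  have hKi' : Integrable (fun ω => Kf G θ' m' B' v u ω ^ 2) (PP V) := by
    apply Integrable.of_bound ((measurable_Kf hF' v u).pow_const 2).aestronglyMeasurable 1
    filter_upwards with ω
    rw [Real.norm_eq_abs, abs_of_nonneg (sq_nonneg _)]
    have := hKb' ω
    nlinarith
  have hle : ∫ ω, ((Kf G θ m B v u ω - Kf G θ' m' B' v u ω) ^ 2 +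
          Kf G θ' m' B' v u ω ^ 2 * (m u ω - m' u ω) ^ 2) ∂PP V ≤
      ∫ ω, (2 * Kf G θ m B v u ω ^ 2 + 6 * Kf G θ' m' B' v u ω ^ 2) ∂PP V := by
    apply integral_mono_of_nonneg
    · filter_upwards with ω
      positivity
    · exact (hKi.const_mul 2).add (hKi'.const_mul 6)
    · filter_upwards with ω
      have h2 := abs_le.1 (hF.bdd_m u ω)
      have h3 := abs_le.1 (hF'.bdd_m u ω)
      have h4 : (m u ω - m' u ω) ^ 2 ≤ 4 := by nlinarith
      have h5 := mul_le_mul_of_nonneg_left h4 (sq_nonneg (Kf G θ' m' B' v u ω))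
      nlinarith [sq_nonneg (Kf G θ m B v u ω + Kf G θ' m' B' v u ω)]
  have hint : ∫ ω, (2 * Kf G θ m B v u ω ^ 2 + 6 * Kf G θ' m' B' v u ω ^ 2) ∂PP V =
      2 * ∫ ω, Kf G θ m B v u ω ^ 2 ∂PP V + 6 * ∫ ω, Kf G θ' m' B' v u ω ^ 2 ∂PP V := by
    rw [integral_add (hKi.const_mul 2) (hKi'.const_mul 6), integral_const_mul, integral_const_mul]
  have hp : ∀ t : ℝ, 0 ≤ t → b * t ^ 2 ≤ 1 → (b : ℝ) ^ (G.dist v u) * t ^ (2 * G.dist v u) ≤ 1 := by
    intro t ht hbt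
    rw [pow_mul, ← mul_pow]
    exact pow_le_one₀ (by positivity) hbt
  have hβp : 0 ≤ β ^ (G.dist v u - 1) := pow_nonneg hβ0 _
  have hbp : (0 : ℝ) ≤ (b : ℝ) ^ (G.dist v u) := by positivity
  have hm1 := mul_le_mul_of_nonneg_left (hM v u) hbp
  have hm2 := mul_le_mul_of_nonneg_left (hM' v u) hbp
  have hm3 := mul_le_mul_of_nonneg_right (hp θ h0 h1) hβp
  have hm4 := mul_le_mul_of_nonneg_right (hp θ' h0' h1') hβp
  calc (b : ℝ) ^ (G.dist v u) * ∫ ω, ((Kf G θ m B v u ω - Kf G θ' m' B' v u ω) ^ 2 +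
          Kf G θ' m' B' v u ω ^ 2 * (m u ω - m' u ω) ^ 2) ∂PP V
      ≤ (b : ℝ) ^ (G.dist v u) * (2 * ∫ ω, Kf G θ m B v u ω ^ 2 ∂PP V +
          6 * ∫ ω, Kf G θ' m' B' v u ω ^ 2 ∂PP V) := by
        rw [← hint]
        exact mul_le_mul_of_nonneg_left hle hbp
    _ ≤ 8 * β ^ (G.dist v u - 1) := by nlinarith

/-- first summation: trivial bound of the far part -/
theorem rate_one (hT : G.IsTree) (b : ℕ) (hb : 2 ≤ b)
    (hreg : G.IsRegularOfDegree (b + 1)) (κ : ℝ) (hκ0 : 0 < κ) (hκ1 : κ < 1) : ∃ C : ℝ, 0 < C ∧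
    ∀ (θ θ' : ℝ) (m m' : V → Om V → ℝ) (B B' : V → V → Om V → ℝ) (β : ℝ), 0 ≤ θ → b * θ ^ 2 ≤ 1 →
      0 ≤ θ' → b * θ' ^ 2 ≤ 1 → Fld G κ θ m B → Fld G κ θ' m' B' → 0 ≤ β → β < 1 →
      Mom G θ m B β → Mom G θ' m' B' β → ∀ o o' : V, G.Adj o o' → ∀ v : V, ∀ N : ℕ, 1 ≤ N →
      ∀ Λ : Finset V, ∑ u ∈ Λ, ∫ ω, ((Kf G θ m B v u ω - Kf G θ' m' B' v u ω) ^ 2 +
          Kf G θ' m' B' v u ω ^ 2 * (m u ω - m' u ω) ^ 2) ∂PP V ≤
        C * ((N : ℝ) * (∫ ω, (m o ω - m' o ω) ^ 2 ∂PP V) +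
          (N : ℝ) ^ 2 * (∫ ω, (ff θ (B o o' ω) - ff θ' (B' o o' ω)) ^ 2 ∂PP V) +
          (N : ℝ) ^ 3 * ((∫ ω, ff θ (B o o' ω) ∂PP V - ∫ ω, ff θ' (B' o o' ω) ∂PP V) ^ 2 +
            (θ - θ') ^ 2) + β ^ N / (1 - β)) := by
  obtain ⟨C1, hC1, hnear⟩ := near_bound hT b hb hreg κ hκ0 hκ1
  refine ⟨4 * C1 + 16, by positivity, ?_⟩
  intro θ θ' m m' B B' β h0 h1 h0' h1' hF hF' hβ0 hβ1 hM hM' o o' hoo v N hN Λ
  obtain ⟨Z, hZ⟩ : ∃ Z, Z = ∫ ω, (m o ω - m' o ω) ^ 2 ∂PP V := ⟨_, rfl⟩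
  obtain ⟨Gg, hGg⟩ : ∃ Gg, Gg = ∫ ω, (ff θ (B o o' ω) - ff θ' (B' o o' ω)) ^ 2 ∂PP V := ⟨_, rfl⟩
  obtain ⟨A, hA⟩ : ∃ A, A = (∫ ω, ff θ (B o o' ω) ∂PP V - ∫ ω, ff θ' (B' o o' ω) ∂PP V) ^ 2 +
            (θ - θ') ^ 2 := ⟨_, rfl⟩
  have hZ0 : 0 ≤ Z := by rw [hZ]; exact integral_nonneg fun ω => sq_nonneg _
  have hG0 : 0 ≤ Gg := by rw [hGg]; exact integral_nonneg fun ω => sq_nonneg _
  have hA0 : 0 ≤ A := by rw [hA]; positivity
  rw [← hZ, ← hGg, ← hA]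
  have hmain := rate_sum hT b (by omega) hreg v N Λ
    (fun u => ∫ ω, ((Kf G θ m B v u ω - Kf G θ' m' B' v u ω) ^ 2 +
          Kf G θ' m' B' v u ω ^ 2 * (m u ω - m' u ω) ^ 2) ∂PP V)
    (fun n => C1 * (Z + (n : ℝ) * Gg + (n : ℝ) ^ 2 * A)) (fun n => 8 * β ^ (n - 1))
    (fun n => by positivity) (fun n => by positivity)
    (fun u _ => by
      have := hnear θ θ' m m' B B' h0 h1 h0' h1' hF hF' o o' hoo v u
      rw [← hZ, ← hGg, ← hA] at this
      exact this)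
    (fun u _ => rate_trivial hT b hb κ hκ0 hκ1 θ θ' m m' B B' β h0 h1 h0' h1' hF hF' hβ0 hM hM' v u)
    _ _ (rate_near_sum C1 Z Gg A hC1.le hZ0 hG0 hA0 N hN) (rate_far_geom β hβ0 hβ1 N)
  refine hmain.trans ?_
  have hN0 : (0 : ℝ) ≤ N := Nat.cast_nonneg N
  have e1 : 0 ≤ (N : ℝ) * Z + (N : ℝ) ^ 2 * Gg + (N : ℝ) ^ 3 * A := by positivity
  have e2 : 0 ≤ β ^ N / (1 - β) := div_nonneg (pow_nonneg hβ0 N) (by linarith)
  nlinarith

/-- second summation: Chernoff bound of the far part -/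
theorem rate_two (hT : G.IsTree) (b : ℕ) (hb : 2 ≤ b)
    (hreg : G.IsRegularOfDegree (b + 1)) (κ : ℝ) (hκ0 : 0 < κ) (hκ1 : κ < 1) : ∃ C : ℝ, 0 < C ∧
    ∀ (θ θ' : ℝ) (m m' : V → Om V → ℝ) (B B' : V → V → Om V → ℝ) (β : ℝ), 0 ≤ θ →
      1 / 2 ≤ b * θ ^ 2 → b * θ ^ 2 ≤ 1 →
      0 ≤ θ' → 1 / 2 ≤ b * θ' ^ 2 → b * θ' ^ 2 ≤ 1 → Fld G κ θ m B → Fld G κ θ' m' B' →
      3 / 4 ≤ β → β < 1 → Mom G θ m B β → Mom G θ' m' B' β → Chn G b κ θ m B β →
      Chn G b κ θ' m' B' β → ∀ o o' : V, G.Adj o o' → ∀ v : V, ∀ N : ℕ, 4 ≤ N →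
      ∀ Λ : Finset V, ∑ u ∈ Λ, ∫ ω, ((Kf G θ m B v u ω - Kf G θ' m' B' v u ω) ^ 2 +
          Kf G θ' m' B' v u ω ^ 2 * (m u ω - m' u ω) ^ 2) ∂PP V ≤
        C * ((N : ℝ) * (∫ ω, (m o ω - m' o ω) ^ 2 ∂PP V) +
          (N : ℝ) ^ 2 * (∫ ω, (ff θ (B o o' ω) - ff θ' (B' o o' ω)) ^ 2 ∂PP V) +
          (N : ℝ) ^ 3 * ((∫ ω, ff θ (B o o' ω) ∂PP V - ∫ ω, ff θ' (B' o o' ω) ∂PP V) ^ 2 +
            (θ - θ') ^ 2) +
          ((1 - β) ^ 3)⁻¹ * Real.exp (-((1 - β) * N / 8)) *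
            ((∫ ω, (m o ω - m' o ω) ^ 2 ∂PP V) + (θ - θ') ^ 2) +
          Real.exp (-((21 / 20 : ℝ) ^ N))) := by
  obtain ⟨C1, hC1, hnear⟩ := near_bound hT b hb hreg κ hκ0 hκ1
  obtain ⟨C2, hC2, hfar⟩ := far_bound hT b hb hreg κ hκ0 hκ1
  obtain ⟨C3, hC3, hgeom⟩ := geom_tail
  obtain ⟨C4, hC4, hsup⟩ := super_tail
  refine ⟨4 * C1 + 2 * C2 * C3 + 2 * C2 * C4, by positivity, ?_⟩
  intro θ θ' m m' B B' β h0 hh1 h1 h0' hh1' h1' hF hF' hβ0 hβ1 hM hM' hCh hCh' o o' hoo v N hN Λ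
  obtain ⟨Z, hZ⟩ : ∃ Z, Z = ∫ ω, (m o ω - m' o ω) ^ 2 ∂PP V := ⟨_, rfl⟩
  obtain ⟨Gg, hGg⟩ : ∃ Gg, Gg = ∫ ω, (ff θ (B o o' ω) - ff θ' (B' o o' ω)) ^ 2 ∂PP V := ⟨_, rfl⟩
  obtain ⟨A, hA⟩ : ∃ A, A = (∫ ω, ff θ (B o o' ω) ∂PP V - ∫ ω, ff θ' (B' o o' ω) ∂PP V) ^ 2 +
            (θ - θ') ^ 2 := ⟨_, rfl⟩
  have hZ0 : 0 ≤ Z := by rw [hZ]; exact integral_nonneg fun ω => sq_nonneg _
  have hG0 : 0 ≤ Gg := by rw [hGg]; exact integral_nonneg fun ω => sq_nonneg _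
  have hA0 : 0 ≤ A := by rw [hA]; positivity
  rw [← hZ, ← hGg, ← hA]
  have hδ0 : 0 ≤ Z + (θ - θ') ^ 2 := by positivity
  have hfs : ∀ D, ∑ n ∈ Finset.Ioc N D, C2 * ((n : ℝ) + 1) ^ 2 * (β ^ (n / 4 - 1) *
      (Z + (θ - θ') ^ 2) + Real.exp (-((3 / 2 : ℝ) ^ (n / 4)))) ≤
      C2 * (C3 * ((1 - β) ^ 3)⁻¹ * Real.exp (-((1 - β) * N / 8)) * (Z + (θ - θ') ^ 2) +
        C4 * Real.exp (-((21 / 20 : ℝ) ^ N))) := by
    intro D
    have e1 : ∑ n ∈ Finset.Ioc N D, C2 * ((n : ℝ) + 1) ^ 2 * (β ^ (n / 4 - 1) *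
        (Z + (θ - θ') ^ 2) + Real.exp (-((3 / 2 : ℝ) ^ (n / 4)))) =
        C2 * ((∑ n ∈ Finset.Ioc N D, ((n : ℝ) + 1) ^ 2 * β ^ (n / 4 - 1)) * (Z + (θ - θ') ^ 2) +
          ∑ n ∈ Finset.Ioc N D, ((n : ℝ) + 1) ^ 2 * Real.exp (-((3 / 2 : ℝ) ^ (n / 4)))) := by
      rw [Finset.sum_mul, ← Finset.sum_add_distrib, Finset.mul_sum]
      apply Finset.sum_congr rfl; intro n _; ring
    rw [e1]
    gcongr
    · exact hgeom β N D hβ0 hβ1 hN
    · exact hsup N D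
  have hmain := rate_sum hT b (by omega) hreg v N Λ
    (fun u => ∫ ω, ((Kf G θ m B v u ω - Kf G θ' m' B' v u ω) ^ 2 +
          Kf G θ' m' B' v u ω ^ 2 * (m u ω - m' u ω) ^ 2) ∂PP V)
    (fun n => C1 * (Z + (n : ℝ) * Gg + (n : ℝ) ^ 2 * A))
    (fun n => C2 * ((n : ℝ) + 1) ^ 2 * (β ^ (n / 4 - 1) *
      (Z + (θ - θ') ^ 2) + Real.exp (-((3 / 2 : ℝ) ^ (n / 4)))))
    (fun n => by positivity) (fun n => by
      have : 0 ≤ β ^ (n / 4 - 1) := pow_nonneg (by linarith) _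
      positivity)
    (fun u _ => by
      have := hnear θ θ' m m' B B' h0 h1 h0' h1' hF hF' o o' hoo v u
      rw [← hZ, ← hGg, ← hA] at this
      exact this)
    (fun u hu => by
      have := hfar θ θ' m m' B B' β h0 hh1 h1 h0' hh1' h1' hF hF' hβ0 hβ1.le hM hM' hCh hCh' o v u
        (by omega)
      rw [← hZ] at this
      exact this)
    _ _ (rate_near_sum C1 Z Gg A hC1.le hZ0 hG0 hA0 N (by omega)) hfs
  refine hmain.trans ?_
  have hN0 : (0 : ℝ) ≤ N := Nat.cast_nonneg N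
  have e1 : 0 ≤ (N : ℝ) * Z + (N : ℝ) ^ 2 * Gg + (N : ℝ) ^ 3 * A := by positivity
  have e2 : 0 ≤ ((1 - β) ^ 3)⁻¹ * Real.exp (-((1 - β) * N / 8)) * (Z + (θ - θ') ^ 2) := by
    have : 0 < (1 - β) ^ 3 := pow_pos (by linarith) 3
    positivity
  have e3 : 0 < Real.exp (-((21 / 20 : ℝ) ^ N)) := Real.exp_pos _
  have e4 : 0 ≤ C2 * C3 := by positivity
  have e5 : 0 ≤ C2 * C4 := by positivity
  calc 2 * (2 * C1 * ((N : ℝ) * Z + (N : ℝ) ^ 2 * Gg + (N : ℝ) ^ 3 * A)) +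
        2 * (C2 * (C3 * ((1 - β) ^ 3)⁻¹ * Real.exp (-((1 - β) * N / 8)) * (Z + (θ - θ') ^ 2) +
          C4 * Real.exp (-((21 / 20 : ℝ) ^ N))))
      = 4 * C1 * ((N : ℝ) * Z + (N : ℝ) ^ 2 * Gg + (N : ℝ) ^ 3 * A) +
        2 * (C2 * C3) * (((1 - β) ^ 3)⁻¹ * Real.exp (-((1 - β) * N / 8)) * (Z + (θ - θ') ^ 2)) +
        2 * (C2 * C4) * Real.exp (-((21 / 20 : ℝ) ^ N)) := by ring
    _ ≤ (4 * C1 + 2 * C2 * C3 + 2 * C2 * C4) * (((N : ℝ) * Z + (N : ℝ) ^ 2 * Gg +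
          (N : ℝ) ^ 3 * A) +
          ((1 - β) ^ 3)⁻¹ * Real.exp (-((1 - β) * N / 8)) * (Z + (θ - θ') ^ 2) +
          Real.exp (-((21 / 20 : ℝ) ^ N))) := by
        have f1 := mul_nonneg e4 e1
        have f2 := mul_nonneg e5 e1
        have f3 := mul_nonneg hC1.le e2
        have f4 := mul_nonneg e5 e2
        have f5 := mul_nonneg hC1.le e3.le
        have f6 := mul_nonneg e4 e3.le
        nlinarith

end FLD

end Crest.Agent.TI
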