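import Crest.Agent.TI_CritA
import Crest.Agent.TI_Rate
import Crest.Agent.TI_InfC
import Crest.Agent.TI_InfD

/-!
Row S0241, task CritD: the scalar inequalities
-/

set_option autoImplicit false
set_option linter.unusedSectionVars false
set_option linter.unusedVariables false

namespace Crest.Agent.TI

open MeasureTheory Filter Topology
open Crest.Agent.SRF (Lab lab)


section CRIT

variable {V : Type*} [DecidableEq V] {G : SimpleGraph V} [G.LocallyFinite]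

/-- the sum in the dynamic inequality -/
private noncomputable def critd_S (G : SimpleGraph V) [G.LocallyFinite] (b : ℕ) (θ θ' : ℝ) (k : ℕ)
    (v : V) (r : ℝ) (Λ : Finset V) : ℝ :=
  ∑ u ∈ Λ, ∫ ω, ((Kf G θ (mI G b θ k r) (bI G b θ k r) v u ω -
      Kf G θ' (mI G b θ' k r) (bI G b θ' k r) v u ω) ^ 2 +
    Kf G θ' (mI G b θ' k r) (bI G b θ' k r) v u ω ^ 2 *
      (mI G b θ k r u ω - mI G b θ' k r u ω) ^ 2) ∂PP V

private theorem critd_dyn (hT : G.IsTree) (b : ℕ) (hb : 2 ≤ b) (hreg : G.IsRegularOfDegree (b + 1))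
    (θ θ' : ℝ) (h0 : 0 ≤ θ) (h1 : b * θ ^ 2 < 1) (h0' : 0 ≤ θ') (h1' : b * θ' ^ 2 < 1) (k : ℕ) (v : V)
    (t0 t : ℝ) (ht0 : 0 ≤ t0) (ht : t0 ≤ t) (ht1 : t ≤ 1) (F : ℝ → ℝ) (hFm : Measurable F)
    (M : ℝ) (hF : ∀ r, t0 ≤ r → r ≤ t → |F r| ≤ M)
    (hsum : ∀ r, t0 < r → r ≤ t → ∀ Λ : Finset V, critd_S G b θ θ' k v r Λ ≤ F r) :
    Zf G b θ θ' k v t ≤ Zf G b θ θ' k v t0 + 2 * ∫ r in t0..t, r ^ 2 * F r := by
  have hM : 0 ≤ M := (abs_nonneg _).trans (hF t0 le_rfl ht)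
  have key := dyn_I hT b hb hreg θ θ' h0 h1 h0' h1' k v t0 t ht0 ht ht1
    (Set.indicator (Set.Icc t0 t) F) (hFm.indicator measurableSet_Icc) M
    (by
      intro r
      by_cases hr : r ∈ Set.Icc t0 t
      · rw [Set.indicator_of_mem hr]; exact hF r hr.1 hr.2
      · rw [Set.indicator_of_notMem hr]; simpa using hM)
    (by
      intro r hr1 hr2 Λ
      rw [Set.indicator_of_mem (show r ∈ Set.Icc t0 t from ⟨hr1.le, hr2⟩)]
      exact hsum r hr1 hr2 Λ)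
  have e1 : Zf G b θ θ' k v t = ∫ ω, (mI G b θ k t v ω - mI G b θ' k t v ω) ^ 2 ∂PP V := by
    unfold Zf; rw [Set.indicator_of_mem]; exact ⟨ht0.trans ht, ht1⟩
  have e2 : Zf G b θ θ' k v t0 = ∫ ω, (mI G b θ k t0 v ω - mI G b θ' k t0 v ω) ^ 2 ∂PP V := by
    unfold Zf; rw [Set.indicator_of_mem]; exact ⟨ht0, ht.trans ht1⟩
  have e3 : ∫ r in t0..t, r ^ 2 * Set.indicator (Set.Icc t0 t) F r = ∫ r in t0..t, r ^ 2 * F r := by
    apply intervalIntegral.integral_congr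
    intro r hr
    rw [Set.uIcc_of_le ht] at hr
    simp only [Set.indicator_of_mem hr]
  rw [e1, e2, ← e3]
  exact key

private theorem critd_Z (hT : G.IsTree) (b : ℕ) (hb : 2 ≤ b) (hreg : G.IsRegularOfDegree (b + 1))
    (θ θ' : ℝ) (h0 : 0 ≤ θ) (h1 : b * θ ^ 2 < 1) (h0' : 0 ≤ θ') (h1' : b * θ' ^ 2 < 1) (k : ℕ)
    (v x : V) (r : ℝ) (hr0 : 0 ≤ r) (hr1 : r ≤ 1) :
    ∫ ω, (mI G b θ k r x ω - mI G b θ' k r x ω) ^ 2 ∂PP V = Zf G b θ θ' k v r := by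
  unfold Zf
  rw [Set.indicator_of_mem (show r ∈ Set.Icc (0:ℝ) 1 from ⟨hr0, hr1⟩)]
  exact Z_const hT b hreg (fld_I hT b hb hreg θ h0 h1 k r hr0 hr1)
    (fld_I hT b hb hreg θ' h0' h1' k r hr0 hr1) x v

private theorem critd_mu (b : ℕ) (θ θ' : ℝ) (k : ℕ) (x y : V) (r : ℝ) (hr0 : 0 ≤ r) (hr1 : r ≤ 1) :
    (∫ ω, ff θ (bI G b θ k r x y ω) ∂PP V - ∫ ω, ff θ' (bI G b θ' k r x y ω) ∂PP V) ^ 2 +
      (θ - θ') ^ 2 = muf G b θ θ' k x y r := by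
  unfold muf
  rw [Set.indicator_of_mem (show r ∈ Set.Icc (0:ℝ) 1 from ⟨hr0, hr1⟩)]
  rfl

private theorem critd_sq_le_muf (b : ℕ) (θ θ' : ℝ) (k : ℕ) (x y : V) (r : ℝ) :
    (θ - θ') ^ 2 ≤ muf G b θ θ' k x y r := by
  unfold muf
  have : 0 ≤ Set.indicator (Set.Icc (0:ℝ) 1) (fun r => (af G b θ k x y r - af G b θ' k x y r) ^ 2) r :=
    Set.indicator_nonneg (fun _ _ => sq_nonneg _) _
  linarith

private theorem critd_exp {b c h r : ℝ} (hb : 0 < b) (hr0 : 0 < r)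
    (hh_eq : h = r ^ (3 / 2 : ℝ) / (1224 * b)) (hh1 : h ≤ 1) (hc_leb : c ≤ 1 / (1224 * b)) (N : ℕ) :
    (1 - h) ^ N / (1 - (1 - h)) ≤
      1224 * b * (r ^ (-(3 / 2) : ℝ) * Real.exp (-c * r ^ (3 / 2 : ℝ) * N)) := by
  have hrp : (0:ℝ) < r ^ (3 / 2 : ℝ) := Real.rpow_pos_of_pos hr0 _
  have hN0 : (0:ℝ) ≤ N := Nat.cast_nonneg N
  have e1 : (1 - h) ^ N ≤ Real.exp (-h * N) := by
    have := Real.one_sub_le_exp_neg h
    calc (1 - h) ^ N ≤ (Real.exp (-h)) ^ N := pow_le_pow_left₀ (by linarith) this N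
      _ = Real.exp (-h * N) := by rw [← Real.exp_nat_mul]; ring_nf
  have e2 : Real.exp (-h * N) ≤ Real.exp (-c * r ^ (3 / 2 : ℝ) * N) := by
    apply Real.exp_le_exp.mpr
    have h1 : c * r ^ (3 / 2 : ℝ) ≤ h := by
      have := mul_le_mul_of_nonneg_right hc_leb hrp.le
      rw [hh_eq]
      calc c * r ^ (3 / 2 : ℝ) ≤ 1 / (1224 * b) * r ^ (3 / 2 : ℝ) := this
        _ = r ^ (3 / 2 : ℝ) / (1224 * b) := by ring
    have := mul_le_mul_of_nonneg_right h1 hN0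
    linarith
  have e3 : (1 - (1 - h)) = r ^ (3 / 2 : ℝ) / (1224 * b) := by rw [← hh_eq]; ring
  rw [e3, Real.rpow_neg hr0.le]
  rw [div_div_eq_mul_div, div_le_iff₀ hrp]
  have e4 : 1224 * b * ((r ^ (3 / 2 : ℝ))⁻¹ * Real.exp (-c * r ^ (3 / 2 : ℝ) * N)) *
      r ^ (3 / 2 : ℝ) = 1224 * b * Real.exp (-c * r ^ (3 / 2 : ℝ) * N) := by
    field_simp
  rw [e4]
  have := mul_le_mul_of_nonneg_left (e1.trans e2) (show (0:ℝ) ≤ 1224 * b by positivity)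
  linarith

set_option maxHeartbeats 800000 in
/-- pointwise rate, first version -/
private theorem critd_rate1 [Countable V] (hT : G.IsTree) (b : ℕ) (hb : 2 ≤ b)
    (hreg : G.IsRegularOfDegree (b + 1)) :
    ∃ C c : ℝ, 1 ≤ C ∧ 0 < c ∧ c ≤ 1 ∧ ∀ (θ θ' : ℝ), 0 ≤ θ → b * θ ^ 2 < 1 → 0 ≤ θ' →
      b * θ' ^ 2 < 1 → ∀ (v x y : V), G.Adj x y → ∀ (r : ℝ), 0 < r → r ≤ 1 →
      1 - b * θ ^ 2 ≤ r ^ (3 / 2 : ℝ) / 17 → 1 - b * θ' ^ 2 ≤ r ^ (3 / 2 : ℝ) / 17 →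
      ∀ N : ℕ, 1 ≤ N → ∀ Λ : Finset V, critd_S G b θ θ' 0 v r Λ ≤
        C * ((N : ℝ) * Zf G b θ θ' 0 v r + (N : ℝ) ^ 2 * (r ^ (1 / 2 : ℝ) * Zf G b θ θ' 0 v r +
            Real.exp (-c * r ^ (-(1 / 4) : ℝ))) +
          (N : ℝ) ^ 3 * muf G b θ θ' 0 x y r +
          r ^ (-(3 / 2) : ℝ) * Real.exp (-c * r ^ (3 / 2 : ℝ) * N)) := by
  obtain ⟨hκ0, hκ1, -⟩ := kp_spec (G := G) hT b hb hreg 0
  obtain ⟨C1, hC1, H1⟩ := rate_one (G := G) hT b hb hreg (kp G b 0) hκ0 hκ1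
  obtain ⟨C2, hC2, H2⟩ := g2_bound (G := G) hT b hb hreg (kp G b 0) hκ0 hκ1
  obtain ⟨C3, c3, hC3, hc3, H3⟩ := tail_small (G := G) hT b hb hreg
  have hbpos : (0:ℝ) < b := by positivity
  have hb2 : (2:ℝ) ≤ b := by exact_mod_cast hb
  set c : ℝ := min (min c3 1) (1 / (1224 * b)) with hc
  have hcpos : 0 < c := by
    rw [hc]; exact lt_min (lt_min hc3 one_pos) (by positivity)
  have hc_le3 : c ≤ c3 := (min_le_left _ _).trans (min_le_left _ _)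
  have hc_le1 : c ≤ 1 := (min_le_left _ _).trans (min_le_right _ _)
  have hc_leb : c ≤ 1 / (1224 * b) := min_le_right _ _
  set C : ℝ := 1 + C1 * (1 + C2 * (1 + 2 * C3) + 1224 * b) with hCdef
  have hCpos : 1 ≤ C := by
    have : 0 ≤ C1 * (1 + C2 * (1 + 2 * C3) + 1224 * b) := by positivity
    linarith
  refine ⟨C, c, hCpos, hcpos, hc_le1, ?_⟩
  intro θ θ' h0 h1 h0' h1' v x y hxy r hr0 hr1 hok hok' N hN Λ
  have hrp : (0:ℝ) < r ^ (3 / 2 : ℝ) := Real.rpow_pos_of_pos hr0 _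
  have hrp1 : r ^ (3 / 2 : ℝ) ≤ 1 := Real.rpow_le_one hr0.le hr1 (by norm_num)
  have hF := fld_I hT b hb hreg θ h0 h1 0 r hr0.le hr1
  have hF' := fld_I hT b hb hreg θ' h0' h1' 0 r hr0.le hr1
  have hrr : rr 0 r = r ^ (3 / 2 : ℝ) := by simp [rr]
  have hM := mom_I hT b hb hreg θ h0 h1 0 r hr0.le (Or.inl hr0) hr1 (by rw [hrr]; exact hok)
  have hM' := mom_I hT b hb hreg θ' h0' h1' 0 r hr0.le (Or.inl hr0) hr1 (by rw [hrr]; exact hok')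
  have hh_eq : hh b 0 r = r ^ (3 / 2 : ℝ) / (1224 * b) := by simp [hh, rr]
  set h : ℝ := hh b 0 r with hhdef
  have hhpos : 0 < h := by rw [hh_eq]; positivity
  have hhle : h ≤ 1 / 2448 := by
    rw [hh_eq, div_le_div_iff₀ (by positivity) (by norm_num)]
    nlinarith
  have R := H1 θ θ' _ _ _ _ (1 - h) h0 h1.le h0' h1'.le hF hF' (by linarith) (by linarith) hM hM'
    x y hxy v N hN Λ
  have G2 := H2 θ θ' _ _ _ _ h0 h1.le h0' h1'.le hF hF' x y hxy (r ^ (1 / 4 : ℝ))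
    (Real.rpow_nonneg hr0.le _)
  have T := H3 θ h0 (by linarith) h1 r hr0 hr1 x y hxy
  have T' := H3 θ' h0' (by linarith) h1' r hr0 hr1 x y hxy
  rw [critd_Z hT b hb hreg θ θ' h0 h1 h0' h1' 0 v x r hr0.le hr1] at R G2
  rw [critd_mu b θ θ' 0 x y r hr0.le hr1] at R
  have hmu := critd_sq_le_muf (G := G) b θ θ' 0 x y r
  have hmu0 : 0 ≤ muf G b θ θ' 0 x y r := (sq_nonneg _).trans hmu
  have hZ0 : 0 ≤ Zf G b θ θ' 0 v r := (Zf_bound hT b hb hreg θ θ' 0 v r).1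
  have hδ : (r ^ (1 / 4 : ℝ)) ^ 2 = r ^ (1 / 2 : ℝ) := by
    rw [← Real.rpow_natCast, ← Real.rpow_mul hr0.le]; norm_num
  rw [hδ] at G2
  -- comparison of the exponentials
  have hE1 : Real.exp (-c3 * r ^ (-(1 / 4) : ℝ)) ≤ Real.exp (-c * r ^ (-(1 / 4) : ℝ)) := by
    apply Real.exp_le_exp.mpr
    have : 0 ≤ r ^ (-(1 / 4) : ℝ) := Real.rpow_nonneg hr0.le _
    nlinarith
  have hE2 : (1 - h) ^ N / (1 - (1 - h)) ≤
      1224 * b * (r ^ (-(3 / 2) : ℝ) * Real.exp (-c * r ^ (3 / 2 : ℝ) * N)) :=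
    critd_exp (b := (b:ℝ)) (by linarith) hr0 hh_eq (by linarith) hc_leb N
  set Z := Zf G b θ θ' 0 v r with hZ
  set mu := muf G b θ θ' 0 x y r with hmudef
  set E1 := Real.exp (-c * r ^ (-(1 / 4) : ℝ)) with hE1def
  set E2 := r ^ (-(3 / 2) : ℝ) * Real.exp (-c * r ^ (3 / 2 : ℝ) * N) with hE2def
  have hE1pos : 0 ≤ E1 := (Real.exp_pos _).le
  have hE2pos : 0 ≤ E2 := mul_nonneg (Real.rpow_nonneg hr0.le _) (Real.exp_pos _).le
  have hs0 : 0 ≤ r ^ (1 / 2 : ℝ) := Real.rpow_nonneg hr0.le _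
  have hNr : (1:ℝ) ≤ N := by exact_mod_cast hN
  have hN0 : (0:ℝ) ≤ N := by linarith
  have hN23 : (N:ℝ) ^ 2 ≤ (N:ℝ) ^ 3 := pow_le_pow_right₀ hNr (by norm_num)
  -- G2 bound
  have G2' : ∫ ω, (ff θ (bI G b θ 0 r x y ω) - ff θ' (bI G b θ' 0 r x y ω)) ^ 2 ∂PP V ≤
      C2 * (1 + 2 * C3) * (r ^ (1 / 2 : ℝ) * Z + E1) + C2 * mu := by
    have t1 := T.trans (mul_le_mul_of_nonneg_left hE1 hC3.le)
    have t2 := T'.trans (mul_le_mul_of_nonneg_left hE1 hC3.le)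
    refine G2.trans ?_
    have : r ^ (1 / 2 : ℝ) * Z + (PP V).real {ω | r ^ (1 / 4 : ℝ) < |bI G b θ 0 r x y ω|} +
        (PP V).real {ω | r ^ (1 / 4 : ℝ) < |bI G b θ' 0 r x y ω|} + (θ - θ') ^ 2 ≤
        (1 + 2 * C3) * (r ^ (1 / 2 : ℝ) * Z + E1) + mu := by
      have : 0 ≤ C3 * (r ^ (1 / 2 : ℝ) * Z) := by positivity
      nlinarith
    have := mul_le_mul_of_nonneg_left this hC2.le
    linarith
  refine R.trans ?_
  have hG := mul_le_mul_of_nonneg_left G2' (show (0:ℝ) ≤ (N:ℝ) ^ 2 by positivity)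
  have hmuN : (N:ℝ) ^ 2 * mu ≤ (N:ℝ) ^ 3 * mu := mul_le_mul_of_nonneg_right hN23 hmu0
  have hA : 0 ≤ (N:ℝ) * Z := mul_nonneg hN0 hZ0
  have hB : 0 ≤ (N:ℝ) ^ 2 * (r ^ (1 / 2 : ℝ) * Z + E1) := by positivity
  have hD : 0 ≤ (N:ℝ) ^ 3 * mu := by positivity
  set X1 := (N:ℝ) * Z with hX1
  set X2 := (N:ℝ) ^ 2 * (r ^ (1 / 2 : ℝ) * Z + E1) with hX2
  set X3 := (N:ℝ) ^ 3 * mu with hX3
  set I2 := ∫ ω, (ff θ (bI G b θ 0 r x y ω) - ff θ' (bI G b θ' 0 r x y ω)) ^ 2 ∂PP V with hI2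
  set Q := (1 - h) ^ N / (1 - (1 - h)) with hQ
  have hI2' : (N:ℝ) ^ 2 * I2 ≤ C2 * (1 + 2 * C3) * X2 + C2 * X3 := by
    calc (N:ℝ) ^ 2 * I2 ≤ (N:ℝ) ^ 2 * (C2 * (1 + 2 * C3) * (r ^ (1 / 2 : ℝ) * Z + E1) + C2 * mu) := hG
      _ = C2 * (1 + 2 * C3) * X2 + C2 * ((N:ℝ) ^ 2 * mu) := by rw [hX2]; ring
      _ ≤ _ := by
        have := mul_le_mul_of_nonneg_left hmuN hC2.le
        linarith
  calc C1 * (X1 + (N:ℝ) ^ 2 * I2 + X3 + Q)
      ≤ C1 * (X1 + (C2 * (1 + 2 * C3) * X2 + C2 * X3) + X3 + 1224 * b * E2) := by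
        apply mul_le_mul_of_nonneg_left _ hC1.le
        linarith
    _ ≤ C * (X1 + X2 + X3 + E2) := by
        have p1 : 0 ≤ C1 * (C2 * (1 + 2 * C3)) := by positivity
        have p2 : 0 ≤ C1 * (1224 * b) := by positivity
        have p3 : 0 ≤ C1 * C2 * C3 := by positivity
        have : C * (X1 + X2 + X3 + E2) - C1 * (X1 + (C2 * (1 + 2 * C3) * X2 + C2 * X3) + X3 + 1224 * b * E2)
          = (1 + C1 * (C2 * (1 + 2 * C3)) + C1 * (1224 * b)) * X1 + (1 + C1 + C1 * (1224 * b)) * X2 +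
            (1 + 2 * (C1 * C2 * C3) + C1 * (1224 * b)) * X3 +
            (1 + C1 + C1 * (C2 * (1 + 2 * C3))) * E2 := by
          rw [hCdef]; ring
        have : 0 ≤ C * (X1 + X2 + X3 + E2) -
            C1 * (X1 + (C2 * (1 + 2 * C3) * X2 + C2 * X3) + X3 + 1224 * b * E2) := by
          rw [this]; positivity
        linarith

set_option maxHeartbeats 800000 in
/-- pointwise rate, second version -/
private theorem critd_rate2 [Countable V] (hT : G.IsTree) (b : ℕ) (hb : 2 ≤ b)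
    (hreg : G.IsRegularOfDegree (b + 1)) (k : ℕ) :
    ∃ C : ℝ, 1 ≤ C ∧ ∀ (θ θ' : ℝ), 0 ≤ θ → b * θ ^ 2 < 1 → 0 ≤ θ' →
      b * θ' ^ 2 < 1 → ∀ (v x y : V), G.Adj x y → ∀ (r : ℝ), 0 < r → r ≤ 1 →
      1 - b * θ ^ 2 ≤ rr k r / 17 → 1 - b * θ' ^ 2 ≤ rr k r / 17 →
      ∀ N : ℕ, 4 ≤ N → ∀ Λ : Finset V, critd_S G b θ θ' k v r Λ ≤
        C * ((N : ℝ) ^ 2 * Zf G b θ θ' k v r + (N : ℝ) ^ 3 * muf G b θ θ' k x y r +
          ((rr k r) ^ 3)⁻¹ * Real.exp (-(1 / (9792 * b)) * rr k r * N) *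
            (Zf G b θ θ' k v r + muf G b θ θ' k x y r) +
          Real.exp (-((21 / 20 : ℝ) ^ N))) := by
  obtain ⟨hκ0, hκ1, -⟩ := kp_spec (G := G) hT b hb hreg k
  obtain ⟨C1, hC1, H1⟩ := rate_two (G := G) hT b hb hreg (kp G b k) hκ0 hκ1
  obtain ⟨C2, hC2, H2⟩ := g2_bound (G := G) hT b hb hreg (kp G b k) hκ0 hκ1
  have hbpos : (0:ℝ) < b := by positivity
  have hb2 : (2:ℝ) ≤ b := by exact_mod_cast hb
  set D : ℝ := (1224 * b) ^ 3 with hD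
  have hDpos : 0 < D := by positivity
  set C : ℝ := 1 + C1 * (2 + 2 * C2 + D) with hCdef
  have hCpos : 1 ≤ C := by
    have : 0 ≤ C1 * (2 + 2 * C2 + D) := by positivity
    linarith
  refine ⟨C, hCpos, ?_⟩
  intro θ θ' h0 h1 h0' h1' v x y hxy r hr0 hr1 hok hok' N hN Λ
  have hrrpos : 0 < rr k r := by
    unfold rr; split_ifs
    · exact Real.rpow_pos_of_pos hr0 _
    · exact one_pos
  have hrr1 : rr k r ≤ 1 := by
    unfold rr; split_ifs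
    · exact Real.rpow_le_one hr0.le hr1 (by norm_num)
    · exact le_rfl
  have hF := fld_I hT b hb hreg θ h0 h1 k r hr0.le hr1
  have hF' := fld_I hT b hb hreg θ' h0' h1' k r hr0.le hr1
  have hM := mom_I hT b hb hreg θ h0 h1 k r hr0.le (Or.inl hr0) hr1 hok
  have hM' := mom_I hT b hb hreg θ' h0' h1' k r hr0.le (Or.inl hr0) hr1 hok'
  have hCh := chn_I hT b hb hreg θ h0 h1 k r hr0.le (Or.inl hr0) hr1 hok
  have hCh' := chn_I hT b hb hreg θ' h0' h1' k r hr0.le (Or.inl hr0) hr1 hok'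
  have hh_eq : hh b k r = rr k r / (1224 * b) := rfl
  set h : ℝ := hh b k r with hhdef
  have hhpos : 0 < h := by rw [hh_eq]; positivity
  have hhle : h ≤ 1 / 2448 := by
    rw [hh_eq, div_le_div_iff₀ (by positivity) (by norm_num)]
    nlinarith
  have R := H1 θ θ' _ _ _ _ (1 - h) h0 (by linarith) h1.le h0' (by linarith) h1'.le hF hF'
    (by linarith) (by linarith) hM hM' hCh hCh' x y hxy v N hN Λ
  have G2 := H2 θ θ' _ _ _ _ h0 h1.le h0' h1'.le hF hF' x y hxy 1 zero_le_one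
  rw [critd_Z hT b hb hreg θ θ' h0 h1 h0' h1' k v x r hr0.le hr1] at R G2
  rw [critd_mu b θ θ' k x y r hr0.le hr1] at R
  have hmu := critd_sq_le_muf (G := G) b θ θ' k x y r
  have hmu0 : 0 ≤ muf G b θ θ' k x y r := (sq_nonneg _).trans hmu
  have hZ0 : 0 ≤ Zf G b θ θ' k v r := (Zf_bound hT b hb hreg θ θ' k v r).1
  have z1 : {ω : Om V | 1 < |bI G b θ k r x y ω|} = ∅ := by
    ext ω; simp only [Set.mem_ofPred_eq, Set.mem_empty_iff_false, iff_false, not_lt]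
    exact (hF.bdd_B x y ω).trans hκ1.le
  have z2 : {ω : Om V | 1 < |bI G b θ' k r x y ω|} = ∅ := by
    ext ω; simp only [Set.mem_ofPred_eq, Set.mem_empty_iff_false, iff_false, not_lt]
    exact (hF'.bdd_B x y ω).trans hκ1.le
  rw [z1, z2] at G2
  simp only [measureReal_empty, add_zero, one_pow, one_mul] at G2
  set Z := Zf G b θ θ' k v r with hZ
  set mu := muf G b θ θ' k x y r with hmudef
  have hNr : (1:ℝ) ≤ N := by exact_mod_cast (by omega : 1 ≤ N)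
  have hN0 : (0:ℝ) ≤ N := by linarith
  have hN23 : (N:ℝ) ^ 2 ≤ (N:ℝ) ^ 3 := pow_le_pow_right₀ hNr (by norm_num)
  have hN12 : (N:ℝ) ≤ (N:ℝ) ^ 2 := by nlinarith
  set I2 := ∫ ω, (ff θ (bI G b θ k r x y ω) - ff θ' (bI G b θ' k r x y ω)) ^ 2 ∂PP V with hI2
  have hE : ((1 - (1 - h)) ^ 3)⁻¹ * Real.exp (-((1 - (1 - h)) * N / 8)) =
      D * (((rr k r) ^ 3)⁻¹ * Real.exp (-(1 / (9792 * b)) * rr k r * N)) := by
    have e0 : 1 - (1 - h) = rr k r / (1224 * b) := by rw [← hh_eq]; ring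
    rw [e0]
    have e1 : (-(rr k r / (1224 * b) * N / 8) : ℝ) = -(1 / (9792 * b)) * rr k r * N := by
      field_simp; ring
    rw [e1, hD]
    field_simp
  rw [hE] at R
  set E := ((rr k r) ^ 3)⁻¹ * Real.exp (-(1 / (9792 * b)) * rr k r * N) with hEdef
  have hE0 : 0 ≤ E := by positivity
  set S := Real.exp (-((21 / 20 : ℝ) ^ N)) with hS
  have hS0 : 0 ≤ S := (Real.exp_pos _).le
  refine R.trans ?_
  have hX1 : (N:ℝ) * Z ≤ (N:ℝ) ^ 2 * Z := mul_le_mul_of_nonneg_right hN12 hZ0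
  have hX2 : (N:ℝ) ^ 2 * I2 ≤ C2 * ((N:ℝ) ^ 2 * Z) + C2 * ((N:ℝ) ^ 3 * mu) := by
    have a1 : I2 ≤ C2 * (Z + mu) := G2.trans (mul_le_mul_of_nonneg_left (by linarith) hC2.le)
    have a2 := mul_le_mul_of_nonneg_left a1 (show (0:ℝ) ≤ (N:ℝ) ^ 2 by positivity)
    have a3 := mul_le_mul_of_nonneg_left (mul_le_mul_of_nonneg_right hN23 hmu0) hC2.le
    linarith
  have hX3 : D * E * (Z + (θ - θ') ^ 2) ≤ D * (E * (Z + mu)) := by
    rw [mul_assoc]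
    apply mul_le_mul_of_nonneg_left _ hDpos.le
    apply mul_le_mul_of_nonneg_left _ hE0
    linarith
  set Y1 := (N:ℝ) ^ 2 * Z with hY1
  set Y2 := (N:ℝ) ^ 3 * mu with hY2
  set Y3 := E * (Z + mu) with hY3
  have hY1' : 0 ≤ Y1 := by positivity
  have hY2' : 0 ≤ Y2 := by positivity
  have hY3' : 0 ≤ Y3 := by positivity
  calc C1 * ((N:ℝ) * Z + (N:ℝ) ^ 2 * I2 + Y2 + D * E * (Z + (θ - θ') ^ 2) + S)
      ≤ C1 * (Y1 + (C2 * Y1 + C2 * Y2) + Y2 + D * Y3 + S) := by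
        apply mul_le_mul_of_nonneg_left _ hC1.le
        linarith
    _ ≤ C * (Y1 + Y2 + Y3 + S) := by
        have : C * (Y1 + Y2 + Y3 + S) - C1 * (Y1 + (C2 * Y1 + C2 * Y2) + Y2 + D * Y3 + S)
          = (1 + C1 * (1 + C2 + D)) * Y1 + (1 + C1 * (1 + C2 + D)) * Y2 + (1 + C1 * (2 + 2 * C2)) * Y3 +
            (1 + C1 * (1 + 2 * C2 + D)) * S := by
          rw [hCdef]; ring
        have : 0 ≤ C * (Y1 + Y2 + Y3 + S) - C1 * (Y1 + (C2 * Y1 + C2 * Y2) + Y2 + D * Y3 + S) := by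
          rw [this]; positivity
        linarith

private theorem critd_meas_rpow (p : ℝ) : Measurable (fun r : ℝ => r ^ p) :=
  measurable_id.pow_const p

/-- first inequality, stage `0` -/
theorem D_one [Countable V] (hT : G.IsTree) (b : ℕ) (hb : 2 ≤ b) (hreg : G.IsRegularOfDegree (b + 1)) :
    ∃ C c : ℝ, 1 ≤ C ∧ 0 < c ∧ c ≤ 1 ∧ ∀ (θ θ' : ℝ), 0 ≤ θ → b * θ ^ 2 < 1 → 0 ≤ θ' →
      b * θ' ^ 2 < 1 → ∀ (v x y : V), G.Adj x y → ∀ (t0 t : ℝ), 0 < t0 → t0 ≤ t → t ≤ 1 →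
      1 - b * θ ^ 2 ≤ t0 ^ (3 / 2 : ℝ) / 17 → 1 - b * θ' ^ 2 ≤ t0 ^ (3 / 2 : ℝ) / 17 →
      ∀ N : ℝ → ℕ, Measurable N → (∀ r, 1 ≤ N r) → (∃ M, ∀ r, N r ≤ M) →
      Zf G b θ θ' 0 v t ≤ Zf G b θ θ' 0 v t0 + ∫ r in t0..t, r ^ 2 * (C * ((N r : ℝ) *
          Zf G b θ θ' 0 v r + (N r : ℝ) ^ 2 * (r ^ (1 / 2 : ℝ) * Zf G b θ θ' 0 v r +
            Real.exp (-c * r ^ (-(1 / 4) : ℝ))) +
          (N r : ℝ) ^ 3 * muf G b θ θ' 0 x y r +
          r ^ (-(3 / 2) : ℝ) * Real.exp (-c * r ^ (3 / 2 : ℝ) * N r))) := by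
  obtain ⟨C, c, hC, hc, hc1, H⟩ := critd_rate1 (G := G) hT b hb hreg
  obtain ⟨Cm, hCm, Hm⟩ := muf_bound (G := G) hT b hb hreg 0
  refine ⟨2 * C, c, by linarith, hc, hc1, ?_⟩
  intro θ θ' h0 h1 h0' h1' v x y hxy t0 t ht0 ht ht1 hok hok' N hNm hN ⟨M, hM⟩
  have hNm' : Measurable (fun r => (N r : ℝ)) := measurable_from_top.comp hNm
  have hZm := measurable_Zf hT b hb hreg θ θ' h0 h1 h0' h1' 0 v
  have hmm := measurable_muf hT b hb hreg θ θ' h0 h1 h0' h1' 0 x y hxy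
  set F : ℝ → ℝ := fun r => C * ((N r : ℝ) *
          Zf G b θ θ' 0 v r + (N r : ℝ) ^ 2 * (r ^ (1 / 2 : ℝ) * Zf G b θ θ' 0 v r +
            Real.exp (-c * r ^ (-(1 / 4) : ℝ))) +
          (N r : ℝ) ^ 3 * muf G b θ θ' 0 x y r +
          r ^ (-(3 / 2) : ℝ) * Real.exp (-c * r ^ (3 / 2 : ℝ) * N r)) with hF
  have hFm : Measurable F := by
    have m1 := critd_meas_rpow (1 / 2)
    have m2 := critd_meas_rpow (-(1 / 4))
    have m3 := critd_meas_rpow (-(3 / 2))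
    have m4 := critd_meas_rpow (3 / 2)
    exact ((((hNm'.mul hZm).add ((hNm'.pow_const 2).mul ((m1.mul hZm).add
      (Real.measurable_exp.comp (m2.const_mul (-c)))))).add ((hNm'.pow_const 3).mul hmm)).add
      (m3.mul (Real.measurable_exp.comp ((m4.const_mul (-c)).mul hNm')))).const_mul C
  have hFb : ∀ r, t0 ≤ r → r ≤ t → |F r| ≤ C * ((M:ℝ) * 4 + (M:ℝ) ^ 2 * (1 * 4 + 1) + (M:ℝ) ^ 3 * Cm +
      t0 ^ (-(3 / 2) : ℝ) * 1) := by
    intro r hr0 hr1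
    have hr : 0 < r := ht0.trans_le hr0
    obtain ⟨z0, z1⟩ := Zf_bound hT b hb hreg θ θ' 0 v r
    obtain ⟨u0, u1⟩ := Hm θ θ' x y r h0 h1.le h0' h1'.le
    have n0 : (0:ℝ) ≤ N r := Nat.cast_nonneg _
    have n1 : (N r : ℝ) ≤ M := by exact_mod_cast hM r
    have s1 : r ^ (1 / 2 : ℝ) ≤ 1 := Real.rpow_le_one hr.le (hr1.trans ht1) (by norm_num)
    have s0 : 0 ≤ r ^ (1 / 2 : ℝ) := Real.rpow_nonneg hr.le _
    have s2 : 0 ≤ r ^ (-(1 / 4) : ℝ) := Real.rpow_nonneg hr.le _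
    have s3 : 0 ≤ r ^ (3 / 2 : ℝ) := Real.rpow_nonneg hr.le _
    have s4 : 0 ≤ r ^ (-(3 / 2) : ℝ) := Real.rpow_nonneg hr.le _
    have s5 : r ^ (-(3 / 2) : ℝ) ≤ t0 ^ (-(3 / 2) : ℝ) :=
      Real.rpow_le_rpow_of_nonpos ht0 hr0 (by norm_num)
    have e1 : Real.exp (-c * r ^ (-(1 / 4) : ℝ)) ≤ 1 := Real.exp_le_one_iff.mpr (by nlinarith)
    have e2 : Real.exp (-c * r ^ (3 / 2 : ℝ) * N r) ≤ 1 := Real.exp_le_one_iff.mpr (by
      have : 0 ≤ c * r ^ (3 / 2 : ℝ) * N r := by positivity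
      linarith)
    rw [abs_of_nonneg (by rw [hF]; positivity)]
    rw [hF]
    dsimp only
    gcongr
  have key := critd_dyn hT b hb hreg θ θ' h0 h1 h0' h1' 0 v t0 t ht0.le ht ht1 F hFm _ hFb
    (by
      intro r hr0 hr1 Λ
      have hr : 0 < r := ht0.trans hr0
      have hmono : t0 ^ (3 / 2 : ℝ) ≤ r ^ (3 / 2 : ℝ) := Real.rpow_le_rpow ht0.le hr0.le (by norm_num)
      exact H θ θ' h0 h1 h0' h1' v x y hxy r hr (hr1.trans ht1) (by linarith) (by linarith) (N r)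
        (hN r) Λ)
  refine key.trans (le_of_eq ?_)
  congr 1
  rw [← intervalIntegral.integral_const_mul]
  apply intervalIntegral.integral_congr
  intro r _
  simp only [hF]
  ring

/-- second inequality, stage `0` -/
theorem D_two [Countable V] (hT : G.IsTree) (b : ℕ) (hb : 2 ≤ b) (hreg : G.IsRegularOfDegree (b + 1)) :
    ∃ C c : ℝ, 1 ≤ C ∧ 0 < c ∧ c ≤ 1 ∧ ∀ (θ θ' : ℝ), 0 ≤ θ → b * θ ^ 2 < 1 → 0 ≤ θ' →
      b * θ' ^ 2 < 1 → ∀ (v x y : V), G.Adj x y → ∀ (t0 t : ℝ), 0 < t0 → t0 ≤ t → t ≤ 1 →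
      1 - b * θ ^ 2 ≤ t0 ^ (3 / 2 : ℝ) / 17 → 1 - b * θ' ^ 2 ≤ t0 ^ (3 / 2 : ℝ) / 17 →
      ∀ N : ℝ → ℕ, Measurable N → (∀ r, 4 ≤ N r) → (∃ M, ∀ r, N r ≤ M) →
      Zf G b θ θ' 0 v t ≤ Zf G b θ θ' 0 v t0 + ∫ r in t0..t, r ^ 2 * (C * ((N r : ℝ) ^ 2 *
          Zf G b θ θ' 0 v r + (N r : ℝ) ^ 3 * muf G b θ θ' 0 x y r +
          r ^ (-(9 / 2) : ℝ) * Real.exp (-c * r ^ (3 / 2 : ℝ) * N r) *
            (Zf G b θ θ' 0 v r + muf G b θ θ' 0 x y r) + Real.exp (-((21 / 20 : ℝ) ^ (N r))))) := by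
  obtain ⟨C, hC, H⟩ := critd_rate2 (G := G) hT b hb hreg 0
  obtain ⟨Cm, hCm, Hm⟩ := muf_bound (G := G) hT b hb hreg 0
  have hb2 : (2:ℝ) ≤ b := by exact_mod_cast hb
  set c : ℝ := 1 / (9792 * b) with hcdef
  have hc : 0 < c := by positivity
  have hc1 : c ≤ 1 := by
    rw [hcdef, div_le_one (by positivity)]; linarith
  refine ⟨2 * C, c, by linarith, hc, hc1, ?_⟩
  intro θ θ' h0 h1 h0' h1' v x y hxy t0 t ht0 ht ht1 hok hok' N hNm hN ⟨M, hM⟩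
  have hNm' : Measurable (fun r => (N r : ℝ)) := measurable_from_top.comp hNm
  have hZm := measurable_Zf hT b hb hreg θ θ' h0 h1 h0' h1' 0 v
  have hmm := measurable_muf hT b hb hreg θ θ' h0 h1 h0' h1' 0 x y hxy
  set F : ℝ → ℝ := fun r => C * ((N r : ℝ) ^ 2 *
          Zf G b θ θ' 0 v r + (N r : ℝ) ^ 3 * muf G b θ θ' 0 x y r +
          r ^ (-(9 / 2) : ℝ) * Real.exp (-c * r ^ (3 / 2 : ℝ) * N r) *
            (Zf G b θ θ' 0 v r + muf G b θ θ' 0 x y r) + Real.exp (-((21 / 20 : ℝ) ^ (N r)))) with hF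
  have hFm : Measurable F := by
    have m3 := critd_meas_rpow (-(9 / 2))
    have m4 := critd_meas_rpow (3 / 2)
    have m5 : Measurable (fun r => Real.exp (-((21 / 20 : ℝ) ^ (N r)))) := by
      have : Measurable (fun n : ℕ => Real.exp (-((21 / 20 : ℝ) ^ n))) := measurable_from_top
      exact this.comp hNm
    exact (((((hNm'.pow_const 2).mul hZm).add ((hNm'.pow_const 3).mul hmm)).add
      ((m3.mul (Real.measurable_exp.comp ((m4.const_mul (-c)).mul hNm'))).mul (hZm.add hmm))).add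
      m5).const_mul C
  have hFb : ∀ r, t0 ≤ r → r ≤ t → |F r| ≤ C * ((M:ℝ) ^ 2 * 4 + (M:ℝ) ^ 3 * Cm +
      t0 ^ (-(9 / 2) : ℝ) * 1 * (4 + Cm) + 1) := by
    intro r hr0 hr1
    have hr : 0 < r := ht0.trans_le hr0
    obtain ⟨z0, z1⟩ := Zf_bound hT b hb hreg θ θ' 0 v r
    obtain ⟨u0, u1⟩ := Hm θ θ' x y r h0 h1.le h0' h1'.le
    have n0 : (0:ℝ) ≤ N r := Nat.cast_nonneg _
    have n1 : (N r : ℝ) ≤ M := by exact_mod_cast hM r
    have s3 : 0 ≤ r ^ (3 / 2 : ℝ) := Real.rpow_nonneg hr.le _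
    have s4 : 0 ≤ r ^ (-(9 / 2) : ℝ) := Real.rpow_nonneg hr.le _
    have s5 : r ^ (-(9 / 2) : ℝ) ≤ t0 ^ (-(9 / 2) : ℝ) :=
      Real.rpow_le_rpow_of_nonpos ht0 hr0 (by norm_num)
    have e2 : Real.exp (-c * r ^ (3 / 2 : ℝ) * N r) ≤ 1 := Real.exp_le_one_iff.mpr (by
      have : 0 ≤ c * r ^ (3 / 2 : ℝ) * N r := by positivity
      linarith)
    have e3 : Real.exp (-((21 / 20 : ℝ) ^ (N r))) ≤ 1 := Real.exp_le_one_iff.mpr (by
      have : 0 ≤ ((21 / 20 : ℝ) ^ (N r)) := by positivity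
      linarith)
    rw [abs_of_nonneg (by rw [hF]; positivity)]
    rw [hF]
    dsimp only
    gcongr
  have key := critd_dyn hT b hb hreg θ θ' h0 h1 h0' h1' 0 v t0 t ht0.le ht ht1 F hFm _ hFb
    (by
      intro r hr0 hr1 Λ
      have hr : 0 < r := ht0.trans hr0
      have hmono : t0 ^ (3 / 2 : ℝ) ≤ r ^ (3 / 2 : ℝ) := Real.rpow_le_rpow ht0.le hr0.le (by norm_num)
      have hrr : rr 0 r = r ^ (3 / 2 : ℝ) := by simp [rr]
      have := H θ θ' h0 h1 h0' h1' v x y hxy r hr (hr1.trans ht1) (by rw [hrr]; linarith)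
        (by rw [hrr]; linarith) (N r) (hN r) Λ
      rw [hrr] at this
      have hp : ((r ^ (3 / 2 : ℝ)) ^ 3)⁻¹ = r ^ (-(9 / 2) : ℝ) := by
        rw [Real.rpow_neg hr.le, ← Real.rpow_natCast, ← Real.rpow_mul hr.le]; norm_num
      rw [hp] at this
      exact this)
  refine key.trans (le_of_eq ?_)
  congr 1
  rw [← intervalIntegral.integral_const_mul]
  apply intervalIntegral.integral_congr
  intro r _
  simp only [hF]
  ring

/-- inequality in later stages -/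
theorem D_later [Countable V] (hT : G.IsTree) (b : ℕ) (hb : 2 ≤ b) (hreg : G.IsRegularOfDegree (b + 1))
    (k : ℕ) (hk : 1 ≤ k) :
    ∃ C : ℝ, 1 ≤ C ∧ ∀ (θ θ' : ℝ), 0 ≤ θ → b * θ ^ 2 < 1 → 0 ≤ θ' →
      b * θ' ^ 2 < 1 → ∀ (v x y : V), G.Adj x y → 1 - b * θ ^ 2 ≤ 1 / 17 → 1 - b * θ' ^ 2 ≤ 1 / 17 →
      ∀ N : ℕ, 4 ≤ N → ∀ t ∈ Set.Icc (0 : ℝ) 1,
      Zf G b θ θ' k v t ≤ Zf G b θ θ' k v 0 + ∫ r in (0 : ℝ)..t, C * ((N : ℝ) ^ 2 *
          Zf G b θ θ' k v r + (N : ℝ) ^ 3 * muf G b θ θ' k x y r +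
          Real.exp (-((21 / 20 : ℝ) ^ N))) := by
  obtain ⟨C, hC, H⟩ := critd_rate2 (G := G) hT b hb hreg k
  obtain ⟨Cm, hCm, Hm⟩ := muf_bound (G := G) hT b hb hreg k
  have hb2 : (2:ℝ) ≤ b := by exact_mod_cast hb
  refine ⟨4 * C, by linarith, ?_⟩
  intro θ θ' h0 h1 h0' h1' v x y hxy hok hok' N hN t ht
  have hZm := measurable_Zf hT b hb hreg θ θ' h0 h1 h0' h1' k v
  have hmm := measurable_muf hT b hb hreg θ θ' h0 h1 h0' h1' k x y hxy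
  have hrr : ∀ r, rr k r = 1 := by
    intro r; unfold rr; rw [if_neg (by omega)]
  have hNr : (4:ℝ) ≤ N := by exact_mod_cast hN
  set F : ℝ → ℝ := fun r => 2 * C * ((N : ℝ) ^ 2 *
          Zf G b θ θ' k v r + (N : ℝ) ^ 3 * muf G b θ θ' k x y r +
          Real.exp (-((21 / 20 : ℝ) ^ N))) with hF
  have hFm : Measurable F :=
    (((hZm.const_mul _).add (hmm.const_mul _)).add_const _).const_mul _
  have hF0 : ∀ r, 0 ≤ F r := by
    intro r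
    obtain ⟨z0, z1⟩ := Zf_bound hT b hb hreg θ θ' k v r
    obtain ⟨u0, u1⟩ := Hm θ θ' x y r h0 h1.le h0' h1'.le
    rw [hF]; positivity
  have hFb : ∀ r, |F r| ≤ 2 * C * ((N:ℝ) ^ 2 * 4 + (N:ℝ) ^ 3 * Cm + 1) := by
    intro r
    obtain ⟨z0, z1⟩ := Zf_bound hT b hb hreg θ θ' k v r
    obtain ⟨u0, u1⟩ := Hm θ θ' x y r h0 h1.le h0' h1'.le
    have e3 : Real.exp (-((21 / 20 : ℝ) ^ N)) ≤ 1 := Real.exp_le_one_iff.mpr (by
      have : 0 ≤ ((21 / 20 : ℝ) ^ N) := by positivity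
      linarith)
    rw [abs_of_nonneg (hF0 r), hF]
    dsimp only
    gcongr
  have key := critd_dyn hT b hb hreg θ θ' h0 h1 h0' h1' k v 0 t le_rfl ht.1 ht.2 F hFm _
    (fun r _ _ => hFb r)
    (by
      intro r hr0 hr1 Λ
      have := H θ θ' h0 h1 h0' h1' v x y hxy r hr0 (hr1.trans ht.2) (by rw [hrr]; linarith)
        (by rw [hrr]; linarith) N hN Λ
      refine this.trans ?_
      rw [hrr]
      obtain ⟨z0, z1⟩ := Zf_bound hT b hb hreg θ θ' k v r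
      obtain ⟨u0, u1⟩ := Hm θ θ' x y r h0 h1.le h0' h1'.le
      set Z := Zf G b θ θ' k v r
      set mu := muf G b θ θ' k x y r
      have e4 : Real.exp (-(1 / (9792 * (b:ℝ))) * 1 * N) ≤ 1 := Real.exp_le_one_iff.mpr (by
        have : 0 ≤ (1 / (9792 * (b:ℝ))) * 1 * N := by positivity
        linarith)
      have e5 : ((1:ℝ) ^ 3)⁻¹ * Real.exp (-(1 / (9792 * (b:ℝ))) * 1 * N) * (Z + mu) ≤ Z + mu := by
        have : 0 ≤ Z + mu := by linarith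
        rw [one_pow, inv_one, one_mul]
        nlinarith
      have n2 : (1:ℝ) ≤ (N:ℝ) ^ 2 := by nlinarith
      have n3 : (1:ℝ) ≤ (N:ℝ) ^ 3 := by
        have : (N:ℝ) ^ 2 ≤ (N:ℝ) ^ 3 := pow_le_pow_right₀ (by linarith) (by norm_num)
        linarith
      have p1 : Z ≤ (N:ℝ) ^ 2 * Z := le_mul_of_one_le_left z0 n2
      have p2 : mu ≤ (N:ℝ) ^ 3 * mu := le_mul_of_one_le_left u0 n3
      have hS : 0 ≤ Real.exp (-((21 / 20 : ℝ) ^ N)) := (Real.exp_pos _).le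
      rw [hF]
      dsimp only
      have : (N:ℝ) ^ 2 * Z + (N:ℝ) ^ 3 * mu +
          ((1:ℝ) ^ 3)⁻¹ * Real.exp (-(1 / (9792 * (b:ℝ))) * 1 * N) * (Z + mu) +
          Real.exp (-((21 / 20 : ℝ) ^ N)) ≤
          2 * ((N:ℝ) ^ 2 * Z + (N:ℝ) ^ 3 * mu + Real.exp (-((21 / 20 : ℝ) ^ N))) := by linarith
      have := mul_le_mul_of_nonneg_left this (show 0 ≤ C by linarith)
      linarith)
  refine key.trans ?_
  have hint : IntervalIntegrable F volume 0 t := by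
    rw [intervalIntegrable_iff]
    refine Measure.integrableOn_of_bounded (M := 2 * C * ((N:ℝ) ^ 2 * 4 + (N:ℝ) ^ 3 * Cm + 1)) ?_
      hFm.aestronglyMeasurable ?_
    · rw [Set.uIoc_of_le ht.1]; simp
    · exact Filter.Eventually.of_forall (fun r => by rw [Real.norm_eq_abs]; exact hFb r)
  have hint2 : IntervalIntegrable (fun r => r ^ 2 * F r) volume 0 t := by
    rw [intervalIntegrable_iff]
    refine Measure.integrableOn_of_bounded (M := 2 * C * ((N:ℝ) ^ 2 * 4 + (N:ℝ) ^ 3 * Cm + 1)) ?_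
      ((measurable_id.pow_const 2).mul hFm).aestronglyMeasurable ?_
    · rw [Set.uIoc_of_le ht.1]; simp
    · rw [Set.uIoc_of_le ht.1]
      refine (ae_restrict_iff' measurableSet_Ioc).mpr (Filter.Eventually.of_forall ?_)
      intro r hr
      rw [Real.norm_eq_abs, abs_mul, abs_of_nonneg (sq_nonneg r)]
      have h1 : r ^ 2 ≤ 1 := by nlinarith [hr.1, hr.2, ht.2]
      have h2 := hFb r
      have h3 := abs_nonneg (F r)
      nlinarith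
  have hle : ∫ r in (0:ℝ)..t, r ^ 2 * F r ≤ ∫ r in (0:ℝ)..t, F r := by
    apply intervalIntegral.integral_mono_on ht.1 hint2 hint
    intro r hr
    have h1 : r ^ 2 ≤ 1 := by nlinarith [hr.1, hr.2, ht.2]
    nlinarith [hF0 r]
  have hend : 2 * ∫ r in (0:ℝ)..t, F r = ∫ r in (0 : ℝ)..t, 4 * C * ((N : ℝ) ^ 2 *
          Zf G b θ θ' k v r + (N : ℝ) ^ 3 * muf G b θ θ' k x y r +
          Real.exp (-((21 / 20 : ℝ) ^ N))) := by
    rw [← intervalIntegral.integral_const_mul]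
    apply intervalIntegral.integral_congr
    intro r _
    simp only [hF]
    ring
  rw [← hend]
  linarith

end CRIT

end Crest.Agent.TI
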