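import Crest.Agent.TI_TRb

/-!
Row S0241, task CUT: the Ising weight across an edge
-/

set_option autoImplicit false
set_option linter.unusedSectionVars false
set_option linter.unusedVariables false

namespace Crest.Agent.TI

open MeasureTheory Filter Topology
open Crest.Agent.SRF (Lab lab)

/-! ### task CUT : the Ising weight across an edge; total mass -/

section CUT

variable {V : Type*} [DecidableEq V] {G : SimpleGraph V}

/-- the factor of an edge in the Ising weight -/
noncomputable def ew (θ : ℝ) (S : Finset V) (e : Sym2 V) : ℝ :=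
  if (Sym2.map (fun v => decide (v ∈ S)) e).IsDiag then (1 + θ) / 2 else (1 - θ) / 2

open Classical in
/-- the edges inside a finite set -/
noncomputable def ed (G : SimpleGraph V) (W : Finset V) : Finset (Sym2 V) :=
  W.sym2.filter (fun e => e ∈ G.edgeSet)

theorem mem_ed {W : Finset V} {e : Sym2 V} : e ∈ ed G W ↔ (∀ a ∈ e, a ∈ W) ∧ e ∈ G.edgeSet := by
  classical
  unfold ed
  rw [Finset.mem_filter, Finset.mem_sym2_iff]

theorem mk_mem_ed {W : Finset V} {a b : V} : s(a, b) ∈ ed G W ↔ (a ∈ W ∧ b ∈ W) ∧ G.Adj a b := by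
  rw [mem_ed]
  simp [SimpleGraph.mem_edgeSet]

theorem ew_mk (θ : ℝ) (S : Finset V) (a b : V) :
    ew θ S s(a, b) = (1 + θ * (spin S a * spin S b)) / 2 := by
  unfold ew spin
  simp only [Sym2.map_mk, Sym2.mk_isDiag_iff]
  by_cases ha : a ∈ S <;> by_cases hb : b ∈ S <;> simp [ha, hb] <;> ring

theorem ip_eq (θ : ℝ) (W S : Finset V) : ip G θ W S = 1 / 2 * ∏ e ∈ ed G W, ew θ S e := by
  classical
  unfold ip Crest.ProbabilityR.TreeIsing.isingWeight ed ew
  congr 1

theorem ip_congr (θ : ℝ) (W S S' : Finset V) (h : ∀ v ∈ W, (v ∈ S ↔ v ∈ S')) :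
    ip G θ W S = ip G θ W S' := by
  rw [ip_eq, ip_eq]
  congr 1
  apply Finset.prod_congr rfl
  intro e he
  induction e using Sym2.ind with
  | _ a b =>
    obtain ⟨⟨ha, hb⟩, _⟩ := mk_mem_ed.1 he
    rw [ew_mk, ew_mk]
    unfold spin
    simp only [h a ha, h b hb]

theorem ip_singleton (θ : ℝ) (x : V) (S : Finset V) : ip G θ {x} S = 1 / 2 := by
  rw [ip_eq]
  have : ed G {x} = ∅ := by
    apply Finset.eq_empty_of_forall_notMem
    intro e he
    induction e using Sym2.ind with
    | _ a b =>
      obtain ⟨⟨ha, hb⟩, h⟩ := mk_mem_ed.1 he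
      rw [Finset.mem_singleton] at ha hb
      subst ha hb
      exact G.loopless.irrefl _ h
  rw [this, Finset.prod_empty, mul_one]

theorem ip_cut (hT : G.IsTree) (θ : ℝ) {W : Finset V} {x y : V} (hx : x ∈ W)
    (hy : y ∈ W) (h : G.Adj x y) (S : Finset V) :
    ip G θ W S = 2 * ip G θ (sd G W x y) S * ip G θ (sd G W y x) S *
      ((1 + θ * (spin S x * spin S y)) / 2) := by
  classical
  have hmem : ∀ {a : V} {u v : V}, a ∈ sd G W u v ↔ a ∈ W ∧ G.dist a u < G.dist a v := by
    intro a u v
    unfold sd
    rw [Finset.mem_filter]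
  have hE : ed G W = (ed G (sd G W x y) ∪ ed G (sd G W y x)) ∪ {s(x, y)} := by
    ext e
    induction e using Sym2.ind with
    | _ a b =>
      rw [Finset.mem_union, Finset.mem_union, Finset.mem_singleton, mk_mem_ed, mk_mem_ed, mk_mem_ed]
      constructor
      · rintro ⟨⟨ha, hb⟩, hab⟩
        have ha' : a ∈ sd G W x y ∪ sd G W y x := by rw [sd_union hT W h]; exact ha
        have hb' : b ∈ sd G W x y ∪ sd G W y x := by rw [sd_union hT W h]; exact hb
        rw [Finset.mem_union] at ha' hb'
        rcases ha' with ha' | ha' <;> rcases hb' with hb' | hb'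
        · exact Or.inl (Or.inl ⟨⟨ha', hb'⟩, hab⟩)
        · right
          obtain ⟨rfl, rfl⟩ := sd_cross hT h (hmem.1 ha').2 (hmem.1 hb').2 hab
          rfl
        · right
          obtain ⟨rfl, rfl⟩ := sd_cross hT h (hmem.1 hb').2 (hmem.1 ha').2 hab.symm
          rw [Sym2.eq_swap]
        · exact Or.inl (Or.inr ⟨⟨ha', hb'⟩, hab⟩)
      · rintro ((⟨⟨ha, hb⟩, hab⟩ | ⟨⟨ha, hb⟩, hab⟩) | heq)
        · exact ⟨⟨(hmem.1 ha).1, (hmem.1 hb).1⟩, hab⟩
        · exact ⟨⟨(hmem.1 ha).1, (hmem.1 hb).1⟩, hab⟩
        · rw [Sym2.eq_iff] at heq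
          rcases heq with ⟨rfl, rfl⟩ | ⟨rfl, rfl⟩
          · exact ⟨⟨hx, hy⟩, h⟩
          · exact ⟨⟨hy, hx⟩, h.symm⟩
  have hdis : Disjoint (ed G (sd G W x y)) (ed G (sd G W y x)) := by
    rw [Finset.disjoint_left]
    intro e h1 h2
    induction e using Sym2.ind with
    | _ a b =>
      rw [mk_mem_ed] at h1 h2
      exact Finset.disjoint_left.1 (sd_disjoint W x y) h1.1.1 h2.1.1
  have hdis2 : Disjoint (ed G (sd G W x y) ∪ ed G (sd G W y x)) {s(x, y)} := by
    rw [Finset.disjoint_singleton_right, Finset.mem_union, mk_mem_ed, mk_mem_ed]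
    have hxA : x ∈ sd G W x y := mem_sd_self hx h
    have hyB : y ∈ sd G W y x := mem_sd_self hy h.symm
    rintro (⟨⟨_, h2⟩, _⟩ | ⟨⟨h1, _⟩, _⟩)
    · exact Finset.disjoint_left.1 (sd_disjoint W x y) h2 hyB
    · exact Finset.disjoint_left.1 (sd_disjoint W x y) hxA h1
  rw [ip_eq, hE, Finset.prod_union hdis2, Finset.prod_union hdis, Finset.prod_singleton, ew_mk,
    ip_eq, ip_eq]
  ring

theorem ip_nonneg (θ : ℝ) (h0 : 0 ≤ θ) (h1 : θ ≤ 1) (W S : Finset V) : 0 ≤ ip G θ W S := by
  rw [ip_eq]
  apply mul_nonneg (by norm_num)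
  apply Finset.prod_nonneg
  intro e _
  unfold ew
  split_ifs <;> linarith

theorem spin_flip {W S : Finset V} {v : V} (hv : v ∈ W) : spin (W \ S) v = - spin S v := by
  unfold spin
  by_cases h : v ∈ S <;> simp [h, hv]

/-- flip symmetry -/
theorem ip_flip (θ : ℝ) (W S : Finset V) (hS : S ⊆ W) : ip G θ W (W \ S) = ip G θ W S := by
  rw [ip_eq, ip_eq]
  congr 1
  apply Finset.prod_congr rfl
  intro e he
  induction e using Sym2.ind with
  | _ a b =>
    obtain ⟨⟨ha, hb⟩, _⟩ := mk_mem_ed.1 he
    rw [ew_mk, ew_mk, spin_flip ha, spin_flip hb]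
    ring

theorem ip_map (θ : ℝ) (g : G ≃g G) (W S : Finset V) :
    ip G θ (W.map g.toEquiv.toEmbedding) (S.map g.toEquiv.toEmbedding) = ip G θ W S := by
  rw [ip_eq, ip_eq]
  congr 1
  symm
  apply Finset.prod_nbij' (fun e => Sym2.map g e) (fun e => Sym2.map g.symm e)
  · intro e he
    induction e using Sym2.ind with
    | _ a b =>
      obtain ⟨⟨ha, hb⟩, hab⟩ := mk_mem_ed.1 he
      rw [Sym2.map_mk, mk_mem_ed]
      refine ⟨⟨?_, ?_⟩, ?_⟩
      · rw [Finset.mem_map]
        exact ⟨a, ha, rfl⟩
      · rw [Finset.mem_map]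
        exact ⟨b, hb, rfl⟩
      · exact g.map_adj_iff.2 hab
  · intro e he
    induction e using Sym2.ind with
    | _ a b =>
      obtain ⟨⟨ha, hb⟩, hab⟩ := mk_mem_ed.1 he
      rw [Finset.mem_map] at ha hb
      obtain ⟨a', ha', rfl⟩ := ha
      obtain ⟨b', hb', rfl⟩ := hb
      rw [Sym2.map_mk, mk_mem_ed]
      have e1 : g.symm (g.toEquiv.toEmbedding a') = a' := g.symm_apply_apply a'
      have e2 : g.symm (g.toEquiv.toEmbedding b') = b' := g.symm_apply_apply b'
      rw [e1, e2]
      exact ⟨⟨ha', hb'⟩, g.map_adj_iff.1 hab⟩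
  · intro e he
    induction e using Sym2.ind with
    | _ a b =>
      simp [Sym2.map_mk]
  · intro e he
    induction e using Sym2.ind with
    | _ a b =>
      simp [Sym2.map_mk]
  · intro e he
    induction e using Sym2.ind with
    | _ a b =>
      rw [Sym2.map_mk, ew_mk, ew_mk]
      have : ∀ v, spin (S.map g.toEquiv.toEmbedding) (g v) = spin S v := by
        intro v
        unfold spin
        have : g v ∈ S.map g.toEquiv.toEmbedding ↔ v ∈ S := by
          rw [Finset.mem_map]
          constructor
          · rintro ⟨u, hu, huv⟩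
            have : u = v := g.injective huv
            rwa [← this]
          · intro hv
            exact ⟨v, hv, rfl⟩
        simp only [this]
      rw [this, this]

/-- sum over the subsets of a disjoint union -/
theorem sum_powerset_union {A B : Finset V} (hd : Disjoint A B) (f : Finset V → ℝ) :
    ∑ S ∈ (A ∪ B).powerset, f S = ∑ S₁ ∈ A.powerset, ∑ S₂ ∈ B.powerset, f (S₁ ∪ S₂) := by
  rw [← Finset.sum_product']
  symm
  apply Finset.sum_nbij' (fun q => q.1 ∪ q.2) (fun S => (S ∩ A, S ∩ B))
  · rintro ⟨S₁, S₂⟩ hq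
    rw [Finset.mem_product, Finset.mem_powerset, Finset.mem_powerset] at hq
    rw [Finset.mem_powerset]
    exact Finset.union_subset_union hq.1 hq.2
  · intro S hS
    rw [Finset.mem_product, Finset.mem_powerset, Finset.mem_powerset]
    exact ⟨Finset.inter_subset_right, Finset.inter_subset_right⟩
  · rintro ⟨S₁, S₂⟩ hq
    rw [Finset.mem_product, Finset.mem_powerset, Finset.mem_powerset] at hq
    obtain ⟨h1, h2⟩ := hq
    simp only at h1 h2
    rw [Finset.disjoint_left] at hd
    ext v
    · simp only [Finset.mem_inter, Finset.mem_union]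
      constructor
      · rintro ⟨hv | hv, hA⟩
        · exact hv
        · exact absurd (h2 hv) (hd hA)
      · intro hv
        exact ⟨Or.inl hv, h1 hv⟩
    · simp only [Finset.mem_inter, Finset.mem_union]
      constructor
      · rintro ⟨hv | hv, hB⟩
        · exact absurd hB (hd (h1 hv))
        · exact hv
      · intro hv
        exact ⟨Or.inr hv, h2 hv⟩
  · intro S hS
    rw [Finset.mem_powerset] at hS
    simp only
    rw [← Finset.inter_union_distrib_left]
    exact Finset.inter_eq_left.2 hS
  · intro q hq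
    rfl

theorem mem_sd {W : Finset V} {a u v : V} : a ∈ sd G W u v ↔ a ∈ W ∧ G.dist a u < G.dist a v := by
  unfold sd
  rw [Finset.mem_filter]

/-- the Ising weight of a union across an edge -/
theorem ip_cut_union (hT : G.IsTree) (θ : ℝ) {W : Finset V} {x y : V} (hx : x ∈ W)
    (hy : y ∈ W) (h : G.Adj x y) {S₁ S₂ : Finset V} (h₁ : S₁ ⊆ sd G W x y)
    (h₂ : S₂ ⊆ sd G W y x) :
    ip G θ W (S₁ ∪ S₂) = ip G θ (sd G W x y) S₁ * ip G θ (sd G W y x) S₂ +
      θ * (ip G θ (sd G W x y) S₁ * spin S₁ x) * (ip G θ (sd G W y x) S₂ * spin S₂ y) := by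
  have hd := Finset.disjoint_left.1 (sd_disjoint (G := G) W x y)
  have hA : ∀ v ∈ sd G W x y, (v ∈ S₁ ∪ S₂ ↔ v ∈ S₁) := by
    intro v hv
    rw [Finset.mem_union]
    constructor
    · rintro (h' | h')
      · exact h'
      · exact absurd (h₂ h') (hd hv)
    · exact Or.inl
  have hB : ∀ v ∈ sd G W y x, (v ∈ S₁ ∪ S₂ ↔ v ∈ S₂) := by
    intro v hv
    rw [Finset.mem_union]
    constructor
    · rintro (h' | h')
      · exact absurd hv (hd (h₁ h'))
      · exact h'
    · exact Or.inr
  have hxA : x ∈ sd G W x y := mem_sd_self hx h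
  have hyB : y ∈ sd G W y x := mem_sd_self hy h.symm
  have sx : spin (S₁ ∪ S₂) x = spin S₁ x := by
    unfold spin
    simp only [hA x hxA]
  have sy : spin (S₁ ∪ S₂) y = spin S₂ y := by
    unfold spin
    simp only [hB y hyB]
  rw [ip_cut hT θ hx hy h, ip_congr θ _ _ _ hA, ip_congr θ _ _ _ hB, sx, sy]
  ring

/-- by the flip symmetry the spin at a vertex of the window has mean zero -/
theorem sum_ip_spin (θ : ℝ) {W : Finset V} {x : V} (hx : x ∈ W) :
    ∑ S ∈ W.powerset, ip G θ W S * spin S x = 0 := by
  have h : ∑ S ∈ W.powerset, ip G θ W S * spin S x =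
      ∑ S ∈ W.powerset, -(ip G θ W S * spin S x) := by
    apply Finset.sum_nbij' (fun S => W \ S) (fun S => W \ S)
    · intro S _
      rw [Finset.mem_powerset]
      exact Finset.sdiff_subset
    · intro S _
      rw [Finset.mem_powerset]
      exact Finset.sdiff_subset
    · intro S hS
      rw [Finset.mem_powerset] at hS
      exact Finset.sdiff_sdiff_eq_self hS
    · intro S hS
      rw [Finset.mem_powerset] at hS
      exact Finset.sdiff_sdiff_eq_self hS
    · intro S hS
      rw [Finset.mem_powerset] at hS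
      rw [ip_flip θ W S hS, spin_flip hx]
      ring
  rw [Finset.sum_neg_distrib] at h
  linarith

/-- a window with at least two points has an inner edge -/
theorem win_exists_edge {W : Finset V} (hW : Win G W) {F : Set V} {a b : V} (ha : a ∈ W)
    (hb : b ∈ W) (haF : a ∈ F) (hbF : b ∉ F) :
    ∃ x ∈ W, ∃ y ∈ W, G.Adj x y ∧ x ∈ F ∧ y ∉ F := by
  obtain ⟨w⟩ := hW.preconnected ⟨a, ha⟩ ⟨b, hb⟩
  obtain ⟨d, -, h1, h2⟩ := w.exists_boundary_dart {v | (v : V) ∈ F} haF hbF
  refine ⟨d.fst.1, d.fst.2, d.snd.1, d.snd.2, ?_, h1, h2⟩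
  exact d.adj

theorem total_ip (hT : G.IsTree) (θ : ℝ) {W : Finset V} (hW : Win G W) :
    ∑ S ∈ W.powerset, ip G θ W S = 1 := by
  induction hn : W.card using Nat.strong_induction_on generalizing W with
  | _ n ih =>
    obtain ⟨⟨x, hx⟩⟩ := hW.nonempty
    by_cases hone : ∀ v ∈ W, v = x
    · have hWx : W = {x} := by
        ext v
        rw [Finset.mem_singleton]
        constructor
        · exact hone v
        · rintro rfl
          exact hx
      rw [hWx]
      have : ({x} : Finset V).powerset = {∅, {x}} := by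
        ext S
        rw [Finset.mem_powerset, Finset.subset_singleton_iff]
        simp
      rw [this, Finset.sum_pair (by simp [Finset.ext_iff]), ip_singleton, ip_singleton]
      norm_num
    · push Not at hone
      obtain ⟨v, hv, hvx⟩ := hone
      obtain ⟨a, ha, b, hb, hab, haF, hbF⟩ := win_exists_edge hW (F := {x}) hx hv rfl
        (by simpa using hvx)
      have hA := win_sd hT hW ha hab
      have hB := win_sd hT hW hb hab.symm
      have haA : a ∈ sd G W a b := mem_sd_self ha hab
      have hbB : b ∈ sd G W b a := mem_sd_self hb hab.symm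
      have hd := Finset.disjoint_left.1 (sd_disjoint (G := G) W a b)
      have cA : (sd G W a b).card < n := by
        rw [← hn]
        apply Finset.card_lt_card
        refine ⟨Finset.filter_subset _ _, fun hsub => ?_⟩
        exact hd (hsub hb) hbB
      have cB : (sd G W b a).card < n := by
        rw [← hn]
        apply Finset.card_lt_card
        refine ⟨Finset.filter_subset _ _, fun hsub => ?_⟩
        exact hd haA (hsub ha)
      have iA := ih _ cA hA rfl
      have iB := ih _ cB hB rfl
      rw [← sd_union hT W hab, sum_powerset_union (sd_disjoint W a b)]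
      have e1 : ∀ S₁ ∈ (sd G W a b).powerset, ∑ S₂ ∈ (sd G W b a).powerset,
          ip G θ (sd G W a b ∪ sd G W b a) (S₁ ∪ S₂) = ip G θ (sd G W a b) S₁ := by
        intro S₁ hS₁
        rw [Finset.mem_powerset] at hS₁
        rw [sd_union hT W hab]
        rw [Finset.sum_congr rfl (fun S₂ hS₂ => ip_cut_union hT θ ha hb hab hS₁
          (Finset.mem_powerset.1 hS₂))]
        rw [Finset.sum_add_distrib, ← Finset.mul_sum, ← Finset.mul_sum, iB, sum_ip_spin θ hbB]
        ring
      rw [Finset.sum_congr rfl e1, iA]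

theorem isMass_ip (hT : G.IsTree) (θ : ℝ) (h0 : 0 ≤ θ) (h1 : θ ≤ 1) {W : Finset V} (hW : Win G W) :
    IsMass (ip G θ W) W :=
  ⟨fun S _ => ip_nonneg θ h0 h1 W S, total_ip hT θ hW⟩

/-- a geodesic from a point to the near endpoint of an edge extends to the far endpoint -/
theorem win_near (hT : G.IsTree) {F : Finset V} (hF : Win G F) {x y : V} (hxy : G.Adj x y)
    (hx : x ∈ F) (hy : y ∉ F) {f : V} (hf : f ∈ F) : G.dist f x < G.dist f y := by
  rcases dist_edge hT hxy f with h | h
  · omega
  · exfalso
    obtain ⟨z, hz0, hzn, hz⟩ := geo_exists hT f y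
    set n := G.dist f y with hn
    let z' : ℕ → V := fun i => if i ≤ n then z i else x
    have hz' : Geo G z' (n + 1) := by
      intro i j hij hj
      rcases Nat.lt_or_ge n j with hjn | hjn
      · have hj' : j = n + 1 := by omega
        subst hj'
        rcases Nat.lt_or_ge n i with hin | hin
        · have hi' : i = n + 1 := by omega
          subst hi'
          simp [z']
        · have e1 : z' i = z i := if_pos hin
          have e2 : z' (n + 1) = x := if_neg (by omega)
          rw [e1, e2]
          have a1 : G.dist f x ≤ G.dist f (z i) + G.dist (z i) x :=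
            hT.connected.dist_triangle
          have a2 : G.dist f (z i) = i := by
            have := hz 0 i (Nat.zero_le _) hin
            rw [hz0] at this
            simpa using this
          have a3 : G.dist (z i) x ≤ G.dist (z i) y + G.dist y x :=
            hT.connected.dist_triangle
          have a4 : G.dist y x = 1 := SimpleGraph.dist_eq_one_iff_adj.2 hxy.symm
          have a5 : G.dist (z i) y = n - i := by
            have := hz i n hin le_rfl
            rwa [hzn] at this
          omega
      · have e1 : z' i = z i := if_pos (by omega)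
        have e2 : z' j = z j := if_pos hjn
        rw [e1, e2]
        exact hz i j hij hjn
    have := win_geo hT hF hz' (by simpa [z', hz0] using hf) (by simpa [z'] using hx) n (by omega)
    simp only [z', le_refl, if_true] at this
    rw [hzn] at this
    exact hy this

/-- consistency of the masses of nested windows -/
theorem ip_consistent (hT : G.IsTree) (θ : ℝ) {F W : Finset V} (hF : Win G F) (hW : Win G W)
    (hFW : F ⊆ W) (R : Finset V) (hR : R ⊆ F) :
    ip G θ F R = ∑ S ∈ W.powerset with S ∩ F = R, ip G θ W S := by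
  induction hn : W.card using Nat.strong_induction_on generalizing W with
  | _ n ih =>
    by_cases heq : W ⊆ F
    · have hWF : W = F := Finset.Subset.antisymm heq hFW
      subst hWF
      have : W.powerset.filter (fun S => S ∩ W = R) = {R} := by
        ext S
        rw [Finset.mem_filter, Finset.mem_powerset, Finset.mem_singleton]
        constructor
        · rintro ⟨h1, h2⟩
          rw [← h2]
          exact (Finset.inter_eq_left.2 h1).symm
        · rintro rfl
          exact ⟨hR, Finset.inter_eq_left.2 hR⟩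
      rw [this, Finset.sum_singleton]
    · obtain ⟨v, hv, hvF⟩ := Finset.not_subset.1 heq
      obtain ⟨⟨x₀, hx₀⟩⟩ := hF.nonempty
      obtain ⟨a, ha, b, hb, hab, haF, hbF⟩ := win_exists_edge hW (F := (F : Set V)) (hFW hx₀) hv hx₀
        (by simpa using hvF)
      rw [Finset.mem_coe] at haF hbF
      have hA := win_sd hT hW ha hab
      have hB := win_sd hT hW hb hab.symm
      have haA : a ∈ sd G W a b := mem_sd_self ha hab
      have hbB : b ∈ sd G W b a := mem_sd_self hb hab.symm
      have hd := Finset.disjoint_left.1 (sd_disjoint (G := G) W a b)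
      have hFA : F ⊆ sd G W a b := by
        intro f hf
        exact mem_sd.2 ⟨hFW hf, win_near hT hF hab haF hbF hf⟩
      have cA : (sd G W a b).card < n := by
        rw [← hn]
        apply Finset.card_lt_card
        refine ⟨Finset.filter_subset _ _, fun hsub => ?_⟩
        exact hd (hsub hb) hbB
      rw [ih _ cA hA hFA rfl]
      rw [Finset.sum_filter, Finset.sum_filter]
      rw [← sd_union hT W hab, sum_powerset_union (sd_disjoint W a b), sd_union hT W hab]
      apply Finset.sum_congr rfl
      intro S₁ hS₁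
      rw [Finset.mem_powerset] at hS₁
      have hinter : ∀ S₂ ∈ (sd G W b a).powerset, (S₁ ∪ S₂) ∩ F = S₁ ∩ F := by
        intro S₂ hS₂
        rw [Finset.mem_powerset] at hS₂
        ext f
        simp only [Finset.mem_inter, Finset.mem_union]
        constructor
        · rintro ⟨h1 | h1, h2⟩
          · exact ⟨h1, h2⟩
          · exact absurd (hS₂ h1) (hd (hFA h2))
        · rintro ⟨h1, h2⟩
          exact ⟨Or.inl h1, h2⟩
      by_cases hS : S₁ ∩ F = R
      · rw [if_pos hS]
        symm
        calc ∑ S₂ ∈ (sd G W b a).powerset, (if (S₁ ∪ S₂) ∩ F = R then ip G θ W (S₁ ∪ S₂) else 0)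
            = ∑ S₂ ∈ (sd G W b a).powerset, (ip G θ (sd G W a b) S₁ * ip G θ (sd G W b a) S₂ +
              θ * (ip G θ (sd G W a b) S₁ * spin S₁ a) * (ip G θ (sd G W b a) S₂ * spin S₂ b)) := by
              apply Finset.sum_congr rfl
              intro S₂ hS₂
              rw [hinter S₂ hS₂, if_pos hS]
              exact ip_cut_union hT θ ha hb hab hS₁ (Finset.mem_powerset.1 hS₂)
          _ = ip G θ (sd G W a b) S₁ := by
              rw [Finset.sum_add_distrib, ← Finset.mul_sum, ← Finset.mul_sum, sum_ip_spin θ hbB,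
                total_ip hT θ hB]
              ring
      · rw [if_neg hS]
        symm
        apply Finset.sum_eq_zero
        intro S₂ hS₂
        rw [hinter S₂ hS₂, if_neg hS]

end CUT

end Crest.Agent.TI
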