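import Crest.Agent.TI_DecB

/-!
Row S0241, task DEC, part C: martingale convergence of the averages; relabelling.
-/

set_option autoImplicit false
set_option linter.unusedSectionVars false
set_option linter.unusedVariables false

namespace Crest.Agent.TI

open MeasureTheory Filter Topology
open Crest.Agent.SRF (Lab lab)

namespace DecB

section

variable {V : Type*} [DecidableEq V]

/-- restriction of the labels to `T` -/
def rst (T : Finset V) (ω : Om V) : {c : (V × Bool) × ℕ // c.1.1 ∈ T} → unitInterval := fun c => ω c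

/-- the sigma algebra of the labels in `T` -/
@[reducible] def sgT (T : Finset V) : MeasurableSpace (Om V) := MeasurableSpace.comap (rst T) inferInstance

theorem sg_le (T : Finset V) : sgT T ≤ (inferInstance : MeasurableSpace (Om V)) := by
  unfold sgT
  rw [← measurable_iff_comap_le]
  exact measurable_pi_lambda _ fun c => measurable_pi_apply _

theorem measurable_eval (T : Finset V) (c : (V × Bool) × ℕ) (hc : c.1.1 ∈ T) :
    Measurable[sgT T] (fun ω : Om V => ω c) := by
  have h1 : Measurable[sgT T] (rst T) := comap_measurable _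
  exact (measurable_pi_apply (⟨c, hc⟩ : {c : (V × Bool) × ℕ // c.1.1 ∈ T})).comp h1

theorem measurable_mix_sg (T : Finset V) (ω' : Om V) :
    Measurable[sgT T] (fun ω : Om V => mix T ω ω') := by
  refine @measurable_pi_lambda _ _ _ (sgT T) _ _ fun c => ?_
  by_cases hc : c.1.1 ∈ T
  · simp only [mix, hc, if_true]
    exact measurable_eval T c hc
  · simp only [mix, hc, if_false]
    exact @measurable_const _ _ _ (sgT T) _

theorem measurable_EE_sg (T : Finset V) (f : BM V) : Measurable[sgT T] (EE T f : Om V → ℝ) := by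
  let ω₀ : Om V := fun _ => 0
  have h : (EE T f : Om V → ℝ) = fun ω => (EE T f : Om V → ℝ) (mix T ω ω₀) := by
    funext ω
    rw [EE_apply, EE_apply]
    simp only [mix_mix_self]
  rw [h]
  exact (bmeas (EE T f)).comp (measurable_mix_sg T ω₀)

/-- indicator of a measurable set as a bounded function -/
noncomputable def ind (s : Set (Om V)) (hs : MeasurableSet s) : BM V :=
  ⟨s.indicator 1, measurable_one.indicator hs, 1, fun ω => by
    by_cases h : ω ∈ s <;> simp [h]⟩

theorem EE_ind (T : Finset V) (s : Set (Om V)) (hs : MeasurableSet s)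
    (hs' : MeasurableSet[sgT T] s) : EE T (ind s hs) = ind s hs := by
  obtain ⟨s', _, rfl⟩ := hs'
  ext ω
  rw [EE_apply]
  have : ∀ ω', (ind (rst T ⁻¹' s') hs : Om V → ℝ) (mix T ω ω') =
      (ind (rst T ⁻¹' s') hs : Om V → ℝ) ω := by
    intro ω'
    have h2 : rst T (mix T ω ω') = rst T ω := by
      funext c
      simp [rst, mix, c.2]
    have h3 : mix T ω ω' ∈ rst T ⁻¹' s' ↔ ω ∈ rst T ⁻¹' s' := by
      rw [Set.mem_preimage, Set.mem_preimage, h2]
    by_cases h4 : ω ∈ rst T ⁻¹' s'
    · have h5 := h3.2 h4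
      simp only [ind, Set.indicator_of_mem h4, Set.indicator_of_mem h5, Pi.one_apply]
    · have h5 : mix T ω ω' ∉ rst T ⁻¹' s' := fun h => h4 (h3.1 h)
      simp only [ind, Set.indicator_of_notMem h4, Set.indicator_of_notMem h5]
  simp [this]

theorem EE_ae_eq (T : Finset V) (f : BM V) :
    (EE T f : Om V → ℝ) =ᵐ[PP V] (PP V)[(f : Om V → ℝ)|sgT T] := by
  refine ae_eq_condExp_of_forall_setIntegral_eq (sg_le T) ?_ ?_ ?_ ?_
  · obtain ⟨M, hM⟩ := f.2.2
    exact integrable_of_bdd (bmeas f) hM
  · intro s _ _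
    obtain ⟨M, hM⟩ := (EE T f).2.2
    exact (integrable_of_bdd (bmeas (EE T f)) hM).integrableOn
  · intro s hs _
    have hs0 := sg_le T s hs
    have key : BF V (EE T f) (ind s hs0) = BF V f (ind s hs0) := by
      rw [proj.symm, EE_ind T s hs0 hs]
    rw [BF_apply, BF_apply] at key
    have conv : ∀ h : Om V → ℝ, ∫ ω, h ω * (ind s hs0 : Om V → ℝ) ω ∂PP V = ∫ ω in s, h ω ∂PP V := by
      intro h
      rw [← integral_indicator hs0]
      refine integral_congr_ae (ae_of_all _ fun ω => ?_)
      by_cases hω : ω ∈ s <;> simp [ind, hω]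
    rw [conv, conv] at key
    exact key
  · exact (measurable_EE_sg T f).stronglyMeasurable.aestronglyMeasurable

theorem exists_W [Countable V] (f g : BM V) (ε : ℝ) (hε : 0 < ε) :
    ∃ W : Finset V, |BF V (EE W f) g - BF V f g| < ε := by
  obtain ⟨e, he⟩ := exists_injective_nat V
  have hfin : ∀ n : ℕ, {v : V | e v < n}.Finite := fun n =>
    (Set.finite_lt_nat n).preimage he.injOn
  let W : ℕ → Finset V := fun n => (hfin n).toFinset
  have hW : ∀ n v, v ∈ W n ↔ e v < n := fun n v => by simp [W]
  let ℱ : Filtration ℕ (inferInstance : MeasurableSpace (Om V)) :=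
    { seq := fun n => sgT (W n)
      mono' := by
        intro n m hnm
        change sgT (W n) ≤ sgT (W m)
        unfold sgT
        rw [← measurable_iff_comap_le]
        refine @measurable_pi_lambda _ _ _ (_) _ _ fun c => ?_
        exact measurable_eval (W m) c.1 ((hW _ _).2 (lt_of_lt_of_le ((hW _ _).1 c.2) hnm))
      le' := fun n => sg_le _ }
  have hsup : (⨆ n, ℱ n) = (inferInstance : MeasurableSpace (Om V)) := by
    apply le_antisymm
    · exact iSup_le fun n => ℱ.le n
    · change MeasurableSpace.pi ≤ _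
      unfold MeasurableSpace.pi
      refine iSup_le fun c => ?_
      rw [← measurable_iff_comap_le]
      have : Measurable[sgT (W (e c.1.1 + 1))] (fun ω : Om V => ω c) :=
        measurable_eval _ c ((hW _ _).2 (Nat.lt_succ_self _))
      exact this.mono (le_iSup (fun n => (ℱ n : MeasurableSpace (Om V))) (e c.1.1 + 1)) le_rfl
  have hlim := tendsto_ae_condExp (ℱ := ℱ) (μ := PP V) (f : Om V → ℝ)
  rw [hsup, condExp_of_stronglyMeasurable le_rfl (bmeas f).stronglyMeasurable (by
    obtain ⟨M, hM⟩ := f.2.2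
    exact integrable_of_bdd (bmeas f) hM)] at hlim
  have hall : ∀ᵐ ω ∂PP V, ∀ n, (EE (W n) f : Om V → ℝ) ω = ((PP V)[(f : Om V → ℝ)|ℱ n]) ω :=
    ae_all_iff.2 fun n => EE_ae_eq (W n) f
  have htend : Tendsto (fun n => BF V (EE (W n) f) g) atTop (𝓝 (BF V f g)) := by
    obtain ⟨M, hM⟩ := f.2.2
    obtain ⟨N, hN⟩ := g.2.2
    simp only [BF_apply]
    refine tendsto_integral_of_dominated_convergence (fun _ => M * N) ?_ ?_ ?_ ?_
    · intro n
      exact ((bmeas (EE (W n) f)).mul (bmeas g)).aestronglyMeasurable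
    · exact integrable_const _
    · intro n
      refine ae_of_all _ fun ω => ?_
      rw [Real.norm_eq_abs, abs_mul]
      have h1 : |(EE (W n) f : Om V → ℝ) ω| ≤ M := by
        rw [EE_apply, ← Real.norm_eq_abs]
        refine (norm_integral_le_of_norm_le_const (C := M) (ae_of_all _ fun ω' => hM _)).trans ?_
        simp
      exact mul_le_mul h1 (hN ω) (abs_nonneg _) ((abs_nonneg _).trans h1)
    · filter_upwards [hlim, hall] with ω h1 h2
      simp only [h2]
      exact h1.mul_const _
  obtain ⟨n, hn⟩ := ((Metric.tendsto_atTop.1 htend) ε hε)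
  exact ⟨W n, by simpa [Real.dist_eq] using hn n le_rfl⟩

theorem mp_act (g : V ≃ V) : MeasurePreserving (act g) (PP V) (PP V) := by
  have hmeas : Measurable (act g : Om V → Om V) :=
    measurable_pi_lambda _ fun c => measurable_pi_apply _
  refine ⟨hmeas, ?_⟩
  refine Measure.eq_infinitePi _ fun s t ht => ?_
  rw [Measure.map_apply hmeas (MeasurableSet.pi s.countable_toSet fun _ _ => ht _)]
  let φ : (V × Bool) × ℕ ≃ (V × Bool) × ℕ := (g.prodCongr (Equiv.refl Bool)).prodCongr (Equiv.refl ℕ)
  have hset : (act g : Om V → Om V) ⁻¹' (Set.pi s t) =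
      Set.pi ((s.map φ.toEmbedding : Finset _) : Set _) (fun c => t (φ.symm c)) := by
    ext ω
    simp only [Set.mem_preimage, Set.mem_pi, Finset.mem_coe, Finset.mem_map, act]
    constructor
    · rintro h _ ⟨c, hc, rfl⟩
      change ω (φ c) ∈ t (φ.symm (φ c))
      rw [Equiv.symm_apply_apply]
      exact h c hc
    · intro h c hc
      have : ω (φ c) ∈ t (φ.symm (φ c)) := h (φ c) ⟨c, hc, rfl⟩
      rw [Equiv.symm_apply_apply] at this
      exact this
  rw [hset]
  unfold PP lab
  rw [Measure.infinitePi_pi _ (fun i _ => ht _), Finset.prod_map]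
  simp

/-- relabelling as an operator on bounded functions -/
noncomputable def Ph (g : V ≃ V) : BM V →ₗ[ℝ] BM V where
  toFun f := ⟨fun ω => (f : Om V → ℝ) (act g ω), (bmeas f).comp (mp_act g).measurable, by
    obtain ⟨M, hM⟩ := f.2.2
    exact ⟨M, fun ω => hM _⟩⟩
  map_add' f f' := by ext ω; rfl
  map_smul' c f := by ext ω; rfl

theorem Ph_apply (g : V ≃ V) (f : BM V) (ω : Om V) :
    (Ph g f : Om V → ℝ) ω = (f : Om V → ℝ) (act g ω) := rfl

theorem BF_Ph (g : V ≃ V) (f f' : BM V) : BF V (Ph g f) (Ph g f') = BF V f f' := by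
  rw [BF_apply, BF_apply]
  simp only [Ph_apply]
  rw [← integral_map (φ := act g) (f := fun ω => (f : Om V → ℝ) ω * (f' : Om V → ℝ) ω)
    (mp_act g).measurable.aemeasurable ((bmeas f).mul (bmeas f')).aestronglyMeasurable,
    (mp_act g).map_eq]

theorem EE_Ph (g : V ≃ V) (T : Finset V) (f : BM V) :
    EE (T.map g.toEmbedding) (Ph g f) = Ph g (EE T f) := by
  ext ω
  rw [EE_apply, Ph_apply, EE_apply]
  have h : ∀ ω', act g (mix (T.map g.toEmbedding) ω ω') = mix T (act g ω) (act g ω') := by
    intro ω'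
    funext c
    simp [act, mix]
  simp only [Ph_apply, h]
  rw [← integral_map (φ := act g) (f := fun ω' => (f : Om V → ℝ) (mix T (act g ω) ω'))
    (mp_act g).measurable.aemeasurable
    ((bmeas f).comp ((measurable_mix T).comp measurable_prodMk_left)).aestronglyMeasurable,
    (mp_act g).map_eq]

end

end DecB

end Crest.Agent.TI
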