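import Crest.Agent.TI_TRb

/-!
Row S0241, task DEC, part D: tree geometry.
-/

set_option autoImplicit false
set_option linter.unusedSectionVars false
set_option linter.unusedVariables false

namespace Crest.Agent.TI

open MeasureTheory Filter Topology
open Crest.Agent.SRF (Lab lab)

namespace DecD

variable {V : Type*} [DecidableEq V] {G : SimpleGraph V}

theorem iso_dist_le (hc : G.Connected) (g : G ≃g G) (u v : V) : G.dist (g u) (g v) ≤ G.dist u v := by
  obtain ⟨p, hp⟩ := hc.exists_walk_length_eq_dist u v
  rw [← hp]
  have := SimpleGraph.dist_le (p.map g.toHom)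
  rw [SimpleGraph.Walk.length_map] at this
  exact this

theorem iso_dist (hc : G.Connected) (g : G ≃g G) (u v : V) : G.dist (g u) (g v) = G.dist u v := by
  refine le_antisymm (iso_dist_le hc g u v) ?_
  have := iso_dist_le hc g.symm (g u) (g v)
  simpa using this

/-- vertices separated from `z` by `u` -/
def Ax (G : SimpleGraph V) (z u : V) : Set V := {v | G.dist z v = G.dist z u + G.dist u v}

theorem ax_image (hc : G.Connected) (g : G ≃g G) (z u : V) :
    (g.toEquiv '' Ax G z u) = Ax G (g z) (g u) := by
  ext v
  constructor
  · rintro ⟨w, hw, rfl⟩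
    change G.dist (g z) (g w) = G.dist (g z) (g u) + G.dist (g u) (g w)
    rw [iso_dist hc, iso_dist hc, iso_dist hc]
    exact hw
  · intro hv
    refine ⟨g.symm v, ?_, by simp⟩
    change G.dist z (g.symm v) = G.dist z u + G.dist u (g.symm v)
    have h1 : G.dist (g z) v = G.dist (g z) (g u) + G.dist (g u) v := hv
    have h2 : v = g (g.symm v) := by simp
    rw [h2, iso_dist hc, iso_dist hc, iso_dist hc] at h1
    exact h1

theorem ax_unique (hT : G.IsTree) {z u u' v : V} (h : v ∈ Ax G z u) (h' : v ∈ Ax G z u')
    (he : G.dist z u = G.dist z u') : u = u' := by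
  obtain ⟨p, hp⟩ := hT.connected.exists_walk_length_eq_dist z u
  obtain ⟨q, hq⟩ := hT.connected.exists_walk_length_eq_dist u v
  obtain ⟨p', hp'⟩ := hT.connected.exists_walk_length_eq_dist z u'
  obtain ⟨q', hq'⟩ := hT.connected.exists_walk_length_eq_dist u' v
  have hpath : (p.append q).IsPath := SimpleGraph.Walk.isPath_of_length_eq_dist _
    (by rw [SimpleGraph.Walk.length_append, hp, hq]; exact h.symm)
  have hpath' : (p'.append q').IsPath := SimpleGraph.Walk.isPath_of_length_eq_dist _
    (by rw [SimpleGraph.Walk.length_append, hp', hq']; exact h'.symm)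
  have heq : p.append q = p'.append q' :=
    congrArg Subtype.val ((hT.isAcyclic.subsingleton_path _ _).elim ⟨_, hpath⟩ ⟨_, hpath'⟩)
  have h1 : (p.append q).getVert (G.dist z u) = u := by
    rw [SimpleGraph.Walk.getVert_append]
    simp [hp]
  have h2 : (p'.append q').getVert (G.dist z u) = u' := by
    rw [SimpleGraph.Walk.getVert_append, he]
    simp [hp']
  rw [← h1, heq, h2]

theorem ax_disjoint (hT : G.IsTree) {z u u' : V} (hne : u ≠ u') (he : G.dist z u = G.dist z u') :
    Disjoint (Ax G z u) (Ax G z u') :=
  Set.disjoint_left.2 fun v h h' => hne (ax_unique hT h h' he)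

/-- an inner vertex of a geodesic separates every vertex from one of the two ends -/
theorem ax_cover (hT : G.IsTree) {x : ℕ → V} {n : ℕ} (hx : Geo G x n) (i k j : ℕ) (hik : i ≤ k)
    (hkj : k ≤ j) (hj : j ≤ n) : Ax G (x i) (x k) ∪ Ax G (x j) (x k) = Set.univ := by
  refine Set.eq_univ_of_forall fun v => ?_
  have hadj : ∀ m, m < n → G.Adj (x m) (x (m + 1)) := fun m hm => by
    rw [← SimpleGraph.dist_eq_one_iff_adj, hx m (m + 1) (by omega) (by omega)]
    omega
  have hstep : ∀ m, m < n → G.dist v (x (m + 1)) = G.dist v (x m) + 1 ∨
      G.dist v (x m) = G.dist v (x (m + 1)) + 1 := fun m hm => dist_edge hT (hadj m hm) v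
  have hup : ∀ m, m + 1 < n → G.dist v (x (m + 1)) = G.dist v (x m) + 1 →
      G.dist v (x (m + 2)) = G.dist v (x (m + 1)) + 1 := by
    intro m hm h1
    have h2' : G.dist v (x (m + 2)) = G.dist v (x (m + 1)) + 1 ∨
      G.dist v (x (m + 1)) = G.dist v (x (m + 2)) + 1 := hstep (m + 1) hm
    rcases h2' with h2 | h2
    · exact h2
    · exfalso
      have ha : G.dist (x (m + 1)) (x m) = 1 := by
        rw [SimpleGraph.dist_eq_one_iff_adj]; exact (hadj m (by omega)).symm
      have hb : G.dist (x (m + 1)) (x (m + 2)) = 1 := by
        rw [SimpleGraph.dist_eq_one_iff_adj]; exact hadj (m + 1) hm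
      have e1 : v ∈ Ax G (x (m + 1)) (x m) := by
        change G.dist (x (m + 1)) v = _
        rw [SimpleGraph.dist_comm, SimpleGraph.dist_comm (u := x m), ha]; omega
      have e2 : v ∈ Ax G (x (m + 1)) (x (m + 2)) := by
        change G.dist (x (m + 1)) v = _
        rw [SimpleGraph.dist_comm, SimpleGraph.dist_comm (u := x (m + 2)), hb]
        omega
      have e3 : x m = x (m + 2) := ax_unique hT e1 e2 (by rw [ha, hb])
      have e4 := hx m (m + 2) (by omega) (by omega)
      rw [← e3, SimpleGraph.dist_self] at e4
      omega
  rcases Nat.lt_or_ge k n with hkn | hkn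
  · rcases hstep k hkn with h1 | h1
    · right
      have hall : ∀ t, k + t + 1 ≤ n → G.dist v (x (k + t + 1)) = G.dist v (x (k + t)) + 1 := by
        intro t
        induction t with
        | zero => intro _; exact h1
        | succ t ih => intro ht; exact hup (k + t) (by omega) (ih (by omega))
      have hall2 : ∀ t, k + t ≤ n → G.dist v (x (k + t)) = G.dist v (x k) + t := by
        intro t
        induction t with
        | zero => intro _; rfl
        | succ t ih =>
          intro ht
          have a := hall t (by omega)
          have b := ih (by omega)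
          have c : k + (t + 1) = k + t + 1 := rfl
          rw [c, a, b]; rfl
      have h2 := hall2 (j - k) (by omega)
      have h3 : k + (j - k) = j := by omega
      rw [h3] at h2
      change G.dist (x j) v = G.dist (x j) (x k) + G.dist (x k) v
      rw [SimpleGraph.dist_comm, SimpleGraph.dist_comm (u := x j) (v := x k),
        SimpleGraph.dist_comm (u := x k) (v := v), h2, hx k j hkj hj]
      omega
    · left
      have hall : ∀ t, t ≤ k → G.dist v (x (k - t)) = G.dist v (x (k - t + 1)) + 1 := by
        intro t
        induction t with
        | zero => intro _; exact h1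
        | succ t ih =>
          intro ht
          rcases hstep (k - (t + 1)) (by omega) with h3 | h3
          · exfalso
            have h4 := hup (k - (t + 1)) (by omega) h3
            have e1 : k - (t + 1) + 1 = k - t := by omega
            have e2 : k - (t + 1) + 2 = k - t + 1 := by omega
            rw [e1, e2] at h4
            have := ih (by omega)
            omega
          · exact h3
      have hall2 : ∀ t, t ≤ k → G.dist v (x (k - t)) = G.dist v (x k) + t := by
        intro t
        induction t with
        | zero => intro _; rfl
        | succ t ih =>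
          intro ht
          have a := hall (t + 1) ht
          have b := ih (by omega)
          have e1 : k - (t + 1) + 1 = k - t := by omega
          rw [a, e1, b]; rfl
      have h2 := hall2 (k - i) (by omega)
      have h3 : k - (k - i) = i := by omega
      rw [h3] at h2
      change G.dist (x i) v = G.dist (x i) (x k) + G.dist (x k) v
      rw [SimpleGraph.dist_comm, SimpleGraph.dist_comm (u := x k) (v := v), h2,
        hx i k hik (by omega)]
      omega
  · right
    have : k = j := by omega
    subst this
    change G.dist (x k) v = G.dist (x k) (x k) + G.dist (x k) v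
    simp

end DecD

end Crest.Agent.TI
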