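import Crest.Agent.TI_Aut
import Crest.Agent.TI_TRa
import Crest.Agent.TI_DecC
import Crest.Agent.TI_DecD

/-!
Row S0241, task DEC: correlation decay of factors of iid on the tree
-/

set_option autoImplicit false
set_option linter.unusedSectionVars false
set_option linter.unusedVariables false

namespace Crest.Agent.TI

open MeasureTheory Filter Topology
open Crest.Agent.SRF (Lab lab)

namespace DecE

open DecA DecB DecD

variable {V : Type*} [DecidableEq V]

theorem EE_empty (f : BM V) (hf : ∫ ω, (f : Om V → ℝ) ω ∂PP V = 0) : EE ∅ f = 0 := by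
  ext ω
  rw [EE_apply]
  have : ∀ ω', mix ∅ ω ω' = ω' := fun ω' => by funext c; simp [mix]
  simp only [this, hf]
  rfl

theorem abs_BF_le [Countable V] (A A' : Set V) (hA : A ∪ A' = Set.univ) (f g : BM V)
    (hf : ∫ ω, (f : Om V → ℝ) ω ∂PP V = 0) :
    |BF V f g| ≤ √(QA (BF V) EE A f) * √(QA (BF V) EE A g) +
      √(QA (BF V) EE A' f) * √(QA (BF V) EE A' g) := by
  refine le_of_forall_pos_le_add fun ε hε => ?_
  obtain ⟨W, hW⟩ := exists_W f g ε hε
  have h1 := abs_E_le proj A A' hA f g (EE_empty f hf) W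
  have h2 : |BF V f g| ≤ |BF V (EE W f) g| + |BF V (EE W f) g - BF V f g| := by
    have := abs_sub_abs_le_abs_sub (BF V f g) (BF V (EE W f) g)
    rw [abs_sub_comm] at this
    linarith
  linarith

theorem sum_half (ρ : ℝ) (h0 : 0 ≤ ρ) (h1 : ρ < 1) (N : ℕ) :
    ∑ t ∈ Finset.range N, ρ ^ (t / 2) ≤ 2 / (1 - ρ) := by
  have h2 : ∀ N, ∑ t ∈ Finset.range (2 * N), ρ ^ (t / 2) = 2 * ∑ k ∈ Finset.range N, ρ ^ k := by
    intro N
    induction N with
    | zero => simp
    | succ N ih =>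
      rw [Nat.mul_succ, Finset.sum_range_succ, Finset.sum_range_succ, ih, Finset.sum_range_succ]
      have e1 : 2 * N / 2 = N := by omega
      have e2 : (2 * N + 1) / 2 = N := by omega
      rw [e1, e2]; ring
  have h3 : ∑ t ∈ Finset.range N, ρ ^ (t / 2) ≤ ∑ t ∈ Finset.range (2 * N), ρ ^ (t / 2) :=
    Finset.sum_le_sum_of_subset_of_nonneg (Finset.range_mono (by omega)) fun _ _ _ => by positivity
  refine h3.trans ?_
  rw [h2]
  have h4 : ∑ k ∈ Finset.range N, ρ ^ k ≤ (1 - ρ)⁻¹ := by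
    rw [← tsum_geometric_of_lt_one h0 h1]
    exact Summable.sum_le_tsum _ (fun _ _ => by positivity) (summable_geometric_of_lt_one h0 h1)
  rw [div_eq_mul_inv]
  linarith

theorem sum_both (ρ : ℝ) (h0 : 0 ≤ ρ) (h1 : ρ < 1) (n i : ℕ) (hi : i < n) :
    ∑ j ∈ Finset.range n, ρ ^ (((i - j) + (j - i)) / 2) ≤ 4 / (1 - ρ) := by
  obtain ⟨t, rfl⟩ : ∃ t, n = i + t := ⟨n - i, by omega⟩
  rw [Finset.sum_range_add]
  have e1 : ∑ j ∈ Finset.range i, ρ ^ (((i - j) + (j - i)) / 2) ≤ 2 / (1 - ρ) := by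
    rw [← Finset.sum_range_reflect]
    refine le_trans (Finset.sum_le_sum fun j hj => ?_) (sum_half ρ h0 h1 i)
    rw [Finset.mem_range] at hj
    exact pow_le_pow_of_le_one h0 h1.le (by omega)
  have e2 : ∑ j ∈ Finset.range t, ρ ^ (((i - (i + j)) + ((i + j) - i)) / 2) ≤ 2 / (1 - ρ) := by
    refine le_trans (Finset.sum_le_sum fun j hj => ?_) (sum_half ρ h0 h1 t)
    exact pow_le_pow_of_le_one h0 h1.le (by omega)
  have : (4 : ℝ) / (1 - ρ) = 2 / (1 - ρ) + 2 / (1 - ρ) := by ring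
  rw [this]
  exact add_le_add e1 e2

variable {G : SimpleGraph V} [G.LocallyFinite]

/-- a family of bounded functions indexed by the directed edges, equivariant up to null sets -/
structure Fam (G : SimpleGraph V) (F : V → V → BM V) : Prop where
  mean : ∀ x y, G.Adj x y → ∫ ω, (F x y : Om V → ℝ) ω ∂PP V = 0
  equi : ∀ (g : G ≃g G) (x y : V), G.Adj x y → ∀ h, BF V (F (g x) (g y)) h =
    BF V (Ph g.toEquiv (F x y)) h

theorem var_const (hT : G.IsTree) (d : ℕ) (hreg : G.IsRegularOfDegree d) {F : V → V → BM V}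
    (hF : Fam G F) {x y x' y' : V} (h : G.Adj x y) (h' : G.Adj x' y') :
    BF V (F x' y') (F x' y') = BF V (F x y) (F x y) := by
  obtain ⟨g, hx, hy⟩ := dist_transitive hT d hreg x y x' y'
    (by rw [SimpleGraph.dist_eq_one_iff_adj.2 h, SimpleGraph.dist_eq_one_iff_adj.2 h'])
  rw [← hx, ← hy, hF.equi g x y h, BF_comm, hF.equi g x y h, BF_Ph]

/-- charge of `A` for the family at `z` -/
noncomputable def RA (G : SimpleGraph V) [G.LocallyFinite] (F : V → V → BM V) (A : Set V) (z : V) : ℝ :=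
  ∑ y ∈ G.neighborFinset z, QA (BF V) EE A (F z y)

theorem RA_map (F : V → V → BM V) (hF : Fam G F) (A : Set V) (z : V) (g : G ≃g G) :
    RA G F (g.toEquiv '' A) (g z) = RA G F A z := by
  unfold RA
  symm
  refine Finset.sum_bij (fun y _ => g y) ?_ ?_ ?_ ?_
  · intro y hy
    rw [SimpleGraph.mem_neighborFinset] at hy ⊢
    exact g.map_adj_iff.2 hy
  · intro y _ y' _ h
    exact g.injective h
  · intro y' hy'
    refine ⟨g.symm y', ?_, by simp⟩
    rw [SimpleGraph.mem_neighborFinset] at hy' ⊢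
    have : G.Adj (g z) (g (g.symm y')) := by simpa using hy'
    exact g.map_adj_iff.1 this
  · intro y hy
    rw [SimpleGraph.mem_neighborFinset] at hy
    rw [QA_congr proj _ _ _ (hF.equi g z y hy), QA_map proj _ _ (BF_Ph _) (EE_Ph _)]

theorem RA_le (hT : G.IsTree) (b : ℕ) (hreg : G.IsRegularOfDegree (b + 1)) (F : V → V → BM V)
    (hF : Fam G F) {x y : V} (h : G.Adj x y) (z u : V) :
    (b : ℝ) ^ (G.dist z u) * RA G F (Ax G z u) z ≤ (b + 1) * BF V (F x y) (F x y) := by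
  have htot : ∑ y' ∈ G.neighborFinset z, BF V (F z y') (F z y') =
      (b + 1) * BF V (F x y) (F x y) := by
    rw [Finset.sum_congr rfl (g := fun _ => BF V (F x y) (F x y))]
    · rw [Finset.sum_const, SimpleGraph.card_neighborFinset_eq_degree, hreg z]
      simp
    · intro y' hy'
      rw [SimpleGraph.mem_neighborFinset] at hy'
      exact var_const hT _ hreg hF h hy'
  rcases Nat.eq_zero_or_pos (G.dist z u) with h0 | h0
  · rw [h0, pow_zero, one_mul, ← htot]
    exact Finset.sum_le_sum fun y' _ => QA_le proj _ _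
  · obtain ⟨k, hk⟩ : ∃ k, G.dist z u = k + 1 := ⟨G.dist z u - 1, by omega⟩
    have hsum : ∑ u' ∈ sph G z (k + 1), RA G F (Ax G z u') z ≤ (b + 1) * BF V (F x y) (F x y) := by
      rw [← htot]
      unfold RA
      rw [Finset.sum_comm]
      refine Finset.sum_le_sum fun y' _ => ?_
      refine sum_QA_le proj _ _ ?_ _
      intro u1 hu1 u2 hu2 hne
      rw [Finset.mem_coe, mem_sph hT] at hu1 hu2
      exact ax_disjoint hT hne (by rw [hu1, hu2])
    have heq : ∀ u' ∈ sph G z (k + 1), RA G F (Ax G z u') z = RA G F (Ax G z u) z := by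
      intro u' hu'
      rw [mem_sph hT] at hu'
      obtain ⟨g, hz, hu⟩ := dist_transitive hT _ hreg z u z u' (by rw [hk, hu'])
      rw [← RA_map F hF (Ax G z u) z g, ax_image hT.connected, hz, hu]
    rw [Finset.sum_congr rfl heq, Finset.sum_const, card_sph hT b hreg, nsmul_eq_mul] at hsum
    rw [hk]
    refine le_trans ?_ hsum
    have hR : 0 ≤ RA G F (Ax G z u) z := Finset.sum_nonneg fun y' _ => QA_nonneg proj _ _
    refine mul_le_mul_of_nonneg_right ?_ hR
    push_cast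
    have : (0 : ℝ) ≤ (b : ℝ) ^ k := by positivity
    rw [pow_succ]
    nlinarith

theorem QA_bound (hT : G.IsTree) (b : ℕ) (hb : 2 ≤ b) (hreg : G.IsRegularOfDegree (b + 1))
    (F : V → V → BM V) (hF : Fam G F) {x y : V} (h : G.Adj x y) (z u y' : V) (hy' : G.Adj z y')
    (m : ℕ) (hm : m ≤ G.dist z u) :
    √(QA (BF V) EE (Ax G z u) (F z y')) ≤
      √(b + 1 : ℝ) * √(1 / b : ℝ) ^ m * √(BF V (F x y) (F x y)) := by
  have hb0 : (0 : ℝ) < b := by positivity
  have h1 : QA (BF V) EE (Ax G z u) (F z y') ≤ RA G F (Ax G z u) z := by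
    unfold RA
    exact Finset.single_le_sum (f := fun y => QA (BF V) EE (Ax G z u) (F z y))
      (fun y' _ => QA_nonneg proj _ _) (by rw [SimpleGraph.mem_neighborFinset]; exact hy')
  have h2 := RA_le hT b hreg F hF h z u
  have h3 : RA G F (Ax G z u) z ≤ (b + 1) * (1 / b : ℝ) ^ m * BF V (F x y) (F x y) := by
    have hR : 0 ≤ RA G F (Ax G z u) z := Finset.sum_nonneg fun y' _ => QA_nonneg proj _ _
    have h4 : (b : ℝ) ^ m * RA G F (Ax G z u) z ≤ (b + 1) * BF V (F x y) (F x y) := by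
      refine le_trans (mul_le_mul_of_nonneg_right ?_ hR) h2
      exact pow_le_pow_right₀ (by exact_mod_cast (by omega : 1 ≤ b)) hm
    have h5 : (0 : ℝ) < (b : ℝ) ^ m := by positivity
    calc RA G F (Ax G z u) z = ((b : ℝ) ^ m * RA G F (Ax G z u) z) / (b : ℝ) ^ m := by
          field_simp
      _ ≤ ((b + 1) * BF V (F x y) (F x y)) / (b : ℝ) ^ m := by gcongr
      _ = _ := by rw [one_div, inv_pow]; field_simp
  refine (Real.sqrt_le_sqrt (h1.trans h3)).trans (le_of_eq ?_)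
  have hp : √((1 / b : ℝ) ^ m) = √(1 / b : ℝ) ^ m := by
    have h6 : (1 / b : ℝ) ^ m = (√(1 / b : ℝ) ^ m) ^ 2 := by
      rw [← pow_mul, mul_comm, pow_mul, Real.sq_sqrt (by positivity)]
    rw [h6]
    exact Real.sqrt_sq (by positivity)
  rw [Real.sqrt_mul (by positivity), Real.sqrt_mul (by positivity), hp]

/-- decay of correlations along a geodesic -/
theorem pair_bound [Countable V] (hT : G.IsTree) (b : ℕ) (hb : 2 ≤ b)
    (hreg : G.IsRegularOfDegree (b + 1)) (F : V → V → BM V) (hF : Fam G F) {x : ℕ → V} {n : ℕ}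
    (hx : Geo G x n) (hn : 1 ≤ n) (i j : ℕ) (hij : i ≤ j) (hj : j < n) :
    |BF V (F (x (i + 1)) (x i)) (F (x (j + 1)) (x j))| ≤
      2 * √(b + 1 : ℝ) * √(1 / b : ℝ) ^ ((j - i) / 2) * BF V (F (x 1) (x 0)) (F (x 1) (x 0)) := by
  have hadj : ∀ m, m < n → G.Adj (x (m + 1)) (x m) := fun m hm => (geo_adj hx m hm).symm
  set σ := BF V (F (x 1) (x 0)) (F (x 1) (x 0)) with hσ
  have hσ0 : 0 ≤ σ := proj.pos _
  have h01 : G.Adj (x 1) (x 0) := hadj 0 (by omega)
  have hcov := ax_cover hT hx (i + 1) (i + 1 + (j - i) / 2) (j + 1) (by omega) (by omega) (by omega)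
  have hmain := abs_BF_le _ _ hcov (F (x (i + 1)) (x i)) (F (x (j + 1)) (x j))
    (hF.mean _ _ (hadj i (by omega)))
  have q1 := QA_bound hT b hb hreg F hF h01 (x (i + 1)) (x (i + 1 + (j - i) / 2)) (x i)
    (hadj i (by omega)) ((j - i) / 2) (by rw [hx _ _ (by omega) (by omega)]; omega)
  have q2 := QA_bound hT b hb hreg F hF h01 (x (j + 1)) (x (i + 1 + (j - i) / 2)) (x j)
    (hadj j (by omega)) ((j - i) / 2) (by
      rw [SimpleGraph.dist_comm, hx _ _ (by omega) (by omega)]; omega)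
  have q3 : √(QA (BF V) EE (Ax G (x (i + 1)) (x (i + 1 + (j - i) / 2))) (F (x (j + 1)) (x j))) ≤ √σ := by
    refine Real.sqrt_le_sqrt ((QA_le proj _ _).trans (le_of_eq ?_))
    exact var_const hT _ hreg hF h01 (hadj j hj)
  have q4 : √(QA (BF V) EE (Ax G (x (j + 1)) (x (i + 1 + (j - i) / 2))) (F (x (i + 1)) (x i))) ≤ √σ := by
    refine Real.sqrt_le_sqrt ((QA_le proj _ _).trans (le_of_eq ?_))
    exact var_const hT _ hreg hF h01 (hadj i (by omega))
  refine hmain.trans ?_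
  have hss : √σ * √σ = σ := Real.mul_self_sqrt hσ0
  rw [← hσ] at q1 q2
  calc _ ≤ (√(b + 1 : ℝ) * √(1 / b : ℝ) ^ ((j - i) / 2) * √σ) * √σ +
        √σ * (√(b + 1 : ℝ) * √(1 / b : ℝ) ^ ((j - i) / 2) * √σ) := by
        gcongr
    _ = 2 * √(b + 1 : ℝ) * √(1 / b : ℝ) ^ ((j - i) / 2) * (√σ * √σ) := by ring
    _ = _ := by rw [hss]

end DecE

open DecA DecB DecD DecE in
theorem decor {V : Type*} [Countable V] [DecidableEq V] {G : SimpleGraph V} [G.LocallyFinite] (hT : G.IsTree) (b : ℕ)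
    (hb : 2 ≤ b) (hreg : G.IsRegularOfDegree (b + 1)) : ∃ C : ℝ, 0 < C ∧
    ∀ (F : V → V → Om V → ℝ) (M : ℝ), (∀ x y, Measurable (F x y)) → (∀ x y ω, |F x y ω| ≤ M) →
      (∀ x y, G.Adj x y → ∫ ω, F x y ω ∂PP V = 0) →
      (∀ (g : G ≃g G) (x y : V), G.Adj x y →
        (fun ω => F (g x) (g y) ω) =ᵐ[PP V] (fun ω => F x y (act g.toEquiv ω))) →
      ∀ (x : ℕ → V) (n : ℕ), 1 ≤ n → Geo G x n →
        ∫ ω, (∑ i ∈ Finset.range n, F (x (i + 1)) (x i) ω) ^ 2 ∂PP V ≤
          C * n * ∫ ω, (F (x 1) (x 0) ω) ^ 2 ∂PP V := by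
  have hρ1 : √(1 / b : ℝ) < 1 := by
    rw [Real.sqrt_lt' one_pos, one_pow, div_lt_one (by positivity)]
    exact_mod_cast (by omega : 1 < b)
  have hρ0 : 0 ≤ √(1 / b : ℝ) := Real.sqrt_nonneg _
  have h1ρ : 0 < 1 - √(1 / b : ℝ) := by linarith
  refine ⟨2 * √(b + 1 : ℝ) * (4 / (1 - √(1 / b : ℝ))), by positivity, ?_⟩
  intro F M hmeas hM hmean hequi x n hn hx
  let Fb : V → V → BM V := fun x y => ⟨F x y, hmeas x y, M, hM x y⟩
  have hFb : ∀ x y, (Fb x y : Om V → ℝ) = F x y := fun x y => rfl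
  have hFam : Fam G Fb := by
    refine ⟨fun x y h => hmean x y h, fun g x y h f => ?_⟩
    rw [BF_apply, BF_apply]
    refine integral_congr_ae ?_
    filter_upwards [hequi g x y h] with ω hω
    rw [Ph_apply, hFb, hFb]
    rw [hω]
  set σ := BF V (Fb (x 1) (x 0)) (Fb (x 1) (x 0)) with hσ
  have hσ0 : 0 ≤ σ := proj.pos _
  have hσ' : ∫ ω, (F (x 1) (x 0) ω) ^ 2 ∂PP V = σ := by
    rw [hσ, BF_apply]
    simp only [hFb, sq]
  rw [hσ']
  have hpair : ∀ i j, i < n → j < n → BF V (Fb (x (i + 1)) (x i)) (Fb (x (j + 1)) (x j)) ≤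
      2 * √(b + 1 : ℝ) * √(1 / b : ℝ) ^ (((i - j) + (j - i)) / 2) * σ := by
    intro i j hi hj
    rcases Nat.le_total i j with hij | hij
    · have := pair_bound hT b hb hreg Fb hFam hx hn i j hij hj
      rw [Nat.sub_eq_zero_of_le hij, zero_add]
      exact (le_abs_self _).trans this
    · have := pair_bound hT b hb hreg Fb hFam hx hn j i hij hi
      rw [Nat.sub_eq_zero_of_le hij, add_zero, BF_comm]
      exact (le_abs_self _).trans this
  have hexp : ∫ ω, (∑ i ∈ Finset.range n, F (x (i + 1)) (x i) ω) ^ 2 ∂PP V =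
      ∑ i ∈ Finset.range n, ∑ j ∈ Finset.range n,
        BF V (Fb (x (i + 1)) (x i)) (Fb (x (j + 1)) (x j)) := by
    have e1 : ∀ ω, (∑ i ∈ Finset.range n, F (x (i + 1)) (x i) ω) ^ 2 =
        ∑ i ∈ Finset.range n, ∑ j ∈ Finset.range n,
          F (x (i + 1)) (x i) ω * F (x (j + 1)) (x j) ω := by
      intro ω
      rw [sq, Finset.sum_mul_sum]
    simp only [e1]
    rw [integral_finsetSum _ fun i _ => integrable_finsetSum _ fun j _ =>
      bint_mul (Fb (x (i + 1)) (x i)) (Fb (x (j + 1)) (x j))]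
    refine Finset.sum_congr rfl fun i _ => ?_
    rw [integral_finsetSum _ fun j _ => bint_mul (Fb (x (i + 1)) (x i)) (Fb (x (j + 1)) (x j))]
    rfl
  rw [hexp]
  calc _ ≤ ∑ i ∈ Finset.range n, ∑ j ∈ Finset.range n,
        2 * √(b + 1 : ℝ) * √(1 / b : ℝ) ^ (((i - j) + (j - i)) / 2) * σ :=
        Finset.sum_le_sum fun i hi => Finset.sum_le_sum fun j hj =>
          hpair i j (Finset.mem_range.1 hi) (Finset.mem_range.1 hj)
    _ ≤ ∑ i ∈ Finset.range n, 2 * √(b + 1 : ℝ) * (4 / (1 - √(1 / b : ℝ))) * σ := by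
        refine Finset.sum_le_sum fun i hi => ?_
        rw [← Finset.sum_mul, ← Finset.mul_sum]
        have := sum_both _ hρ0 hρ1 n i (Finset.mem_range.1 hi)
        gcongr
    _ = _ := by
        rw [Finset.sum_const, Finset.card_range, nsmul_eq_mul]
        ring

end Crest.Agent.TI
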