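import Mathlib

/-!
Row S0241, task DEC, part A: an abstract Efron-Stein (Hoeffding) decomposition.
-/

set_option autoImplicit false
set_option linter.unusedSectionVars false
set_option linter.unusedVariables false

namespace Crest.Agent.TI

namespace DecA

section Mobius

variable {ι M : Type*} [DecidableEq ι] [AddCommGroup M] [Module ℝ M]

/-- Möbius transform of a set function -/
noncomputable def mob (e : Finset ι → M) (S : Finset ι) : M :=
  ∑ T ∈ S.powerset, (-1 : ℝ) ^ (S \ T).card • e T

theorem mob_insert (e : Finset ι → M) (S : Finset ι) (v : ι) (hv : v ∉ S) :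
    mob e (insert v S) = mob (fun T => e (insert v T)) S - mob e S := by
  unfold mob
  rw [Finset.sum_powerset_insert hv, sub_eq_add_neg, add_comm, ← Finset.sum_neg_distrib]
  congr 1
  · refine Finset.sum_congr rfl fun T hT => ?_
    have hT' := Finset.mem_powerset.1 hT
    have hvT : v ∉ T := fun h => hv (hT' h)
    have : insert v S \ insert v T = S \ T := by
      ext w; simp only [Finset.mem_sdiff, Finset.mem_insert]
      constructor
      · rintro ⟨h1 | h1, h2⟩
        · exact absurd (Or.inl h1) h2
        · exact ⟨h1, fun h => h2 (Or.inr h)⟩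
      · rintro ⟨h1, h2⟩
        exact ⟨Or.inr h1, fun h => h.elim (fun h3 => hv (h3 ▸ h1)) h2⟩
    rw [this]
  · refine Finset.sum_congr rfl fun T hT => ?_
    have hT' := Finset.mem_powerset.1 hT
    have hvT : v ∉ T := fun h => hv (hT' h)
    have : (insert v S \ T).card = (S \ T).card + 1 := by
      rw [Finset.insert_sdiff_of_notMem _ hvT, Finset.card_insert_of_notMem]
      simp [hv]
    rw [this, pow_succ]
    simp

/-- Möbius inversion -/
theorem sum_mob (e : Finset ι → M) (W : Finset ι) : ∑ S ∈ W.powerset, mob e S = e W := by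
  induction W using Finset.induction_on generalizing e with
  | empty => simp [mob]
  | insert v W hv ih =>
    rw [Finset.sum_powerset_insert hv]
    have : ∑ S ∈ W.powerset, mob e (insert v S) =
        ∑ S ∈ W.powerset, mob (fun T => e (insert v T)) S - ∑ S ∈ W.powerset, mob e S := by
      rw [← Finset.sum_sub_distrib]
      refine Finset.sum_congr rfl fun S hS => ?_
      exact mob_insert e S v (fun h => hv (Finset.mem_powerset.1 hS h))
    rw [this, ih, ih]
    abel

end Mobius

section Form

variable {ι H : Type*} [DecidableEq ι] [AddCommGroup H] [Module ℝ H]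

/-- a family of commuting symmetric projections indexed by finite sets -/
structure Proj (B : LinearMap.BilinForm ℝ H) (E : Finset ι → H →ₗ[ℝ] H) : Prop where
  inter : ∀ T T' f, E T (E T' f) = E (T ∩ T') f
  symm : ∀ T f g, B (E T f) g = B f (E T g)
  bsymm : ∀ f g, B f g = B g f
  pos : ∀ f, 0 ≤ B f f

/-- Hoeffding components -/
noncomputable def pp (E : Finset ι → H →ₗ[ℝ] H) (S : Finset ι) (f : H) : H :=
  mob (fun T => E T f) S

/-- squared norms of the Hoeffding components -/
noncomputable def aa (B : LinearMap.BilinForm ℝ H) (E : Finset ι → H →ₗ[ℝ] H) (S : Finset ι)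
    (f : H) : ℝ := B (pp E S f) (pp E S f)

open Classical in
/-- fraction of `S` in `A` -/
noncomputable def wA (A : Set ι) (S : Finset ι) : ℝ := ((S.filter (· ∈ A)).card : ℝ) / S.card

/-- the part of the variance charged to `A` -/
noncomputable def QA (B : LinearMap.BilinForm ℝ H) (E : Finset ι → H →ₗ[ℝ] H) (A : Set ι)
    (f : H) : ℝ := ∑' S : Finset ι, wA A S * aa B E S f

variable {B : LinearMap.BilinForm ℝ H} {E : Finset ι → H →ₗ[ℝ] H}

theorem sum_pp (E : Finset ι → H →ₗ[ℝ] H) (W : Finset ι) (f : H) :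
    ∑ S ∈ W.powerset, pp E S f = E W f := sum_mob _ _

theorem E_pp (hP : Proj B E) (U S : Finset ι) (f : H) :
    E U (pp E S f) = mob (fun T => E (U ∩ T) f) S := by
  unfold pp mob
  rw [map_sum]
  refine Finset.sum_congr rfl fun T _ => ?_
  rw [map_smul, hP.inter]

theorem E_pp_of_subset (hP : Proj B E) (U S : Finset ι) (f : H) (h : S ⊆ U) :
    E U (pp E S f) = pp E S f := by
  rw [E_pp hP]
  unfold pp mob
  refine Finset.sum_congr rfl fun T hT => ?_
  beta_reduce
  rw [Finset.inter_eq_right.2 ((Finset.mem_powerset.1 hT).trans h)]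

theorem E_pp_of_not_subset (hP : Proj B E) (U S : Finset ι) (f : H) (h : ¬ S ⊆ U) :
    E U (pp E S f) = 0 := by
  rw [E_pp hP]
  obtain ⟨v, hvS, hvU⟩ := Finset.not_subset.1 h
  obtain ⟨S', hvS', rfl⟩ : ∃ S', v ∉ S' ∧ insert v S' = S :=
    ⟨S.erase v, Finset.notMem_erase v S, Finset.insert_erase hvS⟩
  rw [mob_insert _ _ _ hvS']
  have : (fun T => E (U ∩ insert v T) f) = (fun T => E (U ∩ T) f) := by
    funext T
    rw [Finset.inter_insert_of_notMem hvU]
  rw [this, sub_self]

theorem pp_pp (hP : Proj B E) (S : Finset ι) (f : H) : pp E S (pp E S f) = pp E S f := by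
  have h1 : pp E S (pp E S f) = ∑ T ∈ S.powerset, (-1 : ℝ) ^ (S \ T).card • E T (pp E S f) := rfl
  rw [h1, Finset.sum_eq_single S]
  · rw [E_pp_of_subset hP _ _ _ (Finset.Subset.refl S)]; simp
  · intro T hT hne
    rw [E_pp_of_not_subset hP T S f, smul_zero]
    intro h
    exact hne (Finset.Subset.antisymm (Finset.mem_powerset.1 hT) h)
  · intro h
    exact absurd (Finset.mem_powerset.2 (Finset.Subset.refl S)) h

theorem pp_symm (hP : Proj B E) (S : Finset ι) (f g : H) : B (pp E S f) g = B f (pp E S g) := by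
  unfold pp mob
  simp only [map_sum, map_smul, LinearMap.sum_apply, LinearMap.smul_apply, hP.symm]

theorem pp_inner (hP : Proj B E) (S : Finset ι) (f g : H) :
    B (pp E S f) (pp E S g) = B (pp E S f) g := by
  rw [← pp_symm hP S (pp E S f) g, pp_pp hP]

theorem aa_nonneg (hP : Proj B E) (S : Finset ι) (f : H) : 0 ≤ aa B E S f := hP.pos _

theorem aa_eq (hP : Proj B E) (S : Finset ι) (f : H) : aa B E S f = B (pp E S f) f :=
  pp_inner hP S f f

theorem E_idem (hP : Proj B E) (W : Finset ι) (f : H) : E W (E W f) = E W f := by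
  rw [hP.inter, Finset.inter_self]

/-- `‖E_W f‖² ≤ ‖f‖²` -/
theorem E_contr (hP : Proj B E) (W : Finset ι) (f : H) : B (E W f) f ≤ B f f := by
  have h1 : 0 ≤ B (f - E W f) (f - E W f) := hP.pos _
  have h2 : B (E W f) (E W f) = B (E W f) f := by
    rw [← hP.symm W (E W f) f, E_idem hP]
  have h3 : B f (E W f) = B (E W f) f := hP.bsymm _ _
  simp only [map_sub, LinearMap.sub_apply] at h1
  rw [h2, h3] at h1
  linarith

theorem sum_aa_le (hP : Proj B E) (F : Finset (Finset ι)) (f : H) :
    ∑ S ∈ F, aa B E S f ≤ B f f := by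
  have hsub : F ⊆ (F.biUnion id).powerset := by
    intro S hS
    rw [Finset.mem_powerset]
    intro v hv
    exact Finset.mem_biUnion.2 ⟨S, hS, hv⟩
  calc ∑ S ∈ F, aa B E S f ≤ ∑ S ∈ (F.biUnion id).powerset, aa B E S f :=
        Finset.sum_le_sum_of_subset_of_nonneg hsub fun S _ _ => aa_nonneg hP S f
    _ = B (E (F.biUnion id) f) f := by
        rw [← sum_pp E]
        simp only [map_sum, LinearMap.sum_apply, aa_eq hP]
    _ ≤ B f f := E_contr hP _ f

theorem aa_summable (hP : Proj B E) (f : H) : Summable (fun S : Finset ι => aa B E S f) :=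
  summable_of_sum_le (fun S => aa_nonneg hP S f) (fun F => sum_aa_le hP F f)

theorem tsum_aa_le (hP : Proj B E) (f : H) : ∑' S : Finset ι, aa B E S f ≤ B f f :=
  Real.tsum_le_of_sum_le (fun S => aa_nonneg hP S f) (fun F => sum_aa_le hP F f)

theorem wA_nonneg (A : Set ι) (S : Finset ι) : 0 ≤ wA A S := by
  unfold wA; positivity

theorem wA_le_one (A : Set ι) (S : Finset ι) : wA A S ≤ 1 := by
  classical
  unfold wA
  refine div_le_one_of_le₀ ?_ (by positivity)
  exact_mod_cast Finset.card_le_card (Finset.filter_subset _ _)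

theorem wA_summable (hP : Proj B E) (A : Set ι) (f : H) :
    Summable (fun S : Finset ι => wA A S * aa B E S f) :=
  Summable.of_nonneg_of_le (fun S => mul_nonneg (wA_nonneg A S) (aa_nonneg hP S f))
    (fun S => mul_le_of_le_one_left (aa_nonneg hP S f) (wA_le_one A S)) (aa_summable hP f)

theorem QA_nonneg (hP : Proj B E) (A : Set ι) (f : H) : 0 ≤ QA B E A f :=
  tsum_nonneg fun S => mul_nonneg (wA_nonneg A S) (aa_nonneg hP S f)

/-- the charge is subadditive: disjoint sets carry at most the total variance -/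
theorem sum_QA_le (hP : Proj B E) {K : Type*} (s : Finset K) (A : K → Set ι)
    (hA : (s : Set K).PairwiseDisjoint A) (f : H) :
    ∑ k ∈ s, QA B E (A k) f ≤ B f f := by
  classical
  unfold QA
  rw [← Summable.tsum_finsetSum fun k _ => wA_summable hP (A k) f]
  refine le_trans ?_ (tsum_aa_le hP f)
  refine Summable.tsum_le_tsum (fun S => ?_) (summable_sum fun k _ => wA_summable hP (A k) f)
    (aa_summable hP f)
  rw [← Finset.sum_mul]
  refine mul_le_of_le_one_left (aa_nonneg hP S f) ?_
  unfold wA
  rw [← Finset.sum_div]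
  refine div_le_one_of_le₀ ?_ (by positivity)
  rw [← Nat.cast_sum, ← Finset.card_biUnion]
  · refine Nat.cast_le.2 (Finset.card_le_card ?_)
    intro v hv
    obtain ⟨k, _, hk⟩ := Finset.mem_biUnion.1 hv
    exact Finset.mem_of_mem_filter v hk
  · intro k hk l hl hkl
    rw [Function.onFun, Finset.disjoint_left]
    intro v hv hv'
    exact Set.disjoint_left.1 (hA hk hl hkl) (Finset.mem_filter.1 hv).2 (Finset.mem_filter.1 hv').2

theorem QA_le (hP : Proj B E) (A : Set ι) (f : H) : QA B E A f ≤ B f f := by
  have := sum_QA_le hP ({()} : Finset Unit) (fun _ => A) (by simp) f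
  simpa using this

/-- Cauchy-Schwarz over a covering of the index set by two sets -/
theorem abs_E_le (hP : Proj B E) (A A' : Set ι) (hA : A ∪ A' = Set.univ) (f g : H)
    (hf : E ∅ f = 0) (W : Finset ι) :
    |B (E W f) g| ≤ √(QA B E A f) * √(QA B E A g) + √(QA B E A' f) * √(QA B E A' g) := by
  classical
  have hcs : ∀ S, |B (pp E S f) g| ≤ √(aa B E S f) * √(aa B E S g) := by
    intro S
    rw [← pp_inner hP]
    have h := LinearMap.BilinForm.apply_mul_apply_le_of_forall_zero_le B hP.pos (pp E S f) (pp E S g)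
    rw [hP.bsymm (pp E S g) (pp E S f)] at h
    rw [← Real.sqrt_mul (aa_nonneg hP S f)]
    apply Real.abs_le_sqrt
    rw [sq]
    exact h
  have hzero : pp E ∅ f = 0 := by
    have : pp E ∅ f = E ∅ f := by simp [pp, mob]
    rw [this, hf]
  have hterm : ∀ S ∈ W.powerset, |B (pp E S f) g| ≤
      √(wA A S * aa B E S f) * √(wA A S * aa B E S g) +
        √(wA A' S * aa B E S f) * √(wA A' S * aa B E S g) := by
    intro S _
    by_cases hS : S = ∅
    · subst hS
      rw [hzero]
      simp only [map_zero, LinearMap.zero_apply, abs_zero]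
      positivity
    · refine (hcs S).trans ?_
      have h1 : ∀ C : Set ι, √(wA C S * aa B E S f) * √(wA C S * aa B E S g) =
          wA C S * (√(aa B E S f) * √(aa B E S g)) := by
        intro C
        rw [Real.sqrt_mul (wA_nonneg C S), Real.sqrt_mul (wA_nonneg C S)]
        have := Real.mul_self_sqrt (wA_nonneg C S)
        calc √(wA C S) * √(aa B E S f) * (√(wA C S) * √(aa B E S g)) =
            (√(wA C S) * √(wA C S)) * (√(aa B E S f) * √(aa B E S g)) := by ring
          _ = _ := by rw [this]
      rw [h1, h1, ← add_mul]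
      refine le_mul_of_one_le_left (by positivity) ?_
      unfold wA
      rw [← add_div, one_le_div (by exact_mod_cast Finset.card_pos.2 (Finset.nonempty_iff_ne_empty.2 hS))]
      rw [← Nat.cast_add]
      refine Nat.cast_le.2 ?_
      refine le_trans ?_ (Finset.card_union_le _ _)
      refine Finset.card_le_card fun v hv => ?_
      have : v ∈ A ∪ A' := hA ▸ Set.mem_univ v
      rw [Finset.mem_union, Finset.mem_filter, Finset.mem_filter]
      exact this.imp (fun h => ⟨hv, h⟩) (fun h => ⟨hv, h⟩)
  have hsum : ∀ C : Set ι, ∑ S ∈ W.powerset, √(wA C S * aa B E S f) * √(wA C S * aa B E S g) ≤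
      √(QA B E C f) * √(QA B E C g) := by
    intro C
    refine (Real.sum_sqrt_mul_sqrt_le _ (fun S => mul_nonneg (wA_nonneg C S) (aa_nonneg hP S f))
      (fun S => mul_nonneg (wA_nonneg C S) (aa_nonneg hP S g))).trans ?_
    gcongr
    · exact Summable.sum_le_tsum _ (fun S _ => mul_nonneg (wA_nonneg C S) (aa_nonneg hP S f))
        (wA_summable hP C f)
    · exact Summable.sum_le_tsum _ (fun S _ => mul_nonneg (wA_nonneg C S) (aa_nonneg hP S g))
        (wA_summable hP C g)
  calc |B (E W f) g| = |∑ S ∈ W.powerset, B (pp E S f) g| := by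
        rw [← sum_pp E W f, map_sum, LinearMap.sum_apply]
    _ ≤ ∑ S ∈ W.powerset, |B (pp E S f) g| := Finset.abs_sum_le_sum_abs _ _
    _ ≤ ∑ S ∈ W.powerset, (√(wA A S * aa B E S f) * √(wA A S * aa B E S g) +
        √(wA A' S * aa B E S f) * √(wA A' S * aa B E S g)) := Finset.sum_le_sum hterm
    _ ≤ _ := by
        rw [Finset.sum_add_distrib]
        exact add_le_add (hsum A) (hsum A')

/-- the charge only depends on the class modulo the kernel of the form -/
theorem aa_congr (hP : Proj B E) (S : Finset ι) (f f' : H) (h : ∀ g, B f g = B f' g) :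
    aa B E S f = aa B E S f' := by
  rw [aa_eq hP, aa_eq hP, pp_symm hP, h, ← pp_symm hP, hP.bsymm _ f, h, hP.bsymm]

theorem QA_congr (hP : Proj B E) (A : Set ι) (f f' : H) (h : ∀ g, B f g = B f' g) :
    QA B E A f = QA B E A f' := by
  unfold QA
  simp only [aa_congr hP _ f f' h]

/-- equivariance of the charge -/
theorem QA_map (hP : Proj B E) (σ : ι ≃ ι) (Φ : H →ₗ[ℝ] H) (hΦ : ∀ f g, B (Φ f) (Φ g) = B f g)
    (hE : ∀ T f, E (T.map σ.toEmbedding) (Φ f) = Φ (E T f)) (A : Set ι) (f : H) :
    QA B E (σ '' A) (Φ f) = QA B E A f := by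
  classical
  have hpp : ∀ S, pp E (S.map σ.toEmbedding) (Φ f) = Φ (pp E S f) := by
    intro S
    unfold pp mob
    rw [map_sum]
    symm
    refine Finset.sum_bij (fun T _ => T.map σ.toEmbedding) ?_ ?_ ?_ ?_
    · intro T hT
      rw [Finset.mem_powerset] at hT ⊢
      exact Finset.map_subset_map.2 hT
    · intro T _ T' _ h
      exact Finset.map_injective _ h
    · intro T' hT'
      refine ⟨T'.map σ.symm.toEmbedding, ?_, ?_⟩
      · rw [Finset.mem_powerset] at hT' ⊢
        have := Finset.map_subset_map (f := σ.symm.toEmbedding).2 hT'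
        rw [Finset.map_map] at this
        convert this
        ext x
        simp
      · rw [Finset.map_map]
        ext x
        simp
    · intro T hT
      rw [map_smul]
      beta_reduce
      rw [hE, ← Finset.map_sdiff, Finset.card_map]
  have haa : ∀ S, aa B E (S.map σ.toEmbedding) (Φ f) = aa B E S f := by
    intro S
    unfold aa
    rw [hpp, hΦ]
  have hw : ∀ S, wA (σ '' A) (S.map σ.toEmbedding) = wA A S := by
    intro S
    unfold wA
    rw [Finset.filter_map, Finset.card_map, Finset.card_map]
    congr 3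
    ext x
    simp
  unfold QA
  rw [← (Equiv.finsetCongr σ).tsum_eq]
  refine tsum_congr fun S => ?_
  rw [Equiv.finsetCongr_apply, haa, hw]

end Form

end DecA

end Crest.Agent.TI
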