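import Crest.Agent.TI_Defs
import Crest.Agent.TI_DecA

/-!
Row S0241, task DEC, part B: averaging operators on bounded functions of the labels.
-/

set_option autoImplicit false
set_option linter.unusedSectionVars false
set_option linter.unusedVariables false

namespace Crest.Agent.TI

open MeasureTheory Filter Topology
open Crest.Agent.SRF (Lab lab)

namespace DecB

section

variable {V : Type*}

instance instProbPP : IsProbabilityMeasure (PP V) := by
  unfold PP lab; infer_instance

variable [DecidableEq V]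

/-- labels `ω` on `T`, `ω'` off `T` -/
def mix (T : Finset V) (ω ω' : Om V) : Om V := fun c => if c.1.1 ∈ T then ω c else ω' c

theorem measurable_mix (T : Finset V) : Measurable (fun q : Om V × Om V => mix T q.1 q.2) := by
  refine measurable_pi_lambda _ fun c => ?_
  by_cases hc : c.1.1 ∈ T
  · simp only [mix, hc, if_true]
    exact (measurable_pi_apply c).comp measurable_fst
  · simp only [mix, hc, if_false]
    exact (measurable_pi_apply c).comp measurable_snd

theorem mp_mix (T : Finset V) :
    MeasurePreserving (fun q : Om V × Om V => mix T q.1 q.2) ((PP V).prod (PP V)) (PP V) := by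
  refine ⟨measurable_mix T, ?_⟩
  refine Measure.eq_infinitePi _ fun s t ht => ?_
  rw [Measure.map_apply (measurable_mix T) (MeasurableSet.pi s.countable_toSet fun _ _ => ht _)]
  have hset : (fun q : Om V × Om V => mix T q.1 q.2) ⁻¹' (Set.pi s t) =
      (Set.pi ((s.filter (fun c => c.1.1 ∈ T) : Finset _) : Set _) t) ×ˢ
        (Set.pi ((s.filter (fun c => ¬ c.1.1 ∈ T) : Finset _) : Set _) t) := by
    ext q
    simp only [Set.mem_preimage, Set.mem_pi, Finset.mem_coe, Set.mem_prod, Finset.mem_filter, mix]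
    constructor
    · intro h
      exact ⟨fun c hc => by simpa [hc.2] using h c hc.1, fun c hc => by simpa [hc.2] using h c hc.1⟩
    · rintro ⟨h1, h2⟩ c hc
      by_cases hT : c.1.1 ∈ T
      · simpa [hT] using h1 c ⟨hc, hT⟩
      · simpa [hT] using h2 c ⟨hc, hT⟩
  rw [hset, Measure.prod_prod]
  unfold PP lab
  rw [Measure.infinitePi_pi _ (fun i _ => ht _), Measure.infinitePi_pi _ (fun i _ => ht _),
    Finset.prod_filter_mul_prod_filter_not]

theorem mix_mix (T T' : Finset V) (ω ω' ω'' : Om V) :
    mix T' (mix T ω ω') ω'' = mix (T ∩ T') ω (mix T' ω' ω'') := by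
  funext c
  simp only [mix, Finset.mem_inter]
  by_cases h1 : c.1.1 ∈ T <;> by_cases h2 : c.1.1 ∈ T' <;> simp [h1, h2]

theorem mix_mix_self (T : Finset V) (ω ω' ω'' : Om V) :
    mix T (mix T ω ω') ω'' = mix T ω ω'' := by
  funext c
  simp only [mix]
  by_cases h1 : c.1.1 ∈ T <;> simp [h1]

variable (V) in
/-- bounded measurable functions of the labels -/
def BM : Submodule ℝ (Om V → ℝ) where
  carrier := {f | Measurable f ∧ ∃ M : ℝ, ∀ ω, |f ω| ≤ M}
  add_mem' := by
    rintro f g ⟨hf, M, hM⟩ ⟨hg, N, hN⟩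
    exact ⟨hf.add hg, M + N, fun ω => (abs_add_le _ _).trans (add_le_add (hM ω) (hN ω))⟩
  zero_mem' := ⟨measurable_const, 0, fun ω => by simp⟩
  smul_mem' := by
    rintro c f ⟨hf, M, hM⟩
    refine ⟨hf.const_smul c, |c| * M, fun ω => ?_⟩
    simp only [Pi.smul_apply, smul_eq_mul, abs_mul]
    exact mul_le_mul_of_nonneg_left (hM ω) (abs_nonneg c)

theorem bmeas (f : BM V) : Measurable (f : Om V → ℝ) := f.2.1

theorem integrable_of_bdd {Ω : Type*} [MeasurableSpace Ω] {μ : Measure Ω} [IsFiniteMeasure μ]
    {f : Ω → ℝ} (hf : Measurable f) {M : ℝ} (hM : ∀ ω, |f ω| ≤ M) : Integrable f μ :=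
  Integrable.of_bound hf.aestronglyMeasurable M (ae_of_all _ fun ω => by simpa using hM ω)

theorem bint_mix (f : BM V) (T : Finset V) (ω : Om V) :
    Integrable (fun ω' => (f : Om V → ℝ) (mix T ω ω')) (PP V) := by
  obtain ⟨M, hM⟩ := f.2.2
  exact integrable_of_bdd ((bmeas f).comp ((measurable_mix T).comp measurable_prodMk_left))
    (fun ω' => hM _)

/-- average over the labels off `T` -/
noncomputable def EE (T : Finset V) : BM V →ₗ[ℝ] BM V where
  toFun f := ⟨fun ω => ∫ ω', (f : Om V → ℝ) (mix T ω ω') ∂PP V, by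
    obtain ⟨M, hM⟩ := f.2.2
    refine ⟨?_, M, fun ω => ?_⟩
    · exact (((bmeas f).comp (measurable_mix T)).stronglyMeasurable.integral_prod_right').measurable
    · rw [← Real.norm_eq_abs]
      refine (norm_integral_le_of_norm_le_const (C := M) (ae_of_all _ fun ω' => hM _)).trans ?_
      simp⟩
  map_add' f g := by
    ext ω
    exact integral_add (bint_mix f T ω) (bint_mix g T ω)
  map_smul' c f := by
    ext ω
    exact integral_const_mul c _

theorem EE_apply (T : Finset V) (f : BM V) (ω : Om V) :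
    (EE T f : Om V → ℝ) ω = ∫ ω', (f : Om V → ℝ) (mix T ω ω') ∂PP V := rfl

theorem bint_mul (f g : BM V) :
    Integrable (fun ω => (f : Om V → ℝ) ω * (g : Om V → ℝ) ω) (PP V) := by
  obtain ⟨M, hM⟩ := f.2.2
  obtain ⟨N, hN⟩ := g.2.2
  refine integrable_of_bdd ((bmeas f).mul (bmeas g)) (M := M * N) (fun ω => ?_)
  rw [abs_mul]
  exact mul_le_mul (hM ω) (hN ω) (abs_nonneg _) ((abs_nonneg _).trans (hM ω))

variable (V) in
/-- the bilinear form `E[fg]` -/
noncomputable def BF : LinearMap.BilinForm ℝ (BM V) :=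
  LinearMap.mk₂ ℝ (fun f g => ∫ ω, (f : Om V → ℝ) ω * (g : Om V → ℝ) ω ∂PP V)
    (by
      intro f f' g
      rw [← integral_add (bint_mul f g) (bint_mul f' g)]
      simp [add_mul])
    (by
      intro c f g
      rw [smul_eq_mul, ← integral_const_mul]
      simp [mul_assoc])
    (by
      intro f g g'
      rw [← integral_add (bint_mul f g) (bint_mul f g')]
      simp [mul_add])
    (by
      intro c f g
      rw [smul_eq_mul, ← integral_const_mul]
      simp [mul_left_comm])

theorem BF_apply (f g : BM V) :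
    BF V f g = ∫ ω, (f : Om V → ℝ) ω * (g : Om V → ℝ) ω ∂PP V := rfl

theorem EE_EE (T T' : Finset V) (f : BM V) : EE T (EE T' f) = EE (T ∩ T') f := by
  ext ω
  rw [EE_apply, EE_apply]
  have hmix := (mp_mix T').map_eq
  have hmeas : AEStronglyMeasurable (fun ω' => (f : Om V → ℝ) (mix (T ∩ T') ω ω'))
      (((PP V).prod (PP V)).map (fun q => mix T' q.1 q.2)) :=
    ((bmeas f).comp ((measurable_mix _).comp measurable_prodMk_left)).aestronglyMeasurable
  conv_rhs => rw [← hmix, integral_map (measurable_mix T').aemeasurable hmeas]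
  obtain ⟨M, hM⟩ := f.2.2
  rw [integral_prod]
  · refine integral_congr_ae (ae_of_all _ fun ω' => ?_)
    beta_reduce
    rw [EE_apply]
    simp only [mix_mix]
  · refine integrable_of_bdd (M := M) ?_ (fun q => hM _)
    exact ((bmeas f).comp ((measurable_mix _).comp measurable_prodMk_left)).comp (measurable_mix T')

/-- integrals may be computed with mixed labels -/
theorem integral_mix (T : Finset V) (f : Om V → ℝ) (hf : Measurable f) (M : ℝ)
    (hM : ∀ ω, |f ω| ≤ M) :
    ∫ ω, f ω ∂PP V = ∫ ω, ∫ ω', f (mix T ω ω') ∂PP V ∂PP V := by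
  conv_lhs => rw [← (mp_mix T).map_eq, integral_map (measurable_mix T).aemeasurable
    hf.aestronglyMeasurable]
  rw [integral_prod]
  exact integrable_of_bdd (M := M) (hf.comp (measurable_mix T)) (fun q => hM _)

theorem BF_EE (T : Finset V) (f g : BM V) : BF V (EE T f) g = BF V (EE T f) (EE T g) := by
  rw [BF_apply, BF_apply]
  obtain ⟨M, hM⟩ := (EE T f).2.2
  obtain ⟨N, hN⟩ := g.2.2
  rw [integral_mix T (fun ω => (EE T f : Om V → ℝ) ω * (g : Om V → ℝ) ω)
    ((bmeas (EE T f)).mul (bmeas g)) (M * N)]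
  · refine integral_congr_ae (ae_of_all _ fun ω => ?_)
    beta_reduce
    have : ∀ ω', ((EE T f : Om V → ℝ) (mix T ω ω')) = (EE T f : Om V → ℝ) ω := by
      intro ω'
      rw [EE_apply, EE_apply]
      simp only [mix_mix_self]
    simp only [this]
    rw [integral_const_mul, EE_apply T g]
  · intro ω
    rw [abs_mul]
    exact mul_le_mul (hM ω) (hN ω) (abs_nonneg _) ((abs_nonneg _).trans (hM ω))

theorem BF_comm (f g : BM V) : BF V f g = BF V g f := by
  rw [BF_apply, BF_apply]
  simp only [mul_comm]

theorem proj : DecA.Proj (BF V) (EE (V := V)) where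
  inter := EE_EE
  symm T f g := by
    rw [BF_EE T f g, BF_comm f, BF_EE T g f, BF_comm]
  bsymm := BF_comm
  pos f := by
    rw [BF_apply]
    exact integral_nonneg fun ω => mul_self_nonneg _

end

end DecB

end Crest.Agent.TI
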