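import Mathlib
import Crest.Prelude.Def_TreeIsing
import Crest.Agent.SRF_Fix

/-!
Definitions for row S0241 (free Ising on the regular tree is a factor of i.i.d. up to and including
`tanh β = (d-1)^(-1/2)`).  See the notes of row S0241 for the proof.
-/

set_option autoImplicit false

namespace Crest.Agent.TI

open MeasureTheory Filter Topology
open Crest.Agent.SRF (Lab lab)

/-! ### static part: posterior of a mass function on the subsets of a window -/

section Static

variable {V : Type*} [DecidableEq V]

/-- sign of a spin -/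
def sg (b : Bool) : ℝ := if b then 1 else -1

/-- spin of `v` in the configuration with plus-set `S` -/
def spin (S : Finset V) (v : V) : ℝ := if v ∈ S then 1 else -1

/-- likelihood of the configuration `S` on the window `W` given site likelihoods `l` -/
def lw (l : V → Bool → ℝ) (W S : Finset V) : ℝ := ∏ v ∈ W, l v (decide (v ∈ S))

/-- partition function (= density of the data) -/
def pt (p : Finset V → ℝ) (W : Finset V) (l : V → Bool → ℝ) : ℝ :=
  ∑ S ∈ W.powerset, p S * lw l W S

/-- posterior expectation -/
noncomputable def ex (p : Finset V → ℝ) (W : Finset V) (l : V → Bool → ℝ) (f : Finset V → ℝ) : ℝ :=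
  (∑ S ∈ W.powerset, p S * lw l W S * f S) / pt p W l

/-- posterior mean of the spin at `v` -/
noncomputable def mn (p : Finset V → ℝ) (W : Finset V) (l : V → Bool → ℝ) (v : V) : ℝ :=
  ex p W l (fun S => spin S v)

/-- posterior covariance of the spins at `v` and `u` -/
noncomputable def cv (p : Finset V → ℝ) (W : Finset V) (l : V → Bool → ℝ) (v u : V) : ℝ :=
  ex p W l (fun S => spin S v * spin S u) - mn p W l v * mn p W l u

/-- `p` is a probability mass function on the subsets of `W` -/
structure IsMass (p : Finset V → ℝ) (W : Finset V) : Prop where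
  nonneg : ∀ S ⊆ W, 0 ≤ p S
  total : ∑ S ∈ W.powerset, p S = 1

end Static

/-! ### the quantile map -/

/-- clamp to `[-1,1]` -/
noncomputable def cs (m : ℝ) : ℝ := max (-1) (min 1 m)

/-- the solution `z` of `z - (m/2) z (1-z) = u` -/
noncomputable def Qs0 (m u : ℝ) : ℝ :=
  2 * u / ((1 - m / 2) + Real.sqrt ((1 - m / 2) ^ 2 + 2 * m * u))

/-- quantile function of the law on `[0,1]` with density `1 + m (z - 1/2)` -/
noncomputable def Qs (m : ℝ) (u : unitInterval) : unitInterval :=
  Set.projIcc 0 1 zero_le_one (Qs0 (cs m) u)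

/-! ### the scheme (for fixed observation times `U`) -/

section Scheme

variable {V : Type*}

/-- strength of an observation made at time `u` -/
noncomputable def eps (u : unitInterval) : ℝ := if (u : ℝ) < 1 / 2 then (u : ℝ) else 0

/-- tilt of the stage-`k` observation of `v` -/
noncomputable def tl (U z : Lab V) (v : V) (k : ℕ) : ℝ := eps (U (v, k)) * ((z (v, k) : ℝ) - 1 / 2)

/-- likelihood of the spin value `b` at `v`, given the observations made before time `r` of stage `k` -/
noncomputable def lkh (U z : Lab V) (k : ℕ) (r : ℝ) (v : V) (b : Bool) : ℝ :=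
  (∏ j ∈ Finset.range k, (1 + sg b * tl U z v j)) *
    (if (U (v, k) : ℝ) < r then 1 + sg b * tl U z v k else 1)

variable [DecidableEq V]

/-- one Picard step of the window-`W` scheme with times `U` and uniforms `L` -/
noncomputable def step (p : Finset V → ℝ) (W : Finset V) (U L z : Lab V) : Lab V := fun c =>
  if c.1 ∈ W then Qs (eps (U c) * mn p W (lkh U z c.2 (U c)) c.1) (L c) else L c

/-- observations of the window-`W` scheme -/
noncomputable def Zs (p : Finset V → ℝ) (W : Finset V) (U L : Lab V) : Lab V := fun c =>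
  (step p W U L)^[(c.2 + 1) * (W.card + 1)] L c

/-- the base probability space: coordinate `((v,false),k)` is the time of stage `k` at `v`,
`((v,true),k)` the uniform of stage `k` at `v` -/
abbrev Om (V : Type*) : Type _ := Lab (V × Bool)

/-- its law -/
noncomputable abbrev PP (V : Type*) : Measure (Om V) := lab (V × Bool)

/-- times -/
def tU {V : Type*} (ω : Om V) : Lab V := fun c => ω ((c.1, false), c.2)

/-- uniforms -/
def tL {V : Type*} (ω : Om V) : Lab V := fun c => ω ((c.1, true), c.2)

/-- the scheme as a map of the base space (times kept, uniforms replaced by observations) -/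
noncomputable def Zo (p : Finset V → ℝ) (W : Finset V) (ω : Om V) : Om V := fun c =>
  if c.1.2 then Zs p W (tU ω) (tL ω) (c.1.1, c.2) else ω c

/-- data computed from raw labels -/
noncomputable def raw {V : Type*} (k : ℕ) (r : ℝ) (ω : Om V) : V → Bool → ℝ := lkh (tU ω) (tL ω) k r

/-- data of the scheme -/
noncomputable def dat (p : Finset V → ℝ) (W : Finset V) (k : ℕ) (r : ℝ) (ω : Om V) : V → Bool → ℝ :=
  lkh (tU ω) (Zs p W (tU ω) (tL ω)) k r

/-- posterior mean along the scheme -/
noncomputable def MM (p : Finset V → ℝ) (W : Finset V) (k : ℕ) (r : ℝ) (v : V) (ω : Om V) : ℝ :=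
  mn p W (dat p W k r ω) v

/-- posterior covariance along the scheme -/
noncomputable def KK (p : Finset V → ℝ) (W : Finset V) (k : ℕ) (r : ℝ) (v u : V) (ω : Om V) : ℝ :=
  cv p W (dat p W k r ω) v u

/-- relabelling by a permutation of the vertices -/
def act {V : Type*} (g : V ≃ V) (ω : Om V) : Om V := fun c => ω ((g c.1.1, c.1.2), c.2)

end Scheme

/-! ### trees -/

section Tree

variable {V : Type*} [DecidableEq V] (G : SimpleGraph V)

/-- Ising masses on the window `W` -/
noncomputable def ip (θ : ℝ) (W S : Finset V) : ℝ :=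
  Crest.ProbabilityR.TreeIsing.isingWeight G θ W (fun v => decide (v ∈ S))

/-- windows: finite connected sets -/
def Win (W : Finset V) : Prop := (G.induce (W : Set V)).Connected

/-- the part of `W` on the side of `x` of the edge `xy` -/
noncomputable def sd (W : Finset V) (x y : V) : Finset V :=
  W.filter (fun w => G.dist w x < G.dist w y)

/-- `D^b_W(x)`: density of the data in `W` given that the spin at `x` is `b` -/
noncomputable def dd (θ : ℝ) (W : Finset V) (l : V → Bool → ℝ) (x : V) (b : Bool) : ℝ :=
  2 * ∑ S ∈ W.powerset with decide (x ∈ S) = b, ip G θ W S * lw l W S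

/-- cavity message from `x` towards `y` -/
noncomputable def bm (θ : ℝ) (W : Finset V) (l : V → Bool → ℝ) (x y : V) : ℝ :=
  mn (ip G θ (sd G W x y)) (sd G W x y) l x

/-- `ψ_θ(B) = (1-B²)/(1-θ²B²)` -/
noncomputable def psi (θ B : ℝ) : ℝ := (1 - B ^ 2) / (1 - θ ^ 2 * B ^ 2)

/-- `f_θ(B) = -log ψ_θ(B)` -/
noncomputable def ff (θ B : ℝ) : ℝ := Real.log ((1 - θ ^ 2 * B ^ 2) / (1 - B ^ 2))

/-- `x 0, x 1, …, x n` is a geodesic -/
def Geo (x : ℕ → V) (n : ℕ) : Prop := ∀ i j, i ≤ j → j ≤ n → G.dist (x i) (x j) = j - i

/-- balls -/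
noncomputable def bal [G.LocallyFinite] (v : V) : ℕ → Finset V
  | 0 => {v}
  | n + 1 => (bal v n).biUnion (fun w => insert w (G.neighborFinset w))

/-- spheres -/
noncomputable def sph [G.LocallyFinite] (v : V) (n : ℕ) : Finset V :=
  (bal G v n).filter (fun u => G.dist v u = n)

/-- cavity messages along the scheme -/
noncomputable def BB (θ : ℝ) (W : Finset V) (k : ℕ) (r : ℝ) (x y : V) (ω : Om V) : ℝ :=
  bm G θ W (dat (ip G θ W) W k r ω) x y

/-- Ising posterior mean along the scheme in the window `W` -/
noncomputable def MW (θ : ℝ) (W : Finset V) (k : ℕ) (r : ℝ) (v : V) (ω : Om V) : ℝ :=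
  MM (ip G θ W) W k r v ω

/-- Ising posterior covariance along the scheme in the window `W` -/
noncomputable def KW (θ : ℝ) (W : Finset V) (k : ℕ) (r : ℝ) (v u : V) (ω : Om V) : ℝ :=
  KK (ip G θ W) W k r v u ω

end Tree

/-! ### abstract random likelihoods (for the planted estimates) -/

/-- independent, flip-symmetric, bounded random site likelihoods with mean one -/
structure LData {Ω : Type*} [MeasurableSpace Ω] (P : Measure Ω) {V : Type*} (l : Ω → V → Bool → ℝ)
    (H : ℝ) : Prop where
  meas : ∀ v b, Measurable (fun ω => l ω v b)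
  indep : ProbabilityTheory.iIndepFun (fun v ω => (l ω v true, l ω v false)) P
  lower : ∀ ω v b, Real.exp (-H) ≤ l ω v b
  upper : ∀ ω v b, l ω v b ≤ Real.exp H
  mean : ∀ v b, ∫ ω, l ω v b ∂P = 1
  symm : ∀ v, P.map (fun ω => (l ω v true, l ω v false)) = P.map (fun ω => (l ω v false, l ω v true))

/-- the convex function whose planted mean is the planted moment generating function -/
noncomputable def hp (p : ℕ) (M : ℝ) : ℝ :=
  ((1 + M) ^ (p + 1) / (1 - M) ^ p + (1 - M) ^ (p + 1) / (1 + M) ^ p) / 2

end Crest.Agent.TI
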