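import Crest.Agent.TI_Evt

/-!
Row S0241, task DYN: the dynamic inequality
-/

set_option autoImplicit false
set_option linter.unusedSectionVars false
set_option linter.unusedVariables false

namespace Crest.Agent.TI

open MeasureTheory Filter Topology
open Crest.Agent.SRF (Lab lab)

section SCH

variable {V : Type*} [DecidableEq V]

/-- the dynamic inequality for two schemes driven by the same labels -/
theorem dyn {p p' : Finset V → ℝ} {W W' : Finset V} (hp : IsMass p W) (hp' : IsMass p' W') (v : V)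
    (hv : v ∈ W) (hv' : v ∈ W') (k : ℕ) (t0 t : ℝ) (h0 : 0 ≤ t0) (h1 : t0 ≤ t) (h2 : t ≤ 1) :
    ∫ ω, (MM p W k t v ω - MM p' W' k t v ω) ^ 2 ∂PP V ≤
      ∫ ω, (MM p W k t0 v ω - MM p' W' k t0 v ω) ^ 2 ∂PP V +
      2 * ∫ r in t0..t, r ^ 2 * ∑ u ∈ W ∪ W', ∫ ω, ((KK p W k r v u ω - KK p' W' k r v u ω) ^ 2 +
        (KK p' W' k r v u ω) ^ 2 * (MM p W k r u ω - MM p' W' k r u ω) ^ 2) ∂PP V := by
  set Φ : V → ℝ → Om V → ℝ := fun u r ω => (KK p W k r v u ω - KK p' W' k r v u ω) ^ 2 +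
        (KK p' W' k r v u ω) ^ 2 * (MM p W k r u ω - MM p' W' k r u ω) ^ 2 with hΦ
  have hΦm : ∀ u, Measurable (fun q : ℝ × Om V => Φ u q.1 q.2) := by
    intro u
    refine Measurable.add ?_ ?_
    · exact ((measurable_KK2 p W k v u).sub (measurable_KK2 p' W' k v u)).pow_const 2
    · exact ((measurable_KK2 p' W' k v u).pow_const 2).mul
        (((measurable_MM2 p W k u).sub (measurable_MM2 p' W' k u)).pow_const 2)
  have hΦ0 : ∀ u r ω, 0 ≤ Φ u r ω := by
    intro u r ω
    simp only [hΦ]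
    positivity
  have hΦC : ∀ u r ω, Φ u r ω ≤ 8 := by
    intro u r ω
    simp only [hΦ]
    have a1 : (KK p W k r v u ω - KK p' W' k r v u ω) ^ 2 ≤ 4 := by
      have h1 := abs_le.1 (abs_KK_le hp k r v u ω)
      have h2 := abs_le.1 (abs_KK_le hp' k r v u ω)
      nlinarith
    have a2 : (KK p' W' k r v u ω) ^ 2 ≤ 1 := by
      have h2 := abs_le.1 (abs_KK_le hp' k r v u ω)
      nlinarith
    have a3 : (MM p W k r u ω - MM p' W' k r u ω) ^ 2 ≤ 4 := by
      have h1 := abs_le.1 (abs_MM_le hp k r u ω)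
      have h2 := abs_le.1 (abs_MM_le hp' k r u ω)
      nlinarith
    calc _ ≤ (4 : ℝ) + 1 * 4 := by gcongr
      _ = 8 := by norm_num
  have hΦi : ∀ u (r : ℝ) (ω : Om V) (x : unitInterval), r ≤ (ω ((u, false), k) : ℝ) →
      r ≤ (x : ℝ) → Φ u r (Function.update ω ((u, false), k) x) = Φ u r ω := by
    intro u r ω x h h'
    simp only [hΦ, MM_upd_U _ _ _ _ _ _ _ _ h h', KK_upd_U _ _ _ _ _ _ _ _ _ h h']
  have hbF : ∀ r ω, |(MM p W k r v ω - MM p' W' k r v ω) ^ 2| ≤ 4 := by
    intro r ω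
    have h1 := abs_le.1 (abs_MM_le hp k r v ω)
    have h2 := abs_le.1 (abs_MM_le hp' k r v ω)
    rw [abs_of_nonneg (sq_nonneg _)]
    nlinarith
  have hmM : ∀ (p : Finset V → ℝ) (W : Finset V) (r : ℝ) (v : V), Measurable (MM p W k r v) := by
    intro p W r v
    have h1 : Measurable (fun ω : Om V => (r, ω)) := measurable_const.prodMk measurable_id
    have h2 := (measurable_MM2 p W k v).comp h1
    exact h2
  have hIF : ∀ r, Integrable (fun ω => (MM p W k r v ω - MM p' W' k r v ω) ^ 2) (PP V) :=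
    fun r => integrable_bdd _ (((hmM p W r v).sub (hmM p' W' r v)).pow_const 2) 4 (hbF r)
  have hmX : ∀ u, Measurable (fun ω : Om V => if t0 ≤ (ω ((u, false), k) : ℝ) ∧
      (ω ((u, false), k) : ℝ) < t then (MI p W k u v ω - MI p' W' k u v ω) ^ 2 -
        (MM p W k (ω ((u, false), k)) v ω - MM p' W' k (ω ((u, false), k)) v ω) ^ 2 else 0) := by
    intro u
    refine Measurable.ite (measurableSet_ind t0 t _) ?_ measurable_const
    exact (((measurable_MI hp k u v).sub (measurable_MI hp' k u v)).pow_const 2).sub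
      (((measurable_MM_at p W k u v).sub (measurable_MM_at p' W' k u v)).pow_const 2)
  have hbX : ∀ u (ω : Om V), |if t0 ≤ (ω ((u, false), k) : ℝ) ∧
      (ω ((u, false), k) : ℝ) < t then (MI p W k u v ω - MI p' W' k u v ω) ^ 2 -
        (MM p W k (ω ((u, false), k)) v ω - MM p' W' k (ω ((u, false), k)) v ω) ^ 2 else 0| ≤ 20 := by
    intro u ω
    split_ifs
    · have h1 := abs_le.1 (abs_MM_le hp k (ω ((u, false), k)) v ω)
      have h2 := abs_le.1 (abs_MM_le hp' k (ω ((u, false), k)) v ω)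
      have h3 := abs_le.1 (abs_MI_le hp k u v ω)
      have h4 := abs_le.1 (abs_MI_le hp' k u v ω)
      rw [abs_le]
      constructor <;> nlinarith
    · simp
  have htele : ∫ ω, ((MM p W k t v ω - MM p' W' k t v ω) ^ 2 -
      (MM p W k t0 v ω - MM p' W' k t0 v ω) ^ 2) ∂PP V =
      ∑ u ∈ W ∪ W', ∫ ω, (if t0 ≤ (ω ((u, false), k) : ℝ) ∧ (ω ((u, false), k) : ℝ) < t then
        (MI p W k u v ω - MI p' W' k u v ω) ^ 2 -
        (MM p W k (ω ((u, false), k)) v ω - MM p' W' k (ω ((u, false), k)) v ω) ^ 2 else 0)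
          ∂PP V := by
    rw [← integral_finsetSum]
    · apply integral_congr_ae
      filter_upwards [ae_times (W ∪ W') k] with ω hω
      exact tele_phi (fun a b => (a - b) ^ 2) p p' W W' k v t0 t h1 ω hω
    · intro u _
      exact integrable_bdd _ (hmX u) 20 (hbX u)
  rw [integral_sub (hIF t) (hIF t0)] at htele
  have hle : ∀ u ∈ W ∪ W', ∫ ω, (if t0 ≤ (ω ((u, false), k) : ℝ) ∧ (ω ((u, false), k) : ℝ) < t then
        (MI p W k u v ω - MI p' W' k u v ω) ^ 2 -
        (MM p W k (ω ((u, false), k)) v ω - MM p' W' k (ω ((u, false), k)) v ω) ^ 2 else 0)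
          ∂PP V ≤ 2 * ∫ r in t0..t, r ^ 2 * ∫ ω, Φ u r ω ∂PP V := by
    intro u _
    refine (dyn_event hp hp' u v k t0 t).trans ?_
    exact time_event (Φ u) (hΦm u) 8 (hΦ0 u) (hΦC u) u k (hΦi u) t0 t h0 h1 h2
  have hsum := Finset.sum_le_sum hle
  rw [← htele, ← Finset.mul_sum] at hsum
  have hII : ∀ u, IntervalIntegrable (fun r : ℝ => r ^ 2 * ∫ ω, Φ u r ω ∂PP V) volume t0 t := by
    intro u
    have hmE : Measurable (fun r : ℝ => ∫ ω, Φ u r ω ∂PP V) :=
      ((hΦm u).stronglyMeasurable.integral_prod_right').measurable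
    rw [intervalIntegrable_iff_integrableOn_Ioc_of_le h1]
    refine Measure.integrableOn_of_bounded (M := 8) (by simp)
      ((measurable_id.pow_const 2).mul hmE).aestronglyMeasurable ?_
    refine (ae_restrict_iff' measurableSet_Ioc).2 (Filter.Eventually.of_forall fun r hr => ?_)
    have e1 : 0 ≤ ∫ ω, Φ u r ω ∂PP V := integral_nonneg (hΦ0 u r)
    have e2 : ∫ ω, Φ u r ω ∂PP V ≤ 8 := by
      have := norm_integral_le_of_norm_le_const (μ := PP V)
        (f := fun ω => Φ u r ω) (C := 8) (Filter.Eventually.of_forall fun ω => by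
          rw [Real.norm_eq_abs, abs_of_nonneg (hΦ0 u r ω)]; exact hΦC u r ω)
      simp only [probReal_univ, mul_one, Real.norm_eq_abs] at this
      exact (le_abs_self _).trans this
    have e3 : r ^ 2 ≤ 1 := by
      have := hr.1
      have := hr.2
      nlinarith
    rw [Real.norm_eq_abs]
    rw [abs_of_nonneg (by positivity)]
    calc r ^ 2 * ∫ ω, Φ u r ω ∂PP V ≤ 1 * 8 := by gcongr
      _ = 8 := one_mul 8
  rw [← intervalIntegral.integral_finsetSum (fun u _ => hII u)] at hsum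
  have hfin : (fun r : ℝ => r ^ 2 * ∑ u ∈ W ∪ W', ∫ ω, ((KK p W k r v u ω - KK p' W' k r v u ω) ^ 2 +
        (KK p' W' k r v u ω) ^ 2 * (MM p W k r u ω - MM p' W' k r u ω) ^ 2) ∂PP V) =
      fun r : ℝ => ∑ u ∈ W ∪ W', r ^ 2 * ∫ ω, Φ u r ω ∂PP V := by
    funext r
    rw [Finset.mul_sum]
  rw [hfin]
  linarith

end SCH

end Crest.Agent.TI
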