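import Crest.Agent.TI_Scha

/-!
Row S0241: lemmas on single observation events, shared by tasks DYN and JEN (helper3).
-/

set_option autoImplicit false
set_option linter.unusedSimpArgs false
set_option linter.unusedSectionVars false

namespace Crest.Agent.TI

open MeasureTheory Filter Topology
open Crest.Agent.SRF (Lab lab)

theorem integrable_bdd {Ω : Type*} [MeasurableSpace Ω] (P : Measure Ω) [IsFiniteMeasure P]
    {f : Ω → ℝ} (hf : Measurable f) (C : ℝ) (hC : ∀ ω, |f ω| ≤ C) : Integrable f P :=
  Integrable.of_bound hf.aestronglyMeasurable C (Filter.Eventually.of_forall hC)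

theorem integral_resample {E : Type*} [DecidableEq E] (i : E × ℕ) (G : Lab E → ℝ)
    (hG : Measurable G) (C : ℝ) (hC : ∀ L, |G L| ≤ C) :
    ∫ L, G L ∂lab E = ∫ L, (∫ u : unitInterval, G (Function.update L i u)) ∂lab E := by
  conv_lhs => rw [← SRF.map_update_lab i]
  rw [integral_map (SRF.measurable_update_lab i).aemeasurable hG.aestronglyMeasurable,
    integral_prod]
  exact integrable_bdd _ (hG.comp (SRF.measurable_update_lab i)) C (fun _ => hC _)

theorem ae_coord_ne {E : Type*} [DecidableEq E] (i j : E × ℕ) (hij : i ≠ j) :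
    ∀ᵐ L ∂lab E, L i ≠ L j := by
  rw [ae_iff]
  simp only [ne_eq, not_not]
  have hms : MeasurableSet {L : Lab E | L i = L j} :=
    measurableSet_eq_fun (measurable_pi_apply i) (measurable_pi_apply j)
  rw [← lintegral_indicator_one hms, SRF.lintegral_resample i _ (measurable_one.indicator hms)]
  rw [lintegral_eq_zero_iff']
  · refine Filter.Eventually.of_forall fun L => ?_
    have : ∀ u : unitInterval, ({L : Lab E | L i = L j}.indicator 1 (Function.update L i u) : ENNReal) =
        ({L j} : Set unitInterval).indicator 1 u := by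
      intro u
      by_cases hu : u = L j
      · simp [Set.indicator, hu, Function.update_of_ne hij.symm]
      · simp [Set.indicator, hu, Function.update_of_ne hij.symm]
    simp only [this, Pi.zero_apply]
    rw [lintegral_indicator_one (measurableSet_singleton _)]
    simp
  · have h1 : Measurable (fun q : Lab E × unitInterval =>
        ({L : Lab E | L i = L j}.indicator 1 (Function.update q.1 i q.2) : ENNReal)) :=
      (measurable_one.indicator hms).comp (SRF.measurable_update_lab i)
    exact h1.lintegral_prod_right'.aemeasurable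

/-- telescoping over events -/
theorem telescope {V : Type*} [DecidableEq V] (Λ : Finset V) (T : V → ℝ)
    (hT : ∀ u ∈ Λ, ∀ v ∈ Λ, u ≠ v → T u ≠ T v) (g : Finset V → ℝ) (t0 t : ℝ) (h : t0 ≤ t) :
    g (Λ.filter (fun u => T u < t)) - g (Λ.filter (fun u => T u < t0)) =
      ∑ u ∈ Λ, if t0 ≤ T u ∧ T u < t then
        g (insert u (Λ.filter (fun w => T w < T u))) - g (Λ.filter (fun w => T w < T u)) else 0 := by
  obtain ⟨n, hn⟩ : ∃ n, (Λ.filter (fun u => t0 ≤ T u ∧ T u < t)).card = n := ⟨_, rfl⟩
  induction n using Nat.strong_induction_on generalizing t with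
  | _ n ih =>
    rcases (Λ.filter (fun u => t0 ≤ T u ∧ T u < t)).eq_empty_or_nonempty with he | hne
    · have h1 : Λ.filter (fun u => T u < t) = Λ.filter (fun u => T u < t0) := by
        ext u
        simp only [Finset.mem_filter]
        constructor
        · rintro ⟨hu, h2⟩
          refine ⟨hu, ?_⟩
          by_contra h3
          have : u ∈ Λ.filter (fun u => t0 ≤ T u ∧ T u < t) :=
            Finset.mem_filter.2 ⟨hu, not_lt.1 h3, h2⟩
          rw [he] at this
          simp at this
        · rintro ⟨hu, h2⟩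
          exact ⟨hu, h2.trans_le h⟩
      rw [h1, sub_self]
      symm
      apply Finset.sum_eq_zero
      intro u hu
      rw [if_neg]
      intro h3
      have : u ∈ Λ.filter (fun u => t0 ≤ T u ∧ T u < t) := Finset.mem_filter.2 ⟨hu, h3⟩
      rw [he] at this
      simp at this
    · obtain ⟨u, hu, hmax⟩ := Finset.exists_max_image _ T hne
      rw [Finset.mem_filter] at hu
      obtain ⟨huΛ, hu0, hut⟩ := hu
      have hlt : ∀ w ∈ Λ, w ≠ u → (T w < t ↔ T w < T u) := by
        intro w hw hwu
        constructor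
        · intro h2
          by_contra h3
          push Not at h3
          have h4 := hmax w (Finset.mem_filter.2 ⟨hw, hu0.trans h3, h2⟩)
          exact hT w hw u huΛ hwu (le_antisymm h4 h3)
        · intro h2
          exact h2.trans hut
      have h1 : Λ.filter (fun w => T w < t) = insert u (Λ.filter (fun w => T w < T u)) := by
        ext w
        simp only [Finset.mem_filter, Finset.mem_insert]
        constructor
        · rintro ⟨hw, h2⟩
          by_cases hwu : w = u
          · exact Or.inl hwu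
          · exact Or.inr ⟨hw, (hlt w hw hwu).1 h2⟩
        · rintro (rfl | ⟨hw, h2⟩)
          · exact ⟨huΛ, hut⟩
          · exact ⟨hw, h2.trans hut⟩
      have h2 : (Λ.filter (fun w => t0 ≤ T w ∧ T w < T u)).card < n := by
        rw [← hn]
        apply Finset.card_lt_card
        rw [Finset.ssubset_iff_of_subset]
        · refine ⟨u, Finset.mem_filter.2 ⟨huΛ, hu0, hut⟩, ?_⟩
          simp
        · intro w hw
          rw [Finset.mem_filter] at hw ⊢
          exact ⟨hw.1, hw.2.1, hw.2.2.trans hut⟩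
      have h3 := ih _ h2 (T u) hu0 rfl
      have h4 : (∑ w ∈ Λ, if t0 ≤ T w ∧ T w < t then
          g (insert w (Λ.filter (fun x => T x < T w))) - g (Λ.filter (fun x => T x < T w)) else 0) =
          (∑ w ∈ Λ, if t0 ≤ T w ∧ T w < T u then
          g (insert w (Λ.filter (fun x => T x < T w))) - g (Λ.filter (fun x => T x < T w)) else 0) +
          ∑ w ∈ Λ, if w = u then
          g (insert w (Λ.filter (fun x => T x < T w))) - g (Λ.filter (fun x => T x < T w)) else 0 := by
        rw [← Finset.sum_add_distrib]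
        apply Finset.sum_congr rfl
        intro w hw
        by_cases hwu : w = u
        · subst hwu
          simp [hu0, hut]
        · simp [hwu, hlt w hw hwu]
      rw [h4, ← h3, h1, Finset.sum_ite_eq' Λ u, if_pos huΛ]
      ring


section Masked

variable {V : Type*} [DecidableEq V]

/-- data with the stage `k` observations of the sites of `A` -/
noncomputable def lkm (U z : Lab V) (k : ℕ) (A : Finset V) (v : V) (b : Bool) : ℝ :=
  (∏ j ∈ Finset.range k, (1 + sg b * tl U z v j)) * (if v ∈ A then 1 + sg b * tl U z v k else 1)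

theorem mn_lkh_eq_lkm (p : Finset V → ℝ) (W Λ : Finset V) (hW : W ⊆ Λ) (U z : Lab V) (k : ℕ)
    (r : ℝ) (v : V) : mn p W (lkh U z k r) v =
      mn p W (lkm U z k (Λ.filter (fun u => (U (u, k) : ℝ) < r))) v := by
  apply mn_congr
  intro w hw
  funext b
  simp [lkh, lkm, hW hw]

theorem mn_bump_eq_lkm (p : Finset V → ℝ) (W Λ : Finset V) (hW : W ⊆ Λ) (U z : Lab V) (k : ℕ)
    (u v : V) : mn p W (bump (lkh U z k (U (u, k))) u (tl U z u k)) v =
      mn p W (lkm U z k (insert u (Λ.filter (fun w => (U (w, k) : ℝ) < U (u, k))))) v := by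
  apply mn_congr
  intro w hw
  funext b
  unfold bump
  split_ifs with h
  · subst h
    simp [lkh, lkm]
  · simp [lkh, lkm, hW hw, h]

/-- the posterior mean at `v` just after the stage-`k` observation of `u` -/
noncomputable def MI (p : Finset V → ℝ) (W : Finset V) (k : ℕ) (u v : V) (ω : Om V) : ℝ :=
  mn p W (bump (dat p W k (ω ((u, false), k)) ω) u (tl (tU ω) (Zs p W (tU ω) (tL ω)) u k)) v

theorem tele_phi (φ : ℝ → ℝ → ℝ) (p p' : Finset V → ℝ) (W W' : Finset V) (k : ℕ) (v : V)
    (t0 t : ℝ) (h : t0 ≤ t) (ω : Om V)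
    (hω : ∀ u ∈ W ∪ W', ∀ w ∈ W ∪ W', u ≠ w → ω ((u, false), k) ≠ ω ((w, false), k)) :
    φ (MM p W k t v ω) (MM p' W' k t v ω) - φ (MM p W k t0 v ω) (MM p' W' k t0 v ω) =
      ∑ u ∈ W ∪ W', if t0 ≤ (ω ((u, false), k) : ℝ) ∧ (ω ((u, false), k) : ℝ) < t then
        φ (MI p W k u v ω) (MI p' W' k u v ω) -
          φ (MM p W k (ω ((u, false), k)) v ω) (MM p' W' k (ω ((u, false), k)) v ω) else 0 := by
  have h1 := telescope (W ∪ W') (fun u => (tU ω (u, k) : ℝ)) (fun u hu w hw huw h2 =>
    hω u hu w hw huw (Subtype.ext h2))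
    (fun A => φ (mn p W (lkm (tU ω) (Zs p W (tU ω) (tL ω)) k A) v)
      (mn p' W' (lkm (tU ω) (Zs p' W' (tU ω) (tL ω)) k A) v)) t0 t h
  have e1 : ∀ r, MM p W k r v ω = mn p W (lkm (tU ω) (Zs p W (tU ω) (tL ω)) k
      ((W ∪ W').filter (fun u => (tU ω (u, k) : ℝ) < r))) v := fun r =>
    mn_lkh_eq_lkm p W (W ∪ W') Finset.subset_union_left _ _ k r v
  have e2 : ∀ r, MM p' W' k r v ω = mn p' W' (lkm (tU ω) (Zs p' W' (tU ω) (tL ω)) k
      ((W ∪ W').filter (fun u => (tU ω (u, k) : ℝ) < r))) v := fun r =>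
    mn_lkh_eq_lkm p' W' (W ∪ W') Finset.subset_union_right _ _ k r v
  have e3 : ∀ u, MI p W k u v ω = mn p W (lkm (tU ω) (Zs p W (tU ω) (tL ω)) k
      (insert u ((W ∪ W').filter (fun w => (tU ω (w, k) : ℝ) < tU ω (u, k))))) v := fun u =>
    mn_bump_eq_lkm p W (W ∪ W') Finset.subset_union_left _ _ k u v
  have e4 : ∀ u, MI p' W' k u v ω = mn p' W' (lkm (tU ω) (Zs p' W' (tU ω) (tL ω)) k
      (insert u ((W ∪ W').filter (fun w => (tU ω (w, k) : ℝ) < tU ω (u, k))))) v := fun u =>
    mn_bump_eq_lkm p' W' (W ∪ W') Finset.subset_union_right _ _ k u v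
  simp only [← e1, ← e2, ← e3, ← e4] at h1
  exact h1

/-- the increment of the posterior mean -/
noncomputable def JJ (ε m K : ℝ) (x : unitInterval) : ℝ :=
  ε * ((Qs (ε * m) x : ℝ) - 1 / 2) * K / (1 + ε * ((Qs (ε * m) x : ℝ) - 1 / 2) * m)

theorem MI_eq {p : Finset V → ℝ} {W : Finset V} (hp : IsMass p W) (k : ℕ) (u v : V) (ω : Om V) :
    MI p W k u v ω = MM p W k (ω ((u, false), k)) v ω +
      JJ (eps (ω ((u, false), k))) (MM p W k (ω ((u, false), k)) u ω)
        (KK p W k (ω ((u, false), k)) v u ω) (ω ((u, true), k)) := by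
  have hl : ∀ v b, 0 < dat p W k (ω ((u, false), k)) ω v b := fun v b => lkh_pos _ _ _ _ _ _
  unfold MI
  by_cases hu : u ∈ W
  · have h1 := abs_tl_le (tU ω) (Zs p W (tU ω) (tL ω)) u k
    rw [mn_bump hp _ hl u hu _ (by linarith) v]
    have h2 : tl (tU ω) (Zs p W (tU ω) (tL ω)) u k = eps (ω ((u, false), k)) *
        ((Qs (eps (ω ((u, false), k)) * MM p W k (ω ((u, false), k)) u ω) (ω ((u, true), k)) : ℝ)
          - 1 / 2) := by
      unfold tl
      rw [Zs_fix, if_pos hu]
      rfl
    rw [h2]
    rfl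
  · have h1 : KK p W k (ω ((u, false), k)) v u ω = 0 := cv_notMem hp _ hl v u hu
    rw [h1]
    unfold JJ
    rw [mul_zero, zero_div, add_zero]
    apply mn_congr
    intro w hw
    funext b
    unfold bump
    rw [if_neg]
    · rintro rfl
      exact hu hw

theorem Qs_half (m : ℝ) (x : unitInterval) : |(Qs m x : ℝ) - 1 / 2| ≤ 1 / 2 := by
  have h1 := (Qs m x).2.1
  have h2 := (Qs m x).2.2
  rw [abs_le]
  constructor <;> linarith

theorem integral_half : ∫ z : unitInterval, ((z : ℝ) - 1 / 2) = 0 := by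
  have h := integral_subtype (measurableSet_Icc (a := (0 : ℝ)) (b := 1))
    (fun z : ℝ => z - 1 / 2)
  have h2 : ∫ z : unitInterval, ((z : ℝ) - 1 / 2) = ∫ z in Set.Icc (0 : ℝ) 1, (z - 1 / 2) := h
  rw [h2, integral_Icc_eq_integral_Ioc, ← intervalIntegral.integral_of_le zero_le_one]
  rw [intervalIntegral.integral_sub (by simp) (by simp)]
  simp

theorem JJ_den (ε m : ℝ) (x : ℝ) (hε0 : 0 ≤ ε) (hε : ε ≤ 1 / 2) (hm : |m| ≤ 1)
    (hx : |x| ≤ 1 / 2) : 3 / 4 ≤ 1 + ε * x * m := by
  have h1 : |ε * x * m| ≤ 1 / 4 := by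
    rw [abs_mul, abs_mul, abs_of_nonneg hε0]
    calc ε * |x| * |m| ≤ 1 / 2 * (1 / 2) * 1 := by gcongr
      _ = 1 / 4 := by norm_num
  linarith [(abs_le.1 h1).1]

theorem JJ_bd (ε m K : ℝ) (x : ℝ) (hε0 : 0 ≤ ε) (hε : ε ≤ 1 / 2) (hm : |m| ≤ 1)
    (hx : |x| ≤ 1 / 2) : |ε * x * K / (1 + ε * x * m)| ≤ |K| := by
  have h1 := JJ_den ε m x hε0 hε hm hx
  rw [abs_div, div_le_iff₀ (by rw [abs_pos]; linarith), abs_of_nonneg (a := 1 + ε * x * m) (by linarith),
    abs_mul, abs_mul, abs_of_nonneg hε0]
  calc ε * |x| * |K| ≤ 1 / 2 * (1 / 2) * |K| := by gcongr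
    _ ≤ |K| * (3 / 4) := by nlinarith [abs_nonneg K]
    _ ≤ _ := by gcongr

theorem JJ_abs (ε m K : ℝ) (x : unitInterval) (hε0 : 0 ≤ ε) (hε : ε ≤ 1 / 2) (hm : |m| ≤ 1) :
    |JJ ε m K x| ≤ |K| :=
  JJ_bd ε m K _ hε0 hε hm (Qs_half _ _)

theorem measurable_JJ : Measurable (fun q : (ℝ × ℝ × ℝ) × unitInterval =>
    JJ q.1.1 q.1.2.1 q.1.2.2 q.2) := by
  unfold JJ
  have h1 : Measurable (fun q : (ℝ × ℝ × ℝ) × unitInterval => (Qs (q.1.1 * q.1.2.1) q.2 : ℝ)) := by
    refine measurable_subtype_coe.comp (measurable_Qs.comp (Measurable.prodMk ?_ measurable_snd))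
    fun_prop
  fun_prop

theorem measurable_JJ_right (ε m K : ℝ) : Measurable (fun x => JJ ε m K x) := by
  have h1 : Measurable (fun x : unitInterval => ((ε, m, K), x)) :=
    measurable_const.prodMk measurable_id
  have h2 := measurable_JJ.comp h1
  exact h2

theorem JJ_int (ε m K : ℝ) (hε0 : 0 ≤ ε) (hε : ε ≤ 1 / 2) (hm : |m| ≤ 1) :
    ∫ x : unitInterval, JJ ε m K x = 0 := by
  have hm1 : |ε * m| ≤ 1 := by
    rw [abs_mul, abs_of_nonneg hε0]
    calc ε * |m| ≤ 1 / 2 * 1 := by gcongr
      _ ≤ 1 := by norm_num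
  have hm2 := abs_le.1 hm1
  have hz : ∀ z : unitInterval, |(z : ℝ) - 1 / 2| ≤ 1 / 2 := by
    intro z
    have h1 := z.2.1
    have h2 := z.2.2
    rw [abs_le]
    constructor <;> linarith
  have h := integral_Qs (ε * m) hm2.1 hm2.2
    (fun z => ε * ((z : ℝ) - 1 / 2) * K / (1 + ε * ((z : ℝ) - 1 / 2) * m)) (by fun_prop) |K|
    (fun z => JJ_bd ε m K _ hε0 hε hm (hz z))
  have h2 : ∫ x : unitInterval, JJ ε m K x = ∫ u : unitInterval, (fun z : unitInterval =>
      ε * ((z : ℝ) - 1 / 2) * K / (1 + ε * ((z : ℝ) - 1 / 2) * m)) (Qs (ε * m) u) := rfl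
  rw [h2, h]
  have h3 : ∀ z : unitInterval, ε * ((z : ℝ) - 1 / 2) * K / (1 + ε * ((z : ℝ) - 1 / 2) * m) *
      (1 + ε * m * ((z : ℝ) - 1 / 2)) = (ε * K) * ((z : ℝ) - 1 / 2) := by
    intro z
    have h4 := JJ_den ε m _ hε0 hε hm (hz z)
    have h5 : 1 + ε * m * ((z : ℝ) - 1 / 2) = 1 + ε * ((z : ℝ) - 1 / 2) * m := by ring
    rw [h5, div_mul_cancel₀ _ (by linarith)]
    ring
  simp only [h3]
  rw [integral_const_mul, integral_half, mul_zero]

theorem JJ_diff (ε m K m' K' : ℝ) (x : unitInterval) (hε0 : 0 ≤ ε) (hε : ε ≤ 1 / 2) (hm : |m| ≤ 1)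
    (hm' : |m'| ≤ 1) (hK : |K| ≤ 1) (hK' : |K'| ≤ 1) :
    (JJ ε m K x - JJ ε m' K' x) ^ 2 ≤ ε ^ 2 * ((K - K') ^ 2 + K' ^ 2 * (m - m') ^ 2) := by
  refine jump_diff ε _ _ K K' m m' hε0 hε (Qs_half _ _) (Qs_half _ _) hm hm' hK hK' ?_
  have := Qs_lipschitz (ε * m) (ε * m') x
  simpa using this

end Masked


section Events

variable {V : Type*} [DecidableEq V]

theorem dat_upd_L (p : Finset V → ℝ) (W : Finset V) (k : ℕ) (r : ℝ) (ω : Om V) (u : V)
    (x : unitInterval) (h : r ≤ (ω ((u, false), k) : ℝ)) :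
    dat p W k r (Function.update ω ((u, true), k) x) = dat p W k r ω := by
  unfold dat
  apply lkh_Zs_congr
  · intro c hc
    have hck : c.2 ≠ k := hc.ne
    constructor
    · simp [tU, Function.update_apply]
    · simp [tL, Function.update_apply, hck]
  · intro v hv
    have hU : tU (Function.update ω ((u, true), k) x) (v, k) = tU ω (v, k) := by
      simp [tU, Function.update_apply]
    rw [hU, or_self] at hv
    have hvu : v ≠ u := by
      rintro rfl
      exact absurd (lt_of_lt_of_le hv h) (lt_irrefl _)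
    refine ⟨hU, ?_⟩
    simp [tL, Function.update_apply, hvu]

theorem dat_upd_U (p : Finset V → ℝ) (W : Finset V) (k : ℕ) (r : ℝ) (ω : Om V) (u : V)
    (x : unitInterval) (h : r ≤ (ω ((u, false), k) : ℝ)) (h' : r ≤ (x : ℝ)) :
    dat p W k r (Function.update ω ((u, false), k) x) = dat p W k r ω := by
  unfold dat
  apply lkh_Zs_congr
  · intro c hc
    have hck : c.2 ≠ k := hc.ne
    constructor
    · simp [tU, Function.update_apply, hck]
    · simp [tL, Function.update_apply]
  · intro v hv
    have hvu : v ≠ u := by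
      rintro rfl
      rcases hv with hv | hv
      · simp only [tU, Function.update_self] at hv
        exact absurd (lt_of_lt_of_le hv h') (lt_irrefl _)
      · exact absurd (lt_of_lt_of_le hv h) (lt_irrefl _)
    constructor
    · simp [tU, Function.update_apply, hvu]
    · simp [tL, Function.update_apply]

theorem MM_upd_L (p : Finset V → ℝ) (W : Finset V) (k : ℕ) (r : ℝ) (ω : Om V) (u v : V)
    (x : unitInterval) (h : r ≤ (ω ((u, false), k) : ℝ)) :
    MM p W k r v (Function.update ω ((u, true), k) x) = MM p W k r v ω := by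
  unfold MM; rw [dat_upd_L p W k r ω u x h]

theorem KK_upd_L (p : Finset V → ℝ) (W : Finset V) (k : ℕ) (r : ℝ) (ω : Om V) (u v w : V)
    (x : unitInterval) (h : r ≤ (ω ((u, false), k) : ℝ)) :
    KK p W k r v w (Function.update ω ((u, true), k) x) = KK p W k r v w ω := by
  unfold KK; rw [dat_upd_L p W k r ω u x h]

theorem MM_upd_U (p : Finset V → ℝ) (W : Finset V) (k : ℕ) (r : ℝ) (ω : Om V) (u v : V)
    (x : unitInterval) (h : r ≤ (ω ((u, false), k) : ℝ)) (h' : r ≤ (x : ℝ)) :
    MM p W k r v (Function.update ω ((u, false), k) x) = MM p W k r v ω := by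
  unfold MM; rw [dat_upd_U p W k r ω u x h h']

theorem KK_upd_U (p : Finset V → ℝ) (W : Finset V) (k : ℕ) (r : ℝ) (ω : Om V) (u v w : V)
    (x : unitInterval) (h : r ≤ (ω ((u, false), k) : ℝ)) (h' : r ≤ (x : ℝ)) :
    KK p W k r v w (Function.update ω ((u, false), k) x) = KK p W k r v w ω := by
  unfold KK; rw [dat_upd_U p W k r ω u x h h']

theorem abs_MM_le {p : Finset V → ℝ} {W : Finset V} (hp : IsMass p W) (k : ℕ) (r : ℝ) (v : V)
    (ω : Om V) : |MM p W k r v ω| ≤ 1 := abs_mn_le hp _ (fun _ _ => lkh_pos _ _ _ _ _ _) v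

theorem abs_KK_le {p : Finset V → ℝ} {W : Finset V} (hp : IsMass p W) (k : ℕ) (r : ℝ) (v u : V)
    (ω : Om V) : |KK p W k r v u ω| ≤ 1 := abs_cv_le hp _ (fun _ _ => lkh_pos _ _ _ _ _ _) v u

omit [DecidableEq V] in
theorem measurable_coord (c : (V × Bool) × ℕ) : Measurable (fun ω : Om V => ω c) :=
  measurable_pi_apply c

omit [DecidableEq V] in
theorem measurable_coordR (c : (V × Bool) × ℕ) : Measurable (fun ω : Om V => (ω c : ℝ)) :=
  measurable_subtype_coe.comp (measurable_coord c)

theorem measurable_MM_at (p : Finset V → ℝ) (W : Finset V) (k : ℕ) (u v : V) :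
    Measurable (fun ω : Om V => MM p W k (ω ((u, false), k)) v ω) := by
  have h1 : Measurable (fun ω : Om V => ((ω ((u, false), k) : ℝ), ω)) :=
    (measurable_coordR _).prodMk measurable_id
  have h2 := (measurable_MM2 p W k v).comp h1
  exact h2

theorem measurable_KK_at (p : Finset V → ℝ) (W : Finset V) (k : ℕ) (u v w : V) :
    Measurable (fun ω : Om V => KK p W k (ω ((u, false), k)) v w ω) := by
  have h1 : Measurable (fun ω : Om V => ((ω ((u, false), k) : ℝ), ω)) :=
    (measurable_coordR _).prodMk measurable_id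
  have h2 := (measurable_KK2 p W k v w).comp h1
  exact h2

theorem measurable_MI {p : Finset V → ℝ} {W : Finset V} (hp : IsMass p W) (k : ℕ) (u v : V) :
    Measurable (MI p W k u v) := by
  have h : MI p W k u v = fun ω => MM p W k (ω ((u, false), k)) v ω +
      JJ (eps (ω ((u, false), k))) (MM p W k (ω ((u, false), k)) u ω)
        (KK p W k (ω ((u, false), k)) v u ω) (ω ((u, true), k)) := by
    funext ω
    exact MI_eq hp k u v ω
  rw [h]
  have h1 : Measurable (fun ω : Om V => ((eps (ω ((u, false), k)),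
      MM p W k (ω ((u, false), k)) u ω, KK p W k (ω ((u, false), k)) v u ω), ω ((u, true), k))) :=
    Measurable.prodMk (Measurable.prodMk (measurable_eps.comp (measurable_coord _))
      (Measurable.prodMk (measurable_MM_at p W k u u) (measurable_KK_at p W k u v u)))
      (measurable_coord _)
  have h2 := measurable_JJ.comp h1
  exact (measurable_MM_at p W k u v).add h2

theorem abs_MI_le {p : Finset V → ℝ} {W : Finset V} (hp : IsMass p W) (k : ℕ) (u v : V)
    (ω : Om V) : |MI p W k u v ω| ≤ 2 := by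
  rw [MI_eq hp k u v ω]
  have h1 := abs_MM_le hp k (ω ((u, false), k)) v ω
  have h2 := JJ_abs (eps (ω ((u, false), k))) (MM p W k (ω ((u, false), k)) u ω)
        (KK p W k (ω ((u, false), k)) v u ω) (ω ((u, true), k)) (eps_nonneg _) (eps_le _).2
        (abs_MM_le hp _ _ _ _)
  have h3 := abs_KK_le hp k (ω ((u, false), k)) v u ω
  calc _ ≤ |MM p W k (ω ((u, false), k)) v ω| + _ := abs_add_le _ _
    _ ≤ 1 + 1 := add_le_add h1 (h2.trans h3)
    _ = 2 := by norm_num

theorem MI_upd {p : Finset V → ℝ} {W : Finset V} (hp : IsMass p W) (k : ℕ) (u v : V) (ω : Om V)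
    (x : unitInterval) :
    MI p W k u v (Function.update ω ((u, true), k) x) = MM p W k (ω ((u, false), k)) v ω +
      JJ (eps (ω ((u, false), k))) (MM p W k (ω ((u, false), k)) u ω)
        (KK p W k (ω ((u, false), k)) v u ω) x := by
  rw [MI_eq hp]
  have h1 : Function.update ω ((u, true), k) x ((u, false), k) = ω ((u, false), k) := by
    simp [Function.update_apply]
  have h2 : Function.update ω ((u, true), k) x ((u, true), k) = x := by simp
  rw [h1, h2, MM_upd_L _ _ _ _ _ _ _ _ le_rfl, MM_upd_L _ _ _ _ _ _ _ _ le_rfl,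
    KK_upd_L _ _ _ _ _ _ _ _ _ le_rfl]

theorem measurable_inner {E : Type*} [DecidableEq E] (i : E × ℕ) (G : Lab E → ℝ)
    (hG : Measurable G) :
    Measurable (fun L => ∫ u : unitInterval, G (Function.update L i u)) :=
  ((hG.comp (SRF.measurable_update_lab i)).stronglyMeasurable.integral_prod_right').measurable

theorem abs_inner_le {E : Type*} [DecidableEq E] (i : E × ℕ) (G : Lab E → ℝ) (C : ℝ)
    (hC : ∀ L, |G L| ≤ C) (L : Lab E) :
    |∫ u : unitInterval, G (Function.update L i u)| ≤ C := by
  have := norm_integral_le_of_norm_le_const (μ := (volume : Measure unitInterval))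
    (f := fun u => G (Function.update L i u)) (C := C) (Filter.Eventually.of_forall fun u => hC _)
  simpa using this

/-- monotonicity after resampling one coordinate -/
theorem integral_resample_le {E : Type*} [DecidableEq E] (i : E × ℕ) (G H : Lab E → ℝ)
    (hG : Measurable G) (C : ℝ) (hC : ∀ L, |G L| ≤ C) (hH : Measurable H) (hC' : ∀ L, |H L| ≤ C)
    (h : ∀ L, ∫ u : unitInterval, G (Function.update L i u) ≤ H L) :
    ∫ L, G L ∂lab E ≤ ∫ L, H L ∂lab E := by
  rw [integral_resample i G hG C hC]
  exact integral_mono (integrable_bdd _ (measurable_inner i G hG) C (abs_inner_le i G C hC))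
    (integrable_bdd _ hH C hC') h

theorem integral_resample_ge {E : Type*} [DecidableEq E] (i : E × ℕ) (G H : Lab E → ℝ)
    (hG : Measurable G) (C : ℝ) (hC : ∀ L, |G L| ≤ C) (hH : Measurable H) (hC' : ∀ L, |H L| ≤ C)
    (h : ∀ L, H L ≤ ∫ u : unitInterval, G (Function.update L i u)) :
    ∫ L, H L ∂lab E ≤ ∫ L, G L ∂lab E := by
  rw [integral_resample i G hG C hC]
  exact integral_mono (integrable_bdd _ hH C hC')
    (integrable_bdd _ (measurable_inner i G hG) C (abs_inner_le i G C hC)) h

theorem measurableSet_ind (t0 t : ℝ) (c : (V × Bool) × ℕ) :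
    MeasurableSet {ω : Om V | t0 ≤ (ω c : ℝ) ∧ (ω c : ℝ) < t} :=
  (measurableSet_le measurable_const (measurable_coordR c)).inter
    (measurableSet_lt (measurable_coordR c) measurable_const)

theorem dyn_event {p p' : Finset V → ℝ} {W W' : Finset V} (hp : IsMass p W) (hp' : IsMass p' W')
    (u v : V) (k : ℕ) (t0 t : ℝ) :
    ∫ ω, (if t0 ≤ (ω ((u, false), k) : ℝ) ∧ (ω ((u, false), k) : ℝ) < t then
      (MI p W k u v ω - MI p' W' k u v ω) ^ 2 -
        (MM p W k (ω ((u, false), k)) v ω - MM p' W' k (ω ((u, false), k)) v ω) ^ 2 else 0) ∂PP V ≤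
    ∫ ω, (if t0 ≤ (ω ((u, false), k) : ℝ) ∧ (ω ((u, false), k) : ℝ) < t then
      eps (ω ((u, false), k)) ^ 2 *
        ((KK p W k (ω ((u, false), k)) v u ω - KK p' W' k (ω ((u, false), k)) v u ω) ^ 2 +
        (KK p' W' k (ω ((u, false), k)) v u ω) ^ 2 *
          (MM p W k (ω ((u, false), k)) u ω - MM p' W' k (ω ((u, false), k)) u ω) ^ 2) else 0)
            ∂PP V := by
  have hMM := fun ω => abs_MM_le hp k (ω ((u, false), k)) v ω
  have hMM' := fun ω => abs_MM_le hp' k (ω ((u, false), k)) v ω
  have hMu := fun ω => abs_MM_le hp k (ω ((u, false), k)) u ω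
  have hMu' := fun ω => abs_MM_le hp' k (ω ((u, false), k)) u ω
  have hKK := fun ω => abs_KK_le hp k (ω ((u, false), k)) v u ω
  have hKK' := fun ω => abs_KK_le hp' k (ω ((u, false), k)) v u ω
  have hMI := fun ω => abs_MI_le hp k u v ω
  have hMI' := fun ω => abs_MI_le hp' k u v ω
  refine integral_resample_le ((u, true), k) _ _ ?_ 20 ?_ ?_ ?_ ?_
  · refine Measurable.ite (measurableSet_ind t0 t _) ?_ measurable_const
    exact (((measurable_MI hp k u v).sub (measurable_MI hp' k u v)).pow_const 2).sub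
      (((measurable_MM_at p W k u v).sub (measurable_MM_at p' W' k u v)).pow_const 2)
  · intro ω
    split_ifs
    · have h1 := abs_le.1 (hMM ω)
      have h2 := abs_le.1 (hMM' ω)
      have h3 := abs_le.1 (hMI ω)
      have h4 := abs_le.1 (hMI' ω)
      rw [abs_le]
      constructor <;> nlinarith
    · simp
  · refine Measurable.ite (measurableSet_ind t0 t _) ?_ measurable_const
    refine ((measurable_eps.comp (measurable_coord ((u, false), k))).pow_const 2).mul
      (Measurable.add ?_ ?_)
    · exact ((measurable_KK_at p W k u v u).sub (measurable_KK_at p' W' k u v u)).pow_const 2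
    · exact ((measurable_KK_at p' W' k u v u).pow_const 2).mul
        (((measurable_MM_at p W k u u).sub (measurable_MM_at p' W' k u u)).pow_const 2)
  · intro ω
    split_ifs
    · have e1 := eps_nonneg (ω ((u, false), k))
      have e2 := (eps_le (ω ((u, false), k))).2
      have e3 : eps (ω ((u, false), k)) ^ 2 ≤ 1 := by nlinarith
      have a1 : (KK p W k (ω ((u, false), k)) v u ω - KK p' W' k (ω ((u, false), k)) v u ω) ^ 2 ≤ 4 := by
        have h1 := abs_le.1 (hKK ω)
        have h2 := abs_le.1 (hKK' ω)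
        nlinarith
      have a2 : (KK p' W' k (ω ((u, false), k)) v u ω) ^ 2 ≤ 1 := by
        have h2 := abs_le.1 (hKK' ω)
        nlinarith
      have a3 : (MM p W k (ω ((u, false), k)) u ω - MM p' W' k (ω ((u, false), k)) u ω) ^ 2 ≤ 4 := by
        have h1 := abs_le.1 (hMu ω)
        have h2 := abs_le.1 (hMu' ω)
        nlinarith
      rw [abs_of_nonneg (by positivity)]
      calc _ ≤ (1 : ℝ) * (4 + 1 * 4) := by gcongr
        _ ≤ 20 := by norm_num
    · simp
  · intro ω
    have h1 : ∀ x, Function.update ω ((u, true), k) x ((u, false), k) = ω ((u, false), k) := by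
      intro x; simp [Function.update_apply]
    simp only [h1, MI_upd hp, MI_upd hp', MM_upd_L _ _ _ _ _ _ _ _ (le_refl (ω ((u, false), k) : ℝ))]
    split_ifs with hi
    · have e1 := eps_nonneg (ω ((u, false), k))
      have e2 := (eps_le (ω ((u, false), k))).2
      generalize eps (ω ((u, false), k)) = ε at *
      have hMM := hMM ω
      have hMM' := hMM' ω
      have hMu := hMu ω
      have hMu' := hMu' ω
      have hKK := hKK ω
      have hKK' := hKK' ω
      generalize MM p W k (ω ((u, false), k)) v ω = a at *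
      generalize MM p' W' k (ω ((u, false), k)) v ω = a' at *
      generalize MM p W k (ω ((u, false), k)) u ω = m at *
      generalize MM p' W' k (ω ((u, false), k)) u ω = m' at *
      generalize KK p W k (ω ((u, false), k)) v u ω = K at *
      generalize KK p' W' k (ω ((u, false), k)) v u ω = K' at *
      have mJ : ∀ m K, Measurable (fun x => JJ ε m K x) := measurable_JJ_right ε
      have i1 : Integrable (fun x => JJ ε m K x) (volume : Measure unitInterval) :=
        integrable_bdd _ (mJ m K) |K| (fun x => JJ_abs ε m K x e1 e2 hMu)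
      have i2 : Integrable (fun x => JJ ε m' K' x) (volume : Measure unitInterval) :=
        integrable_bdd _ (mJ m' K') |K'| (fun x => JJ_abs ε m' K' x e1 e2 hMu')
      have i3 : Integrable (fun x => (JJ ε m K x - JJ ε m' K' x) ^ 2) (volume : Measure unitInterval) := by
        refine integrable_bdd _ (((mJ m K).sub (mJ m' K')).pow_const 2) 4 (fun x => ?_)
        have b1 := abs_le.1 ((JJ_abs ε m K x e1 e2 hMu).trans hKK)
        have b2 := abs_le.1 ((JJ_abs ε m' K' x e1 e2 hMu').trans hKK')
        rw [abs_of_nonneg (sq_nonneg _)]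
        nlinarith
      have h2 : ∀ x, (a + JJ ε m K x - (a' + JJ ε m' K' x)) ^ 2 - (a - a') ^ 2 =
          2 * (a - a') * (JJ ε m K x - JJ ε m' K' x) + (JJ ε m K x - JJ ε m' K' x) ^ 2 := by
        intro x; ring
      simp only [h2]
      have i4 : Integrable (fun x => 2 * (a - a') * (JJ ε m K x - JJ ε m' K' x))
        (volume : Measure unitInterval) := (i1.sub i2).const_mul _
      rw [integral_add i4 i3, integral_const_mul, integral_sub i1 i2,
        JJ_int ε m K e1 e2 hMu, JJ_int ε m' K' e1 e2 hMu']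
      have h3 : ∫ x, (JJ ε m K x - JJ ε m' K' x) ^ 2 ≤ ∫ x : unitInterval,
          ε ^ 2 * ((K - K') ^ 2 + K' ^ 2 * (m - m') ^ 2) := by
        refine integral_mono i3 (integrable_const _) (fun x => ?_)
        exact JJ_diff ε m K m' K' x e1 e2 hMu hMu' hKK hKK'
      rw [integral_const] at h3
      simpa using h3
    · simp

end Events


section Times

variable {V : Type*} [DecidableEq V]

theorem integral_unit_ite (f : ℝ → ℝ) (a b : ℝ) (h0 : 0 ≤ a) (h1 : a ≤ b) (h2 : b ≤ 1) :
    ∫ x : unitInterval, (if a ≤ (x : ℝ) ∧ (x : ℝ) < b then f x else 0) = ∫ r in a..b, f r := by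
  have h := integral_subtype (measurableSet_Icc (a := (0 : ℝ)) (b := 1))
    (fun z : ℝ => if a ≤ z ∧ z < b then f z else 0)
  have h3 : ∫ x : unitInterval, (if a ≤ (x : ℝ) ∧ (x : ℝ) < b then f x else 0) =
    ∫ z in Set.Icc (0 : ℝ) 1, (if a ≤ z ∧ z < b then f z else 0) := h
  rw [h3]
  have h4 : (fun z : ℝ => if a ≤ z ∧ z < b then f z else 0) = (Set.Ico a b).indicator f := by
    funext z
    simp [Set.indicator, Set.mem_Ico]
  rw [h4, setIntegral_indicator measurableSet_Ico]
  have h5 : Set.Icc (0 : ℝ) 1 ∩ Set.Ico a b = Set.Ico a b := by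
    apply Set.inter_eq_right.2
    intro z hz
    exact ⟨h0.trans hz.1, hz.2.le.trans h2⟩
  rw [h5, integral_Ico_eq_integral_Ioo, ← integral_Ioc_eq_integral_Ioo,
    ← intervalIntegral.integral_of_le h1]

theorem half_mass (c : ℝ) : ∫ x : unitInterval, (if (1 / 2 : ℝ) ≤ (x : ℝ) ∧ (x : ℝ) < 1 then c else 0) =
    c / 2 := by
  rw [integral_unit_ite (fun _ => c) (1 / 2) 1 (by norm_num) (by norm_num) le_rfl]
  simp
  ring

/-- the value at an early time does not see the time of `u` when this is late -/
theorem resample_time_le (g : Om V → ℝ) (hg : Measurable g) (C : ℝ) (h0 : ∀ ω, 0 ≤ g ω)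
    (hC : ∀ ω, g ω ≤ C) (u : V) (k : ℕ) (x : unitInterval) (hx : (x : ℝ) < 1 / 2)
    (hinv : ∀ (ω : Om V) (y : unitInterval), (x : ℝ) ≤ (ω ((u, false), k) : ℝ) →
      (x : ℝ) ≤ (y : ℝ) → g (Function.update ω ((u, false), k) y) = g ω) :
    ∫ ω, g (Function.update ω ((u, false), k) x) ∂PP V ≤ 2 * ∫ ω, g ω ∂PP V := by
  have hC' : ∀ ω, |g ω| ≤ C := fun ω => by rw [abs_of_nonneg (h0 ω)]; exact hC ω
  have hm1 : Measurable (fun ω : Om V => g (Function.update ω ((u, false), k) x)) := by
    have h1 : Measurable (fun ω : Om V => (ω, x)) := measurable_id.prodMk measurable_const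
    have h2 := hg.comp ((SRF.measurable_update_lab ((u, false), k)).comp h1)
    exact h2
  have h := integral_resample_ge ((u, false), k) g
    (fun ω => g (Function.update ω ((u, false), k) x) / 2) hg C hC' (hm1.div_const 2)
    (fun ω => by
      have := hC' (Function.update ω ((u, false), k) x)
      have h3 := abs_nonneg (g (Function.update ω ((u, false), k) x))
      rw [abs_div, abs_two]; linarith) (fun ω => by
      have h1 : ∀ y : unitInterval, (if (1 / 2 : ℝ) ≤ (y : ℝ) ∧ (y : ℝ) < 1 then
          g (Function.update ω ((u, false), k) x) else 0) ≤ g (Function.update ω ((u, false), k) y) := by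
        intro y
        split_ifs with hy
        · have := hinv (Function.update ω ((u, false), k) x) y (by simp) (by linarith [hy.1])
          rw [Function.update_idem] at this
          rw [this]
        · exact h0 _
      rw [← half_mass]
      refine integral_mono (integrable_bdd _ ?_ C ?_) (integrable_bdd _ ?_ C ?_) h1
      · refine Measurable.ite ?_ measurable_const measurable_const
        exact (measurableSet_le measurable_const measurable_subtype_coe).inter
          (measurableSet_lt measurable_subtype_coe measurable_const)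
      · intro y
        split_ifs
        · exact hC' _
        · simpa using (h0 ω).trans (hC ω)
      · have h1 : Measurable (fun y : unitInterval => (ω, y)) := measurable_const.prodMk measurable_id
        have h2 := hg.comp ((SRF.measurable_update_lab ((u, false), k)).comp h1)
        exact h2
      · intro y
        exact hC' _)
  rw [integral_div] at h
  linarith

theorem time_event (Φ : ℝ → Om V → ℝ) (hΦ : Measurable (fun q : ℝ × Om V => Φ q.1 q.2)) (C : ℝ)
    (hpos : ∀ r ω, 0 ≤ Φ r ω) (hC : ∀ r ω, Φ r ω ≤ C) (u : V) (k : ℕ)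
    (hinv : ∀ (r : ℝ) (ω : Om V) (x : unitInterval), r ≤ (ω ((u, false), k) : ℝ) → r ≤ (x : ℝ) →
      Φ r (Function.update ω ((u, false), k) x) = Φ r ω)
    (t0 t : ℝ) (h0 : 0 ≤ t0) (h1 : t0 ≤ t) (h2 : t ≤ 1) :
    ∫ ω, (if t0 ≤ (ω ((u, false), k) : ℝ) ∧ (ω ((u, false), k) : ℝ) < t then
      eps (ω ((u, false), k)) ^ 2 * Φ (ω ((u, false), k)) ω else 0) ∂PP V ≤
      2 * ∫ r in t0..t, r ^ 2 * ∫ ω, Φ r ω ∂PP V := by
  have hC0 : 0 ≤ C := (hpos 0 (fun _ => 0)).trans (hC 0 (fun _ => 0))
  have heps : ∀ x : unitInterval, eps x ^ 2 ≤ 1 := by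
    intro x
    have e1 := eps_nonneg x
    have e2 := (eps_le x).2
    nlinarith
  have hbd : ∀ (x : unitInterval) (ω : Om V), |eps x ^ 2 * Φ x ω| ≤ C := by
    intro x ω
    rw [abs_of_nonneg (mul_nonneg (sq_nonneg _) (hpos _ _))]
    calc _ ≤ 1 * C := mul_le_mul (heps x) (hC _ _) (hpos _ _) zero_le_one
      _ = C := one_mul C
  have hmG : Measurable (fun ω : Om V => if t0 ≤ (ω ((u, false), k) : ℝ) ∧
      (ω ((u, false), k) : ℝ) < t then
      eps (ω ((u, false), k)) ^ 2 * Φ (ω ((u, false), k)) ω else 0) := by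
    refine Measurable.ite (measurableSet_ind t0 t _) ?_ measurable_const
    refine ((measurable_eps.comp (measurable_coord ((u, false), k))).pow_const 2).mul ?_
    have h3 : Measurable (fun ω : Om V => ((ω ((u, false), k) : ℝ), ω)) :=
      (measurable_coordR _).prodMk measurable_id
    have h4 := hΦ.comp h3
    exact h4
  have hbG : ∀ ω : Om V, |if t0 ≤ (ω ((u, false), k) : ℝ) ∧ (ω ((u, false), k) : ℝ) < t then
      eps (ω ((u, false), k)) ^ 2 * Φ (ω ((u, false), k)) ω else 0| ≤ C := by
    intro ω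
    split_ifs
    · exact hbd _ _
    · simpa using hC0
  rw [integral_resample ((u, false), k) _ hmG C hbG]
  have hswap := integral_integral_swap (μ := PP V) (ν := (volume : Measure unitInterval))
    (f := fun ω x => (fun ω : Om V => if t0 ≤ (ω ((u, false), k) : ℝ) ∧
      (ω ((u, false), k) : ℝ) < t then
      eps (ω ((u, false), k)) ^ 2 * Φ (ω ((u, false), k)) ω else 0)
        (Function.update ω ((u, false), k) x))
    (integrable_bdd _ (hmG.comp (SRF.measurable_update_lab ((u, false), k))) C (fun q => hbG _))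
  rw [hswap]
  have hmE : Measurable (fun r : ℝ => ∫ ω, Φ r ω ∂PP V) :=
    (hΦ.stronglyMeasurable.integral_prod_right').measurable
  have hEpos : ∀ r : ℝ, 0 ≤ ∫ ω, Φ r ω ∂PP V := fun r => integral_nonneg (hpos r)
  have hEC : ∀ r : ℝ, ∫ ω, Φ r ω ∂PP V ≤ C := by
    intro r
    have := integral_mono (μ := PP V) (integrable_bdd _ (hΦ.comp (measurable_const.prodMk measurable_id))
      C (fun ω => by
        have := hpos r ω
        show |Φ r ω| ≤ C
        rw [abs_of_nonneg this]
        exact hC r ω)) (integrable_const C) (hC r)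
    simpa using this
  have hx : ∀ x : unitInterval, (∫ ω, (fun ω : Om V => if t0 ≤ (ω ((u, false), k) : ℝ) ∧
      (ω ((u, false), k) : ℝ) < t then
      eps (ω ((u, false), k)) ^ 2 * Φ (ω ((u, false), k)) ω else 0)
        (Function.update ω ((u, false), k) x) ∂PP V) ≤
      if t0 ≤ (x : ℝ) ∧ (x : ℝ) < t then (fun r : ℝ => 2 * (r ^ 2 * ∫ ω, Φ r ω ∂PP V)) x else 0 := by
    intro x
    simp only [Function.update_self]
    split_ifs with hx
    · rw [integral_const_mul]
      by_cases hx2 : (x : ℝ) < 1 / 2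
      · have h3 := resample_time_le (fun ω => Φ x ω) (hΦ.comp (measurable_const.prodMk measurable_id))
          C (hpos x) (hC x) u k x hx2 (fun ω y hy hy' => hinv x ω y hy hy')
        have h4 : eps x ^ 2 ≤ (x : ℝ) ^ 2 := by
          have e1 := eps_nonneg x
          have e2 := (eps_le x).1
          gcongr
        calc _ ≤ (x : ℝ) ^ 2 * (2 * ∫ ω, Φ x ω ∂PP V) := by
              gcongr
              exact integral_nonneg fun ω => hpos _ _
          _ = _ := by ring
      · have h3 : eps x = 0 := by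
          unfold eps
          rw [if_neg hx2]
        rw [h3]
        have := hEpos x
        simp only [ne_eq, OfNat.ofNat_ne_zero, not_false_eq_true, zero_pow, zero_mul]
        positivity
    · simp
  refine (integral_mono ?_ ?_ hx).trans_eq ?_
  · refine integrable_bdd _ ?_ C ?_
    · exact (StronglyMeasurable.integral_prod_left'
        (hmG.comp (SRF.measurable_update_lab ((u, false), k))).stronglyMeasurable).measurable
    · intro x
      have := norm_integral_le_of_norm_le_const (μ := PP V)
        (f := fun ω => (fun ω : Om V => if t0 ≤ (ω ((u, false), k) : ℝ) ∧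
      (ω ((u, false), k) : ℝ) < t then
      eps (ω ((u, false), k)) ^ 2 * Φ (ω ((u, false), k)) ω else 0)
        (Function.update ω ((u, false), k) x)) (C := C) (Filter.Eventually.of_forall fun ω => hbG _)
      simpa using this
  · refine integrable_bdd _ ?_ (2 * C) ?_
    · refine Measurable.ite ?_ ?_ measurable_const
      · exact (measurableSet_le measurable_const measurable_subtype_coe).inter
          (measurableSet_lt measurable_subtype_coe measurable_const)
      · have h5 : Measurable (fun r : ℝ => 2 * (r ^ 2 * ∫ ω, Φ r ω ∂PP V)) :=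
          ((measurable_id.pow_const 2).mul hmE).const_mul 2
        exact h5.comp measurable_subtype_coe
    · intro x
      split_ifs
      · have h3 := hEpos x
        have h4 := hEC x
        have h5 : (x : ℝ) ^ 2 ≤ 1 := by
          have := x.2.1
          have := x.2.2
          nlinarith
        simp only
        rw [abs_of_nonneg (by positivity)]
        calc 2 * ((x : ℝ) ^ 2 * ∫ ω, Φ x ω ∂PP V) ≤ 2 * (1 * C) := by gcongr
          _ = 2 * C := by ring
      · simpa using hC0
  · rw [integral_unit_ite (fun r : ℝ => 2 * (r ^ 2 * ∫ ω, Φ r ω ∂PP V)) t0 t h0 h1 h2,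
      intervalIntegral.integral_const_mul]

end Times


theorem ae_times {V : Type*} [DecidableEq V] (Λ : Finset V) (k : ℕ) :
    ∀ᵐ ω ∂PP V, ∀ u ∈ Λ, ∀ w ∈ Λ, u ≠ w → ω ((u, false), k) ≠ ω ((w, false), k) := by
  rw [Filter.eventually_all_finset]
  intro u _
  rw [Filter.eventually_all_finset]
  intro w _
  by_cases huw : u = w
  · exact Filter.Eventually.of_forall fun ω h => absurd huw h
  · have : (((u, false), k) : (V × Bool) × ℕ) ≠ ((w, false), k) := by
      intro h
      exact huw (by simpa using h)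
    filter_upwards [ae_coord_ne _ _ this] with ω h _
    exact h

end Crest.Agent.TI
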