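import Crest.Agent.TI_FldA
import Crest.Agent.TI_Dec

/-!
Row S0241, task FldB: near bound (uses decorrelation)
-/

set_option autoImplicit false
set_option linter.unusedSectionVars false
set_option linter.unusedVariables false

namespace Crest.Agent.TI

open MeasureTheory Filter Topology
open Crest.Agent.SRF (Lab lab)

namespace FldB

theorem thc_lt (b : ℕ) (hb : 2 ≤ b) : √(1 / b : ℝ) < 1 := by
  rw [Real.sqrt_lt' one_pos, one_pow, div_lt_one (by positivity)]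
  exact_mod_cast (by omega : 1 < b)

theorem le_thc (b : ℕ) (hb : 2 ≤ b) (θ : ℝ) (h1 : b * θ ^ 2 ≤ 1) : θ ≤ √(1 / b : ℝ) := by
  have hb0 : (0 : ℝ) < b := by positivity
  apply Real.le_sqrt_of_sq_le
  rw [le_div_iff₀ hb0]; linarith

theorem le_one' (b : ℕ) (hb : 2 ≤ b) (θ : ℝ) (h1 : b * θ ^ 2 ≤ 1) : θ ≤ 1 :=
  (le_thc b hb θ h1).trans (thc_lt b hb).le

theorem ibd {V : Type*} {f : Om V → ℝ} (hf : Measurable f) (C : ℝ) (h : ∀ ω, |f ω| ≤ C) :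
    Integrable f (PP V) :=
  Integrable.of_bound hf.aestronglyMeasurable C (Filter.Eventually.of_forall h)

theorem measurable_ff' (θ : ℝ) : Measurable (ff θ) := by
  unfold ff
  fun_prop

/-- `ff` is bounded on `[-κ, κ]` -/
theorem ff_bdd (κ : ℝ) (hκ0 : 0 ≤ κ) (hκ : κ < 1) : ∃ C : ℝ, 0 < C ∧
    ∀ θ B : ℝ, 0 ≤ θ → θ ≤ 1 → |B| ≤ κ → |ff θ B| ≤ C := by
  obtain ⟨C1, hC1, hlip⟩ := ff_lip κ hκ
  refine ⟨2 * C1, by positivity, ?_⟩
  intro θ B h0 h1 hB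
  have h := hlip θ 1 B 0 κ h0 h1 zero_le_one le_rfl hB (by simpa using hκ0) hB (by simpa using hκ0)
  have e0 : ff 1 0 = 0 := by simp [ff]
  rw [e0, sub_zero, sub_zero] at h
  have h2 : |θ - 1| ≤ 1 := by rw [abs_le]; constructor <;> linarith
  have h3 : κ * |B| ≤ 1 := by
    have := abs_nonneg B
    nlinarith
  calc |ff θ B| ≤ _ := h
    _ ≤ C1 * (1 + 1) := by gcongr
    _ = _ := by ring

/-- scalar estimate for the good event -/
theorem good_alg (C1 C2 e δ X Y T D : ℝ) (h1 : 0 < C1) (h2 : 0 < C2) (he0 : 0 ≤ e) (he1 : e ≤ 1)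
    (heδ : e ≤ δ) (hX : 0 ≤ X) (hY : 0 ≤ Y) (hT : 0 ≤ T)
    (hD : |D| ≤ C1 * (e * (C2 * (X + Y + T)) + T)) :
    D ^ 2 ≤ 6 * C1 ^ 2 * C2 ^ 2 * δ ^ 2 * (X ^ 2 + Y ^ 2) + 2 * C1 ^ 2 * (3 * C2 ^ 2 + 1) * T ^ 2 := by
  have h6 : D ^ 2 ≤ (C1 * (e * (C2 * (X + Y + T)) + T)) ^ 2 := by
    rw [← sq_abs]
    exact pow_le_pow_left₀ (abs_nonneg _) hD 2
  have q1 : (e * (C2 * (X + Y + T)) + T) ^ 2 ≤
      2 * (e * (C2 * (X + Y + T))) ^ 2 + 2 * T ^ 2 := by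
    linarith [sq_nonneg (e * (C2 * (X + Y + T)) - T),
      (by ring : (e * (C2 * (X + Y + T)) + T) ^ 2 + (e * (C2 * (X + Y + T)) - T) ^ 2 =
        2 * (e * (C2 * (X + Y + T))) ^ 2 + 2 * T ^ 2)]
  have q2 : (X + Y + T) ^ 2 ≤ 3 * (X ^ 2 + Y ^ 2 + T ^ 2) := by
    linarith [sq_nonneg (X - Y), sq_nonneg (X - T), sq_nonneg (Y - T),
      (by ring : (X + Y + T) ^ 2 + (X - Y) ^ 2 + (X - T) ^ 2 + (Y - T) ^ 2 =
        3 * (X ^ 2 + Y ^ 2 + T ^ 2))]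
  have h8 : e ^ 2 ≤ 1 := by
    calc e ^ 2 ≤ 1 ^ 2 := pow_le_pow_left₀ he0 he1 2
      _ = 1 := one_pow 2
  have h9 : e ^ 2 ≤ δ ^ 2 := pow_le_pow_left₀ he0 heδ 2
  calc D ^ 2 ≤ (C1 * (e * (C2 * (X + Y + T)) + T)) ^ 2 := h6
    _ = C1 ^ 2 * (e * (C2 * (X + Y + T)) + T) ^ 2 := by ring
    _ ≤ C1 ^ 2 * (2 * (e * (C2 * (X + Y + T))) ^ 2 + 2 * T ^ 2) := by gcongr
    _ = 2 * C1 ^ 2 * e ^ 2 * C2 ^ 2 * (X + Y + T) ^ 2 + 2 * C1 ^ 2 * T ^ 2 := by ring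
    _ ≤ 2 * C1 ^ 2 * e ^ 2 * C2 ^ 2 * (3 * (X ^ 2 + Y ^ 2 + T ^ 2)) + 2 * C1 ^ 2 * T ^ 2 := by
        gcongr
    _ = 6 * C1 ^ 2 * C2 ^ 2 * e ^ 2 * (X ^ 2 + Y ^ 2) + (6 * C1 ^ 2 * C2 ^ 2 * e ^ 2 * T ^ 2 +
          2 * C1 ^ 2 * T ^ 2) := by ring
    _ ≤ 6 * C1 ^ 2 * C2 ^ 2 * δ ^ 2 * (X ^ 2 + Y ^ 2) + (6 * C1 ^ 2 * C2 ^ 2 * 1 * T ^ 2 +
          2 * C1 ^ 2 * T ^ 2) := by gcongr
    _ = _ := by ring

theorem int_comb {V : Type*} {f1 f2 i1 i2 : Om V → ℝ} (h1 : Integrable f1 (PP V))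
    (h2 : Integrable f2 (PP V)) (h3 : Integrable i1 (PP V)) (h4 : Integrable i2 (PP V))
    (a c d : ℝ) :
    ∫ ω, (a * (f1 ω + f2 ω) + c + d * (i1 ω + i2 ω)) ∂PP V =
      a * (∫ ω, f1 ω ∂PP V + ∫ ω, f2 ω ∂PP V) + c + d * (∫ ω, i1 ω ∂PP V + ∫ ω, i2 ω ∂PP V) := by
  have e1 : Integrable (fun ω => a * (f1 ω + f2 ω)) (PP V) := (h1.add h2).const_mul a
  have e2 : Integrable (fun ω => d * (i1 ω + i2 ω)) (PP V) := (h3.add h4).const_mul d
  have e3 : Integrable (fun ω => a * (f1 ω + f2 ω) + c) (PP V) := e1.add (integrable_const c)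
  rw [integral_add e3 e2, integral_add e1 (integrable_const c), integral_const_mul,
    integral_const_mul, integral_add h1 h2, integral_add h3 h4, integral_const]
  simp

theorem exp_neg_lip (S S' : ℝ) (h : 0 ≤ S) (h' : 0 ≤ S') :
    |Real.exp (-S) - Real.exp (-S')| ≤ |S - S'| := by
  have key : ∀ a c : ℝ, 0 ≤ a → a ≤ c → |Real.exp (-a) - Real.exp (-c)| ≤ |a - c| := by
    intro a c ha hac
    have h1 : Real.exp (-c) ≤ Real.exp (-a) := Real.exp_le_exp.2 (by linarith)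
    rw [abs_of_nonneg (by linarith), abs_of_nonpos (by linarith)]
    have h2 : Real.exp (-a) ≤ 1 := Real.exp_le_one_iff.2 (by linarith)
    have h3 : Real.exp (-c) = Real.exp (-a) * Real.exp (a - c) := by
      rw [← Real.exp_add]; congr 1; ring
    have h4 := Real.add_one_le_exp (a - c)
    have h5 := Real.exp_pos (-a)
    rw [h3]
    nlinarith
  rcases le_total S S' with h1 | h1
  · exact key S S' h h1
  · rw [abs_sub_comm, abs_sub_comm S]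
    exact key S' S h' h1

/-- scalar estimate for the product -/
theorem prod_alg (a a' x x' e e' : ℝ) (ha0 : 0 ≤ a) (ha1 : a ≤ 1) (ha0' : 0 ≤ a') (ha1' : a' ≤ 1)
    (hx0 : 0 ≤ x) (hx1 : x ≤ 1) (hx0' : 0 ≤ x') (hx1' : x' ≤ 1)
    (he0 : 0 ≤ e) (he1 : e ≤ 1) (he0' : 0 ≤ e') (he1' : e' ≤ 1) :
    |a * x * e - a' * x' * e'| ≤ |a - a'| + |x - x'| + |e - e'| := by
  have h : a * x * e - a' * x' * e' = (a - a') * (x * e) + (x - x') * (a' * e) +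
    (e - e') * (a' * x') := by ring
  rw [h]
  have k1 : |(a - a') * (x * e)| ≤ |a - a'| := by
    rw [abs_mul]
    exact mul_le_of_le_one_right (abs_nonneg _) (by
      rw [abs_of_nonneg (by positivity)]; exact mul_le_one₀ hx1 he0 he1)
  have k2 : |(x - x') * (a' * e)| ≤ |x - x'| := by
    rw [abs_mul]
    exact mul_le_of_le_one_right (abs_nonneg _) (by
      rw [abs_of_nonneg (by positivity)]; exact mul_le_one₀ ha1' he0 he1)
  have k3 : |(e - e') * (a' * x')| ≤ |e - e'| := by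
    rw [abs_mul]
    exact mul_le_of_le_one_right (abs_nonneg _) (by
      rw [abs_of_nonneg (by positivity)]; exact mul_le_one₀ ha1' hx0' hx1')
  calc _ ≤ |(a - a') * (x * e) + (x - x') * (a' * e)| + |(e - e') * (a' * x')| := abs_add_le _ _
    _ ≤ |(a - a') * (x * e)| + |(x - x') * (a' * e)| + |(e - e') * (a' * x')| := by
        gcongr; exact abs_add_le _ _
    _ ≤ _ := by gcongr

theorem pow_lip (x y : ℝ) (hx0 : 0 ≤ x) (hx1 : x ≤ 1) (hy0 : 0 ≤ y) (hy1 : y ≤ 1) (n : ℕ) :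
    |x ^ n - y ^ n| ≤ n * |x - y| := by
  induction n with
  | zero => simp
  | succ n ih =>
    have h : x ^ (n + 1) - y ^ (n + 1) = (x ^ n - y ^ n) * x + y ^ n * (x - y) := by ring
    rw [h]
    calc _ ≤ |(x ^ n - y ^ n) * x| + |y ^ n * (x - y)| := abs_add_le _ _
      _ ≤ n * |x - y| + |x - y| := by
        rw [abs_mul, abs_mul]
        refine add_le_add ?_ ?_
        · refine (mul_le_of_le_one_right (abs_nonneg _) ?_).trans ih
          rw [abs_of_nonneg hx0]; exact hx1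
        · refine mul_le_of_le_one_left (abs_nonneg _) ?_
          rw [abs_of_nonneg (by positivity)]
          exact pow_le_one₀ hy0 hy1
      _ = _ := by push_cast; ring

end FldB

section FLD

open FldB

variable {V : Type*} [DecidableEq V] {G : SimpleGraph V} [G.LocallyFinite]

/-- mean square difference of the logarithmic factors -/
theorem g2_bound (hT : G.IsTree) (b : ℕ) (hb : 2 ≤ b) (hreg : G.IsRegularOfDegree (b + 1)) (κ : ℝ)
    (hκ0 : 0 < κ) (hκ1 : κ < 1) : ∃ C : ℝ, 0 < C ∧ ∀ (θ θ' : ℝ) (m m' : V → Om V → ℝ)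
      (B B' : V → V → Om V → ℝ), 0 ≤ θ → b * θ ^ 2 ≤ 1 → 0 ≤ θ' → b * θ' ^ 2 ≤ 1 → Fld G κ θ m B →
      Fld G κ θ' m' B' → ∀ o o' : V, G.Adj o o' → ∀ δ : ℝ, 0 ≤ δ →
      ∫ ω, (ff θ (B o o' ω) - ff θ' (B' o o' ω)) ^ 2 ∂PP V ≤
        C * (δ ^ 2 * (∫ ω, (m o ω - m' o ω) ^ 2 ∂PP V) + (PP V).real {ω | δ < |B o o' ω|} +
          (PP V).real {ω | δ < |B' o o' ω|} + (θ - θ') ^ 2) := by
  obtain ⟨C1, hC1, hlip⟩ := ff_lip κ hκ1
  obtain ⟨C2, hC2, hpl⟩ := pair_lip (√(1 / b : ℝ)) κ (thc_lt b hb) hκ1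
  set A1 : ℝ := 6 * C1 ^ 2 * C2 ^ 2 with hA1
  set A2 : ℝ := 2 * C1 ^ 2 * (3 * C2 ^ 2 + 1) with hA2
  set A3 : ℝ := 9 * C1 ^ 2 with hA3
  have pA1 : 0 < A1 := by positivity
  have pA2 : 0 < A2 := by positivity
  have pA3 : 0 < A3 := by positivity
  refine ⟨2 * A1 + A2 + A3, by positivity, ?_⟩
  intro θ θ' m m' B B' h0 h1 h0' h1' hF hF' o o' hoo δ hδ
  have ht1 := le_one' b hb θ h1
  have ht1' := le_one' b hb θ' h1'
  have hpt : ∀ᵐ ω ∂PP V, (ff θ (B o o' ω) - ff θ' (B' o o' ω)) ^ 2 ≤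
      A1 * δ ^ 2 * ((m o ω - m' o ω) ^ 2 + (m o' ω - m' o' ω) ^ 2) + A2 * (θ - θ') ^ 2 +
      A3 * (Set.indicator {ω | δ < |B o o' ω|} (fun _ => (1 : ℝ)) ω +
        Set.indicator {ω | δ < |B' o o' ω|} (fun _ => (1 : ℝ)) ω) := by
    filter_upwards [hF.pair o o' hoo, hF.pair o' o hoo.symm, hF'.pair o o' hoo,
      hF'.pair o' o hoo.symm] with ω e1 e2 e3 e4
    have i1 : 0 ≤ Set.indicator {ω | δ < |B o o' ω|} (fun _ => (1 : ℝ)) ω :=
      Set.indicator_nonneg (fun _ _ => zero_le_one) _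
    have i2 : 0 ≤ Set.indicator {ω | δ < |B' o o' ω|} (fun _ => (1 : ℝ)) ω :=
      Set.indicator_nonneg (fun _ _ => zero_le_one) _
    have hB := hF.bdd_B o o' ω
    have hB' := hF'.bdd_B o o' ω
    by_cases hbad : δ < |B o o' ω| ∨ δ < |B' o o' ω|
    · have h3 := hlip θ θ' _ _ κ h0 ht1 h0' ht1' hB hB' hB hB'
      have h4 : |ff θ (B o o' ω) - ff θ' (B' o o' ω)| ≤ 3 * C1 := by
        refine h3.trans ?_
        have h5 : |B o o' ω - B' o o' ω| ≤ 2 := by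
          refine (abs_sub _ _).trans ?_
          linarith
        have h6 : |θ - θ'| ≤ 1 := by rw [abs_le]; constructor <;> linarith
        calc _ ≤ C1 * (1 * 2 + 1) := by gcongr
          _ = _ := by ring
      have h7 : (ff θ (B o o' ω) - ff θ' (B' o o' ω)) ^ 2 ≤ A3 := by
        rw [← sq_abs, hA3]
        calc _ ≤ (3 * C1) ^ 2 := pow_le_pow_left₀ (abs_nonneg _) h4 2
          _ = _ := by ring
      have h8 : 1 ≤ Set.indicator {ω | δ < |B o o' ω|} (fun _ => (1 : ℝ)) ω +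
        Set.indicator {ω | δ < |B' o o' ω|} (fun _ => (1 : ℝ)) ω := by
        rcases hbad with h | h
        · rw [Set.indicator_of_mem (show ω ∈ {ω | δ < |B o o' ω|} from h)]
          linarith
        · rw [Set.indicator_of_mem (show ω ∈ {ω | δ < |B' o o' ω|} from h)]
          linarith
      have h9 : 0 ≤ A1 * δ ^ 2 * ((m o ω - m' o ω) ^ 2 + (m o' ω - m' o' ω) ^ 2) := by positivity
      have h10 : 0 ≤ A2 * (θ - θ') ^ 2 := by positivity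
      nlinarith
    · rw [not_or, not_lt, not_lt] at hbad
      have h3 := hlip θ θ' _ _ (min δ κ) h0 ht1 h0' ht1' hB hB' (le_min hbad.1 hB)
        (le_min hbad.2 hB')
      have h4 := hpl θ θ' (B o o' ω) (B o' o ω) (B' o o' ω) (B' o' o ω) h0 (le_thc b hb θ h1) h0'
        (le_thc b hb θ' h1') hB (hF.bdd_B _ _ _) hB' (hF'.bdd_B _ _ _)
      rw [mul_comm (B o' o ω)] at e2
      rw [mul_comm (B' o' o ω)] at e4
      rw [← e1, ← e2, ← e3, ← e4] at h4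
      have hm0 : 0 ≤ min δ κ := le_min hδ hκ0.le
      have h5 : |ff θ (B o o' ω) - ff θ' (B' o o' ω)| ≤
          C1 * (min δ κ * (C2 * (|m o ω - m' o ω| + |m o' ω - m' o' ω| + |θ - θ'|)) + |θ - θ'|) :=
        h3.trans (by gcongr)
      have h6 := good_alg C1 C2 (min δ κ) δ _ _ _ _ hC1 hC2 hm0 ((min_le_right _ _).trans hκ1.le)
        (min_le_left _ _) (abs_nonneg _) (abs_nonneg _) (abs_nonneg _) h5
      rw [sq_abs, sq_abs, sq_abs, ← hA1, ← hA2] at h6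
      have := mul_nonneg pA3.le (add_nonneg i1 i2)
      linarith
  -- integrate
  have hZ := Z_const hT b hreg hF hF' o' o
  have mB := hF.meas_B o o'
  have mB' := hF'.meas_B o o'
  have ms1 : MeasurableSet {ω | δ < |B o o' ω|} := measurableSet_lt measurable_const mB.norm
  have ms2 : MeasurableSet {ω | δ < |B' o o' ω|} := measurableSet_lt measurable_const mB'.norm
  have hmm : ∀ v, Integrable (fun ω => (m v ω - m' v ω) ^ 2) (PP V) := by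
    intro v
    refine ibd (((hF.meas_m v).sub (hF'.meas_m v)).pow_const 2) 4 fun ω => ?_
    have a1 := abs_le.1 (hF.bdd_m v ω)
    have a2 := abs_le.1 (hF'.bdd_m v ω)
    rw [abs_of_nonneg (sq_nonneg _)]
    nlinarith
  have hi1 : Integrable (Set.indicator {ω | δ < |B o o' ω|} (fun _ => (1 : ℝ))) (PP V) :=
    (integrable_const 1).indicator ms1
  have hi2 : Integrable (Set.indicator {ω | δ < |B' o o' ω|} (fun _ => (1 : ℝ))) (PP V) :=
    (integrable_const 1).indicator ms2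
  have hint : Integrable (fun ω => A1 * δ ^ 2 * ((m o ω - m' o ω) ^ 2 + (m o' ω - m' o' ω) ^ 2) +
      A2 * (θ - θ') ^ 2 + A3 * (Set.indicator {ω | δ < |B o o' ω|} (fun _ => (1 : ℝ)) ω +
        Set.indicator {ω | δ < |B' o o' ω|} (fun _ => (1 : ℝ)) ω)) (PP V) :=
    ((((hmm o).add (hmm o')).const_mul _).add (integrable_const _)).add ((hi1.add hi2).const_mul _)
  have hmain := integral_mono_of_nonneg (Filter.Eventually.of_forall fun ω => sq_nonneg _) hint hpt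
  refine hmain.trans ?_
  rw [int_comb (hmm o) (hmm o') hi1 hi2, integral_indicator_const _ ms1,
    integral_indicator_const _ ms2, hZ]
  simp only [smul_eq_mul, mul_one]
  set Z := ∫ ω, (m o ω - m' o ω) ^ 2 ∂PP V with hZd
  have hZ0 : 0 ≤ Z := integral_nonneg fun ω => sq_nonneg _
  set P1 := (PP V).real {ω | δ < |B o o' ω|} with hP1
  set P2 := (PP V).real {ω | δ < |B' o o' ω|} with hP2
  have hP10 : 0 ≤ P1 := measureReal_nonneg
  have hP20 : 0 ≤ P2 := measureReal_nonneg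
  have e1 : 0 ≤ δ ^ 2 * Z := by positivity
  have e2 : 0 ≤ (θ - θ') ^ 2 := sq_nonneg _
  have : (2 * A1 + A2 + A3) * (δ ^ 2 * Z + P1 + P2 + (θ - θ') ^ 2) -
      (A1 * δ ^ 2 * (Z + Z) + A2 * (θ - θ') ^ 2 + A3 * (P1 + P2)) =
      (A2 + A3) * (δ ^ 2 * Z) + (2 * A1 + A2) * (P1 + P2) + (2 * A1 + A3) * (θ - θ') ^ 2 := by ring
  have : 0 ≤ (A2 + A3) * (δ ^ 2 * Z) + (2 * A1 + A2) * (P1 + P2) + (2 * A1 + A3) * (θ - θ') ^ 2 := by
    positivity
  linarith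

theorem kf_exp {κ θ : ℝ} {m : V → Om V → ℝ} {B : V → V → Om V → ℝ} (hF : Fld G κ θ m B)
    (hκ : κ < 1) (h0 : 0 ≤ θ) (h1 : θ ≤ 1) (v u : V) (ω : Om V) :
    Kf G θ m B v u ω = (1 - m v ω ^ 2) * θ ^ (G.dist v u) *
      Real.exp (-∑ i ∈ Finset.range (G.dist v u), ff θ (B (pth G v u (i + 1)) (pth G v u i) ω)) := by
  unfold Kf
  rw [Finset.prod_mul_distrib, Finset.prod_const, Finset.card_range, ← Finset.sum_neg_distrib,
    Real.exp_sum, mul_assoc]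
  congr 2
  refine Finset.prod_congr rfl fun i _ => ?_
  rw [exp_neg_ff θ _ h0 h1 (lt_of_le_of_lt (hF.bdd_B _ _ _) hκ)]

/-- pointwise form of the near bound -/
theorem near_pt {κ θ θ' : ℝ} {m m' : V → Om V → ℝ} {B B' : V → V → Om V → ℝ} (b : ℕ) (hb : 2 ≤ b)
    (h0 : 0 ≤ θ) (h1 : b * θ ^ 2 ≤ 1) (h0' : 0 ≤ θ') (h1' : b * θ' ^ 2 ≤ 1)
    (hF : Fld G κ θ m B) (hF' : Fld G κ θ' m' B') (hκ1 : κ < 1) (v u : V) (ω : Om V) :
    (b : ℝ) ^ (G.dist v u) * ((Kf G θ m B v u ω - Kf G θ' m' B' v u ω) ^ 2 +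
      Kf G θ' m' B' v u ω ^ 2 * (m u ω - m' u ω) ^ 2) ≤
    12 * (m v ω - m' v ω) ^ 2 + (m u ω - m' u ω) ^ 2 + 3 * b * (G.dist v u) ^ 2 * (θ - θ') ^ 2 +
      3 * (∑ i ∈ Finset.range (G.dist v u), (ff θ (B (pth G v u (i + 1)) (pth G v u i) ω) -
        ff θ' (B' (pth G v u (i + 1)) (pth G v u i) ω))) ^ 2 := by
  have hb0 : (0 : ℝ) < b := by positivity
  have ht1 := le_one' b hb θ h1
  have ht1' := le_one' b hb θ' h1'
  obtain ⟨n, hn⟩ : ∃ n, n = G.dist v u := ⟨_, rfl⟩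
  have hk := kf_exp hF hκ1 h0 ht1 v u ω
  have hk' := kf_exp hF' hκ1 h0' ht1' v u ω
  have hkb := kf_bound hF' hκ1 h0' ht1' v u ω
  rw [Finset.sum_sub_distrib]
  obtain ⟨S, hS⟩ : ∃ S, S = ∑ i ∈ Finset.range (G.dist v u),
    ff θ (B (pth G v u (i + 1)) (pth G v u i) ω) := ⟨_, rfl⟩
  obtain ⟨S', hS'⟩ : ∃ S', S' = ∑ i ∈ Finset.range (G.dist v u),
    ff θ' (B' (pth G v u (i + 1)) (pth G v u i) ω) := ⟨_, rfl⟩
  have hS0 : 0 ≤ S := by
    rw [hS]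
    exact Finset.sum_nonneg fun i _ => ff_nonneg θ _ h0 ht1 (lt_of_le_of_lt (hF.bdd_B _ _ _) hκ1)
  have hS0' : 0 ≤ S' := by
    rw [hS']
    exact Finset.sum_nonneg fun i _ => ff_nonneg θ' _ h0' ht1' (lt_of_le_of_lt (hF'.bdd_B _ _ _) hκ1)
  rw [← hS, ← hn] at hk
  rw [← hS', ← hn] at hk'
  rw [← hn] at hkb
  rw [← hS, ← hS', ← hn]
  obtain ⟨s, hs⟩ : ∃ s : ℝ, s = √(b : ℝ) := ⟨_, rfl⟩
  have hs0 : 0 ≤ s := by rw [hs]; exact Real.sqrt_nonneg _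
  have hs2 : s ^ 2 = b := by rw [hs]; exact Real.sq_sqrt hb0.le
  have hsθ : s * θ ≤ 1 := by
    have : (s * θ) ^ 2 ≤ 1 := by rw [mul_pow, hs2]; exact h1
    nlinarith [mul_nonneg hs0 h0]
  have hsθ' : s * θ' ≤ 1 := by
    have : (s * θ') ^ 2 ≤ 1 := by rw [mul_pow, hs2]; exact h1'
    nlinarith [mul_nonneg hs0 h0']
  have hbn : (b : ℝ) ^ n = (s ^ n) ^ 2 := by rw [← pow_mul, mul_comm, pow_mul, hs2]
  have hm := abs_le.1 (hF.bdd_m v ω)
  have hm' := abs_le.1 (hF'.bdd_m v ω)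
  have ek : s ^ n * Kf G θ m B v u ω = (1 - m v ω ^ 2) * (s * θ) ^ n * Real.exp (-S) := by
    rw [hk, mul_pow]; ring
  have ek' : s ^ n * Kf G θ' m' B' v u ω = (1 - m' v ω ^ 2) * (s * θ') ^ n * Real.exp (-S') := by
    rw [hk', mul_pow]; ring
  have hmain := prod_alg (1 - m v ω ^ 2) (1 - m' v ω ^ 2) ((s * θ) ^ n) ((s * θ') ^ n)
    (Real.exp (-S)) (Real.exp (-S')) (by nlinarith) (by nlinarith) (by nlinarith) (by nlinarith)
    (by positivity) (pow_le_one₀ (by positivity) hsθ) (by positivity)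
    (pow_le_one₀ (by positivity) hsθ') (Real.exp_pos _).le (Real.exp_le_one_iff.2 (by linarith))
    (Real.exp_pos _).le (Real.exp_le_one_iff.2 (by linarith))
  rw [← ek, ← ek'] at hmain
  have h2 : |1 - m v ω ^ 2 - (1 - m' v ω ^ 2)| ≤ 2 * |m v ω - m' v ω| := by
    have : 1 - m v ω ^ 2 - (1 - m' v ω ^ 2) = (m v ω - m' v ω) * (-(m v ω + m' v ω)) := by ring
    rw [this, abs_mul, mul_comm]
    refine mul_le_mul_of_nonneg_right ?_ (abs_nonneg _)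
    rw [abs_neg, abs_le]
    constructor <;> linarith
  have h3 := pow_lip (s * θ) (s * θ') (by positivity) hsθ (by positivity) hsθ' n
  have h4 := exp_neg_lip S S' hS0 hS0'
  have h5 : |s * θ - s * θ'| = s * |θ - θ'| := by
    rw [← mul_sub, abs_mul, abs_of_nonneg hs0]
  rw [h5] at h3
  have h6 : |s ^ n * Kf G θ m B v u ω - s ^ n * Kf G θ' m' B' v u ω| ≤
      2 * |m v ω - m' v ω| + n * (s * |θ - θ'|) + |S - S'| := hmain.trans (by linarith)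
  have h7 : (b : ℝ) ^ n * (Kf G θ m B v u ω - Kf G θ' m' B' v u ω) ^ 2 ≤
      12 * (m v ω - m' v ω) ^ 2 + 3 * b * n ^ 2 * (θ - θ') ^ 2 + 3 * (S - S') ^ 2 := by
    have e1 : (b : ℝ) ^ n * (Kf G θ m B v u ω - Kf G θ' m' B' v u ω) ^ 2 =
        |s ^ n * Kf G θ m B v u ω - s ^ n * Kf G θ' m' B' v u ω| ^ 2 := by
      rw [sq_abs, hbn]; ring
    rw [e1]
    have e2 := pow_le_pow_left₀ (abs_nonneg _) h6 2
    refine e2.trans ?_
    have e3 : (2 * |m v ω - m' v ω| + n * (s * |θ - θ'|) + |S - S'|) ^ 2 ≤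
        3 * ((2 * |m v ω - m' v ω|) ^ 2 + (n * (s * |θ - θ'|)) ^ 2 + |S - S'| ^ 2) := by
      linarith [sq_nonneg (2 * |m v ω - m' v ω| - n * (s * |θ - θ'|)),
        sq_nonneg (2 * |m v ω - m' v ω| - |S - S'|), sq_nonneg (n * (s * |θ - θ'|) - |S - S'|),
        (by ring : (2 * |m v ω - m' v ω| + n * (s * |θ - θ'|) + |S - S'|) ^ 2 +
          (2 * |m v ω - m' v ω| - n * (s * |θ - θ'|)) ^ 2 + (2 * |m v ω - m' v ω| - |S - S'|) ^ 2 +
          (n * (s * |θ - θ'|) - |S - S'|) ^ 2 =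
          3 * ((2 * |m v ω - m' v ω|) ^ 2 + (n * (s * |θ - θ'|)) ^ 2 + |S - S'| ^ 2))]
    refine e3.trans (le_of_eq ?_)
    rw [mul_pow, mul_pow, mul_pow, sq_abs, sq_abs, sq_abs, hs2]
    ring
  have h8 : (b : ℝ) ^ n * (Kf G θ' m' B' v u ω ^ 2 * (m u ω - m' u ω) ^ 2) ≤
      (m u ω - m' u ω) ^ 2 := by
    rw [← mul_assoc]
    refine mul_le_of_le_one_left (sq_nonneg _) ?_
    have e1 : (b : ℝ) ^ n * Kf G θ' m' B' v u ω ^ 2 = (s ^ n * Kf G θ' m' B' v u ω) ^ 2 := by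
      rw [hbn]; ring
    rw [e1]
    have e2 : s ^ n * Kf G θ' m' B' v u ω ≤ 1 := by
      calc s ^ n * Kf G θ' m' B' v u ω ≤ s ^ n * θ' ^ n := by gcongr; exact hkb.2
        _ = (s * θ') ^ n := (mul_pow _ _ _).symm
        _ ≤ 1 := pow_le_one₀ (by positivity) hsθ'
    have e3 : 0 ≤ s ^ n * Kf G θ' m' B' v u ω := mul_nonneg (by positivity) hkb.1
    exact pow_le_one₀ e3 e2
  rw [mul_add]
  linarith

/-- bound for vertices at moderate distance -/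
theorem near_bound [Countable V] (hT : G.IsTree) (b : ℕ) (hb : 2 ≤ b)
    (hreg : G.IsRegularOfDegree (b + 1)) (κ : ℝ) (hκ0 : 0 < κ) (hκ1 : κ < 1) : ∃ C : ℝ, 0 < C ∧
    ∀ (θ θ' : ℝ) (m m' : V → Om V → ℝ) (B B' : V → V → Om V → ℝ), 0 ≤ θ → b * θ ^ 2 ≤ 1 → 0 ≤ θ' →
      b * θ' ^ 2 ≤ 1 → Fld G κ θ m B → Fld G κ θ' m' B' → ∀ o o' : V, G.Adj o o' → ∀ v u : V,
      (b : ℝ) ^ (G.dist v u) * ∫ ω, ((Kf G θ m B v u ω - Kf G θ' m' B' v u ω) ^ 2 +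
          Kf G θ' m' B' v u ω ^ 2 * (m u ω - m' u ω) ^ 2) ∂PP V ≤
        C * ((∫ ω, (m o ω - m' o ω) ^ 2 ∂PP V) +
          (G.dist v u : ℝ) * (∫ ω, (ff θ (B o o' ω) - ff θ' (B' o o' ω)) ^ 2 ∂PP V) +
          (G.dist v u : ℝ) ^ 2 * ((∫ ω, ff θ (B o o' ω) ∂PP V - ∫ ω, ff θ' (B' o o' ω) ∂PP V) ^ 2 +
            (θ - θ') ^ 2)) := by
  obtain ⟨Cd, hCd, hdec⟩ := decor hT b hb hreg
  obtain ⟨Cf, hCf, hff⟩ := ff_bdd κ hκ0.le hκ1
  have hb0 : (0 : ℝ) < b := by positivity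
  refine ⟨13 + 6 * Cd + 6 + 3 * b, by positivity, ?_⟩
  intro θ θ' m m' B B' h0 h1 h0' h1' hF hF' o o' hoo v u
  have ht1 := le_one' b hb θ h1
  have ht1' := le_one' b hb θ' h1'
  obtain ⟨μ, hμ⟩ : ∃ μ, μ = ∫ ω, ff θ (B o o' ω) ∂PP V - ∫ ω, ff θ' (B' o o' ω) ∂PP V := ⟨_, rfl⟩
  rw [← hμ]
  obtain ⟨n, hn⟩ : ∃ n, n = G.dist v u := ⟨_, rfl⟩
  have hpth := pth_specA hT v u
  obtain ⟨x, hx⟩ : ∃ x, x = pth G v u := ⟨_, rfl⟩
  rw [← hx, ← hn] at hpth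
  -- the centred family
  obtain ⟨F, hFd⟩ : ∃ F : V → V → Om V → ℝ, F = fun x y ω => ff θ (B x y ω) - ff θ' (B' x y ω) - μ :=
    ⟨_, rfl⟩
  have mff : ∀ x y, Measurable fun ω => ff θ (B x y ω) := fun x y =>
    (measurable_ff' θ).comp (hF.meas_B x y)
  have mff' : ∀ x y, Measurable fun ω => ff θ' (B' x y ω) := fun x y =>
    (measurable_ff' θ').comp (hF'.meas_B x y)
  have bff : ∀ x y ω, |ff θ (B x y ω)| ≤ Cf := fun x y ω => hff θ _ h0 ht1 (hF.bdd_B x y ω)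
  have bff' : ∀ x y ω, |ff θ' (B' x y ω)| ≤ Cf := fun x y ω => hff θ' _ h0' ht1' (hF'.bdd_B x y ω)
  have iff1 : ∀ x y, Integrable (fun ω => ff θ (B x y ω)) (PP V) := fun x y =>
    ibd (mff x y) Cf (bff x y)
  have iff1' : ∀ x y, Integrable (fun ω => ff θ' (B' x y ω)) (PP V) := fun x y =>
    ibd (mff' x y) Cf (bff' x y)
  have mF : ∀ x y, Measurable (F x y) := by
    intro x y
    rw [hFd]
    exact ((mff x y).sub (mff' x y)).sub_const μ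
  have bF : ∀ x y ω, |F x y ω| ≤ 2 * Cf + |μ| := by
    intro x y ω
    rw [hFd]
    have e1 := abs_sub (ff θ (B x y ω) - ff θ' (B' x y ω)) μ
    have e2 := abs_sub (ff θ (B x y ω)) (ff θ' (B' x y ω))
    have e3 := bff x y ω
    have e4 := bff' x y ω
    show |ff θ (B x y ω) - ff θ' (B' x y ω) - μ| ≤ 2 * Cf + |μ|
    linarith
  have zF : ∀ x y, G.Adj x y → ∫ ω, F x y ω ∂PP V = 0 := by
    intro x y hxy
    rw [hFd]
    show ∫ ω, (ff θ (B x y ω) - ff θ' (B' x y ω) - μ) ∂PP V = 0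
    have i0 : Integrable (fun ω => ff θ (B x y ω) - ff θ' (B' x y ω)) (PP V) :=
      (iff1 x y).sub (iff1' x y)
    rw [integral_sub i0 (integrable_const μ),
      integral_sub (iff1 x y) (iff1' x y), integral_const, a_const hT b hreg hF x y o o' hxy hoo,
      a_const hT b hreg hF' x y o o' hxy hoo, ← hμ]
    simp
  have eF : ∀ (g : G ≃g G) (x y : V), G.Adj x y →
      (fun ω => F (g x) (g y) ω) =ᵐ[PP V] (fun ω => F x y (act g.toEquiv ω)) := by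
    intro g x y hxy
    filter_upwards [hF.eqv_B g x y hxy, hF'.eqv_B g x y hxy] with ω e1 e2
    rw [hFd]
    show ff θ (B (g x) (g y) ω) - ff θ' (B' (g x) (g y) ω) - μ =
      ff θ (B x y (act g.toEquiv ω)) - ff θ' (B' x y (act g.toEquiv ω)) - μ
    rw [e1, e2]
  -- the mean square of the sum
  obtain ⟨G2, hG2⟩ : ∃ G2, G2 = ∫ ω, (ff θ (B o o' ω) - ff θ' (B' o o' ω)) ^ 2 ∂PP V := ⟨_, rfl⟩
  rw [← hG2]
  have hG20 : 0 ≤ G2 := by rw [hG2]; exact integral_nonneg fun ω => sq_nonneg _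
  have hsum : ∫ ω, (∑ i ∈ Finset.range n, F (x (i + 1)) (x i) ω) ^ 2 ∂PP V ≤ Cd * n * G2 := by
    rcases Nat.eq_zero_or_pos n with h | h
    · rw [h]; simp
    · refine (hdec F _ mF bF zF eF x n h hpth.2.2).trans ?_
      have hadj : G.Adj (x 1) (x 0) := by
        rw [← SimpleGraph.dist_eq_one_iff_adj, SimpleGraph.dist_comm]
        exact hpth.2.2 0 1 (by omega) h
      refine mul_le_mul_of_nonneg_left ?_ (by positivity)
      rw [hG2, G2_const hT b hreg hF hF' o o' (x 1) (x 0) hoo hadj]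
      have i1 : Integrable (fun ω => ff θ (B (x 1) (x 0) ω) - ff θ' (B' (x 1) (x 0) ω)) (PP V) :=
        (iff1 _ _).sub (iff1' _ _)
      have i2 : Integrable (fun ω => (ff θ (B (x 1) (x 0) ω) - ff θ' (B' (x 1) (x 0) ω)) ^ 2)
          (PP V) := by
        refine ibd (((mff _ _).sub (mff' _ _)).pow_const 2) ((2 * Cf) ^ 2) fun ω => ?_
        rw [abs_of_nonneg (sq_nonneg _), ← sq_abs]
        refine pow_le_pow_left₀ (abs_nonneg _) ?_ 2
        refine (abs_sub _ _).trans ?_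
        have := bff (x 1) (x 0) ω
        have := bff' (x 1) (x 0) ω
        linarith
      have e1 : ∀ ω, F (x 1) (x 0) ω ^ 2 =
          ((ff θ (B (x 1) (x 0) ω) - ff θ' (B' (x 1) (x 0) ω)) ^ 2 + μ ^ 2) -
          2 * μ * (ff θ (B (x 1) (x 0) ω) - ff θ' (B' (x 1) (x 0) ω)) := by
        intro ω
        rw [hFd]
        ring
      have e2 : ∫ ω, (ff θ (B (x 1) (x 0) ω) - ff θ' (B' (x 1) (x 0) ω)) ∂PP V = μ := by
        rw [integral_sub (iff1 _ _) (iff1' _ _), a_const hT b hreg hF _ _ o o' hadj hoo,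
          a_const hT b hreg hF' _ _ o o' hadj hoo, ← hμ]
      have e3 : ∫ ω, F (x 1) (x 0) ω ^ 2 ∂PP V =
          ∫ ω, (ff θ (B (x 1) (x 0) ω) - ff θ' (B' (x 1) (x 0) ω)) ^ 2 ∂PP V + μ ^ 2 -
            2 * μ * μ := by
        simp only [e1]
        have i3 : Integrable (fun ω => (ff θ (B (x 1) (x 0) ω) - ff θ' (B' (x 1) (x 0) ω)) ^ 2 +
          μ ^ 2) (PP V) := i2.add (integrable_const _)
        rw [integral_sub i3 (i1.const_mul _),
          integral_add i2 (integrable_const _), integral_const_mul, e2, integral_const]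
        simp
      rw [e3]
      nlinarith [sq_nonneg μ]
  -- integrate the pointwise bound
  obtain ⟨Z, hZ⟩ : ∃ Z, Z = ∫ ω, (m o ω - m' o ω) ^ 2 ∂PP V := ⟨_, rfl⟩
  rw [← hZ]
  have hZ0 : 0 ≤ Z := by rw [hZ]; exact integral_nonneg fun ω => sq_nonneg _
  have hZv : ∫ ω, (m v ω - m' v ω) ^ 2 ∂PP V = Z := by rw [hZ]; exact Z_const hT b hreg hF hF' v o
  have hZu : ∫ ω, (m u ω - m' u ω) ^ 2 ∂PP V = Z := by rw [hZ]; exact Z_const hT b hreg hF hF' u o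
  have hmm : ∀ v, Integrable (fun ω => (m v ω - m' v ω) ^ 2) (PP V) := by
    intro v
    refine ibd (((hF.meas_m v).sub (hF'.meas_m v)).pow_const 2) 4 fun ω => ?_
    have a1 := abs_le.1 (hF.bdd_m v ω)
    have a2 := abs_le.1 (hF'.bdd_m v ω)
    rw [abs_of_nonneg (sq_nonneg _)]
    nlinarith
  have hiS : Integrable (fun ω => (∑ i ∈ Finset.range n, F (x (i + 1)) (x i) ω) ^ 2) (PP V) := by
    refine ibd ((Finset.measurable_fun_sum _ fun i _ => mF _ _).pow_const 2)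
      ((n * (2 * Cf + |μ|)) ^ 2) fun ω => ?_
    rw [abs_of_nonneg (sq_nonneg _), ← sq_abs]
    refine pow_le_pow_left₀ (abs_nonneg _) ?_ 2
    refine (Finset.abs_sum_le_sum_abs _ _).trans ?_
    refine (Finset.sum_le_sum fun i _ => bF _ _ ω).trans (le_of_eq ?_)
    rw [Finset.sum_const, Finset.card_range, nsmul_eq_mul]
  have hpt : ∀ ω, (b : ℝ) ^ n * ((Kf G θ m B v u ω - Kf G θ' m' B' v u ω) ^ 2 +
      Kf G θ' m' B' v u ω ^ 2 * (m u ω - m' u ω) ^ 2) ≤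
      12 * (m v ω - m' v ω) ^ 2 + (m u ω - m' u ω) ^ 2 +
        (6 * (∑ i ∈ Finset.range n, F (x (i + 1)) (x i) ω) ^ 2 +
        (3 * b * n ^ 2 * (θ - θ') ^ 2 + 6 * n ^ 2 * μ ^ 2)) := by
    intro ω
    have e1 := near_pt b hb h0 h1 h0' h1' hF hF' hκ1 v u ω
    rw [← hx, ← hn] at e1
    have e2 : ∑ i ∈ Finset.range n, (ff θ (B (x (i + 1)) (x i) ω) - ff θ' (B' (x (i + 1)) (x i) ω)) =
        ∑ i ∈ Finset.range n, F (x (i + 1)) (x i) ω + n * μ := by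
      rw [hFd]
      simp only [Finset.sum_sub_distrib, Finset.sum_const, Finset.card_range, nsmul_eq_mul]
      ring
    rw [e2] at e1
    have e3 : (∑ i ∈ Finset.range n, F (x (i + 1)) (x i) ω + n * μ) ^ 2 ≤
        2 * (∑ i ∈ Finset.range n, F (x (i + 1)) (x i) ω) ^ 2 + 2 * (n * μ) ^ 2 := by
      nlinarith [sq_nonneg (∑ i ∈ Finset.range n, F (x (i + 1)) (x i) ω - n * μ)]
    rw [mul_pow] at e3
    linarith
  rw [← hn, ← integral_const_mul]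
  have hint : Integrable (fun ω => 12 * (m v ω - m' v ω) ^ 2 + (m u ω - m' u ω) ^ 2 +
        (6 * (∑ i ∈ Finset.range n, F (x (i + 1)) (x i) ω) ^ 2 +
        (3 * b * n ^ 2 * (θ - θ') ^ 2 + 6 * n ^ 2 * μ ^ 2))) (PP V) :=
    (((hmm v).const_mul 12).add (hmm u)).add ((hiS.const_mul 6).add (integrable_const _))
  have hmono := integral_mono_of_nonneg (Filter.Eventually.of_forall fun ω => by positivity) hint
    (Filter.Eventually.of_forall hpt)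
  refine hmono.trans ?_
  have e1 : ∫ ω, (12 * (m v ω - m' v ω) ^ 2 + (m u ω - m' u ω) ^ 2 +
        (6 * (∑ i ∈ Finset.range n, F (x (i + 1)) (x i) ω) ^ 2 +
        (3 * b * n ^ 2 * (θ - θ') ^ 2 + 6 * n ^ 2 * μ ^ 2))) ∂PP V =
      12 * Z + Z + (6 * ∫ ω, (∑ i ∈ Finset.range n, F (x (i + 1)) (x i) ω) ^ 2 ∂PP V +
        (3 * b * n ^ 2 * (θ - θ') ^ 2 + 6 * n ^ 2 * μ ^ 2)) := by
    have i1 : Integrable (fun ω => 12 * (m v ω - m' v ω) ^ 2) (PP V) := (hmm v).const_mul 12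
    have i2 : Integrable (fun ω => 6 * (∑ i ∈ Finset.range n, F (x (i + 1)) (x i) ω) ^ 2) (PP V) :=
      hiS.const_mul 6
    have i3 : Integrable (fun ω => 12 * (m v ω - m' v ω) ^ 2 + (m u ω - m' u ω) ^ 2) (PP V) :=
      i1.add (hmm u)
    have i4 : Integrable (fun ω => 6 * (∑ i ∈ Finset.range n, F (x (i + 1)) (x i) ω) ^ 2 +
        (3 * b * n ^ 2 * (θ - θ') ^ 2 + 6 * n ^ 2 * μ ^ 2)) (PP V) := i2.add (integrable_const _)
    rw [integral_add i3 i4, integral_add i1 (hmm u), integral_add i2 (integrable_const _),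
      integral_const_mul, integral_const_mul, hZv, hZu, integral_const]
    simp
  rw [e1]
  have hn0 : (0 : ℝ) ≤ n := Nat.cast_nonneg n
  have hθ2 : 0 ≤ (θ - θ') ^ 2 := sq_nonneg _
  have hμ2 : 0 ≤ μ ^ 2 := sq_nonneg _
  have r1 : 0 ≤ (6 * Cd + 6 + 3 * b) * Z := by positivity
  have r2 : 0 ≤ (13 + 6 + 3 * b) * (n * G2) := by positivity
  have r3 : 0 ≤ (13 + 6 * Cd + 6) * (n ^ 2 * (θ - θ') ^ 2) := by positivity
  have r4 : 0 ≤ (13 + 6 * Cd + 3 * b) * (n ^ 2 * μ ^ 2) := by positivity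
  linarith [hsum, (by ring : (13 + 6 * Cd + 6 + 3 * b) * (Z + n * G2 + n ^ 2 * (μ ^ 2 + (θ - θ') ^ 2)) =
    12 * Z + Z + (6 * (Cd * n * G2) + (3 * b * n ^ 2 * (θ - θ') ^ 2 + 6 * n ^ 2 * μ ^ 2)) +
    ((6 * Cd + 6 + 3 * b) * Z + (13 + 6 + 3 * b) * (n * G2) +
    (13 + 6 * Cd + 6) * (n ^ 2 * (θ - θ') ^ 2) + (13 + 6 * Cd + 3 * b) * (n ^ 2 * μ ^ 2)))]

end FLD

end Crest.Agent.TI
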