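import Crest.Agent.TI_Suba
import Crest.Agent.TI_Dyn

/-!
Row S0241, task Subb: convergence of the window schemes below the critical point
-/

set_option autoImplicit false
set_option linter.unusedSectionVars false
set_option linter.unusedVariables false

namespace Crest.Agent.TI

open MeasureTheory Filter Topology
open Crest.Agent.SRF (Lab lab)


section SUB

variable {V : Type*} [DecidableEq V] {G : SimpleGraph V}

/-- at time `0` of stage `0` there is no information -/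
theorem MW_zero (hT : G.IsTree) (θ : ℝ) (h0 : 0 ≤ θ) (h1 : θ < 1) (W : Finset V) (hW : Win G W)
    (v : V) (hv : v ∈ W) (ω : Om V) : MW G θ W 0 0 v ω = 0 := by
  have hd : dat (ip G θ W) W 0 0 ω = fun _ _ => 1 := by
    funext x c
    exact lkh_zero _ _ x c
  unfold MW MM
  rw [hd, mn_eq_dd]
  have h2 := dd_flip (G := G) θ W (fun _ _ => (1 : ℝ)) v true hv
  simp only [Bool.not_true] at h2
  rw [h2]
  simp

theorem MW_stage (θ : ℝ) (W : Finset V) (k : ℕ) (r : ℝ) (hr : 1 / 2 ≤ r) (v : V) (ω : Om V) :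
    MW G θ W k r v ω = MW G θ W (k + 1) 0 v ω := by
  unfold MW MM dat
  rw [lkh_stage _ _ _ _ hr]

theorem subb_measMM (p : Finset V → ℝ) (W : Finset V) (k : ℕ) (r : ℝ) (v : V) :
    Measurable (MM p W k r v) := by
  have h1 : Measurable (fun ω : Om V => (r, ω)) := measurable_const.prodMk measurable_id
  have h2 := (measurable_MM2 p W k v).comp h1
  exact h2

theorem subb_measM (θ : ℝ) (W : Finset V) (k : ℕ) (r : ℝ) (v : V) : Measurable (MW G θ W k r v) := by
  unfold MW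
  exact subb_measMM _ W k r v

theorem subb_absM (hT : G.IsTree) (θ : ℝ) (h0 : 0 ≤ θ) (h1 : θ < 1) {W : Finset V} (hW : Win G W)
    (k : ℕ) (r : ℝ) (v : V) (ω : Om V) : |MW G θ W k r v ω| ≤ 1 :=
  abs_MM_le (isMass_ip hT θ h0 h1.le hW) k r v ω

theorem subb_sq4 (hT : G.IsTree) (θ : ℝ) (h0 : 0 ≤ θ) (h1 : θ < 1) {W W' : Finset V}
    (hW : Win G W) (hW' : Win G W') (k : ℕ) (r : ℝ) (v : V) (ω : Om V) :
    (MW G θ W k r v ω - MW G θ W' k r v ω) ^ 2 ≤ 4 := by
  have a1 := abs_le.1 (subb_absM hT θ h0 h1 hW k r v ω)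
  have a2 := abs_le.1 (subb_absM hT θ h0 h1 hW' k r v ω)
  nlinarith

theorem subb_intM (hT : G.IsTree) (θ : ℝ) (h0 : 0 ≤ θ) (h1 : θ < 1) {W W' : Finset V}
    (hW : Win G W) (hW' : Win G W') (k : ℕ) (r : ℝ) (v : V) :
    Integrable (fun ω => (MW G θ W k r v ω - MW G θ W' k r v ω) ^ 2) (PP V) := by
  refine integrable_bdd _ (((subb_measM θ W k r v).sub (subb_measM θ W' k r v)).pow_const 2) 4 ?_
  intro ω
  rw [abs_of_nonneg (sq_nonneg _)]
  exact subb_sq4 hT θ h0 h1 hW hW' k r v ω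

theorem subb_le4 (hT : G.IsTree) (θ : ℝ) (h0 : 0 ≤ θ) (h1 : θ < 1) {W W' : Finset V}
    (hW : Win G W) (hW' : Win G W') (k : ℕ) (r : ℝ) (v : V) :
    ∫ ω, (MW G θ W k r v ω - MW G θ W' k r v ω) ^ 2 ∂PP V ≤ 4 := by
  have := integral_mono (subb_intM hT θ h0 h1 hW hW' k r v) (integrable_const (4 : ℝ))
    (fun ω => subb_sq4 hT θ h0 h1 hW hW' k r v ω)
  simpa using this

/-- the contribution of a vertex near the root -/
theorem subb_near (hT : G.IsTree) (θ : ℝ) (h0 : 0 ≤ θ) (h1 : θ < 1) (k : ℕ) (C : ℝ)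
    (W W' : Finset V) (hW : Win G W) (hW' : Win G W') (r : ℝ) (v u : V)
    (hC : ∀ (x : ℕ → V) (n : ℕ) (ω : Om V), Geo G x n → (∀ i ≤ n, x i ∈ W) → (∀ i ≤ n, x i ∈ W') →
      |KW G θ W k r (x 0) (x n) ω - KW G θ W' k r (x 0) (x n) ω| ≤
        C * θ ^ n * ∑ i ∈ Finset.range (n + 1), |MW G θ W k r (x i) ω - MW G θ W' k r (x i) ω|)
    (B : ℝ) (hB : ∀ x, G.dist v x ≤ G.dist v u → x ∈ W ∧ x ∈ W' ∧
      ∫ ω, (MW G θ W k r x ω - MW G θ W' k r x ω) ^ 2 ∂PP V ≤ B) :
    ∫ ω, ((KW G θ W k r v u ω - KW G θ W' k r v u ω) ^ 2 +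
      (KW G θ W' k r v u ω) ^ 2 * (MW G θ W k r u ω - MW G θ W' k r u ω) ^ 2) ∂PP V ≤
    (θ ^ 2) ^ (G.dist v u) * (C ^ 2 * ((G.dist v u : ℝ) + 1) ^ 2 + 1) * B := by
  obtain ⟨x, hx0, hxn, hx⟩ := geo_exists hT v u
  set n := G.dist v u with hn
  have hdist : ∀ i ≤ n, G.dist v (x i) ≤ n := by
    intro i hi
    have := hx 0 i (Nat.zero_le _) hi
    rw [hx0] at this
    omega
  have hpt : ∀ ω : Om V, (KW G θ W k r v u ω - KW G θ W' k r v u ω) ^ 2 +
      (KW G θ W' k r v u ω) ^ 2 * (MW G θ W k r u ω - MW G θ W' k r u ω) ^ 2 ≤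
      (θ ^ 2) ^ n * (C ^ 2 * (n + 1)) * ∑ i ∈ Finset.range (n + 1),
        (MW G θ W k r (x i) ω - MW G θ W' k r (x i) ω) ^ 2 +
      (θ ^ 2) ^ n * (MW G θ W k r u ω - MW G θ W' k r u ω) ^ 2 := by
    intro ω
    have e1 := hC x n ω hx (fun i hi => (hB _ (hdist i hi)).1) (fun i hi => (hB _ (hdist i hi)).2.1)
    rw [hx0, hxn] at e1
    have e2 : (KW G θ W k r v u ω - KW G θ W' k r v u ω) ^ 2 ≤
        (C * θ ^ n * ∑ i ∈ Finset.range (n + 1), |MW G θ W k r (x i) ω - MW G θ W' k r (x i) ω|) ^ 2 := by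
      rw [← sq_abs (KW G θ W k r v u ω - KW G θ W' k r v u ω)]
      exact pow_le_pow_left₀ (abs_nonneg _) e1 2
    have e3 : (∑ i ∈ Finset.range (n + 1), |MW G θ W k r (x i) ω - MW G θ W' k r (x i) ω|) ^ 2 ≤
        (n + 1) * ∑ i ∈ Finset.range (n + 1), (MW G θ W k r (x i) ω - MW G θ W' k r (x i) ω) ^ 2 := by
      have := sq_sum_le_card_mul_sum_sq (s := Finset.range (n + 1))
        (f := fun i => |MW G θ W k r (x i) ω - MW G θ W' k r (x i) ω|)
      simpa using this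
    have e4 : (KW G θ W' k r v u ω) ^ 2 ≤ (θ ^ 2) ^ n := by
      have := KW_bound hT θ h0 h1 W' hW' k r v u ω
      rw [← hn] at this
      rw [← sq_abs, ← pow_mul, mul_comm, pow_mul]
      exact pow_le_pow_left₀ (abs_nonneg _) this 2
    have e5 : (KW G θ W k r v u ω - KW G θ W' k r v u ω) ^ 2 ≤
        (θ ^ 2) ^ n * (C ^ 2 * (n + 1)) * ∑ i ∈ Finset.range (n + 1),
          (MW G θ W k r (x i) ω - MW G θ W' k r (x i) ω) ^ 2 := by
      refine e2.trans ?_
      calc (C * θ ^ n * ∑ i ∈ Finset.range (n + 1), |MW G θ W k r (x i) ω - MW G θ W' k r (x i) ω|) ^ 2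
          = (θ ^ 2) ^ n * C ^ 2 * (∑ i ∈ Finset.range (n + 1),
            |MW G θ W k r (x i) ω - MW G θ W' k r (x i) ω|) ^ 2 := by ring
        _ ≤ (θ ^ 2) ^ n * C ^ 2 * ((n + 1) * ∑ i ∈ Finset.range (n + 1),
            (MW G θ W k r (x i) ω - MW G θ W' k r (x i) ω) ^ 2) := by gcongr
        _ = _ := by ring
    have e6 : (KW G θ W' k r v u ω) ^ 2 * (MW G θ W k r u ω - MW G θ W' k r u ω) ^ 2 ≤
        (θ ^ 2) ^ n * (MW G θ W k r u ω - MW G θ W' k r u ω) ^ 2 := by gcongr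
    linarith
  have hI : Integrable (fun ω => (θ ^ 2) ^ n * (C ^ 2 * (n + 1)) * ∑ i ∈ Finset.range (n + 1),
        (MW G θ W k r (x i) ω - MW G θ W' k r (x i) ω) ^ 2 +
      (θ ^ 2) ^ n * (MW G θ W k r u ω - MW G θ W' k r u ω) ^ 2) (PP V) := by
    refine Integrable.add (Integrable.const_mul ?_ _) (Integrable.const_mul ?_ _)
    · exact integrable_finsetSum _ (fun i _ => subb_intM hT θ h0 h1 hW hW' k r (x i))
    · exact subb_intM hT θ h0 h1 hW hW' k r u
  refine (integral_mono_of_nonneg (Filter.Eventually.of_forall fun ω => by positivity) hI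
    (Filter.Eventually.of_forall hpt)).trans ?_
  rw [integral_add (Integrable.const_mul (integrable_finsetSum _
      (fun i _ => subb_intM hT θ h0 h1 hW hW' k r (x i))) _)
      (Integrable.const_mul (subb_intM hT θ h0 h1 hW hW' k r u) _),
    integral_const_mul, integral_const_mul,
    integral_finsetSum _ (fun i _ => subb_intM hT θ h0 h1 hW hW' k r (x i))]
  have e1 : ∑ i ∈ Finset.range (n + 1), ∫ ω, (MW G θ W k r (x i) ω - MW G θ W' k r (x i) ω) ^ 2 ∂PP V ≤
      (n + 1) * B := by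
    have := Finset.sum_le_card_nsmul (Finset.range (n + 1))
      (fun i => ∫ ω, (MW G θ W k r (x i) ω - MW G θ W' k r (x i) ω) ^ 2 ∂PP V) B
      (fun i hi => (hB _ (hdist i (by have := Finset.mem_range.1 hi; omega))).2.2)
    simpa using this
  have e2 : ∫ ω, (MW G θ W k r u ω - MW G θ W' k r u ω) ^ 2 ∂PP V ≤ B := (hB u le_rfl).2.2
  calc _ ≤ (θ ^ 2) ^ n * (C ^ 2 * (n + 1)) * ((n + 1) * B) + (θ ^ 2) ^ n * B := by gcongr
    _ = _ := by ring

/-- the contribution of an arbitrary vertex -/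
theorem subb_far (hT : G.IsTree) (θ : ℝ) (h0 : 0 ≤ θ) (h1 : θ < 1) (k : ℕ)
    (W W' : Finset V) (hW : Win G W) (hW' : Win G W') (r : ℝ) (v u : V) :
    ∫ ω, ((KW G θ W k r v u ω - KW G θ W' k r v u ω) ^ 2 +
      (KW G θ W' k r v u ω) ^ 2 * (MW G θ W k r u ω - MW G θ W' k r u ω) ^ 2) ∂PP V ≤
    8 * (θ ^ 2) ^ (G.dist v u) := by
  have hpt : ∀ ω : Om V, (KW G θ W k r v u ω - KW G θ W' k r v u ω) ^ 2 +
      (KW G θ W' k r v u ω) ^ 2 * (MW G θ W k r u ω - MW G θ W' k r u ω) ^ 2 ≤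
      8 * (θ ^ 2) ^ (G.dist v u) := by
    intro ω
    have a1 := abs_le.1 (KW_bound hT θ h0 h1 W hW k r v u ω)
    have a2 := abs_le.1 (KW_bound hT θ h0 h1 W' hW' k r v u ω)
    have a3 := subb_sq4 hT θ h0 h1 hW hW' k r u ω
    have e0 : (θ ^ 2) ^ (G.dist v u) = (θ ^ G.dist v u) ^ 2 := by ring
    rw [e0]
    set s := θ ^ G.dist v u
    have b1 : (KW G θ W k r v u ω - KW G θ W' k r v u ω) ^ 2 ≤ 4 * s ^ 2 := by
      nlinarith
    have b2 : (KW G θ W' k r v u ω) ^ 2 ≤ s ^ 2 := by nlinarith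
    have b3 : (KW G θ W' k r v u ω) ^ 2 * (MW G θ W k r u ω - MW G θ W' k r u ω) ^ 2 ≤ s ^ 2 * 4 := by
      gcongr
    linarith
  have := integral_mono_of_nonneg (μ := PP V) (Filter.Eventually.of_forall fun ω => by positivity)
    (integrable_const (8 * (θ ^ 2) ^ (G.dist v u))) (Filter.Eventually.of_forall hpt)
  simpa using this

/-- sums of functions of the distance -/
theorem subb_sum [G.LocallyFinite] (hT : G.IsTree) (b : ℕ) (hb : 2 ≤ b)
    (hreg : G.IsRegularOfDegree (b + 1)) (v : V) (s : Finset V) (F : ℕ → ℝ) (hF : ∀ n, 0 ≤ F n) :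
    ∃ M : ℕ, ∑ u ∈ s, F (G.dist v u) ≤ ∑ n ∈ Finset.range M, 2 * (b : ℝ) ^ n * F n := by
  refine ⟨s.sup (fun u => G.dist v u) + 1, ?_⟩
  have hmap : ∀ u ∈ s, G.dist v u ∈ Finset.range (s.sup (fun u => G.dist v u) + 1) := by
    intro u hu
    rw [Finset.mem_range]
    exact Nat.lt_succ_of_le (Finset.le_sup (f := fun u => G.dist v u) hu)
  rw [← Finset.sum_fiberwise_of_maps_to hmap]
  refine Finset.sum_le_sum fun n _ => ?_
  have e1 : ∑ u ∈ s with G.dist v u = n, F (G.dist v u) = ∑ u ∈ s with G.dist v u = n, F n := by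
    refine Finset.sum_congr rfl fun u hu => ?_
    rw [(Finset.mem_filter.1 hu).2]
  rw [e1, Finset.sum_const, nsmul_eq_mul]
  refine mul_le_mul_of_nonneg_right ?_ (hF n)
  have hsub : s.filter (fun u => G.dist v u = n) ⊆ sph G v n := by
    intro u hu
    rw [mem_sph hT]
    exact (Finset.mem_filter.1 hu).2
  have hc : ((s.filter (fun u => G.dist v u = n)).card : ℝ) ≤ (sph G v n).card := by
    exact_mod_cast Finset.card_le_card hsub
  refine hc.trans ?_
  cases n with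
  | zero =>
    have : sph G v 0 ⊆ {v} := by
      intro u hu
      rw [mem_sph hT] at hu
      rw [Finset.mem_singleton]
      exact ((hT.connected.dist_eq_zero_iff).1 hu).symm
    have h2 : ((sph G v 0).card : ℝ) ≤ 1 := by
      exact_mod_cast (Finset.card_le_card this).trans (by simp)
    simp only [pow_zero, mul_one]
    linarith
  | succ n =>
    rw [card_sph hT b hreg v n]
    push_cast
    have : (1 : ℝ) ≤ b := by exact_mod_cast (by omega : 1 ≤ b)
    have h3 : (0 : ℝ) ≤ (b : ℝ) ^ n := by positivity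
    calc ((b : ℝ) + 1) * (b : ℝ) ^ n ≤ (2 * b) * (b : ℝ) ^ n := by gcongr; linarith
      _ = 2 * (b : ℝ) ^ (n + 1) := by ring

set_option maxHeartbeats 1000000 in
/-- it suffices to control the initial time of the stage -/
theorem subb_main [G.LocallyFinite] (hT : G.IsTree) (b : ℕ) (hb : 2 ≤ b)
    (hreg : G.IsRegularOfDegree (b + 1)) (θ : ℝ) (h0 : 0 ≤ θ) (h1 : b * θ ^ 2 < 1) (hθ1 : θ < 1)
    (hself : ∀ (v : V) (R : ℕ), v ∈ bal G v R) (k : ℕ)
    (hk : ∀ δ : ℝ, 0 < δ → ∃ R : ℕ, ∀ (v : V) (W W' : Finset V), Win G W → Win G W' →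
      bal G v R ⊆ W → bal G v R ⊆ W' →
        ∫ ω, (MW G θ W k 0 v ω - MW G θ W' k 0 v ω) ^ 2 ∂PP V ≤ δ)
    (ε : ℝ) (hε : 0 < ε) : ∃ R : ℕ, ∀ (v : V) (W W' : Finset V), Win G W → Win G W' →
      bal G v R ⊆ W → bal G v R ⊆ W' → ∀ r : ℝ, 0 ≤ r → r ≤ 1 →
        ∫ ω, (MW G θ W k r v ω - MW G θ W' k r v ω) ^ 2 ∂PP V ≤ ε := by
  obtain ⟨C, hC0, hC⟩ := KW_lip hT b hb hreg k
  set q : ℝ := b * θ ^ 2 with hq
  have hq0 : 0 ≤ q := by positivity
  -- the constant `A`
  have hsum : Summable (fun n : ℕ => 2 * (b : ℝ) ^ n * ((θ ^ 2) ^ n * (C ^ 2 * ((n : ℝ) + 1) ^ 2 + 1))) := by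
    have e1 : Summable (fun n : ℕ => ((n : ℝ)) ^ 2 * q ^ n) :=
      summable_pow_mul_geometric_of_norm_lt_one 2 (by rw [Real.norm_eq_abs, abs_of_nonneg hq0]; exact h1)
    have e2 : Summable (fun n : ℕ => ((n : ℝ)) ^ 1 * q ^ n) :=
      summable_pow_mul_geometric_of_norm_lt_one 1 (by rw [Real.norm_eq_abs, abs_of_nonneg hq0]; exact h1)
    have e3 : Summable (fun n : ℕ => q ^ n) := summable_geometric_of_lt_one hq0 h1
    have e4 := ((e1.mul_left (2 * C ^ 2)).add (e2.mul_left (4 * C ^ 2))).add (e3.mul_left (2 * C ^ 2 + 2))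
    refine e4.congr fun n => ?_
    rw [hq, mul_pow]
    ring
  set A : ℝ := ∑' n : ℕ, 2 * (b : ℝ) ^ n * ((θ ^ 2) ^ n * (C ^ 2 * ((n : ℝ) + 1) ^ 2 + 1)) with hA
  have hA0 : 0 < A := by
    have := hsum.sum_le_tsum (Finset.range 1) (fun n _ => by positivity)
    rw [← hA] at this
    simp only [Finset.range_one, Finset.sum_singleton, pow_zero, Nat.cast_zero] at this
    nlinarith [sq_nonneg C]
  set Ee : ℝ := Real.exp (4 * A) with hEe
  have hE0 : 0 < Ee := Real.exp_pos _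
  -- choice of the parameters
  set η : ℝ := ε / (8 * Ee) with hη
  have hη0 : 0 < η := by positivity
  obtain ⟨N, hN⟩ : ∃ N : ℕ, 16 * q ^ (N + 1) / (1 - q) ≤ η / 2 := by
    have ht : Tendsto (fun N : ℕ => 16 * q ^ (N + 1) / (1 - q)) atTop (𝓝 (16 * 0 / (1 - q))) := by
      refine Tendsto.div_const (Tendsto.const_mul _ ?_) _
      exact (tendsto_pow_atTop_nhds_zero_of_lt_one hq0 h1).comp (tendsto_add_atTop_nat 1)
    rw [mul_zero, zero_div] at ht
    exact ((ht.eventually (gt_mem_nhds (by positivity : (0 : ℝ) < η / 2))).exists).imp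
      fun N hN => hN.le
  obtain ⟨j, hj⟩ : ∃ j : ℕ, 4 * (1 / 2 : ℝ) ^ j ≤ η := by
    have ht : Tendsto (fun j : ℕ => 4 * (1 / 2 : ℝ) ^ j) atTop (𝓝 (4 * 0)) :=
      Tendsto.const_mul _ (tendsto_pow_atTop_nhds_zero_of_lt_one (by norm_num) (by norm_num))
    rw [mul_zero] at ht
    exact ((ht.eventually (gt_mem_nhds hη0)).exists).imp fun N hN => hN.le
  obtain ⟨R0, hR0⟩ := hk (η / 2) (by positivity)
  set τ : ℝ := 16 * q ^ (N + 1) / (1 - q) with hτ
  have hτ0 : 0 ≤ τ := by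
    have : 0 < 1 - q := by linarith
    positivity
  -- the bound on the drift
  have hdrift : ∀ (v : V) (W W' : Finset V), Win G W → Win G W' → ∀ (r B : ℝ), 0 ≤ B →
      (∀ x, G.dist v x ≤ N → x ∈ W ∧ x ∈ W' ∧
        ∫ ω, (MW G θ W k r x ω - MW G θ W' k r x ω) ^ 2 ∂PP V ≤ B) →
      ∑ u ∈ W ∪ W', ∫ ω, ((KW G θ W k r v u ω - KW G θ W' k r v u ω) ^ 2 +
        (KW G θ W' k r v u ω) ^ 2 * (MW G θ W k r u ω - MW G θ W' k r u ω) ^ 2) ∂PP V ≤
        A * B + τ := by
    intro v W W' hW hW' r B hB0 hB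
    set F : ℕ → ℝ := fun n => if n ≤ N then (θ ^ 2) ^ n * (C ^ 2 * ((n : ℝ) + 1) ^ 2 + 1) * B
      else 8 * (θ ^ 2) ^ n with hF
    have hF0 : ∀ n, 0 ≤ F n := by
      intro n
      simp only [hF]
      split_ifs <;> positivity
    obtain ⟨M, hM⟩ := subb_sum hT b hb hreg v (W ∪ W') F hF0
    refine (Finset.sum_le_sum fun u _ => ?_).trans (hM.trans ?_)
    · simp only [hF]
      split_ifs with h
      · refine subb_near hT θ h0 hθ1 k C W W' hW hW' r v u ?_ B ?_
        · intro x n ω hx hxW hxW'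
          exact hC θ W W' r x n ω h0 h1.le hW hW' hx hxW hxW'
        · intro x hx
          exact hB x (hx.trans h)
      · exact subb_far hT θ h0 hθ1 k W W' hW hW' r v u
    · have e1 : ∀ n ∈ Finset.range M, 2 * (b : ℝ) ^ n * F n ≤
          2 * (b : ℝ) ^ n * ((θ ^ 2) ^ n * (C ^ 2 * ((n : ℝ) + 1) ^ 2 + 1)) * B +
          (if N < n then 16 * q ^ n else 0) := by
        intro n _
        simp only [hF]
        by_cases h : n ≤ N
        · rw [if_pos h, if_neg (not_lt.2 h)]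
          apply le_of_eq
          ring
        · rw [if_neg h, if_pos (not_le.1 h)]
          have : 2 * (b : ℝ) ^ n * (8 * (θ ^ 2) ^ n) = 16 * q ^ n := by
            rw [hq, mul_pow]; ring
          rw [this]
          have : 0 ≤ 2 * (b : ℝ) ^ n * ((θ ^ 2) ^ n * (C ^ 2 * ((n : ℝ) + 1) ^ 2 + 1)) * B := by
            positivity
          linarith
      refine (Finset.sum_le_sum e1).trans ?_
      rw [Finset.sum_add_distrib, ← Finset.sum_mul]
      have e2 := hsum.sum_le_tsum (Finset.range M) (fun n _ => by positivity)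
      rw [← hA] at e2
      have e3 : ∑ n ∈ Finset.range M, (if N < n then 16 * q ^ n else 0) ≤ τ := by
        rw [← Finset.sum_filter, ← Finset.mul_sum]
        have : (Finset.range M).filter (fun n => N < n) = Finset.Ico (N + 1) M := by
          ext n
          simp only [Finset.mem_filter, Finset.mem_range, Finset.mem_Ico]
          omega
        rw [this, hτ, mul_div_assoc]
        exact mul_le_mul_of_nonneg_left (geom_sum_Ico_le_of_lt_one hq0 h1) (by norm_num)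
      have e4 := mul_le_mul_of_nonneg_right e2 hB0
      linarith
  -- the iteration
  have iter : ∀ j : ℕ, ∀ (v : V) (W W' : Finset V), Win G W → Win G W' →
      bal G v (R0 + j * N) ⊆ W → bal G v (R0 + j * N) ⊆ W' → ∀ t : ℝ, 0 ≤ t → t ≤ 1 →
      ∫ ω, (MW G θ W k t v ω - MW G θ W' k t v ω) ^ 2 ∂PP V ≤
        (4 * (1 / 2 : ℝ) ^ j + 2 * (η / 2 + 2 * τ)) * Real.exp (4 * A * t) := by
    intro j
    induction j with
    | zero =>
      intro v W W' hW hW' _ _ t ht _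
      refine (subb_le4 hT θ h0 hθ1 hW hW' k t v).trans ?_
      have e1 : 1 ≤ Real.exp (4 * A * t) := Real.one_le_exp (by positivity)
      have e2 : (4 : ℝ) ≤ 4 * (1 / 2 : ℝ) ^ 0 + 2 * (η / 2 + 2 * τ) := by
        rw [pow_zero]; nlinarith
      calc (4 : ℝ) ≤ (4 * (1 / 2 : ℝ) ^ 0 + 2 * (η / 2 + 2 * τ)) * 1 := by linarith
        _ ≤ _ := by gcongr
    | succ j ihj =>
      intro v W W' hW hW' hbW hbW' t ht ht1
      set D : ℝ := 4 * (1 / 2 : ℝ) ^ j + 2 * (η / 2 + 2 * τ) with hD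
      have hD0 : 0 ≤ D := by positivity
      have hin : ∀ (x : V), G.dist v x ≤ N → bal G x (R0 + j * N) ⊆ W ∧ bal G x (R0 + j * N) ⊆ W' := by
        intro x hx
        have hs : bal G x (R0 + j * N) ⊆ bal G v (R0 + (j + 1) * N) := by
          intro y hy
          rw [mem_bal hT] at hy ⊢
          have := hT.connected.dist_triangle (u := v) (v := x) (w := y)
          have e : (j + 1) * N = j * N + N := by ring
          omega
        exact ⟨hs.trans hbW, hs.trans hbW'⟩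
      have hB : ∀ r : ℝ, 0 ≤ r → r ≤ 1 → ∀ x, G.dist v x ≤ N → x ∈ W ∧ x ∈ W' ∧
          ∫ ω, (MW G θ W k r x ω - MW G θ W' k r x ω) ^ 2 ∂PP V ≤ D * Real.exp (4 * A * r) := by
        intro r hr hr1 x hx
        obtain ⟨i1, i2⟩ := hin x hx
        exact ⟨i1 (hself x _), i2 (hself x _), ihj x W W' hW hW' i1 i2 r hr hr1⟩
      have hvW : v ∈ W := hbW (hself v _)
      have hvW' : v ∈ W' := hbW' (hself v _)
      have hdyn := dyn (isMass_ip hT θ h0 hθ1.le hW) (isMass_ip hT θ h0 hθ1.le hW') v hvW hvW' k 0 t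
        le_rfl ht ht1
      change ∫ ω, (MW G θ W k t v ω - MW G θ W' k t v ω) ^ 2 ∂PP V ≤
        ∫ ω, (MW G θ W k 0 v ω - MW G θ W' k 0 v ω) ^ 2 ∂PP V +
        2 * ∫ r in (0:ℝ)..t, r ^ 2 * ∑ u ∈ W ∪ W', ∫ ω, ((KW G θ W k r v u ω - KW G θ W' k r v u ω) ^ 2 +
          (KW G θ W' k r v u ω) ^ 2 * (MW G θ W k r u ω - MW G θ W' k r u ω) ^ 2) ∂PP V at hdyn
      have hZ0 : ∫ ω, (MW G θ W k 0 v ω - MW G θ W' k 0 v ω) ^ 2 ∂PP V ≤ η / 2 := by
        have hs : bal G v R0 ⊆ bal G v (R0 + (j + 1) * N) := by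
          intro y hy
          rw [mem_bal hT] at hy ⊢
          omega
        exact hR0 v W W' hW hW' (hs.trans hbW) (hs.trans hbW')
      have hint : ∫ r in (0:ℝ)..t, r ^ 2 * ∑ u ∈ W ∪ W', ∫ ω, ((KW G θ W k r v u ω - KW G θ W' k r v u ω) ^ 2 +
          (KW G θ W' k r v u ω) ^ 2 * (MW G θ W k r u ω - MW G θ W' k r u ω) ^ 2) ∂PP V ≤
          ∫ r in (0:ℝ)..t, (A * (D * Real.exp (4 * A * r)) + τ) := by
        rw [intervalIntegral.integral_of_le ht, intervalIntegral.integral_of_le ht]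
        refine integral_mono_of_nonneg (Filter.Eventually.of_forall fun r => ?_) ?_ ?_
        · have : ∀ u ∈ W ∪ W', 0 ≤ ∫ ω, ((KW G θ W k r v u ω - KW G θ W' k r v u ω) ^ 2 +
            (KW G θ W' k r v u ω) ^ 2 * (MW G θ W k r u ω - MW G θ W' k r u ω) ^ 2) ∂PP V :=
            fun u _ => integral_nonneg fun ω => by positivity
          have := Finset.sum_nonneg this
          simp only [Pi.zero_apply]
          positivity
        · have hc : Continuous (fun r : ℝ => A * (D * Real.exp (4 * A * r)) + τ) := by fun_prop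
          exact (hc.integrableOn_Icc (a := 0) (b := t)).mono_set Set.Ioc_subset_Icc_self
        · refine (ae_restrict_iff' measurableSet_Ioc).2 (Filter.Eventually.of_forall fun r hr => ?_)
          have hr0 : 0 ≤ r := hr.1.le
          have hr1 : r ≤ 1 := hr.2.trans ht1
          have e1 := hdrift v W W' hW hW' r (D * Real.exp (4 * A * r)) (by positivity)
            (hB r hr0 hr1)
          have e2 : r ^ 2 ≤ 1 := by nlinarith
          have e3 : 0 ≤ ∑ u ∈ W ∪ W', ∫ ω, ((KW G θ W k r v u ω - KW G θ W' k r v u ω) ^ 2 +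
            (KW G θ W' k r v u ω) ^ 2 * (MW G θ W k r u ω - MW G θ W' k r u ω) ^ 2) ∂PP V :=
            Finset.sum_nonneg fun u _ => integral_nonneg fun ω => by positivity
          simp only
          nlinarith
      have hval : ∫ r in (0:ℝ)..t, (A * (D * Real.exp (4 * A * r)) + τ) =
          D / 4 * (Real.exp (4 * A * t) - 1) + τ * t := by
        have hderiv : ∀ r ∈ Set.uIcc 0 t, HasDerivAt
            (fun r : ℝ => D / 4 * Real.exp (4 * A * r) + τ * r) (A * (D * Real.exp (4 * A * r)) + τ) r := by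
          intro r _
          have h1 : HasDerivAt (fun r : ℝ => 4 * A * r) (4 * A) r := by
            simpa using (hasDerivAt_id r).const_mul (4 * A)
          have h2 := (h1.exp.const_mul (D / 4)).add ((hasDerivAt_id r).const_mul τ)
          have h3 : A * (D * Real.exp (4 * A * r)) + τ =
              D / 4 * (Real.exp (4 * A * r) * (4 * A)) + τ * 1 := by ring
          rw [h3]
          exact h2
        have hci : IntervalIntegrable (fun r : ℝ => A * (D * Real.exp (4 * A * r)) + τ) volume 0 t :=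
          Continuous.intervalIntegrable (by fun_prop) _ _
        rw [intervalIntegral.integral_eq_sub_of_hasDerivAt hderiv hci]
        simp
        ring
      rw [hval] at hint
      have e1 : 1 ≤ Real.exp (4 * A * t) := Real.one_le_exp (by positivity)
      have e2 : (4 * (1 / 2 : ℝ) ^ (j + 1) + 2 * (η / 2 + 2 * τ)) = (η / 2 + 2 * τ) + D / 2 := by
        rw [hD, pow_succ]; ring
      rw [e2]
      have e3 : τ * t ≤ τ := by nlinarith
      nlinarith
  refine ⟨R0 + j * N, fun v W W' hW hW' hb1 hb2 r hr hr1 => ?_⟩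
  refine (iter j v W W' hW hW' hb1 hb2 r hr hr1).trans ?_
  have e1 : Real.exp (4 * A * r) ≤ Ee := by
    rw [hEe]
    exact Real.exp_le_exp.2 (by nlinarith)
  have e2 : 4 * (1 / 2 : ℝ) ^ j + 2 * (η / 2 + 2 * τ) ≤ 8 * η := by linarith
  calc (4 * (1 / 2 : ℝ) ^ j + 2 * (η / 2 + 2 * τ)) * Real.exp (4 * A * r) ≤ (8 * η) * Ee := by gcongr
    _ = ε := by rw [hη]; field_simp

/-- the schemes in large windows are close, uniformly in the root, the windows and the time -/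
theorem sub_cauchy [G.LocallyFinite] (hT : G.IsTree) (b : ℕ) (hb : 2 ≤ b)
    (hreg : G.IsRegularOfDegree (b + 1)) (θ : ℝ) (h0 : 0 ≤ θ) (h1 : b * θ ^ 2 < 1) (k : ℕ)
    (ε : ℝ) (hε : 0 < ε) : ∃ R : ℕ, ∀ (v : V) (W W' : Finset V), Win G W → Win G W' →
      bal G v R ⊆ W → bal G v R ⊆ W' → ∀ r : ℝ, 0 ≤ r → r ≤ 1 →
        ∫ ω, (MW G θ W k r v ω - MW G θ W' k r v ω) ^ 2 ∂PP V ≤ ε := by
  have hb1 : (2 : ℝ) ≤ b := by exact_mod_cast hb
  have hθ1 : θ < 1 := by
    by_contra h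
    push Not at h
    have : (1 : ℝ) ≤ θ ^ 2 := by nlinarith
    nlinarith
  have hself : ∀ (v : V) (R : ℕ), v ∈ bal G v R := by
    intro v R
    rw [mem_bal hT]
    simp
  induction k generalizing ε with
  | zero =>
    refine subb_main hT b hb hreg θ h0 h1 hθ1 hself 0 ?_ ε hε
    intro δ hδ
    refine ⟨0, fun v W W' hW hW' h1 h2 => ?_⟩
    have e1 : ∀ ω, MW G θ W 0 0 v ω = 0 := MW_zero hT θ h0 hθ1 W hW v (h1 (hself v 0))
    have e2 : ∀ ω, MW G θ W' 0 0 v ω = 0 := MW_zero hT θ h0 hθ1 W' hW' v (h2 (hself v 0))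
    simp only [e1, e2, sub_self]
    simpa using hδ.le
  | succ k ih =>
    refine subb_main hT b hb hreg θ h0 h1 hθ1 hself (k + 1) ?_ ε hε
    intro δ hδ
    obtain ⟨R, hR⟩ := ih δ hδ
    refine ⟨R, fun v W W' hW hW' h1 h2 => ?_⟩
    refine le_of_eq_of_le ?_ (hR v W W' hW hW' h1 h2 1 zero_le_one le_rfl)
    refine integral_congr_ae (Filter.Eventually.of_forall fun ω => ?_)
    have e1 := MW_stage (G := G) θ W k 1 (by norm_num) v ω
    have e2 := MW_stage (G := G) θ W' k 1 (by norm_num) v ω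
    change (MW G θ W (k + 1) 0 v ω - MW G θ W' (k + 1) 0 v ω) ^ 2 =
      (MW G θ W k 1 v ω - MW G θ W' k 1 v ω) ^ 2
    rw [e1, e2]

end SUB

end Crest.Agent.TI
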