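import Crest.Agent.TI_InfDefs
import Crest.Agent.TI_Subb

/-!
Row S0241, task InfA: existence of the infinite volume fields
-/

set_option autoImplicit false
set_option linter.unusedSectionVars false
set_option linter.unusedVariables false

namespace Crest.Agent.TI

open MeasureTheory Filter Topology
open Crest.Agent.SRF (Lab lab)

section GEN

variable {Ω : Type*} [MeasurableSpace Ω]

/-- a bounded measurable sequence with summable `L²` increments converges almost surely -/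
theorem infA_lim (μ : Measure Ω) [IsProbabilityMeasure μ] (g : ℕ → Ω → ℝ) (κ : ℝ) (hκ : 0 ≤ κ)
    (hm : ∀ j, Measurable (g j)) (hb : ∀ j ω, |g j ω| ≤ κ)
    (hc : ∀ j, ∫ ω, (g j ω - g (j + 1) ω) ^ 2 ∂μ ≤ (1 / 4 : ℝ) ^ j) :
    ∃ f : Ω → ℝ, Measurable f ∧ (∀ ω, |f ω| ≤ κ) ∧
      ∀ᵐ ω ∂μ, Tendsto (fun j => g j ω) atTop (𝓝 (f ω)) := by
  refine ⟨fun ω => max (-κ) (min κ (limsup (fun j => g j ω) atTop)), ?_, ?_, ?_⟩
  · exact measurable_const.max (measurable_const.min (Measurable.limsup hm))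
  · intro ω
    rw [abs_le]
    exact ⟨le_max_left _ _, max_le (by linarith) (min_le_left _ _)⟩
  · have hd : ∀ j ω, |g j ω - g (j + 1) ω| ≤ 2 * κ := fun j ω =>
      (abs_sub _ _).trans (by linarith [hb j ω, hb (j + 1) ω])
    have hI2 : ∀ j, Integrable (fun ω => (g j ω - g (j + 1) ω) ^ 2) μ := by
      intro j
      refine Integrable.of_bound (((hm j).sub (hm (j + 1))).pow_const 2).aestronglyMeasurable
        ((2 * κ) ^ 2) (Eventually.of_forall fun ω => ?_)
      rw [Real.norm_eq_abs, abs_pow]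
      exact pow_le_pow_left₀ (abs_nonneg _) (hd j ω) 2
    have hI1 : ∀ j, Integrable (fun ω => g j ω - g (j + 1) ω) μ := by
      intro j
      refine Integrable.of_bound ((hm j).sub (hm (j + 1))).aestronglyMeasurable
        (2 * κ) (Eventually.of_forall fun ω => ?_)
      rw [Real.norm_eq_abs]
      exact hd j ω
    have h1 : ∀ j, ∫ ω, ‖g j ω - g (j + 1) ω‖ ∂μ ≤ (1 / 2 : ℝ) ^ j := by
      intro j
      have hp : ∀ ω, ‖g j ω - g (j + 1) ω‖ ≤
          (1 / 2 : ℝ) ^ j / 2 + 2 ^ j / 2 * (g j ω - g (j + 1) ω) ^ 2 := by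
        intro ω
        rw [Real.norm_eq_abs]
        set y := |g j ω - g (j + 1) ω| with hy
        have hy2 : (g j ω - g (j + 1) ω) ^ 2 = y ^ 2 := (sq_abs _).symm
        rw [hy2]
        have ha : (0 : ℝ) < 2 ^ j := by positivity
        have hinv : (1 / 2 : ℝ) ^ j * 2 ^ j = 1 := by
          rw [← mul_pow]; norm_num
        have h3 : 0 ≤ ((2 : ℝ) ^ j) * (y - (1 / 2 : ℝ) ^ j) ^ 2 := by positivity
        have h4 : ((2 : ℝ) ^ j) * (y - (1 / 2 : ℝ) ^ j) ^ 2 = 2 ^ j * y ^ 2 -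
            2 * y * ((1 / 2 : ℝ) ^ j * 2 ^ j) + (1 / 2 : ℝ) ^ j * ((1 / 2 : ℝ) ^ j * 2 ^ j) := by ring
        rw [h4, hinv] at h3
        linarith
      have hI3 : Integrable (fun ω => (1 / 2 : ℝ) ^ j / 2 + 2 ^ j / 2 * (g j ω - g (j + 1) ω) ^ 2) μ :=
        (integrable_const _).add ((hI2 j).const_mul _)
      refine (integral_mono (hI1 j).norm hI3 hp).trans ?_
      rw [integral_add (integrable_const _) ((hI2 j).const_mul _), integral_const,
        integral_const_mul]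
      simp only [probReal_univ, one_smul]
      have h4 := hc j
      have h5 : (2 : ℝ) ^ j / 2 * (1 / 4) ^ j = (1 / 2) ^ j / 2 := by
        have : (2 : ℝ) ^ j * (1 / 4) ^ j = (1 / 2) ^ j := by
          rw [← mul_pow]; norm_num
        linarith
      have h6 : (2 : ℝ) ^ j / 2 * ∫ ω, (g j ω - g (j + 1) ω) ^ 2 ∂μ ≤ (2 : ℝ) ^ j / 2 * (1 / 4) ^ j :=
        mul_le_mul_of_nonneg_left h4 (by positivity)
      linarith
    have h2 : ∫⁻ ω, ∑' j, ‖g j ω - g (j + 1) ω‖ₑ ∂μ ≠ ⊤ := by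
      rw [lintegral_tsum (f := fun j ω => ‖g j ω - g (j + 1) ω‖ₑ)
        (fun j => ((hm j).sub (hm (j + 1))).enorm.aemeasurable)]
      have h3 : ∀ j, ∫⁻ ω, ‖g j ω - g (j + 1) ω‖ₑ ∂μ ≤ ENNReal.ofReal ((1 / 2 : ℝ) ^ j) := by
        intro j
        rw [← ofReal_integral_norm_eq_lintegral_enorm (hI1 j)]
        exact ENNReal.ofReal_le_ofReal (h1 j)
      refine ne_top_of_le_ne_top ?_ (ENNReal.tsum_le_tsum h3)
      rw [← ENNReal.ofReal_tsum_of_nonneg (fun k => by positivity)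
        (summable_geometric_of_lt_one (by norm_num) (by norm_num))]
      exact ENNReal.ofReal_ne_top
    have h3 := ae_lt_top' (AEMeasurable.tsum
      (fun j => ((hm j).sub (hm (j + 1))).enorm.aemeasurable)) h2
    filter_upwards [h3] with ω hω
    have h4 : CauchySeq (fun j => g j ω) := by
      apply cauchySeq_of_edist_le_of_tsum_ne_top (fun j => ‖g j ω - g (j + 1) ω‖ₑ)
      · intro j
        rw [edist_eq_enorm_sub]
      · exact hω.ne
    obtain ⟨a, ha⟩ := cauchySeq_tendsto_of_complete h4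
    have ha2 : |a| ≤ κ := le_of_tendsto ha.abs (Eventually.of_forall fun j => hb j ω)
    have ha3 := abs_le.1 ha2
    rw [ha.limsup_eq]
    rwa [min_eq_right ha3.2, max_eq_right ha3.1]

end GEN

theorem infA_sq1 (a b c : ℝ) : (b - c) ^ 2 ≤ 2 * (a - b) ^ 2 + 2 * (a - c) ^ 2 := by
  nlinarith [sq_nonneg ((a - b) + (a - c))]

theorem infA_sq2 (a b c : ℝ) : (a - c) ^ 2 ≤ 2 * (a - b) ^ 2 + 2 * (b - c) ^ 2 := by
  nlinarith [sq_nonneg ((a - b) - (b - c))]

theorem infA_sq3 (C x a b : ℝ) (hC : 0 ≤ C) (h : |x| ≤ C * (|a| + |b|)) :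
    x ^ 2 ≤ 2 * C ^ 2 * a ^ 2 + 2 * C ^ 2 * b ^ 2 := by
  have h4 : x ^ 2 ≤ (C * (|a| + |b|)) ^ 2 := by
    rw [← sq_abs x]
    exact pow_le_pow_left₀ (abs_nonneg _) h 2
  rw [← sq_abs a, ← sq_abs b]
  nlinarith [sq_nonneg (C * (|a| - |b|))]

section INF

variable {V : Type*} [DecidableEq V] {G : SimpleGraph V} [G.LocallyFinite]

theorem infA_mem_bal (hT : G.IsTree) (v : V) (n : ℕ) : v ∈ bal G v n := by
  rw [mem_bal hT]; simp

theorem infA_bal_subset (hT : G.IsTree) (v v' : V) (n m : ℕ) (h : n + G.dist v' v ≤ m) :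
    bal G v n ⊆ bal G v' m := by
  intro u hu
  rw [mem_bal hT] at hu ⊢
  have := hT.connected.dist_triangle (u := v') (v := v) (w := u)
  omega

theorem infA_bal_mono (hT : G.IsTree) (v : V) (n m : ℕ) (h : n ≤ m) : bal G v n ⊆ bal G v m :=
  infA_bal_subset hT v v n m (by simpa using h)

theorem infA_int (f g : Om V → ℝ) (κ κ' : ℝ) (hf : Measurable f) (hg : Measurable g)
    (hfb : ∀ ω, |f ω| ≤ κ) (hgb : ∀ ω, |g ω| ≤ κ') :
    Integrable (fun ω => (f ω - g ω) ^ 2) (PP V) := by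
  refine Integrable.of_bound ((hf.sub hg).pow_const 2).aestronglyMeasurable
    ((κ + κ') ^ 2) (Eventually.of_forall fun ω => ?_)
  rw [Real.norm_eq_abs, abs_pow]
  exact pow_le_pow_left₀ (abs_nonneg _) ((abs_sub _ _).trans (add_le_add (hfb ω) (hgb ω))) 2

theorem isLim_exists (hT : G.IsTree) (F : Finset V → Om V → ℝ) (v : V) (κ : ℝ) (hκ : 0 ≤ κ)
    (hm : ∀ W, Measurable (F W)) (hb : ∀ W, Win G W → v ∈ W → ∀ ω, |F W ω| ≤ κ)
    (hc : ∀ ε : ℝ, 0 < ε → ∃ R : ℕ, ∀ W W' : Finset V, Win G W → Win G W' → bal G v R ⊆ W →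
      bal G v R ⊆ W' → ∫ ω, (F W ω - F W' ω) ^ 2 ∂PP V ≤ ε) :
    ∃ f, IsLim G F v κ f := by
  choose! R hR using hc
  set Q : ℕ → ℕ := fun j => j + ∑ i ∈ Finset.range (j + 1), R ((1 / 4 : ℝ) ^ i) with hQ
  have hQR : ∀ j, R ((1 / 4 : ℝ) ^ j) ≤ Q j := by
    intro j
    have h1 : R ((1 / 4 : ℝ) ^ j) ≤ ∑ i ∈ Finset.range (j + 1), R ((1 / 4 : ℝ) ^ i) :=
      Finset.single_le_sum (f := fun i => R ((1 / 4 : ℝ) ^ i)) (fun _ _ => Nat.zero_le _)
        (Finset.mem_range.2 (Nat.lt_succ_self j))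
    simp only [hQ]
    omega
  have hQs : ∀ j, Q j ≤ Q (j + 1) := by
    intro j
    simp only [hQ]
    rw [Finset.sum_range_succ _ (j + 1)]
    omega
  have hQj : ∀ j, j ≤ Q j := fun j => Nat.le_add_right _ _
  have hvb : ∀ n, v ∈ bal G v n := infA_mem_bal hT v
  obtain ⟨f, hfm, hfb, hfl⟩ := infA_lim (PP V) (fun j => F (bal G v (Q j))) κ hκ (fun j => hm _)
    (fun j ω => hb _ (win_bal hT v _) (hvb _) ω) (fun j => by
      apply hR ((1 / 4 : ℝ) ^ j) (by positivity) _ _ (win_bal hT v _) (win_bal hT v _)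
      · exact infA_bal_mono hT v _ _ (hQR j)
      · exact infA_bal_mono hT v _ _ ((hQR j).trans (hQs j)))
  refine ⟨f, hfm, hfb, fun ε hε => ⟨R ε, fun W hW hWR => ?_⟩⟩
  have hvW : v ∈ W := hWR (hvb _)
  have hlim : Tendsto (fun j => ∫ ω, (F W ω - F (bal G v (Q j)) ω) ^ 2 ∂PP V) atTop
      (𝓝 (∫ ω, (F W ω - f ω) ^ 2 ∂PP V)) := by
    apply tendsto_integral_of_dominated_convergence (fun _ => (κ + κ) ^ 2)
    · intro j
      exact (((hm W).sub (hm _)).pow_const 2).aestronglyMeasurable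
    · exact integrable_const _
    · intro j
      refine Eventually.of_forall fun ω => ?_
      rw [Real.norm_eq_abs, abs_pow]
      exact pow_le_pow_left₀ (abs_nonneg _) ((abs_sub _ _).trans
        (add_le_add (hb _ hW hvW ω) (hb _ (win_bal hT v _) (hvb _) ω))) 2
    · filter_upwards [hfl] with ω hω
      exact (tendsto_const_nhds.sub hω).pow 2
  refine le_of_tendsto hlim ?_
  filter_upwards [eventually_ge_atTop (R ε)] with j hj
  apply hR ε hε _ _ hW (win_bal hT v _) hWR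
  exact infA_bal_mono hT v _ _ (hj.trans (hQj j))

theorem isLim_unique (hT : G.IsTree) {F : Finset V → Om V → ℝ} {v : V} {κ κ' : ℝ} {f f' : Om V → ℝ}
    (hm : ∀ W, Measurable (F W)) (hb : ∀ W, Win G W → v ∈ W → ∀ ω, |F W ω| ≤ κ)
    (h : IsLim G F v κ f) (h' : IsLim G F v κ' f') : f =ᵐ[PP V] f' := by
  obtain ⟨hfm, hfb, hfl⟩ := h
  obtain ⟨hfm', hfb', hfl'⟩ := h'
  have hz : ∫ ω, (f ω - f' ω) ^ 2 ∂PP V ≤ 0 := by
    apply le_of_forall_pos_le_add
    intro ε hε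
    obtain ⟨R, hR⟩ := hfl (ε / 4) (by positivity)
    obtain ⟨R', hR'⟩ := hfl' (ε / 4) (by positivity)
    set W := bal G v (max R R') with hW
    have hWW := win_bal hT v (max R R')
    have hvW : v ∈ W := infA_mem_bal hT v _
    have h1 := hR W hWW (infA_bal_mono hT v _ _ (le_max_left _ _))
    have h2 := hR' W hWW (infA_bal_mono hT v _ _ (le_max_right _ _))
    have i0 := infA_int f f' κ κ' hfm hfm' hfb hfb'
    have i1 := infA_int (F W) f κ κ (hm W) hfm (hb W hWW hvW) hfb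
    have i2 := infA_int (F W) f' κ κ' (hm W) hfm' (hb W hWW hvW) hfb'
    have h3 : ∫ ω, (f ω - f' ω) ^ 2 ∂PP V ≤
        ∫ ω, (2 * (F W ω - f ω) ^ 2 + 2 * (F W ω - f' ω) ^ 2) ∂PP V := by
      apply integral_mono i0 ((i1.const_mul 2).add (i2.const_mul 2))
      intro ω
      exact infA_sq1 _ _ _
    rw [integral_add (i1.const_mul 2) (i2.const_mul 2), integral_const_mul, integral_const_mul] at h3
    linarith
  have h0 : 0 ≤ ∫ ω, (f ω - f' ω) ^ 2 ∂PP V := integral_nonneg fun ω => sq_nonneg _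
  have h1 := le_antisymm hz h0
  rw [integral_eq_zero_iff_of_nonneg (fun ω => sq_nonneg _)
    (infA_int f f' κ κ' hfm hfm' hfb hfb')] at h1
  filter_upwards [h1] with ω hω
  have : (f ω - f' ω) ^ 2 = 0 := hω
  have := pow_eq_zero_iff (two_ne_zero) |>.1 this
  linarith

/-- the centre of the balls does not matter -/
theorem isLim_root (hT : G.IsTree) {F : Finset V → Om V → ℝ} {v : V} {κ : ℝ} {f : Om V → ℝ}
    (h : IsLim G F v κ f) (v' : V) : IsLim G F v' κ f := by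
  refine ⟨h.1, h.2.1, fun ε hε => ?_⟩
  obtain ⟨R, hR⟩ := h.2.2 ε hε
  exact ⟨R + G.dist v' v, fun W hW hWR =>
    hR W hW ((infA_bal_subset hT v v' R _ le_rfl).trans hWR)⟩

theorem infA_measurable_MM (p : Finset V → ℝ) (W : Finset V) (k : ℕ) (r : ℝ) (v : V) :
    Measurable (MM p W k r v) := by
  have h1 : Measurable (fun ω : Om V => (r, ω)) := measurable_const.prodMk measurable_id
  have h2 := (measurable_MM2 p W k v).comp h1
  exact h2

theorem infA_measurable_mn (p p' : Finset V → ℝ) (W W' : Finset V) (k : ℕ) (r : ℝ) (v : V) :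
    Measurable (fun ω : Om V => mn p' W' (dat p W k r ω) v) := by
  have h1 : Measurable (fun ω : Om V => (r, ω)) := measurable_const.prodMk measurable_id
  have h2 := (measurable_mn p' W' v).comp ((measurable_dat2 p W k).comp h1)
  exact h2

theorem infA_measurable_MW (θ : ℝ) (W : Finset V) (k : ℕ) (r : ℝ) (v : V) :
    Measurable (MW G θ W k r v) := infA_measurable_MM (ip G θ W) W k r v

theorem infA_measurable_BB (θ : ℝ) (W : Finset V) (k : ℕ) (r : ℝ) (x y : V) :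
    Measurable (BB G θ W k r x y) :=
  infA_measurable_mn (ip G θ W) (ip G θ (sd G W x y)) W (sd G W x y) k r x

variable (hT : G.IsTree) (b : ℕ) (hb : 2 ≤ b) (hreg : G.IsRegularOfDegree (b + 1)) (θ : ℝ)
  (h0 : 0 ≤ θ) (h1 : b * θ ^ 2 < 1) (k : ℕ)

include hT hb hreg h0 h1

/-- cavity messages in large windows are close (uniformly) -/
theorem bb_cauchy (ε : ℝ) (hε : 0 < ε) : ∃ R : ℕ, ∀ (x y : V) (W W' : Finset V), G.Adj x y → Win G W →
    Win G W' → bal G x R ⊆ W → bal G x R ⊆ W' → ∀ r : ℝ, 0 ≤ r → r ≤ 1 →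
      ∫ ω, (BB G θ W k r x y ω - BB G θ W' k r x y ω) ^ 2 ∂PP V ≤ ε := by
  obtain ⟨C, hC, hL⟩ := BB_lip hT b hb hreg k
  obtain ⟨R, hR⟩ := sub_cauchy hT b hb hreg θ h0 h1 k (ε / (4 * C ^ 2)) (by positivity)
  refine ⟨R + 1, fun x y W W' hxy hW hW' hWR hWR' r hr0 hr1 => ?_⟩
  have hdist : G.dist x y = 1 := SimpleGraph.dist_eq_one_iff_adj.2 hxy
  have hsx : bal G x R ⊆ bal G x (R + 1) := infA_bal_mono hT x _ _ (Nat.le_succ _)
  have hsy : bal G y R ⊆ bal G x (R + 1) := infA_bal_subset hT y x R _ (by rw [hdist])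
  have hx : x ∈ bal G x (R + 1) := infA_mem_bal hT x _
  have hy : y ∈ bal G x (R + 1) := hsy (infA_mem_bal hT y _)
  have e1 := hR x W W' hW hW' (hsx.trans hWR) (hsx.trans hWR') r hr0 hr1
  have e2 := hR y W W' hW hW' (hsy.trans hWR) (hsy.trans hWR') r hr0 hr1
  have hxW := hWR hx
  have hyW := hWR hy
  have hxW' := hWR' hx
  have hyW' := hWR' hy
  have i0 := infA_int _ _ _ _ (infA_measurable_BB θ W k r x y) (infA_measurable_BB θ W' k r x y)
    (abs_BB_le hT b hb hreg k θ h0 h1.le W hW r x y hxW hxy)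
    (abs_BB_le hT b hb hreg k θ h0 h1.le W' hW' r x y hxW' hxy)
  have i1 := infA_int _ _ _ _ (infA_measurable_MW (G := G) θ W k r x) (infA_measurable_MW θ W' k r x)
    (abs_MW_le hT b hb hreg k θ h0 h1.le W hW r x hxW)
    (abs_MW_le hT b hb hreg k θ h0 h1.le W' hW' r x hxW')
  have i2 := infA_int _ _ _ _ (infA_measurable_MW (G := G) θ W k r y) (infA_measurable_MW θ W' k r y)
    (abs_MW_le hT b hb hreg k θ h0 h1.le W hW r y hyW)
    (abs_MW_le hT b hb hreg k θ h0 h1.le W' hW' r y hyW')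
  have hle : ∫ ω, (BB G θ W k r x y ω - BB G θ W' k r x y ω) ^ 2 ∂PP V ≤
      ∫ ω, (2 * C ^ 2 * (MW G θ W k r x ω - MW G θ W' k r x ω) ^ 2 +
        2 * C ^ 2 * (MW G θ W k r y ω - MW G θ W' k r y ω) ^ 2) ∂PP V := by
    apply integral_mono i0 ((i1.const_mul _).add (i2.const_mul _))
    intro ω
    have h3 := hL θ θ W W' r x y ω h0 h1.le h0 h1.le hW hW' hxW hyW hxW' hyW' hxy
    rw [sub_self, abs_zero, add_zero] at h3
    exact infA_sq3 C _ _ _ hC.le h3
  refine hle.trans ?_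
  rw [integral_add (i1.const_mul _) (i2.const_mul _), integral_const_mul, integral_const_mul]
  have h7 : 2 * C ^ 2 * (ε / (4 * C ^ 2)) = ε / 2 := by
    field_simp
    norm_num
  have h8 : 2 * C ^ 2 * ∫ ω, (MW G θ W k r x ω - MW G θ W' k r x ω) ^ 2 ∂PP V ≤
      2 * C ^ 2 * (ε / (4 * C ^ 2)) := mul_le_mul_of_nonneg_left e1 (by positivity)
  have h9 : 2 * C ^ 2 * ∫ ω, (MW G θ W k r y ω - MW G θ W' k r y ω) ^ 2 ∂PP V ≤
      2 * C ^ 2 * (ε / (4 * C ^ 2)) := mul_le_mul_of_nonneg_left e2 (by positivity)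
  linarith

theorem isLim_mI (r : ℝ) (hr0 : 0 ≤ r) (hr1 : r ≤ 1) (v : V) :
    IsLim G (fun W => MW G θ W k r v) v (kp G b k) (mI G b θ k r v) := by
  have hex : ∃ f, IsLim G (fun W => MW G θ W k r v) v (kp G b k) f := by
    apply isLim_exists hT _ v _ (kp_spec hT b hb hreg k).1.le
      (fun W => infA_measurable_MW θ W k r v)
      (fun W hW hv ω => abs_MW_le hT b hb hreg k θ h0 h1.le W hW r v hv ω)
    intro ε hε
    obtain ⟨R, hR⟩ := sub_cauchy hT b hb hreg θ h0 h1 k ε hε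
    exact ⟨R, fun W W' hW hW' a a' => hR v W W' hW hW' a a' r hr0 hr1⟩
  unfold mI
  rw [dif_pos hex]
  exact hex.choose_spec

theorem isLim_bI (r : ℝ) (hr0 : 0 ≤ r) (hr1 : r ≤ 1) (x y : V) (hxy : G.Adj x y) :
    IsLim G (fun W => BB G θ W k r x y) x (kp G b k) (bI G b θ k r x y) := by
  have hex : ∃ f, IsLim G (fun W => BB G θ W k r x y) x (kp G b k) f := by
    apply isLim_exists hT _ x _ (kp_spec hT b hb hreg k).1.le
      (fun W => infA_measurable_BB θ W k r x y)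
      (fun W hW hv ω => abs_BB_le hT b hb hreg k θ h0 h1.le W hW r x y hv hxy ω)
    intro ε hε
    obtain ⟨R, hR⟩ := bb_cauchy hT b hb hreg θ h0 h1 k ε hε
    exact ⟨R, fun W W' hW hW' a a' => hR x y W W' hxy hW hW' a a' r hr0 hr1⟩
  unfold bI
  rw [dif_pos hex]
  exact hex.choose_spec

/-- uniform convergence of the window means -/
theorem mI_unif (ε : ℝ) (hε : 0 < ε) : ∃ R : ℕ, ∀ (v : V) (W : Finset V), Win G W →
    bal G v R ⊆ W → ∀ r : ℝ, 0 ≤ r → r ≤ 1 →
      ∫ ω, (MW G θ W k r v ω - mI G b θ k r v ω) ^ 2 ∂PP V ≤ ε := by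
  obtain ⟨R, hR⟩ := sub_cauchy hT b hb hreg θ h0 h1 k (ε / 4) (by positivity)
  refine ⟨R, fun v W hW hWR r hr0 hr1 => ?_⟩
  have hlim := isLim_mI hT b hb hreg θ h0 h1 k r hr0 hr1 v
  obtain ⟨R', hR'⟩ := hlim.2.2 (ε / 4) (by positivity)
  set W' := bal G v (max R R') with hW'd
  have hW' : Win G W' := win_bal hT v _
  have a1 := hR v W W' hW hW' hWR (infA_bal_mono hT v _ _ (le_max_left _ _)) r hr0 hr1
  have a2 := hR' W' hW' (infA_bal_mono hT v _ _ (le_max_right _ _))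
  have hvW : v ∈ W := hWR (infA_mem_bal hT v _)
  have hvW' : v ∈ W' := infA_mem_bal hT v _
  have i0 := infA_int _ _ _ _ (infA_measurable_MW (G := G) θ W k r v) hlim.1
    (abs_MW_le hT b hb hreg k θ h0 h1.le W hW r v hvW) hlim.2.1
  have i1 := infA_int _ _ _ _ (infA_measurable_MW (G := G) θ W k r v) (infA_measurable_MW θ W' k r v)
    (abs_MW_le hT b hb hreg k θ h0 h1.le W hW r v hvW)
    (abs_MW_le hT b hb hreg k θ h0 h1.le W' hW' r v hvW')
  have i2 := infA_int _ _ _ _ (infA_measurable_MW (G := G) θ W' k r v) hlim.1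
    (abs_MW_le hT b hb hreg k θ h0 h1.le W' hW' r v hvW') hlim.2.1
  have hle : ∫ ω, (MW G θ W k r v ω - mI G b θ k r v ω) ^ 2 ∂PP V ≤
      ∫ ω, (2 * (MW G θ W k r v ω - MW G θ W' k r v ω) ^ 2 +
        2 * (MW G θ W' k r v ω - mI G b θ k r v ω) ^ 2) ∂PP V := by
    apply integral_mono i0 ((i1.const_mul _).add (i2.const_mul _))
    intro ω
    exact infA_sq2 _ _ _
  refine hle.trans ?_
  rw [integral_add (i1.const_mul _) (i2.const_mul _), integral_const_mul, integral_const_mul]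
  linarith

end INF

end Crest.Agent.TI
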