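import Crest.Agent.TI_Suba

/-!
Row S0241, task Inf: infinite volume fields, definitions
-/

set_option autoImplicit false
set_option linter.unusedSectionVars false
set_option linter.unusedVariables false

namespace Crest.Agent.TI

open MeasureTheory Filter Topology
open Crest.Agent.SRF (Lab lab)


section INF

variable {V : Type*} [DecidableEq V]

/-- `f` is the `L²` limit of `F W` as the window `W` grows around `v` -/
def IsLim (G : SimpleGraph V) [G.LocallyFinite] (F : Finset V → Om V → ℝ) (v : V) (κ : ℝ)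
    (f : Om V → ℝ) : Prop :=
  Measurable f ∧ (∀ ω, |f ω| ≤ κ) ∧ ∀ ε : ℝ, 0 < ε → ∃ R : ℕ, ∀ W : Finset V, Win G W →
    bal G v R ⊆ W → ∫ ω, (F W ω - f ω) ^ 2 ∂PP V ≤ ε

open Classical in
/-- infinite volume posterior mean -/
noncomputable def mI (G : SimpleGraph V) [G.LocallyFinite] (b : ℕ) (θ : ℝ) (k : ℕ) (r : ℝ) (v : V) :
    Om V → ℝ :=
  if h : ∃ f, IsLim G (fun W => MW G θ W k r v) v (kp G b k) f then h.choose else 0

open Classical in
/-- infinite volume cavity message -/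
noncomputable def bI (G : SimpleGraph V) [G.LocallyFinite] (b : ℕ) (θ : ℝ) (k : ℕ) (r : ℝ)
    (x y : V) : Om V → ℝ :=
  if h : ∃ f, IsLim G (fun W => BB G θ W k r x y) x (kp G b k) f then h.choose else 0

open Classical in
/-- a geodesic from `v` to `u` -/
noncomputable def pth (G : SimpleGraph V) (v u : V) : ℕ → V :=
  if h : ∃ x : ℕ → V, x 0 = v ∧ x (G.dist v u) = u ∧ Geo G x (G.dist v u) then h.choose else fun _ => v

/-- the covariance computed from the means and the messages -/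
noncomputable def Kf (G : SimpleGraph V) (θ : ℝ) (m : V → Om V → ℝ) (B : V → V → Om V → ℝ) (v u : V)
    (ω : Om V) : ℝ :=
  (1 - m v ω ^ 2) * ∏ i ∈ Finset.range (G.dist v u), (θ * psi θ (B (pth G v u (i + 1)) (pth G v u i) ω))

/-- an equivariant consistent family of means and messages -/
structure Fld (G : SimpleGraph V) (κ θ : ℝ) (m : V → Om V → ℝ) (B : V → V → Om V → ℝ) : Prop where
  meas_m : ∀ v, Measurable (m v)
  meas_B : ∀ x y, Measurable (B x y)
  bdd_m : ∀ v ω, |m v ω| ≤ κ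
  bdd_B : ∀ x y ω, |B x y ω| ≤ κ
  pair : ∀ x y, G.Adj x y → ∀ᵐ ω ∂PP V,
    m x ω = (B x y ω + θ * B y x ω) / (1 + θ * (B x y ω * B y x ω))
  eqv_m : ∀ (g : G ≃g G) (v : V), (fun ω => m (g v) ω) =ᵐ[PP V] fun ω => m v (act g.toEquiv ω)
  eqv_B : ∀ (g : G ≃g G) (x y : V), G.Adj x y →
    (fun ω => B (g x) (g y) ω) =ᵐ[PP V] fun ω => B x y (act g.toEquiv ω)

/-- second moments of the covariances decay -/
def Mom (G : SimpleGraph V) (θ : ℝ) (m : V → Om V → ℝ) (B : V → V → Om V → ℝ) (β : ℝ) : Prop :=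
  ∀ v u : V, ∫ ω, Kf G θ m B v u ω ^ 2 ∂PP V ≤ θ ^ (2 * G.dist v u) * β ^ (G.dist v u - 1)

/-- Chernoff bound for the sums of squared covariances over a sphere -/
def Chn (G : SimpleGraph V) [G.LocallyFinite] (b : ℕ) (κ θ : ℝ) (m : V → Om V → ℝ)
    (B : V → V → Om V → ℝ) (β : ℝ) : Prop :=
  ∀ (x : V) (p j : ℕ), 1 ≤ p → 1 ≤ j →
    ∫ ω, Real.exp ((1 - κ ^ 2) ^ 2 * (b : ℝ) ^ p * ∑ u ∈ sph G x (p + j), Kf G θ m B x u ω ^ 2) ∂PP V ≤
      Real.exp (3 * (b : ℝ) ^ p * β ^ (j - 1))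

/-- `r^{3/2}` in stage `0`, `1` in later stages -/
noncomputable def rr (k : ℕ) (r : ℝ) : ℝ := if k = 0 then r ^ (3 / 2 : ℝ) else 1

/-- the decay parameter `1 - β` -/
noncomputable def hh (b k : ℕ) (r : ℝ) : ℝ := rr k r / (1224 * b)

end INF

end Crest.Agent.TI
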