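import Crest.Agent.TI_Defs

/-!
Row S0241, task ST: static posterior for a general mass function
-/

set_option autoImplicit false
set_option linter.unusedSectionVars false
set_option linter.unusedVariables false

namespace Crest.Agent.TI

open MeasureTheory Filter Topology
open Crest.Agent.SRF (Lab lab)

/-! ### task ST : static posterior for a general mass function -/

section ST

variable {V : Type*} [DecidableEq V]

theorem lw_pos (l : V → Bool → ℝ) (hl : ∀ v b, 0 < l v b) (W S : Finset V) : 0 < lw l W S :=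
  Finset.prod_pos (fun v _ => hl _ _)

theorem pt_pos {p : Finset V → ℝ} {W : Finset V} (hp : IsMass p W) (l : V → Bool → ℝ)
    (hl : ∀ v b, 0 < l v b) : 0 < pt p W l := by
  unfold pt
  have h1 : ∃ S ∈ W.powerset, 0 < p S := by
    by_contra hcon
    push Not at hcon
    have h2 : ∑ S ∈ W.powerset, p S ≤ 0 := Finset.sum_nonpos hcon
    rw [hp.total] at h2
    linarith
  obtain ⟨S, hS, hpS⟩ := h1
  exact Finset.sum_pos' (fun S hS => mul_nonneg (hp.nonneg S (Finset.mem_powerset.1 hS))
    (lw_pos l hl W S).le) ⟨S, hS, mul_pos hpS (lw_pos l hl W S)⟩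

theorem lw_congr (W S : Finset V) (l l' : V → Bool → ℝ) (h : ∀ v ∈ W, l v = l' v) :
    lw l W S = lw l' W S := Finset.prod_congr rfl (fun v hv => by rw [h v hv])

/-- only the likelihoods on the window matter -/
theorem pt_congr (p : Finset V → ℝ) (W : Finset V) (l l' : V → Bool → ℝ) (h : ∀ v ∈ W, l v = l' v) :
    pt p W l = pt p W l' :=
  Finset.sum_congr rfl (fun S _ => by rw [lw_congr W S l l' h])

theorem ex_congr (p : Finset V → ℝ) (W : Finset V) (l l' : V → Bool → ℝ) (h : ∀ v ∈ W, l v = l' v)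
    (f : Finset V → ℝ) : ex p W l f = ex p W l' f := by
  unfold ex
  rw [pt_congr p W l l' h]
  congr 1
  exact Finset.sum_congr rfl (fun S _ => by rw [lw_congr W S l l' h])

theorem mn_congr (p : Finset V → ℝ) (W : Finset V) (l l' : V → Bool → ℝ) (h : ∀ v ∈ W, l v = l' v)
    (v : V) : mn p W l v = mn p W l' v := ex_congr p W l l' h _

theorem cv_congr (p : Finset V → ℝ) (W : Finset V) (l l' : V → Bool → ℝ) (h : ∀ v ∈ W, l v = l' v)
    (v u : V) : cv p W l v u = cv p W l' v u := by
  unfold cv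
  rw [ex_congr p W l l' h, mn_congr p W l l' h, mn_congr p W l l' h]

theorem ex_congr_fun (p : Finset V → ℝ) (W : Finset V) (l : V → Bool → ℝ)
    {f g : Finset V → ℝ} (h : ∀ S ⊆ W, f S = g S) : ex p W l f = ex p W l g := by
  unfold ex
  congr 1
  exact Finset.sum_congr rfl (fun S hS => by rw [h S (Finset.mem_powerset.1 hS)])

theorem ex_add (p : Finset V → ℝ) (W : Finset V) (l : V → Bool → ℝ) (f g : Finset V → ℝ) :
    ex p W l (fun S => f S + g S) = ex p W l f + ex p W l g := by
  unfold ex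
  rw [← add_div, ← Finset.sum_add_distrib]
  congr 1
  exact Finset.sum_congr rfl (fun S _ => by ring)

theorem ex_smul (p : Finset V → ℝ) (W : Finset V) (l : V → Bool → ℝ) (c : ℝ) (f : Finset V → ℝ) :
    ex p W l (fun S => c * f S) = c * ex p W l f := by
  unfold ex
  rw [← mul_div_assoc, Finset.mul_sum]
  congr 1
  exact Finset.sum_congr rfl (fun S _ => by ring)

theorem ex_const {p : Finset V → ℝ} {W : Finset V} (hp : IsMass p W) (l : V → Bool → ℝ)
    (hl : ∀ v b, 0 < l v b) (c : ℝ) : ex p W l (fun _ => c) = c := by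
  unfold ex
  rw [← Finset.sum_mul]
  have h := (pt_pos hp l hl).ne'
  unfold pt at h ⊢
  field_simp

theorem ex_nonneg {p : Finset V → ℝ} {W : Finset V} (hp : IsMass p W) (l : V → Bool → ℝ)
    (hl : ∀ v b, 0 < l v b) (f : Finset V → ℝ) (hf : ∀ S ⊆ W, 0 ≤ f S) : 0 ≤ ex p W l f := by
  unfold ex
  refine div_nonneg (Finset.sum_nonneg fun S hS => ?_) (pt_pos hp l hl).le
  have hS' := Finset.mem_powerset.1 hS
  exact mul_nonneg (mul_nonneg (hp.nonneg S hS') (lw_pos l hl W S).le) (hf S hS')

/-- variance inequality -/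
theorem sq_ex_le {p : Finset V → ℝ} {W : Finset V} (hp : IsMass p W) (l : V → Bool → ℝ)
    (hl : ∀ v b, 0 < l v b) (f : Finset V → ℝ) :
    ex p W l f ^ 2 ≤ ex p W l (fun S => f S ^ 2) := by
  set m := ex p W l f with hm
  have h0 : 0 ≤ ex p W l (fun S => (f S ^ 2 + (-(2 * m)) * f S) + m ^ 2) :=
    ex_nonneg hp l hl _ (fun S _ => by nlinarith [sq_nonneg (f S - m)])
  rw [ex_add, ex_add, ex_smul, ex_const hp l hl, ← hm] at h0
  nlinarith

theorem spin_sq (S : Finset V) (v : V) : spin S v ^ 2 = 1 := by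
  unfold spin; split_ifs <;> norm_num

theorem abs_mn_le {p : Finset V → ℝ} {W : Finset V} (hp : IsMass p W) (l : V → Bool → ℝ)
    (hl : ∀ v b, 0 < l v b) (v : V) : |mn p W l v| ≤ 1 := by
  have h := sq_ex_le hp l hl (fun S => spin S v)
  rw [ex_congr_fun p W l (fun S _ => spin_sq S v), ex_const hp l hl] at h
  exact (sq_le_one_iff_abs_le_one _).1 h

theorem abs_cv_le {p : Finset V → ℝ} {W : Finset V} (hp : IsMass p W) (l : V → Bool → ℝ)
    (hl : ∀ v b, 0 < l v b) (v u : V) : |cv p W l v u| ≤ 1 := by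
  have h1 := sq_ex_le hp l hl (fun S => spin S v + spin S u)
  have h2 := sq_ex_le hp l hl (fun S => spin S v + (-1) * spin S u)
  have e1 : ex p W l (fun S => (spin S v + spin S u) ^ 2) =
      2 + 2 * ex p W l (fun S => spin S v * spin S u) := by
    rw [ex_congr_fun p W l (g := fun S => 2 + 2 * (spin S v * spin S u))
      (fun S _ => by nlinarith [spin_sq S v, spin_sq S u]), ex_add, ex_const hp l hl,
      ex_smul]
  have e2 : ex p W l (fun S => (spin S v + (-1) * spin S u) ^ 2) =
      2 + (-2) * ex p W l (fun S => spin S v * spin S u) := by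
    rw [ex_congr_fun p W l (g := fun S => 2 + (-2) * (spin S v * spin S u))
      (fun S _ => by nlinarith [spin_sq S v, spin_sq S u]), ex_add, ex_const hp l hl,
      ex_smul]
  rw [ex_add, e1] at h1
  rw [ex_add, ex_smul, e2] at h2
  unfold cv
  change (mn p W l v + mn p W l u) ^ 2 ≤ _ at h1
  change (mn p W l v + (-1) * mn p W l u) ^ 2 ≤ _ at h2
  rw [abs_le]
  constructor
  · nlinarith [sq_nonneg (mn p W l v), sq_nonneg (mn p W l u)]
  · nlinarith [sq_nonneg (mn p W l v), sq_nonneg (mn p W l u)]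

theorem cv_comm (p : Finset V → ℝ) (W : Finset V) (l : V → Bool → ℝ) (v u : V) :
    cv p W l v u = cv p W l u v := by
  unfold cv
  rw [mul_comm (mn p W l v)]
  congr 1
  exact ex_congr_fun p W l (fun S _ => mul_comm _ _)

theorem cv_self {p : Finset V → ℝ} {W : Finset V} (hp : IsMass p W) (l : V → Bool → ℝ)
    (hl : ∀ v b, 0 < l v b) (v : V) : cv p W l v v = 1 - mn p W l v ^ 2 := by
  unfold cv
  rw [ex_congr_fun p W l (g := fun _ => (1 : ℝ)) (fun S _ => by
    rw [← pow_two]; exact spin_sq S v), ex_const hp l hl, ← pow_two]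

/-- sites outside the window are uncorrelated with everything -/
theorem cv_notMem {p : Finset V → ℝ} {W : Finset V} (hp : IsMass p W) (l : V → Bool → ℝ)
    (hl : ∀ v b, 0 < l v b) (v u : V) (hu : u ∉ W) : cv p W l v u = 0 := by
  have hs : ∀ S ⊆ W, spin S u = -1 := by
    intro S hS
    unfold spin
    rw [if_neg (fun h => hu (hS h))]
  have h1 : mn p W l u = -1 := by
    unfold mn
    rw [ex_congr_fun p W l (g := fun _ => (-1 : ℝ)) hs, ex_const hp l hl]
  have h2 : ex p W l (fun S => spin S v * spin S u) = -1 * mn p W l v := by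
    rw [ex_congr_fun p W l (g := fun S => (-1 : ℝ) * spin S v)
      (fun S hS => by rw [hs S hS]; ring), ex_smul]
    rfl
  unfold cv
  rw [h1, h2]
  ring

/-- updating the likelihood at one site by the factor `1 ± a` -/
noncomputable def bump (l : V → Bool → ℝ) (u : V) (a : ℝ) : V → Bool → ℝ :=
  fun v b => if v = u then l v b * (1 + sg b * a) else l v b

theorem lw_bump (l : V → Bool → ℝ) (W S : Finset V) (u : V) (hu : u ∈ W) (a : ℝ) :
    lw (bump l u a) W S = lw l W S * (1 + a * spin S u) := by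
  unfold lw bump
  rw [← Finset.mul_prod_erase W _ hu, ← Finset.mul_prod_erase W (fun v => l v (decide (v ∈ S))) hu]
  have h : ∏ x ∈ W.erase u, (if x = u then l x (decide (x ∈ S)) * (1 + sg (decide (x ∈ S)) * a)
      else l x (decide (x ∈ S))) = ∏ x ∈ W.erase u, l x (decide (x ∈ S)) := by
    refine Finset.prod_congr rfl (fun x hx => ?_)
    rw [if_neg (Finset.ne_of_mem_erase hx)]
  rw [h, if_pos rfl]
  have h2 : sg (decide (u ∈ S)) = spin S u := by
    unfold sg spin
    simp
  rw [h2]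
  ring

theorem pt_eq_ex_mul {p : Finset V → ℝ} {W : Finset V} (hp : IsMass p W) (l : V → Bool → ℝ)
    (hl : ∀ v b, 0 < l v b) (f : Finset V → ℝ) :
    ∑ S ∈ W.powerset, p S * lw l W S * f S = pt p W l * ex p W l f := by
  unfold ex
  rw [mul_div_cancel₀ _ (pt_pos hp l hl).ne']

theorem sum_bump {p : Finset V → ℝ} {W : Finset V} (hp : IsMass p W) (l : V → Bool → ℝ)
    (hl : ∀ v b, 0 < l v b) (u : V) (hu : u ∈ W) (a : ℝ) (f : Finset V → ℝ) :
    ∑ S ∈ W.powerset, p S * lw (bump l u a) W S * f S =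
      pt p W l * (ex p W l f + a * ex p W l (fun S => f S * spin S u)) := by
  rw [mul_add, ← pt_eq_ex_mul hp l hl, mul_left_comm, ← pt_eq_ex_mul hp l hl, Finset.mul_sum,
    ← Finset.sum_add_distrib]
  refine Finset.sum_congr rfl (fun S _ => ?_)
  rw [lw_bump l W S u hu]
  ring

theorem pt_bump {p : Finset V → ℝ} {W : Finset V} (hp : IsMass p W) (l : V → Bool → ℝ)
    (hl : ∀ v b, 0 < l v b) (u : V) (hu : u ∈ W) (a : ℝ) :
    pt p W (bump l u a) = pt p W l * (1 + a * mn p W l u) := by
  have h := sum_bump hp l hl u hu a (fun _ => 1)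
  simp only [mul_one, one_mul] at h
  rw [ex_const hp l hl] at h
  exact h

theorem mn_bump {p : Finset V → ℝ} {W : Finset V} (hp : IsMass p W) (l : V → Bool → ℝ)
    (hl : ∀ v b, 0 < l v b) (u : V) (hu : u ∈ W) (a : ℝ) (ha : |a| < 1) (v : V) :
    mn p W (bump l u a) v = mn p W l v + a * cv p W l v u / (1 + a * mn p W l u) := by
  have hpos := pt_pos hp l hl
  have hm := abs_mn_le hp l hl u
  have h1 : |a * mn p W l u| < 1 := by
    rw [abs_mul]
    calc |a| * |mn p W l u| ≤ |a| * 1 := mul_le_mul_of_nonneg_left hm (abs_nonneg _)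
      _ < 1 := by rw [mul_one]; exact ha
  have h2 : 1 + a * mn p W l u ≠ 0 := by
    have := (abs_lt.1 h1).1
    intro h; linarith
  have h3 := sum_bump hp l hl u hu a (fun S => spin S v)
  have h4 : mn p W (bump l u a) v =
      (∑ S ∈ W.powerset, p S * lw (bump l u a) W S * spin S v) / pt p W (bump l u a) := rfl
  have h5 : ex p W l (fun S => spin S v * spin S u) =
    cv p W l v u + mn p W l v * mn p W l u := by
    unfold cv; ring
  have h6 : ex p W l (fun S => spin S v) = mn p W l v := rfl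
  rw [h4, h3, pt_bump hp l hl u hu a, h5, h6]
  field_simp
  ring

theorem measurable_lw (W S : Finset V) :
    Measurable (fun l : V → Bool → ℝ => lw l W S) := by
  unfold lw
  refine Finset.measurable_fun_prod _ (fun v _ => ?_)
  exact (measurable_pi_apply _).comp (measurable_pi_apply v)

theorem measurable_pt (p : Finset V → ℝ) (W : Finset V) :
    Measurable (fun l : V → Bool → ℝ => pt p W l) := by
  unfold pt
  refine Finset.measurable_fun_sum _ (fun S _ => ?_)
  exact measurable_const.mul (measurable_lw W S)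

theorem measurable_ex (p : Finset V → ℝ) (W : Finset V) (f : Finset V → ℝ) :
    Measurable (fun l : V → Bool → ℝ => ex p W l f) := by
  unfold ex
  refine Measurable.div ?_ (measurable_pt p W)
  refine Finset.measurable_fun_sum _ (fun S _ => ?_)
  exact (measurable_const.mul (measurable_lw W S)).mul measurable_const

theorem measurable_mn (p : Finset V → ℝ) (W : Finset V) (v : V) :
    Measurable (fun l : V → Bool → ℝ => mn p W l v) := measurable_ex p W _

theorem measurable_cv (p : Finset V → ℝ) (W : Finset V) (v u : V) :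
    Measurable (fun l : V → Bool → ℝ => cv p W l v u) :=
  (measurable_ex p W _).sub ((measurable_mn p W v).mul (measurable_mn p W u))

theorem sum_powerset_map {V' : Type*} [DecidableEq V'] (e : V ↪ V') (W : Finset V)
    (F : Finset V' → ℝ) :
    ∑ S ∈ (W.map e).powerset, F S = ∑ S ∈ W.powerset, F (S.map e) := by
  have h : (W.map e).powerset = W.powerset.map (Finset.mapEmbedding e).toEmbedding := by
    ext S
    simp only [Finset.mem_powerset, Finset.mem_map, RelEmbedding.coe_toEmbedding,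
      Finset.mapEmbedding_apply]
    constructor
    · intro h
      obtain ⟨T, hT, rfl⟩ := Finset.subset_map_iff.1 h
      exact ⟨T, hT, rfl⟩
    · rintro ⟨T, hT, rfl⟩
      exact Finset.map_subset_map.2 hT
  rw [h, Finset.sum_map]
  rfl

theorem lw_map {V' : Type*} [DecidableEq V'] (e : V ↪ V') (W S : Finset V)
    (l : V' → Bool → ℝ) : lw l (W.map e) (S.map e) = lw (fun v => l (e v)) W S := by
  unfold lw
  rw [Finset.prod_map]
  refine Finset.prod_congr rfl (fun v _ => ?_)
  congr 1
  simp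

theorem spin_map {V' : Type*} [DecidableEq V'] (e : V ↪ V') (S : Finset V) (v : V) :
    spin (S.map e) (e v) = spin S v := by
  unfold spin
  simp

theorem ex_map {V' : Type*} [DecidableEq V'] (e : V ↪ V') (p : Finset V' → ℝ) (W : Finset V)
    (l : V' → Bool → ℝ) (f : Finset V' → ℝ) :
    ex p (W.map e) l f = ex (fun S => p (S.map e)) W (fun v => l (e v)) (fun S => f (S.map e)) := by
  unfold ex pt
  rw [sum_powerset_map, sum_powerset_map]
  simp only [lw_map]

/-- naturality under injections -/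
theorem mn_map {V' : Type*} [DecidableEq V'] (e : V ↪ V') (p : Finset V' → ℝ) (W : Finset V)
    (l : V' → Bool → ℝ) (v : V) :
    mn p (W.map e) l (e v) = mn (fun S => p (S.map e)) W (fun v => l (e v)) v := by
  unfold mn
  rw [ex_map]
  simp only [spin_map]

theorem cv_map {V' : Type*} [DecidableEq V'] (e : V ↪ V') (p : Finset V' → ℝ) (W : Finset V)
    (l : V' → Bool → ℝ) (v u : V) :
    cv p (W.map e) l (e v) (e u) = cv (fun S => p (S.map e)) W (fun v => l (e v)) v u := by
  unfold cv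
  rw [ex_map, mn_map, mn_map]
  simp only [spin_map]

/-- the elementary estimate for the difference of two increments -/
theorem jump_diff (ε z z' K K' m m' : ℝ) (hε0 : 0 ≤ ε) (hε : ε ≤ 1 / 2) (hz : |z| ≤ 1 / 2)
    (hz' : |z'| ≤ 1 / 2) (hm : |m| ≤ 1) (hm' : |m'| ≤ 1) (hK : |K| ≤ 1) (hK' : |K'| ≤ 1)
    (hd : |z - z'| ≤ |ε * m - ε * m'| / 4) :
    (ε * z * K / (1 + ε * z * m) - ε * z' * K' / (1 + ε * z' * m')) ^ 2 ≤
      ε ^ 2 * ((K - K') ^ 2 + K' ^ 2 * (m - m') ^ 2) := by
  have hb : ∀ y n : ℝ, |y| ≤ 1 / 2 → |n| ≤ 1 → 3 / 4 ≤ 1 + ε * y * n := by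
    intro y n hy hn
    have h1 : |ε * y * n| ≤ 1 / 4 := by
      rw [abs_mul, abs_mul, abs_of_nonneg hε0]
      have h2 : ε * |y| ≤ 1 / 4 := by
        calc ε * |y| ≤ (1 / 2) * (1 / 2) := mul_le_mul hε hy (abs_nonneg _) (by norm_num)
          _ = 1 / 4 := by norm_num
      calc ε * |y| * |n| ≤ (1 / 4) * 1 :=
            mul_le_mul h2 hn (abs_nonneg _) (by norm_num)
        _ = 1 / 4 := by norm_num
    have := (abs_le.1 h1).1
    linarith
  have hA := hb z m hz hm
  have hB := hb z' m' hz' hm'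
  set A := 1 + ε * z * m with hAdef
  set B := 1 + ε * z' * m' with hBdef
  have hA0 : 0 < A := by linarith
  have hB0 : 0 < B := by linarith
  have key : ε * z * K / A - ε * z' * K' / B =
      ε * z * (K - K') / A + K' * ((ε * (z - z') + ε ^ 2 * z * z' * (m' - m)) / (A * B)) := by
    rw [hAdef, hBdef]
    rw [hAdef] at hA0
    rw [hBdef] at hB0
    field_simp
    ring
  have h1 : |ε * z * (K - K') / A| ≤ 2 / 3 * (ε * |K - K'|) := by
    rw [abs_div, abs_of_pos hA0, div_le_iff₀ hA0, abs_mul, abs_mul, abs_of_nonneg hε0]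
    have h2 : ε * |z| * |K - K'| ≤ ε * (1 / 2) * |K - K'| := by gcongr
    have h3 : 0 ≤ ε * |K - K'| := by positivity
    nlinarith
  have h2 : |(ε * (z - z') + ε ^ 2 * z * z' * (m' - m)) / (A * B)| ≤ 4 / 9 * (ε * |m - m'|) := by
    have hAB : 9 / 16 ≤ A * B := by nlinarith
    have hAB0 : 0 < A * B := by positivity
    rw [abs_div, abs_of_pos hAB0, div_le_iff₀ hAB0]
    have h3 : |ε * (z - z')| ≤ ε * (1 / 8) * |m - m'| := by
      rw [abs_mul, abs_of_nonneg hε0]
      have h4 : |ε * m - ε * m'| = ε * |m - m'| := by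
        rw [← mul_sub, abs_mul, abs_of_nonneg hε0]
      rw [h4] at hd
      have h5 : |z - z'| ≤ (1 / 8) * |m - m'| := by
        have : ε * |m - m'| ≤ 1 / 2 * |m - m'| := by gcongr
        linarith
      calc ε * |z - z'| ≤ ε * ((1 / 8) * |m - m'|) := by gcongr
        _ = ε * (1 / 8) * |m - m'| := by ring
    have h4 : |ε ^ 2 * z * z' * (m' - m)| ≤ ε * (1 / 8) * |m - m'| := by
      rw [abs_mul, abs_mul, abs_mul, abs_of_nonneg (sq_nonneg ε), abs_sub_comm m' m]
      have h5 : ε ^ 2 * |z| * |z'| ≤ ε * (1 / 8) := by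
        have h6 : ε ^ 2 ≤ ε * (1 / 2) := by nlinarith
        calc ε ^ 2 * |z| * |z'| ≤ (ε * (1 / 2)) * (1 / 2) * (1 / 2) := by gcongr
          _ = ε * (1 / 8) := by ring
      exact mul_le_mul_of_nonneg_right h5 (abs_nonneg _)
    have h5 : 0 ≤ ε * |m - m'| := by positivity
    calc |ε * (z - z') + ε ^ 2 * z * z' * (m' - m)|
        ≤ |ε * (z - z')| + |ε ^ 2 * z * z' * (m' - m)| := abs_add_le _ _
      _ ≤ ε * (1 / 8) * |m - m'| + ε * (1 / 8) * |m - m'| := add_le_add h3 h4
      _ = 1 / 4 * (ε * |m - m'|) := by ring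
      _ ≤ 4 / 9 * (ε * |m - m'|) * (A * B) := by nlinarith
  rw [key]
  have h3 : |ε * z * (K - K') / A + K' * ((ε * (z - z') + ε ^ 2 * z * z' * (m' - m)) / (A * B))| ≤
      2 / 3 * (ε * |K - K'|) + 4 / 9 * (ε * (|K'| * |m - m'|)) := by
    refine (abs_add_le _ _).trans (add_le_add h1 ?_)
    rw [abs_mul]
    calc |K'| * |(ε * (z - z') + ε ^ 2 * z * z' * (m' - m)) / (A * B)|
        ≤ |K'| * (4 / 9 * (ε * |m - m'|)) := mul_le_mul_of_nonneg_left h2 (abs_nonneg _)
      _ = _ := by ring
  have h4 : ε ^ 2 * ((K - K') ^ 2 + K' ^ 2 * (m - m') ^ 2) =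
      (ε * |K - K'|) ^ 2 + (ε * (|K'| * |m - m'|)) ^ 2 := by
    rw [mul_pow, mul_pow, mul_pow, sq_abs, sq_abs, sq_abs]
    ring
  rw [h4, ← sq_abs]
  set X := ε * |K - K'|
  set Y := ε * (|K'| * |m - m'|)
  have hX : 0 ≤ X := by positivity
  have hY : 0 ≤ Y := by positivity
  calc _ ≤ (2 / 3 * X + 4 / 9 * Y) ^ 2 := by
        exact pow_le_pow_left₀ (abs_nonneg _) h3 2
    _ ≤ X ^ 2 + Y ^ 2 := by nlinarith [sq_nonneg (X - Y), sq_nonneg X, sq_nonneg Y]

end ST

end Crest.Agent.TI
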