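import Crest.Agent.TI_Cut
import Crest.Agent.TI_ST

/-!
Row S0241, task KFa: densities across an edge
-/

set_option autoImplicit false
set_option linter.unusedSectionVars false
set_option linter.unusedVariables false

namespace Crest.Agent.TI

open MeasureTheory Filter Topology
open Crest.Agent.SRF (Lab lab)

/-! ### task KF : the covariance along a path of the tree -/

section KF

variable {V : Type*} [DecidableEq V] {G : SimpleGraph V}

theorem kfa_ip_pos (θ : ℝ) (h0 : 0 ≤ θ) (h1 : θ < 1) (W S : Finset V) : 0 < ip G θ W S := by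
  unfold ip Crest.ProbabilityR.TreeIsing.isingWeight
  refine mul_pos (by norm_num) (Finset.prod_pos ?_)
  intro e _
  split_ifs <;> linarith

theorem kfa_lw_pos (l : V → Bool → ℝ) (hl : ∀ v b, 0 < l v b) (W S : Finset V) : 0 < lw l W S :=
  Finset.prod_pos (fun v _ => hl v _)

theorem dd_pos (hT : G.IsTree) (θ : ℝ) (h0 : 0 ≤ θ) (h1 : θ < 1) {W : Finset V} (hW : Win G W)
    (l : V → Bool → ℝ) (hl : ∀ v b, 0 < l v b) (x : V) (hx : x ∈ W) (c : Bool) : 0 < dd G θ W l x c := by
  unfold dd
  refine mul_pos (by norm_num) (Finset.sum_pos ?_ ?_)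
  · intro S _
    exact mul_pos (kfa_ip_pos θ h0 h1 W S) (kfa_lw_pos l hl W S)
  · cases c with
    | true => exact ⟨W, by simp [hx]⟩
    | false => exact ⟨∅, by simp⟩

theorem dd_singleton (θ : ℝ) (l : V → Bool → ℝ) (x : V) (c : Bool) : dd G θ {x} l x c = l x c := by
  unfold dd
  have : (Finset.filter (fun S : Finset V => decide (x ∈ S) = c) (({x} : Finset V).powerset)) =
      {if c then {x} else ∅} := by
    ext S
    simp only [Finset.mem_filter, Finset.mem_powerset, Finset.subset_singleton_iff,
      Finset.mem_singleton]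
    cases c with
    | true =>
      simp only [decide_eq_true_eq, if_true]
      constructor
      · rintro ⟨h | h, h'⟩
        · simp [h] at h'
        · exact h
      · intro h
        simp [h]
    | false =>
      simp only [decide_eq_false_iff_not]
      constructor
      · rintro ⟨h | h, h'⟩
        · simpa using h
        · simp [h] at h'
      · intro h
        simp at h
        simp [h]
  rw [this, Finset.sum_singleton, ip_singleton]
  cases c <;> simp [lw]

theorem dd_congr (θ : ℝ) (W : Finset V) (l l' : V → Bool → ℝ) (h : ∀ v ∈ W, l v = l' v) (x : V)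
    (c : Bool) : dd G θ W l x c = dd G θ W l' x c := by
  unfold dd lw
  congr 1
  refine Finset.sum_congr rfl (fun S _ => ?_)
  congr 1
  exact Finset.prod_congr rfl (fun v hv => by rw [h v hv])

theorem kfa_sum_union (A B : Finset V) (h : Disjoint A B) (f : Finset V → ℝ) :
    ∑ S ∈ (A ∪ B).powerset, f S = ∑ S1 ∈ A.powerset, ∑ S2 ∈ B.powerset, f (S1 ∪ S2) := by
  rw [← Finset.sum_product']
  refine Finset.sum_nbij' (fun S => (S ∩ A, S ∩ B)) (fun p => p.1 ∪ p.2) ?_ ?_ ?_ ?_ ?_
  · intro S hS
    simp [Finset.inter_subset_right]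
  · intro p hp
    simp only [Finset.mem_product, Finset.mem_powerset] at hp
    simp only [Finset.mem_powerset]
    exact Finset.union_subset_union hp.1 hp.2
  · intro S hS
    simp only [Finset.mem_powerset] at hS
    rw [← Finset.inter_union_distrib_left, Finset.inter_eq_left]
    exact hS
  · rintro ⟨S1, S2⟩ hp
    simp only [Finset.mem_product, Finset.mem_powerset] at hp
    obtain ⟨h1, h2⟩ := hp
    rw [Finset.disjoint_left] at h
    ext v
    · simp only [Finset.mem_inter, Finset.mem_union]
      constructor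
      · rintro ⟨hv | hv, hA⟩
        · exact hv
        · exact absurd (h2 hv) (h hA)
      · intro hv
        exact ⟨Or.inl hv, h1 hv⟩
    · simp only [Finset.mem_inter, Finset.mem_union]
      constructor
      · rintro ⟨hv | hv, hB⟩
        · exact absurd hB (h (h1 hv))
        · exact hv
      · intro hv
        exact ⟨Or.inr hv, h2 hv⟩
  · intro S hS
    simp only [Finset.mem_powerset] at hS
    rw [← Finset.inter_union_distrib_left, Finset.inter_eq_left.mpr hS]

theorem kfa_lw_congr (l : V → Bool → ℝ) (W S S' : Finset V) (h : ∀ v ∈ W, (v ∈ S ↔ v ∈ S')) :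
    lw l W S = lw l W S' := by
  unfold lw
  refine Finset.prod_congr rfl (fun v hv => ?_)
  rw [decide_eq_decide.mpr (h v hv)]

theorem kfa_lw_union (l : V → Bool → ℝ) (A B S : Finset V) (h : Disjoint A B) :
    lw l (A ∪ B) S = lw l A S * lw l B S := by
  unfold lw
  rw [Finset.prod_union h]

theorem kfa_dd_split (θ : ℝ) (W : Finset V) (l : V → Bool → ℝ) (x : V) (g : Bool → ℝ) :
    ∑ S ∈ W.powerset, ip G θ W S * lw l W S * g (decide (x ∈ S)) =
      (g true * dd G θ W l x true + g false * dd G θ W l x false) / 2 := by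
  unfold dd
  rw [← Finset.sum_filter_add_sum_filter_not W.powerset (fun S => x ∈ S)]
  have h1 : ∑ S ∈ W.powerset with x ∈ S, ip G θ W S * lw l W S * g (decide (x ∈ S)) =
      g true * ∑ S ∈ W.powerset with decide (x ∈ S) = true, ip G θ W S * lw l W S := by
    rw [Finset.mul_sum]
    have : (Finset.filter (fun S : Finset V => decide (x ∈ S) = true) W.powerset) =
      (Finset.filter (fun S : Finset V => x ∈ S) W.powerset) := by
      ext S; simp
    rw [this]
    refine Finset.sum_congr rfl (fun S hS => ?_)
    have := (Finset.mem_filter.mp hS).2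
    simp only [this, decide_true]
    ring
  have h2 : ∑ S ∈ W.powerset with ¬ x ∈ S, ip G θ W S * lw l W S * g (decide (x ∈ S)) =
      g false * ∑ S ∈ W.powerset with decide (x ∈ S) = false, ip G θ W S * lw l W S := by
    rw [Finset.mul_sum]
    have : (Finset.filter (fun S : Finset V => decide (x ∈ S) = false) W.powerset) =
      (Finset.filter (fun S : Finset V => ¬ x ∈ S) W.powerset) := by
      ext S; simp
    rw [this]
    refine Finset.sum_congr rfl (fun S hS => ?_)
    have := (Finset.mem_filter.mp hS).2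
    simp only [this, decide_false]
    ring
  rw [h1, h2]
  ring

theorem kfa_spin_eq_sg (S : Finset V) (v : V) : spin S v = sg (decide (v ∈ S)) := by
  unfold spin sg
  by_cases h : v ∈ S <;> simp [h]

/-- recursion across an edge -/
theorem dd_cut (hT : G.IsTree) (θ : ℝ) {W : Finset V} {x y : V} (hx : x ∈ W) (hy : y ∈ W)
    (h : G.Adj x y) (l : V → Bool → ℝ) (c : Bool) :
    dd G θ W l x c = dd G θ (sd G W x y) l x c *
      ((1 + θ * (sg c * sg true)) / 2 * dd G θ (sd G W y x) l y true +
        (1 + θ * (sg c * sg false)) / 2 * dd G θ (sd G W y x) l y false) := by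
  have hdis := sd_disjoint (G := G) W x y
  have hun := sd_union hT W h
  have hxA : x ∈ sd G W x y := mem_sd_self hx h
  have hyB : y ∈ sd G W y x := mem_sd_self hy h.symm
  have hxB : x ∉ sd G W y x := fun hh => (Finset.disjoint_left.mp hdis) hxA hh
  have hyA : y ∉ sd G W x y := fun hh => (Finset.disjoint_left.mp hdis) hh hyB
  set A := sd G W x y with hA
  set B := sd G W y x with hB
  -- left side
  have h1 : dd G θ W l x c = 2 * ∑ S1 ∈ A.powerset, ∑ S2 ∈ B.powerset,
      (if decide (x ∈ S1) = c then ip G θ A S1 * lw l A S1 else 0) *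
        (ip G θ B S2 * lw l B S2 * (1 + θ * (sg c * sg (decide (y ∈ S2))))) := by
    conv_lhs => unfold dd
    rw [Finset.sum_filter]
    congr 1
    conv_lhs => rw [← hun]
    rw [kfa_sum_union A B hdis]
    refine Finset.sum_congr rfl (fun S1 hS1 => Finset.sum_congr rfl (fun S2 hS2 => ?_))
    rw [Finset.mem_powerset] at hS1 hS2
    have hx1 : x ∈ S1 ∪ S2 ↔ x ∈ S1 := by
      rw [Finset.mem_union]
      exact ⟨fun hh => hh.resolve_right (fun h' => hxB (hS2 h')), Or.inl⟩
    have hy2 : y ∈ S1 ∪ S2 ↔ y ∈ S2 := by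
      rw [Finset.mem_union]
      exact ⟨fun hh => hh.resolve_left (fun h' => hyA (hS1 h')), Or.inr⟩
    rw [decide_eq_decide.mpr hx1]
    by_cases hc : decide (x ∈ S1) = c
    · rw [if_pos hc, if_pos hc, hun, ip_cut hT θ hx hy h, ← hA, ← hB]
      have e1 : ip G θ A (S1 ∪ S2) = ip G θ A S1 := by
        apply ip_congr
        intro v hv
        rw [Finset.mem_union]
        exact ⟨fun hh => hh.resolve_right (fun h' => (Finset.disjoint_left.mp hdis) hv (hS2 h')),
          Or.inl⟩
      have e2 : ip G θ B (S1 ∪ S2) = ip G θ B S2 := by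
        apply ip_congr
        intro v hv
        rw [Finset.mem_union]
        exact ⟨fun hh => hh.resolve_left (fun h' => (Finset.disjoint_left.mp hdis) (hS1 h') hv),
          Or.inr⟩
      have e3 : lw l W (S1 ∪ S2) = lw l A S1 * lw l B S2 := by
        conv_lhs => rw [← hun]
        rw [kfa_lw_union l A B _ hdis]
        congr 1
        · apply kfa_lw_congr
          intro v hv
          rw [Finset.mem_union]
          exact ⟨fun hh => hh.resolve_right (fun h' => (Finset.disjoint_left.mp hdis) hv (hS2 h')),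
            Or.inl⟩
        · apply kfa_lw_congr
          intro v hv
          rw [Finset.mem_union]
          exact ⟨fun hh => hh.resolve_left (fun h' => (Finset.disjoint_left.mp hdis) (hS1 h') hv),
            Or.inr⟩
      rw [e1, e2, e3, kfa_spin_eq_sg, kfa_spin_eq_sg, decide_eq_decide.mpr hx1,
        decide_eq_decide.mpr hy2, hc]
      ring
    · rw [if_neg hc, if_neg hc, zero_mul]
  rw [h1]
  have h2 : ∀ S1 : Finset V, ∑ S2 ∈ B.powerset,
      (if decide (x ∈ S1) = c then ip G θ A S1 * lw l A S1 else 0) *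
        (ip G θ B S2 * lw l B S2 * (1 + θ * (sg c * sg (decide (y ∈ S2))))) =
      (if decide (x ∈ S1) = c then ip G θ A S1 * lw l A S1 else 0) *
        (((1 + θ * (sg c * sg true)) * dd G θ B l y true +
          (1 + θ * (sg c * sg false)) * dd G θ B l y false) / 2) := by
    intro S1
    rw [← Finset.mul_sum]
    congr 1
    exact kfa_dd_split θ B l y (fun b => 1 + θ * (sg c * sg b))
  simp_rw [h2]
  rw [← Finset.sum_mul]
  have h3 : dd G θ A l x c = 2 * ∑ S1 ∈ A.powerset,
      (if decide (x ∈ S1) = c then ip G θ A S1 * lw l A S1 else 0) := by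
    conv_lhs => unfold dd
    rw [Finset.sum_filter]
  rw [h3]
  ring

/-- flipping all the data exchanges the two densities -/
theorem dd_flip (θ : ℝ) (W : Finset V) (l : V → Bool → ℝ) (x : V) (c : Bool) (hx : x ∈ W) :
    dd G θ W (fun v c => l v (!c)) x c = dd G θ W l x (!c) := by
  unfold dd
  congr 1
  refine Finset.sum_nbij' (fun S => W \ S) (fun S => W \ S) ?_ ?_ ?_ ?_ ?_
  · intro S hS
    simp only [Finset.mem_filter, Finset.mem_powerset] at hS ⊢
    refine ⟨Finset.sdiff_subset, ?_⟩
    rw [← hS.2]
    by_cases h : x ∈ S <;> simp [h, hx]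
  · intro S hS
    simp only [Finset.mem_filter, Finset.mem_powerset] at hS ⊢
    refine ⟨Finset.sdiff_subset, ?_⟩
    have h2 : c = !(decide (x ∈ S)) := by rw [hS.2, Bool.not_not]
    rw [h2]
    by_cases h : x ∈ S <;> simp [h, hx]
  · intro S hS
    simp only [Finset.mem_filter, Finset.mem_powerset] at hS
    exact Finset.sdiff_sdiff_eq_self hS.1
  · intro S hS
    simp only [Finset.mem_filter, Finset.mem_powerset] at hS
    exact Finset.sdiff_sdiff_eq_self hS.1
  · intro S hS
    simp only [Finset.mem_filter, Finset.mem_powerset] at hS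
    rw [ip_flip θ W S hS.1]
    congr 1
    unfold lw
    refine Finset.prod_congr rfl (fun v hv => ?_)
    by_cases h : v ∈ S <;> simp [h, hv]

theorem pt_eq_dd (θ : ℝ) (W : Finset V) (l : V → Bool → ℝ) (x : V) :
    pt (ip G θ W) W l = (dd G θ W l x true + dd G θ W l x false) / 2 := by
  have := kfa_dd_split (G := G) θ W l x (fun _ => 1)
  simp only [mul_one, one_mul] at this
  exact this

theorem mn_eq_dd (θ : ℝ) (W : Finset V) (l : V → Bool → ℝ) (x : V) :
    mn (ip G θ W) W l x = (dd G θ W l x true - dd G θ W l x false) /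
      (dd G θ W l x true + dd G θ W l x false) := by
  unfold mn ex
  rw [pt_eq_dd θ W l x]
  have := kfa_dd_split (G := G) θ W l x sg
  simp_rw [kfa_spin_eq_sg]
  rw [this]
  simp only [sg, if_true]
  rw [div_div_div_cancel_right₀ (by norm_num : (2 : ℝ) ≠ 0)]
  simp [sub_eq_add_neg]

theorem pt_cut (hT : G.IsTree) (θ : ℝ) {W : Finset V} {x y : V} (hx : x ∈ W) (hy : y ∈ W)
    (h : G.Adj x y) (l : V → Bool → ℝ) :
    pt (ip G θ W) W l = ∑ c : Bool, ∑ c' : Bool, dd G θ (sd G W x y) l x c *
      dd G θ (sd G W y x) l y c' * ((1 + θ * (sg c * sg c')) / 4) := by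
  rw [pt_eq_dd θ W l x, dd_cut hT θ hx hy h l true, dd_cut hT θ hx hy h l false]
  simp only [Fintype.sum_bool]
  ring

end KF

end Crest.Agent.TI
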