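import Crest.Agent.TI_KFa

/-!
Row S0241, task KFb: covariance along a path
-/

set_option autoImplicit false
set_option linter.unusedSectionVars false
set_option linter.unusedVariables false

namespace Crest.Agent.TI

open MeasureTheory Filter Topology
open Crest.Agent.SRF (Lab lab)

section KF

variable {V : Type*} [DecidableEq V] {G : SimpleGraph V}

/-- two-point sums -/
noncomputable def kfN (p : Finset V → ℝ) (W : Finset V) (l : V → Bool → ℝ) (x u : V) (s t : Bool) : ℝ :=
  ∑ S ∈ W.powerset with (decide (x ∈ S) = s ∧ decide (u ∈ S) = t), p S * lw l W S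

theorem kf_sum_split (p : Finset V → ℝ) (W : Finset V) (l : V → Bool → ℝ) (x u : V) (g : Bool → Bool → ℝ) :
    ∑ S ∈ W.powerset, p S * lw l W S * g (decide (x ∈ S)) (decide (u ∈ S)) =
      kfN p W l x u true true * g true true + kfN p W l x u true false * g true false +
      kfN p W l x u false true * g false true + kfN p W l x u false false * g false false := by
  unfold kfN
  rw [Finset.sum_filter, Finset.sum_filter, Finset.sum_filter, Finset.sum_filter]
  rw [Finset.sum_mul, Finset.sum_mul, Finset.sum_mul, Finset.sum_mul]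
  rw [← Finset.sum_add_distrib, ← Finset.sum_add_distrib, ← Finset.sum_add_distrib]
  apply Finset.sum_congr rfl
  intro S _
  by_cases h1 : x ∈ S <;> by_cases h2 : u ∈ S <;> simp [h1, h2]

theorem kf_pt (p : Finset V → ℝ) (W : Finset V) (l : V → Bool → ℝ) (x u : V) :
    pt p W l = kfN p W l x u true true + kfN p W l x u true false +
      kfN p W l x u false true + kfN p W l x u false false := by
  have := kf_sum_split p W l x u (fun _ _ => 1)
  simp only [mul_one] at this
  exact this

theorem kf_cv {p : Finset V → ℝ} {W : Finset V} (l : V → Bool → ℝ) (x u : V) (hp : pt p W l ≠ 0) :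
    cv p W l x u * pt p W l ^ 2 =
      4 * (kfN p W l x u true true * kfN p W l x u false false -
        kfN p W l x u true false * kfN p W l x u false true) := by
  have e1 : ex p W l (fun S => spin S x * spin S u) * pt p W l =
      kfN p W l x u true true - kfN p W l x u true false -
      kfN p W l x u false true + kfN p W l x u false false := by
    unfold ex
    rw [div_mul_cancel₀ _ hp]
    have := kf_sum_split p W l x u (fun a b => sg a * sg b)
    simp only [sg] at this
    rw [show (∑ S ∈ W.powerset, p S * lw l W S * (spin S x * spin S u)) =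
      ∑ S ∈ W.powerset, p S * lw l W S * ((if decide (x ∈ S) = true then 1 else -1) *
        (if decide (u ∈ S) = true then 1 else -1)) from by simp [spin]]
    rw [this]; simp; ring
  have e2 : mn p W l x * pt p W l =
      kfN p W l x u true true + kfN p W l x u true false -
      kfN p W l x u false true - kfN p W l x u false false := by
    unfold mn ex
    rw [div_mul_cancel₀ _ hp]
    have := kf_sum_split p W l x u (fun a b => sg a)
    simp only [sg] at this
    rw [show (∑ S ∈ W.powerset, p S * lw l W S * (spin S x)) =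
      ∑ S ∈ W.powerset, p S * lw l W S * (if decide (x ∈ S) = true then 1 else -1) from by simp [spin]]
    rw [this]; simp; ring
  have e3 : mn p W l u * pt p W l =
      kfN p W l x u true true - kfN p W l x u true false +
      kfN p W l x u false true - kfN p W l x u false false := by
    unfold mn ex
    rw [div_mul_cancel₀ _ hp]
    have := kf_sum_split p W l x u (fun a b => sg b)
    simp only [sg] at this
    rw [show (∑ S ∈ W.powerset, p S * lw l W S * (spin S u)) =
      ∑ S ∈ W.powerset, p S * lw l W S * (if decide (u ∈ S) = true then 1 else -1) from by simp [spin]]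
    rw [this]; simp; ring
  have e4 := kf_pt p W l x u
  unfold cv
  calc (ex p W l (fun S => spin S x * spin S u) - mn p W l x * mn p W l u) * pt p W l ^ 2
      = (ex p W l (fun S => spin S x * spin S u) * pt p W l) * pt p W l -
          (mn p W l x * pt p W l) * (mn p W l u * pt p W l) := by ring
    _ = _ := by rw [e1, e2, e3, e4]; ring

/-- sum over the subsets of a disjoint union -/
theorem kf_sum_union {A B : Finset V} (hAB : Disjoint A B) (f : Finset V → ℝ) :
    ∑ S ∈ (A ∪ B).powerset, f S = ∑ S ∈ A.powerset, ∑ T ∈ B.powerset, f (S ∪ T) := by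
  rw [← Finset.sum_product']
  symm
  apply Finset.sum_bij (fun (q : Finset V × Finset V) _ => q.1 ∪ q.2)
  · intro q hq
    simp only [Finset.mem_product, Finset.mem_powerset] at hq ⊢
    exact Finset.union_subset_union hq.1 hq.2
  · intro q hq q' hq' h
    simp only [Finset.mem_product, Finset.mem_powerset] at hq hq'
    have h1 : ∀ q : Finset V × Finset V, q.1 ⊆ A → q.2 ⊆ B → (q.1 ∪ q.2) ∩ A = q.1 := by
      intro q h1 h2
      rw [Finset.union_inter_distrib_right, Finset.inter_eq_left.2 h1]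
      have : q.2 ∩ A = ∅ := by
        rw [← Finset.disjoint_iff_inter_eq_empty]
        exact (hAB.mono_right h2).symm
      rw [this, Finset.union_empty]
    have h2 : ∀ q : Finset V × Finset V, q.1 ⊆ A → q.2 ⊆ B → (q.1 ∪ q.2) ∩ B = q.2 := by
      intro q h1 h2
      rw [Finset.union_inter_distrib_right, Finset.inter_eq_left.2 h2]
      have : q.1 ∩ B = ∅ := by
        rw [← Finset.disjoint_iff_inter_eq_empty]
        exact (hAB.mono_left h1)
      rw [this, Finset.empty_union]
    ext1
    · rw [← h1 q hq.1 hq.2, ← h1 q' hq'.1 hq'.2, h]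
    · rw [← h2 q hq.1 hq.2, ← h2 q' hq'.1 hq'.2, h]
  · intro S hS
    refine ⟨(S ∩ A, S ∩ B), ?_, ?_⟩
    · simp only [Finset.mem_product, Finset.mem_powerset]
      exact ⟨Finset.inter_subset_right, Finset.inter_subset_right⟩
    · simp only
      rw [← Finset.inter_union_distrib_left]
      exact Finset.inter_eq_left.2 (Finset.mem_powerset.1 hS)
  · intro q hq
    rfl

theorem kf_lw_union {A B : Finset V} (hAB : Disjoint A B) (l : V → Bool → ℝ) {S T : Finset V}
    (hS : S ⊆ A) (hT : T ⊆ B) : lw l (A ∪ B) (S ∪ T) = lw l A S * lw l B T := by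
  unfold lw
  rw [Finset.prod_union hAB]
  congr 1
  · apply Finset.prod_congr rfl
    intro v hv
    have : v ∉ T := fun h => (Finset.disjoint_left.1 hAB hv (hT h))
    simp [this]
  · apply Finset.prod_congr rfl
    intro v hv
    have : v ∉ S := fun h => (Finset.disjoint_left.1 hAB (hS h) hv)
    simp [this]

/-- the two-point sums across an edge -/
theorem kf_N_cut (hT : G.IsTree) (θ : ℝ) {W : Finset V} {x y u : V} (hx : x ∈ W) (hy : y ∈ W)
    (h : G.Adj x y) (hu : u ∈ sd G W y x) (l : V → Bool → ℝ) (s t : Bool) :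
    kfN (ip G θ W) W l x u s t = dd G θ (sd G W x y) l x s / 2 *
      ((1 + θ * (sg s * sg true)) * kfN (ip G θ (sd G W y x)) (sd G W y x) l y u true t +
       (1 + θ * (sg s * sg false)) * kfN (ip G θ (sd G W y x)) (sd G W y x) l y u false t) := by
  set A := sd G W x y with hA
  set B := sd G W y x with hB
  have hAB : Disjoint A B := sd_disjoint W x y
  have hWe : A ∪ B = W := sd_union hT W h
  have hxA : x ∈ A := mem_sd_self hx h
  have hyB : y ∈ B := mem_sd_self hy h.symm
  have hxB : x ∉ B := fun h' => Finset.disjoint_left.1 hAB hxA h'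
  have hyA : y ∉ A := fun h' => Finset.disjoint_left.1 hAB h' hyB
  have huA : u ∉ A := fun h' => Finset.disjoint_left.1 hAB h' hu
  have e0 : kfN (ip G θ W) W l x u s t = ∑ S ∈ A.powerset, ∑ T ∈ B.powerset,
      (if decide (x ∈ S) = s then ip G θ A S * lw l A S else 0) *
      (if decide (u ∈ T) = t then (1 + θ * (sg s * spin T y)) * (ip G θ B T * lw l B T) else 0) := by
    unfold kfN
    rw [Finset.sum_filter]
    conv_lhs => rw [← hWe]
    rw [kf_sum_union hAB]
    apply Finset.sum_congr rfl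
    intro S hS
    apply Finset.sum_congr rfl
    intro T hTt
    rw [Finset.mem_powerset] at hS hTt
    have hxT : x ∉ T := fun h' => hxB (hTt h')
    have hyS : y ∉ S := fun h' => hyA (hS h')
    have huS : u ∉ S := fun h' => huA (hS h')
    have m1 : (x ∈ S ∪ T) ↔ x ∈ S := by simp [hxT]
    have m2 : (u ∈ S ∪ T) ↔ u ∈ T := by simp [huS]
    have m3 : (y ∈ S ∪ T) ↔ y ∈ T := by simp [hyS]
    have i1 : ip G θ A (S ∪ T) = ip G θ A S := by
      apply ip_congr
      intro v hv
      have : v ∉ T := fun h' => Finset.disjoint_left.1 hAB hv (hTt h')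
      simp [this]
    have i2 : ip G θ B (S ∪ T) = ip G θ B T := by
      apply ip_congr
      intro v hv
      have : v ∉ S := fun h' => Finset.disjoint_left.1 hAB (hS h') hv
      simp [this]
    rw [hWe, ip_cut hT θ hx hy h, ← hA, ← hB, i1, i2]
    have e5 : lw l W (S ∪ T) = lw l A S * lw l B T := by
      conv_lhs => rw [← hWe]
      exact kf_lw_union hAB l hS hTt
    rw [e5]
    by_cases c1 : decide (x ∈ S) = s
    · by_cases c2 : decide (u ∈ T) = t
      · have c1' : decide (x ∈ S ∪ T) = s := by rw [← c1]; simp only [m1]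
        have c2' : decide (u ∈ S ∪ T) = t := by rw [← c2]; simp only [m2]
        rw [if_pos ⟨c1', c2'⟩, if_pos c1, if_pos c2]
        have s1 : spin (S ∪ T) x = sg s := by
          unfold spin sg
          rw [← c1]
          by_cases hh : x ∈ S
          · simp [hh]
          · simp [hh, hxT]
        have s2 : spin (S ∪ T) y = spin T y := by
          unfold spin
          by_cases hh : y ∈ T
          · simp [hh]
          · simp [hh, hyS]
        rw [s1, s2]; ring
      · have c2' : ¬ decide (u ∈ S ∪ T) = t := by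
          intro h'; apply c2; rw [← h']; simp only [m2]
        rw [if_neg (fun h' => c2' h'.2), if_neg c2]; ring
    · have c1' : ¬ decide (x ∈ S ∪ T) = s := by
        intro h'; apply c1; rw [← h']; simp only [m1]
      rw [if_neg (fun h' => c1' h'.1), if_neg c1]; ring
  rw [e0, ← Finset.sum_mul_sum]
  congr 1
  · unfold dd
    rw [Finset.sum_filter]
    ring
  · unfold kfN
    rw [Finset.sum_filter, Finset.sum_filter, Finset.mul_sum, Finset.mul_sum, ← Finset.sum_add_distrib]
    apply Finset.sum_congr rfl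
    intro T _
    by_cases c1 : decide (u ∈ T) = t
    · by_cases c2 : y ∈ T
      · simp [c1, c2, spin, sg]
      · simp [c1, c2, spin, sg]
    · simp [c1]

/-- determinant recursion for the covariance -/
theorem cv_cut (hT : G.IsTree) (θ : ℝ) (h0 : 0 ≤ θ) (h1 : θ < 1) {W : Finset V} (hW : Win G W)
    {x y u : V} (hx : x ∈ W) (hy : y ∈ W) (h : G.Adj x y) (hu : u ∈ sd G W y x)
    (l : V → Bool → ℝ) (hl : ∀ v b, 0 < l v b) :
    cv (ip G θ W) W l x u * pt (ip G θ W) W l ^ 2 =
      θ * (dd G θ (sd G W x y) l x true * dd G θ (sd G W x y) l x false) *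
        (cv (ip G θ (sd G W y x)) (sd G W y x) l y u * pt (ip G θ (sd G W y x)) (sd G W y x) l ^ 2) := by
  have p1 : 0 < pt (ip G θ W) W l := pt_pos (isMass_ip hT θ h0 h1.le hW) l hl
  have hWB : Win G (sd G W y x) := win_sd hT hW hy h.symm
  have p2 : 0 < pt (ip G θ (sd G W y x)) (sd G W y x) l := pt_pos (isMass_ip hT θ h0 h1.le hWB) l hl
  rw [kf_cv l x u p1.ne', kf_cv l y u p2.ne', kf_N_cut hT θ hx hy h hu, kf_N_cut hT θ hx hy h hu,
    kf_N_cut hT θ hx hy h hu, kf_N_cut hT θ hx hy h hu]
  simp only [sg]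
  simp
  ring

theorem cv_self_dd (hT : G.IsTree) (θ : ℝ) (h0 : 0 ≤ θ) (h1 : θ < 1) {W : Finset V} (hW : Win G W)
    {x : V} (hx : x ∈ W) (l : V → Bool → ℝ) (hl : ∀ v b, 0 < l v b) :
    cv (ip G θ W) W l x x * pt (ip G θ W) W l ^ 2 = dd G θ W l x true * dd G θ W l x false := by
  have p1 : 0 < pt (ip G θ W) W l := pt_pos (isMass_ip hT θ h0 h1.le hW) l hl
  rw [kf_cv l x x p1.ne']
  have a1 : kfN (ip G θ W) W l x x true true = dd G θ W l x true / 2 := by
    unfold kfN dd
    simp
  have a2 : kfN (ip G θ W) W l x x false false = dd G θ W l x false / 2 := by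
    unfold kfN dd
    simp
  have a3 : kfN (ip G θ W) W l x x true false = 0 := by
    unfold kfN
    apply Finset.sum_eq_zero
    intro S hS
    simp at hS
  rw [a1, a2, a3]
  ring

/-- dd in terms of the message of the neighbour -/
theorem kf_dd_msg (hT : G.IsTree) (θ : ℝ) (h0 : 0 ≤ θ) (h1 : θ < 1) {W : Finset V} (hW : Win G W)
    {x y : V} (hx : x ∈ W) (hy : y ∈ W) (h : G.Adj x y)
    (l : V → Bool → ℝ) (hl : ∀ v b, 0 < l v b) (c : Bool) :
    dd G θ W l x c = dd G θ (sd G W x y) l x c * pt (ip G θ (sd G W y x)) (sd G W y x) l *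
      (1 + θ * sg c * bm G θ W l y x) := by
  have hWB : Win G (sd G W y x) := win_sd hT hW hy h.symm
  have hyB : y ∈ sd G W y x := mem_sd_self hy h.symm
  have q1 := dd_pos hT θ h0 h1 hWB l hl y hyB true
  have q2 := dd_pos hT θ h0 h1 hWB l hl y hyB false
  rw [dd_cut hT θ hx hy h l c, bm, mn_eq_dd, pt_eq_dd θ _ l y]
  have hne : dd G θ (sd G W y x) l y true + dd G θ (sd G W y x) l y false ≠ 0 := by positivity
  cases c <;> simp [sg] <;> field_simp <;> ring

theorem kf_one_sub_sq (hT : G.IsTree) (θ : ℝ) (h0 : 0 ≤ θ) (h1 : θ < 1) {W : Finset V} (hW : Win G W)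
    {x : V} (hx : x ∈ W) (l : V → Bool → ℝ) (hl : ∀ v b, 0 < l v b) :
    (1 - mn (ip G θ W) W l x ^ 2) * pt (ip G θ W) W l ^ 2 = dd G θ W l x true * dd G θ W l x false := by
  have q1 := dd_pos hT θ h0 h1 hW l hl x hx true
  have q2 := dd_pos hT θ h0 h1 hW l hl x hx false
  rw [mn_eq_dd, pt_eq_dd θ _ l x]
  have hne : dd G θ W l x true + dd G θ W l x false ≠ 0 := by positivity
  field_simp
  ring

theorem kf_abs_mn_lt (hT : G.IsTree) (θ : ℝ) (h0 : 0 ≤ θ) (h1 : θ < 1) {W : Finset V} (hW : Win G W)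
    {x : V} (hx : x ∈ W) (l : V → Bool → ℝ) (hl : ∀ v b, 0 < l v b) :
    mn (ip G θ W) W l x ^ 2 < 1 := by
  have p1 : 0 < pt (ip G θ W) W l := pt_pos (isMass_ip hT θ h0 h1.le hW) l hl
  have q1 := dd_pos hT θ h0 h1 hW l hl x hx true
  have q2 := dd_pos hT θ h0 h1 hW l hl x hx false
  have e := kf_one_sub_sq hT θ h0 h1 hW hx l hl
  have : 0 < (1 - mn (ip G θ W) W l x ^ 2) * pt (ip G θ W) W l ^ 2 := by rw [e]; positivity
  have := (pos_iff_pos_of_mul_pos this).2 (by positivity)
  linarith

/-- slope form of the recursion -/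
theorem cv_slope (hT : G.IsTree) (θ : ℝ) (h0 : 0 ≤ θ) (h1 : θ < 1) {W : Finset V} (hW : Win G W)
    {x y u : V} (hx : x ∈ W) (hy : y ∈ W) (h : G.Adj x y) (hu : u ∈ sd G W y x)
    (l : V → Bool → ℝ) (hl : ∀ v b, 0 < l v b) :
    cv (ip G θ W) W l x u = (1 - mn (ip G θ W) W l x ^ 2) * (θ * psi θ (bm G θ W l y x)) *
      (cv (ip G θ (sd G W y x)) (sd G W y x) l y u / (1 - bm G θ W l y x ^ 2)) := by
  have hWB : Win G (sd G W y x) := win_sd hT hW hy h.symm
  have hyB : y ∈ sd G W y x := mem_sd_self hy h.symm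
  have p1 : 0 < pt (ip G θ W) W l := pt_pos (isMass_ip hT θ h0 h1.le hW) l hl
  have p2 : 0 < pt (ip G θ (sd G W y x)) (sd G W y x) l := pt_pos (isMass_ip hT θ h0 h1.le hWB) l hl
  have e1 := cv_cut hT θ h0 h1 hW hx hy h hu l hl
  have e2 := kf_one_sub_sq hT θ h0 h1 hW hx l hl
  rw [kf_dd_msg hT θ h0 h1 hW hx hy h l hl true, kf_dd_msg hT θ h0 h1 hW hx hy h l hl false] at e2
  have hb : bm G θ W l y x ^ 2 < 1 := kf_abs_mn_lt hT θ h0 h1 hWB hyB l hl
  set b := bm G θ W l y x with hbdef
  have hb1 : 1 - b ^ 2 ≠ 0 := by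
    have : 0 < 1 - b ^ 2 := by linarith
    exact this.ne'
  have hθb : 0 < 1 - θ ^ 2 * b ^ 2 := by
    have : θ ^ 2 < 1 := by nlinarith
    nlinarith [sq_nonneg b, sq_nonneg θ]
  unfold psi
  simp only [sg] at e2
  simp at e2
  have e3 : (1 - mn (ip G θ W) W l x ^ 2) * pt (ip G θ W) W l ^ 2 =
      dd G θ (sd G W x y) l x true * dd G θ (sd G W x y) l x false *
        pt (ip G θ (sd G W y x)) (sd G W y x) l ^ 2 * (1 - θ ^ 2 * b ^ 2) := by
    rw [e2]; ring
  have hp2 : pt (ip G θ W) W l ^ 2 ≠ 0 := by positivity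
  apply mul_right_cancel₀ hp2
  rw [e1]
  have e4 : (1 - mn (ip G θ W) W l x ^ 2) * (θ * ((1 - b ^ 2) / (1 - θ ^ 2 * b ^ 2))) *
      (cv (ip G θ (sd G W y x)) (sd G W y x) l y u / (1 - b ^ 2)) * pt (ip G θ W) W l ^ 2 =
      ((1 - mn (ip G θ W) W l x ^ 2) * pt (ip G θ W) W l ^ 2) * (θ / (1 - θ ^ 2 * b ^ 2)) *
        cv (ip G θ (sd G W y x)) (sd G W y x) l y u := by
    field_simp
  rw [e4, e3]
  field_simp

theorem kf_cv_self (hT : G.IsTree) (θ : ℝ) (h0 : 0 ≤ θ) (h1 : θ < 1) {W : Finset V} (hW : Win G W)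
    {x : V} (hx : x ∈ W) (l : V → Bool → ℝ) (hl : ∀ v b, 0 < l v b) :
    cv (ip G θ W) W l x x = 1 - mn (ip G θ W) W l x ^ 2 :=
  cv_self (isMass_ip hT θ h0 h1.le hW) l hl x

/-- nested sides along a geodesic -/
theorem kf_sd_subset (hT : G.IsTree) (W : Finset V) (x : ℕ → V) (n : ℕ) (hx : Geo G x n) :
    ∀ i, i + 1 ≤ n → sd G W (x (i + 1)) (x i) ⊆ sd G W (x 1) (x 0) := by
  intro i
  induction i with
  | zero => intro _; exact le_refl _
  | succ i ih =>
    intro hi
    have a1 : G.Adj (x i) (x (i + 1)) := geo_adj hx i (by omega)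
    have a2 : G.Adj (x (i + 1)) (x (i + 2)) := geo_adj hx (i + 1) (by omega)
    have hne : x (i + 2) ≠ x i := by
      intro h
      have := hx i (i + 2) (by omega) (by omega)
      rw [h, SimpleGraph.dist_self] at this
      omega
    have := sd_sd hT W a1 a2 hne
    have h2 : sd G W (x (i + 2)) (x (i + 1)) ⊆ sd G W (x (i + 1)) (x i) := by
      rw [← this]
      unfold sd
      exact Finset.filter_subset _ _
    exact h2.trans (ih (by omega))

theorem kf_sd_sd (hT : G.IsTree) (W : Finset V) (x : ℕ → V) (n : ℕ) (hx : Geo G x n) (i : ℕ)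
    (hi : i + 1 ≤ n) : sd G (sd G W (x 1) (x 0)) (x (i + 1)) (x i) = sd G W (x (i + 1)) (x i) := by
  apply Finset.Subset.antisymm
  · intro w hw
    unfold sd at hw ⊢
    simp only [Finset.mem_filter] at hw ⊢
    exact ⟨hw.1.1, hw.2⟩
  · intro w hw
    have h2 := kf_sd_subset hT W x n hx i hi hw
    unfold sd at hw h2 ⊢
    simp only [Finset.mem_filter] at hw h2 ⊢
    exact ⟨h2, hw.2⟩

/-- the path formula -/
theorem cv_path (hT : G.IsTree) (θ : ℝ) (h0 : 0 ≤ θ) (h1 : θ < 1) {W : Finset V} (hW : Win G W)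
    (x : ℕ → V) (n : ℕ) (hx : Geo G x n) (hxW : ∀ i ≤ n, x i ∈ W)
    (l : V → Bool → ℝ) (hl : ∀ v b, 0 < l v b) :
    cv (ip G θ W) W l (x 0) (x n) = (1 - mn (ip G θ W) W l (x 0) ^ 2) *
      ∏ i ∈ Finset.range n, (θ * psi θ (bm G θ W l (x (i + 1)) (x i))) := by
  induction n generalizing W x with
  | zero =>
    simp only [Finset.range_zero, Finset.prod_empty, mul_one]
    exact kf_cv_self hT θ h0 h1 hW (hxW 0 le_rfl) l hl
  | succ n ih =>
    have hadj : G.Adj (x 0) (x 1) := geo_adj hx 0 (by omega)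
    have hx0 : x 0 ∈ W := hxW 0 (by omega)
    have hx1 : x 1 ∈ W := hxW 1 (by omega)
    have hmem : ∀ i, i ≤ n → x (i + 1) ∈ sd G W (x 1) (x 0) := by
      intro i hi
      unfold sd
      rw [Finset.mem_filter]
      refine ⟨hxW (i + 1) (by omega), ?_⟩
      have d1 := hx 1 (i + 1) (by omega) (by omega)
      have d0 := hx 0 (i + 1) (by omega) (by omega)
      rw [SimpleGraph.dist_comm, d1, SimpleGraph.dist_comm, d0]
      omega
    have hWB : Win G (sd G W (x 1) (x 0)) := win_sd hT hW hx1 hadj.symm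
    have hgeo : Geo G (fun i => x (i + 1)) n := by
      intro i j hij hjn
      have := hx (i + 1) (j + 1) (by omega) (by omega)
      simp only
      rw [this]; omega
    have key := ih (W := sd G W (x 1) (x 0)) hWB (fun i => x (i + 1)) hgeo (fun i hi => hmem i hi)
    rw [cv_slope hT θ h0 h1 hW hx0 hx1 hadj (hmem n le_rfl) l hl]
    simp only [zero_add] at key
    rw [key]
    have hb : bm G θ W l (x 1) (x 0) ^ 2 < 1 :=
      kf_abs_mn_lt hT θ h0 h1 hWB (mem_sd_self hx1 hadj.symm) l hl
    have hb' : mn (ip G θ (sd G W (x 1) (x 0))) (sd G W (x 1) (x 0)) l (x 1) = bm G θ W l (x 1) (x 0) := rfl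
    rw [hb', Finset.prod_range_succ']
    have hprod : ∏ i ∈ Finset.range n, (θ * psi θ (bm G θ (sd G W (x 1) (x 0)) l (x (i + 1 + 1)) (x (i + 1)))) =
        ∏ i ∈ Finset.range n, (θ * psi θ (bm G θ W l (x (i + 1 + 1)) (x (i + 1)))) := by
      apply Finset.prod_congr rfl
      intro i hi
      rw [Finset.mem_range] at hi
      unfold bm
      rw [kf_sd_sd hT W x (n + 1) hx (i + 1) (by omega)]
    rw [hprod]
    have : (1 - bm G θ W l (x 1) (x 0) ^ 2) ≠ 0 := by
      have : 0 < (1 - bm G θ W l (x 1) (x 0) ^ 2) := by linarith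
      exact this.ne'
    field_simp

/-- full mean from the two cavity messages of an edge -/
theorem mn_pair (hT : G.IsTree) (θ : ℝ) (h0 : 0 ≤ θ) (h1 : θ < 1) {W : Finset V} (hW : Win G W)
    {x y : V} (hx : x ∈ W) (hy : y ∈ W) (h : G.Adj x y) (l : V → Bool → ℝ) (hl : ∀ v b, 0 < l v b) :
    mn (ip G θ W) W l x = (bm G θ W l x y + θ * bm G θ W l y x) /
      (1 + θ * (bm G θ W l x y * bm G θ W l y x)) := by
  have hWA : Win G (sd G W x y) := win_sd hT hW hx h
  have hWB : Win G (sd G W y x) := win_sd hT hW hy h.symm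
  have hxA : x ∈ sd G W x y := mem_sd_self hx h
  have hyB : y ∈ sd G W y x := mem_sd_self hy h.symm
  have p2 : 0 < pt (ip G θ (sd G W y x)) (sd G W y x) l := pt_pos (isMass_ip hT θ h0 h1.le hWB) l hl
  have q1 := dd_pos hT θ h0 h1 hWA l hl x hxA true
  have q2 := dd_pos hT θ h0 h1 hWA l hl x hxA false
  have r1 := dd_pos hT θ h0 h1 hW l hl x hx true
  have r2 := dd_pos hT θ h0 h1 hW l hl x hx false
  have ha : bm G θ W l x y = (dd G θ (sd G W x y) l x true - dd G θ (sd G W x y) l x false) /
      (dd G θ (sd G W x y) l x true + dd G θ (sd G W x y) l x false) := by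
    unfold bm; rw [mn_eq_dd]
  have e1 := kf_dd_msg hT θ h0 h1 hW hx hy h l hl true
  have e2 := kf_dd_msg hT θ h0 h1 hW hx hy h l hl false
  have hb2 : bm G θ W l y x ^ 2 < 1 := kf_abs_mn_lt hT θ h0 h1 hWB hyB l hl
  have ha2 : bm G θ W l x y ^ 2 < 1 := kf_abs_mn_lt hT θ h0 h1 hWA hxA l hl
  have hden : 0 < 1 + θ * (bm G θ W l x y * bm G θ W l y x) := by
    have h3 : |bm G θ W l x y| < 1 := (sq_lt_one_iff_abs_lt_one _).1 ha2
    have h4 : |bm G θ W l y x| < 1 := (sq_lt_one_iff_abs_lt_one _).1 hb2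
    have h5 : |bm G θ W l x y * bm G θ W l y x| ≤ 1 := by
      rw [abs_mul]
      nlinarith [abs_nonneg (bm G θ W l x y), abs_nonneg (bm G θ W l y x)]
    have h6 := (abs_le.1 h5).1
    nlinarith
  rw [mn_eq_dd]
  set b := bm G θ W l y x
  set a := bm G θ W l x y
  set P := pt (ip G θ (sd G W y x)) (sd G W y x) l
  set D1 := dd G θ (sd G W x y) l x true
  set D2 := dd G θ (sd G W x y) l x false
  have hs : D1 + D2 ≠ 0 := by positivity
  have hs2 : dd G θ W l x true + dd G θ W l x false ≠ 0 := by positivity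
  rw [div_eq_div_iff hs2 hden.ne', e1, e2]
  simp only [sg]
  have ha' : a * (D1 + D2) = D1 - D2 := by
    rw [ha]; field_simp
  simp
  linear_combination (-P * (1 - θ ^ 2 * b ^ 2)) * ha'

theorem kf_ratio [G.LocallyFinite] (hT : G.IsTree) (θ θ1 H : ℝ) (h0 : 0 ≤ θ) (hθ : θ ≤ θ1) (h1 : θ1 < 1)
    (x : V) (l : V → Bool → ℝ) (hl1 : ∀ v b, Real.exp (-H) ≤ l v b) (hl2 : ∀ v b, l v b ≤ Real.exp H)
    (n : ℕ) : ∀ (W : Finset V), Win G W → x ∈ W → (W.filter (fun w => w ∈ G.neighborFinset x)).card ≤ n →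
      ∀ c : Bool, dd G θ W l x c ≤ Real.exp (2 * H) * ((1 + θ1) / (1 - θ1)) ^ n * dd G θ W l x (!c) := by
  have hl : ∀ v b, 0 < l v b := fun v b => lt_of_lt_of_le (Real.exp_pos _) (hl1 v b)
  have hlt : θ < 1 := lt_of_le_of_lt hθ h1
  have hK : 1 ≤ (1 + θ1) / (1 - θ1) := by
    rw [le_div_iff₀ (by linarith)]; linarith
  induction n with
  | zero =>
    intro W hW hx hc c
    -- W = {x}
    have hWx : W = {x} := by
      apply Finset.Subset.antisymm
      · intro w hw
        rw [Finset.mem_singleton]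
        by_contra hne
        obtain ⟨g, hg0, hgn, hg⟩ := geo_exists hT x w
        have hd : 0 < G.dist x w := by
          rw [Nat.pos_iff_ne_zero]
          intro h
          have := (hT.1.dist_eq_zero_iff).1 h
          exact hne this.symm
        have hin := win_geo hT hW hg (by rw [hg0]; exact hx) (by rw [hgn]; exact hw) 1 hd
        have hadj := geo_adj hg 0 hd
        rw [hg0] at hadj
        have : g 1 ∈ W.filter (fun w => w ∈ G.neighborFinset x) := by
          rw [Finset.mem_filter]
          exact ⟨hin, by simpa using hadj⟩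
        have h3 : 0 < (W.filter (fun w => w ∈ G.neighborFinset x)).card := Finset.card_pos.2 ⟨_, this⟩
        omega
      · intro w hw
        rw [Finset.mem_singleton] at hw
        rw [hw]; exact hx
    rw [hWx, dd_singleton, dd_singleton]
    simp only [pow_zero, mul_one]
    calc l x c ≤ Real.exp H := hl2 x c
      _ = Real.exp (2 * H) * Real.exp (-H) := by rw [← Real.exp_add]; ring_nf
      _ ≤ Real.exp (2 * H) * l x (!c) := by
        apply mul_le_mul_of_nonneg_left (hl1 x _) (Real.exp_pos _).le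
  | succ n ih =>
    intro W hW hx hc c
    by_cases hne : (W.filter (fun w => w ∈ G.neighborFinset x)).card ≤ n
    · have := ih W hW hx hne c
      refine this.trans ?_
      have hpos := dd_pos hT θ h0 hlt hW l hl x hx (!c)
      apply mul_le_mul_of_nonneg_right _ hpos.le
      apply mul_le_mul_of_nonneg_left _ (Real.exp_pos _).le
      exact pow_le_pow_right₀ hK (Nat.le_succ n)
    · have hpos : 0 < (W.filter (fun w => w ∈ G.neighborFinset x)).card := by omega
      obtain ⟨y, hy⟩ := Finset.card_pos.1 hpos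
      rw [Finset.mem_filter] at hy
      obtain ⟨hyW, hyN⟩ := hy
      have hadj : G.Adj x y := by simpa using hyN
      have hWA : Win G (sd G W x y) := win_sd hT hW hx hadj
      have hxA : x ∈ sd G W x y := mem_sd_self hx hadj
      have hWB : Win G (sd G W y x) := win_sd hT hW hyW hadj.symm
      have hyB : y ∈ sd G W y x := mem_sd_self hyW hadj.symm
      have hyA : y ∉ sd G W x y := fun h' => Finset.disjoint_left.1 (sd_disjoint W x y) h' hyB
      have hcard : ((sd G W x y).filter (fun w => w ∈ G.neighborFinset x)).card ≤ n := by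
        have hss : (sd G W x y).filter (fun w => w ∈ G.neighborFinset x) ⊂
            W.filter (fun w => w ∈ G.neighborFinset x) := by
          rw [Finset.ssubset_iff_of_subset]
          · refine ⟨y, ?_, ?_⟩
            · rw [Finset.mem_filter]; exact ⟨hyW, hyN⟩
            · rw [Finset.mem_filter]
              intro h'; exact hyA h'.1
          · apply Finset.filter_subset_filter
            unfold sd
            exact Finset.filter_subset _ _
        have := Finset.card_lt_card hss
        omega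
      have key := ih (sd G W x y) hWA hxA hcard c
      have e1 := kf_dd_msg hT θ h0 hlt hW hx hyW hadj l hl c
      have e2 := kf_dd_msg hT θ h0 hlt hW hx hyW hadj l hl (!c)
      rw [e1, e2]
      have p2 : 0 < pt (ip G θ (sd G W y x)) (sd G W y x) l := pt_pos (isMass_ip hT θ h0 hlt.le hWB) l hl
      have hb2 : bm G θ W l y x ^ 2 < 1 := kf_abs_mn_lt hT θ h0 hlt hWB hyB l hl
      set b := bm G θ W l y x
      have hb : |b| < 1 := (sq_lt_one_iff_abs_lt_one _).1 hb2
      have hb' := abs_lt.1 hb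
      have hsg : sg (!c) = - sg c := by cases c <;> simp [sg]
      have hsg2 : sg c = 1 ∨ sg c = -1 := by cases c <;> simp [sg]
      rw [hsg]
      have hratio : 1 + θ * sg c * b ≤ (1 + θ1) / (1 - θ1) * (1 + θ * -sg c * b) := by
        have h3 : 0 < 1 - θ1 := by linarith
        rw [div_mul_eq_mul_div, le_div_iff₀ h3]
        rcases hsg2 with h4 | h4 <;> rw [h4]
        · nlinarith [mul_nonneg h0 (sub_nonneg.2 hθ), mul_nonneg h0 (by linarith : (0:ℝ) ≤ 1 - b), mul_nonneg h0 (by linarith : (0:ℝ) ≤ 1 + b)]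
        · nlinarith [mul_nonneg h0 (sub_nonneg.2 hθ), mul_nonneg h0 (by linarith : (0:ℝ) ≤ 1 - b), mul_nonneg h0 (by linarith : (0:ℝ) ≤ 1 + b)]
      have hp1 : 0 < 1 + θ * sg c * b := by
        rcases hsg2 with h4 | h4 <;> rw [h4] <;> nlinarith
      have hp3 : 0 < 1 + θ * -sg c * b := by
        rcases hsg2 with h4 | h4 <;> rw [h4] <;> nlinarith
      have hd2 := dd_pos hT θ h0 hlt hWA l hl x hxA (!c)
      have hd1 := dd_pos hT θ h0 hlt hWA l hl x hxA c
      calc dd G θ (sd G W x y) l x c * pt (ip G θ (sd G W y x)) (sd G W y x) l * (1 + θ * sg c * b)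
          ≤ (Real.exp (2 * H) * ((1 + θ1) / (1 - θ1)) ^ n * dd G θ (sd G W x y) l x (!c)) *
              pt (ip G θ (sd G W y x)) (sd G W y x) l * ((1 + θ1) / (1 - θ1) * (1 + θ * -sg c * b)) := by
            apply mul_le_mul _ hratio hp1.le
            · positivity
            · exact mul_le_mul_of_nonneg_right key p2.le
        _ = _ := by ring

/-- uniform bound on the means -/
theorem mn_bound [G.LocallyFinite] (hT : G.IsTree) (d : ℕ) (hreg : G.IsRegularOfDegree d) (θ1 H : ℝ) (h1 : θ1 < 1) :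
    ∃ κ : ℝ, 0 < κ ∧ κ < 1 ∧ ∀ (θ : ℝ) (W : Finset V) (l : V → Bool → ℝ) (x : V), 0 ≤ θ → θ ≤ θ1 →
      Win G W → x ∈ W → (∀ v b, Real.exp (-H) ≤ l v b) → (∀ v b, l v b ≤ Real.exp H) →
      |mn (ip G θ W) W l x| ≤ κ := by
  by_cases hneg : θ1 < 0
  · exact ⟨1 / 2, by norm_num, by norm_num, fun θ W l x h0 hθ => by linarith⟩
  · have hK : 0 < (1 + θ1) / (1 - θ1) := div_pos (by linarith) (by linarith)
    set C : ℝ := 1 + Real.exp (2 * H) * ((1 + θ1) / (1 - θ1)) ^ d with hC
    have hC1 : 1 < C := by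
      have : 0 < Real.exp (2 * H) * ((1 + θ1) / (1 - θ1)) ^ d := by positivity
      linarith
    refine ⟨(C - 1) / (C + 1), div_pos (by linarith) (by linarith), ?_, ?_⟩
    · rw [div_lt_one (by linarith)]; linarith
    · intro θ W l x h0 hθ hW hx hl1 hl2
      have hlt : θ < 1 := lt_of_le_of_lt hθ h1
      have hl : ∀ v b, 0 < l v b := fun v b => lt_of_lt_of_le (Real.exp_pos _) (hl1 v b)
      have hcard : (W.filter (fun w => w ∈ G.neighborFinset x)).card ≤ d := by
        calc (W.filter (fun w => w ∈ G.neighborFinset x)).card ≤ (G.neighborFinset x).card := by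
              apply Finset.card_le_card
              intro w hw
              exact (Finset.mem_filter.1 hw).2
          _ = d := hreg x
      have k1 := kf_ratio hT θ θ1 H h0 hθ h1 x l hl1 hl2 d W hW hx hcard true
      have k2 := kf_ratio hT θ θ1 H h0 hθ h1 x l hl1 hl2 d W hW hx hcard false
      have q1 := dd_pos hT θ h0 hlt hW l hl x hx true
      have q2 := dd_pos hT θ h0 hlt hW l hl x hx false
      simp only [Bool.not_true, Bool.not_false] at k1 k2
      rw [mn_eq_dd, abs_div, abs_of_pos (add_pos q1 q2), div_le_div_iff₀ (add_pos q1 q2) (by linarith)]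
      have hE : Real.exp (2 * H) * ((1 + θ1) / (1 - θ1)) ^ d = C - 1 := by rw [hC]; ring
      rw [hE] at k1 k2
      rcases abs_cases (dd G θ W l x true - dd G θ W l x false) with ⟨h3, _⟩ | ⟨h3, _⟩
      · rw [h3]; nlinarith
      · rw [h3]; nlinarith

end KF

end Crest.Agent.TI
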