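import Crest.Agent.TI_LimB

/-!
Row S0241, task Law: decoding the spins
-/

set_option autoImplicit false
set_option linter.unusedSectionVars false
set_option linter.unusedVariables false

namespace Crest.Agent.TI

open MeasureTheory Filter Topology
open Crest.Agent.SRF (Lab lab)


section LAW

variable {V : Type*} [DecidableEq V]

open Classical in
/-- decoder: sign of the weighted average of the observations -/
noncomputable def dcd (y : ℕ → unitInterval × unitInterval) : Bool :=
  decide (0 < limsup (fun n : ℕ => (∑ k ∈ Finset.range n, eps (y k).1 * (((y k).2 : ℝ) - 1 / 2)) / n) atTop)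

theorem measurable_dcd : Measurable dcd := by
  refine measurable_to_bool ?_
  have hm : Measurable (fun y : ℕ → unitInterval × unitInterval =>
      limsup (fun n : ℕ => (∑ k ∈ Finset.range n, eps (y k).1 * (((y k).2 : ℝ) - 1 / 2)) / n) atTop) := by
    refine Measurable.limsup fun n => ?_
    refine Measurable.div_const (Finset.measurable_sum _ fun k _ => ?_) _
    have h1 : Measurable (fun y : ℕ → unitInterval × unitInterval => eps (y k).1) :=
      measurable_eps.comp (measurable_fst.comp (measurable_pi_apply k))
    have h2 : Measurable (fun y : ℕ → unitInterval × unitInterval => (((y k).2 : unitInterval) : ℝ)) :=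
      measurable_subtype_coe.comp (measurable_snd.comp (measurable_pi_apply k))
    exact h1.mul (h2.sub_const _)
  have hset : dcd ⁻¹' {true} = {y | 0 < limsup (fun n : ℕ => (∑ k ∈ Finset.range n,
      eps (y k).1 * (((y k).2 : ℝ) - 1 / 2)) / n) atTop} := by
    ext y
    simp [dcd]
  rw [hset]
  exact measurableSet_lt measurable_const hm

/-- the observation as a function of time and uniform -/
noncomputable def phi (s : ℝ) (q : unitInterval × unitInterval) : ℝ :=
  eps q.1 * ((Qs (s * eps q.1) q.2 : ℝ) - 1 / 2)

theorem measurable_phi (s : ℝ) : Measurable (phi s) := by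
  unfold phi
  have h1 : Measurable (fun q : unitInterval × unitInterval => eps q.1) :=
    measurable_eps.comp measurable_fst
  have h2 : Measurable (fun q : unitInterval × unitInterval => Qs (s * eps q.1) q.2) :=
    measurable_Qs.comp ((measurable_const.mul h1).prodMk measurable_snd)
  exact h1.mul ((measurable_subtype_coe.comp h2).sub_const _)

theorem abs_phi_le (s : ℝ) (q : unitInterval × unitInterval) : |phi s q| ≤ 1 := by
  unfold phi
  rw [abs_mul]
  have h1 : |eps q.1| ≤ 1 / 2 := by
    rw [abs_of_nonneg (eps_nonneg _)]; exact (eps_le _).2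
  have h2 : |((Qs (s * eps q.1) q.2 : unitInterval) : ℝ) - 1 / 2| ≤ 1 := by
    have h3 := (Qs (s * eps q.1) q.2).2
    rw [abs_le]
    constructor <;> linarith [h3.1, h3.2]
  have h4 := abs_nonneg (eps q.1)
  have h5 := abs_nonneg (((Qs (s * eps q.1) q.2 : unitInterval) : ℝ) - 1 / 2)
  nlinarith

theorem int_unit (f : ℝ → ℝ) :
    ∫ u : unitInterval, f u = ∫ x in (0:ℝ)..1, f x := by
  rw [intervalIntegral.integral_of_le zero_le_one, ← integral_Icc_eq_integral_Ioc]
  rw [unitInterval.volume_def]
  exact integral_subtype_comap measurableSet_Icc f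

theorem integral_sub_half_sq : ∫ z : unitInterval, ((z : ℝ) - 1 / 2) ^ 2 = 1 / 12 := by
  rw [int_unit (fun x => (x - 1 / 2) ^ 2)]
  rw [intervalIntegral.integral_comp_sub_right (fun x => x ^ 2) (1 / 2 : ℝ), integral_pow]
  norm_num

theorem integral_sub_half : ∫ z : unitInterval, ((z : ℝ) - 1 / 2) = 0 := by
  rw [int_unit (fun x => (x - 1 / 2))]
  rw [intervalIntegral.integral_comp_sub_right (fun x => x) (1 / 2 : ℝ), integral_id]
  norm_num

theorem integral_phi_snd (s : ℝ) (hs : |s| ≤ 1) (u : unitInterval) :
    ∫ l : unitInterval, phi s (u, l) = s * eps u ^ 2 / 12 := by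
  have h0 := eps_nonneg u
  have h1 := (eps_le u).2
  have hs' := abs_le.1 hs
  have habs : |s * eps u| ≤ 1 := by
    rw [abs_mul, abs_of_nonneg h0]
    nlinarith [abs_nonneg s]
  have hm := abs_le.1 habs
  unfold phi
  simp only
  rw [integral_const_mul]
  have hmeas : Measurable (fun z : unitInterval => (z : ℝ) - 1 / 2) :=
    measurable_subtype_coe.sub_const _
  have hb : ∀ z : unitInterval, |(z : ℝ) - 1 / 2| ≤ 1 := fun z => by
    rw [abs_le]; constructor <;> linarith [z.2.1, z.2.2]
  rw [integral_Qs (s * eps u) hm.1 hm.2 (fun z => (z : ℝ) - 1 / 2) hmeas 1 hb]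
  have e : ∀ z : unitInterval, ((z : ℝ) - 1 / 2) * (1 + s * eps u * ((z : ℝ) - 1 / 2)) =
      ((z : ℝ) - 1 / 2) + s * eps u * ((z : ℝ) - 1 / 2) ^ 2 := fun z => by ring
  simp_rw [e]
  rw [integral_add, integral_const_mul, integral_sub_half_sq, integral_sub_half]
  · ring
  · refine Integrable.of_bound hmeas.aestronglyMeasurable 1 (Eventually.of_forall fun z => ?_)
    exact hb z
  · refine Integrable.of_bound ((hmeas.pow_const 2).const_mul _).aestronglyMeasurable 1
      (Eventually.of_forall fun z => ?_)
    rw [Real.norm_eq_abs, abs_mul, abs_pow]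
    have h2 := hb z
    have h3 : |(z : ℝ) - 1 / 2| ^ 2 ≤ 1 := by
      nlinarith [abs_nonneg ((z : ℝ) - 1 / 2)]
    calc |s * eps u| * |(z : ℝ) - 1 / 2| ^ 2 ≤ 1 * 1 :=
          mul_le_mul habs h3 (by positivity) (by norm_num)
      _ = 1 := by norm_num

theorem integral_eps_sq : ∫ u : unitInterval, eps u ^ 2 = 1 / 24 := by
  have e : ∀ u : unitInterval, eps u ^ 2 =
      (fun x : ℝ => (Set.Iio (1 / 2 : ℝ)).indicator (fun x => x ^ 2) x) u := by
    intro u
    unfold eps
    by_cases h : (u : ℝ) < 1 / 2
    · rw [if_pos h]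
      simp only
      rw [Set.indicator_of_mem (Set.mem_Iio.2 h)]
    · rw [if_neg h]
      simp only
      rw [Set.indicator_of_notMem (by simpa using h)]
      norm_num
  simp_rw [e]
  rw [int_unit]
  rw [intervalIntegral.integral_of_le zero_le_one, setIntegral_indicator measurableSet_Iio]
  have hset : Set.Ioc (0:ℝ) 1 ∩ Set.Iio (1 / 2) = Set.Ioo 0 (1 / 2) := by
    ext x
    simp only [Set.mem_inter_iff, Set.mem_Ioc, Set.mem_Iio, Set.mem_Ioo]
    constructor
    · rintro ⟨⟨h1, h2⟩, h3⟩; exact ⟨h1, h3⟩
    · rintro ⟨h1, h3⟩; exact ⟨⟨h1, by linarith⟩, h3⟩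
  rw [hset, ← integral_Ioc_eq_integral_Ioo, ← intervalIntegral.integral_of_le (by norm_num),
    integral_pow]
  norm_num

theorem integral_phi (s : ℝ) (hs : |s| ≤ 1) :
    ∫ q, phi s q ∂((volume : Measure unitInterval).prod (volume : Measure unitInterval)) = s / 288 := by
  rw [integral_prod]
  · simp_rw [integral_phi_snd s hs]
    have e : ∀ u : unitInterval, s * eps u ^ 2 / 12 = (s / 12) * eps u ^ 2 := fun u => by ring
    simp_rw [e]
    rw [integral_const_mul, integral_eps_sq]
    ring
  · refine Integrable.of_bound (measurable_phi s).aestronglyMeasurable 1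
      (Eventually.of_forall fun q => abs_phi_le s q)

/-- law of large numbers for the observations -/
theorem slln_phi (v : V) (s : ℝ) (hs : |s| ≤ 1) :
    ∀ᵐ ω ∂PP V, Tendsto (fun n : ℕ => (∑ k ∈ Finset.range n,
      phi s (ω ((v, false), k), ω ((v, true), k))) / n) atTop (𝓝 (s / 288)) := by
  have hind : ProbabilityTheory.iIndepFun (fun (c : (V × Bool) × ℕ) (ω : Om V) => ω c) (PP V) := by
    unfold PP lab
    exact ProbabilityTheory.iIndepFun_infinitePi (X := fun _ u => u) (fun _ => measurable_id)
  have hmap : ∀ k : ℕ, (PP V).map (fun ω => (ω ((v, false), k), ω ((v, true), k))) =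
      (volume : Measure unitInterval).prod (volume : Measure unitInterval) := by
    intro k
    have hne : (((v, false), k) : (V × Bool) × ℕ) ≠ ((v, true), k) := by simp
    exact MeasureTheory.Measure.infinitePi_map_eval_prod
      (P := fun _ : (V × Bool) × ℕ => (volume : Measure unitInterval)) hne
  have hpm : ∀ k : ℕ, Measurable (fun ω : Om V => (ω ((v, false), k), ω ((v, true), k))) := fun k =>
    (measurable_pi_apply _).prodMk (measurable_pi_apply _)
  set X : ℕ → Om V → ℝ := fun k ω => phi s (ω ((v, false), k), ω ((v, true), k)) with hX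
  have hXm : ∀ k, Measurable (X k) := fun k => (measurable_phi s).comp (hpm k)
  have hlaw : ∀ k, (PP V).map (X k) =
      ((volume : Measure unitInterval).prod (volume : Measure unitInterval)).map (phi s) := by
    intro k
    rw [← hmap k, Measure.map_map (measurable_phi s) (hpm k)]
    rfl
  have hint : Integrable (X 0) (PP V) :=
    Integrable.of_bound (hXm 0).aestronglyMeasurable 1 (Eventually.of_forall fun ω => abs_phi_le s _)
  have hexp : ∫ ω, X 0 ω ∂PP V = s / 288 := by
    rw [← integral_phi s hs, ← hmap 0,
      integral_map (hpm 0).aemeasurable (measurable_phi s).aestronglyMeasurable]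
  rw [← hexp]
  refine ProbabilityTheory.strong_law_ae_real X hint ?_ ?_
  · intro i j hij
    have h := hind.indepFun_prodMk_prodMk (fun c => measurable_pi_apply c)
      ((v, false), i) ((v, true), i) ((v, false), j) ((v, true), j)
      (by simp [hij]) (by simp) (by simp) (by simp [hij])
    exact h.comp (measurable_phi s) (measurable_phi s)
  · intro i
    exact ⟨(hXm i).aemeasurable, (hXm 0).aemeasurable, by rw [hlaw i, hlaw 0]⟩

/-- the decoder finds the planted spins -/
theorem dcd_TS (F S : Finset V) (v : V) (hv : v ∈ F) :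
    ∀ᵐ ω ∂PP V, dcd (fun k => (TS F S ω ((v, false), k), TS F S ω ((v, true), k))) = decide (v ∈ S) := by
  have hs : |spin S v| ≤ 1 := by
    unfold spin; split_ifs <;> simp
  filter_upwards [slln_phi v (spin S v) hs] with ω hω
  have e1 : ∀ k, TS F S ω ((v, false), k) = ω ((v, false), k) := fun k => by
    unfold TS; simp
  have e2 : ∀ k, TS F S ω ((v, true), k) =
      Qs (spin S v * eps (ω ((v, false), k))) (ω ((v, true), k)) := fun k => by
    unfold TS; simp [hv]
  have e3 : limsup (fun n : ℕ => (∑ k ∈ Finset.range n,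
      eps (TS F S ω ((v, false), k)) * (((TS F S ω ((v, true), k) : unitInterval) : ℝ) - 1 / 2)) / n) atTop =
      spin S v / 288 := by
    simp_rw [e1, e2]
    exact hω.limsup_eq
  unfold dcd
  simp only
  rw [e3]
  unfold spin
  by_cases h : v ∈ S
  · simp [h]
  · simp only [h, if_false, decide_false]
    rw [decide_eq_false_iff_not]
    norm_num

variable {G : SimpleGraph V} [G.LocallyFinite]

theorem measurable_obI (θs : ℕ → ℝ) (ns : ℕ → ℕ) (F : Finset V) : Measurable (obI G θs ns F) := by
  refine measurable_pi_lambda _ fun c => ?_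
  unfold obI
  by_cases h : c.1.2 = true
  · simp only [h, if_true]
    exact measurable_zI θs ns _ _
  · simp only [h]
    exact measurable_pi_apply _

/-- law of the decoded spins -/
theorem law_dcd [Countable V] (hT : G.IsTree) (b : ℕ) (hb : 2 ≤ b) (hreg : G.IsRegularOfDegree (b + 1))
    (θ : ℝ) (h0 : 0 ≤ θ) (h1 : b * θ ^ 2 ≤ 1) (θs : ℕ → ℝ) (ns : ℕ → ℕ)
    (hlaw : ∀ F : Finset V, Win G F → (PP V).map (obI G θs ns F) =
      ∑ S ∈ F.powerset, ENNReal.ofReal (ip G θ F S) •
        (PP V).map (fun ω => fun c : (F × Bool) × ℕ => TS F S ω (((c.1.1 : V), c.1.2), c.2)))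
    (F : Finset V) (hF : Win G F) (S : Finset V) (hS : S ⊆ F) :
    PP V {ω | ∀ v ∈ F, dcd (fun k => (ω ((v, false), k), zI G θs ns v k ω)) = decide (v ∈ S)} =
      ENNReal.ofReal (ip G θ F S) := by
  have : IsProbabilityMeasure (PP V) := by
    unfold PP lab; infer_instance
  set A : Set ((F × Bool) × ℕ → unitInterval) :=
    {y | ∀ v : F, dcd (fun k => (y ((v, false), k), y ((v, true), k))) = decide ((v : V) ∈ S)} with hA
  have hAm : MeasurableSet A := by
    have : A = ⋂ v : F, {y | dcd (fun k => (y ((v, false), k), y ((v, true), k))) =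
        decide ((v : V) ∈ S)} := by
      ext y; simp [hA]
    rw [this]
    refine MeasurableSet.iInter fun v => ?_
    have hm : Measurable (fun y : (F × Bool) × ℕ → unitInterval =>
        dcd (fun k => (y ((v, false), k), y ((v, true), k)))) := by
      refine measurable_dcd.comp (measurable_pi_lambda _ fun k => ?_)
      exact (measurable_pi_apply _).prodMk (measurable_pi_apply _)
    exact hm (measurableSet_singleton _)
  have hpre : {ω : Om V | ∀ v ∈ F, dcd (fun k => (ω ((v, false), k), zI G θs ns v k ω)) =
      decide (v ∈ S)} = (obI G θs ns F) ⁻¹' A := by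
    ext ω
    simp only [Set.mem_ofPred_eq, Set.mem_preimage, hA, obI]
    constructor
    · intro h v
      simpa using h v v.2
    · intro h v hv
      simpa using h ⟨v, hv⟩
  rw [hpre, ← Measure.map_apply (measurable_obI θs ns F) hAm, hlaw F hF]
  rw [Measure.coe_finsetSum, Finset.sum_apply]
  have hmT : ∀ S' : Finset V, Measurable
      (fun ω : Om V => fun c : (F × Bool) × ℕ => TS F S' ω (((c.1.1 : V), c.1.2), c.2)) := fun S' =>
    measurable_pi_lambda _ fun c =>
      (measurable_pi_apply (((c.1.1 : V), c.1.2), c.2)).comp (measurable_TS F S')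
  have hval : ∀ S' ∈ F.powerset, (ENNReal.ofReal (ip G θ F S') •
      (PP V).map (fun ω => fun c : (F × Bool) × ℕ => TS F S' ω (((c.1.1 : V), c.1.2), c.2))) A =
      if S' = S then ENNReal.ofReal (ip G θ F S') else 0 := by
    intro S' hS'
    rw [Finset.mem_powerset] at hS'
    rw [Measure.smul_apply, smul_eq_mul, Measure.map_apply (hmT S') hAm]
    have hae : ∀ᵐ ω ∂PP V, ∀ v ∈ F,
        dcd (fun k => (TS F S' ω ((v, false), k), TS F S' ω ((v, true), k))) = decide (v ∈ S') := by
      rw [Finset.eventually_all]
      intro v hv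
      exact dcd_TS F S' v hv
    split_ifs with heq
    · subst heq
      have h2 : PP V ((fun ω : Om V => fun c : (F × Bool) × ℕ =>
          TS F S' ω (((c.1.1 : V), c.1.2), c.2)) ⁻¹' A) = PP V Set.univ := by
        refine measure_congr (eventuallyEq_set.2 ?_)
        filter_upwards [hae] with ω hω
        simp only [Set.mem_preimage, hA, Set.mem_ofPred_eq, Set.mem_univ, iff_true]
        intro v
        exact hω v v.2
      rw [h2, measure_univ, mul_one]
    · have h2 : PP V ((fun ω : Om V => fun c : (F × Bool) × ℕ =>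
          TS F S' ω (((c.1.1 : V), c.1.2), c.2)) ⁻¹' A) = PP V ∅ := by
        refine measure_congr (eventuallyEq_set.2 ?_)
        filter_upwards [hae] with ω hω
        simp only [Set.mem_preimage, hA, Set.mem_ofPred_eq, Set.mem_empty_iff_false, iff_false]
        intro hcon
        apply heq
        ext v
        constructor
        · intro hv
          have e1 := hcon ⟨v, hS' hv⟩
          have e2 := hω v (hS' hv)
          simp only at e1
          rw [e2] at e1
          simpa [hv] using e1
        · intro hv
          have e1 := hcon ⟨v, hS hv⟩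
          have e2 := hω v (hS hv)
          simp only at e1
          rw [e2] at e1
          simpa [hv] using e1
      rw [h2, measure_empty, mul_zero]
  rw [Finset.sum_congr rfl hval, Finset.sum_ite_eq' F.powerset S (fun S' => ENNReal.ofReal (ip G θ F S')),
    if_pos (Finset.mem_powerset.2 hS)]

end LAW

end Crest.Agent.TI
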