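import Crest.Agent.TI_Cut
import Crest.Agent.TI_Schb
import Crest.Agent.TI_TRa

/-!
Row S0241, task LimA: law of finitely many observations in a window
-/

set_option autoImplicit false
set_option linter.unusedSectionVars false
set_option linter.unusedVariables false

namespace Crest.Agent.TI

open MeasureTheory Filter Topology
open Crest.Agent.SRF (Lab lab)


section LIM

variable {V : Type*} [DecidableEq V] {G : SimpleGraph V}

/-- planted observations: the uniforms at the vertices of `F` are replaced by observations of the spins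
of the configuration `S` -/
noncomputable def TS (F S : Finset V) (ω : Om V) : Om V := fun c =>
  if c.1.2 ∧ c.1.1 ∈ F then Qs (spin S c.1.1 * eps (ω ((c.1.1, false), c.2))) (ω c) else ω c

theorem measurable_TS (F S : Finset V) : Measurable (TS F S) := by
  refine measurable_pi_lambda _ fun c => ?_
  unfold TS
  by_cases h : c.1.2 = true ∧ c.1.1 ∈ F
  · simp only [if_pos h]
    have h1 : Measurable (fun ω : Om V => spin S c.1.1 * eps (ω ((c.1.1, false), c.2))) :=
      measurable_const.mul (measurable_eps.comp (measurable_pi_apply ((c.1.1, false), c.2)))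
    exact measurable_Qs.comp (h1.prodMk (measurable_pi_apply c))
  · simp only [if_neg h]
    exact measurable_pi_apply c

/-- point mass at the configuration `S` -/
noncomputable def dlt (S S' : Finset V) : ℝ := if S' = S then 1 else 0

theorem isMass_dlt {A S : Finset V} (hS : S ⊆ A) : IsMass (dlt S) A := by
  refine ⟨fun S' _ => ?_, ?_⟩
  · unfold dlt; split_ifs <;> norm_num
  · unfold dlt
    rw [Finset.sum_ite_eq' A.powerset S (fun _ => (1 : ℝ)), if_pos (Finset.mem_powerset.2 hS)]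

theorem sum_dlt {A S : Finset V} (hS : S ⊆ A) (f : Finset V → ℝ) :
    ∑ S' ∈ A.powerset, dlt S S' * f S' = f S := by
  have : ∀ S' ∈ A.powerset, dlt S S' * f S' = if S' = S then f S' else 0 := by
    intro S' _
    unfold dlt; split_ifs <;> simp
  rw [Finset.sum_congr rfl this, Finset.sum_ite_eq' A.powerset S f,
    if_pos (Finset.mem_powerset.2 hS)]

theorem pt_dlt {A S : Finset V} (hS : S ⊆ A) (l : V → Bool → ℝ) : pt (dlt S) A l = lw l A S := by
  unfold pt
  exact sum_dlt hS (fun S' => lw l A S')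

theorem mn_dlt {A S : Finset V} (hS : S ⊆ A) (l : V → Bool → ℝ) (hl : ∀ v b, 0 < l v b) (v : V) :
    mn (dlt S) A l v = spin S v := by
  unfold mn ex
  rw [pt_dlt hS]
  have : ∑ S' ∈ A.powerset, dlt S S' * lw l A S' * spin S' v = lw l A S * spin S v := by
    have h := sum_dlt hS (fun S' => lw l A S' * spin S' v)
    rw [← h]
    exact Finset.sum_congr rfl (fun S' _ => by ring)
  rw [this]
  have := lw_pos l hl A S
  field_simp

theorem TS_eq_Zo {F S : Finset V} (hS : S ⊆ F) (ω : Om V) : TS F S ω = Zo (dlt S) F ω := by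
  funext c
  obtain ⟨⟨v, b⟩, j⟩ := c
  unfold TS Zo
  cases b with
  | false => simp
  | true =>
    simp only [true_and, if_true]
    rw [Zs_fix]
    by_cases hv : v ∈ F
    · rw [if_pos hv, if_pos hv, mn_dlt hS _ (fun v b => lkh_pos _ _ _ _ v b), mul_comm]
      rfl
    · rw [if_neg hv, if_neg hv]
      rfl

/-- integrate against the likelihood of a fixed configuration -/
theorem lintegral_lw {A T : Finset V} (hT : T ⊆ A) (K : ℕ) (g : Om V → ENNReal) (hg : Measurable g)
    (hdep : ∀ ω ω' : Om V, (∀ v j, ω ((v, false), j) = ω' ((v, false), j)) →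
      (∀ v, ∀ j < K, ω ((v, true), j) = ω' ((v, true), j)) → g ω = g ω') :
    ∫⁻ ω, g (TS A T ω) ∂PP V = ∫⁻ ω, g ω * ENNReal.ofReal (lw (raw K 0 ω) A T) ∂PP V := by
  have h := exact (isMass_dlt hT) K 0 g hg (fun ω ω' h1 h2 => hdep ω ω' h1
    (fun v j hj => h2 v j (Or.inl hj)))
  have e1 : ∫⁻ ω, g (TS A T ω) ∂PP V = ∫⁻ ω, g (Zo (dlt T) A ω) ∂PP V :=
    lintegral_congr fun ω => by rw [TS_eq_Zo hT]
  rw [e1, h]
  exact lintegral_congr fun ω => by rw [pt_dlt hT]

theorem measurable_lw_raw (A T : Finset V) (K : ℕ) :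
    Measurable (fun ω : Om V => ENNReal.ofReal (lw (raw K 0 ω) A T)) :=
  ((measurable_lw A T).comp (measurable_raw K 0)).ennreal_ofReal

/-- the raw likelihoods at `v` only depend on the labels at `v` of the stages before `K` -/
theorem raw_congr (K : ℕ) (v : V) (ω ω' : Om V) (h : ∀ c, ∀ j < K, ω ((v, c), j) = ω' ((v, c), j)) :
    raw K 0 ω v = raw K 0 ω' v := by
  funext b
  unfold raw lkh
  have h0 : ∀ U : Lab V, ¬ ((U (v, K) : ℝ) < 0) := fun U => not_lt.2 (U (v, K)).2.1
  rw [if_neg (h0 _), if_neg (h0 _), mul_one, mul_one]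
  refine Finset.prod_congr rfl fun j hj => ?_
  have hj' := Finset.mem_range.1 hj
  unfold tl tU tL
  simp only [h _ j hj']

theorem lw_raw_congr (K : ℕ) (A T : Finset V) (ω ω' : Om V)
    (h : ∀ v ∈ A, ∀ c, ∀ j < K, ω ((v, c), j) = ω' ((v, c), j)) :
    lw (raw K 0 ω) A T = lw (raw K 0 ω') A T :=
  lw_congr A T _ _ (fun v hv => raw_congr K v ω ω' (h v hv))

theorem lw_nonneg_raw (K : ℕ) (A T : Finset V) (ω : Om V) : 0 ≤ lw (raw K 0 ω) A T :=
  (lw_pos _ (fun v b => lkh_pos _ _ _ _ v b) A T).le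

/-- labels outside the support of `g` can be integrated out -/
theorem lintegral_lw_out {A T : Finset V} (hT : T ⊆ A) (K : ℕ) (g : Om V → ENNReal)
    (hg : Measurable g)
    (hdep : ∀ ω ω' : Om V, (∀ v ∉ A, ∀ c, ∀ j < K, ω ((v, c), j) = ω' ((v, c), j)) → g ω = g ω') :
    ∫⁻ ω, g ω * ENNReal.ofReal (lw (raw K 0 ω) A T) ∂PP V = ∫⁻ ω, g ω ∂PP V := by
  rw [← lintegral_lw hT K g hg (fun ω ω' h1 h2 => hdep ω ω' (fun v _ c j hj => by
    cases c with
    | false => exact h1 v j
    | true => exact h2 v j hj))]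
  refine lintegral_congr fun ω => hdep _ _ (fun v hv c j hj => ?_)
  unfold TS
  rw [if_neg]
  rintro ⟨_, h⟩
  exact hv h

/-- law of the observations in `F` up to stage `K` -/
theorem law_window (hT : G.IsTree) (θ : ℝ) (h0 : 0 ≤ θ) (h1 : θ ≤ 1) {F W : Finset V} (hF : Win G F)
    (hW : Win G W) (hFW : F ⊆ W) (K : ℕ) (h : Om V → ENNReal) (hh : Measurable h)
    (hdep : ∀ ω ω' : Om V, (∀ v ∈ F, ∀ c, ∀ j < K, ω ((v, c), j) = ω' ((v, c), j)) → h ω = h ω') :
    ∫⁻ ω, h (Zo (ip G θ W) W ω) ∂PP V =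
      ∑ S ∈ F.powerset, ENNReal.ofReal (ip G θ F S) * ∫⁻ ω, h (TS F S ω) ∂PP V := by
  have hdep' : ∀ ω ω' : Om V, (∀ v j, ω ((v, false), j) = ω' ((v, false), j)) →
      (∀ v, ∀ j < K, ω ((v, true), j) = ω' ((v, true), j)) → h ω = h ω' :=
    fun ω ω' h1 h2 => hdep ω ω' (fun v _ c j hj => by
      cases c with
      | false => exact h1 v j
      | true => exact h2 v j hj)
  have hip0 : ∀ S, 0 ≤ ip G θ W S := fun S => ip_nonneg θ h0 h1 W S
  rw [exact (isMass_ip hT θ h0 h1 hW) K 0 h hh (fun ω ω' a1 a2 => hdep' ω ω' a1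
    (fun v j hj => a2 v j (Or.inl hj)))]
  -- expand the partition function
  have e1 : ∀ ω : Om V, h ω * ENNReal.ofReal (pt (ip G θ W) W (raw K 0 ω)) =
      ∑ S ∈ W.powerset, ENNReal.ofReal (ip G θ W S) *
        (h ω * ENNReal.ofReal (lw (raw K 0 ω) W S)) := by
    intro ω
    unfold pt
    rw [ENNReal.ofReal_sum_of_nonneg (fun S _ => mul_nonneg (hip0 S) (lw_nonneg_raw K W S ω)),
      Finset.mul_sum]
    refine Finset.sum_congr rfl fun S _ => ?_
    rw [ENNReal.ofReal_mul (hip0 S)]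
    ring
  simp_rw [e1]
  have hmS : ∀ S : Finset V, Measurable (fun ω : Om V => ENNReal.ofReal (ip G θ W S) *
      (h ω * ENNReal.ofReal (lw (raw K 0 ω) W S))) := fun S =>
    (hh.mul (measurable_lw_raw W S K)).const_mul _
  rw [lintegral_finsetSum _ (fun S _ => hmS S)]
  -- each term
  have e2 : ∀ S ∈ W.powerset, ∫⁻ ω, ENNReal.ofReal (ip G θ W S) *
      (h ω * ENNReal.ofReal (lw (raw K 0 ω) W S)) ∂PP V =
      ENNReal.ofReal (ip G θ W S) * ∫⁻ ω, h (TS F (S ∩ F) ω) ∂PP V := by
    intro S hS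
    rw [Finset.mem_powerset] at hS
    have hm1 : Measurable (fun ω : Om V => h ω * ENNReal.ofReal (lw (raw K 0 ω) W S)) :=
      hh.mul (measurable_lw_raw W S K)
    rw [lintegral_const_mul _ hm1]
    congr 1
    have e3 : ∀ ω : Om V, h ω * ENNReal.ofReal (lw (raw K 0 ω) W S) =
        (h ω * ENNReal.ofReal (lw (raw K 0 ω) F (S ∩ F))) *
          ENNReal.ofReal (lw (raw K 0 ω) (W \ F) (S \ F)) := by
      intro ω
      rw [mul_assoc, ← ENNReal.ofReal_mul (lw_nonneg_raw K F _ ω)]
      congr 2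
      unfold lw
      have hsplit := Finset.prod_sdiff hFW (f := fun v => raw K 0 ω v (decide (v ∈ S)))
      rw [← hsplit, mul_comm]
      congr 1
      · refine Finset.prod_congr rfl fun v hv => ?_
        have : (v ∈ S ∩ F) ↔ v ∈ S := by
          rw [Finset.mem_inter]; exact and_iff_left hv
        simp only [this]
      · refine Finset.prod_congr rfl fun v hv => ?_
        have hv' := (Finset.mem_sdiff.1 hv).2
        have : (v ∈ S \ F) ↔ v ∈ S := by
          rw [Finset.mem_sdiff]; exact and_iff_left hv'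
        simp only [this]
    simp_rw [e3]
    have hTsub : S \ F ⊆ W \ F := Finset.sdiff_subset_sdiff hS (Finset.Subset.refl F)
    have hm2 : Measurable (fun ω : Om V => h ω * ENNReal.ofReal (lw (raw K 0 ω) F (S ∩ F))) :=
      hh.mul (measurable_lw_raw F (S ∩ F) K)
    rw [lintegral_lw_out hTsub K _ hm2]
    · rw [← lintegral_lw Finset.inter_subset_right K h hh hdep']
    · intro ω ω' hω
      have hω' : ∀ v ∈ F, ∀ c, ∀ j < K, ω ((v, c), j) = ω' ((v, c), j) := fun v hv =>
        hω v (fun hv' => (Finset.mem_sdiff.1 hv').2 hv)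
      rw [hdep ω ω' hω', lw_raw_congr K F (S ∩ F) ω ω' hω']
  rw [Finset.sum_congr rfl e2]
  -- group by the trace on `F`
  have e4 : ∀ R ∈ F.powerset, ENNReal.ofReal (ip G θ F R) * ∫⁻ ω, h (TS F R ω) ∂PP V =
      ∑ S ∈ W.powerset with S ∩ F = R,
        ENNReal.ofReal (ip G θ W S) * ∫⁻ ω, h (TS F (S ∩ F) ω) ∂PP V := by
    intro R hR
    rw [ip_consistent hT θ hF hW hFW R (Finset.mem_powerset.1 hR),
      ENNReal.ofReal_sum_of_nonneg (fun S _ => hip0 S), Finset.sum_mul]
    refine Finset.sum_congr rfl fun S hS => ?_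
    rw [(Finset.mem_filter.1 hS).2]
  rw [Finset.sum_congr rfl e4]
  exact (Finset.sum_fiberwise_of_maps_to (fun S _ => Finset.mem_powerset.2
    Finset.inter_subset_right) _).symm

end LIM

end Crest.Agent.TI
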