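import Crest.Agent.TI_CritB
import Crest.Agent.TI_Jen

/-!
Row S0241, task Sel: choice of the approximating sequence
-/

set_option autoImplicit false
set_option linter.unusedSectionVars false
set_option linter.unusedVariables false

namespace Crest.Agent.TI

open MeasureTheory Filter Topology
open Crest.Agent.SRF (Lab lab)


section SEL

variable {V : Type*} [DecidableEq V] [Countable V] {G : SimpleGraph V} [G.LocallyFinite]

/-- a bound for the mean square difference of the observations -/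
theorem sel_obs {p p' : Finset V → ℝ} {W W' : Finset V} (hp : IsMass p W) (hp' : IsMass p' W')
    (v : V) (hv : v ∈ W) (hv' : v ∈ W') (k : ℕ) (c : ℝ)
    (h : ∀ r : ℝ, 0 ≤ r → r ≤ 1 → ∫ ω, (MM p W k r v ω - MM p' W' k r v ω) ^ 2 ∂PP V ≤ c) :
    ∫ ω, ((Zs p W (tU ω) (tL ω) (v, k) : ℝ) - Zs p' W' (tU ω) (tL ω) (v, k)) ^ 2 ∂PP V ≤ c := by
  refine (obs_close hp hp' v hv hv' k).trans ?_
  have h1 := intervalIntegral.norm_integral_le_of_norm_le_const (a := (0 : ℝ)) (b := 1) (C := c)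
    (f := fun r => ∫ ω, (MM p W k r v ω - MM p' W' k r v ω) ^ 2 ∂PP V) (by
      intro r hr
      rw [Set.uIoc_of_le zero_le_one] at hr
      rw [Real.norm_eq_abs, abs_of_nonneg (integral_nonneg fun ω => sq_nonneg _)]
      exact h r hr.1.le hr.2)
  simp only [sub_zero, abs_one, mul_one, Real.norm_eq_abs] at h1
  exact (le_abs_self _).trans h1

/-- triangle inequality for mean squares -/
theorem sel_tri2 {f g h : Om V → ℝ} (hf : Measurable f) (hg : Measurable g) (hh : Measurable h)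
    (Cf Cg Ch : ℝ) (bf : ∀ ω, |f ω| ≤ Cf) (bg : ∀ ω, |g ω| ≤ Cg) (bh : ∀ ω, |h ω| ≤ Ch) :
    ∫ ω, (f ω - g ω) ^ 2 ∂PP V ≤ 2 * (∫ ω, (f ω - h ω) ^ 2 ∂PP V) +
      2 * (∫ ω, (g ω - h ω) ^ 2 ∂PP V) := by
  have hI : ∀ {f g : Om V → ℝ} (hf : Measurable f) (hg : Measurable g) (Cf Cg : ℝ)
      (bf : ∀ ω, |f ω| ≤ Cf) (bg : ∀ ω, |g ω| ≤ Cg), Integrable (fun ω => (f ω - g ω) ^ 2) (PP V) := by
    intro f g hf hg Cf Cg bf bg
    refine integrable_bdd _ ((hf.sub hg).pow_const 2) ((Cf + Cg) ^ 2) (fun ω => ?_)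
    rw [abs_of_nonneg (sq_nonneg _), ← sq_abs]
    have h1 : |f ω - g ω| ≤ Cf + Cg := by
      have h1 := abs_le.1 (bf ω)
      have h2 := abs_le.1 (bg ω)
      rw [abs_le]
      constructor <;> linarith [h1.1, h1.2, h2.1, h2.2]
    gcongr
  rw [← integral_const_mul, ← integral_const_mul, ← integral_add ((hI hf hh _ _ bf bh).const_mul 2)
    ((hI hg hh _ _ bg bh).const_mul 2)]
  refine integral_mono (hI hf hg _ _ bf bg) (((hI hf hh _ _ bf bh).const_mul 2).add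
    ((hI hg hh _ _ bg bh).const_mul 2)) (fun ω => ?_)
  show (f ω - g ω) ^ 2 ≤ 2 * (f ω - h ω) ^ 2 + 2 * (g ω - h ω) ^ 2
  nlinarith [sq_nonneg ((f ω - h ω) + (g ω - h ω))]

/-- the sequence of parameters -/
theorem sel_seq (hT : G.IsTree) (b : ℕ) (hb : 2 ≤ b) (hreg : G.IsRegularOfDegree (b + 1))
    (θ : ℝ) (h0 : 0 ≤ θ) (h1 : b * θ ^ 2 ≤ 1) :
    ∃ (θs : ℕ → ℝ), (∀ j, 0 ≤ θs j ∧ b * θs j ^ 2 < 1) ∧ Tendsto θs atTop (𝓝 θ) ∧
      (∀ (j k : ℕ), k ≤ j → ∀ (v : V) (r : ℝ), 0 ≤ r → r ≤ 1 →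
        ∫ ω, (mI G b (θs j) k r v ω - mI G b (θs (j + 1)) k r v ω) ^ 2 ∂PP V ≤ (1 / 8) ^ j / 100) := by
  rcases h1.lt_or_eq with h2 | h2
  · refine ⟨fun _ => θ, fun _ => ⟨h0, h2⟩, tendsto_const_nhds, fun j k _ v r _ _ => ?_⟩
    simp only [sub_self]
    have := pow_nonneg (show (0 : ℝ) ≤ 1 / 8 by norm_num) j
    rw [zero_pow two_ne_zero, integral_zero]
    positivity
  · obtain ⟨ϑ, hϑ1, hϑ2, hϑ3⟩ := crit_seq hT b hb hreg θ h0 h2
    have hpos : ∀ j : ℕ, (0 : ℝ) < (1 / 8) ^ j / 100 := fun j => by positivity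
    choose N hN using fun (j k : ℕ) => hϑ3 k ((1 / 8) ^ j / 100) (hpos j)
    set M : ℕ → ℕ := fun j => ∑ i ∈ Finset.range (j + 1), (1 + ∑ k ∈ Finset.range (i + 1), N i k)
      with hM
    have hM1 : StrictMono M := by
      refine strictMono_nat_of_lt_succ fun j => ?_
      simp only [hM]
      rw [Finset.sum_range_succ _ (j + 1)]
      omega
    have hM2 : ∀ j k, k ≤ j → N j k ≤ M j := by
      intro j k hk
      have e1 : N j k ≤ ∑ k ∈ Finset.range (j + 1), N j k :=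
        Finset.single_le_sum (f := fun k => N j k) (fun _ _ => Nat.zero_le _)
          (Finset.mem_range.2 (by omega))
      simp only [hM]
      rw [Finset.sum_range_succ _ j]
      omega
    refine ⟨fun j => ϑ (M j), fun j => hϑ1 _, hϑ2.comp hM1.tendsto_atTop, ?_⟩
    intro j k hk v r hr0 hr1
    exact hN j k (M j) (M (j + 1)) (hM2 j k hk) ((hM2 j k hk).trans (hM1 (Nat.lt_succ_self j)).le)
      v r hr0 hr1

/-- choice of the parameters and window sizes -/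
theorem sel (hT : G.IsTree) (b : ℕ) (hb : 2 ≤ b) (hreg : G.IsRegularOfDegree (b + 1))
    (θ : ℝ) (h0 : 0 ≤ θ) (h1 : b * θ ^ 2 ≤ 1) :
    ∃ (θs : ℕ → ℝ) (ns : ℕ → ℕ), (∀ j, 0 ≤ θs j ∧ b * θs j ^ 2 < 1) ∧ Tendsto θs atTop (𝓝 θ) ∧
      (∀ (j k : ℕ), k ≤ j → ∀ (v : V) (W : Finset V), Win G W → bal G v (ns j) ⊆ W →
        ∫ ω, ((Zs (ip G (θs j) W) W (tU ω) (tL ω) (v, k) : ℝ) -
          Zs (ip G (θs j) (bal G v (ns j))) (bal G v (ns j)) (tU ω) (tL ω) (v, k)) ^ 2 ∂PP V ≤ (1 / 8) ^ j) ∧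
      (∀ (j k : ℕ), k ≤ j → ∀ (v : V),
        ∫ ω, ((Zs (ip G (θs j) (bal G v (ns j))) (bal G v (ns j)) (tU ω) (tL ω) (v, k) : ℝ) -
          Zs (ip G (θs (j + 1)) (bal G v (ns (j + 1)))) (bal G v (ns (j + 1))) (tU ω) (tL ω) (v, k)) ^ 2 ∂PP V ≤ (1 / 8) ^ j) := by
  obtain ⟨ϑ, hϑ1, hϑ2, hϑ3⟩ := sel_seq hT b hb hreg θ h0 h1
  have hpos : ∀ j : ℕ, (0 : ℝ) < (1 / 8) ^ j / 100 := fun j => by positivity
  have hle1 : ∀ j, ϑ j ≤ 1 := by
    intro j
    by_contra hc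
    push Not at hc
    have h2 := (hϑ1 j).2
    have h3 : (2 : ℝ) ≤ b := by exact_mod_cast hb
    nlinarith
  choose R hR using fun (j k : ℕ) => mI_unif hT b hb hreg (ϑ j) (hϑ1 j).1 (hϑ1 j).2 k
    ((1 / 8) ^ j / 100) (hpos j)
  set ns : ℕ → ℕ := fun j => ∑ k ∈ Finset.range (j + 1), R j k with hns
  have hns1 : ∀ j k, k ≤ j → R j k ≤ ns j := fun j k hk =>
    Finset.single_le_sum (f := fun k => R j k) (fun _ _ => Nat.zero_le _)
      (Finset.mem_range.2 (by omega))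
  have hbal : ∀ (v : V) (n m : ℕ), n ≤ m → bal G v n ⊆ bal G v m := by
    intro v n m hnm u hu
    rw [mem_bal hT] at hu ⊢
    omega
  have hv : ∀ (v : V) (n : ℕ), v ∈ bal G v n := by
    intro v n
    rw [mem_bal hT]
    simp
  -- window means are close to the infinite volume means
  have hclose : ∀ (j k : ℕ), k ≤ j → ∀ (v : V) (W : Finset V), Win G W → bal G v (ns j) ⊆ W →
      ∀ r : ℝ, 0 ≤ r → r ≤ 1 →
      ∫ ω, (MM (ip G (ϑ j) W) W k r v ω - mI G b (ϑ j) k r v ω) ^ 2 ∂PP V ≤ (1 / 8) ^ j / 100 := by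
    intro j k hk v W hW hWb r hr0 hr1
    exact hR j k v W hW ((hbal v _ _ (hns1 j k hk)).trans hWb) r hr0 hr1
  have hmass : ∀ (j : ℕ) (W : Finset V), Win G W → IsMass (ip G (ϑ j) W) W := fun j W hW =>
    isMass_ip hT (ϑ j) (hϑ1 j).1 (hle1 j) hW
  have hMMm : ∀ (p : Finset V → ℝ) (W : Finset V) (k : ℕ) (r : ℝ) (v : V),
      Measurable (MM p W k r v) := by
    intro p W k r v
    have h1 : Measurable (fun ω : Om V => (r, ω)) := measurable_const.prodMk measurable_id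
    have h2 := (measurable_MM2 p W k v).comp h1
    exact h2
  have hlim : ∀ (j k : ℕ) (r : ℝ), 0 ≤ r → r ≤ 1 → ∀ v : V,
      IsLim G (fun W => MW G (ϑ j) W k r v) v (kp G b k) (mI G b (ϑ j) k r v) :=
    fun j k r hr0 hr1 v => isLim_mI hT b hb hreg (ϑ j) (hϑ1 j).1 (hϑ1 j).2 k r hr0 hr1 v
  refine ⟨ϑ, ns, hϑ1, hϑ2, ?_, ?_⟩
  · intro j k hk v W hW hWb
    have hW2 := win_bal hT v (ns j)
    refine sel_obs (hmass j W hW) (hmass j _ hW2) v (hWb (hv v _)) (hv v _) k _ ?_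
    intro r hr0 hr1
    have e1 := hclose j k hk v W hW hWb r hr0 hr1
    have e2 := hclose j k hk v _ hW2 (Finset.Subset.refl _) r hr0 hr1
    have e3 := sel_tri2 (hMMm (ip G (ϑ j) W) W k r v)
      (hMMm (ip G (ϑ j) (bal G v (ns j))) (bal G v (ns j)) k r v) (hlim j k r hr0 hr1 v).1
      1 1 _ (abs_MM_le (hmass j W hW) k r v) (abs_MM_le (hmass j _ hW2) k r v)
      (hlim j k r hr0 hr1 v).2.1
    have e4 := hpos j
    linarith
  · intro j k hk v
    have hW1 := win_bal hT v (ns j)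
    have hW2 := win_bal hT v (ns (j + 1))
    refine sel_obs (hmass j _ hW1) (hmass (j + 1) _ hW2) v (hv v _) (hv v _) k _ ?_
    intro r hr0 hr1
    have e1 := hclose j k hk v _ hW1 (Finset.Subset.refl _) r hr0 hr1
    have e2 := hclose (j + 1) k (by omega) v _ hW2 (Finset.Subset.refl _) r hr0 hr1
    have e3 := sel_tri2 (hMMm (ip G (ϑ j) (bal G v (ns j))) (bal G v (ns j)) k r v)
      (hMMm (ip G (ϑ (j + 1)) (bal G v (ns (j + 1)))) (bal G v (ns (j + 1))) k r v)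
      (hlim j k r hr0 hr1 v).1
      1 1 _ (abs_MM_le (hmass j _ hW1) k r v) (abs_MM_le (hmass (j + 1) _ hW2) k r v)
      (hlim j k r hr0 hr1 v).2.1
    have e4 := sel_tri2 (hMMm (ip G (ϑ (j + 1)) (bal G v (ns (j + 1)))) (bal G v (ns (j + 1))) k r v)
      (hlim j k r hr0 hr1 v).1 (hlim (j + 1) k r hr0 hr1 v).1
      1 _ _ (abs_MM_le (hmass (j + 1) _ hW2) k r v) (hlim j k r hr0 hr1 v).2.1
      (hlim (j + 1) k r hr0 hr1 v).2.1
    have e5 := hϑ3 j k hk v r hr0 hr1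
    have e6 : ((1 : ℝ) / 8) ^ (j + 1) / 100 ≤ (1 / 8) ^ j / 100 := by
      rw [pow_succ]
      have := hpos j
      linarith
    have e7 := hpos j
    linarith

end SEL

end Crest.Agent.TI
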