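import Crest.Agent.TI_LimA
import Crest.Agent.SRF_Sub
import Crest.Agent.TI_Sel

/-!
Row S0241, task LimB: the limiting observations and their law
-/

set_option autoImplicit false
set_option linter.unusedSectionVars false
set_option linter.unusedVariables false

namespace Crest.Agent.TI

open MeasureTheory Filter Topology
open Crest.Agent.SRF (Lab lab)


section LIM

variable {V : Type*} [DecidableEq V]

/-- limiting observations -/
noncomputable def zI (G : SimpleGraph V) [G.LocallyFinite] (θs : ℕ → ℝ) (ns : ℕ → ℕ) (v : V) (k : ℕ)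
    (ω : Om V) : unitInterval :=
  Crest.Agent.SRF.limU (fun j => Zs (ip G (θs j) (bal G v (ns j))) (bal G v (ns j)) (tU ω) (tL ω) (v, k))

variable {G : SimpleGraph V} [G.LocallyFinite]

theorem measurable_zI (θs : ℕ → ℝ) (ns : ℕ → ℕ) (v : V) (k : ℕ) : Measurable (zI G θs ns v k) := by
  refine Crest.Agent.SRF.measurable_limU _ fun j => ?_
  exact measurable_pi_iff.1 (measurable_Zs_param _ _ _ _ measurable_tU measurable_tL) (v, k)

/-- naturality, on every input -/
theorem zI_eqv (θs : ℕ → ℝ) (ns : ℕ → ℕ) (g : G ≃g G) (v : V) (k : ℕ) (ω : Om V) :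
    zI G θs ns (g v) k ω = zI G θs ns v k (act g.toEquiv ω) := by
  unfold zI
  congr 1
  ext j : 1
  have h1 := Zs_map g.toEquiv (ip G (θs j) ((bal G v (ns j)).map g.toEquiv.toEmbedding)) (bal G v (ns j))
    (tU ω) (tL ω) (v, k)
  rw [← bal_map g v (ns j)]
  have e1 : (fun S : Finset V => ip G (θs j) ((bal G v (ns j)).map g.toEquiv.toEmbedding)
      (S.map g.toEquiv.toEmbedding)) = ip G (θs j) (bal G v (ns j)) := by
    ext S
    exact ip_map (θs j) g _ S
  rw [e1] at h1
  exact h1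

/-- the limiting observations with their times -/
noncomputable def obI (G : SimpleGraph V) [G.LocallyFinite] (θs : ℕ → ℝ) (ns : ℕ → ℕ) (F : Finset V)
    (ω : Om V) : (F × Bool) × ℕ → unitInterval :=
  fun c => if c.1.2 then zI G θs ns c.1.1 c.2 ω else ω (((c.1.1 : V), false), c.2)

theorem limB_limit_law {Ω : Type*} [MeasurableSpace Ω] (P : Measure Ω) [IsProbabilityMeasure P]
    {ι : Type*} (Yj : ℕ → Ω → (ι → unitInterval)) (Y : Ω → (ι → unitInterval))
    (hYj : ∀ j, Measurable (Yj j)) (hY : Measurable Y)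
    (hlim : ∀ c, ∀ᵐ ω ∂P, Tendsto (fun j => Yj j ω c) atTop (𝓝 (Y ω c)))
    (𝕄 : Measure (ι → unitInterval)) [IsFiniteMeasure 𝕄]
    (h𝕄 : ∀ C : Finset ι, ∀ h : (ι → unitInterval) → ENNReal, Measurable h →
      (∃ M : NNReal, ∀ z, h z ≤ M) →
      (∀ z z', (∀ c ∈ C, z c = z' c) → h z = h z') →
      Tendsto (fun j => ∫⁻ ω, h (Yj j ω) ∂P) atTop (𝓝 (∫⁻ z, h z ∂𝕄))) :
    P.map Y = 𝕄 := by
  have hmarg : ∀ C : Finset ι, (P.map Y).map C.restrict = 𝕄.map C.restrict := by
    intro C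
    have hrm : Measurable (C.restrict : (ι → unitInterval) → (C → unitInterval)) :=
      Finset.measurable_restrict C
    rw [Measure.map_map hrm hY]
    have : IsFiniteMeasure (P.map (C.restrict ∘ Y)) := by
      have : IsProbabilityMeasure (P.map (C.restrict ∘ Y)) :=
        Measure.isProbabilityMeasure_map (hrm.comp hY).aemeasurable
      infer_instance
    have : IsFiniteMeasure (𝕄.map C.restrict) := by infer_instance
    refine ext_of_forall_lintegral_eq_of_IsFiniteMeasure fun f => ?_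
    have hfm : Measurable (fun x => (f x : ENNReal)) :=
      (f.continuous.measurable).coe_nnreal_ennreal
    rw [lintegral_map hfm (hrm.comp hY), lintegral_map hfm hrm]
    have hlimC : ∀ᵐ ω ∂P, ∀ c ∈ C, Tendsto (fun j => Yj j ω c) atTop (𝓝 (Y ω c)) := by
      rw [Finset.eventually_all]
      exact fun c _ => hlim c
    have htend : Tendsto (fun j => ∫⁻ ω, (f (C.restrict (Yj j ω)) : ENNReal) ∂P) atTop
        (𝓝 (∫⁻ ω, (f (C.restrict (Y ω)) : ENNReal) ∂P)) := by
      refine tendsto_lintegral_of_dominated_convergence (fun _ => (nndist f 0 : ENNReal)) ?_ ?_ ?_ ?_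
      · exact fun j => hfm.comp (hrm.comp (hYj j))
      · intro j
        refine Filter.Eventually.of_forall fun ω => ?_
        exact ENNReal.coe_le_coe.2 (BoundedContinuousFunction.NNReal.upper_bound f _)
      · simp
      · filter_upwards [hlimC] with ω hω
        have hr : Tendsto (fun j => C.restrict (Yj j ω)) atTop (𝓝 (C.restrict (Y ω))) := by
          rw [tendsto_pi_nhds]
          intro c
          exact hω c c.2
        exact (ENNReal.continuous_coe.tendsto _).comp ((f.continuous.tendsto _).comp hr)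
    have hconst := h𝕄 C (fun z => (f (C.restrict z) : ENNReal)) (hfm.comp hrm)
      ⟨nndist f 0, fun z => ENNReal.coe_le_coe.2 (BoundedContinuousFunction.NNReal.upper_bound f _)⟩ (by
        intro z z' hz
        have : C.restrict z = C.restrict z' := by
          ext c
          rw [Finset.restrict_def]
          simp only
          rw [hz c c.2]
        simp only [this])
    exact tendsto_nhds_unique htend hconst
  have h1 : IsProjectiveLimit (P.map Y) (fun C : Finset ι => 𝕄.map C.restrict) := fun C => hmarg C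
  have h2 : IsProjectiveLimit 𝕄 (fun C : Finset ι => 𝕄.map C.restrict) := fun C => rfl
  have : ∀ C : Finset ι, IsFiniteMeasure (𝕄.map (C.restrict : (ι → unitInterval) → _)) :=
    fun C => by infer_instance
  exact h1.unique h2

/-- Chebyshev for two unit interval valued random variables -/
theorem limB_cheb {Ω : Type*} [MeasurableSpace Ω] (P : Measure Ω) [IsProbabilityMeasure P]
    (X Y : Ω → unitInterval) (hX : Measurable X) (hY : Measurable Y) (j : ℕ)
    (h : ∫ ω, ((X ω : ℝ) - Y ω) ^ 2 ∂P ≤ (1 / 8) ^ j) :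
    P {ω | (1 / 2 : ℝ) ^ j < |(X ω : ℝ) - Y ω|} ≤ ENNReal.ofReal ((1 / 2) ^ j) := by
  have hXm : Measurable (fun ω => (X ω : ℝ)) := measurable_subtype_coe.comp hX
  have hYm : Measurable (fun ω => (Y ω : ℝ)) := measurable_subtype_coe.comp hY
  have hm : Measurable (fun ω => ((X ω : ℝ) - Y ω) ^ 2) := (hXm.sub hYm).pow_const 2
  have hint : Integrable (fun ω => ((X ω : ℝ) - Y ω) ^ 2) P := by
    refine Integrable.of_bound hm.aestronglyMeasurable 1 (Filter.Eventually.of_forall fun ω => ?_)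
    rw [Real.norm_eq_abs, abs_of_nonneg (sq_nonneg _)]
    have h1 := (X ω).2; have h2 := (Y ω).2
    nlinarith [h1.1, h1.2, h2.1, h2.2]
  have h1 := mul_meas_ge_le_integral_of_nonneg (μ := P) (f := fun ω => ((X ω : ℝ) - Y ω) ^ 2)
    (Filter.Eventually.of_forall fun ω => sq_nonneg _) hint ((1 / 4 : ℝ) ^ j)
  have h2 : P.real {ω | (1 / 4 : ℝ) ^ j ≤ ((X ω : ℝ) - Y ω) ^ 2} ≤ (1 / 2) ^ j := by
    have h3 : (1 / 4 : ℝ) ^ j * P.real {ω | (1 / 4 : ℝ) ^ j ≤ ((X ω : ℝ) - Y ω) ^ 2} ≤ (1 / 8) ^ j :=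
      h1.trans h
    have h4 : (1 / 8 : ℝ) ^ j = (1 / 4) ^ j * (1 / 2) ^ j := by rw [← mul_pow]; norm_num
    rw [h4] at h3
    exact le_of_mul_le_mul_left h3 (by positivity)
  have h5 : {ω | (1 / 2 : ℝ) ^ j < |(X ω : ℝ) - Y ω|} ⊆ {ω | (1 / 4 : ℝ) ^ j ≤ ((X ω : ℝ) - Y ω) ^ 2} := by
    intro ω hω
    simp only [Set.mem_ofPred_eq] at hω ⊢
    have h6 : ((1 / 2 : ℝ) ^ j) ^ 2 ≤ |(X ω : ℝ) - Y ω| ^ 2 := pow_le_pow_left₀ (by positivity) hω.le 2
    rw [sq_abs, ← pow_mul, mul_comm j 2, pow_mul] at h6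
    norm_num at h6 ⊢
    exact h6
  refine (measure_mono h5).trans ?_
  rw [ENNReal.le_ofReal_iff_toReal_le (measure_ne_top _ _) (by positivity)]
  exact h2

theorem limB_tendsto_ip (W S : Finset V) (θs : ℕ → ℝ) (θ : ℝ) (h : Tendsto θs atTop (𝓝 θ)) :
    Tendsto (fun j => ip G (θs j) W S) atTop (𝓝 (ip G θ W S)) := by
  simp_rw [ip_eq]
  apply Tendsto.const_mul
  apply tendsto_finsetProd
  intro e _
  unfold ew
  split_ifs
  · exact (h.const_add 1).div_const 2
  · exact (h.const_sub 1).div_const 2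

/-- the law of the limiting observations is the planted mixture -/
theorem law_lim [Countable V] (hT : G.IsTree) (b : ℕ) (hb : 2 ≤ b) (hreg : G.IsRegularOfDegree (b + 1))
    (θ : ℝ) (h0 : 0 ≤ θ) (h1 : b * θ ^ 2 ≤ 1) (θs : ℕ → ℝ) (ns : ℕ → ℕ)
    (hs1 : ∀ j, 0 ≤ θs j ∧ b * θs j ^ 2 < 1) (hs2 : Tendsto θs atTop (𝓝 θ))
    (hs3 : ∀ (j k : ℕ), k ≤ j → ∀ (v : V) (W : Finset V), Win G W → bal G v (ns j) ⊆ W →
        ∫ ω, ((Zs (ip G (θs j) W) W (tU ω) (tL ω) (v, k) : ℝ) -
          Zs (ip G (θs j) (bal G v (ns j))) (bal G v (ns j)) (tU ω) (tL ω) (v, k)) ^ 2 ∂PP V ≤ (1 / 8) ^ j)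
    (hs4 : ∀ (j k : ℕ), k ≤ j → ∀ (v : V),
        ∫ ω, ((Zs (ip G (θs j) (bal G v (ns j))) (bal G v (ns j)) (tU ω) (tL ω) (v, k) : ℝ) -
          Zs (ip G (θs (j + 1)) (bal G v (ns (j + 1)))) (bal G v (ns (j + 1))) (tU ω) (tL ω) (v, k)) ^ 2
            ∂PP V ≤ (1 / 8) ^ j)
    (F : Finset V) (hF : Win G F) :
    (PP V).map (obI G θs ns F) = ∑ S ∈ F.powerset, ENNReal.ofReal (ip G θ F S) •
      (PP V).map (fun ω => fun c : (F × Bool) × ℕ => TS F S ω (((c.1.1 : V), c.1.2), c.2)) := by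
  classical
  obtain ⟨⟨o, ho⟩⟩ := hF.nonempty
  set D : ℕ := F.sup (fun v => G.dist o v) with hD
  have hDle : ∀ v ∈ F, G.dist o v ≤ D := fun v hv => Finset.le_sup (f := fun v => G.dist o v) hv
  set W : ℕ → Finset V := fun j => bal G o (ns j + D) with hW
  have hWwin : ∀ j, Win G (W j) := fun j => win_bal hT o _
  have hFW : ∀ j, F ⊆ W j := by
    intro j v hv
    simp only [hW]
    rw [mem_bal hT]
    have := hDle v hv
    omega
  have hbW : ∀ j, ∀ v ∈ F, bal G v (ns j) ⊆ W j := by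
    intro j v hv u hu
    rw [mem_bal hT] at hu
    simp only [hW]
    rw [mem_bal hT]
    have h1 := hT.connected.dist_triangle (u := o) (v := v) (w := u)
    have := hDle v hv
    omega
  have hθ1 : ∀ j, θs j ≤ 1 := by
    intro j
    have h1 := hs1 j
    have hb' : (2 : ℝ) ≤ b := by exact_mod_cast hb
    nlinarith [h1.1, h1.2, sq_nonneg (θs j)]
  set A : ℕ → V → ℕ → Om V → unitInterval := fun j v k ω =>
    Zs (ip G (θs j) (bal G v (ns j))) (bal G v (ns j)) (tU ω) (tL ω) (v, k) with hA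
  set B : ℕ → V → ℕ → Om V → unitInterval := fun j v k ω =>
    Zs (ip G (θs j) (W j)) (W j) (tU ω) (tL ω) (v, k) with hB
  have hAm : ∀ j v k, Measurable (A j v k) := fun j v k =>
    measurable_pi_iff.1 (measurable_Zs_param _ _ _ _ measurable_tU measurable_tL) (v, k)
  have hBm : ∀ j v k, Measurable (B j v k) := fun j v k =>
    measurable_pi_iff.1 (measurable_Zs_param _ _ _ _ measurable_tU measurable_tL) (v, k)
  have hAlim : ∀ v k, ∀ᵐ ω ∂PP V, Tendsto (fun j => A j v k ω) atTop (𝓝 (zI G θs ns v k ω)) := by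
    intro v k
    refine Crest.Agent.SRF.ae_tendsto_limU (PP V) (fun j ω => A j v k ω) k ?_
    intro j hj
    exact limB_cheb (PP V) (A j v k) (A (j + 1) v k) (hAm _ _ _) (hAm _ _ _) j (hs4 j k hj v)
  have hBlim : ∀ v ∈ F, ∀ k, ∀ᵐ ω ∂PP V, Tendsto (fun j => B j v k ω) atTop
      (𝓝 (zI G θs ns v k ω)) := by
    intro v hv k
    set X : ℕ → Set (Om V) := fun j =>
      if k ≤ j then {ω | ((1:ℝ) / 2) ^ j < |(B j v k ω : ℝ) - A j v k ω|} else ∅ with hX
    have hXle : ∀ j, PP V (X j) ≤ ENNReal.ofReal ((1 / 2) ^ j) := by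
      intro j
      by_cases hs : k ≤ j
      · simp only [hX, if_pos hs]
        exact limB_cheb (PP V) (B j v k) (A j v k) (hBm _ _ _) (hAm _ _ _) j
          (hs3 j k hs v (W j) (hWwin j) (hbW j v hv))
      · simp only [hX, if_neg hs, measure_empty]
        exact zero_le
    have hsum : ∑' j, PP V (X j) ≠ ⊤ := by
      refine ne_top_of_le_ne_top ?_ (ENNReal.tsum_le_tsum hXle)
      have : ∀ j : ℕ, ENNReal.ofReal ((1 / 2 : ℝ) ^ j) = (ENNReal.ofReal (1 / 2)) ^ j := fun j =>
        ENNReal.ofReal_pow (by norm_num) j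
      simp_rw [this]
      rw [ENNReal.tsum_geometric]
      have h2 : ENNReal.ofReal (1 / 2) < 1 := by
        rw [ENNReal.ofReal_lt_one]; norm_num
      have h3 : 1 - ENNReal.ofReal (1 / 2) ≠ 0 := (tsub_pos_of_lt h2).ne'
      exact ENNReal.inv_ne_top.2 h3
    filter_upwards [hAlim v k, ae_eventually_notMem hsum] with L hL1 hL2
    have h1 : Tendsto (fun j => (A j v k L : ℝ)) atTop (𝓝 (zI G θs ns v k L : ℝ)) :=
      (continuous_subtype_val.tendsto _).comp hL1
    have h2 : Tendsto (fun j => (B j v k L : ℝ) - A j v k L) atTop (𝓝 0) := by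
      rw [tendsto_zero_iff_abs_tendsto_zero]
      have hpow : Tendsto (fun j : ℕ => ((1:ℝ) / 2) ^ j) atTop (𝓝 0) :=
        tendsto_pow_atTop_nhds_zero_of_lt_one (by norm_num) (by norm_num)
      refine squeeze_zero' (Filter.Eventually.of_forall fun j => abs_nonneg _) ?_ hpow
      filter_upwards [hL2, eventually_ge_atTop k] with j hj hjs
      simp only [hX, if_pos hjs, Set.mem_ofPred_eq, not_lt] at hj
      exact hj
    have h3 : Tendsto (fun j => (B j v k L : ℝ)) atTop (𝓝 (zI G θs ns v k L : ℝ)) := by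
      have := h2.add h1
      simpa using this
    exact tendsto_subtype_rng.2 h3
  set ob : Om V → ((F × Bool) × ℕ → unitInterval) := fun z c => z (((c.1.1 : V), c.1.2), c.2) with hob
  have hobm : Measurable ob := measurable_pi_lambda _ fun c => measurable_pi_apply _
  set 𝕄 : Measure ((F × Bool) × ℕ → unitInterval) := ∑ S ∈ F.powerset, ENNReal.ofReal (ip G θ F S) •
      (PP V).map (fun ω => fun c : (F × Bool) × ℕ => TS F S ω (((c.1.1 : V), c.1.2), c.2)) with h𝕄
  have hTSm : ∀ S, Measurable (fun ω => fun c : (F × Bool) × ℕ => TS F S ω (((c.1.1 : V), c.1.2), c.2)) :=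
    fun S => hobm.comp (measurable_TS F S)
  have hlint : ∀ h : ((F × Bool) × ℕ → unitInterval) → ENNReal, Measurable h →
      ∫⁻ z, h z ∂𝕄 = ∑ S ∈ F.powerset, ENNReal.ofReal (ip G θ F S) * ∫⁻ ω, h (ob (TS F S ω)) ∂PP V := by
    intro h hh
    rw [h𝕄, lintegral_finsetSum_measure]
    refine Finset.sum_congr rfl fun S _ => ?_
    rw [lintegral_smul_measure, lintegral_map hh (hTSm S), smul_eq_mul]
  have hfin : IsFiniteMeasure 𝕄 := by
    refine ⟨?_⟩
    rw [← lintegral_one, hlint _ measurable_const]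
    simp only [lintegral_one, measure_univ, mul_one]
    exact ENNReal.sum_lt_top.2 fun S _ => ENNReal.ofReal_lt_top
  refine limB_limit_law (PP V) (fun j ω => ob (Zo (ip G (θs j) (W j)) (W j) ω)) (obI G θs ns F) ?_ ?_ ?_ 𝕄 ?_
  · intro j
    exact hobm.comp (measurable_Zo _ _)
  · refine measurable_pi_lambda _ fun c => ?_
    unfold obI
    split_ifs
    · exact measurable_zI θs ns _ _
    · exact measurable_pi_apply _
  · rintro ⟨⟨v, s⟩, k⟩
    cases s with
    | false =>
      refine Filter.Eventually.of_forall fun ω => ?_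
      simp only [hob, Zo, obI]
      exact tendsto_const_nhds
    | true =>
      filter_upwards [hBlim v v.2 k] with ω hω
      simp only [hob, Zo, obI, if_true]
      exact hω
  · intro C h hh hM hdep
    obtain ⟨M, hM⟩ := hM
    set K : ℕ := C.sup (fun c => c.2) + 1 with hK
    have hCK : ∀ c ∈ C, c.2 < K := fun c hc => Nat.lt_succ_of_le (Finset.le_sup (f := fun c => c.2) hc)
    have e1 : ∀ j, ∫⁻ ω, h (ob (Zo (ip G (θs j) (W j)) (W j) ω)) ∂PP V =
        ∑ S ∈ F.powerset, ENNReal.ofReal (ip G (θs j) F S) * ∫⁻ ω, h (ob (TS F S ω)) ∂PP V := by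
      intro j
      refine law_window hT (θs j) (hs1 j).1 (hθ1 j) hF (hWwin j) (hFW j) K (fun z => h (ob z))
        (hh.comp hobm) ?_
      intro ω ω' hω
      refine hdep _ _ fun c hc => ?_
      exact hω c.1.1 c.1.1.2 c.1.2 c.2 (hCK c hc)
    simp_rw [e1]
    rw [hlint h hh]
    refine tendsto_finsetSum _ fun S _ => ?_
    refine ENNReal.Tendsto.mul_const ?_ (Or.inr ?_)
    · exact ENNReal.tendsto_ofReal (limB_tendsto_ip F S θs θ hs2)
    · refine ne_top_of_le_ne_top (b := (M : ENNReal)) ENNReal.coe_ne_top ?_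
      calc ∫⁻ ω, h (ob (TS F S ω)) ∂PP V ≤ ∫⁻ ω, (M : ENNReal) ∂PP V := lintegral_mono fun ω => hM _
        _ = M := by simp

end LIM

end Crest.Agent.TI
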