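import Crest.Agent.TI_Defs
import Crest.Agent.SRF_Q

/-!
Row S0241, task Q: the quantile map
-/

set_option autoImplicit false
set_option linter.unusedSectionVars false
set_option linter.unusedVariables false

namespace Crest.Agent.TI

open MeasureTheory Filter Topology
open Crest.Agent.SRF (Lab lab)

/-! ### task Q : the quantile map -/

theorem cs_mem (m : ℝ) : -1 ≤ cs m ∧ cs m ≤ 1 := by
  unfold cs
  constructor
  · exact le_max_left _ _
  · exact max_le (by norm_num) (min_le_left _ _)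

theorem cs_of_mem {m : ℝ} (h0 : -1 ≤ m) (h1 : m ≤ 1) : cs m = m := by
  unfold cs
  rw [min_eq_right h1, max_eq_right h0]

theorem cs_lipschitz (m m' : ℝ) : |cs m - cs m'| ≤ |m - m'| := by
  unfold cs
  calc |max (-1) (min 1 m) - max (-1) (min 1 m')| ≤ |min 1 m - min 1 m'| := by
        have := abs_max_sub_max_le_max (-1:ℝ) (min 1 m) (-1) (min 1 m')
        simpa using this
    _ ≤ |m - m'| := by
        have := abs_min_sub_min_le_max (1:ℝ) m 1 m'
        simpa using this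

theorem measurable_cs : Measurable cs := by
  unfold cs
  fun_prop

theorem measurable_Qs : Measurable (fun q : ℝ × unitInterval => Qs q.1 q.2) := by
  unfold Qs Qs0
  have hc := measurable_cs
  have h1 : Measurable (fun q : ℝ × unitInterval => cs q.1) := hc.comp measurable_fst
  have h2 : Measurable (fun q : ℝ × unitInterval => (q.2 : ℝ)) := measurable_subtype_coe.comp measurable_snd
  refine (continuous_projIcc.measurable).comp ?_
  fun_prop

/-- basic facts about the quantile for parameters in range -/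
theorem Qs0_spec {m u : ℝ} (hm : -1 ≤ m) (hm' : m ≤ 1) (hu : 0 ≤ u) (hu' : u ≤ 1) :
    0 ≤ Qs0 m u ∧ Qs0 m u ≤ 1 ∧ Qs0 m u - m / 2 * (Qs0 m u * (1 - Qs0 m u)) = u := by
  unfold Qs0
  set D := Real.sqrt ((1 - m / 2) ^ 2 + 2 * m * u) with hD
  have hnn : 0 ≤ (1 - m / 2) ^ 2 + 2 * m * u := by
    rcases le_total 0 m with h | h
    · positivity
    · nlinarith [mul_nonneg (neg_nonneg.2 h) (sub_nonneg.2 hu'), sq_nonneg (1 + m / 2)]
  have hD0 : 0 ≤ D := Real.sqrt_nonneg _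
  have hDsq : D ^ 2 = (1 - m / 2) ^ 2 + 2 * m * u := Real.sq_sqrt hnn
  have hden : 0 < (1 - m / 2) + D := by linarith
  refine ⟨by positivity, ?_, ?_⟩
  · rw [div_le_one hden]
    by_contra hcon
    push Not at hcon
    -- D < 2u - (1 - m/2)
    have h1 : D < 2 * u - (1 - m / 2) := by linarith
    have h2 : D ^ 2 < (2 * u - (1 - m / 2)) ^ 2 := by
      apply pow_lt_pow_left₀ h1 hD0; norm_num
    rw [hDsq] at h2
    nlinarith [mul_nonneg hu (sub_nonneg.2 hu')]
  · have hx : 2 * u / ((1 - m / 2) + D) * ((1 - m / 2) + D) = 2 * u := div_mul_cancel₀ _ hden.ne'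
    set x := 2 * u / ((1 - m / 2) + D) with hxdef
    have hden2 : ((1 - m / 2) + D) ^ 2 ≠ 0 := by positivity
    have hzero : (x - m / 2 * (x * (1 - x)) - u) * ((1 - m / 2) + D) ^ 2 = 0 := by
      have e1 : (x - m / 2 * (x * (1 - x)) - u) * ((1 - m / 2) + D) ^ 2 =
          (1 - m / 2) * ((1 - m / 2) + D) * (x * ((1 - m / 2) + D))
            + m / 2 * (x * ((1 - m / 2) + D)) ^ 2 - u * ((1 - m / 2) + D) ^ 2 := by ring
      rw [e1, hx]
      have e2 : (1 - m / 2) * (1 - m / 2 + D) * (2 * u) + m / 2 * (2 * u) ^ 2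
          - u * (1 - m / 2 + D) ^ 2 = u * ((1 - m / 2) ^ 2 + 2 * m * u - D ^ 2) := by ring
      rw [e2, hDsq]; ring
    rcases mul_eq_zero.1 hzero with h | h
    · linarith
    · exact absurd h hden2

theorem Qs_coe (m : ℝ) (u : unitInterval) : ((Qs m u : unitInterval) : ℝ) = Qs0 (cs m) u := by
  unfold Qs
  obtain ⟨h0, h1, _⟩ := Qs0_spec (cs_mem m).1 (cs_mem m).2 u.2.1 u.2.2
  rw [Set.projIcc_of_mem _ ⟨h0, h1⟩]

theorem Qs_eq (m : ℝ) (u : unitInterval) :
    ((Qs m u : unitInterval) : ℝ) - cs m / 2 * ((Qs m u : ℝ) * (1 - (Qs m u : ℝ))) = u := by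
  rw [Qs_coe]
  exact (Qs0_spec (cs_mem m).1 (cs_mem m).2 u.2.1 u.2.2).2.2

theorem Qs_factor_pos {c z z' : ℝ} (hc : -1 ≤ c) (hc' : c ≤ 1) (hz0 : 0 ≤ z) (hz1 : z ≤ 1)
    (hz0' : 0 ≤ z') (hz1' : z' ≤ 1) : 1 / 2 ≤ 1 - c / 2 * (1 - z - z') := by
  have h1 : -1 ≤ 1 - z - z' := by linarith
  have h2 : 1 - z - z' ≤ 1 := by linarith
  nlinarith [mul_nonneg (sub_nonneg.2 hc') (sub_nonneg.2 h2), mul_nonneg (sub_nonneg.2 hc') (sub_nonneg.2 h1),
    mul_nonneg (sub_nonneg.2 hc) (sub_nonneg.2 h2), mul_nonneg (sub_nonneg.2 hc) (sub_nonneg.2 h1)]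

/-- uniqueness of the solution -/
theorem Qs_unique {m : ℝ} (hm : -1 ≤ m) (hm' : m ≤ 1) (u z : unitInterval)
    (h : (z : ℝ) - m / 2 * ((z : ℝ) * (1 - z)) = u) : Qs m u = z := by
  have h1 := Qs_eq m u
  rw [cs_of_mem hm hm'] at h1
  have hq0 := (Qs m u).2.1
  have hq1 := (Qs m u).2.2
  have hz0 := z.2.1
  have hz1 := z.2.2
  apply Subtype.ext
  have h2 : ((Qs m u : ℝ) - z) * (1 - m / 2 * (1 - (Qs m u : ℝ) - z)) = 0 := by
    have : (Qs m u : ℝ) - m / 2 * ((Qs m u : ℝ) * (1 - (Qs m u : ℝ))) = (z : ℝ) - m / 2 * ((z : ℝ) * (1 - z)) := by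
      rw [h1, h]
    ring_nf
    ring_nf at this
    linarith
  rcases mul_eq_zero.1 h2 with h3 | h3
  · linarith
  · exfalso
    have := Qs_factor_pos hm hm' hq0 hq1 hz0 hz1
    linarith

theorem Qs_zero (u : unitInterval) : Qs 0 u = u :=
  Qs_unique (by norm_num) zero_le_one u u (by simp)

theorem Qs_lipschitz (m m' : ℝ) (u : unitInterval) : |(Qs m u : ℝ) - Qs m' u| ≤ |m - m'| / 4 := by
  have h := Qs_eq m u
  have h' := Qs_eq m' u
  have hc := cs_lipschitz m m'
  obtain ⟨hm0, hm1⟩ := cs_mem m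
  obtain ⟨hm0', hm1'⟩ := cs_mem m'
  set c := cs m
  set c' := cs m'
  set z := (Qs m u : ℝ) with hz
  set z' := (Qs m' u : ℝ) with hz'
  have hz0 : 0 ≤ z := (Qs m u).2.1
  have hz1 : z ≤ 1 := (Qs m u).2.2
  have hz0' : 0 ≤ z' := (Qs m' u).2.1
  have hz1' : z' ≤ 1 := (Qs m' u).2.2
  -- (z - z') * (1 - c/2 * (1 - z - z')) = (c - c')/2 * z' (1 - z')
  have key : (z - z') * (1 - c / 2 * (1 - z - z')) = (c - c') / 2 * (z' * (1 - z')) := by
    nlinarith [h, h']
  have hA : 1 / 2 ≤ 1 - c / 2 * (1 - z - z') := Qs_factor_pos hm0 hm1 hz0 hz1 hz0' hz1'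
  have hB : z' * (1 - z') ≤ 1 / 4 := by nlinarith [sq_nonneg (z' - 1 / 2)]
  have hB0 : 0 ≤ z' * (1 - z') := mul_nonneg hz0' (by linarith)
  have h1 : |z - z'| * (1 / 2) ≤ |c - c'| / 2 * (1 / 4) := by
    calc |z - z'| * (1 / 2) ≤ |z - z'| * (1 - c / 2 * (1 - z - z')) := by
          apply mul_le_mul_of_nonneg_left hA (abs_nonneg _)
      _ = |(z - z') * (1 - c / 2 * (1 - z - z'))| := by
          rw [abs_mul, abs_of_pos (show (0:ℝ) < 1 - c / 2 * (1 - z - z') by linarith)]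
      _ = |(c - c') / 2 * (z' * (1 - z'))| := by rw [key]
      _ = |c - c'| / 2 * (z' * (1 - z')) := by
          rw [abs_mul, abs_div, abs_of_nonneg hB0]; norm_num
      _ ≤ |c - c'| / 2 * (1 / 4) := by
          apply mul_le_mul_of_nonneg_left hB (by positivity)
  linarith

theorem dens_pos (m : ℝ) (hm : -1 ≤ m) (hm' : m ≤ 1) {x : ℝ} (h0 : 0 ≤ x) (h1 : x ≤ 1) :
    0 < 1 + m * (x - 1 / 2) := by
  nlinarith [mul_nonneg (sub_nonneg.2 hm') (sub_nonneg.2 h1), mul_nonneg (sub_nonneg.2 hm) (sub_nonneg.2 h1),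
    mul_nonneg (sub_nonneg.2 hm') h0, mul_nonneg (sub_nonneg.2 hm) h0]

theorem lintegral_Qs (m : ℝ) (hm : -1 ≤ m) (hm' : m ≤ 1) (h : unitInterval → ENNReal)
    (hh : Measurable h) :
    ∫⁻ u : unitInterval, h (Qs m u) =
      ∫⁻ z : unitInterval, h z * ENNReal.ofReal (1 + m * ((z : ℝ) - 1 / 2)) := by
  set F : ℝ → ℝ := fun z => z - m / 2 * (z * (1 - z)) with hF
  have hderiv : ∀ x ∈ Set.Icc (0:ℝ) 1, HasDerivWithinAt F (1 + m * (x - 1 / 2)) (Set.Icc 0 1) x := by
    intro x _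
    have h1 : HasDerivAt F (1 - m / 2 * (1 * (1 - x) + x * (0 - 1))) x := by
      have ha : HasDerivAt (fun z : ℝ => z * (1 - z)) (1 * (1 - x) + x * (0 - 1)) x :=
        (hasDerivAt_id x).mul ((hasDerivAt_const x (1:ℝ)).sub (hasDerivAt_id x))
      exact (hasDerivAt_id x).sub (ha.const_mul (m / 2))
    have h2 : (1 - m / 2 * (1 * (1 - x) + x * (0 - 1))) = 1 + m * (x - 1 / 2) := by ring
    rw [h2] at h1
    exact h1.hasDerivWithinAt
  have hpos : ∀ x ∈ Set.Icc (0:ℝ) 1, 0 < 1 + m * (x - 1 / 2) := by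
    intro x hx
    exact dens_pos m hm hm' hx.1 hx.2
  have hdiff : ∀ x y : ℝ, F x - F y = (x - y) * (1 - m / 2 * (1 - x - y)) := by
    intro x y; simp only [hF]; ring
  have hinj : Set.InjOn F (Set.Icc 0 1) := by
    intro x hx y hy hxy
    have h3 : (x - y) * (1 - m / 2 * (1 - x - y)) = 0 := by rw [← hdiff, hxy, sub_self]
    rcases mul_eq_zero.1 h3 with h4 | h4
    · linarith
    · exfalso
      have := Qs_factor_pos hm hm' hx.1 hx.2 hy.1 hy.2
      linarith
  have himage : F '' Set.Icc 0 1 = Set.Icc 0 1 := by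
    apply Set.Subset.antisymm
    · rintro _ ⟨x, hx, rfl⟩
      have h5 : 0 ≤ x * (1 - x) := mul_nonneg hx.1 (by linarith [hx.2])
      have h6 : x * (1 - x) ≤ x := by nlinarith [hx.1, hx.2]
      have h7 : x * (1 - x) ≤ 1 - x := by nlinarith [hx.1, hx.2]
      constructor
      · simp only [hF]; nlinarith [hx.1, mul_nonneg (sub_nonneg.2 hm') h5]
      · simp only [hF]; nlinarith [hx.2, mul_nonneg (sub_nonneg.2 hm) h5]
    · intro u hu
      refine ⟨(Qs m ⟨u, hu⟩ : ℝ), (Qs m ⟨u, hu⟩).2, ?_⟩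
      have := Qs_eq m ⟨u, hu⟩
      rw [cs_of_mem hm hm'] at this
      simpa [hF] using this
  have hQF : ∀ x (hx : x ∈ Set.Icc (0:ℝ) 1), Qs m (Set.projIcc 0 1 zero_le_one (F x)) = ⟨x, hx⟩ := by
    intro x hx
    have hFx : F x ∈ Set.Icc (0:ℝ) 1 := by rw [← himage]; exact ⟨x, hx, rfl⟩
    apply Qs_unique hm hm'
    rw [Set.projIcc_of_mem _ hFx]
  have e1 : ∫⁻ u : unitInterval, h (Qs m u) =
      ∫⁻ x in Set.Icc (0:ℝ) 1, h (Qs m (Set.projIcc 0 1 zero_le_one x)) := by
    rw [← SRF.lintegral_unitInterval (fun x => h (Qs m (Set.projIcc 0 1 zero_le_one x)))]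
    refine lintegral_congr fun u => ?_
    rw [Set.projIcc_val]
  have e2 : ∫⁻ z : unitInterval, h z * ENNReal.ofReal (1 + m * ((z : ℝ) - 1 / 2)) =
      ∫⁻ x in Set.Icc (0:ℝ) 1, h (Set.projIcc 0 1 zero_le_one x) *
        ENNReal.ofReal (1 + m * (x - 1 / 2)) := by
    rw [← SRF.lintegral_unitInterval (fun x => h (Set.projIcc 0 1 zero_le_one x) *
        ENNReal.ofReal (1 + m * (x - 1 / 2)))]
    refine lintegral_congr fun u => ?_
    rw [Set.projIcc_val]
  rw [e1, e2]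
  conv_lhs => rw [← himage]
  rw [lintegral_image_eq_lintegral_abs_deriv_mul measurableSet_Icc hderiv hinj]
  refine setLIntegral_congr_fun measurableSet_Icc fun x hx => ?_
  rw [hQF x hx, Set.projIcc_of_mem _ hx, abs_of_pos (hpos x hx), mul_comm]

theorem measurable_dens (m : ℝ) : Measurable (fun z : unitInterval => 1 + m * ((z : ℝ) - 1 / 2)) := by
  have h2 : Measurable (fun q : unitInterval => (q : ℝ)) := measurable_subtype_coe
  fun_prop

theorem measurable_Qs_right (m : ℝ) : Measurable (fun u : unitInterval => Qs m u) :=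
  measurable_Qs.comp (measurable_const.prodMk measurable_id)

/-- the law of `Qs m` of a uniform is `withDensity` -/
theorem map_Qs (m : ℝ) (hm : -1 ≤ m) (hm' : m ≤ 1) :
    Measure.map (fun u : unitInterval => Qs m u) volume =
      (volume : Measure unitInterval).withDensity
        (fun z => ENNReal.ofReal (1 + m * ((z : ℝ) - 1 / 2))) := by
  refine Measure.ext fun s hs => ?_
  rw [Measure.map_apply (measurable_Qs_right m) hs, withDensity_apply _ hs]
  have h := lintegral_Qs m hm hm' (s.indicator 1) (measurable_one.indicator hs)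
  have h1 : ∫⁻ u : unitInterval, s.indicator (1 : unitInterval → ENNReal) (Qs m u) =
      volume ((fun u : unitInterval => Qs m u) ⁻¹' s) := by
    rw [← lintegral_indicator_one ((measurable_Qs_right m) hs)]
    rfl
  rw [← h1, h, ← lintegral_indicator hs]
  refine lintegral_congr fun z => ?_
  by_cases hz : z ∈ s
  · simp [hz]
  · simp [hz]

theorem integral_Qs (m : ℝ) (hm : -1 ≤ m) (hm' : m ≤ 1) (h : unitInterval → ℝ)
    (hh : Measurable h) (C : ℝ) (hC : ∀ z, |h z| ≤ C) :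
    ∫ u : unitInterval, h (Qs m u) = ∫ z : unitInterval, h z * (1 + m * ((z : ℝ) - 1 / 2)) := by
  have h1 : ∫ u : unitInterval, h (Qs m u) =
      ∫ z, h z ∂(Measure.map (fun u : unitInterval => Qs m u) volume) := by
    rw [integral_map (measurable_Qs_right m).aemeasurable hh.aestronglyMeasurable]
  rw [h1, map_Qs m hm hm']
  rw [integral_withDensity_eq_integral_toReal_smul (measurable_dens m).ennreal_ofReal
    (Filter.Eventually.of_forall fun z => ENNReal.ofReal_lt_top)]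
  refine integral_congr_ae (Filter.Eventually.of_forall fun z => ?_)
  simp only [smul_eq_mul]
  rw [ENNReal.toReal_ofReal (dens_pos m hm hm' z.2.1 z.2.2).le, mul_comm]

end Crest.Agent.TI
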