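import Crest.Agent.TI_ST
import Crest.Agent.TI_Q

/-!
Row S0241, task SCHa: the scheme: fixed point, measurability, naturality
-/

set_option autoImplicit false
set_option linter.unusedSectionVars false
set_option linter.unusedVariables false

namespace Crest.Agent.TI

open MeasureTheory Filter Topology
open Crest.Agent.SRF (Lab lab)

/-! ### task SCH : the scheme -/

section SCH

variable {V : Type*} [DecidableEq V]

theorem eps_nonneg (u : unitInterval) : 0 ≤ eps u := by
  unfold eps
  split_ifs
  · exact u.2.1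
  · exact le_rfl
theorem eps_le (u : unitInterval) : eps u ≤ (u : ℝ) ∧ eps u ≤ 1 / 2 := by
  unfold eps
  split_ifs with h
  · exact ⟨le_rfl, h.le⟩
  · exact ⟨u.2.1, by norm_num⟩
theorem measurable_eps : Measurable eps := by
  unfold eps
  exact Measurable.ite (measurableSet_lt measurable_subtype_coe measurable_const)
    measurable_subtype_coe measurable_const

theorem abs_tl_le (U z : Lab V) (v : V) (k : ℕ) : |tl U z v k| ≤ 1 / 4 := by
  unfold tl
  rw [abs_mul, abs_of_nonneg (eps_nonneg _)]
  have h1 := (eps_le (U (v, k))).2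
  have h2 : |((z (v, k) : unitInterval) : ℝ) - 1 / 2| ≤ 1 / 2 := by
    rw [abs_le]
    constructor
    · have := (z (v, k)).2.1
      linarith
    · have := (z (v, k)).2.2
      linarith
  calc eps (U (v, k)) * |((z (v, k) : unitInterval) : ℝ) - 1 / 2| ≤ (1 / 2) * (1 / 2) :=
        mul_le_mul h1 h2 (abs_nonneg _) (by norm_num)
    _ = 1 / 4 := by norm_num

theorem scha_fac (U z : Lab V) (v : V) (k : ℕ) (b : Bool) :
    3 / 4 ≤ 1 + sg b * tl U z v k ∧ 1 + sg b * tl U z v k ≤ 5 / 4 := by
  have h := abs_le.1 (abs_tl_le U z v k)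
  cases b <;> simp only [sg, if_true, if_false, Bool.false_eq_true] <;> constructor <;> linarith [h.1, h.2]

theorem lkh_bounds (U z : Lab V) (k : ℕ) (r : ℝ) (v : V) (b : Bool) :
    (3 / 4 : ℝ) ^ (k + 1) ≤ lkh U z k r v b ∧ lkh U z k r v b ≤ (5 / 4 : ℝ) ^ (k + 1) := by
  have h1 : (3 / 4 : ℝ) ^ k ≤ ∏ j ∈ Finset.range k, (1 + sg b * tl U z v j) := by
    have := Finset.prod_le_prod (s := Finset.range k) (f := fun _ => (3 / 4 : ℝ))
      (g := fun j => 1 + sg b * tl U z v j) (fun _ _ => by norm_num) (fun j _ => (scha_fac U z v j b).1)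
    rwa [Finset.prod_const, Finset.card_range] at this
  have h2 : ∏ j ∈ Finset.range k, (1 + sg b * tl U z v j) ≤ (5 / 4 : ℝ) ^ k := by
    have := Finset.prod_le_prod (s := Finset.range k) (g := fun _ => (5 / 4 : ℝ))
      (f := fun j => 1 + sg b * tl U z v j)
      (fun j _ => by linarith [(scha_fac U z v j b).1]) (fun j _ => (scha_fac U z v j b).2)
    rwa [Finset.prod_const, Finset.card_range] at this
  have h3 : (3 / 4 : ℝ) ≤ (if (U (v, k) : ℝ) < r then 1 + sg b * tl U z v k else 1) := by
    split_ifs
    · exact (scha_fac U z v k b).1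
    · norm_num
  have h4 : (if (U (v, k) : ℝ) < r then 1 + sg b * tl U z v k else 1) ≤ (5 / 4 : ℝ) := by
    split_ifs
    · exact (scha_fac U z v k b).2
    · norm_num
  have h5 : (0 : ℝ) < (3 / 4 : ℝ) ^ k := by positivity
  unfold lkh
  rw [pow_succ, pow_succ]
  constructor
  · exact mul_le_mul h1 h3 (by norm_num) (by linarith)
  · exact mul_le_mul h2 h4 (by linarith) (by positivity)

theorem lkh_pos (U z : Lab V) (k : ℕ) (r : ℝ) (v : V) (b : Bool) : 0 < lkh U z k r v b :=
  lt_of_lt_of_le (by positivity) (lkh_bounds U z k r v b).1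

/-- nothing happens in the second half of a stage -/
theorem lkh_stage (U z : Lab V) (k : ℕ) (r : ℝ) (hr : 1 / 2 ≤ r) :
    lkh U z k r = lkh U z (k + 1) 0 := by
  ext v b
  unfold lkh
  rw [Finset.prod_range_succ]
  have h0 : ¬ ((U (v, k + 1) : ℝ) < 0) := not_lt.2 (U (v, k + 1)).2.1
  rw [if_neg h0, mul_one]
  congr 1
  split_ifs with h
  · rfl
  · have h1 : eps (U (v, k)) = 0 := by
      unfold eps
      rw [if_neg]
      push Not at h ⊢
      linarith
    unfold tl
    rw [h1]
    ring

theorem lkh_zero (U z : Lab V) (v : V) (b : Bool) : lkh U z 0 0 v b = 1 := by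
  unfold lkh
  have h0 : ¬ ((U (v, 0) : ℝ) < 0) := not_lt.2 (U (v, 0)).2.1
  rw [if_neg h0]
  simp

/-- the likelihood at `v` only reads the past coordinates of `v` -/
theorem lkh_congr (U U' z z' : Lab V) (k : ℕ) (r r' : ℝ) (v : V)
    (h1 : ∀ j, j < k → U (v, j) = U' (v, j) ∧ z (v, j) = z' (v, j))
    (h2 : ((U (v, k) : ℝ) < r ↔ (U' (v, k) : ℝ) < r'))
    (h3 : (U (v, k) : ℝ) < r → U (v, k) = U' (v, k) ∧ z (v, k) = z' (v, k)) :
    lkh U z k r v = lkh U' z' k r' v := by
  ext b
  unfold lkh
  congr 1
  · refine Finset.prod_congr rfl fun j hj => ?_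
    have := h1 j (Finset.mem_range.1 hj)
    unfold tl
    rw [this.1, this.2]
  · by_cases h : (U (v, k) : ℝ) < r
    · rw [if_pos h, if_pos (h2.1 h)]
      unfold tl
      rw [(h3 h).1, (h3 h).2]
    · rw [if_neg h, if_neg (fun h' => h (h2.2 h'))]

theorem step_apply (p : Finset V → ℝ) (W : Finset V) (U L z : Lab V) (c : V × ℕ) :
    step p W U L z c =
      if c.1 ∈ W then Qs (eps (U c) * mn p W (lkh U z c.2 (U c)) c.1) (L c) else L c := rfl

/-- rank of an event -/
noncomputable def rks (W : Finset V) (U : Lab V) (g : V) (k : ℕ) : ℕ :=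
  k * (W.card + 1) + (W.filter (fun h => U (h, k) < U (g, k))).card

theorem rks_lt (W : Finset V) (U : Lab V) (g : V) (k : ℕ) :
    rks W U g k < (k + 1) * (W.card + 1) := by
  unfold rks
  have := Finset.card_filter_le W (fun h => U (h, k) < U (g, k))
  nlinarith

theorem rks_lt_of_lt (W : Finset V) (U : Lab V) (g h : V) (j k : ℕ) (hjk : j < k) :
    rks W U h j < rks W U g k := by
  have h1 := rks_lt W U h j
  have h2 : (j + 1) * (W.card + 1) ≤ k * (W.card + 1) := Nat.mul_le_mul_right _ hjk
  unfold rks at *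
  omega

theorem rks_lt_of_time (W : Finset V) (U : Lab V) (g h : V) (hh : h ∈ W) (k : ℕ)
    (ht : U (h, k) < U (g, k)) : rks W U h k < rks W U g k := by
  unfold rks
  refine Nat.add_lt_add_left ?_ _
  apply Finset.card_lt_card
  rw [Finset.ssubset_iff_of_subset]
  · exact ⟨h, by simp [hh, ht], by simp⟩
  · intro x hx
    rw [Finset.mem_filter] at hx ⊢
    exact ⟨hx.1, hx.2.trans ht⟩

/-- the iterates are stable beyond the rank -/
theorem iterate_stable (p : Finset V → ℝ) (W : Finset V) (U L : Lab V) :
    ∀ n : ℕ, ∀ (g : V) (k : ℕ), rks W U g k = n → ∀ m, n < m →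
      (step p W U L)^[m] L (g, k) = (step p W U L)^[n + 1] L (g, k) := by
  intro n
  induction n using Nat.strong_induction_on with
  | _ n ih =>
    intro g k hrk m hm
    obtain ⟨m, rfl⟩ : ∃ m', m = m' + 1 := ⟨m - 1, by omega⟩
    rw [Function.iterate_succ_apply', Function.iterate_succ_apply']
    unfold step
    by_cases hg : g ∈ W
    · simp only [if_pos hg]
      congr 2
      refine mn_congr p W _ _ (fun h hh => ?_) g
      have key : ∀ j : ℕ, (j < k ∨ (j = k ∧ U (h, k) < U (g, k))) →
          (step p W U L)^[m] L (h, j) = (step p W U L)^[n] L (h, j) := by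
        intro j hj
        have hlt : rks W U h j < n := by
          rw [← hrk]
          rcases hj with hj | ⟨rfl, ht⟩
          · exact rks_lt_of_lt W U g h j k hj
          · exact rks_lt_of_time W U g h hh _ ht
        rw [ih _ hlt h j rfl m (by omega), ih _ hlt h j rfl n hlt]
      refine lkh_congr U U _ _ k _ _ h (fun j hj => ⟨rfl, key j (Or.inl hj)⟩) Iff.rfl (fun ht => ⟨rfl, ?_⟩)
      exact key k (Or.inr ⟨rfl, Subtype.coe_lt_coe.1 ht⟩)
    · simp only [if_neg hg]

/-- `Zs` at a coordinate equals any high enough iterate -/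
theorem Zs_eq_iterate (p : Finset V → ℝ) (W : Finset V) (U L : Lab V) (g : V) (k m : ℕ)
    (hm : rks W U g k < m) : Zs p W U L (g, k) = (step p W U L)^[m] L (g, k) := by
  unfold Zs
  rw [iterate_stable p W U L _ g k rfl m hm, iterate_stable p W U L _ g k rfl _ (rks_lt W U g k)]

/-- the fixed point property of the scheme -/
theorem Zs_fix (p : Finset V → ℝ) (W : Finset V) (U L : Lab V) (c : V × ℕ) :
    Zs p W U L c = if c.1 ∈ W then
      Qs (eps (U c) * mn p W (lkh U (Zs p W U L) c.2 (U c)) c.1) (L c) else L c := by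
  obtain ⟨g, k⟩ := c
  set N := (k + 1) * (W.card + 1) with hN
  have hall : ∀ h j, j ≤ k → Zs p W U L (h, j) = (step p W U L)^[N] L (h, j) := by
    intro h j hj
    apply Zs_eq_iterate
    refine (rks_lt W U h j).trans_le ?_
    exact Nat.mul_le_mul_right _ (by omega)
  have h1 : Zs p W U L (g, k) = (step p W U L)^[N + 1] L (g, k) := by
    apply Zs_eq_iterate
    exact (rks_lt W U g k).trans (Nat.lt_succ_self _)
  rw [h1, Function.iterate_succ_apply']
  conv_lhs => unfold step
  by_cases hg : g ∈ W
  · simp only [if_pos hg]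
    congr 2
    refine mn_congr p W _ _ (fun h hh => ?_) g
    refine lkh_congr U U _ _ k _ _ h (fun j hj => ⟨rfl, ?_⟩) Iff.rfl (fun ht => ⟨rfl, ?_⟩)
    · exact (hall h j hj.le).symm
    · exact (hall h k le_rfl).symm
  · simp only [if_neg hg]

/-- the data at time `(k, r)` only depend on the labels of the events before `(k, r)` -/
theorem lkh_Zs_congr (p : Finset V → ℝ) (W : Finset V) (U U' L L' : Lab V) (k : ℕ) (r : ℝ)
    (h1 : ∀ c : V × ℕ, c.2 < k → U c = U' c ∧ L c = L' c)
    (h2 : ∀ v : V, ((U (v, k) : ℝ) < r ∨ (U' (v, k) : ℝ) < r) → U (v, k) = U' (v, k) ∧ L (v, k) = L' (v, k)) :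
    lkh U (Zs p W U L) k r = lkh U' (Zs p W U' L') k r := by
  -- equality of the observations at all past events
  have key : ∀ n : ℕ, ∀ (g : V) (j : ℕ), rks W U g j = n → (j < k ∨ (j = k ∧ (U (g, k) : ℝ) < r)) →
      Zs p W U L (g, j) = Zs p W U' L' (g, j) := by
    intro n
    induction n using Nat.strong_induction_on with
    | _ n ih =>
      intro g j hrk hj
      have hc : U (g, j) = U' (g, j) ∧ L (g, j) = L' (g, j) := by
        rcases hj with hj | ⟨rfl, hj⟩
        · exact h1 (g, j) hj
        · exact h2 g (Or.inl hj)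
      rw [Zs_fix p W U L (g, j), Zs_fix p W U' L' (g, j)]
      by_cases hg : g ∈ W
      · simp only [if_pos hg]
        rw [← hc.1, ← hc.2]
        congr 2
        refine mn_congr p W _ _ (fun h hh => ?_) g
        have hjk : j ≤ k := by rcases hj with hj | hj; exacts [hj.le, hj.1.le]
        have hU : ((U (h, j) : ℝ) < U (g, j) ∨ (U' (h, j) : ℝ) < U (g, j)) →
            U (h, j) = U' (h, j) := by
          intro hlt
          rcases hj with hj | ⟨rfl, hj⟩
          · exact (h1 (h, j) hj).1
          · refine (h2 h ?_).1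
            rcases hlt with hlt | hlt
            · exact Or.inl (hlt.trans hj)
            · exact Or.inr (hlt.trans hj)
        refine lkh_congr U U' _ _ j _ _ h (fun i hi => ⟨?_, ?_⟩) ⟨fun ht => ?_, fun ht => ?_⟩
          (fun ht => ⟨?_, ?_⟩)
        · exact (h1 (h, i) (lt_of_lt_of_le hi hjk)).1
        · exact ih _ (hrk ▸ rks_lt_of_lt W U g h i j hi) h i rfl (Or.inl (lt_of_lt_of_le hi hjk))
        · rw [← hU (Or.inl ht)]; exact ht
        · rw [hU (Or.inr ht)]; exact ht
        · exact hU (Or.inl ht)
        · refine ih _ (hrk ▸ rks_lt_of_time W U g h hh j (Subtype.coe_lt_coe.1 ht)) h j rfl ?_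
          rcases hj with hj | ⟨rfl, hj⟩
          · exact Or.inl hj
          · exact Or.inr ⟨rfl, ht.trans hj⟩
      · simp only [if_neg hg]
        exact hc.2
  ext1 v
  refine lkh_congr U U' _ _ k _ _ v (fun j hj => ⟨(h1 (v, j) hj).1, key _ v j rfl (Or.inl hj)⟩)
    ⟨fun ht => ?_, fun ht => ?_⟩ (fun ht => ⟨(h2 v (Or.inl ht)).1, key _ v k rfl (Or.inr ⟨rfl, ht⟩)⟩)
  · rw [← (h2 v (Or.inl ht)).1]; exact ht
  · rw [(h2 v (Or.inr ht)).1]; exact ht

section param

variable {Ω : Type*} [MeasurableSpace Ω]

theorem measurable_tl_param (UU zz : Ω → Lab V) (hU : Measurable UU) (hz : Measurable zz) (v : V)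
    (k : ℕ) : Measurable (fun ω => tl (UU ω) (zz ω) v k) := by
  unfold tl
  refine Measurable.mul (measurable_eps.comp ((measurable_pi_apply _).comp hU)) ?_
  exact (measurable_subtype_coe.comp ((measurable_pi_apply _).comp hz)).sub_const _

theorem measurable_lkh_param (UU zz : Ω → Lab V) (rr : Ω → ℝ) (hU : Measurable UU)
    (hz : Measurable zz) (hr : Measurable rr) (k : ℕ) :
    Measurable (fun ω => lkh (UU ω) (zz ω) k (rr ω)) := by
  refine measurable_pi_lambda _ fun v => measurable_pi_lambda _ fun b => ?_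
  unfold lkh
  refine Measurable.mul ?_ ?_
  · exact Finset.measurable_fun_prod _ fun j _ =>
      measurable_const.add (measurable_const.mul (measurable_tl_param UU zz hU hz v j))
  · refine Measurable.ite ?_ (measurable_const.add (measurable_const.mul
      (measurable_tl_param UU zz hU hz v k))) measurable_const
    exact measurableSet_lt (measurable_subtype_coe.comp ((measurable_pi_apply _).comp hU)) hr

theorem measurable_step_param (p : Finset V → ℝ) (W : Finset V) (UU LL zz : Ω → Lab V)
    (hU : Measurable UU) (hL : Measurable LL) (hz : Measurable zz) :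
    Measurable (fun ω => step p W (UU ω) (LL ω) (zz ω)) := by
  refine measurable_pi_lambda _ fun c => ?_
  unfold step
  have hLc : Measurable (fun ω => LL ω c) := (measurable_pi_apply c).comp hL
  have hUc : Measurable (fun ω => UU ω c) := (measurable_pi_apply c).comp hU
  by_cases hc : c.1 ∈ W
  · simp only [if_pos hc]
    refine measurable_Qs.comp (Measurable.prodMk ?_ hLc)
    refine (measurable_eps.comp hUc).mul ?_
    exact (measurable_mn p W c.1).comp
      (measurable_lkh_param UU zz (fun ω => (UU ω c : ℝ)) hU hz (measurable_subtype_coe.comp hUc) c.2)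
  · simp only [if_neg hc]
    exact hLc

theorem measurable_Zs_param (p : Finset V → ℝ) (W : Finset V) (UU LL : Ω → Lab V)
    (hU : Measurable UU) (hL : Measurable LL) :
    Measurable (fun ω => Zs p W (UU ω) (LL ω)) := by
  have hit : ∀ n : ℕ, Measurable (fun ω => (step p W (UU ω) (LL ω))^[n] (LL ω)) := by
    intro n
    induction n with
    | zero => simpa using hL
    | succ n ih =>
      simp_rw [Function.iterate_succ_apply']
      exact measurable_step_param p W UU LL _ hU hL ih
  refine measurable_pi_lambda _ fun c => ?_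
  exact (measurable_pi_apply c).comp (hit ((c.2 + 1) * (W.card + 1)))

end param

theorem measurable_Zs2 (p : Finset V → ℝ) (W : Finset V) :
    Measurable (fun q : Lab V × Lab V => Zs p W q.1 q.2) :=
  measurable_Zs_param p W _ _ measurable_fst measurable_snd

theorem measurable_tU : Measurable (tU (V := V)) :=
  measurable_pi_lambda _ fun _ => measurable_pi_apply _
theorem measurable_tL : Measurable (tL (V := V)) :=
  measurable_pi_lambda _ fun _ => measurable_pi_apply _
theorem measurable_Zo (p : Finset V → ℝ) (W : Finset V) : Measurable (Zo p W) := by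
  refine measurable_pi_lambda _ fun c => ?_
  unfold Zo
  by_cases hc : c.1.2 = true
  · simp only [if_pos hc]
    exact (measurable_pi_iff.1 (measurable_Zs_param p W _ _ measurable_tU measurable_tL)) (c.1.1, c.2)
  · simp only [if_neg hc]
    exact measurable_pi_apply c
theorem measurable_act (g : V ≃ V) : Measurable (act g) :=
  measurable_pi_lambda _ fun _ => measurable_pi_apply _

/-- permuting the coordinates preserves the label law -/
theorem map_act (g : V ≃ V) : (PP V).map (act g) = PP V := by
  refine Measure.eq_infinitePi _ fun s t ht => ?_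
  rw [Measure.map_apply (measurable_act g) (MeasurableSet.pi s.countable_toSet fun _ _ => ht _)]
  set σ : (V × Bool) × ℕ ≃ (V × Bool) × ℕ :=
    Equiv.prodCongr (Equiv.prodCongr g (Equiv.refl Bool)) (Equiv.refl ℕ) with hσ
  have hset : (act g) ⁻¹' (Set.pi s t) =
      Set.pi (s.map σ.toEmbedding) (fun j => t (σ.symm j)) := by
    ext ω
    simp only [Set.mem_preimage, Set.mem_pi, Finset.mem_coe, Finset.mem_map, Equiv.coe_toEmbedding]
    constructor
    · rintro h j ⟨i, hi, rfl⟩
      rw [Equiv.symm_apply_apply]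
      exact h i hi
    · intro h i hi
      have := h (σ i) ⟨i, hi, rfl⟩
      rw [Equiv.symm_apply_apply] at this
      exact this
  rw [hset]
  have hPP : PP V = Measure.infinitePi (fun _ : (V × Bool) × ℕ => (volume : Measure unitInterval)) := rfl
  rw [hPP, Measure.infinitePi_pi _ (fun j _ => ht _), Finset.prod_map]
  refine Finset.prod_congr rfl fun i _ => ?_
  simp

/-- joint measurability in time and labels -/
theorem measurable_raw2 (k : ℕ) : Measurable (fun q : ℝ × Om V => raw k q.1 q.2) :=
  measurable_lkh_param _ _ _ (measurable_tU.comp measurable_snd) (measurable_tL.comp measurable_snd)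
    measurable_fst k
theorem measurable_dat2 (p : Finset V → ℝ) (W : Finset V) (k : ℕ) :
    Measurable (fun q : ℝ × Om V => dat p W k q.1 q.2) :=
  measurable_lkh_param _ _ _ (measurable_tU.comp measurable_snd)
    (measurable_Zs_param p W _ _ (measurable_tU.comp measurable_snd)
      (measurable_tL.comp measurable_snd)) measurable_fst k
theorem measurable_MM2 (p : Finset V → ℝ) (W : Finset V) (k : ℕ) (v : V) :
    Measurable (fun q : ℝ × Om V => MM p W k q.1 v q.2) :=
  (measurable_mn p W v).comp (measurable_dat2 p W k)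
theorem measurable_KK2 (p : Finset V → ℝ) (W : Finset V) (k : ℕ) (v u : V) :
    Measurable (fun q : ℝ × Om V => KK p W k q.1 v u q.2) :=
  (measurable_cv p W v u).comp (measurable_dat2 p W k)

theorem dat_eq_raw (p : Finset V → ℝ) (W : Finset V) (k : ℕ) (r : ℝ) (ω : Om V) :
    dat p W k r ω = raw k r (Zo p W ω) := rfl

/-- naturality -/
theorem Zs_map (g : V ≃ V) (p : Finset V → ℝ) (W : Finset V) (U L : Lab V) (c : V × ℕ) :
    Zs p (W.map g.toEmbedding) U L (g c.1, c.2) =
      Zs (fun S => p (S.map g.toEmbedding)) W (fun c => U (g c.1, c.2)) (fun c => L (g c.1, c.2)) c := by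
  have hit : ∀ n : ℕ, ∀ c : V × ℕ, (step p (W.map g.toEmbedding) U L)^[n] L (g c.1, c.2) =
      (step (fun S => p (S.map g.toEmbedding)) W (fun c => U (g c.1, c.2))
        (fun c => L (g c.1, c.2)))^[n] (fun c => L (g c.1, c.2)) c := by
    intro n
    induction n with
    | zero => intro c; rfl
    | succ n ih =>
      intro c
      rw [Function.iterate_succ_apply', Function.iterate_succ_apply']
      rw [step_apply, step_apply]
      have hmem : g c.1 ∈ W.map g.toEmbedding ↔ c.1 ∈ W := by
        exact Finset.mem_map' g.toEmbedding (a := c.1) (s := W)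
      by_cases hc : c.1 ∈ W
      · simp only [if_pos hc, if_pos (hmem.2 hc)]
        congr 2
        have h1 := mn_map g.toEmbedding p W
          (lkh U ((step p (W.map g.toEmbedding) U L)^[n] L) c.2 (U (g c.1, c.2))) c.1
        rw [Equiv.coe_toEmbedding] at h1
        rw [h1]
        refine mn_congr _ W _ _ (fun h _ => ?_) c.1
        ext b
        unfold lkh
        congr 1
        · refine Finset.prod_congr rfl fun j _ => ?_
          unfold tl
          rw [ih (h, j)]
        · unfold tl
          rw [ih (h, c.2)]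
      · simp only [if_neg hc, if_neg (fun h => hc (hmem.1 h))]
  unfold Zs
  rw [Finset.card_map]
  exact hit _ c

theorem dat_map (g : V ≃ V) (p : Finset V → ℝ) (W : Finset V) (k : ℕ) (r : ℝ) (v : V) (ω : Om V) :
    dat p (W.map g.toEmbedding) k r ω (g v) =
      dat (fun S => p (S.map g.toEmbedding)) W k r (act g ω) v := by
  have hZ : ∀ c : V × ℕ, Zs p (W.map g.toEmbedding) (tU ω) (tL ω) (g c.1, c.2) =
      Zs (fun S => p (S.map g.toEmbedding)) W (tU (act g ω)) (tL (act g ω)) c :=
    fun c => Zs_map g p W (tU ω) (tL ω) c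
  ext b
  unfold dat lkh
  congr 1
  · refine Finset.prod_congr rfl fun j _ => ?_
    unfold tl
    rw [hZ (v, j)]
    rfl
  · unfold tl
    rw [hZ (v, k)]
    rfl

theorem MM_map (g : V ≃ V) (p : Finset V → ℝ) (W : Finset V) (k : ℕ) (r : ℝ) (v : V) (ω : Om V) :
    MM p (W.map g.toEmbedding) k r (g v) ω =
      MM (fun S => p (S.map g.toEmbedding)) W k r v (act g ω) := by
  unfold MM
  have h1 := mn_map g.toEmbedding p W (dat p (W.map g.toEmbedding) k r ω) v
  rw [Equiv.coe_toEmbedding] at h1
  rw [h1]
  exact mn_congr _ W _ _ (fun h _ => dat_map g p W k r h ω) v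

theorem KK_map (g : V ≃ V) (p : Finset V → ℝ) (W : Finset V) (k : ℕ) (r : ℝ) (v u : V) (ω : Om V) :
    KK p (W.map g.toEmbedding) k r (g v) (g u) ω =
      KK (fun S => p (S.map g.toEmbedding)) W k r v u (act g ω) := by
  unfold KK
  have h1 := cv_map g.toEmbedding p W (dat p (W.map g.toEmbedding) k r ω) v u
  rw [Equiv.coe_toEmbedding] at h1
  rw [h1]
  exact cv_congr _ W _ _ (fun h _ => dat_map g p W k r h ω) v u

end SCH

end Crest.Agent.TI
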