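import Crest.Agent.TI_KFb
import Crest.Agent.TI_Scha
import Crest.Agent.TI_RAa
import Crest.Agent.TI_TRa

/-!
Row S0241, task Suba: pointwise comparisons of two window schemes
-/

set_option autoImplicit false
set_option linter.unusedSectionVars false
set_option linter.unusedVariables false

namespace Crest.Agent.TI

open MeasureTheory Filter Topology
open Crest.Agent.SRF (Lab lab)


section SUB

variable {V : Type*} [DecidableEq V] {G : SimpleGraph V}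

/-- `κ` bounds all the posterior means of stage `k` -/
def KB (G : SimpleGraph V) (b k : ℕ) (κ : ℝ) : Prop :=
  0 < κ ∧ κ < 1 ∧ ∀ (θ : ℝ) (W : Finset V) (l : V → Bool → ℝ) (x : V), 0 ≤ θ → b * θ ^ 2 ≤ 1 →
    Win G W → x ∈ W → (∀ v c, (3 / 4 : ℝ) ^ (k + 1) ≤ l v c) → (∀ v c, l v c ≤ (5 / 4 : ℝ) ^ (k + 1)) →
    |mn (ip G θ W) W l x| ≤ κ

open Classical in
/-- the bound (a constant `< 1` depending only on the tree and the stage) -/
noncomputable def kp (G : SimpleGraph V) (b k : ℕ) : ℝ :=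
  if h : ∃ κ, KB G b k κ then h.choose else 1 / 2

theorem kp_spec [G.LocallyFinite] (hT : G.IsTree) (b : ℕ) (hb : 2 ≤ b)
    (hreg : G.IsRegularOfDegree (b + 1)) (k : ℕ) : KB G b k (kp G b k) := by
  have hex : ∃ κ, KB G b k κ := by
    have hb1 : (1 : ℝ) < b := by exact_mod_cast (by omega : 1 < b)
    have hb0 : (0 : ℝ) < b := by linarith
    have hs : 1 < Real.sqrt b := by
      rw [← Real.sqrt_one]; exact Real.sqrt_lt_sqrt (by norm_num) hb1
    obtain ⟨κ, h0, h1, h⟩ := mn_bound (G := G) hT (b + 1) hreg (1 / Real.sqrt b)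
      ((k + 1 : ℕ) * Real.log (4 / 3)) (by rw [div_lt_one (by linarith)]; exact hs)
    refine ⟨κ, h0, h1, ?_⟩
    intro θ W l x hθ0 hθ1 hW hx hl1 hl2
    refine h θ W l x hθ0 ?_ hW hx ?_ ?_
    · rw [le_div_iff₀ (by linarith)]
      have h2 : (θ * Real.sqrt b) ^ 2 ≤ 1 := by
        rw [mul_pow, Real.sq_sqrt hb0.le]; linarith
      have h3 : 0 ≤ θ * Real.sqrt b := mul_nonneg hθ0 (Real.sqrt_nonneg _)
      nlinarith
    · intro v c
      have e : Real.exp (-((k + 1 : ℕ) * Real.log (4 / 3))) = (3 / 4 : ℝ) ^ (k + 1) := by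
        rw [Real.exp_neg, Real.exp_nat_mul, Real.exp_log (by norm_num), ← inv_pow]
        norm_num
      rw [e]; exact hl1 v c
    · intro v c
      have e : Real.exp ((k + 1 : ℕ) * Real.log (4 / 3)) = (4 / 3 : ℝ) ^ (k + 1) := by
        rw [Real.exp_nat_mul, Real.exp_log (by norm_num)]
      rw [e]
      exact (hl2 v c).trans (pow_le_pow_left₀ (by norm_num) (by norm_num) _)
  unfold kp
  rw [dif_pos hex]
  exact hex.choose_spec

theorem lt_one_of_sq {b : ℕ} (hb : 2 ≤ b) {θ : ℝ} (h0 : 0 ≤ θ) (h1 : b * θ ^ 2 ≤ 1) : θ < 1 := by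
  have hb1 : (2 : ℝ) ≤ b := by exact_mod_cast hb
  by_contra h
  push Not at h
  nlinarith

theorem abs_MW_le [G.LocallyFinite] (hT : G.IsTree) (b : ℕ) (hb : 2 ≤ b)
    (hreg : G.IsRegularOfDegree (b + 1)) (k : ℕ) (θ : ℝ) (h0 : 0 ≤ θ) (h1 : b * θ ^ 2 ≤ 1)
    (W : Finset V) (hW : Win G W) (r : ℝ) (x : V) (hx : x ∈ W) (ω : Om V) :
    |MW G θ W k r x ω| ≤ kp G b k :=
  (kp_spec hT b hb hreg k).2.2 θ W _ x h0 h1 hW hx (fun v c => (lkh_bounds _ _ k r v c).1)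
    (fun v c => (lkh_bounds _ _ k r v c).2)

theorem abs_BB_le [G.LocallyFinite] (hT : G.IsTree) (b : ℕ) (hb : 2 ≤ b)
    (hreg : G.IsRegularOfDegree (b + 1)) (k : ℕ) (θ : ℝ) (h0 : 0 ≤ θ) (h1 : b * θ ^ 2 ≤ 1)
    (W : Finset V) (hW : Win G W) (r : ℝ) (x y : V) (hx : x ∈ W) (hxy : G.Adj x y) (ω : Om V) :
    |BB G θ W k r x y ω| ≤ kp G b k :=
  (kp_spec hT b hb hreg k).2.2 θ (sd G W x y) _ x h0 h1 (win_sd hT hW hx hxy)
    (mem_sd_self hx hxy) (fun v c => (lkh_bounds _ _ k r v c).1)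
    (fun v c => (lkh_bounds _ _ k r v c).2)

theorem MW_pair (hT : G.IsTree) (θ : ℝ) (h0 : 0 ≤ θ) (h1 : θ < 1) (W : Finset V) (hW : Win G W)
    (k : ℕ) (r : ℝ) (x y : V) (hx : x ∈ W) (hy : y ∈ W) (hxy : G.Adj x y) (ω : Om V) :
    MW G θ W k r x ω = (BB G θ W k r x y ω + θ * BB G θ W k r y x ω) /
      (1 + θ * (BB G θ W k r x y ω * BB G θ W k r y x ω)) :=
  mn_pair hT θ h0 h1 hW hx hy hxy _ (fun v c => lkh_pos _ _ k r v c)

theorem KW_path (hT : G.IsTree) (θ : ℝ) (h0 : 0 ≤ θ) (h1 : θ < 1) (W : Finset V) (hW : Win G W)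
    (k : ℕ) (r : ℝ) (x : ℕ → V) (n : ℕ) (hx : Geo G x n) (hxW : ∀ i ≤ n, x i ∈ W) (ω : Om V) :
    KW G θ W k r (x 0) (x n) ω = (1 - MW G θ W k r (x 0) ω ^ 2) *
      ∏ i ∈ Finset.range n, (θ * psi θ (BB G θ W k r (x (i + 1)) (x i) ω)) :=
  cv_path hT θ h0 h1 hW x n hx hxW _ (fun v c => lkh_pos _ _ k r v c)

theorem psi_bd {θ B : ℝ} (h0 : 0 ≤ θ) (h1 : θ < 1) (hB : B ^ 2 < 1) : 0 ≤ psi θ B ∧ psi θ B ≤ 1 := by
  have h2 : θ ^ 2 * B ^ 2 ≤ B ^ 2 := by
    have : θ ^ 2 ≤ 1 := by nlinarith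
    nlinarith [sq_nonneg B]
  have h3 : 0 < 1 - θ ^ 2 * B ^ 2 := by linarith
  unfold psi
  exact ⟨div_nonneg (by linarith) h3.le, (div_le_one h3).2 (by linarith)⟩

theorem BB_sq_lt (hT : G.IsTree) (θ : ℝ) (h0 : 0 ≤ θ) (h1 : θ < 1) (W : Finset V) (hW : Win G W)
    (k : ℕ) (r : ℝ) (x y : V) (hx : x ∈ W) (hxy : G.Adj x y) (ω : Om V) :
    BB G θ W k r x y ω ^ 2 < 1 :=
  kf_abs_mn_lt hT θ h0 h1 (win_sd hT hW hx hxy) (mem_sd_self hx hxy) _
    (fun v c => lkh_pos _ _ k r v c)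

theorem MW_sq_lt (hT : G.IsTree) (θ : ℝ) (h0 : 0 ≤ θ) (h1 : θ < 1) (W : Finset V) (hW : Win G W)
    (k : ℕ) (r : ℝ) (x : V) (hx : x ∈ W) (ω : Om V) :
    MW G θ W k r x ω ^ 2 < 1 :=
  kf_abs_mn_lt hT θ h0 h1 hW hx _ (fun v c => lkh_pos _ _ k r v c)

theorem KW_bound (hT : G.IsTree) (θ : ℝ) (h0 : 0 ≤ θ) (h1 : θ < 1) (W : Finset V) (hW : Win G W)
    (k : ℕ) (r : ℝ) (v u : V) (ω : Om V) : |KW G θ W k r v u ω| ≤ θ ^ (G.dist v u) := by
  by_cases hu : u ∈ W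
  · by_cases hv : v ∈ W
    · obtain ⟨x, hx0, hxn, hx⟩ := geo_exists hT v u
      have hxW := win_geo hT hW hx (by rw [hx0]; exact hv) (by rw [hxn]; exact hu)
      have h := KW_path hT θ h0 h1 W hW k r x (G.dist v u) hx hxW ω
      rw [hx0, hxn] at h
      rw [h, abs_mul]
      have hM := MW_sq_lt hT θ h0 h1 W hW k r v hv ω
      have e1 : |1 - MW G θ W k r v ω ^ 2| ≤ 1 := by
        rw [abs_le]; constructor <;> nlinarith [sq_nonneg (MW G θ W k r v ω)]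
      have e2 : |∏ i ∈ Finset.range (G.dist v u), (θ * psi θ (BB G θ W k r (x (i + 1)) (x i) ω))| ≤
          θ ^ (G.dist v u) := by
        rw [Finset.abs_prod]
        calc ∏ i ∈ Finset.range (G.dist v u), |θ * psi θ (BB G θ W k r (x (i + 1)) (x i) ω)|
            ≤ ∏ i ∈ Finset.range (G.dist v u), θ := by
              apply Finset.prod_le_prod
              · intro i _; exact abs_nonneg _
              · intro i hi
                have hi' := Finset.mem_range.1 hi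
                have hb := BB_sq_lt hT θ h0 h1 W hW k r (x (i + 1)) (x i) (hxW (i + 1) (by omega))
                  (geo_adj hx i hi').symm ω
                obtain ⟨p0, p1⟩ := psi_bd h0 h1 hb
                rw [abs_of_nonneg (mul_nonneg h0 p0)]
                nlinarith
          _ = θ ^ (G.dist v u) := by simp
      calc |1 - MW G θ W k r v ω ^ 2| *
            |∏ i ∈ Finset.range (G.dist v u), (θ * psi θ (BB G θ W k r (x (i + 1)) (x i) ω))|
          ≤ 1 * θ ^ (G.dist v u) := mul_le_mul e1 e2 (abs_nonneg _) (by norm_num)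
        _ = _ := one_mul _
    · have : KW G θ W k r v u ω = 0 := by
        unfold KW KK
        rw [cv_comm]
        exact cv_notMem (isMass_ip hT θ h0 h1.le hW) _ (fun v c => lkh_pos _ _ k r v c) u v hv
      rw [this, abs_zero]; positivity
  · have : KW G θ W k r v u ω = 0 :=
      cv_notMem (isMass_ip hT θ h0 h1.le hW) _ (fun v c => lkh_pos _ _ k r v c) v u hu
    rw [this, abs_zero]; positivity

/-- the cavity messages are Lipschitz functions of the means at the two ends of the edge -/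
theorem BB_lip [G.LocallyFinite] (hT : G.IsTree) (b : ℕ) (hb : 2 ≤ b)
    (hreg : G.IsRegularOfDegree (b + 1)) (k : ℕ) : ∃ C : ℝ, 0 < C ∧
    ∀ (θ θ' : ℝ) (W W' : Finset V) (r : ℝ) (x y : V) (ω : Om V), 0 ≤ θ → b * θ ^ 2 ≤ 1 → 0 ≤ θ' →
      b * θ' ^ 2 ≤ 1 → Win G W → Win G W' → x ∈ W → y ∈ W → x ∈ W' → y ∈ W' → G.Adj x y →
      |BB G θ W k r x y ω - BB G θ' W' k r x y ω| ≤
        C * (|MW G θ W k r x ω - MW G θ' W' k r x ω| + |MW G θ W k r y ω - MW G θ' W' k r y ω| +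
          |θ - θ'|) := by
  have hb1 : (1 : ℝ) < b := by exact_mod_cast (by omega : 1 < b)
  have hb0 : (0 : ℝ) < b := by linarith
  have hs : 1 < Real.sqrt b := by
    rw [← Real.sqrt_one]; exact Real.sqrt_lt_sqrt (by norm_num) hb1
  have hθ1 : ∀ θ : ℝ, 0 ≤ θ → b * θ ^ 2 ≤ 1 → θ ≤ 1 / Real.sqrt b := by
    intro θ hθ0 hθ1
    rw [le_div_iff₀ (by linarith)]
    have h2 : (θ * Real.sqrt b) ^ 2 ≤ 1 := by
      rw [mul_pow, Real.sq_sqrt hb0.le]; linarith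
    have h3 : 0 ≤ θ * Real.sqrt b := mul_nonneg hθ0 (Real.sqrt_nonneg _)
    nlinarith
  obtain ⟨hk0, hk1, -⟩ := kp_spec hT b hb hreg k
  obtain ⟨C, hC, h⟩ := pair_lip (1 / Real.sqrt b) (kp G b k)
    (by rw [div_lt_one (by linarith)]; exact hs) hk1
  refine ⟨C, hC, ?_⟩
  intro θ θ' W W' r x y ω h0 h1 h0' h1' hW hW' hx hy hx' hy' hxy
  have k1 := h θ θ' (BB G θ W k r x y ω) (BB G θ W k r y x ω) (BB G θ' W' k r x y ω)
    (BB G θ' W' k r y x ω) h0 (hθ1 θ h0 h1) h0' (hθ1 θ' h0' h1')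
    (abs_BB_le hT b hb hreg k θ h0 h1 W hW r x y hx hxy ω)
    (abs_BB_le hT b hb hreg k θ h0 h1 W hW r y x hy hxy.symm ω)
    (abs_BB_le hT b hb hreg k θ' h0' h1' W' hW' r x y hx' hxy ω)
    (abs_BB_le hT b hb hreg k θ' h0' h1' W' hW' r y x hy' hxy.symm ω)
  have t1 : θ < 1 := lt_one_of_sq hb h0 h1
  have t1' : θ' < 1 := lt_one_of_sq hb h0' h1'
  rw [MW_pair hT θ h0 t1 W hW k r x y hx hy hxy ω,
    MW_pair hT θ' h0' t1' W' hW' k r x y hx' hy' hxy ω,
    MW_pair hT θ h0 t1 W hW k r y x hy hx hxy.symm ω,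
    MW_pair hT θ' h0' t1' W' hW' k r y x hy' hx' hxy.symm ω]
  rw [mul_comm (BB G θ W k r y x ω), mul_comm (BB G θ' W' k r y x ω)]
  exact k1

theorem psi_lip {κ : ℝ} (hκ0 : 0 < κ) (hκ : κ < 1) : ∃ C : ℝ, 0 < C ∧ ∀ θ B B' : ℝ, 0 ≤ θ → θ < 1 →
    |B| ≤ κ → |B'| ≤ κ → |psi θ B - psi θ B'| ≤ C * |B - B'| := by
  refine ⟨2 / (1 - κ ^ 2) ^ 2, by
    have : 0 < 1 - κ ^ 2 := by nlinarith
    positivity, ?_⟩
  intro θ B B' h0 h1 hB hB'
  have hk : 0 < 1 - κ ^ 2 := by nlinarith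
  have b1 : B ^ 2 ≤ κ ^ 2 := by rw [← sq_abs B]; exact pow_le_pow_left₀ (abs_nonneg _) hB 2
  have b1' : B' ^ 2 ≤ κ ^ 2 := by rw [← sq_abs B']; exact pow_le_pow_left₀ (abs_nonneg _) hB' 2
  have t2 : θ ^ 2 ≤ 1 := by nlinarith
  have c1 : 1 - κ ^ 2 ≤ 1 - θ ^ 2 * B ^ 2 := by nlinarith [sq_nonneg B, sq_nonneg θ]
  have c1' : 1 - κ ^ 2 ≤ 1 - θ ^ 2 * B' ^ 2 := by nlinarith [sq_nonneg B', sq_nonneg θ]
  have d1 : 0 < 1 - θ ^ 2 * B ^ 2 := by linarith
  have d1' : 0 < 1 - θ ^ 2 * B' ^ 2 := by linarith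
  have e : psi θ B - psi θ B' = (1 - θ ^ 2) * ((B' - B) * (B' + B)) /
      ((1 - θ ^ 2 * B ^ 2) * (1 - θ ^ 2 * B' ^ 2)) := by
    unfold psi
    rw [div_sub_div _ _ d1.ne' d1'.ne']
    congr 1
    ring
  rw [e, abs_div, abs_of_pos (mul_pos d1 d1'), abs_mul, abs_mul, div_le_iff₀ (mul_pos d1 d1')]
  have e2 : |1 - θ ^ 2| ≤ 1 := by rw [abs_le]; constructor <;> nlinarith [sq_nonneg θ]
  have e3 : |B' + B| ≤ 2 := by
    have := abs_add_le B' B
    linarith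
  have e4 : (1 - κ ^ 2) ^ 2 ≤ (1 - θ ^ 2 * B ^ 2) * (1 - θ ^ 2 * B' ^ 2) := by
    rw [sq]; exact mul_le_mul c1 c1' hk.le (by linarith)
  have e5 : |B' - B| = |B - B'| := abs_sub_comm _ _
  rw [e5]
  calc |1 - θ ^ 2| * (|B - B'| * |B' + B|) ≤ 1 * (|B - B'| * 2) := by
        apply mul_le_mul e2 _ (by positivity) (by norm_num)
        exact mul_le_mul_of_nonneg_left e3 (abs_nonneg _)
    _ = 2 / (1 - κ ^ 2) ^ 2 * |B - B'| * (1 - κ ^ 2) ^ 2 := by field_simp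
    _ ≤ _ := by
        apply mul_le_mul_of_nonneg_left e4
        positivity

theorem prod_diff_le (n : ℕ) (a a' : ℕ → ℝ) (h : ∀ i < n, 0 ≤ a i ∧ a i ≤ 1)
    (h' : ∀ i < n, 0 ≤ a' i ∧ a' i ≤ 1) :
    |∏ i ∈ Finset.range n, a i - ∏ i ∈ Finset.range n, a' i| ≤
      ∑ i ∈ Finset.range n, |a i - a' i| := by
  induction n with
  | zero => simp
  | succ n ih =>
    rw [Finset.prod_range_succ, Finset.prod_range_succ, Finset.sum_range_succ]
    have ih' := ih (fun i hi => h i (by omega)) (fun i hi => h' i (by omega))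
    have e : (∏ i ∈ Finset.range n, a i) * a n - (∏ i ∈ Finset.range n, a' i) * a' n =
        (∏ i ∈ Finset.range n, a i - ∏ i ∈ Finset.range n, a' i) * a n +
          (∏ i ∈ Finset.range n, a' i) * (a n - a' n) := by ring
    rw [e]
    refine (abs_add_le _ _).trans ?_
    rw [abs_mul, abs_mul]
    have g1 : |a n| ≤ 1 := by rw [abs_of_nonneg (h n (by omega)).1]; exact (h n (by omega)).2
    have g2 : |∏ i ∈ Finset.range n, a' i| ≤ 1 := by
      rw [Finset.abs_prod]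
      apply Finset.prod_le_one
      · intro i _; exact abs_nonneg _
      · intro i hi
        have := Finset.mem_range.1 hi
        rw [abs_of_nonneg (h' i (by omega)).1]; exact (h' i (by omega)).2
    have g3 : |∏ i ∈ Finset.range n, a i - ∏ i ∈ Finset.range n, a' i| * |a n| ≤
        (∑ i ∈ Finset.range n, |a i - a' i|) * 1 :=
      mul_le_mul ih' g1 (abs_nonneg _) (Finset.sum_nonneg (fun i _ => abs_nonneg _))
    have g4 : |∏ i ∈ Finset.range n, a' i| * |a n - a' n| ≤ 1 * |a n - a' n| :=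
      mul_le_mul_of_nonneg_right g2 (abs_nonneg _)
    linarith

/-- comparison of the covariances in two windows -/
theorem KW_lip [G.LocallyFinite] (hT : G.IsTree) (b : ℕ) (hb : 2 ≤ b)
    (hreg : G.IsRegularOfDegree (b + 1)) (k : ℕ) : ∃ C : ℝ, 0 < C ∧
    ∀ (θ : ℝ) (W W' : Finset V) (r : ℝ) (x : ℕ → V) (n : ℕ) (ω : Om V), 0 ≤ θ → b * θ ^ 2 ≤ 1 →
      Win G W → Win G W' → Geo G x n → (∀ i ≤ n, x i ∈ W) → (∀ i ≤ n, x i ∈ W') →
      |KW G θ W k r (x 0) (x n) ω - KW G θ W' k r (x 0) (x n) ω| ≤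
        C * θ ^ n * ∑ i ∈ Finset.range (n + 1), |MW G θ W k r (x i) ω - MW G θ W' k r (x i) ω| := by
  obtain ⟨hk0, hk1, -⟩ := kp_spec hT b hb hreg k
  obtain ⟨C1, hC1, hL⟩ := BB_lip hT b hb hreg k
  obtain ⟨C2, hC2, hP⟩ := psi_lip hk0 hk1
  refine ⟨2 + 2 * (C2 * C1), by positivity, ?_⟩
  intro θ W W' r x n ω h0 h1 hW hW' hx hxW hxW'
  have t1 : θ < 1 := lt_one_of_sq hb h0 h1
  rw [KW_path hT θ h0 t1 W hW k r x n hx hxW ω, KW_path hT θ h0 t1 W' hW' k r x n hx hxW' ω]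
  rw [Finset.prod_mul_distrib, Finset.prod_mul_distrib, Finset.prod_const, Finset.card_range]
  set M := MW G θ W k r (x 0) ω with hM
  set M' := MW G θ W' k r (x 0) ω with hM'
  set P := ∏ i ∈ Finset.range n, psi θ (BB G θ W k r (x (i + 1)) (x i) ω) with hPd
  set P' := ∏ i ∈ Finset.range n, psi θ (BB G θ W' k r (x (i + 1)) (x i) ω) with hPd'
  set D : ℕ → ℝ := fun i => |MW G θ W k r (x i) ω - MW G θ W' k r (x i) ω| with hD
  have hD0 : ∀ i, 0 ≤ D i := fun i => abs_nonneg _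
  have q : ∀ i < n, 0 ≤ psi θ (BB G θ W k r (x (i + 1)) (x i) ω) ∧
      psi θ (BB G θ W k r (x (i + 1)) (x i) ω) ≤ 1 := fun i hi =>
    psi_bd h0 t1 (BB_sq_lt hT θ h0 t1 W hW k r (x (i + 1)) (x i) (hxW (i + 1) (by omega))
      (geo_adj hx i hi).symm ω)
  have q' : ∀ i < n, 0 ≤ psi θ (BB G θ W' k r (x (i + 1)) (x i) ω) ∧
      psi θ (BB G θ W' k r (x (i + 1)) (x i) ω) ≤ 1 := fun i hi =>
    psi_bd h0 t1 (BB_sq_lt hT θ h0 t1 W' hW' k r (x (i + 1)) (x i) (hxW' (i + 1) (by omega))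
      (geo_adj hx i hi).symm ω)
  have d1 : |P - P'| ≤ C2 * C1 * (2 * ∑ i ∈ Finset.range (n + 1), D i) := by
    refine (prod_diff_le n _ _ q q').trans ?_
    calc ∑ i ∈ Finset.range n, |psi θ (BB G θ W k r (x (i + 1)) (x i) ω) -
          psi θ (BB G θ W' k r (x (i + 1)) (x i) ω)|
        ≤ ∑ i ∈ Finset.range n, C2 * C1 * (D (i + 1) + D i) := by
          apply Finset.sum_le_sum
          intro i hi
          have hi' := Finset.mem_range.1 hi
          have hadj := geo_adj hx i hi'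
          refine (hP θ _ _ h0 t1
            (abs_BB_le hT b hb hreg k θ h0 h1 W hW r _ _ (hxW (i + 1) (by omega)) hadj.symm ω)
            (abs_BB_le hT b hb hreg k θ h0 h1 W' hW' r _ _ (hxW' (i + 1) (by omega)) hadj.symm ω)).trans ?_
          have := hL θ θ W W' r (x (i + 1)) (x i) ω h0 h1 h0 h1 hW hW' (hxW (i + 1) (by omega))
            (hxW i (by omega)) (hxW' (i + 1) (by omega)) (hxW' i (by omega)) hadj.symm
          rw [sub_self, abs_zero, add_zero] at this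
          rw [mul_assoc]
          exact mul_le_mul_of_nonneg_left this hC2.le
      _ = C2 * C1 * (∑ i ∈ Finset.range n, D (i + 1) + ∑ i ∈ Finset.range n, D i) := by
          rw [← Finset.mul_sum, Finset.sum_add_distrib]
      _ ≤ C2 * C1 * (2 * ∑ i ∈ Finset.range (n + 1), D i) := by
          apply mul_le_mul_of_nonneg_left _ (by positivity)
          have e1 : ∑ i ∈ Finset.range n, D (i + 1) ≤ ∑ i ∈ Finset.range (n + 1), D i := by
            rw [Finset.sum_range_succ' D n]; linarith [hD0 0]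
          have e2 : ∑ i ∈ Finset.range n, D i ≤ ∑ i ∈ Finset.range (n + 1), D i := by
            rw [Finset.sum_range_succ D n]; linarith [hD0 n]
          linarith
  have hMs : M ^ 2 < 1 := MW_sq_lt hT θ h0 t1 W hW k r (x 0) (hxW 0 (by omega)) ω
  have hMs' : M' ^ 2 < 1 := MW_sq_lt hT θ h0 t1 W' hW' k r (x 0) (hxW' 0 (by omega)) ω
  have hP0' : |P'| ≤ 1 := by
    rw [hPd', Finset.abs_prod]
    apply Finset.prod_le_one
    · intro i _; exact abs_nonneg _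
    · intro i hi
      have := Finset.mem_range.1 hi
      rw [abs_of_nonneg (q' i this).1]; exact (q' i this).2
  have hD0le : D 0 ≤ ∑ i ∈ Finset.range (n + 1), D i :=
    Finset.single_le_sum (f := D) (fun i _ => hD0 i) (Finset.mem_range.2 (by omega))
  have hm : |M ^ 2 - M' ^ 2| ≤ 2 * D 0 := by
    have : M ^ 2 - M' ^ 2 = (M + M') * (M - M') := by ring
    rw [this, abs_mul]
    apply mul_le_mul_of_nonneg_right _ (abs_nonneg _)
    have a1 : |M| ≤ 1 := ((sq_lt_one_iff_abs_lt_one M).1 hMs).le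
    have a1' : |M'| ≤ 1 := ((sq_lt_one_iff_abs_lt_one M').1 hMs').le
    have := abs_add_le M M'
    linarith
  have e : (1 - M ^ 2) * (θ ^ n * P) - (1 - M' ^ 2) * (θ ^ n * P') =
      θ ^ n * ((1 - M ^ 2) * (P - P') - (M ^ 2 - M' ^ 2) * P') := by ring
  rw [e, abs_mul, abs_of_nonneg (pow_nonneg h0 n)]
  have f1 : |(1 - M ^ 2) * (P - P') - (M ^ 2 - M' ^ 2) * P'| ≤
      1 * |P - P'| + |M ^ 2 - M' ^ 2| * 1 := by
    refine (abs_sub _ _).trans ?_
    rw [abs_mul, abs_mul]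
    apply add_le_add
    · apply mul_le_mul_of_nonneg_right _ (abs_nonneg _)
      rw [abs_le]; constructor <;> nlinarith [sq_nonneg M]
    · exact mul_le_mul_of_nonneg_left hP0' (abs_nonneg _)
  have f2 : |(1 - M ^ 2) * (P - P') - (M ^ 2 - M' ^ 2) * P'| ≤
      (2 + 2 * (C2 * C1)) * ∑ i ∈ Finset.range (n + 1), D i := by
    refine f1.trans ?_
    nlinarith
  calc θ ^ n * |(1 - M ^ 2) * (P - P') - (M ^ 2 - M' ^ 2) * P'|
      ≤ θ ^ n * ((2 + 2 * (C2 * C1)) * ∑ i ∈ Finset.range (n + 1), D i) :=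
        mul_le_mul_of_nonneg_left f2 (pow_nonneg h0 n)
    _ = _ := by ring

end SUB

end Crest.Agent.TI
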