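import Crest.Agent.TI_Defs

/-!
Row S0241, task TRb: geodesics and sides of edges
-/

set_option autoImplicit false
set_option linter.unusedSectionVars false
set_option linter.unusedVariables false

namespace Crest.Agent.TI

open MeasureTheory Filter Topology
open Crest.Agent.SRF (Lab lab)

section TR

variable {V : Type*} [DecidableEq V] {G : SimpleGraph V}

/-- a neighbour of `w` closer to `u` is unique -/
theorem closer_unique (hT : G.IsTree) {u w v v' : V} (h : G.Adj v w) (h' : G.Adj v' w)
    (hd : G.dist u w = G.dist u v + 1) (hd' : G.dist u w = G.dist u v' + 1) : v = v' := by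
  obtain ⟨p, hp, hpl⟩ := hT.connected.exists_path_of_dist u v
  obtain ⟨q, hq, hql⟩ := hT.connected.exists_path_of_dist u v'
  have h1 : (p.concat h).IsPath := by
    apply SimpleGraph.Walk.isPath_of_length_eq_dist
    rw [SimpleGraph.Walk.length_concat, hpl, hd]
  have h2 : (q.concat h').IsPath := by
    apply SimpleGraph.Walk.isPath_of_length_eq_dist
    rw [SimpleGraph.Walk.length_concat, hql, hd']
  have h3 : p.concat h = q.concat h' :=
    (hT.existsUnique_path u w).unique h1 h2
  have h4 := congrArg SimpleGraph.Walk.penultimate h3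
  simpa using h4

/-- a nearest-neighbour sequence realising the distance is a geodesic -/
theorem geo_of_dist (hT : G.IsTree) {x : ℕ → V} {n : ℕ} (hadj : ∀ i < n, G.Adj (x i) (x (i + 1)))
    (hd : G.dist (x 0) (x n) = n) : Geo G x n := by
  have hle : ∀ i k, i + k ≤ n → G.dist (x i) (x (i + k)) ≤ k := by
    intro i k
    induction k with
    | zero => intro _; simp
    | succ k ih =>
      intro hk
      have h1 := ih (by omega)
      have h2 : G.dist (x (i + k)) (x (i + k + 1)) = 1 :=
        SimpleGraph.dist_eq_one_iff_adj.mpr (hadj (i + k) (by omega))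
      have h3 := hT.connected.dist_triangle (u := x i) (v := x (i + k)) (w := x (i + k + 1))
      rw [← add_assoc]
      omega
  intro i j hij hj
  have h1 := hle i (j - i) (by omega)
  have h2 := hle 0 i (by omega)
  have h3 := hle j (n - j) (by omega)
  have e1 : i + (j - i) = j := by omega
  have e2 : j + (n - j) = n := by omega
  rw [e1] at h1
  rw [e2] at h3
  rw [zero_add] at h2
  have h4 := hT.connected.dist_triangle (u := x 0) (v := x i) (w := x n)
  have h5 := hT.connected.dist_triangle (u := x i) (v := x j) (w := x n)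
  omega

theorem geo_of_walk (hT : G.IsTree) {v u : V} (p : G.Walk v u) (hp : p.length = G.dist v u) :
    Geo G p.getVert p.length := by
  apply geo_of_dist hT
  · intro i hi
    exact p.adj_getVert_succ hi
  · rw [SimpleGraph.Walk.getVert_zero, SimpleGraph.Walk.getVert_length, hp]

theorem geo_exists (hT : G.IsTree) (v u : V) : ∃ x : ℕ → V, x 0 = v ∧ x (G.dist v u) = u ∧
    Geo G x (G.dist v u) := by
  obtain ⟨p, hp, hpl⟩ := hT.connected.exists_path_of_dist v u
  refine ⟨p.getVert, by simp, ?_, ?_⟩
  · rw [← hpl]; simp
  · rw [← hpl]; exact geo_of_walk hT p hpl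

theorem geo_rev {x : ℕ → V} {n : ℕ} (h : Geo G x n) : Geo G (fun i => x (n - i)) n := by
  intro i j hij hj
  have h1 := h (n - j) (n - i) (by omega) (by omega)
  simp only
  rw [SimpleGraph.dist_comm, h1]
  omega

theorem geo_shift {x : ℕ → V} {n : ℕ} (h : Geo G x n) (i m : ℕ) (him : i + m ≤ n) :
    Geo G (fun j => x (i + j)) m := by
  intro a b hab hb
  have h1 := h (i + a) (i + b) (by omega) (by omega)
  simp only
  rw [h1]
  omega

theorem geo_adj {x : ℕ → V} {n : ℕ} (h : Geo G x n) (i : ℕ) (hi : i < n) :
    G.Adj (x i) (x (i + 1)) := by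
  have h1 := h i (i + 1) (by omega) (by omega)
  rw [← SimpleGraph.dist_eq_one_iff_adj, h1]
  omega

/-- in a tree geodesics are unique -/
theorem geo_unique (hT : G.IsTree) {x y : ℕ → V} {n : ℕ} (hx : Geo G x n) (hy : Geo G y n)
    (h0 : x 0 = y 0) (hn : x n = y n) : ∀ i ≤ n, x i = y i := by
  have key : ∀ k, k ≤ n → x (n - k) = y (n - k) := by
    intro k
    induction k with
    | zero => intro _; simpa using hn
    | succ k ih =>
      intro hk
      have h1 := ih (by omega)
      have e : n - k = (n - (k + 1)) + 1 := by omega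
      have a1 := geo_adj hx (n - (k + 1)) (by omega)
      have a2 := geo_adj hy (n - (k + 1)) (by omega)
      rw [← e] at a1 a2
      rw [← h1] at a2
      apply closer_unique hT (u := x 0) a1 a2
      · rw [hx 0 (n - k) (by omega) (by omega), hx 0 (n - (k + 1)) (by omega) (by omega)]
        omega
      · rw [hx 0 (n - k) (by omega) (by omega), h0, hy 0 (n - (k + 1)) (by omega) (by omega)]
        omega
  intro i hi
  have := key (n - i) (by omega)
  have e : n - (n - i) = i := by omega
  rwa [e] at this

/-- every vertex is strictly closer to one endpoint of each edge, by exactly one -/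
theorem dist_edge (hT : G.IsTree) {x y : V} (h : G.Adj x y) (w : V) :
    G.dist w y = G.dist w x + 1 ∨ G.dist w x = G.dist w y + 1 :=
  (hT.dist_eq_dist_add_one_of_adj w h).symm

/-- a geodesic of a tree followed by a step that does not go back is a geodesic -/
theorem geo_extend (hT : G.IsTree) {x : ℕ → V} {n : ℕ} (hx : Geo G x n) (hadj : G.Adj (x n) (x (n + 1)))
    (hne : n = 0 ∨ x (n + 1) ≠ x (n - 1)) : Geo G x (n + 1) := by
  apply geo_of_dist hT
  · intro i hi
    rcases Nat.lt_succ_iff_lt_or_eq.mp hi with h | h
    · exact geo_adj hx i h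
    · subst h; exact hadj
  · rcases Nat.eq_zero_or_pos n with hn | hn
    · subst hn
      simpa using hadj
    · have h0 : G.dist (x 0) (x n) = n := by
        rw [hx 0 n (by omega) le_rfl]; omega
      rcases dist_edge hT hadj (x 0) with h1 | h1
      · rw [h1, h0]
      · exfalso
        rcases hne with h | h
        · omega
        · apply h
          have a1 := geo_adj hx (n - 1) (by omega)
          have e : n - 1 + 1 = n := by omega
          rw [e] at a1
          apply closer_unique hT (u := x 0) hadj.symm a1 h1
          rw [h0, hx 0 (n - 1) (by omega) (by omega)]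
          omega

/-- windows are convex -/
theorem win_geo (hT : G.IsTree) {W : Finset V} (hW : Win G W) {x : ℕ → V} {n : ℕ} (hx : Geo G x n)
    (h0 : x 0 ∈ W) (hn : x n ∈ W) : ∀ i ≤ n, x i ∈ W := by
  unfold Win at hW
  obtain ⟨p, hp, -⟩ := hW.exists_path_of_dist (⟨x 0, h0⟩ : (W : Set V)) ⟨x n, hn⟩
  let f : (G.induce (W : Set V)) ↪g G := SimpleGraph.Embedding.induce (W : Set V)
  let q : G.Walk (x 0) (x n) := p.map f.toHom
  have hq : q.IsPath := hp.map f.injective
  have hql : q.length = G.dist (x 0) (x n) := by
    obtain ⟨r, hr, hrl⟩ := hT.connected.exists_path_of_dist (x 0) (x n)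
    rw [(hT.existsUnique_path _ _).unique hq hr, hrl]
  have hdist : G.dist (x 0) (x n) = n := by
    rw [hx 0 n (by omega) le_rfl]; omega
  have hg := geo_of_walk hT q hql
  have hln : q.length = n := by rw [hql, hdist]
  intro i hi
  have hgn : Geo G q.getVert n := by
    have h := hg
    rwa [hln] at h
  have hqn : q.getVert n = x n := by
    have := q.getVert_length
    rwa [hln] at this
  have e1 := geo_unique hT hx hgn (by simp) hqn.symm i hi
  rw [e1]
  have : q.getVert i ∈ q.support := q.getVert_mem_support i
  have h2 : q.support = p.support.map f.toHom := SimpleGraph.Walk.support_map _ _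
  rw [h2, List.mem_map] at this
  obtain ⟨a, -, ha⟩ := this
  rw [← ha]
  exact a.2

theorem mem_sd_self {W : Finset V} {x y : V} (hx : x ∈ W) (h : G.Adj x y) : x ∈ sd G W x y := by
  unfold sd
  rw [Finset.mem_filter]
  refine ⟨hx, ?_⟩
  rw [SimpleGraph.dist_self, SimpleGraph.dist_eq_one_iff_adj.mpr h]
  omega

theorem reach_of_seq {S : Set V} {x : ℕ → V} {n : ℕ} (hadj : ∀ i < n, G.Adj (x i) (x (i + 1)))
    (hS : ∀ i ≤ n, x i ∈ S) :
    (G.induce S).Reachable ⟨x 0, hS 0 (Nat.zero_le _)⟩ ⟨x n, hS n le_rfl⟩ := by
  have key : ∀ k (hk : k ≤ n), (G.induce S).Reachable ⟨x 0, hS 0 (Nat.zero_le _)⟩ ⟨x k, hS k hk⟩ := by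
    intro k
    induction k with
    | zero => intro _; exact SimpleGraph.Reachable.refl _
    | succ k ih =>
      intro hk
      refine (ih (by omega)).trans (SimpleGraph.Adj.reachable ?_)
      simpa using hadj k (by omega)
  exact key n le_rfl

/-- both sides of an edge of a window are windows -/
theorem win_sd (hT : G.IsTree) {W : Finset V} (hW : Win G W) {x y : V} (hx : x ∈ W)
    (h : G.Adj x y) : Win G (sd G W x y) := by
  have hxs := mem_sd_self (W := W) hx h
  have key : ∀ w (hw : w ∈ sd G W x y),
      (G.induce ((sd G W x y : Finset V) : Set V)).Reachable ⟨w, hw⟩ ⟨x, hxs⟩ := by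
    intro w hw
    have hw' := hw
    unfold sd at hw'
    rw [Finset.mem_filter] at hw'
    obtain ⟨hwW, hwd⟩ := hw'
    obtain ⟨z, hz0, hzn, hz⟩ := geo_exists hT w x
    have hmemW := win_geo hT hW hz (by rw [hz0]; exact hwW) (by rw [hzn]; exact hx)
    have hwy : G.dist w y = G.dist w x + 1 := by
      rcases dist_edge hT h w with h1 | h1 <;> omega
    have hmem : ∀ i ≤ G.dist w x, z i ∈ ((sd G W x y : Finset V) : Set V) := by
      intro i hi
      rw [Finset.mem_coe]
      unfold sd
      rw [Finset.mem_filter]
      refine ⟨hmemW i hi, ?_⟩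
      have h1 := hz 0 i (Nat.zero_le _) hi
      have h2 := hz i (G.dist w x) hi le_rfl
      rw [hz0] at h1
      rw [hzn] at h2
      have h3 := hT.connected.dist_triangle (u := w) (v := z i) (w := y)
      omega
    have := reach_of_seq (fun i hi => geo_adj hz i hi) hmem
    convert this using 2
    · exact hz0.symm
    · exact hzn.symm
  unfold Win
  have : Nonempty ((sd G W x y : Finset V) : Set V) := ⟨⟨x, hxs⟩⟩
  refine SimpleGraph.Connected.mk ?_
  intro a b
  exact (key a.1 a.2).trans (key b.1 b.2).symm

theorem sd_union (hT : G.IsTree) (W : Finset V) {x y : V} (h : G.Adj x y) :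
    sd G W x y ∪ sd G W y x = W := by
  ext w
  unfold sd
  rw [Finset.mem_union, Finset.mem_filter, Finset.mem_filter]
  constructor
  · rintro (h1 | h1) <;> exact h1.1
  · intro hw
    rcases dist_edge hT h w with h1 | h1
    · left; exact ⟨hw, by omega⟩
    · right; exact ⟨hw, by omega⟩

theorem sd_disjoint (W : Finset V) (x y : V) : Disjoint (sd G W x y) (sd G W y x) := by
  rw [Finset.disjoint_left]
  intro w h1 h2
  unfold sd at h1 h2
  rw [Finset.mem_filter] at h1 h2
  omega

/-- the only edge between the two sides -/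
theorem sd_cross (hT : G.IsTree) {x y : V} (h : G.Adj x y) {w w' : V} (hw : G.dist w x < G.dist w y)
    (hw' : G.dist w' y < G.dist w' x) (hadj : G.Adj w w') : w = x ∧ w' = y := by
  have h1 : G.dist w y = G.dist w x + 1 := by
    rcases dist_edge hT h w with h1 | h1 <;> omega
  have h2 : G.dist w' x = G.dist w' y + 1 := by
    rcases dist_edge hT h w' with h1 | h1 <;> omega
  have h3 := dist_edge hT hadj x
  have h4 := dist_edge hT hadj y
  rw [SimpleGraph.dist_comm (u := x) (v := w), SimpleGraph.dist_comm (u := x) (v := w')] at h3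
  rw [SimpleGraph.dist_comm (u := y) (v := w), SimpleGraph.dist_comm (u := y) (v := w')] at h4
  have h5 : G.dist w' y = G.dist w x := by omega
  rcases Nat.eq_zero_or_pos (G.dist w x) with h0 | h0
  · refine ⟨?_, ?_⟩
    · exact hT.connected.dist_eq_zero_iff.mp h0
    · exact hT.connected.dist_eq_zero_iff.mp (h5.trans h0)
  · exfalso
    -- the neighbour of `x` towards `w`
    obtain ⟨z, hz0, hzn, hz⟩ := geo_exists hT x w
    have hdc : G.dist x w = G.dist w x := SimpleGraph.dist_comm
    have ha := geo_adj hz 0 (by omega)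
    rw [hz0] at ha
    simp only [zero_add] at ha
    have hz1 : G.dist (z 1) w = G.dist x w - 1 := by
      have := hz 1 (G.dist x w) (by omega) le_rfl
      rwa [hzn] at this
    have hw1 : G.dist w (z 1) = G.dist w x - 1 := by
      rw [SimpleGraph.dist_comm, hz1, hdc]
    have h6 := hT.connected.dist_triangle (u := w') (v := w) (w := z 1)
    have h7 : G.dist w' w = 1 := SimpleGraph.dist_eq_one_iff_adj.mpr hadj.symm
    have h8 : G.dist w' x = G.dist w' (z 1) + 1 := by
      rcases dist_edge hT ha w' with h9 | h9
      · omega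
      · exact h9
    have h9 : y = z 1 := closer_unique hT h.symm ha.symm h2 h8
    rw [← h9] at hw1
    omega

/-- nested sides along a non-backtracking path -/
theorem sd_sd (hT : G.IsTree) (W : Finset V) {x y z : V} (hxy : G.Adj x y) (hyz : G.Adj y z)
    (hne : z ≠ x) : sd G (sd G W y x) z y = sd G W z y := by
  ext w
  unfold sd
  rw [Finset.mem_filter, Finset.mem_filter, Finset.mem_filter]
  constructor
  · rintro ⟨⟨h1, h2⟩, h3⟩
    exact ⟨h1, h3⟩
  · rintro ⟨h1, h3⟩
    refine ⟨⟨h1, ?_⟩, h3⟩
    rcases dist_edge hT hxy w with h4 | h4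
    · exfalso
      apply hne
      have h5 : G.dist w y = G.dist w z + 1 := by
        rcases dist_edge hT hyz w with h6 | h6 <;> omega
      exact closer_unique hT hyz.symm hxy h5 h4
    · omega

end TR

end Crest.Agent.TI
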